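import Mathlib

/-!
# Row 272, A-AJ: frozen definitions (helper956)

`Cur C` : a compact Riemann surface `C` with hyperelliptic involution `iv` and a basis `ω = (ω₀, ω₁)` of
differentials, given by local primitives `G c` in charts `k c` centred at every point `c`; the canonical
map `[ω₀ : ω₁]` is the quotient by `iv`, simply ramified (genus two).

`NearE 𝒞 N U` : the function `U = ∫_{iv y'}^{y} ω` near `Γ = {(c, iv c)}` in `C × C`.

`IsJac 𝒞 Λ q π` : the Abel-Jacobi description of `A = (C × C)/(swap, Γ ↦ pt)` as `ℂ² / Λ`.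
-/

set_option autoImplicit false
set_option linter.unusedSectionVars false
set_option linter.unusedVariables false

open Set Filter Topology Metric

noncomputable section

namespace Crest.Agent.R272.AJ_956

/-- `ℂ²` (frozen shape `Fin 2 → ℂ`) -/
abbrev E2 : Type := Fin 2 → ℂ

/-- determinant of two vectors -/
def det2 (u v : E2) : ℂ := u 0 * v 1 - u 1 * v 0

/-- genus two curve with its canonical differentials, by local primitives -/
structure Cur (C : Type) [TopologicalSpace C] where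
  iv : C → C
  iv_cont : Continuous iv
  iv_iv : ∀ c, iv (iv c) = c
  /-- a chart centred at every point -/
  k : C → OpenPartialHomeomorph C ℂ
  k_mem : ∀ c, c ∈ (k c).source
  k_zero : ∀ c, k c c = 0
  /-- transition functions are holomorphic -/
  k_an : ∀ c c' x, x ∈ (k c).source → x ∈ (k c').source →
    AnalyticAt ℂ (fun z => k c' ((k c).symm z)) (k c x)
  /-- the involution is holomorphic -/
  iv_an : ∀ c, AnalyticAt ℂ (fun z => k (iv c) (iv ((k c).symm z))) 0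
  /-- primitive of `ω` in the chart `k c` -/
  G : C → ℂ → E2
  G_an : ∀ c, AnalyticOnNhd ℂ (G c) (k c).target
  G_zero : ∀ c, G c 0 = 0
  /-- the primitives differ by local constants -/
  compat : ∀ c c' x, x ∈ (k c).source → x ∈ (k c').source →
    ∀ᶠ y in 𝓝 x, G c' (k c' y) - G c (k c y) = G c' (k c' x) - G c (k c x)
  /-- `iv^* ω = - ω` -/
  anti : ∀ c, ∀ᶠ y in 𝓝 c, G (iv c) (k (iv c) (iv y)) = - G c (k c y)
  /-- the slopes of `ω` at `c`, `c'` are different unless `c' ∈ {c, iv c}` -/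
  nd2 : ∀ c c', c' ≠ c → c' ≠ iv c → det2 (deriv (G c) 0) (deriv (G c') 0) ≠ 0
  /-- the slope is a local coordinate off the Weierstrass points -/
  nd : ∀ c, iv c ≠ c → det2 (deriv (G c) 0) (deriv (deriv (G c)) 0) ≠ 0
  /-- Weierstrass points -/
  odd : ∀ c, iv c = c → ∀ᶠ y in 𝓝 c, k c (iv y) = - k c y
  nd3 : ∀ c, iv c = c → det2 (deriv (G c) 0) (deriv (deriv (deriv (G c))) 0) ≠ 0

namespace Cur

variable {C : Type} [TopologicalSpace C] (𝒞 : Cur C)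

/-- the primitive of `ω` near `c`, vanishing at `c`, as a function on `C` -/
def P (c y : C) : E2 := 𝒞.G c (𝒞.k c y)

/-- the value of `ω` at `c` (in the chart `k c`) -/
def w (c : C) : E2 := deriv (𝒞.G c) 0

/-- the graph of the involution -/
def Gam : Set (C × C) := {x | x.2 = 𝒞.iv x.1}

/-- locally primitive: `f` is locally `∫ω + ∫ω + const` -/
def LP (f : C × C → E2) (N : Set (C × C)) : Prop :=
  ∀ x ∈ N, ∀ᶠ y in 𝓝 x, f y = f x + (𝒞.P x.1 y.1 + 𝒞.P x.2 y.2)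

/-- slope function `U_{1-i} / U_i`, extended to `Γ` by the slope of `ω` -/
def TT (U : C × C → E2) (i : Fin 2) (x : C × C) : ℂ :=
  open Classical in
  if x ∈ 𝒞.Gam then 𝒞.w x.1 (1 - i) / 𝒞.w x.1 i else U x (1 - i) / U x i

/-- **(K1)** -/
structure NearE (N : Set (C × C)) (U : C × C → E2) : Prop where
  open_N : IsOpen N
  sub : 𝒞.Gam ⊆ N
  swap_N : ∀ x ∈ N, x.swap ∈ N
  lp : 𝒞.LP U N
  /-- explicit form near `Γ` -/
  near : ∀ c, ∀ᶠ x in 𝓝 ((c, 𝒞.iv c) : C × C), U x = 𝒞.P c x.1 - 𝒞.P c (𝒞.iv x.2)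
  swap : ∀ x ∈ N, U x.swap = U x
  zero : ∀ x ∈ N, (U x = 0 ↔ x ∈ 𝒞.Gam)
  inj : ∀ x ∈ N, ∀ x' ∈ N, U x = U x' → U x ≠ 0 → x' = x ∨ x' = x.swap
  /-- small neighbourhoods of `Γ` are neighbourhoods `U⁻¹ (ball)` -/
  small : ∀ O : Set (C × C), IsOpen O → 𝒞.Gam ⊆ O → ∃ δ > 0,
    (∀ x ∈ N, ‖U x‖ < δ → x ∈ O) ∧ ball (0 : E2) δ ⊆ U '' (N ∩ O)
  /-- holomorphic coordinates `(TT i, U_i)` at `(c, iv c)`, `c` not a Weierstrass point -/
  coord : ∀ c i, 𝒞.iv c ≠ c → 𝒞.w c i ≠ 0 → ∃ (F : ℂ × ℂ → ℂ × ℂ) (F' : (ℂ × ℂ) ≃L[ℂ] (ℂ × ℂ)),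
    AnalyticAt ℂ F 0 ∧ HasFDerivAt F (F' : (ℂ × ℂ) →L[ℂ] (ℂ × ℂ)) 0 ∧
      ∀ᶠ x in 𝓝 ((c, 𝒞.iv c) : C × C),
        (𝒞.TT U i x, U x i) = F (𝒞.k c x.1, 𝒞.k (𝒞.iv c) x.2)
  /-- holomorphic coordinates `(TT i, U_i)` on the symmetric square at a Weierstrass point -/
  coordW : ∀ c i, 𝒞.iv c = c → 𝒞.w c i ≠ 0 → ∃ (F : ℂ × ℂ → ℂ × ℂ) (F' : (ℂ × ℂ) ≃L[ℂ] (ℂ × ℂ)),
    AnalyticAt ℂ F 0 ∧ HasFDerivAt F (F' : (ℂ × ℂ) →L[ℂ] (ℂ × ℂ)) 0 ∧
      ∀ᶠ x in 𝓝 ((c, c) : C × C),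
        (𝒞.TT U i x, U x i) = F (𝒞.k c x.1 + 𝒞.k c x.2, (𝒞.k c x.1 - 𝒞.k c x.2) ^ 2)

/-- fibres of `q : C × C → A`: orbits of the swap off `Γ`, and `Γ` -/
structure IsQ {A : Type} [TopologicalSpace A] (q : C × C → A) : Prop where
  cont : Continuous q
  surj : Function.Surjective q
  fib : ∀ x x', q x = q x' ↔ x' = x ∨ x' = x.swap ∨ (x ∈ 𝒞.Gam ∧ x' ∈ 𝒞.Gam)

/-- **(K2)** `A = ℂ² / Λ`, and `q` is the Abel-Jacobi map -/
structure IsJac {A : Type} [TopologicalSpace A] (q : C × C → A) (Λ : AddSubgroup E2)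
    (π : E2 → A) : Prop where
  cont : Continuous π
  open_map : IsOpenMap π
  surj : Function.Surjective π
  cov : IsCoveringMap π
  eq_iff : ∀ z w, π z = π w ↔ z - w ∈ Λ
  disc : DiscreteTopology Λ
  span : Submodule.span ℝ (Λ : Set E2) = ⊤
  zero : ∀ c, π 0 = q (c, 𝒞.iv c)
  /-- the Abel-Jacobi formula near every point of `C × C` -/
  loc : ∀ (x : C × C) (z₀ : E2), π z₀ = q x →
    ∀ᶠ y in 𝓝 x, q y = π (z₀ + (𝒞.P x.1 y.1 + 𝒞.P x.2 y.2))
  /-- compatibility with `(K1)` -/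
  near : ∀ (N : Set (C × C)) (U : C × C → E2), 𝒞.NearE N U → ∀ᶠ x in 𝓝ˢ 𝒞.Gam, q x = π (U x)

end Cur

end Crest.Agent.R272.AJ_956
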