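import Crest.Agent.R266.SCV

/-!
# Row 272, A-AJ: local analysis near the hyperelliptic fibre (helper956)

* `even_descent` : `f (d, s)` analytic near `0` and even in `d` is `h (d ^ 2, s)`, `h` analytic near `0`.
* `exists_divdiff` : `G t - G t' = (t - t') • V (t, t')`, `V` analytic near `0`.
-/

set_option autoImplicit false
set_option linter.unusedSectionVars false
set_option linter.unusedVariables false

open Set Filter Topology Metric Complex MeasureTheory
open scoped Real ContDiff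

noncomputable section

namespace Crest.Agent.R272.AJa_956

variable {F : Type*} [NormedAddCommGroup F] [NormedSpace ℂ F] [CompleteSpace F]

/-- Even functions descend. -/
theorem even_descent {f : ℂ × ℂ → F} (hf : AnalyticAt ℂ f 0)
    (hev : ∀ᶠ p in 𝓝 (0 : ℂ × ℂ), f (-p.1, p.2) = f p) :
    ∃ h : ℂ × ℂ → F, AnalyticAt ℂ h 0 ∧ ∀ᶠ p in 𝓝 (0 : ℂ × ℂ), f p = h (p.1 ^ 2, p.2) := by
  obtain ⟨ρ, hρ, hb⟩ := Metric.eventually_nhds_iff_ball.1 (hf.eventually_analyticAt.and hev)
  set r : ℝ := ρ / 2 with hr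
  have hr0 : 0 < r := by positivity
  have hrρ : r < ρ := by rw [hr]; linarith
  have hmem : ∀ z s : ℂ, ‖z‖ < ρ → ‖s‖ < ρ → ((z, s) : ℂ × ℂ) ∈ ball (0 : ℂ × ℂ) ρ := by
    intro z s hz hs
    rw [mem_ball_zero_iff, Prod.norm_def]
    exact max_lt hz hs
  -- the integrand
  let g : (ℂ × ℂ) × ℝ → F := fun q =>
    (circleMap 0 r q.2 * I * (circleMap 0 r q.2 / ((circleMap 0 r q.2) ^ 2 - q.1.1))) •
      f (circleMap 0 r q.2, q.1.2)
  let U : Set (ℂ × ℂ) := {p | ‖p.1‖ < r ^ 2 ∧ ‖p.2‖ < ρ}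
  have hU : IsOpen U := by
    apply IsOpen.and
    · exact isOpen_lt (by fun_prop) continuous_const
    · exact isOpen_lt (by fun_prop) continuous_const
  have hnorm : ∀ θ : ℝ, ‖circleMap 0 r θ‖ = r := by
    intro θ
    rw [norm_circleMap_zero, abs_of_pos hr0]
  have hden : ∀ p ∈ U, ∀ θ : ℝ, (circleMap 0 r θ) ^ 2 - p.1 ≠ 0 := by
    intro p hp θ h0
    have h1 : (circleMap 0 r θ) ^ 2 = p.1 := sub_eq_zero.1 h0
    have h2 : ‖(circleMap 0 r θ) ^ 2‖ = r ^ 2 := by rw [norm_pow, hnorm]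
    rw [h1] at h2
    exact absurd h2 (ne_of_lt hp.1)
  have hfan : ∀ p ∈ U, ∀ θ : ℝ, AnalyticAt ℂ f (circleMap 0 r θ, p.2) := by
    intro p hp θ
    exact (hb _ (hmem _ _ (by rw [hnorm]; exact hrρ) hp.2)).1
  have hgc : ContinuousOn g (U ×ˢ uIcc 0 (2 * π)) := by
    intro q hq
    apply ContinuousAt.continuousWithinAt
    have hc : ContinuousAt (fun q : (ℂ × ℂ) × ℝ => circleMap 0 r q.2) q :=
      ((continuous_circleMap 0 r).comp continuous_snd).continuousAt
    refine ContinuousAt.smul ?_ ?_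
    · refine ContinuousAt.mul (hc.mul continuousAt_const) (hc.div ?_ (hden _ hq.1 _))
      exact (hc.pow 2).sub (by fun_prop)
    · have h1 : ContinuousAt f (circleMap 0 r q.2, q.1.2) := (hfan _ hq.1 _).continuousAt
      have h2 : ContinuousAt (fun q : (ℂ × ℂ) × ℝ => ((circleMap 0 r q.2, q.1.2) : ℂ × ℂ)) q :=
        hc.prodMk (by fun_prop)
      exact ContinuousAt.comp (g := f) h1 h2
  have hgd : ∀ t ∈ uIcc 0 (2 * π), DifferentiableOn ℂ (fun x => g (x, t)) U := by
    intro θ _ p hp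
    apply DifferentiableAt.differentiableWithinAt
    show DifferentiableAt ℂ (fun x : ℂ × ℂ => (circleMap 0 r θ * I * (circleMap 0 r θ /
      ((circleMap 0 r θ) ^ 2 - x.1))) • f (circleMap 0 r θ, x.2)) p
    refine DifferentiableAt.smul ?_ ?_
    · refine DifferentiableAt.mul (differentiableAt_const _) ?_
      have hdp : (circleMap 0 r θ) ^ 2 - p.1 ≠ 0 := hden p hp θ
      have h3 : DifferentiableAt ℂ (fun x : ℂ × ℂ => (circleMap 0 r θ) ^ 2 - x.1) p := by fun_prop
      have h4 : DifferentiableAt ℂ (fun x : ℂ × ℂ => ((circleMap 0 r θ) ^ 2 - x.1)⁻¹) p := h3.inv hdp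
      simp only [div_eq_mul_inv]
      exact (differentiableAt_const _).mul h4
    · have h1 : DifferentiableAt ℂ f (circleMap 0 r θ, p.2) := (hfan _ hp _).differentiableAt
      have h2 : DifferentiableAt ℂ (fun p : ℂ × ℂ => ((circleMap 0 r θ, p.2) : ℂ × ℂ)) p := by
        fun_prop
      exact DifferentiableAt.comp (g := f) p h1 h2
  have hint := Crest.Agent.R266.SCV.analyticOnNhd_intervalIntegral hU hgc hgd
  refine ⟨fun p => (2 * π * I : ℂ)⁻¹ • ∫ θ in (0 : ℝ)..2 * π, g (p, θ), ?_, ?_⟩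
  · have h0 : (0 : ℂ × ℂ) ∈ U := ⟨by simpa using by positivity, by simpa using hρ⟩
    exact (hint 0 h0).const_smul
  · have hU' : ∀ᶠ p in 𝓝 (0 : ℂ × ℂ), ‖p.1‖ < r ∧ ‖p.2‖ < ρ := by
      have ho : IsOpen {p : ℂ × ℂ | ‖p.1‖ < r ∧ ‖p.2‖ < ρ} := by
        apply IsOpen.and
        · exact isOpen_lt (by fun_prop) continuous_const
        · exact isOpen_lt (by fun_prop) continuous_const
      exact ho.mem_nhds ⟨by simpa using hr0, by simpa using hρ⟩
    filter_upwards [hU', hev] with p hp hevp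
    obtain ⟨hp1, hp2⟩ := hp
    -- Cauchy formula
    have hdiff : ∀ z ∈ closedBall (0 : ℂ) r, DifferentiableAt ℂ (fun z => f (z, p.2)) z := by
      intro z hz
      rw [mem_closedBall_zero_iff] at hz
      have h1 : DifferentiableAt ℂ f (z, p.2) :=
        (hb _ (hmem _ _ (lt_of_le_of_lt hz hrρ) hp2)).1.differentiableAt
      exact DifferentiableAt.comp (g := f) (f := fun z : ℂ => ((z, p.2) : ℂ × ℂ)) z h1 (by fun_prop)
    have hdc : DiffContOnCl ℂ (fun z => f (z, p.2)) (ball 0 r) := by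
      refine ⟨fun z hz => (hdiff z (ball_subset_closedBall hz)).differentiableWithinAt, ?_⟩
      rw [closure_ball _ hr0.ne']
      exact fun z hz => (hdiff z hz).continuousAt.continuousWithinAt
    have hC : ∀ w ∈ ball (0 : ℂ) r, f (w, p.2) =
        (2 * π * I : ℂ)⁻¹ • ∮ z in C(0, r), (z - w)⁻¹ • f (z, p.2) := by
      intro w hw
      exact (hdc.two_pi_i_inv_smul_circleIntegral_sub_inv_smul hw).symm
    have hw1 : p.1 ∈ ball (0 : ℂ) r := mem_ball_zero_iff.2 hp1
    have hw2 : -p.1 ∈ ball (0 : ℂ) r := mem_ball_zero_iff.2 (by rw [norm_neg]; exact hp1)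
    have e1 := hC _ hw1
    have e2 := hC _ hw2
    have hci : ∀ w ∈ ball (0 : ℂ) r, CircleIntegrable (fun z => (z - w)⁻¹ • f (z, p.2)) 0 r := by
      intro w hw
      refine ContinuousOn.circleIntegrable hr0.le ?_
      refine ContinuousOn.smul ?_ ?_
      · refine ContinuousOn.inv₀ (by fun_prop) ?_
        intro z hz h0
        have : z = w := sub_eq_zero.1 h0
        rw [this] at hz
        rw [mem_sphere] at hz
        rw [mem_ball] at hw
        linarith
      · exact fun z hz => (hdiff z (sphere_subset_closedBall hz)).continuousAt.continuousWithinAt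
    have e3 : f p = (2 : ℂ)⁻¹ • (f (p.1, p.2) + f (-p.1, p.2)) := by
      rw [hevp]
      have : f (p.1, p.2) = f p := rfl
      rw [this, ← two_smul ℂ (f p), smul_smul]
      norm_num
    rw [e3, e1, e2, ← smul_add, ← circleIntegral.integral_add (hci _ hw1) (hci _ hw2), smul_comm,
      ← circleIntegral.integral_smul]
    congr 1
    rw [circleIntegral]
    refine intervalIntegral.integral_congr (fun θ _ => ?_)
    simp only [g, deriv_circleMap]
    rw [← add_smul, smul_smul, smul_smul]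
    congr 1
    have hne1 : circleMap 0 r θ - p.1 ≠ 0 := by
      intro h0
      have : circleMap 0 r θ = p.1 := sub_eq_zero.1 h0
      rw [← this, hnorm] at hp1
      exact lt_irrefl _ hp1
    have hne2 : circleMap 0 r θ - -p.1 ≠ 0 := by
      intro h0
      have : circleMap 0 r θ = -p.1 := sub_eq_zero.1 h0
      have h2 : ‖-p.1‖ < r := by rw [norm_neg]; exact hp1
      rw [← this, hnorm] at h2
      exact lt_irrefl _ h2
    have hne3 : circleMap 0 r θ ^ 2 - p.1 ^ 2 ≠ 0 := by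
      have : circleMap 0 r θ ^ 2 - p.1 ^ 2 = (circleMap 0 r θ - p.1) * (circleMap 0 r θ - -p.1) := by
        ring
      rw [this]
      exact mul_ne_zero hne1 hne2
    field_simp
    ring

/-- Divided differences. -/
theorem exists_divdiff {G : ℂ → F} (hG : AnalyticAt ℂ G 0) :
    ∃ V : ℂ × ℂ → F, AnalyticAt ℂ V 0 ∧ ∀ᶠ p in 𝓝 (0 : ℂ × ℂ),
      G p.1 - G p.2 = (p.1 - p.2) • V p ∧ V (p.2, p.1) = V p ∧ V (p.1, p.1) = deriv G p.1 := by
  obtain ⟨r, hr, hb⟩ := Metric.eventually_nhds_iff_ball.1 hG.eventually_analyticAt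
  let g : (ℂ × ℂ) × ℝ → F := fun q => deriv G (q.1.2 + (q.2 : ℂ) * (q.1.1 - q.1.2))
  have hseg : ∀ p ∈ ball (0 : ℂ × ℂ) r, ∀ s ∈ Icc (0 : ℝ) 1,
      p.2 + (s : ℂ) * (p.1 - p.2) ∈ ball (0 : ℂ) r := by
    intro p hp s hs
    rw [mem_ball_zero_iff, Prod.norm_def, max_lt_iff] at hp
    have h1 : p.1 ∈ ball (0 : ℂ) r := mem_ball_zero_iff.2 hp.1
    have h2 : p.2 ∈ ball (0 : ℂ) r := mem_ball_zero_iff.2 hp.2
    have h3 := (convex_ball (0 : ℂ) r) h2 h1 (a := 1 - s) (b := s) (by linarith [hs.2]) hs.1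
      (by ring)
    convert h3 using 1
    simp only [Complex.real_smul]
    push_cast
    ring
  have hIcc : uIcc (0 : ℝ) 1 = Icc 0 1 := uIcc_of_le zero_le_one
  have hda : ∀ z ∈ ball (0 : ℂ) r, AnalyticAt ℂ (deriv G) z := fun z hz => (hb z hz).deriv
  have hgc : ContinuousOn g (ball (0 : ℂ × ℂ) r ×ˢ uIcc 0 1) := by
    intro q hq
    apply ContinuousAt.continuousWithinAt
    rw [hIcc] at hq
    have h1 : ContinuousAt (deriv G) (q.1.2 + (q.2 : ℂ) * (q.1.1 - q.1.2)) :=
      (hda _ (hseg _ hq.1 _ hq.2)).continuousAt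
    have h2 : ContinuousAt (fun q : (ℂ × ℂ) × ℝ => q.1.2 + (q.2 : ℂ) * (q.1.1 - q.1.2)) q := by
      fun_prop
    exact ContinuousAt.comp (g := deriv G) h1 h2
  have hgd : ∀ t ∈ uIcc (0 : ℝ) 1, DifferentiableOn ℂ (fun x => g (x, t)) (ball (0 : ℂ × ℂ) r) := by
    intro s hs p hp
    rw [hIcc] at hs
    apply DifferentiableAt.differentiableWithinAt
    have h1 : DifferentiableAt ℂ (deriv G) (p.2 + (s : ℂ) * (p.1 - p.2)) :=
      (hda _ (hseg _ hp _ hs)).differentiableAt
    have h2 : DifferentiableAt ℂ (fun p : ℂ × ℂ => p.2 + (s : ℂ) * (p.1 - p.2)) p := by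
      fun_prop
    exact DifferentiableAt.comp (g := deriv G) p h1 h2
  have hint := Crest.Agent.R266.SCV.analyticOnNhd_intervalIntegral isOpen_ball hgc hgd
  refine ⟨fun p => ∫ s in (0 : ℝ)..1, g (p, s), hint 0 (mem_ball_self hr), ?_⟩
  filter_upwards [ball_mem_nhds (0 : ℂ × ℂ) hr] with p hp
  refine ⟨?_, ?_, ?_⟩
  · have hder : ∀ s ∈ uIcc (0 : ℝ) 1, HasDerivAt
        (fun s : ℝ => G (p.2 + (s : ℂ) * (p.1 - p.2))) ((p.1 - p.2) • g (p, s)) s := by
      intro s hs
      rw [hIcc] at hs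
      have h1 : HasDerivAt G (deriv G (p.2 + (s : ℂ) * (p.1 - p.2))) (p.2 + (s : ℂ) * (p.1 - p.2)) :=
        (hb _ (hseg _ hp _ hs)).differentiableAt.hasDerivAt
      have h2 : HasDerivAt (fun s : ℝ => p.2 + (s : ℂ) * (p.1 - p.2)) (p.1 - p.2) s := by
        have := ((Complex.ofRealCLM.hasDerivAt (x := s)).mul_const (p.1 - p.2)).const_add p.2
        simpa using this
      exact h1.scomp s h2
    have hcont : ContinuousOn (fun s : ℝ => (p.1 - p.2) • g (p, s)) (uIcc 0 1) := by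
      refine ContinuousOn.const_smul ?_ _
      exact hgc.comp (f := fun s : ℝ => ((p, s) : (ℂ × ℂ) × ℝ)) (by fun_prop) fun s hs => ⟨hp, hs⟩
    have := intervalIntegral.integral_eq_sub_of_hasDerivAt hder hcont.intervalIntegrable
    rw [intervalIntegral.integral_smul] at this
    rw [this]
    simp
  · have h1 := intervalIntegral.integral_comp_sub_left (a := (0 : ℝ)) (b := 1)
      (fun s => g (p, s)) (1 : ℝ)
    simp only [sub_zero, sub_self] at h1
    show ∫ s in (0 : ℝ)..1, g ((p.2, p.1), s) = ∫ s in (0 : ℝ)..1, g (p, s)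
    rw [← h1]
    refine intervalIntegral.integral_congr (fun s _ => ?_)
    simp only [g]
    congr 1
    push_cast
    ring
  · show ∫ s in (0 : ℝ)..1, g ((p.1, p.1), s) = _
    simp [g]

end Crest.Agent.R272.AJa_956
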