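import Crest.Agent.R272.AJDefs_956
import Crest.Agent.R272.AJa_956

/-!
# Row 272, A-AJ: local coordinates (germs), helper956
-/

set_option autoImplicit false
set_option linter.unusedSectionVars false
set_option linter.unusedVariables false

open Set Filter Topology Metric Complex
open Crest.Agent.R272.AJ_956 Crest.Agent.R272.AJa_956

noncomputable section

namespace Crest.Agent.R272.AJb_956

theorem exists_equiv_of_injective {F : Type*} [NormedAddCommGroup F] [NormedSpace ℂ F]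
    [FiniteDimensional ℂ F] (hF : Module.finrank ℂ F = 2) (L : (ℂ × ℂ) →L[ℂ] F)
    (h : ∀ v, L v = 0 → v = 0) : ∃ L' : (ℂ × ℂ) ≃L[ℂ] F, (L' : (ℂ × ℂ) →L[ℂ] F) = L := by
  have hinj : Function.Injective (L : (ℂ × ℂ) →ₗ[ℂ] F) := by
    rw [injective_iff_map_eq_zero]
    exact h
  have hfr : Module.finrank ℂ (ℂ × ℂ) = Module.finrank ℂ F := by
    rw [hF]; simp
  refine ⟨(LinearEquiv.ofInjectiveOfFinrankEq _ hinj hfr).toContinuousLinearEquiv, ?_⟩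
  rfl

theorem exists_equiv_pair (L : (ℂ × ℂ) →L[ℂ] (ℂ × ℂ)) (v1 v2 : ℂ × ℂ)
    (hspan : ∀ v : ℂ × ℂ, ∃ α β : ℂ, v = α • v1 + β • v2) (h1 : (L v1).2 = 0)
    (h1' : (L v1).1 ≠ 0) (h2 : (L v2).2 ≠ 0) :
    ∃ L' : (ℂ × ℂ) ≃L[ℂ] (ℂ × ℂ), (L' : (ℂ × ℂ) →L[ℂ] (ℂ × ℂ)) = L := by
  refine exists_equiv_of_injective (by simp) L ?_
  intro v hv
  obtain ⟨α, β, rfl⟩ := hspan v
  rw [map_add, map_smul, map_smul] at hv
  have e2 := congrArg Prod.snd hv
  simp only [Prod.snd_add, Prod.smul_snd, h1, smul_zero, zero_add, Prod.snd_zero, smul_eq_mul] at e2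
  have hβ : β = 0 := by
    have e2' : β * (L v2).2 = 0 := by simpa [h1] using e2
    exact (mul_eq_zero.1 e2').resolve_right h2
  subst hβ
  have e1 := congrArg Prod.fst hv
  simp only [zero_smul, add_zero, Prod.smul_fst, Prod.fst_zero, smul_eq_mul] at e1
  have hα : α = 0 := (mul_eq_zero.1 e1).resolve_right h1'
  subst hα
  simp

theorem exists_equiv_E2 (L : (ℂ × ℂ) →L[ℂ] E2) (h : det2 (L (1, 0)) (L (0, 1)) ≠ 0) :
    ∃ L' : (ℂ × ℂ) ≃L[ℂ] E2, (L' : (ℂ × ℂ) →L[ℂ] E2) = L := by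
  refine exists_equiv_of_injective (by simp) L ?_
  intro v hv
  have e : v = v.1 • ((1, 0) : ℂ × ℂ) + v.2 • ((0, 1) : ℂ × ℂ) := by
    ext <;> simp
  rw [e, map_add, map_smul, map_smul] at hv
  have e0 := congrFun hv 0
  have e1 := congrFun hv 1
  simp only [Pi.add_apply, Pi.smul_apply, smul_eq_mul, Pi.zero_apply] at e0 e1
  have k1 : v.1 * det2 (L (1, 0)) (L (0, 1)) = 0 := by
    unfold det2
    linear_combination (L (0, 1) 1) * e0 - (L (0, 1) 0) * e1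
  have k2 : v.2 * det2 (L (1, 0)) (L (0, 1)) = 0 := by
    unfold det2
    linear_combination (L (1, 0) 0) * e1 - (L (1, 0) 1) * e0
  have h1 := (mul_eq_zero.1 k1).resolve_right h
  have h2 := (mul_eq_zero.1 k2).resolve_right h
  ext
  · simpa using h1
  · simpa using h2

/-- second derivative of `m (d ^ 2)` -/
theorem deriv_of_sq {F : Type*} [NormedAddCommGroup F] [NormedSpace ℂ F] [CompleteSpace F]
    {m g : ℂ → F} (hm : AnalyticAt ℂ m 0) (h : ∀ᶠ d in 𝓝 (0 : ℂ), g d = m (d ^ 2)) :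
    deriv (deriv g) 0 = (2 : ℂ) • deriv m 0 := by
  have hc : ContinuousAt (fun d : ℂ => d ^ 2) 0 := by fun_prop
  have hm' : ∀ᶠ z in 𝓝 ((0 : ℂ) ^ 2), AnalyticAt ℂ m z := by
    rw [zero_pow two_ne_zero]; exact hm.eventually_analyticAt
  have h1 : ∀ᶠ d in 𝓝 (0 : ℂ), AnalyticAt ℂ m (d ^ 2) := hc.eventually hm'
  have h2 : ∀ᶠ d in 𝓝 (0 : ℂ), deriv g d = (2 * d) • deriv m (d ^ 2) := by
    filter_upwards [h.eventually_nhds, h1] with d hd hd1
    have e1 : deriv g d = deriv (fun d => m (d ^ 2)) d := by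
      apply Filter.EventuallyEq.deriv_eq
      exact hd
    rw [e1]
    have e2 : HasDerivAt (fun d : ℂ => d ^ 2) (2 * d) d := by
      simpa using hasDerivAt_pow 2 d
    exact (hd1.differentiableAt.hasDerivAt.scomp d e2).deriv
  rw [Filter.EventuallyEq.deriv_eq h2]
  have hdm : DifferentiableAt ℂ (deriv m) ((0 : ℂ) ^ 2) := by
    rw [zero_pow two_ne_zero]; exact hm.deriv.differentiableAt
  have e2 : HasDerivAt (fun d : ℂ => d ^ 2) (2 * 0) 0 := by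
    simpa using hasDerivAt_pow 2 (0 : ℂ)
  have e3 := hdm.hasDerivAt.scomp (0 : ℂ) e2
  have e4 : HasDerivAt (fun d : ℂ => 2 * d) 2 0 := by
    simpa using (hasDerivAt_id (0 : ℂ)).const_mul 2
  have e5 := e4.smul e3
  have e6 := e5.deriv
  have e7 : (fun d : ℂ => (2 * d) • deriv m (d ^ 2)) =
      ((fun d : ℂ => 2 * d) • (deriv m ∘ fun d : ℂ => d ^ 2)) := by
    funext d; simp
  rw [e7, e6]
  simp

theorem tend0 {X Y : Type*} [TopologicalSpace X] [Zero X] [TopologicalSpace Y] [Zero Y] {f : X → Y}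
    (hf : Continuous f) (h0 : f 0 = 0) : Tendsto f (𝓝 0) (𝓝 0) := by
  have := hf.tendsto 0
  rwa [h0] at this

theorem analytic_comp0 {X Y Z : Type*} [NormedAddCommGroup X] [NormedSpace ℂ X]
    [NormedAddCommGroup Y] [NormedSpace ℂ Y] [NormedAddCommGroup Z] [NormedSpace ℂ Z]
    {f : Y → Z} {g : X → Y} (hf : AnalyticAt ℂ f 0) (hg : AnalyticAt ℂ g 0) (h0 : g 0 = 0) :
    AnalyticAt ℂ (fun x => f (g x)) 0 := by
  have h2 : AnalyticAt ℂ f (g 0) := by rw [h0]; exact hf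
  exact h2.comp hg

theorem an_swap : AnalyticAt ℂ (fun p : ℂ × ℂ => ((p.2, p.1) : ℂ × ℂ)) 0 :=
  analyticAt_snd.prod analyticAt_fst

theorem an_half : AnalyticAt ℂ
    (fun q : ℂ × ℂ => (((q.2 + q.1) / 2, (q.1 - q.2) / 2) : ℂ × ℂ)) 0 := by
  refine AnalyticAt.prod ?_ ?_
  · exact (analyticAt_snd.add analyticAt_fst).div analyticAt_const two_ne_zero
  · exact (analyticAt_fst.sub analyticAt_snd).div analyticAt_const two_ne_zero

theorem det2_ratio {i : Fin 2} {u v : E2} (hu : u i ≠ 0) (h : det2 u v ≠ 0) :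
    (v (1 - i) * u i - u (1 - i) * v i) / (u i) ^ 2 ≠ 0 := by
  apply div_ne_zero _ (pow_ne_zero 2 hu)
  fin_cases i
  · simp only [det2] at h
    simpa [sub_eq_add_neg, mul_comm, add_comm] using h
  · simp only [det2] at h
    intro h0
    apply h
    simp only [Fin.mk_one, Fin.isValue, sub_self] at h0
    linear_combination (-1 : ℂ) * h0

theorem comp_apply_analytic {V : ℂ × ℂ → E2} {p : ℂ × ℂ} (hV : AnalyticAt ℂ V p) (i : Fin 2) :
    AnalyticAt ℂ (fun q => V q i) p :=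
  (ContinuousLinearMap.proj (R := ℂ) (φ := fun _ : Fin 2 => ℂ) i).analyticAt (V p) |>.comp hV

theorem comp_apply_analytic1 {V : ℂ → E2} {p : ℂ} (hV : AnalyticAt ℂ V p) (i : Fin 2) :
    AnalyticAt ℂ (fun q => V q i) p :=
  (ContinuousLinearMap.proj (R := ℂ) (φ := fun _ : Fin 2 => ℂ) i).analyticAt (V p) |>.comp hV

theorem hasDerivAt_apply {V : ℂ → E2} {V' : E2} {p : ℂ} (hV : HasDerivAt V V' p) (i : Fin 2) :
    HasDerivAt (fun q => V q i) (V' i) p := by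
  have := (hasDerivAt_pi.1 hV) i
  exact this

/-- the local coordinates near `(c, iv c)`, `c` not Weierstrass -/
theorem coordA {G : ℂ → E2} (hG : AnalyticAt ℂ G 0) (i : Fin 2) (hi : deriv G 0 i ≠ 0)
    (hnd : det2 (deriv G 0) (deriv (deriv G) 0) ≠ 0)
    {V : ℂ × ℂ → E2} (hV : AnalyticAt ℂ V 0)
    (hV3 : ∀ᶠ p in 𝓝 (0 : ℂ × ℂ), V (p.1, p.1) = deriv G p.1) :
    AnalyticAt ℂ (fun p : ℂ × ℂ => ((V p (1 - i) / V p i, (p.1 - p.2) * V p i) : ℂ × ℂ)) 0 ∧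
    ∃ L' : (ℂ × ℂ) ≃L[ℂ] (ℂ × ℂ), HasFDerivAt
      (fun p : ℂ × ℂ => ((V p (1 - i) / V p i, (p.1 - p.2) * V p i) : ℂ × ℂ))
      (L' : (ℂ × ℂ) →L[ℂ] (ℂ × ℂ)) 0 := by
  have hdiag : ∀ᶠ t in 𝓝 (0 : ℂ), V (t, t) = deriv G t := by
    have hc : ContinuousAt (fun t : ℂ => ((t, t) : ℂ × ℂ)) 0 := by fun_prop
    exact hc.eventually hV3
  have hV0 : V 0 = deriv G 0 := hdiag.self_of_nhds
  have hVi : V 0 i ≠ 0 := by rw [hV0]; exact hi
  have hVan : ∀ j, AnalyticAt ℂ (fun p => V p j) 0 := comp_apply_analytic hV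
  have han : AnalyticAt ℂ
      (fun p : ℂ × ℂ => ((V p (1 - i) / V p i, (p.1 - p.2) * V p i) : ℂ × ℂ)) 0 := by
    refine AnalyticAt.prod ?_ ?_
    · exact (hVan _).div (hVan i) hVi
    · exact (analyticAt_fst.sub analyticAt_snd).mul (hVan i)
  refine ⟨han, ?_⟩
  have hL := han.differentiableAt.hasFDerivAt
  set Φ : ℂ × ℂ → ℂ × ℂ := fun p => ((V p (1 - i) / V p i, (p.1 - p.2) * V p i) : ℂ × ℂ) with hΦ
  set L := fderiv ℂ Φ 0 with hLdef
  -- direction (1,1)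
  have d11 : HasDerivAt (fun t : ℂ => ((t, t) : ℂ × ℂ)) (1, 1) 0 :=
    (hasDerivAt_id (0 : ℂ)).prodMk (hasDerivAt_id (0 : ℂ))
  have h11 : HasDerivAt (fun t : ℂ => Φ (t, t)) (L (1, 1)) 0 :=
    HasFDerivAt.comp_hasDerivAt (f := fun t : ℂ => ((t, t) : ℂ × ℂ)) (0 : ℂ) hL d11
  have g1 : HasDerivAt (deriv G) (deriv (deriv G) 0) 0 := hG.deriv.differentiableAt.hasDerivAt
  have k11 : HasDerivAt (fun t : ℂ => ((deriv G t (1 - i) / deriv G t i, 0) : ℂ × ℂ))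
      ((deriv (deriv G) 0 (1 - i) * deriv G 0 i - deriv G 0 (1 - i) * deriv (deriv G) 0 i) /
        (deriv G 0 i) ^ 2, 0) 0 :=
    ((hasDerivAt_apply g1 (1 - i)).div (hasDerivAt_apply g1 i) hi).prodMk (hasDerivAt_const _ _)
  have e11 : (fun t : ℂ => Φ (t, t)) =ᶠ[𝓝 0]
      (fun t : ℂ => ((deriv G t (1 - i) / deriv G t i, 0) : ℂ × ℂ)) := by
    filter_upwards [hdiag] with t ht
    simp only [hΦ, ht, sub_self, zero_mul]
  have hL11 := h11.unique (k11.congr_of_eventuallyEq e11)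
  -- direction (1,-1)
  have d12 : HasDerivAt (fun t : ℂ => ((t, -t) : ℂ × ℂ)) (1, -1) 0 :=
    (hasDerivAt_id (0 : ℂ)).prodMk ((hasDerivAt_id (0 : ℂ)).neg)
  have hpt : (fun t : ℂ => ((t, -t) : ℂ × ℂ)) 0 = 0 := by simp
  have h12 : HasDerivAt (fun t : ℂ => Φ (t, -t)) (L (1, -1)) 0 := by
    have hL' : HasFDerivAt Φ L ((fun t : ℂ => ((t, -t) : ℂ × ℂ)) 0) := by rw [hpt]; exact hL
    exact HasFDerivAt.comp_hasDerivAt (f := fun t : ℂ => ((t, -t) : ℂ × ℂ)) (0 : ℂ) hL' d12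
  have h12' : HasDerivAt (fun t : ℂ => (t - -t) * V (t, -t) i) (L (1, -1)).2 0 :=
    (ContinuousLinearMap.snd ℂ ℂ ℂ).hasFDerivAt.comp_hasDerivAt (0 : ℂ) h12
  have k12 : HasDerivAt (fun t : ℂ => (t - -t) * V (t, -t) i) (2 * V 0 i) 0 := by
    have a1 : HasDerivAt (fun t : ℂ => t - -t) 2 0 := by
      have h0 : HasDerivAt (fun t : ℂ => t - -t) (1 - -1) 0 :=
        (hasDerivAt_id (0 : ℂ)).sub ((hasDerivAt_id (0 : ℂ)).neg)
      exact h0.congr_deriv (by norm_num)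
    have a2 : HasDerivAt (fun t : ℂ => V (t, -t) i) (fderiv ℂ (fun p => V p i) 0 (1, -1)) 0 := by
      have hd := (hVan i).differentiableAt.hasFDerivAt
      have hd' : HasFDerivAt (fun p => V p i) (fderiv ℂ (fun p => V p i) 0)
          ((fun t : ℂ => ((t, -t) : ℂ × ℂ)) 0) := by rw [hpt]; exact hd
      exact HasFDerivAt.comp_hasDerivAt (f := fun t : ℂ => ((t, -t) : ℂ × ℂ)) (0 : ℂ) hd' d12
    have a3 := a1.mul a2
    refine a3.congr_deriv ?_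
    have e0 : ((0 : ℂ), -(0 : ℂ)) = (0 : ℂ × ℂ) := by simp
    rw [e0]
    simp
  have hL12 := h12'.unique k12
  have hspan : ∀ v : ℂ × ℂ, ∃ α β : ℂ, v = α • ((1, 1) : ℂ × ℂ) + β • ((1, -1) : ℂ × ℂ) := by
    intro v
    refine ⟨(v.1 + v.2) / 2, (v.1 - v.2) / 2, ?_⟩
    ext
    · simp; ring
    · simp; ring
  have q1 : (L (1, 1)).2 = 0 := by rw [hL11]
  have q2 : (L (1, 1)).1 ≠ 0 := by
    rw [hL11]
    exact det2_ratio hi hnd
  have q3 : (L (1, -1)).2 ≠ 0 := by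
    rw [hL12]
    exact mul_ne_zero two_ne_zero hVi
  obtain ⟨L', hL'⟩ := exists_equiv_pair L (1, 1) (1, -1) hspan q1 q2 q3
  refine ⟨L', ?_⟩
  rw [hL']
  exact hL

/-- the local coordinates at a Weierstrass point -/
theorem coordB {G : ℂ → E2} (hG : AnalyticAt ℂ G 0) (i : Fin 2) (hi : deriv G 0 i ≠ 0)
    (hodd : ∀ᶠ t in 𝓝 (0 : ℂ), G (-t) = - G t)
    (hnd : det2 (deriv G 0) (deriv (deriv (deriv G)) 0) ≠ 0)
    {V : ℂ × ℂ → E2} (hV : AnalyticAt ℂ V 0)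
    (hV0 : ∀ᶠ p in 𝓝 (0 : ℂ × ℂ), G p.1 - G p.2 = (p.1 - p.2) • V p ∧ V (p.2, p.1) = V p ∧
      V (p.1, p.1) = deriv G p.1) :
    ∃ h : ℂ × ℂ → E2, AnalyticAt ℂ h 0 ∧
      (∀ᶠ p in 𝓝 (0 : ℂ × ℂ), V (p.1, -p.2) = h ((p.1 - p.2) ^ 2, p.1 + p.2)) ∧
      h 0 = deriv G 0 ∧
      AnalyticAt ℂ (fun p : ℂ × ℂ => ((h (p.2, p.1) (1 - i) / h (p.2, p.1) i,
        p.1 * h (p.2, p.1) i) : ℂ × ℂ)) 0 ∧
      ∃ L' : (ℂ × ℂ) ≃L[ℂ] (ℂ × ℂ), HasFDerivAt
        (fun p : ℂ × ℂ => ((h (p.2, p.1) (1 - i) / h (p.2, p.1) i,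
          p.1 * h (p.2, p.1) i) : ℂ × ℂ)) (L' : (ℂ × ℂ) →L[ℂ] (ℂ × ℂ)) 0 := by
  -- the derivative of `G` is even
  have hG' : ∀ᶠ t in 𝓝 (0 : ℂ), deriv G (-t) = deriv G t := by
    filter_upwards [hodd.eventually_nhds] with t ht
    have h1 : deriv (fun t => G (-t)) t = deriv (fun t => - G t) t :=
      Filter.EventuallyEq.deriv_eq ht
    rw [deriv_comp_neg, deriv.fun_neg] at h1
    exact neg_injective h1
  -- symmetry of `V`
  have hVneg : ∀ᶠ p in 𝓝 (0 : ℂ × ℂ), V (-p.1, -p.2) = V p := by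
    have c1 : ContinuousAt (fun p : ℂ × ℂ => p.1) 0 := by fun_prop
    have c2 : ContinuousAt (fun p : ℂ × ℂ => p.2) 0 := by fun_prop
    have c3' : Tendsto (fun p : ℂ × ℂ => ((-p.1, -p.2) : ℂ × ℂ)) (𝓝 0) (𝓝 0) :=
      tend0 (by fun_prop) (by ext <;> simp)
    have e1 := c1.eventually hodd
    have e2 := c2.eventually hodd
    have e3 := c1.eventually hG'
    have e4 := c3'.eventually hV0
    filter_upwards [e1, e2, e3, e4, hV0] with p p1 p2 p3 p4 p5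
    obtain ⟨p41, p42, p43⟩ := p4
    obtain ⟨p51, p52, p53⟩ := p5
    by_cases hp : p.1 = p.2
    · have q1 : V (-p.1, -p.2) = deriv G (-p.1) := by rw [← hp]; exact p43
      have q2 : V p = deriv G p.1 := by
        rw [← p53]
        have : p = (p.1, p.1) := by ext; rfl; exact hp.symm
        exact congrArg V this
      rw [q1, q2, p3]
    · rw [p1, p2] at p41
      have q : (p.1 - p.2) • V (-p.1, -p.2) = (p.1 - p.2) • V p := by
        rw [← p51]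
        have : G p.1 - G p.2 = - (-G p.1 - -G p.2) := by abel
        rw [this, p41, ← neg_smul]
        congr 1
        ring
      have hne : p.1 - p.2 ≠ 0 := sub_ne_zero.2 hp
      exact smul_right_injective _ hne q
  -- descend
  let f : ℂ × ℂ → E2 := fun q => V ((q.2 + q.1) / 2, (q.1 - q.2) / 2)
  have c0' : Tendsto (fun q : ℂ × ℂ => (((q.2 + q.1) / 2, (q.1 - q.2) / 2) : ℂ × ℂ)) (𝓝 0) (𝓝 0) :=
    tend0 (by fun_prop) (by ext <;> simp)
  have hfan : AnalyticAt ℂ f 0 := analytic_comp0 hV an_half (by ext <;> simp)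
  have hev : ∀ᶠ q in 𝓝 (0 : ℂ × ℂ), f (-q.1, q.2) = f q := by
    have c1 : Tendsto (fun q : ℂ × ℂ => (((q.2 - q.1) / 2, (-q.1 - q.2) / 2) : ℂ × ℂ)) (𝓝 0) (𝓝 0) :=
      tend0 (by fun_prop) (by ext <;> simp)
    filter_upwards [c1.eventually hVneg, c0'.eventually hV0] with q q1 q2
    obtain ⟨-, q3, -⟩ := q2
    show V ((q.2 + -q.1) / 2, (-q.1 - q.2) / 2) = V ((q.2 + q.1) / 2, (q.1 - q.2) / 2)
    have a1 : ((q.2 + -q.1) / 2, (-q.1 - q.2) / 2) = (((q.2 - q.1) / 2, (-q.1 - q.2) / 2) : ℂ × ℂ) := by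
      rw [← sub_eq_add_neg]
    rw [a1, ← q1, ← q3]
    congr 1
    ext
    · simp; ring
    · simp; ring
  obtain ⟨h, hh, hfh⟩ := even_descent hfan hev
  have hrel : ∀ᶠ p in 𝓝 (0 : ℂ × ℂ), V (p.1, -p.2) = h ((p.1 - p.2) ^ 2, p.1 + p.2) := by
    have c1 : Tendsto (fun p : ℂ × ℂ => ((p.1 - p.2, p.1 + p.2) : ℂ × ℂ)) (𝓝 0) (𝓝 0) :=
      tend0 (by fun_prop) (by ext <;> simp)
    filter_upwards [c1.eventually hfh] with p hp
    rw [← hp]
    show V (p.1, -p.2) = V ((p.1 + p.2 + (p.1 - p.2)) / 2, (p.1 - p.2 - (p.1 + p.2)) / 2)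
    congr 1
    ext
    · simp only []; ring
    · simp only []; ring
  have h0 : h 0 = deriv G 0 := by
    have e1 := hrel.self_of_nhds
    have e2 := (hV0.self_of_nhds).2.2
    simp only [Prod.fst_zero, Prod.snd_zero, neg_zero, sub_self, add_zero] at e1 e2
    rw [← e2, e1]
    congr 1
    ext <;> simp
  have hhi : h 0 i ≠ 0 := by rw [h0]; exact hi
  -- analyticity
  have hsw : AnalyticAt ℂ (fun p : ℂ × ℂ => h (p.2, p.1)) 0 := analytic_comp0 hh an_swap rfl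
  have hswj : ∀ j, AnalyticAt ℂ (fun p : ℂ × ℂ => h (p.2, p.1) j) 0 :=
    fun j => comp_apply_analytic hsw j
  have han : AnalyticAt ℂ (fun p : ℂ × ℂ => ((h (p.2, p.1) (1 - i) / h (p.2, p.1) i,
        p.1 * h (p.2, p.1) i) : ℂ × ℂ)) 0 := by
    refine AnalyticAt.prod ?_ ?_
    · exact (hswj _).div (hswj i) hhi
    · exact analyticAt_fst.mul (hswj i)
  refine ⟨h, hh, hrel, h0, han, ?_⟩
  have hL := han.differentiableAt.hasFDerivAt
  set Φ : ℂ × ℂ → ℂ × ℂ := fun p => ((h (p.2, p.1) (1 - i) / h (p.2, p.1) i,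
        p.1 * h (p.2, p.1) i) : ℂ × ℂ) with hΦ
  set L := fderiv ℂ Φ 0 with hLdef
  -- the one variable function
  let m : ℂ → E2 := fun δ => h (δ, 0)
  have hm : AnalyticAt ℂ m 0 := analytic_comp0 hh (analyticAt_id.prod analyticAt_const) rfl
  have hm0 : m 0 = deriv G 0 := h0
  have hmg : ∀ᶠ d in 𝓝 (0 : ℂ), deriv G (d / 2) = m (d ^ 2) := by
    have c1 : Tendsto (fun d : ℂ => ((d / 2, -(d / 2)) : ℂ × ℂ)) (𝓝 0) (𝓝 0) :=
      tend0 (by fun_prop) (by ext <;> simp)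
    filter_upwards [c1.eventually hrel, c1.eventually hV0] with d d1 d2
    obtain ⟨-, -, d3⟩ := d2
    simp only [neg_neg] at d1 d3
    rw [← d3, d1]
    show h _ = h _
    congr 1
    ext
    · simp
    · simp
  have hmd : deriv m 0 = (8 : ℂ)⁻¹ • deriv (deriv (deriv G)) 0 := by
    have e1 := deriv_of_sq hm hmg
    -- second derivative of `G' (d / 2)`
    have e2 : ∀ g : ℂ → E2, ∀ d : ℂ, deriv (fun d => g (d / 2)) d = (2 : ℂ)⁻¹ • deriv g (d / 2) := by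
      intro g d
      have := deriv_comp_mul_left (2 : ℂ)⁻¹ g d
      have e3 : (fun x : ℂ => g ((2 : ℂ)⁻¹ * x)) = fun d => g (d / 2) := by
        funext x; congr 1; ring
      rw [e3] at this
      rw [this]
      congr 2
      ring
    have e3 : deriv (fun d => deriv G (d / 2)) = fun d => (2 : ℂ)⁻¹ • deriv (deriv G) (d / 2) := by
      funext d
      exact e2 (deriv G) d
    rw [e3] at e1
    have e4 : deriv (fun d => (2 : ℂ)⁻¹ • deriv (deriv G) (d / 2)) 0 =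
        (2 : ℂ)⁻¹ • deriv (fun d : ℂ => deriv (deriv G) (d / 2)) 0 := by
      have hd : DifferentiableAt ℂ (fun d : ℂ => deriv (deriv G) (d / 2)) 0 :=
        (analytic_comp0 (g := fun d : ℂ => d / 2) hG.deriv.deriv
          (analyticAt_id.div analyticAt_const two_ne_zero) (by simp)).differentiableAt
      exact deriv_fun_const_smul _ hd
    rw [e4, e2 (deriv (deriv G)) 0, zero_div, smul_smul] at e1
    have e5 : deriv m 0 = (2 : ℂ)⁻¹ • ((2 : ℂ) • deriv m 0) := by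
      rw [smul_smul]; norm_num
    rw [e5, ← e1, smul_smul]
    norm_num
  -- direction (0,1)
  have hpt : (fun δ : ℂ => ((0, δ) : ℂ × ℂ)) 0 = 0 := rfl
  have d01 : HasDerivAt (fun δ : ℂ => ((0, δ) : ℂ × ℂ)) (0, 1) 0 :=
    (hasDerivAt_const (0 : ℂ) (0 : ℂ)).prodMk (hasDerivAt_id (0 : ℂ))
  have h01 : HasDerivAt (fun δ : ℂ => Φ (0, δ)) (L (0, 1)) 0 :=
    HasFDerivAt.comp_hasDerivAt (f := fun δ : ℂ => ((0, δ) : ℂ × ℂ)) (0 : ℂ) hL d01
  have g1 : HasDerivAt m (deriv m 0) 0 := hm.differentiableAt.hasDerivAt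
  have hmi : m 0 i ≠ 0 := hhi
  have k01 : HasDerivAt (fun δ : ℂ => ((m δ (1 - i) / m δ i, 0) : ℂ × ℂ))
      ((deriv m 0 (1 - i) * m 0 i - m 0 (1 - i) * deriv m 0 i) / (m 0 i) ^ 2, 0) 0 :=
    ((hasDerivAt_apply g1 (1 - i)).div (hasDerivAt_apply g1 i) hmi).prodMk (hasDerivAt_const _ _)
  have e01 : (fun δ : ℂ => Φ (0, δ)) = (fun δ : ℂ => ((m δ (1 - i) / m δ i, 0) : ℂ × ℂ)) := by
    funext δ
    simp only [hΦ, zero_mul]
    rfl
  rw [e01] at h01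
  have hL01 := h01.unique k01
  -- direction (1,0)
  have d10 : HasDerivAt (fun σ : ℂ => ((σ, 0) : ℂ × ℂ)) (1, 0) 0 :=
    (hasDerivAt_id (0 : ℂ)).prodMk (hasDerivAt_const (0 : ℂ) (0 : ℂ))
  have h10 : HasDerivAt (fun σ : ℂ => Φ (σ, 0)) (L (1, 0)) 0 :=
    HasFDerivAt.comp_hasDerivAt (f := fun σ : ℂ => ((σ, 0) : ℂ × ℂ)) (0 : ℂ) hL d10
  have h10' : HasDerivAt (fun σ : ℂ => σ * h (0, σ) i) (L (1, 0)).2 0 :=
    (ContinuousLinearMap.snd ℂ ℂ ℂ).hasFDerivAt.comp_hasDerivAt (0 : ℂ) h10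
  have k10 : HasDerivAt (fun σ : ℂ => σ * h (0, σ) i) (h 0 i) 0 := by
    have a1 : HasDerivAt (fun σ : ℂ => σ) 1 0 := hasDerivAt_id (0 : ℂ)
    have a2 : HasDerivAt (fun σ : ℂ => h (0, σ) i)
        (fderiv ℂ (fun p : ℂ × ℂ => h (p.2, p.1) i) 0 (1, 0)) 0 := by
      have hd := (hswj i).differentiableAt.hasFDerivAt
      exact HasFDerivAt.comp_hasDerivAt (f := fun σ : ℂ => ((σ, 0) : ℂ × ℂ)) (0 : ℂ) hd d10
    have a3 := a1.mul a2
    refine a3.congr_deriv ?_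
    have e0 : ((0 : ℂ), (0 : ℂ)) = (0 : ℂ × ℂ) := rfl
    rw [e0]
    simp
  have hL10 := h10'.unique k10
  have hspan : ∀ v : ℂ × ℂ, ∃ α β : ℂ, v = α • ((0, 1) : ℂ × ℂ) + β • ((1, 0) : ℂ × ℂ) := by
    intro v
    refine ⟨v.2, v.1, ?_⟩
    ext <;> simp
  have q1 : (L (0, 1)).2 = 0 := by rw [hL01]
  have q2 : (L (0, 1)).1 ≠ 0 := by
    rw [hL01, hmd, hm0]
    have hnd' : det2 (deriv G 0) ((8 : ℂ)⁻¹ • deriv (deriv (deriv G)) 0) ≠ 0 := by
      have : det2 (deriv G 0) ((8 : ℂ)⁻¹ • deriv (deriv (deriv G)) 0) =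
          (8 : ℂ)⁻¹ * det2 (deriv G 0) (deriv (deriv (deriv G)) 0) := by
        simp only [det2, Pi.smul_apply, smul_eq_mul]
        ring
      rw [this]
      exact mul_ne_zero (by norm_num) hnd
    exact det2_ratio hi hnd'
  have q3 : (L (1, 0)).2 ≠ 0 := by
    rw [hL10]
    exact hhi
  obtain ⟨L', hL'⟩ := exists_equiv_pair L (0, 1) (1, 0) hspan q1 q2 q3
  refine ⟨L', ?_⟩
  rw [hL']
  exact hL

end Crest.Agent.R272.AJb_956
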