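import Crest.Agent.R272.AJb_956

/-!
# Row 272, A-AJ: sums of primitives are local homeomorphisms modulo the swap (helper956)
-/

set_option autoImplicit false
set_option linter.unusedSectionVars false
set_option linter.unusedVariables false

open Set Filter Topology Metric Complex
open Crest.Agent.R272.AJ_956 Crest.Agent.R272.AJa_956 Crest.Agent.R272.AJb_956

noncomputable section

namespace Crest.Agent.R272.AJc_956

theorem isOpenMap_sq : IsOpenMap (fun z : ℂ => z ^ 2) := by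
  have hg : AnalyticOnNhd ℂ (fun z : ℂ => z ^ 2) univ := fun z _ => by fun_prop
  rcases hg.is_constant_or_isOpen isPreconnected_univ with ⟨w, hw⟩ | h
  · exfalso
    have h0 : (0 : ℂ) ^ 2 = w := hw 0 (mem_univ _)
    have h1 : (1 : ℂ) ^ 2 = w := hw 1 (mem_univ _)
    rw [← h0] at h1
    norm_num at h1
  · intro s hs
    exact h s (subset_univ _) hs

/-- elementary symmetric coordinates of `ℂ × ℂ` modulo the swap -/
def sqm (p : ℂ × ℂ) : ℂ × ℂ := (p.1 + p.2, (p.1 - p.2) ^ 2)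

theorem sqm_zero : sqm 0 = 0 := by ext <;> simp [sqm]

theorem continuous_sqm : Continuous sqm := by unfold sqm; fun_prop

theorem sqm_eq_iff (p p' : ℂ × ℂ) : sqm p = sqm p' ↔ p' = p ∨ p' = p.swap := by
  constructor
  · intro h
    have h1 : p.1 + p.2 = p'.1 + p'.2 := congrArg Prod.fst h
    have h2 : (p.1 - p.2) ^ 2 = (p'.1 - p'.2) ^ 2 := congrArg Prod.snd h
    rcases sq_eq_sq_iff_eq_or_eq_neg.1 h2 with h3 | h3
    · left
      ext
      · linear_combination (-(1 : ℂ) / 2) * h1 - (1 / 2) * h3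
      · linear_combination (-(1 : ℂ) / 2) * h1 + (1 / 2) * h3
    · right
      ext
      · show p'.1 = p.2
        linear_combination (-(1 : ℂ) / 2) * h1 + (1 / 2) * h3
      · show p'.2 = p.1
        linear_combination (-(1 : ℂ) / 2) * h1 - (1 / 2) * h3
  · rintro (rfl | rfl)
    · rfl
    · simp only [sqm, Prod.fst_swap, Prod.snd_swap]
      ext
      · simp [add_comm]
      · simp only []; ring

theorem isOpenMap_sqm : IsOpenMap sqm := by
  let e : (ℂ × ℂ) ≃ₜ (ℂ × ℂ) :=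
    { toFun := fun p => (p.1 + p.2, p.1 - p.2)
      invFun := fun p => ((p.1 + p.2) / 2, (p.1 - p.2) / 2)
      left_inv := by
        intro p
        ext
        · simp only []; ring
        · simp only []; ring
      right_inv := by
        intro p
        ext
        · simp only []; ring
        · simp only []; ring
      continuous_toFun := by fun_prop
      continuous_invFun := by fun_prop }
  have h : sqm = (Prod.map id (fun z : ℂ => z ^ 2)) ∘ e := by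
    funext p
    rfl
  rw [h]
  exact (IsOpenMap.id.prodMap isOpenMap_sq).comp e.isOpenMap

theorem map_sqm (p : ℂ × ℂ) : Filter.map sqm (𝓝 p) = 𝓝 (sqm p) :=
  isOpenMap_sqm.map_nhds_eq continuous_sqm.continuousAt

theorem local_homeo {F : Type*} [NormedAddCommGroup F] [NormedSpace ℂ F] [CompleteSpace F]
    {K : ℂ × ℂ → F} (hK : AnalyticAt ℂ K 0) (L : (ℂ × ℂ) ≃L[ℂ] F)
    (hL : HasFDerivAt K (L : (ℂ × ℂ) →L[ℂ] F) 0) :
    Filter.map K (𝓝 0) = 𝓝 (K 0) ∧ ∃ O ∈ 𝓝 (0 : ℂ × ℂ), InjOn K O := by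
  obtain ⟨e, h1, -, h2, -, -⟩ :=
    Crest.Agent.R266.SCV.exists_analytic_openPartialHomeomorph hK L hL univ_mem
  have he : (e : ℂ × ℂ → F) = K := funext h2
  refine ⟨?_, e.source, e.open_source.mem_nhds h1, ?_⟩
  · rw [← he]; exact e.map_nhds_eq h1
  · rw [← he]; exact e.injOn

/-- different slopes -/
theorem sumN1 {G₁ G₂ : ℂ → E2} (h₁ : AnalyticAt ℂ G₁ 0) (h₂ : AnalyticAt ℂ G₂ 0)
    (hd : det2 (deriv G₁ 0) (deriv G₂ 0) ≠ 0) :
    Filter.map (fun p : ℂ × ℂ => G₁ p.1 + G₂ p.2) (𝓝 0) = 𝓝 (G₁ 0 + G₂ 0) ∧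
      ∃ O ∈ 𝓝 (0 : ℂ × ℂ), InjOn (fun p : ℂ × ℂ => G₁ p.1 + G₂ p.2) O := by
  have an : AnalyticAt ℂ (fun p : ℂ × ℂ => G₁ p.1 + G₂ p.2) 0 := by
    refine AnalyticAt.add ?_ ?_
    · exact analytic_comp0 h₁ analyticAt_fst rfl
    · exact analytic_comp0 h₂ analyticAt_snd rfl
  have hL := an.differentiableAt.hasFDerivAt
  set K : ℂ × ℂ → E2 := fun p => G₁ p.1 + G₂ p.2 with hK
  set L := fderiv ℂ K 0
  have d10 : HasDerivAt (fun σ : ℂ => ((σ, 0) : ℂ × ℂ)) (1, 0) 0 :=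
    (hasDerivAt_id (0 : ℂ)).prodMk (hasDerivAt_const (0 : ℂ) (0 : ℂ))
  have d01 : HasDerivAt (fun δ : ℂ => ((0, δ) : ℂ × ℂ)) (0, 1) 0 :=
    (hasDerivAt_const (0 : ℂ) (0 : ℂ)).prodMk (hasDerivAt_id (0 : ℂ))
  have h10 : HasDerivAt (fun σ : ℂ => K (σ, 0)) (L (1, 0)) 0 :=
    HasFDerivAt.comp_hasDerivAt (f := fun σ : ℂ => ((σ, 0) : ℂ × ℂ)) (0 : ℂ) hL d10
  have h01 : HasDerivAt (fun σ : ℂ => K (0, σ)) (L (0, 1)) 0 :=
    HasFDerivAt.comp_hasDerivAt (f := fun σ : ℂ => ((0, σ) : ℂ × ℂ)) (0 : ℂ) hL d01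
  have k10 : HasDerivAt (fun σ : ℂ => G₁ σ + G₂ 0) (deriv G₁ 0) 0 :=
    (h₁.differentiableAt.hasDerivAt).add_const (G₂ 0)
  have k01 : HasDerivAt (fun σ : ℂ => G₁ 0 + G₂ σ) (deriv G₂ 0) 0 :=
    (h₂.differentiableAt.hasDerivAt).const_add (G₁ 0)
  have e1 := h10.unique k10
  have e2 := h01.unique k01
  obtain ⟨L', hL'⟩ := exists_equiv_E2 L (by rw [e1, e2]; exact hd)
  rw [← hL'] at hL
  exact local_homeo an L' hL

/-- on the diagonal, off the Weierstrass points -/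
theorem sumN2 {G : ℂ → E2} (hG : AnalyticAt ℂ G 0)
    (hd : det2 (deriv G 0) (deriv (deriv G) 0) ≠ 0) :
    Filter.map (fun p : ℂ × ℂ => G p.1 + G p.2) (𝓝 0) = 𝓝 (G 0 + G 0) ∧
      ∃ O ∈ 𝓝 (0 : ℂ × ℂ), ∀ p ∈ O, ∀ p' ∈ O, G p.1 + G p.2 = G p'.1 + G p'.2 →
        p' = p ∨ p' = p.swap := by
  -- descend
  let f : ℂ × ℂ → E2 := fun q => G ((q.2 + q.1) / 2) + G ((q.2 - q.1) / 2)
  have hf : AnalyticAt ℂ f 0 := by
    refine AnalyticAt.add ?_ ?_
    · exact analytic_comp0 (g := fun q : ℂ × ℂ => (q.2 + q.1) / 2) hG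
        ((analyticAt_snd.add analyticAt_fst).div analyticAt_const two_ne_zero) (by simp)
    · exact analytic_comp0 (g := fun q : ℂ × ℂ => (q.2 - q.1) / 2) hG
        ((analyticAt_snd.sub analyticAt_fst).div analyticAt_const two_ne_zero) (by simp)
  have hev : ∀ᶠ q in 𝓝 (0 : ℂ × ℂ), f (-q.1, q.2) = f q := by
    refine Eventually.of_forall fun q => ?_
    show G ((q.2 + -q.1) / 2) + G ((q.2 - -q.1) / 2) = G ((q.2 + q.1) / 2) + G ((q.2 - q.1) / 2)
    rw [sub_neg_eq_add, ← sub_eq_add_neg, add_comm]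
  obtain ⟨h, hh, hfh⟩ := even_descent hf hev
  -- the map in symmetric coordinates
  let K : ℂ × ℂ → E2 := fun p => h (p.2, p.1)
  have hK : AnalyticAt ℂ K 0 := analytic_comp0 hh an_swap rfl
  have hrel : ∀ᶠ p in 𝓝 (0 : ℂ × ℂ), G p.1 + G p.2 = K (sqm p) := by
    have c1 : Tendsto (fun p : ℂ × ℂ => ((p.1 - p.2, p.1 + p.2) : ℂ × ℂ)) (𝓝 0) (𝓝 0) :=
      tend0 (by fun_prop) (by ext <;> simp)
    filter_upwards [c1.eventually hfh] with p hp
    show _ = h ((p.1 - p.2) ^ 2, p.1 + p.2)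
    rw [← hp]
    show G p.1 + G p.2 = G ((p.1 + p.2 + (p.1 - p.2)) / 2) + G ((p.1 + p.2 - (p.1 - p.2)) / 2)
    congr 2
    · ring
    · ring
  have hL := hK.differentiableAt.hasFDerivAt
  set L := fderiv ℂ K 0
  have d10 : HasDerivAt (fun σ : ℂ => ((σ, 0) : ℂ × ℂ)) (1, 0) 0 :=
    (hasDerivAt_id (0 : ℂ)).prodMk (hasDerivAt_const (0 : ℂ) (0 : ℂ))
  have d01 : HasDerivAt (fun δ : ℂ => ((0, δ) : ℂ × ℂ)) (0, 1) 0 :=
    (hasDerivAt_const (0 : ℂ) (0 : ℂ)).prodMk (hasDerivAt_id (0 : ℂ))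
  have h10 : HasDerivAt (fun σ : ℂ => K (σ, 0)) (L (1, 0)) 0 :=
    HasFDerivAt.comp_hasDerivAt (f := fun σ : ℂ => ((σ, 0) : ℂ × ℂ)) (0 : ℂ) hL d10
  have h01 : HasDerivAt (fun σ : ℂ => K (0, σ)) (L (0, 1)) 0 :=
    HasFDerivAt.comp_hasDerivAt (f := fun σ : ℂ => ((0, σ) : ℂ × ℂ)) (0 : ℂ) hL d01
  have hG1 : HasDerivAt G (deriv G 0) (0 / 2) := by
    rw [zero_div]; exact hG.differentiableAt.hasDerivAt
  have dh : HasDerivAt (fun σ : ℂ => σ / 2) (1 / 2) 0 := (hasDerivAt_id (0 : ℂ)).div_const 2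
  -- L (1,0) = G' 0
  have k10 : HasDerivAt (fun σ : ℂ => K (σ, 0)) (deriv G 0) 0 := by
    have c1 : Tendsto (fun σ : ℂ => ((0, σ) : ℂ × ℂ)) (𝓝 0) (𝓝 0) := tend0 (by fun_prop) rfl
    have e : (fun σ : ℂ => K (σ, 0)) =ᶠ[𝓝 0] fun σ => G (σ / 2) + G (σ / 2) := by
      filter_upwards [c1.eventually hfh] with σ hσ
      show h (0, σ) = _
      have h0 : ((0 : ℂ) ^ 2, σ) = ((0, σ) : ℂ × ℂ) := by simp
      rw [h0] at hσ
      rw [← hσ]
      show G ((σ + 0) / 2) + G ((σ - 0) / 2) = _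
      rw [add_zero, sub_zero]
    have d1 := hG1.scomp (0 : ℂ) dh
    have d2 := (d1.add d1).congr_of_eventuallyEq e
    refine d2.congr_deriv ?_
    rw [← add_smul]
    norm_num
  -- L (0,1) = G'' 0 / 4
  let m : ℂ → E2 := fun δ => h (δ, 0)
  have hm : AnalyticAt ℂ m 0 := analytic_comp0 hh (analyticAt_id.prod analyticAt_const) rfl
  have k01 : HasDerivAt (fun σ : ℂ => K (0, σ)) (deriv m 0) 0 := hm.differentiableAt.hasDerivAt
  have hmg : ∀ᶠ d in 𝓝 (0 : ℂ), G (d / 2) + G (-(d / 2)) = m (d ^ 2) := by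
    have c1 : Tendsto (fun d : ℂ => ((d, 0) : ℂ × ℂ)) (𝓝 0) (𝓝 0) := tend0 (by fun_prop) rfl
    filter_upwards [c1.eventually hfh] with d hd
    show _ = h (d ^ 2, 0)
    rw [← hd]
    show _ = G ((0 + d) / 2) + G ((0 - d) / 2)
    congr 2
    · rw [zero_add]
    · ring
  have hmd : deriv m 0 = (4 : ℂ)⁻¹ • deriv (deriv G) 0 := by
    have e1 := deriv_of_sq hm hmg
    have hGev := hG.eventually_analyticAt
    have c2 : Tendsto (fun d : ℂ => d / 2) (𝓝 0) (𝓝 0) := tend0 (by fun_prop) (by simp)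
    have c3 : Tendsto (fun d : ℂ => -(d / 2)) (𝓝 0) (𝓝 0) := tend0 (by fun_prop) (by simp)
    have e2 : deriv (fun d => G (d / 2) + G (-(d / 2))) =ᶠ[𝓝 0]
        fun d => (1 / 2 : ℂ) • deriv G (d / 2) + (-(1 / 2) : ℂ) • deriv G (-(d / 2)) := by
      filter_upwards [c2.eventually hGev, c3.eventually hGev] with d d1 d2
      have dh' : HasDerivAt (fun σ : ℂ => σ / 2) (1 / 2) d := (hasDerivAt_id d).div_const 2
      have a1 := d1.differentiableAt.hasDerivAt.scomp d dh'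
      have a2 := d2.differentiableAt.hasDerivAt.scomp d dh'.neg
      exact (a1.add a2).deriv
    rw [Filter.EventuallyEq.deriv_eq e2] at e1
    have g2 : HasDerivAt (deriv G) (deriv (deriv G) 0) (0 / 2) := by
      rw [zero_div]; exact hG.deriv.differentiableAt.hasDerivAt
    have g3 : HasDerivAt (deriv G) (deriv (deriv G) 0) (-(0 / 2)) := by
      rw [zero_div, neg_zero]; exact hG.deriv.differentiableAt.hasDerivAt
    have b1 := (g2.scomp (0 : ℂ) dh).const_smul (1 / 2 : ℂ)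
    have b2 := (g3.scomp (0 : ℂ) dh.neg).const_smul (-(1 / 2) : ℂ)
    have b3 := (b1.add b2).deriv
    have b4 : (fun d => (1 / 2 : ℂ) • deriv G (d / 2) + (-(1 / 2) : ℂ) • deriv G (-(d / 2))) =
      ((1 / 2 : ℂ) • (deriv G ∘ fun σ : ℂ => σ / 2) + (-(1 / 2) : ℂ) • (deriv G ∘ (-fun σ : ℂ => σ / 2))) := by
      funext d
      rfl
    rw [b4, b3, smul_smul, smul_smul, ← add_smul] at e1
    have e5 : deriv m 0 = (2 : ℂ)⁻¹ • ((2 : ℂ) • deriv m 0) := by
      rw [smul_smul]; norm_num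
    rw [e5, ← e1, smul_smul]
    norm_num
  have e1 := h10.unique k10
  have e2 := h01.unique k01
  obtain ⟨L', hL'⟩ := exists_equiv_E2 L (by
    rw [e1, e2, hmd]
    have : det2 (deriv G 0) ((4 : ℂ)⁻¹ • deriv (deriv G) 0) =
        (4 : ℂ)⁻¹ * det2 (deriv G 0) (deriv (deriv G) 0) := by
      simp only [det2, Pi.smul_apply, smul_eq_mul]
      ring
    rw [this]
    exact mul_ne_zero (by norm_num) hd)
  rw [← hL'] at hL
  obtain ⟨m1, O, hO, hinj⟩ := local_homeo hK L' hL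
  have hK0 : K 0 = G 0 + G 0 := by
    have := hrel.self_of_nhds
    rw [sqm_zero] at this
    exact this.symm
  constructor
  · have : Filter.map (fun p : ℂ × ℂ => G p.1 + G p.2) (𝓝 0) = Filter.map (K ∘ sqm) (𝓝 0) :=
      Filter.map_congr hrel
    rw [this, ← Filter.map_map, map_sqm, sqm_zero, m1, hK0]
  · have hO' : sqm ⁻¹' O ∈ 𝓝 (0 : ℂ × ℂ) := by
      apply continuous_sqm.continuousAt.preimage_mem_nhds
      rw [sqm_zero]; exact hO
    refine ⟨(sqm ⁻¹' O) ∩ {p | G p.1 + G p.2 = K (sqm p)}, inter_mem hO' hrel, ?_⟩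
    rintro p ⟨hp1, hp2⟩ p' ⟨hp1', hp2'⟩ hpp
    have e3 : K (sqm p) = K (sqm p') := by
      rw [← show G p.1 + G p.2 = K (sqm p) from hp2, ← show G p'.1 + G p'.2 = K (sqm p') from hp2']
      exact hpp
    exact (sqm_eq_iff p p').1 (hinj hp1 hp1' e3)

end Crest.Agent.R272.AJc_956
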