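import Crest.Agent.R272.AJc_956

/-!
# Row 272, A-AJ: the function `U` near `Γ` (helper956)
-/

set_option autoImplicit false
set_option linter.unusedSectionVars false
set_option linter.unusedVariables false

open Set Filter Topology Metric Complex
open Crest.Agent.R272.AJ_956 Crest.Agent.R272.AJa_956 Crest.Agent.R272.AJb_956
open Crest.Agent.R272.AJc_956

noncomputable section

namespace Crest.Agent.R272.AJd_956

/-- **Gluing germs along a compact set.** -/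
theorem glue_germs {X Y : Type*} [TopologicalSpace X] [CompactSpace X] [T2Space X] [Nonempty Y]
    {κ : Type*} (W : κ → Set X) (hW : ∀ i, IsOpen (W i)) (f : κ → X → Y) {K : Set X}
    (hK : IsCompact K) (hcov : ∀ x ∈ K, ∃ i, x ∈ W i)
    (hag : ∀ x ∈ K, ∀ i j, x ∈ W i → x ∈ W j → ∀ᶠ y in 𝓝 x, f i y = f j y) :
    ∃ (N : Set X) (F : X → Y), IsOpen N ∧ K ⊆ N ∧
      (∀ x ∈ N, ∃ i, x ∈ W i ∧ ∀ᶠ y in 𝓝 x, F y = f i y) ∧
      ∀ x ∈ K, ∀ i, x ∈ W i → ∀ᶠ y in 𝓝 x, F y = f i y := by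
  classical
  rcases K.eq_empty_or_nonempty with rfl | ⟨x₀, hx₀⟩
  · exact ⟨∅, fun _ => Classical.arbitrary Y, isOpen_empty, Subset.rfl, by simp, by simp⟩
  have : Nonempty κ := ⟨(hcov x₀ hx₀).choose⟩
  choose! i hi using hcov
  have hV : ∀ x ∈ K, ∃ V : Set X, IsOpen V ∧ x ∈ V ∧ closure V ⊆ W (i x) := by
    intro x hx
    obtain ⟨T, hT, hTc, hTW⟩ := exists_mem_nhds_isClosed_subset ((hW (i x)).mem_nhds (hi x hx))
    refine ⟨interior T, isOpen_interior, mem_interior_iff_mem_nhds.2 hT, ?_⟩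
    exact (closure_minimal interior_subset hTc).trans hTW
  choose! V hVo hxV hVW using hV
  obtain ⟨t, htK, htcov⟩ := hK.elim_nhds_subcover V (fun x hx => (hVo x hx).mem_nhds (hxV x hx))
  let Z : Set X := {x | ∀ k ∈ t, ∀ l ∈ t, x ∈ closure (V k) → x ∈ closure (V l) →
    ∀ᶠ y in 𝓝 x, f (i k) y = f (i l) y}
  have hZ : ∀ x ∈ K, ∀ᶠ y in 𝓝 x, y ∈ Z := by
    intro x hx
    have h1 : ∀ k ∈ t, ∀ l ∈ t, ∀ᶠ y in 𝓝 x, (y ∈ closure (V k) → y ∈ closure (V l) →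
        ∀ᶠ z in 𝓝 y, f (i k) z = f (i l) z) := by
      intro k hk l hl
      by_cases hxk : x ∈ closure (V k)
      · by_cases hxl : x ∈ closure (V l)
        · have := hag x hx (i k) (i l) (hVW k (htK k hk) hxk) (hVW l (htK l hl) hxl)
          filter_upwards [this.eventually_nhds] with y hy _ _
          exact hy
        · have : ∀ᶠ y in 𝓝 x, y ∉ closure (V l) :=
            isClosed_closure.isOpen_compl.mem_nhds hxl
          filter_upwards [this] with y hy _ h2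
          exact absurd h2 hy
      · have : ∀ᶠ y in 𝓝 x, y ∉ closure (V k) :=
          isClosed_closure.isOpen_compl.mem_nhds hxk
        filter_upwards [this] with y hy h2
        exact absurd h2 hy
    have h2 : ∀ᶠ y in 𝓝 x, ∀ k ∈ t, ∀ l ∈ t, (y ∈ closure (V k) → y ∈ closure (V l) →
        ∀ᶠ z in 𝓝 y, f (i k) z = f (i l) z) := by
      rw [Filter.eventually_all_finset]
      intro k hk
      rw [Filter.eventually_all_finset]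
      intro l hl
      exact h1 k hk l hl
    exact h2
  let N : Set X := {x | ∀ᶠ y in 𝓝 x, y ∈ Z} ∩ ⋃ k ∈ t, V k
  let F : X → Y := fun x => if h : ∃ k ∈ t, x ∈ closure (V k) then f (i h.choose) x
    else Classical.arbitrary Y
  have hNo : IsOpen N := by
    apply IsOpen.inter
    · exact isOpen_setOfPred_eventually_nhds
    · exact isOpen_biUnion fun k hk => hVo k (htK k hk)
  have key : ∀ x ∈ N, ∀ k ∈ t, x ∈ V k → ∀ᶠ y in 𝓝 x, F y = f (i k) y := by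
    rintro x ⟨hx1, hx2⟩ k hk hxk
    filter_upwards [hx1, (hVo k (htK k hk)).mem_nhds hxk] with y hy1 hy2
    have hex : ∃ k ∈ t, y ∈ closure (V k) := ⟨k, hk, subset_closure hy2⟩
    have hF : F y = f (i hex.choose) y := dif_pos hex
    rw [hF]
    exact (hy1 hex.choose hex.choose_spec.1 k hk hex.choose_spec.2
      (subset_closure hy2)).self_of_nhds
  refine ⟨N, F, hNo, ?_, ?_, ?_⟩
  · intro x hx
    exact ⟨hZ x hx, htcov hx⟩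
  · rintro x hx
    obtain ⟨k, hk, hxk⟩ := mem_iUnion₂.1 hx.2
    exact ⟨i k, hVW k (htK k hk) (subset_closure hxk), key x hx k hk hxk⟩
  · intro x hx j hj
    obtain ⟨k, hk, hxk⟩ := mem_iUnion₂.1 (htcov hx)
    have h1 := key x ⟨hZ x hx, htcov hx⟩ k hk hxk
    have h2 := hag x hx (i k) j (hVW k (htK k hk) (subset_closure hxk)) hj
    filter_upwards [h1, h2] with y hy1 hy2
    rw [hy1, hy2]

variable {C : Type} [TopologicalSpace C] (𝒞 : Cur C)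

namespace Basic

theorem P_self (c : C) : 𝒞.P c c = 0 := by
  simp [Cur.P, 𝒞.k_zero, 𝒞.G_zero]

theorem zero_mem_target (c : C) : (0 : ℂ) ∈ (𝒞.k c).target := by
  have := (𝒞.k c).map_source (𝒞.k_mem c)
  rwa [𝒞.k_zero] at this

theorem G_an0 (c : C) : AnalyticAt ℂ (𝒞.G c) 0 := 𝒞.G_an c 0 (zero_mem_target 𝒞 c)

theorem map_k (c : C) : Filter.map (𝒞.k c) (𝓝 c) = 𝓝 0 := by
  rw [(𝒞.k c).map_nhds_eq (𝒞.k_mem c), 𝒞.k_zero]

theorem tend_k (c : C) : Tendsto (𝒞.k c) (𝓝 c) (𝓝 0) := (map_k 𝒞 c).le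

theorem P_change (c x : C) (hx : x ∈ (𝒞.k c).source) :
    ∀ᶠ y in 𝓝 x, 𝒞.P c y = 𝒞.P c x + 𝒞.P x y := by
  filter_upwards [𝒞.compat c x x hx (𝒞.k_mem x)] with y hy
  have h0 : 𝒞.G x (𝒞.k x x) = 0 := P_self 𝒞 x
  rw [h0, zero_sub] at hy
  show 𝒞.G c (𝒞.k c y) = 𝒞.G c (𝒞.k c x) + 𝒞.G x (𝒞.k x y)
  have : 𝒞.G x (𝒞.k x y) = (𝒞.G x (𝒞.k x y) - 𝒞.G c (𝒞.k c y)) + 𝒞.G c (𝒞.k c y) := by abel
  rw [this, hy]
  abel

theorem P_continuousAt (c x : C) (hx : x ∈ (𝒞.k c).source) : ContinuousAt (𝒞.P c) x := by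
  have h1 : ContinuousAt (𝒞.G c) (𝒞.k c x) :=
    (𝒞.G_an c _ ((𝒞.k c).map_source hx)).continuousAt
  exact h1.comp ((𝒞.k c).continuousAt hx)

theorem P_continuousAt' (x : C) : ContinuousAt (𝒞.P x) x := P_continuousAt 𝒞 x x (𝒞.k_mem x)

theorem P_tendsto (x : C) : Tendsto (𝒞.P x) (𝓝 x) (𝓝 0) := by
  have := (P_continuousAt' 𝒞 x).tendsto
  rwa [P_self] at this

theorem P_iv (x : C) : ∀ᶠ y in 𝓝 x, 𝒞.P (𝒞.iv x) (𝒞.iv y) = - 𝒞.P x y := 𝒞.anti x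

theorem P_iv' (c x : C) (hx : 𝒞.iv x ∈ (𝒞.k c).source) :
    ∀ᶠ y in 𝓝 x, 𝒞.P c (𝒞.iv y) = 𝒞.P c (𝒞.iv x) - 𝒞.P x y := by
  have h1 := (𝒞.iv_cont.continuousAt (x := x)).eventually (P_change 𝒞 c (𝒞.iv x) hx)
  filter_upwards [h1, P_iv 𝒞 x] with y hy1 hy2
  rw [hy1, hy2]
  abel

theorem mem_Gam {x : C × C} : x ∈ 𝒞.Gam ↔ x.2 = 𝒞.iv x.1 := Iff.rfl

theorem gam_mem (c : C) : ((c, 𝒞.iv c) : C × C) ∈ 𝒞.Gam := rfl

theorem swap_mem_Gam {x : C × C} (hx : x ∈ 𝒞.Gam) : x.swap ∈ 𝒞.Gam := by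
  rw [mem_Gam] at *
  simp [hx, 𝒞.iv_iv]

theorem isClosed_Gam [T2Space C] : IsClosed 𝒞.Gam :=
  isClosed_eq continuous_snd (𝒞.iv_cont.comp continuous_fst)

/-- the sum of primitives -/
def S (x y : C × C) : E2 := 𝒞.P x.1 y.1 + 𝒞.P x.2 y.2

theorem S_self (x : C × C) : S 𝒞 x x = 0 := by simp [S, P_self]

theorem S_tendsto (x : C × C) : Tendsto (S 𝒞 x) (𝓝 x) (𝓝 0) := by
  have h1 : Tendsto (fun y : C × C => 𝒞.P x.1 y.1) (𝓝 x) (𝓝 0) :=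
    (P_tendsto 𝒞 x.1).comp (continuous_fst.tendsto x)
  have h2 : Tendsto (fun y : C × C => 𝒞.P x.2 y.2) (𝓝 x) (𝓝 0) :=
    (P_tendsto 𝒞 x.2).comp (continuous_snd.tendsto x)
  have h3 := h1.add h2
  rw [add_zero] at h3
  exact h3

theorem S_swap (x y : C × C) : S 𝒞 x.swap y.swap = S 𝒞 x y := by
  simp [S, add_comm]

/-- the product chart -/
theorem map_kk (x : C × C) :
    Filter.map (fun y : C × C => ((𝒞.k x.1 y.1, 𝒞.k x.2 y.2) : ℂ × ℂ)) (𝓝 x) = 𝓝 0 := by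
  have h := Filter.prod_map_map_eq (f₁ := 𝓝 x.1) (f₂ := 𝓝 x.2) (m₁ := 𝒞.k x.1) (m₂ := 𝒞.k x.2)
  rw [map_k, map_k, ← nhds_prod_eq, ← nhds_prod_eq] at h
  exact h.symm

/-- the sum map is open at points off `Γ` -/
theorem map_S (x : C × C) (hx : x ∉ 𝒞.Gam) : Filter.map (S 𝒞 x) (𝓝 x) = 𝓝 0 := by
  by_cases h : x.2 = x.1
  · have hiv : 𝒞.iv x.1 ≠ x.1 := by
      intro h0
      apply hx
      rw [mem_Gam, h, h0]
    have h2 := (sumN2 (G_an0 𝒞 x.1) (𝒞.nd x.1 hiv)).1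
    have e : S 𝒞 x = (fun p : ℂ × ℂ => 𝒞.G x.1 p.1 + 𝒞.G x.1 p.2) ∘
        (fun y : C × C => ((𝒞.k x.1 y.1, 𝒞.k x.2 y.2) : ℂ × ℂ)) := by
      funext y
      simp only [S, Cur.P, Function.comp_apply, h]
    rw [e, ← Filter.map_map, map_kk, h2, 𝒞.G_zero]
    simp
  · have h2 := (sumN1 (G_an0 𝒞 x.1) (G_an0 𝒞 x.2) (𝒞.nd2 x.1 x.2 h hx)).1
    have e : S 𝒞 x = (fun p : ℂ × ℂ => 𝒞.G x.1 p.1 + 𝒞.G x.2 p.2) ∘
        (fun y : C × C => ((𝒞.k x.1 y.1, 𝒞.k x.2 y.2) : ℂ × ℂ)) := by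
      funext y
      rfl
    rw [e, ← Filter.map_map, map_kk, h2, 𝒞.G_zero, 𝒞.G_zero]
    simp

/-- local injectivity modulo the swap, off `Γ` -/
theorem inj_S (x : C × C) (hx : x ∉ 𝒞.Gam) : ∃ O ∈ 𝓝 x, ∀ y ∈ O, ∀ y' ∈ O,
    S 𝒞 x y = S 𝒞 x y' → y' = y ∨ (y' = y.swap ∧ x.2 = x.1) := by
  have hs : (𝒞.k x.1).source ×ˢ (𝒞.k x.2).source ∈ 𝓝 x :=
    prod_mem_nhds ((𝒞.k x.1).open_source.mem_nhds (𝒞.k_mem _))
      ((𝒞.k x.2).open_source.mem_nhds (𝒞.k_mem _))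
  have ht : Tendsto (fun y : C × C => ((𝒞.k x.1 y.1, 𝒞.k x.2 y.2) : ℂ × ℂ)) (𝓝 x) (𝓝 0) :=
    (map_kk 𝒞 x).le
  by_cases h : x.2 = x.1
  · have hiv : 𝒞.iv x.1 ≠ x.1 := by
      intro h0
      apply hx
      rw [mem_Gam, h, h0]
    obtain ⟨O, hO, hinj⟩ := (sumN2 (G_an0 𝒞 x.1) (𝒞.nd x.1 hiv)).2
    refine ⟨_, inter_mem hs (ht hO), ?_⟩
    rintro y ⟨⟨hy1, hy2⟩, hy3⟩ y' ⟨⟨hy1', hy2'⟩, hy3'⟩ heq
    have heq' : 𝒞.G x.1 (𝒞.k x.1 y.1) + 𝒞.G x.1 (𝒞.k x.2 y.2) =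
        𝒞.G x.1 (𝒞.k x.1 y'.1) + 𝒞.G x.1 (𝒞.k x.2 y'.2) := by
      simpa only [S, Cur.P, h] using heq
    rcases hinj _ hy3 _ hy3' heq' with h1 | h1
    · left
      have e1 := congrArg Prod.fst h1
      have e2 := congrArg Prod.snd h1
      exact Prod.ext ((𝒞.k x.1).injOn hy1' hy1 e1) ((𝒞.k x.2).injOn hy2' hy2 e2)
    · right
      have e1 : 𝒞.k x.1 y'.1 = 𝒞.k x.2 y.2 := congrArg Prod.fst h1
      have e2 : 𝒞.k x.2 y'.2 = 𝒞.k x.1 y.1 := congrArg Prod.snd h1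
      rw [h] at e1 e2 hy2 hy2'
      exact ⟨Prod.ext ((𝒞.k x.1).injOn hy1' hy2 e1) ((𝒞.k x.1).injOn hy2' hy1 e2), h⟩
  · obtain ⟨O, hO, hinj⟩ := (sumN1 (G_an0 𝒞 x.1) (G_an0 𝒞 x.2) (𝒞.nd2 x.1 x.2 h hx)).2
    refine ⟨_, inter_mem hs (ht hO), ?_⟩
    rintro y ⟨⟨hy1, hy2⟩, hy3⟩ y' ⟨⟨hy1', hy2'⟩, hy3'⟩ heq
    left
    have h1 := hinj hy3 hy3' heq
    have e1 : 𝒞.k x.1 y.1 = 𝒞.k x.1 y'.1 := congrArg Prod.fst h1
    have e2 : 𝒞.k x.2 y.2 = 𝒞.k x.2 y'.2 := congrArg Prod.snd h1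
    exact Prod.ext ((𝒞.k x.1).injOn hy1' hy1 e1.symm) ((𝒞.k x.2).injOn hy2' hy2 e2.symm)

theorem LP_iff {f : C × C → E2} {N : Set (C × C)} :
    𝒞.LP f N ↔ ∀ x ∈ N, ∀ᶠ y in 𝓝 x, f y = f x + S 𝒞 x y := Iff.rfl

theorem LP.continuousAt {f : C × C → E2} {N : Set (C × C)} (hf : 𝒞.LP f N) {x : C × C}
    (hx : x ∈ N) : ContinuousAt f x := by
  have h1 := hf x hx
  have h2 : Tendsto (fun y => f x + S 𝒞 x y) (𝓝 x) (𝓝 (f x + 0)) :=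
    tendsto_const_nhds.add (S_tendsto 𝒞 x)
  rw [add_zero] at h2
  exact h2.congr' (h1.mono fun y hy => hy.symm)

theorem LP.map_nhds {f : C × C → E2} {N : Set (C × C)} (hf : 𝒞.LP f N) {x : C × C}
    (hx : x ∈ N) (hxG : x ∉ 𝒞.Gam) : Filter.map f (𝓝 x) = 𝓝 (f x) := by
  have h1 : Filter.map f (𝓝 x) = Filter.map ((fun v => f x + v) ∘ S 𝒞 x) (𝓝 x) :=
    Filter.map_congr (hf x hx)
  rw [h1, ← Filter.map_map, map_S 𝒞 x hxG]
  simp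

end Basic

end Crest.Agent.R272.AJd_956
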