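import Crest.Agent.R272.AJd_956

/-!
# Row 272, A-AJ: local form of `U` near `Γ` (helper956)
-/

set_option autoImplicit false
set_option linter.unusedSectionVars false
set_option linter.unusedVariables false

open Set Filter Topology Metric Complex
open Crest.Agent.R272.AJ_956 Crest.Agent.R272.AJa_956 Crest.Agent.R272.AJb_956
open Crest.Agent.R272.AJc_956 Crest.Agent.R272.AJd_956 Crest.Agent.R272.AJd_956.Basic

noncomputable section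

namespace Crest.Agent.R272.AJe_956

variable {C : Type} [TopologicalSpace C] (𝒞 : Cur C)

theorem det2_zero_left (v : E2) : det2 0 v = 0 := by simp [det2]

theorem w_ne (c : C) : 𝒞.w c ≠ 0 := by
  intro h
  by_cases hc : 𝒞.iv c = c
  · apply 𝒞.nd3 c hc
    have h' : deriv (𝒞.G c) 0 = 0 := h
    rw [h']
    exact det2_zero_left _
  · apply 𝒞.nd c hc
    have h' : deriv (𝒞.G c) 0 = 0 := h
    rw [h']
    exact det2_zero_left _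

theorem exists_w (c : C) : ∃ i, 𝒞.w c i ≠ 0 := by
  by_contra h
  push Not at h
  exact w_ne 𝒞 c (funext h)

/-- the coordinates `(k c x.1, k c (iv x.2))` near `(c, iv c)` -/
def Z (c : C) (x : C × C) : ℂ × ℂ := (𝒞.k c x.1, 𝒞.k c (𝒞.iv x.2))

theorem tend_Z (c : C) : Tendsto (Z 𝒞 c) (𝓝 (c, 𝒞.iv c)) (𝓝 0) := by
  have h1 : Tendsto (fun x : C × C => 𝒞.k c x.1) (𝓝 (c, 𝒞.iv c)) (𝓝 0) :=
    (tend_k 𝒞 c).comp (continuous_fst.tendsto _)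
  have h2 : Tendsto (fun x : C × C => 𝒞.k c (𝒞.iv x.2)) (𝓝 (c, 𝒞.iv c)) (𝓝 0) := by
    refine (tend_k 𝒞 c).comp ?_
    have : Tendsto (fun x : C × C => 𝒞.iv x.2) (𝓝 (c, 𝒞.iv c)) (𝓝 (𝒞.iv (𝒞.iv c))) :=
      (𝒞.iv_cont.comp continuous_snd).tendsto ((c, 𝒞.iv c) : C × C)
    rwa [𝒞.iv_iv] at this
  have h3 := h1.prodMk_nhds h2
  exact h3

theorem source_Z (c : C) : ∀ᶠ x in 𝓝 ((c, 𝒞.iv c) : C × C),
    x.1 ∈ (𝒞.k c).source ∧ 𝒞.iv x.2 ∈ (𝒞.k c).source := by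
  have h1 : ∀ᶠ x in 𝓝 ((c, 𝒞.iv c) : C × C), x.1 ∈ (𝒞.k c).source :=
    (continuous_fst.tendsto ((c, 𝒞.iv c) : C × C)).eventually
      ((𝒞.k c).open_source.mem_nhds (𝒞.k_mem c))
  have h2 : ∀ᶠ x in 𝓝 ((c, 𝒞.iv c) : C × C), 𝒞.iv x.2 ∈ (𝒞.k c).source := by
    have := (𝒞.iv_cont.comp continuous_snd).tendsto ((c, 𝒞.iv c) : C × C)
    simp only [Function.comp_apply, 𝒞.iv_iv] at this
    exact this.eventually ((𝒞.k c).open_source.mem_nhds (𝒞.k_mem c))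
  exact h1.and h2

theorem Z_inj {c : C} {x x' : C × C} (h : x.1 ∈ (𝒞.k c).source ∧ 𝒞.iv x.2 ∈ (𝒞.k c).source)
    (h' : x'.1 ∈ (𝒞.k c).source ∧ 𝒞.iv x'.2 ∈ (𝒞.k c).source) (he : Z 𝒞 c x = Z 𝒞 c x') :
    x = x' := by
  have e1 : x.1 = x'.1 := (𝒞.k c).injOn h.1 h'.1 (congrArg Prod.fst he)
  have e2 : 𝒞.iv x.2 = 𝒞.iv x'.2 := (𝒞.k c).injOn h.2 h'.2 (congrArg Prod.snd he)
  have e3 : x.2 = x'.2 := by rw [← 𝒞.iv_iv x.2, e2, 𝒞.iv_iv]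
  exact Prod.ext e1 e3

theorem Z_diag {c : C} {x : C × C} (h : x.1 ∈ (𝒞.k c).source ∧ 𝒞.iv x.2 ∈ (𝒞.k c).source) :
    (Z 𝒞 c x).1 = (Z 𝒞 c x).2 ↔ x ∈ 𝒞.Gam := by
  rw [mem_Gam]
  constructor
  · intro he
    have := (𝒞.k c).injOn h.1 h.2 he
    rw [this, 𝒞.iv_iv]
  · intro he
    show 𝒞.k c x.1 = 𝒞.k c (𝒞.iv x.2)
    rw [he, 𝒞.iv_iv]

/-- data of the local form near `(c, iv c)` -/
structure LF (c : C) (U : C × C → E2) (V : ℂ × ℂ → E2) : Prop where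
  an : AnalyticAt ℂ V 0
  dd : ∀ᶠ p in 𝓝 (0 : ℂ × ℂ), 𝒞.G c p.1 - 𝒞.G c p.2 = (p.1 - p.2) • V p ∧
    V (p.2, p.1) = V p ∧ V (p.1, p.1) = deriv (𝒞.G c) p.1
  eq : ∀ᶠ x in 𝓝 ((c, 𝒞.iv c) : C × C), U x = ((Z 𝒞 c x).1 - (Z 𝒞 c x).2) • V (Z 𝒞 c x)

theorem exists_LF {U : C × C → E2} (c : C)
    (hU : ∀ᶠ x in 𝓝 ((c, 𝒞.iv c) : C × C), U x = 𝒞.P c x.1 - 𝒞.P c (𝒞.iv x.2)) :
    ∃ V, LF 𝒞 c U V := by
  obtain ⟨V, hV, hdd⟩ := exists_divdiff (G_an0 𝒞 c)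
  refine ⟨V, hV, hdd, ?_⟩
  filter_upwards [hU, (tend_Z 𝒞 c).eventually hdd] with x h1 h2
  rw [h1]
  exact h2.1

namespace LF

variable {𝒞} {c : C} {U : C × C → E2} {V : ℂ × ℂ → E2}

theorem V0 (h : LF 𝒞 c U V) : V 0 = 𝒞.w c := h.dd.self_of_nhds.2.2

theorem tend (h : LF 𝒞 c U V) : Tendsto (fun x => V (Z 𝒞 c x)) (𝓝 (c, 𝒞.iv c)) (𝓝 (𝒞.w c)) := by
  rw [← h.V0]
  exact h.an.continuousAt.tendsto.comp (tend_Z 𝒞 c)

theorem ne (h : LF 𝒞 c U V) (i : Fin 2) (hi : 𝒞.w c i ≠ 0) :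
    ∀ᶠ x in 𝓝 ((c, 𝒞.iv c) : C × C), V (Z 𝒞 c x) i ≠ 0 := by
  have h1 : Tendsto (fun x => V (Z 𝒞 c x) i) (𝓝 (c, 𝒞.iv c)) (𝓝 (𝒞.w c i)) :=
    (continuous_apply i).continuousAt.tendsto.comp h.tend
  exact h1.eventually_ne hi

theorem zero_iff (h : LF 𝒞 c U V) : ∀ᶠ x in 𝓝 ((c, 𝒞.iv c) : C × C), (U x = 0 ↔ x ∈ 𝒞.Gam) := by
  obtain ⟨i, hi⟩ := exists_w 𝒞 c
  filter_upwards [h.ne i hi, h.eq, source_Z 𝒞 c] with x h1 h2 h3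
  rw [← Z_diag 𝒞 h3, h2, smul_eq_zero, sub_eq_zero]
  constructor
  · rintro (h4 | h4)
    · exact h4
    · exact absurd (congrFun h4 i) h1
  · exact fun h4 => Or.inl h4

end LF

theorem det2_smul (a b : ℂ) (u v : E2) : det2 (a • u) (b • v) = a * b * det2 u v := by
  simp only [det2, Pi.smul_apply, smul_eq_mul]
  ring

theorem det2_self (u : E2) : det2 u u = 0 := by
  simp only [det2]; ring

theorem continuous_det2 : Continuous (fun q : E2 × E2 => det2 q.1 q.2) := by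
  unfold det2
  fun_prop

theorem det2_nhds {u v : E2} (h : det2 u v ≠ 0) :
    ∃ A ∈ 𝓝 u, ∃ B ∈ 𝓝 v, ∀ x ∈ A, ∀ y ∈ B, det2 x y ≠ 0 := by
  have h1 : {q : E2 × E2 | det2 q.1 q.2 ≠ 0} ∈ 𝓝 (u, v) :=
    (isOpen_ne_fun continuous_det2 continuous_const).mem_nhds h
  obtain ⟨A, hA, B, hB, hAB⟩ := mem_nhds_prod_iff.1 h1
  refine ⟨A, hA, B, hB, fun x hx y hy => ?_⟩
  have : (x, y) ∈ {q : E2 × E2 | det2 q.1 q.2 ≠ 0} := hAB (show (x, y) ∈ A ×ˢ B from ⟨hx, hy⟩)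
  exact this

/-- different points of `e` have different slopes -/
theorem sep_near {U : C × C → E2} {c c' : C} {V V' : ℂ × ℂ → E2} (h : LF 𝒞 c U V)
    (h' : LF 𝒞 c' U V') (h1 : c' ≠ c) (h2 : c' ≠ 𝒞.iv c) :
    ∃ O ∈ 𝓝 ((c, 𝒞.iv c) : C × C), ∃ O' ∈ 𝓝 ((c', 𝒞.iv c') : C × C), ∀ y ∈ O, ∀ y' ∈ O',
      U y = U y' → U y = 0 := by
  obtain ⟨A, hA, B, hB, hAB⟩ := det2_nhds (𝒞.nd2 c c' h1 h2)
  refine ⟨_, inter_mem (h.tend hA) h.eq, _, inter_mem (h'.tend hB) h'.eq, ?_⟩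
  rintro y ⟨y1, y2⟩ y' ⟨y1', y2'⟩ heq
  have y2 : U y = ((Z 𝒞 c y).1 - (Z 𝒞 c y).2) • V (Z 𝒞 c y) := y2
  have y2' : U y' = ((Z 𝒞 c' y').1 - (Z 𝒞 c' y').2) • V' (Z 𝒞 c' y') := y2'
  have h4 : det2 (U y) (U y') = 0 := by rw [heq]; exact det2_self _
  rw [y2, y2', det2_smul] at h4
  rcases mul_eq_zero.1 h4 with h5 | h5
  · rcases mul_eq_zero.1 h5 with h6 | h6
    · rw [y2, h6, zero_smul]
    · rw [heq, y2', h6, zero_smul]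
  · exact absurd h5 (hAB _ y1 _ y1')

theorem odd_G {c : C} (hc : 𝒞.iv c = c) : ∀ᶠ z in 𝓝 (0 : ℂ), 𝒞.G c (-z) = - 𝒞.G c z := by
  rw [← map_k 𝒞 c, Filter.eventually_map]
  filter_upwards [𝒞.anti c, 𝒞.odd c hc] with y h1 h2
  rw [hc] at h1
  rw [← h2]
  exact h1

/-- the two coordinates determine the point, from `U` -/
theorem pair_eq {V : ℂ × ℂ → E2} {i : Fin 2} {a b : ℂ × ℂ} {u : E2}
    (ha : u = (a.1 - a.2) • V a) (hb : u = (b.1 - b.2) • V b) (hu : u ≠ 0) (hai : V a i ≠ 0)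
    (hbi : V b i ≠ 0) :
    V a (1 - i) / V a i = V b (1 - i) / V b i ∧ (a.1 - a.2) * V a i = (b.1 - b.2) * V b i := by
  have hane : a.1 - a.2 ≠ 0 := by
    intro h0
    rw [h0, zero_smul] at ha
    exact hu ha
  have hbne : b.1 - b.2 ≠ 0 := by
    intro h0
    rw [h0, zero_smul] at hb
    exact hu hb
  have ea : ∀ j, u j = (a.1 - a.2) * V a j := fun j => by rw [ha]; rfl
  have eb : ∀ j, u j = (b.1 - b.2) * V b j := fun j => by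
    have := congrFun hb j
    simpa using this
  constructor
  · have h1 : V a (1 - i) / V a i = u (1 - i) / u i := by
      rw [ea, ea, mul_div_mul_left _ _ hane]
    have h2 : V b (1 - i) / V b i = u (1 - i) / u i := by
      rw [eb, eb, mul_div_mul_left _ _ hbne]
    rw [h1, h2]
  · rw [← ea, ← eb]

/-- local injectivity modulo the swap near a point of `Γ` -/
theorem inj_near {U : C × C → E2} {c : C} {V : ℂ × ℂ → E2} (h : LF 𝒞 c U V) :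
    ∃ O ∈ 𝓝 ((c, 𝒞.iv c) : C × C), ∀ y ∈ O, ∀ y' ∈ O, U y = U y' → U y ≠ 0 →
      y' = y ∨ y' = y.swap := by
  obtain ⟨i, hi⟩ := exists_w 𝒞 c
  have hi' : deriv (𝒞.G c) 0 i ≠ 0 := hi
  by_cases hc : 𝒞.iv c = c
  · -- Weierstrass point
    obtain ⟨hh, han, hrel, h0, hFan, L', hL'⟩ :=
      coordB (G_an0 𝒞 c) i hi' (odd_G 𝒞 hc) (𝒞.nd3 c hc) h.an h.dd
    obtain ⟨-, O, hO, hinj⟩ := local_homeo hFan L' hL'
    -- coordinates `s = k x.1`, `s' = k x.2`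
    let T : C × C → ℂ × ℂ := fun x => (𝒞.k c x.1, 𝒞.k c x.2)
    have tT : Tendsto T (𝓝 (c, 𝒞.iv c)) (𝓝 0) := by
      have := (map_kk 𝒞 ((c, c) : C × C)).le
      rw [hc]
      exact this
    have tO : ∀ᶠ x in 𝓝 ((c, 𝒞.iv c) : C × C), sqm (T x) ∈ O := by
      have h1 : Tendsto (fun x => sqm (T x)) (𝓝 (c, 𝒞.iv c)) (𝓝 (sqm 0)) :=
        (continuous_sqm.tendsto 0).comp tT
      rw [sqm_zero] at h1
      exact h1.eventually hO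
    have todd : ∀ᶠ x in 𝓝 ((c, 𝒞.iv c) : C × C), 𝒞.k c (𝒞.iv x.2) = - 𝒞.k c x.2 := by
      have h1 := 𝒞.odd c hc
      have h2 : Tendsto (fun x : C × C => x.2) (𝓝 (c, 𝒞.iv c)) (𝓝 c) := by
        rw [hc]
        exact continuous_snd.tendsto ((c, c) : C × C)
      exact h2.eventually h1
    have tsrc : ∀ᶠ x in 𝓝 ((c, 𝒞.iv c) : C × C), x.2 ∈ (𝒞.k c).source := by
      have h2 : Tendsto (fun x : C × C => x.2) (𝓝 (c, 𝒞.iv c)) (𝓝 c) := by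
        rw [hc]
        exact continuous_snd.tendsto ((c, c) : C × C)
      exact h2.eventually ((𝒞.k c).open_source.mem_nhds (𝒞.k_mem c))
    have hall : ∀ᶠ x in 𝓝 ((c, 𝒞.iv c) : C × C),
        sqm (T x) ∈ O ∧ 𝒞.k c (𝒞.iv x.2) = - 𝒞.k c x.2 ∧ x.2 ∈ (𝒞.k c).source ∧
        x.1 ∈ (𝒞.k c).source ∧ V (Z 𝒞 c x) i ≠ 0 ∧
        U x = ((Z 𝒞 c x).1 - (Z 𝒞 c x).2) • V (Z 𝒞 c x) ∧
        V ((T x).1, -(T x).2) = hh (((T x).1 - (T x).2) ^ 2, (T x).1 + (T x).2) := by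
      filter_upwards [tO, todd, tsrc, source_Z 𝒞 c, h.ne i hi, h.eq, tT.eventually hrel] with
        x h1 h2 h3 h4 h5 h6 h7
      exact ⟨h1, h2, h3, h4.1, h5, h6, h7⟩
    refine ⟨_, hall, ?_⟩
    rintro y ⟨y1, y2, y3, y4, y5, y6, y7⟩ y' ⟨y1', y2', y3', y4', y5', y6', y7'⟩ heq hne
    have hZy : Z 𝒞 c y = ((T y).1, -(T y).2) := Prod.ext rfl y2
    have hZy' : Z 𝒞 c y' = ((T y').1, -(T y').2) := Prod.ext rfl y2'
    obtain ⟨p1, p2⟩ := pair_eq (u := U y) y6 (heq.trans y6') hne y5 y5'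
    have q1 : (fun p : ℂ × ℂ => ((hh (p.2, p.1) (1 - i) / hh (p.2, p.1) i,
        p.1 * hh (p.2, p.1) i) : ℂ × ℂ)) (sqm (T y)) =
        (fun p : ℂ × ℂ => ((hh (p.2, p.1) (1 - i) / hh (p.2, p.1) i,
        p.1 * hh (p.2, p.1) i) : ℂ × ℂ)) (sqm (T y')) := by
      rw [hZy, hZy', y7, y7'] at p1 p2
      simp only [sub_neg_eq_add] at p2
      exact Prod.ext p1 p2
    have q2 := hinj y1 y1' q1
    rcases (sqm_eq_iff _ _).1 q2 with q3 | q3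
    · left
      exact Prod.ext ((𝒞.k c).injOn y4' y4 (congrArg Prod.fst q3))
        ((𝒞.k c).injOn y3' y3 (congrArg Prod.snd q3))
    · right
      exact Prod.ext ((𝒞.k c).injOn y4' y3 (congrArg Prod.fst q3))
        ((𝒞.k c).injOn y3' y4 (congrArg Prod.snd q3))
  · obtain ⟨hFan, L', hL'⟩ := coordA (G_an0 𝒞 c) i hi' (𝒞.nd c hc) h.an
      (h.dd.mono fun p hp => hp.2.2)
    obtain ⟨-, O, hO, hinj⟩ := local_homeo hFan L' hL'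
    have hall : ∀ᶠ x in 𝓝 ((c, 𝒞.iv c) : C × C),
        Z 𝒞 c x ∈ O ∧ (x.1 ∈ (𝒞.k c).source ∧ 𝒞.iv x.2 ∈ (𝒞.k c).source) ∧
        V (Z 𝒞 c x) i ≠ 0 ∧
        U x = ((Z 𝒞 c x).1 - (Z 𝒞 c x).2) • V (Z 𝒞 c x) := by
      filter_upwards [(tend_Z 𝒞 c).eventually hO, source_Z 𝒞 c, h.ne i hi, h.eq] with
        x h1 h4 h5 h6
      exact ⟨h1, h4, h5, h6⟩
    refine ⟨_, hall, ?_⟩
    rintro y ⟨y1, y2, y5, y6⟩ y' ⟨y1', y2', y5', y6'⟩ heq hne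
    left
    obtain ⟨p1, p2⟩ := pair_eq (u := U y) y6 (heq.trans y6') hne y5 y5'
    have q2 := hinj y1 y1' (Prod.ext p1 p2)
    exact (Z_inj 𝒞 y2 y2' q2).symm

end Crest.Agent.R272.AJe_956
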