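import Crest.Agent.R272.AJe_956

/-!
# Row 272, A-AJ: **(K1)** existence of `U` near `Γ` (helper956)
-/

set_option autoImplicit false
set_option linter.unusedSectionVars false
set_option linter.unusedVariables false

open Set Filter Topology Metric Complex
open Crest.Agent.R272.AJ_956 Crest.Agent.R272.AJa_956 Crest.Agent.R272.AJb_956
open Crest.Agent.R272.AJc_956 Crest.Agent.R272.AJd_956 Crest.Agent.R272.AJd_956.Basic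
open Crest.Agent.R272.AJe_956

noncomputable section

namespace Crest.Agent.R272.AJf_956

variable {C : Type} [TopologicalSpace C] (𝒞 : Cur C)

/-- change of the base point of the primitive -/
theorem deriv_rel (c y : C) (hy : y ∈ (𝒞.k c).source) :
    ∃ δ : ℂ, deriv (𝒞.G c) (𝒞.k c y) = δ • 𝒞.w y := by
  set z₀ := 𝒞.k c y with hz₀
  have hz : z₀ ∈ (𝒞.k c).target := (𝒞.k c).map_source hy
  have hsy : (𝒞.k c).symm z₀ = y := (𝒞.k c).left_inv hy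
  let τ : ℂ → ℂ := fun z => 𝒞.k y ((𝒞.k c).symm z)
  have hτ : AnalyticAt ℂ τ z₀ := 𝒞.k_an c y y hy (𝒞.k_mem y)
  have hτ0 : τ z₀ = 0 := by
    show 𝒞.k y ((𝒞.k c).symm z₀) = 0
    rw [hsy, 𝒞.k_zero]
  have hts : Tendsto (𝒞.k c).symm (𝓝 z₀) (𝓝 y) := by
    have := (𝒞.k c).continuousAt_symm hz
    rw [← hsy]
    exact this
  have h1 : ∀ᶠ z in 𝓝 z₀, 𝒞.G c z = 𝒞.P c y + 𝒞.G y (τ z) := by
    filter_upwards [hts.eventually (P_change 𝒞 c y hy), (𝒞.k c).open_target.mem_nhds hz] with z h2 h3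
    have h4 : 𝒞.P c ((𝒞.k c).symm z) = 𝒞.G c z := by
      show 𝒞.G c (𝒞.k c ((𝒞.k c).symm z)) = _
      rw [(𝒞.k c).right_inv h3]
    rw [← h4, h2]
    rfl
  have hGy : HasDerivAt (𝒞.G y) (𝒞.w y) (τ z₀) := by
    rw [hτ0]
    exact (G_an0 𝒞 y).differentiableAt.hasDerivAt
  have h5 := (hGy.scomp z₀ hτ.differentiableAt.hasDerivAt).const_add (𝒞.P c y)
  have h6 := h5.congr_of_eventuallyEq h1
  exact ⟨deriv τ z₀, h6.deriv⟩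

theorem TT_near {c : C} {U : C × C → E2} {V : ℂ × ℂ → E2} (h : LF 𝒞 c U V) (i : Fin 2)
    (hi : 𝒞.w c i ≠ 0) : ∀ᶠ x in 𝓝 ((c, 𝒞.iv c) : C × C),
      𝒞.TT U i x = V (Z 𝒞 c x) (1 - i) / V (Z 𝒞 c x) i ∧
      U x i = ((Z 𝒞 c x).1 - (Z 𝒞 c x).2) * V (Z 𝒞 c x) i := by
  filter_upwards [h.eq, h.ne i hi, source_Z 𝒞 c, (tend_Z 𝒞 c).eventually h.dd] with x h1 h2 h3 h4
  have hU : ∀ j, U x j = ((Z 𝒞 c x).1 - (Z 𝒞 c x).2) * V (Z 𝒞 c x) j := fun j => by rw [h1]; rfl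
  refine ⟨?_, hU i⟩
  by_cases hx : x ∈ 𝒞.Gam
  · have hd : (Z 𝒞 c x).1 = (Z 𝒞 c x).2 := (Z_diag 𝒞 h3).2 hx
    have hZ : Z 𝒞 c x = ((Z 𝒞 c x).1, (Z 𝒞 c x).1) := Prod.ext rfl hd.symm
    have hV : V (Z 𝒞 c x) = deriv (𝒞.G c) (𝒞.k c x.1) := by
      rw [hZ]
      exact h4.2.2
    obtain ⟨δ, hδ⟩ := deriv_rel 𝒞 c x.1 h3.1
    rw [Cur.TT, if_pos hx, hV, hδ]
    simp only [Pi.smul_apply, smul_eq_mul]
    have hδ0 : δ ≠ 0 := by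
      intro h0
      apply h2
      rw [hV, hδ, h0]
      simp
    rw [mul_div_mul_left _ _ hδ0]
  · have hd : (Z 𝒞 c x).1 - (Z 𝒞 c x).2 ≠ 0 := by
      intro h0
      exact hx ((Z_diag 𝒞 h3).1 (sub_eq_zero.1 h0))
    rw [Cur.TT, if_neg hx, hU, hU, mul_div_mul_left _ _ hd]

/-- the involution in the charts -/
def jm (c : C) (z : ℂ) : ℂ := 𝒞.k c (𝒞.iv ((𝒞.k (𝒞.iv c)).symm z))

theorem jm_an (c : C) : AnalyticAt ℂ (jm 𝒞 c) 0 := by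
  have := 𝒞.iv_an (𝒞.iv c)
  rw [𝒞.iv_iv] at this
  exact this

theorem symm_zero (c : C) : (𝒞.k c).symm 0 = c := by
  rw [← 𝒞.k_zero c]
  exact (𝒞.k c).left_inv (𝒞.k_mem c)

theorem jm_zero (c : C) : jm 𝒞 c 0 = 0 := by
  rw [jm, symm_zero, 𝒞.iv_iv, 𝒞.k_zero]

theorem tend_symm (c : C) : Tendsto (𝒞.k c).symm (𝓝 0) (𝓝 c) := by
  have := (𝒞.k c).continuousAt_symm (zero_mem_target 𝒞 c)
  rw [ContinuousAt, symm_zero] at this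
  exact this

/-- `jm c` and `k (iv c) ∘ iv ∘ (k c).symm` are inverse -/
theorem jm_inv (c : C) : ∀ᶠ z in 𝓝 (0 : ℂ),
    (fun z => 𝒞.k (𝒞.iv c) (𝒞.iv ((𝒞.k c).symm z))) (jm 𝒞 c z) = z := by
  have h1 : Tendsto (fun z => 𝒞.iv ((𝒞.k (𝒞.iv c)).symm z)) (𝓝 0) (𝓝 c) := by
    have := (𝒞.iv_cont.tendsto (𝒞.iv c)).comp (tend_symm 𝒞 (𝒞.iv c))
    rwa [𝒞.iv_iv] at this
  filter_upwards [h1.eventually ((𝒞.k c).open_source.mem_nhds (𝒞.k_mem c)),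
    (𝒞.k (𝒞.iv c)).open_target.mem_nhds (zero_mem_target 𝒞 (𝒞.iv c))] with z h2 h3
  show 𝒞.k (𝒞.iv c) (𝒞.iv ((𝒞.k c).symm (𝒞.k c (𝒞.iv ((𝒞.k (𝒞.iv c)).symm z))))) = z
  rw [(𝒞.k c).left_inv h2, 𝒞.iv_iv, (𝒞.k (𝒞.iv c)).right_inv h3]

theorem jm_deriv (c : C) : deriv (jm 𝒞 c) 0 ≠ 0 := by
  intro h0
  have h1 : HasDerivAt (jm 𝒞 c) 0 0 := by
    have := (jm_an 𝒞 c).differentiableAt.hasDerivAt
    rwa [h0] at this
  have h2 : HasDerivAt (fun z => 𝒞.k (𝒞.iv c) (𝒞.iv ((𝒞.k c).symm z)))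
      (deriv (fun z => 𝒞.k (𝒞.iv c) (𝒞.iv ((𝒞.k c).symm z))) 0) (jm 𝒞 c 0) := by
    rw [jm_zero]
    exact (𝒞.iv_an c).differentiableAt.hasDerivAt
  have h3 := h2.comp (0 : ℂ) h1
  have h4 : HasDerivAt (fun z : ℂ => z) (deriv (fun z => 𝒞.k (𝒞.iv c) (𝒞.iv ((𝒞.k c).symm z))) 0 * 0)
      0 := h3.congr_of_eventuallyEq ((jm_inv 𝒞 c).mono fun z hz => hz.symm)
  have h5 := h4.unique (hasDerivAt_id (0 : ℂ))
  rw [mul_zero] at h5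
  exact zero_ne_one h5

theorem coord_of {c : C} {U : C × C → E2} {V : ℂ × ℂ → E2} (h : LF 𝒞 c U V) (i : Fin 2)
    (hc : 𝒞.iv c ≠ c) (hi : 𝒞.w c i ≠ 0) :
    ∃ (F : ℂ × ℂ → ℂ × ℂ) (F' : (ℂ × ℂ) ≃L[ℂ] (ℂ × ℂ)),
    AnalyticAt ℂ F 0 ∧ HasFDerivAt F (F' : (ℂ × ℂ) →L[ℂ] (ℂ × ℂ)) 0 ∧
      ∀ᶠ x in 𝓝 ((c, 𝒞.iv c) : C × C),
        (𝒞.TT U i x, U x i) = F (𝒞.k c x.1, 𝒞.k (𝒞.iv c) x.2) := by
  obtain ⟨hFan, L', hL'⟩ := coordA (G_an0 𝒞 c) i hi (𝒞.nd c hc) h.an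
    (h.dd.mono fun p hp => hp.2.2)
  set Φ : ℂ × ℂ → ℂ × ℂ := fun p => ((V p (1 - i) / V p i, (p.1 - p.2) * V p i) : ℂ × ℂ) with hΦ
  let J : ℂ × ℂ → ℂ × ℂ := fun p => (p.1, jm 𝒞 c p.2)
  have hJ0 : J 0 = 0 := Prod.ext rfl (jm_zero 𝒞 c)
  have hJan : AnalyticAt ℂ J 0 := by
    refine analyticAt_fst.prod ?_
    exact analytic_comp0 (jm_an 𝒞 c) analyticAt_snd rfl
  have hJd : HasFDerivAt J (ContinuousLinearMap.prod (ContinuousLinearMap.fst ℂ ℂ ℂ)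
      ((deriv (jm 𝒞 c) 0) • (ContinuousLinearMap.snd ℂ ℂ ℂ))) 0 := by
    refine HasFDerivAt.prodMk hasFDerivAt_fst ?_
    have h1 : HasDerivAt (jm 𝒞 c) (deriv (jm 𝒞 c) 0) ((0 : ℂ × ℂ).2) :=
      (jm_an 𝒞 c).differentiableAt.hasDerivAt
    exact h1.comp_hasFDerivAt (0 : ℂ × ℂ) hasFDerivAt_snd
  obtain ⟨J', hJ'⟩ := exists_equiv_of_injective (F := ℂ × ℂ) (by simp)
    (ContinuousLinearMap.prod (ContinuousLinearMap.fst ℂ ℂ ℂ)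
      ((deriv (jm 𝒞 c) 0) • (ContinuousLinearMap.snd ℂ ℂ ℂ))) (by
      intro v hv
      have e1 : v.1 = 0 := congrArg Prod.fst hv
      have e2 : deriv (jm 𝒞 c) 0 * v.2 = 0 := congrArg Prod.snd hv
      exact Prod.ext e1 ((mul_eq_zero.1 e2).resolve_left (jm_deriv 𝒞 c)))
  rw [← hJ'] at hJd
  refine ⟨fun p => Φ (J p), J'.trans L', analytic_comp0 hFan hJan hJ0, ?_, ?_⟩
  · have hL0 : HasFDerivAt Φ (L' : (ℂ × ℂ) →L[ℂ] (ℂ × ℂ)) (J 0) := by rw [hJ0]; exact hL'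
    have := hL0.comp (0 : ℂ × ℂ) hJd
    exact this
  · have hsrc : ∀ᶠ x in 𝓝 ((c, 𝒞.iv c) : C × C), x.2 ∈ (𝒞.k (𝒞.iv c)).source :=
      (continuous_snd.tendsto ((c, 𝒞.iv c) : C × C)).eventually
        ((𝒞.k (𝒞.iv c)).open_source.mem_nhds (𝒞.k_mem _))
    filter_upwards [TT_near 𝒞 h i hi, hsrc] with x h1 h2
    have hJx : J (𝒞.k c x.1, 𝒞.k (𝒞.iv c) x.2) = Z 𝒞 c x := by
      refine Prod.ext rfl ?_
      show 𝒞.k c (𝒞.iv ((𝒞.k (𝒞.iv c)).symm (𝒞.k (𝒞.iv c) x.2))) = 𝒞.k c (𝒞.iv x.2)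
      rw [(𝒞.k (𝒞.iv c)).left_inv h2]
    rw [hJx, h1.1, h1.2]

theorem coordW_of {c : C} {U : C × C → E2} {V : ℂ × ℂ → E2} (h : LF 𝒞 c U V) (i : Fin 2)
    (hc : 𝒞.iv c = c) (hi : 𝒞.w c i ≠ 0) :
    ∃ (F : ℂ × ℂ → ℂ × ℂ) (F' : (ℂ × ℂ) ≃L[ℂ] (ℂ × ℂ)),
    AnalyticAt ℂ F 0 ∧ HasFDerivAt F (F' : (ℂ × ℂ) →L[ℂ] (ℂ × ℂ)) 0 ∧
      ∀ᶠ x in 𝓝 ((c, c) : C × C),
        (𝒞.TT U i x, U x i) = F (𝒞.k c x.1 + 𝒞.k c x.2, (𝒞.k c x.1 - 𝒞.k c x.2) ^ 2) := by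
  obtain ⟨hh, han, hrel, h0, hFan, L', hL'⟩ :=
    coordB (G_an0 𝒞 c) i hi (odd_G 𝒞 hc) (𝒞.nd3 c hc) h.an h.dd
  refine ⟨_, L', hFan, hL', ?_⟩
  have hTT := TT_near 𝒞 h i hi
  rw [hc] at hTT
  have tT : Tendsto (fun x : C × C => ((𝒞.k c x.1, 𝒞.k c x.2) : ℂ × ℂ)) (𝓝 (c, c)) (𝓝 0) :=
    (map_kk 𝒞 ((c, c) : C × C)).le
  have todd : ∀ᶠ x in 𝓝 ((c, c) : C × C), 𝒞.k c (𝒞.iv x.2) = - 𝒞.k c x.2 :=
    (continuous_snd.tendsto ((c, c) : C × C)).eventually (𝒞.odd c hc)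
  filter_upwards [hTT, tT.eventually hrel, todd] with x h1 h2 h3
  have hZ : Z 𝒞 c x = (𝒞.k c x.1, -𝒞.k c x.2) := Prod.ext rfl h3
  rw [h1.1, h1.2, hZ, h2]
  simp only [sub_neg_eq_add]

/-- the punctured ball is preconnected -/
theorem isPreconnected_punctured (δ : ℝ) : IsPreconnected (ball (0 : E2) δ \ {0}) := by
  have hrank : 1 < Module.rank ℝ E2 := by
    have : Module.finrank ℝ E2 = 4 := by
      rw [Module.finrank_pi_fintype]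
      simp [Complex.finrank_real_complex]
    have h2 : ((Module.finrank ℝ E2 : ℕ) : Cardinal) = Module.rank ℝ E2 :=
      Module.finrank_eq_rank ℝ E2
    rw [← h2, this]
    norm_num
  have hs := isPreconnected_sphere hrank (0 : E2) 1
  have himg : ball (0 : E2) δ \ {0} =
      (fun q : ℝ × E2 => q.1 • q.2) '' (Ioo (0 : ℝ) δ ×ˢ sphere (0 : E2) 1) := by
    ext v
    constructor
    · rintro ⟨h1, h2⟩
      rw [mem_ball_zero_iff] at h1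
      have h3 : v ≠ 0 := h2
      have h4 : 0 < ‖v‖ := norm_pos_iff.2 h3
      refine ⟨(‖v‖, ‖v‖⁻¹ • v), ⟨⟨h4, h1⟩, ?_⟩, ?_⟩
      · rw [mem_sphere_zero_iff_norm, norm_smul, norm_inv, norm_norm, inv_mul_cancel₀ h4.ne']
      · simp only [smul_smul]
        rw [mul_inv_cancel₀ h4.ne', one_smul]
    · rintro ⟨⟨r, u⟩, ⟨⟨hr1, hr2⟩, hu⟩, rfl⟩
      rw [mem_sphere_zero_iff_norm] at hu
      simp only at hr1 hr2 hu ⊢
      refine ⟨?_, ?_⟩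
      · rw [mem_ball_zero_iff, norm_smul, hu, mul_one, Real.norm_eq_abs, abs_of_pos hr1]
        exact hr2
      · intro h0
        have h1 : r • u = 0 := h0
        rcases smul_eq_zero.1 h1 with h2 | h2
        · exact hr1.ne' h2
        · rw [h2, norm_zero] at hu
          exact zero_ne_one hu
  rw [himg]
  exact (isPreconnected_Ioo.prod hs).image _ (by fun_prop)

theorem exists_pos_lower {X F : Type*} [TopologicalSpace X] [NormedAddCommGroup F] {K : Set X}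
    (hK : IsCompact K) {f : X → F} (hf : ContinuousOn f K) (h0 : ∀ x ∈ K, f x ≠ 0) :
    ∃ δ : ℝ, 0 < δ ∧ ∀ x ∈ K, δ ≤ ‖f x‖ := by
  rcases K.eq_empty_or_nonempty with rfl | hne
  · exact ⟨1, one_pos, by simp⟩
  · obtain ⟨x₀, hx₀, hmin⟩ := hK.exists_isMinOn hne hf.norm
    exact ⟨‖f x₀‖, norm_pos_iff.2 (h0 x₀ hx₀), fun x hx => hmin hx⟩

end Crest.Agent.R272.AJf_956
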