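import Crest.Agent.R272.AJf_956

/-!
# Row 272, A-AJ: **(K1)** `exists_nearE` (helper956)
-/

set_option autoImplicit false
set_option linter.unusedSectionVars false
set_option linter.unusedVariables false

open Set Filter Topology Metric Complex
open Crest.Agent.R272.AJ_956 Crest.Agent.R272.AJa_956 Crest.Agent.R272.AJb_956
open Crest.Agent.R272.AJc_956 Crest.Agent.R272.AJd_956 Crest.Agent.R272.AJd_956.Basic
open Crest.Agent.R272.AJe_956 Crest.Agent.R272.AJf_956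

noncomputable section

namespace Crest.Agent.R272.AJg_956

variable {C : Type} [TopologicalSpace C] (𝒞 : Cur C)

/-- explicit local function -/
def fU (c : C) (x : C × C) : E2 := 𝒞.P c x.1 - 𝒞.P c (𝒞.iv x.2)

def WU (c : C) : Set (C × C) := {x | x.1 ∈ (𝒞.k c).source ∧ 𝒞.iv x.2 ∈ (𝒞.k c).source}

theorem isOpen_WU (c : C) : IsOpen (WU 𝒞 c) := by
  apply IsOpen.and
  · exact (𝒞.k c).open_source.preimage continuous_fst
  · exact (𝒞.k c).open_source.preimage (𝒞.iv_cont.comp continuous_snd)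

theorem fU_lp (c : C) {x : C × C} (hx : x ∈ WU 𝒞 c) :
    ∀ᶠ y in 𝓝 x, fU 𝒞 c y = fU 𝒞 c x + S 𝒞 x y := by
  have h1 := (continuous_fst.tendsto x).eventually (P_change 𝒞 c x.1 hx.1)
  have h2 := (continuous_snd.tendsto x).eventually (P_iv' 𝒞 c x.2 hx.2)
  filter_upwards [h1, h2] with y h3 h4
  simp only [fU, S]
  rw [h3, h4]
  abel

theorem fU_gam (c : C) {x : C × C} (hx : x ∈ 𝒞.Gam) : fU 𝒞 c x = 0 := by
  rw [mem_Gam] at hx
  simp only [fU]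
  rw [hx, 𝒞.iv_iv, sub_self]

theorem exists_U0 [CompactSpace C] [T2Space C] :
    ∃ (N : Set (C × C)) (U : C × C → E2), IsOpen N ∧ 𝒞.Gam ⊆ N ∧ 𝒞.LP U N ∧
      (∀ c, ∀ᶠ x in 𝓝 ((c, 𝒞.iv c) : C × C), U x = 𝒞.P c x.1 - 𝒞.P c (𝒞.iv x.2)) ∧
      ∀ x ∈ 𝒞.Gam, U x = 0 := by
  obtain ⟨N, F, hN, hGN, h1, h2⟩ := glue_germs (Y := E2) (WU 𝒞) (isOpen_WU 𝒞) (fU 𝒞)
    (isClosed_Gam 𝒞).isCompact
    (fun x hx => ⟨x.1, 𝒞.k_mem _, by
      have : 𝒞.iv x.2 = x.1 := by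
        rw [mem_Gam] at hx
        rw [hx, 𝒞.iv_iv]
      rw [this]; exact 𝒞.k_mem _⟩)
    (by
      intro x hx i j hi hj
      filter_upwards [fU_lp 𝒞 i hi, fU_lp 𝒞 j hj] with y hy1 hy2
      rw [hy1, hy2, fU_gam 𝒞 i hx, fU_gam 𝒞 j hx])
  refine ⟨N, F, hN, hGN, ?_, ?_, ?_⟩
  · intro x hx
    obtain ⟨i, hi, h3⟩ := h1 x hx
    have h4 := h3.self_of_nhds
    filter_upwards [h3, fU_lp 𝒞 i hi] with y hy1 hy2
    rw [hy1, h4, hy2]
    rfl
  · intro c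
    exact h2 (c, 𝒞.iv c) rfl c ⟨𝒞.k_mem c, by
      show 𝒞.iv (𝒞.iv c) ∈ _
      rw [𝒞.iv_iv]; exact 𝒞.k_mem c⟩
  · intro x hx
    obtain ⟨i, hi, h3⟩ := h1 x (hGN hx)
    rw [h3.self_of_nhds, fU_gam 𝒞 i hx]

theorem gam_eq {x : C × C} (hx : x ∈ 𝒞.Gam) : x = (x.1, 𝒞.iv x.1) := Prod.ext rfl hx

/-- near a point of `Γ × Γ` there is no bad pair -/
theorem no_bad {U : C × C → E2} {N : Set (C × C)} (hN : IsOpen N) (hGN : 𝒞.Gam ⊆ N)
    (hlp : 𝒞.LP U N)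
    (hnear : ∀ c, ∀ᶠ x in 𝓝 ((c, 𝒞.iv c) : C × C), U x = 𝒞.P c x.1 - 𝒞.P c (𝒞.iv x.2))
    (h0 : ∀ x ∈ 𝒞.Gam, U x = 0) {g g' : C × C} (hg : g ∈ 𝒞.Gam) (hg' : g' ∈ 𝒞.Gam) :
    ∃ O ∈ 𝓝 g, ∃ O' ∈ 𝓝 g', ∀ y ∈ O, ∀ y' ∈ O', U y = U y' → U y ≠ 0 →
      y' = y ∨ y' = y.swap := by
  obtain ⟨V, hV⟩ := exists_LF 𝒞 g.1 (hnear g.1)
  obtain ⟨V', hV'⟩ := exists_LF 𝒞 g'.1 (hnear g'.1)
  by_cases h1 : g'.1 = g.1
  · have hgg : g' = g := by
      rw [gam_eq 𝒞 hg', gam_eq 𝒞 hg, h1]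
    obtain ⟨O, hO, hinj⟩ := inj_near 𝒞 hV
    rw [← gam_eq 𝒞 hg] at hO
    exact ⟨O, hO, O, by rw [hgg]; exact hO, hinj⟩
  · by_cases h2 : g'.1 = 𝒞.iv g.1
    · -- `g'` is the swap of `g`
      have hgg : g' = g.swap := by
        rw [gam_eq 𝒞 hg', h2, 𝒞.iv_iv]
        rw [mem_Gam] at hg
        exact Prod.ext hg.symm rfl
      obtain ⟨O, hO, hinj⟩ := inj_near 𝒞 hV
      rw [← gam_eq 𝒞 hg] at hO
      have hsw : ∀ᶠ y' in 𝓝 g', U y'.swap = U y' := by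
        have e1 := hlp g' (hGN hg')
        have e2 : ∀ᶠ y' in 𝓝 g', U y'.swap = U g + S 𝒞 g y'.swap := by
          have t : Tendsto (Prod.swap : C × C → C × C) (𝓝 g') (𝓝 g) := by
            have := (continuous_swap.tendsto g' : Tendsto Prod.swap (𝓝 g') (𝓝 g'.swap))
            rw [hgg] at this ⊢
            simpa using this
          exact t.eventually (hlp g (hGN hg))
        filter_upwards [e1, e2] with y' e3 e4
        rw [e3, e4, h0 g hg, h0 g' hg', hgg]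
        have := S_swap 𝒞 g y'.swap
        rw [Prod.swap_swap] at this
        show 0 + S 𝒞 g y'.swap = 0 + S 𝒞 g.swap y'
        rw [this]
      have hO' : ∀ᶠ y' in 𝓝 g', y'.swap ∈ O := by
        have t : Tendsto (Prod.swap : C × C → C × C) (𝓝 g') (𝓝 g) := by
          have := (continuous_swap.tendsto g' : Tendsto Prod.swap (𝓝 g') (𝓝 g'.swap))
          rw [hgg] at this ⊢
          simpa using this
        exact t.eventually hO
      refine ⟨O, hO, _, inter_mem hsw hO', ?_⟩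
      rintro y hy y' ⟨hy1, hy2⟩ heq hne
      have hy1 : U y'.swap = U y' := hy1
      rcases hinj y hy y'.swap hy2 (heq.trans hy1.symm) hne with h3 | h3
      · right
        rw [← h3, Prod.swap_swap]
      · left
        exact Prod.swap_injective h3
    · obtain ⟨O, hO, O', hO', hsep⟩ := sep_near 𝒞 hV hV' h1 h2
      rw [← gam_eq 𝒞 hg] at hO
      rw [← gam_eq 𝒞 hg'] at hO'
      exact ⟨O, hO, O', hO', fun y hy y' hy' heq hne => absurd (hsep y hy y' hy' heq) hne⟩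

/-- **(K1)** -/
theorem exists_nearE [CompactSpace C] [T2Space C] [Nonempty C] :
    ∃ (N : Set (C × C)) (U : C × C → E2), 𝒞.NearE N U := by
  obtain ⟨N₀, U, hN₀, hGN₀, hlp, hnear, h0⟩ := exists_U0 𝒞
  have hGc : IsCompact 𝒞.Gam := (isClosed_Gam 𝒞).isCompact
  -- no bad pairs
  have hbad : ∃ N₁ : Set (C × C), IsOpen N₁ ∧ 𝒞.Gam ⊆ N₁ ∧ ∀ y ∈ N₁, ∀ y' ∈ N₁, U y = U y' →
      U y ≠ 0 → y' = y ∨ y' = y.swap := by
    let B : Set ((C × C) × (C × C)) := {p | U p.1 = U p.2 → U p.1 ≠ 0 →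
      p.2 = p.1 ∨ p.2 = p.1.swap}
    have hint : 𝒞.Gam ×ˢ 𝒞.Gam ⊆ interior B := by
      rintro ⟨g, g'⟩ ⟨hg, hg'⟩
      obtain ⟨O, hO, O', hO', h⟩ := no_bad 𝒞 hN₀ hGN₀ hlp hnear h0 hg hg'
      rw [mem_interior_iff_mem_nhds]
      refine Filter.mem_of_superset (prod_mem_nhds hO hO') ?_
      rintro ⟨y, y'⟩ ⟨hy, hy'⟩
      exact h y hy y' hy'
    obtain ⟨u, v, hu, hv, hGu, hGv, huv⟩ := generalized_tube_lemma hGc hGc isOpen_interior hint
    refine ⟨u ∩ v, hu.inter hv, subset_inter hGu hGv, ?_⟩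
    intro y hy y' hy'
    exact interior_subset (huv (show (y, y') ∈ u ×ˢ v from ⟨hy.1, hy'.2⟩))
  obtain ⟨N₁, hN₁, hGN₁, hN₁'⟩ := hbad
  -- zero set and swap
  let N₂ : Set (C × C) := {x | ∀ᶠ y in 𝓝 x, (U y = 0 → y ∈ 𝒞.Gam) ∧ U y.swap = U y}
  have hN₂ : IsOpen N₂ := isOpen_setOfPred_eventually_nhds
  have hGN₂ : 𝒞.Gam ⊆ N₂ := by
    intro g hg
    obtain ⟨V, hV⟩ := exists_LF 𝒞 g.1 (hnear g.1)
    have e1 := hV.zero_iff
    rw [← gam_eq 𝒞 hg] at e1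
    have t : Tendsto (Prod.swap : C × C → C × C) (𝓝 g) (𝓝 g.swap) := continuous_swap.tendsto g
    have e2 := hlp g (hGN₀ hg)
    have e3 := t.eventually (hlp g.swap (hGN₀ (swap_mem_Gam 𝒞 hg)))
    show ∀ᶠ y in 𝓝 g, (U y = 0 → y ∈ 𝒞.Gam) ∧ U y.swap = U y
    filter_upwards [e1, e2, e3] with y f1 f2 f3
    refine ⟨f1.1, ?_⟩
    rw [f2, f3, h0 g hg, h0 g.swap (swap_mem_Gam 𝒞 hg)]
    show 0 + S 𝒞 g.swap y.swap = 0 + S 𝒞 g y
    rw [S_swap]
  -- all properties hold on `N₅`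
  let N₅ : Set (C × C) := N₀ ∩ N₁ ∩ N₂
  have hN₅ : IsOpen N₅ := (hN₀.inter hN₁).inter hN₂
  have hGN₅ : 𝒞.Gam ⊆ N₅ := subset_inter (subset_inter hGN₀ hGN₁) hGN₂
  obtain ⟨N₆, hN₆, hGN₆, hcl⟩ := hGc.exists_isOpen_closure_subset (hN₅.mem_nhdsSet.2 hGN₅)
  let N : Set (C × C) := N₆ ∩ Prod.swap ⁻¹' N₆
  have hN : IsOpen N := hN₆.inter (hN₆.preimage continuous_swap)
  have hGN : 𝒞.Gam ⊆ N := fun x hx => ⟨hGN₆ hx, hGN₆ (swap_mem_Gam 𝒞 hx)⟩
  have hclN : closure N ⊆ N₅ := (closure_mono inter_subset_left).trans hcl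
  have hNN₅ : N ⊆ N₅ := subset_closure.trans hclN
  have hUc : ContinuousOn U N₅ := fun x hx =>
    (LP.continuousAt 𝒞 hlp hx.1.1).continuousWithinAt
  have hz : ∀ x ∈ N₅, U x = 0 → x ∈ 𝒞.Gam := fun x hx h => (hx.2.self_of_nhds).1 h
  refine ⟨N, U, hN, hGN, ?_, fun x hx => hlp x (hNN₅ hx).1.1, hnear, ?_, ?_, ?_, ?_, ?_, ?_⟩
  · rintro x ⟨h1, h2⟩
    refine ⟨h2, ?_⟩
    show x.swap.swap ∈ N₆
    rw [Prod.swap_swap]; exact h1
  · intro x hx
    exact ((hNN₅ hx).2.self_of_nhds).2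
  · intro x hx
    exact ⟨hz x (hNN₅ hx), h0 x⟩
  · intro x hx x' hx' h1 h2
    exact hN₁' x (hNN₅ hx).1.2 x' (hNN₅ hx').1.2 h1 h2
  · -- small
    intro O hO hGO
    have hA : IsCompact (closure N \ O) := isClosed_closure.isCompact.diff hO
    obtain ⟨δ₁, hδ₁, hl₁⟩ := exists_pos_lower hA
      (hUc.mono (sdiff_subset.trans hclN))
      (fun x hx h => hx.2 (hGO (hz x (hclN hx.1) h)))
    have hGO' : 𝒞.Gam ⊆ N ∩ O := subset_inter hGN hGO
    obtain ⟨V, hV, hGV, hclV⟩ := hGc.exists_isOpen_closure_subset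
      ((hN.inter hO).mem_nhdsSet.2 hGO')
    have hK : IsCompact (closure V) := isClosed_closure.isCompact
    have hKN₅ : closure V ⊆ N₅ := hclV.trans (inter_subset_left.trans hNN₅)
    obtain ⟨δ₂, hδ₂, hl₂⟩ := exists_pos_lower (hK.diff hV)
      (hUc.mono (sdiff_subset.trans hKN₅))
      (fun x hx h => hx.2 (hGV (hz x (hKN₅ hx.1) h)))
    refine ⟨min δ₁ δ₂, lt_min hδ₁ hδ₂, ?_, ?_⟩
    · intro x hx hlt
      by_contra hxO
      have := hl₁ x ⟨subset_closure hx, hxO⟩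
      exact absurd (lt_of_lt_of_le hlt (min_le_left _ _)) (not_lt.2 this)
    · intro v hv
      obtain ⟨c₀⟩ := ‹Nonempty C›
      have hg₀ : ((c₀, 𝒞.iv c₀) : C × C) ∈ 𝒞.Gam := gam_mem 𝒞 c₀
      by_cases hv0 : v = 0
      · exact ⟨(c₀, 𝒞.iv c₀), hGO' hg₀, by rw [h0 _ hg₀, hv0]⟩
      -- connectedness
      have hpre := isPreconnected_punctured (min δ₁ δ₂)
      have hopen : IsOpen (U '' (V \ 𝒞.Gam)) := by
        rw [isOpen_iff_mem_nhds]
        rintro _ ⟨x, ⟨hxV, hxG⟩, rfl⟩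
        have hxN₅ : x ∈ N₅ := hKN₅ (subset_closure hxV)
        rw [← LP.map_nhds 𝒞 hlp hxN₅.1.1 hxG]
        apply Filter.image_mem_map
        exact (hV.sdiff (isClosed_Gam 𝒞)).mem_nhds ⟨hxV, hxG⟩
      have hclosed : IsClosed (U '' closure V) := (hK.image_of_continuousOn (hUc.mono hKN₅)).isClosed
      have hsub : ball (0 : E2) (min δ₁ δ₂) \ {0} ⊆ U '' (V \ 𝒞.Gam) := by
        refine hpre.subset_left_of_subset_union hopen hclosed.isOpen_compl ?_ ?_ ?_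
        · rw [Set.disjoint_left]
          rintro _ ⟨x, ⟨hxV, _⟩, rfl⟩ h
          exact h ⟨x, subset_closure hxV, rfl⟩
        · intro u hu
          by_cases h : u ∈ U '' closure V
          · left
            obtain ⟨x, hx, rfl⟩ := h
            have hxG : x ∉ 𝒞.Gam := fun hxG => hu.2 (h0 x hxG)
            by_cases hxV : x ∈ V
            · exact ⟨x, ⟨hxV, hxG⟩, rfl⟩
            · exfalso
              have h1 := hl₂ x ⟨hx, hxV⟩
              have h2 : ‖U x‖ < min δ₁ δ₂ := mem_ball_zero_iff.1 hu.1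
              exact absurd (lt_of_lt_of_le h2 (min_le_right _ _)) (not_lt.2 h1)
          · exact Or.inr h
        · -- a point near `Γ`, off `Γ`
          let s : ℂ → C × C := fun z => ((𝒞.k c₀).symm z, 𝒞.iv c₀)
          have ts : Tendsto s (𝓝 0) (𝓝 (c₀, 𝒞.iv c₀)) :=
            (tend_symm 𝒞 c₀).prodMk_nhds tendsto_const_nhds
          have tU : Tendsto (fun z => U (s z)) (𝓝 0) (𝓝 0) := by
            have := (LP.continuousAt 𝒞 hlp (hGN₀ hg₀)).tendsto.comp ts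
            rw [h0 _ hg₀] at this
            exact this
          have e1 : ∀ᶠ z in 𝓝[≠] (0 : ℂ), s z ∈ V ∧ ‖U (s z)‖ < min δ₁ δ₂ ∧
              z ∈ (𝒞.k c₀).target ∧ z ≠ 0 := by
            have f1 : ∀ᶠ z in 𝓝[≠] (0 : ℂ), s z ∈ V :=
              (ts.eventually (hV.mem_nhds (hGV hg₀))).filter_mono nhdsWithin_le_nhds
            have f2 : ∀ᶠ z in 𝓝[≠] (0 : ℂ), U (s z) ∈ ball (0 : E2) (min δ₁ δ₂) :=
              (tU.eventually (ball_mem_nhds 0 (lt_min hδ₁ hδ₂))).filter_mono nhdsWithin_le_nhds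
            have f3 : ∀ᶠ z in 𝓝[≠] (0 : ℂ), z ∈ (𝒞.k c₀).target :=
              (Filter.Eventually.filter_mono nhdsWithin_le_nhds
                ((𝒞.k c₀).open_target.mem_nhds (zero_mem_target 𝒞 c₀)))
            filter_upwards [f1, f2, f3, self_mem_nhdsWithin] with z g1 g2 g3 g4
            exact ⟨g1, mem_ball_zero_iff.1 g2, g3, g4⟩
          obtain ⟨z, g1, g2, g3, g4⟩ := e1.exists
          have hnG : s z ∉ 𝒞.Gam := by
            intro h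
            rw [mem_Gam] at h
            have h' : 𝒞.iv c₀ = 𝒞.iv ((𝒞.k c₀).symm z) := h
            have h'' : c₀ = (𝒞.k c₀).symm z := by
              have := congrArg 𝒞.iv h'
              rwa [𝒞.iv_iv, 𝒞.iv_iv] at this
            apply g4
            have h3 := (𝒞.k c₀).right_inv g3
            rw [← h'', 𝒞.k_zero] at h3
            exact h3.symm
          refine ⟨U (s z), ⟨mem_ball_zero_iff.2 g2, ?_⟩, s z, ⟨g1, hnG⟩, rfl⟩
          intro h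
          exact hnG (hz _ (hKN₅ (subset_closure g1)) h)
      obtain ⟨x, ⟨hxV, _⟩, hx⟩ := hsub ⟨hv, hv0⟩
      exact ⟨x, hclV (subset_closure hxV), hx⟩
  · intro c i hc hi
    obtain ⟨V, hV⟩ := exists_LF 𝒞 c (hnear c)
    exact coord_of 𝒞 hV i hc hi
  · intro c i hc hi
    obtain ⟨V, hV⟩ := exists_LF 𝒞 c (hnear c)
    exact coordW_of 𝒞 hV i hc hi

end Crest.Agent.R272.AJg_956
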