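import Mathlib

/-!
# Row 272: compact spaces with a translation structure are tori

`TAtl φ`: a family of charts `φ i : OpenPartialHomeomorph A E` (`E` a finite dimensional real normed
space) covering `A`, all changes of charts being locally translations.  If `A` is compact, Hausdorff,
connected and non empty, then `A = E / Λ` for a discrete cocompact subgroup `Λ`.
-/

set_option autoImplicit false
set_option linter.unusedSectionVars false
set_option linter.unusedVariables false

open Set Topology Filter Metric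

namespace Crest.Agent.R272.Tr1_956

variable {E : Type*} [NormedAddCommGroup E] [NormedSpace ℝ E]
variable {A : Type*} [TopologicalSpace A] {ι : Type*}

/-- A translation atlas. -/
structure TAtl (φ : ι → OpenPartialHomeomorph A E) : Prop where
  cov : ∀ a : A, ∃ i, a ∈ (φ i).source
  trans : ∀ i j, ∀ a ∈ (φ i).source, a ∈ (φ j).source → ∃ c : E, ∀ᶠ x in 𝓝 a, φ j x = φ i x + c

/-- `s` is, in the charts and locally on `S`, of the form `y ↦ D y + c`. -/
def TL (φ : ι → OpenPartialHomeomorph A E) (D : E → E) (s : E → A) (S : Set E) : Prop :=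
  ∀ x ∈ S, ∃ i, ∃ c : E, D x + c ∈ (φ i).target ∧ ∀ᶠ y in 𝓝 x, s y = (φ i).symm (D y + c)

variable {φ : ι → OpenPartialHomeomorph A E} {D : E → E}

theorem TL.mono {s : E → A} {S T : Set E} (h : TL φ D s T) (hST : S ⊆ T) : TL φ D s S :=
  fun x hx => h x (hST hx)

theorem TL.congr {s t : E → A} {S : Set E} (h : TL φ D s S)
    (hst : ∀ x ∈ S, ∀ᶠ y in 𝓝 x, t y = s y) : TL φ D t S := by
  intro x hx
  obtain ⟨i, c, hc, h'⟩ := h x hx
  refine ⟨i, c, hc, ?_⟩
  filter_upwards [h', hst x hx] with y h1 h2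
  rw [h2, h1]

theorem TL.continuousAt (hD : Continuous D) {s : E → A} {S : Set E} (h : TL φ D s S) {x : E}
    (hx : x ∈ S) : ContinuousAt s x := by
  obtain ⟨i, c, hc, h'⟩ := h x hx
  have h1 : ContinuousAt (fun y => (φ i).symm (D y + c)) x := by
    have := (φ i).continuousAt_symm hc
    exact ContinuousAt.comp (f := fun y => D y + c) this (by fun_prop)
  exact h1.congr (h'.mono fun y hy => hy.symm)

/-- Two `D`-maps agreeing at a point agree near this point. -/
theorem TL.eventuallyEq (hA : TAtl φ) (hD : Continuous D) {s t : E → A} {S : Set E}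
    (hs : TL φ D s S) (ht : TL φ D t S) {x : E} (hx : x ∈ S) (hst : s x = t x) :
    ∀ᶠ y in 𝓝 x, s y = t y := by
  obtain ⟨i, c, hc, h1⟩ := hs x hx
  obtain ⟨j, c', hc', h2⟩ := ht x hx
  have es : s x = (φ i).symm (D x + c) := h1.self_of_nhds
  have et : t x = (φ j).symm (D x + c') := h2.self_of_nhds
  have hsi : s x ∈ (φ i).source := by rw [es]; exact (φ i).map_target hc
  have htj : s x ∈ (φ j).source := by rw [hst, et]; exact (φ j).map_target hc'
  obtain ⟨d, hd⟩ := hA.trans i j (s x) hsi htj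
  have cs : ContinuousAt s x := hs.continuousAt hD hx
  have ct : ContinuousAt t x := ht.continuousAt hD hx
  have key1 : ∀ᶠ y in 𝓝 x, φ j (s y) = φ i (s y) + d := cs.eventually hd
  -- the values in the chart `i`
  have hopen : ∀ᶠ y in 𝓝 x, D y + c ∈ (φ i).target := by
    have : ContinuousAt (fun y => D y + c) x := by fun_prop
    exact this.preimage_mem_nhds ((φ i).open_target.mem_nhds hc)
  have hopen' : ∀ᶠ y in 𝓝 x, D y + c' ∈ (φ j).target := by
    have : ContinuousAt (fun y => D y + c') x := by fun_prop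
    exact this.preimage_mem_nhds ((φ j).open_target.mem_nhds hc')
  have key2 : ∀ᶠ y in 𝓝 x, φ i (s y) = D y + c := by
    filter_upwards [h1, hopen] with y hy ho
    rw [hy, (φ i).right_inv ho]
  have key3 : ∀ᶠ y in 𝓝 x, φ j (t y) = D y + c' := by
    filter_upwards [h2, hopen'] with y hy ho
    rw [hy, (φ j).right_inv ho]
  have hcc : c + d = c' := by
    have e1 := key1.self_of_nhds
    have e2 := key2.self_of_nhds
    have e3 := key3.self_of_nhds
    rw [e2, hst, e3, add_assoc] at e1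
    exact (add_left_cancel e1).symm
  have hsj : ∀ᶠ y in 𝓝 x, s y ∈ (φ j).source := cs.preimage_mem_nhds ((φ j).open_source.mem_nhds htj)
  have htj' : ∀ᶠ y in 𝓝 x, t y ∈ (φ j).source :=
    ct.preimage_mem_nhds ((φ j).open_source.mem_nhds (hst ▸ htj))
  filter_upwards [key1, key2, key3, hsj, htj'] with y e1 e2 e3 m1 m2
  apply (φ j).injOn m1 m2
  rw [e1, e2, e3, add_assoc, hcc]

/-- Uniqueness on a preconnected open set. -/
theorem TL.eqOn [T2Space A] (hA : TAtl φ) (hD : Continuous D) {s t : E → A} {S : Set E}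
    (hSo : IsOpen S) (hS : IsPreconnected S)
    (hs : TL φ D s S) (ht : TL φ D t S) {x : E} (hx : x ∈ S) (hst : s x = t x) :
    ∀ y ∈ S, s y = t y := by
  let U : Set E := {y | ∀ᶠ z in 𝓝 y, s z = t z}
  let V : Set E := {y | ∀ᶠ z in 𝓝 y, s z ≠ t z}
  have hU : IsOpen U := isOpen_setOfPred_eventually_nhds
  have hV : IsOpen V := isOpen_setOfPred_eventually_nhds
  have hUV : Disjoint U V := by
    rw [Set.disjoint_left]
    intro y h1 h2
    exact h2.self_of_nhds h1.self_of_nhds
  have hcov : S ⊆ U ∪ V := by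
    intro y hy
    by_cases h : s y = t y
    · exact Or.inl (hs.eventuallyEq hA hD ht hy h)
    · right
      have cs : ContinuousAt s y := hs.continuousAt hD hy
      have ct : ContinuousAt t y := ht.continuousAt hD hy
      exact (ContinuousAt.ne_iff_eventually_ne cs ct).1 h
  have := hS.subset_left_of_subset_union hU hV hUV hcov ⟨x, hx, hs.eventuallyEq hA hD ht hx hst⟩
  intro y hy
  exact (this hy).self_of_nhds

/-- A uniform radius of charts. -/
theorem exists_radius [CompactSpace A] (hA : TAtl φ) :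
    ∃ r : ℝ, 0 < r ∧ ∀ a : A, ∃ i, a ∈ (φ i).source ∧ ball (φ i a) r ⊆ (φ i).target := by
  have key : ∃ r : ℝ, 0 < r ∧ ∀ a ∈ (univ : Set A), ∃ i, a ∈ (φ i).source ∧
      ball (φ i a) r ⊆ (φ i).target := by
    refine isCompact_univ.induction_on (p := fun K : Set A => ∃ r : ℝ, 0 < r ∧ ∀ a ∈ K, ∃ i,
      a ∈ (φ i).source ∧ ball (φ i a) r ⊆ (φ i).target) ?_ ?_ ?_ ?_
    · exact ⟨1, one_pos, by simp⟩
    · rintro K L hKL ⟨r, hr, h⟩
      exact ⟨r, hr, fun a ha => h a (hKL ha)⟩
    · rintro K L ⟨r, hr, h⟩ ⟨r', hr', h'⟩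
      refine ⟨min r r', lt_min hr hr', ?_⟩
      rintro a (ha | ha)
      · obtain ⟨i, h1, h2⟩ := h a ha
        exact ⟨i, h1, (ball_subset_ball (min_le_left _ _)).trans h2⟩
      · obtain ⟨i, h1, h2⟩ := h' a ha
        exact ⟨i, h1, (ball_subset_ball (min_le_right _ _)).trans h2⟩
    · intro a _
      obtain ⟨i, hi⟩ := hA.cov a
      obtain ⟨r, hr, hb⟩ := Metric.isOpen_iff.1 (φ i).open_target (φ i a) ((φ i).map_source hi)
      refine ⟨(φ i).source ∩ φ i ⁻¹' ball (φ i a) (r / 2), mem_nhdsWithin_of_mem_nhds ?_,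
        r / 2, half_pos hr, ?_⟩
      · exact inter_mem ((φ i).open_source.mem_nhds hi)
          (((φ i).continuousAt hi).preimage_mem_nhds (ball_mem_nhds _ (half_pos hr)))
      · rintro b ⟨hb1, hb2⟩
        refine ⟨i, hb1, ?_⟩
        refine subset_trans ?_ hb
        intro z hz
        have h1 : dist z (φ i b) < r / 2 := hz
        have h2 : dist (φ i b) (φ i a) < r / 2 := hb2
        have := dist_triangle z (φ i b) (φ i a)
        exact mem_ball.2 (by linarith)
  obtain ⟨r, hr, h⟩ := key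
  exact ⟨r, hr, fun a => h a (mem_univ a)⟩

/-- Local sections. -/
theorem exists_section {r : ℝ} (hr : ∀ a : A, ∃ i, a ∈ (φ i).source ∧
    ball (φ i a) r ⊆ (φ i).target) (hr0 : 0 < r) (a : A) (x : E) :
    ∃ s : E → A, s x = a ∧ TL φ id s (ball x r) := by
  obtain ⟨i, hi, hb⟩ := hr a
  refine ⟨fun y => (φ i).symm (y + (φ i a - x)), ?_, ?_⟩
  · simp [hi]
  · intro y hy
    refine ⟨i, φ i a - x, hb ?_, Eventually.of_forall fun z => rfl⟩
    simp only [id, mem_ball, dist_eq_norm] at hy ⊢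
    convert hy using 2
    abel

theorem isPreconnected_ball' (x : E) (r : ℝ) : IsPreconnected (ball x r) :=
  (convex_ball x r).isPreconnected

/-- Extension step. -/
theorem extend_step [T2Space A] (hA : TAtl φ) {r : ℝ} (hr0 : 0 < r)
    (hr : ∀ a : A, ∃ i, a ∈ (φ i).source ∧ ball (φ i a) r ⊆ (φ i).target)
    {ρ : ℝ} (hρ : 0 < ρ) {s : E → A} (hs : TL φ id s (ball 0 ρ)) :
    ∃ t : E → A, t 0 = s 0 ∧ TL φ id t (ball 0 (ρ + r / 2)) := by
  choose σ hσ1 hσ2 using fun x : E => exists_section hr hr0 (s x) x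
  -- coincidence
  have hcoin0 : ∀ x ∈ ball (0 : E) ρ, ∀ y ∈ ball x r ∩ ball 0 ρ, s y = σ x y := by
    intro x hx
    have hconv : IsPreconnected (ball x r ∩ ball (0 : E) ρ) :=
      ((convex_ball x r).inter (convex_ball 0 ρ)).isPreconnected
    exact TL.eqOn hA continuous_id (isOpen_ball.inter isOpen_ball) hconv
      (hs.mono inter_subset_right) ((hσ2 x).mono inter_subset_left)
      ⟨mem_ball_self hr0, hx⟩ (hσ1 x).symm
  have hcoin : ∀ x ∈ ball (0 : E) ρ, ∀ x' ∈ ball (0 : E) ρ, ∀ y, dist y x < r / 2 →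
      dist y x' < r / 2 → σ x y = σ x' y := by
    intro x hx x' hx' y hy hy'
    have hconv : IsPreconnected (ball x r ∩ ball x' r) :=
      ((convex_ball x r).inter (convex_ball x' r)).isPreconnected
    have hxx' : dist x x' < r := by
      have := dist_triangle x y x'
      rw [dist_comm x y] at this
      linarith
    have h1 : x' ∈ ball x r := by rw [mem_ball, dist_comm]; exact hxx'
    have h2 : σ x x' = σ x' x' := by
      rw [← hcoin0 x hx x' ⟨h1, hx'⟩, hσ1 x']
    refine TL.eqOn hA continuous_id (isOpen_ball.inter isOpen_ball) hconv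
      ((hσ2 x).mono inter_subset_left) ((hσ2 x').mono inter_subset_right)
      ⟨h1, mem_ball_self hr0⟩ h2 y ⟨?_, ?_⟩
    · exact mem_ball.2 (by linarith)
    · exact mem_ball.2 (by linarith)
  have hnear : ∀ y ∈ ball (0 : E) (ρ + r / 2), ∃ x ∈ ball (0 : E) ρ, dist y x < r / 2 := by
    intro y hy
    have h := thickening_ball (half_pos hr0) hρ (0 : E)
    rw [add_comm] at hy
    rw [← h] at hy
    exact (mem_thickening_iff.1 hy)
  choose! p hp1 hp2 using hnear
  refine ⟨fun y => σ (p y) y, ?_, ?_⟩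
  · have h0 : (0 : E) ∈ ball (0 : E) (ρ + r / 2) := mem_ball_self (by linarith)
    have h0' : (0 : E) ∈ ball (0 : E) ρ := mem_ball_self hρ
    have h1 := hp1 0 h0
    have h2 := hp2 0 h0
    exact (hcoin0 (p 0) h1 0 ⟨mem_ball.2 (by linarith), h0'⟩).symm
  · intro y hy
    have h1 := hp1 y hy
    have h2 := hp2 y hy
    have hyb : y ∈ ball (p y) r := mem_ball.2 (by linarith)
    obtain ⟨i, c, hc, hcy⟩ := hσ2 (p y) y hyb
    refine ⟨i, c, hc, ?_⟩
    have hev1 : ∀ᶠ z in 𝓝 y, z ∈ ball (0 : E) (ρ + r / 2) := isOpen_ball.mem_nhds hy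
    have hev2 : ∀ᶠ z in 𝓝 y, z ∈ ball (p y) (r / 2) := isOpen_ball.mem_nhds (mem_ball.2 h2)
    filter_upwards [hcy, hev1, hev2] with z hz hz1 hz2
    rw [← hz]
    exact hcoin (p z) (hp1 z hz1) (p y) h1 z (hp2 z hz1) hz2

theorem exists_ball_section [T2Space A] (hA : TAtl φ) {r : ℝ} (hr0 : 0 < r)
    (hr : ∀ a : A, ∃ i, a ∈ (φ i).source ∧ ball (φ i a) r ⊆ (φ i).target) (a₀ : A) (k : ℕ) :
    ∃ t : E → A, t 0 = a₀ ∧ TL φ id t (ball 0 (r + k * (r / 2))) := by
  induction k with
  | zero =>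
    obtain ⟨s, h1, h2⟩ := exists_section hr hr0 a₀ (0 : E)
    exact ⟨s, h1, by simpa using h2⟩
  | succ k ih =>
    obtain ⟨s, h1, h2⟩ := ih
    obtain ⟨t, h3, h4⟩ := extend_step hA hr0 hr (ρ := r + k * (r / 2)) (by positivity) h2
    refine ⟨t, h3.trans h1, ?_⟩
    convert h4 using 2
    push_cast
    ring

/-- The developing map. -/
theorem exists_global [CompactSpace A] [T2Space A] (hA : TAtl φ) (a₀ : A) :
    ∃ t : E → A, t 0 = a₀ ∧ TL φ id t univ := by
  obtain ⟨r, hr0, hr⟩ := exists_radius hA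
  choose s hs1 hs2 using exists_ball_section hA hr0 hr a₀
  -- coincidence
  have hmono : ∀ {k l : ℕ}, k ≤ l → ball (0 : E) (r + k * (r / 2)) ⊆ ball 0 (r + l * (r / 2)) := by
    intro k l hkl
    apply ball_subset_ball
    have : (k : ℝ) ≤ l := by exact_mod_cast hkl
    nlinarith
  have hcoin : ∀ k l : ℕ, k ≤ l → ∀ y ∈ ball (0 : E) (r + k * (r / 2)), s k y = s l y := by
    intro k l hkl
    refine TL.eqOn hA continuous_id isOpen_ball (isPreconnected_ball' _ _) (hs2 k)
      ((hs2 l).mono (hmono hkl)) (x := 0) (mem_ball_self (by positivity)) ?_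
    rw [hs1, hs1]
  have hex : ∀ y : E, ∃ k : ℕ, y ∈ ball (0 : E) (r + k * (r / 2)) := by
    intro y
    obtain ⟨k, hk⟩ := exists_nat_gt (‖y‖ / (r / 2))
    refine ⟨k, ?_⟩
    rw [div_lt_iff₀ (half_pos hr0)] at hk
    rw [mem_ball_zero_iff]
    linarith
  choose K hK using hex
  refine ⟨fun y => s (K y) y, hs1 _, ?_⟩
  intro y _
  obtain ⟨i, c, hc, hcy⟩ := hs2 (K y) y (hK y)
  refine ⟨i, c, hc, ?_⟩
  have hev : ∀ᶠ z in 𝓝 y, z ∈ ball (0 : E) (r + K y * (r / 2)) := isOpen_ball.mem_nhds (hK y)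
  filter_upwards [hcy, hev] with z hz hz1
  rw [← hz]
  rcases le_total (K z) (K y) with h | h
  · exact hcoin _ _ h z (hK z)
  · exact (hcoin _ _ h z hz1).symm

section Global

variable {t : E → A}

theorem TL.continuous (hD : Continuous D) (ht : TL φ D t univ) : Continuous t :=
  continuous_iff_continuousAt.2 fun x => ht.continuousAt hD (mem_univ x)

/-- translating the source -/
theorem TL.comp_add (ht : TL φ id t univ) (v : E) : TL φ id (fun y => t (y + v)) univ := by
  intro x _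
  obtain ⟨i, c, hc, h⟩ := ht (x + v) (mem_univ _)
  refine ⟨i, v + c, by simpa [add_assoc] using hc, ?_⟩
  have hcont : ContinuousAt (fun y : E => y + v) x := by fun_prop
  have := hcont.eventually h
  filter_upwards [this] with y hy
  simpa [add_assoc] using hy

theorem TL.periodic [T2Space A] (hA : TAtl φ) (ht : TL φ id t univ) {x x' : E}
    (h : t x = t x') (y : E) : t (y + (x' - x)) = t y := by
  have := TL.eqOn hA continuous_id isOpen_univ isPreconnected_univ (ht.comp_add (x' - x)) ht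
    (mem_univ x) (by simp [h])
  exact this y (mem_univ y)

/-- The period group. -/
def periods (t : E → A) : AddSubgroup E where
  carrier := {v | ∀ y, t (y + v) = t y}
  zero_mem' := by intro y; simp
  add_mem' := by
    intro a b ha hb y
    rw [← add_assoc, hb, ha]
  neg_mem' := by
    intro a ha y
    have := ha (y + -a)
    rw [← this]
    simp

theorem mem_periods {v : E} : v ∈ periods t ↔ ∀ y, t (y + v) = t y := Iff.rfl

theorem eq_iff_sub_mem [T2Space A] (hA : TAtl φ) (ht : TL φ id t univ) (x y : E) :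
    t x = t y ↔ x - y ∈ periods t := by
  constructor
  · intro h z
    exact ht.periodic hA h.symm z
  · intro h
    have := h y
    simpa using this

/-- local injectivity at each point, and openness -/
theorem TL.local_inj (ht : TL φ id t univ) (x : E) : ∃ δ > 0, InjOn t (ball x δ) := by
  obtain ⟨i, c, hc, h⟩ := ht x (mem_univ x)
  have hopen : ∀ᶠ y in 𝓝 x, y + c ∈ (φ i).target := by
    have : ContinuousAt (fun y : E => y + c) x := by fun_prop
    exact this.preimage_mem_nhds ((φ i).open_target.mem_nhds hc)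
  obtain ⟨δ, hδ, hb⟩ := Metric.eventually_nhds_iff_ball.1 (h.and hopen)
  refine ⟨δ, hδ, ?_⟩
  intro y hy z hz hyz
  obtain ⟨e1, m1⟩ := hb y hy
  obtain ⟨e2, m2⟩ := hb z hz
  rw [e1, e2] at hyz
  have := (φ i).symm.injOn (by simpa using m1) (by simpa using m2) hyz
  simpa using this

theorem TL.isOpenMap (ht : TL φ id t univ) : IsOpenMap t := by
  rw [isOpenMap_iff_nhds_le]
  intro x
  obtain ⟨i, c, hc, h⟩ := ht x (mem_univ x)
  have h1 : Filter.map t (𝓝 x) = Filter.map (fun y => (φ i).symm (y + c)) (𝓝 x) :=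
    Filter.map_congr h
  have h2 : Filter.map (fun y : E => y + c) (𝓝 x) = 𝓝 (x + c) :=
    (Homeomorph.addRight c).map_nhds_eq x
  have h3 : Filter.map (fun y => (φ i).symm (y + c)) (𝓝 x) = 𝓝 ((φ i).symm (x + c)) := by
    have : (fun y => (φ i).symm (y + c)) = (φ i).symm ∘ (fun y => y + c) := rfl
    rw [this, ← Filter.map_map, h2]
    exact (φ i).symm.map_nhds_eq (by simpa using hc)
  have h4 : t x = (φ i).symm (x + c) := h.self_of_nhds
  rw [h1, h3, h4]

/-- The developing map is onto. -/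
theorem TL.surjective [CompactSpace A] [T2Space A] [PreconnectedSpace A] (hA : TAtl φ)
    (ht : TL φ id t univ) : Function.Surjective t := by
  obtain ⟨r, hr0, hr⟩ := exists_radius hA
  have hopen : IsOpen (range t) := ht.isOpenMap.isOpen_range
  have hclosed : IsClosed (range t) := by
    rw [← closure_subset_iff_isClosed]
    intro a ha
    obtain ⟨i, hi, hb⟩ := hr a
    have hN : (φ i).source ∩ φ i ⁻¹' ball (φ i a) r ∈ 𝓝 a :=
      inter_mem ((φ i).open_source.mem_nhds hi)
        (((φ i).continuousAt hi).preimage_mem_nhds (ball_mem_nhds _ hr0))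
    obtain ⟨b, ⟨hb1, hb2⟩, x, rfl⟩ := mem_closure_iff_nhds.1 ha _ hN
    -- the section through `t x`
    let s : E → A := fun y => (φ i).symm (y + (φ i (t x) - x))
    have hs : TL φ id s (ball (x + (φ i a - φ i (t x))) r) := by
      intro y hy
      refine ⟨i, φ i (t x) - x, hb ?_, Eventually.of_forall fun z => rfl⟩
      simp only [id, mem_ball, dist_eq_norm] at hy ⊢
      convert hy using 2
      abel
    have hxm : x ∈ ball (x + (φ i a - φ i (t x))) r := by
      have : dist (φ i (t x)) (φ i a) < r := hb2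
      rw [dist_eq_norm] at this
      simp only [mem_ball, dist_eq_norm]
      convert this using 2
      abel
    have heq := TL.eqOn hA continuous_id isOpen_ball (isPreconnected_ball' _ _)
      (ht.mono (subset_univ _)) hs hxm (by simp [s, hb1])
    refine ⟨x + (φ i a - φ i (t x)), ?_⟩
    rw [heq _ (mem_ball_self hr0)]
    simp only [s]
    have : x + (φ i a - φ i (t x)) + (φ i (t x) - x) = φ i a := by abel
    rw [this, (φ i).left_inv hi]
  have : IsClopen (range t) := ⟨hclosed, hopen⟩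
  have huniv : range t = univ := this.eq_univ ⟨t 0, mem_range_self 0⟩
  exact range_eq_univ.1 huniv

theorem periods_discrete (ht : TL φ id t univ) :
    DiscreteTopology (periods t) := by
  obtain ⟨δ, hδ, hinj⟩ := ht.local_inj 0
  have : ∀ v ∈ periods t, ‖v‖ < δ → v = 0 := by
    intro v hv hvn
    have h1 : t v = t 0 := by simpa using hv 0
    exact hinj (mem_ball_zero_iff.2 hvn) (mem_ball_self hδ) h1
  rw [discreteTopology_iff_isOpen_singleton_zero]
  rw [Metric.isOpen_iff]
  intro x hx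
  rw [mem_singleton_iff] at hx
  subst hx
  refine ⟨δ, hδ, ?_⟩
  intro v hv
  rw [mem_singleton_iff]
  apply Subtype.ext
  apply this v v.2
  have : dist (v : E) ((0 : periods t) : E) < δ := hv
  simpa [dist_eq_norm] using this

/-- cocompactness -/
theorem exists_bounded [CompactSpace A] [T2Space A] [PreconnectedSpace A] (hA : TAtl φ)
    (ht : TL φ id t univ) : ∃ R : ℝ, 0 < R ∧ ∀ y : E, ∃ v ∈ periods t, ‖y - v‖ < R := by
  have hsurj := ht.surjective hA
  have hcov : (univ : Set A) ⊆ ⋃ n : ℕ, t '' ball 0 (n : ℝ) := by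
    intro a _
    obtain ⟨x, rfl⟩ := hsurj a
    obtain ⟨n, hn⟩ := exists_nat_gt ‖x‖
    exact mem_iUnion.2 ⟨n, x, mem_ball_zero_iff.2 hn, rfl⟩
  have hdir : Directed (· ⊆ ·) fun n : ℕ => t '' ball (0 : E) (n : ℝ) := by
    intro m n
    refine ⟨max m n, image_mono (ball_subset_ball ?_), image_mono (ball_subset_ball ?_)⟩
    · exact_mod_cast le_max_left m n
    · exact_mod_cast le_max_right m n
  obtain ⟨n, hn⟩ := isCompact_univ.elim_directed_cover (fun n : ℕ => t '' ball (0 : E) (n : ℝ))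
    (fun n => ht.isOpenMap _ isOpen_ball) hcov hdir
  refine ⟨(n : ℝ) + 1, by positivity, ?_⟩
  intro y
  obtain ⟨x, hx, hxy⟩ := hn (mem_univ (t y))
  refine ⟨y - x, (eq_iff_sub_mem hA ht y x).1 hxy.symm, ?_⟩
  rw [mem_ball_zero_iff] at hx
  have : y - (y - x) = x := by abel
  rw [this]
  linarith

theorem span_top_of_bounded [FiniteDimensional ℝ E] {L : Set E} {R : ℝ} (hR : 0 < R)
    (h : ∀ y : E, ∃ v ∈ L, ‖y - v‖ < R) : Submodule.span ℝ L = ⊤ := by
  by_contra hne
  have hclosed : IsClosed ((Submodule.span ℝ L : Submodule ℝ E) : Set E) :=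
    Submodule.closed_of_finiteDimensional _
  have hex : ∃ x, x ∉ Submodule.span ℝ L := by
    by_contra hcon
    push Not at hcon
    exact hne (Submodule.eq_top_iff'.2 hcon)
  obtain ⟨x₀, hx₀, hr⟩ := riesz_lemma hclosed hex (r := 1 / 2) (by norm_num)
  have hx0n : x₀ ≠ 0 := by
    rintro rfl
    exact hx₀ (Submodule.zero_mem _)
  have hpos : 0 < ‖x₀‖ := norm_pos_iff.2 hx0n
  -- scale
  let c : ℝ := 2 * R / ‖x₀‖
  have hc : 0 < c := by positivity
  obtain ⟨v, hv, hvR⟩ := h (c • x₀)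
  have hv' : c⁻¹ • v ∈ Submodule.span ℝ L := Submodule.smul_mem _ _ (Submodule.subset_span hv)
  have h1 := hr _ hv'
  have h2 : c • x₀ - v = c • (x₀ - c⁻¹ • v) := by
    rw [smul_sub, smul_smul, mul_inv_cancel₀ hc.ne', one_smul]
  rw [h2, norm_smul, Real.norm_eq_abs, abs_of_pos hc] at hvR
  have h3 : c * (1 / 2 * ‖x₀‖) ≤ c * ‖x₀ - c⁻¹ • v‖ := by gcongr
  have h4 : c * (1 / 2 * ‖x₀‖) = R := by
    simp only [c]
    field_simp
  linarith

end Global

/-- `π : E → A` exhibits `A` as the torus `E / Λ`, compatibly with the translation atlas. -/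
structure IsTorus (φ : ι → OpenPartialHomeomorph A E) (Λ : AddSubgroup E) (π : E → A) : Prop where
  tl : TL φ id π univ
  cont : Continuous π
  surj : Function.Surjective π
  cov : IsCoveringMap π
  quot : IsAddQuotientCoveringMap π Λ
  eq_iff : ∀ x y, π x = π y ↔ x - y ∈ Λ
  disc : DiscreteTopology Λ
  span : Submodule.span ℝ (Λ : Set E) = ⊤
  bdd : ∃ R : ℝ, 0 < R ∧ ∀ y : E, ∃ v ∈ Λ, ‖y - v‖ < R

/-- **Translation theorem.** -/
theorem exists_torus [FiniteDimensional ℝ E] [CompactSpace A] [T2Space A] [PreconnectedSpace A]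
    (hA : TAtl φ) (a₀ : A) : ∃ (Λ : AddSubgroup E) (π : E → A), π 0 = a₀ ∧ IsTorus φ Λ π := by
  obtain ⟨t, ht0, ht⟩ := exists_global hA a₀
  have hsurj := ht.surjective hA
  have hcont : Continuous t := ht.continuous continuous_id
  have hdisc : DiscreteTopology (periods t) := periods_discrete ht
  have hopen := ht.isOpenMap
  obtain ⟨R, hR, hb⟩ := exists_bounded hA ht
  have hq : IsQuotientMap t := (hopen.isQuotientMap hcont hsurj)
  have hquot : IsAddQuotientCoveringMap t (periods t) := by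
    refine hq.isAddQuotientCoveringMap_of_addSubgroup (periods t) ⟨hdisc⟩ ?_
    intro x y
    rw [eq_comm, eq_iff_sub_mem hA ht, sub_eq_add_neg]
  exact ⟨periods t, t, ht0, ht, hcont, hsurj, hquot.isCoveringMap, hquot,
    eq_iff_sub_mem hA ht, hdisc, span_top_of_bounded hR hb, R, hR, hb⟩

namespace IsTorus

variable {Λ : AddSubgroup E} {π : E → A}

theorem add_mem (hT : IsTorus φ Λ π) {v : E} (hv : v ∈ Λ) (x : E) : π (x + v) = π x :=
  (hT.eq_iff _ _).2 (by simpa using hv)

theorem add_left (hT : IsTorus φ Λ π) {x y : E} (h : π x = π y) (v : E) : π (x + v) = π (y + v) := by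
  rw [hT.eq_iff] at h ⊢
  convert h using 1
  abel

theorem isOpenMap (hT : IsTorus φ Λ π) : IsOpenMap π := hT.tl.isOpenMap

theorem isLocalHomeomorph (hT : IsTorus φ Λ π) : IsLocalHomeomorph π := hT.cov.isLocalHomeomorph

/-- charts composed with `π` are locally translations (any chart) -/
theorem chart_comp (hA : TAtl φ) (hT : IsTorus φ Λ π) (x : E) (i : ι) (hi : π x ∈ (φ i).source) :
    ∃ c : E, x + c ∈ (φ i).target ∧ (∀ᶠ y in 𝓝 x, π y ∈ (φ i).source) ∧
      (∀ᶠ y in 𝓝 x, φ i (π y) = y + c) ∧ ∀ᶠ y in 𝓝 x, π y = (φ i).symm (y + c) := by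
  obtain ⟨j, c, hc, h⟩ := hT.tl x (mem_univ x)
  have e0 : π x = (φ j).symm (x + c) := h.self_of_nhds
  have hxj : π x ∈ (φ j).source := by rw [e0]; exact (φ j).map_target hc
  obtain ⟨d, hd⟩ := hA.trans j i (π x) hxj hi
  have h1 : ∀ᶠ y in 𝓝 x, φ i (π y) = φ j (π y) + d := hT.cont.continuousAt.eventually hd
  have hopen : ∀ᶠ y in 𝓝 x, y + c ∈ (φ j).target := by
    have : ContinuousAt (fun y : E => y + c) x := by fun_prop
    exact this.preimage_mem_nhds ((φ j).open_target.mem_nhds hc)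
  have h2 : ∀ᶠ y in 𝓝 x, φ i (π y) = y + (c + d) := by
    filter_upwards [h1, h, hopen] with y hy1 hy2 hy3
    rw [hy1, hy2, id, (φ j).right_inv hy3, add_assoc]
  have h3 : ∀ᶠ y in 𝓝 x, π y ∈ (φ i).source :=
    hT.cont.continuousAt.preimage_mem_nhds ((φ i).open_source.mem_nhds hi)
  refine ⟨c + d, ?_, h3, h2, ?_⟩
  · rw [← h2.self_of_nhds]
    exact (φ i).map_source hi
  · filter_upwards [h2, h3] with y hy1 hy2
    rw [← hy1, (φ i).left_inv hy2]

/-- **Developing a family**: if `u` is, locally, the chart of `γ` up to a constant, then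
`γ = π (u - u τ₀ + w₀)`. -/
theorem develop [T2Space A] (hA : TAtl φ) (hT : IsTorus φ Λ π) {T : Type*} [TopologicalSpace T]
    [PreconnectedSpace T] {γ : T → A} (hγ : Continuous γ) {u : T → E} (hu : Continuous u)
    (h : ∀ τ, ∃ i, ∃ c : E, γ τ ∈ (φ i).source ∧ ∀ᶠ s in 𝓝 τ, u s = φ i (γ s) + c)
    (τ₀ : T) {w₀ : E} (hw : π w₀ = γ τ₀) : ∀ τ, γ τ = π (u τ - u τ₀ + w₀) := by
  let f : T → A := fun τ => π (u τ - u τ₀ + w₀)
  have hf : Continuous f := hT.cont.comp ((hu.sub continuous_const).add continuous_const)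
  have hcl : IsClosed {τ | γ τ = f τ} := isClosed_eq hγ hf
  have hop : IsOpen {τ | γ τ = f τ} := by
    rw [isOpen_iff_mem_nhds]
    intro τ hτ
    have hτ' : γ τ = f τ := hτ
    obtain ⟨i, c, hi, hc⟩ := h τ
    have hfi : π (u τ - u τ₀ + w₀) ∈ (φ i).source := by
      have : π (u τ - u τ₀ + w₀) = f τ := rfl
      rw [this, ← hτ']; exact hi
    obtain ⟨d, hd1, hd2, hd3, hd4⟩ := hT.chart_comp hA (u τ - u τ₀ + w₀) i hfi
    have hcu : ContinuousAt (fun s => u s - u τ₀ + w₀) τ :=
      ((hu.sub continuous_const).add continuous_const).continuousAt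
    have h2 := hcu.eventually hd2
    have h3 := hcu.eventually hd3
    have h4 : ∀ᶠ s in 𝓝 τ, γ s ∈ (φ i).source :=
      hγ.continuousAt.preimage_mem_nhds ((φ i).open_source.mem_nhds hi)
    have e1 : φ i (γ τ) = u τ - c := by rw [hc.self_of_nhds]; abel
    have e2 : φ i (f τ) = u τ - u τ₀ + w₀ + d := h3.self_of_nhds
    have e3 : u τ - c = u τ - u τ₀ + w₀ + d := by rw [← e1, ← e2, hτ']
    filter_upwards [hc, h2, h3, h4] with s s1 s2 s3 s4
    show γ s = f s
    apply (φ i).injOn s4 s2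
    have : φ i (γ s) = u s - c := by rw [s1]; abel
    rw [this]
    have e4 : φ i (f s) = u s - u τ₀ + w₀ + d := s3
    show u s - c = φ i (f s)
    rw [e4]
    have e5 : u s - c = (u s - u τ) + (u τ - c) := by abel
    rw [e5, e3]
    abel
  have : IsClopen {τ | γ τ = f τ} := ⟨hcl, hop⟩
  have huniv := this.eq_univ ⟨τ₀, by show γ τ₀ = f τ₀; simp [f, hw]⟩
  intro τ
  have : τ ∈ {τ | γ τ = f τ} := by rw [huniv]; exact mem_univ τ
  exact this

/-- **Holonomy is a period.** -/
theorem holonomy_mem [T2Space A] (hA : TAtl φ) (hT : IsTorus φ Λ π) {T : Type*} [TopologicalSpace T]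
    [PreconnectedSpace T] {γ : T → A} (hγ : Continuous γ) {u : T → E} (hu : Continuous u)
    (h : ∀ τ, ∃ i, ∃ c : E, γ τ ∈ (φ i).source ∧ ∀ᶠ s in 𝓝 τ, u s = φ i (γ s) + c)
    {τ₀ τ₁ : T} (h01 : γ τ₀ = γ τ₁) : u τ₁ - u τ₀ ∈ Λ := by
  obtain ⟨w₀, hw⟩ := hT.surj (γ τ₀)
  have := hT.develop hA hγ hu h τ₀ hw τ₁
  rw [← h01, ← hw, eq_comm, hT.eq_iff] at this
  simpa using this

/-- **Endomorphisms**: a continuous self map with constant derivative `D` in the charts. -/
theorem endo [T2Space A] (hA : TAtl φ) (hT : IsTorus φ Λ π) {g : A → A} (hg : Continuous g)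
    (D : E →L[ℝ] E)
    (hloc : ∀ a, ∃ i j, ∃ c : E, a ∈ (φ i).source ∧ g a ∈ (φ j).source ∧
      ∀ᶠ x in 𝓝 a, φ j (g x) = D (φ i x) + c) :
    ∃ w₀ : E, (∀ y, g (π y) = π (D y + w₀)) ∧ ∀ v ∈ Λ, D v ∈ Λ := by
  obtain ⟨w₀, hw⟩ := hT.surj (g (π 0))
  have h1 : ∀ y, g (π y) = π (D y + w₀) := by
    have := hT.develop hA (T := E) (γ := fun y => g (π y)) (hg.comp hT.cont) (u := fun y => D y)
      D.continuous ?_ (0 : E) (w₀ := w₀) hw
    · intro y
      simpa using this y
    · intro y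
      obtain ⟨i, j, c, hi, hj, hc⟩ := hloc (π y)
      obtain ⟨d, hd1, hd2, hd3, hd4⟩ := hT.chart_comp hA y i hi
      refine ⟨j, -(D d + c), hj, ?_⟩
      have := hT.cont.continuousAt.eventually hc
      filter_upwards [this, hd3] with s s1 s2
      rw [s1, s2, map_add]
      abel
  refine ⟨w₀, h1, ?_⟩
  intro v hv
  have h2 := h1 (0 + v)
  rw [hT.add_mem hv 0, h1 0, eq_comm, hT.eq_iff] at h2
  simpa using h2

end IsTorus

end Crest.Agent.R272.Tr1_956
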