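import Crest.Agent.R272.AJg_956
import Crest.Agent.R272.Tr1_956

/-!
# Row 272, A-AJ: **(K2)** `exists_jac` (helper956)
-/

set_option autoImplicit false
set_option linter.unusedSectionVars false
set_option linter.unusedVariables false

open Set Filter Topology Metric Complex
open Crest.Agent.R272.AJ_956 Crest.Agent.R272.AJa_956 Crest.Agent.R272.AJb_956
open Crest.Agent.R272.AJc_956 Crest.Agent.R272.AJd_956 Crest.Agent.R272.AJd_956.Basic
open Crest.Agent.R272.AJe_956 Crest.Agent.R272.AJf_956 Crest.Agent.R272.AJg_956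
open Crest.Agent.R272.Tr1_956

noncomputable section

namespace Crest.Agent.R272.AJh_956

variable {C : Type} [TopologicalSpace C] (𝒞 : Cur C) {A : Type} [TopologicalSpace A]

/-- chart data on the quotient -/
structure CD (q : C × C → A) (N : Set (C × C)) (f : C × C → E2) : Prop where
  open_N : IsOpen N
  sat : ∀ y ∈ N, ∀ y', q y' = q y → y' ∈ N
  lp : 𝒞.LP f N
  iff : ∀ y ∈ N, ∀ y' ∈ N, (f y = f y' ↔ q y = q y')
  sm : ∀ g ∈ 𝒞.Gam, g ∈ N → ∀ O, IsOpen O → 𝒞.Gam ⊆ O → f '' (N ∩ O) ∈ 𝓝 (f g)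

variable {𝒞} {q : C × C → A}

theorem IsQ.swap (hq : 𝒞.IsQ q) (x : C × C) : q x.swap = q x :=
  ((hq.fib x x.swap).2 (Or.inr (Or.inl rfl))).symm

theorem IsQ.gam (hq : 𝒞.IsQ q) {x x' : C × C} (hx : x ∈ 𝒞.Gam) (hx' : x' ∈ 𝒞.Gam) : q x = q x' :=
  (hq.fib x x').2 (Or.inr (Or.inr ⟨hx, hx'⟩))

theorem IsQ.closedMap [CompactSpace C] [T2Space A] (hq : 𝒞.IsQ q) : IsClosedMap q :=
  hq.cont.isClosedMap

theorem IsQ.nhds_fiber [CompactSpace C] [T2Space A] (hq : 𝒞.IsQ q) {p : C × C → Prop} (a : A)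
    (H : ∀ x, q x = a → ∀ᶠ y in 𝓝 x, p y) : ∀ᶠ b in 𝓝 a, ∀ x, q x = b → p x := by
  have := (IsQ.closedMap hq).eventually_nhds_fiber (p := p) a (fun x hx => H x hx)
  exact this

namespace CD

variable {N : Set (C × C)} {f : C × C → E2}

theorem open_image (h : CD 𝒞 q N f) {O : Set (C × C)} (hO : IsOpen O) (hON : O ⊆ N)
    (hq : 𝒞.IsQ q) (hsat : ∀ y ∈ O, ∀ y', q y' = q y → y' ∈ O) : IsOpen (f '' O) := by
  rw [isOpen_iff_mem_nhds]
  rintro _ ⟨y, hy, rfl⟩
  by_cases hyG : y ∈ 𝒞.Gam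
  · have hGO : 𝒞.Gam ⊆ O := fun g hg => hsat y hy g (IsQ.gam hq hg hyG)
    have := h.sm y hyG (hON hy) O hO hGO
    rwa [inter_eq_self_of_subset_right hON] at this
  · rw [← LP.map_nhds 𝒞 h.lp (hON hy) hyG]
    exact Filter.image_mem_map (hO.mem_nhds hy)

open Classical in
/-- the chart -/
def chart [CompactSpace C] [T2Space A] (hq : 𝒞.IsQ q) (a₀ : A) (h : CD 𝒞 q N f) :
    OpenPartialHomeomorph A E2 where
  toFun a := f (Function.surjInv hq.surj a)
  invFun v := if hv : ∃ y ∈ N, f y = v then q hv.choose else a₀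
  source := q '' N
  target := f '' N
  map_source' := by
    rintro _ ⟨y, hy, rfl⟩
    exact ⟨_, h.sat y hy _ (Function.surjInv_eq hq.surj (q y)), rfl⟩
  map_target' := by
    rintro _ ⟨y, hy, rfl⟩
    have hv : ∃ y' ∈ N, f y' = f y := ⟨y, hy, rfl⟩
    rw [dif_pos hv]
    exact ⟨_, hv.choose_spec.1, rfl⟩
  left_inv' := by
    rintro _ ⟨y, hy, rfl⟩
    have h1 : Function.surjInv hq.surj (q y) ∈ N :=
      h.sat y hy _ (Function.surjInv_eq hq.surj (q y))
    have hv : ∃ y' ∈ N, f y' = f (Function.surjInv hq.surj (q y)) := ⟨_, h1, rfl⟩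
    rw [dif_pos hv]
    have h2 := (h.iff _ hv.choose_spec.1 _ h1).1 hv.choose_spec.2
    rw [h2, Function.surjInv_eq hq.surj]
  right_inv' := by
    rintro _ ⟨y, hy, rfl⟩
    have hv : ∃ y' ∈ N, f y' = f y := ⟨y, hy, rfl⟩
    rw [dif_pos hv]
    have h1 : Function.surjInv hq.surj (q hv.choose) ∈ N :=
      h.sat _ hv.choose_spec.1 _ (Function.surjInv_eq hq.surj _)
    have h2 := (h.iff _ h1 _ hv.choose_spec.1).2 (Function.surjInv_eq hq.surj _)
    rw [h2, hv.choose_spec.2]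
  open_source := by
    rw [isOpen_iff_mem_nhds]
    rintro _ ⟨y, hy, rfl⟩
    have h1 : ∀ᶠ b in 𝓝 (q y), ∀ x, q x = b → x ∈ N :=
      IsQ.nhds_fiber hq (q y) fun x hx => h.open_N.mem_nhds (h.sat y hy x hx)
    filter_upwards [h1] with b hb
    obtain ⟨x, rfl⟩ := hq.surj b
    exact ⟨x, hb x rfl, rfl⟩
  open_target := h.open_image h.open_N Subset.rfl hq h.sat
  continuousOn_toFun := by
    rintro _ ⟨y, hy, rfl⟩
    apply ContinuousAt.continuousWithinAt
    have hr : Function.surjInv hq.surj (q y) ∈ N :=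
      h.sat y hy _ (Function.surjInv_eq hq.surj (q y))
    intro W hW
    have h1 : ∀ᶠ b in 𝓝 (q y), ∀ x, q x = b → f x ∈ W := by
      refine IsQ.nhds_fiber hq (q y) fun x hx => ?_
      have hxN : x ∈ N := h.sat y hy x hx
      have hfx : f x = f (Function.surjInv hq.surj (q y)) :=
        (h.iff x hxN _ hr).2 (by rw [hx, Function.surjInv_eq hq.surj])
      have := (LP.continuousAt 𝒞 h.lp hxN)
      apply this
      rw [hfx]
      exact hW
    rw [Filter.mem_map]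
    filter_upwards [h1] with b hb
    exact hb _ (Function.surjInv_eq hq.surj b)
  continuousOn_invFun := by
    rintro _ ⟨y, hy, rfl⟩
    apply ContinuousAt.continuousWithinAt
    have hv : ∃ y' ∈ N, f y' = f y := ⟨y, hy, rfl⟩
    intro B hB
    have hB' : B ∈ 𝓝 (q y) := by
      have hB : B ∈ 𝓝 (if hv : ∃ y' ∈ N, f y' = f y then q hv.choose else a₀) := hB
      rw [dif_pos hv] at hB
      rwa [(h.iff _ hv.choose_spec.1 _ hy).1 hv.choose_spec.2] at hB
    -- a saturated open set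
    let O : Set (C × C) := N ∩ q ⁻¹' (interior B)
    have hO : IsOpen O := h.open_N.inter (isOpen_interior.preimage hq.cont)
    have hsat : ∀ z ∈ O, ∀ z', q z' = q z → z' ∈ O := by
      rintro z ⟨h1, h2⟩ z' hz
      refine ⟨h.sat z h1 z' hz, ?_⟩
      show q z' ∈ interior B
      rw [hz]; exact h2
    have hfO : IsOpen (f '' O) := h.open_image hO inter_subset_left hq hsat
    have hyO : y ∈ O := ⟨hy, mem_interior_iff_mem_nhds.2 hB'⟩
    rw [Filter.mem_map]
    refine Filter.mem_of_superset (hfO.mem_nhds ⟨y, hyO, rfl⟩) ?_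
    rintro _ ⟨z, hz, rfl⟩
    have hv' : ∃ y' ∈ N, f y' = f z := ⟨z, hz.1, rfl⟩
    show (if hv : ∃ y ∈ N, f y = f z then q hv.choose else a₀) ∈ B
    rw [dif_pos hv', (h.iff _ hv'.choose_spec.1 _ hz.1).1 hv'.choose_spec.2]
    exact interior_subset hz.2

theorem chart_source [CompactSpace C] [T2Space A] (hq : 𝒞.IsQ q) (a₀ : A) (h : CD 𝒞 q N f) :
    (h.chart hq a₀).source = q '' N := rfl

theorem chart_apply [CompactSpace C] [T2Space A] (hq : 𝒞.IsQ q) (a₀ : A) (h : CD 𝒞 q N f)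
    {y : C × C} (hy : y ∈ N) : h.chart hq a₀ (q y) = f y := by
  have h1 : Function.surjInv hq.surj (q y) ∈ N :=
    h.sat y hy _ (Function.surjInv_eq hq.surj (q y))
  exact (h.iff _ h1 _ hy).2 (Function.surjInv_eq hq.surj _)

/-- transitions are translations -/
theorem trans [CompactSpace C] [T2Space A] (hq : 𝒞.IsQ q) (a₀ : A) {N' : Set (C × C)}
    {f' : C × C → E2} (h : CD 𝒞 q N f) (h' : CD 𝒞 q N' f') (a : A) (ha : a ∈ q '' N)
    (ha' : a ∈ q '' N') :
    ∃ c : E2, ∀ᶠ b in 𝓝 a, h'.chart hq a₀ b = h.chart hq a₀ b + c := by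
  obtain ⟨y, hy, rfl⟩ := ha
  obtain ⟨y', hy', he⟩ := ha'
  have hyN' : y ∈ N' := h'.sat y' hy' y he.symm
  refine ⟨f' y - f y, ?_⟩
  have h1 : ∀ᶠ b in 𝓝 (q y), ∀ x, q x = b → (x ∈ N ∧ x ∈ N' ∧ f' x = f x + (f' y - f y)) := by
    refine IsQ.nhds_fiber hq (q y) fun x hx => ?_
    have hxN : x ∈ N := h.sat y hy x hx
    have hxN' : x ∈ N' := h'.sat y hyN' x hx
    have e1 : f x = f y := (h.iff x hxN y hy).2 hx
    have e2 : f' x = f' y := (h'.iff x hxN' y hyN').2 hx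
    filter_upwards [h.open_N.mem_nhds hxN, h'.open_N.mem_nhds hxN', h.lp x hxN, h'.lp x hxN'] with
      z z1 z2 z3 z4
    refine ⟨z1, z2, ?_⟩
    rw [z3, z4, e1, e2]
    abel
  filter_upwards [h1] with b hb
  obtain ⟨x, rfl⟩ := hq.surj b
  obtain ⟨x1, x2, x3⟩ := hb x rfl
  rw [h.chart_apply hq a₀ x1, h'.chart_apply hq a₀ x2, x3]

end CD

/-- chart data at a point off `Γ` -/
theorem exists_CD_off [T2Space C] (hq : 𝒞.IsQ q) (x : C × C) (hx : x ∉ 𝒞.Gam) :
    ∃ N f, CD 𝒞 q N f ∧ x ∈ N := by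
  classical
  let W : Set (C × C) := {y | y.1 ∈ (𝒞.k x.1).source ∧ y.2 ∈ (𝒞.k x.2).source}
  have hW : IsOpen W := by
    apply IsOpen.and
    · exact (𝒞.k x.1).open_source.preimage continuous_fst
    · exact (𝒞.k x.2).open_source.preimage continuous_snd
  have hxW : x ∈ W := ⟨𝒞.k_mem _, 𝒞.k_mem _⟩
  have hlpW : ∀ y ∈ W, ∀ᶠ z in 𝓝 y, S 𝒞 x z = S 𝒞 x y + S 𝒞 y z := by
    rintro y ⟨hy1, hy2⟩
    have h1 := (continuous_fst.tendsto y).eventually (P_change 𝒞 x.1 y.1 hy1)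
    have h2 := (continuous_snd.tendsto y).eventually (P_change 𝒞 x.2 y.2 hy2)
    filter_upwards [h1, h2] with z h3 h4
    simp only [S]
    rw [h3, h4]
    abel
  obtain ⟨O, hO, hinj⟩ := inj_S 𝒞 x hx
  have hGc : IsOpen (𝒞.Gamᶜ) := (isClosed_Gam 𝒞).isOpen_compl
  have hfib : ∀ y, y ∉ 𝒞.Gam → ∀ y', q y' = q y → y' = y ∨ y' = y.swap := by
    intro y hy y' h
    rcases (hq.fib y y').1 h.symm with h1 | h1 | h1
    · exact Or.inl h1
    · exact Or.inr h1
    · exact absurd h1.1 hy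
  have hsG : ∀ y, y ∉ 𝒞.Gam → y.swap ∉ 𝒞.Gam := by
    intro y hy h
    apply hy
    have := swap_mem_Gam 𝒞 h
    rwa [Prod.swap_swap] at this
  by_cases hd : x.2 = x.1
  · -- diagonal
    let O₁ : Set (C × C) := interior O ∩ W ∩ 𝒞.Gamᶜ
    have hO₁ : IsOpen O₁ := (isOpen_interior.inter hW).inter hGc
    have hxO₁ : x ∈ O₁ := ⟨⟨mem_interior_iff_mem_nhds.2 hO, hxW⟩, hx⟩
    have hxs : x.swap = x := Prod.ext hd hd.symm
    have hSs : ∀ y, S 𝒞 x y.swap = S 𝒞 x y := by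
      intro y
      have := S_swap 𝒞 x y
      rwa [hxs] at this
    let N : Set (C × C) := O₁ ∩ Prod.swap ⁻¹' O₁
    have hNG : ∀ y ∈ N, y ∉ 𝒞.Gam := fun y hy => hy.1.2
    refine ⟨N, S 𝒞 x, ⟨hO₁.inter (hO₁.preimage continuous_swap), ?_, ?_, ?_, ?_⟩, hxO₁, ?_⟩
    · intro y hy y' h
      rcases hfib y (hNG y hy) y' h with rfl | rfl
      · exact hy
      · refine ⟨hy.2, ?_⟩
        show y.swap.swap ∈ O₁
        rw [Prod.swap_swap]; exact hy.1
    · intro y hy
      exact hlpW y hy.1.1.2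
    · intro y hy y' hy'
      constructor
      · intro h
        rcases hinj y (interior_subset hy.1.1.1) y' (interior_subset hy'.1.1.1) h with rfl | ⟨rfl, -⟩
        · rfl
        · exact (IsQ.swap hq y).symm
      · intro h
        rcases hfib y' (hNG y' hy') y h with rfl | rfl
        · rfl
        · exact hSs y'
    · intro g hg hgN
      exact absurd hg (hNG g hgN)
    · show x.swap ∈ O₁
      rw [hxs]; exact hxO₁
  · -- off the diagonal
    obtain ⟨Oa, Ob, hOa, hOb, haO, hbO, hab⟩ := t2_separation (Ne.symm hd : x.1 ≠ x.2)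
    let D : Set (C × C) := {y | y.1 ∈ Oa ∧ y.2 ∈ Ob}
    have hD : IsOpen D := by
      apply IsOpen.and
      · exact hOa.preimage continuous_fst
      · exact hOb.preimage continuous_snd
    let O₁ : Set (C × C) := interior O ∩ W ∩ 𝒞.Gamᶜ ∩ D
    have hO₁ : IsOpen O₁ := ((isOpen_interior.inter hW).inter hGc).inter hD
    have hxO₁ : x ∈ O₁ := ⟨⟨⟨mem_interior_iff_mem_nhds.2 hO, hxW⟩, hx⟩, haO, hbO⟩
    have hdis : ∀ y ∈ O₁, y.swap ∉ O₁ := by
      intro y hy hy'
      exact Set.disjoint_left.1 hab hy.2.1 hy'.2.2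
    let N : Set (C × C) := O₁ ∪ Prod.swap ⁻¹' O₁
    have hNG : ∀ y ∈ N, y ∉ 𝒞.Gam := by
      rintro y (hy | hy)
      · exact hy.1.2
      · have := hsG _ hy.1.2
        rwa [Prod.swap_swap] at this
    -- the representative in `O₁`
    let r : C × C → C × C := fun y => if y ∈ O₁ then y else y.swap
    have hr : ∀ y ∈ N, r y ∈ O₁ := by
      intro y hy
      by_cases h : y ∈ O₁
      · simp only [r, if_pos h]; exact h
      · simp only [r, if_neg h]
        exact hy.resolve_left h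
    have hrq : ∀ y, q (r y) = q y := by
      intro y
      by_cases h : y ∈ O₁
      · simp only [r, if_pos h]
      · simp only [r, if_neg h]
        exact IsQ.swap hq y
    have hrs : ∀ y ∈ N, r y.swap = r y := by
      rintro y (hy | hy)
      · have h1 : y.swap ∉ O₁ := hdis y hy
        simp only [r, if_pos hy, if_neg h1, Prod.swap_swap]
      · have hy : y.swap ∈ O₁ := hy
        have h1 : y ∉ O₁ := by
          have := hdis _ hy
          rwa [Prod.swap_swap] at this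
        simp only [r, if_pos hy, if_neg h1]
    refine ⟨N, fun y => S 𝒞 x (r y), ⟨hO₁.union (hO₁.preimage continuous_swap), ?_, ?_, ?_, ?_⟩,
      Or.inl hxO₁⟩
    · intro y hy y' h
      rcases hfib y (hNG y hy) y' h with rfl | rfl
      · exact hy
      · rcases hy with hy | hy
        · right
          show y.swap.swap ∈ O₁
          rw [Prod.swap_swap]; exact hy
        · exact Or.inl hy
    · rintro y (hy | hy)
      · have h1 : r y = y := by simp only [r, if_pos hy]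
        filter_upwards [hO₁.mem_nhds hy, hlpW y hy.1.1.2] with z hz1 hz2
        have h2 : r z = z := by simp only [r, if_pos hz1]
        show S 𝒞 x (r z) = S 𝒞 x (r y) + _
        rw [h1, h2, hz2]
        rfl
      · have hy : y.swap ∈ O₁ := hy
        have h1 : r y = y.swap := by
          have h1 : y ∉ O₁ := by
            have := hdis _ hy
            rwa [Prod.swap_swap] at this
          simp only [r, if_neg h1]
        have e1 : ∀ᶠ z in 𝓝 y, z.swap ∈ O₁ :=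
          (continuous_swap.tendsto y).eventually (hO₁.mem_nhds hy)
        have e2 : ∀ᶠ z in 𝓝 y, S 𝒞 x z.swap = S 𝒞 x y.swap + S 𝒞 y.swap z.swap :=
          (continuous_swap.tendsto y).eventually (hlpW y.swap hy.1.1.2)
        filter_upwards [e1, e2] with z hz1 hz2
        have h2 : r z = z.swap := by
          have h1 : z ∉ O₁ := by
            have := hdis _ hz1
            rwa [Prod.swap_swap] at this
          simp only [r, if_neg h1]
        show S 𝒞 x (r z) = S 𝒞 x (r y) + S 𝒞 y z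
        rw [h1, h2, hz2, S_swap]
    · intro y hy y' hy'
      constructor
      · intro h
        rcases hinj _ (interior_subset (hr y hy).1.1.1) _ (interior_subset (hr y' hy').1.1.1) h with
          h1 | ⟨-, h1⟩
        · rw [← hrq y, ← hrq y', h1]
        · exact absurd h1 hd
      · intro h
        rcases hfib y' (hNG y' hy') y h with rfl | rfl
        · rfl
        · show S 𝒞 x (r y'.swap) = S 𝒞 x (r y')
          rw [hrs y' hy']
    · intro g hg hgN
      exact absurd hg (hNG g hgN)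

/-- chart data at `o` -/
theorem CD_of_nearE (hq : 𝒞.IsQ q) {N : Set (C × C)} {U : C × C → E2} (h : 𝒞.NearE N U) :
    CD 𝒞 q N U := by
  refine ⟨h.open_N, ?_, h.lp, ?_, ?_⟩
  · intro y hy y' hq'
    rcases (hq.fib y y').1 hq'.symm with rfl | rfl | ⟨-, h2⟩
    · exact hy
    · exact h.swap_N y hy
    · exact h.sub h2
  · intro y hy y' hy'
    constructor
    · intro he
      by_cases h0 : U y = 0
      · have h0' : U y' = 0 := by rw [← he]; exact h0
        exact IsQ.gam hq ((h.zero y hy).1 h0) ((h.zero y' hy').1 h0')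
      · rcases h.inj y hy y' hy' he h0 with rfl | rfl
        · rfl
        · exact (IsQ.swap hq y).symm
    · intro he
      rcases (hq.fib y y').1 he with rfl | rfl | ⟨h1, h2⟩
      · rfl
      · exact (h.swap y hy).symm
      · rw [(h.zero y hy).2 h1, (h.zero y' hy').2 h2]
  · intro g hg hgN O hO hGO
    obtain ⟨δ, hδ, -, hb⟩ := h.small O hO hGO
    rw [(h.zero g hgN).2 hg]
    exact Filter.mem_of_superset (ball_mem_nhds 0 hδ) hb

variable (𝒞 q) in
/-- index type of the translation atlas -/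
def Idx : Type := {p : Set (C × C) × (C × C → E2) // CD 𝒞 q p.1 p.2}

/-- the translation atlas of `A` -/
def atl [CompactSpace C] [T2Space A] (hq : 𝒞.IsQ q) (a₀ : A) (i : Idx 𝒞 q) :
    OpenPartialHomeomorph A E2 := i.2.chart hq a₀

theorem isTAtl [CompactSpace C] [T2Space C] [Nonempty C] [T2Space A] (hq : 𝒞.IsQ q) (a₀ : A) :
    TAtl (atl hq a₀) := by
  constructor
  · intro a
    obtain ⟨x, rfl⟩ := hq.surj a
    by_cases hx : x ∈ 𝒞.Gam
    · obtain ⟨N, U, hNU⟩ := exists_nearE 𝒞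
      exact ⟨⟨(N, U), CD_of_nearE hq hNU⟩, x, hNU.sub hx, rfl⟩
    · obtain ⟨N, f, hNf, hxN⟩ := exists_CD_off hq x hx
      exact ⟨⟨(N, f), hNf⟩, x, hxN, rfl⟩
  · intro i j a hi hj
    exact CD.trans hq a₀ i.2 j.2 a hi hj

/-- every point of `C × C` lies in some chart datum -/
theorem exists_CD [CompactSpace C] [T2Space C] [Nonempty C] (hq : 𝒞.IsQ q) (x : C × C) :
    ∃ N f, CD 𝒞 q N f ∧ x ∈ N := by
  by_cases hx : x ∈ 𝒞.Gam
  · obtain ⟨N, U, hNU⟩ := exists_nearE 𝒞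
    exact ⟨N, U, CD_of_nearE hq hNU, hNU.sub hx⟩
  · exact exists_CD_off hq x hx

theorem compactSpace_of [CompactSpace C] (hq : 𝒞.IsQ q) : CompactSpace A :=
  ⟨by rw [← hq.surj.range_eq]; exact isCompact_range hq.cont⟩

theorem preconnectedSpace_of [ConnectedSpace C] (hq : 𝒞.IsQ q) : PreconnectedSpace A :=
  ⟨by rw [← hq.surj.range_eq]; exact isPreconnected_range hq.cont⟩

/-- **(K2), torus form** -/
theorem exists_jac' [CompactSpace C] [T2Space C] [ConnectedSpace C] [T2Space A] (hq : 𝒞.IsQ q) :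
    ∃ (a₀ : A) (Λ : AddSubgroup E2) (π : E2 → A), IsTorus (atl hq a₀) Λ π ∧ 𝒞.IsJac q Λ π := by
  have := compactSpace_of hq
  have := preconnectedSpace_of hq
  obtain ⟨c₀⟩ := (inferInstance : Nonempty C)
  obtain ⟨Λ, π, hπ0, hT⟩ := exists_torus (isTAtl hq (q (c₀, 𝒞.iv c₀))) (q (c₀, 𝒞.iv c₀))
  have hloc : ∀ (x : C × C) (z₀ : E2), π z₀ = q x →
      ∀ᶠ y in 𝓝 x, q y = π (z₀ + (𝒞.P x.1 y.1 + 𝒞.P x.2 y.2)) := by
    intro x z₀ hz
    obtain ⟨N, f, hNf, hxN⟩ := exists_CD hq x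
    let i : Idx 𝒞 q := ⟨(N, f), hNf⟩
    have hi : π z₀ ∈ (atl hq (q (c₀, 𝒞.iv c₀)) i).source := by
      rw [hz]; exact ⟨x, hxN, rfl⟩
    obtain ⟨d, hd1, hd2, hd3, hd4⟩ := hT.chart_comp (isTAtl hq (q (c₀, 𝒞.iv c₀))) z₀ i hi
    have e0 : f x = z₀ + d := by
      have h1 := hd3.self_of_nhds
      rw [hz] at h1
      have h2 : atl hq (q (c₀, 𝒞.iv c₀)) i (q x) = f x := hNf.chart_apply hq _ hxN
      rw [← h2, h1]
    have t : Tendsto (fun y => z₀ + S 𝒞 x y) (𝓝 x) (𝓝 z₀) := by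
      have := tendsto_const_nhds (x := z₀) (f := 𝓝 x) |>.add (S_tendsto 𝒞 x)
      rwa [add_zero] at this
    filter_upwards [hNf.open_N.mem_nhds hxN, hNf.lp x hxN, t.eventually hd2, t.eventually hd3]
      with y y1 y2 y3 y4
    show q y = π (z₀ + S 𝒞 x y)
    have hqy : q y ∈ (atl hq (q (c₀, 𝒞.iv c₀)) i).source := ⟨y, y1, rfl⟩
    apply (atl hq (q (c₀, 𝒞.iv c₀)) i).injOn hqy y3
    rw [y4]
    have h2 : atl hq (q (c₀, 𝒞.iv c₀)) i (q y) = f y := hNf.chart_apply hq _ y1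
    rw [h2, y2, e0]
    show z₀ + d + S 𝒞 x y = z₀ + S 𝒞 x y + d
    abel
  have hzero : ∀ c, π 0 = q (c, 𝒞.iv c) := by
    intro c
    rw [hπ0]
    exact IsQ.gam hq (gam_mem 𝒞 c₀) (gam_mem 𝒞 c)
  refine ⟨q (c₀, 𝒞.iv c₀), Λ, π, hT, ⟨hT.cont, hT.isOpenMap, hT.surj, hT.cov, hT.eq_iff, hT.disc,
    hT.span, hzero, hloc, ?_⟩⟩
  intro N U hNU
  rw [nhdsSet, Filter.eventually_sSup]
  rintro _ ⟨g, hg, rfl⟩
  have hg' : π 0 = q g := by
    rw [hzero g.1]
    exact IsQ.gam hq (gam_mem 𝒞 g.1) hg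
  filter_upwards [hloc g 0 hg', hNU.lp g (hNU.sub hg)] with y y1 y2
  rw [y1, y2, (hNU.zero g (hNU.sub hg)).2 hg]

/-- **(K2)** -/
theorem exists_jac [CompactSpace C] [T2Space C] [ConnectedSpace C] [T2Space A] (hq : 𝒞.IsQ q) :
    ∃ (Λ : AddSubgroup E2) (π : E2 → A), 𝒞.IsJac q Λ π := by
  obtain ⟨_, Λ, π, -, h⟩ := exists_jac' hq
  exact ⟨Λ, π, h⟩

end Crest.Agent.R272.AJh_956
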