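import Crest.Agent.R272.AJh_956

/-!
# Row 272, A-AJ: endomorphisms of the Jacobian (helper956)

`IsJac.map_eq`  : an automorphism `al` of the curve (commuting with `iv`, `al^* ω = D ω`) acts on
`A = ℂ² / Λ` by the linear map `D`;
`IsJac.endo`    : hence `D Λ ⊆ Λ`.
`IsJac.unique`  : the lattice and the covering are unique.
-/

set_option autoImplicit false
set_option linter.unusedSectionVars false
set_option linter.unusedVariables false

open Set Filter Topology Metric Complex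
open Crest.Agent.R272.AJ_956 Crest.Agent.R272.AJd_956 Crest.Agent.R272.AJd_956.Basic
open Crest.Agent.R272.AJh_956

noncomputable section

namespace Crest.Agent.R272.AJi_956

variable {C : Type} [TopologicalSpace C] {𝒞 : Cur C} {A : Type} [TopologicalSpace A]
  {q : C × C → A} {Λ : AddSubgroup E2} {π : E2 → A}

/-- local injectivity of the covering -/
theorem IsJac.inj_near (J : 𝒞.IsJac q Λ π) (z : E2) :
    ∃ δ > 0, ∀ x ∈ ball z δ, ∀ y ∈ ball z δ, π x = π y → x = y := by
  have hd := J.disc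
  obtain ⟨δ, hδ, h⟩ : ∃ δ > 0, ∀ v ∈ Λ, ‖v‖ < δ → v = 0 := by
    have h0 : ({(0 : Λ)} : Set Λ) ∈ 𝓝 (0 : Λ) := by
      rw [discreteTopology_iff_singleton_mem_nhds] at hd
      exact hd 0
    rw [Metric.mem_nhds_iff] at h0
    obtain ⟨ε, hε, hb⟩ := h0
    refine ⟨ε, hε, fun v hv hlt => ?_⟩
    have : (⟨v, hv⟩ : Λ) ∈ ball (0 : Λ) ε := by
      rw [mem_ball, dist_zero_right]
      exact hlt
    have h2 := hb this
    rw [mem_singleton_iff] at h2
    exact congrArg Subtype.val h2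
  refine ⟨δ / 2, by positivity, fun x hx y hy hxy => ?_⟩
  rw [J.eq_iff] at hxy
  have h1 : ‖x - y‖ < δ := by
    rw [mem_ball, dist_eq_norm] at hx hy
    calc ‖x - y‖ = ‖(x - z) - (y - z)‖ := by congr 1; abel
      _ ≤ ‖x - z‖ + ‖y - z‖ := norm_sub_le _ _
      _ < δ / 2 + δ / 2 := add_lt_add hx hy
      _ = δ := by ring
  exact sub_eq_zero.1 (h _ hxy h1)

/-- **comparison**: two maps out of `C × C` (through `A`) with the same local formula -/
theorem IsJac.comparison [CompactSpace C] [T2Space A] (hq : 𝒞.IsQ q) (J : 𝒞.IsJac q Λ π)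
    {B : Type} [TopologicalSpace B] [T2Space B] {r : C × C → B} {ρ : E2 → B}
    (hr : Continuous r) (hρ : Continuous ρ) (hfac : ∀ x x', q x = q x' → r x = r x')
    {D : E2 → E2} (hDc : Continuous D)
    (h0 : ∀ c, r (c, 𝒞.iv c) = ρ (D 0))
    (hloc' : ∀ x z, q x = π z → r x = ρ (D z) → ∀ᶠ y in 𝓝 x, r y = ρ (D (z + S 𝒞 x y))) :
    ∀ x z, q x = π z → r x = ρ (D z) := by
  classical
  -- the descended map
  have hqm : IsQuotientMap q := (IsQ.closedMap hq).isQuotientMap hq.cont hq.surj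
  let g : A → B := fun a => r (hq.surj a).choose
  have hg : ∀ x, g (q x) = r x := fun x => hfac _ _ (hq.surj (q x)).choose_spec
  have hgc : Continuous g := by
    rw [hqm.continuous_iff]
    have : g ∘ q = r := funext hg
    rw [this]
    exact hr
  have hcl : IsClosed {z | g (π z) = ρ (D z)} :=
    isClosed_eq (hgc.comp J.cont) (hρ.comp hDc)
  have hop : IsOpen {z | g (π z) = ρ (D z)} := by
    rw [isOpen_iff_mem_nhds]
    intro z hz
    have hz' : g (π z) = ρ (D z) := hz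
    obtain ⟨δ, hδ, hinj⟩ := IsJac.inj_near J z
    -- near the fibre of `π z`
    have key : ∀ x, q x = π z → ∀ᶠ y in 𝓝 x, ∀ w ∈ ball z δ, q y = π w → r y = ρ (D w) := by
      intro x hx
      have hrx : r x = ρ (D z) := by rw [← hz', ← hx, hg]
      have h1 := hloc' x z hx hrx
      have h2 := J.loc x z hx.symm
      have t : Tendsto (fun y => z + S 𝒞 x y) (𝓝 x) (𝓝 z) := by
        have := tendsto_const_nhds (x := z) (f := 𝓝 x) |>.add (S_tendsto 𝒞 x)
        rwa [add_zero] at this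
      filter_upwards [h1, h2, t.eventually (ball_mem_nhds z hδ)] with y y1 y2 y3 w hw hyw
      have e : z + S 𝒞 x y = w := by
        refine hinj _ y3 w hw ?_
        rw [← hyw, y2]
        rfl
      rw [y1, e]
    have h3 := IsQ.nhds_fiber hq (π z) key
    have h4 := J.cont.continuousAt.eventually h3
    filter_upwards [h4, ball_mem_nhds z hδ] with w w1 w2
    obtain ⟨y, hy⟩ := hq.surj (π w)
    show g (π w) = ρ (D w)
    rw [← hy, hg]
    exact w1 y hy w w2 hy
  have huniv : {z | g (π z) = ρ (D z)} = univ := by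
    refine IsClopen.eq_univ ⟨hcl, hop⟩ ⟨0, ?_⟩
    obtain ⟨x, hx⟩ := hq.surj (π 0)
    show g (π 0) = ρ (D 0)
    rw [J.zero x.1, hg, h0]
  intro x z hxz
  have : z ∈ {z | g (π z) = ρ (D z)} := by rw [huniv]; exact mem_univ z
  have h5 : g (π z) = ρ (D z) := this
  rw [← h5, ← hxz, hg]

/-- **an automorphism of the curve acts linearly on the Jacobian** -/
theorem IsJac.map_eq [CompactSpace C] [T2Space A] (hq : 𝒞.IsQ q) (J : 𝒞.IsJac q Λ π)
    {al : C → C} (hal : Continuous al) (hiv : ∀ c, al (𝒞.iv c) = 𝒞.iv (al c))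
    {D : E2 → E2} (hDc : Continuous D) (hDa : ∀ v w, D (v + w) = D v + D w)
    (hP : ∀ c, ∀ᶠ y in 𝓝 c, 𝒞.P (al c) (al y) = D (𝒞.P c y)) :
    ∀ x z, q x = π z → q (al x.1, al x.2) = π (D z) := by
  have hD0 : D 0 = 0 := by
    have := hDa 0 0
    rw [add_zero] at this
    exact left_eq_add.1 this
  refine IsJac.comparison hq J (r := fun x => q (al x.1, al x.2)) (ρ := π) ?_ J.cont ?_ hDc ?_ ?_
  · exact hq.cont.comp ((hal.comp continuous_fst).prodMk (hal.comp continuous_snd))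
  · intro x x' hxx'
    rw [hq.fib] at hxx'
    show q (al x.1, al x.2) = q (al x'.1, al x'.2)
    rcases hxx' with rfl | rfl | ⟨h1, h2⟩
    · rfl
    · exact (IsQ.swap hq _).symm
    · apply IsQ.gam hq
      · show al x.2 = 𝒞.iv (al x.1)
        rw [← hiv]
        exact congrArg al h1
      · show al x'.2 = 𝒞.iv (al x'.1)
        rw [← hiv]
        exact congrArg al h2
  · intro c
    show q (al c, al (𝒞.iv c)) = π (D 0)
    rw [hD0, hiv]
    exact (J.zero (al c)).symm
  · intro x z hxz hr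
    have h1 := J.loc (al x.1, al x.2) (D z) hr.symm
    have t : Tendsto (fun y : C × C => ((al y.1, al y.2) : C × C)) (𝓝 x) (𝓝 (al x.1, al x.2)) :=
      (((hal.comp continuous_fst).prodMk (hal.comp continuous_snd)).tendsto x)
    have h2 := t.eventually h1
    have h3 : ∀ᶠ y in 𝓝 x, 𝒞.P (al x.1) (al y.1) = D (𝒞.P x.1 y.1) :=
      (continuous_fst.tendsto x).eventually (hP x.1)
    have h4 : ∀ᶠ y in 𝓝 x, 𝒞.P (al x.2) (al y.2) = D (𝒞.P x.2 y.2) :=
      (continuous_snd.tendsto x).eventually (hP x.2)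
    filter_upwards [h2, h3, h4] with y y1 y2 y3
    rw [y1, y2, y3, ← hDa, ← hDa]
    rfl

/-- **`D Λ ⊆ Λ`** -/
theorem IsJac.endo [CompactSpace C] [T2Space A] (hq : 𝒞.IsQ q) (J : 𝒞.IsJac q Λ π)
    {al : C → C} (hal : Continuous al) (hiv : ∀ c, al (𝒞.iv c) = 𝒞.iv (al c))
    {D : E2 → E2} (hDc : Continuous D) (hDa : ∀ v w, D (v + w) = D v + D w)
    (hP : ∀ c, ∀ᶠ y in 𝓝 c, 𝒞.P (al c) (al y) = D (𝒞.P c y)) : ∀ v ∈ Λ, D v ∈ Λ := by
  intro v hv
  obtain ⟨x, hx⟩ := hq.surj (π 0)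
  have h1 := IsJac.map_eq hq J hal hiv hDc hDa hP x 0 hx
  have h2 := IsJac.map_eq hq J hal hiv hDc hDa hP x v (by
    rw [hx, eq_comm, J.eq_iff, sub_zero]
    exact hv)
  have hD0 : D 0 = 0 := by
    have := hDa 0 0
    rw [add_zero] at this
    exact left_eq_add.1 this
  rw [h1, eq_comm, J.eq_iff, hD0, sub_zero] at h2
  exact h2

/-- diagonal form (338's `hD`) -/
theorem IsJac.endo_diag [CompactSpace C] [T2Space A] (hq : 𝒞.IsQ q) (J : 𝒞.IsJac q Λ π)
    {al : C → C} (hal : Continuous al) (hiv : ∀ c, al (𝒞.iv c) = 𝒞.iv (al c))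
    {d : Fin 2 → ℂ} {D : E2 → E2} (hD : ∀ v i, D v i = d i * v i)
    (hP : ∀ c, ∀ᶠ y in 𝓝 c, 𝒞.P (al c) (al y) = D (𝒞.P c y)) : ∀ v ∈ Λ, D v ∈ Λ := by
  refine IsJac.endo hq J hal hiv ?_ ?_ hP
  · refine continuous_pi fun i => ?_
    have : (fun v : E2 => D v i) = fun v => d i * v i := funext fun v => hD v i
    rw [this]
    exact continuous_const.mul (continuous_apply i)
  · intro v w
    funext i
    rw [Pi.add_apply, hD, hD, hD, Pi.add_apply]
    ring

/-- the covering is unique -/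
theorem IsJac.unique [CompactSpace C] [T2Space A] (hq : 𝒞.IsQ q) (J : 𝒞.IsJac q Λ π)
    {Λ' : AddSubgroup E2} {π' : E2 → A} (J' : 𝒞.IsJac q Λ' π') : π' = π ∧ Λ' = Λ := by
  have h1 : π' = π := by
    funext z
    obtain ⟨x, hx⟩ := hq.surj (π z)
    rw [← hx, eq_comm]
    refine IsJac.comparison hq J (r := q) (ρ := π') (D := id) hq.cont J'.cont (fun _ _ h => h)
      continuous_id (fun c => (J'.zero c).symm) ?_ x z hx
    intro x z _ hr
    exact J'.loc x z hr.symm
  subst h1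
  refine ⟨rfl, ?_⟩
  ext v
  have h2 := J.eq_iff v 0
  have h3 := J'.eq_iff v 0
  rw [sub_zero] at h2 h3
  rw [← h2, ← h3]

end Crest.Agent.R272.AJi_956
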