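import Crest.Agent.R272.Cur5_297

/-!
Row 272 (helper297): CUR-INST, part 6: the special curve `y² = t⁶ - t` (slopes `0` and the fifth
roots of unity) and its automorphism `al : (t, y) ↦ (ζ t, ζ³ y)` of order five, which acts on
`ω = (1, t) dt / y` by `(ζ³, ζ⁴)`.
-/

set_option autoImplicit false
set_option linter.unusedSectionVars false

open Set Filter Topology Metric Complex OnePoint

noncomputable section

namespace Crest.Agent.R272.Cur_297

open Crest.Agent.R272.AJ_956 (E2 det2 Cur)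

/-- primitive fifth root of unity (the conjugate of `exp (2 π i / 5)`) -/
def ze : ℂ := Complex.exp (-(2 * Real.pi * Complex.I / 5))

theorem ze_prim : IsPrimitiveRoot ze 5 := by
  have := (Complex.isPrimitiveRoot_exp 5 (by norm_num)).inv
  rw [← Complex.exp_neg] at this
  simpa [ze] using this

theorem ze_pow : ze ^ 5 = 1 := ze_prim.pow_eq_one
theorem ze_ne : ze ≠ 0 := ze_prim.ne_zero (by norm_num)

theorem ze_geom : 1 + ze + ze ^ 2 + ze ^ 3 + ze ^ 4 = 0 := by
  have h := ze_prim.geom_sum_eq_zero (by norm_num)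
  simp only [Finset.sum_range_succ, Finset.sum_range_zero, pow_zero, pow_one, zero_add] at h
  exact h

theorem ze_inj {i j : ℕ} (hi : i < 5) (hj : j < 5) (h : ze ^ i = ze ^ j) : i = j :=
  ze_prim.pow_inj hi hj h

/-- the special parameter: slopes `ζ, ζ², 0, ζ³, ζ⁴, 1` -/
def Pz : Par where
  c := ![ze, ze ^ 2, 0, ze ^ 3, ze ^ 4, 1]
  inj := by
    have hz : ∀ n : ℕ, ze ^ n ≠ 0 := fun n => pow_ne_zero n ze_ne
    have key : ∀ i j : ℕ, i < 5 → j < 5 → i ≠ j → ze ^ i ≠ ze ^ j := fun i j hi hj hij h =>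
      hij (ze_inj hi hj h)
    have h12 : ze ≠ ze ^ 2 := by simpa using key 1 2 (by norm_num) (by norm_num) (by norm_num)
    have h13 : ze ≠ ze ^ 3 := by simpa using key 1 3 (by norm_num) (by norm_num) (by norm_num)
    have h14 : ze ≠ ze ^ 4 := by simpa using key 1 4 (by norm_num) (by norm_num) (by norm_num)
    have h10 : ze ≠ 1 := by simpa using key 1 0 (by norm_num) (by norm_num) (by norm_num)
    have h23 := key 2 3 (by norm_num) (by norm_num) (by norm_num)
    have h24 := key 2 4 (by norm_num) (by norm_num) (by norm_num)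
    have h20 : ze ^ 2 ≠ 1 := by simpa using key 2 0 (by norm_num) (by norm_num) (by norm_num)
    have h34 := key 3 4 (by norm_num) (by norm_num) (by norm_num)
    have h30 : ze ^ 3 ≠ 1 := by simpa using key 3 0 (by norm_num) (by norm_num) (by norm_num)
    have h40 : ze ^ 4 ≠ 1 := by simpa using key 4 0 (by norm_num) (by norm_num) (by norm_num)
    intro i j h
    fin_cases i <;> fin_cases j <;> first
      | rfl
      | exact absurd h ze_ne
      | exact absurd h ze_ne.symm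
      | exact absurd h (hz _)
      | exact absurd h (hz _).symm
      | exact absurd h one_ne_zero
      | exact absurd h zero_ne_one
      | exact absurd h h12
      | exact absurd h h12.symm
      | exact absurd h h13
      | exact absurd h h13.symm
      | exact absurd h h14
      | exact absurd h h14.symm
      | exact absurd h h10
      | exact absurd h h10.symm
      | exact absurd h h23
      | exact absurd h h23.symm
      | exact absurd h h24
      | exact absurd h h24.symm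
      | exact absurd h h20
      | exact absurd h h20.symm
      | exact absurd h h34
      | exact absurd h h34.symm
      | exact absurd h h30
      | exact absurd h h30.symm
      | exact absurd h h40
      | exact absurd h h40.symm

theorem Pz_p0 (t : ℂ) : Pz.p0 t = t ^ 6 - t := by
  have h : Pz.p0 t - (t ^ 6 - t) = (t - t ^ 5 - ze * t + ze * t ^ 4 - ze ^ 3 * t ^ 3
      + ze ^ 3 * t ^ 4 + ze ^ 5 * t - ze ^ 5 * t ^ 3 - ze ^ 6 * t + ze ^ 6 * t ^ 2) *
      (1 + ze + ze ^ 2 + ze ^ 3 + ze ^ 4) := by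
    simp only [Par.p0, Par.AA, Par.BB, Pz]
    simp [Matrix.cons_val_zero, Matrix.cons_val_one]
    ring
  rw [ze_geom, mul_zero] at h
  exact sub_eq_zero.1 h

theorem Pz_p1 (s : ℂ) : Pz.p1 s = 1 - s ^ 5 := by
  have h : Pz.p1 s - (1 - s ^ 5) = (-s + s ^ 5 + ze * s ^ 2 - ze * s ^ 5 + ze ^ 3 * s ^ 2
      - ze ^ 3 * s ^ 3 - ze ^ 5 * s ^ 3 + ze ^ 5 * s ^ 5 + ze ^ 6 * s ^ 4 - ze ^ 6 * s ^ 5) *
      (1 + ze + ze ^ 2 + ze ^ 3 + ze ^ 4) := by
    simp only [Par.p1, Par.At, Par.Bt, Pz]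
    simp [Matrix.cons_val_zero, Matrix.cons_val_one]
    ring
  rw [ze_geom, mul_zero] at h
  exact sub_eq_zero.1 h

/-! ### the automorphism -/

/-- the curve `y² = t⁶ - t` -/
abbrev Cz : Type := Cv Pz

theorem al0_mem {c : Cz} (h : tt c ≠ ∞) : ((ze * tv c, ze ^ 3 * yv c) : ℂ × ℂ) ∈ Aff Pz.p0 := by
  show (ze ^ 3 * yv c) ^ 2 = Pz.p0 (ze * tv c)
  have h1 := yv_sq h
  rw [Pz_p0] at h1 ⊢
  have h5 := ze_pow
  have : (ze ^ 3 * yv c) ^ 2 = ze ^ 6 * yv c ^ 2 := by ring
  rw [this, h1]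
  have h6 : ze ^ 6 = ze := by rw [pow_succ, h5, one_mul]
  rw [mul_pow, h6]
  ring

theorem al1_mem {c : Cz} (h : tt c ≠ ((0 : ℂ) : P1)) :
    ((ze ^ 4 * sv c, vv c) : ℂ × ℂ) ∈ Aff Pz.p1 := by
  show vv c ^ 2 = Pz.p1 (ze ^ 4 * sv c)
  have h1 := vv_sq h
  rw [Pz_p1] at h1 ⊢
  have h5 : (ze ^ 4) ^ 5 = 1 := by rw [← pow_mul, mul_comm, pow_mul, ze_pow, one_pow]
  rw [h1, mul_pow, h5, one_mul]

open Classical in
/-- `(t, y) ↦ (ζ t, ζ³ y)` -/
def al (c : Cz) : Cz :=
  if h : tt c ≠ ∞ then mk0 ⟨(ze * tv c, ze ^ 3 * yv c), al0_mem h⟩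
  else mk1 ⟨(ze ^ 4 * sv c, vv c), al1_mem (nz h)⟩

theorem al_eq0 {c : Cz} (h : tt c ≠ ∞) :
    al c = mk0 ⟨(ze * tv c, ze ^ 3 * yv c), al0_mem h⟩ := dif_pos h

theorem al_eq1 {c : Cz} (h : tt c ≠ ((0 : ℂ) : P1)) :
    al c = mk1 ⟨(ze ^ 4 * sv c, vv c), al1_mem h⟩ := by
  by_cases h0 : tt c ≠ ∞
  · have ht := tv_ne h0 h
    have hz := ze_ne
    have h5 := ze_pow
    have h1 : tt (al c) = ((ze * tv c : ℂ) : P1) := by rw [al_eq0 h0, tt_mk0]
    have h2 : tt (al c) ≠ ∞ := by rw [h1]; exact OnePoint.coe_ne_infty _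
    have h3 : tt (al c) ≠ ((0 : ℂ) : P1) := by
      rw [h1]
      exact fun e => mul_ne_zero hz ht (OnePoint.coe_injective e)
    have h4 : ze ^ 4 * sv c ≠ 0 := mul_ne_zero (pow_ne_zero 4 hz) (sv_ne h0 h)
    refine ext1 h3 ?_ ?_
    · rw [h1, tt_mk1]
      show _ = inv1 (ze ^ 4 * sv c)
      rw [inv1_ne h4, sv_eq h0]
      congr 1
      have : ze ^ 4 = ze⁻¹ := eq_inv_of_mul_eq_one_left (by rw [← pow_succ]; exact h5)
      rw [this, mul_inv, inv_inv, inv_inv]
    · rw [vv_mk1, vv_eq h2 h3, al_eq0 h0, yv_mk0, tv_mk0]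
      show (ze ^ 3 * yv c) / (ze * tv c) ^ 3 = vv c
      rw [vv_eq h0 h]
      field_simp
  · exact dif_neg h0

theorem tt_al0 {c : Cz} (h : tt c ≠ ∞) : tt (al c) = ((ze * tv c : ℂ) : P1) := by
  rw [al_eq0 h, tt_mk0]
theorem tt_al_ne {c : Cz} (h : tt c ≠ ∞) : tt (al c) ≠ ∞ := by
  rw [tt_al0 h]; exact OnePoint.coe_ne_infty _
theorem tt_al_inf {c : Cz} (h : tt c = ∞) : tt (al c) = ∞ := by
  rw [al_eq1 (ne_zero_of_inf h), tt_mk1]
  show inv1 (ze ^ 4 * sv c) = ∞
  rw [sv_inf (not_not.2 h), mul_zero, inv1_zero]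
theorem tv_al {c : Cz} : tv (al c) = ze * tv c := by
  by_cases h : tt c ≠ ∞
  · rw [al_eq0 h, tv_mk0]
  · have h1 := tt_al_inf (not_not.1 h)
    unfold tv
    rw [h1, not_not.1 h, fin_infty, mul_zero]
theorem yv_al {c : Cz} (h : tt c ≠ ∞) : yv (al c) = ze ^ 3 * yv c := by
  rw [al_eq0 h, yv_mk0]
theorem sv_al {c : Cz} : sv (al c) = ze ^ 4 * sv c := by
  by_cases h : tt c = ((0 : ℂ) : P1)
  · have h0 : tt c ≠ ∞ := by rw [h]; exact OnePoint.coe_ne_infty _
    have h1 : tv c = 0 := by unfold tv; rw [h]; rfl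
    have h2 : tt (al c) = ((0 : ℂ) : P1) := by rw [tt_al0 h0, h1, mul_zero]
    unfold sv
    rw [h2, h]
    simp
  · rw [al_eq1 h, sv_mk1]
theorem vv_al {c : Cz} (h : tt c ≠ ((0 : ℂ) : P1)) : vv (al c) = vv c := by
  rw [al_eq1 h, vv_mk1]

theorem tt_al_ne0 {c : Cz} (h : tt c ≠ ((0 : ℂ) : P1)) : tt (al c) ≠ ((0 : ℂ) : P1) := by
  by_cases h0 : tt c ≠ ∞
  · rw [tt_al0 h0]
    exact fun e => mul_ne_zero ze_ne (tv_ne h0 h) (OnePoint.coe_injective e)
  · rw [tt_al_inf (not_not.1 h0)]; exact OnePoint.infty_ne_coe _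

/-- `al` on the affine piece -/
def ala (c : {c : Cz // tt c ≠ ∞}) : Aff Pz.p0 := ⟨(ze * tv c.1, ze ^ 3 * yv c.1), al0_mem c.2⟩
/-- `al` on the piece at infinity -/
def alb (c : {c : Cz // tt c ≠ ((0 : ℂ) : P1)}) : Aff Pz.p1 :=
  ⟨(ze ^ 4 * sv c.1, vv c.1), al1_mem c.2⟩

theorem continuous_ala : Continuous ala := by
  have h1 : Continuous fun c : {c : Cz // tt c ≠ ∞} => tv c.1 :=
    continuous_iff_continuousAt.2 fun c =>
      ContinuousAt.comp (f := Subtype.val) (g := tv) (continuousAt_tv c.2)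
        continuous_subtype_val.continuousAt
  have h2 : Continuous fun c : {c : Cz // tt c ≠ ∞} => yv c.1 :=
    continuous_iff_continuousAt.2 fun c =>
      ContinuousAt.comp (f := Subtype.val) (g := yv) (continuousAt_yv c.2)
        continuous_subtype_val.continuousAt
  exact ((continuous_const.mul h1).prodMk (continuous_const.mul h2)).subtype_mk _

theorem continuous_alb : Continuous alb := by
  have h1 : Continuous fun c : {c : Cz // tt c ≠ ((0 : ℂ) : P1)} => sv c.1 :=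
    continuous_iff_continuousAt.2 fun c =>
      ContinuousAt.comp (f := Subtype.val) (g := sv) (continuousAt_sv c.2)
        continuous_subtype_val.continuousAt
  have h2 : Continuous fun c : {c : Cz // tt c ≠ ((0 : ℂ) : P1)} => vv c.1 :=
    continuous_iff_continuousAt.2 fun c =>
      ContinuousAt.comp (f := Subtype.val) (g := vv) (continuousAt_vv c.2)
        continuous_subtype_val.continuousAt
  exact ((continuous_const.mul h1).prodMk h2).subtype_mk _

theorem continuous_al0 : Continuous fun c : {c : Cz // tt c ≠ ∞} => al c.1 :=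
  (continuous_mk0.comp continuous_ala).congr fun c => (al_eq0 c.2).symm

theorem continuous_al1 : Continuous fun c : {c : Cz // tt c ≠ ((0 : ℂ) : P1)} => al c.1 :=
  (continuous_mk1.comp continuous_alb).congr fun c => (al_eq1 c.2).symm

theorem continuous_al : Continuous al := by
  rw [continuous_iff_continuousAt]
  intro c
  by_cases h : tt c ≠ ∞
  · exact ((isOpen_ne_inf (P := Pz)).isOpenEmbedding_subtypeVal.continuousAt_iff (g := al)
      (x := ⟨c, h⟩)).1 continuous_al0.continuousAt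
  · exact ((isOpen_ne_zero (P := Pz)).isOpenEmbedding_subtypeVal.continuousAt_iff (g := al)
      (x := ⟨c, nz h⟩)).1 continuous_al1.continuousAt

theorem al_iv (c : Cz) : al (iv c) = iv (al c) := by
  by_cases h : tt c ≠ ∞
  · have h1 : tt (al (iv c)) ≠ ∞ := tt_al_ne h
    refine ext0 h1 ?_ ?_
    · rw [tt_al0 (c := iv c) h, tt_iv, tt_al0 h, tv_iv]
    · rw [yv_al (c := iv c) h, yv_iv, yv_iv, yv_al h]; ring
  · have h1 : tt (al (iv c)) ≠ ((0 : ℂ) : P1) := tt_al_ne0 (c := iv c) (nz h)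
    refine ext1 h1 ?_ ?_
    · rw [tt_iv, tt_al_inf (not_not.1 h)]
      exact tt_al_inf (c := iv c) (not_not.1 h)
    · rw [vv_al (c := iv c) (nz h), vv_iv, vv_iv, vv_al (nz h)]

/-- permutation of the Weierstrass points by `al` -/
def sg : Fin 6 → Fin 6 := ![1, 3, 2, 4, 5, 0]

theorem al_wp (j : Fin 6) : al (wp Pz j) = wp Pz (sg j) := by
  have h : tt (wp Pz j) ≠ ∞ := by rw [tt_wp]; exact OnePoint.coe_ne_infty _
  have hc : ze * Pz.c j = Pz.c (sg j) := by
    have h5 := ze_pow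
    fin_cases j
    · show ze * ze = ze ^ 2
      ring
    · show ze * ze ^ 2 = ze ^ 3
      ring
    · show ze * 0 = 0
      ring
    · show ze * ze ^ 3 = ze ^ 4
      ring
    · show ze * ze ^ 4 = 1
      rw [← pow_succ']; exact h5
    · exact mul_one _
  refine ext0 (tt_al_ne h) ?_ ?_
  · rw [tt_al0 h, tt_wp, ← hc]
    unfold tv; rw [tt_wp, fin_coe]
  · rw [yv_al h, yv_wp, yv_wp, mul_zero]

theorem al_iter (c : Cz) : al (al (al (al (al c)))) = c := by
  have h5 := ze_pow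
  by_cases h : tt c ≠ ∞
  · have h1 := tt_al_ne h
    have h2 := tt_al_ne h1
    have h3 := tt_al_ne h2
    have h4 := tt_al_ne h3
    have h6 := tt_al_ne h4
    refine ext0 h6 ?_ ?_
    · rw [tt_eq h6, tt_eq h]
      simp only [tv_al]
      congr 1
      linear_combination (tv c) * h5
    · rw [yv_al h4, yv_al h3, yv_al h2, yv_al h1, yv_al h]
      linear_combination (ze ^ 10 + ze ^ 5 + 1) * (yv c) * h5
  · have h0 := nz h
    have h1 := tt_al_ne0 h0
    have h2 := tt_al_ne0 h1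
    have h3 := tt_al_ne0 h2
    have h4 := tt_al_ne0 h3
    have h6 := tt_al_ne0 h4
    refine ext1 h6 ?_ ?_
    · have i1 := tt_al_inf (not_not.1 h)
      have i2 := tt_al_inf i1
      have i3 := tt_al_inf i2
      have i4 := tt_al_inf i3
      rw [tt_al_inf i4, not_not.1 h]
    · rw [vv_al h4, vv_al h3, vv_al h2, vv_al h1, vv_al h0]

/-! ### the action on the forms -/

/-- the action on the differentials -/
def Dz : E2 →ₗ[ℂ] E2 where
  toFun u := ![ze ^ 3 * u 0, ze ^ 4 * u 1]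
  map_add' u v := by
    ext i
    fin_cases i
    · exact mul_add _ _ _
    · exact mul_add _ _ _
  map_smul' r u := by
    ext i
    fin_cases i
    · exact mul_left_comm _ _ _
    · exact mul_left_comm _ _ _

@[simp] theorem Dz_zero (u : E2) : Dz u 0 = ze ^ 3 * u 0 := rfl
@[simp] theorem Dz_one (u : E2) : Dz u 1 = ze ^ 4 * u 1 := rfl

theorem analyticAt_Dz {w : ℂ → E2} {s : ℂ} (hw : AnalyticAt ℂ w s) :
    AnalyticAt ℂ (fun z => Dz (w z)) s := by
  rw [analyticAt_pi_iff] at hw ⊢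
  intro i
  fin_cases i
  · exact analyticAt_const.mul (hw 0)
  · exact analyticAt_const.mul (hw 1)

theorem hasDerivAt_Dz {w : ℂ → E2} {w' : E2} {s : ℂ} (hw : HasDerivAt w w' s) :
    HasDerivAt (fun z => Dz (w z)) (Dz w') s := by
  rw [hasDerivAt_pi] at hw ⊢
  intro i
  fin_cases i
  · exact (hw 0).const_mul _
  · exact (hw 1).const_mul _

/-- transfer under a map multiplying the coordinates -/
theorem transferD {f1 g1 f2 g2 : ℂ → ℂ} {w1 w2 l : ℂ → E2} {τ : ℂ → ℂ} {s a b : ℂ} (hb : b ≠ 0)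
    (hl : ∀ x, a • l (a * x) = b • Dz (l x))
    (hτ : AnalyticAt ℂ τ s) (h1 : Rep f1 g1 w1 l s) (h2 : Rep f2 g2 w2 l (τ s))
    (hf : ∀ᶠ z in 𝓝 s, f2 (τ z) = a * f1 z) (hg : ∀ᶠ z in 𝓝 s, g2 (τ z) = b * g1 z)
    (hw1 : AnalyticAt ℂ w1 s) (hw2 : AnalyticAt ℂ w2 (τ s)) :
    ∀ᶠ z in 𝓝 s, Dz (w1 z) - deriv τ z • w2 (τ z) = 0 := by
  have ha : AnalyticAt ℂ (fun z => Dz (w1 z) - deriv τ z • w2 (τ z)) s :=
    (analyticAt_Dz hw1).sub (hτ.deriv.smul
      (AnalyticAt.comp (f := τ) (g := w2) (x := s) hw2 hτ))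
  have hp : ∀ᶠ z in 𝓝[≠] s, Dz (w1 z) - deriv τ z • w2 (τ z) = 0 := by
    have hlift : ∀ {Q : ℂ → Prop}, (∀ᶠ z in 𝓝 s, Q z) → ∀ᶠ z in 𝓝[≠] s, Q z :=
      fun h => mem_nhdsWithin_of_mem_nhds h
    have hderiv : ∀ᶠ z in 𝓝 s, a * deriv f1 z = deriv f2 (τ z) * deriv τ z := by
      filter_upwards [hf.eventually_nhds, hτ.eventually_analyticAt,
        hτ.continuousAt.eventually h2.f_an.eventually_analyticAt, h1.f_an.eventually_analyticAt]
        with z h3 h4 h5 h6
      have h7 : HasDerivAt (fun z => f2 (τ z)) (deriv f2 (τ z) * deriv τ z) z :=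
        HasDerivAt.comp z (h₂ := f2) h5.differentiableAt.hasDerivAt h4.differentiableAt.hasDerivAt
      have h8 : HasDerivAt (fun z => f2 (τ z)) (a * deriv f1 z) z :=
        (h6.differentiableAt.hasDerivAt.const_mul a).congr_of_eventuallyEq h3
      exact h8.unique h7
    filter_upwards [hlift h1.eq, hlift (hτ.continuousAt.eventually h2.eq), hlift hf, hlift hg,
      hlift hderiv, h1.g_ne] with z e1 e2 e3 e4 e5 e6
    have e7 : (b * g1 z) • (Dz (w1 z) - deriv τ z • w2 (τ z)) = 0 := by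
      have e8 : (b * g1 z) • (deriv τ z • w2 (τ z)) = deriv f1 z • (a • l (a * f1 z)) := by
        rw [← e4, smul_comm, e2, smul_smul, mul_comm (deriv τ z), ← e5, e3, mul_comm a, mul_smul]
      rw [smul_sub, e8, hl, mul_smul, ← _root_.map_smul, e1, _root_.map_smul, smul_comm b, sub_self]
    exact (smul_eq_zero.1 e7).resolve_left (mul_ne_zero hb e6)
  rcases ha.eventually_eq_zero_or_eventually_ne_zero with h | h
  · exact h
  · exact absurd (hp.and h) (fun hcon => by
      obtain ⟨z, hz⟩ := hcon.exists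
      exact hz.2 hz.1)

theorem la_tr (x : ℂ) : ze • la (ze * x) = ze ^ 3 • Dz (la x) := by
  have h5 := ze_pow
  ext i
  fin_cases i
  · show ze * 1 = ze ^ 3 * (ze ^ 3 * 1)
    linear_combination (-ze) * h5
  · show ze * (ze * x) = ze ^ 3 * (ze ^ 4 * x)
    linear_combination (-ze ^ 2 * x) * h5

theorem lb_tr (x : ℂ) : ze ^ 4 • lb (ze ^ 4 * x) = (1 : ℂ) • Dz (lb x) := by
  have h5 := ze_pow
  ext i
  fin_cases i
  · show ze ^ 4 * -(ze ^ 4 * x) = 1 * (ze ^ 3 * -x)
    linear_combination (-ze ^ 3 * x) * h5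
  · show ze ^ 4 * -1 = 1 * (ze ^ 4 * -1)
    ring

theorem al_an (c : Cz) : AnalyticAt ℂ (fun z => k (al c) (al ((k c).symm z))) 0 := by
  have hs := zero_mem c
  refine an_k (al c) (γ := fun z => al ((k c).symm z)) ?_ ?_
  · intro h
    have hc : tt c ≠ ∞ := fun e => h (tt_al_inf e)
    have h0 : tt ((k c).symm 0) ≠ ∞ := by rw [symm_zero]; exact hc
    have hR := R0 c hs h0
    have hev := ev_source hs isOpen_ne_inf h0
    refine ⟨tt_al_ne h0, hev.mono fun z hz => tt_al_ne hz, ?_, ?_⟩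
    · simp only [tv_al]
      exact analyticAt_const.mul hR.f_an
    · exact (analyticAt_const.mul hR.g_an).congr (hev.mono fun z hz => (yv_al hz).symm)
  · intro h
    have hc : ¬ tt c ≠ ∞ := fun e => h (tt_al_ne e)
    have h0 : tt ((k c).symm 0) ≠ ((0 : ℂ) : P1) := by rw [symm_zero]; exact nz hc
    have hev := ev_source hs isOpen_ne_zero h0
    refine ⟨hev.mono fun z hz => tt_al_ne0 hz, ?_⟩
    simp only [sv_al]
    exact analyticAt_const.mul (R1 c hs h0).f_an

/-- **`al^* ω = D ω`** -/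
theorem al_G (c : Cz) : ∀ᶠ y in 𝓝 c, G (al c) (k (al c) (al y)) = Dz (G c (k c y)) := by
  have hs := zero_mem c
  set σ : ℂ → ℂ := fun z => k (al c) (al ((k c).symm z)) with hσ
  have hσ0 : σ 0 = 0 := by simp only [hσ]; rw [symm_zero, k_zero]
  have hσa : AnalyticAt ℂ σ 0 := al_an c
  have hs' : σ 0 ∈ (k (al c)).target := by rw [hσ0]; exact zero_mem _
  have hev : ∀ᶠ z in 𝓝 (0 : ℂ), al ((k c).symm z) ∈ (k (al c)).source := by
    refine ev_source hs (O := al ⁻¹' (k (al c)).source)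
      ((k (al c)).open_source.preimage continuous_al) ?_
    rw [mem_preimage, symm_zero]
    exact k_mem _
  have hα : ∀ᶠ z in 𝓝 (0 : ℂ), (k (al c)).symm (σ z) = al ((k c).symm z) :=
    hev.mono fun z hz => (k (al c)).left_inv hz
  have h1 : ∀ᶠ z in 𝓝 (0 : ℂ), Dz (om c z) - deriv σ z • om (al c) (σ z) = 0 := by
    have hα0 := hα.self_of_nhds
    by_cases h : tt ((k c).symm 0) ≠ ∞
    · have h' : tt ((k (al c)).symm (σ 0)) ≠ ∞ := by rw [hα0]; exact tt_al_ne h
      refine transferD (a := ze) (b := ze ^ 3) (pow_ne_zero 3 ze_ne) la_tr hσa (R0 c hs h)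
        (R0 (al c) hs' h') ?_ ?_ (om_an c 0 hs) (om_an (al c) _ hs')
      · filter_upwards [hα] with z hz
        show tv ((k (al c)).symm (σ z)) = ze * tv ((k c).symm z)
        rw [hz, tv_al]
      · filter_upwards [hα, ev_source hs isOpen_ne_inf h] with z hz hz'
        show yv ((k (al c)).symm (σ z)) = ze ^ 3 * yv ((k c).symm z)
        rw [hz, yv_al hz']
    · have hn : tt ((k c).symm 0) ≠ ((0 : ℂ) : P1) := nz h
      have h' : tt ((k (al c)).symm (σ 0)) ≠ ((0 : ℂ) : P1) := by rw [hα0]; exact tt_al_ne0 hn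
      refine transferD (a := ze ^ 4) (b := 1) one_ne_zero lb_tr hσa (R1 c hs hn)
        (R1 (al c) hs' h') ?_ ?_ (om_an c 0 hs) (om_an (al c) _ hs')
      · filter_upwards [hα] with z hz
        show sv ((k (al c)).symm (σ z)) = ze ^ 4 * sv ((k c).symm z)
        rw [hz, sv_al]
      · filter_upwards [hα, ev_source hs isOpen_ne_zero hn] with z hz hz'
        show vv ((k (al c)).symm (σ z)) = 1 * vv ((k c).symm z)
        rw [hz, vv_al hz', one_mul]
  have h2 : ∀ᶠ z in 𝓝 (0 : ℂ), HasDerivAt (fun z => G (al c) (σ z) - Dz (G c z)) 0 z := by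
    filter_upwards [h1, hσa.eventually_analyticAt, (k c).open_target.mem_nhds hs,
      hσa.continuousAt.preimage_mem_nhds ((k (al c)).open_target.mem_nhds hs')] with z e1 e2 e3 e4
    have h3 := (hasDerivAt_comp_G e2 e4).fun_sub (hasDerivAt_Dz (hasDerivAt_G c e3))
    refine h3.congr_deriv ?_
    rw [← neg_sub, e1, neg_zero]
  have h3 := const_of_deriv h2
  have h3' : ∀ᶠ z in 𝓝 (k c c), G (al c) (σ z) - Dz (G c z) = G (al c) (σ 0) - Dz (G c 0) := by
    rw [k_zero]; exact h3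
  have h4 := ((k c).continuousAt (k_mem c)).eventually h3'
  filter_upwards [h4, (k c).open_source.mem_nhds (k_mem c)] with y e1 e2
  simp only [hσ] at e1
  rw [(k c).left_inv e2, symm_zero, k_zero, G_zero, G_zero, map_zero, sub_zero] at e1
  exact sub_eq_zero.1 e1

/-- the same in the language of `AJ_956` -/
theorem al_P (c : Cz) : ∀ᶠ y in 𝓝 c, (cur Pz).P (al c) (al y) = Dz ((cur Pz).P c y) := al_G c

end Crest.Agent.R272.Cur_297
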