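import Crest.Agent.R272.AJi_956
import Crest.Agent.R272.Cur6_297

/-!
# Row 272, A-AJ: the Jacobian of 297's curve `cur Pz` (helper956)

The literal inputs `J`, `d`, `hd`, `hd1`, `hd2`, `D`, `hD`, `hΛ` of 338's `s15_model`.
-/

set_option autoImplicit false
set_option linter.unusedSectionVars false
set_option linter.unusedVariables false

open Set Filter Topology Metric Complex
open Crest.Agent.R272.AJ_956 Crest.Agent.R272.AJh_956 Crest.Agent.R272.Cur_297

noncomputable section

namespace Crest.Agent.R272.AJz_956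

/-- the eigenvalues of the complex multiplication -/
def dz : Fin 2 → ℂ := ![ze ^ 3, ze ^ 4]

theorem dz_prim (i : Fin 2) : IsPrimitiveRoot (dz i) 5 := by
  fin_cases i
  · exact ze_prim.pow_of_coprime 3 (by norm_num)
  · exact ze_prim.pow_of_coprime 4 (by norm_num)

theorem dz_ne : dz 0 ≠ dz 1 := fun h => by
  have := ze_inj (i := 3) (j := 4) (by norm_num) (by norm_num) h
  omega

theorem dz_mul_ne : dz 0 * dz 1 ≠ 1 := fun h => by
  have h1 : ze ^ 2 = ze ^ 0 := by
    have h2 : dz 0 * dz 1 = ze ^ 2 * ze ^ 5 := by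
      show ze ^ 3 * ze ^ 4 = _
      ring
    rw [h2, ze_pow, mul_one] at h
    rw [h, pow_zero]
  have := ze_inj (i := 2) (j := 0) (by norm_num) (by norm_num) h1
  omega

theorem Dz_apply (v : E2) (i : Fin 2) : Dz v i = dz i * v i := by
  fin_cases i <;> rfl

/-- `hΛ` -/
theorem hL {A : Type} [TopologicalSpace A] [T2Space A] {q : Cz × Cz → A} (hq : (cur Pz).IsQ q)
    {Λ : AddSubgroup E2} {π : E2 → A} (J : (cur Pz).IsJac q Λ π) : ∀ v ∈ Λ, Dz v ∈ Λ :=
  AJi_956.IsJac.endo_diag hq J continuous_al al_iv (D := fun v => Dz v) Dz_apply al_P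

/-- **everything on the Jacobian** -/
theorem exists_jac_z {A : Type} [TopologicalSpace A] [T2Space A] {q : Cz × Cz → A}
    (hq : (cur Pz).IsQ q) : ∃ (Λ : AddSubgroup E2) (π : E2 → A), (cur Pz).IsJac q Λ π ∧
      ∀ v ∈ Λ, Dz v ∈ Λ := by
  obtain ⟨Λ, π, J⟩ := exists_jac hq
  exact ⟨Λ, π, J, hL hq J⟩

end Crest.Agent.R272.AJz_956
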