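import Mathlib

set_option autoImplicit false

/-!
# Group theory of step (6) of the evenness theorem (E)

`G` finitely generated, `Z` a central subgroup containing all commutators, `Z` and `G/Z`
torsion free, `c₀ ∈ Z`, `c₀ ≠ 1`: for every `k ≥ 1` there are a finite index subgroup `H ∋ c₀`
and a character `H → ℤ/k` with `c₀ ↦ 1`.
-/

namespace Crest.Agent.R272.Heis_981

open Subgroup

theorem finiteIndex_comap {G G' : Type*} [Group G] [Group G'] (f : G →* G') (H : Subgroup G')
    [H.FiniteIndex] : (H.comap f).FiniteIndex := by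
  constructor
  rw [Subgroup.index_comap]
  exact (inferInstance : (H.subgroupOf f.range).FiniteIndex).index_ne_zero

section class2

variable {G : Type*} [Group G] (Z : Subgroup G)

theorem comm_of_mem (hZ : Z ≤ center G) {z : G} (hz : z ∈ Z) (g : G) : z * g = g * z :=
  ((mem_center_iff.mp (hZ hz)) g).symm

theorem comm_pow_left (hZ : Z ≤ center G) (g h c : G) (hc : c ∈ Z) (e : h * g = c * (g * h))
    (n : ℕ) : h ^ n * g = c ^ n * (g * h ^ n) := by
  have cc : ∀ x : G, c * x = x * c := comm_of_mem Z hZ hc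
  have ccn : ∀ (m : ℕ) (x : G), c ^ m * x = x * c ^ m := fun m x =>
    comm_of_mem Z hZ (Z.pow_mem hc m) x
  induction n with
  | zero => simp
  | succ n ih =>
    calc h ^ (n + 1) * g = h ^ n * (h * g) := by rw [pow_succ]; group
      _ = h ^ n * (c * (g * h)) := by rw [e]
      _ = c * (h ^ n * g) * h := by rw [← mul_assoc, ← cc]; group
      _ = c * (c ^ n * (g * h ^ n)) * h := by rw [ih]
      _ = c ^ (n + 1) * (g * h ^ (n + 1)) := by rw [pow_succ' c, pow_succ h]; group

theorem mul_pow_class2 (hZ : Z ≤ center G) (g h c : G) (hc : c ∈ Z) (e : h * g = c * (g * h))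
    (n : ℕ) : (g * h) ^ n = c ^ (n.choose 2) * (g ^ n * h ^ n) := by
  have ccn : ∀ (m : ℕ) (x : G), c ^ m * x = x * c ^ m := fun m x =>
    comm_of_mem Z hZ (Z.pow_mem hc m) x
  induction n with
  | zero => simp
  | succ n ih =>
    have h1 := comm_pow_left Z hZ g h c hc e n
    calc (g * h) ^ (n + 1) = (c ^ (n.choose 2) * (g ^ n * h ^ n)) * (g * h) := by
            rw [pow_succ, ih]
      _ = c ^ (n.choose 2) * g ^ n * (h ^ n * g) * h := by group
      _ = c ^ (n.choose 2) * (g ^ n * c ^ n) * (g * h ^ n) * h := by rw [h1]; group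
      _ = c ^ (n.choose 2) * (c ^ n * g ^ n) * (g * h ^ n) * h := by rw [ccn n (g ^ n)]
      _ = c ^ (n.choose 2 + n) * (g ^ (n + 1) * h ^ (n + 1)) := by
            rw [pow_add, pow_succ g, pow_succ h]; group
      _ = c ^ ((n + 1).choose 2) * (g ^ (n + 1) * h ^ (n + 1)) := by
            congr 2
            rw [Nat.choose_succ_succ' n 1, Nat.choose_one_right]
            exact Nat.add_comm _ _

end class2

section char

variable {G : Type*} [Group G] (Z : Subgroup G)

/-- Data of the construction. -/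
structure Dat (Z : Subgroup G) : Prop where
  cen : Z ≤ center G
  com : ∀ g h : G, ∃ c ∈ Z, h * g = c * (g * h)
  iso : ∀ (g : G) (n : ℕ), n ≠ 0 → g ^ n ∈ Z → g ∈ Z

/-- the subgroup `Z · G^N` when `N.choose 2` is fine: here as a set of products -/
def HN (Z : Subgroup G) (N : ℕ) (g : G) : Prop := ∃ z ∈ Z, ∃ x : G, g = z * x ^ N

theorem HN_mul {Z : Subgroup G} (D : Dat Z) (N : ℕ) {z₁ x₁ z₂ x₂ : G} (_h₁ : z₁ ∈ Z) (h₂ : z₂ ∈ Z) :
    ∃ c ∈ Z, (z₁ * x₁ ^ N) * (z₂ * x₂ ^ N) =
      (z₁ * z₂ * (c ^ (N.choose 2))⁻¹) * (x₁ * x₂) ^ N := by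
  obtain ⟨c, hc, e⟩ := D.com x₁ x₂
  refine ⟨c, hc, ?_⟩
  rw [mul_pow_class2 Z D.cen x₁ x₂ c hc e N]
  have : z₂ * x₁ ^ N = x₁ ^ N * z₂ := comm_of_mem Z D.cen h₂ _
  calc z₁ * x₁ ^ N * (z₂ * x₂ ^ N) = z₁ * (x₁ ^ N * z₂) * x₂ ^ N := by group
    _ = z₁ * (z₂ * x₁ ^ N) * x₂ ^ N := by rw [this]
    _ = _ := by group

/-- well-definedness: `z₁ x₁^N = z₂ x₂^N` forces `z₂ = z₁ w^N` with `w ∈ Z`, up to `c^(N choose 2)`. -/
theorem HN_unique {Z : Subgroup G} (D : Dat Z) (N : ℕ) (hN : N ≠ 0) {z₁ x₁ z₂ x₂ : G}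
    (h₁ : z₁ ∈ Z) (h₂ : z₂ ∈ Z) (e : z₁ * x₁ ^ N = z₂ * x₂ ^ N) :
    ∃ w ∈ Z, z₂ = z₁ * w ^ N := by
  -- x₁ x₂⁻¹ ∈ Z
  have key : x₂⁻¹ * x₁ ∈ Z := by
    apply D.iso _ N hN
    obtain ⟨c, hc, ec⟩ := D.com x₂⁻¹ x₁
    rw [mul_pow_class2 Z D.cen x₂⁻¹ x₁ c hc ec N]
    refine Z.mul_mem (Z.pow_mem hc _) ?_
    have : x₁ ^ N = z₁⁻¹ * z₂ * x₂ ^ N := by rw [mul_assoc, ← e]; group
    have h3 : z₁⁻¹ * z₂ ∈ Z := Z.mul_mem (Z.inv_mem h₁) h₂
    rw [this, ← mul_assoc, ← comm_of_mem Z D.cen h3 (x₂⁻¹ ^ N)]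
    have : z₁⁻¹ * z₂ * x₂⁻¹ ^ N * x₂ ^ N = z₁⁻¹ * z₂ := by rw [inv_pow]; group
    rw [this]; exact h3
  refine ⟨x₂⁻¹ * x₁, key, ?_⟩
  have hx : x₁ = x₂ * (x₂⁻¹ * x₁) := by group
  set w := x₂⁻¹ * x₁ with hw
  have hcomm : Commute x₂ w := (comm_of_mem Z D.cen key x₂).symm
  rw [hx, hcomm.mul_pow] at e
  have : z₁ * (x₂ ^ N * w ^ N) = z₁ * w ^ N * x₂ ^ N := by
    rw [(hcomm.pow_pow N N).eq]; group
  rw [this] at e
  exact (mul_right_cancel e).symm

/-- The subgroup `Z · G^N`. -/
def HSub {Z : Subgroup G} (D : Dat Z) (N : ℕ) : Subgroup G where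
  carrier := {g | HN Z N g}
  one_mem' := ⟨1, Z.one_mem, 1, by simp⟩
  mul_mem' := by
    rintro _ _ ⟨z₁, h₁, x₁, rfl⟩ ⟨z₂, h₂, x₂, rfl⟩
    obtain ⟨c, hc, e⟩ := HN_mul D N (x₁ := x₁) (x₂ := x₂) h₁ h₂
    exact ⟨_, Z.mul_mem (Z.mul_mem h₁ h₂) (Z.inv_mem (Z.pow_mem hc _)), _, e⟩
  inv_mem' := by
    rintro _ ⟨z, h, x, rfl⟩
    refine ⟨z⁻¹, Z.inv_mem h, x⁻¹, ?_⟩
    rw [mul_inv_rev, inv_pow, comm_of_mem Z D.cen (Z.inv_mem h)]

theorem mem_HSub {Z : Subgroup G} (D : Dat Z) (N : ℕ) (g : G) :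
    g ∈ HSub D N ↔ ∃ z ∈ Z, ∃ x : G, g = z * x ^ N := Iff.rfl

theorem le_HSub {Z : Subgroup G} (D : Dat Z) (N : ℕ) : Z ≤ HSub D N := fun z hz =>
  ⟨z, hz, 1, by simp⟩

/-- The character of `Z · G^N` extending a character of `Z` which kills `N`-th and
`N.choose 2`-th powers. -/
theorem exists_extend {Z : Subgroup G} (D : Dat Z) (N : ℕ) (hN : N ≠ 0) {C : Type*} [CommGroup C]
    (f : Z →* C) (hf : ∀ z, f z ^ N = 1) (hf2 : ∀ z, f z ^ (N.choose 2) = 1) :
    ∃ χ : HSub D N →* C, ∀ z : Z, χ ⟨z, le_HSub D N z.2⟩ = f z := by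
  classical
  have ch : ∀ g : HSub D N, ∃ z : Z, ∃ x : G, (g : G) = z * x ^ N := by
    rintro ⟨g, z, hz, x, rfl⟩; exact ⟨⟨z, hz⟩, x, rfl⟩
  choose ζ ξ hζ using ch
  have uniq : ∀ (g : HSub D N) (z : Z) (x : G), (g : G) = z * x ^ N → f z = f (ζ g) := by
    intro g z x e
    rw [hζ g] at e
    obtain ⟨w, hw, ew⟩ := HN_unique D N hN (ζ g).2 z.2 e
    have : z = ζ g * (⟨w, hw⟩ : Z) ^ N := by
      apply Subtype.ext; simpa using ew
    rw [this, map_mul, map_pow, hf, mul_one]
  refine ⟨{ toFun := fun g => f (ζ g), map_one' := ?_, map_mul' := ?_ }, ?_⟩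
  · rw [← uniq 1 1 1 (by simp)]; simp
  · intro g h
    obtain ⟨c, hc, e⟩ := HN_mul D N (x₁ := ξ g) (x₂ := ξ h) (ζ g).2 (ζ h).2
    have := uniq (g * h) (ζ g * ζ h * ((⟨c, hc⟩ : Z) ^ (N.choose 2))⁻¹) (ξ g * ξ h) (by
      rw [Subgroup.coe_mul, hζ g, hζ h, e]; simp)
    rw [← this, map_mul, map_mul, map_inv, map_pow, hf2]; simp
  · intro z
    exact (uniq _ z 1 (by simp)).symm

/-- `Z · G^N` has finite index when `G` is finitely generated. -/
theorem HSub_finiteIndex {Z : Subgroup G} (D : Dat Z) (N : ℕ) (hN : N ≠ 0) [Group.FG G] :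
    (HSub D N).FiniteIndex := by
  classical
  have hnorm : (HSub D N).Normal := by
    constructor
    intro h hh g
    obtain ⟨c, hc, e⟩ := D.com h g
    have : g * h * g⁻¹ = c * h := by
      rw [e]; group
    rw [this]
    exact (HSub D N).mul_mem (le_HSub D N hc) hh
  let cg : CommGroup (G ⧸ HSub D N) :=
    { (inferInstance : Group (G ⧸ HSub D N)) with
      mul_comm := by
        intro a b
        induction a using QuotientGroup.induction_on with | _ a =>
        induction b using QuotientGroup.induction_on with | _ b =>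
        obtain ⟨c, hc, e⟩ := D.com b a
        rw [← QuotientGroup.mk_mul, ← QuotientGroup.mk_mul, e, eq_comm, QuotientGroup.eq]
        have : (b * a)⁻¹ * (c * (b * a)) = c := by
          rw [comm_of_mem Z D.cen hc]; group
        rw [this]
        exact le_HSub D N hc }
  have tor : ∀ a : G ⧸ HSub D N, a ^ N = 1 := by
    intro a
    induction a using QuotientGroup.induction_on with | _ a =>
    rw [← QuotientGroup.mk_pow, QuotientGroup.eq_one_iff]
    exact ⟨1, Z.one_mem, a, by simp⟩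
  have hfin : Finite (G ⧸ HSub D N) := by
    refine @CommGroup.finite_of_fg_isMulTorsion (G ⧸ HSub D N) cg ?_ ?_
    · exact Group.fg_of_surjective (QuotientGroup.mk'_surjective (HSub D N))
    · intro a
      exact isOfFinOrder_iff_pow_eq_one.mpr ⟨N, Nat.pos_of_ne_zero hN, tor a⟩
  exact Subgroup.finiteIndex_of_finite_quotient

theorem Dat.normal {Z : Subgroup G} (D : Dat Z) : Z.Normal := by
  constructor
  intro z hz g
  have : g * z * g⁻¹ = z := by rw [← comm_of_mem Z D.cen hz]; group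
  rw [this]; exact hz

theorem normal_of_le_center {Z : Subgroup G} (h : Z ≤ center G) : Z.Normal := by
  constructor
  intro z hz g
  have : g * z * g⁻¹ = z := by rw [← comm_of_mem Z h hz]; group
  rw [this]; exact hz

/-- `Z` is finitely generated when `G` is. -/
theorem Dat.fg {Z : Subgroup G} (D : Dat Z) [hG : Group.FG G] : Z.FG := by
  classical
  have hn : Z.Normal := D.normal
  let cg : CommGroup (G ⧸ Z) :=
    { (inferInstance : Group (G ⧸ Z)) with
      mul_comm := by
        intro a b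
        induction a using QuotientGroup.induction_on with | _ a =>
        induction b using QuotientGroup.induction_on with | _ b =>
        obtain ⟨c, hc, e⟩ := D.com b a
        rw [← QuotientGroup.mk_mul, ← QuotientGroup.mk_mul, e, eq_comm, QuotientGroup.eq]
        have : (b * a)⁻¹ * (c * (b * a)) = c := by
          rw [comm_of_mem Z D.cen hc]; group
        rw [this]
        exact hc }
  have tf : IsMulTorsionFree (G ⧸ Z) := by
    constructor
    intro n hn0 a b hab
    simp only at hab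
    have h1 : (a * b⁻¹) ^ n = 1 := by
      rw [mul_pow, hab, inv_pow, mul_inv_cancel]
    have h2 : a * b⁻¹ = 1 := by
      generalize a * b⁻¹ = q at h1
      induction q using QuotientGroup.induction_on with | _ g =>
      rw [← QuotientGroup.mk_pow, QuotientGroup.eq_one_iff] at h1
      exact (QuotientGroup.eq_one_iff g).mpr (D.iso g n hn0 h1)
    exact mul_inv_eq_one.mp h2
  have fgA : Group.FG (G ⧸ Z) := Group.fg_of_surjective (QuotientGroup.mk'_surjective Z)
  have : Module.Finite ℤ (Additive (G ⧸ Z)) := Module.Finite.iff_addGroup_fg.mpr inferInstance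
  obtain ⟨n, b⟩ := Module.basisOfFiniteTypeTorsionFree' (R := ℤ) (M := Additive (G ⧸ Z))
  have hx : ∀ i, ∃ x : G, (QuotientGroup.mk x : G ⧸ Z) = (b i).toMul := fun i =>
    QuotientGroup.mk_surjective _
  choose x hx using hx
  -- `X₀ = ⟨x_i⟩` maps onto `G/Z`
  have hX : ∀ g : G, ∃ y ∈ closure (Set.range x), g * y⁻¹ ∈ Z := by
    intro g
    have hsp : (Additive.ofMul (QuotientGroup.mk g : G ⧸ Z)) ∈
        Submodule.span ℤ (Set.range b) := by rw [b.span_eq]; trivial
    have key : ∀ a : Additive (G ⧸ Z), a ∈ Submodule.span ℤ (Set.range b) →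
        ∃ y ∈ closure (Set.range x), (QuotientGroup.mk y : G ⧸ Z) = a.toMul := by
      intro a ha
      induction ha using Submodule.span_induction with
      | mem a ha =>
        obtain ⟨i, rfl⟩ := ha
        exact ⟨x i, subset_closure ⟨i, rfl⟩, hx i⟩
      | zero => exact ⟨1, one_mem _, rfl⟩
      | add a c _ _ iha ihc =>
        obtain ⟨y, hy, ey⟩ := iha
        obtain ⟨w, hw, ew⟩ := ihc
        exact ⟨y * w, mul_mem hy hw, by rw [QuotientGroup.mk_mul, ey, ew]; rfl⟩
      | smul m a _ iha =>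
        obtain ⟨y, hy, ey⟩ := iha
        exact ⟨y ^ m, zpow_mem hy _, by rw [QuotientGroup.mk_zpow, ey]; rfl⟩
    obtain ⟨y, hy, ey⟩ := key _ hsp
    refine ⟨y, hy, ?_⟩
    have : (QuotientGroup.mk (g * y⁻¹) : G ⧸ Z) = 1 := by
      rw [QuotientGroup.mk_mul, QuotientGroup.mk_inv, ey]; simp
    exact (QuotientGroup.eq_one_iff _).mp this
  choose y hy hyz using hX
  choose c hc ec using D.com
  obtain ⟨S, hS⟩ := hG.out
  -- the finite generating set
  let T : Set G := (fun s => s * (y s)⁻¹) '' (S : Set G) ∪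
    Set.range (fun p : Fin n × Fin n => c (x p.1) (x p.2))
  have hT : T.Finite := ((S.finite_toSet).image _).union (Set.finite_range _)
  have hTZ : closure T ≤ Z := by
    rw [closure_le]
    rintro _ (⟨s, _, rfl⟩ | ⟨p, rfl⟩)
    · exact hyz s
    · exact hc _ _
  have hn0 : (closure T).Normal := normal_of_le_center (hTZ.trans D.cen)
  -- `Q = G / ⟨T⟩` is commutative
  have hgen : ∀ g : G, ∃ w ∈ closure (Set.range x),
      (QuotientGroup.mk g : G ⧸ closure T) = QuotientGroup.mk w := by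
    intro g
    have hg : g ∈ closure (S : Set G) := by rw [hS]; trivial
    induction hg using closure_induction with
    | mem s hs =>
      refine ⟨y s, hy s, ?_⟩
      rw [eq_comm, QuotientGroup.eq]
      have h1 : s * (y s)⁻¹ ∈ closure T := subset_closure (Or.inl ⟨s, hs, rfl⟩)
      have : (y s)⁻¹ * s = s * (y s)⁻¹ := by
        have := comm_of_mem Z D.cen (hyz s) (y s)
        have h2 : s * (y s)⁻¹ * y s = s := by group
        rw [h2] at this
        calc (y s)⁻¹ * s = (y s)⁻¹ * (y s * (s * (y s)⁻¹)) := by rw [← this]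
          _ = s * (y s)⁻¹ := by group
      rw [this]; exact h1
    | one => exact ⟨1, one_mem _, rfl⟩
    | mul a d _ _ iha ihd =>
      obtain ⟨w, hw, ew⟩ := iha
      obtain ⟨v, hv, ev⟩ := ihd
      exact ⟨w * v, mul_mem hw hv, by rw [QuotientGroup.mk_mul, ew, ev]; rfl⟩
    | inv a _ iha =>
      obtain ⟨w, hw, ew⟩ := iha
      exact ⟨w⁻¹, inv_mem hw, by rw [QuotientGroup.mk_inv, ew]; rfl⟩
  have hcomm : ∀ u ∈ closure (Set.range x), ∀ v ∈ closure (Set.range x),
      (QuotientGroup.mk u : G ⧸ closure T) * QuotientGroup.mk v =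
        QuotientGroup.mk v * QuotientGroup.mk u := by
    intro u hu v hv
    induction hu, hv using closure_induction₂ with
    | mem a d ha hd =>
      obtain ⟨i, rfl⟩ := ha
      obtain ⟨j, rfl⟩ := hd
      rw [← QuotientGroup.mk_mul, ← QuotientGroup.mk_mul, ec (x j) (x i), eq_comm,
        QuotientGroup.eq]
      have h1 : c (x j) (x i) ∈ closure T := subset_closure (Or.inr ⟨(j, i), rfl⟩)
      have : (x j * x i)⁻¹ * (c (x j) (x i) * (x j * x i)) = c (x j) (x i) := by
        rw [comm_of_mem Z D.cen (hc _ _)]; group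
      rw [this]; exact h1
    | one_left a _ => simp
    | one_right a _ => simp
    | mul_left a b d _ _ _ h1 h2 =>
      rw [QuotientGroup.mk_mul, mul_assoc, h2, ← mul_assoc, h1, mul_assoc]
    | mul_right a b d _ _ _ h1 h2 =>
      rw [QuotientGroup.mk_mul, ← mul_assoc, h1, mul_assoc, h2, mul_assoc]
    | inv_left a b _ _ h => 
      rw [QuotientGroup.mk_inv]
      exact (show Commute _ _ from h).inv_left
    | inv_right a b _ _ h =>
      rw [QuotientGroup.mk_inv]
      exact (show Commute _ _ from h).inv_right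
  let cq : CommGroup (G ⧸ closure T) :=
    { (inferInstance : Group (G ⧸ closure T)) with
      mul_comm := by
        intro a d
        induction a using QuotientGroup.induction_on with | _ a =>
        induction d using QuotientGroup.induction_on with | _ d =>
        obtain ⟨w, hw, ew⟩ := hgen a
        obtain ⟨v, hv, ev⟩ := hgen d
        rw [ew, ev]
        exact hcomm w hw v hv }
  let σ : Additive (G ⧸ Z) →ₗ[ℤ] Additive (G ⧸ closure T) :=
    b.constr ℤ (fun i => Additive.ofMul (QuotientGroup.mk (x i) : G ⧸ closure T))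
  have hσ : ∀ i, σ (b i) = Additive.ofMul (QuotientGroup.mk (x i) : G ⧸ closure T) := fun i =>
    b.constr_basis ℤ _ i
  let ψ : G →* (G ⧸ closure T) :=
    (MonoidHom.toAdditive.symm σ.toAddMonoidHom).comp (QuotientGroup.mk' Z)
  have hψ : ∀ g, ψ g = (σ (Additive.ofMul (QuotientGroup.mk g : G ⧸ Z))).toMul := fun g => rfl
  have hψx : ∀ w ∈ closure (Set.range x), ψ w = QuotientGroup.mk w := by
    intro w hw
    induction hw using closure_induction with
    | mem a ha =>
      obtain ⟨i, rfl⟩ := ha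
      rw [hψ, hx i]
      exact congrArg Additive.toMul (hσ i)
    | one => rw [map_one]; rfl
    | mul a d _ _ h1 h2 => rw [map_mul, h1, h2]; rfl
    | inv a _ h1 => rw [map_inv, h1]; rfl
  have hZ0 : Z ≤ closure T := by
    intro z hz
    -- ψ z = 1 and mk z = ψ z
    have h1 : ψ z = 1 := by
      rw [hψ, (QuotientGroup.eq_one_iff z).mpr hz]
      exact congrArg Additive.toMul (map_zero σ)
    have h2 : ∀ g : G, ψ g = QuotientGroup.mk g := by
      intro g
      have hg : g ∈ closure (S : Set G) := by rw [hS]; trivial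
      induction hg using closure_induction with
      | mem s hs =>
        have e1 : (QuotientGroup.mk s : G ⧸ Z) = QuotientGroup.mk (y s) := by
          rw [eq_comm, QuotientGroup.eq]
          have := comm_of_mem Z D.cen (hyz s) (y s)
          have h2 : s * (y s)⁻¹ * y s = s := by group
          rw [h2] at this
          have : (y s)⁻¹ * s = s * (y s)⁻¹ := by
            calc (y s)⁻¹ * s = (y s)⁻¹ * (y s * (s * (y s)⁻¹)) := by rw [← this]
              _ = s * (y s)⁻¹ := by group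
          rw [this]; exact hyz s
        have e2 : (QuotientGroup.mk s : G ⧸ closure T) = QuotientGroup.mk (y s) := by
          rw [eq_comm, QuotientGroup.eq]
          have := comm_of_mem Z D.cen (hyz s) (y s)
          have h2 : s * (y s)⁻¹ * y s = s := by group
          rw [h2] at this
          have : (y s)⁻¹ * s = s * (y s)⁻¹ := by
            calc (y s)⁻¹ * s = (y s)⁻¹ * (y s * (s * (y s)⁻¹)) := by rw [← this]
              _ = s * (y s)⁻¹ := by group
          rw [this]; exact subset_closure (Or.inl ⟨s, hs, rfl⟩)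
        rw [e2, ← hψx _ (hy s), hψ, hψ, e1]
      | one => rw [map_one]; rfl
      | mul a d _ _ h1 h2 => rw [map_mul, h1, h2]; rfl
      | inv a _ h1 => rw [map_inv, h1]; rfl
    rw [h2 z] at h1
    exact (QuotientGroup.eq_one_iff z).mp h1
  have : Z = closure T := le_antisymm hZ0 hTZ
  rw [this]
  exact (Subgroup.fg_iff _).mpr ⟨T, rfl, hT⟩

/-- A nontrivial element of `Z` is seen by a character to `ℤ`. -/
theorem Dat.exists_int {Z : Subgroup G} (D : Dat Z) [hG : Group.FG G]
    (tf : ∀ z ∈ Z, ∀ n : ℕ, n ≠ 0 → z ^ n = 1 → z = 1) (c₀ : Z) (hc₀ : c₀ ≠ 1) :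
    ∃ f : Z →* Multiplicative ℤ, f c₀ ≠ 1 := by
  classical
  let cz : CommGroup Z :=
    { (inferInstance : Group Z) with
      mul_comm := fun a b => Subtype.ext (comm_of_mem Z D.cen a.2 b) }
  have : Group.FG Z := (Group.fg_iff_subgroup_fg Z).mpr D.fg
  have tf' : IsMulTorsionFree Z := by
    constructor
    intro n hn0 a b hab
    simp only at hab
    have h1 : (a * b⁻¹) ^ n = 1 := by
      rw [mul_pow, hab, inv_pow, mul_inv_cancel]
    have h2 : a * b⁻¹ = 1 := Subtype.ext (tf _ (a * b⁻¹).2 n hn0 (by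
      have := congrArg Subtype.val h1
      simpa using this))
    exact mul_inv_eq_one.mp h2
  have : Module.Finite ℤ (Additive Z) := Module.Finite.iff_addGroup_fg.mpr inferInstance
  obtain ⟨n, b⟩ := Module.basisOfFiniteTypeTorsionFree' (R := ℤ) (M := Additive Z)
  have hne : b.repr (Additive.ofMul c₀) ≠ 0 := by
    intro h
    apply hc₀
    have := (LinearEquiv.map_eq_zero_iff b.repr).mp h
    exact this
  obtain ⟨i, hi⟩ := Finsupp.ne_iff.mp hne
  refine ⟨AddMonoidHom.toMultiplicativeRight ((b.coord i).toAddMonoidHom), ?_⟩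
  intro h
  apply hi
  exact congrArg Multiplicative.toAdd h

/-- **Main theorem.** -/
theorem Dat.exists_char {Z : Subgroup G} (D : Dat Z) [hG : Group.FG G]
    (tf : ∀ z ∈ Z, ∀ n : ℕ, n ≠ 0 → z ^ n = 1 → z = 1) (c₀ : G) (hc : c₀ ∈ Z) (hc₀ : c₀ ≠ 1)
    (k : ℕ) (hk : k ≠ 0) :
    ∃ (H : Subgroup G) (_ : H.FiniteIndex) (hcH : c₀ ∈ H)
      (χ : H →* Multiplicative (ZMod k)), χ ⟨c₀, hcH⟩ = Multiplicative.ofAdd 1 := by
  classical
  obtain ⟨f, hf⟩ := D.exists_int tf ⟨c₀, hc⟩ (fun h => hc₀ (congrArg Subtype.val h))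
  set t : ℤ := (f ⟨c₀, hc⟩).toAdd with ht
  have ht0 : t ≠ 0 := fun h => hf (by rw [ht] at h; exact congrArg Multiplicative.ofAdd h)
  have hm0 : t.natAbs ≠ 0 := Int.natAbs_ne_zero.mpr ht0
  set M : ℕ := t.natAbs * k with hM
  have hM0 : M ≠ 0 := Nat.mul_ne_zero hm0 hk
  have : NeZero M := ⟨hM0⟩
  have : NeZero k := ⟨hk⟩
  let red : Multiplicative ℤ →* Multiplicative (ZMod M) :=
    AddMonoidHom.toMultiplicative (Int.castAddHom (ZMod M))
  have hred : ∀ x : ℤ, red (Multiplicative.ofAdd x) = Multiplicative.ofAdd (x : ZMod M) :=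
    fun x => rfl
  have hpow : ∀ (x : Multiplicative (ZMod M)) (j : ℕ), x ^ (M * j) = 1 := by
    intro x j
    apply Multiplicative.toAdd.injective
    rw [toAdd_pow, toAdd_one, nsmul_eq_mul]
    simp
  have hN0 : 2 * M ≠ 0 := by omega
  obtain ⟨χ₀, hχ₀⟩ := exists_extend D (2 * M) hN0 (red.comp f)
    (fun z => by rw [mul_comm]; exact hpow _ _)
    (fun z => by
      have : (2 * M).choose 2 = M * (2 * M - 1) := by
        rw [Nat.choose_two_right]
        rw [mul_assoc, Nat.mul_div_cancel_left _ (by norm_num : 0 < 2)]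
      rw [this]; exact hpow _ _)
  -- the embedding `ZMod k → ZMod M`, `1 ↦ t`
  let ι : ZMod k →+ ZMod M := ZMod.lift k ⟨zmultiplesHom (ZMod M) (t : ZMod M), by
    have : (zmultiplesHom (ZMod M) (t : ZMod M)) (k : ℤ) = ((M * t.sign : ℤ) : ZMod M) := by
      rw [zmultiplesHom_apply, zsmul_eq_mul]
      have h1 : (M : ℤ) * t.sign = k * t := by
        rw [hM]; push_cast
        have := Int.sign_mul_natAbs t
        have h2 : (t.natAbs : ℤ) * t.sign = t := by rw [mul_comm]; exact this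
        calc (|t| * (k : ℤ)) * t.sign = k * ((t.natAbs : ℤ) * t.sign) := by
              rw [Int.natCast_natAbs]; ring
          _ = k * t := by rw [h2]
      rw [h1]; push_cast; rfl
    rw [this]; simp⟩
  have hι1 : ∀ j : ℤ, ι (j : ZMod k) = ((j * t : ℤ) : ZMod M) := by
    intro j
    have := ZMod.lift_coe k (⟨zmultiplesHom (ZMod M) (t : ZMod M), by
      have : (zmultiplesHom (ZMod M) (t : ZMod M)) (k : ℤ) = ((M * t.sign : ℤ) : ZMod M) := by
        rw [zmultiplesHom_apply, zsmul_eq_mul]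
        have h1 : (M : ℤ) * t.sign = k * t := by
          rw [hM]; push_cast
          have := Int.sign_mul_natAbs t
          have h2 : (t.natAbs : ℤ) * t.sign = t := by rw [mul_comm]; exact this
          calc (|t| * (k : ℤ)) * t.sign = k * ((t.natAbs : ℤ) * t.sign) := by
                rw [Int.natCast_natAbs]; ring
            _ = k * t := by rw [h2]
        rw [h1]; push_cast; rfl
      rw [this]; simp⟩ : {f : ℤ →+ ZMod M // f k = 0}) j
    rw [this]
    simp [zmultiplesHom_apply]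
  have hιinj : Function.Injective ι := by
    rw [injective_iff_map_eq_zero]
    intro a ha
    obtain ⟨j, rfl⟩ := ZMod.intCast_surjective a
    rw [hι1, ZMod.intCast_zmod_eq_zero_iff_dvd] at ha
    rw [ZMod.intCast_zmod_eq_zero_iff_dvd]
    have h1 : ((k : ℤ) * t) ∣ j * t := by
      have h2 : ((k : ℤ) * t) ∣ (M : ℤ) := by
        rw [hM]; push_cast
        rw [mul_comm]
        exact mul_dvd_mul_right (by rw [dvd_abs]) _
      exact h2.trans ha
    exact (mul_dvd_mul_iff_right ht0).mp h1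
  let ι' : Multiplicative (ZMod k) →* Multiplicative (ZMod M) := AddMonoidHom.toMultiplicative ι
  have hι' : Function.Injective ι' := hιinj
  have hval : χ₀ ⟨c₀, le_HSub D (2 * M) hc⟩ = ι' (Multiplicative.ofAdd 1) := by
    have h1 := hχ₀ ⟨c₀, hc⟩
    rw [h1]
    have h2 := hι1 1
    simp only [Int.cast_one, one_mul] at h2
    change red (f ⟨c₀, hc⟩) = Multiplicative.ofAdd (ι 1)
    rw [h2]
    rfl
  let K : Subgroup (HSub D (2 * M)) := ι'.range.comap χ₀
  have hHfin := HSub_finiteIndex D (2 * M) hN0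
  have hKfin : K.FiniteIndex := by
    have : ι'.range.FiniteIndex := inferInstance
    exact finiteIndex_comap _ _
  let e1 : K ≃* K.map (HSub D (2 * M)).subtype :=
    K.equivMapOfInjective (HSub D (2 * M)).subtype Subtype.val_injective
  let g1 : K →* ι'.range := (χ₀.comp K.subtype).codRestrict ι'.range (fun x => x.2)
  let e2 : Multiplicative (ZMod k) ≃* ι'.range := MonoidHom.ofInjective hι'
  have hcK : (⟨c₀, le_HSub D (2 * M) hc⟩ : HSub D (2 * M)) ∈ K := ⟨_, hval.symm⟩
  refine ⟨K.map (HSub D (2 * M)).subtype, ?_, ⟨_, hcK, rfl⟩,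
    e2.symm.toMonoidHom.comp (g1.comp e1.symm.toMonoidHom), ?_⟩
  · constructor
    rw [Subgroup.index_map_subtype]
    exact mul_ne_zero hKfin.index_ne_zero hHfin.index_ne_zero
  · change e2.symm (g1 (e1.symm _)) = _
    rw [MulEquiv.symm_apply_eq]
    have : e1.symm ⟨c₀, ⟨_, hcK, rfl⟩⟩ = ⟨⟨c₀, le_HSub D (2 * M) hc⟩, hcK⟩ := by
      rw [MulEquiv.symm_apply_eq]; rfl
    rw [this]
    apply Subtype.ext
    exact hval

end char

section heis

/-- The Heisenberg group of a bilinear form `ω` on a real vector space: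
`(v,t)(w,s) = (v+w, t+s+ω(v,w))`. -/
@[ext] structure Heis {V : Type*} [AddCommGroup V] [Module ℝ V] (ω : V →ₗ[ℝ] V →ₗ[ℝ] ℝ) where
  v : V
  t : ℝ

variable {V : Type*} [AddCommGroup V] [Module ℝ V] (ω : V →ₗ[ℝ] V →ₗ[ℝ] ℝ)

instance : Group (Heis ω) where
  mul a b := ⟨a.v + b.v, a.t + b.t + ω a.v b.v⟩
  one := ⟨0, 0⟩
  inv a := ⟨-a.v, -a.t + ω a.v a.v⟩
  mul_assoc a b c := by
    ext
    · exact add_assoc _ _ _
    · change (a.t + b.t + ω a.v b.v) + c.t + ω (a.v + b.v) c.v =
        a.t + (b.t + c.t + ω b.v c.v) + ω a.v (b.v + c.v)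
      rw [map_add, map_add, LinearMap.add_apply]; ring
  one_mul a := by
    ext
    · exact zero_add _
    · change 0 + a.t + ω 0 a.v = a.t
      simp
  mul_one a := by
    ext
    · exact add_zero _
    · change a.t + 0 + ω a.v 0 = a.t
      simp
  inv_mul_cancel a := by
    ext
    · exact neg_add_cancel _
    · change (-a.t + ω a.v a.v) + a.t + ω (-a.v) a.v = 0
      simp

@[simp] theorem Heis.mul_v (a b : Heis ω) : (a * b).v = a.v + b.v := rfl
@[simp] theorem Heis.mul_t (a b : Heis ω) : (a * b).t = a.t + b.t + ω a.v b.v := rfl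
@[simp] theorem Heis.one_v : (1 : Heis ω).v = 0 := rfl
@[simp] theorem Heis.one_t : (1 : Heis ω).t = 0 := rfl
@[simp] theorem Heis.inv_v (a : Heis ω) : (a⁻¹).v = -a.v := rfl

theorem Heis.pow_v (a : Heis ω) (n : ℕ) : (a ^ n).v = n • a.v := by
  induction n with
  | zero => simp
  | succ n ih => rw [pow_succ, Heis.mul_v, ih, succ_nsmul]

theorem Heis.pow_t (a : Heis ω) (ha : a.v = 0) (n : ℕ) : (a ^ n).t = n * a.t := by
  induction n with
  | zero => simp
  | succ n ih => rw [pow_succ, Heis.mul_t, ih, Heis.pow_v, ha]; simp; ring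

/-- The horizontal part of a subgroup of the Heisenberg group. -/
def cenPart (G : Subgroup (Heis ω)) : Subgroup G where
  carrier := {g | (g : Heis ω).v = 0}
  one_mem' := rfl
  mul_mem' := by
    intro a b ha hb
    change ((a : Heis ω) * b).v = 0
    rw [Heis.mul_v, ha, hb, add_zero]
  inv_mem' := by
    intro a ha
    change ((a : Heis ω)⁻¹).v = 0
    rw [Heis.inv_v, ha, neg_zero]

theorem mem_cenPart {G : Subgroup (Heis ω)} (g : G) : g ∈ cenPart ω G ↔ (g : Heis ω).v = 0 :=
  Iff.rfl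

theorem cenPart_dat (G : Subgroup (Heis ω)) : Dat (cenPart ω G) where
  cen := by
    intro z hz
    rw [mem_center_iff]
    intro g
    apply Subtype.ext
    have hz' : (z : Heis ω).v = 0 := hz
    change (g : Heis ω) * z = z * g
    ext
    · rw [Heis.mul_v, Heis.mul_v, add_comm]
    · rw [Heis.mul_t, Heis.mul_t, hz']; simp; ring
  com := by
    intro g h
    refine ⟨h * g * (g * h)⁻¹, ?_, by group⟩
    rw [mem_cenPart]
    change (((h : Heis ω) * g) * ((g : Heis ω) * h)⁻¹).v = 0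
    rw [Heis.mul_v, Heis.inv_v, Heis.mul_v, Heis.mul_v]; abel
  iso := by
    intro g n hn h
    rw [mem_cenPart] at h ⊢
    have h' : ((g : Heis ω) ^ n).v = 0 := h
    rw [Heis.pow_v, ← Nat.cast_smul_eq_nsmul ℝ] at h'
    exact (smul_eq_zero.mp h').resolve_left (by exact_mod_cast hn)

/-- **Corollary (step (6) of the evenness theorem).** `Γ` finitely generated, `P : Γ → Heis(ℝ)`
a homomorphism, `c₀ ≠ 0`.  Then for every `k ≥ 1` there are a finite index subgroup `Γ''` and a
character `Γ'' → ℤ/k` with value `1` at every `γ` with `P γ = (0, c₀)`. -/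
theorem exists_char_heis {Γ : Type*} [Group Γ] [Group.FG Γ] (P : Γ →* Heis ω) (c₀ : ℝ)
    (hc₀ : c₀ ≠ 0) (k : ℕ) (hk : k ≠ 0) :
    ∃ (Γ₁ : Subgroup Γ) (_ : Γ₁.FiniteIndex) (χ : Γ₁ →* Multiplicative (ZMod k)),
      ∀ γ : Γ, P γ = ⟨0, c₀⟩ → ∃ h : γ ∈ Γ₁, χ ⟨γ, h⟩ = Multiplicative.ofAdd 1 := by
  classical
  by_cases hex : ∃ γ : Γ, P γ = ⟨0, c₀⟩
  · have : Group.FG P.range := Group.fg_of_surjective P.rangeRestrict_surjective
    obtain ⟨γ₀, hγ₀⟩ := hex
    let c : P.range := ⟨⟨0, c₀⟩, ⟨γ₀, hγ₀⟩⟩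
    obtain ⟨H, hH, hcH, χ, hχ⟩ := (cenPart_dat ω P.range).exists_char
      (fun z hz n hn hzn => by
        have hz' : (z : Heis ω).v = 0 := hz
        have h1 : ((z : Heis ω) ^ n).t = 0 := by
          have := congrArg (fun g : P.range => (g : Heis ω).t) hzn
          exact this
        rw [Heis.pow_t ω _ hz'] at h1
        have h2 : (z : Heis ω).t = 0 :=
          (mul_eq_zero.mp h1).resolve_left (by exact_mod_cast hn)
        exact Subtype.ext (Heis.ext hz' h2)) c rfl
      (fun h => hc₀ (congrArg (fun g : P.range => (g : Heis ω).t) h)) k hk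
    refine ⟨H.comap P.rangeRestrict, finiteIndex_comap _ _,
      χ.comp (P.rangeRestrict.subgroupComap H), ?_⟩
    intro γ hγ
    have e : P.rangeRestrict γ = c := Subtype.ext hγ
    refine ⟨by rw [mem_comap, e]; exact hcH, ?_⟩
    rw [← hχ]
    change χ _ = χ _
    congr 1
    apply Subtype.ext
    exact e
  · exact ⟨⊤, inferInstance, 1, fun γ hγ => (hex ⟨γ, hγ⟩).elim⟩

end heis

end Crest.Agent.R272.Heis_981
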