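import Crest.Agent.R272.E5_528
import Crest.Agent.R272.Heis_981

/-!
R272, division E, step (T) = E7 (helper528): root extraction from 981's E-HEIS.

`C (g g') = C g * C g' * exp (sig g g')`, `sig` a complex 2-cocycle whose imaginary part is
virtually a sum of cup products + coboundary ⟹ on a finite index subgroup logarithms
`l g` of `C g` can be chosen with `l (g g') - l g - l g' - sig g g' ∈ 2πi k ℤ`.
-/

set_option autoImplicit false

noncomputable section

namespace Crest.Agent.R272.E7_528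

open Crest.Agent.R272.E5_528 Crest.Agent.R272.Heis_981
open scoped Real

variable {G : Type*} [Group G]

/-- the group of pairs `(g, l)`, `exp l = C g` -/
def Gt (C : G → ℂ) (sig : G → G → ℂ) (hs : IsCoc sig)
    (hC : ∀ g, C g ≠ 0) (hCC : ∀ g g', C (g * g') = C g * C g' * Complex.exp (sig g g')) :
    letI := Ext.group hs; Subgroup (Ext sig) :=
  letI := Ext.group hs
  { carrier := {x | Complex.exp x.t = C x.g}
    mul_mem' := by
      intro x y hx hy
      change Complex.exp (x.t + y.t + sig x.g y.g) = C (x.g * y.g)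
      rw [Complex.exp_add, Complex.exp_add, hCC]
      rw [show Complex.exp x.t = C x.g from hx, show Complex.exp y.t = C y.g from hy]
    one_mem' := by
      change Complex.exp (-sig 1 1) = C 1
      have h := hCC 1 1
      rw [mul_one] at h
      have h1 : C 1 * Complex.exp (sig 1 1) = 1 := by
        have h2 : C 1 * (C 1 * Complex.exp (sig 1 1)) = C 1 * 1 := by
          rw [← mul_assoc, ← h, mul_one]
        exact mul_left_cancel₀ (hC 1) h2
      rw [Complex.exp_neg]
      exact (eq_inv_of_mul_eq_one_left h1).symm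
    inv_mem' := by
      intro x hx
      change Complex.exp (-x.t - sig x.g⁻¹ x.g - sig 1 1) = C x.g⁻¹
      have hx' : Complex.exp x.t = C x.g := hx
      have h := hCC x.g⁻¹ x.g
      rw [inv_mul_cancel] at h
      have h1 : C 1 = Complex.exp (-sig 1 1) := by
        have h := hCC 1 1
        rw [mul_one] at h
        have h1 : C 1 * Complex.exp (sig 1 1) = 1 := by
          have h2 : C 1 * (C 1 * Complex.exp (sig 1 1)) = C 1 * 1 := by
            rw [← mul_assoc, ← h, mul_one]
          exact mul_left_cancel₀ (hC 1) h2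
        rw [Complex.exp_neg]
        exact (eq_inv_of_mul_eq_one_left h1)
      rw [h1] at h
      have hne := Complex.exp_ne_zero (sig x.g⁻¹ x.g)
      have hne2 := hC x.g
      have : Complex.exp (-x.t - sig x.g⁻¹ x.g - sig 1 1)
          = Complex.exp (-sig 1 1) * (Complex.exp (sig x.g⁻¹ x.g))⁻¹ * (Complex.exp x.t)⁻¹ := by
        rw [← Complex.exp_neg, ← Complex.exp_neg, ← Complex.exp_add, ← Complex.exp_add]
        congr 1; ring
      rw [this, h, hx']
      field_simp }

/-- **E7, main form** (429's (6)). -/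
theorem root [Group.FG G] (C : G → ℂ) (hC : ∀ g, C g ≠ 0) (sig : G → G → ℂ) (hs : IsCoc sig)
    (hCC : ∀ g g', C (g * g') = C g * C g' * Complex.exp (sig g g'))
    (hv : Virt (fun g g' => (sig g g').im)) (k : ℕ) (hk : k ≠ 0) :
    ∃ (H : Subgroup G) (_ : H.FiniteIndex) (l : H → ℂ), (∀ g, Complex.exp (l g) = C g) ∧
      ∀ g g' : H, ∃ m : ℤ, l (g * g') = l g + l g' + sig g g' + 2 * π * Complex.I * (k * m) := by
  classical
  obtain ⟨K, hK, r, a, b, φ, hcup⟩ := hv
  -- restrict everything to K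
  let CK : K → ℂ := fun g => C g
  let sK : K → K → ℂ := fun g h => sig g h
  have hsK : IsCoc sK := fun g h k => hs g h k
  have hCK : ∀ g, CK g ≠ 0 := fun g => hC g
  have hCCK : ∀ g g', CK (g * g') = CK g * CK g' * Complex.exp (sK g g') :=
    fun g g' => hCC g g'
  let _ := Ext.group hsK
  let E : Subgroup (Ext sK) := Gt CK sK hsK hCK hCCK
  have hmemE : ∀ x : Ext sK, x ∈ E ↔ Complex.exp x.t = CK x.g := fun _ => Iff.rfl
  have hC1 : Complex.exp (-sK 1 1) = CK 1 := (Gt CK sK hsK hCK hCCK).one_mem'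
  -- projection
  let p : E →* K :=
    { toFun := fun x => x.1.g
      map_one' := rfl
      map_mul' := fun _ _ => rfl }
  -- the central ℤ
  let z : Multiplicative ℤ →* E :=
    { toFun := fun n => ⟨⟨1, -sK 1 1 + 2 * π * Complex.I * (n.toAdd : ℂ)⟩, by
        rw [hmemE, Complex.exp_add, hC1]
        have : Complex.exp (2 * π * Complex.I * (n.toAdd : ℂ)) = 1 :=
          Complex.exp_eq_one_iff.mpr ⟨n.toAdd, by ring⟩
        rw [this, mul_one]⟩
      map_one' := by
        apply Subtype.ext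
        apply Ext.ext
        · rfl
        · change -sK 1 1 + 2 * π * Complex.I * ((Multiplicative.toAdd (1 : Multiplicative ℤ) : ℤ) : ℂ)
            = -sK 1 1
          simp
      map_mul' := by
        intro m n
        apply Subtype.ext
        apply Ext.ext
        · exact (mul_one _).symm
        · change -sK 1 1 + 2 * π * Complex.I * ((m.toAdd + n.toAdd : ℤ) : ℂ)
            = (-sK 1 1 + 2 * π * Complex.I * (m.toAdd : ℂ))
              + (-sK 1 1 + 2 * π * Complex.I * (n.toAdd : ℂ)) + sK 1 1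
          push_cast; ring }
  let c : E := z (Multiplicative.ofAdd 1)
  have hcz : ∀ n : ℤ, c ^ n = z (Multiplicative.ofAdd n) := by
    intro n
    rw [← map_zpow]; congr 1
    apply Multiplicative.toAdd.injective
    simp
  -- two elements of E over the same g differ by a power of c
  have hfib : ∀ x y : E, p x = p y → ∃ n : ℤ, x = y * c ^ n ∧
      x.1.t = y.1.t + 2 * π * Complex.I * n := by
    intro x y hxy
    have hx := (hmemE _).mp x.2
    have hy := (hmemE _).mp y.2
    have hg : x.1.g = y.1.g := hxy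
    rw [hg, ← hy] at hx
    obtain ⟨n, hn⟩ := Complex.exp_eq_exp_iff_exists_int.mp hx
    refine ⟨n, ?_, by rw [hn]; ring⟩
    rw [hcz]
    apply Subtype.ext
    apply Ext.ext
    · change x.1.g = y.1.g * 1
      rw [mul_one]; exact hg
    · change x.1.t = y.1.t + (-sK 1 1 + 2 * π * Complex.I * (n : ℂ)) + sK y.1.g 1
      have h1 : sK y.1.g 1 = sK 1 1 := hsK.one_right _
      rw [h1, hn]; ring
  have hpsurj : Function.Surjective p := by
    intro g
    refine ⟨⟨⟨g, Complex.log (CK g)⟩, ?_⟩, rfl⟩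
    rw [hmemE]; exact Complex.exp_log (hCK g)
  -- E is finitely generated
  have hKfg : Group.FG K := inferInstance
  have hEfg : Group.FG E := by
    obtain ⟨S, hS⟩ := hKfg.out
    choose s hsec using hpsurj
    refine ⟨⟨insert c (S.image s), ?_⟩⟩
    rw [eq_top_iff]
    rintro x -
    set Q := Subgroup.closure ((insert c (S.image s) : Finset E) : Set E) with hQ
    have hcQ : c ∈ Q := Subgroup.subset_closure (by simp)
    have hmap : Q.map p = ⊤ := by
      rw [eq_top_iff, ← hS, Subgroup.closure_le]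
      intro g hg
      refine ⟨s g, Subgroup.subset_closure ?_, hsec g⟩
      simp only [Finset.coe_insert, Finset.coe_image]
      exact Or.inr ⟨g, hg, rfl⟩
    obtain ⟨y, hy, hyx⟩ : p x ∈ Q.map p := by rw [hmap]; trivial
    obtain ⟨n, hn, -⟩ := hfib x y hyx.symm
    rw [hn]
    exact Q.mul_mem hy (Q.zpow_mem hcQ n)
  -- the homomorphism to the Heisenberg group
  let ω : ((Fin r → ℝ) × (Fin r → ℝ)) →ₗ[ℝ] ((Fin r → ℝ) × (Fin r → ℝ)) →ₗ[ℝ] ℝ :=
    LinearMap.mk₂ ℝ (fun u w => ∑ i, u.1 i * w.2 i)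
      (by intro u v w; simp [add_mul, Finset.sum_add_distrib])
      (by intro t u w; simp [Finset.mul_sum, mul_assoc])
      (by intro u v w; simp [mul_add, Finset.sum_add_distrib])
      (by intro t u w; simp [Finset.mul_sum, mul_left_comm])
  have hω : ∀ u w, ω u w = ∑ i, u.1 i * w.2 i := fun _ _ => rfl
  have hφ1 : (sK 1 1).im = φ 1 := by
    have := hcup 1 1
    simp only [map_one, toAdd_one, mul_zero, Finset.sum_const_zero, zero_add, mul_one] at this
    change (sK 1 1).im = φ 1 + φ 1 - φ 1 at this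
    rw [this]; ring
  let P : E →* Heis ω :=
    { toFun := fun x => ⟨(fun i => (a i x.1.g).toAdd, fun i => (b i x.1.g).toAdd),
        x.1.t.im + φ x.1.g⟩
      map_one' := by
        apply Heis.ext
        · change ((fun i => (a i 1).toAdd, fun i => (b i 1).toAdd) : (Fin r → ℝ) × (Fin r → ℝ)) = 0
          ext i <;> simp
        · change (-sK 1 1).im + φ 1 = 0
          rw [Complex.neg_im, hφ1]; ring
      map_mul' := by
        intro x y
        apply Heis.ext
        · change ((fun i => (a i (x.1.g * y.1.g)).toAdd, fun i => (b i (x.1.g * y.1.g)).toAdd) :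
            (Fin r → ℝ) × (Fin r → ℝ)) = (_, _) + (_, _)
          ext i <;> simp
        · change (x.1.t + y.1.t + sK x.1.g y.1.g).im + φ (x.1.g * y.1.g)
            = (x.1.t.im + φ x.1.g) + (y.1.t.im + φ y.1.g)
              + ∑ i, (a i x.1.g).toAdd * (b i y.1.g).toAdd
          have := hcup x.1.g y.1.g
          rw [Complex.add_im, Complex.add_im]
          change (sK x.1.g y.1.g).im = _ at this
          rw [this]; ring }
  have hPc : P c = ⟨0, 2 * π⟩ := by
    apply Heis.ext
    · change ((fun i => (a i 1).toAdd, fun i => (b i 1).toAdd) : (Fin r → ℝ) × (Fin r → ℝ)) = 0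
      ext i <;> simp
    · change (-sK 1 1 + 2 * π * Complex.I * ((1 : ℤ) : ℂ)).im + φ 1 = 2 * π
      rw [Complex.add_im, Complex.neg_im, hφ1]
      simp
  obtain ⟨Γ₁, hΓ₁, χ, hχ⟩ := exists_char_heis ω P (2 * π) (by positivity) k hk
  obtain ⟨hcΓ, hχc⟩ := hχ c hPc
  -- the finite index subgroup
  let H₁ : Subgroup K := Γ₁.map p
  have hH₁ : H₁.FiniteIndex := by
    constructor
    intro h0
    have := Subgroup.index_map_dvd (f := p) Γ₁ hpsurj
    rw [h0] at this
    exact hΓ₁.index_ne_zero (Nat.eq_zero_of_zero_dvd this)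
  let H : Subgroup G := H₁.map K.subtype
  have hH : H.FiniteIndex := by
    constructor
    rw [Subgroup.index_map_subtype]
    exact mul_ne_zero hH₁.index_ne_zero hK.index_ne_zero
  -- choice of lifts in the kernel of χ
  have hlift : ∀ g : H, ∃ x : E, ∃ hx : x ∈ Γ₁, ((p x : K) : G) = g ∧ χ ⟨x, hx⟩ = 1 := by
    rintro ⟨_, g₁, ⟨x, hx, rfl⟩, rfl⟩
    obtain ⟨n, hn⟩ := ZMod.intCast_surjective (χ ⟨x, hx⟩).toAdd
    have hmem : x * c ^ (-n) ∈ Γ₁ := Γ₁.mul_mem hx (Γ₁.zpow_mem hcΓ _)
    refine ⟨x * c ^ (-n), hmem, ?_, ?_⟩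
    · have : p (x * c ^ (-n)) = p x := by
        rw [map_mul, map_zpow]
        have : p c = 1 := rfl
        rw [this, one_zpow, mul_one]
      rw [this]; rfl
    · have : (⟨x * c ^ (-n), hmem⟩ : Γ₁) = ⟨x, hx⟩ * ⟨c, hcΓ⟩ ^ (-n) := by
        apply Subtype.ext; simp
      rw [this, map_mul, map_zpow, hχc]
      apply Multiplicative.toAdd.injective
      rw [toAdd_mul, toAdd_zpow, toAdd_ofAdd, toAdd_one, ← hn]
      simp
  choose x hx hxg hxχ using hlift
  refine ⟨H, hH, fun g => (x g).1.t, fun g => ?_, fun g g' => ?_⟩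
  · have := (hmemE _).mp (x g).2
    rw [this]
    change C ((x g).1.g : G) = C g
    rw [← hxg g]
    rfl
  · have hpp : p (x g * x g') = p (x (g * g')) := by
      apply Subtype.ext
      rw [map_mul, Subgroup.coe_mul, hxg, hxg, hxg]; rfl
    obtain ⟨n, hn, ht⟩ := hfib _ _ hpp
    have hmul : (x g * x g').1.t = (x g).1.t + (x g').1.t + sig g g' := by
      change (x g).1.t + (x g').1.t + sK (x g).1.g (x g').1.g = _
      congr 1
      change sig ((p (x g) : K) : G) ((p (x g') : K) : G) = _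
      rw [hxg, hxg]
    have hχn : ((n : ℤ) : ZMod k) = 0 := by
      have hm : x (g * g') * c ^ n ∈ Γ₁ := Γ₁.mul_mem (hx _) (Γ₁.zpow_mem hcΓ _)
      have h1 : (⟨x g, hx g⟩ : Γ₁) * ⟨x g', hx g'⟩ = ⟨x (g * g'), hx _⟩ * ⟨c, hcΓ⟩ ^ n := by
        apply Subtype.ext
        simpa using hn
      have h2 := congrArg χ h1
      rw [map_mul, map_mul, map_zpow, hxχ, hxχ, hxχ, hχc, one_mul, one_mul] at h2
      have h3 := congrArg Multiplicative.toAdd h2
      rw [toAdd_one, toAdd_zpow, toAdd_ofAdd] at h3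
      simpa using h3.symm
    obtain ⟨m, hm⟩ := (ZMod.intCast_zmod_eq_zero_iff_dvd n k).mp hχn
    refine ⟨-m, ?_⟩
    rw [hmul] at ht
    change (x (g * g')).1.t = (x g).1.t + (x g').1.t + sig g g' + _
    rw [ht, hm]; push_cast; ring

/-- Function form: automorphy factors. -/
theorem root_fun [Group.FG G] {X : Type*} [MulAction G X] (C : G → ℂ) (hC : ∀ g, C g ≠ 0)
    (sig : G → G → ℂ) (hs : IsCoc sig)
    (hCC : ∀ g g', C (g * g') = C g * C g' * Complex.exp (sig g g'))
    (hv : Virt (fun g g' => (sig g g').im)) (s : G → X → ℂ)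
    (hss : ∀ g g' x, s g (g' • x) + s g' x = s (g * g') x + sig g g') (k : ℕ) (hk : k ≠ 0) :
    ∃ (H : Subgroup G) (_ : H.FiniteIndex) (l : H → ℂ),
      (∀ (g : H) (x : X), Complex.exp ((l g + s g x) / k) ^ k = C g * Complex.exp (s g x)) ∧
      ∀ (g g' : H) (x : X), Complex.exp ((l (g * g') + s (g * g') x) / k)
        = Complex.exp ((l g + s g ((g' : G) • x)) / k) * Complex.exp ((l g' + s g' x) / k) := by
  obtain ⟨H, hH, l, hl, hm⟩ := root C hC sig hs hCC hv k hk
  have hk' : (k : ℂ) ≠ 0 := by exact_mod_cast hk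
  refine ⟨H, hH, l, fun g x => ?_, fun g g' x => ?_⟩
  · rw [← Complex.exp_nat_mul, mul_div_cancel₀ _ hk', Complex.exp_add, hl]
  · obtain ⟨m, hm⟩ := hm g g'
    rw [← Complex.exp_add, Complex.exp_eq_exp_iff_exists_int]
    refine ⟨m, ?_⟩
    have h := hss g g' x
    have h2 : s ((g : G) * (g' : G)) x = s g ((g' : G) • x) + s g' x - sig g g' := by
      rw [h]; ring
    rw [hm]
    rw [h2]
    field_simp
    ring

/-- Integral cocycle form. -/
theorem int_root [Group.FG G] (N : G → G → ℤ) (hN : IsCoc N)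
    (hv : Virt (fun g g' => (N g g' : ℝ))) (k : ℕ) (hk : k ≠ 0) :
    ∃ (H : Subgroup G) (_ : H.FiniteIndex) (ε : H → ℤ), ∀ g g' : H, ∃ m : ℤ,
      ε (g * g') = ε g + ε g' + N g g' + k * m := by
  have h2 : (2 * (π : ℂ) * Complex.I) ≠ 0 := by
    simp [Real.pi_ne_zero, Complex.I_ne_zero]
  have hv' : Virt (fun g g' => (2 * (π : ℂ) * Complex.I * (N g g' : ℂ)).im) := by
    have := hv.smul (2 * π)
    convert this using 3 with g g'
    simp
  obtain ⟨H, hH, l, hl, hm⟩ := root (G := G) (fun _ => 1) (fun _ => one_ne_zero)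
    (fun g g' => 2 * π * Complex.I * (N g g' : ℂ))
    (by
      intro g g' g''
      have := hN g g' g''
      have h3 : ((N g g' : ℂ) + (N (g * g') g'' : ℂ)) = (N g' g'' : ℂ) + (N g (g' * g'') : ℂ) := by
        exact_mod_cast this
      linear_combination (2 * π * Complex.I) * h3)
    (by
      intro g g'
      have : Complex.exp (2 * π * Complex.I * (N g g' : ℂ)) = 1 :=
        Complex.exp_eq_one_iff.mpr ⟨N g g', by ring⟩
      rw [this]; ring) hv' k hk
  have hex : ∀ g : H, ∃ n : ℤ, l g = 2 * π * Complex.I * n := by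
    intro g
    obtain ⟨n, hn⟩ := Complex.exp_eq_one_iff.mp (hl g)
    exact ⟨n, by rw [hn]; ring⟩
  choose ε hε using hex
  refine ⟨H, hH, ε, fun g g' => ?_⟩
  obtain ⟨m, hm⟩ := hm g g'
  refine ⟨m, ?_⟩
  rw [hε, hε, hε] at hm
  have h4 : (2 * (π : ℂ) * Complex.I) * (ε (g * g') : ℂ)
      = (2 * (π : ℂ) * Complex.I) * ((ε g + ε g' + N g g' + k * m : ℤ) : ℂ) := by
    rw [hm]; push_cast; ring
  exact_mod_cast mul_left_cancel₀ h2 h4

end Crest.Agent.R272.E7_528
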