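/-
helper641, row 272, division E: common language (Mathlib only).
Everything is on the ball of `E n = EuclideanSpace ℂ (Fin n)`.
-/
import Mathlib

set_option autoImplicit false

open scoped ComplexConjugate Topology

namespace Crest.Agent.R272.EBase_641

noncomputable section

/-- space part at the distinguished place -/
abbrev E (n : ℕ) := EuclideanSpace ℂ (Fin n)

/-- the Hermitian space of signature (n,1): (space part, time part) -/
abbrev V1 (n : ℕ) := E n × ℂ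

variable {n : ℕ}

/-- Hermitian form of signature (n,1), linear in the FIRST variable. -/
def hh (v w : V1 n) : ℂ := inner ℂ w.1 v.1 - v.2 * conj w.2

/-- the unit ball -/
def Ball (n : ℕ) : Set (E n) := Metric.ball 0 1

theorem mem_Ball {z : E n} : z ∈ Ball n ↔ ‖z‖ < 1 := by simp [Ball]

/-- `lin v z = h((z,1), v)`: affine, holomorphic in `z`; its zero set is the hyperplane `v^⊥`. -/
def lin (v : V1 n) (z : E n) : ℂ := inner ℂ v.1 z - conj v.2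

theorem lin_eq_hh (v : V1 n) (z : E n) : lin v z = hh (z, 1) v := by
  simp [lin, hh]

/-- `R(v,z) = |h(v,z)|^2 / (-h(z,z))`. -/
def R (v : V1 n) (z : E n) : ℝ := ‖lin v z‖ ^ 2 / (1 - ‖z‖ ^ 2)

theorem R_nonneg (v : V1 n) {z : E n} (hz : z ∈ Ball n) : 0 ≤ R v z := by
  have h1 : ‖z‖ < 1 := mem_Ball.1 hz
  have h2 : 0 ≤ 1 - ‖z‖ ^ 2 := by nlinarith [norm_nonneg z]
  exact div_nonneg (by positivity) h2

theorem hh_self (v : V1 n) : hh v v = ((‖v.1‖ ^ 2 - ‖v.2‖ ^ 2 : ℝ) : ℂ) := by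
  simp only [hh]
  rw [inner_self_eq_norm_sq_to_K, Complex.mul_conj, Complex.normSq_eq_norm_sq]
  push_cast
  simp

theorem hh_conj (v w : V1 n) : conj (hh v w) = hh w v := by
  simp only [hh, map_sub, map_mul, Complex.conj_conj]
  rw [inner_conj_symm]
  ring

theorem hh_add_left (u v w : V1 n) : hh (u + v) w = hh u w + hh v w := by
  simp only [hh, Prod.fst_add, Prod.snd_add, inner_add_right]; ring

theorem hh_smul_left (c : ℂ) (v w : V1 n) : hh (c • v) w = c * hh v w := by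
  simp only [hh, Prod.smul_fst, Prod.smul_snd, inner_smul_right, smul_eq_mul]; ring

theorem hh_smul_right (c : ℂ) (v w : V1 n) : hh v (c • w) = conj c * hh v w := by
  rw [← hh_conj, hh_smul_left, map_mul, hh_conj]

theorem hh_add_right (u v w : V1 n) : hh u (v + w) = hh u v + hh u w := by
  rw [← hh_conj, hh_add_left, map_add, hh_conj, hh_conj]

/-- the unitary group U(n,1) as a subgroup of the linear automorphisms -/
def UG (n : ℕ) : Subgroup (V1 n ≃ₗ[ℂ] V1 n) where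
  carrier := {g | ∀ v w, hh (g v) (g w) = hh v w}
  mul_mem' := by
    intro a b ha hb v w
    rw [LinearEquiv.mul_apply, LinearEquiv.mul_apply, ha, hb]
  one_mem' := by intro v w; rfl
  inv_mem' := by
    intro a ha v w
    have h := ha (a⁻¹ v) (a⁻¹ w)
    have e1 : a (a⁻¹ v) = v := LinearEquiv.apply_symm_apply a v
    have e2 : a (a⁻¹ w) = w := LinearEquiv.apply_symm_apply a w
    rw [e1, e2] at h
    exact h.symm

theorem UG_hh (g : UG n) (v w : V1 n) : hh (g.1 v) (g.1 w) = hh v w := g.2 v w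

/-- automorphy factor -/
def jj (g : UG n) (z : E n) : ℂ := (g.1 (z, 1)).2

/-- action on the ball -/
def act (g : UG n) (z : E n) : E n := (jj g z)⁻¹ • (g.1 (z, 1)).1

theorem norm_sub_jj (g : UG n) (z : E n) :
    ‖(g.1 (z, 1)).1‖ ^ 2 - ‖jj g z‖ ^ 2 = ‖z‖ ^ 2 - 1 := by
  have h := UG_hh g (z, 1) (z, 1)
  rw [hh_self, hh_self] at h
  have h' := Complex.ofReal_injective h
  simpa [jj] using h'

theorem jj_ne_zero (g : UG n) {z : E n} (hz : z ∈ Ball n) : jj g z ≠ 0 := by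
  intro h0
  have h := norm_sub_jj g z
  rw [h0] at h
  have h1 : ‖z‖ < 1 := mem_Ball.1 hz
  have : (0:ℝ) ≤ ‖(g.1 (z, 1)).1‖ ^ 2 := by positivity
  nlinarith [norm_nonneg z, h, norm_zero (E := ℂ)]

theorem one_sub_norm_act (g : UG n) {z : E n} (hz : z ∈ Ball n) :
    1 - ‖act g z‖ ^ 2 = (1 - ‖z‖ ^ 2) / ‖jj g z‖ ^ 2 := by
  have hj := jj_ne_zero g hz
  have hj' : ‖jj g z‖ ≠ 0 := by simpa using hj
  have h := norm_sub_jj g z
  rw [act, norm_smul, norm_inv]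
  field_simp
  linarith

theorem act_mem (g : UG n) {z : E n} (hz : z ∈ Ball n) : act g z ∈ Ball n := by
  have hj := jj_ne_zero g hz
  have hj' : 0 < ‖jj g z‖ := by simpa using hj
  have h := one_sub_norm_act g hz
  have h1 : ‖z‖ < 1 := mem_Ball.1 hz
  have h2 : 0 < 1 - ‖z‖ ^ 2 := by nlinarith [norm_nonneg z]
  have h3 : 0 < 1 - ‖act g z‖ ^ 2 := by rw [h]; positivity
  rw [mem_Ball]
  nlinarith [norm_nonneg (act g z)]

/-- `g (z,1) = j(g,z) (gz, 1)` -/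
theorem apply_eq (g : UG n) {z : E n} (hz : z ∈ Ball n) :
    g.1 (z, 1) = jj g z • ((act g z, 1) : V1 n) := by
  have hj := jj_ne_zero g hz
  ext1
  · simp [act, smul_smul, hj]
  · simp [jj]

theorem jj_mul (g g' : UG n) {z : E n} (hz : z ∈ Ball n) :
    jj (g * g') z = jj g (act g' z) * jj g' z := by
  have h : (g * g').1 (z, 1) = jj g' z • g.1 ((act g' z, 1) : V1 n) := by
    show g.1 (g'.1 (z, 1)) = _
    rw [apply_eq g' hz, map_smul]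
  show ((g * g').1 (z, 1)).2 = _
  rw [h]
  simp [jj, mul_comm]

theorem act_mul (g g' : UG n) {z : E n} (hz : z ∈ Ball n) :
    act (g * g') z = act g (act g' z) := by
  have h : (g * g').1 (z, 1) = jj g' z • g.1 ((act g' z, 1) : V1 n) := by
    show g.1 (g'.1 (z, 1)) = _
    rw [apply_eq g' hz, map_smul]
  have hj := jj_ne_zero g' hz
  rw [act, jj_mul g g' hz, h]
  simp only [Prod.smul_fst, smul_smul]
  rw [act]
  congr 1
  field_simp

@[simp] theorem act_one (z : E n) : act (1 : UG n) z = z := by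
  simp [act, jj]

@[simp] theorem jj_one (z : E n) : jj (1 : UG n) z = 1 := by
  simp [jj]

theorem act_inv_act (g : UG n) {z : E n} (hz : z ∈ Ball n) : act g⁻¹ (act g z) = z := by
  rw [← act_mul _ _ hz]; simp

theorem act_act_inv (g : UG n) {z : E n} (hz : z ∈ Ball n) : act g (act g⁻¹ z) = z := by
  rw [← act_mul _ _ hz]; simp

/-- `lin (g v) (g z) = lin v z / j(g,z)` -/
theorem lin_act (g : UG n) (v : V1 n) {z : E n} (hz : z ∈ Ball n) :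
    lin (g.1 v) (act g z) = lin v z / jj g z := by
  have hj := jj_ne_zero g hz
  rw [eq_div_iff hj, lin_eq_hh, lin_eq_hh, ← UG_hh g (z, 1) v, apply_eq g hz, hh_smul_left]
  ring

theorem R_act (g : UG n) (v : V1 n) {z : E n} (hz : z ∈ Ball n) :
    R (g.1 v) (act g z) = R v z := by
  have hj := jj_ne_zero g hz
  have hj' : ‖jj g z‖ ≠ 0 := by simpa using hj
  rw [R, R, lin_act g v hz, one_sub_norm_act g hz, norm_div]
  have h1 : ‖z‖ < 1 := mem_Ball.1 hz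
  have h2 : 1 - ‖z‖ ^ 2 ≠ 0 := by nlinarith [norm_nonneg z]
  field_simp

theorem differentiable_lin (v : V1 n) : Differentiable ℂ (lin v) := by
  have : lin v = fun z => (innerSL ℂ v.1) z - conj v.2 := by
    funext z; simp [lin]
  rw [this]
  exact ((innerSL ℂ v.1).differentiable).sub_const _

/-- Majorant at `z` of the distinguished place: `h(v,v) + 2 R(v,z)`. -/
def maj (v : V1 n) (z : E n) : ℝ := (‖v.1‖ ^ 2 - ‖v.2‖ ^ 2) + 2 * R v z

/-- The Hermitian form field (kernel of the Kudla-Millson form):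
`Kf v z X Y = e^{-pi R}( om_z(X,Y) - pi A(X) conj A(Y) )`, where `om_z = ∂∂bar(-log(1-|z|^2))`,
`A = (l'(X) + l <z,X>/(1-|z|^2)) / sqrt(1-|z|^2)`, so `A(X) conj A(Y) = R ∂log R(X) conj(∂log R(Y))`. -/
def om (z X Y : E n) : ℂ :=
  inner ℂ Y X / ((1 - ‖z‖ ^ 2 : ℝ) : ℂ)
    + inner ℂ z X * conj (inner ℂ z Y) / (((1 - ‖z‖ ^ 2) ^ 2 : ℝ) : ℂ)

def Af (v : V1 n) (z X : E n) : ℂ :=
  (inner ℂ v.1 X + lin v z * inner ℂ z X / ((1 - ‖z‖ ^ 2 : ℝ) : ℂ))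
    / ((Real.sqrt (1 - ‖z‖ ^ 2) : ℝ) : ℂ)

def Kf (v : V1 n) (z X Y : E n) : ℂ :=
  (Real.exp (-Real.pi * R v z) : ℂ) * (om z X Y - Real.pi * (Af v z X * conj (Af v z Y)))

/-- real 2-form `Phi_v = d zeta_v`, `zeta_v = e^{-pi R} d^c log R = e^{-pi R} 2 Im(∂ log R)`. -/
def Ph (v : V1 n) (z X Y : E n) : ℝ := -4 * (Kf v z X Y).im

/-- definite part: all other places together -/
abbrev W (m : ℕ) := EuclideanSpace ℂ (Fin m)

/-- the real symplectic form on `V1 n × W m` -/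
def ee {m : ℕ} (v w : V1 n × W m) : ℝ := (hh v.1 w.1).im + (inner ℂ w.2 v.2 : ℂ).im

/-- Gaussian weight of a vector: `exp(-(pi/2)(h_1(v,v) + |v_2|^2))`. -/
def wt {m : ℕ} (v : V1 n × W m) : ℝ :=
  Real.exp (-(Real.pi / 2) * ((‖v.1.1‖ ^ 2 - ‖v.1.2‖ ^ 2) + ‖v.2‖ ^ 2))

/-- Arithmetic data of division E, abstract form. `G` is already a small congruence subgroup
(it preserves the self-dual lattice `L`). -/
structure EDat where
  n : ℕ
  m : ℕ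
  G : Type
  [grp : Group G]
  ρ : G →* UG n
  σ : G →* (W m ≃ₗᵢ[ℂ] W m)
  L : AddSubgroup (V1 n × W m)
  disc : ∀ r : ℝ, {v : V1 n × W m | v ∈ L ∧ ‖v‖ ≤ r}.Finite
  span : Submodule.span ℝ (L : Set (V1 n × W m)) = ⊤
  int : ∀ v ∈ L, ∀ w ∈ L, ∃ k : ℤ, ee v w = k
  dual : ∀ v, (∀ w ∈ L, ∃ k : ℤ, ee v w = k) → v ∈ L
  stab : ∀ g, ∀ v ∈ L, (((ρ g).1 v.1, σ g v.2) : V1 n × W m) ∈ L
  det1 : ∀ g, LinearMap.det ((ρ g).1 : V1 n →ₗ[ℂ] V1 n) *
    LinearMap.det ((σ g).toLinearEquiv : W m →ₗ[ℂ] W m) = 1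
  cocpt : ∃ r : ℝ, r < 1 ∧ ∀ z ∈ Ball n, ∃ g, ‖act (ρ g) z‖ ≤ r
  proper : ∀ r : ℝ, r < 1 → {g | ∃ z, ‖z‖ ≤ r ∧ ‖act (ρ g) z‖ ≤ r}.Finite

attribute [instance] EDat.grp

/-- A class of special vectors (e.g. all `v ∈ v0 + I L` with `h(v,v) = m0`), abstract form. -/
structure ECls (D : EDat) where
  S : Set (V1 D.n × W D.m)
  m1 : ℝ
  m1_pos : 0 < m1
  norm1 : ∀ v ∈ S, ‖v.1.1‖ ^ 2 - ‖v.1.2‖ ^ 2 = m1
  m2 : ℝ
  norm2 : ∀ v ∈ S, ‖v.2‖ ^ 2 = m2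
  /-- every hyperplane comes from one vector -/
  simple : ∀ v ∈ S, ∀ v' ∈ S, ∀ c : ℂ, v'.1 = c • v.1 → v' = v
  inv : ∀ g, ∀ v ∈ S, (((D.ρ g).1 v.1, D.σ g v.2) : V1 D.n × W D.m) ∈ S
  /-- approximating Schwartz-Bruhat functions `phi_N` -/
  φ : ℕ → (V1 D.n × W D.m) → ℝ
  φ_bdd : ∀ N v, |φ N v| ≤ 1
  φ_supp : ∀ N, ∃ M : ℕ, 0 < M ∧ ∀ v, φ N v ≠ 0 → M • v ∈ D.L
  φ_unif : ∃ M : ℕ, 0 < M ∧ ∀ N v, φ N v ≠ 0 → M • v ∈ D.L
  φ_per : ∀ N, ∃ M : ℕ, 0 < M ∧ ∀ v, ∀ l ∈ D.L, φ N (v + M • l) = φ N v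
  φ_inv : ∀ N g v, φ N (((D.ρ g).1 v.1, D.σ g v.2)) = φ N v
  φ_one : ∀ N, ∀ v ∈ S, φ N v = 1
  φ_far : ∀ C : ℝ, ∃ N0, ∀ N ≥ N0, ∀ v, φ N v ≠ 0 → v ∉ S →
    C ≤ |‖v.1.1‖ ^ 2 - ‖v.1.2‖ ^ 2| + ‖v.2‖ ^ 2

/-- OUTPUT of division E: a holomorphic `k`-th root cocycle for the union of the hyperplanes `v^⊥`,
`v ∈ S`, over the group `G` acting through `ρ`. -/
structure Root (n k : ℕ) {G : Type} [Group G] (ρ : G →* UG n) (S : Set (V1 n)) where
  f : E n → ℂ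
  j : G → E n → ℂ
  f_hol : DifferentiableOn ℂ f (Ball n)
  fin : ∀ z ∈ Ball n, {v | v ∈ S ∧ lin v z = 0}.Finite
  f_div : ∀ z ∈ Ball n, ∃ U ∈ 𝓝 z, ∃ u : E n → ℂ, DifferentiableOn ℂ u U ∧ (∀ w ∈ U, u w ≠ 0) ∧
    ∃ F : Finset (V1 n), (∀ v, v ∈ F ↔ v ∈ S ∧ lin v z = 0) ∧
      ∀ w ∈ U, f w = (∏ v ∈ F, lin v w) * u w
  j_hol : ∀ g, DifferentiableOn ℂ (j g) (Ball n)
  j_ne : ∀ g, ∀ z ∈ Ball n, j g z ≠ 0
  j_mul : ∀ g g', ∀ z ∈ Ball n, j (g * g') z = j g (act (ρ g') z) * j g' z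
  f_act : ∀ g, ∀ z ∈ Ball n, f (act (ρ g) z) = j g z ^ k * f z

/-- MAIN THEOREM of division E (abstract form, to be proved). -/
def EMain : Prop :=
  ∀ (D : EDat) (ι : Type) (_ : Fintype ι) (C : ι → ECls D) (k : ℕ), 0 < k →
    ∃ H : Subgroup D.G, H.FiniteIndex ∧
      ∀ i, Nonempty (Root D.n k (D.ρ.comp H.subtype) (Prod.fst '' (C i).S))

/-- THETA LEAF (E-THETA + E-CHI): every `Theta_phi` is a finite sum of products of closed
holomorphic one-forms `dA ∧ conj dB` of a finite index subgroup. -/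
def ETheta : Prop :=
  ∀ (D : EDat) (φ : (V1 D.n × W D.m) → ℝ),
    (∃ M : ℕ, 0 < M ∧ ∀ v, φ v ≠ 0 → M • v ∈ D.L) →
    (∃ M : ℕ, 0 < M ∧ ∀ v, ∀ l ∈ D.L, φ (v + M • l) = φ v) →
    ∃ (r : ℕ) (c : Fin r → ℂ) (A B : Fin r → E D.n → ℂ) (H : Subgroup D.G),
      H.FiniteIndex ∧
      (∀ i, DifferentiableOn ℂ (A i) (Ball D.n)) ∧ (∀ i, DifferentiableOn ℂ (B i) (Ball D.n)) ∧
      (∀ i, ∀ g ∈ H, ∃ a : ℂ, ∀ z ∈ Ball D.n, A i (act (D.ρ g) z) = A i z + a) ∧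
      (∀ i, ∀ g ∈ H, ∃ b : ℂ, ∀ z ∈ Ball D.n, B i (act (D.ρ g) z) = B i z + b) ∧
      ∀ z ∈ Ball D.n, ∀ X Y : E D.n,
        HasSum (fun v : {v : V1 D.n × W D.m // φ v ≠ 0} => ((φ v.1 * wt v.1 : ℝ) : ℂ) * Kf v.1.1 z X Y)
          (∑ i, c i * (fderiv ℂ (A i) z X * conj (fderiv ℂ (B i) z Y)))

end

end Crest.Agent.R272.EBase_641
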