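import Crest.Agent.R272.Macb3_562
import Crest.Agent.R272.EBase_641

/-!
# Macbeath for groups acting on the ball in the language of `EBase_641` (helper562)

`ρ : G →* UG n`, cocompact and proper on the ball (in the sense of `EDat`): `G` is finitely
presented and finitely generated.
-/

set_option autoImplicit false

namespace Crest.Agent.R272.Macb_562

open Set Topology Function Filter
open scoped Pointwise
open Crest.Agent.R272.EBase_641

variable {n : ℕ}

theorem continuousOn_apply (g : UG n) : Continuous (fun z : E n => g.1 ((z, 1) : V1 n)) := by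
  have h : Continuous (fun v : V1 n => g.1 v) :=
    LinearMap.continuous_of_finiteDimensional (g.1 : V1 n →ₗ[ℂ] V1 n)
  exact h.comp (by fun_prop)

theorem continuous_jj (g : UG n) : Continuous (jj g) :=
  continuous_snd.comp (continuousOn_apply g)

theorem continuousOn_act (g : UG n) : ContinuousOn (act g) (Ball n) := by
  have h1 : ContinuousOn (fun z : E n => (jj g z)⁻¹) (Ball n) :=
    (continuous_jj g).continuousOn.inv₀ fun z hz => jj_ne_zero g hz
  exact h1.smul (continuous_fst.comp (continuousOn_apply g)).continuousOn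

/-- `G` acts on the ball through `ρ`. -/
@[reducible] noncomputable def ballAction {G : Type*} [Group G] (ρ : G →* UG n) :
    MulAction G (Ball n) where
  smul g z := ⟨act (ρ g) z, act_mem _ z.2⟩
  one_smul z := by
    apply Subtype.ext
    show act (ρ 1) z = z
    rw [map_one, act_one]
  mul_smul g h z := by
    apply Subtype.ext
    show act (ρ (g * h)) z = act (ρ g) (act (ρ h) z)
    rw [map_mul, act_mul _ _ z.2]

theorem ball_smul_coe {G : Type*} [Group G] (ρ : G →* UG n) (g : G) (z : Ball n) :
    letI := ballAction ρ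
    ((g • z : Ball n) : E n) = act (ρ g) z := rfl

theorem ball_continuousConstSMul {G : Type*} [Group G] (ρ : G →* UG n) :
    letI := ballAction ρ
    ContinuousConstSMul G (Ball n) := by
  letI := ballAction ρ
  refine ⟨fun g => ?_⟩
  refine Continuous.subtype_mk ?_ _
  exact (continuousOn_act (ρ g)).comp_continuous continuous_subtype_val fun z => z.2

theorem convex_Ball : Convex ℝ (Ball n) := convex_ball 0 1

theorem zero_mem_Ball : (0 : E n) ∈ Ball n := by simp [Ball]

instance : SimplyConnectedSpace (Ball n) := by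
  have : ContractibleSpace (Ball n) := convex_Ball.contractibleSpace ⟨0, zero_mem_Ball⟩
  infer_instance

instance : LocallyPathConnectedSpace (Ball n) :=
  IsOpen.locallyPathConnectedSpace (U := Ball n) Metric.isOpen_ball

/-- finite presentability of a cocompact, proper group of automorphisms of the ball -/
theorem pres_of_ball {G : Type*} [Group G] (ρ : G →* UG n)
    (cocpt : ∃ r : ℝ, r < 1 ∧ ∀ z ∈ Ball n, ∃ g, ‖act (ρ g) z‖ ≤ r)
    (proper : ∀ r : ℝ, r < 1 → {g | ∃ z, ‖z‖ ≤ r ∧ ‖act (ρ g) z‖ ≤ r}.Finite) :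
    Nonempty (E5_528.Pres G) := by
  letI := ballAction ρ
  haveI := ball_continuousConstSMul ρ
  obtain ⟨r, hr, hc⟩ := cocpt
  have hr0 : 0 ≤ r := by
    obtain ⟨g, hg⟩ := hc 0 zero_mem_Ball
    exact (norm_nonneg _).trans hg
  obtain ⟨s, hrs, hs⟩ := exists_between hr
  let U : Set (Ball n) := {z | ‖(z : E n)‖ < s}
  have hU : IsOpen U := isOpen_lt (continuous_subtype_val.norm) continuous_const
  have hpc : IsPreconnected U := by
    have : Subtype.val '' U = Metric.ball (0 : E n) s := by
      ext z
      simp only [mem_image, mem_ball_zero_iff]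
      constructor
      · rintro ⟨w, hw, rfl⟩; exact hw
      · intro hz; exact ⟨⟨z, mem_Ball.2 (hz.trans hs)⟩, hz, rfl⟩
    rw [← IsInducing.subtypeVal.isPreconnected_image, this]
    exact (convex_ball 0 s).isPreconnected
  refine pres_of_action (Γ := G) U hU hpc (fun x => ?_) ?_
  · obtain ⟨g, hg⟩ := hc x x.2
    refine ⟨g⁻¹, ?_⟩
    rw [Set.mem_smul_set_iff_inv_smul_mem, inv_inv]
    exact lt_of_le_of_lt hg hrs
  · refine (proper s hs).subset ?_
    rintro g ⟨z, hz, hz'⟩
    rw [Set.mem_smul_set_iff_inv_smul_mem] at hz'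
    refine ⟨((g⁻¹ • z : Ball n) : E n), le_of_lt hz', ?_⟩
    have : act (ρ g) ((g⁻¹ • z : Ball n) : E n) = ((g • g⁻¹ • z : Ball n) : E n) := rfl
    rw [this, smul_inv_smul]
    exact le_of_lt hz

theorem fg_of_pres {G : Type*} [Group G] (P : E5_528.Pres G) : Group.FG G := by
  have := P.fin
  exact Group.fg_of_surjective (f := P.π) P.surj

/-- the group of an `EDat` is finitely presented -/
theorem pres_EDat (D : EDat) : Nonempty (E5_528.Pres D.G) :=
  pres_of_ball D.ρ D.cocpt D.proper

theorem fg_EDat (D : EDat) : Group.FG D.G := by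
  obtain ⟨P⟩ := pres_EDat D
  exact fg_of_pres P

/-- LIM for the group of an `EDat` -/
theorem lim_EDat (D : EDat) {c : ℕ → D.G → D.G → ℝ} {d : D.G → D.G → ℝ}
    (hc : ∀ N, E5_528.IsCoc (c N))
    (h : ∀ g g', Tendsto (fun N => c N g g') atTop (𝓝 (d g g')))
    (hv : ∀ N, E5_528.Virt (c N)) : E5_528.Virt d := by
  obtain ⟨P⟩ := pres_EDat D
  exact E5_528.lim P hc h hv

end Crest.Agent.R272.Macb_562
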