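import Crest.Agent.R272.Pol2_898

/-!
Row 272, (E): polarized kernels on the ball: `qq`, `RR`, `QQ`, `Psi` and their invariance.
-/
set_option autoImplicit false

namespace Crest.Agent.R272.Pol_898

open Complex Set Filter Topology
open scoped ComplexConjugate Real
open Crest.Agent.R272.EBase_641

noncomputable section

variable {n : ℕ}

/-- `1 - <z,w>`, holomorphic in `z`, antiholomorphic in `w` -/
def qq (z w : E n) : ℂ := 1 - inner ℂ w z

/-- polarized `R` -/
def RR (v : V1 n) (z w : E n) : ℂ := lin v z * conj (lin v w) / qq z w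

theorem norm_inner_lt {z w : E n} (hz : z ∈ Ball n) (hw : w ∈ Ball n) : ‖inner ℂ w z‖ < 1 := by
  have h1 := mem_Ball.1 hz
  have h2 := mem_Ball.1 hw
  have h3 := norm_inner_le_norm (𝕜 := ℂ) w z
  nlinarith [norm_nonneg z, norm_nonneg w]

theorem qq_re_pos {z w : E n} (hz : z ∈ Ball n) (hw : w ∈ Ball n) : 0 < (qq z w).re := by
  have h := norm_inner_lt hz hw
  have h2 := re_le_norm (inner ℂ w z : ℂ)
  simp only [qq, sub_re, one_re]; linarith

theorem qq_slit {z w : E n} (hz : z ∈ Ball n) (hw : w ∈ Ball n) : qq z w ∈ slitPlane :=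
  Or.inl (qq_re_pos hz hw)

theorem qq_ne {z w : E n} (hz : z ∈ Ball n) (hw : w ∈ Ball n) : qq z w ≠ 0 :=
  slitPlane_ne_zero (qq_slit hz hw)

theorem qq_conj (z w : E n) : conj (qq z w) = qq w z := by
  simp only [qq, map_sub, map_one, inner_conj_symm]

theorem qq_self (z : E n) : qq z z = ((1 - ‖z‖ ^ 2 : ℝ) : ℂ) := by
  simp only [qq, inner_self_eq_norm_sq_to_K]; push_cast; rfl

theorem qq_eq_hh (z w : E n) : qq z w = - hh (z, 1) (w, 1) := by
  simp [qq, hh]

theorem qq_act (g : UG n) {z w : E n} (hz : z ∈ Ball n) (hw : w ∈ Ball n) :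
    qq (act g z) (act g w) = qq z w / (jj g z * conj (jj g w)) := by
  have h1 := jj_ne_zero g hz
  have h2 : conj (jj g w) ≠ 0 := by simpa using jj_ne_zero g hw
  rw [eq_div_iff (mul_ne_zero h1 h2), qq_eq_hh, qq_eq_hh z w, ← UG_hh g (z, 1) (w, 1),
    apply_eq g hz, apply_eq g hw, hh_smul_left, hh_smul_right]
  ring

theorem RR_self (v : V1 n) (z : E n) : RR v z z = ((R v z : ℝ) : ℂ) := by
  simp only [RR, R, qq_self, mul_conj, normSq_eq_norm_sq]; push_cast; rfl

theorem RR_conj (v : V1 n) (z w : E n) : conj (RR v z w) = RR v w z := by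
  simp only [RR, map_div₀, map_mul, conj_conj, qq_conj]; ring

theorem RR_act (g : UG n) (v : V1 n) {z w : E n} (hz : z ∈ Ball n) (hw : w ∈ Ball n) :
    RR (g.1 v) (act g z) (act g w) = RR v z w := by
  have h1 := jj_ne_zero g hz
  have h2 : conj (jj g w) ≠ 0 := by simpa using jj_ne_zero g hw
  have h3 := qq_ne hz hw
  rw [RR, RR, lin_act g v hz, lin_act g v hw, qq_act g hz hw, map_div₀]
  field_simp

/-! ### the logarithm -/

theorem continuous_qq : Continuous fun p : E n × E n => qq p.1 p.2 := by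
  unfold qq
  exact continuous_const.sub (continuous_inner.comp (continuous_snd.prodMk continuous_fst))

theorem continuousOn_logqq :
    ContinuousOn (fun p : E n × E n => log (qq p.1 p.2)) (Ball n ×ˢ Ball n) := by
  refine ContinuousOn.clog continuous_qq.continuousOn ?_
  rintro ⟨z, w⟩ ⟨hz, hw⟩
  exact qq_slit hz hw

theorem continuousOn_jj (g : UG n) : ContinuousOn (jj g) (Ball n) := by
  have : Continuous (g.1 : V1 n → V1 n) :=
    LinearMap.continuous_of_finiteDimensional (g.1 : V1 n →ₗ[ℂ] V1 n)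
  unfold jj
  exact (continuous_snd.comp (this.comp (continuous_id.prodMk continuous_const))).continuousOn

theorem continuousOn_act (g : UG n) : ContinuousOn (act g) (Ball n) := by
  have h0 : Continuous (g.1 : V1 n → V1 n) :=
    LinearMap.continuous_of_finiteDimensional (g.1 : V1 n →ₗ[ℂ] V1 n)
  unfold act
  refine ContinuousOn.smul ((continuousOn_jj g).inv₀ fun z hz => jj_ne_zero g hz) ?_
  exact (continuous_fst.comp (h0.comp (continuous_id.prodMk continuous_const))).continuousOn

theorem exp_dd_log {p z w : E n} (hp : p ∈ Ball n) (hz : z ∈ Ball n) (hw : w ∈ Ball n) :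
    exp (dd (fun z w => log (qq z w)) p z w) =
      qq z w * qq p p / (qq z p * qq p w) := by
  simp only [dd, exp_add, exp_sub]
  rw [exp_log (qq_ne hz hw), exp_log (qq_ne hz hp), exp_log (qq_ne hp hw), exp_log (qq_ne hp hp)]
  field_simp

/-- second difference of `log (1 - <z,w>)` is invariant -/
theorem dd_log_act (g : UG n) {p z w : E n} (hp : p ∈ Ball n) (hz : z ∈ Ball n)
    (hw : w ∈ Ball n) :
    dd (fun z w => log (qq z w)) (act g p) (act g z) (act g w)
      = dd (fun z w => log (qq z w)) p z w := by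
  -- the difference takes values in `2πiℤ`, is continuous and vanishes at `(p,p)`
  set D : E n × E n → ℂ := fun x =>
    dd (fun z w => log (qq z w)) (act g p) (act g x.1) (act g x.2)
      - dd (fun z w => log (qq z w)) p x.1 x.2 with hD
  have hact : ContinuousOn (fun x : E n × E n => (act g x.1, act g x.2)) (Ball n ×ˢ Ball n) := by
    refine ContinuousOn.prodMk ?_ ?_
    · exact (continuousOn_act g).comp continuousOn_fst fun x hx => hx.1
    · exact (continuousOn_act g).comp continuousOn_snd fun x hx => hx.2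
  have hmaps : MapsTo (fun x : E n × E n => (act g x.1, act g x.2)) (Ball n ×ˢ Ball n)
      (Ball n ×ˢ Ball n) := fun x hx => ⟨act_mem g hx.1, act_mem g hx.2⟩
  have hdd : ∀ q ∈ Ball n, ContinuousOn
      (fun x : E n × E n => dd (fun z w => log (qq z w)) q x.1 x.2) (Ball n ×ˢ Ball n) := by
    intro q hq
    unfold dd
    refine ((continuousOn_logqq.sub ?_).sub ?_).add continuousOn_const
    · exact continuousOn_logqq.comp (f := fun x : E n × E n => (x.1, q))
        ((continuous_fst.prodMk continuous_const).continuousOn) fun x hx => ⟨hx.1, hq⟩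
    · exact continuousOn_logqq.comp (f := fun x : E n × E n => (q, x.2))
        ((continuous_const.prodMk continuous_snd).continuousOn) fun x hx => ⟨hq, hx.2⟩
  have hcont : ContinuousOn D (Ball n ×ˢ Ball n) :=
    ((hdd _ (act_mem g hp)).comp hact hmaps).sub (hdd p hp)
  have hexp : ∀ x ∈ Ball n ×ˢ Ball n, exp (D x) = 1 := by
    rintro ⟨z, w⟩ ⟨hz, hw⟩
    simp only [hD]
    rw [exp_sub, exp_dd_log (act_mem g hp) (act_mem g hz) (act_mem g hw), exp_dd_log hp hz hw,
      qq_act g hz hw, qq_act g hp hp, qq_act g hz hp, qq_act g hp hw]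
    have h1 := jj_ne_zero g hz
    have h2 : conj (jj g w) ≠ 0 := by simpa using jj_ne_zero g hw
    have h3 := jj_ne_zero g hp
    have h4 : conj (jj g p) ≠ 0 := by simpa using h3
    have h5 := qq_ne hz hw
    have h6 := qq_ne hz hp
    have h7 := qq_ne hp hw
    have h8 := qq_ne hp hp
    field_simp
  have hconn : IsPreconnected (Ball n ×ˢ Ball n) := by
    refine IsPreconnected.prod ?_ ?_ <;> exact (convex_ball _ _).isPreconnected
  -- `D / (2πi)` has values in the discrete set of integers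
  have hval : ∀ x ∈ Ball n ×ˢ Ball n, ∃ k : ℤ, D x = k * (2 * π * I) := fun x hx =>
    exp_eq_one_iff.1 (hexp x hx)
  have hzero : D (p, p) = 0 := by simp [hD, dd_left]
  have key : ∀ x ∈ Ball n ×ˢ Ball n, D x = 0 := by
    intro x hx
    by_contra hne
    -- norm of D is a continuous function avoiding the interval (0, 2π)
    have hc : ContinuousOn (fun y => ‖D y‖) (Ball n ×ˢ Ball n) := hcont.norm
    have himg := hconn.image _ hc
    have h1 : (0:ℝ) ∈ (fun y => ‖D y‖) '' (Ball n ×ˢ Ball n) := ⟨(p, p), ⟨hp, hp⟩, by simp [hzero]⟩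
    have h2 : ‖D x‖ ∈ (fun y => ‖D y‖) '' (Ball n ×ˢ Ball n) := ⟨x, hx, rfl⟩
    have hle : 2 * π ≤ ‖D x‖ := by
      obtain ⟨k, hk⟩ := hval x hx
      have hk0 : k ≠ 0 := by rintro rfl; apply hne; simpa using hk
      have hk1 : (1:ℝ) ≤ |(k:ℝ)| := by exact_mod_cast Int.one_le_abs hk0
      rw [hk]; simp only [norm_mul, Complex.norm_intCast, norm_I, mul_one, Complex.norm_ofNat,
        Complex.norm_real, Real.norm_eq_abs, abs_of_pos Real.pi_pos]
      nlinarith [Real.pi_pos]
    have h3 : (1:ℝ) ∈ (fun y => ‖D y‖) '' (Ball n ×ˢ Ball n) := by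
      refine himg.Icc_subset h1 h2 ⟨by norm_num, ?_⟩
      linarith [Real.pi_gt_three]
    obtain ⟨y, hy, hy1⟩ := h3
    simp only at hy1
    obtain ⟨k, hk⟩ := hval y hy
    have : k ≠ 0 := by
      rintro rfl
      rw [hk] at hy1; simp at hy1
    have hk1 : (1:ℝ) ≤ |(k:ℝ)| := by exact_mod_cast Int.one_le_abs this
    rw [hk] at hy1
    simp only [norm_mul, Complex.norm_intCast, norm_I, mul_one, Complex.norm_ofNat,
        Complex.norm_real, Real.norm_eq_abs, abs_of_pos Real.pi_pos] at hy1
    nlinarith [Real.pi_gt_three]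
  have := key (z, w) ⟨hz, hw⟩
  simpa [hD, sub_eq_zero] using this

/-! ### the potential -/

/-- `QQ_v(z,w) = - Ein (π R(v;z,w)) - log (1 - <z,w>)` -/
def QQ (Ein : ℂ → ℂ) (v : V1 n) (z w : E n) : ℂ := - Ein (π * RR v z w) - log (qq z w)

/-- the polarized potential of the kernel, normalised at `p` -/
def Psi (Ein : ℂ → ℂ) (p : E n) (v : V1 n) (z w : E n) : ℂ := dd (QQ Ein v) p z w

theorem Psi_left (Ein : ℂ → ℂ) (p : E n) (v : V1 n) (w : E n) : Psi Ein p v p w = 0 :=
  dd_left _ _ _

theorem Psi_right (Ein : ℂ → ℂ) (p : E n) (v : V1 n) (z : E n) : Psi Ein p v z p = 0 :=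
  dd_right _ _ _

theorem Psi_act (Ein : ℂ → ℂ) (g : UG n) (v : V1 n) {p z w : E n} (hp : p ∈ Ball n)
    (hz : z ∈ Ball n) (hw : w ∈ Ball n) :
    Psi Ein (act g p) (g.1 v) (act g z) (act g w) = Psi Ein p v z w := by
  have h := dd_log_act g hp hz hw
  simp only [Psi, dd, QQ] at h ⊢
  rw [RR_act g v hz hw, RR_act g v hz hp, RR_act g v hp hw, RR_act g v hp hp]
  linear_combination -h

theorem Psi_inv (Ein : ℂ → ℂ) (g : UG n) (v : V1 n) {p z w : E n} (hp : p ∈ Ball n)
    (hz : z ∈ Ball n) (hw : w ∈ Ball n) :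
    Psi Ein p (g.1 v) (act g z) (act g w) - Psi Ein p (g.1 v) (act g z) (act g p)
      - Psi Ein p (g.1 v) (act g p) (act g w) + Psi Ein p (g.1 v) (act g p) (act g p)
      = Psi Ein p v z w := by
  rw [← Psi_act Ein g v hp hz hw]
  simp only [Psi, dd]; ring

theorem log_qq_conj {z w : E n} (hz : z ∈ Ball n) (hw : w ∈ Ball n) :
    conj (log (qq z w)) = log (qq w z) := by
  rw [← qq_conj z w, ← log_conj]
  intro h
  have := (slitPlane_arg_ne_pi (qq_slit hz hw))
  exact this h

theorem Psi_conj {Ein : ℂ → ℂ} (hE : ∀ x, conj (Ein x) = Ein (conj x)) (v : V1 n) {p z w : E n}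
    (hp : p ∈ Ball n) (hz : z ∈ Ball n) (hw : w ∈ Ball n) :
    conj (Psi Ein p v z w) = Psi Ein p v w z := by
  have h : ∀ x ∈ Ball n, ∀ y ∈ Ball n, conj (QQ Ein v x y) = QQ Ein v y x := by
    intro x hx y hy
    simp only [QQ, map_sub, map_neg, hE, map_mul, conj_ofReal, RR_conj, log_qq_conj hx hy]
  simp only [Psi, dd, map_add, map_sub, h z hz w hw, h z hz p hp, h p hp w hw, h p hp p hp]
  ring

/-- the action of `UG n` on the ball -/
theorem actOn_UG : ActOn (fun (g : UG n) (z : E n) => act g z) (Ball n) where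
  mem g z hz := act_mem g hz
  mul g h z hz := act_mul g h hz
  one z _ := act_one z

theorem actOn_hom {G : Type*} [Group G] (ρ : G →* UG n) :
    ActOn (fun (g : G) (z : E n) => act (ρ g) z) (Ball n) where
  mem g z hz := act_mem _ hz
  mul g h z hz := by simp only [map_mul]; exact act_mul _ _ hz
  one z _ := by simp

end

end Crest.Agent.R272.Pol_898
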