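import Crest.Agent.R272.EBase_641
import Crest.Agent.R272.E7_528
import Crest.Agent.R272.Macb4_562
import Crest.Agent.R272.Pol3_898

/-!
R272, division E (helper528): second half of the assembly of `EMain`.

`XD D S` = everything the analysis provides for one class of hyperplanes: the holomorphic
function `f`, its automorphy formula `f (g z) = f z * C g * exp (K z (g⁻¹ p))`, the invariant
kernel `K` and its approximations `KN` which are finite sums of products of additive
automorphic functions of finite index subgroups. Output: `EMain`.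
-/

set_option autoImplicit false

noncomputable section

namespace Crest.Agent.R272.EMain_528

open Crest.Agent.R272.EBase_641 Crest.Agent.R272.Pol_898 Crest.Agent.R272.E5_528
open Filter Topology
open scoped Real ComplexConjugate

/-- the action of an arithmetic datum on the ball -/
abbrev da (D : EDat) (g : D.G) (z : E D.n) : E D.n := act (D.ρ g) z

theorem actOn_da (D : EDat) : ActOn (da D) (Ball D.n) := actOn_hom D.ρ

/-- The analytic input for one class `S` of hyperplanes. -/
structure XD (D : EDat) (S : Set (V1 D.n)) where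
  p : E D.n
  hp : p ∈ Ball D.n
  f : E D.n → ℂ
  f_hol : DifferentiableOn ℂ f (Ball D.n)
  fin : ∀ z ∈ Ball D.n, {v | v ∈ S ∧ lin v z = 0}.Finite
  f_div : ∀ z ∈ Ball D.n, ∃ U ∈ 𝓝 z, ∃ u : E D.n → ℂ, DifferentiableOn ℂ u U ∧
    (∀ w ∈ U, u w ≠ 0) ∧
    ∃ F : Finset (V1 D.n), (∀ v, v ∈ F ↔ v ∈ S ∧ lin v z = 0) ∧
      ∀ w ∈ U, f w = (∏ v ∈ F, lin v w) * u w
  f_p : f p ≠ 0
  K : E D.n → E D.n → ℂ
  K_hol : ∀ w ∈ Ball D.n, DifferentiableOn ℂ (fun z => K z w) (Ball D.n)
  K_inv : InvKer (da D) (Ball D.n) p K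
  Cg : D.G → ℂ
  f_act : ∀ g, ∀ z ∈ Ball D.n, f (da D g z) = f z * Cg g * Complex.exp (K z (da D g⁻¹ p))
  KN : ℕ → E D.n → E D.n → ℂ
  KN_inv : ∀ N, InvKer (da D) (Ball D.n) p (KN N)
  KN_lim : ∀ z ∈ Ball D.n, ∀ w ∈ Ball D.n, Tendsto (fun N => KN N z w) atTop (𝓝 (K z w))
  KN_rk : ∀ N, ∃ (r : ℕ) (c : Fin r → ℂ) (A B : Fin r → E D.n → ℂ) (H : Subgroup D.G),
      H.FiniteIndex ∧
      (∀ i, ∀ g ∈ H, ∃ a : ℂ, ∀ z ∈ Ball D.n, A i (da D g z) = A i z + a) ∧
      (∀ i, ∀ g ∈ H, ∃ b : ℂ, ∀ z ∈ Ball D.n, B i (da D g z) = B i z + b) ∧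
      ∀ z ∈ Ball D.n, ∀ w ∈ Ball D.n,
        KN N z w = ∑ i, c i * ((A i z - A i p) * conj (B i w - B i p))

/-- additive automorphic functions have periods which are homomorphisms -/
theorem exists_per {G X : Type*} [Group G] {a : G → X → X} {B : Set X} (ha : ActOn a B)
    {p : X} (hp : p ∈ B) {H : Subgroup G} {A : X → ℂ}
    (hA : ∀ g ∈ H, ∃ c : ℂ, ∀ z ∈ B, A (a g z) = A z + c) :
    ∃ α : H →* Multiplicative ℂ, ∀ g : H, ∀ z ∈ B, A (a g z) = A z + (α g).toAdd := by
  choose! α hα using hA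
  refine ⟨{ toFun := fun g => Multiplicative.ofAdd (α g)
            map_one' := ?_
            map_mul' := ?_ }, fun g z hz => hα g g.2 z hz⟩
  · have h := hα 1 H.one_mem p hp
    rw [ha.one p hp] at h
    have : α 1 = 0 := by
      have h' : A p + 0 = A p + α 1 := by rw [add_zero]; exact h
      exact (add_left_cancel h').symm
    show Multiplicative.ofAdd (α ((1 : H) : G)) = 1
    rw [Subgroup.coe_one, this]; rfl
  · intro g g'
    have h := hα (g * g') (H.mul_mem g.2 g'.2) p hp
    rw [ha.mul _ _ _ hp, hα g g.2 _ (ha.mem _ _ hp), hα g' g'.2 _ hp] at h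
    show Multiplicative.ofAdd (α ((g * g' : H) : G)) = Multiplicative.ofAdd (α g)
      * Multiplicative.ofAdd (α g')
    rw [← ofAdd_add]
    congr 1
    rw [Subgroup.coe_mul]
    have h2 : A p + (α g' + α g) = A p + α (g * g') := by rw [← h]; ring
    rw [← add_left_cancel h2]; ring

/-- real part of an additive homomorphism -/
def reHom : Multiplicative ℂ →* Multiplicative ℝ := AddMonoidHom.toMultiplicative Complex.reAddGroupHom

/-- imaginary part -/
def imHom : Multiplicative ℂ →* Multiplicative ℝ := AddMonoidHom.toMultiplicative Complex.imAddGroupHom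

/-- multiplication by a constant -/
def mulHom (c : ℂ) : Multiplicative ℂ →* Multiplicative ℂ :=
  AddMonoidHom.toMultiplicative (AddMonoidHom.mulLeft c)

/-- **LEAF CUP.** -/
theorem cupOn_of_rk {G X : Type*} [Group G] {a : G → X → X} {B : Set X} (ha : ActOn a B)
    {p : X} (hp : p ∈ B) {K : X → X → ℂ} {r : ℕ} {c : Fin r → ℂ} {A A' : Fin r → X → ℂ}
    {H : Subgroup G}
    (hA : ∀ i, ∀ g ∈ H, ∃ c : ℂ, ∀ z ∈ B, A i (a g z) = A i z + c)
    (hA' : ∀ i, ∀ g ∈ H, ∃ c : ℂ, ∀ z ∈ B, A' i (a g z) = A' i z + c)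
    (hK : ∀ z ∈ B, ∀ w ∈ B, K z w = ∑ i, c i * ((A i z - A i p) * conj (A' i w - A' i p))) :
    CupOn H (fun g h => (sig a p K g h).im) := by
  choose α hα using fun i => exists_per ha hp (hA i)
  choose β hβ using fun i => exists_per ha hp (hA' i)
  have key : ∀ g h : H, (sig a p K g h).im =
      ∑ i, ((-(β i g).toAdd.re) * (c i * (α i h).toAdd).im
        + (β i g).toAdd.im * (c i * (α i h).toAdd).re) := by
    intro g h
    have e1 : sig a p K g h = ∑ i, c i * (-((α i h).toAdd * conj ((β i g).toAdd))) := by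
      rw [sig, hK _ (ha.mem _ _ hp) _ (ha.mem _ _ hp)]
      refine Finset.sum_congr rfl fun i _ => ?_
      have h1 : A' i (a (g : G)⁻¹ p) = A' i p - (β i g).toAdd := by
        have := hβ i g (a (g : G)⁻¹ p) (ha.mem _ _ hp)
        rw [ha.act_inv (g : G) hp] at this
        rw [this]; ring
      rw [h1, hα i h p hp]
      have e : A' i p - (β i g).toAdd - A' i p = - (β i g).toAdd := by ring
      rw [e, map_neg]; ring
    rw [e1, Complex.im_sum]
    refine Finset.sum_congr rfl fun i _ => ?_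
    have : c i * -((α i h).toAdd * conj ((β i g).toAdd))
        = -((c i * (α i h).toAdd) * conj ((β i g).toAdd)) := by ring
    rw [this, Complex.neg_im, Complex.mul_im, Complex.conj_re, Complex.conj_im]
    ring
  refine ⟨r + r,
    Fin.append (fun i => reHom.comp ((mulHom (-1)).comp (β i))) (fun i => imHom.comp (β i)),
    Fin.append (fun i => imHom.comp ((mulHom (c i)).comp (α i)))
      (fun i => reHom.comp ((mulHom (c i)).comp (α i))), fun _ => 0, fun g h => ?_⟩
  change (sig a p K (g : G) (h : G)).im = _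
  rw [Fin.sum_univ_add, key g h]
  simp only [Fin.append_left, Fin.append_right, ← Finset.sum_add_distrib, add_zero, sub_zero]
  refine Finset.sum_congr rfl fun i _ => ?_
  have e1 : (reHom.comp ((mulHom (-1)).comp (β i)) g).toAdd = -(β i g).toAdd.re := by
    change ((-1 : ℂ) * (β i g).toAdd).re = _
    simp
  rw [e1]
  rfl

variable {D : EDat} {S : Set (V1 D.n)}

theorem XD.virt (X : XD D S) : Virt (fun g h => (sig (da D) X.p X.K g h).im) := by
  refine Macb_562.lim_EDat D (c := fun N g h => (sig (da D) X.p (X.KN N) g h).im) ?_ ?_ ?_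
  · intro N g h k
    have := (X.KN_inv N).isCoc (actOn_da D) X.hp g h k
    have h2 := congrArg Complex.im this
    simpa using h2
  · intro g h
    have := X.KN_lim (da D h X.p) ((actOn_da D).mem _ _ X.hp) (da D g⁻¹ X.p)
      ((actOn_da D).mem _ _ X.hp)
    exact (Complex.continuous_im.tendsto _).comp this
  · intro N
    obtain ⟨r, c, A, B, H, hH, hA, hB, hK⟩ := X.KN_rk N
    exact ⟨H, hH, cupOn_of_rk (actOn_da D) X.hp hA hB hK⟩

theorem XD.Cg_ne (X : XD D S) (g : D.G) : X.Cg g ≠ 0 := by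
  intro h0
  have h := X.f_act g (da D g⁻¹ X.p) ((actOn_da D).mem _ _ X.hp)
  rw [(actOn_da D).act_inv g X.hp, h0] at h
  exact X.f_p (by rw [h]; ring)

theorem XD.Cg_mul (X : XD D S) (g g' : D.G) :
    X.Cg (g * g') = X.Cg g * X.Cg g' * Complex.exp (sig (da D) X.p X.K g g') := by
  have ha := actOn_da D
  have h1 := X.f_act (g * g') X.p X.hp
  rw [X.K_inv.left _ (ha.mem _ _ X.hp), Complex.exp_zero, mul_one, ha.mul _ _ _ X.hp,
    X.f_act g _ (ha.mem _ _ X.hp), X.f_act g' _ X.hp, X.K_inv.left _ (ha.mem _ _ X.hp),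
    Complex.exp_zero, mul_one] at h1
  have h2 : X.f X.p * (X.Cg g * X.Cg g' * Complex.exp (sig (da D) X.p X.K g g'))
      = X.f X.p * X.Cg (g * g') := by
    rw [← h1, sig]; ring
  exact (mul_left_cancel₀ X.f_p h2).symm

/-- **the root cocycle of one class**. -/
theorem XD.exists_root (X : XD D S) (k : ℕ) (hk : 0 < k) :
    ∃ H : Subgroup D.G, H.FiniteIndex ∧ Nonempty (Root D.n k (D.ρ.comp H.subtype) S) := by
  have := Macb_562.fg_EDat D
  have ha := actOn_da D
  obtain ⟨H, hH, l, hl, hm⟩ := E7_528.root X.Cg X.Cg_ne (sig (da D) X.p X.K)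
    (X.K_inv.isCoc ha X.hp) X.Cg_mul X.virt k hk.ne'
  have hk' : (k : ℂ) ≠ 0 := by exact_mod_cast hk.ne'
  refine ⟨H, hH, ⟨{
    f := X.f
    j := fun g z => Complex.exp ((l g + X.K z (da D (g : D.G)⁻¹ X.p)) / k)
    f_hol := X.f_hol
    fin := X.fin
    f_div := X.f_div
    j_hol := fun g => ?_
    j_ne := fun g z _ => Complex.exp_ne_zero _
    j_mul := fun g g' z hz => ?_
    f_act := fun g z hz => ?_ }⟩⟩
  · have h := X.K_hol (da D (g : D.G)⁻¹ X.p) (ha.mem _ _ X.hp)
    have h2 := ((h.const_add (l g)).mul_const ((k : ℂ)⁻¹)).cexp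
    simpa only [div_eq_mul_inv] using h2
  · obtain ⟨m, hm⟩ := hm g g'
    have hc := X.K_inv.cob ha X.hp (g : D.G) (g' : D.G) hz
    change Complex.exp ((l (g * g') + X.K z (da D ((g : D.G) * (g' : D.G))⁻¹ X.p)) / k)
      = Complex.exp ((l g + X.K (da D (g' : D.G) z) (da D (g : D.G)⁻¹ X.p)) / k)
        * Complex.exp ((l g' + X.K z (da D (g' : D.G)⁻¹ X.p)) / k)
    rw [← Complex.exp_add, Complex.exp_eq_exp_iff_exists_int]
    refine ⟨m, ?_⟩
    have h2 : X.K z (da D ((g : D.G) * (g' : D.G))⁻¹ X.p)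
        = X.K (da D (g' : D.G) z) (da D (g : D.G)⁻¹ X.p) + X.K z (da D (g' : D.G)⁻¹ X.p)
          - sig (da D) X.p X.K g g' := by
      rw [hc]; ring
    rw [hm, h2]
    field_simp
    ring
  · change X.f (da D (g : D.G) z) = _
    rw [X.f_act _ z hz, ← Complex.exp_nat_mul, mul_div_cancel₀ _ hk', Complex.exp_add, hl]
    ring

/-- restriction of a root structure -/
def Root.restrict {n k : ℕ} {G : Type} [Group G] {ρ : G →* UG n} {S : Set (V1 n)}
    {H H' : Subgroup G} (hHH : H' ≤ H) (R : Root n k (ρ.comp H.subtype) S) :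
    Root n k (ρ.comp H'.subtype) S where
  f := R.f
  j g := R.j (Subgroup.inclusion hHH g)
  f_hol := R.f_hol
  fin := R.fin
  f_div := R.f_div
  j_hol g := R.j_hol _
  j_ne g := R.j_ne _
  j_mul g g' z hz := by
    rw [map_mul]
    exact R.j_mul _ _ z hz
  f_act g z hz := R.f_act (Subgroup.inclusion hHH g) z hz

/-- **EMain from the analytic data of single classes.** -/
theorem emain_of_XD (h : ∀ (D : EDat) (C : ECls D), Nonempty (XD D (Prod.fst '' C.S))) : EMain := by
  intro D ι _ C k hk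
  have h1 : ∀ i, ∃ H : Subgroup D.G, H.FiniteIndex ∧
      Nonempty (Root D.n k (D.ρ.comp H.subtype) (Prod.fst '' (C i).S)) := fun i => by
    obtain ⟨X⟩ := h D (C i)
    exact X.exists_root k hk
  choose H hH hR using h1
  refine ⟨⨅ i, H i, Subgroup.finiteIndex_iInf hH, fun i => ?_⟩
  obtain ⟨R⟩ := hR i
  exact ⟨Root.restrict (iInf_le _ i) R⟩

end Crest.Agent.R272.EMain_528

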