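/-
helper641, row 272, division E, (I4) group theory: normal finite index subgroups, restriction of
root structures along homomorphisms.
-/
import Crest.Agent.R272.EMain_528

set_option autoImplicit false

open scoped ComplexConjugate Topology

namespace Crest.Agent.R272.AROut_641

open Crest.Agent.R272.EBase_641

noncomputable section

/-- pull back of a root structure along a homomorphism -/
def rootComap {n k : ℕ} {G G' : Type} [Group G] [Group G'] {ρ : G →* UG n} {S : Set (V1 n)}
    (φ : G' →* G) (R : Root n k ρ S) : Root n k (ρ.comp φ) S where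
  f := R.f
  j g := R.j (φ g)
  f_hol := R.f_hol
  fin := R.fin
  f_div := R.f_div
  j_hol g := R.j_hol _
  j_ne g := R.j_ne _
  j_mul g g' z hz := by
    rw [map_mul]
    exact R.j_mul _ _ z hz
  f_act g z hz := R.f_act _ z hz

/-- the same root structure with another name of the representation -/
def rootCongr {n k : ℕ} {G : Type} [Group G] {ρ ρ' : G →* UG n} {S : Set (V1 n)}
    (h : ρ = ρ') (R : Root n k ρ S) : Root n k ρ' S := h ▸ R

/-- `k` divides `k'`: a `k'`-th root gives a `k`-th root. -/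
def rootPow {n k : ℕ} {G : Type} [Group G] {ρ : G →* UG n} {S : Set (V1 n)} (l : ℕ)
    (R : Root n (l * k) ρ S) : Root n k ρ S where
  f := R.f
  j g z := R.j g z ^ l
  f_hol := R.f_hol
  fin := R.fin
  f_div := R.f_div
  j_hol g := (R.j_hol g).pow l
  j_ne g z hz := pow_ne_zero _ (R.j_ne g z hz)
  j_mul g g' z hz := by
    rw [R.j_mul g g' z hz, mul_pow]
  f_act g z hz := by
    rw [R.f_act g z hz, pow_mul]

/-- a finite index subgroup of a finite index subgroup contains a finite index NORMAL subgroup of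
the big group, also contained in a given finite index subgroup. -/
theorem exists_normal {Γ : Type} [Group Γ] (Δ : Subgroup Γ) (hΔ : Δ.FiniteIndex)
    (H : Subgroup Δ) (hH : H.FiniteIndex) (K0 : Subgroup Γ) (hK0 : K0.FiniteIndex) :
    ∃ K : Subgroup Γ, K.Normal ∧ K.FiniteIndex ∧ K ≤ K0 ∧
      ∃ hK : K ≤ Δ, ∀ g (hg : g ∈ K), (⟨g, hK hg⟩ : Δ) ∈ H := by
  have h1 : (H.map Δ.subtype).FiniteIndex := by
    constructor
    rw [Subgroup.index_map_subtype]
    exact mul_ne_zero hH.index_ne_zero hΔ.index_ne_zero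
  have h2 : (H.map Δ.subtype ⊓ K0).FiniteIndex := inferInstance
  refine ⟨(H.map Δ.subtype ⊓ K0).normalCore, inferInstance, inferInstance, ?_, ?_, ?_⟩
  · exact (Subgroup.normalCore_le _).trans inf_le_right
  · refine (Subgroup.normalCore_le _).trans (inf_le_left.trans ?_)
    exact Subgroup.map_subtype_le H
  · intro g hg
    have h3 := ((Subgroup.normalCore_le _) hg).1
    obtain ⟨x, hx, rfl⟩ := Subgroup.mem_map.1 h3
    exact hx

/-- roots for finitely many classes over `Δ` (finite index in `Γ`) give roots over one normal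
finite index subgroup of `Γ`. -/
theorem roots_normal {Γ : Type} [Group Γ] {n k : ℕ} (ρ : Γ →* UG n) (Δ : Subgroup Γ)
    (hΔ : Δ.FiniteIndex) {ι : Type} (S : ι → Set (V1 n)) (K0 : Subgroup Γ) (hK0 : K0.FiniteIndex)
    (h : ∃ H : Subgroup Δ, H.FiniteIndex ∧
      ∀ i, Nonempty (Root n k ((ρ.comp Δ.subtype).comp H.subtype) (S i))) :
    ∃ K : Subgroup Γ, K.Normal ∧ K.FiniteIndex ∧ K ≤ K0 ∧ K ≤ Δ ∧
      ∀ i, Nonempty (Root n k (ρ.comp K.subtype) (S i)) := by
  obtain ⟨H, hH, hR⟩ := h
  obtain ⟨K, k1, k2, k3, hK, k4⟩ := exists_normal Δ hΔ H hH K0 hK0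
  refine ⟨K, k1, k2, k3, hK, fun i => ?_⟩
  obtain ⟨R⟩ := hR i
  let φ : K →* H :=
    { toFun := fun g => ⟨⟨g.1, hK g.2⟩, k4 g.1 g.2⟩
      map_one' := rfl
      map_mul' := fun _ _ => rfl }
  have e : ((ρ.comp Δ.subtype).comp H.subtype).comp φ = ρ.comp K.subtype :=
    MonoidHom.ext fun g => rfl
  exact ⟨rootCongr e (rootComap φ R)⟩

end

end Crest.Agent.R272.AROut_641
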