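import Crest.Agent.R272.In1_68

/-!
Row 272, division E, arithmetic instance (I1) (helper68), part 2: the lattice `LO = io (O^4)`,
the self-dual lattice `L0` commensurable with it, the unitary groups `GU`, `GC` and their
representations `rho`, `sig`.
-/

set_option autoImplicit false
set_option linter.unusedSectionVars false

open scoped ComplexConjugate

namespace Crest.Agent.R272.In_68

open Crest.Agent.R272.EBase_641

noncomputable section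

variable {O : Subring (Fin 2 → ℂ)} {z : Fin 2 → ℂ}

/-! ### the lattice -/

variable (O) in
/-- integral vectors -/
def VO : AddSubgroup (Fin 4 → Fin 2 → ℂ) where
  carrier := {v | Cls_620.Int' O v}
  add_mem' ha hb := fun i => O.add_mem (ha i) (hb i)
  zero_mem' := fun _ => O.zero_mem
  neg_mem' ha := fun i => O.neg_mem (ha i)

lemma mem_VO {v : Fin 4 → Fin 2 → ℂ} : v ∈ VO O ↔ ∀ i, v i ∈ O := Iff.rfl

/-- **the lattice** `io (O^4)` -/
def LO (h : Z5r O z) : AddSubgroup (V1 3 × W 4) := (VO O).map (io h).toLinearMap.toAddMonoidHom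

lemma mem_LO (h : Z5r O z) {p : V1 3 × W 4} : p ∈ LO h ↔ ∃ v, (∀ i, v i ∈ O) ∧ io h v = p :=
  Iff.rfl

lemma io_mem (h : Z5r O z) {v : Fin 4 → Fin 2 → ℂ} : io h v ∈ LO h ↔ ∀ i, v i ∈ O := by
  constructor
  · rintro ⟨w, hw, e⟩
    have : w = v := (io h).injective e
    rw [← this]
    exact hw
  · intro hv
    exact ⟨v, hv, rfl⟩

/-- bound of the coordinates -/
lemma coord_le (h : Z5r O z) : ∃ C : ℝ, 0 < C ∧ ∀ (v : Fin 4 → Fin 2 → ℂ) (i : Fin 4) (t : Fin 2),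
    ‖v i t‖ ≤ C * ‖io h v‖ := by
  let L := (io h).symm.toLinearMap.toContinuousLinearMap
  refine ⟨‖L‖ + 1, by positivity, fun v i t => ?_⟩
  have h1 : L (io h v) = v := (io h).symm_apply_apply v
  have h2 := L.le_opNorm (io h v)
  rw [h1] at h2
  calc ‖v i t‖ ≤ ‖v i‖ := norm_le_pi_norm (v i) t
    _ ≤ ‖v‖ := norm_le_pi_norm v i
    _ ≤ ‖L‖ * ‖io h v‖ := h2
    _ ≤ (‖L‖ + 1) * ‖io h v‖ := by
      exact mul_le_mul_of_nonneg_right (by linarith) (norm_nonneg _)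

lemma LO_disc (h : Z5r O z) (r : ℝ) : {p : V1 3 × W 4 | p ∈ LO h ∧ ‖p‖ ≤ r}.Finite := by
  obtain ⟨C, hC, hle⟩ := coord_le h
  have h1 : (Set.pi Set.univ fun _ : Fin 4 => {x : Fin 2 → ℂ | x ∈ O ∧ ∀ t, ‖x t‖ ≤ C * r}).Finite :=
    Set.Finite.pi fun _ => finite_O h _
  refine (h1.image (io h)).subset ?_
  rintro p ⟨⟨v, hv, rfl⟩, hr⟩
  refine ⟨v, fun i _ => ⟨hv i, fun t => ?_⟩, rfl⟩
  exact (hle v i t).trans (mul_le_mul_of_nonneg_left hr hC.le)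

lemma LO_span (h : Z5r O z) : Submodule.span ℝ (LO h : Set (V1 3 × W 4)) = ⊤ := by
  rw [eq_top_iff]
  rintro p -
  obtain ⟨v, rfl⟩ := (io h).surjective p
  have hv : v = ∑ i : Fin 4, ∑ k : Fin 4,
      ((lamE h).symm (v i) k) • (Pi.single i (z ^ (k : ℕ)) : Fin 4 → Fin 2 → ℂ) := by
    funext i
    rw [Finset.sum_apply]
    rw [Finset.sum_eq_single i]
    · rw [Finset.sum_apply]
      simp only [Pi.smul_apply, Pi.single_eq_same]
      have h1 : v i = lam z ((lamE h).symm (v i)) := by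
        rw [← lamE_apply h, LinearEquiv.apply_symm_apply]
      funext t
      conv_lhs => rw [h1, lam_apply]
      rw [Finset.sum_apply, Fin.sum_univ_four]
      simp only [Pi.smul_apply, Pi.pow_apply, Complex.real_smul]
      simp
    · intro j _ hj
      rw [Finset.sum_apply]
      refine Finset.sum_eq_zero fun k _ => ?_
      rw [Pi.smul_apply, Pi.single_eq_of_ne (Ne.symm hj), smul_zero]
    · intro hi
      exact absurd (Finset.mem_univ i) hi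
  rw [hv, map_sum]
  refine Submodule.sum_mem _ fun i _ => ?_
  rw [map_sum]
  refine Submodule.sum_mem _ fun k _ => ?_
  rw [map_smul]
  refine Submodule.smul_mem _ _ (Submodule.subset_span ?_)
  refine (io_mem h).2 fun j => ?_
  by_cases hj : j = i
  · subst hj
    rw [Pi.single_eq_same]
    exact pow_mem h k
  · rw [Pi.single_eq_of_ne hj]
    exact O.zero_mem

lemma LO_int (h : Z5r O z) : ∀ x ∈ LO h, ∀ y ∈ LO h, ∃ k : ℤ, ((2 : ℕ) : ℝ) * ee x y = k := by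
  rintro _ ⟨v, hv, rfl⟩ _ ⟨w, hw, rfl⟩
  exact ee_int h hv hw

lemma exists_L0 (h : Z5r O z) : ∃ (p : AddSubgroup (V1 3 × W 4) × ℕ), 0 < p.2 ∧
      (∀ x ∈ LO h, p.2 • x ∈ p.1) ∧ (∀ x ∈ p.1, p.2 • x ∈ LO h) ∧
      (∀ r : ℝ, {v : V1 3 × W 4 | v ∈ p.1 ∧ ‖v‖ ≤ r}.Finite) ∧
      Submodule.span ℝ (p.1 : Set (V1 3 × W 4)) = ⊤ ∧
      (∀ v ∈ p.1, ∀ w ∈ p.1, ∃ k : ℤ, ee v w = k) ∧
      (∀ v, (∀ w ∈ p.1, ∃ k : ℤ, ee v w = k) → v ∈ p.1) ∧
      (∀ (g : V1 3 ≃ₗ[ℂ] V1 3) (s : W 4 ≃ₗᵢ[ℂ] W 4),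
        (∀ x ∈ LO h, ∃ y ∈ LO h, ((g x.1, s x.2) : V1 3 × W 4) = x + (p.2 ^ 2) • y) →
        ∀ x ∈ p.1, ((g x.1, s x.2) : V1 3 × W 4) ∈ p.1) := by
  obtain ⟨L0, N, h1⟩ := SympQ_833.exists_selfdual_ee (LO h) (LO_disc h) (LO_span h) 2
    (by norm_num) (LO_int h)
  exact ⟨(L0, N), h1⟩

/-- **the self-dual lattice** -/
def L0 (h : Z5r O z) : AddSubgroup (V1 3 × W 4) := (exists_L0 h).choose.1

/-- the index -/
def N0 (h : Z5r O z) : ℕ := (exists_L0 h).choose.2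

lemma N0_pos (h : Z5r O z) : 0 < N0 h := (exists_L0 h).choose_spec.1

lemma LO_L0 (h : Z5r O z) : ∀ x ∈ LO h, N0 h • x ∈ L0 h := (exists_L0 h).choose_spec.2.1

lemma L0_LO (h : Z5r O z) : ∀ x ∈ L0 h, N0 h • x ∈ LO h := (exists_L0 h).choose_spec.2.2.1

lemma L0_disc (h : Z5r O z) : ∀ r : ℝ, {v : V1 3 × W 4 | v ∈ L0 h ∧ ‖v‖ ≤ r}.Finite :=
  (exists_L0 h).choose_spec.2.2.2.1

lemma L0_span (h : Z5r O z) : Submodule.span ℝ (L0 h : Set (V1 3 × W 4)) = ⊤ :=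
  (exists_L0 h).choose_spec.2.2.2.2.1

lemma L0_int (h : Z5r O z) : ∀ v ∈ L0 h, ∀ w ∈ L0 h, ∃ k : ℤ, ee v w = k :=
  (exists_L0 h).choose_spec.2.2.2.2.2.1

lemma L0_dual (h : Z5r O z) : ∀ v, (∀ w ∈ L0 h, ∃ k : ℤ, ee v w = k) → v ∈ L0 h :=
  (exists_L0 h).choose_spec.2.2.2.2.2.2.1

lemma L0_stab (h : Z5r O z) : ∀ (g : V1 3 ≃ₗ[ℂ] V1 3) (s : W 4 ≃ₗᵢ[ℂ] W 4),
    (∀ x ∈ LO h, ∃ y ∈ LO h, ((g x.1, s x.2) : V1 3 × W 4) = x + (N0 h ^ 2) • y) →
    ∀ x ∈ L0 h, ((g x.1, s x.2) : V1 3 × W 4) ∈ L0 h :=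
  (exists_L0 h).choose_spec.2.2.2.2.2.2.2

/-! ### the groups -/

/-- matrices over `Fin 2 → ℂ` -/
abbrev Mt := Matrix (Fin 4) (Fin 4) (Fin 2 → ℂ)

open Matrix

variable (O z) in
/-- **the integral unitary group** -/
def GU : Subgroup Mtˣ where
  carrier := {g | (∀ i j, (g : Mt) i j ∈ O) ∧ (∀ i j, ((g⁻¹ : Mtˣ) : Mt) i j ∈ O) ∧
    ∀ v w : Fin 4 → Fin 2 → ℂ, Cls_620.hh (Cls_620.HH z) ((g : Mt) *ᵥ v) ((g : Mt) *ᵥ w) =
      Cls_620.hh (Cls_620.HH z) v w}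
  mul_mem' := by
    rintro a b ⟨ha, ha', hau⟩ ⟨hb, hb', hbu⟩
    refine ⟨fun i j => ?_, fun i j => ?_, fun v w => ?_⟩
    · rw [Units.val_mul, Matrix.mul_apply]
      exact O.sum_mem fun k _ => O.mul_mem (ha i k) (hb k j)
    · rw [_root_.mul_inv_rev, Units.val_mul, Matrix.mul_apply]
      exact O.sum_mem fun k _ => O.mul_mem (hb' i k) (ha' k j)
    · rw [Units.val_mul, ← Matrix.mulVec_mulVec, ← Matrix.mulVec_mulVec, hau, hbu]
  one_mem' := by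
    have h1 : ∀ i j, ((1 : Mtˣ) : Mt) i j ∈ O := by
      intro i j
      rw [Units.val_one, Matrix.one_apply]
      split_ifs
      · exact O.one_mem
      · exact O.zero_mem
    refine ⟨h1, by rw [inv_one]; exact h1, fun v w => ?_⟩
    rw [Units.val_one, Matrix.one_mulVec, Matrix.one_mulVec]
  inv_mem' := by
    rintro a ⟨ha, ha', hau⟩
    refine ⟨ha', by rw [inv_inv]; exact ha, fun v w => ?_⟩
    have h1 := hau (((a⁻¹ : Mtˣ) : Mt) *ᵥ v) (((a⁻¹ : Mtˣ) : Mt) *ᵥ w)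
    rw [Matrix.mulVec_mulVec, Matrix.mulVec_mulVec, ← Units.val_mul, mul_inv_cancel,
      Units.val_one, Matrix.one_mulVec, Matrix.one_mulVec] at h1
    exact h1.symm

lemma mem_GU {g : Mtˣ} : g ∈ GU O z ↔ (∀ i j, (g : Mt) i j ∈ O) ∧
    (∀ i j, ((g⁻¹ : Mtˣ) : Mt) i j ∈ O) ∧
    ∀ v w : Fin 4 → Fin 2 → ℂ, Cls_620.hh (Cls_620.HH z) ((g : Mt) *ᵥ v) ((g : Mt) *ᵥ w) =
      Cls_620.hh (Cls_620.HH z) v w := Iff.rfl

variable (O) in
/-- entries in `μ O` -/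
def Div (μ : Fin 2 → ℂ) (M : Mt) : Prop := ∀ i j, ∃ u ∈ O, M i j = μ * u

lemma Div.add {μ : Fin 2 → ℂ} {M M' : Mt} (h : Div O μ M) (h' : Div O μ M') :
    Div O μ (M + M') := fun i j => by
  obtain ⟨u, hu, e⟩ := h i j
  obtain ⟨u', hu', e'⟩ := h' i j
  exact ⟨u + u', O.add_mem hu hu', by rw [Matrix.add_apply, e, e']; ring⟩

lemma Div.neg {μ : Fin 2 → ℂ} {M : Mt} (h : Div O μ M) : Div O μ (-M) := fun i j => by
  obtain ⟨u, hu, e⟩ := h i j
  exact ⟨-u, O.neg_mem hu, by rw [Matrix.neg_apply, e]; ring⟩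

lemma Div.mul_left {μ : Fin 2 → ℂ} {M A : Mt} (h : Div O μ M) (hA : ∀ i j, A i j ∈ O) :
    Div O μ (A * M) := fun i j => by
  choose u hu e using h
  refine ⟨∑ k, A i k * u k j, O.sum_mem fun k _ => O.mul_mem (hA i k) (hu k j), ?_⟩
  rw [Matrix.mul_apply, Finset.mul_sum]
  refine Finset.sum_congr rfl fun k _ => ?_
  rw [e]; ring

lemma Div.mul_right {μ : Fin 2 → ℂ} {M A : Mt} (h : Div O μ M) (hA : ∀ i j, A i j ∈ O) :
    Div O μ (M * A) := fun i j => by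
  choose u hu e using h
  refine ⟨∑ k, u i k * A k j, O.sum_mem fun k _ => O.mul_mem (hu i k) (hA k j), ?_⟩
  rw [Matrix.mul_apply, Finset.mul_sum]
  refine Finset.sum_congr rfl fun k _ => ?_
  rw [e]; ring

variable (O z) in
/-- **the congruence subgroup** mod `μ` -/
def GC (μ : Fin 2 → ℂ) : Subgroup Mtˣ where
  carrier := {g | g ∈ GU O z ∧ Div O μ ((g : Mt) - 1)}
  mul_mem' := by
    rintro a b ⟨ha, ha'⟩ ⟨hb, hb'⟩
    refine ⟨(GU O z).mul_mem ha hb, ?_⟩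
    have : ((a * b : Mtˣ) : Mt) - 1 = ((a : Mt) - 1) * b + ((b : Mt) - 1) := by
      rw [Units.val_mul]; noncomm_ring
    rw [this]
    exact (ha'.mul_right hb.1).add hb'
  one_mem' := by
    refine ⟨(GU O z).one_mem, fun i j => ⟨0, O.zero_mem, ?_⟩⟩
    rw [Units.val_one, sub_self, mul_zero]; rfl
  inv_mem' := by
    rintro a ⟨ha, ha'⟩
    refine ⟨(GU O z).inv_mem ha, ?_⟩
    have : ((a⁻¹ : Mtˣ) : Mt) - 1 = -(((a⁻¹ : Mtˣ) : Mt) * ((a : Mt) - 1)) := by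
      rw [mul_sub, ← Units.val_mul, inv_mul_cancel, Units.val_one]
      noncomm_ring
    rw [this]
    exact (ha'.mul_left ha.2.1).neg

lemma mem_GC {μ : Fin 2 → ℂ} {g : Mtˣ} : g ∈ GC O z μ ↔ g ∈ GU O z ∧ Div O μ ((g : Mt) - 1) :=
  Iff.rfl

lemma GC_le (μ : Fin 2 → ℂ) : GC O z μ ≤ GU O z := fun _ hg => hg.1

lemma GC_mono {μ ν : Fin 2 → ℂ} (hν : ν ∈ O) : GC O z (μ * ν) ≤ GC O z μ := by
  rintro g ⟨hg, hd⟩
  refine ⟨hg, fun i j => ?_⟩
  obtain ⟨u, hu, e⟩ := hd i j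
  exact ⟨ν * u, O.mul_mem hν hu, by rw [e]; ring⟩

/-- `GC` is normalised by `GU` -/
lemma GC_conj {μ : Fin 2 → ℂ} {g a : Mtˣ} (hg : g ∈ GC O z μ) (ha : a ∈ GU O z) :
    a * g * a⁻¹ ∈ GC O z μ := by
  refine ⟨(GU O z).mul_mem ((GU O z).mul_mem ha hg.1) ((GU O z).inv_mem ha), ?_⟩
  have : ((a * g * a⁻¹ : Mtˣ) : Mt) - 1 = (a : Mt) * ((g : Mt) - 1) * ((a⁻¹ : Mtˣ) : Mt) := by
    rw [mul_sub, sub_mul, mul_one, ← Units.val_mul a a⁻¹, mul_inv_cancel, Units.val_one,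
      Units.val_mul, Units.val_mul]
  rw [this]
  exact (hg.2.mul_left ha.1).mul_right ha.2.1

/-! ### the representations -/

/-- evaluation at a place -/
def ev (t : Fin 2) : Mt →+* Matrix (Fin 4) (Fin 4) ℂ :=
  (Pi.evalRingHom (fun _ : Fin 2 => ℂ) t).mapMatrix

lemma ev_apply (t : Fin 2) (M : Mt) (i j : Fin 4) : ev t M i j = M i j t := rfl

lemma at_mulVec (M : Mt) (v : Fin 4 → Fin 2 → ℂ) (t : Fin 2) :
    at' (M *ᵥ v) t = ev t M *ᵥ at' v t := by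
  funext i
  simp only [at', Matrix.mulVec, dotProduct, Finset.sum_apply, Pi.mul_apply, ev_apply]

/-- the linear automorphism at a place -/
def gl (t : Fin 2) : Mtˣ →* ((Fin 4 → ℂ) ≃ₗ[ℂ] (Fin 4 → ℂ)) where
  toFun g := LinearEquiv.ofLinearMap (Matrix.toLin' (ev t g)) (Matrix.toLin' (ev t (g⁻¹ : Mtˣ)))
    (by rw [← Matrix.toLin'_mul, ← map_mul, ← Units.val_mul, mul_inv_cancel, Units.val_one,
      map_one, Matrix.toLin'_one])
    (by rw [← Matrix.toLin'_mul, ← map_mul, ← Units.val_mul, inv_mul_cancel, Units.val_one,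
      map_one, Matrix.toLin'_one])
  map_one' := by
    ext1 x
    show Matrix.toLin' (ev t ((1 : Mtˣ) : Mt)) x = x
    rw [Units.val_one, map_one, Matrix.toLin'_one]; rfl
  map_mul' a b := by
    ext1 x
    show Matrix.toLin' (ev t ((a * b : Mtˣ) : Mt)) x = _
    rw [Units.val_mul, map_mul, Matrix.toLin'_mul]; rfl

lemma gl_apply (t : Fin 2) (g : Mtˣ) (x : Fin 4 → ℂ) : gl t g x = ev t g *ᵥ x := rfl

lemma at_gl (g : Mtˣ) (v : Fin 4 → Fin 2 → ℂ) (t : Fin 2) :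
    at' ((g : Mt) *ᵥ v) t = gl t g (at' v t) := at_mulVec _ _ _

/-- invariance of the form at a place -/
lemma ht_gl (h : Z5r O z) {g : Mtˣ} (hg : g ∈ GU O z) (t : Fin 2) (x y : Fin 4 → ℂ) :
    ht z t (gl t g x) (gl t g y) = ht z t x y := by
  have h1 := congrFun (hg.2.2 (fun i _ => x i) (fun i _ => y i)) t
  rw [hh_at h, hh_at h, at_gl, at_gl] at h1
  exact h1

/-- conjugation of a linear automorphism by an equivalence -/
def cj {V V' : Type*} [AddCommGroup V] [Module ℂ V] [AddCommGroup V'] [Module ℂ V']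
    (e : V ≃ₗ[ℂ] V') : (V ≃ₗ[ℂ] V) →* (V' ≃ₗ[ℂ] V') where
  toFun f := (e.symm.trans f).trans e
  map_one' := by ext x; simp
  map_mul' f f' := by ext x; simp

lemma cj_apply {V V' : Type*} [AddCommGroup V] [Module ℂ V] [AddCommGroup V'] [Module ℂ V']
    (e : V ≃ₗ[ℂ] V') (f : V ≃ₗ[ℂ] V) (x : V) : cj e f (e x) = e (f x) := by simp [cj]

/-- **the representation at the ball place** -/
def rho (h : Z5r O z) : GU O z →* UG 3 where
  toFun g := ⟨cj (P0 h) (gl 0 g.1), by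
    intro v w
    obtain ⟨x, rfl⟩ := (P0 h).surjective v
    obtain ⟨y, rfl⟩ := (P0 h).surjective w
    rw [cj_apply, cj_apply, hh_P0, hh_P0, ht_gl h g.2]⟩
  map_one' := by
    refine Subtype.ext ?_
    show cj (P0 h) (gl 0 ((1 : GU O z) : Mtˣ)) = 1
    rw [OneMemClass.coe_one, map_one, map_one]
  map_mul' a b := by
    refine Subtype.ext ?_
    show cj (P0 h) (gl 0 ((a * b : GU O z) : Mtˣ)) = cj (P0 h) (gl 0 a.1) * cj (P0 h) (gl 0 b.1)
    rw [Subgroup.coe_mul, map_mul, map_mul]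

lemma rho_P0 (h : Z5r O z) (g : GU O z) (x : Fin 4 → ℂ) :
    (rho h g).1 (P0 h x) = P0 h (gl 0 g.1 x) := cj_apply _ _ _

/-- **the representation at the definite place** -/
def sig (h : Z5r O z) : GU O z →* (W 4 ≃ₗᵢ[ℂ] W 4) where
  toFun g := (cj (P1 h) (gl 1 g.1)).isometryOfInner (by
    intro v w
    obtain ⟨x, rfl⟩ := (P1 h).surjective v
    obtain ⟨y, rfl⟩ := (P1 h).surjective w
    rw [cj_apply, cj_apply, inner_P1, inner_P1, ht_gl h g.2])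
  map_one' := by
    ext1 x
    show cj (P1 h) (gl 1 ((1 : GU O z) : Mtˣ)) x = x
    rw [OneMemClass.coe_one, map_one, map_one]; rfl
  map_mul' a b := by
    ext1 x
    show cj (P1 h) (gl 1 ((a * b : GU O z) : Mtˣ)) x =
      cj (P1 h) (gl 1 a.1) (cj (P1 h) (gl 1 b.1) x)
    rw [Subgroup.coe_mul, map_mul, map_mul]; rfl

lemma sig_P1 (h : Z5r O z) (g : GU O z) (x : Fin 4 → ℂ) :
    sig h g (P1 h x) = P1 h (gl 1 g.1 x) := cj_apply _ _ _

/-- **equivariance of the embedding** -/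
lemma io_mulVec (h : Z5r O z) (g : GU O z) (v : Fin 4 → Fin 2 → ℂ) :
    io h (((g : Mtˣ) : Mt) *ᵥ v) = ((rho h g).1 (io h v).1, sig h g (io h v).2) := by
  rw [io_apply, io_fst, io_snd, rho_P0, sig_P1, at_gl, at_gl]

end

end Crest.Agent.R272.In_68
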