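import Crest.Agent.R272.Ball6_916
import Crest.Agent.R272.In2_68

/-! Row 272 (helper916): **field `cocpt` of `EDat` for `GC O z μ`** and finite index of `GC`. -/

set_option autoImplicit false
set_option linter.unusedSectionVars false

namespace Crest.Agent.R272.Ball7_916

open Matrix Module
open scoped ComplexConjugate
open Crest.Agent.R272.BallDefs_916 Crest.Agent.R272.Ball2_916
open Crest.Agent.R272.EBase_641 Crest.Agent.R272.In_68
open Crest.Agent.R272.Ball6_916 (adat span_O)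

noncomputable section

variable {O : Subring (Fin 2 → ℂ)} {z : Fin 2 → ℂ}

/-- **cocompactness of `GC O z μ` on the ball** -/
theorem cocpt (h : Z5r O z) {μ : Fin 2 → ℂ} (hμ : μ ∈ O) (hμ0 : μ ≠ 0) :
    ∃ r : ℝ, r < 1 ∧ ∀ ζ ∈ Ball 3, ∃ g : GU O z, (g : (In_68.Mt)ˣ) ∈ GC O z μ ∧
      (((g : (In_68.Mt)ˣ) : In_68.Mt)).det = 1 ∧ ‖act (rho h g) ζ‖ ≤ r := by
  obtain ⟨r, hr, hr'⟩ := Ball6_916.cocpt_mat h hμ hμ0
  refine ⟨r, hr, fun ζ hζ => ?_⟩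
  obtain ⟨g, g', h1, h2, h3, h4, h5, h6, h7, h8⟩ := hr' ζ hζ
  let u : (In_68.Mt)ˣ := ⟨g, g', h1, h2⟩
  have hu : u ∈ GU O z := mem_GU.2 ⟨h4, h5, h6⟩
  refine ⟨⟨u, hu⟩, mem_GC.2 ⟨hu, h7⟩, h3, h8 _ ?_⟩
  intro v
  rw [rho_P0, ← at_gl]

/-- for any group with a homomorphism to `GU` whose range contains `GC μ` -/
theorem cocpt_hom (h : Z5r O z) {μ : Fin 2 → ℂ} (hμ : μ ∈ O) (hμ0 : μ ≠ 0) {G : Type*} [Group G]
    (φ : G →* GU O z) (hφ : ∀ g : GU O z, (g : (In_68.Mt)ˣ) ∈ GC O z μ → g ∈ φ.range) :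
    ∃ r : ℝ, r < 1 ∧ ∀ ζ ∈ Ball 3, ∃ g, ‖act ((rho h).comp φ g) ζ‖ ≤ r := by
  obtain ⟨r, hr, hr'⟩ := cocpt h hμ hμ0
  refine ⟨r, hr, fun ζ hζ => ?_⟩
  obtain ⟨g, h1, -, h2⟩ := hr' ζ hζ
  obtain ⟨g', hg'⟩ := hφ g h1
  refine ⟨g', ?_⟩
  show ‖act (rho h (φ g')) ζ‖ ≤ r
  rw [hg']; exact h2

/-- the congruence subgroup inside `GU` -/
def GCU (O : Subring (Fin 2 → ℂ)) (z μ : Fin 2 → ℂ) : Subgroup (GU O z) :=
  (GC O z μ).subgroupOf (GU O z)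

theorem mem_GCU {μ : Fin 2 → ℂ} {g : GU O z} :
    g ∈ GCU O z μ ↔ (g : (In_68.Mt)ˣ) ∈ GC O z μ := Iff.rfl

/-- **`GC μ` has finite index in `GU`.** -/
theorem GCU_finiteIndex (h : Z5r O z) {μ : Fin 2 → ℂ} (hμ : μ ∈ O) (hμ0 : μ ≠ 0) :
    (GCU O z μ).FiniteIndex := by
  classical
  -- residues
  have hμ' : (⟨μ, hμ⟩ : (adat h).O) ≠ 0 := by
    intro h0
    exact hμ0 (congrArg Subtype.val h0)
  obtain ⟨B, hB⟩ := Ball5_916.exists_residue (adat h) ⟨μ, hμ⟩ hμ'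
  choose uf huf using hB
  let rs : (adat h).O → (adat h).O := fun x => x - ⟨μ, hμ⟩ * uf x
  let ent : GU O z → Fin 4 → Fin 4 → (adat h).O := fun g i j => ⟨((g : (In_68.Mt)ˣ) : In_68.Mt) i j, g.2.1 i j⟩
  let red : GU O z → Matrix (Fin 4) (Fin 4) (adat h).O := fun g => Matrix.of fun i j => rs (ent g i j)
  have hfin : {M : Matrix (Fin 4) (Fin 4) (adat h).O |
      ∀ i j t, ‖((M i j : (adat h).O) : Fin 2 → ℂ) t‖ ≤ B}.Finite :=
    finite_bdd_mat (adat h).toOrdT B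
  have hred : ∀ g, red g ∈ {M : Matrix (Fin 4) (Fin 4) (adat h).O |
      ∀ i j t, ‖((M i j : (adat h).O) : Fin 2 → ℂ) t‖ ≤ B} := by
    intro g i j t
    exact huf (ent g i j) t
  -- same residue implies same coset
  have hcos : ∀ g g' : GU O z, red g = red g' → g⁻¹ * g' ∈ GCU O z μ := by
    intro g g' hgg
    rw [mem_GCU, mem_GC]
    refine ⟨(g⁻¹ * g').2, ?_⟩
    have hdiv : Div O μ (((g' : (In_68.Mt)ˣ) : In_68.Mt) - ((g : (In_68.Mt)ˣ) : In_68.Mt)) := by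
      intro i j
      have h1 : rs (ent g i j) = rs (ent g' i j) := congrFun (congrFun hgg i) j
      have h2 : ent g i j - ⟨μ, hμ⟩ * uf (ent g i j) = ent g' i j - ⟨μ, hμ⟩ * uf (ent g' i j) := h1
      refine ⟨((uf (ent g' i j) - uf (ent g i j) : (adat h).O) : Fin 2 → ℂ), (uf (ent g' i j) - uf (ent g i j)).2, ?_⟩
      have h3 : ent g' i j - ent g i j = ⟨μ, hμ⟩ * (uf (ent g' i j) - uf (ent g i j)) := by
        linear_combination -h2
      exact congrArg Subtype.val h3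
    have h4 := hdiv.mul_left (A := (((g : (In_68.Mt)ˣ)⁻¹ : (In_68.Mt)ˣ) : In_68.Mt)) g.2.2.1
    have h5 : (((g : (In_68.Mt)ˣ)⁻¹ : (In_68.Mt)ˣ) : In_68.Mt) *
        (((g' : (In_68.Mt)ˣ) : In_68.Mt) - ((g : (In_68.Mt)ˣ) : In_68.Mt)) =
        (((g⁻¹ * g' : GU O z) : (In_68.Mt)ˣ) : In_68.Mt) - 1 := by
      rw [mul_sub, Units.inv_mul]
      rfl
    rw [h5] at h4
    exact h4
  -- finite quotient
  have hfq : Finite (GU O z ⧸ GCU O z μ) := by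
    have hS : Finite {M : Matrix (Fin 4) (Fin 4) (adat h).O |
      ∀ i j t, ‖((M i j : (adat h).O) : Fin 2 → ℂ) t‖ ≤ B} := hfin
    let f : (GU O z ⧸ GCU O z μ) → {M : Matrix (Fin 4) (Fin 4) (adat h).O |
      ∀ i j t, ‖((M i j : (adat h).O) : Fin 2 → ℂ) t‖ ≤ B} := fun q => ⟨red q.out, hred _⟩
    refine Finite.of_injective f ?_
    intro p q hpq
    have h1 : red p.out = red q.out := congrArg Subtype.val hpq
    have h2 := hcos _ _ h1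
    rw [← p.out_eq, ← q.out_eq]
    exact QuotientGroup.eq.2 h2
  exact Subgroup.finiteIndex_of_finite_quotient

end

end Crest.Agent.R272.Ball7_916
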