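import Crest.Agent.R272.Cls1_620

/-!
Row 272, AR-CLS (helper620), part 2: crossing hyperplanes, combinations, reflections, uniqueness,
completion of clusters (two levels `μ1` and `π * μ1`).
-/

set_option linter.unusedSectionVars false

namespace Crest.Agent.R272.Cls_620

open Finset

variable {T : Type*} [Fintype T] {ι : Type*} [Fintype ι]

section local_form

/-- the real diagonal Hermitian form on `ι → ℂ` with coefficients `c`. -/
noncomputable def h1 (c : ι → ℝ) (x y : ι → ℂ) : ℂ := ∑ i, (c i : ℂ) * x i * star (y i)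

lemma h1_add_left (c : ι → ℝ) (x y z : ι → ℂ) : h1 c (x + y) z = h1 c x z + h1 c y z := by
  simp only [h1, Pi.add_apply, mul_add, add_mul, sum_add_distrib]

lemma h1_add_right (c : ι → ℝ) (x y z : ι → ℂ) : h1 c x (y + z) = h1 c x y + h1 c x z := by
  simp only [h1, Pi.add_apply, star_add, mul_add, sum_add_distrib]

lemma h1_smul_left (c : ι → ℝ) (a : ℂ) (x y : ι → ℂ) : h1 c (a • x) y = a * h1 c x y := by
  simp only [h1, Pi.smul_apply, smul_eq_mul, mul_sum]
  exact sum_congr rfl fun i _ => by ring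

lemma h1_smul_right (c : ι → ℝ) (a : ℂ) (x y : ι → ℂ) : h1 c x (a • y) = star a * h1 c x y := by
  simp only [h1, Pi.smul_apply, smul_eq_mul, mul_sum, star_mul']
  exact sum_congr rfl fun i _ => by ring

lemma h1_star (c : ι → ℝ) (x y : ι → ℂ) : star (h1 c x y) = h1 c y x := by
  simp only [h1, star_sum, star_mul', star_star]
  refine sum_congr rfl fun i _ => ?_
  rw [Complex.star_def, Complex.conj_ofReal]; ring

lemma h1_self_re (c : ι → ℝ) (x : ι → ℂ) : (h1 c x x).re = ∑ i, c i * ‖x i‖ ^ 2 := by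
  rw [h1, Complex.re_sum]
  refine sum_congr rfl fun i _ => ?_
  rw [mul_assoc]
  have : x i * star (x i) = ((‖x i‖ ^ 2 : ℝ) : ℂ) := by
    rw [Complex.star_def, Complex.mul_conj, Complex.normSq_eq_norm_sq]
  rw [this, ← Complex.ofReal_mul, Complex.ofReal_re]

/-- signature `(n,1)`: the orthogonal complement of a negative vector is non-negative. -/
lemma perp_nonneg {c : ι → ℝ} {i0 : ι} (h0 : c i0 < 0) (hp : ∀ i, i ≠ i0 → 0 < c i)
    {p x : ι → ℂ} (hneg : (h1 c p p).re < 0) (hx : h1 c x p = 0) : 0 ≤ (h1 c x x).re := by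
  classical
  rw [h1_self_re] at hneg ⊢
  rw [← add_sum_erase _ _ (mem_univ i0)] at hneg ⊢
  rw [h1, ← add_sum_erase _ _ (mem_univ i0)] at hx
  set X := ∑ i ∈ univ.erase i0, c i * ‖x i‖ ^ 2 with hX
  set P := ∑ i ∈ univ.erase i0, c i * ‖p i‖ ^ 2 with hP
  have hX0 : 0 ≤ X := sum_nonneg fun i hi =>
    mul_nonneg (hp i (ne_of_mem_erase hi)).le (by positivity)
  have hP0 : 0 ≤ P := sum_nonneg fun i hi =>
    mul_nonneg (hp i (ne_of_mem_erase hi)).le (by positivity)
  have h2 : ‖∑ i ∈ univ.erase i0, (c i : ℂ) * x i * star (p i)‖ ^ 2 ≤ X * P := by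
    have h3 : ‖∑ i ∈ univ.erase i0, (c i : ℂ) * x i * star (p i)‖
        ≤ ∑ i ∈ univ.erase i0, (Real.sqrt (c i) * ‖x i‖) * (Real.sqrt (c i) * ‖p i‖) := by
      refine (norm_sum_le _ _).trans (sum_le_sum fun i hi => ?_)
      have hc := (hp i (ne_of_mem_erase hi)).le
      rw [norm_mul, norm_mul, norm_star, Complex.norm_real, Real.norm_of_nonneg hc]
      have : c i = Real.sqrt (c i) * Real.sqrt (c i) := (Real.mul_self_sqrt hc).symm
      conv_lhs => rw [this]
      exact le_of_eq (by ring)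
    refine (pow_le_pow_left₀ (norm_nonneg _) h3 2).trans ?_
    refine (Finset.sum_mul_sq_le_sq_mul_sq _ _ _).trans (le_of_eq ?_)
    congr 1
    · exact sum_congr rfl fun i hi => by
        rw [mul_pow, Real.sq_sqrt (hp i (ne_of_mem_erase hi)).le]
    · exact sum_congr rfl fun i hi => by
        rw [mul_pow, Real.sq_sqrt (hp i (ne_of_mem_erase hi)).le]
  have h4 : ‖∑ i ∈ univ.erase i0, (c i : ℂ) * x i * star (p i)‖ = -(c i0) * ‖x i0‖ * ‖p i0‖ := by
    have : ∑ i ∈ univ.erase i0, (c i : ℂ) * x i * star (p i) = -((c i0 : ℂ) * x i0 * star (p i0)) := by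
      linear_combination hx
    rw [this, norm_neg, norm_mul, norm_mul, norm_star, Complex.norm_real, Real.norm_of_nonpos h0.le]
  rw [h4] at h2
  have hp0 : 0 < ‖p i0‖ ^ 2 := by
    by_contra hc
    have : ‖p i0‖ ^ 2 = 0 := le_antisymm (not_lt.mp hc) (by positivity)
    rw [this] at hneg
    linarith
  have h5 : (-(c i0) * ‖x i0‖ ^ 2) * (-(c i0) * ‖p i0‖ ^ 2) ≤ X * (-(c i0) * ‖p i0‖ ^ 2) := by
    have h6 : X * P ≤ X * (-(c i0) * ‖p i0‖ ^ 2) := mul_le_mul_of_nonneg_left (by linarith) hX0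
    refine le_trans (le_of_eq ?_) (h2.trans h6)
    ring
  have h7 : 0 < -(c i0) * ‖p i0‖ ^ 2 := mul_pos (by linarith) hp0
  have h8 := le_of_mul_le_mul_right h5 h7
  linarith

/-- Cauchy-Schwarz for vectors orthogonal to a negative vector. -/
lemma perp_cs {c : ι → ℝ} {i0 : ι} (h0 : c i0 < 0) (hp : ∀ i, i ≠ i0 → 0 < c i)
    {p x y : ι → ℂ} (hneg : (h1 c p p).re < 0) (hx : h1 c x p = 0) (hy : h1 c y p = 0) :
    ‖h1 c x y‖ ^ 2 ≤ (h1 c x x).re * (h1 c y y).re := by
  have hX := perp_nonneg h0 hp hneg hx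
  have hY := perp_nonneg h0 hp hneg hy
  set s := h1 c x y with hs
  have key : ∀ t : ℝ, 0 ≤ (h1 c x x).re - 2 * t * ‖s‖ ^ 2 + t ^ 2 * ‖s‖ ^ 2 * (h1 c y y).re := by
    intro t
    have h3 : h1 c (x + (-(t : ℂ) * s) • y) p = 0 := by
      rw [h1_add_left, h1_smul_left, hx, hy]; simp
    have h4 := perp_nonneg h0 hp hneg h3
    have h5 : (h1 c (x + (-(t : ℂ) * s) • y) (x + (-(t : ℂ) * s) • y)).re
        = (h1 c x x).re - 2 * t * ‖s‖ ^ 2 + t ^ 2 * ‖s‖ ^ 2 * (h1 c y y).re := by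
      rw [h1_add_left, h1_add_right, h1_add_right, h1_smul_left, h1_smul_left, h1_smul_right,
        h1_smul_right]
      have e1 : h1 c y x = star s := (h1_star c x y).symm
      rw [e1, ← hs]
      have e2 : (h1 c y y).im = 0 := by
        have := congrArg Complex.im (h1_star c y y)
        simp only [Complex.star_def, Complex.conj_im] at this
        linarith
      have e3 : h1 c y y = ((h1 c y y).re : ℂ) := by
        apply Complex.ext <;> simp [e2]
      rw [e3]
      have e4 : ‖s‖ ^ 2 = s.re ^ 2 + s.im ^ 2 := by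
        rw [← Complex.normSq_eq_norm_sq, Complex.normSq_apply]; ring
      rw [e4]
      simp only [star_mul', star_neg, Complex.star_def, Complex.add_re, Complex.mul_re,
        Complex.neg_re, Complex.neg_im, Complex.mul_im, Complex.conj_re, Complex.conj_im,
        Complex.ofReal_re, Complex.ofReal_im]
      ring
    rw [h5] at h4
    exact h4
  rcases eq_or_lt_of_le hY with hY0 | hY0
  · rw [← hY0] at key ⊢
    by_contra hc
    have hs2 : 0 < ‖s‖ ^ 2 := by
      rw [mul_zero] at hc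
      exact not_le.mp hc
    have := key (((h1 c x x).re + 1) / (2 * ‖s‖ ^ 2))
    have h6 : 2 * (((h1 c x x).re + 1) / (2 * ‖s‖ ^ 2)) * ‖s‖ ^ 2 = (h1 c x x).re + 1 := by
      have hs3 : ‖s‖ ≠ 0 := fun h0 => by rw [h0] at hs2; simp at hs2
      field_simp
    rw [h6] at this
    linarith
  · have := key (1 / (h1 c y y).re)
    have h6 : (h1 c x x).re - 2 * (1 / (h1 c y y).re) * ‖s‖ ^ 2
        + (1 / (h1 c y y).re) ^ 2 * ‖s‖ ^ 2 * (h1 c y y).re
        = ((h1 c x x).re * (h1 c y y).re - ‖s‖ ^ 2) / (h1 c y y).re := by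
      field_simp; ring
    rw [h6] at this
    have h7 := (div_nonneg_iff.mp this)
    rcases h7 with h7 | h7
    · linarith [h7.1]
    · linarith [h7.2]

end local_form

/-- signature `(n,1)` at `t0`. -/
structure Sgn (t0 : T) (H : ι → T → ℂ) (i0 : ι) : Prop where
  neg : (H i0 t0).re < 0
  pos : ∀ i, i ≠ i0 → 0 < (H i t0).re

/-- the coordinates at `t0`. -/
def at0 (t0 : T) (v : ι → T → ℂ) : ι → ℂ := fun i => v i t0

/-- the form at `t0`. -/
noncomputable def c0 (t0 : T) (H : ι → T → ℂ) : ι → ℝ := fun i => (H i t0).re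

section glob

variable {O : Subring (T → ℂ)} {t0 : T} {H : ι → T → ℂ}

lemma hh_at0 (hr : ∀ i, star (H i) = H i) (v w : ι → T → ℂ) :
    hh H v w t0 = h1 (c0 t0 H) (at0 t0 v) (at0 t0 w) := by
  rw [hh_apply, h1]
  refine sum_congr rfl fun i _ => ?_
  have hre : H i t0 = ((H i t0).re : ℂ) := by
    have := congrFun (hr i) t0
    simp only [Pi.star_apply] at this
    exact (Complex.conj_eq_iff_re.mp this).symm
  simp only [c0, at0]
  rw [← hre]

/-- the two classes have no products of size `≤ K` at `t0` except the standard one. -/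
def Gap (O : Subring (T → ℂ)) (t0 : T) (H : ι → T → ℂ) (μ μ' : T → ℂ) (a b : ι → T → ℂ)
    (K : ℝ) : Prop :=
  ∀ v ∈ Cl O H μ a, ∀ w ∈ Cl O H μ' b, ‖hh H v w t0‖ ≤ K → hh H v w = hh H a b

/-- `Cl` is monotone in the level. -/
lemma Cl.mono {μ ν : T → ℂ} (hν : ν ∈ O) {a v : ι → T → ℂ} (h : v ∈ Cl O H (ν * μ) a) :
    v ∈ Cl O H μ a := by
  obtain ⟨h1, h2, h3⟩ := h
  refine ⟨h1, fun i => ?_, h3⟩
  obtain ⟨u, hu, e⟩ := h2 i
  exact ⟨ν * u, O.mul_mem hν hu, by rw [e]; ring⟩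

lemma gap_of (hO : Ord O) (hF : Frm O t0 H) {μ ε : T → ℂ} (hε : ε ∈ O)
    (hμ : star μ = μ * ε) {a b : ι → T → ℂ} (hb : Int' O b) {B K : ℝ} (hB : 0 < B)
    (hBa : ∀ t, t ≠ t0 → (hh H a a t).re ≤ B) (hBb : ∀ t, t ≠ t0 → (hh H b b t).re ≤ B)
    (hK : (2 * B) ^ (Fintype.card T - 1) * (K + ‖hh H a b t0‖) < ∏ t, ‖μ t‖) :
    Gap O t0 H μ μ a b K := by
  intro v hv w hw hle
  by_contra hne
  have h := dich hO hF hε hμ hb hB hBa hBb hv hw hne
  have h2 : (2 * B) ^ (Fintype.card T - 1) * (‖hh H v w t0‖ + ‖hh H a b t0‖)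
      ≤ (2 * B) ^ (Fintype.card T - 1) * (K + ‖hh H a b t0‖) :=
    mul_le_mul_of_nonneg_left (by linarith) (by positivity)
  linarith

lemma Gap.mono {μ μ' ν ν' : T → ℂ} (hν : ν ∈ O) (hν' : ν' ∈ O) {a b : ι → T → ℂ} {K K' : ℝ}
    (h : Gap O t0 H μ μ' a b K) (hK : K' ≤ K) : Gap O t0 H (ν * μ) (ν' * μ') a b K' :=
  fun v hv w hw hle => h v (Cl.mono hν hv) w (Cl.mono hν' hw) (hle.trans hK)

lemma Gap.symm (hr : ∀ i, star (H i) = H i) {μ μ' : T → ℂ} {a b : ι → T → ℂ} {K : ℝ}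
    (h : Gap O t0 H μ μ' a b K) : Gap O t0 H μ' μ b a K := by
  intro v hv w hw hle
  have e : hh H v w = star (hh H w v) := (hh_star H hr w v).symm
  have e' : hh H b a = star (hh H a b) := (hh_star H hr a b).symm
  rw [e, e', h w hw v hv ?_]
  rw [e, Pi.star_apply, norm_star] at hle
  exact hle

/-- crossing hyperplanes have the standard product. -/
lemma cross (hF : Frm O t0 H) {i0 : ι} (hS : Sgn t0 H i0) {μ μ' : T → ℂ} {a b : ι → T → ℂ}
    {K : ℝ} (hK0 : 0 ≤ K) (hK : (hh H a a t0).re * (hh H b b t0).re ≤ K ^ 2)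
    (hG : Gap O t0 H μ μ' a b K) {v w : ι → T → ℂ} (hv : v ∈ Cl O H μ a) (hw : w ∈ Cl O H μ' b)
    {p : ι → ℂ} (hneg : (h1 (c0 t0 H) p p).re < 0) (hvp : h1 (c0 t0 H) (at0 t0 v) p = 0)
    (hwp : h1 (c0 t0 H) (at0 t0 w) p = 0) : hh H v w = hh H a b := by
  refine hG v hv w hw ?_
  have h2 := perp_cs (c := c0 t0 H) (i0 := i0) hS.neg hS.pos hneg hvp hwp
  rw [← hh_at0 hF.real, ← hh_at0 hF.real, ← hh_at0 hF.real, hv.2.2, hw.2.2] at h2
  exact le_of_sq_le_sq'' (h2.trans hK) hK0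
where
  le_of_sq_le_sq'' {x z : ℝ} (h : x ^ 2 ≤ z ^ 2) (hz : 0 ≤ z) : x ≤ z := by
    by_contra hc
    push Not at hc
    nlinarith

/-- uniqueness in one class. -/
lemma uniq (hO : Ord O) (hF : Frm O t0 H) {t : T} (ht : t ≠ t0) {μ : T → ℂ} {a v w : ι → T → ℂ}
    (hv : v ∈ Cl O H μ a) (hw : w ∈ Cl O H μ a) (h : hh H v w = hh H a a) : v = w := by
  have hr : star (hh H a a) = hh H a a := hh_star H hF.real a a
  have h' : hh H w v = hh H a a := by rw [← hh_star H hF.real v w, h, hr]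
  have h2 : hh H (v - w) (v - w) = 0 := by
    rw [hh_sub_left, hh_sub_right, hh_sub_right, hv.2.2, hw.2.2, h, h']; ring
  have := aniso hO hF ht (hv.1.sub hw.1) (by rw [h2]; simp)
  exact sub_eq_zero.mp this

/-- combinations. -/
lemma comb (hF : Frm O t0 H) {μ : T → ℂ} {a b v w : ι → T → ℂ} (hv : v ∈ Cl O H μ a)
    (hw : w ∈ Cl O H μ b) (h : hh H v w = hh H a b) {x y : T → ℂ} (hx : x ∈ O) (hy : y ∈ O) :
    x • v + y • w ∈ Cl O H μ (x • a + y • b) := by
  refine ⟨(hv.1.smul hx).add (hw.1.smul hy), (hv.2.1.smul hx).add (hw.2.1.smul hy), ?_⟩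
  have h' : hh H w v = hh H b a := by
    rw [← hh_star H hF.real v w, h, hh_star H hF.real]
  simp only [hh_add_left, hh_add_right, hh_smul_left, hh_smul_right, hv.2.2, hw.2.2, h, h']

/-- products of a combination. -/
lemma comb_hh {a b v w : ι → T → ℂ} {s s' : ι → T → ℂ} (h : hh H v s = hh H a s')
    (h' : hh H w s = hh H b s') (x y : T → ℂ) :
    hh H (x • v + y • w) s = hh H (x • a + y • b) s' := by
  simp only [hh_add_left, hh_smul_left, h, h']

/-- reflections. -/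
def rf (H : ι → T → ℂ) (r v : ι → T → ℂ) : ι → T → ℂ := v - hh H v r • r

lemma rf_mem (hO : Ord O) (hF : Frm O t0 H) {μ ε : T → ℂ} (hε : ε ∈ O) (hμ : star μ = μ * ε)
    {r0 a r v : ι → T → ℂ} (hr0 : Int' O r0)
    (h2 : hh H r0 r0 = 2) (hr : r ∈ Cl O H μ r0) (hv : v ∈ Cl O H μ a) :
    rf H r v ∈ Cl O H μ (rf H r0 a) := by
  have hn : ∀ (s u : ι → T → ℂ), hh H s s = 2 → hh H (rf H s u) (rf H s u) = hh H u u := by
    intro s u hs
    have h' : hh H s u = star (hh H u s) := (hh_star H hF.real u s).symm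
    simp only [rf, hh_sub_left, hh_sub_right, hh_smul_left, hh_smul_right, hs, h']
    ring
  refine ⟨hv.1.sub (hr.1.smul (hh_mem hO hF hv.1 hr.1)), ?_, ?_⟩
  · exact hv.2.1.sub (Cs.smul (hh_mem hO hF hv.1 hr.1) hr0
      (hh_cg hO hF hε hμ hv.1 hr0 hv.2.1 hr.2.1) hr.2.1)
  · rw [hn r v (hr.2.2.trans h2), hn r0 a h2, hv.2.2]

lemma rf_hh (hF : Frm O t0 H) {r : ι → T → ℂ} (h2 : hh H r r = 2) (u v : ι → T → ℂ) :
    hh H (rf H r u) (rf H r v) = hh H u v := by
  have h' : hh H r v = star (hh H v r) := (hh_star H hF.real v r).symm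
  simp only [rf, hh_sub_left, hh_sub_right, hh_smul_left, hh_smul_right, h2, h']
  ring

lemma rf_rf {r : ι → T → ℂ} (h2 : hh H r r = 2) (v : ι → T → ℂ) : rf H r (rf H r v) = v := by
  simp only [rf, hh_sub_left, hh_smul_left, h2]
  funext i
  simp only [Pi.sub_apply, Pi.smul_apply, smul_eq_mul]
  ring

/-- **two level completion**: `a_j = e - z_j f`. If `v ∈ Cl a_j`, `w ∈ Cl a_k` modulo `π μ` have the
standard product and `z_k - z_j = π ε` with `ε` invertible in `O`, then `v - w = π ε f'` with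
`f' ∈ Cl f` modulo `μ` having standard products with `v`, `w`. -/
lemma complete (hF : Frm O t0 H) {μ π ε ε' zj zk : T → ℂ} (hμ : μ ∈ O) (hε' : ε' ∈ O) (hu : ε * ε' = 1)
    (hπ : ∀ t, π t ≠ 0) (hz : zk - zj = π * ε) {e f v w : ι → T → ℂ} (hf : Int' O f)
    (hv : v ∈ Cl O H (π * μ) (e - zj • f)) (hw : w ∈ Cl O H (π * μ) (e - zk • f))
    (h : hh H v w = hh H (e - zj • f) (e - zk • f)) :
    ∃ f' ∈ Cl O H μ f, v - w = (π * ε) • f' ∧ hh H v f' = hh H (e - zj • f) f ∧
      hh H w f' = hh H (e - zk • f) f := by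
  obtain ⟨hvI, hvC, hvN⟩ := hv
  obtain ⟨hwI, hwC, hwN⟩ := hw
  choose u hu1 eu using hvC
  choose s hs1 es using hwC
  set f' : ι → T → ℂ := fun i => f i + μ * (ε' * (u i - s i)) with hf'
  have hft : ∀ t, ε t ≠ 0 := fun t h0 => by
    have := congrFun hu t
    simp [h0] at this
  have hfe : v - w = (π * ε) • f' := by
    funext i
    have h3 : v i - w i = (v i - (e - zj • f) i) - (w i - (e - zk • f) i)
        + ((e - zj • f) i - (e - zk • f) i) := by ring
    have h4 : (e - zj • f) i - (e - zk • f) i = (π * ε) * f i := by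
      rw [← hz]
      simp only [Pi.sub_apply, Pi.smul_apply, smul_eq_mul]
      ring
    simp only [Pi.sub_apply, Pi.smul_apply, smul_eq_mul]
    rw [h3, h4, eu, es, hf']
    have h5 : π * ε * (f i + μ * (ε' * (u i - s i))) = π * ε * f i
        + (ε * ε') * (π * μ * (u i - s i)) := by ring
    rw [h5, hu]; ring
  have hpe : ∀ t, (π * ε) t ≠ 0 := fun t => mul_ne_zero (hπ t) (hft t)
  have cancel : ∀ {x y : T → ℂ}, (π * ε) * x = (π * ε) * y → x = y := by
    intro x y hxy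
    funext t
    have := congrFun hxy t
    simp only [Pi.mul_apply] at this
    exact mul_left_cancel₀ (by simpa using hpe t) this
  have cancel' : ∀ {x y : T → ℂ}, star (π * ε) * x = star (π * ε) * y → x = y := by
    intro x y hxy
    funext t
    have := congrFun hxy t
    simp only [Pi.mul_apply] at this
    exact mul_left_cancel₀ (by
      rw [Pi.star_apply]
      exact star_ne_zero.mpr (hpe t)) this
  have h' : hh H w v = hh H (e - zk • f) (e - zj • f) := by
    rw [← hh_star H hF.real v w, h, hh_star H hF.real]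
  have had : (e - zj • f) - (e - zk • f) = (π * ε) • f := by
    rw [← hz]
    funext i
    simp only [Pi.sub_apply, Pi.smul_apply, smul_eq_mul]
    ring
  have hvf : hh H v f' = hh H (e - zj • f) f := by
    apply cancel'
    rw [← hh_smul_right, ← hh_smul_right, ← hfe, ← had, hh_sub_right, hh_sub_right, hvN, h]
  have hwf : hh H w f' = hh H (e - zk • f) f := by
    apply cancel'
    rw [← hh_smul_right, ← hh_smul_right, ← hfe, ← had, hh_sub_right, hh_sub_right, hwN, h']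
  refine ⟨f', ⟨fun i => ?_, fun i => ⟨ε' * (u i - s i), O.mul_mem hε' (O.sub_mem (hu1 i) (hs1 i)),
    by rw [hf']; ring⟩, ?_⟩, hfe, hvf, hwf⟩
  · exact O.add_mem (hf i) (O.mul_mem hμ (O.mul_mem hε' (O.sub_mem (hu1 i) (hs1 i))))
  · apply cancel
    rw [← hh_smul_left, ← hh_smul_left, ← hfe, ← had, hh_sub_left, hh_sub_left, hvf, hwf]

/-- the other members of the cluster. -/
lemma complete_mem (hF : Frm O t0 H) {μ π y zj zl : T → ℂ} (hπ : π ∈ O) (hy : y ∈ O)
    (hz : zj - zl = π * y) {e f f' v : ι → T → ℂ}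
    (hv : v ∈ Cl O H (π * μ) (e - zj • f)) (hf' : f' ∈ Cl O H μ f)
    (h : hh H v f' = hh H (e - zj • f) f) :
    v + (π * y) • f' ∈ Cl O H (π * μ) (e - zl • f) := by
  have had : e - zl • f = (e - zj • f) + (π * y) • f := by
    rw [← hz]
    funext i
    simp only [Pi.sub_apply, Pi.add_apply, Pi.smul_apply, smul_eq_mul]
    ring
  rw [had]
  refine ⟨hv.1.add (hf'.1.smul (O.mul_mem hπ hy)), hv.2.1.add fun i => ?_, ?_⟩
  · obtain ⟨u, hu, eu⟩ := hf'.2.1 i
    refine ⟨y * u, O.mul_mem hy hu, ?_⟩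
    simp only [Pi.smul_apply, smul_eq_mul]
    rw [← mul_sub, eu]; ring
  · have h' : hh H f' v = hh H f (e - zj • f) := by
      rw [← hh_star H hF.real v f', h, hh_star H hF.real]
    simp only [hh_add_left, hh_add_right, hh_smul_left, hh_smul_right]
    simp only [hv.2.2, hf'.2.2, h, h']

end glob

end Crest.Agent.R272.Cls_620
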