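import Crest.Agent.R272.EBase_641
import Crest.Agent.R272.Cls2_620

/-!
helper939, row 272, (I2) of 641 #6248: the class `Cl O H μ a` of integral vectors gives an `ECls`.
`IoD` = what 68's instance (I1) supplies about the embedding `io`.
-/

set_option autoImplicit false

open scoped ComplexConjugate Topology

namespace Crest.Agent.R272.I2_939

open Crest.Agent.R272.EBase_641 (V1 W EDat ECls UG Ball)
open Crest.Agent.R272.Cls_620 Finset

variable {ι : Type} [Fintype ι]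

/-- the embedding of integral vectors, seen from the abstract data `D`; `ν` = level of the group. -/
structure IoD (D : EDat) (O : Subring (Fin 2 → ℂ)) (H : ι → Fin 2 → ℂ) (ν : Fin 2 → ℂ) where
  io : (ι → Fin 2 → ℂ) → V1 D.n × W D.m
  add : ∀ v w, io (v + w) = io v + io w
  d : Fin 2 → ℝ
  d_pos : ∀ t, 0 < d t
  n0 : ∀ v, ‖(io v).1.1‖ ^ 2 - ‖(io v).1.2‖ ^ 2 = d 0 * (hh H v v 0).re
  n1 : ∀ v, ‖(io v).2‖ ^ 2 = d 1 * (hh H v v 1).re
  /-- the first component determines the place 0, `ℂ`-linearly -/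
  h0 : ∀ x y, ∀ c : ℂ, (io y).1 = c • (io x).1 → ∀ i, y i 0 = c * x i 0
  γ : D.G → (ι → Fin 2 → ℂ) → (ι → Fin 2 → ℂ)
  γ_io : ∀ g x, io (γ g x) = ((D.ρ g).1 (io x).1, D.σ g (io x).2)
  γ_int : ∀ g x, Int' O x → Int' O (γ g x)
  γ_hh : ∀ g x, hh H (γ g x) (γ g x) = hh H x x
  γ_cg : ∀ g x, Int' O x → Cg O ν (γ g x) x
  N0 : ℕ
  N0_pos : 0 < N0
  toL : ∀ x, Int' O x → N0 • io x ∈ D.L
  ofL : ∀ l ∈ D.L, ∃ w, Int' O w ∧ N0 • l = io w

variable {D : EDat} {O : Subring (Fin 2 → ℂ)} {H : ι → Fin 2 → ℂ} {ν : Fin 2 → ℂ}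

namespace IoD

variable (I : IoD D O H ν)

theorem zero : I.io 0 = 0 := by
  have h := I.add 0 0
  rw [add_zero] at h
  exact left_eq_add.mp h

theorem nsmul (k : ℕ) (v : ι → Fin 2 → ℂ) : I.io (k • v) = k • I.io v := by
  induction k with
  | zero => rw [zero_smul, zero_smul, I.zero]
  | succ k ih => rw [add_smul, add_smul, I.add, ih, one_smul, one_smul]

theorem sub (v w : ι → Fin 2 → ℂ) : I.io (v - w) = I.io v - I.io w := by
  have h := I.add (v - w) w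
  rw [sub_add_cancel] at h
  rw [h, add_sub_cancel_right]

end IoD

/-- the predicate behind `φ_N`: integral, in the class modulo `μ`, norm congruent modulo `N`. -/
def Q (O : Subring (Fin 2 → ℂ)) (H : ι → Fin 2 → ℂ) (μ : Fin 2 → ℂ) (a : ι → Fin 2 → ℂ) (N : ℕ)
    (x : ι → Fin 2 → ℂ) : Prop :=
  Int' O x ∧ Cg O μ x a ∧ Cs O (N : Fin 2 → ℂ) (hh H x x) (hh H a a)

open Classical in
/-- `φ_N`. -/
noncomputable def ph (I : IoD D O H ν) (μ : Fin 2 → ℂ) (a : ι → Fin 2 → ℂ) (N : ℕ)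
    (v : V1 D.n × W D.m) : ℝ := if ∃ x, Q O H μ a N x ∧ v = I.io x then 1 else 0

section lemmas

variable {I : IoD D O H ν} {μ : Fin 2 → ℂ} {a : ι → Fin 2 → ℂ}

theorem ph_ne {N : ℕ} {v : V1 D.n × W D.m} :
    ph I μ a N v ≠ 0 ↔ ∃ x, Q O H μ a N x ∧ v = I.io x := by
  unfold ph
  split_ifs with h <;> simp [h]

theorem ph_congr {N : ℕ} {v w : V1 D.n × W D.m}
    (h : (∃ x, Q O H μ a N x ∧ v = I.io x) ↔ (∃ x, Q O H μ a N x ∧ w = I.io x)) :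
    ph I μ a N v = ph I μ a N w := by
  by_cases h1 : ∃ x, Q O H μ a N x ∧ v = I.io x
  · rw [ph, ph, if_pos h1, if_pos (h.1 h1)]
  · rw [ph, ph, if_neg h1, if_neg (fun h2 => h1 (h.2 h2))]

/-- congruence modulo `N` is stable under adding multiples of `N` (and of `μ`). -/
theorem Q_add (hO : Cls_620.Ord O) (hF : Frm O 0 H) {N : ℕ} {K : Fin 2 → ℂ} {x w : ι → Fin 2 → ℂ}
    (hK1 : ∃ u ∈ O, K = μ * u) (hK2 : ∃ u ∈ O, K = (N : Fin 2 → ℂ) * u) (hKs : star K = K)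
    (hx : Q O H μ a N x) (hw : Int' O w) (hKO : K ∈ O) : Q O H μ a N (x + K • w) := by
  obtain ⟨h1, h2, h3⟩ := hx
  obtain ⟨u1, hu1, e1⟩ := hK1
  obtain ⟨u2, hu2, e2⟩ := hK2
  refine ⟨h1.add (hw.smul hKO), fun i => ?_, ?_⟩
  · obtain ⟨u, hu, e⟩ := h2 i
    refine ⟨u + u1 * w i, O.add_mem hu (O.mul_mem hu1 (hw i)), ?_⟩
    simp only [Pi.add_apply, Pi.smul_apply, smul_eq_mul]
    rw [mul_add, ← e, e1]; ring
  · obtain ⟨u, hu, e⟩ := h3
    have m1 : hh H x w ∈ O := hh_mem hO hF h1 hw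
    have m2 : hh H w x ∈ O := hh_mem hO hF hw h1
    have m3 : hh H w w ∈ O := hh_mem hO hF hw hw
    refine ⟨u + u2 * (hh H x w + hh H w x + K * hh H w w),
      O.add_mem hu (O.mul_mem hu2 (O.add_mem (O.add_mem m1 m2) (O.mul_mem hKO m3))), ?_⟩
    have e3 : hh H (x + K • w) (x + K • w) = hh H x x
        + K * (hh H x w + hh H w x + K * hh H w w) := by
      rw [hh_add_left, hh_add_right, hh_add_right, hh_smul_left, hh_smul_right, hh_smul_right,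
        hh_smul_left, hKs]
      ring
    linear_combination e3 + e + (hh H x w + hh H w x + K * hh H w w) * e2

end lemmas

/-- same vector up to a scalar at place 0 ==> same vector. -/
theorem simple_aux (hO : Cls_620.Ord O) (hF : Frm O 0 H) {μ : Fin 2 → ℂ} {a x y : ι → Fin 2 → ℂ}
    (hpos : 0 < (hh H a a 0).re) (hgap : Gap O 0 H μ μ a a (hh H a a 0).re)
    (hx : x ∈ Cl O H μ a) (hy : y ∈ Cl O H μ a) {c : ℂ} (hc : ∀ i, y i 0 = c * x i 0) : y = x := by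
  have him : ∀ t, (hh H a a t) = ((hh H a a t).re : ℂ) := fun t => by
    have := congrFun (hh_star H hF.real a a) t
    simp only [Pi.star_apply] at this
    exact (Complex.conj_eq_iff_re.mp this).symm
  have h1 : hh H y x 0 = c * hh H a a 0 := by
    rw [← hx.2.2, hh_apply, hh_apply, Finset.mul_sum]
    refine Finset.sum_congr rfl fun i _ => ?_
    rw [hc i]; ring
  have h2 : hh H a a 0 = c * conj c * hh H a a 0 := by
    conv_lhs => rw [← hy.2.2]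
    rw [← hx.2.2, hh_apply, hh_apply, Finset.mul_sum]
    refine Finset.sum_congr rfl fun i _ => ?_
    rw [hc i, star_mul']
    simp only [Complex.star_def]
    ring
  have hne : hh H a a 0 ≠ 0 := by
    intro h0; rw [h0] at hpos; simp at hpos
  have h3 : c * conj c = 1 := by
    have : (c * conj c - 1) * hh H a a 0 = 0 := by linear_combination -h2
    rcases mul_eq_zero.mp this with h | h
    · linear_combination h
    · exact absurd h hne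
  have h4 : ‖c‖ = 1 := by
    have h5 : ‖c‖ * ‖c‖ = 1 := by
      have := congrArg norm h3
      rwa [norm_mul, Complex.norm_conj, norm_one] at this
    nlinarith [norm_nonneg c]
  have h7 : ‖hh H a a 0‖ = (hh H a a 0).re := by
    rw [him 0, Complex.norm_real, Real.norm_of_nonneg hpos.le]; simp
  exact uniq hO hF (t := 1) (by decide) hy hx
    (hgap y hy x hx (by rw [h1, norm_mul, h4, one_mul, h7]))

/-- the gap from the size of the level -/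
theorem gap_of_size (hO : Cls_620.Ord O) (hF : Frm O 0 H) {μ ε : Fin 2 → ℂ} {a : ι → Fin 2 → ℂ}
    (ha : Int' O a) (hpos : 0 < (hh H a a 0).re) (hε : ε ∈ O) (hμ : star μ = μ * ε)
    (hdeep : 4 * (hh H a a 0).re * (hh H a a 1).re < ∏ t, ‖μ t‖) :
    Gap O 0 H μ μ a a (hh H a a 0).re := by
  have him : ∀ t, (hh H a a t) = ((hh H a a t).re : ℂ) := fun t => by
    have := congrFun (hh_star H hF.real a a) t
    simp only [Pi.star_apply] at this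
    exact (Complex.conj_eq_iff_re.mp this).symm
  have hB : 0 < (hh H a a 1).re := by
    by_contra hcon
    push Not at hcon
    have := aniso hO hF (t := 1) (by decide) ha hcon
    rw [this] at hpos
    simp [hh] at hpos
  have h7 : ‖hh H a a 0‖ = (hh H a a 0).re := by
    rw [him 0, Complex.norm_real, Real.norm_of_nonneg hpos.le]; simp
  refine gap_of hO hF hε hμ ha hB (fun t ht => ?_) (fun t ht => ?_) ?_
  · have : t = 1 := by
      fin_cases t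
      · exact absurd rfl ht
      · rfl
    rw [this]
  · have : t = 1 := by
      fin_cases t
      · exact absurd rfl ht
      · rfl
    rw [this]
  · rw [h7]
    simp only [Fintype.card_fin, Nat.add_one_sub_one, pow_one]
    nlinarith

theorem Q_γ (I : IoD D O H ν) {μ : Fin 2 → ℂ} {a : ι → Fin 2 → ℂ} (hν : ∃ u ∈ O, ν = μ * u)
    {N : ℕ} (g : D.G) {x : ι → Fin 2 → ℂ} (hx : Q O H μ a N x) : Q O H μ a N (I.γ g x) := by
  obtain ⟨h1, h2, h3⟩ := hx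
  refine ⟨I.γ_int g x h1, Cg.trans (fun i => ?_) h2, ?_⟩
  · obtain ⟨u, hu, e⟩ := I.γ_cg g x h1 i
    obtain ⟨u', hu', e'⟩ := hν
    exact ⟨u' * u, O.mul_mem hu' hu, by rw [e, e']; ring⟩
  · rw [I.γ_hh]; exact h3

theorem io_inv (I : IoD D O H ν) {g : D.G} {x : ι → Fin 2 → ℂ}
    {v : V1 D.n × W D.m} (h : (((D.ρ g).1 v.1, D.σ g v.2) : V1 D.n × W D.m) = I.io x) :
    v = I.io (I.γ g⁻¹ x) := by
  rw [I.γ_io, ← h]
  have h1 : (D.ρ g⁻¹).1 ((D.ρ g).1 v.1) = v.1 := by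
    have h2 : D.ρ g⁻¹ * D.ρ g = 1 := by rw [← map_mul, inv_mul_cancel, map_one]
    exact congrArg (fun u : UG D.n => u.1 v.1) h2
  have h2 : D.σ g⁻¹ (D.σ g v.2) = v.2 := by
    have h3 : D.σ g⁻¹ * D.σ g = 1 := by rw [← map_mul, inv_mul_cancel, map_one]
    exact congrArg (fun u : W D.m ≃ₗᵢ[ℂ] W D.m => u v.2) h3
  exact Prod.ext h1.symm h2.symm

omit [Fintype ι] in
theorem nsmul_eq (n : ℕ) (w : ι → Fin 2 → ℂ) : n • w = ((n : ℕ) : Fin 2 → ℂ) • w := by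
  funext i t
  simp [nsmul_eq_mul]

theorem ph_per (I : IoD D O H ν) (hO : Cls_620.Ord O) (hF : Frm O 0 H) {μ : Fin 2 → ℂ}
    {a : ι → Fin 2 → ℂ} {k : ℕ} (hk : ∃ u ∈ O, (k : Fin 2 → ℂ) = μ * u) (N : ℕ)
    (v : V1 D.n × W D.m) (l : V1 D.n × W D.m) (hl : l ∈ D.L) :
    ph I μ a N (v + (I.N0 * (k * N)) • l) = ph I μ a N v := by
  obtain ⟨w, hw, e⟩ := I.ofL l hl
  have e1 : (I.N0 * (k * N)) • l = I.io ((((k * N : ℕ)) : Fin 2 → ℂ) • w) := by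
    rw [← nsmul_eq, I.nsmul, ← e, smul_smul, mul_comm]
  obtain ⟨u, hu, eu⟩ := hk
  have hKO : (((k * N : ℕ)) : Fin 2 → ℂ) ∈ O := natCast_mem O _
  have hK1 : ∃ u ∈ O, (((k * N : ℕ)) : Fin 2 → ℂ) = μ * u :=
    ⟨u * (N : Fin 2 → ℂ), O.mul_mem hu (natCast_mem O N), by push_cast; rw [eu]; ring⟩
  have hK2 : ∃ u ∈ O, (((k * N : ℕ)) : Fin 2 → ℂ) = (N : Fin 2 → ℂ) * u :=
    ⟨(k : Fin 2 → ℂ), natCast_mem O k, by push_cast; ring⟩
  have hKs : star (((k * N : ℕ)) : Fin 2 → ℂ) = (((k * N : ℕ)) : Fin 2 → ℂ) := star_natCast _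
  apply ph_congr
  constructor
  · rintro ⟨x, hx, h⟩
    refine ⟨x + (((k * N : ℕ)) : Fin 2 → ℂ) • (-w), Q_add hO hF hK1 hK2 hKs hx
      (fun i => O.neg_mem (hw i)) hKO, ?_⟩
    have : x + (((k * N : ℕ)) : Fin 2 → ℂ) • (-w) = x - (((k * N : ℕ)) : Fin 2 → ℂ) • w := by
      rw [smul_neg, sub_eq_add_neg]
    rw [this, I.sub, ← h, e1, add_sub_cancel_right]
  · rintro ⟨x, hx, h⟩
    refine ⟨x + (((k * N : ℕ)) : Fin 2 → ℂ) • w, Q_add hO hF hK1 hK2 hKs hx hw hKO, ?_⟩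
    rw [I.add, ← h, e1]

theorem ph_far (I : IoD D O H ν) (hO : Cls_620.Ord O) (hF : Frm O 0 H) (μ : Fin 2 → ℂ)
    (a : ι → Fin 2 → ℂ) (C : ℝ) : ∃ N0 : ℕ, ∀ N ≥ N0, ∀ v, ph I μ a N v ≠ 0 →
      v ∉ I.io '' Cl O H μ a → C ≤ |‖v.1.1‖ ^ 2 - ‖v.1.2‖ ^ 2| + ‖v.2‖ ^ 2 := by
  set A : ℝ := I.d 0 * ‖hh H a a 0‖ + I.d 1 * ‖hh H a a 1‖ with hA
  set dm : ℝ := min (I.d 0) (I.d 1) with hdm
  have hdm0 : 0 < dm := lt_min (I.d_pos 0) (I.d_pos 1)
  obtain ⟨N0, hN0⟩ := exists_nat_ge ((C + A) / dm)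
  refine ⟨N0, fun N hN v hv hvS => ?_⟩
  obtain ⟨x, ⟨h1, h2, ⟨u, hu, e⟩⟩, rfl⟩ := ph_ne.1 hv
  have hu0 : u ≠ 0 := by
    rintro rfl
    rw [mul_zero, sub_eq_zero] at e
    exact hvS ⟨x, ⟨h1, h2, e⟩, rfl⟩
  have hge := hO.norm_ge u hu hu0
  rw [Fin.prod_univ_two] at hge
  have him : ∀ t, (hh H x x t) = ((hh H x x t).re : ℂ) := fun t => by
    have := congrFun (hh_star H hF.real x x) t
    simp only [Pi.star_apply] at this
    exact (Complex.conj_eq_iff_re.mp this).symm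
  have habs : ∀ t, |(hh H x x t).re| = ‖hh H x x t‖ := fun t => by
    conv_rhs => rw [him t, Complex.norm_real]
    rfl
  have hlow : ∀ t, (N : ℝ) * ‖u t‖ - ‖hh H a a t‖ ≤ ‖hh H x x t‖ := fun t => by
    have h3 := congrFun e t
    simp only [Pi.sub_apply, Pi.mul_apply, Pi.natCast_apply] at h3
    have h4 : ‖hh H x x t - hh H a a t‖ = (N : ℝ) * ‖u t‖ := by
      rw [h3, norm_mul, Complex.norm_natCast]
    have h5 := norm_sub_le (hh H x x t) (hh H a a t)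
    linarith
  have t0 : |‖(I.io x).1.1‖ ^ 2 - ‖(I.io x).1.2‖ ^ 2| = I.d 0 * ‖hh H x x 0‖ := by
    rw [I.n0, abs_mul, abs_of_pos (I.d_pos 0), habs]
  have t1 : ‖(I.io x).2‖ ^ 2 = I.d 1 * ‖hh H x x 1‖ := by
    rw [← abs_of_nonneg (sq_nonneg ‖(I.io x).2‖), I.n1, abs_mul, abs_of_pos (I.d_pos 1), habs]
  rw [t0, t1]
  have l0 := hlow 0
  have l1 := hlow 1
  have p0 := I.d_pos 0
  have p1 := I.d_pos 1
  have q0 : I.d 0 * ((N : ℝ) * ‖u 0‖ - ‖hh H a a 0‖) ≤ I.d 0 * ‖hh H x x 0‖ :=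
    mul_le_mul_of_nonneg_left l0 p0.le
  have q1 : I.d 1 * ((N : ℝ) * ‖u 1‖ - ‖hh H a a 1‖) ≤ I.d 1 * ‖hh H x x 1‖ :=
    mul_le_mul_of_nonneg_left l1 p1.le
  have hs : 1 ≤ ‖u 0‖ + ‖u 1‖ := by
    have n0 := norm_nonneg (u 0)
    have n1 := norm_nonneg (u 1)
    generalize ‖u 0‖ = b0 at hge n0
    generalize ‖u 1‖ = b1 at hge n1
    nlinarith [sq_nonneg (b0 - b1), mul_nonneg n0 n1]
  have hNN : (0 : ℝ) ≤ N := Nat.cast_nonneg N
  have r0 : dm * ((N : ℝ) * ‖u 0‖) ≤ I.d 0 * ((N : ℝ) * ‖u 0‖) :=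
    mul_le_mul_of_nonneg_right (min_le_left _ _) (by positivity)
  have r1 : dm * ((N : ℝ) * ‖u 1‖) ≤ I.d 1 * ((N : ℝ) * ‖u 1‖) :=
    mul_le_mul_of_nonneg_right (min_le_right _ _) (by positivity)
  have r2 : dm * (N : ℝ) ≤ dm * ((N : ℝ) * (‖u 0‖ + ‖u 1‖)) := by
    refine mul_le_mul_of_nonneg_left ?_ hdm0.le
    nlinarith
  have r3 : C + A ≤ dm * N := by
    have h6 : (C + A) / dm ≤ N := hN0.trans (by exact_mod_cast hN)
    rw [div_le_iff₀ hdm0] at h6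
    linarith
  nlinarith

/-- **(I2)**: the class `Cl O H μ a` as an `ECls`. -/
noncomputable def cls (I : IoD D O H ν) (hO : Cls_620.Ord O) (hF : Frm O 0 H) {μ : Fin 2 → ℂ}
    {a : ι → Fin 2 → ℂ} (hpos : 0 < (hh H a a 0).re) (hν : ∃ u ∈ O, ν = μ * u)
    (hk : ∃ k : ℕ, 0 < k ∧ ∃ u ∈ O, (k : Fin 2 → ℂ) = μ * u)
    (hgap : Gap O 0 H μ μ a a (hh H a a 0).re) : ECls D where
  S := I.io '' Cl O H μ a
  m1 := I.d 0 * (hh H a a 0).re
  m1_pos := mul_pos (I.d_pos 0) hpos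
  norm1 := by rintro _ ⟨x, hx, rfl⟩; rw [I.n0, hx.2.2]
  m2 := I.d 1 * (hh H a a 1).re
  norm2 := by rintro _ ⟨x, hx, rfl⟩; rw [I.n1, hx.2.2]
  simple := by
    rintro _ ⟨x, hx, rfl⟩ _ ⟨y, hy, rfl⟩ c hc
    rw [simple_aux hO hF hpos hgap hx hy (I.h0 x y c hc)]
  inv := by
    rintro g _ ⟨x, hx, rfl⟩
    have hQ : Q O H μ a 0 x := ⟨hx.1, hx.2.1, 0, O.zero_mem, by rw [hx.2.2]; simp⟩
    obtain ⟨h1, h2, -⟩ := Q_γ I hν g hQ
    exact ⟨I.γ g x, ⟨h1, h2, by rw [I.γ_hh, hx.2.2]⟩, I.γ_io g x⟩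
  φ := fun N => ph I μ a (N + 1)
  φ_bdd := fun N v => by
    by_cases h1 : ∃ x, Q O H μ a (N + 1) x ∧ v = I.io x
    · rw [ph, if_pos h1]; simp
    · rw [ph, if_neg h1]; simp
  φ_supp := fun N => ⟨I.N0, I.N0_pos, fun v hv => by
    obtain ⟨x, hx, rfl⟩ := ph_ne.1 hv
    exact I.toL x hx.1⟩
  φ_unif := ⟨I.N0, I.N0_pos, fun N v hv => by
    obtain ⟨x, hx, rfl⟩ := ph_ne.1 hv
    exact I.toL x hx.1⟩
  φ_per := fun N => by
    obtain ⟨k, hk0, hk1⟩ := hk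
    exact ⟨I.N0 * (k * (N + 1)), Nat.mul_pos I.N0_pos (Nat.mul_pos hk0 N.succ_pos),
      fun v l hl => ph_per I hO hF hk1 (N + 1) v l hl⟩
  φ_inv := fun N g v => by
    apply ph_congr
    constructor
    · rintro ⟨x, hx, h⟩
      exact ⟨I.γ g⁻¹ x, Q_γ I hν g⁻¹ hx, io_inv I h⟩
    · rintro ⟨x, hx, rfl⟩
      exact ⟨I.γ g x, Q_γ I hν g hx, (I.γ_io g x).symm⟩
  φ_one := by
    rintro N _ ⟨x, hx, rfl⟩
    have h1 : ∃ y, Q O H μ a (N + 1) y ∧ I.io x = I.io y :=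
      ⟨x, ⟨hx.1, hx.2.1, 0, O.zero_mem, by rw [hx.2.2]; simp⟩, rfl⟩
    rw [ph, if_pos h1]
  φ_far := fun C => by
    obtain ⟨N0, hN0⟩ := ph_far I hO hF μ a C
    exact ⟨N0, fun N hN v hv hvS => hN0 (N + 1) (le_trans hN (Nat.le_succ N)) v hv hvS⟩

theorem cls_S (I : IoD D O H ν) (hO : Cls_620.Ord O) (hF : Frm O 0 H) {μ : Fin 2 → ℂ}
    {a : ι → Fin 2 → ℂ} (hpos : 0 < (hh H a a 0).re) (hν : ∃ u ∈ O, ν = μ * u)
    (hk : ∃ k : ℕ, 0 < k ∧ ∃ u ∈ O, (k : Fin 2 → ℂ) = μ * u)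
    (hgap : Gap O 0 H μ μ a a (hh H a a 0).re) :
    (cls I hO hF hpos hν hk hgap).S = I.io '' Cl O H μ a := rfl

end Crest.Agent.R272.I2_939
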