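import Crest.Agent.R272.In2_68

/-!
Row 272, division E, arithmetic instance (I1) (helper68), part 3: determinant one, stability of
the self-dual lattice, faithfulness, and `mkD : EDat`.
-/

set_option autoImplicit false
set_option linter.unusedSectionVars false

open scoped ComplexConjugate

namespace Crest.Agent.R272.In_68

open Crest.Agent.R272.EBase_641 Matrix

noncomputable section

variable {O : Subring (Fin 2 → ℂ)} {z : Fin 2 → ℂ}

/-! ### determinants -/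

/-- the determinant is `1` mod `μ` -/
lemma det_div {μ : Fin 2 → ℂ} (hμ : μ ∈ O) {g : Mt} (hg : ∀ i j, g i j ∈ O)
    (hd : Div O μ (g - 1)) : ∃ u ∈ O, g.det - 1 = μ * u := by
  let G : Matrix (Fin 4) (Fin 4) O := fun i j => ⟨g i j, hg i j⟩
  let I : Ideal O := Ideal.span {(⟨μ, hμ⟩ : O)}
  have h1 : (Ideal.Quotient.mk I).mapMatrix G = 1 := by
    have h2 : (Ideal.Quotient.mk I).mapMatrix G = (Ideal.Quotient.mk I).mapMatrix 1 := by
      ext i j
      rw [RingHom.mapMatrix_apply, RingHom.mapMatrix_apply, Matrix.map_apply, Matrix.map_apply]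
      rw [Ideal.Quotient.eq]
      obtain ⟨u, hu, e⟩ := hd i j
      refine Ideal.mem_span_singleton'.2 ⟨⟨u, hu⟩, ?_⟩
      refine Subtype.ext ?_
      show u * μ = g i j - ((1 : Matrix (Fin 4) (Fin 4) O) i j : Fin 2 → ℂ)
      have h3 : (((1 : Matrix (Fin 4) (Fin 4) O) i j : O) : Fin 2 → ℂ) = (1 : Mt) i j := by
        rw [Matrix.one_apply, Matrix.one_apply]
        split_ifs <;> rfl
      rw [h3, mul_comm, ← e, Matrix.sub_apply]
    rw [h2, map_one]
  have h4 : Ideal.Quotient.mk I (G.det - 1) = 0 := by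
    rw [map_sub, RingHom.map_det, h1, Matrix.det_one, map_one, sub_self]
  obtain ⟨u, hu⟩ := Ideal.mem_span_singleton'.1 (Ideal.Quotient.eq_zero_iff_mem.1 h4)
  refine ⟨u, u.2, ?_⟩
  have h5 : (G.det : Fin 2 → ℂ) = g.det := by
    have : O.subtype G.det = (O.subtype.mapMatrix G).det := RingHom.map_det _ _
    exact this
  have h6 := congrArg (fun x : O => (x : Fin 2 → ℂ)) hu
  simp only [Subring.coe_mul, AddSubgroupClass.coe_sub, OneMemClass.coe_one, h5] at h6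
  rw [← h6, mul_comm]

/-- the determinant is unitary -/
lemma det_norm (h : Z5r O z) {g : Mtˣ} (hg : g ∈ GU O z) (t : Fin 2) :
    ‖(g : Mt).det t‖ = 1 := by
  let A : Matrix (Fin 4) (Fin 4) ℂ := ev t g
  let D : Matrix (Fin 4) (Fin 4) ℂ := Matrix.diagonal fun i => (rr z i t : ℂ)
  have h1 : Aᴴ * D * A = D := by
    ext i j
    have h2 := ht_gl h hg t (Pi.single j 1) (Pi.single i 1)
    rw [gl_apply, gl_apply, Matrix.mulVec_single_one, Matrix.mulVec_single_one] at h2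
    rw [ht, ht] at h2
    have h3 : (Aᴴ * D * A) i j = ∑ k, (rr z k t : ℂ) * A k j * conj (A k i) := by
      rw [Matrix.mul_apply]
      refine Finset.sum_congr rfl fun k _ => ?_
      rw [Matrix.mul_diagonal, Matrix.conjTranspose_apply]
      simp only [RCLike.star_def]
      ring
    have h4 : D i j = ∑ k, (rr z k t : ℂ) * (Pi.single j 1 : Fin 4 → ℂ) k *
        conj ((Pi.single i 1 : Fin 4 → ℂ) k) := by
      rw [Finset.sum_eq_single i]
      · rw [Pi.single_eq_same, map_one, mul_one]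
        by_cases hij : i = j
        · subst hij
          rw [Pi.single_eq_same, mul_one]
          exact Matrix.diagonal_apply_eq _ _
        · rw [Pi.single_eq_of_ne hij, mul_zero]
          exact Matrix.diagonal_apply_ne _ hij
      · intro k _ hk
        rw [Pi.single_eq_of_ne hk, map_zero, mul_zero]
      · intro hi
        exact absurd (Finset.mem_univ i) hi
    rw [h3, h4]
    exact h2
  have h5 : (∏ i, (rr z i t : ℂ)) ≠ 0 :=
    Finset.prod_ne_zero_iff.2 fun i _ => by exact_mod_cast rr_ne h i t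
  have h6 := congrArg Matrix.det h1
  rw [Matrix.det_mul, Matrix.det_mul, Matrix.det_conjTranspose, Matrix.det_diagonal] at h6
  have h7 : star A.det * A.det = 1 := by
    have : (∏ i, (rr z i t : ℂ)) * (star A.det * A.det) = (∏ i, (rr z i t : ℂ)) * 1 := by
      linear_combination h6
    exact mul_left_cancel₀ h5 this
  have h8 : A.det = (g : Mt).det t :=
    (RingHom.map_det (Pi.evalRingHom (fun _ : Fin 2 => ℂ) t) (g : Mt)).symm
  rw [h8] at h7
  have h9 := congrArg norm h7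
  rw [norm_mul, norm_star, norm_one] at h9
  nlinarith [norm_nonneg ((g : Mt).det t)]

/-- **determinant one** -/
lemma det_one (h : Z5r O z) {N : ℕ} (hN : 3 ≤ N) {g : Mtˣ} (hg : g ∈ GC O z (N : Fin 2 → ℂ)) :
    (g : Mt).det = 1 := by
  obtain ⟨u, hu, e⟩ := det_div (natCast_mem O N) hg.1.1 hg.2
  by_contra hne
  have hu0 : u ≠ 0 := by
    rintro rfl
    rw [mul_zero] at e
    exact hne (sub_eq_zero.1 e)
  have h1 := h.ord.norm_ge u hu hu0
  have hN' : (3 : ℝ) ≤ N := by exact_mod_cast hN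
  have h2 : ∀ t, ‖u t‖ ≤ 2 / 3 := by
    intro t
    have h3 : (N : ℂ) * u t = (g : Mt).det t - 1 := by
      have := congrFun e t
      simpa using this.symm
    have h4 : (N : ℝ) * ‖u t‖ ≤ 2 := by
      have h5 : ‖(N : ℂ) * u t‖ = N * ‖u t‖ := by rw [norm_mul]; simp
      rw [← h5, h3]
      refine (norm_sub_le _ _).trans ?_
      rw [det_norm h hg.1 t, norm_one]
      norm_num
    nlinarith [norm_nonneg (u t)]
  rw [Fin.prod_univ_two] at h1
  have h6 : ‖u 0‖ * ‖u 1‖ ≤ (2 / 3) * (2 / 3) :=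
    mul_le_mul (h2 0) (h2 1) (norm_nonneg _) (by norm_num)
  linarith

lemma det_rho (h : Z5r O z) (g : GU O z) :
    LinearMap.det ((rho h g).1 : V1 3 →ₗ[ℂ] V1 3) = ((g : Mtˣ) : Mt).det 0 := by
  have h1 : ((rho h g).1 : V1 3 →ₗ[ℂ] V1 3) =
      (P0 h : (Fin 4 → ℂ) →ₗ[ℂ] V1 3) ∘ₗ (Matrix.toLin' (ev 0 ((g : Mtˣ) : Mt))) ∘ₗ
        ((P0 h).symm : V1 3 →ₗ[ℂ] (Fin 4 → ℂ)) := rfl
  rw [h1, LinearMap.det_conj, LinearMap.det_toLin']
  exact (RingHom.map_det (Pi.evalRingHom (fun _ : Fin 2 => ℂ) 0) ((g : Mtˣ) : Mt)).symm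

lemma det_sig (h : Z5r O z) (g : GU O z) :
    LinearMap.det ((sig h g).toLinearEquiv : W 4 →ₗ[ℂ] W 4) = ((g : Mtˣ) : Mt).det 1 := by
  have h1 : ((sig h g).toLinearEquiv : W 4 →ₗ[ℂ] W 4) =
      (P1 h : (Fin 4 → ℂ) →ₗ[ℂ] W 4) ∘ₗ (Matrix.toLin' (ev 1 ((g : Mtˣ) : Mt))) ∘ₗ
        ((P1 h).symm : W 4 →ₗ[ℂ] (Fin 4 → ℂ)) := rfl
  rw [h1, LinearMap.det_conj, LinearMap.det_toLin']
  exact (RingHom.map_det (Pi.evalRingHom (fun _ : Fin 2 => ℂ) 1) ((g : Mtˣ) : Mt)).symm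

lemma det1 (h : Z5r O z) {N : ℕ} (hN : 3 ≤ N) (g : GU O z)
    (hg : (g : Mtˣ) ∈ GC O z (N : Fin 2 → ℂ)) :
    LinearMap.det ((rho h g).1 : V1 3 →ₗ[ℂ] V1 3) *
      LinearMap.det ((sig h g).toLinearEquiv : W 4 →ₗ[ℂ] W 4) = 1 := by
  rw [det_rho, det_sig, det_one h hN hg]
  simp

/-! ### stability -/

/-- the difference is divisible -/
lemma io_stab (h : Z5r O z) {N M : ℕ} (hM : M ∣ N) (g : GU O z)
    (hg : (g : Mtˣ) ∈ GC O z (N : Fin 2 → ℂ)) {x : V1 3 × W 4} (hx : x ∈ LO h) :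
    ∃ y ∈ LO h, (((rho h g).1 x.1, sig h g x.2) : V1 3 × W 4) = x + M • y := by
  obtain ⟨v, hv, rfl⟩ := (mem_LO h).1 hx
  obtain ⟨c, hc⟩ := hM
  obtain ⟨u, hu⟩ : ∃ u : Fin 4 → Fin 4 → Fin 2 → ℂ, ∀ i j, u i j ∈ O ∧
      (((g : Mtˣ) : Mt) - 1) i j = (N : Fin 2 → ℂ) * u i j := by
    choose u hu using hg.2
    exact ⟨u, hu⟩
  refine ⟨io h (fun i => (c : Fin 2 → ℂ) * ∑ j, u i j * v j), (io_mem h).2 fun i => ?_, ?_⟩
  · exact O.mul_mem (natCast_mem O c) (O.sum_mem fun j _ => O.mul_mem (hu i j).1 (hv j))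
  · rw [← io_mulVec, ← map_nsmul, ← map_add]
    congr 1
    have h1 : ((g : Mtˣ) : Mt) *ᵥ v = v + (((g : Mtˣ) : Mt) - 1) *ᵥ v := by
      rw [Matrix.sub_mulVec, Matrix.one_mulVec]; abel
    rw [h1]
    congr 1
    funext i
    rw [Matrix.mulVec, dotProduct]
    simp only [Pi.smul_apply]
    rw [nsmul_eq_mul, ← mul_assoc, Finset.mul_sum]
    refine Finset.sum_congr rfl fun j _ => ?_
    rw [(hu i j).2, hc]
    push_cast
    ring

lemma stab' (h : Z5r O z) {N : ℕ} (hN : N0 h ^ 2 ∣ N) (g : GU O z)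
    (hg : (g : Mtˣ) ∈ GC O z (N : Fin 2 → ℂ)) :
    ∀ x ∈ L0 h, (((rho h g).1 x.1, sig h g x.2) : V1 3 × W 4) ∈ L0 h :=
  L0_stab h (rho h g).1 (sig h g) fun _ hx => io_stab h hN g hg hx

/-- stability of `LO` under the whole group -/
lemma LO_stab (h : Z5r O z) (g : GU O z) {x : V1 3 × W 4} (hx : x ∈ LO h) :
    (((rho h g).1 x.1, sig h g x.2) : V1 3 × W 4) ∈ LO h := by
  obtain ⟨v, hv, rfl⟩ := (mem_LO h).1 hx
  rw [← io_mulVec]
  refine (io_mem h).2 fun i => ?_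
  rw [Matrix.mulVec, dotProduct]
  exact O.sum_mem fun j _ => O.mul_mem (g.2.1 i j) (hv j)

/-! ### faithfulness -/

lemma faith (h : Z5r O z) {g g' : GU O z} (h1 : rho h g = rho h g') (h2 : sig h g = sig h g') :
    g = g' := by
  refine Subtype.ext (Units.ext ?_)
  have h3 : ∀ v : Fin 4 → Fin 2 → ℂ, ((g : Mtˣ) : Mt) *ᵥ v = ((g' : Mtˣ) : Mt) *ᵥ v := by
    intro v
    apply (io h).injective
    rw [io_mulVec, io_mulVec, h1, h2]
  refine Matrix.ext fun i j => ?_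
  have h4 := congrFun (h3 (Pi.single j 1)) i
  rw [Matrix.mulVec_single_one, Matrix.mulVec_single_one] at h4
  exact h4

/-! ### the datum -/

/-- **the arithmetic datum** for a group `G` mapping to the congruence subgroup -/
def mkD (h : Z5r O z) (N : ℕ) (hN3 : 3 ≤ N) (hN : N0 h ^ 2 ∣ N) {G : Type} [Group G]
    (φ : G →* GU O z) (hφ : ∀ g, (φ g : Mtˣ) ∈ GC O z (N : Fin 2 → ℂ))
    (cocpt : ∃ r : ℝ, r < 1 ∧ ∀ q ∈ Ball 3, ∃ g, ‖act (rho h (φ g)) q‖ ≤ r)
    (proper : ∀ r : ℝ, r < 1 → {g | ∃ q, ‖q‖ ≤ r ∧ ‖act (rho h (φ g)) q‖ ≤ r}.Finite) :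
    EDat where
  n := 3
  m := 4
  G := G
  ρ := (rho h).comp φ
  σ := (sig h).comp φ
  L := L0 h
  disc := L0_disc h
  span := L0_span h
  int := L0_int h
  dual := L0_dual h
  stab g := stab' h hN (φ g) (hφ g)
  det1 g := det1 h hN3 (φ g) (hφ g)
  cocpt := cocpt
  proper := proper

end

end Crest.Agent.R272.In_68
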