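/-
helper392, row 272, (I3) of #6248: the field `proper` of `EDat` (EBase_641) is automatic:
a faithful group of isometries of (V1 n × W m, h) preserving a discrete spanning subgroup acts
properly on the ball.  Abstract, no number theory.
-/
import Mathlib
import Crest.Agent.R272.EBase_641

set_option autoImplicit false

open scoped ComplexConjugate Topology

namespace Crest.Agent.R272.Prop_392

open Crest.Agent.R272.EBase_641

noncomputable section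

variable {n m : ℕ}

/-- lower bound of the majorant -/
theorem maj_ge (v : V1 n) {z : E n} (hz : z ∈ Ball n) :
    (1 - ‖z‖) / (1 + ‖z‖) * (‖v.1‖ ^ 2 + ‖v.2‖ ^ 2) ≤ maj v z := by
  have ht : ‖z‖ < 1 := mem_Ball.1 hz
  have ht0 : 0 ≤ ‖z‖ := norm_nonneg z
  have h1 : 0 < 1 - ‖z‖ ^ 2 := by nlinarith
  have h2 : 0 < 1 + ‖z‖ := by linarith
  have hL : ‖v.2‖ - ‖v.1‖ * ‖z‖ ≤ ‖lin v z‖ := by
    have e1 : ‖(inner ℂ v.1 z : ℂ)‖ ≤ ‖v.1‖ * ‖z‖ := norm_inner_le_norm _ _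
    have e2 : ‖v.2‖ = ‖conj v.2‖ := by simp
    have e3 : ‖conj v.2‖ - ‖(inner ℂ v.1 z : ℂ)‖ ≤ ‖lin v z‖ := by
      rw [lin, norm_sub_rev]
      exact norm_sub_norm_le _ _
    linarith
  set a := ‖v.1‖ with ha
  set b := ‖v.2‖ with hb
  set t := ‖z‖ with ht'
  set l := ‖lin v z‖ with hl
  have ha0 : 0 ≤ a := norm_nonneg _
  have hb0 : 0 ≤ b := norm_nonneg _
  have hl0 : 0 ≤ l := norm_nonneg _
  have hm : maj v z = (a ^ 2 - b ^ 2) + 2 * (l ^ 2 / (1 - t ^ 2)) := rfl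
  rw [hm]
  by_cases hc : a * t ≤ b
  · have hsq : (b - a * t) ^ 2 ≤ l ^ 2 := by
      have : 0 ≤ b - a * t := by linarith
      nlinarith
    have h3 : (b - a * t) ^ 2 / (1 - t ^ 2) ≤ l ^ 2 / (1 - t ^ 2) :=
      div_le_div_of_nonneg_right hsq h1.le
    have h4 : (1 - t) / (1 + t) * (a ^ 2 + b ^ 2) ≤
        (a ^ 2 - b ^ 2) + 2 * ((b - a * t) ^ 2 / (1 - t ^ 2)) := by
      have h5 : (a ^ 2 - b ^ 2) + 2 * ((b - a * t) ^ 2 / (1 - t ^ 2)) -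
          (1 - t) / (1 + t) * (a ^ 2 + b ^ 2) = 2 * t * (a - b) ^ 2 / (1 - t ^ 2) := by
        have h6 : (1 - t ^ 2) = (1 - t) * (1 + t) := by ring
        have h7 : 1 - t ≠ 0 := by linarith
        have h8 : 1 + t ≠ 0 := by linarith
        rw [h6]
        field_simp
        ring
      have h9 : 0 ≤ 2 * t * (a - b) ^ 2 / (1 - t ^ 2) := by positivity
      linarith
    linarith
  · rw [not_le] at hc
    have h3 : 0 ≤ l ^ 2 / (1 - t ^ 2) := by positivity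
    have h4 : (1 - t) / (1 + t) * (a ^ 2 + b ^ 2) ≤ a ^ 2 - b ^ 2 := by
      rw [div_mul_eq_mul_div, div_le_iff₀ h2]
      have h5 : b ^ 2 ≤ (a * t) ^ 2 := by nlinarith
      nlinarith [mul_nonneg (sq_nonneg a) ht0, sq_nonneg a]
    linarith

/-- upper bound of the majorant -/
theorem maj_le (v : V1 n) {z : E n} (hz : z ∈ Ball n) :
    maj v z ≤ (1 + ‖z‖) / (1 - ‖z‖) * (‖v.1‖ ^ 2 + ‖v.2‖ ^ 2) := by
  have ht : ‖z‖ < 1 := mem_Ball.1 hz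
  have ht0 : 0 ≤ ‖z‖ := norm_nonneg z
  have h1 : 0 < 1 - ‖z‖ ^ 2 := by nlinarith
  have h2 : 0 < 1 - ‖z‖ := by linarith
  have hL : ‖lin v z‖ ≤ ‖v.2‖ + ‖v.1‖ * ‖z‖ := by
    have e1 : ‖(inner ℂ v.1 z : ℂ)‖ ≤ ‖v.1‖ * ‖z‖ := norm_inner_le_norm _ _
    have e2 : ‖v.2‖ = ‖conj v.2‖ := by simp
    have e3 : ‖lin v z‖ ≤ ‖(inner ℂ v.1 z : ℂ)‖ + ‖conj v.2‖ := by
      rw [lin]
      exact norm_sub_le _ _
    linarith
  set a := ‖v.1‖ with ha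
  set b := ‖v.2‖ with hb
  set t := ‖z‖ with ht'
  set l := ‖lin v z‖ with hl
  have ha0 : 0 ≤ a := norm_nonneg _
  have hb0 : 0 ≤ b := norm_nonneg _
  have hl0 : 0 ≤ l := norm_nonneg _
  have hm : maj v z = (a ^ 2 - b ^ 2) + 2 * (l ^ 2 / (1 - t ^ 2)) := rfl
  rw [hm]
  have hsq : l ^ 2 ≤ (b + a * t) ^ 2 := by nlinarith [mul_nonneg ha0 ht0]
  have h3 : l ^ 2 / (1 - t ^ 2) ≤ (b + a * t) ^ 2 / (1 - t ^ 2) :=
    div_le_div_of_nonneg_right hsq h1.le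
  have h4 : (a ^ 2 - b ^ 2) + 2 * ((b + a * t) ^ 2 / (1 - t ^ 2)) ≤
      (1 + t) / (1 - t) * (a ^ 2 + b ^ 2) := by
    have h5 : (1 + t) / (1 - t) * (a ^ 2 + b ^ 2) -
        ((a ^ 2 - b ^ 2) + 2 * ((b + a * t) ^ 2 / (1 - t ^ 2))) =
        2 * t * (a - b) ^ 2 / (1 - t ^ 2) := by
      have h6 : (1 - t ^ 2) = (1 - t) * (1 + t) := by ring
      have h7 : 1 - t ≠ 0 := by linarith
      have h8 : 1 + t ≠ 0 := by linarith
      rw [h6]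
      field_simp
      ring
    have h9 : 0 ≤ 2 * t * (a - b) ^ 2 / (1 - t ^ 2) := by positivity
    linarith
  linarith

theorem maj_nonneg (v : V1 n) {z : E n} (hz : z ∈ Ball n) : 0 ≤ maj v z := by
  have ht : ‖z‖ < 1 := mem_Ball.1 hz
  have ht0 : 0 ≤ ‖z‖ := norm_nonneg z
  refine le_trans ?_ (maj_ge v hz)
  have : 0 ≤ 1 - ‖z‖ := by linarith
  positivity

theorem hhre_act (g : UG n) (v : V1 n) :
    ‖(g.1 v).1‖ ^ 2 - ‖(g.1 v).2‖ ^ 2 = ‖v.1‖ ^ 2 - ‖v.2‖ ^ 2 := by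
  have h := UG_hh g v v
  rw [hh_self, hh_self] at h
  exact Complex.ofReal_injective h

theorem maj_act (g : UG n) (v : V1 n) {z : E n} (hz : z ∈ Ball n) :
    maj (g.1 v) (act g z) = maj v z := by
  rw [maj, maj, R_act g v hz, hhre_act]

/-- the majorant at `z` of the whole space -/
def qq (z : E n) (v : V1 n × W m) : ℝ := maj v.1 z + ‖v.2‖ ^ 2

theorem qq_act (g : UG n) (s : W m ≃ₗᵢ[ℂ] W m) (v : V1 n × W m) {z : E n} (hz : z ∈ Ball n) :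
    qq (act g z) ((g.1 v.1, s v.2) : V1 n × W m) = qq z v := by
  simp only [qq, maj_act g v.1 hz, LinearIsometryEquiv.norm_map]

theorem qq_ge (v : V1 n × W m) {z : E n} {r : ℝ} (hr : r < 1) (hz : ‖z‖ ≤ r) :
    (1 - r) / (1 + r) * ‖v‖ ^ 2 ≤ qq z v := by
  have hr0 : 0 ≤ r := le_trans (norm_nonneg z) hz
  have hzB : z ∈ Ball n := mem_Ball.2 (lt_of_le_of_lt hz hr)
  have h1 := maj_ge v.1 hzB
  have ht0 : 0 ≤ ‖z‖ := norm_nonneg z
  have ha : (1 - r) / (1 + r) ≤ (1 - ‖z‖) / (1 + ‖z‖) := by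
    rw [div_le_div_iff₀ (by linarith) (by linarith)]
    nlinarith
  have hb : (1 - r) / (1 + r) ≤ 1 := by
    rw [div_le_one (by linarith)]
    linarith
  have hc : 0 ≤ (1 - r) / (1 + r) := div_nonneg (by linarith) (by linarith)
  have hn : ‖v‖ ^ 2 ≤ (‖v.1.1‖ ^ 2 + ‖v.1.2‖ ^ 2) + ‖v.2‖ ^ 2 := by
    rw [Prod.norm_def, Prod.norm_def]
    have h0 : 0 ≤ ‖v.1.1‖ ^ 2 := by positivity
    have h0' : 0 ≤ ‖v.1.2‖ ^ 2 := by positivity
    have h0'' : 0 ≤ ‖v.2‖ ^ 2 := by positivity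
    rcases max_cases (max ‖v.1.1‖ ‖v.1.2‖) ‖v.2‖ with ⟨h, -⟩ | ⟨h, -⟩ <;> rw [h]
    · rcases max_cases ‖v.1.1‖ ‖v.1.2‖ with ⟨h', -⟩ | ⟨h', -⟩ <;> rw [h'] <;> linarith
    · linarith
  calc (1 - r) / (1 + r) * ‖v‖ ^ 2
      ≤ (1 - r) / (1 + r) * ((‖v.1.1‖ ^ 2 + ‖v.1.2‖ ^ 2) + ‖v.2‖ ^ 2) :=
        mul_le_mul_of_nonneg_left hn hc
    _ = (1 - r) / (1 + r) * (‖v.1.1‖ ^ 2 + ‖v.1.2‖ ^ 2) + (1 - r) / (1 + r) * ‖v.2‖ ^ 2 := by ring
    _ ≤ (1 - ‖z‖) / (1 + ‖z‖) * (‖v.1.1‖ ^ 2 + ‖v.1.2‖ ^ 2) + 1 * ‖v.2‖ ^ 2 := by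
        apply add_le_add
        · exact mul_le_mul_of_nonneg_right ha (by positivity)
        · exact mul_le_mul_of_nonneg_right hb (by positivity)
    _ ≤ qq z v := by rw [qq]; linarith

theorem qq_le (v : V1 n × W m) {z : E n} {r : ℝ} (hr : r < 1) (hz : ‖z‖ ≤ r) :
    qq z v ≤ 3 * ((1 + r) / (1 - r)) * ‖v‖ ^ 2 := by
  have hr0 : 0 ≤ r := le_trans (norm_nonneg z) hz
  have hzB : z ∈ Ball n := mem_Ball.2 (lt_of_le_of_lt hz hr)
  have h1 := maj_le v.1 hzB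
  have ht0 : 0 ≤ ‖z‖ := norm_nonneg z
  have ha : (1 + ‖z‖) / (1 - ‖z‖) ≤ (1 + r) / (1 - r) := by
    rw [div_le_div_iff₀ (by linarith) (by linarith)]
    nlinarith
  have hb : 1 ≤ (1 + r) / (1 - r) := by
    rw [one_le_div (by linarith)]
    linarith
  have hn1 : ‖v.1.1‖ ^ 2 ≤ ‖v‖ ^ 2 :=
    pow_le_pow_left₀ (norm_nonneg _) (le_trans (norm_fst_le v.1) (norm_fst_le v)) 2
  have hn2 : ‖v.1.2‖ ^ 2 ≤ ‖v‖ ^ 2 :=
    pow_le_pow_left₀ (norm_nonneg _) (le_trans (norm_snd_le v.1) (norm_fst_le v)) 2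
  have hn3 : ‖v.2‖ ^ 2 ≤ ‖v‖ ^ 2 :=
    pow_le_pow_left₀ (norm_nonneg _) (norm_snd_le v) 2
  have hc : 0 ≤ (1 + r) / (1 - r) := le_trans zero_le_one hb
  calc qq z v ≤ (1 + ‖z‖) / (1 - ‖z‖) * (‖v.1.1‖ ^ 2 + ‖v.1.2‖ ^ 2) + ‖v.2‖ ^ 2 := by
        rw [qq]; linarith
    _ ≤ (1 + r) / (1 - r) * (‖v.1.1‖ ^ 2 + ‖v.1.2‖ ^ 2) + (1 + r) / (1 - r) * ‖v.2‖ ^ 2 := by
        apply add_le_add
        · exact mul_le_mul_of_nonneg_right ha (by positivity)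
        · have := mul_le_mul_of_nonneg_right hb (sq_nonneg ‖v.2‖)
          linarith
    _ = (1 + r) / (1 - r) * (‖v.1.1‖ ^ 2 + ‖v.1.2‖ ^ 2 + ‖v.2‖ ^ 2) := by ring
    _ ≤ (1 + r) / (1 - r) * (3 * ‖v‖ ^ 2) := mul_le_mul_of_nonneg_left (by linarith) hc
    _ = 3 * ((1 + r) / (1 - r)) * ‖v‖ ^ 2 := by ring

/-- **PROPER**: a faithful group preserving a discrete spanning subgroup acts properly. -/
theorem proper {G : Type*} [Group G] (ρ : G →* UG n) (σ : G →* (W m ≃ₗᵢ[ℂ] W m))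
    (L : AddSubgroup (V1 n × W m))
    (disc : ∀ r : ℝ, {v : V1 n × W m | v ∈ L ∧ ‖v‖ ≤ r}.Finite)
    (span : Submodule.span ℝ (L : Set (V1 n × W m)) = ⊤)
    (stab : ∀ g, ∀ v ∈ L, (((ρ g).1 v.1, σ g v.2) : V1 n × W m) ∈ L)
    (faith : ∀ g g', ρ g = ρ g' → σ g = σ g' → g = g') :
    ∀ r : ℝ, r < 1 → {g | ∃ z, ‖z‖ ≤ r ∧ ‖act (ρ g) z‖ ≤ r}.Finite := by
  classical
  intro r hr
  -- a finite spanning subset of `L`
  obtain ⟨s, hsL, hs, hsfin⟩ : ∃ s : Set (V1 n × W m), s ⊆ L ∧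
      Submodule.span ℝ s = ⊤ ∧ s.Finite := by
    obtain ⟨b, hb1, hb2, hb3⟩ := exists_linearIndependent ℝ (L : Set (V1 n × W m))
    refine ⟨b, hb1, by rw [hb2, span], ?_⟩
    exact hb3.setFinite
  -- bound
  obtain ⟨B, hB⟩ : ∃ B : ℝ, ∀ v ∈ s, ‖v‖ ≤ B := by
    obtain ⟨B, hB⟩ := (hsfin.image (fun v => ‖v‖)).bddAbove
    exact ⟨B, fun v hv => hB ⟨v, hv, rfl⟩⟩
  by_cases hr0 : 0 ≤ r
  swap
  · refine Set.Finite.subset Set.finite_empty ?_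
    rintro g ⟨z, hz, -⟩
    exact absurd (le_trans (norm_nonneg z) hz) hr0
  set c : ℝ := (1 - r) / (1 + r) with hc
  set C : ℝ := 3 * ((1 + r) / (1 - r)) with hC
  have hc0 : 0 < c := div_pos (by linarith) (by linarith)
  have hC0 : 0 < C := by
    have : 0 < (1 + r) / (1 - r) := div_pos (by linarith) (by linarith)
    positivity
  set M : ℝ := Real.sqrt (C / c * B ^ 2) with hM
  have key : ∀ g ∈ {g | ∃ z, ‖z‖ ≤ r ∧ ‖act (ρ g) z‖ ≤ r}, ∀ v ∈ s,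
      (((ρ g).1 v.1, σ g v.2) : V1 n × W m) ∈ {w : V1 n × W m | w ∈ L ∧ ‖w‖ ≤ M} := by
    rintro g ⟨z, hz, hgz⟩ v hv
    refine ⟨stab g v (hsL hv), ?_⟩
    have hzB : z ∈ Ball n := mem_Ball.2 (lt_of_le_of_lt hz hr)
    have h1 := qq_ge (m := m) ((ρ g).1 v.1, σ g v.2) hr hgz
    rw [qq_act (ρ g) (σ g) v hzB] at h1
    have h2 := qq_le (m := m) v hr hz
    have hvB := hB v hv
    have h3 : ‖v‖ ^ 2 ≤ B ^ 2 := pow_le_pow_left₀ (norm_nonneg _) hvB 2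
    have h4 : c * ‖(((ρ g).1 v.1, σ g v.2) : V1 n × W m)‖ ^ 2 ≤ C * B ^ 2 :=
      le_trans h1 (le_trans h2 (mul_le_mul_of_nonneg_left h3 hC0.le))
    apply Real.le_sqrt_of_sq_le
    rw [div_mul_eq_mul_div, le_div_iff₀ hc0]
    linarith
  have hfin := disc M
  have : Fintype s := hsfin.fintype
  have : Finite {w : V1 n × W m | w ∈ L ∧ ‖w‖ ≤ M} := hfin
  let F : {g | ∃ z, ‖z‖ ≤ r ∧ ‖act (ρ g) z‖ ≤ r} →
      (s → {w : V1 n × W m | w ∈ L ∧ ‖w‖ ≤ M}) :=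
    fun g v => ⟨_, key g.1 g.2 v.1 v.2⟩
  have hF : Function.Injective F := by
    intro g g' h
    apply Subtype.ext
    -- the two real linear maps agree on a spanning set
    let T : G → (V1 n × W m) →ₗ[ℝ] (V1 n × W m) := fun g =>
      (((ρ g).1 : V1 n →ₗ[ℂ] V1 n).restrictScalars ℝ).prodMap
        (((σ g).toLinearEquiv : W m →ₗ[ℂ] W m).restrictScalars ℝ)
    have hT : T g.1 = T g'.1 := by
      apply LinearMap.ext_on hs
      intro v hv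
      have := congrFun h ⟨v, hv⟩
      exact Subtype.ext_iff.1 this
    apply faith
    · apply Subtype.ext
      apply LinearEquiv.ext
      intro v
      have := LinearMap.congr_fun hT (v, 0)
      exact congrArg Prod.fst this
    · apply LinearIsometryEquiv.ext
      intro v
      have := LinearMap.congr_fun hT (0, v)
      exact congrArg Prod.snd this
  exact Set.finite_coe_iff.mp (Finite.of_injective F hF)

end

end Crest.Agent.R272.Prop_392
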