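/-
helper641, row 272, division E, (I4): the closed datum `DN` and the embedding datum `ioD`.
-/
import Crest.Agent.R272.AROut0_641
import Crest.Agent.R272.In3_68
import Crest.Agent.R272.Prop1_392
import Crest.Agent.R272.Ball7_916
import Crest.Agent.R272.I2a_939

set_option autoImplicit false

open scoped ComplexConjugate Topology
open Matrix

namespace Crest.Agent.R272.AROut_641

open Crest.Agent.R272.EBase_641
open Crest.Agent.R272.In_68
open Crest.Agent.R272.Ball7_916 (GCU)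

noncomputable section

variable {O : Subring (Fin 2 → ℂ)} {z : Fin 2 → ℂ}

lemma natCast_mem (h : Z5r O z) (N : ℕ) : ((N : ℕ) : Fin 2 → ℂ) ∈ O := by
  have := O.nsmul_mem O.one_mem N
  simpa using this

lemma natCast_ne {N : ℕ} (hN : 0 < N) : ((N : ℕ) : Fin 2 → ℂ) ≠ 0 := by
  intro h0
  have := congrFun h0 0
  simp at this
  omega

/-- the closed datum: `G = GC O z N` inside `GU` -/
def DN (h : Z5r O z) (N : ℕ) (hN3 : 3 ≤ N) (hN : N0 h ^ 2 ∣ N) : EDat :=
  mkD h N hN3 hN (G := GCU O z (N : Fin 2 → ℂ)) (GCU O z (N : Fin 2 → ℂ)).subtype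
    (fun g => g.2)
    (by
      obtain ⟨r, hr, hr'⟩ := Ball7_916.cocpt_hom h (natCast_mem h N) (natCast_ne (by omega))
        (GCU O z (N : Fin 2 → ℂ)).subtype (fun g hg => ⟨⟨g, hg⟩, rfl⟩)
      exact ⟨r, hr, fun q hq => hr' q hq⟩)
    (Prop_392.proper ((rho h).comp (GCU O z (N : Fin 2 → ℂ)).subtype)
      ((sig h).comp (GCU O z (N : Fin 2 → ℂ)).subtype) (L0 h) (L0_disc h) (L0_span h)
      (fun g v hv => stab' h hN g.1 g.2 v hv)
      (fun g g' h1 h2 => Subtype.ext (faith h h1 h2)))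

/-- 939's embedding datum for `DN` -/
def ioD (h : Z5r O z) (N : ℕ) (hN3 : 3 ≤ N) (hN : N0 h ^ 2 ∣ N) :
    I2_939.IoD (DN h N hN3 hN) O (Cls_620.HH z) (N : Fin 2 → ℂ) where
  io v := io h v
  add v w := map_add _ v w
  d := dd z
  d_pos := dd_pos h
  n0 v := by
    have h1 := hh_io h v v
    rw [hh_self] at h1
    have h2 := congrArg Complex.re h1
    rw [Complex.ofReal_re, Complex.re_ofReal_mul] at h2
    exact h2
  n1 v := by
    have h1 := inner_io h v v
    rw [inner_self_eq_norm_sq_to_K] at h1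
    have h2 := congrArg Complex.re h1
    rw [Complex.re_ofReal_mul] at h2
    rw [← h2]
    norm_cast
  h0 x y c hc i := by
    have h1 : P0 h (at' y 0) = P0 h (c • at' x 0) := by
      rw [map_smul]; exact hc
    have h2 := (P0 h).injective h1
    exact congrFun h2 i
  γ g x := (((g.1 : GU O z) : Mtˣ) : Mt) *ᵥ x
  γ_io g x := io_mulVec h g.1 x
  γ_int g x hx i := by
    rw [Matrix.mulVec, dotProduct]
    exact O.sum_mem fun j _ => O.mul_mem ((mem_GU.1 g.1.2).1 i j) (hx j)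
  γ_hh g x := (mem_GU.1 g.1.2).2.2 x x
  γ_cg g x hx i := by
    have h1 : ∀ i j, ∃ u ∈ O, (((((g.1 : GU O z) : Mtˣ) : Mt) - 1) : Mt) i j
        = ((N : ℕ) : Fin 2 → ℂ) * u := (mem_GC.1 g.2).2
    choose u hu e using h1
    refine ⟨∑ j, u i j * x j, O.sum_mem fun j _ => O.mul_mem (hu i j) (hx j), ?_⟩
    have h2 : ((((g.1 : GU O z) : Mtˣ) : Mt) *ᵥ x) i - x i =
        (((((g.1 : GU O z) : Mtˣ) : Mt) - 1) *ᵥ x) i := by
      rw [Matrix.sub_mulVec, Matrix.one_mulVec]; rfl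
    rw [h2, Matrix.mulVec, dotProduct, Finset.mul_sum]
    refine Finset.sum_congr rfl fun j _ => ?_
    rw [e i j]; ring
  N0 := N0 h
  N0_pos := N0_pos h
  toL x hx := LO_L0 h _ ((io_mem h).2 hx)
  ofL l hl := by
    obtain ⟨v, hv, e⟩ := (mem_LO h).1 (L0_LO h l hl)
    exact ⟨v, hv, e.symm⟩

end

end Crest.Agent.R272.AROut_641
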