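import Crest.Agent.R272.Cls4_620

/-!
Row 272, AR-CLS (helper620), part 5: crossing table, complete clusters, cluster points, mirrors.
-/

set_option linter.unusedSectionVars false

namespace Crest.Agent.R272.Cls_620

open Finset

/-- all pairs of classes (modulo `μ`) have the gap `K` at the ball place. -/
def Deep (O : Subring (Fin 2 → ℂ)) (z μ : Fin 2 → ℂ) (K : ℝ) : Prop :=
  ∀ a b : Lb, Gap O 0 (HH z) μ μ (base z a) (base z b) K

/-- `x` and `y` are orthogonal to a common negative vector of the ball place. -/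
def Meet (z : Fin 2 → ℂ) (x y : Fin 4 → Fin 2 → ℂ) : Prop :=
  ∃ p : Fin 4 → ℂ, (h1 (c0 0 (HH z)) p p).re < 0 ∧ h1 (c0 0 (HH z)) (at0 0 x) p = 0 ∧
    h1 (c0 0 (HH z)) (at0 0 y) p = 0

section

variable {O : Subring (Fin 2 → ℂ)} {z μ : Fin 2 → ℂ}

lemma VV.low (h : Z5 O z) {a : Lb} {v : Fin 4 → Fin 2 → ℂ} (hv : v ∈ VV O z μ a) :
    v ∈ Cl O (HH z) μ (base z a) := by
  cases a with
  | o => exact hv
  | n i => exact hv
  | v i j => exact Cl.mono h.pz_mem hv
  | b i k => exact Cl.mono h.pz_mem hv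

lemma n_at0 (h : Z5 O z) (a : Lb) : (hh (HH z) (base z a) (base z a) 0).re ≤ 2 ∧
    0 ≤ (hh (HH z) (base z a) (base z a) 0).re := by
  have hs := sqrt5_bd
  cases a with
  | o => simp [base, hh_e00]
  | n i => simp [base, hh_ei]
  | v i j => rw [n_v h]; simp
  | b i k =>
    rw [n_b h]
    have : ((2 : Fin 2 → ℂ) + (z ^ 2 + z ^ 3)) 0 = 2 + (z 0 ^ 2 + z 0 ^ 3) := rfl
    rw [this, h.at0', Complex.add_re, Complex.ofReal_re]
    norm_num
    constructor <;> linarith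

/-- meeting planes have the standard product. -/
lemma meet_std (h : Z5 O z) (hD : Deep O z μ 2) {a b : Lb} {v w : Fin 4 → Fin 2 → ℂ}
    (hv : v ∈ VV O z μ a) (hw : w ∈ VV O z μ b) (hm : Meet z v w) :
    hh (HH z) v w = hh (HH z) (base z a) (base z b) := by
  obtain ⟨p, hp, h1, h2⟩ := hm
  refine cross h.frm h.sgn (K := 2) (by norm_num) ?_ (hD a b) (VV.low h hv) (VV.low h hw) hp h1 h2
  have ha := n_at0 h a
  have hb := n_at0 h b
  nlinarith

/-- the necessary inequality. -/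
lemma meet_le (h : Z5 O z) (hD : Deep O z μ 2) {a b : Lb} {v w : Fin 4 → Fin 2 → ℂ}
    (hv : v ∈ VV O z μ a) (hw : w ∈ VV O z μ b) (hm : Meet z v w) :
    ‖hh (HH z) (base z a) (base z b) 0‖ ^ 2 ≤
      (hh (HH z) (base z a) (base z a) 0).re * (hh (HH z) (base z b) (base z b) 0).re := by
  have hst := meet_std h hD hv hw hm
  obtain ⟨p, hp, h1, h2⟩ := hm
  have h3 := perp_cs (c := c0 0 (HH z)) (i0 := 3) h.sgn.neg h.sgn.pos hp h1 h2
  rw [← hh_at0 h.frm.real, ← hh_at0 h.frm.real, ← hh_at0 h.frm.real, hst,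
    (VV.low h hv).2.2, (VV.low h hw).2.2] at h3
  exact h3

/-- (L5) two planes of the same class which meet are equal (as vectors). -/
lemma meet_same (h : Z5 O z) (hD : Deep O z μ 2) {a : Lb} {v w : Fin 4 → Fin 2 → ℂ}
    (hv : v ∈ VV O z μ a) (hw : w ∈ VV O z μ a) (hm : Meet z v w) : v = w :=
  uniq h.ord h.frm (t := 1) (by decide) hv hw (meet_std h hD hv hw hm)

lemma nb_re (h : Z5 O z) (i : Bool) (k : Fin 5) :
    (hh (HH z) (base z (.b i k)) (base z (.b i k)) 0).re = (3 - Real.sqrt 5) / 2 := by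
  rw [n_b h]
  have : ((2 : Fin 2 → ℂ) + (z ^ 2 + z ^ 3)) 0 = 2 + (z 0 ^ 2 + z 0 ^ 3) := rfl
  rw [this, h.at0', Complex.add_re, Complex.ofReal_re]
  norm_num; ring

/-- (L3) bridges do not meet `e0` planes. -/
lemma not_meet_bo (h : Z5 O z) (hD : Deep O z μ 2) {i : Bool} {k : Fin 5}
    {v w : Fin 4 → Fin 2 → ℂ} (hv : v ∈ VV O z μ (.b i k)) (hw : w ∈ VV O z μ .o) :
    ¬ Meet z v w := by
  intro hm
  have h1 := meet_le h hD hv hw hm
  rw [nb_re h] at h1
  have e1 : hh (HH z) (base z (.b i k)) (base z .o) 0 = -(z 0 ^ (k : ℕ)) := by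
    show hh (HH z) (base z (.b i k)) e0 0 = _
    rw [g_bo]; rfl
  have e2 : (hh (HH z) (base z .o) (base z .o) 0).re = 1 := by
    show (hh (HH z) e0 e0 0).re = 1
    rw [hh_e00]; simp
  rw [e1, e2, norm_neg, (re_pow h _).2] at h1
  have := sqrt5_bd
  norm_num at h1
  linarith

/-- (L4) bridges do not meet `n` planes of the same colour. -/
lemma not_meet_bn (h : Z5 O z) (hD : Deep O z μ 2) {i : Bool} {k : Fin 5}
    {v w : Fin 4 → Fin 2 → ℂ} (hv : v ∈ VV O z μ (.b i k)) (hw : w ∈ VV O z μ (.n i)) :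
    ¬ Meet z v w := by
  intro hm
  have h1 := meet_le h hD hv hw hm
  have e1 : hh (HH z) (base z (.b i k)) (base z (.n i)) 0 = 1 := by
    show hh (HH z) (base z (.b i k)) (ei i) 0 = _
    rw [g_bn, dl_self]; rfl
  have e2 : (hh (HH z) (base z (.n i)) (base z (.n i)) 0).re = 1 := by
    show (hh (HH z) (ei i) (ei i) 0).re = 1
    rw [hh_ei]; simp
  rw [nb_re h, e1, e2] at h1
  have := sqrt5_bd
  norm_num at h1
  linarith

/-- (L2) a bridge of colour `i` and index `k` meets only planes `v i j` with `k - j = 2, 3`. -/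
lemma meet_bv (h : Z5 O z) (hD : Deep O z μ 2) {i i' : Bool} {k j : Fin 5}
    {v w : Fin 4 → Fin 2 → ℂ} (hv : v ∈ VV O z μ (.b i k)) (hw : w ∈ VV O z μ (.v i' j))
    (hm : Meet z v w) : i = i' ∧ (((k : ℕ) + 4 * j) % 5 = 2 ∨ ((k : ℕ) + 4 * j) % 5 = 3) := by
  have h1 := meet_le h hD hv hw hm
  rw [nb_re h, g_bv h, n_v h] at h1
  have e2 : ((2 : Fin 2 → ℂ) 0).re = 2 := by simp
  rw [e2] at h1
  have hs := sqrt5_bd
  by_cases hi : i = i'
  · refine ⟨hi, ?_⟩
    subst hi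
    have e1 : (dl i i + z ^ ((k : ℕ) + 4 * j)) 0 = ((1 : ℝ) : ℂ) + z 0 ^ ((k : ℕ) + 4 * j) := by
      rw [dl_self]; simp
    rw [e1, nsq_add h] at h1
    by_contra hc
    push Not at hc
    have hlt := Nat.mod_lt ((k : ℕ) + 4 * j) (show 0 < 5 by norm_num)
    unfold rn at h1
    split_ifs at h1 with h5 h6
    · norm_num at h1; linarith
    · norm_num at h1; linarith
    · omega
  · exfalso
    have e1 : (dl i i' + z ^ ((k : ℕ) + 4 * j)) 0 = ((0 : ℝ) : ℂ) + z 0 ^ ((k : ℕ) + 4 * j) := by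
      simp [dl, hi]
    rw [e1, nsq_add h] at h1
    norm_num at h1
    linarith

/-- (L1) two bridges which meet are equal. -/
lemma meet_bb (h : Z5 O z) (hD : Deep O z μ 2) {i i' : Bool} {k l : Fin 5}
    {v w : Fin 4 → Fin 2 → ℂ} (hv : v ∈ VV O z μ (.b i k)) (hw : w ∈ VV O z μ (.b i' l))
    (hm : Meet z v w) : i = i' ∧ k = l ∧ v = w := by
  have h1 := meet_le h hD hv hw hm
  rw [nb_re h, nb_re h, g_bb h] at h1
  have hs := sqrt5_bd
  have hss : Real.sqrt 5 ^ 2 = 5 := Real.sq_sqrt (by norm_num)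
  have key : i = i' ∧ k = l := by
    by_cases hi : i = i'
    · refine ⟨hi, ?_⟩
      subst hi
      have e1 : (dl i i + z ^ ((k : ℕ) + 4 * l) + (z ^ 2 + z ^ 3)) 0
          = ((1 + -(Real.sqrt 5 + 1) / 2 : ℝ) : ℂ) + z 0 ^ ((k : ℕ) + 4 * l) := by
        rw [dl_self]
        show (1 : ℂ) + z 0 ^ ((k : ℕ) + 4 * l) + (z 0 ^ 2 + z 0 ^ 3) = _
        rw [h.at0']; push_cast; ring
      rw [e1, nsq_add h] at h1
      have hlt := Nat.mod_lt ((k : ℕ) + 4 * l) (show 0 < 5 by norm_num)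
      unfold rn at h1
      split_ifs at h1 with h5 h6
      · have hk := k.isLt
        have hl := l.isLt
        apply Fin.ext
        omega
      · exfalso; nlinarith
      · exfalso; nlinarith
    · exfalso
      have e1 : (dl i i' + z ^ ((k : ℕ) + 4 * l) + (z ^ 2 + z ^ 3)) 0
          = ((-(Real.sqrt 5 + 1) / 2 : ℝ) : ℂ) + z 0 ^ ((k : ℕ) + 4 * l) := by
        simp only [dl, hi, if_false]
        show (0 : ℂ) + z 0 ^ ((k : ℕ) + 4 * l) + (z 0 ^ 2 + z 0 ^ 3) = _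
        rw [h.at0']; ring
      rw [e1, nsq_add h] at h1
      obtain ⟨h2, h3⟩ := rn_ge ((k : ℕ) + 4 * l)
      nlinarith
  obtain ⟨rfl, rfl⟩ := key
  exact ⟨rfl, rfl, meet_same h hD hv hw hm⟩

end

end Crest.Agent.R272.Cls_620
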