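import Crest.Agent.R272.In2_68
import Crest.Agent.R272.I2a_939
import Crest.Agent.R272.Cls5_620

/-!
helper939, row 272, (I2), part 2: the classes `VV O z μ a` of helper620 in the embedding `io` of
helper68: pieces of the `IoD` structure and the conditions of `cls`.
-/

set_option autoImplicit false

open scoped ComplexConjugate Topology

namespace Crest.Agent.R272.I2_939

open Crest.Agent.R272.EBase_641 (V1 W EDat ECls UG Ball hh_self)
open Crest.Agent.R272.Cls_620 Crest.Agent.R272.In_68 Finset Matrix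

variable {O : Subring (Fin 2 → ℂ)} {z : Fin 2 → ℂ}

theorem io_n0 (h : Z5r O z) (v : Fin 4 → Fin 2 → ℂ) :
    ‖(io h v).1.1‖ ^ 2 - ‖(io h v).1.2‖ ^ 2 = dd z 0 * (hh (HH z) v v 0).re := by
  have h1 := hh_io h v v
  rw [hh_self] at h1
  have h2 := congrArg Complex.re h1
  rw [Complex.ofReal_re, Complex.re_ofReal_mul] at h2
  exact h2

theorem io_n1 (h : Z5r O z) (v : Fin 4 → Fin 2 → ℂ) :
    ‖(io h v).2‖ ^ 2 = dd z 1 * (hh (HH z) v v 1).re := by
  have h1 := inner_io h v v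
  rw [inner_self_eq_norm_sq_to_K] at h1
  have h2 := congrArg Complex.re h1
  rw [Complex.re_ofReal_mul] at h2
  rw [← h2]
  norm_cast

theorem io_h0 (h : Z5r O z) (x y : Fin 4 → Fin 2 → ℂ) (c : ℂ) (hc : (io h y).1 = c • (io h x).1)
    (i : Fin 4) : y i 0 = c * x i 0 := by
  rw [io_fst, io_fst, ← map_smul] at hc
  have h1 := (P0 h).injective hc
  exact congrFun h1 i

/-- integrality is preserved -/
theorem mulVec_int {g : Mt} (hg : ∀ i j, g i j ∈ O) {x : Fin 4 → Fin 2 → ℂ} (hx : Int' O x) :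
    Int' O (g *ᵥ x) := fun i => by
  rw [Matrix.mulVec, dotProduct]
  exact O.sum_mem fun k _ => O.mul_mem (hg i k) (hx k)

theorem mulVec_cg {ν : Fin 2 → ℂ} {g : Mt} (hg : Div O ν (g - 1)) {x : Fin 4 → Fin 2 → ℂ}
    (hx : Int' O x) : Cg O ν (g *ᵥ x) x := fun i => by
  choose u hu e using hg
  refine ⟨∑ k, u i k * x k, O.sum_mem fun k _ => O.mul_mem (hu i k) (hx k), ?_⟩
  have h1 : g *ᵥ x - x = (g - 1) *ᵥ x := by rw [Matrix.sub_mulVec, Matrix.one_mulVec]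
  have h2 : (g *ᵥ x) i - x i = ((g - 1) *ᵥ x) i := by rw [← h1]; rfl
  rw [h2, Matrix.mulVec, dotProduct, Finset.mul_sum]
  exact Finset.sum_congr rfl fun k _ => by rw [e]; ring

/-- the conditions on a level -/
structure Lvl (O : Subring (Fin 2 → ℂ)) (z μ : Fin 2 → ℂ) : Prop where
  mem : μ ∈ O
  nat : ∃ k : ℕ, 0 < k ∧ ∃ u ∈ O, (k : Fin 2 → ℂ) = μ * u
  deep : Deep O z μ 2

theorem five_eq (h : Z5 O z) : (5 : Fin 2 → ℂ) = pz z * (4 + 3 * z + 2 * z ^ 2 + z ^ 3) := by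
  have := h.cyc
  unfold pz
  linear_combination this

theorem five_mem (h : Z5 O z) : (4 + 3 * z + 2 * z ^ 2 + z ^ 3 : Fin 2 → ℂ) ∈ O := by
  have h4 : (4 : Fin 2 → ℂ) ∈ O := ofNat_mem O 4
  have h3 : (3 : Fin 2 → ℂ) ∈ O := ofNat_mem O 3
  have h2 : (2 : Fin 2 → ℂ) ∈ O := ofNat_mem O 2
  exact O.add_mem (O.add_mem (O.add_mem h4 (O.mul_mem h3 h.zmem)) (O.mul_mem h2 (h.pmem 2)))
    (h.pmem 3)

/-- `lev z μ a` divides a positive integer -/
theorem lev_nat (h : Z5 O z) {μ : Fin 2 → ℂ} (hμ : Lvl O z μ) (a : Lb) :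
    ∃ k : ℕ, 0 < k ∧ ∃ u ∈ O, (k : Fin 2 → ℂ) = lev z μ a * u := by
  obtain ⟨k, hk, u, hu, e⟩ := hμ.nat
  have key : ∃ k : ℕ, 0 < k ∧ ∃ u ∈ O, (k : Fin 2 → ℂ) = (pz z * μ) * u := by
    refine ⟨5 * k, by positivity, (4 + 3 * z + 2 * z ^ 2 + z ^ 3) * u,
      O.mul_mem (five_mem h) hu, ?_⟩
    push_cast
    rw [e]
    linear_combination (μ * u) * five_eq h
  cases a with
  | o => exact ⟨k, hk, u, hu, e⟩
  | n i => exact ⟨k, hk, u, hu, e⟩
  | v i j => exact key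
  | b i j => exact key

theorem lev_mul (h : Z5 O z) (μ : Fin 2 → ℂ) (a : Lb) :
    ∃ ν ∈ O, lev z μ a = ν * μ := by
  cases a with
  | o => exact ⟨1, O.one_mem, by simp [lev]⟩
  | n i => exact ⟨1, O.one_mem, by simp [lev]⟩
  | v i j => exact ⟨pz z, h.pz_mem, rfl⟩
  | b i j => exact ⟨pz z, h.pz_mem, rfl⟩

theorem base_pos (h : Z5 O z) (a : Lb) : 0 < (hh (HH z) (base z a) (base z a) 0).re := by
  cases a with
  | o => show 0 < (hh (HH z) e0 e0 0).re; rw [hh_e00]; simp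
  | n i => show 0 < (hh (HH z) (ei i) (ei i) 0).re; rw [hh_ei]; simp
  | v i j => rw [n_v h]; simp
  | b i j =>
    rw [n_b h]
    have hs := sqrt5_bd
    have h3 : ((2 : Fin 2 → ℂ) + (z ^ 2 + z ^ 3)) 0 = 2 + (z 0 ^ 2 + z 0 ^ 3) := rfl
    rw [h3, h.at0', Complex.add_re, Complex.ofReal_re]
    norm_num
    linarith

theorem base_gap (h : Z5 O z) {μ : Fin 2 → ℂ} (hμ : Lvl O z μ) (a : Lb) :
    Gap O 0 (HH z) (lev z μ a) (lev z μ a) (base z a) (base z a)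
      (hh (HH z) (base z a) (base z a) 0).re := by
  obtain ⟨ν, hν, e⟩ := lev_mul h μ a
  have h1 := (hμ.deep a a).mono hν hν (n_at0 h a).1
  rw [← e] at h1
  exact h1

end Crest.Agent.R272.I2_939
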