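import Crest.Agent.R272.In3_68
import Crest.Agent.R272.I2b_939

/-!
helper939, row 272, (I2), part 3: **every class `VV O z μ a` is an `ECls` of 68's datum `mkD`**.
-/

set_option autoImplicit false

open scoped ComplexConjugate Topology

namespace Crest.Agent.R272.I2_939

open Crest.Agent.R272.EBase_641 (V1 W EDat ECls UG Ball act)
open Crest.Agent.R272.Cls_620 Crest.Agent.R272.In_68 Finset Matrix

variable {O : Subring (Fin 2 → ℂ)} {z : Fin 2 → ℂ}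

noncomputable section

/-- the embedding data of `mkD` -/
def ioD (h : Z5r O z) (N : ℕ) (hN3 : 3 ≤ N) (hN : In_68.N0 h ^ 2 ∣ N) {G : Type} [Group G]
    (φ : G →* GU O z) (hφ : ∀ g, (φ g : Mtˣ) ∈ GC O z (N : Fin 2 → ℂ))
    (cocpt : ∃ r : ℝ, r < 1 ∧ ∀ q ∈ Ball 3, ∃ g, ‖act (rho h (φ g)) q‖ ≤ r)
    (proper : ∀ r : ℝ, r < 1 → {g | ∃ q, ‖q‖ ≤ r ∧ ‖act (rho h (φ g)) q‖ ≤ r}.Finite) :
    IoD (mkD h N hN3 hN φ hφ cocpt proper) O (HH z) (N : Fin 2 → ℂ) where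
  io := io h
  add v w := map_add _ _ _
  d := dd z
  d_pos := dd_pos h
  n0 := io_n0 h
  n1 := io_n1 h
  h0 x y c hc := io_h0 h x y c hc
  γ g x := ((φ g : Mtˣ) : Mt) *ᵥ x
  γ_io g x := io_mulVec h (φ g) x
  γ_int g _ hx := mulVec_int (φ g).2.1 hx
  γ_hh g x := (φ g).2.2.2 x x
  γ_cg g _ hx := mulVec_cg (hφ g).2 hx
  N0 := In_68.N0 h
  N0_pos := In_68.N0_pos h
  toL x hx := LO_L0 h _ ((io_mem h).2 hx)
  ofL l hl := by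
    obtain ⟨v, hv, e⟩ := (mem_LO h).1 (L0_LO h l hl)
    exact ⟨v, hv, e.symm⟩

/-- `lev z μ a` divides the level `N` of the group -/
theorem lev_dvd_nat (h : Z5 O z) {μ : Fin 2 → ℂ} {N : ℕ}
    (hNμ : ∃ u ∈ O, (N : Fin 2 → ℂ) = pz z * μ * u) (a : Lb) :
    ∃ u ∈ O, (N : Fin 2 → ℂ) = lev z μ a * u := by
  obtain ⟨u, hu, e⟩ := hNμ
  cases a with
  | o => exact ⟨pz z * u, O.mul_mem h.pz_mem hu, by rw [e]; show _ = μ * _; ring⟩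
  | n i => exact ⟨pz z * u, O.mul_mem h.pz_mem hu, by rw [e]; show _ = μ * _; ring⟩
  | v i j => exact ⟨u, hu, e⟩
  | b i j => exact ⟨u, hu, e⟩

/-- **(I2)**: the class with label `a` -/
def clsV (h : Z5r O z) (N : ℕ) (hN3 : 3 ≤ N) (hN : In_68.N0 h ^ 2 ∣ N) {G : Type} [Group G]
    (φ : G →* GU O z) (hφ : ∀ g, (φ g : Mtˣ) ∈ GC O z (N : Fin 2 → ℂ))
    (cocpt : ∃ r : ℝ, r < 1 ∧ ∀ q ∈ Ball 3, ∃ g, ‖act (rho h (φ g)) q‖ ≤ r)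
    (proper : ∀ r : ℝ, r < 1 → {g | ∃ q, ‖q‖ ≤ r ∧ ‖act (rho h (φ g)) q‖ ≤ r}.Finite)
    {μ : Fin 2 → ℂ} (hμ : Lvl O z μ) (hNμ : ∃ u ∈ O, (N : Fin 2 → ℂ) = pz z * μ * u) (a : Lb) :
    ECls (mkD h N hN3 hN φ hφ cocpt proper) :=
  cls (ioD h N hN3 hN φ hφ cocpt proper) h.ord h.frm (base_pos h.toZ5 a)
    (lev_dvd_nat h.toZ5 hNμ a) (lev_nat h.toZ5 hμ a) (base_gap h.toZ5 hμ a)

theorem clsV_S (h : Z5r O z) (N : ℕ) (hN3 : 3 ≤ N) (hN : In_68.N0 h ^ 2 ∣ N) {G : Type} [Group G]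
    (φ : G →* GU O z) (hφ : ∀ g, (φ g : Mtˣ) ∈ GC O z (N : Fin 2 → ℂ))
    (cocpt : ∃ r : ℝ, r < 1 ∧ ∀ q ∈ Ball 3, ∃ g, ‖act (rho h (φ g)) q‖ ≤ r)
    (proper : ∀ r : ℝ, r < 1 → {g | ∃ q, ‖q‖ ≤ r ∧ ‖act (rho h (φ g)) q‖ ≤ r}.Finite)
    {μ : Fin 2 → ℂ} (hμ : Lvl O z μ) (hNμ : ∃ u ∈ O, (N : Fin 2 → ℂ) = pz z * μ * u) (a : Lb) :
    (clsV h N hN3 hN φ hφ cocpt proper hμ hNμ a).S = io h '' VV O z μ a := rfl

end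

/-- a suitable level `N`, divisible by any given `K`. -/
theorem exists_level (h : Z5r O z) {μ : Fin 2 → ℂ} (hμ : Lvl O z μ) (K : ℕ) (hK : 0 < K) :
    ∃ N : ℕ, 3 ≤ N ∧ In_68.N0 h ^ 2 ∣ N ∧ K ∣ N ∧
      ∃ u ∈ O, (N : Fin 2 → ℂ) = pz z * μ * u := by
  obtain ⟨k, hk, u, hu, e⟩ := hμ.nat
  have h0 := In_68.N0_pos h
  refine ⟨3 * (In_68.N0 h ^ 2 * (K * (5 * k))), ?_, ?_, ?_, ?_⟩
  · have : 1 ≤ In_68.N0 h ^ 2 * (K * (5 * k)) := Nat.succ_le_of_lt (by positivity)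
    omega
  · exact Dvd.intro (3 * (K * (5 * k))) (by ring)
  · exact Dvd.intro (3 * (In_68.N0 h ^ 2 * (5 * k))) (by ring)
  · refine ⟨(3 * (In_68.N0 h ^ 2 * K : ℕ) : ℕ) * ((4 + 3 * z + 2 * z ^ 2 + z ^ 3) * u),
      O.mul_mem (natCast_mem O _) (O.mul_mem (five_mem h.toZ5) hu), ?_⟩
    push_cast
    rw [e]
    linear_combination (3 * (In_68.N0 h : Fin 2 → ℂ) ^ 2 * K * μ * u) * five_eq h.toZ5

end Crest.Agent.R272.I2_939
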