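/-
helper641, row 272, division E, (I4): **AR-OUT**: root functions for all the classes of the
arrangement over `ℤ[ζ₅]`, on one normal finite index subgroup of `GU`.
-/
import Crest.Agent.R272.AROut1_641
import Crest.Agent.R272.I2c_939

set_option autoImplicit false

open scoped ComplexConjugate Topology
open Matrix

namespace Crest.Agent.R272.AROut_641

open Crest.Agent.R272.EBase_641
open Crest.Agent.R272.In_68
open Crest.Agent.R272.Cls_620 (Lb VV)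
open Crest.Agent.R272.Ball7_916 (GCU)

variable {O : Subring (Fin 2 → ℂ)} {z : Fin 2 → ℂ}

instance finite_Lb : Finite Lb := by
  let f : Unit ⊕ Bool ⊕ (Bool × Fin 5) ⊕ (Bool × Fin 5) → Lb := fun x =>
    match x with
    | Sum.inl _ => Lb.o
    | Sum.inr (Sum.inl i) => Lb.n i
    | Sum.inr (Sum.inr (Sum.inl p)) => Lb.v p.1 p.2
    | Sum.inr (Sum.inr (Sum.inr p)) => Lb.b p.1 p.2
  refine Finite.of_surjective f ?_
  intro a
  cases a with
  | o => exact ⟨Sum.inl (), rfl⟩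
  | n i => exact ⟨Sum.inr (Sum.inl i), rfl⟩
  | v i j => exact ⟨Sum.inr (Sum.inr (Sum.inl (i, j))), rfl⟩
  | b i k => exact ⟨Sum.inr (Sum.inr (Sum.inr (i, k))), rfl⟩

/-- the set of complex vectors (ball place) of the class `a` -/
def SV (h : Z5r O z) (μ : Fin 2 → ℂ) (a : Lb) : Set (V1 3) := Prod.fst '' (io h '' VV O z μ a)

/-- **AR-OUT.** -/
theorem arOut_of (hE : EMain) (h : Z5r O z) {μ : Fin 2 → ℂ} (hμ : I2_939.Lvl O z μ) (k : ℕ)
    (hk : 0 < k) (K0 : Subgroup (GU O z)) (hK0 : K0.FiniteIndex) :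
    ∃ K : Subgroup (GU O z), K.Normal ∧ K.FiniteIndex ∧ K ≤ K0 ∧
      K ≤ GCU O z (Cls_620.pz z * μ) ∧
      ∀ a : Lb, Nonempty (Root 3 k ((rho h).comp K.subtype) (SV h μ a)) := by
  obtain ⟨N, hN3, hN, -, hNμ⟩ := I2_939.exists_level h hμ 1 one_pos
  have hNO := natCast_mem h N
  have hN0 := natCast_ne (N := N) (by omega)
  have cocpt : ∃ r : ℝ, r < 1 ∧ ∀ q ∈ Ball 3, ∃ g : GCU O z (N : Fin 2 → ℂ),
      ‖act (rho h ((GCU O z (N : Fin 2 → ℂ)).subtype g)) q‖ ≤ r := by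
    obtain ⟨r, hr, hr'⟩ := Ball7_916.cocpt_hom h hNO hN0
      (GCU O z (N : Fin 2 → ℂ)).subtype (fun g hg => ⟨⟨g, hg⟩, rfl⟩)
    exact ⟨r, hr, fun q hq => hr' q hq⟩
  have proper : ∀ r : ℝ, r < 1 → {g : GCU O z (N : Fin 2 → ℂ) | ∃ q, ‖q‖ ≤ r ∧
      ‖act (rho h ((GCU O z (N : Fin 2 → ℂ)).subtype g)) q‖ ≤ r}.Finite :=
    Prop_392.proper ((rho h).comp (GCU O z (N : Fin 2 → ℂ)).subtype)
      ((sig h).comp (GCU O z (N : Fin 2 → ℂ)).subtype) (L0 h) (L0_disc h) (L0_span h)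
      (fun g v hv => stab' h hN g.1 g.2 v hv)
      (fun g g' h1 h2 => Subtype.ext (faith h h1 h2))
  let φ := (GCU O z (N : Fin 2 → ℂ)).subtype
  have hφ : ∀ g, (φ g : Mtˣ) ∈ GC O z (N : Fin 2 → ℂ) := fun g => g.2
  have : Fintype Lb := Fintype.ofFinite Lb
  obtain ⟨H, hH, hR⟩ := hE (mkD h N hN3 hN φ hφ cocpt proper) Lb inferInstance
    (fun a => I2_939.clsV h N hN3 hN φ hφ cocpt proper hμ hNμ a) k hk
  obtain ⟨K, k1, k2, k3, k4, k5⟩ := roots_normal (rho h) (GCU O z (N : Fin 2 → ℂ))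
    (Ball7_916.GCU_finiteIndex h hNO hN0) (SV h μ) K0 hK0 ⟨H, hH, hR⟩
  refine ⟨K, k1, k2, k3, k4.trans ?_, k5⟩
  intro g hg
  obtain ⟨u, hu, e⟩ := hNμ
  have h1 : (g : Mtˣ) ∈ GC O z (N : Fin 2 → ℂ) := hg
  rw [e] at h1
  exact GC_mono hu h1

end Crest.Agent.R272.AROut_641
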