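/-
helper641, row 272, division E: freeze No 2 (polarised kernel, theta leaf).
-/
import Crest.Agent.R272.EBase_641

set_option autoImplicit false

open scoped ComplexConjugate Topology

namespace Crest.Agent.R272.EBase2_641

open Crest.Agent.R272.EBase_641

noncomputable section

variable {n : ℕ}

/-- `1 - z . conj w` (holomorphic in `z`, antiholomorphic in `w`). -/
def ss (z w : E n) : ℂ := 1 - inner ℂ w z

/-- polarised `R(v;z,w)`. -/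
def Rp (v : V1 n) (z w : E n) : ℂ := lin v z * conj (lin v w) / ss z w

/-- polarised kernel `K(v;z,w)(X, conj Y) = e^{-pi R}(Berg - pi R dlog R dbar log R)`;
`<pi(v)F_z(X), F_w(Y)> = (1/pi) wt Kp`. -/
def Kp (v : V1 n) (z w X Y : E n) : ℂ :=
  Complex.exp (-Real.pi * Rp v z w) *
    (inner ℂ Y X / ss z w + inner ℂ w X * inner ℂ Y z / (ss z w) ^ 2
      - Real.pi * ((inner ℂ v.1 X + lin v z * inner ℂ w X / ss z w)
        * (conj (inner ℂ v.1 Y) + conj (lin v w) * inner ℂ Y z / ss z w) / ss z w))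

/-- THETA LEAF, final form (polarised): every `Theta_phi` is a finite sum of products
`dA(z) conj dB(w)` with `A`, `B` holomorphic on the ball, additively automorphic under a finite
index subgroup. -/
def ETheta2 : Prop :=
  ∀ (D : EDat) (φ : (V1 D.n × W D.m) → ℝ),
    (∃ M : ℕ, 0 < M ∧ ∀ v, φ v ≠ 0 → M • v ∈ D.L) →
    (∃ M : ℕ, 0 < M ∧ ∀ v, ∀ l ∈ D.L, φ (v + M • l) = φ v) →
    ∃ (r : ℕ) (c : Fin r → ℂ) (A B : Fin r → E D.n → ℂ) (H : Subgroup D.G),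
      H.FiniteIndex ∧
      (∀ i, DifferentiableOn ℂ (A i) (Ball D.n)) ∧ (∀ i, DifferentiableOn ℂ (B i) (Ball D.n)) ∧
      (∀ i, ∀ g ∈ H, ∃ a : ℂ, ∀ z ∈ Ball D.n, A i (act (D.ρ g) z) = A i z + a) ∧
      (∀ i, ∀ g ∈ H, ∃ b : ℂ, ∀ z ∈ Ball D.n, B i (act (D.ρ g) z) = B i z + b) ∧
      ∀ z ∈ Ball D.n, ∀ w ∈ Ball D.n, ∀ X Y : E D.n,
        HasSum (fun v : {v : V1 D.n × W D.m // φ v ≠ 0} =>
            ((φ v.1 * wt v.1 : ℝ) : ℂ) * Kp v.1.1 z w X Y)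
          (∑ i, c i * (fderiv ℂ (A i) z X * conj (fderiv ℂ (B i) w Y)))

/-- the diagonal of `Kp` is `Kf`. -/
theorem Kp_self (v : V1 n) {z : E n} (hz : z ∈ Ball n) (X Y : E n) : Kp v z z X Y = Kf v z X Y := by
  have h1 : ‖z‖ < 1 := mem_Ball.1 hz
  have h2 : (0:ℝ) < 1 - ‖z‖ ^ 2 := by nlinarith [norm_nonneg z]
  have hs : ss z z = ((1 - ‖z‖ ^ 2 : ℝ) : ℂ) := by
    rw [ss, inner_self_eq_norm_sq_to_K]; push_cast; simp
  have hR : Rp v z z = ((R v z : ℝ) : ℂ) := by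
    rw [Rp, hs, Complex.mul_conj, Complex.normSq_eq_norm_sq, R]
    push_cast; rfl
  have hq : ((Real.sqrt (1 - ‖z‖ ^ 2) : ℝ) : ℂ) * ((Real.sqrt (1 - ‖z‖ ^ 2) : ℝ) : ℂ)
      = ((1 - ‖z‖ ^ 2 : ℝ) : ℂ) := by
    rw [← Complex.ofReal_mul, Real.mul_self_sqrt h2.le]
  have hq0 : ((Real.sqrt (1 - ‖z‖ ^ 2) : ℝ) : ℂ) ≠ 0 := by
    have : Real.sqrt (1 - ‖z‖ ^ 2) ≠ 0 := (Real.sqrt_pos.2 h2).ne'
    exact_mod_cast this
  have hc0 : ((1 - ‖z‖ ^ 2 : ℝ) : ℂ) ≠ 0 := by exact_mod_cast h2.ne'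
  rw [Kp, Kf, hR, hs]
  have e1 : Complex.exp (-(Real.pi : ℂ) * ((R v z : ℝ) : ℂ)) = (Real.exp (-Real.pi * R v z) : ℂ) := by
    push_cast; rfl
  rw [e1]
  congr 1
  have e2 : conj (inner ℂ z Y) = inner ℂ Y z := inner_conj_symm _ _
  have e3 : (((1 - ‖z‖ ^ 2) ^ 2 : ℝ) : ℂ) = ((1 - ‖z‖ ^ 2 : ℝ) : ℂ) ^ 2 := by push_cast; ring
  have e4 : Af v z X * conj (Af v z Y) =
      (inner ℂ v.1 X + lin v z * inner ℂ z X / ((1 - ‖z‖ ^ 2 : ℝ) : ℂ))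
        * (conj (inner ℂ v.1 Y) + conj (lin v z) * inner ℂ Y z / ((1 - ‖z‖ ^ 2 : ℝ) : ℂ))
        / ((1 - ‖z‖ ^ 2 : ℝ) : ℂ) := by
    rw [Af, Af, map_div₀, Complex.conj_ofReal, map_add, map_div₀, map_mul, Complex.conj_ofReal, e2]
    rw [div_mul_div_comm, hq]
  rw [om, e2, e3, e4]

end

end Crest.Agent.R272.EBase2_641
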