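import Crest.Agent.R272.EBase_641

/-!
Row 272, division E (helper429): polarised kernel, common definitions on top of `EBase_641`.
`sp z w = 1 - ⟪w,z⟫` (holomorphic in `z`, antiholomorphic in `w`), `R2` = polarisation of `R`,
`K2` = polarisation of `Kf`, and the theta leaf `EThetaK` in polarised form.
-/

set_option autoImplicit false

open scoped ComplexConjugate Topology

namespace Crest.Agent.R272.EPol_429

open Crest.Agent.R272.EBase_641

noncomputable section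

variable {n : ℕ}

/-- `1 - ⟪w,z⟫` -/
def sp (z w : E n) : ℂ := 1 - inner ℂ w z

/-- polarisation of `R` -/
def R2 (v : V1 n) (z w : E n) : ℂ := lin v z * conj (lin v w) / sp z w

/-- polarisation of `om` -/
def om2 (z w X Y : E n) : ℂ := inner ℂ Y X / sp z w + inner ℂ w X * inner ℂ Y z / sp z w ^ 2

/-- polarisation of `Kf` -/
def K2 (v : V1 n) (z w X Y : E n) : ℂ :=
  Complex.exp (-(Real.pi : ℂ) * R2 v z w) *
    (om2 z w X Y - Real.pi * ((inner ℂ v.1 X + lin v z * inner ℂ w X / sp z w) *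
      (conj (inner ℂ v.1 Y) + conj (lin v w) * inner ℂ Y z / sp z w) / sp z w))

theorem sp_self (z : E n) : sp z z = ((1 - ‖z‖ ^ 2 : ℝ) : ℂ) := by
  simp only [sp]
  rw [inner_self_eq_norm_sq_to_K]
  push_cast
  simp

theorem R2_self (v : V1 n) (z : E n) : R2 v z z = ((R v z : ℝ) : ℂ) := by
  simp only [R2, R, sp_self, Complex.mul_conj, Complex.normSq_eq_norm_sq]
  push_cast
  ring

theorem om2_self (z X Y : E n) : om2 z z X Y = om z X Y := by
  simp only [om2, om, sp_self, inner_conj_symm]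
  push_cast
  ring

/-- `K2` on the diagonal is `Kf` -/
theorem K2_self (v : V1 n) {z : E n} (hz : z ∈ Ball n) (X Y : E n) : K2 v z z X Y = Kf v z X Y := by
  have h1 : ‖z‖ < 1 := mem_Ball.1 hz
  have h2 : 0 < 1 - ‖z‖ ^ 2 := by nlinarith [norm_nonneg z]
  have h3 : (((Real.sqrt (1 - ‖z‖ ^ 2)) : ℝ) : ℂ) * (((Real.sqrt (1 - ‖z‖ ^ 2)) : ℝ) : ℂ) =
      ((1 - ‖z‖ ^ 2 : ℝ) : ℂ) := by
    rw [← Complex.ofReal_mul, Real.mul_self_sqrt h2.le]
  have e1 : (inner ℂ v.1 X + lin v z * inner ℂ z X / sp z z) *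
      (conj (inner ℂ v.1 Y) + conj (lin v z) * inner ℂ Y z / sp z z) / sp z z =
      Af v z X * conj (Af v z Y) := by
    simp only [Af, map_div₀, map_add, map_mul, Complex.conj_ofReal, inner_conj_symm, sp_self]
    rw [div_mul_div_comm, h3]
  have e2 : Complex.exp (-(Real.pi : ℂ) * R2 v z z) = ((Real.exp (-Real.pi * R v z) : ℝ) : ℂ) := by
    rw [R2_self]
    push_cast
    rfl
  rw [K2, Kf, e1, e2, om2_self]

/-- **polarised theta leaf** -/
def EThetaK : Prop :=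
  ∀ (D : EDat) (φ : (V1 D.n × W D.m) → ℝ),
    (∃ M : ℕ, 0 < M ∧ ∀ v, φ v ≠ 0 → M • v ∈ D.L) →
    (∃ M : ℕ, 0 < M ∧ ∀ v, ∀ l ∈ D.L, φ (v + M • l) = φ v) →
    ∃ (r : ℕ) (c : Fin r → ℂ) (A B : Fin r → E D.n → ℂ) (H : Subgroup D.G),
      H.FiniteIndex ∧
      (∀ i, DifferentiableOn ℂ (A i) (Ball D.n)) ∧ (∀ i, DifferentiableOn ℂ (B i) (Ball D.n)) ∧
      (∀ i, ∀ g ∈ H, ∃ a : ℂ, ∀ z ∈ Ball D.n, A i (act (D.ρ g) z) = A i z + a) ∧
      (∀ i, ∀ g ∈ H, ∃ b : ℂ, ∀ z ∈ Ball D.n, B i (act (D.ρ g) z) = B i z + b) ∧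
      ∀ z ∈ Ball D.n, ∀ w ∈ Ball D.n, ∀ X Y : E D.n,
        HasSum (fun v : {v : V1 D.n × W D.m // φ v ≠ 0} =>
          ((φ v.1 * wt v.1 : ℝ) : ℂ) * K2 v.1.1 z w X Y)
          (∑ i, c i * (fderiv ℂ (A i) z X * conj (fderiv ℂ (B i) w Y)))

/-- the polarised theta leaf contains the one of `EBase_641` -/
theorem eTheta_of (h : EThetaK) : ETheta := by
  intro D φ h1 h2
  obtain ⟨r, c, A, B, H, hH, hA, hB, hAg, hBg, hs⟩ := h D φ h1 h2
  refine ⟨r, c, A, B, H, hH, hA, hB, hAg, hBg, fun z hz X Y => ?_⟩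
  have := hs z hz z hz X Y
  refine this.congr_fun ?_ |> fun h => h
  intro v
  rw [K2_self v.1.1 hz]

end

end Crest.Agent.R272.EPol_429
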