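/-
helper295, row 272, division E, leaf T4: interface T2 + T3 ==> T4 (theta assembly).
-/
import Crest.Agent.R272.EBase2_641
import Crest.Agent.R272.EPolDefs_429

set_option autoImplicit false

open scoped ComplexConjugate Topology

namespace Crest.Agent.R272.ETh4Defs_295

open Crest.Agent.R272.EBase_641 Crest.Agent.R272.EBase2_641

noncomputable section

/-- the action of a group element of `EDat` on vectors. -/
def gact (D : EDat) (g : D.G) (v : V1 D.n × W D.m) : V1 D.n × W D.m :=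
  ((D.ρ g).1 v.1, D.σ g v.2)

/-- The input of T4 (to be delivered by T2 + T3 for every `D`): sign function, primitives `A a` of
the theta forms, rank one identity, invariance under a finite index subgroup. -/
structure TIn (D : EDat) where
  ε : V1 D.n × W D.m → ℂ
  ε_sq : ∀ l ∈ D.L, ε l * ε l = 1
  ε_add : ∀ l ∈ D.L, ∀ l' ∈ D.L,
    ε (l + l') = ε l * ε l' * Complex.exp (Real.pi * Complex.I * (ee l l' : ℝ))
  A : V1 D.n × W D.m → E D.n → ℂ
  A_hol : ∀ a, DifferentiableOn ℂ (A a) (Ball D.n)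
  κ : ℂ
  κ_ne : κ ≠ 0
  rank : ∀ a b : V1 D.n × W D.m, ∀ z ∈ Ball D.n, ∀ w ∈ Ball D.n, ∀ X Y : E D.n,
    HasSum (fun l : D.L => ε (l : V1 D.n × W D.m) *
        Complex.exp (Real.pi * Complex.I * (ee (l : V1 D.n × W D.m) (a + b) : ℝ)) *
        ((wt ((l : V1 D.n × W D.m) + a - b) : ℝ) * Kp ((l : V1 D.n × W D.m) + a - b).1 z w X Y))
      (κ * Complex.exp (Real.pi * Complex.I * (ee b a : ℝ)) *
        (fderiv ℂ (A a) z X * conj (fderiv ℂ (A b) w Y)))
  H0 : Subgroup D.G
  H0_fin : H0.FiniteIndex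
  A_act : ∀ g ∈ H0, ∀ a, ∃ c : ℂ, ∀ z ∈ Ball D.n, A (gact D g a) (act (D.ρ g) z) = A a z + c

end

end Crest.Agent.R272.ETh4Defs_295
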