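import Crest.Agent.R272.EChi9_307
import Crest.Agent.R272.ETh4Defs_295

/-!
# Row 272, division E, T3: the result

`T3`: a finite index subgroup on which `t` and `A` transform without character.
-/

set_option autoImplicit false

noncomputable section

open Complex
open scoped ComplexConjugate

namespace Crest.Agent.R272.EChi10_307

open Crest.Agent.R272.EBase_641 Crest.Agent.R272.EBase2_641 Crest.Agent.R272.EThDefs_445
  Crest.Agent.R272.EChi3_307 Crest.Agent.R272.EChi5_307 Crest.Agent.R272.EChi6_307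
  Crest.Agent.R272.EChi7_307 Crest.Agent.R272.EChi8_307 Crest.Agent.R272.EChi9_307

section sub

theorem eps_cong {n m : ℕ} {L : AddSubgroup (V1 n × W m)} (T : TData L)
    (int : ∀ v ∈ L, ∀ w ∈ L, ∃ k : ℤ, ee v w = k) (v : V1 n × W m) (hv : v ∈ L)
    (w : V1 n × W m) (hw : w ∈ L) : T.ε (v + (4:ℤ) • w) = T.ε v := by
  have h1 : (4:ℤ) • w = (2:ℤ) • w + (2:ℤ) • w := by module
  have h2 : (2:ℤ) • w ∈ L := L.zsmul_mem hw 2
  rw [h1, T.ε_add v hv _ (L.add_mem h2 h2), T.ε_add _ h2 _ h2, ee_self, ph_zero, eps_sq T _ h2,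
    ee_add_right]
  obtain ⟨k, hk⟩ := int v hv _ h2
  rw [hk, ← two_mul, ph_two_int]
  ring

variable (D : EDat) (T : TData D.L)

theorem exists_T3 : ∃ H : Subgroup D.G, H.FiniteIndex ∧ ∀ g ∈ H,
    ∃ hg : hom D g ∈ Sg T, χ T ⟨hom D g, hg⟩ = 1 := by
  classical
  obtain ⟨H, hH, h⟩ := exists_cong D
  have hmem : ∀ g ∈ H, hom D g ∈ Sg T := by
    intro g hg
    refine ⟨fun v => gA_hom_mem D g v, fun v hv => ?_⟩
    obtain ⟨w, hw, h1⟩ := (h g hg).1 v hv
    rw [h1, eps_cong T D.int v hv w hw]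
  let toS : H →* Sg T :=
    { toFun := fun g => ⟨hom D g.1, hmem g.1 g.2⟩
      map_one' := Subtype.ext (map_one (hom D))
      map_mul' := fun a b => Subtype.ext (map_mul (hom D) a.1 b.1) }
  have h8 : ∀ g : H, χ T (toS g) ^ 8 = 1 := fun g =>
    χ_eight T (toS g) D.disc D.span D.int D.dual (det_hom D g.1) (h g.1 g.2).2
  let f : H →* rootsOfUnity 8 ℂ :=
    { toFun := fun g => rootsOfUnity.mkOfPowEq (χ T (toS g)) (h8 g)
      map_one' := by
        ext
        rw [rootsOfUnity.coe_mkOfPowEq, map_one, χ_one]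
        rfl
      map_mul' := fun a b => by
        ext
        rw [rootsOfUnity.coe_mkOfPowEq, map_mul, χ_mul]
        simp }
  have hfin : f.ker.FiniteIndex := inferInstance
  refine ⟨f.ker.map H.subtype, ?_, ?_⟩
  · constructor
    rw [Subgroup.index_map_subtype]
    exact mul_ne_zero hfin.index_ne_zero hH.index_ne_zero
  · intro g hg
    obtain ⟨x, hx, rfl⟩ := Subgroup.mem_map.1 hg
    refine ⟨hmem x.1 x.2, ?_⟩
    have h1 : f x = 1 := MonoidHom.mem_ker.1 hx
    have h2 : ((f x : ℂˣ) : ℂ) = χ T (toS x) := rootsOfUnity.coe_mkOfPowEq _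
    rw [h1] at h2
    exact h2.symm

end sub

section deriv

variable {n m : ℕ}

theorem hasFDerivAt_lin (v : V1 n) (z : E n) : HasFDerivAt (lin v) (innerSL ℂ v.1) z := by
  have h : lin v = fun z => (innerSL ℂ v.1) z - conj v.2 := by
    funext z; simp [lin]
  rw [h]
  exact (innerSL ℂ v.1).hasFDerivAt.sub_const _

theorem hasFDerivAt_ss (z w : E n) : HasFDerivAt (fun z => ss z w) (-innerSL ℂ w) z := by
  have h : (fun z => ss z w) = fun z => 1 - (innerSL ℂ w) z := by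
    funext z; simp [ss]
  rw [h]
  exact (innerSL ℂ w).hasFDerivAt.const_sub _

theorem differentiableAt_apply (g : UG n) (z : E n) :
    DifferentiableAt ℂ (fun z : E n => g.1 ((z, 1) : V1 n)) z := by
  let g' : V1 n →L[ℂ] V1 n := LinearMap.toContinuousLinearMap (g.1 : V1 n →ₗ[ℂ] V1 n)
  have h : (fun z : E n => g.1 ((z, 1) : V1 n)) = fun z => g' (z, 1) := rfl
  rw [h]
  exact g'.differentiableAt.comp z (differentiableAt_id.prodMk (differentiableAt_const _))

theorem differentiableAt_jj (g : UG n) (z : E n) : DifferentiableAt ℂ (jj g) z :=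
  (differentiableAt_apply g z).snd

theorem differentiableAt_act (g : UG n) {z : E n} (hz : z ∈ Ball n) :
    DifferentiableAt ℂ (act g) z :=
  ((differentiableAt_jj g z).inv (jj_ne_zero g hz)).smul (differentiableAt_apply g z).fst

/-- the function whose derivative enters `psiF` -/
def fq (v : V1 n) (w z : E n) : ℂ := lin v z / ss z w

theorem hasFDerivAt_fq (v : V1 n) {z w : E n} (hz : z ∈ Ball n) (hw : w ∈ Ball n) :
    HasFDerivAt (fq v w) ((ss z w)⁻¹ • (innerSL ℂ v.1 + (lin v z / ss z w) • innerSL ℂ w)) z := by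
  have hs := ss_ne hz hw
  have h1 := (hasFDerivAt_lin v z).mul ((hasDerivAt_inv hs).comp_hasFDerivAt z (hasFDerivAt_ss z w))
  have h2 : fq v w = fun z => lin v z * (ss z w)⁻¹ := by
    funext z; rw [fq, div_eq_mul_inv]
  rw [h2]
  refine h1.congr_fderiv ?_
  ext X
  simp
  field_simp
  ring

theorem psiF_eq (v : V1 n × W m) {z w : E n} (hz : z ∈ Ball n) (hw : w ∈ Ball n) (X : E n) :
    psiF v z w X = ss z w * fderiv ℂ (fq v.1 w) z X * EThDefs_445.psi v z w := by
  have hs := ss_ne hz hw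
  rw [(hasFDerivAt_fq v.1 hz hw).fderiv]
  unfold psiF
  simp only [_root_.smul_apply, _root_.add_apply, innerSL_apply_apply,
    smul_eq_mul]
  field_simp

theorem fq_act (g : UG n) (v : V1 n) {z w : E n} (hz : z ∈ Ball n) (hw : w ∈ Ball n) :
    fq (g.1 v) (act g w) (act g z) = conj (jj g w) * fq v w z := by
  have hjz := jj_ne_zero g hz
  have hjw : conj (jj g w) ≠ 0 := by
    rw [Ne, map_eq_zero]
    exact jj_ne_zero g hw
  have hs := ss_ne (act_mem g hz) (act_mem g hw)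
  unfold fq
  rw [lin_act _ _ hz, ss_act g hz hw]
  field_simp

theorem isOpen_Ball : IsOpen (Ball n) := Metric.isOpen_ball

theorem fderiv_fq_act (g : UG n) (v : V1 n) {z w : E n} (hz : z ∈ Ball n) (hw : w ∈ Ball n) (X : E n) :
    fderiv ℂ (fq (g.1 v) (act g w)) (act g z) (fderiv ℂ (act g) z X) =
      conj (jj g w) * fderiv ℂ (fq v w) z X := by
  have h1 : HasFDerivAt (fun z => fq (g.1 v) (act g w) (act g z))
      ((fderiv ℂ (fq (g.1 v) (act g w)) (act g z)).comp (fderiv ℂ (act g) z)) z :=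
    (hasFDerivAt_fq (g.1 v) (act_mem g hz) (act_mem g hw)).differentiableAt.hasFDerivAt.comp z
      (differentiableAt_act g hz).hasFDerivAt
  have h2 : HasFDerivAt (fun z => conj (jj g w) * fq v w z) (conj (jj g w) • fderiv ℂ (fq v w) z) z :=
    (hasFDerivAt_fq v hz hw).differentiableAt.hasFDerivAt.const_mul _
  have h3 : (fun z => fq (g.1 v) (act g w) (act g z)) =ᶠ[nhds z] fun z => conj (jj g w) * fq v w z := by
    filter_upwards [isOpen_Ball.mem_nhds hz] with z' hz'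
    exact fq_act g v hz' hw
  have h4 := h1.unique (h2.congr_of_eventuallyEq h3)
  have h5 := congrArg (fun l : E n →L[ℂ] ℂ => l X) h4
  exact h5

theorem psiF_gA (g : GG n m) (v : V1 n × W m) {z w : E n} (hz : z ∈ Ball n) (hw : w ∈ Ball n) (X : E n) :
    psiF (gA g v) (act g.1 z) (act g.1 w) (fderiv ℂ (act g.1) z X) =
      conj (jj g.1 w) * psiF v z w X := by
  rw [psiF_eq _ (act_mem g.1 hz) (act_mem g.1 hw), psiF_eq _ hz hw, psi_gA g v hz hw, ss_act g.1 hz hw]
  have h1 : (gA g v).1 = g.1.1 v.1 := rfl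
  rw [h1, fderiv_fq_act g.1 v.1 hz hw]
  ring

variable {L : AddSubgroup (V1 n × W m)} (T : TData L)

theorem dA_law (g : Sg T) (a : V1 n × W m) {z : E n} (hz : z ∈ Ball n) (X : E n) :
    fderiv ℂ (T.A (gA g.1 a)) (act g.1.1 z) (fderiv ℂ (act g.1.1) z X) * conj (χ T g) =
      fderiv ℂ (T.A a) z X := by
  obtain ⟨b, hb⟩ := T.t_ne
  have h1 := T.Fv (gA g.1 a) (gA g.1 b) _ (act_mem g.1.1 hz) _ (act_mem g.1.1 zero_mem_Ball)
    (fderiv ℂ (act g.1.1) z X)
  have h2 := (T.Fv a b z hz 0 zero_mem_Ball X).mul_left (conj (jj g.1.1 0))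
  rw [← (eL T g).hasSum_iff] at h1
  have h3 : (fun l : L => T.ε l * ph (ee (l : V1 n × W m) (gA g.1 a + gA g.1 b)) *
      psiF ((l : V1 n × W m) + gA g.1 a - gA g.1 b) (act g.1.1 z) (act g.1.1 0)
        (fderiv ℂ (act g.1.1) z X)) ∘ (eL T g) =
      fun l : L => conj (jj g.1.1 0) *
        (T.ε l * ph (ee (l : V1 n × W m) (a + b)) * psiF ((l : V1 n × W m) + a - b) z 0 X) := by
    funext l
    have e1 : ((eL T g l : L) : V1 n × W m) = gA g.1 l.1 := rfl
    simp only [Function.comp_apply, e1]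
    rw [← map_add, ← map_add, ← map_sub, ee_gA, psiF_gA _ _ hz zero_mem_Ball, g.2.2 _ l.2]
    ring
  rw [h3] at h1
  have h4 := h1.unique h2
  rw [ee_gA, law_χ T g b 0 zero_mem_Ball, map_mul, map_mul] at h4
  have h5 := ph_ne (ee b a)
  have h6 : conj (jj g.1.1 (0 : E n)) ≠ 0 := by
    rw [Ne, map_eq_zero]
    exact jj_ne_zero g.1.1 zero_mem_Ball
  have h7 : conj (T.t b 0) ≠ 0 := by rwa [Ne, map_eq_zero]
  apply mul_left_cancel₀ h5
  apply mul_left_cancel₀ h6
  apply mul_left_cancel₀ h7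
  linear_combination h4

theorem A_law (g : Sg T) (hχ : χ T g = 1) (a : V1 n × W m) :
    ∃ c : ℂ, ∀ z ∈ Ball n, T.A (gA g.1 a) (act g.1.1 z) = T.A a z + c := by
  have hd : ∀ z ∈ Ball n, HasFDerivAt (fun z => T.A (gA g.1 a) (act g.1.1 z) - T.A a z)
      (0 : E n →L[ℂ] ℂ) z := by
    intro z hz
    have h1 : HasFDerivAt (fun z => T.A (gA g.1 a) (act g.1.1 z))
        ((fderiv ℂ (T.A (gA g.1 a)) (act g.1.1 z)).comp (fderiv ℂ (act g.1.1) z)) z :=
      (((T.A_hol (gA g.1 a)).differentiableAt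
        (isOpen_Ball.mem_nhds (act_mem g.1.1 hz))).hasFDerivAt).comp z
        (differentiableAt_act g.1.1 hz).hasFDerivAt
    have h2 : HasFDerivAt (T.A a) (fderiv ℂ (T.A a) z) z :=
      ((T.A_hol a).differentiableAt (isOpen_Ball.mem_nhds hz)).hasFDerivAt
    refine (h1.sub h2).congr_fderiv ?_
    ext X
    have h3 := dA_law T g a hz X
    rw [hχ, map_one, mul_one] at h3
    exact sub_eq_zero.2 h3
  refine ⟨T.A (gA g.1 a) (act g.1.1 0) - T.A a 0, fun z hz => ?_⟩
  have hconv : Convex ℝ (Ball n) := convex_ball 0 1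
  have h5 : T.A (gA g.1 a) (act g.1.1 z) - T.A a z = T.A (gA g.1 a) (act g.1.1 0) - T.A a 0 :=
    isOpen_Ball.is_const_of_fderiv_eq_zero (𝕜 := ℂ)
      (f := fun z : E n => T.A (gA g.1 a) (act g.1.1 z) - T.A a z) hconv.isPreconnected
      (fun y hy => (hd y hy).differentiableAt.differentiableWithinAt)
      (fun y hy => (hd y hy).fderiv) hz zero_mem_Ball
  linear_combination h5

end deriv

/-- the input of T4 (helper295) from `TData`. -/
def mkTIn (D : EDat) (T : TData D.L) : Crest.Agent.R272.ETh4Defs_295.TIn D where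
  ε := T.ε
  ε_sq := fun l hl => eps_sq T l hl
  ε_add := T.ε_add
  A := T.A
  A_hol := T.A_hol
  κ := Real.pi
  κ_ne := by exact_mod_cast Real.pi_ne_zero
  rank := by
    intro a b z hz w hw X Y
    have h := (T.FF a b z hz w hw X Y).mul_left (Real.pi : ℂ)
    have hp : (Real.pi : ℂ) ≠ 0 := by exact_mod_cast Real.pi_ne_zero
    have h9 : ∀ l : D.L, T.ε (l : V1 D.n × W D.m) *
        Complex.exp (Real.pi * Complex.I * (ee (l : V1 D.n × W D.m) (a + b) : ℝ)) *
        ((wt ((l : V1 D.n × W D.m) + a - b) : ℝ) * Kp ((l : V1 D.n × W D.m) + a - b).1 z w X Y) =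
        Real.pi * (T.ε l * ph (ee (l : V1 D.n × W D.m) (a + b)) *
          psiFF ((l : V1 D.n × W D.m) + a - b) z w X Y) := by
      intro l
      unfold psiFF ph
      field_simp
    have h10 : Real.pi * Complex.exp (Real.pi * Complex.I * (ee b a : ℝ)) *
        (fderiv ℂ (T.A a) z X * conj (fderiv ℂ (T.A b) w Y)) =
        Real.pi * (ph (ee b a) * (fderiv ℂ (T.A a) z X * conj (fderiv ℂ (T.A b) w Y))) := by
      unfold ph
      ring
    rw [h10]
    simp_rw [h9]
    exact h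
  H0 := (exists_T3 D T).choose
  H0_fin := (exists_T3 D T).choose_spec.1
  A_act := by
    intro g hg a
    obtain ⟨h1, h2⟩ := (exists_T3 D T).choose_spec.2 g hg
    exact A_law T ⟨hom D g, h1⟩ h2 a

/-- **T3**: output of E-CHI. -/
theorem T3 (D : EDat) (T : TData D.L) : ∃ H : Subgroup D.G, H.FiniteIndex ∧
    (∀ g ∈ H, ∀ v ∈ D.L, T.ε ((D.ρ g).1 v.1, D.σ g v.2) = T.ε v) ∧
    (∀ g ∈ H, ∀ a, ∀ z ∈ Ball D.n,
      T.t ((D.ρ g).1 a.1, D.σ g a.2) (act (D.ρ g) z) = jj (D.ρ g) z * T.t a z) ∧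
    ∀ g ∈ H, ∀ a, ∃ c : ℂ, ∀ z ∈ Ball D.n,
      T.A ((D.ρ g).1 a.1, D.σ g a.2) (act (D.ρ g) z) = T.A a z + c := by
  obtain ⟨H, hH, h⟩ := exists_T3 D T
  refine ⟨H, hH, fun g hg v hv => ?_, fun g hg a z hz => ?_, fun g hg a => ?_⟩
  · obtain ⟨h1, h2⟩ := h g hg
    exact h1.2 v hv
  · obtain ⟨h1, h2⟩ := h g hg
    have h3 := law_χ T ⟨hom D g, h1⟩ a z hz
    rw [h2, one_mul] at h3
    exact h3
  · obtain ⟨h1, h2⟩ := h g hg
    exact A_law T ⟨hom D g, h1⟩ h2 a

end Crest.Agent.R272.EChi10_307
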