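import Mathlib

/-!
Row 272 (S0414, S0415), division E (helper368).
Gaussian sums over (cosets of) discrete subgroups of finite dimensional real normed spaces.
-/

set_option autoImplicit false

open Filter Topology

namespace Crest.Agent.R272.Lat_368

/-- `(1+t)^m e^{-c t^2}` is bounded. -/
theorem pow_mul_exp_le {c : ℝ} (hc : 0 < c) (m : ℕ) {t : ℝ} (ht : 0 ≤ t) :
    (1 + t) ^ m * Real.exp (-(c * t ^ 2)) ≤ m.factorial * Real.exp (1 + 1 / (4 * c)) := by
  have h1 : (1 + t) ^ m ≤ m.factorial * Real.exp (1 + t) := by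
    have := Real.pow_div_factorial_le_exp (1 + t) (by linarith) m
    rw [div_le_iff₀ (by positivity)] at this
    linarith
  have h2 : Real.exp (1 + t) * Real.exp (-(c * t ^ 2)) ≤ Real.exp (1 + 1 / (4 * c)) := by
    rw [← Real.exp_add]
    refine Real.exp_le_exp.2 ?_
    have h3 : t - c * t ^ 2 ≤ 1 / (4 * c) := by
      rw [le_div_iff₀ (by positivity)]
      nlinarith [sq_nonneg (2 * c * t - 1)]
    linarith
  calc (1 + t) ^ m * Real.exp (-(c * t ^ 2)) ≤
      (m.factorial * Real.exp (1 + t)) * Real.exp (-(c * t ^ 2)) :=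
        mul_le_mul_of_nonneg_right h1 (Real.exp_pos _).le
    _ = m.factorial * (Real.exp (1 + t) * Real.exp (-(c * t ^ 2))) := by ring
    _ ≤ _ := mul_le_mul_of_nonneg_left h2 (by positivity)

section submodule

variable {W : Type*} [NormedAddCommGroup W] [NormedSpace ℝ W] [FiniteDimensional ℝ W]
  (L : Submodule ℤ W) [DiscreteTopology L]

theorem summable_inv {k : ℕ} (hk : Module.finrank ℤ L < k) (x : W) :
    Summable fun l : L => ((1 + ‖x + l‖) ^ k)⁻¹ := by
  have h := ZLattice.summable_norm_sub_inv_pow L k hk (-x)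
  refine Summable.of_norm_bounded_eventually h ?_
  have hfin : Set.Finite {l : L | x + (l : W) = 0} := by
    refine Set.Subsingleton.finite ?_
    intro a ha b hb
    have ha' : x + (a : W) = 0 := ha
    have hb' : x + (b : W) = 0 := hb
    exact Subtype.ext (add_left_cancel (ha'.trans hb'.symm))
  refine hfin.subset ?_
  intro l hl
  by_contra hne
  refine hl ?_
  have hne' : x + (l : W) ≠ 0 := hne
  have hpos : 0 < ‖x + (l : W)‖ := norm_pos_iff.2 hne'
  have h1 : ‖(l : W) - -x‖ = ‖x + (l : W)‖ := by rw [sub_neg_eq_add, add_comm]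
  show ‖((1 + ‖x + (l : W)‖) ^ k)⁻¹‖ ≤ ‖(l : W) - -x‖⁻¹ ^ k
  rw [h1, Real.norm_of_nonneg (by positivity), inv_pow]
  exact inv_anti₀ (by positivity) (pow_le_pow_left₀ hpos.le (by linarith) k)

/-- Gaussian sums over cosets of discrete subgroups converge. -/
theorem summable_gauss {c : ℝ} (hc : 0 < c) (N : ℕ) (x : W) :
    Summable fun l : L => (1 + ‖x + l‖) ^ N * Real.exp (-(c * ‖x + l‖ ^ 2)) := by
  set k := Module.finrank ℤ L + 1 with hk
  have h := (summable_inv L (k := k) (by omega) x).mul_left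
    (((N + k).factorial : ℝ) * Real.exp (1 + 1 / (4 * c)))
  refine Summable.of_nonneg_of_le (fun l => by positivity) (fun l => ?_) h
  have hp : 0 < (1 + ‖x + (l : W)‖) ^ k := by positivity
  rw [← div_eq_mul_inv, le_div_iff₀ hp]
  calc (1 + ‖x + (l : W)‖) ^ N * Real.exp (-(c * ‖x + (l : W)‖ ^ 2)) * (1 + ‖x + (l : W)‖) ^ k
      = (1 + ‖x + (l : W)‖) ^ (N + k) * Real.exp (-(c * ‖x + (l : W)‖ ^ 2)) := by
        rw [pow_add]; ring
    _ ≤ _ := pow_mul_exp_le hc _ (norm_nonneg _)

/-- polynomial count of the points of a coset in balls. -/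
theorem exists_count (x : W) : ∃ (C : ℝ) (k : ℕ), 0 < C ∧ ∀ T : ℝ, 0 ≤ T → ∀ s : Finset L,
    (∀ l ∈ s, ‖x + (l : W)‖ ≤ T) → (s.card : ℝ) ≤ C * (1 + T) ^ k := by
  set k := Module.finrank ℤ L + 1 with hk
  have h := summable_inv L (k := k) (by omega) x
  refine ⟨∑' l : L, ((1 + ‖x + (l : W)‖) ^ k)⁻¹ + 1, k, ?_, fun T hT s hs => ?_⟩
  · have : 0 ≤ ∑' l : L, ((1 + ‖x + (l : W)‖) ^ k)⁻¹ := tsum_nonneg fun _ => by positivity
    linarith
  · have h1 : ∑ l ∈ s, ((1 + ‖x + (l : W)‖) ^ k)⁻¹ ≤ ∑' l : L, ((1 + ‖x + (l : W)‖) ^ k)⁻¹ :=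
      h.sum_le_tsum s (fun _ _ => by positivity)
    have h2 : (s.card : ℝ) * ((1 + T) ^ k)⁻¹ ≤ ∑ l ∈ s, ((1 + ‖x + (l : W)‖) ^ k)⁻¹ := by
      rw [← nsmul_eq_mul]
      refine Finset.card_nsmul_le_sum _ _ _ fun l hl => ?_
      exact inv_anti₀ (by positivity)
        (pow_le_pow_left₀ (by positivity) (by linarith [hs l hl]) k)
    have hp : (0 : ℝ) < (1 + T) ^ k := by positivity
    rw [← div_eq_mul_inv, div_le_iff₀ hp] at h2
    calc (s.card : ℝ) ≤ (∑ l ∈ s, ((1 + ‖x + (l : W)‖) ^ k)⁻¹) * (1 + T) ^ k := h2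
      _ ≤ _ := mul_le_mul_of_nonneg_right (by linarith) hp.le

end submodule

section finiteness

variable {W : Type*} [NormedAddCommGroup W]

/-- a subgroup with finitely many points in the unit ball is discrete. -/
theorem discrete_of_finite (L : Submodule ℤ W) (h : {x : W | x ∈ L ∧ ‖x‖ ≤ 1}.Finite) :
    DiscreteTopology L := by
  refine discreteTopology_of_isOpen_singleton_zero ?_
  have hfin : {x : L | ‖(x : W)‖ ≤ 1}.Finite := by
    refine Set.Finite.of_finite_image (f := fun x : L => (x : W)) (h.subset ?_)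
      Subtype.val_injective.injOn
    rintro _ ⟨x, hx, rfl⟩
    exact ⟨x.2, hx⟩
  have h1 : IsOpen ({x : L | ‖(x : W)‖ < 1} \ ({x : L | ‖(x : W)‖ ≤ 1} \ {0})) := by
    refine IsOpen.sdiff ?_ ?_
    · exact isOpen_lt (continuous_norm.comp continuous_subtype_val) continuous_const
    · exact (hfin.subset Set.sdiff_subset).isClosed
  convert h1 using 1
  ext x
  simp only [Set.mem_singleton_iff, Set.mem_sdiff, Set.mem_ofPred_eq, not_and, not_not]
  constructor
  · rintro rfl
    refine ⟨by simp, fun _ => rfl⟩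
  · rintro ⟨h2, h3⟩
    exact h3 h2.le

variable [NormedSpace ℝ W] [FiniteDimensional ℝ W]

/-- the version for additive subgroups with the finiteness hypothesis `{x ∈ A : ‖x‖ ≤ 1}` finite,
and for families with values in a coset. -/
theorem summable_gauss_of_finite (A : AddSubgroup W) (h : {x : W | x ∈ A ∧ ‖x‖ ≤ 1}.Finite)
    {c : ℝ} (hc : 0 < c) (N : ℕ) (x : W) {ι : Type*} (v : ι → W) (hv : Function.Injective v)
    (hvA : ∀ i, v i - x ∈ A) :
    Summable fun i => (1 + ‖v i‖) ^ N * Real.exp (-(c * ‖v i‖ ^ 2)) := by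
  set L : Submodule ℤ W := AddSubgroup.toIntSubmodule A with hL
  have : DiscreteTopology L := discrete_of_finite L h
  have h1 := summable_gauss L hc N x
  have h2 := h1.comp_injective (i := fun i => (⟨v i - x, hvA i⟩ : L)) (by
    intro i j hij
    have : v i - x = v j - x := congrArg Subtype.val hij
    exact hv (sub_left_injective this))
  refine h2.congr fun i => ?_
  simp only [Function.comp, add_sub_cancel]

theorem exists_count_of_finite (A : AddSubgroup W) (h : {x : W | x ∈ A ∧ ‖x‖ ≤ 1}.Finite)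
    (x : W) : ∃ (C : ℝ) (k : ℕ), 0 < C ∧ ∀ T : ℝ, 0 ≤ T → ∀ s : Finset W,
      (∀ w ∈ s, w - x ∈ A ∧ ‖w‖ ≤ T) → (s.card : ℝ) ≤ C * (1 + T) ^ k := by
  classical
  set L : Submodule ℤ W := AddSubgroup.toIntSubmodule A with hL
  have : DiscreteTopology L := discrete_of_finite L h
  obtain ⟨C, k, hC, hk⟩ := exists_count L x
  refine ⟨C, k, hC, fun T hT s hs => ?_⟩
  have hinj : Set.InjOn (fun w : {w // w ∈ s} => (⟨w.1 - x, (hs w.1 w.2).1⟩ : L)) Set.univ := by
    intro a _ b _ hab
    have : a.1 - x = b.1 - x := congrArg Subtype.val hab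
    exact Subtype.ext (sub_left_injective this)
  have h1 := hk T hT (s.attach.image (fun w : {w // w ∈ s} => (⟨w.1 - x, (hs w.1 w.2).1⟩ : L)))
    (by
      intro l hl
      obtain ⟨w, -, rfl⟩ := Finset.mem_image.1 hl
      simpa using (hs w.1 w.2).2)
  rw [Finset.card_image_of_injOn (hinj.mono (Set.subset_univ _)), Finset.card_attach] at h1
  exact h1

/-- balls contain finitely many points of a coset. -/
theorem finite_coset_ball (A : AddSubgroup W) (h : {x : W | x ∈ A ∧ ‖x‖ ≤ 1}.Finite) (x : W)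
    (T : ℝ) : {w : W | w - x ∈ A ∧ ‖w‖ ≤ T}.Finite := by
  classical
  by_contra hinf
  obtain ⟨C, k, hC, hk⟩ := exists_count_of_finite A h x
  have hT : 0 ≤ T := by
    by_contra hT
    refine hinf ?_
    convert Set.finite_empty (α := W)
    ext w
    simp only [Set.mem_ofPred_eq, Set.mem_empty_iff_false, iff_false, not_and, not_le]
    intro _
    linarith [norm_nonneg w, not_le.1 hT]
  obtain ⟨m, hm⟩ := exists_nat_gt (C * (1 + T) ^ k)
  obtain ⟨s, hs1, hs2⟩ := (Set.not_finite.1 hinf).exists_subset_card_eq m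
  have := hk T hT s (fun w hw => hs1 hw)
  rw [hs2] at this
  linarith

end finiteness

end Crest.Agent.R272.Lat_368
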