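/-
helper295, row 272, division E, leaf T4, part 1: finite Fourier expansion on a self-dual lattice,
summation over cosets, finiteness of `(1/M)L / L`.
-/
import Crest.Agent.R272.Lat_368

set_option autoImplicit false
set_option linter.unusedSectionVars false
set_option linter.unusedVariables false

open scoped ComplexConjugate Topology

namespace Crest.Agent.R272.ETh4Fin_295

noncomputable section

/-- `e(t) = exp(2 pi i t)` -/
def X (t : ℝ) : ℂ := Complex.exp (2 * Real.pi * Complex.I * (t : ℝ))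

theorem X_add (a b : ℝ) : X (a + b) = X a * X b := by
  unfold X
  rw [← Complex.exp_add]
  congr 1
  push_cast
  ring

theorem X_zero : X 0 = 1 := by simp [X]

theorem X_neg (a : ℝ) : X (-a) * X a = 1 := by
  rw [← X_add]; simp [X_zero]

theorem X_int (k : ℤ) : X k = 1 := by
  unfold X
  rw [Complex.exp_eq_one_iff]
  exact ⟨k, by push_cast; ring⟩

theorem X_eq_one {t : ℝ} (h : X t = 1) : ∃ k : ℤ, t = k := by
  unfold X at h
  rw [Complex.exp_eq_one_iff] at h
  obtain ⟨k, hk⟩ := h
  refine ⟨k, ?_⟩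
  have h2 : (2 * (Real.pi : ℂ) * Complex.I) ≠ 0 := Complex.two_pi_I_ne_zero
  have h3 : (t : ℂ) = (k : ℂ) := by
    have : (2 * (Real.pi : ℂ) * Complex.I) * (t : ℂ) = (2 * (Real.pi : ℂ) * Complex.I) * (k : ℂ) := by
      rw [hk]; ring
    exact mul_left_cancel₀ h2 this
  exact_mod_cast h3

variable {V : Type*} [AddCommGroup V] [Module ℝ V]

/-- integral self-dual lattice with respect to an alternating form (additive data only) -/
structure Pair (L : AddSubgroup V) (e : V → V → ℝ) : Prop where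
  add_left : ∀ a b c, e (a + b) c = e a c + e b c
  add_right : ∀ a b c, e a (b + c) = e a b + e a c
  int : ∀ v ∈ L, ∀ w ∈ L, ∃ k : ℤ, e v w = k
  dual : ∀ v, (∀ w ∈ L, ∃ k : ℤ, e v w = k) → v ∈ L

variable {L : AddSubgroup V} {e : V → V → ℝ}

namespace Pair

theorem zero_left (P : Pair L e) (c : V) : e 0 c = 0 := by
  have := P.add_left 0 0 c
  rw [add_zero] at this
  linarith

theorem zero_right (P : Pair L e) (c : V) : e c 0 = 0 := by
  have := P.add_right c 0 0
  rw [add_zero] at this
  linarith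

theorem neg_left (P : Pair L e) (a c : V) : e (-a) c = - e a c := by
  have := P.add_left (-a) a c
  rw [neg_add_cancel, P.zero_left] at this
  linarith

theorem neg_right (P : Pair L e) (a c : V) : e a (-c) = - e a c := by
  have := P.add_right a (-c) c
  rw [neg_add_cancel, P.zero_right] at this
  linarith

theorem sub_left (P : Pair L e) (a b c : V) : e (a - b) c = e a c - e b c := by
  rw [sub_eq_add_neg, P.add_left, P.neg_left]; ring

theorem sub_right (P : Pair L e) (a b c : V) : e a (b - c) = e a b - e a c := by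
  rw [sub_eq_add_neg, P.add_right, P.neg_right]; ring

theorem nsmul_left (P : Pair L e) (n : ℕ) (a c : V) : e (n • a) c = n * e a c := by
  induction n with
  | zero => simp [P.zero_left]
  | succ n ih => rw [succ_nsmul, P.add_left, ih]; push_cast; ring

theorem nsmul_right (P : Pair L e) (n : ℕ) (a c : V) : e a (n • c) = n * e a c := by
  induction n with
  | zero => simp [P.zero_right]
  | succ n ih => rw [succ_nsmul, P.add_right, ih]; push_cast; ring

end Pair

/-- `(1/M) L` -/
def Lp (L : AddSubgroup V) (M : ℕ) : AddSubgroup V := L.comap (nsmulAddMonoidHom M)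

theorem mem_Lp {M : ℕ} {v : V} : v ∈ Lp L M ↔ M • v ∈ L := Iff.rfl

theorem L_le_Lp (M : ℕ) : L ≤ Lp L M := fun v hv => mem_Lp.2 (AddSubgroup.nsmul_mem _ hv M)

/-- `(1/M) L / L` -/
abbrev Q (L : AddSubgroup V) (M : ℕ) : Type _ := (Lp L M) ⧸ (L.addSubgroupOf (Lp L M))

/-- representative -/
def rep {M : ℕ} (q : Q L M) : V := (Quotient.out q : Lp L M)

theorem rep_mem {M : ℕ} (q : Q L M) : M • rep q ∈ L := (Quotient.out q : Lp L M).2

/-- class of a vector -/
def cl {M : ℕ} (v : V) (hv : M • v ∈ L) : Q L M := QuotientAddGroup.mk (⟨v, hv⟩ : Lp L M)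

theorem cl_eq_iff {M : ℕ} {v : V} (hv : M • v ∈ L) (q : Q L M) : cl v hv = q ↔ v - rep q ∈ L := by
  have h1 : q = QuotientAddGroup.mk (Quotient.out q : Lp L M) := (QuotientAddGroup.out_eq' q).symm
  constructor
  · intro h
    rw [h1] at h
    have h2 := QuotientAddGroup.eq.1 h
    have h3 : -v + rep q ∈ L := h2
    have h4 := L.neg_mem h3
    have : -(-v + rep q) = v - rep q := by abel
    rwa [this] at h4
  · intro h
    rw [h1]
    refine QuotientAddGroup.eq.2 ?_
    show -v + rep q ∈ L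
    have h4 := L.neg_mem h
    have : -(v - rep q) = -v + rep q := by abel
    rwa [this] at h4

theorem rep_cl {M : ℕ} {v : V} (hv : M • v ∈ L) : v - rep (cl v hv) ∈ L :=
  (cl_eq_iff hv _).1 rfl

theorem rep_inj {M : ℕ} {q q' : Q L M} (h : rep q - rep q' ∈ L) : q = q' := by
  have h1 : cl (rep q) (rep_mem q) = q := (cl_eq_iff _ _).2 (by simp)
  have h2 : cl (rep q) (rep_mem q) = q' := (cl_eq_iff _ _).2 h
  exact h1.symm.trans h2

section fourier

variable {M : ℕ} [Fintype (Q L M)]

theorem Q_card_ne : (Fintype.card (Q L M) : ℂ) ≠ 0 := by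
  have : Nonempty (Q L M) := ⟨0⟩
  exact_mod_cast Fintype.card_ne_zero

open scoped Classical in
/-- orthogonality -/
theorem sum_X (P : Pair L e) (hM : 0 < M) {x : V} (hx : x ∈ L) :
    ∑ q : Q L M, X (e x (rep q)) = if ∃ y ∈ L, x = M • y then (Fintype.card (Q L M) : ℂ) else 0 := by
  split_ifs with h
  · obtain ⟨y, hy, rfl⟩ := h
    have : ∀ q : Q L M, X (e (M • y) (rep q)) = 1 := by
      intro q
      obtain ⟨k, hk⟩ := P.int y hy (M • rep q) (rep_mem q)
      rw [P.nsmul_right] at hk
      rw [P.nsmul_left, hk, X_int]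
    simp [this]
  · -- find a point with a nontrivial value
    have hM' : (M : ℝ) ≠ 0 := by exact_mod_cast hM.ne'
    set x' : V := ((M : ℝ)⁻¹) • x with hx'
    have hMx' : M • x' = x := by
      rw [hx', ← Nat.cast_smul_eq_nsmul ℝ, smul_smul, mul_inv_cancel₀ hM', one_smul]
    have h1 : x' ∉ L := fun h2 => h ⟨x', h2, hMx'.symm⟩
    have h2 : ∃ w ∈ L, ∀ k : ℤ, e x' w ≠ k := by
      by_contra h3
      push Not at h3
      exact h1 (P.dual x' h3)
    obtain ⟨w, hw, hwk⟩ := h2
    set s : V := ((M : ℝ)⁻¹) • w with hs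
    have hMs : M • s = w := by
      rw [hs, ← Nat.cast_smul_eq_nsmul ℝ, smul_smul, mul_inv_cancel₀ hM', one_smul]
    have hsL : M • s ∈ L := by rw [hMs]; exact hw
    have h3 : e x s = e x' w := by
      have a1 : (M : ℝ) * e x s = e x w := by rw [← P.nsmul_right, hMs]
      have a2 : (M : ℝ) * e x' w = e x w := by rw [← P.nsmul_left, hMx']
      exact mul_left_cancel₀ hM' (a1.trans a2.symm)
    have h4 : X (e x s) ≠ 1 := by
      intro h5
      obtain ⟨k, hk⟩ := X_eq_one h5
      exact hwk k (h3 ▸ hk)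
    -- shift
    have h5 : ∀ q : Q L M, X (e x (rep (q + cl s hsL))) = X (e x (rep q)) * X (e x s) := by
      intro q
      have h6 : rep q + s - rep (q + cl s hsL) ∈ L := by
        have hm : M • (rep q + s) ∈ L := by
          rw [smul_add]; exact L.add_mem (rep_mem q) hsL
        refine (cl_eq_iff hm _).1 ?_
        show QuotientAddGroup.mk ((⟨rep q + s, hm⟩ : Lp L M)) = _
        have h7 : q = QuotientAddGroup.mk (Quotient.out q : Lp L M) :=
          (QuotientAddGroup.out_eq' q).symm
        have h8 : (⟨rep q + s, hm⟩ : Lp L M) = (Quotient.out q : Lp L M) + ⟨s, hsL⟩ := rfl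
        rw [h8]
        conv_rhs => rw [h7]
        rfl
      obtain ⟨k, hk⟩ := P.int x hx _ h6
      have h9 : e x (rep q) + e x s = e x (rep (q + cl s hsL)) + k := by
        rw [← hk, P.sub_right, P.add_right]; ring
      rw [← X_add, h9, X_add, X_int, mul_one]
    have h6 : ∑ q : Q L M, X (e x (rep q)) = (∑ q : Q L M, X (e x (rep q))) * X (e x s) := by
      rw [Finset.sum_mul, ← Equiv.sum_comp (Equiv.addRight (cl s hsL)) (fun q => X (e x (rep q)))]
      refine Finset.sum_congr rfl fun q _ => ?_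
      exact h5 q
    have h7 : (∑ q : Q L M, X (e x (rep q))) * (X (e x s) - 1) = 0 := by
      rw [mul_sub, mul_one, ← h6, sub_self]
    exact (mul_eq_zero.1 h7).resolve_right (sub_ne_zero.2 h4)

/-- Fourier coefficients -/
def fc (F : V → ℂ) (e : V → V → ℝ) (s : Q L M) : ℂ :=
  (Fintype.card (Q L M) : ℂ)⁻¹ * ∑ q : Q L M, F (M • rep q) * X (-(e (M • rep q) (rep s)))

theorem fourier (P : Pair L e) (hM : 0 < M) (F : V → ℂ)
    (hF : ∀ l ∈ L, ∀ y ∈ L, F (l + M • y) = F l) {l : V} (hl : l ∈ L) :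
    F l = ∑ s : Q L M, fc F e s * X (e l (rep s)) := by
  classical
  have hM' : (M : ℝ) ≠ 0 := by exact_mod_cast hM.ne'
  set l' : V := ((M : ℝ)⁻¹) • l with hl'
  have hMl' : M • l' = l := by
    rw [hl', ← Nat.cast_smul_eq_nsmul ℝ, smul_smul, mul_inv_cancel₀ hM', one_smul]
  have hm : M • l' ∈ L := by rw [hMl']; exact hl
  have h1 : ∀ s : Q L M, fc F e s * X (e l (rep s)) =
      (Fintype.card (Q L M) : ℂ)⁻¹ *
        ∑ q : Q L M, F (M • rep q) * X (e (l - M • rep q) (rep s)) := by
    intro s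
    rw [fc, mul_assoc, Finset.sum_mul]
    congr 1
    refine Finset.sum_congr rfl fun q _ => ?_
    rw [mul_assoc, ← X_add]
    congr 2
    rw [P.sub_left]; ring
  simp only [h1]
  rw [← Finset.mul_sum, Finset.sum_comm]
  simp only [← Finset.mul_sum]
  have h2 : ∀ q : Q L M, ∑ s : Q L M, X (e (l - M • rep q) (rep s)) =
      if q = cl l' hm then (Fintype.card (Q L M) : ℂ) else 0 := by
    intro q
    rw [sum_X P hM (L.sub_mem hl (rep_mem q))]
    have h3 : (∃ y ∈ L, l - M • rep q = M • y) ↔ q = cl l' hm := by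
      rw [eq_comm, cl_eq_iff]
      constructor
      · rintro ⟨y, hy, h4⟩
        have h5 : M • (l' - rep q - y) = 0 := by
          rw [smul_sub, smul_sub, hMl', h4, sub_self]
        have h6 : l' - rep q - y = 0 := by
          have h7 : (M : ℝ) • (l' - rep q - y) = 0 := by rw [Nat.cast_smul_eq_nsmul]; exact h5
          exact (smul_eq_zero.1 h7).resolve_left hM'
        rw [sub_eq_zero.1 h6]
        exact hy
      · intro h4
        exact ⟨l' - rep q, h4, by rw [smul_sub, hMl']⟩
    simp only [h3]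
  simp only [h2, mul_ite, mul_zero, Finset.sum_ite_eq', Finset.mem_univ, if_true]
  have h5 : l' - rep (cl l' hm) ∈ L := rep_cl hm
  have h6 : F (M • rep (cl l' hm)) = F l := by
    have h7 := hF (M • rep (cl l' hm)) (rep_mem _) (l' - rep (cl l' hm)) h5
    rw [← h7, smul_sub, hMl']
    congr 1
    abel
  rw [h6, mul_comm (F l), ← mul_assoc, inv_mul_cancel₀ Q_card_ne, one_mul]

/-- summation over cosets -/
theorem hasSum_cosets (G : V → ℂ) (hG : ∀ v, G v ≠ 0 → M • v ∈ L) (S : Q L M → ℂ)
    (hS : ∀ q : Q L M, HasSum (fun l : L => G ((l : V) + rep q)) (S q)) :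
    HasSum G (∑ q, S q) := by
  classical
  have h1 : ∀ q : Q L M, HasSum (fun v : V => if v - rep q ∈ L then G v else 0) (S q) := by
    intro q
    have hinj : Function.Injective (fun l : L => (l : V) + rep q) := by
      intro a b hab
      exact Subtype.ext (add_right_cancel hab)
    rw [← hinj.hasSum_iff]
    · refine (hS q).congr_fun ?_ |> fun h => h
      intro l
      simp
    · intro v hv
      rw [if_neg]
      intro h
      exact hv ⟨⟨v - rep q, h⟩, by simp⟩
  have h2 := hasSum_sum (s := Finset.univ) (fun q _ => h1 q)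
  refine h2.congr_fun ?_ |> fun h => h
  intro v
  by_cases hv : G v = 0
  · simp [hv]
  · have hm := hG v hv
    have h3 : ∀ q : Q L M, (v - rep q ∈ L) ↔ q = cl v hm := by
      intro q; rw [← cl_eq_iff hm, eq_comm]
    simp only [h3, Finset.sum_ite_eq', Finset.mem_univ, if_true]

end fourier

section finite

variable {W : Type*} [NormedAddCommGroup W] [NormedSpace ℝ W] [FiniteDimensional ℝ W]

theorem discrete_ball (L : AddSubgroup W) (h : {x : W | x ∈ L ∧ ‖x‖ ≤ 1}.Finite) (T : ℝ) :
    {x : W | x ∈ L ∧ ‖x‖ ≤ T}.Finite := by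
  have := Lat_368.finite_coset_ball L h 0 T
  simpa using this

theorem finite_Q (L : AddSubgroup W) (h : {x : W | x ∈ L ∧ ‖x‖ ≤ 1}.Finite) {M : ℕ} (hM : 0 < M) :
    Finite (Q L M) := by
  have hM' : (M : ℝ) ≠ 0 := by exact_mod_cast hM.ne'
  -- `(1/M) L` is discrete
  have h1 : {x : W | x ∈ Lp L M ∧ ‖x‖ ≤ 1}.Finite := by
    have h2 := discrete_ball L h M
    refine Set.Finite.of_finite_image (f := fun x : W => M • x) (h2.subset ?_) ?_
    · rintro _ ⟨x, ⟨hx1, hx2⟩, rfl⟩
      refine ⟨hx1, ?_⟩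
      show ‖M • x‖ ≤ M
      rw [← Nat.cast_smul_eq_nsmul ℝ, norm_smul, Real.norm_natCast]
      have : (0:ℝ) ≤ M := Nat.cast_nonneg M
      nlinarith
    · intro x _ y _ hxy
      have hxy' : M • x = M • y := hxy
      have h3 : (M : ℝ) • (x - y) = 0 := by
        rw [Nat.cast_smul_eq_nsmul, smul_sub, hxy', sub_self]
      exact sub_eq_zero.1 ((smul_eq_zero.1 h3).resolve_left hM')
  set L' : Submodule ℤ W := AddSubgroup.toIntSubmodule (Lp L M) with hL'
  have hd : DiscreteTopology L' := Lat_368.discrete_of_finite L' h1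
  have hfin : Module.Finite ℤ L' := inferInstance
  have hfin' : Module.Finite ℤ (Lp L M) := hfin
  have hq : Module.Finite ℤ (Q L M) :=
    Module.Finite.of_surjective
      ((QuotientAddGroup.mk' (L.addSubgroupOf (Lp L M))).toIntLinearMap)
      (QuotientAddGroup.mk'_surjective _)
  refine Module.finite_of_fg_torsion (Q L M) ?_
  intro q
  obtain ⟨⟨v, hv⟩, rfl⟩ := QuotientAddGroup.mk_surjective q
  refine ⟨⟨(M : ℤ), mem_nonZeroDivisors_of_ne_zero (by exact_mod_cast hM.ne')⟩, ?_⟩
  show (M : ℤ) • (QuotientAddGroup.mk (⟨v, hv⟩ : Lp L M) : Q L M) = 0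
  rw [← QuotientAddGroup.mk_zsmul]
  rw [QuotientAddGroup.eq_zero_iff]
  show ((M : ℤ) • (⟨v, hv⟩ : Lp L M) : Lp L M).1 ∈ L
  simpa using mem_Lp.1 hv

end finite

end

end Crest.Agent.R272.ETh4Fin_295
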