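/-
helper295, row 272, division E, leaf T4: assembly of the theta leaf `ETheta2` / `EThetaK` from the
output `TIn` of T2 + T3.
-/
import Crest.Agent.R272.ETh4Defs_295
import Crest.Agent.R272.ETh4Fin_295

set_option autoImplicit false
set_option linter.unusedSectionVars false
set_option linter.unusedVariables false

open scoped ComplexConjugate Topology

namespace Crest.Agent.R272.ETh4_295

open Crest.Agent.R272.EBase_641 Crest.Agent.R272.EBase2_641 Crest.Agent.R272.ETh4Defs_295
open Crest.Agent.R272.ETh4Fin_295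

noncomputable section

/-- `exp(pi i t)` -/
def XH (t : ℝ) : ℂ := Complex.exp (Real.pi * Complex.I * (t : ℝ))

theorem XH_add (a b : ℝ) : XH (a + b) = XH a * XH b := by
  unfold XH
  rw [← Complex.exp_add]
  congr 1
  push_cast
  ring

theorem XH_two (t : ℝ) : XH (2 * t) = X t := by
  unfold XH X
  congr 1
  push_cast
  ring

theorem XH_zero : XH 0 = 1 := by simp [XH]

theorem XH_ne (t : ℝ) : XH t ≠ 0 := Complex.exp_ne_zero _

variable {n m : ℕ}

theorem ee_add_left (a b c : V1 n × W m) : ee (a + b) c = ee a c + ee b c := by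
  simp only [ee, Prod.fst_add, Prod.snd_add, hh_add_left, inner_add_right, Complex.add_im]
  ring

theorem ee_add_right (a b c : V1 n × W m) : ee a (b + c) = ee a b + ee a c := by
  simp only [ee, Prod.fst_add, Prod.snd_add, hh_add_right, inner_add_left, Complex.add_im]
  ring

theorem ee_swap (a b : V1 n × W m) : ee a b = - ee b a := by
  have h1 : (hh a.1 b.1).im = - (hh b.1 a.1).im := by
    rw [← hh_conj a.1 b.1, Complex.conj_im, neg_neg]
  have h2 : (inner ℂ b.2 a.2 : ℂ).im = - (inner ℂ a.2 b.2 : ℂ).im := by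
    rw [← inner_conj_symm, Complex.conj_im]
  rw [ee, ee, h1, h2]
  ring

theorem ee_self (a : V1 n × W m) : ee a a = 0 := by
  have := ee_swap a a
  linarith

theorem pair (D : EDat) : Pair D.L (ee (n := D.n) (m := D.m)) where
  add_left := ee_add_left
  add_right := ee_add_right
  int := D.int
  dual := D.dual

section gact

variable (D : EDat)

theorem gact_mul (g g' : D.G) (v : V1 D.n × W D.m) : gact D (g * g') v = gact D g (gact D g' v) := by
  simp only [gact, map_mul]
  rfl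

theorem gact_one (v : V1 D.n × W D.m) : gact D 1 v = v := by
  simp only [gact, map_one]
  rfl

theorem gact_add (g : D.G) (v w : V1 D.n × W D.m) :
    gact D g (v + w) = gact D g v + gact D g w := by
  simp [gact]

theorem gact_sub (g : D.G) (v w : V1 D.n × W D.m) :
    gact D g (v - w) = gact D g v - gact D g w := by
  simp [gact]

theorem gact_nsmul (g : D.G) (k : ℕ) (v : V1 D.n × W D.m) :
    gact D g (k • v) = k • gact D g v := by
  simp [gact]

theorem gact_mem (g : D.G) {v : V1 D.n × W D.m} (hv : v ∈ D.L) : gact D g v ∈ D.L := D.stab g v hv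

/-- the action on `(1/K) L / L` -/
def qact (K : ℕ) (g : D.G) (q : Q D.L K) : Q D.L K :=
  cl (gact D g (rep q)) (by rw [← gact_nsmul]; exact gact_mem D g (rep_mem q))

theorem qact_mul (K : ℕ) (g g' : D.G) (q : Q D.L K) :
    qact D K (g * g') q = qact D K g (qact D K g' q) := by
  unfold qact
  rw [cl_eq_iff]
  have h1 := rep_cl (L := D.L) (M := K) (v := gact D g' (rep q))
    (by rw [← gact_nsmul]; exact gact_mem D g' (rep_mem q))
  have h2 := gact_mem D g h1
  rw [gact_sub, ← gact_mul] at h2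
  have h3 := rep_cl (L := D.L) (M := K)
    (v := gact D g (rep (cl (gact D g' (rep q))
      (by rw [← gact_nsmul]; exact gact_mem D g' (rep_mem q)) : Q D.L K)))
    (by rw [← gact_nsmul]; exact gact_mem D g (rep_mem _))
  have h4 := D.L.add_mem h2 h3
  simpa using h4

theorem qact_one (K : ℕ) (q : Q D.L K) : qact D K 1 q = q := by
  unfold qact
  rw [cl_eq_iff, gact_one]
  simp

/-- `G` acts on `(1/K) L / L` -/
@[reducible] def mact (K : ℕ) : MulAction D.G (Q D.L K) where
  smul g q := qact D K g q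
  one_smul := qact_one D K
  mul_smul := qact_mul D K

/-- the congruence subgroup of level `K` -/
def Hc (K : ℕ) : Subgroup D.G := (@MulAction.toPermHom D.G (Q D.L K) _ (mact D K)).ker

theorem Hc_fin {K : ℕ} (hK : 0 < K) : (Hc D K).FiniteIndex := by
  have hf : Finite (Q D.L K) := finite_Q D.L (D.disc 1) hK
  unfold Hc
  exact Subgroup.finiteIndex_ker _

theorem Hc_spec {K : ℕ} {g : D.G} (hg : g ∈ Hc D K) {v : V1 D.n × W D.m} (hv : K • v ∈ D.L) :
    gact D g v - v ∈ D.L := by
  have h1 : ∀ q : Q D.L K, qact D K g q = q := by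
    intro q
    have h2 := MonoidHom.mem_ker.1 hg
    have h3 := congrArg (fun p : Equiv.Perm (Q D.L K) => p q) h2
    exact h3
  have h2 := h1 (cl v hv)
  unfold qact at h2
  rw [cl_eq_iff] at h2
  have h3 := rep_cl hv
  have h4 := gact_mem D g h3
  rw [gact_sub] at h4
  have h5 := D.L.add_mem h4 h2
  have h6 := D.L.sub_mem h5 h3
  have : gact D g v - gact D g (rep (cl v hv)) + (gact D g (rep (cl v hv)) - rep (cl v hv)) -
      (v - rep (cl v hv)) = gact D g v - v := by abel
  rwa [this] at h6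

end gact

section data

variable {D : EDat} (T : TIn D)

theorem rank' (a b : V1 D.n × W D.m) {z w : E D.n} (hz : z ∈ Ball D.n) (hw : w ∈ Ball D.n)
    (Z Y : E D.n) :
    HasSum (fun l : D.L => T.ε (l : V1 D.n × W D.m) * XH (ee (l : V1 D.n × W D.m) (a + b)) *
        ((wt ((l : V1 D.n × W D.m) + a - b) : ℝ) * Kp ((l : V1 D.n × W D.m) + a - b).1 z w Z Y))
      (T.κ * XH (ee b a) * (fderiv ℂ (T.A a) z Z * conj (fderiv ℂ (T.A b) w Y))) :=
  T.rank a b z hz w hw Z Y

theorem ε_even (k : ℕ) {l y : V1 D.n × W D.m} (hl : l ∈ D.L) (hy : y ∈ D.L) :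
    T.ε (l + (2 * k) • y) = T.ε l := by
  have h1 : T.ε ((2 * k) • y) = 1 := by
    have hk := D.L.nsmul_mem hy k
    have h2 : (2 * k) • y = k • y + k • y := by rw [mul_comm, mul_smul, two_smul, smul_add]
    rw [h2, T.ε_add _ hk _ hk, T.ε_sq _ hk, ee_self]
    simp
  rw [T.ε_add _ hl _ (D.L.nsmul_mem hy _), h1, mul_one]
  obtain ⟨j, hj⟩ := D.int l hl y hy
  have h3 : ee l ((2 * k) • y) = 2 * ((k * j : ℤ) : ℝ) := by
    rw [(pair D).nsmul_right, hj]; push_cast; ring
  have h4 : Complex.exp (Real.pi * Complex.I * (ee l ((2 * k) • y) : ℝ)) = 1 := by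
    have h5 : XH (ee l ((2 * k) • y)) = 1 := by rw [h3, XH_two, X_int]
    exact h5
  rw [h4, mul_one]

theorem ε_ne {l : V1 D.n × W D.m} (hl : l ∈ D.L) : T.ε l ≠ 0 := by
  intro h
  have := T.ε_sq l hl
  rw [h] at this
  simp at this

/-- translation of the characteristic by a lattice vector of high divisibility -/
theorem der_shift (a l : V1 D.n × W D.m) (hl : l ∈ D.L) (hε : T.ε l = 1)
    (ha : ∃ j : ℤ, ee l a = 2 * j) {z : E D.n} (hz : z ∈ Ball D.n) (Z : E D.n) :
    fderiv ℂ (T.A (a + l)) z Z = fderiv ℂ (T.A a) z Z := by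
  have key : ∀ b : V1 D.n × W D.m, ∀ w ∈ Ball D.n, ∀ Y : E D.n,
      fderiv ℂ (T.A (a + l)) z Z * conj (fderiv ℂ (T.A b) w Y) =
        fderiv ℂ (T.A a) z Z * conj (fderiv ℂ (T.A b) w Y) := by
    intro b w hw Y
    have h1 := rank' T (a + l) b hz hw Z Y
    have h2 := rank' T a b hz hw Z Y
    have h3 := (Equiv.subRight (⟨l, hl⟩ : D.L)).hasSum_iff.2 h1
    have h4 : HasSum (fun l' : D.L => XH (-(ee l b)) * (T.ε (l' : V1 D.n × W D.m) *
        XH (ee (l' : V1 D.n × W D.m) (a + b)) *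
        ((wt ((l' : V1 D.n × W D.m) + a - b) : ℝ) * Kp ((l' : V1 D.n × W D.m) + a - b).1 z w Z Y)))
        (T.κ * XH (ee b (a + l)) *
          (fderiv ℂ (T.A (a + l)) z Z * conj (fderiv ℂ (T.A b) w Y))) := by
      refine h3.congr_fun ?_ |> fun h => h
      intro l'
      have hl' : (l' : V1 D.n × W D.m) ∈ D.L := l'.2
      set y : V1 D.n × W D.m := (l' : V1 D.n × W D.m) with hy
      have e0 : (((Equiv.subRight (⟨l, hl⟩ : D.L)) l' : D.L) : V1 D.n × W D.m) = y - l := rfl
      simp only [Function.comp, e0]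
      have e1 : y - l + (a + l) - b = y + a - b := by abel
      rw [e1]
      have e2 : T.ε (y - l) = T.ε y * XH (-(ee y l)) := by
        have h5 := T.ε_add (y - l) (D.L.sub_mem hl' hl) l hl
        rw [sub_add_cancel, hε, mul_one] at h5
        have h6 : Complex.exp (Real.pi * Complex.I * (ee (y - l) l : ℝ)) = XH (ee y l) := by
          rw [(pair D).sub_left, ee_self, sub_zero]; rfl
        rw [h6] at h5
        rw [h5, mul_assoc, ← XH_add]
        simp [XH_zero]
      have e3 : ee (y - l) (a + l + b) = ee y (a + b) + ee y l + -(ee l a) + -(ee l b) := by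
        rw [(pair D).sub_left, ee_add_right, ee_add_right, ee_add_right, ee_add_right, ee_add_right,
          ee_self]
        ring
      have e4 : XH (-(ee l a)) = 1 := by
        obtain ⟨j, hj⟩ := ha
        have : -(ee l a) = 2 * ((-j : ℤ) : ℝ) := by rw [hj]; push_cast; ring
        rw [this, XH_two, X_int]
      have e5 : XH (-(ee y l)) * XH (ee y l) = 1 := by
        rw [← XH_add]; simp [XH_zero]
      rw [e2, e3, XH_add, XH_add, XH_add, e4]
      linear_combination (-(XH (-(ee l b)) * T.ε y * XH (ee y (a + b)) *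
        (((wt (y + a - b) : ℝ) : ℂ) * Kp (y + a - b).1 z w Z Y))) * e5
    have h5 := h4.unique (h2.mul_left (XH (-(ee l b))))
    have h6 : ee b (a + l) = ee b a + -(ee l b) := by
      rw [ee_add_right, ee_swap b l]
    rw [h6, XH_add] at h5
    have h7 : T.κ * XH (ee b a) * XH (-(ee l b)) ≠ 0 :=
      mul_ne_zero (mul_ne_zero T.κ_ne (XH_ne _)) (XH_ne _)
    refine mul_left_cancel₀ h7 ?_
    linear_combination h5
  by_cases h0 : ∃ b : V1 D.n × W D.m, ∃ w ∈ Ball D.n, ∃ Y : E D.n, fderiv ℂ (T.A b) w Y ≠ 0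
  · obtain ⟨b, w, hw, Y, hY⟩ := h0
    have hY' : conj (fderiv ℂ (T.A b) w Y) ≠ 0 := by simpa using hY
    exact mul_right_cancel₀ hY' (key b w hw Y)
  · push Not at h0
    rw [h0 _ z hz Z, h0 _ z hz Z]

theorem isOpen_Ball : IsOpen (Ball D.n) := Metric.isOpen_ball

theorem preconn_Ball : IsPreconnected (Ball D.n) :=
  (convex_ball (0 : E D.n) 1).isPreconnected

/-- invariance of `A a` under a congruence subgroup -/
theorem A_inv {M : ℕ} (hM : 0 < M) (a : V1 D.n × W D.m) (ha : (2 * M) • a ∈ D.L) (g : D.G)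
    (hg : g ∈ T.H0 ⊓ Hc D (8 * M * M)) :
    ∃ c : ℂ, ∀ z ∈ Ball D.n, T.A a (act (D.ρ g) z) = T.A a z + c := by
  obtain ⟨hg0, hgc⟩ := Subgroup.mem_inf.1 hg
  have hM' : (M : ℝ) ≠ 0 := by exact_mod_cast hM.ne'
  -- `g a = a + (4M) y`
  set v : V1 D.n × W D.m := ((4 * M : ℝ)⁻¹) • a with hv
  have h4M : (4 * M : ℝ) ≠ 0 := by positivity
  have e1 : (4 * M) • v = a := by
    rw [hv, ← Nat.cast_smul_eq_nsmul ℝ, smul_smul]
    push_cast
    rw [mul_inv_cancel₀ h4M, one_smul]
  have e2 : (8 * M * M) • v ∈ D.L := by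
    have : (8 * M * M) • v = (2 * M) • a := by
      rw [← e1, smul_smul]; congr 1; ring
    rw [this]; exact ha
  have hy := Hc_spec D hgc e2
  set y := gact D g v - v with hydef
  have e3 : gact D g a = a + (2 * (2 * M)) • y := by
    have e4 : gact D g a = (4 * M) • gact D g v := by rw [← gact_nsmul, e1]
    rw [e4, hydef]
    have e5 : (2 * (2 * M)) = 4 * M := by ring
    rw [e5, smul_sub, e1]
    abel
  set l := (2 * (2 * M)) • y with hl
  have hlL : l ∈ D.L := D.L.nsmul_mem hy _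
  have hε : T.ε l = 1 := by
    have h1 := ε_even T (2 * M) (D.L.zero_mem) hy
    have h2 : T.ε 0 = 1 := by
      have h3 := T.ε_add 0 D.L.zero_mem 0 D.L.zero_mem
      rw [add_zero, ee_self] at h3
      have h4 := ε_ne T D.L.zero_mem
      have h5 : T.ε 0 * 1 = T.ε 0 * T.ε 0 := by simpa using h3
      exact (mul_left_cancel₀ h4 h5).symm
    rw [zero_add] at h1
    rw [hl, h1, h2]
  have hea : ∃ j : ℤ, ee l a = 2 * j := by
    obtain ⟨j, hj⟩ := D.int y hy _ ha
    refine ⟨j, ?_⟩
    rw [(pair D).nsmul_right] at hj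
    rw [hl, (pair D).nsmul_left, ← hj]
    push_cast
    ring
  obtain ⟨c, hc⟩ := T.A_act g hg0 a
  have h1 : Set.EqOn (fderiv ℂ (T.A (a + l))) (fderiv ℂ (T.A a)) (Ball D.n) := by
    intro z hz
    ext1 Z
    exact der_shift T a l hlL hε hea hz Z
  obtain ⟨c', hc'⟩ := isOpen_Ball.exists_eq_add_of_fderiv_eq preconn_Ball (T.A_hol _) (T.A_hol _) h1
  refine ⟨c - c', fun z hz => ?_⟩
  have h2 := hc z hz
  rw [e3] at h2
  have h3 := hc' (act_mem (D.ρ g) hz)
  simp only at h3
  rw [h3] at h2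
  linear_combination h2

include T in
/-- **T4**: the theta leaf from `TIn`. -/
theorem theta_of (φ : (V1 D.n × W D.m) → ℝ)
    (h1 : ∃ M : ℕ, 0 < M ∧ ∀ v, φ v ≠ 0 → M • v ∈ D.L)
    (h2 : ∃ M : ℕ, 0 < M ∧ ∀ v, ∀ l ∈ D.L, φ (v + M • l) = φ v) :
    ∃ (r : ℕ) (c : Fin r → ℂ) (A B : Fin r → E D.n → ℂ) (H : Subgroup D.G),
      H.FiniteIndex ∧
      (∀ i, DifferentiableOn ℂ (A i) (Ball D.n)) ∧ (∀ i, DifferentiableOn ℂ (B i) (Ball D.n)) ∧
      (∀ i, ∀ g ∈ H, ∃ a : ℂ, ∀ z ∈ Ball D.n, A i (act (D.ρ g) z) = A i z + a) ∧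
      (∀ i, ∀ g ∈ H, ∃ b : ℂ, ∀ z ∈ Ball D.n, B i (act (D.ρ g) z) = B i z + b) ∧
      ∀ z ∈ Ball D.n, ∀ w ∈ Ball D.n, ∀ Z Y : E D.n,
        HasSum (fun v : {v : V1 D.n × W D.m // φ v ≠ 0} =>
            ((φ v.1 * wt v.1 : ℝ) : ℂ) * Kp v.1.1 z w Z Y)
          (∑ i, c i * (fderiv ℂ (A i) z Z * conj (fderiv ℂ (B i) w Y))) := by
  classical
  obtain ⟨M1, hM1, hs⟩ := h1
  obtain ⟨M2, hM2, hp⟩ := h2
  set M := 2 * (M1 * M2) with hMdef
  have hM : 0 < M := by positivity
  have hsupp : ∀ v, φ v ≠ 0 → M • v ∈ D.L := by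
    intro v hv
    have : M • v = (2 * M2) • (M1 • v) := by
      rw [smul_smul]; congr 1; rw [hMdef]; ring
    rw [this]
    exact D.L.nsmul_mem (hs v hv) _
  have hper : ∀ v, ∀ l ∈ D.L, φ (v + M • l) = φ v := by
    intro v l hl
    have : M • l = M2 • ((2 * M1) • l) := by
      rw [smul_smul]; congr 1; rw [hMdef]; ring
    rw [this]
    exact hp v _ (D.L.nsmul_mem hl _)
  have hfinQ : Finite (Q D.L M) := finite_Q D.L (D.disc 1) hM
  let _ : Fintype (Q D.L M) := Fintype.ofFinite _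
  -- characteristics
  set a : Q D.L M × Q D.L M → V1 D.n × W D.m :=
    fun p => rep p.2 + (1 / 2 : ℝ) • rep p.1 with ha
  set b : Q D.L M × Q D.L M → V1 D.n × W D.m :=
    fun p => rep p.2 - (1 / 2 : ℝ) • rep p.1 with hb
  have hhalf : ∀ x : V1 D.n × W D.m, (1 / 2 : ℝ) • x + (1 / 2 : ℝ) • x = x := by
    intro x
    rw [← add_smul]; norm_num
  have hab : ∀ p, a p + b p = rep p.2 + rep p.2 := by
    intro p; simp only [ha, hb]; abel
  have hab' : ∀ p, a p - b p = rep p.1 := by
    intro p; simp only [ha, hb]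
    have h0 : (rep p.2 + (1 / 2 : ℝ) • rep p.1) - (rep p.2 - (1 / 2 : ℝ) • rep p.1) =
        (1 / 2 : ℝ) • rep p.1 + (1 / 2 : ℝ) • rep p.1 := by abel
    rw [h0, hhalf]
  have htwo : ∀ x : V1 D.n × W D.m, (2 * M) • ((1 / 2 : ℝ) • x) = M • x := by
    intro x
    rw [← Nat.cast_smul_eq_nsmul ℝ, ← Nat.cast_smul_eq_nsmul ℝ, smul_smul]
    congr 1
    push_cast
    ring
  have haL : ∀ p, (2 * M) • a p ∈ D.L := by
    intro p
    simp only [ha]
    rw [smul_add, htwo, mul_smul]
    exact D.L.add_mem (D.L.nsmul_mem (rep_mem _) _) (rep_mem _)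
  have hbL : ∀ p, (2 * M) • b p ∈ D.L := by
    intro p
    simp only [hb]
    rw [smul_sub, htwo, mul_smul]
    exact D.L.sub_mem (D.L.nsmul_mem (rep_mem _) _) (rep_mem _)
  -- the functions to be expanded
  set F : Q D.L M → (V1 D.n × W D.m) → ℂ := fun q l => T.ε l * (φ (l + rep q) : ℝ) with hF
  have hFper : ∀ q, ∀ l ∈ D.L, ∀ y ∈ D.L, F q (l + M • y) = F q l := by
    intro q l hl y hy
    simp only [hF]
    have h0 : T.ε (l + M • y) = T.ε l := ε_even T (M1 * M2) hl hy
    rw [h0]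
    have : l + M • y + rep q = l + rep q + M • y := by abel
    rw [this, hper _ y hy]
  set e := Fintype.equivFin (Q D.L M × Q D.L M) with he
  set cc : Q D.L M × Q D.L M → ℂ := fun p =>
    fc (F p.1) (ee (n := D.n) (m := D.m)) p.2 * (T.κ * XH (ee (b p) (a p))) with hcc
  refine ⟨Fintype.card (Q D.L M × Q D.L M), fun i => cc (e.symm i), fun i => T.A (a (e.symm i)),
    fun i => T.A (b (e.symm i)), T.H0 ⊓ Hc D (8 * M * M), ?_, fun i => T.A_hol _, fun i => T.A_hol _,
    fun i g hg => A_inv T hM _ (haL _) g hg, fun i g hg => A_inv T hM _ (hbL _) g hg, ?_⟩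
  · have h3 := T.H0_fin
    have h4 := Hc_fin D (K := 8 * M * M) (by positivity)
    infer_instance
  · intro z hz w hw Z Y
    set G : V1 D.n × W D.m → ℂ := fun v => ((φ v * wt v : ℝ) : ℂ) * Kp v.1 z w Z Y with hG
    have hGs : ∀ v, G v ≠ 0 → M • v ∈ D.L := by
      intro v hv
      refine hsupp v ?_
      intro h0
      apply hv
      simp [hG, h0]
    have hq : ∀ q : Q D.L M, HasSum (fun l : D.L => G ((l : V1 D.n × W D.m) + rep q))
        (∑ s : Q D.L M, cc (q, s) *
          (fderiv ℂ (T.A (a (q, s))) z Z * conj (fderiv ℂ (T.A (b (q, s))) w Y))) := by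
      intro q
      have h5 := hasSum_sum (s := Finset.univ) (fun (s : Q D.L M) _ =>
        (rank' T (a (q, s)) (b (q, s)) hz hw Z Y).mul_left
          (fc (F q) (ee (n := D.n) (m := D.m)) s))
      have h6 : (∑ s : Q D.L M, cc (q, s) *
          (fderiv ℂ (T.A (a (q, s))) z Z * conj (fderiv ℂ (T.A (b (q, s))) w Y))) =
          ∑ s : Q D.L M, fc (F q) (ee (n := D.n) (m := D.m)) s *
            (T.κ * XH (ee (b (q, s)) (a (q, s))) *
            (fderiv ℂ (T.A (a (q, s))) z Z * conj (fderiv ℂ (T.A (b (q, s))) w Y))) := by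
        refine Finset.sum_congr rfl fun s _ => ?_
        simp only [hcc]
        ring
      rw [h6]
      refine h5.congr_fun ?_ |> fun h => h
      intro l
      have hl : (l : V1 D.n × W D.m) ∈ D.L := l.2
      set y : V1 D.n × W D.m := (l : V1 D.n × W D.m) with hy
      have h7 : ∀ s : Q D.L M, fc (F q) (ee (n := D.n) (m := D.m)) s *
          (T.ε y * XH (ee y (a (q, s) + b (q, s))) *
            (((wt (y + a (q, s) - b (q, s)) : ℝ) : ℂ) * Kp (y + a (q, s) - b (q, s)).1 z w Z Y)) =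
          (fc (F q) (ee (n := D.n) (m := D.m)) s * X (ee y (rep s))) *
            (T.ε y * (((wt (y + rep q) : ℝ) : ℂ) * Kp (y + rep q).1 z w Z Y)) := by
        intro s
        have h8 : y + a (q, s) - b (q, s) = y + rep q := by
          rw [add_sub_assoc, hab']
        have h9 : ee y (a (q, s) + b (q, s)) = 2 * ee y (rep s) := by
          rw [hab, ee_add_right]; ring
        rw [h8, h9, XH_two]
        ring
      simp only [h7]
      rw [← Finset.sum_mul, ← fourier (pair D) hM (F q) (hFper q) hl]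
      simp only [hG, hF]
      have h10 := T.ε_sq y hl
      push_cast
      linear_combination (-((φ (y + rep q) : ℂ) * (wt (y + rep q) : ℂ) *
        Kp (y + rep q).1 z w Z Y)) * h10
    have h11 := hasSum_cosets G hGs _ hq
    have h12 : (∑ i, cc (e.symm i) * (fderiv ℂ (T.A (a (e.symm i))) z Z *
        conj (fderiv ℂ (T.A (b (e.symm i))) w Y))) =
        ∑ q : Q D.L M, ∑ s : Q D.L M, cc (q, s) *
          (fderiv ℂ (T.A (a (q, s))) z Z * conj (fderiv ℂ (T.A (b (q, s))) w Y)) := by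
      rw [← Fintype.sum_prod_type' (fun q s => cc (q, s) *
          (fderiv ℂ (T.A (a (q, s))) z Z * conj (fderiv ℂ (T.A (b (q, s))) w Y)))]
      exact Equiv.sum_comp e.symm (fun p => cc p * (fderiv ℂ (T.A (a p)) z Z *
        conj (fderiv ℂ (T.A (b p)) w Y)))
    rw [h12]
    have h13 : Function.support G ⊆ {v | φ v ≠ 0} := by
      intro v hv
      show φ v ≠ 0
      intro h0
      exact hv (by simp [hG, h0])
    exact (hasSum_subtype_iff_of_support_subset h13).2 h11

end data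

/-- **T4**, captain's form (`EBase2_641`). -/
theorem etheta2 (h : ∀ D : EDat, Nonempty (TIn D)) : ETheta2 := by
  intro D φ h1 h2
  obtain ⟨T⟩ := h D
  exact theta_of T φ h1 h2

/-- **T4**, form of `EPolDefs_429`. -/
theorem ethetaK (h : ∀ D : EDat, Nonempty (TIn D)) : EPol_429.EThetaK := by
  intro D φ h1 h2
  obtain ⟨T⟩ := h D
  exact theta_of T φ h1 h2

end

end Crest.Agent.R272.ETh4_295
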