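import Crest.Agent.R272.EBase_641

/-!
# EZ2-TAIL (row 272, division E): lattice sums, limits of the approximating functions, geometry of a
class of special vectors.  On the structures `EDat`, `ECls` of `EBase_641`.
-/

set_option autoImplicit false
set_option linter.unusedSectionVars false

open scoped ComplexConjugate Topology
open Filter Set

namespace Crest.Agent.R272.Z2_939

open Crest.Agent.R272.EBase_641

noncomputable section

/-- the type of vectors -/
abbrev VV (D : EDat) := V1 D.n × W D.m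

variable {n m : ℕ}

/-- Euclidean square norm of a vector (all places). -/
def nrm2 (v : V1 n × W m) : ℝ := ‖v.1.1‖ ^ 2 + ‖v.1.2‖ ^ 2 + ‖v.2‖ ^ 2

theorem nrm2_nonneg (v : V1 n × W m) : 0 ≤ nrm2 v := by unfold nrm2; positivity

theorem sq_norm_le_nrm2 (v : V1 n × W m) : ‖v‖ ^ 2 ≤ nrm2 v := by
  unfold nrm2
  rw [Prod.norm_def, Prod.norm_def]
  have h1 := norm_nonneg v.1.1
  have h2 := norm_nonneg v.1.2
  have h3 := norm_nonneg v.2
  rcases max_choice (max ‖v.1.1‖ ‖v.1.2‖) ‖v.2‖ with h | h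
  · rw [h]
    rcases max_choice ‖v.1.1‖ ‖v.1.2‖ with h' | h' <;> rw [h'] <;> nlinarith
  · rw [h]; nlinarith

theorem nrm2_le (v : V1 n × W m) : nrm2 v ≤ 3 * ‖v‖ ^ 2 := by
  unfold nrm2
  have h1 : ‖v.1.1‖ ≤ ‖v‖ := (norm_fst_le v.1).trans (norm_fst_le v)
  have h2 : ‖v.1.2‖ ≤ ‖v‖ := (norm_snd_le v.1).trans (norm_fst_le v)
  have h3 : ‖v.2‖ ≤ ‖v‖ := norm_snd_le v
  have h1' := norm_nonneg v.1.1
  have h2' := norm_nonneg v.1.2
  have h3' := norm_nonneg v.2
  nlinarith [pow_le_pow_left₀ h1' h1 2, pow_le_pow_left₀ h2' h2 2, pow_le_pow_left₀ h3' h3 2]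

/-- elementary: polynomial times Gaussian is bounded by an inverse power. -/
theorem gauss_bound (k N : ℕ) {c : ℝ} (hc : 0 < c) :
    ∃ A : ℝ, 0 ≤ A ∧ ∀ t : ℝ, 0 ≤ t → (1 + 3 * t ^ 2) ^ k * Real.exp (-c * t ^ 2) * t ^ N ≤ A := by
  -- a continuous function tending to zero at infinity is bounded
  have h1 : Tendsto (fun t : ℝ => (1 + 3 * t ^ 2) ^ k * Real.exp (-c * t ^ 2) * t ^ N) atTop
      (𝓝 0) := by
    have h2 : Tendsto (fun t : ℝ => (t ^ (2 * k + N)) * Real.exp (-c * t ^ 2)) atTop (𝓝 0) := by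
      have h3 := (tendsto_rpow_mul_exp_neg_mul_atTop_nhds_zero ((2 * k + N : ℕ) : ℝ) c hc)
      -- compare `exp (-c t^2)` with `exp (-c t)` for `t ≥ 1`
      refine squeeze_zero' (g := fun t : ℝ => t ^ (((2 * k + N : ℕ) : ℝ)) * Real.exp (-c * t)) ?_ ?_ h3
      · filter_upwards [eventually_ge_atTop (0 : ℝ)] with t ht
        positivity
      · filter_upwards [eventually_ge_atTop (1 : ℝ)] with t ht
        rw [Real.rpow_natCast]
        have : Real.exp (-c * t ^ 2) ≤ Real.exp (-c * t) := by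
          apply Real.exp_le_exp.mpr
          have h5 : t ≤ t ^ 2 := by nlinarith
          have h6 := mul_le_mul_of_nonneg_left h5 hc.le
          linarith
        gcongr
    have h4 : Tendsto (fun t : ℝ => (4 : ℝ) ^ k * ((t ^ (2 * k + N)) * Real.exp (-c * t ^ 2))) atTop
        (𝓝 0) := by
      simpa using h2.const_mul ((4 : ℝ) ^ k)
    refine squeeze_zero' ?_ ?_ h4
    · filter_upwards [eventually_ge_atTop (0 : ℝ)] with t ht
      positivity
    · filter_upwards [eventually_ge_atTop (1 : ℝ)] with t ht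
      have h5 : (1 + 3 * t ^ 2) ^ k ≤ (4 * t ^ 2) ^ k := by
        apply pow_le_pow_left₀ (by positivity)
        nlinarith
      have h6 : (1 + 3 * t ^ 2) ^ k * Real.exp (-c * t ^ 2) * t ^ N
          ≤ (4 * t ^ 2) ^ k * Real.exp (-c * t ^ 2) * t ^ N := by
        gcongr
      refine h6.trans (le_of_eq ?_)
      rw [mul_pow, ← pow_mul, pow_add]
      ring
  have hcont : Continuous (fun t : ℝ => (1 + 3 * t ^ 2) ^ k * Real.exp (-c * t ^ 2) * t ^ N) := by
    fun_prop
  obtain ⟨T, hT⟩ := (h1.eventually (gt_mem_nhds (zero_lt_one : (0 : ℝ) < 1))).exists_forall_of_atTop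
  obtain ⟨B, hB⟩ := (isCompact_Icc (a := (0 : ℝ)) (b := T)).exists_bound_of_continuousOn
    hcont.continuousOn
  refine ⟨max 1 B, by positivity, fun t ht => ?_⟩
  rcases le_total t T with h | h
  · have := hB t ⟨ht, h⟩
    rw [Real.norm_eq_abs] at this
    exact (le_abs_self _).trans (this.trans (le_max_right _ _))
  · exact (hT t h).le.trans (le_max_left _ _)

section Lattice

variable {V : Type*} [NormedAddCommGroup V] [NormedSpace ℝ V] [FiniteDimensional ℝ V]

theorem discrete_of_finite (L : AddSubgroup V) (h : ∀ r : ℝ, {v : V | v ∈ L ∧ ‖v‖ ≤ r}.Finite) :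
    DiscreteTopology L := by
  apply discreteTopology_of_isOpen_singleton_zero
  have hfin : {v : V | v ∈ L ∧ ‖v‖ ≤ 1 ∧ v ≠ 0}.Finite := (h 1).subset (by
    rintro v ⟨h1, h2, -⟩; exact ⟨h1, h2⟩)
  have hclosed : IsClosed {v : V | v ∈ L ∧ ‖v‖ ≤ 1 ∧ v ≠ 0} := hfin.isClosed
  have hopen : IsOpen ({v : V | v ∈ L ∧ ‖v‖ ≤ 1 ∧ v ≠ 0}ᶜ ∩ Metric.ball 0 1) :=
    hclosed.isOpen_compl.inter Metric.isOpen_ball
  have : ({0} : Set L) = Subtype.val ⁻¹' ({v : V | v ∈ L ∧ ‖v‖ ≤ 1 ∧ v ≠ 0}ᶜ ∩ Metric.ball 0 1) := by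
    ext x
    simp only [mem_singleton_iff, mem_preimage, mem_inter_iff, mem_compl_iff, mem_ofPred_eq,
      Metric.mem_ball, dist_zero_right]
    constructor
    · rintro rfl
      simp
    · rintro ⟨h1, h2⟩
      by_contra h3
      apply h1
      exact ⟨x.2, h2.le, fun h4 => h3 (Subtype.ext h4)⟩
  rw [this]
  exact hopen.preimage continuous_subtype_val

/-- Gaussian sums over a discrete subgroup converge. -/
theorem summable_gauss (L : AddSubgroup V) (h : ∀ r : ℝ, {v : V | v ∈ L ∧ ‖v‖ ≤ r}.Finite)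
    (k : ℕ) {c : ℝ} (hc : 0 < c) :
    Summable fun v : L => (1 + 3 * ‖(v : V)‖ ^ 2) ^ k * Real.exp (-c * ‖(v : V)‖ ^ 2) := by
  let L' : Submodule ℤ V := AddSubgroup.toIntSubmodule L
  have : DiscreteTopology L' := discrete_of_finite L h
  have h1 := ZLattice.summable_norm_pow_inv (L := L') (Module.finrank ℤ L' + 1) (Nat.lt_succ_self _)
  obtain ⟨A, hA, hb⟩ := gauss_bound k (Module.finrank ℤ L' + 1) hc
  have h2 : Summable fun v : L => A * (‖(v : V)‖ ^ (Module.finrank ℤ L' + 1))⁻¹ :=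
    (show Summable fun v : L => (‖(v : V)‖ ^ (Module.finrank ℤ L' + 1))⁻¹ by
      simp only [inv_pow] at h1
      exact h1).mul_left A
  refine Summable.of_norm_bounded_eventually h2 ?_
  have h3 : {v : L | ¬ (‖(1 + 3 * ‖(v : V)‖ ^ 2) ^ k * Real.exp (-c * ‖(v : V)‖ ^ 2)‖ ≤
      A * (‖(v : V)‖ ^ (Module.finrank ℤ L' + 1))⁻¹)} ⊆ {0} := by
    intro v hv
    by_contra h0
    apply hv
    have hv0 : (v : V) ≠ 0 := fun h4 => h0 (Subtype.ext h4)
    have hpos : 0 < ‖(v : V)‖ ^ (Module.finrank ℤ L' + 1) := pow_pos (norm_pos_iff.mpr hv0) _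
    rw [Real.norm_of_nonneg (by positivity), ← div_eq_mul_inv, le_div_iff₀ hpos]
    exact hb _ (norm_nonneg _)
  exact (Set.finite_singleton (0 : L)).subset h3

end Lattice

/-! ### the datum -/

variable (D : EDat)

/-- the vectors with bounded denominator `M`. -/
def LM (M : ℕ) : Set (VV D) := {v | M • v ∈ D.L}

/-- the Gaussian majorant -/
def gm (k : ℕ) (c : ℝ) (v : VV D) : ℝ := (1 + nrm2 v) ^ k * Real.exp (-c * nrm2 v)

variable {D}

theorem gm_nonneg (k : ℕ) (c : ℝ) (v : VV D) : 0 ≤ gm D k c v := by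
  unfold gm
  have := nrm2_nonneg v
  positivity

theorem summable_LM {M : ℕ} (hM : 0 < M) (k : ℕ) {c : ℝ} (hc : 0 < c) :
    Summable fun v : LM D M => gm D k c v := by
  have hMr : (0 : ℝ) < M := by exact_mod_cast hM
  have hc' : 0 < c / (M : ℝ) ^ 2 := by positivity
  have h1 := summable_gauss D.L D.disc k hc'
  -- the injection `v ↦ M • v`
  let e : LM D M → D.L := fun v => ⟨M • (v : VV D), v.2⟩
  have he : Function.Injective e := by
    intro v w hvw
    have h2 : M • (v : VV D) = M • (w : VV D) := congrArg Subtype.val hvw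
    apply Subtype.ext
    have h3 : (M : ℝ) • (v : VV D) = (M : ℝ) • (w : VV D) := by
      rw [Nat.cast_smul_eq_nsmul, Nat.cast_smul_eq_nsmul]; exact h2
    exact smul_right_injective _ hMr.ne' h3
  have h4 := h1.comp_injective he
  refine Summable.of_nonneg_of_le (fun v => gm_nonneg _ _ _) (fun v => ?_) h4
  have h5 : ‖((e v : D.L) : VV D)‖ = M * ‖(v : VV D)‖ := by
    show ‖M • (v : VV D)‖ = _
    rw [← Nat.cast_smul_eq_nsmul ℝ, norm_smul, Real.norm_of_nonneg hMr.le]
  simp only [Function.comp_apply]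
  rw [h5]
  unfold gm
  have h6 := nrm2_le (v : VV D)
  have h7 := sq_norm_le_nrm2 (v : VV D)
  have h8 := nrm2_nonneg (v : VV D)
  have hM1 : (1 : ℝ) ≤ M := by exact_mod_cast hM
  have h9 : nrm2 (v : VV D) ≤ 3 * (M * ‖(v : VV D)‖) ^ 2 := by
    have : ‖(v : VV D)‖ ^ 2 ≤ (M * ‖(v : VV D)‖) ^ 2 := by
      apply pow_le_pow_left₀ (norm_nonneg _)
      nlinarith [norm_nonneg (v : VV D)]
    linarith
  have h10 : -c * nrm2 (v : VV D) ≤ -(c / (M : ℝ) ^ 2) * (M * ‖(v : VV D)‖) ^ 2 := by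
    have : (c / (M : ℝ) ^ 2) * (M * ‖(v : VV D)‖) ^ 2 = c * ‖(v : VV D)‖ ^ 2 := by
      field_simp
    nlinarith
  have h11 : (0 : ℝ) ≤ 1 + nrm2 (v : VV D) := by linarith
  gcongr

theorem summable_indicator_LM {M : ℕ} (hM : 0 < M) (k : ℕ) {c : ℝ} (hc : 0 < c) :
    Summable (Set.indicator (LM D M) (gm D k c)) :=
  summable_subtype_iff_indicator.mp (summable_LM hM k hc)

theorem finite_LM {M : ℕ} (hM : 0 < M) (T : ℝ) : {v : VV D | v ∈ LM D M ∧ nrm2 v ≤ T}.Finite := by
  have hMr : (0 : ℝ) < M := by exact_mod_cast hM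
  have h1 : (fun v : VV D => M • v) '' {v : VV D | v ∈ LM D M ∧ nrm2 v ≤ T} ⊆
      {v : VV D | v ∈ D.L ∧ ‖v‖ ≤ M * Real.sqrt T} := by
    rintro _ ⟨v, ⟨hv, hT⟩, rfl⟩
    refine ⟨hv, ?_⟩
    show ‖M • v‖ ≤ _
    rw [← Nat.cast_smul_eq_nsmul ℝ, norm_smul, Real.norm_of_nonneg hMr.le]
    have : ‖v‖ ≤ Real.sqrt T := Real.le_sqrt_of_sq_le ((sq_norm_le_nrm2 v).trans hT)
    gcongr
  refine Set.Finite.of_finite_image ((D.disc _).subset h1) ?_
  intro v _ w _ hvw
  have h3 : (M : ℝ) • v = (M : ℝ) • w := by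
    rw [Nat.cast_smul_eq_nsmul, Nat.cast_smul_eq_nsmul]; exact hvw
  exact smul_right_injective _ hMr.ne' h3

theorem countable_LM {M : ℕ} (hM : 0 < M) : (LM D M).Countable := by
  have : LM D M = ⋃ k : ℕ, {v : VV D | v ∈ LM D M ∧ nrm2 v ≤ k} := by
    ext v
    simp only [mem_iUnion, mem_ofPred_eq]
    constructor
    · intro hv
      obtain ⟨k, hk⟩ := exists_nat_ge (nrm2 v)
      exact ⟨k, hv, hk⟩
    · rintro ⟨k, hv, -⟩; exact hv
  rw [this]
  exact Set.countable_iUnion fun k => (finite_LM hM _).countable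

/-! ### a class -/

variable (C : ECls D)

/-- a common denominator of the class -/
def den : ℕ := C.φ_unif.choose

theorem den_pos : 0 < den C := C.φ_unif.choose_spec.1

theorem φ_mem (N : ℕ) (v : VV D) (h : C.φ N v ≠ 0) : v ∈ LM D (den C) :=
  C.φ_unif.choose_spec.2 N v h

theorem S_sub : C.S ⊆ LM D (den C) := by
  intro v hv
  apply φ_mem C 0
  rw [C.φ_one 0 v hv]
  exact one_ne_zero

theorem S_countable : C.S.Countable := (countable_LM (den_pos C)).mono (S_sub C)

theorem summable_S (k : ℕ) {c : ℝ} (hc : 0 < c) :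
    Summable fun v : C.S => gm D k c v := by
  have h1 := summable_LM (D := D) (den_pos C) k hc
  exact h1.comp_injective (i := fun v : C.S => (⟨v, S_sub C v.2⟩ : LM D (den C)))
    (fun v w h => Subtype.ext (congrArg (fun x : LM D (den C) => (x : VV D)) h))

theorem summable_φ (N : ℕ) (k : ℕ) {c : ℝ} (hc : 0 < c) :
    Summable fun v : {v : VV D // C.φ N v ≠ 0} => gm D k c v := by
  have h1 := summable_LM (D := D) (den_pos C) k hc
  exact h1.comp_injective (i := fun v : {v : VV D // C.φ N v ≠ 0} =>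
    (⟨v, φ_mem C N v v.2⟩ : LM D (den C)))
    (fun v w h => Subtype.ext (congrArg (fun x : LM D (den C) => (x : VV D)) h))

/-- `φ_N → 1_S` pointwise. -/
theorem φ_tendsto (v : VV D) : Tendsto (fun N => C.φ N v) atTop (𝓝 (C.S.indicator 1 v)) := by
  by_cases hv : v ∈ C.S
  · rw [Set.indicator_of_mem hv, Pi.one_apply]
    have : (fun N => C.φ N v) = fun _ => (1 : ℝ) := by
      funext N; exact C.φ_one N v hv
    rw [this]
    exact tendsto_const_nhds
  · rw [Set.indicator_of_notMem hv]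
    obtain ⟨N0, hN0⟩ := C.φ_far (|‖v.1.1‖ ^ 2 - ‖v.1.2‖ ^ 2| + ‖v.2‖ ^ 2 + 1)
    refine tendsto_const_nhds.congr' ?_
    filter_upwards [eventually_ge_atTop N0] with N hN
    by_contra h
    have := hN0 N hN v (fun h' => h h'.symm) hv
    linarith

section Limit

variable {F : Type*} [NormedAddCommGroup F] [NormedSpace ℝ F] [CompleteSpace F]

theorem norm_φ_smul_le {κ : VV D → F} {A c : ℝ} {k : ℕ} (hA : 0 ≤ A)
    (hκ : ∀ v, v ∈ LM D (den C) → ‖κ v‖ ≤ A * gm D k c v) (N : ℕ) (v : VV D) :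
    ‖C.φ N v • κ v‖ ≤ A * Set.indicator (LM D (den C)) (gm D k c) v := by
  by_cases h : C.φ N v = 0
  · rw [h, zero_smul, norm_zero]
    exact mul_nonneg hA (Set.indicator_nonneg (fun v _ => gm_nonneg _ _ _) _)
  · have h1 := φ_mem C N v h
    rw [Set.indicator_of_mem h1, norm_smul, Real.norm_eq_abs]
    calc |C.φ N v| * ‖κ v‖ ≤ 1 * ‖κ v‖ := by gcongr; exact C.φ_bdd N v
      _ ≤ A * gm D k c v := by rw [one_mul]; exact hκ v h1

/-- **(Z2)** summability. -/
theorem summable_φ_smul {κ : VV D → F} {A c : ℝ} {k : ℕ} (hA : 0 ≤ A) (hc : 0 < c)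
    (hκ : ∀ v, v ∈ LM D (den C) → ‖κ v‖ ≤ A * gm D k c v) (N : ℕ) :
    Summable fun v : VV D => C.φ N v • κ v :=
  Summable.of_norm_bounded ((summable_indicator_LM (den_pos C) k hc).mul_left A)
    (norm_φ_smul_le C hA hκ N)

theorem summable_S_smul {κ : VV D → F} {A c : ℝ} {k : ℕ} (hc : 0 < c)
    (hκ : ∀ v, v ∈ LM D (den C) → ‖κ v‖ ≤ A * gm D k c v) :
    Summable fun v : C.S => κ v :=
  Summable.of_norm_bounded ((summable_S C k hc).mul_left A) fun v => hκ _ (S_sub C v.2)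

/-- **(Z2)** the limit. -/
theorem tendsto_φ {κ : VV D → F} {A c : ℝ} {k : ℕ} (hA : 0 ≤ A) (hc : 0 < c)
    (hκ : ∀ v, v ∈ LM D (den C) → ‖κ v‖ ≤ A * gm D k c v) :
    Tendsto (fun N => ∑' v : VV D, C.φ N v • κ v) atTop (𝓝 (∑' v : C.S, κ v)) := by
  rw [tsum_subtype C.S κ]
  refine tendsto_tsum_of_dominated_convergence
    ((summable_indicator_LM (den_pos C) k hc).mul_left A) (fun v => ?_)
    (Eventually.of_forall fun N v => norm_φ_smul_le C hA hκ N v)
  have h1 := (φ_tendsto C v).smul_const (κ v)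
  have h2 : C.S.indicator (1 : VV D → ℝ) v • κ v = C.S.indicator κ v := by
    by_cases hv : v ∈ C.S
    · simp [Set.indicator_of_mem hv]
    · simp [Set.indicator_of_notMem hv]
  rwa [h2] at h1

/-- the sum over the support as a sum over everything. -/
theorem tsum_supp (κ : VV D → F) (N : ℕ) :
    ∑' v : {v : VV D // C.φ N v ≠ 0}, C.φ N v • κ v = ∑' v : VV D, C.φ N v • κ v := by
  apply tsum_subtype_eq_of_support_subset (f := fun v : VV D => C.φ N v • κ v)
  intro v hv h0
  apply hv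
  simp only [h0, zero_smul]

theorem tendsto_φ' {κ : VV D → F} {A c : ℝ} {k : ℕ} (hA : 0 ≤ A) (hc : 0 < c)
    (hκ : ∀ v, v ∈ LM D (den C) → ‖κ v‖ ≤ A * gm D k c v) :
    Tendsto (fun N => ∑' v : {v : VV D // C.φ N v ≠ 0}, C.φ N v • κ v) atTop
      (𝓝 (∑' v : C.S, κ v)) := by
  simp_rw [tsum_supp C κ]
  exact tendsto_φ C hA hc hκ

/-- the scalar tail which controls everything uniformly. -/
theorem tail_tendsto (k : ℕ) {c : ℝ} (hc : 0 < c) :
    Tendsto (fun N => ∑' v : VV D, |C.φ N v - C.S.indicator 1 v| * gm D k c v) atTop (𝓝 0) := by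
  have h0 : (0 : ℝ) = ∑' v : VV D, (0 : ℝ) := by simp
  rw [h0]
  refine tendsto_tsum_of_dominated_convergence
    ((summable_indicator_LM (D := D) (den_pos C) k hc).mul_left 2) (fun v => ?_)
    (Eventually.of_forall fun N v => ?_)
  · have h1 := ((φ_tendsto C v).sub_const (C.S.indicator 1 v)).abs.mul_const (gm D k c v)
    simpa using h1
  · by_cases hv : v ∈ LM D (den C)
    · rw [Set.indicator_of_mem hv, Real.norm_of_nonneg
        (mul_nonneg (abs_nonneg _) (gm_nonneg _ _ _))]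
      have h2 : |C.φ N v - C.S.indicator 1 v| ≤ 2 := by
        have h3 := C.φ_bdd N v
        have h4 : |C.S.indicator (1 : VV D → ℝ) v| ≤ 1 := by
          by_cases hS : v ∈ C.S
          · simp [Set.indicator_of_mem hS]
          · simp [Set.indicator_of_notMem hS]
        calc |C.φ N v - C.S.indicator 1 v| ≤ |C.φ N v| + |C.S.indicator (1 : VV D → ℝ) v| :=
              abs_sub _ _
          _ ≤ 2 := by linarith
      exact mul_le_mul_of_nonneg_right h2 (gm_nonneg _ _ _)
    · have h5 : C.φ N v = 0 := by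
        by_contra h; exact hv (φ_mem C N v h)
      have h6 : v ∉ C.S := fun h => hv (S_sub C h)
      simp [h5, Set.indicator_of_notMem h6, Set.indicator_of_notMem hv]

/-- **(Z2)** uniform version. -/
theorem tendstoUniformlyOn_φ {Z : Type*} {K : Set Z} {κ : VV D → Z → F} {A c : ℝ} {k : ℕ}
    (hA : 0 ≤ A) (hc : 0 < c)
    (hκ : ∀ v, v ∈ LM D (den C) → ∀ z ∈ K, ‖κ v z‖ ≤ A * gm D k c v) :
    TendstoUniformlyOn (fun N z => ∑' v : VV D, C.φ N v • κ v z) (fun z => ∑' v : C.S, κ v z)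
      atTop K := by
  rw [Metric.tendstoUniformlyOn_iff]
  intro ε hε
  have h1 := (tail_tendsto C k hc).const_mul A
  rw [mul_zero] at h1
  filter_upwards [h1.eventually (gt_mem_nhds hε)] with N hN z hz
  refine lt_of_le_of_lt ?_ hN
  rw [dist_eq_norm, tsum_subtype C.S (fun v => κ v z)]
  have hκz : ∀ v, v ∈ LM D (den C) → ‖κ v z‖ ≤ A * gm D k c v := fun v hv => hκ v hv z hz
  have hs1 := summable_φ_smul C hA hc hκz N
  have hs2 : Summable (C.S.indicator fun v => κ v z) :=
    summable_subtype_iff_indicator.mp (summable_S_smul C hc hκz)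
  rw [← hs2.tsum_sub hs1]
  have hs3 : Summable fun v : VV D => |C.φ N v - C.S.indicator 1 v| * gm D k c v := by
    refine Summable.of_nonneg_of_le (fun v => mul_nonneg (abs_nonneg _) (gm_nonneg _ _ _))
      (fun v => ?_) ((summable_indicator_LM (D := D) (den_pos C) k hc).mul_left 2)
    by_cases hv : v ∈ LM D (den C)
    · rw [Set.indicator_of_mem hv]
      have h2 : |C.φ N v - C.S.indicator 1 v| ≤ 2 := by
        have h3 := C.φ_bdd N v
        have h4 : |C.S.indicator (1 : VV D → ℝ) v| ≤ 1 := by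
          by_cases hS : v ∈ C.S
          · simp [Set.indicator_of_mem hS]
          · simp [Set.indicator_of_notMem hS]
        calc |C.φ N v - C.S.indicator 1 v| ≤ |C.φ N v| + |C.S.indicator (1 : VV D → ℝ) v| :=
              abs_sub _ _
          _ ≤ 2 := by linarith
      exact mul_le_mul_of_nonneg_right h2 (gm_nonneg _ _ _)
    · have h5 : C.φ N v = 0 := by
        by_contra h; exact hv (φ_mem C N v h)
      have h6 : v ∉ C.S := fun h => hv (S_sub C h)
      simp [h5, Set.indicator_of_notMem h6, Set.indicator_of_notMem hv]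
  rw [← tsum_mul_left]
  refine tsum_of_norm_bounded (hs3.mul_left A).hasSum (fun v => ?_)
  by_cases hv : v ∈ LM D (den C)
  · have h7 : C.S.indicator (fun v => κ v z) v - C.φ N v • κ v z
        = (C.S.indicator (1 : VV D → ℝ) v - C.φ N v) • κ v z := by
      by_cases hS : v ∈ C.S
      · simp [Set.indicator_of_mem hS, sub_smul]
      · simp [Set.indicator_of_notMem hS]
    rw [h7, norm_smul, Real.norm_eq_abs, abs_sub_comm]
    calc |C.φ N v - C.S.indicator 1 v| * ‖κ v z‖
        ≤ |C.φ N v - C.S.indicator 1 v| * (A * gm D k c v) := by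
          gcongr; exact hκz v hv
      _ = A * (|C.φ N v - C.S.indicator 1 v| * gm D k c v) := by ring
  · have h5 : C.φ N v = 0 := by
      by_contra h; exact hv (φ_mem C N v h)
    have h6 : v ∉ C.S := fun h => hv (S_sub C h)
    simp [h5, Set.indicator_of_notMem h6]

end Limit

end

end Crest.Agent.R272.Z2_939
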