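import Crest.Agent.R272.Pol5_898
import Crest.Agent.R272.Z2_939

/-!
Row 272, (E): the bounds of `Pol4_898` in the form consumed by `Z2_939` (`gm`), and the bridge
for an approximating function `C.φ N`.
-/
set_option autoImplicit false

namespace Crest.Agent.R272.Pol_898

open Complex Set Filter Topology MeasureTheory
open scoped ComplexConjugate Real
open Crest.Agent.R272.EBase_641
open Crest.Agent.R272.Z2_939 (nrm2 nrm2_nonneg gm VV LM)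
open Crest.Agent.R272.EPol_429 (sp R2 om2 K2)

noncomputable section

theorem N1_add {n m : ℕ} (v : V1 n × W m) : N1 v.1 + ‖v.2‖ ^ 2 = nrm2 v := by
  simp only [N1, nrm2]

theorem maj0_le {n m : ℕ} (c : ℝ) (v : V1 n × W m) :
    maj0 c v ≤ (1 + nrm2 v) * Real.exp (-c * nrm2 v) := by
  unfold maj0
  rw [N1_add]
  refine mul_le_mul_of_nonneg_right ?_ (Real.exp_nonneg _)
  have : N1 v.1 ≤ nrm2 v := by rw [← N1_add]; nlinarith [sq_nonneg ‖v.2‖]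
  linarith

/-- bound for the potentials, uniform on `‖p‖, ‖z‖, ‖w‖ ≤ r` -/
theorem Psi_bound {Ein : ℂ → ℂ} (h : EinLike Ein) {r : ℝ} (hr0 : 0 ≤ r) (hr1 : r < 1) :
    ∃ A c : ℝ, 0 < A ∧ 0 < c ∧ ∀ {n m : ℕ} (v : V1 n × W m) (p z w : E n), ‖p‖ ≤ r → ‖z‖ ≤ r →
      ‖w‖ ≤ r → ‖(wt v : ℂ) * Psi Ein p v.1 z w‖ ≤ A * ((1 + nrm2 v) * Real.exp (-c * nrm2 v)) := by
  have hd0 : 0 < 1 - r ^ 2 := by nlinarith
  refine ⟨32 * π / (1 - r ^ 2) ^ 3, cr r, by positivity, cr_pos hr0 hr1, ?_⟩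
  intro n m v p z w hp hz hw
  refine (norm_wt_Psi_le h hr0 hr1 v hp hz hw).trans ?_
  have := maj0_le (cr r) v
  unfold maj0 at this
  rw [mul_assoc]
  exact mul_le_mul_of_nonneg_left this (by positivity)

/-- the same in the form of `Z2_939` -/
theorem Psi_bound_gm {Ein : ℂ → ℂ} (h : EinLike Ein) {r : ℝ} (hr0 : 0 ≤ r) (hr1 : r < 1)
    (D : EDat) : ∃ A c : ℝ, 0 ≤ A ∧ 0 < c ∧ ∀ (v : VV D) (p z w : E D.n), ‖p‖ ≤ r → ‖z‖ ≤ r →
      ‖w‖ ≤ r → ‖(wt v : ℂ) * Psi Ein p v.1 z w‖ ≤ A * gm D 1 c v := by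
  obtain ⟨A, c, hA, hc, hb⟩ := Psi_bound h hr0 hr1
  refine ⟨A, c, hA.le, hc, fun v p z w hp hz hw => ?_⟩
  have := hb v p z w hp hz hw
  simpa [gm] using this

/-- bound for the kernels in the form of `Z2_939` -/
theorem K2_bound_gm {r : ℝ} (hr0 : 0 ≤ r) (hr1 : r < 1) (D : EDat) (X Y : E D.n) :
    ∃ A c : ℝ, 0 ≤ A ∧ 0 < c ∧ ∀ (v : VV D) (z w : E D.n), ‖z‖ ≤ r →
      ‖w‖ ≤ r → ‖(wt v : ℂ) * K2 v.1 z w X Y‖ ≤ A * gm D 1 c v := by
  have hd0 : 0 < 1 - r ^ 2 := by nlinarith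
  refine ⟨8 * π / (1 - r ^ 2) ^ 3 * (‖X‖ * ‖Y‖), cr r, by positivity, cr_pos hr0 hr1, ?_⟩
  intro v z w hz hw
  refine (norm_wt_K2_le hr0 hr1 v X Y hz hw).trans ?_
  have h1 := maj0_le (cr r) v
  unfold maj0 at h1
  have h2 : gm D 1 (cr r) v = (1 + nrm2 v) * Real.exp (-cr r * nrm2 v) := by simp [gm]
  rw [h2]
  calc 8 * π / (1 - r ^ 2) ^ 3 * (1 + N1 v.1) * Real.exp (-cr r * (N1 v.1 + ‖v.2‖ ^ 2))
        * (‖X‖ * ‖Y‖)
      = 8 * π / (1 - r ^ 2) ^ 3 * (‖X‖ * ‖Y‖) *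
        ((1 + N1 v.1) * Real.exp (-cr r * (N1 v.1 + ‖v.2‖ ^ 2))) := by ring
    _ ≤ _ := mul_le_mul_of_nonneg_left h1 (by positivity)

theorem summable_maj0 {D : EDat} (C : ECls D) (N : ℕ) {c : ℝ} (hc : 0 < c) :
    Summable fun v : {v : VV D // C.φ N v ≠ 0} => maj0 c v.1 := by
  refine Summable.of_nonneg_of_le (fun v => (maj0_pos _ _).le) (fun v => ?_)
    (Z2_939.summable_φ C N 1 hc)
  have := maj0_le c v.1
  simpa [gm] using this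

/-- **the rank condition** `KN_rk` of `EMain_528.XD` from the theta leaf -/
theorem rk_of_EThetaK (hT : EPol_429.EThetaK) {Ein : ℂ → ℂ} (h : EinLike Ein) (D : EDat)
    (C : ECls D) (N : ℕ) {p : E D.n} (hp : p ∈ Ball D.n) :
    ∃ (r : ℕ) (c : Fin r → ℂ) (A B : Fin r → E D.n → ℂ) (H : Subgroup D.G),
      H.FiniteIndex ∧
      (∀ i, ∀ g ∈ H, ∃ a : ℂ, ∀ z ∈ Ball D.n, A i (act (D.ρ g) z) = A i z + a) ∧
      (∀ i, ∀ g ∈ H, ∃ b : ℂ, ∀ z ∈ Ball D.n, B i (act (D.ρ g) z) = B i z + b) ∧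
      ∀ z ∈ Ball D.n, ∀ w ∈ Ball D.n,
        HasSum (fun v : {v : VV D // C.φ N v ≠ 0} =>
          (C.φ N v.1 : ℂ) * ((wt v.1 : ℂ) * Psi Ein p v.1.1 z w))
          (∑ i, c i * ((A i z - A i p) * conj (B i w - B i p))) := by
  obtain ⟨r, c, A, B, H, hH, hA, hB, hAg, hBg, hK⟩ := hT D (C.φ N) (C.φ_supp N) (C.φ_per N)
  refine ⟨r, c, A, B, H, hH, hAg, hBg, fun z hz w hw => ?_⟩
  refine hasSum_Psi h (fun v : {v : VV D // C.φ N v ≠ 0} => v.1)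
    (fun v => (C.φ N v.1 : ℂ)) (C₀ := 1) ?_ (fun c hc => summable_maj0 C N hc) c A B hA hB ?_
    hp hz hw
  · intro v
    rw [norm_real, Real.norm_eq_abs]; exact C.φ_bdd N v.1
  · intro z hz w hw X Y
    refine (hK z hz w hw X Y).congr_fun ?_ |> fun h => h
    intro v
    push_cast; ring

/-- the same with a constant factor, as an equality of `tsum`s over all vectors -/
theorem rk_tsum (hT : EPol_429.EThetaK) {Ein : ℂ → ℂ} (h : EinLike Ein) (D : EDat)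
    (C : ECls D) (κ : ℂ) (N : ℕ) {p : E D.n} (hp : p ∈ Ball D.n) :
    ∃ (r : ℕ) (c : Fin r → ℂ) (A B : Fin r → E D.n → ℂ) (H : Subgroup D.G),
      H.FiniteIndex ∧
      (∀ i, ∀ g ∈ H, ∃ a : ℂ, ∀ z ∈ Ball D.n, A i (act (D.ρ g) z) = A i z + a) ∧
      (∀ i, ∀ g ∈ H, ∃ b : ℂ, ∀ z ∈ Ball D.n, B i (act (D.ρ g) z) = B i z + b) ∧
      ∀ z ∈ Ball D.n, ∀ w ∈ Ball D.n,
        κ * ∑' v : VV D, C.φ N v • ((wt v : ℂ) * Psi Ein p v.1 z w)
          = ∑ i, c i * ((A i z - A i p) * conj (B i w - B i p)) := by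
  obtain ⟨r, c, A, B, H, hH, hAg, hBg, hK⟩ := rk_of_EThetaK hT h D C N hp
  refine ⟨r, fun i => κ * c i, A, B, H, hH, hAg, hBg, fun z hz w hw => ?_⟩
  have h1 := (hK z hz w hw).tsum_eq
  have h2 : ∑' v : VV D, C.φ N v • ((wt v : ℂ) * Psi Ein p v.1 z w)
      = ∑' v : {v : VV D // C.φ N v ≠ 0},
        (C.φ N v.1 : ℂ) * ((wt v.1 : ℂ) * Psi Ein p v.1.1 z w) := by
    have h3 : (fun v : VV D => C.φ N v • ((wt v : ℂ) * Psi Ein p v.1 z w))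
        = Set.indicator {v : VV D | C.φ N v ≠ 0}
          (fun v : VV D => (C.φ N v : ℂ) * ((wt v : ℂ) * Psi Ein p v.1 z w)) := by
      funext v
      by_cases hv : C.φ N v = 0
      · rw [Set.indicator_of_notMem (by simpa using hv), hv, zero_smul]
      · rw [Set.indicator_of_mem (show v ∈ {v : VV D | C.φ N v ≠ 0} from hv), real_smul]
    rw [h3, ← tsum_subtype {v : VV D | C.φ N v ≠ 0}
      (fun v : VV D => (C.φ N v : ℂ) * ((wt v : ℂ) * Psi Ein p v.1 z w))]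
    rfl
  rw [h2, h1, Finset.mul_sum]
  refine Finset.sum_congr rfl fun i _ => by ring

end

end Crest.Agent.R272.Pol_898
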