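import Mathlib
import Crest.Agent.R266.SCV

/-!
# R272 (S0415), division E, leaf E-WEI, part 1 (helper392)

Infinite products of holomorphic functions of several variables:
`prodF f z = ∏' i, (1 + f i z)`; holomorphy, zeros, splitting off finitely many factors.
-/

set_option autoImplicit false
set_option linter.unusedSectionVars false

open Set Filter Topology Metric Complex

noncomputable section

namespace Crest.Agent.R272.Wei_392

variable {E : Type*} [NormedAddCommGroup E] [NormedSpace ℂ E] [FiniteDimensional ℂ E]
variable {ι : Type*}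

/-- the infinite product -/
def prodF (f : ι → E → ℂ) (z : E) : ℂ := ∏' i, (1 + f i z)

/-- local uniform summable majorants (off finite sets of indices) on compact subsets of `U` -/
structure Maj (f : ι → E → ℂ) (U : Set E) : Prop where
  isOpen : IsOpen U
  diff : ∀ i, DifferentiableOn ℂ (f i) U
  bd : ∀ K ⊆ U, IsCompact K → ∃ u : ι → ℝ, Summable u ∧
    ∀ᶠ i in cofinite, ∀ z ∈ K, ‖f i z‖ ≤ u i

variable {f : ι → E → ℂ} {U : Set E}

theorem Maj.hasProd (h : Maj f U) :
    HasProdLocallyUniformlyOn (fun i z => 1 + f i z) (prodF f) U := by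
  have : LocallyCompactSpace E := by
    have : ProperSpace E := FiniteDimensional.proper ℂ E
    infer_instance
  refine hasProdLocallyUniformlyOn_of_forall_compact h.isOpen ?_
  intro K hK hc
  obtain ⟨u, hu, hb⟩ := h.bd K hK hc
  exact Summable.hasProdUniformlyOn_one_add hc hu hb
    (fun i => ((h.diff i).continuousOn).mono hK)

theorem Maj.analytic (h : Maj f U) : AnalyticOnNhd ℂ (prodF f) U := by
  have h1 : TendstoLocallyUniformlyOn (fun (s : Finset ι) (z : E) => ∏ i ∈ s, (1 + f i z))
      (prodF f) atTop U := h.hasProd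
  refine R266.SCV.analyticOnNhd_of_tendstoLocallyUniformlyOn h.isOpen h1
    (Eventually.of_forall fun s => ?_)
  intro z hz
  have h2 : ∀ i ∈ s, DifferentiableWithinAt ℂ (fun z => 1 + f i z) U z := fun i _ =>
    (differentiableWithinAt_const _).add (h.diff i z hz)
  classical
  induction s using Finset.induction_on with
  | empty => simpa using differentiableWithinAt_const (1 : ℂ)
  | insert i s hi ih =>
    simp only [Finset.prod_insert hi]
    exact (h2 i (Finset.mem_insert_self _ _)).mul
      (ih fun j hj => h2 j (Finset.mem_insert_of_mem hj))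

theorem Maj.summable (h : Maj f U) {z : E} (hz : z ∈ U) : Summable fun i => ‖f i z‖ := by
  obtain ⟨u, hu, hb⟩ := h.bd {z} (singleton_subset_iff.2 hz) isCompact_singleton
  refine hu.of_norm_bounded_eventually ?_
  filter_upwards [hb] with i hi
  simpa using hi z rfl

theorem Maj.multipliable (h : Maj f U) {z : E} (hz : z ∈ U) :
    Multipliable fun i => 1 + f i z :=
  multipliable_one_add_of_summable (h.summable hz)

/-- changing the family on a finite set of indices -/
theorem Maj.indicator (h : Maj f U) (T : Finset ι) [DecidableEq ι] :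
    Maj (fun i z => if i ∈ T then 0 else f i z) U := by
  refine ⟨h.isOpen, fun i => ?_, fun K hK hc => ?_⟩
  · by_cases hi : i ∈ T
    · simp only [hi, if_true]; exact differentiableOn_const 0
    · simp only [hi, if_false]; exact h.diff i
  · obtain ⟨u, hu, hb⟩ := h.bd K hK hc
    refine ⟨u, hu, ?_⟩
    have hT : ∀ᶠ i in cofinite, i ∉ T := by
      rw [Filter.eventually_cofinite]
      simp
    filter_upwards [hb, hT] with i hi hiT z hz
    simp only [hiT, if_false]
    exact hi z hz

/-- splitting off finitely many factors -/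
theorem Maj.split (h : Maj f U) (T : Finset ι) [DecidableEq ι] {z : E} (hz : z ∈ U) :
    prodF f z = (∏ i ∈ T, (1 + f i z)) * prodF (fun i z => if i ∈ T then 0 else f i z) z := by
  have h1 := (h.indicator T).multipliable hz
  have h2 : Multipliable (fun i => if i ∈ T then 1 + f i z else 1) := by
    refine multipliable_of_ne_finset_one (s := T) ?_
    intro i hi
    simp [hi]
  have h3 := h2.tprod_mul h1
  unfold prodF
  rw [tprod_eq_prod (s := T) (f := fun i => if i ∈ T then 1 + f i z else 1)
    (fun i hi => by simp [hi])] at h3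
  have h4 : ∏ i ∈ T, (if i ∈ T then 1 + f i z else 1) = ∏ i ∈ T, (1 + f i z) :=
    Finset.prod_congr rfl fun i hi => by simp [hi]
  rw [h4] at h3
  rw [← h3]
  refine tprod_congr fun i => ?_
  by_cases hi : i ∈ T <;> simp [hi]

theorem Maj.ne_zero (h : Maj f U) {z : E} (hz : z ∈ U) (hf : ∀ i, 1 + f i z ≠ 0) :
    prodF f z ≠ 0 :=
  tprod_one_add_ne_zero_of_summable hf (h.summable hz)

theorem Maj.finite_zero (h : Maj f U) {z : E} (hz : z ∈ U) : {i | 1 + f i z = 0}.Finite := by
  have h1 := (h.summable hz).tendsto_cofinite_zero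
  have h2 : ∀ᶠ i in cofinite, ‖f i z‖ < 1 := h1.eventually (gt_mem_nhds one_pos)
  rw [Filter.eventually_cofinite] at h2
  refine h2.subset ?_
  intro i hi
  simp only [mem_ofPred_eq, not_lt] at hi ⊢
  have h3 : f i z = -1 := by linear_combination hi
  rw [h3]; simp

theorem Maj.eq_zero_iff (h : Maj f U) {z : E} (hz : z ∈ U) :
    prodF f z = 0 ↔ ∃ i, 1 + f i z = 0 := by
  classical
  constructor
  · intro h0
    by_contra hc
    push Not at hc
    exact h.ne_zero hz hc h0
  · rintro ⟨i, hi⟩
    rw [h.split {i} hz]
    simp [hi]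

end Crest.Agent.R272.Wei_392
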