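import Mathlib

/-!
Row 272 (S0414, S0415), division E, leaf E-PRIM (helper368).
Part 1: the exponential integral `E1 x = ∫_x^∞ e^{-t}/t dt`.
-/

set_option autoImplicit false

open MeasureTheory Set Filter Topology
open scoped ContDiff

namespace Crest.Agent.R272.EPr_368

noncomputable section

/-- the exponential integral -/
def E1 (x : ℝ) : ℝ := ∫ t in Ioi x, Real.exp (-t) / t

theorem integrableOn_E1 {x : ℝ} (hx : 0 < x) :
    IntegrableOn (fun t => Real.exp (-t) / t) (Ioi x) := by
  have h1 : IntegrableOn (fun t : ℝ => x⁻¹ * Real.exp (-t)) (Ioi x) :=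
    (integrableOn_exp_neg_Ioi x).const_mul _
  refine h1.mono' ?_ ?_
  · refine (ContinuousOn.aestronglyMeasurable ?_ measurableSet_Ioi)
    exact (Real.continuous_exp.comp continuous_neg).continuousOn.div continuousOn_id
      (fun t ht => ne_of_gt (hx.trans ht))
  · refine (ae_restrict_iff' measurableSet_Ioi).2 (Eventually.of_forall fun t ht => ?_)
    have ht' : x < t := ht
    have ht0 : 0 < t := hx.trans ht'
    rw [Real.norm_of_nonneg (div_nonneg (Real.exp_pos _).le ht0.le), div_eq_mul_inv, mul_comm]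
    exact mul_le_mul_of_nonneg_right (inv_anti₀ hx ht'.le) (Real.exp_pos _).le

theorem E1_eq {a x : ℝ} (ha : 0 < a) (hx : 0 < x) :
    E1 x = E1 a - ∫ t in a..x, Real.exp (-t) / t := by
  have h := intervalIntegral.integral_Ioi_sub_Ioi' (f := fun t => Real.exp (-t) / t)
    (μ := volume) (a := a) (b := x) (integrableOn_E1 ha) (integrableOn_E1 hx)
  unfold E1
  linarith

theorem hasDerivAt_E1 {x : ℝ} (hx : 0 < x) : HasDerivAt E1 (-(Real.exp (-x) / x)) x := by
  have hc : ContinuousAt (fun t : ℝ => Real.exp (-t) / t) x :=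
    (Real.continuous_exp.comp continuous_neg).continuousAt.div continuousAt_id hx.ne'
  have hm : StronglyMeasurableAtFilter (fun t : ℝ => Real.exp (-t) / t) (𝓝 x) volume := by
    refine ContinuousOn.stronglyMeasurableAtFilter (s := Ioi 0) isOpen_Ioi ?_ x hx
    exact (Real.continuous_exp.comp continuous_neg).continuousOn.div continuousOn_id
      (fun t ht => ne_of_gt ht)
  have hi : IntervalIntegrable (fun t : ℝ => Real.exp (-t) / t) volume x x :=
    IntervalIntegrable.refl
  have h1 := intervalIntegral.integral_hasDerivAt_right hi hm hc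
  have h2 : HasDerivAt (fun y => E1 x - ∫ t in x..y, Real.exp (-t) / t)
      (-(Real.exp (-x) / x)) x := by
    simpa using h1.const_sub (E1 x)
  refine h2.congr_of_eventuallyEq ?_
  filter_upwards [Ioi_mem_nhds hx] with y hy
  exact E1_eq hx hy

theorem E1_nonneg {x : ℝ} (hx : 0 < x) : 0 ≤ E1 x := by
  refine setIntegral_nonneg measurableSet_Ioi fun t ht => ?_
  exact div_nonneg (Real.exp_pos _).le (hx.trans ht).le

theorem E1_le {x : ℝ} (hx : 0 < x) : E1 x ≤ Real.exp (-x) / x := by
  have h1 : E1 x ≤ ∫ t in Ioi x, x⁻¹ * Real.exp (-t) := by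
    refine setIntegral_mono_on (integrableOn_E1 hx)
      ((integrableOn_exp_neg_Ioi x).const_mul _) measurableSet_Ioi fun t ht => ?_
    have ht' : x < t := ht
    rw [div_eq_mul_inv, mul_comm]
    exact mul_le_mul_of_nonneg_right (inv_anti₀ hx ht'.le) (Real.exp_pos _).le
  rw [integral_const_mul, integral_exp_neg_Ioi] at h1
  rwa [div_eq_mul_inv, mul_comm]

/-- `(1 - e^{-t})/t` -/
def g1 (t : ℝ) : ℝ := dslope (fun s : ℝ => -Real.exp (-s)) 0 t

theorem g1_of_ne {t : ℝ} (ht : t ≠ 0) : g1 t = (1 - Real.exp (-t)) / t := by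
  unfold g1
  rw [dslope_of_ne _ ht, slope_def_field]
  simp
  ring

theorem contDiff_g1 : ContDiff ℝ ∞ g1 := by
  rw [contDiff_iff_contDiffAt]
  intro t
  by_cases ht : t = 0
  · subst ht
    have h1 : AnalyticAt ℝ (fun s : ℝ => -Real.exp (-s)) 0 := by fun_prop
    obtain ⟨p, hp⟩ := h1
    have h2 : AnalyticAt ℝ g1 0 := ⟨_, hp.has_fpower_series_dslope_fslope⟩
    exact h2.contDiffAt
  · have h3 : ContDiffAt ℝ ∞ (fun t : ℝ => (1 - Real.exp (-t)) / t) t := by
      refine ContDiffAt.div ?_ contDiffAt_id ht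
      fun_prop
    refine h3.congr_of_eventuallyEq ?_
    filter_upwards [isOpen_ne.mem_nhds ht] with s hs
    exact g1_of_ne hs

/-- the entire exponential integral -/
def Ein (x : ℝ) : ℝ := ∫ t in (0 : ℝ)..x, g1 t

theorem hasDerivAt_Ein (x : ℝ) : HasDerivAt Ein (g1 x) x :=
  intervalIntegral.integral_hasDerivAt_right
    (contDiff_g1.continuous.intervalIntegrable _ _)
    (contDiff_g1.continuous.stronglyMeasurableAtFilter _ _) contDiff_g1.continuous.continuousAt

theorem deriv_Ein : deriv Ein = g1 := funext fun x => (hasDerivAt_Ein x).deriv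

theorem contDiff_Ein : ContDiff ℝ ∞ Ein := by
  rw [contDiff_infty_iff_deriv, deriv_Ein]
  exact ⟨fun x => (hasDerivAt_Ein x).differentiableAt, contDiff_g1⟩

/-- the constant in `E1 x = Ec + Ein x - log x` (minus the Euler constant) -/
def Ec : ℝ := E1 1 - Ein 1

theorem E1_eq_Ein {x : ℝ} (hx : 0 < x) : E1 x = Ec + Ein x - Real.log x := by
  have key : ∀ y ∈ Ioi (0 : ℝ), HasDerivAt (fun y => E1 y - Ein y + Real.log y) 0 y := by
    intro y hy
    have hy0 : (0 : ℝ) < y := hy
    have h := ((hasDerivAt_E1 hy0).sub (hasDerivAt_Ein y)).add (Real.hasDerivAt_log hy0.ne')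
    have h0 : -(Real.exp (-y) / y) - g1 y + y⁻¹ = 0 := by
      rw [g1_of_ne hy0.ne']
      field_simp
      ring
    rw [h0] at h
    exact h
  have hconst : ∀ y ∈ Ioi (0 : ℝ), E1 y - Ein y + Real.log y = E1 1 - Ein 1 + Real.log 1 := by
    intro y hy
    refine (isOpen_Ioi (a := (0 : ℝ))).is_const_of_deriv_eq_zero (isPreconnected_Ioi)
      (f := fun y => E1 y - Ein y + Real.log y) ?_ ?_ hy (mem_Ioi.2 one_pos)
    · intro z hz
      exact (key z hz).differentiableAt.differentiableWithinAt
    · intro z hz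
      exact (key z hz).deriv
  have := hconst x hx
  rw [Real.log_one] at this
  unfold Ec
  linarith

theorem contDiffOn_E1 : ContDiffOn ℝ ∞ E1 (Ioi 0) := by
  have h : ContDiffOn ℝ ∞ (fun x => Ec + Ein x - Real.log x) (Ioi 0) := by
    refine ContDiffOn.sub ?_ ?_
    · exact (contDiff_const.add contDiff_Ein).contDiffOn
    · exact Real.contDiffOn_log.mono (fun x hx => ne_of_gt hx)
  exact h.congr fun x hx => E1_eq_Ein hx

end

end Crest.Agent.R272.EPr_368
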