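import Mathlib
import Crest.Agent.R272.EPr1_368

/-!
# R272 (S0415), division E, leaf E-WEI, part 2 (helper392)

The entire function `EE z = z * exp (-Ec - Ein z)` (`= exp (-E1 x)` for real `x > 0`).
-/

set_option autoImplicit false

open Set Filter Topology Metric MeasureTheory
open Crest.Agent.R272.EPr_368

noncomputable section

namespace Crest.Agent.R272.Wei_392

/-- `(1 - e^{-z})/z`, entire -/
def cphi (z : ℂ) : ℂ := dslope (fun s : ℂ => -Complex.exp (-s)) 0 z

theorem cphi_of_ne {z : ℂ} (hz : z ≠ 0) : cphi z = (1 - Complex.exp (-z)) / z := by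
  unfold cphi
  rw [dslope_of_ne _ hz, slope_def_field]
  simp
  ring

theorem cphi_zero : cphi 0 = 1 := by
  unfold cphi
  rw [dslope_same]
  have h : HasDerivAt (fun s : ℂ => -Complex.exp (-s)) 1 0 := by
    have h1 := ((hasDerivAt_neg (0 : ℂ)).cexp).neg
    simp only [neg_zero, Complex.exp_zero, mul_neg, mul_one, neg_neg] at h1
    exact h1
  exact h.deriv

theorem mul_cphi (z : ℂ) : z * cphi z = 1 - Complex.exp (-z) := by
  by_cases hz : z = 0
  · subst hz; simp
  · rw [cphi_of_ne hz]; field_simp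

theorem differentiable_cphi : Differentiable ℂ cphi := by
  rw [← differentiableOn_univ]
  refine (Complex.differentiableOn_dslope (s := univ) (c := (0 : ℂ)) univ_mem).2 ?_
  fun_prop

/-- the entire exponential integral -/
def CEin (z : ℂ) : ℂ := ∫ t in (0 : ℝ)..1, z * cphi ((t : ℂ) * z)

theorem hasDerivAt_CEin (z : ℂ) : HasDerivAt CEin (cphi z) z := by
  obtain ⟨g, hg⟩ := (differentiable_cphi.differentiableOn
    (s := ball (0 : ℂ) (‖z‖ + 1))).isExactOn_ball
  have hmem : z ∈ ball (0 : ℂ) (‖z‖ + 1) := by simp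
  have key : ∀ w ∈ ball (0 : ℂ) (‖z‖ + 1), CEin w = g w - g 0 := by
    intro w hw
    rw [mem_ball_zero_iff] at hw
    have h1 : ∀ t ∈ uIcc (0 : ℝ) 1, HasDerivAt (fun t : ℝ => g ((t : ℂ) * w))
        (w * cphi ((t : ℂ) * w)) t := by
      intro t ht
      rw [uIcc_of_le zero_le_one] at ht
      have h2 : (t : ℂ) * w ∈ ball (0 : ℂ) (‖z‖ + 1) := by
        rw [mem_ball_zero_iff, norm_mul, Complex.norm_real, Real.norm_of_nonneg ht.1]
        calc t * ‖w‖ ≤ 1 * ‖w‖ := by gcongr; exact ht.2
          _ < ‖z‖ + 1 := by simpa using hw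
      have h3 : HasDerivAt (fun t : ℝ => (t : ℂ) * w) w t := by
        simpa using (Complex.ofRealCLM.hasDerivAt (x := t)).mul_const w
      have h4 := (hg _ h2).comp t h3
      simpa [Function.comp_def, mul_comm] using h4
    have h5 := intervalIntegral.integral_eq_sub_of_hasDerivAt h1
      (((continuous_const.mul (differentiable_cphi.continuous.comp
        (Complex.continuous_ofReal.mul continuous_const)))).intervalIntegrable _ _)
    unfold CEin
    rw [h5]
    simp
  have h6 : HasDerivAt (fun w => g w - g 0) (cphi z) z := (hg z hmem).sub_const _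
  refine h6.congr_of_eventuallyEq ?_
  filter_upwards [isOpen_ball.mem_nhds hmem] with w hw
  exact key w hw

theorem differentiable_CEin : Differentiable ℂ CEin := fun z =>
  (hasDerivAt_CEin z).differentiableAt

theorem CEin_zero : CEin 0 = 0 := by simp [CEin]

theorem cphi_ofReal (x : ℝ) : cphi x = (g1 x : ℂ) := by
  by_cases hx : x = 0
  · subst hx
    rw [Complex.ofReal_zero, cphi_zero]
    unfold g1
    rw [dslope_same]
    have h : HasDerivAt (fun s : ℝ => -Real.exp (-s)) 1 0 := by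
      have h1 := ((hasDerivAt_neg (0 : ℝ)).exp).neg
      simp only [neg_zero, Real.exp_zero, mul_neg, mul_one, neg_neg] at h1
      exact h1
    rw [h.deriv, Complex.ofReal_one]
  · rw [cphi_of_ne (by exact_mod_cast hx), g1_of_ne hx]
    push_cast
    rfl

theorem CEin_ofReal (x : ℝ) : CEin x = (Ein x : ℂ) := by
  have h1 : ∀ y : ℝ, HasDerivAt (fun y : ℝ => CEin y - (Ein y : ℂ)) 0 y := by
    intro y
    have h2 : HasDerivAt (fun y : ℝ => CEin y) (cphi y) y := (hasDerivAt_CEin y).comp_ofReal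
    have h3 : HasDerivAt (fun y : ℝ => (Ein y : ℂ)) (g1 y : ℂ) y := (hasDerivAt_Ein y).ofReal_comp
    have h4 := h2.sub h3
    rw [cphi_ofReal, sub_self] at h4
    exact h4
  have h5 := is_const_of_deriv_eq_zero (fun y => (h1 y).differentiableAt)
    (fun y => (h1 y).deriv) x 0
  simp only [Complex.ofReal_zero, CEin_zero] at h5
  have h6 : Ein 0 = 0 := by simp [Ein]
  rw [h6, Complex.ofReal_zero, sub_zero] at h5
  exact sub_eq_zero.1 h5

/-- the complex exponential integral on the right half plane -/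
def CE1 (z : ℂ) : ℂ := ∫ t in Ioi (1 : ℝ), Complex.exp (-z * t) / t

theorem norm_int_le {z : ℂ} {t : ℝ} (ht : t ∈ Ioi (1 : ℝ)) :
    ‖Complex.exp (-z * t) / t‖ ≤ Real.exp (-z.re * t) := by
  have ht' : (1 : ℝ) < t := ht
  have h0 : (0 : ℝ) < t := one_pos.trans ht'
  rw [norm_div, Complex.norm_exp, Complex.norm_real, Real.norm_of_nonneg h0.le]
  have h1 : (-z * (t : ℂ)).re = -z.re * t := by simp
  rw [h1]
  exact div_le_self (Real.exp_pos _).le ht'.le

theorem aesm {z : ℂ} : AEStronglyMeasurable (fun t : ℝ => Complex.exp (-z * t) / t)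
    (volume.restrict (Ioi 1)) := by
  refine ContinuousOn.aestronglyMeasurable ?_ measurableSet_Ioi
  refine ContinuousOn.div (by fun_prop) (by fun_prop) ?_
  intro t ht
  have ht' : (1 : ℝ) < t := ht
  exact_mod_cast (one_pos.trans ht').ne'

theorem integrable_CE1 {z : ℂ} (hz : 0 < z.re) :
    IntegrableOn (fun t : ℝ => Complex.exp (-z * t) / t) (Ioi 1) := by
  refine Integrable.mono' (g := fun t => Real.exp (-z.re * t))
    (exp_neg_integrableOn_Ioi 1 hz) aesm ?_
  exact (ae_restrict_iff' measurableSet_Ioi).2 (Eventually.of_forall fun t ht => norm_int_le ht)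

theorem norm_CE1_le {z : ℂ} (hz : 0 < z.re) : ‖CE1 z‖ ≤ Real.exp (-z.re) / z.re := by
  have h1 : ‖CE1 z‖ ≤ ∫ t in Ioi (1 : ℝ), Real.exp (-z.re * t) := by
    refine norm_integral_le_of_norm_le (exp_neg_integrableOn_Ioi 1 hz) ?_
    exact (ae_restrict_iff' measurableSet_Ioi).2
      (Eventually.of_forall fun t ht => norm_int_le ht)
  have h2 := integral_exp_mul_Ioi (a := -z.re) (by linarith) 1
  rw [h2] at h1
  rw [mul_one] at h1
  calc ‖CE1 z‖ ≤ _ := h1
    _ = Real.exp (-z.re) / z.re := by rw [neg_div_neg_eq]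

theorem hasDerivAt_CE1 {z : ℂ} (hz : 0 < z.re) : HasDerivAt CE1 (-(Complex.exp (-z) / z)) z := by
  have hb : ball z (z.re / 2) ∈ 𝓝 z := ball_mem_nhds _ (by positivity)
  have h := hasDerivAt_integral_of_dominated_loc_of_deriv_le (𝕜 := ℂ)
    (μ := volume.restrict (Ioi (1 : ℝ)))
    (F := fun w (t : ℝ) => Complex.exp (-w * t) / t)
    (F' := fun w (t : ℝ) => -Complex.exp (-w * t)) (x₀ := z)
    (s := ball z (z.re / 2)) (bound := fun t => Real.exp (-(z.re / 2) * t)) hb
    (Eventually.of_forall fun w => aesm) (integrable_CE1 hz)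
    (Continuous.aestronglyMeasurable (by fun_prop)) ?_
    (exp_neg_integrableOn_Ioi 1 (by positivity)) ?_
  · have h2 := h.2
    have h3 : ∫ t in Ioi (1 : ℝ), -Complex.exp (-z * t) = -(Complex.exp (-z) / z) := by
      rw [integral_neg]
      rw [integral_exp_mul_complex_Ioi (by simpa using hz) 1]
      simp
    rw [h3] at h2
    exact h2
  · refine (ae_restrict_iff' measurableSet_Ioi).2 (Eventually.of_forall fun t ht w hw => ?_)
    have ht' : (1 : ℝ) < t := ht
    rw [norm_neg, Complex.norm_exp]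
    have h1 : (-w * (t : ℂ)).re = -w.re * t := by simp
    rw [h1]
    have h2 : z.re / 2 ≤ w.re := by
      have h3 := Complex.abs_re_le_norm (w - z)
      rw [mem_ball, dist_eq_norm] at hw
      have h4 : |w.re - z.re| < z.re / 2 := by
        rw [Complex.sub_re] at h3; exact h3.trans_lt hw
      have := (abs_lt.1 h4).1
      linarith
    exact Real.exp_le_exp.2 (by nlinarith)
  · refine (ae_restrict_iff' measurableSet_Ioi).2 (Eventually.of_forall fun t ht w _ => ?_)
    have ht' : (1 : ℝ) < t := ht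
    have h0 : (t : ℂ) ≠ 0 := by exact_mod_cast (one_pos.trans ht').ne'
    have h1 : HasDerivAt (fun w : ℂ => -w * t) (-(t : ℂ)) w := by
      simpa using (hasDerivAt_id w).neg.mul_const (t : ℂ)
    have h2 := (h1.cexp).div_const (t : ℂ)
    have h3 : Complex.exp (-w * t) * -(t : ℂ) / t = -Complex.exp (-w * t) := by
      rw [div_eq_iff h0]; ring
    rw [h3] at h2
    exact h2

theorem CE1_one : CE1 1 = (E1 1 : ℂ) := by
  unfold CE1 E1
  rw [← integral_complex_ofReal]
  refine setIntegral_congr_fun measurableSet_Ioi fun t _ => ?_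
  simp

theorem CE1_eq {z : ℂ} (hz : 0 < z.re) : CE1 z = Ec + CEin z - Complex.log z := by
  have hopen : IsOpen {z : ℂ | 0 < z.re} := isOpen_lt continuous_const Complex.continuous_re
  have hpre : IsPreconnected {z : ℂ | 0 < z.re} := by
    have : Convex ℝ {z : ℂ | 0 < z.re} := (convex_halfSpace_re_gt 0)
    exact this.isPreconnected
  have key : ∀ y ∈ {z : ℂ | 0 < z.re},
      HasDerivAt (fun y => CE1 y - CEin y + Complex.log y) 0 y := by
    intro y hy
    have hy0 : 0 < y.re := hy
    have hne : y ≠ 0 := by rintro rfl; simp at hy0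
    have h := ((hasDerivAt_CE1 hy0).sub (hasDerivAt_CEin y)).add
      (Complex.hasDerivAt_log (Or.inl hy0))
    have h0 : -(Complex.exp (-y) / y) - cphi y + y⁻¹ = 0 := by
      rw [cphi_of_ne hne]
      field_simp
      ring
    rw [h0] at h
    exact h
  have hconst := hopen.is_const_of_deriv_eq_zero hpre
    (f := fun y => CE1 y - CEin y + Complex.log y)
    (fun y hy => (key y hy).differentiableAt.differentiableWithinAt)
    (fun y hy => (key y hy).deriv) (x := z) (y := 1) hz (by simp)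
  rw [Complex.log_one, CE1_one] at hconst
  have h1 : CEin 1 = (Ein 1 : ℂ) := by simpa using CEin_ofReal 1
  rw [h1] at hconst
  unfold Ec
  push_cast
  linear_combination hconst

/-- the entire function `exp (-E1 z)` -/
def EE (z : ℂ) : ℂ := z * Complex.exp (-(Ec + CEin z))

theorem differentiable_EE : Differentiable ℂ EE := by
  unfold EE
  have := differentiable_CEin
  fun_prop

theorem EE_eq_zero_iff {z : ℂ} : EE z = 0 ↔ z = 0 := by
  unfold EE
  simp [Complex.exp_ne_zero]

theorem EE_zero : EE 0 = 0 := EE_eq_zero_iff.2 rfl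

theorem EE_eq_exp {z : ℂ} (hz : 0 < z.re) : EE z = Complex.exp (-CE1 z) := by
  have hne : z ≠ 0 := by rintro rfl; simp at hz
  rw [CE1_eq hz, EE]
  rw [show -(↑Ec + CEin z - Complex.log z) = Complex.log z + -(↑Ec + CEin z) by ring,
    Complex.exp_add, Complex.exp_log hne]

theorem CE1_ofReal {x : ℝ} (hx : 0 < x) : CE1 x = (E1 x : ℂ) := by
  rw [CE1_eq (by simpa using hx), E1_eq_Ein hx, CEin_ofReal, ← Complex.ofReal_log hx.le]
  push_cast
  rfl

theorem EE_ofReal {x : ℝ} (hx : 0 < x) : EE x = (Real.exp (-E1 x) : ℂ) := by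
  rw [EE_eq_exp (by simpa using hx), CE1_ofReal hx]
  push_cast
  rfl

theorem norm_EE_sub_one_le {z : ℂ} (hz : 1 ≤ z.re) : ‖EE z - 1‖ ≤ 2 * Real.exp (-z.re) := by
  have h0 : 0 < z.re := by linarith
  rw [EE_eq_exp h0]
  have h1 : ‖-CE1 z‖ ≤ Real.exp (-z.re) := by
    rw [norm_neg]
    refine (norm_CE1_le h0).trans (div_le_self (Real.exp_pos _).le hz)
  have h2 : ‖-CE1 z‖ ≤ 1 := h1.trans (by
    rw [Real.exp_le_one_iff]; linarith)
  exact (Complex.norm_exp_sub_one_le h2).trans (by gcongr)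

/-- `EE z = z * (zero-free)` -/
theorem EE_div_exp (z : ℂ) : ∃ u : ℂ, u ≠ 0 ∧ EE z = z * u :=
  ⟨_, Complex.exp_ne_zero _, rfl⟩

theorem hasDerivAt_EE_zero : HasDerivAt EE (Complex.exp (-Ec)) 0 := by
  have h1 : HasDerivAt (fun z : ℂ => -((Ec : ℂ) + CEin z)) (-cphi 0) 0 :=
    ((hasDerivAt_CEin 0).const_add _).neg
  have h2 := (hasDerivAt_id (0 : ℂ)).mul h1.cexp
  have h3 : (1 : ℂ) * Complex.exp (-((Ec : ℂ) + CEin 0)) +
      (id (0 : ℂ)) * (Complex.exp (-((Ec : ℂ) + CEin 0)) * -cphi 0) = Complex.exp (-Ec) := by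
    simp [CEin_zero]
  rw [h3] at h2
  exact h2

end Crest.Agent.R272.Wei_392
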