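import Mathlib
import Crest.Agent.R272.Wei1_392
import Crest.Agent.R272.Wei2_392
import Crest.Agent.R272.EBase_641

/-!
# R272 (S0415), division E, leaf E-WEI, part 3 (helper392)

Products `FP x z = ∏' i, EE (x i z)` of holomorphic functions with prescribed divisor.
-/

set_option autoImplicit false
set_option linter.unusedSectionVars false

open Set Filter Topology Metric
open Crest.Agent.R272.EPr_368 Crest.Agent.R272.EBase_641
open scoped ComplexConjugate

noncomputable section

namespace Crest.Agent.R272.Wei_392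

variable {E' : Type*} [NormedAddCommGroup E'] [NormedSpace ℂ E'] [FiniteDimensional ℂ E']
variable {ι : Type*}

/-- admissible families of exponents: on every compact set the real parts are, off a finite set
of indices, bounded below by a `q i` with `∑ exp (-q i) < ∞` -/
structure EMaj (x : ι → E' → ℂ) (U : Set E') : Prop where
  isOpen : IsOpen U
  diff : ∀ i, DifferentiableOn ℂ (x i) U
  bd : ∀ K ⊆ U, IsCompact K → ∃ q : ι → ℝ, Summable (fun i => Real.exp (-q i)) ∧
    ∀ᶠ i in cofinite, ∀ z ∈ K, q i ≤ (x i z).re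

variable {x : ι → E' → ℂ} {U : Set E'}

theorem EMaj.maj (h : EMaj x U) : Maj (fun i z => EE (x i z) - 1) U := by
  refine ⟨h.isOpen, fun i => ?_, fun K hK hc => ?_⟩
  · exact (differentiable_EE.comp_differentiableOn (h.diff i)).sub_const 1
  · obtain ⟨q, hq, hb⟩ := h.bd K hK hc
    refine ⟨fun i => 2 * Real.exp (-q i), hq.mul_left 2, ?_⟩
    have h1 : ∀ᶠ i in cofinite, Real.exp (-q i) < Real.exp (-1) :=
      hq.tendsto_cofinite_zero.eventually (gt_mem_nhds (Real.exp_pos _))
    filter_upwards [hb, h1] with i hi h1i z hz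
    have h2 : 1 < q i := by
      have := Real.exp_lt_exp.1 h1i
      linarith
    have h3 := hi z hz
    refine (norm_EE_sub_one_le (h2.le.trans h3)).trans ?_
    have : Real.exp (-(x i z).re) ≤ Real.exp (-q i) := Real.exp_le_exp.2 (by linarith)
    linarith

/-- the product `∏' i, EE (x i z)` -/
def FP (x : ι → E' → ℂ) (z : E') : ℂ := ∏' i, EE (x i z)

theorem FP_eq (x : ι → E' → ℂ) (z : E') : FP x z = prodF (fun i z => EE (x i z) - 1) z := by
  unfold FP prodF
  refine tprod_congr fun i => ?_
  ring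

theorem EMaj.analytic (h : EMaj x U) : AnalyticOnNhd ℂ (FP x) U := by
  have h1 := h.maj.analytic
  have h2 : FP x = prodF (fun i z => EE (x i z) - 1) := funext (FP_eq x)
  rw [h2]; exact h1

theorem EMaj.hasProd (h : EMaj x U) :
    HasProdLocallyUniformlyOn (fun i z => EE (x i z)) (FP x) U := by
  have h1 := h.maj.hasProd
  have h2 : FP x = prodF (fun i z => EE (x i z) - 1) := funext (FP_eq x)
  rw [h2]
  have h3 : (fun i z => EE (x i z)) = fun i z => 1 + (EE (x i z) - 1) := by
    funext i z; ring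
  rw [h3]; exact h1

theorem EMaj.multipliable (h : EMaj x U) {z : E'} (hz : z ∈ U) :
    Multipliable fun i => EE (x i z) := by
  have h1 := h.maj.multipliable hz
  refine h1.congr fun i => ?_
  ring

theorem EMaj.hasProd_at (h : EMaj x U) {z : E'} (hz : z ∈ U) :
    HasProd (fun i => EE (x i z)) (FP x z) := (h.multipliable hz).hasProd

theorem EMaj.eq_zero_iff (h : EMaj x U) {z : E'} (hz : z ∈ U) :
    FP x z = 0 ↔ ∃ i, x i z = 0 := by
  rw [FP_eq, h.maj.eq_zero_iff hz]
  refine exists_congr fun i => ?_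
  rw [← EE_eq_zero_iff (z := x i z)]
  constructor <;> intro h1 <;> linear_combination h1

theorem EMaj.finite_zero (h : EMaj x U) {z : E'} (hz : z ∈ U) : {i | x i z = 0}.Finite := by
  have h1 := h.maj.finite_zero hz
  refine h1.subset fun i hi => ?_
  have h2 : x i z = 0 := hi
  show 1 + (EE (x i z) - 1) = 0
  rw [h2, EE_zero]; ring

/-- the zero-free cofactor at `z₀` -/
theorem EMaj.local (h : EMaj x U) {z₀ : E'} (hz₀ : z₀ ∈ U) (T : Finset ι)
    (hT : ∀ i, x i z₀ = 0 → i ∈ T) :
    ∃ u : E' → ℂ, AnalyticOnNhd ℂ u U ∧ u z₀ ≠ 0 ∧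
      ∀ z ∈ U, FP x z = (∏ i ∈ T, x i z) * u z := by
  classical
  have hm := h.maj
  have hi := hm.indicator T
  refine ⟨fun z => (∏ i ∈ T, Complex.exp (-((Ec : ℂ) + CEin (x i z)))) *
    prodF (fun i z => if i ∈ T then 0 else EE (x i z) - 1) z, ?_, ?_, ?_⟩
  · refine AnalyticOnNhd.mul ?_ hi.analytic
    refine Finset.analyticOnNhd_fun_prod T fun i _ => ?_
    refine R266.SCV.analyticOnNhd_of_differentiableOn h.isOpen ?_
    have h1 : DifferentiableOn ℂ (fun z => -((Ec : ℂ) + CEin (x i z))) U :=
      ((differentiable_CEin.comp_differentiableOn (h.diff i)).const_add _).neg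
    exact h1.cexp
  · refine mul_ne_zero (Finset.prod_ne_zero_iff.2 fun i _ => Complex.exp_ne_zero _) ?_
    refine hi.ne_zero hz₀ fun i => ?_
    by_cases hiT : i ∈ T
    · simp [hiT]
    · simp only [hiT, if_false]
      have h2 : x i z₀ ≠ 0 := fun h0 => hiT (hT i h0)
      have h3 : EE (x i z₀) ≠ 0 := fun h0 => h2 (EE_eq_zero_iff.1 h0)
      intro h4
      exact h3 (by linear_combination h4)
  · intro z hz
    rw [FP_eq, hm.split T hz, ← mul_assoc, ← Finset.prod_mul_distrib]
    congr 1
    refine Finset.prod_congr rfl fun i _ => ?_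
    unfold EE
    ring

end Crest.Agent.R272.Wei_392
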