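import Mathlib
import Crest.Agent.R272.Wei3_392

/-!
# R272 (S0415), division E, leaf E-WEI, part 4 (helper392)

Functions on the ball with divisor the union of the hyperplanes `v^⊥`, `v ∈ S` (each with
multiplicity one): `Div n S f`; construction from products `FP`; quotients; logarithms;
transport by the unitary group; constructor of `Root`.
-/

set_option autoImplicit false
set_option linter.unusedSectionVars false

open Set Filter Topology Metric
open Crest.Agent.R272.EPr_368 Crest.Agent.R272.EBase_641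
open scoped ComplexConjugate

noncomputable section

namespace Crest.Agent.R272.Wei_392

variable {n : ℕ}

theorem isOpen_Ball : IsOpen (Ball n) := Metric.isOpen_ball

/-- `f` has divisor `∑_{v ∈ S} v^⊥` on the ball (the first fields of `Root`) -/
structure Div (n : ℕ) (S : Set (V1 n)) (f : E n → ℂ) : Prop where
  hol : DifferentiableOn ℂ f (Ball n)
  fin : ∀ z ∈ Ball n, {v | v ∈ S ∧ lin v z = 0}.Finite
  div : ∀ z ∈ Ball n, ∃ U ∈ 𝓝 z, ∃ u : E n → ℂ, DifferentiableOn ℂ u U ∧ (∀ w ∈ U, u w ≠ 0) ∧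
    ∃ F : Finset (V1 n), (∀ v, v ∈ F ↔ v ∈ S ∧ lin v z = 0) ∧
      ∀ w ∈ U, f w = (∏ v ∈ F, lin v w) * u w

/-- the divisor of a product `FP x`, `x i = lin (v i) * (zero-free)` -/
theorem div_FP {ι : Type*} (v : ι → V1 n) (hv : Function.Injective v) (x c : ι → E n → ℂ)
    (h : EMaj x (Ball n)) (hc : ∀ i, DifferentiableOn ℂ (c i) (Ball n))
    (hc0 : ∀ i, ∀ z ∈ Ball n, c i z ≠ 0)
    (hx : ∀ i, ∀ z ∈ Ball n, x i z = lin (v i) z * c i z) : Div n (range v) (FP x) := by
  classical
  have hz : ∀ i, ∀ z ∈ Ball n, (x i z = 0 ↔ lin (v i) z = 0) := by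
    intro i z hz
    rw [hx i z hz]
    simp [hc0 i z hz]
  refine ⟨h.analytic.differentiableOn, fun z hzB => ?_, fun z hzB => ?_⟩
  · refine ((h.finite_zero hzB).image v).subset ?_
    rintro w ⟨⟨i, rfl⟩, hw⟩
    exact ⟨i, (hz i z hzB).2 hw, rfl⟩
  · have hT := h.finite_zero hzB
    obtain ⟨u, hu, hu0, hfu⟩ := h.local hzB hT.toFinset (fun i hi => by simpa using hi)
    set u' : E n → ℂ := fun w => (∏ i ∈ hT.toFinset, c i w) * u w with hu'
    have hu'd : DifferentiableOn ℂ u' (Ball n) := by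
      have h1 : AnalyticOnNhd ℂ (fun w => ∏ i ∈ hT.toFinset, c i w) (Ball n) :=
        Finset.analyticOnNhd_fun_prod _ fun i _ =>
          R266.SCV.analyticOnNhd_of_differentiableOn isOpen_Ball (hc i)
      exact h1.differentiableOn.mul hu.differentiableOn
    have hu'0 : u' z ≠ 0 :=
      mul_ne_zero (Finset.prod_ne_zero_iff.2 fun i _ => hc0 i z hzB) hu0
    have hcont : ContinuousAt u' z := (hu'd.continuousOn).continuousAt (isOpen_Ball.mem_nhds hzB)
    have hne : ∀ᶠ w in 𝓝 z, u' w ≠ 0 := hcont.eventually_ne hu'0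
    have hB : ∀ᶠ w in 𝓝 z, w ∈ Ball n := isOpen_Ball.mem_nhds hzB
    refine ⟨{w | w ∈ Ball n ∧ u' w ≠ 0}, hB.and hne, u', ?_, fun w hw => hw.2,
      hT.toFinset.image v, ?_, ?_⟩
    · exact hu'd.mono fun w hw => hw.1
    · intro w
      simp only [Finset.mem_image, Set.Finite.mem_toFinset, mem_ofPred_eq, mem_range]
      constructor
      · rintro ⟨i, hi, rfl⟩
        exact ⟨⟨i, rfl⟩, (hz i z hzB).1 hi⟩
      · rintro ⟨⟨i, rfl⟩, hi⟩
        exact ⟨i, (hz i z hzB).2 hi, rfl⟩
    · intro w hw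
      rw [hfu w hw.1, Finset.prod_image (fun a _ b _ hab => hv hab), hu']
      have h1 : ∏ i ∈ hT.toFinset, x i w =
          (∏ i ∈ hT.toFinset, lin (v i) w) * ∏ i ∈ hT.toFinset, c i w := by
        rw [← Finset.prod_mul_distrib]
        exact Finset.prod_congr rfl fun i _ => hx i w hw.1
      rw [h1, mul_assoc]

/-- constructor of `Root` -/
def Div.toRoot {G : Type} [Group G] {ρ : G →* UG n} {S : Set (V1 n)} {k : ℕ} {f : E n → ℂ}
    (h : Div n S f) (j : G → E n → ℂ) (j_hol : ∀ g, DifferentiableOn ℂ (j g) (Ball n))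
    (j_ne : ∀ g, ∀ z ∈ Ball n, j g z ≠ 0)
    (j_mul : ∀ g g', ∀ z ∈ Ball n, j (g * g') z = j g (act (ρ g') z) * j g' z)
    (f_act : ∀ g, ∀ z ∈ Ball n, f (act (ρ g) z) = j g z ^ k * f z) : Root n k ρ S :=
  ⟨f, j, h.hol, h.fin, h.div, j_hol, j_ne, j_mul, f_act⟩

theorem Root.div {G : Type} [Group G] {ρ : G →* UG n} {S : Set (V1 n)} {k : ℕ}
    (r : Root n k ρ S) : Div n S r.f := ⟨r.f_hol, r.fin, r.f_div⟩

theorem Div.eq_zero_iff {S : Set (V1 n)} {f : E n → ℂ} (h : Div n S f) {z : E n}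
    (hz : z ∈ Ball n) : f z = 0 ↔ ∃ v ∈ S, lin v z = 0 := by
  obtain ⟨U, hU, u, -, hu0, F, hF, hf⟩ := h.div z hz
  have hzU : z ∈ U := mem_of_mem_nhds hU
  rw [hf z hzU, mul_eq_zero, Finset.prod_eq_zero_iff]
  constructor
  · rintro (⟨v, hv, h0⟩ | h0)
    · exact ⟨v, ((hF v).1 hv).1, h0⟩
    · exact absurd h0 (hu0 z hzU)
  · rintro ⟨v, hv, h0⟩
    exact Or.inl ⟨v, (hF v).2 ⟨hv, h0⟩, h0⟩

theorem lin_sub (v : V1 n) (z w : E n) : lin v (z + w) = lin v z + inner ℂ v.1 w := by
  simp only [lin, inner_add_right]; ring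

/-- two functions with the same divisor differ by a zero-free holomorphic function -/
theorem Div.quot {S : Set (V1 n)} {f f' : E n → ℂ} (h : Div n S f) (h' : Div n S f')
    (hne : ∀ v ∈ S, v.1 ≠ 0) :
    ∃ q : E n → ℂ, DifferentiableOn ℂ q (Ball n) ∧ (∀ z ∈ Ball n, q z ≠ 0) ∧
      ∀ z ∈ Ball n, f z = q z * f' z := by
  classical
  -- local quotients
  have loc : ∀ z ∈ Ball n, ∃ V : Set (E n), IsOpen V ∧ z ∈ V ∧ V ⊆ Ball n ∧ ∃ q : E n → ℂ,
      DifferentiableOn ℂ q V ∧ (∀ w ∈ V, q w ≠ 0) ∧ ∀ w ∈ V, f w = q w * f' w := by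
    intro z hz
    obtain ⟨U, hU, u, hu, hu0, F, hF, hf⟩ := h.div z hz
    obtain ⟨U', hU', u', hu', hu0', F', hF', hf'⟩ := h'.div z hz
    have hFF : F = F' := by ext v; rw [hF, hF']
    subst hFF
    obtain ⟨V, hV, hVo, hzV⟩ := _root_.mem_nhds_iff.1
      (inter_mem (inter_mem hU hU') (isOpen_Ball.mem_nhds hz))
    refine ⟨V, hVo, hzV, fun w hw => (hV hw).2, fun w => u w / u' w, ?_, ?_, ?_⟩
    · have h1 : DifferentiableOn ℂ (u')⁻¹ V := (hu'.mono fun w hw => (hV hw).1.2).inv
        fun w hw => hu0' w (hV hw).1.2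
      have h2 := (hu.mono fun w hw => (hV hw).1.1).mul h1
      refine h2.congr fun w _ => ?_
      simp [div_eq_mul_inv]
    · intro w hw
      exact div_ne_zero (hu0 w (hV hw).1.1) (hu0' w (hV hw).1.2)
    · intro w hw
      rw [hf w (hV hw).1.1, hf' w (hV hw).1.2]
      have := hu0' w (hV hw).1.2
      field_simp
  choose! V hVo hzV hVB q hq hq0 hfq using loc
  -- the zero set has empty interior
  have dense : ∀ z ∈ Ball n, ∀ W ∈ 𝓝 z, ∃ w ∈ W, w ∈ Ball n ∧ f' w ≠ 0 := by
    intro z hz W hW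
    obtain ⟨U', hU', u', hu', hu0', F, hF, hf'⟩ := h'.div z hz
    obtain ⟨O, hO, hOo, hzO⟩ := _root_.mem_nhds_iff.1
      (inter_mem (inter_mem hW hU') (isOpen_Ball.mem_nhds hz))
    obtain ⟨ε, hε, hball⟩ := Metric.isOpen_iff.1 hOo z hzO
    -- the complement of finitely many proper affine hyperplanes is dense
    have key : ∃ w ∈ ball z ε, ∏ v ∈ F, lin v w ≠ 0 := by
      have hvF : ∀ v ∈ F, v.1 ≠ 0 := fun v hv => hne v ((hF v).1 hv).1
      have : ∀ G : Finset (V1 n), (∀ v ∈ G, v.1 ≠ 0) →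
          Dense {w : E n | ∏ v ∈ G, lin v w ≠ 0} ∧ IsOpen {w : E n | ∏ v ∈ G, lin v w ≠ 0} := by
        intro G
        induction G using Finset.induction_on with
        | empty =>
          intro _
          simp
        | insert a G ha ih =>
          intro hG
          obtain ⟨ih1, ih2⟩ := ih fun v hv => hG v (Finset.mem_insert_of_mem hv)
          have e1 : {w : E n | ∏ v ∈ insert a G, lin v w ≠ 0} =
              {w | lin a w ≠ 0} ∩ {w | ∏ v ∈ G, lin v w ≠ 0} := by
            ext w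
            simp [Finset.prod_insert ha]
          have e2 : IsOpen {w : E n | lin a w ≠ 0} :=
            isOpen_ne_fun (differentiable_lin a).continuous continuous_const
          have e3 : Dense {w : E n | lin a w ≠ 0} := by
            rw [Metric.dense_iff]
            intro w r hr
            by_cases hw : lin a w = 0
            · have ha1 : a.1 ≠ 0 := hG a (Finset.mem_insert_self _ _)
              have ha2 : (0 : ℝ) < ‖a.1‖ := norm_pos_iff.2 ha1
              refine ⟨w + ((r / 2 / ‖a.1‖ : ℝ) : ℂ) • a.1, ?_, ?_⟩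
              · rw [mem_ball, dist_eq_norm, add_sub_cancel_left, norm_smul, Complex.norm_real,
                  Real.norm_of_nonneg (by positivity)]
                rw [div_mul_cancel₀ _ ha2.ne']
                linarith
              · show lin a _ ≠ 0
                rw [lin_sub, hw, zero_add, inner_smul_right, inner_self_eq_norm_sq_to_K]
                refine mul_ne_zero ?_ ?_
                · have : r / 2 / ‖a.1‖ ≠ 0 := by positivity
                  exact_mod_cast this
                · simpa using ha1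
            · exact ⟨w, mem_ball_self hr, hw⟩
          rw [e1]
          exact ⟨e3.inter_of_isOpen_left ih1 e2, e2.inter ih2⟩
      obtain ⟨w, hw1, hw2⟩ := (this F hvF).1.inter_open_nonempty _ isOpen_ball ⟨z, mem_ball_self hε⟩
      exact ⟨w, hw1, hw2⟩
    obtain ⟨w, hw, hw0⟩ := key
    have hwO := hO (hball hw)
    refine ⟨w, hwO.1.1, hwO.2, ?_⟩
    rw [hf' w hwO.1.2]
    exact mul_ne_zero hw0 (hu0' w hwO.1.2)
  -- two local quotients agree
  have agree : ∀ z ∈ Ball n, ∀ z' ∈ Ball n, ∀ w ∈ V z ∩ V z', q z w = q z' w := by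
    intro z hz z' hz' w hw
    have hcl : w ∈ closure {y | y ∈ V z ∩ V z' ∧ f' y ≠ 0} := by
      rw [mem_closure_iff_nhds]
      intro W hW
      have hVV : V z ∩ V z' ∈ 𝓝 w := ((hVo z hz).inter (hVo z' hz')).mem_nhds hw
      obtain ⟨y, hy, -, hy0⟩ := dense w (hVB z hz hw.1) _ (inter_mem hW hVV)
      exact ⟨y, hy.1, hy.2, hy0⟩
    have hc : ContinuousOn (fun y => q z y - q z' y) (V z ∩ V z') :=
      ((hq z hz).continuousOn.mono inter_subset_left).sub
        ((hq z' hz').continuousOn.mono inter_subset_right)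
    have hc' : ContinuousWithinAt (fun y => q z y - q z' y)
        {y | y ∈ V z ∩ V z' ∧ f' y ≠ 0} w := (hc w hw).mono fun y hy => hy.1
    have h0 : ∀ y ∈ {y | y ∈ V z ∩ V z' ∧ f' y ≠ 0}, q z y - q z' y = 0 := by
      intro y hy
      have h1 := hfq z hz y hy.1.1
      have h2 := hfq z' hz' y hy.1.2
      have h3 : (q z y - q z' y) * f' y = 0 := by rw [sub_mul, ← h1, ← h2, sub_self]
      exact (mul_eq_zero.1 h3).resolve_right hy.2
    have h4 : q z w - q z' w ∈ closure ({0} : Set ℂ) :=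
      hc'.mem_closure hcl (fun y hy => by simpa using h0 y hy)
    rw [closure_singleton] at h4
    exact sub_eq_zero.1 h4
  refine ⟨fun z => q z z, ?_, fun z hz => hq0 z hz z (hzV z hz), fun z hz => hfq z hz z (hzV z hz)⟩
  intro z hz
  have h1 : DifferentiableAt ℂ (q z) z := (hq z hz).differentiableAt ((hVo z hz).mem_nhds (hzV z hz))
  refine (h1.congr_of_eventuallyEq ?_).differentiableWithinAt
  filter_upwards [(hVo z hz).mem_nhds (hzV z hz)] with w hw
  exact agree w (hVB z hz hw) z hz w ⟨hzV w (hVB z hz hw), hw⟩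

end Crest.Agent.R272.Wei_392
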