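import Crest.Agent.R272.EXD3_429
import Crest.Agent.R272.Pol6_898
import Crest.Agent.R272.Wei4_392
import Crest.Agent.R272.EMain_528

/-!
Row 272, division E (helper429): `EThetaK → EMain`.
-/

set_option autoImplicit false

open Complex Set Filter Topology
open scoped ComplexConjugate Real

namespace Crest.Agent.R272.EXD_429

open Crest.Agent.R272.EBase_641
open Crest.Agent.R272.Pol_898 (qq RR QQ Psi EinLike cr N1 InvKer)
open Crest.Agent.R272.Z2_939 (VV nrm2 gm LM den)
open Crest.Agent.R272.Wei_392 (CEin EE EMaj Div)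
open Crest.Agent.R272.EMain_528 (XD da)

noncomputable section

variable {D : EDat}

theorem einLike_CEin : EinLike CEin where
  diff := Wei_392.differentiable_CEin
  der x := by
    rw [(Wei_392.hasDerivAt_CEin x).deriv]
    exact Wei_392.mul_cphi x

theorem EE_eq_EEc : EE = Ex_429.EEc CEin (-(EPr_368.Ec : ℂ)) := by
  funext x
  simp only [Wei_392.EE, Ex_429.EEc]
  congr 2; ring

variable (C : ECls D)

/-- the exponents -/
def xv (C : ECls D) (w : E D.n) (v : C.S) (z : E D.n) : ℂ := π * RR v.1.1 z w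

theorem emaj_xv {w : E D.n} (hw : w ∈ Ball D.n) : EMaj (xv C w) (Ball D.n) where
  isOpen := Metric.isOpen_ball
  diff v := by
    have h1 : Differentiable ℂ fun z : E D.n => qq z w := by
      have : (fun z : E D.n => qq z w) = fun z => 1 - (innerSL ℂ w) z := by
        funext z; simp [qq]
      rw [this]
      exact ((innerSL ℂ w).differentiable).const_sub _
    show DifferentiableOn ℂ (fun z : E D.n => (π : ℂ) * RR v.1.1 z w) (Ball D.n)
    simp only [Pol_898.RR, div_eq_mul_inv]
    exact ((((differentiable_lin v.1.1).differentiableOn).mul_const _).mul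
      (h1.differentiableOn.inv fun z hz => Pol_898.qq_ne hz hw)).const_mul _
  bd K hK hKc := by
    have hw' := mem_Ball.1 hw
    -- a radius containing K
    obtain ⟨r, hr0, hr1, hrw, hrK⟩ : ∃ r : ℝ, 0 ≤ r ∧ r < 1 ∧ ‖w‖ ≤ r ∧ ∀ z ∈ K, ‖z‖ ≤ r := by
      rcases K.eq_empty_or_nonempty with rfl | hne
      · exact ⟨‖w‖, norm_nonneg _, hw', le_rfl, by simp⟩
      · obtain ⟨z0, hz0, hmax⟩ := hKc.exists_isMaxOn hne continuous_norm.continuousOn
        have hz0' := mem_Ball.1 (hK hz0)
        refine ⟨max ‖w‖ ‖z0‖, (norm_nonneg w).trans (le_max_left _ _), max_lt hw' hz0',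
          le_max_left _ _, fun z hz => (hmax hz).trans (le_max_right _ _)⟩
    have hc := Pol_898.cr_pos hr0 hr1
    refine ⟨fun v => cr r * nrm2 v.1 - (cr r * C.m2 + π / 2 * C.m1), ?_, ?_⟩
    · have h1 := (Z2_939.summable_S C 0 hc).mul_left (Real.exp (cr r * C.m2 + π / 2 * C.m1))
      refine h1.congr fun v => ?_
      simp only [gm, pow_zero, one_mul]
      rw [← Real.exp_add]
      congr 1; ring
    · refine Eventually.of_forall fun v z hz => ?_
      have h1 := Pol_898.gb_RR hr0 hr1 v.1.1 (hrK z hz) hrw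
      have h2 : nrm2 v.1 = N1 v.1.1 + C.m2 := by
        have : ‖v.1.2‖ ^ 2 = C.m2 := C.norm2 _ v.2
        simp only [nrm2, Pol_898.N1, this]
      rw [C.norm1 _ v.2] at h1
      show cr r * nrm2 v.1 - (cr r * C.m2 + π / 2 * C.m1) ≤ ((π : ℂ) * RR v.1.1 z w).re
      rw [Complex.re_ofReal_mul, h2]
      linarith

theorem fst_inj : Function.Injective fun v : C.S => v.1.1 := by
  intro a b hab
  exact Subtype.ext (Z2_939.fst_injOn C a.2 b.2 hab)

theorem range_fst : Set.range (fun v : C.S => v.1.1) = Prod.fst '' C.S := by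
  ext v
  constructor
  · rintro ⟨a, rfl⟩; exact ⟨a.1, a.2, rfl⟩
  · rintro ⟨a, ha, rfl⟩; exact ⟨⟨a, ha⟩, rfl⟩

/-- the function of the class -/
def ff (C : ECls D) (p z : E D.n) : ℂ := FP EE D C.S p z

theorem div_ff {p : E D.n} (hp : p ∈ Ball D.n) (hp0 : ∀ v ∈ C.S, lin v.1 p ≠ 0) :
    Div D.n (Prod.fst '' C.S) (ff C p) := by
  rw [← range_fst]
  refine Wei_392.div_FP (fun v : C.S => v.1.1) (fst_inj C) (xv C p)
    (fun v z => π * conj (lin v.1.1 p) / qq z p) (emaj_xv C hp) ?_ ?_ ?_
  · intro v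
    have h1 : Differentiable ℂ fun z : E D.n => qq z p := by
      have : (fun z : E D.n => qq z p) = fun z => 1 - (innerSL ℂ p) z := by
        funext z; simp [qq]
      rw [this]
      exact ((innerSL ℂ p).differentiable).const_sub _
    simp only [div_eq_mul_inv]
    exact (h1.differentiableOn.inv fun z hz => Pol_898.qq_ne hz hp).const_mul _
  · intro v z hz
    refine div_ne_zero (mul_ne_zero (by exact_mod_cast Real.pi_ne_zero) ?_) (Pol_898.qq_ne hz hp)
    simpa using hp0 _ v.2
  · intro v z hz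
    simp only [xv, Pol_898.RR]; ring

theorem ff_ne {p : E D.n} (hp : p ∈ Ball D.n) (hp0 : ∀ v ∈ C.S, lin v.1 p ≠ 0) :
    ff C p p ≠ 0 := by
  have h : ff C p p = 0 ↔ ∃ i, xv C p i p = 0 := (emaj_xv C hp).eq_zero_iff hp
  rw [Ne, h]
  rintro ⟨v, hv⟩
  have h1 := hp0 _ v.2
  simp only [xv, Pol_898.RR, mul_eq_zero, div_eq_zero_iff] at hv
  rcases hv with hv | (hv | hv) | hv
  · exact Real.pi_ne_zero (by exact_mod_cast hv)
  · exact h1 hv
  · exact h1 (by simpa using hv)
  · exact Pol_898.qq_ne hp hp hv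

/-- **production of `XD`** -/
theorem nonempty_XD (hT : EPol_429.EThetaK) (D : EDat) (C : ECls D) :
    Nonempty (XD D (Prod.fst '' C.S)) := by
  have hE := einLike_CEin
  obtain ⟨p, hp, hp0'⟩ := Z2_939.exists_base_ball (fun _ : Unit => C)
  have hp0 : ∀ v ∈ C.S, lin v.1 p ≠ 0 := hp0' ()
  have hdiv := div_ff C hp hp0
  refine ⟨{
    p := p
    hp := hp
    f := ff C p
    f_hol := hdiv.hol
    fin := hdiv.fin
    f_div := hdiv.div
    f_p := ff_ne C hp hp0
    K := KK CEin C p
    K_hol := fun w hw => KK_hol C hE hp hw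
    K_inv := ⟨fun w _ => KK_left C p w, fun z _ => KK_right C p z,
      fun g z hz w hw => KK_inv C hE hp g hz hw⟩
    Cg := fun g => ff C p (da D g p) / ff C p p
    f_act := fun g z hz => ?_
    KN := KN CEin C p
    KN_inv := fun N => ⟨fun w _ => KN_left C p N w, fun z _ => KN_right C p N z,
      fun g z hz w hw => KN_inv C hE hp N g hz hw⟩
    KN_lim := fun z hz w hw => KN_lim C hE hp hz hw
    KN_rk := fun N => ?_ }⟩
  · have h := FP_automorphy (D := D) (S := C.S) (Ein := CEin) (-(EPr_368.Ec : ℂ))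
      (fun g v hv => C.inv g v hv) g hp hz
      (fun z hz w hw => by
        rw [← EE_eq_EEc]
        exact (emaj_xv C hw).multipliable hz)
      (fun z hz w hw => summable_Psi_S C hE hp hz hw)
      (by rw [← EE_eq_EEc]; exact ff_ne C hp hp0)
    rw [← EE_eq_EEc] at h
    have e : da D g⁻¹ p = act (D.ρ g)⁻¹ p := by simp only [da, map_inv]
    rw [e]
    exact h
  · obtain ⟨r, c, A, B, H, hH, hA, hB, hK⟩ :=
      Pol_898.rk_of_EThetaK hT hE D C N hp
    refine ⟨r, fun i => ((w0 C)⁻¹ : ℂ) * c i, A, B, H, hH, hA, hB, fun z hz w hw => ?_⟩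
    rw [KN_eq]
    have h1 := (hK z hz w hw).tsum_eq
    have h2 : ∑' v : {v : VV D // C.φ N v ≠ 0},
        ((C.φ N v.1 * wt v.1 : ℝ) : ℂ) * Psi CEin p v.1.1 z w
        = ∑ i, c i * ((A i z - A i p) * conj (B i w - B i p)) := by
      rw [← h1]
      refine tsum_congr fun v => ?_
      push_cast; ring
    rw [h2, Finset.mul_sum]
    exact Finset.sum_congr rfl fun i _ => by ring

/-- **Division E, analytic half**: the theta leaf implies the main theorem. -/
theorem emain_of_EThetaK (hT : EPol_429.EThetaK) : EMain :=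
  EMain_528.emain_of_XD fun D C => nonempty_XD hT D C

end

end Crest.Agent.R272.EXD_429
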