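import Crest.Agent.R272.EThDefs_445

/-!
R272, division E, road B of the theta leaf (helper528): coherent states.

`Co n m` = coordinates `(0-slot, space, W)`, `her A B = ⟨A,B⟩` linear in `A`,
`uu v = (conj v₀, v', v₂)`, `G v A B = ⟨π(v) e_A, e_B⟩`.
`Core L` = rank one identity for the coherent states of an `ee`-self-dual lattice.
-/

set_option autoImplicit false

open scoped ComplexConjugate Topology Real

namespace Crest.Agent.R272.Sup_528

open Crest.Agent.R272.EBase_641 Crest.Agent.R272.EBase2_641 Crest.Agent.R272.EThDefs_445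

noncomputable section

variable {n m : ℕ}

/-- complex coordinates: (0-slot, space part, definite part) -/
abbrev Co (n m : ℕ) := ℂ × E n × W m

/-- the Hermitian product, linear in `A` -/
def her (A B : Co n m) : ℂ := A.1 * conj B.1 + inner ℂ B.2.1 A.2.1 + inner ℂ B.2.2 A.2.2

/-- the square of the norm -/
def nsq (A : Co n m) : ℝ := ‖A.1‖ ^ 2 + ‖A.2.1‖ ^ 2 + ‖A.2.2‖ ^ 2

/-- complex coordinates of a real vector -/
def uu (v : V1 n × W m) : Co n m := (conj v.1.2, v.1.1, v.2)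

/-- `⟨π(v) e_A, e_B⟩` -/
def G (v : V1 n × W m) (A B : Co n m) : ℂ :=
  Complex.exp (π * (-(nsq (uu v) : ℂ) / 2 + her A B - her A (uu v) + her (uu v) B))

/-- **the core rank one identity** -/
structure Core (L : AddSubgroup (V1 n × W m)) where
  ε : V1 n × W m → ℂ
  ε_pm : ∀ l ∈ L, ε l = 1 ∨ ε l = -1
  ε_add : ∀ l ∈ L, ∀ l' ∈ L, ε (l + l') = ε l * ε l' * ph (ee l l')
  T : Co n m → ℂ
  T_ne : ∃ A, T A ≠ 0
  core : ∀ A B : Co n m,
    HasSum (fun l : L => ε l * G (l : V1 n × W m) A B) (T A * conj (T B))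

/-- the generating kernel `⟨π(v) vac_{z,p}, vac_{w,q}⟩`, `vac_{z,p} = ∫ e_{(α; ᾱ z + p; 0)} dμ(α)` -/
def psi2 (v : V1 n × W m) (z p w q : E n) : ℂ :=
  (ss z w)⁻¹ * ((wt v : ℝ) : ℂ) * Complex.exp (π * (inner ℂ q p - inner ℂ v.1.1 p
    + inner ℂ q v.1.1 + (inner ℂ w p + conj (lin v.1 w)) * (inner ℂ q z - lin v.1 z) / ss z w))

theorem psi2_zero (v : V1 n × W m) (z w : E n) : psi2 v z 0 w 0 = psi v z w := by
  simp only [psi2, psi, Rp, inner_zero_left, inner_zero_right]
  congr 2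
  ring

end

end Crest.Agent.R272.Sup_528
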