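import Crest.Agent.R272.SympZ_771
import Crest.Agent.R272.EBase_641

/-!
Row 272, division E, leaf ET2B-SYMPZ (helper771): the instance for `EBase_641.EDat`.
`exists_lag D` : Lagrangian splitting `(p, q : Fin (n+1+m) → V1 n × W m)` of `D.L` for `ee`.
-/

set_option autoImplicit false

open Module
open scoped ComplexConjugate

namespace Crest.Agent.R272.SympE_771

open EBase_641 SympZ_771

noncomputable section

variable {n m : ℕ}

/-- `ee` as a real bilinear map -/
def eeB (n m : ℕ) : (V1 n × W m) →ₗ[ℝ] (V1 n × W m) →ₗ[ℝ] ℝ :=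
  LinearMap.mk₂ ℝ (fun v w => ee v w)
    (by
      intro a b c
      simp only [ee, Prod.fst_add, Prod.snd_add, hh_add_left, inner_add_right, Complex.add_im]
      ring)
    (by
      intro c a b
      have h1 : ((c • a).1 : V1 n) = ((c : ℂ)) • a.1 := by
        rw [Prod.smul_fst]; rfl
      have h2 : ((c • a).2 : W m) = ((c : ℂ)) • a.2 := by
        rw [Prod.smul_snd]; rfl
      simp only [ee, h1, h2, hh_smul_left, inner_smul_right, smul_eq_mul, Complex.re_ofReal_mul,
        Complex.im_ofReal_mul]
      ring)
    (by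
      intro a b c
      simp only [ee, Prod.fst_add, Prod.snd_add, hh_add_right, inner_add_left, Complex.add_im]
      ring)
    (by
      intro c a b
      have h1 : ((c • b).1 : V1 n) = ((c : ℂ)) • b.1 := by
        rw [Prod.smul_fst]; rfl
      have h2 : ((c • b).2 : W m) = ((c : ℂ)) • b.2 := by
        rw [Prod.smul_snd]; rfl
      simp only [ee, h1, h2, hh_smul_right, inner_smul_left, smul_eq_mul, Complex.conj_ofReal,
        Complex.im_ofReal_mul]
      ring)

@[simp] theorem eeB_apply (v w : V1 n × W m) : eeB n m v w = ee v w := rfl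

theorem ee_self (v : V1 n × W m) : ee v v = 0 := by
  have h1 : (hh v.1 v.1).im = 0 := by rw [hh_self, Complex.ofReal_im]
  have h2 : (inner ℂ v.2 v.2 : ℂ).im = 0 := by
    rw [inner_self_eq_norm_sq_to_K]
    simp [← Complex.ofReal_pow]
  rw [ee, h1, h2, add_zero]

theorem ee_skew (v w : V1 n × W m) : ee v w = - ee w v :=
  Lag.skewB (B := eeB n m) (fun x => ee_self x) v w

theorem selfDual (D : EDat) : SelfDual (eeB D.n D.m) D.L where
  alt := fun x => ee_self x
  disc := D.disc
  span := D.span
  int := D.int
  dual := D.dual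

theorem finrank_VW : Module.finrank ℝ (V1 n × W m) = 2 * (n + 1 + m) := by
  rw [Module.finrank_prod, Module.finrank_prod]
  have h1 : Module.finrank ℝ (E n) = 2 * n := by
    rw [← Module.finrank_mul_finrank ℝ ℂ (E n)]
    simp [Complex.finrank_real_complex]
  have h2 : Module.finrank ℝ (W m) = 2 * m := by
    rw [← Module.finrank_mul_finrank ℝ ℂ (W m)]
    simp [Complex.finrank_real_complex]
  rw [h1, h2, Complex.finrank_real_complex]
  ring

/-- **Lagrangian splitting of the lattice of an `EDat`.** -/
theorem exists_lag (D : EDat) :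
    ∃ p q : Fin (D.n + 1 + D.m) → V1 D.n × W D.m, Lag (eeB D.n D.m) D.L p q := by
  obtain ⟨N, p, q, h⟩ := SympZ_771.exists_lag (selfDual D)
  have h1 := h.finrank_eq (selfDual D).alt
  rw [finrank_VW] at h1
  have hN : N = D.n + 1 + D.m := by omega
  subst hN
  exact ⟨p, q, h⟩

end

end Crest.Agent.R272.SympE_771
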