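import Crest.Agent.R272.ETh5_445
import Crest.Agent.R272.SupDefs_528
import Crest.Agent.R272.SympE_771

/-!
# Row 272, division E (helper445): the core of leaf T2 in the language of `SupDefs_528`.
-/

set_option autoImplicit false
set_option linter.unusedSectionVars false

open Complex
open scoped ComplexConjugate Real

namespace Crest.Agent.R272.Core_445

open Crest.Agent.R272.EBase_641 Crest.Agent.R272.EBase2_641 Crest.Agent.R272.EThDefs_445
  Crest.Agent.R272.Sup_528 Crest.Agent.R272.SympZ_771 Crest.Agent.R272.SympE_771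

noncomputable section

variable {n m : ℕ}

/-- the index set of the coordinates -/
abbrev II (n m : ℕ) := Option (Fin n ⊕ Fin m)

/-- coordinates -/
def toI (A : Co n m) : II n m → ℂ
  | none => A.1
  | some (Sum.inl j) => A.2.1 j
  | some (Sum.inr k) => A.2.2 k

lemma toI_surjective : Function.Surjective (toI (n := n) (m := m)) := by
  intro f
  refine ⟨(f none, WithLp.toLp 2 (fun j => f (some (Sum.inl j))),
    WithLp.toLp 2 (fun k => f (some (Sum.inr k)))), ?_⟩
  funext i
  rcases i with _ | (j | k) <;> rfl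

lemma hp_toI (A B : Co n m) : ETh445.hp (toI A) (toI B) = her A B := by
  simp only [ETh445.hp, Fintype.sum_option, Fintype.sum_sum_type, her, toI, PiLp.inner_apply,
    RCLike.inner_apply]
  ring

lemma nsq_toI (A : Co n m) : ETh445.nsq (toI A) = Sup_528.nsq A := by
  simp only [ETh445.nsq, Fintype.sum_option, Fintype.sum_sum_type, Sup_528.nsq, toI,
    EuclideanSpace.norm_sq_eq]
  ring

lemma G_eq (v : V1 n × W m) (A B : Co n m) :
    G v A B = ETh445.hei (toI (uu v)) (ETh445.eS (toI B)) (toI A) := by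
  rw [ETh445.hei_eS, hp_toI, hp_toI, hp_toI, nsq_toI]
  rfl

lemma im_her_uu (v w : V1 n × W m) : (her (uu v) (uu w)).im = ee v w := by
  simp only [her, uu, ee, hh, add_im, sub_im, Complex.conj_conj]
  have : (conj v.1.2 * w.1.2).im = -(v.1.2 * conj w.1.2).im := by
    rw [← Complex.conj_im]
    congr 1
    simp
  rw [this]
  ring

lemma toI_uu_add (v w : V1 n × W m) : toI (uu (v + w)) = toI (uu v) + toI (uu w) := by
  funext i
  rcases i with _ | (j | k) <;> simp [toI, uu]

lemma toI_uu_zero : toI (uu (0 : V1 n × W m)) = 0 := by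
  funext i
  rcases i with _ | (j | k) <;> simp [toI, uu]

lemma toI_uu_neg (v : V1 n × W m) : toI (uu (-v)) = -toI (uu v) := by
  funext i
  rcases i with _ | (j | k) <;> simp [toI, uu]

lemma toI_uu_smul (c : ℝ) (v : V1 n × W m) : toI (uu (c • v)) = (c : ℂ) • toI (uu v) := by
  funext i
  rcases i with _ | (j | k) <;> simp [toI, uu]

lemma toI_uu_sum {α : Type} (s : Finset α) (f : α → V1 n × W m) :
    toI (uu (∑ i ∈ s, f i)) = ∑ i ∈ s, toI (uu (f i)) := by
  classical
  induction s using Finset.induction_on with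
  | empty => simp [toI_uu_zero]
  | insert a s ha ih => rw [Finset.sum_insert ha, Finset.sum_insert ha, toI_uu_add, ih]

lemma ee_eq_hp (v w : V1 n × W m) : ee v w = (ETh445.hp (toI (uu v)) (toI (uu w))).im := by
  rw [hp_toI, im_her_uu]

variable {L : AddSubgroup (V1 n × W m)} {N : ℕ} {p q : Fin N → V1 n × W m}

/-- the symplectic families in coordinates -/
lemma symp (h : Lag (eeB n m) L p q) :
    ETh445.Symp (fun i => toI (uu (q i))) (fun i => toI (uu (p i))) where
  pp i j := by rw [← ee_eq_hp]; exact h.qq i j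
  qq i j := by rw [← ee_eq_hp]; exact h.pp i j
  qp i j := by rw [← ee_eq_hp]; exact h.pq i j

/-- the lattice point with integral coordinates -/
def pnt (p q : Fin N → V1 n × W m) (x : (Fin N → ℤ) × (Fin N → ℤ)) : V1 n × W m :=
  ∑ i, ((x.1 i : ℝ) • q i + (x.2 i : ℝ) • p i)

lemma toI_pnt (x : (Fin N → ℤ) × (Fin N → ℤ)) :
    toI (uu (pnt p q x))
      = ETh445.lv (fun i => toI (uu (q i))) (fun i => toI (uu (p i))) x := by
  unfold pnt
  rw [toI_uu_sum]
  funext k
  simp only [ETh445.lv, ETh445.lc, Pi.add_apply, Finset.sum_apply, toI_uu_add, toI_uu_smul,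
    Pi.smul_apply, smul_eq_mul, Finset.sum_add_distrib, ofReal_intCast]

lemma pnt_add (x y : (Fin N → ℤ) × (Fin N → ℤ)) : pnt p q (x + y) = pnt p q x + pnt p q y := by
  simp only [pnt, ← Finset.sum_add_distrib]
  refine Finset.sum_congr rfl fun i _ => ?_
  simp only [Prod.fst_add, Prod.snd_add, Pi.add_apply, Int.cast_add, add_smul]
  abel

lemma ee_pnt_p (h : Lag (eeB n m) L p q) (x : (Fin N → ℤ) × (Fin N → ℤ)) (j : Fin N) :
    ee (pnt p q x) (p j) = -(x.1 j : ℝ) := by
  have h1 := h.pt_p (fun v => ee_self v) (fun i => (x.2 i : ℝ)) (fun i => (x.1 i : ℝ)) j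
  rw [← eeB_apply, ← h1]
  congr 2
  simp only [pnt, Lag.pt]
  exact Finset.sum_congr rfl fun i _ => add_comm _ _

lemma ee_pnt_q (h : Lag (eeB n m) L p q) (x : (Fin N → ℤ) × (Fin N → ℤ)) (j : Fin N) :
    ee (pnt p q x) (q j) = (x.2 j : ℝ) := by
  have h1 := h.pt_q (fun i => (x.2 i : ℝ)) (fun i => (x.1 i : ℝ)) j
  rw [← eeB_apply, ← h1]
  congr 2
  simp only [pnt, Lag.pt]
  exact Finset.sum_congr rfl fun i _ => add_comm _ _

lemma pnt_mem (h : Lag (eeB n m) L p q) (x : (Fin N → ℤ) × (Fin N → ℤ)) : pnt p q x ∈ L := by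
  refine L.sum_mem fun i _ => L.add_mem ?_ ?_
  · rw [Int.cast_smul_eq_zsmul]; exact L.zsmul_mem (h.memq i) _
  · rw [Int.cast_smul_eq_zsmul]; exact L.zsmul_mem (h.memp i) _

/-- `ℤ^N × ℤ^N ≃ L` -/
def eqv (h : Lag (eeB n m) L p q) (hint : ∀ v ∈ L, ∀ w ∈ L, ∃ k : ℤ, ee v w = k) :
    ((Fin N → ℤ) × (Fin N → ℤ)) ≃ L :=
  Equiv.ofBijective (fun x => ⟨pnt p q x, pnt_mem h x⟩) (by
    constructor
    · intro x y hxy
      have h1 : pnt p q x = pnt p q y := congrArg Subtype.val hxy
      ext j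
      · have h2 := ee_pnt_p h x j
        rw [h1, ee_pnt_p h y j] at h2
        have : (y.1 j : ℝ) = (x.1 j : ℝ) := by linarith
        exact_mod_cast this.symm
      · have h2 := ee_pnt_q h x j
        rw [h1, ee_pnt_q h y j] at h2
        exact_mod_cast h2.symm
    · intro l
      choose a ha using fun i => hint l.1 l.2 (q i) (h.memq i)
      choose b hb using fun i => hint l.1 l.2 (p i) (h.memp i)
      refine ⟨(fun i => -b i, a), ?_⟩
      apply Subtype.ext
      simp only
      conv_rhs => rw [h.expand l.1]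
      refine Finset.sum_congr rfl fun i _ => ?_
      rw [eeB_apply, eeB_apply, ha, hb]
      push_cast
      rw [neg_smul]
      abel)

lemma eqv_apply (h : Lag (eeB n m) L p q) (hint : ∀ v ∈ L, ∀ w ∈ L, ∃ k : ℤ, ee v w = k)
    (x : (Fin N → ℤ) × (Fin N → ℤ)) : ((eqv h hint x : L) : V1 n × W m) = pnt p q x := rfl

/-- the quadratic character -/
def eps (p q : Fin N → V1 n × W m) (v : V1 n × W m) : ℂ :=
  cexp (π * I * ((∑ i, -(ee v (p i)) * ee v (q i) : ℝ) : ℂ))

lemma eps_pnt (h : Lag (eeB n m) L p q) (x : (Fin N → ℤ) × (Fin N → ℤ)) :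
    eps p q (pnt p q x) = ETh445.sg x := by
  unfold eps ETh445.sg
  congr 2
  simp only [ee_pnt_p h, ee_pnt_q h, neg_neg]
  push_cast
  rfl

/-- **Core of leaf T2.** -/
theorem nonempty_core (L : AddSubgroup (V1 n × W m))
    (disc : ∀ r : ℝ, {v : V1 n × W m | v ∈ L ∧ ‖v‖ ≤ r}.Finite)
    (span : Submodule.span ℝ (L : Set (V1 n × W m)) = ⊤)
    (int : ∀ v ∈ L, ∀ w ∈ L, ∃ k : ℤ, ee v w = k)
    (dual : ∀ v, (∀ w ∈ L, ∃ k : ℤ, ee v w = k) → v ∈ L) : Nonempty (Core L) := by
  have hSD : SelfDual (eeB n m) L := ⟨fun x => ee_self x, disc, span, int, dual⟩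
  obtain ⟨N, p, q, h⟩ := SympZ_771.exists_lag hSD
  have h1 := h.finrank_eq hSD.alt
  rw [finrank_VW] at h1
  have hc : Fintype.card (Fin N) = Fintype.card (II n m) := by
    simp only [Fintype.card_fin, Fintype.card_option, Fintype.card_sum]
    omega
  obtain ⟨T, ⟨A0, hA0⟩, hT⟩ := ETh445.exists_T (symp h) hc
  refine ⟨⟨eps p q, ?_, ?_, fun A => T (toI A), ?_, ?_⟩⟩
  · intro l hl
    obtain ⟨x, hx⟩ := (eqv h int).surjective ⟨l, hl⟩
    have hx' : pnt p q x = l := congrArg Subtype.val hx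
    rw [← hx', eps_pnt h, ETh445.sg, ETh445.exp_pi_int]
    split_ifs <;> simp
  · intro l hl l' hl'
    obtain ⟨x, hx⟩ := (eqv h int).surjective ⟨l, hl⟩
    obtain ⟨y, hy⟩ := (eqv h int).surjective ⟨l', hl'⟩
    have hx' : pnt p q x = l := congrArg Subtype.val hx
    have hy' : pnt p q y = l' := congrArg Subtype.val hy
    rw [← hx', ← hy', ← pnt_add, eps_pnt h, eps_pnt h, eps_pnt h, ee_eq_hp, toI_pnt, toI_pnt]
    have h2 := ETh445.sg_add (symp h) x y
    have h3 := ETh445.sg_sq y
    have h4 : ph ((ETh445.hp (ETh445.lv (fun i => toI (uu (q i))) (fun i => toI (uu (p i))) x)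
        (ETh445.lv (fun i => toI (uu (q i))) (fun i => toI (uu (p i))) y)).im)
        = cexp (-(π * I) * ((ETh445.hp (ETh445.lv (fun i => toI (uu (q i)))
          (fun i => toI (uu (p i))) y) (ETh445.lv (fun i => toI (uu (q i)))
          (fun i => toI (uu (p i))) x)).im : ℂ)) := by
      rw [ph, ETh445.hp_im_symm]
      congr 1
      push_cast
      ring
    rw [h4]
    linear_combination (-(ETh445.sg y)) * h2 - ETh445.sg (x + y) * h3
  · obtain ⟨A, hA⟩ := toI_surjective A0
    exact ⟨A, by rw [hA]; exact hA0⟩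
  · intro A B
    have h2 := hT (toI A) (toI B)
    rw [← (eqv h int).hasSum_iff]
    convert h2 using 1
    funext x
    simp only [Function.comp_apply, eqv_apply, eps_pnt h, G_eq, toI_pnt]

end

end Crest.Agent.R272.Core_445
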