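import Crest.Agent.R272.Sup5_528
import Crest.Agent.R272.Core_445

/-!
R272, division E (helper528): leaf T2 = theta data of an `ee`-self-dual lattice.
-/

set_option autoImplicit false

namespace Crest.Agent.R272.T2_528

open Crest.Agent.R272.EBase_641

/-- **T2 of `EThDefs_445`.** -/
theorem t2 : EThDefs_445.T2 :=
  Sup_528.t2_of_core fun _ _ L h1 h2 h3 h4 => Core_445.nonempty_core L h1 h2 h3 h4

theorem nonempty_TData (D : EDat) : Nonempty (EThDefs_445.TData D.L) :=
  t2 D.n D.m D.L D.disc D.span D.int D.dual

end Crest.Agent.R272.T2_528
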