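/-
Row 272, division E: the main theorem `EMain` (helper641's theorem (E)), final glue (helper295) of
445 / 898 / 528 (T2), 307 (T3), 295 (T4), 429 (`emain_of_EThetaK`).
-/
import Crest.Agent.R272.ETh4_295
import Crest.Agent.R272.EChi10_307
import Crest.Agent.R272.T2_528
import Crest.Agent.R272.EXD4_429

set_option autoImplicit false

namespace Crest.Agent.R272.EMain_295

open Crest.Agent.R272.EBase_641 Crest.Agent.R272.EBase2_641 Crest.Agent.R272.ETh4Defs_295

/-- input of T4 for every `D` -/
theorem nonempty_TIn (D : EDat) : Nonempty (TIn D) := by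
  obtain ⟨T⟩ := Crest.Agent.R272.T2_528.nonempty_TData D
  exact ⟨Crest.Agent.R272.EChi10_307.mkTIn D T⟩

/-- the theta leaf, form of 429 -/
theorem ethetaK : Crest.Agent.R272.EPol_429.EThetaK :=
  Crest.Agent.R272.ETh4_295.ethetaK nonempty_TIn

/-- the theta leaf, form of 641 -/
theorem etheta2 : ETheta2 := Crest.Agent.R272.ETh4_295.etheta2 nonempty_TIn

/-- **MAIN THEOREM of division E.** -/
theorem emain : EMain := Crest.Agent.R272.EXD_429.emain_of_EThetaK ethetaK

end Crest.Agent.R272.EMain_295
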