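import Crest.Agent.R272.Cls2_620

/-!
Row 272, AR-CLS (helper620), part 3: the arrangement over `ℤ[ζ₅]` (74's #5564).
`T = Fin 2`: place 0 = ball place, place 1 = definite place. Form `diag(1,1,1,-φ)`, `φ = -(z²+z³)`.
Classes: `e0`, `V i j = e_i - z^j e0` (`i = 1,2`), mirror `e1 - e2`, bridges `E i k = -z^k e0 + e_i + e3`.
-/

set_option linter.unusedSectionVars false

namespace Crest.Agent.R272.Cls_620

open Finset

/-- the order `ℤ[ζ₅]` in its two complex places. -/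
structure Z5 (O : Subring (Fin 2 → ℂ)) (z : Fin 2 → ℂ) : Prop where
  ord : Ord O
  zmem : z ∈ O
  cyc : z ^ 4 + z ^ 3 + z ^ 2 + z + 1 = 0
  sz : star z = z ^ 4
  at0 : z 0 + z 0 ^ 4 = (((Real.sqrt 5 - 1) / 2 : ℝ) : ℂ)
  at1 : z 1 + z 1 ^ 4 = ((-(Real.sqrt 5 + 1) / 2 : ℝ) : ℂ)

/-- the form. -/
def HH (z : Fin 2 → ℂ) : Fin 4 → Fin 2 → ℂ := ![1, 1, 1, z ^ 2 + z ^ 3]

/-- `e0`. -/
def e0 : Fin 4 → Fin 2 → ℂ := ![1, 0, 0, 0]
/-- `e1`. -/
def e1 : Fin 4 → Fin 2 → ℂ := ![0, 1, 0, 0]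
/-- `e2`. -/
def e2 : Fin 4 → Fin 2 → ℂ := ![0, 0, 1, 0]
/-- `e3`. -/
def e3 : Fin 4 → Fin 2 → ℂ := ![0, 0, 0, 1]

/-- colour vectors: `ei false = e1`, `ei true = e2`. -/
def ei : Bool → Fin 4 → Fin 2 → ℂ
  | false => e1
  | true => e2

section

variable {O : Subring (Fin 2 → ℂ)} {z : Fin 2 → ℂ}

lemma Z5.z5 (h : Z5 O z) : z ^ 5 = 1 := by
  have : z ^ 5 - 1 = (z - 1) * (z ^ 4 + z ^ 3 + z ^ 2 + z + 1) := by ring
  rw [h.cyc, mul_zero] at this
  exact sub_eq_zero.mp this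

lemma Z5.spow (h : Z5 O z) (n : ℕ) : star (z ^ n) = z ^ (4 * n) := by
  rw [star_pow, h.sz, ← pow_mul]

lemma Z5.pmem (h : Z5 O z) (n : ℕ) : z ^ n ∈ O := O.pow_mem h.zmem n

lemma Z5.cyc' (h : Z5 O z) : z ^ 4 = -(z ^ 3 + z ^ 2 + z + 1) := by
  have := h.cyc
  linear_combination this

lemma Z5.at0' (h : Z5 O z) : z 0 ^ 2 + z 0 ^ 3 = ((-(Real.sqrt 5 + 1) / 2 : ℝ) : ℂ) := by
  have h1 := congrFun h.cyc 0
  simp only [Pi.add_apply, Pi.pow_apply, Pi.one_apply, Pi.zero_apply] at h1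
  have h2 := h.at0
  push_cast at h2 ⊢
  linear_combination h1 - h2

lemma Z5.at1' (h : Z5 O z) : z 1 ^ 2 + z 1 ^ 3 = (((Real.sqrt 5 - 1) / 2 : ℝ) : ℂ) := by
  have h1 := congrFun h.cyc 1
  simp only [Pi.add_apply, Pi.pow_apply, Pi.one_apply, Pi.zero_apply] at h1
  have h2 := h.at1
  push_cast at h2 ⊢
  linear_combination h1 - h2

lemma sqrt5_bd : 2.236 < Real.sqrt 5 ∧ Real.sqrt 5 < 2.237 := by
  constructor
  · rw [Real.lt_sqrt (by norm_num)]; norm_num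
  · rw [Real.sqrt_lt' (by norm_num)]; norm_num

lemma Z5.frm (h : Z5 O z) : Frm O 0 (HH z) where
  mem := by
    intro i
    fin_cases i <;> simp [HH, O.one_mem, O.add_mem (h.pmem 2) (h.pmem 3)]
  real := by
    intro i
    fin_cases i
    · simp [HH]
    · simp [HH]
    · simp [HH]
    · simp only [HH]
      show star (z ^ 2 + z ^ 3) = z ^ 2 + z ^ 3
      rw [star_add, h.spow, h.spow]
      have h8 : z ^ (4 * 2) = z ^ 5 * z ^ 3 := by ring
      have h12 : z ^ (4 * 3) = z ^ 5 * z ^ 5 * z ^ 2 := by ring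
      rw [h8, h12, h.z5]; ring
  pos := by
    intro i t ht
    have ht1 : t = 1 := by
      fin_cases t
      · exact absurd rfl ht
      · rfl
    subst ht1
    fin_cases i
    · simp [HH]
    · simp [HH]
    · simp [HH]
    · show 0 < ((z ^ 2 + z ^ 3) 1).re
      simp only [Pi.add_apply, Pi.pow_apply]
      rw [h.at1', Complex.ofReal_re]
      have := sqrt5_bd
      linarith

lemma Z5.sgn (h : Z5 O z) : Sgn (0 : Fin 2) (HH z) 3 where
  neg := by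
    show ((z ^ 2 + z ^ 3) 0).re < 0
    simp only [Pi.add_apply, Pi.pow_apply]
    rw [h.at0', Complex.ofReal_re]
    have := sqrt5_bd
    linarith
  pos := by
    intro i hi
    fin_cases i
    · simp [HH]
    · simp [HH]
    · simp [HH]
    · exact absurd rfl hi

/-- `π = 1 - z`. -/
def pz (z : Fin 2 → ℂ) : Fin 2 → ℂ := 1 - z

lemma Z5.pz_mem (h : Z5 O z) : pz z ∈ O := O.sub_mem O.one_mem h.zmem

lemma Z5.pz_star (h : Z5 O z) : star (pz z) = pz z * (-z ^ 4) := by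
  rw [pz, star_sub, star_one, h.sz]
  linear_combination (-1 : Fin 2 → ℂ) * h.z5

lemma Z5.pz_ne (h : Z5 O z) (t : Fin 2) : pz z t ≠ 0 := by
  intro h0
  have h1 : z t = 1 := by
    have : (1 : ℂ) - z t = 0 := h0
    linear_combination -this
  have h2 := congrFun h.cyc t
  simp only [Pi.add_apply, Pi.pow_apply, Pi.one_apply, Pi.zero_apply, h1] at h2
  norm_num at h2

/-- differences of powers are `π` times units. -/
lemma Z5.diff (h : Z5 O z) (j k : Fin 5) (hjk : j ≠ k) :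
    ∃ ε ∈ O, ∃ ε' ∈ O, ε * ε' = 1 ∧ z ^ (k : ℕ) - z ^ (j : ℕ) = pz z * ε := by
  -- `1 - z^d = π u_d`
  have hu : ∀ d : ℕ, 1 ≤ d → d ≤ 4 → ∃ ε ∈ O, ∃ ε' ∈ O, ε * ε' = 1 ∧ 1 - z ^ d = pz z * ε := by
    intro d h1 h4
    have hc := h.cyc
    interval_cases d
    · exact ⟨1, O.one_mem, 1, O.one_mem, by ring, by rw [pz]; ring⟩
    · refine ⟨1 + z, O.add_mem O.one_mem h.zmem, -(z + z ^ 3),
        O.neg_mem (O.add_mem h.zmem (h.pmem 3)), ?_, by rw [pz]; ring⟩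
      linear_combination -hc
    · refine ⟨1 + z + z ^ 2, O.add_mem (O.add_mem O.one_mem h.zmem) (h.pmem 2), 1 + z ^ 3,
        O.add_mem O.one_mem (h.pmem 3), ?_, by rw [pz]; ring⟩
      linear_combination hc + h.z5
    · refine ⟨1 + z + z ^ 2 + z ^ 3, O.add_mem (O.add_mem (O.add_mem O.one_mem h.zmem) (h.pmem 2))
        (h.pmem 3), -z, O.neg_mem h.zmem, ?_, by rw [pz]; ring⟩
      linear_combination -hc
  have hz : ∀ n : ℕ, n ≤ 4 → z ^ n * z ^ (5 - n) = 1 := by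
    intro n hn
    rw [← pow_add, show n + (5 - n) = 5 by omega, h.z5]
  rcases lt_or_gt_of_ne (fun e => hjk (Fin.ext e) : (j : ℕ) ≠ (k : ℕ)) with hlt | hlt
  · obtain ⟨ε, hε, ε', hε', he, hd⟩ := hu ((k : ℕ) - j) (by omega) (by omega)
    refine ⟨-z ^ (j : ℕ) * ε, O.mul_mem (O.neg_mem (h.pmem _)) hε,
      -z ^ (5 - (j : ℕ)) * ε', O.mul_mem (O.neg_mem (h.pmem _)) hε', ?_, ?_⟩
    · have := hz j (by omega)
      linear_combination this + z ^ (j : ℕ) * z ^ (5 - (j : ℕ)) * (he)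
    · have e : z ^ (k : ℕ) = z ^ (j : ℕ) * z ^ ((k : ℕ) - j) := by
        rw [← pow_add]; congr 1; omega
      rw [e]
      linear_combination -z ^ (j : ℕ) * hd
  · obtain ⟨ε, hε, ε', hε', he, hd⟩ := hu ((j : ℕ) - k) (by omega) (by omega)
    refine ⟨z ^ (k : ℕ) * ε, O.mul_mem (h.pmem _) hε,
      z ^ (5 - (k : ℕ)) * ε', O.mul_mem (h.pmem _) hε', ?_, ?_⟩
    · have := hz k (by omega)
      linear_combination this + z ^ (k : ℕ) * z ^ (5 - (k : ℕ)) * (he)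
    · have e : z ^ (j : ℕ) = z ^ (k : ℕ) * z ^ ((j : ℕ) - k) := by
        rw [← pow_add]; congr 1; omega
      rw [e]
      linear_combination z ^ (k : ℕ) * hd

end

end Crest.Agent.R272.Cls_620
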