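import Crest.Agent.R272.Fix3_74
import Crest.Agent.R272.Cls3_620

/-!
helper74, row 272, AR-O5: the order `ℤ[ζ₅]` as a subring of `Fin 2 → ℂ`
(place 0 = ball place, place 1 = definite place).
-/

set_option autoImplicit false
set_option linter.unusedSectionVars false
set_option linter.unusedVariables false

open scoped ComplexConjugate
open Matrix Polynomial

namespace Crest.Agent.R272.O5_74

open Crest.Agent.R272.Fix1_74 Crest.Agent.R272.Fix1_74.Dat Crest.Agent.R272.Fix2_74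
  Crest.Agent.R272.Fix3_74

noncomputable section

/-- both places at once -/
def Φ : R5 →+* (Fin 2 → ℂ) := RingHom.pi (![ρ1, ρ2] : Fin 2 → (R5 →+* ℂ))

@[simp] theorem Φ_zero (x : R5) : Φ x 0 = ρ1 x := rfl
@[simp] theorem Φ_one (x : R5) : Φ x 1 = ρ2 x := rfl

theorem Φ_inj : Function.Injective Φ := by
  intro x y h
  exact dat.inj1 (congrFun h 0)

theorem star_Φ (x : R5) : star (Φ x) = Φ (st5 x) := by
  funext i
  fin_cases i
  · show conj (ρ1 x) = ρ1 (st5 x)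
    exact (dat.st1 x).symm
  · show conj (ρ2 x) = ρ2 (st5 x)
    exact (dat.st2 x).symm

/-- `ℤ[ζ₅]` in its two complex places -/
def O5 : Subring (Fin 2 → ℂ) := Φ.range

/-- `ζ₅` in the two places -/
def z5v : Fin 2 → ℂ := Φ z

theorem mem_O5 {x : Fin 2 → ℂ} : x ∈ O5 ↔ ∃ r : R5, Φ r = x := Iff.rfl

theorem Φ_mem (x : R5) : Φ x ∈ O5 := ⟨x, rfl⟩

/-- the ring isomorphism -/
def e5 : R5 ≃+* O5 := RingEquiv.ofBijective Φ.rangeRestrict
  ⟨fun x y h => Φ_inj (congrArg Subtype.val h), Φ.rangeRestrict_surjective⟩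

@[simp] theorem e5_coe (x : R5) : ((e5 x : O5) : Fin 2 → ℂ) = Φ x := rfl

theorem star_mem {x : Fin 2 → ℂ} (hx : x ∈ O5) : star x ∈ O5 := by
  obtain ⟨r, rfl⟩ := hx
  rw [star_Φ]; exact Φ_mem _

theorem norm_ge {x : Fin 2 → ℂ} (hx : x ∈ O5) (h0 : x ≠ 0) : 1 ≤ ∏ t, ‖x t‖ := by
  obtain ⟨r, rfl⟩ := hx
  have hr : r ≠ 0 := by rintro rfl; exact h0 (map_zero Φ)
  rw [Fin.prod_univ_two]
  exact one_le_norm r hr

theorem ord5 : Cls_620.Ord O5 := ⟨fun _ h => star_mem h, fun _ h => norm_ge h⟩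

/-! values of the golden ratio -/

theorem phi2_val : ρ2 phi = (((1 - Real.sqrt 5) / 2 : ℝ) : ℂ) := by
  have hreal : ρ2 phi = ((ρ2 phi).re : ℂ) := dat.real2 st5_phi
  have hsq : (ρ2 phi).re ^ 2 = (ρ2 phi).re + 1 := by
    have h1 : ρ2 phi ^ 2 = ρ2 phi + 1 := by rw [← map_pow, phi_sq, map_add, map_one]
    rw [hreal] at h1
    exact_mod_cast h1
  have hneg := rho2_phi_neg
  have h5 : Real.sqrt 5 ^ 2 = 5 := Real.sq_sqrt (by norm_num)
  have h5p : 0 < Real.sqrt 5 := Real.sqrt_pos.2 (by norm_num)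
  rw [hreal]
  congr 1
  have h3 : ((ρ2 phi).re - (1 - Real.sqrt 5) / 2) * ((ρ2 phi).re - (1 + Real.sqrt 5) / 2) = 0 := by
    nlinarith
  rcases mul_eq_zero.1 h3 with h | h
  · linarith
  · exfalso; nlinarith

theorem phi1_val : ρ1 phi = (((1 + Real.sqrt 5) / 2 : ℝ) : ℂ) := by
  have h1 := sum_phi
  rw [phi2_val] at h1
  have : ρ1 phi = 1 - (((1 - Real.sqrt 5) / 2 : ℝ) : ℂ) := by rw [← h1]; ring
  rw [this]; push_cast; ring

theorem Z5_O5 : Cls_620.Z5 O5 z5v where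
  ord := ord5
  zmem := Φ_mem z
  cyc := by
    rw [z5v, ← map_pow, ← map_pow, ← map_pow, ← map_add, ← map_add, ← map_add, ← map_one Φ,
      ← map_add, ← map_zero Φ]
    congr 1
    have := z_rel
    linear_combination this
  sz := by rw [z5v, star_Φ, st5_z, map_pow]
  at0 := by
    show ρ1 z + ρ1 z ^ 4 = _
    have h : ρ1 z + ρ1 z ^ 4 = -ρ2 phi := by
      simp only [phi, map_neg, map_add, map_pow, ρ1_z, ρ2_z, y2]
      have h5 : y1 ^ 5 = 1 := y1_prim.pow_eq_one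
      have e2 : (y1 ^ 2) ^ 3 = y1 := by
        calc (y1 ^ 2) ^ 3 = y1 ^ 5 * y1 := by ring
          _ = y1 := by rw [h5, one_mul]
      rw [e2]; ring
    rw [h, phi2_val]; push_cast; ring
  at1 := by
    show ρ2 z + ρ2 z ^ 4 = _
    have h : ρ2 z + ρ2 z ^ 4 = -ρ1 phi := by
      simp only [phi, map_neg, map_add, map_pow, ρ1_z, ρ2_z, y2]
      have h5 : y1 ^ 5 = 1 := y1_prim.pow_eq_one
      have e2 : (y1 ^ 2) ^ 4 = y1 ^ 3 := by
        calc (y1 ^ 2) ^ 4 = y1 ^ 5 * y1 ^ 3 := by ring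
          _ = y1 ^ 3 := by rw [h5, one_mul]
      rw [e2]; ring
    rw [h, phi1_val]; push_cast; ring

/-! `ℤ`-basis and `ℝ`-basis -/

theorem lin_indep : LinearIndependent ℝ (fun k : Fin 4 => z5v ^ (k : ℕ)) := by
  rw [Fintype.linearIndependent_iff]
  intro g hg
  -- the four conjugates
  set v : Fin 4 → ℂ := ![y1, y2, conj y1, conj y2] with hv
  have hpow : ∀ i, v i = y1 ^ ((![1, 2, 4, 3] : Fin 4 → ℕ) i) := by
    intro i
    fin_cases i
    · simp [hv]
    · simp [hv, y2]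
    · show conj y1 = y1 ^ 4
      exact conj_prim y1_prim
    · show conj y2 = y1 ^ 3
      rw [conj_prim y2_prim, y2]
      have h5 : y1 ^ 5 = 1 := y1_prim.pow_eq_one
      calc (y1 ^ 2) ^ 4 = y1 ^ 5 * y1 ^ 3 := by ring
        _ = y1 ^ 3 := by rw [h5, one_mul]
  have hinj : Function.Injective v := by
    intro i j hij
    rw [hpow, hpow] at hij
    have h1 := y1_prim.pow_inj (i := (![1, 2, 4, 3] : Fin 4 → ℕ) i)
      (j := (![1, 2, 4, 3] : Fin 4 → ℕ) j) (by fin_cases i <;> simp) (by fin_cases j <;> simp) hij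
    revert h1; fin_cases i <;> fin_cases j <;> simp
  have h0 : ∑ k : Fin 4, (g k : ℂ) * y1 ^ (k : ℕ) = 0 := by
    have := congrFun hg 0
    simpa [Finset.sum_apply, z5v, ρ1_z] using this
  have h1 : ∑ k : Fin 4, (g k : ℂ) * y2 ^ (k : ℕ) = 0 := by
    have := congrFun hg 1
    simpa [Finset.sum_apply, z5v, ρ2_z] using this
  have h2 : ∀ y : ℂ, ∑ k : Fin 4, (g k : ℂ) * y ^ (k : ℕ) = 0 →
      ∑ k : Fin 4, (g k : ℂ) * (conj y) ^ (k : ℕ) = 0 := by
    intro y hy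
    have := congrArg conj hy
    simpa [map_sum, map_mul, map_pow] using this
  have hall : ∀ i, ∑ k : Fin 4, (g k : ℂ) * v i ^ (k : ℕ) = 0 := by
    intro i
    fin_cases i
    · exact h0
    · exact h1
    · exact h2 _ h0
    · exact h2 _ h1
  have hdet : (Matrix.vandermonde v).det ≠ 0 := Matrix.det_vandermonde_ne_zero_iff.2 hinj
  have hmul : (Matrix.vandermonde v) *ᵥ (fun k => (g k : ℂ)) = 0 := by
    funext i
    simp only [Matrix.mulVec, dotProduct, Matrix.vandermonde_apply, Pi.zero_apply]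
    rw [← hall i]
    exact Finset.sum_congr rfl fun k _ => mul_comm _ _
  have hz := Matrix.eq_zero_of_mulVec_eq_zero hdet hmul
  intro k
  have h3 : ((g k : ℝ) : ℂ) = 0 := congrFun hz k
  exact_mod_cast h3

/-- `1, z, z², z³` as a real basis of `Fin 2 → ℂ` -/
def b5 : Module.Basis (Fin 4) ℝ (Fin 2 → ℂ) :=
  basisOfLinearIndependentOfCardEqFinrank lin_indep (by
    rw [Module.finrank_pi_fintype]
    simp [Complex.finrank_real_complex])

@[simp] theorem b5_apply (k : Fin 4) : b5 k = z5v ^ (k : ℕ) := by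
  simp [b5]

theorem O5_eq_span : (O5 : Set (Fin 2 → ℂ)) = Submodule.span ℤ (Set.range b5) := by
  apply Set.Subset.antisymm
  · rintro x ⟨r, rfl⟩
    obtain ⟨a, b, c, d, rfl⟩ := rep r
    have e : Φ ((a : R5) + b * z + c * z ^ 2 + d * z ^ 3)
        = a • b5 0 + b • b5 1 + c • b5 2 + d • b5 3 := by
      simp only [map_add, map_mul, map_intCast, map_pow, b5_apply, zsmul_eq_mul, z5v]
      simp
    rw [SetLike.mem_coe, e]
    refine Submodule.add_mem _ (Submodule.add_mem _ (Submodule.add_mem _ ?_ ?_) ?_) ?_ <;>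
      exact Submodule.smul_mem _ _ (Submodule.subset_span ⟨_, rfl⟩)
  · intro x hx
    rw [SetLike.mem_coe] at hx
    induction hx using Submodule.span_induction with
    | mem x hx =>
      obtain ⟨k, rfl⟩ := hx
      rw [b5_apply, z5v, ← map_pow]; exact Φ_mem _
    | zero => exact O5.zero_mem
    | add x y _ _ hx hy => exact O5.add_mem hx hy
    | smul a x _ hx =>
      rw [zsmul_eq_mul]
      exact O5.mul_mem (intCast_mem O5 a) hx

theorem disc5 (r : ℝ) : {x : Fin 2 → ℂ | x ∈ O5 ∧ ∀ t, ‖x t‖ ≤ r}.Finite := by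
  have h := ZSpan.setFinite_inter b5 (s := {x : Fin 2 → ℂ | ∀ t, ‖x t‖ ≤ r}) (by
    rw [Metric.isBounded_iff_subset_closedBall 0]
    refine ⟨max r 0, fun x hx => ?_⟩
    rw [Metric.mem_closedBall, dist_zero_right, pi_norm_le_iff_of_nonneg (le_max_right _ _)]
    exact fun t => (hx t).trans (le_max_left _ _))
  refine h.subset ?_
  rintro x ⟨hx, hr⟩
  exact ⟨hr, O5_eq_span ▸ hx⟩

theorem disc5' (r : ℝ) : {x : Fin 2 → ℂ | x ∈ O5 ∧ ‖x‖ ≤ r}.Finite := by
  refine (disc5 r).subset ?_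
  rintro x ⟨hx, hr⟩
  exact ⟨hx, fun t => (norm_le_pi_norm x t).trans hr⟩

theorem span5 : Submodule.span ℝ (O5 : Set (Fin 2 → ℂ)) = ⊤ := by
  rw [eq_top_iff, ← b5.span_eq]
  apply Submodule.span_mono
  rintro _ ⟨k, rfl⟩
  rw [SetLike.mem_coe, b5_apply, z5v, ← map_pow]
  exact Φ_mem _

/-- coordinates: every element of `O5` is a unique integral combination of `1, z, z², z³` -/
theorem mem_O5_iff {x : Fin 2 → ℂ} :
    x ∈ O5 ↔ ∃ a : Fin 4 → ℤ, x = ∑ k, a k • z5v ^ (k : ℕ) := by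
  constructor
  · rintro ⟨r, rfl⟩
    obtain ⟨a, b, c, d, rfl⟩ := rep r
    refine ⟨![a, b, c, d], ?_⟩
    simp only [Fin.sum_univ_four, map_add, map_mul, map_intCast, map_pow, zsmul_eq_mul, z5v]
    simp
  · rintro ⟨a, rfl⟩
    refine sum_mem fun k _ => ?_
    rw [zsmul_eq_mul]
    refine O5.mul_mem (intCast_mem O5 _) ?_
    rw [z5v, ← map_pow]; exact Φ_mem _

theorem rep5 {x : Fin 2 → ℂ} (hx : x ∈ O5) :
    ∃ a b c d : ℤ, x = a + b * z5v + c * z5v ^ 2 + d * z5v ^ 3 := by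
  obtain ⟨r, rfl⟩ := hx
  obtain ⟨a, b, c, d, rfl⟩ := rep r
  refine ⟨a, b, c, d, ?_⟩
  simp only [map_add, map_mul, map_intCast, map_pow, z5v]

theorem im0 : 0 < (z5v 0).im := by
  show 0 < (ρ1 z).im
  rw [ρ1_z, y1_eq, Complex.exp_ofReal_mul_I_im]
  apply Real.sin_pos_of_pos_of_lt_pi
  · have := Real.pi_pos; positivity
  · have := Real.pi_pos; linarith

theorem im1 : 0 < (z5v 1).im := by
  show 0 < (ρ2 z).im
  rw [ρ2_z, y2, y1_eq, ← Complex.exp_nat_mul]
  have : ((2 : ℕ) : ℂ) * (((2 * Real.pi / 5 : ℝ) : ℂ) * Complex.I)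
      = ((4 * Real.pi / 5 : ℝ) : ℂ) * Complex.I := by push_cast; ring
  rw [this, Complex.exp_ofReal_mul_I_im]
  apply Real.sin_pos_of_pos_of_lt_pi
  · have := Real.pi_pos; positivity
  · have := Real.pi_pos; linarith

end

end Crest.Agent.R272.O5_74
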