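/-
helper641, row 272, division E: AR-OUT without hypotheses.
-/
import Crest.Agent.R272.AROut_641
import Crest.Agent.R272.EMain_295
import Crest.Agent.R272.O5a_74

set_option autoImplicit false

namespace Crest.Agent.R272.AROut_641

open Crest.Agent.R272.EBase_641
open Crest.Agent.R272.In_68
open Crest.Agent.R272.Cls_620 (Lb VV)
open Crest.Agent.R272.Ball7_916 (GCU)

variable {O : Subring (Fin 2 → ℂ)} {z : Fin 2 → ℂ}

/-- **AR-OUT**, no hypothesis. -/
theorem arOut (h : Z5r O z) {μ : Fin 2 → ℂ} (hμ : I2_939.Lvl O z μ) (k : ℕ)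
    (hk : 0 < k) (K0 : Subgroup (GU O z)) (hK0 : K0.FiniteIndex) :
    ∃ K : Subgroup (GU O z), K.Normal ∧ K.FiniteIndex ∧ K ≤ K0 ∧
      K ≤ GCU O z (Cls_620.pz z * μ) ∧
      ∀ a : Lb, Nonempty (Root 3 k ((rho h).comp K.subtype) (SV h μ a)) :=
  arOut_of EMain_295.emain h hμ k hk K0 hK0

/-- the concrete ring satisfies `Z5r`. -/
theorem z5r : Z5r O5_74.O5 O5_74.z5v where
  toZ5 := O5_74.Z5_O5
  rep := fun _ hx => O5_74.rep5 hx
  im0 := O5_74.im0
  im1 := O5_74.im1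

end Crest.Agent.R272.AROut_641
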