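import Mathlib
import Crest.Prelude.Def_RatCurveLoops

/-!
# R272 (S0414, S0415), leaf FROZ part 1 (helper297): the frozen projective language

* `continuous_mk`, `isOpenMap_mk`, `T2Space (CPn N)`;
* `cone X` : the cone of `X ⊆ CPn N` in `ℂ^(N+1)` (without the origin);
* `smooth_of_cone` : `X` algebraic and `cone X` a submanifold of codimension `c` near each of its
  points ⟹ `IsSmoothProjVariety c X`;
* `imm_submfld` : images of immersions are submanifolds in the sense of `IsCplxSubmfldAt`.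
-/

set_option autoImplicit false
set_option linter.unusedSectionVars false

open Set Filter Topology Complex
open Crest.AlgGeometry

namespace Crest.Agent.R272.ARed_297

noncomputable section

/-! ### topology of `CPn` -/

section Top

variable {N : ℕ}

/-- the non-zero vectors -/
abbrev NZ (N : ℕ) : Type := {v : Fin (N + 1) → ℂ // v ≠ 0}

/-- the projection -/
def pr (v : NZ N) : CPn N := CPn.mk v.1 v.2

theorem continuous_pr : Continuous (pr : NZ N → CPn N) := continuous_coinduced_rng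

theorem pr_surjective : Function.Surjective (pr : NZ N → CPn N) := by
  intro x
  induction x using Projectivization.ind with
  | h v hv => exact ⟨⟨v, hv⟩, rfl⟩

theorem isQuotientMap_pr : IsQuotientMap (pr : NZ N → CPn N) := ⟨⟨rfl⟩, pr_surjective⟩

theorem mk_eq_iff {v w : Fin (N + 1) → ℂ} (hv : v ≠ 0) (hw : w ≠ 0) :
    CPn.mk v hv = CPn.mk w hw ↔ ∃ c : ℂ, v = c • w := by
  refine (Projectivization.mk_eq_mk_iff' ℂ v w hv hw).trans ?_
  exact ⟨fun ⟨a, h⟩ => ⟨a, h.symm⟩, fun ⟨a, h⟩ => ⟨a, h.symm⟩⟩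

theorem exists_rep (x : CPn N) : ∃ (v : Fin (N + 1) → ℂ) (hv : v ≠ 0), x = CPn.mk v hv := by
  induction x using Projectivization.ind with
  | h v hv => exact ⟨v, hv, rfl⟩

theorem isOpenMap_pr : IsOpenMap (pr : NZ N → CPn N) := by
  intro U hU
  rw [← isQuotientMap_pr.isOpen_preimage]
  have h : pr ⁻¹' (pr '' U) = ⋃ c : {c : ℂ // c ≠ 0},
      (fun v : NZ N => (⟨c.1 • v.1, smul_ne_zero c.2 v.2⟩ : NZ N)) ⁻¹' U := by
    ext v
    simp only [mem_preimage, mem_image, mem_iUnion]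
    constructor
    · rintro ⟨w, hw, he⟩
      obtain ⟨c, hc⟩ := (mk_eq_iff w.2 v.2).1 he
      have hc0 : c ≠ 0 := by
        rintro rfl
        exact w.2 (by rw [hc, zero_smul])
      refine ⟨⟨c, hc0⟩, ?_⟩
      have : (⟨c • v.1, smul_ne_zero hc0 v.2⟩ : NZ N) = w := Subtype.ext hc.symm
      rw [this]
      exact hw
    · rintro ⟨c, hc⟩
      exact ⟨_, hc, (mk_eq_iff _ v.2).2 ⟨c.1, rfl⟩⟩
  rw [h]
  refine isOpen_iUnion fun c => hU.preimage ?_
  have h1 : Continuous fun v : NZ N => c.1 • v.1 :=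
    (continuous_const_smul c.1).comp continuous_subtype_val
  exact h1.subtype_mk _

/-- the projector matrix -/
def mat (v : NZ N) : Fin (N + 1) → Fin (N + 1) → ℂ := fun i j =>
  v.1 i * (starRingEnd ℂ) (v.1 j) / ((∑ k, ‖v.1 k‖ ^ 2 : ℝ) : ℂ)

theorem sum_pos (v : NZ N) : 0 < ∑ k, ‖v.1 k‖ ^ 2 := by
  obtain ⟨k, hk⟩ := Function.ne_iff.1 v.2
  exact Finset.sum_pos' (fun k _ => by positivity) ⟨k, Finset.mem_univ k, by
    have : 0 < ‖v.1 k‖ := norm_pos_iff.2 hk
    positivity⟩

theorem sum_ne (v : NZ N) : ((∑ k, ‖v.1 k‖ ^ 2 : ℝ) : ℂ) ≠ 0 :=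
  Complex.ofReal_ne_zero.2 (sum_pos v).ne'

theorem continuous_mat : Continuous (mat : NZ N → (Fin (N + 1) → Fin (N + 1) → ℂ)) := by
  have h : ∀ k : Fin (N + 1), Continuous fun v : NZ N => v.1 k := fun k =>
    (continuous_apply k).comp continuous_subtype_val
  refine continuous_pi fun i => continuous_pi fun j => ?_
  refine ((h i).mul (Complex.continuous_conj.comp (h j))).div ?_ fun v => sum_ne v
  exact Complex.continuous_ofReal.comp (continuous_finsetSum _ fun k _ => ((h k).norm.pow 2))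

theorem mat_eq_iff (v w : NZ N) : mat v = mat w ↔ pr v = pr w := by
  constructor
  · intro h
    obtain ⟨k, hk⟩ := Function.ne_iff.1 w.2
    rw [pr, pr, mk_eq_iff]
    refine ⟨?_, ?_⟩
    · exact (((∑ k, ‖v.1 k‖ ^ 2 : ℝ) : ℂ) / ((∑ k, ‖w.1 k‖ ^ 2 : ℝ) : ℂ)) *
        ((starRingEnd ℂ) (w.1 k) / (starRingEnd ℂ) (v.1 k))
    funext i
    have h1 := congrFun (congrFun h i) k
    have h2 := congrFun (congrFun h k) k
    simp only [mat] at h1 h2
    have hv := sum_ne v
    have hw := sum_ne w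
    have hk' : (starRingEnd ℂ) (w.1 k) ≠ 0 := by
      rw [Ne, map_eq_zero]; exact hk
    have hvk : (starRingEnd ℂ) (v.1 k) ≠ 0 := by
      intro h0
      rw [h0, mul_zero, zero_div, eq_comm, div_eq_zero_iff] at h2
      rcases h2 with h2 | h2
      · exact (mul_ne_zero hk hk') h2
      · exact hw h2
    simp only [Pi.smul_apply, smul_eq_mul]
    rw [div_eq_div_iff hv hw] at h1
    field_simp
    linear_combination h1
  · intro h
    obtain ⟨c, hc⟩ := (mk_eq_iff v.2 w.2).1 h
    have hc0 : c ≠ 0 := by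
      rintro rfl
      exact v.2 (by rw [hc, zero_smul])
    funext i j
    have hw := sum_ne w
    have hs : ((∑ k, ‖v.1 k‖ ^ 2 : ℝ) : ℂ) = c * (starRingEnd ℂ) c * ((∑ k, ‖w.1 k‖ ^ 2 : ℝ) : ℂ) := by
      have : (∑ k, ‖v.1 k‖ ^ 2 : ℝ) = ‖c‖ ^ 2 * ∑ k, ‖w.1 k‖ ^ 2 := by
        rw [Finset.mul_sum]
        refine Finset.sum_congr rfl fun k _ => ?_
        rw [hc, Pi.smul_apply, smul_eq_mul, norm_mul, mul_pow]
      rw [this, Complex.mul_conj, Complex.normSq_eq_norm_sq]
      push_cast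
      ring
    simp only [mat]
    rw [hs, hc]
    simp only [Pi.smul_apply, smul_eq_mul, map_mul]
    have hcc : (starRingEnd ℂ) c ≠ 0 := by rw [Ne, map_eq_zero]; exact hc0
    field_simp

instance t2 : T2Space (CPn N) := by
  have key : ∀ x : CPn N, ∃ v : NZ N, pr v = x := fun x => isQuotientMap_pr.surjective x
  let f : CPn N → (Fin (N + 1) → Fin (N + 1) → ℂ) := fun x => mat (key x).choose
  have hf : ∀ v : NZ N, f (pr v) = mat v := fun v => (mat_eq_iff _ _).2 (key (pr v)).choose_spec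
  have hfc : Continuous f := isQuotientMap_pr.continuous_iff.2 (by
    have : f ∘ pr = mat := funext hf
    rw [this]
    exact continuous_mat)
  refine T2Space.of_injective_continuous (f := f) ?_ hfc
  intro x y h
  obtain ⟨v, rfl⟩ := key x
  obtain ⟨w, rfl⟩ := key y
  rw [hf, hf] at h
  exact (mat_eq_iff v w).1 h

end Top

/-! ### cones -/

section Cone

variable {N : ℕ}

/-- the cone of `X` -/
def cone (X : Set (CPn N)) : Set (Fin (N + 1) → ℂ) := {v | ∃ hv : v ≠ 0, CPn.mk v hv ∈ X}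

theorem mem_cone {X : Set (CPn N)} {v : Fin (N + 1) → ℂ} (hv : v ≠ 0) :
    v ∈ cone X ↔ CPn.mk v hv ∈ X := ⟨fun h => h.2, fun h => ⟨hv, h⟩⟩

theorem cone_smul {X : Set (CPn N)} {v : Fin (N + 1) → ℂ} (h : v ∈ cone X) {c : ℂ} (hc : c ≠ 0) :
    c • v ∈ cone X := by
  obtain ⟨hv, h⟩ := h
  refine ⟨smul_ne_zero hc hv, ?_⟩
  have : CPn.mk (c • v) (smul_ne_zero hc hv) = CPn.mk v hv := (mk_eq_iff _ _).2 ⟨c, rfl⟩
  rwa [this]

/-- smoothness of the cone -/
def ConeSm (c : ℕ) (X : Set (CPn N)) : Prop := ∀ v ∈ cone X, IsCplxSubmfldAt c (cone X) v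

/-- the linear part of the affine chart -/
def insL (j : Fin (N + 1)) : (Fin N → ℂ) →L[ℂ] (Fin (N + 1) → ℂ) :=
  LinearMap.toContinuousLinearMap
    { toFun := fun z => Fin.insertNth j (0 : ℂ) z
      map_add' := fun x y => by
        funext k
        refine Fin.succAboveCases j ?_ (fun i => ?_) k <;> simp
      map_smul' := fun c x => by
        funext k
        refine Fin.succAboveCases j ?_ (fun i => ?_) k <;> simp }

theorem insL_same (j : Fin (N + 1)) (z : Fin N → ℂ) : insL j z j = 0 := by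
  show Fin.insertNth (α := fun _ => ℂ) j (0 : ℂ) z j = 0
  simp

theorem insL_succ (j : Fin (N + 1)) (z : Fin N → ℂ) (k : Fin N) :
    insL j z (j.succAbove k) = z k := by
  show Fin.insertNth (α := fun _ => ℂ) j (0 : ℂ) z (j.succAbove k) = z k
  simp

theorem ins_eq (j : Fin (N + 1)) (z : Fin N → ℂ) :
    (Fin.insertNth j (1 : ℂ) z : Fin (N + 1) → ℂ) = insL j z + Pi.single j 1 := by
  funext k
  refine Fin.succAboveCases j ?_ (fun i => ?_) k
  · simp [insL_same]
  · simp [insL_succ, Fin.succAbove_ne]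

theorem ins_ne (j : Fin (N + 1)) (z : Fin N → ℂ) :
    (Fin.insertNth j (1 : ℂ) z : Fin (N + 1) → ℂ) ≠ 0 := by
  intro h
  have := congrFun h j
  simp at this

theorem chart_of_cone {c : ℕ} {X : Set (CPn N)} (h : ConeSm c X) (j : Fin (N + 1)) (z : Fin N → ℂ)
    (hz : CPn.affineChart j z ∈ X) : IsCplxSubmfldAt c (CPn.affineChart j ⁻¹' X) z := by
  set v : Fin (N + 1) → ℂ := Fin.insertNth j (1 : ℂ) z with hv
  have hv0 : v ≠ 0 := ins_ne j z
  have hvc : v ∈ cone X := (mem_cone hv0).2 hz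
  obtain ⟨U, F, hU, hvU, hF, hs, hSU⟩ := h v hvc
  set ins : (Fin N → ℂ) → (Fin (N + 1) → ℂ) := fun z => insL j z + Pi.single j 1 with hins
  have hinsz : ins z = v := (ins_eq j z).symm
  have hd : Differentiable ℂ ins := (insL j).differentiable.add_const _
  refine ⟨ins ⁻¹' U, fun u => F (ins u), hU.preimage hd.continuous, by rwa [mem_preimage, hinsz],
    fun u hu => ?_, ?_, ?_⟩
  · exact ((hF (ins u) hu).differentiableAt (hU.mem_nhds hu)).comp u (hd u) |>.differentiableWithinAt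
  · -- the derivative
    have hFv : DifferentiableAt ℂ F v := (hF v hvU).differentiableAt (hU.mem_nhds hvU)
    have hv1 : fderiv ℂ F v v = 0 := by
      have h1 : HasDerivAt (fun t : ℂ => F (t • v)) (fderiv ℂ F v v) 1 := by
        have h2 : HasDerivAt (fun t : ℂ => t • v) v 1 := by
          simpa using (hasDerivAt_id (1 : ℂ)).smul_const v
        have h3 : HasFDerivAt F (fderiv ℂ F v) ((1 : ℂ) • v) := by
          rw [one_smul]; exact hFv.hasFDerivAt
        exact h3.comp_hasDerivAt (1 : ℂ) h2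
      have h4 : ∀ᶠ t in 𝓝 (1 : ℂ), F (t • v) = 0 := by
        have h5 : ∀ᶠ t in 𝓝 (1 : ℂ), t • v ∈ U := by
          have : Tendsto (fun t : ℂ => t • v) (𝓝 1) (𝓝 ((1 : ℂ) • v)) :=
            (continuous_id.smul continuous_const).tendsto _
          rw [one_smul] at this
          exact this (hU.mem_nhds hvU)
        filter_upwards [h5, isOpen_ne.mem_nhds (one_ne_zero : (1 : ℂ) ≠ 0)] with t ht ht0
        have : t • v ∈ cone X ∩ U := ⟨cone_smul hvc ht0, ht⟩
        rw [hSU] at this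
        exact this.2
      have h6 : HasDerivAt (fun _ : ℂ => (0 : Fin c → ℂ)) (fderiv ℂ F v v) 1 :=
        h1.congr_of_eventuallyEq (h4.mono fun t ht => ht.symm)
      exact h6.unique (hasDerivAt_const _ _)
    have h7 : fderiv ℂ (fun u => F (ins u)) z = (fderiv ℂ F v).comp (insL j) := by
      have h8 : HasFDerivAt ins (insL j) z := (insL j).hasFDerivAt.add_const _
      have h9 : HasFDerivAt F (fderiv ℂ F v) (ins z) := by rw [hinsz]; exact hFv.hasFDerivAt
      exact (h9.comp z h8).fderiv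
    rw [h7]
    intro y
    obtain ⟨w, hw⟩ := hs y
    refine ⟨fun k => w (j.succAbove k) - w j * v (j.succAbove k), ?_⟩
    have h10 : insL j (fun k => w (j.succAbove k) - w j * v (j.succAbove k)) = w - w j • v := by
      funext k
      refine Fin.succAboveCases j ?_ (fun i => ?_) k
      · rw [insL_same]
        simp [hv]
      · rw [insL_succ]
        simp
    rw [ContinuousLinearMap.comp_apply, h10, map_sub, map_smul, hv1, smul_zero, sub_zero, hw]
  · ext u
    have h11 : u ∈ CPn.affineChart j ⁻¹' X ↔ ins u ∈ cone X := by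
      rw [mem_preimage]
      have h12 : ins u = Fin.insertNth j (1 : ℂ) u := (ins_eq j u).symm
      rw [h12, mem_cone (ins_ne j u)]
      rfl
    constructor
    · rintro ⟨h1, h2⟩
      have : ins u ∈ cone X ∩ U := ⟨h11.1 h1, h2⟩
      rw [hSU] at this
      exact ⟨h2, this.2⟩
    · rintro ⟨h1, h2⟩
      have : ins u ∈ cone X ∩ U := by rw [hSU]; exact ⟨h1, h2⟩
      exact ⟨h11.2 this.1, h1⟩

/-- `X` is the zero set of its homogeneous equations -/
def IsAlg (X : Set (CPn N)) : Prop := ∀ (v : Fin (N + 1) → ℂ) (hv : v ≠ 0),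
  (∀ (d : ℕ) (p : MvPolynomial (Fin (N + 1)) ℂ), p.IsHomogeneous d →
    (∀ w ∈ cone X, MvPolynomial.eval w p = 0) → MvPolynomial.eval v p = 0) → CPn.mk v hv ∈ X

theorem smooth_of_cone {c : ℕ} {X : Set (CPn N)} (hX : IsAlg X) (h : ConeSm c X) :
    IsSmoothProjVariety c X := by
  refine ⟨?_, chart_of_cone h⟩
  set H : Set (MvPolynomial (Fin (N + 1)) ℂ) :=
    {p | (∃ d : ℕ, p.IsHomogeneous d) ∧ ∀ w ∈ cone X, MvPolynomial.eval w p = 0} with hH
  have hfg : (Submodule.span (MvPolynomial (Fin (N + 1)) ℂ) H).FG := IsNoetherian.noetherian _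
  obtain ⟨s, hs, he⟩ := (Submodule.fg_span_iff_fg_span_finset_subset H).1 hfg
  refine ⟨s, fun p hp => (hs hp).1, fun v hv => ⟨fun hm p hp => (hs hp).2 v ⟨hv, hm⟩, fun hp => ?_⟩⟩
  refine hX v hv fun d p hpd hpX => ?_
  have h1 : p ∈ Submodule.span (MvPolynomial (Fin (N + 1)) ℂ) H := Submodule.subset_span ⟨⟨d, hpd⟩, hpX⟩
  rw [he] at h1
  refine Submodule.span_induction (p := fun q _ => MvPolynomial.eval v q = 0) ?_ ?_ ?_ ?_ h1
  · exact fun q hq => hp q hq
  · exact map_zero _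
  · intro a b _ _ ha hb
    rw [map_add, ha, hb, add_zero]
  · intro a b _ hb
    rw [smul_eq_mul, map_mul, hb, mul_zero]

end Cone

end

end Crest.Agent.R272.ARed_297
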