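import Mathlib

/-!
# R272, leaf RQUOT, part 1 (helper302): topology of quotients by properly discontinuous groups

* `exists_inv_nhd` : small open neighbourhoods invariant under the stabiliser, moved off
  themselves by all other elements;
* `mkChart` : an open quotient map `p : X → M`, `φ : X → Z` continuous and open on `U` with the same
  fibres as `p` there: chart `p '' U ≃ φ '' U`;
* `isCovering_quot` : `N` normal in `G`, `N` contains all stabilisers: `N\X → G\X` is a covering.
-/

set_option autoImplicit false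

open Set Filter Topology

namespace Crest.Agent.R272.RQ1_302

noncomputable section

universe u v w

section Nhd

variable (G : Type u) [Group G] {X : Type v} [TopologicalSpace X] [MulAction G X]
  [ContinuousConstSMul G X] [ProperlyDiscontinuousSMul G X] [T2Space X] [LocallyCompactSpace X]

/-- small invariant neighbourhoods -/
theorem exists_inv_nhd (x : X) {V : Set X} (hV : V ∈ 𝓝 x) :
    ∃ U : Set X, IsOpen U ∧ x ∈ U ∧ U ⊆ V ∧ (∀ g : G, g • x = x → ∀ u ∈ U, g • u ∈ U) ∧
      ∀ g : G, ∀ u ∈ U, g • u ∈ U → g • x = x := by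
  obtain ⟨W, hW, hWd⟩ := ProperlyDiscontinuousSMul.exists_nhds_image_smul_eq_self G x
  have hfin : (MulAction.stabilizer G x : Set G).Finite :=
    ProperlyDiscontinuousSMul.finite_stabilizer x
  have hUo : IsOpen (⋂ g ∈ (MulAction.stabilizer G x : Set G), (fun y : X => g • y) ⁻¹'
      interior (V ∩ W)) :=
    hfin.isOpen_biInter fun g _ => isOpen_interior.preimage (continuous_const_smul g)
  refine ⟨_, hUo, ?_, ?_, ?_, ?_⟩
  · simp only [mem_iInter, mem_preimage]
    intro g hg
    have : g • x = x := hg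
    rw [this, mem_interior_iff_mem_nhds]
    exact inter_mem hV hW
  · intro y hy
    simp only [mem_iInter, mem_preimage] at hy
    have := hy 1 (Subgroup.one_mem _)
    rw [one_smul] at this
    exact (interior_subset this).1
  · intro g hg u hu
    simp only [mem_iInter, mem_preimage] at hu ⊢
    intro h hh
    rw [← mul_smul]
    refine hu (h * g) ?_
    exact Subgroup.mul_mem _ hh (by exact hg)
  · intro g u hu hgu
    simp only [mem_iInter, mem_preimage] at hu hgu
    have h1 := hu 1 (Subgroup.one_mem _)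
    have h2 := hgu 1 (Subgroup.one_mem _)
    rw [one_smul] at h1 h2
    exact hWd g ⟨g • u, ⟨u, (interior_subset h1).2, rfl⟩, (interior_subset h2).2⟩

end Nhd

section Chart

variable {X : Type u} {M : Type v} {Z : Type w} [TopologicalSpace X] [TopologicalSpace M]
  [TopologicalSpace Z]

open Classical in
/-- charts of a quotient -/
def mkChart (p : X → M) (hp : Continuous p) (hpo : IsOpenMap p) (x₀ : X) (U : Set X)
    (hU : IsOpen U) (φ : X → Z) (hφ : ContinuousOn φ U)
    (hφo : ∀ V ⊆ U, IsOpen V → IsOpen (φ '' V))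
    (hfib : ∀ u ∈ U, ∀ v ∈ U, p u = p v ↔ φ u = φ v) : OpenPartialHomeomorph M Z where
  toFun m := if h : ∃ u ∈ U, p u = m then φ h.choose else φ x₀
  invFun z := if h : ∃ u ∈ U, φ u = z then p h.choose else p x₀
  source := p '' U
  target := φ '' U
  map_source' := by
    rintro _ ⟨u, hu, rfl⟩
    have h : ∃ v ∈ U, p v = p u := ⟨u, hu, rfl⟩
    rw [dif_pos h]
    exact ⟨_, h.choose_spec.1, rfl⟩
  map_target' := by
    rintro _ ⟨u, hu, rfl⟩
    have h : ∃ v ∈ U, φ v = φ u := ⟨u, hu, rfl⟩
    rw [dif_pos h]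
    exact ⟨_, h.choose_spec.1, rfl⟩
  left_inv' := by
    rintro _ ⟨u, hu, rfl⟩
    have h : ∃ v ∈ U, p v = p u := ⟨u, hu, rfl⟩
    rw [dif_pos h]
    have h' : ∃ v ∈ U, φ v = φ h.choose := ⟨_, h.choose_spec.1, rfl⟩
    rw [dif_pos h']
    have h1 : p h'.choose = p h.choose :=
      (hfib _ h'.choose_spec.1 _ h.choose_spec.1).2 h'.choose_spec.2
    rw [h1]
    exact h.choose_spec.2
  right_inv' := by
    rintro _ ⟨u, hu, rfl⟩
    have h : ∃ v ∈ U, φ v = φ u := ⟨u, hu, rfl⟩
    rw [dif_pos h]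
    have h' : ∃ v ∈ U, p v = p h.choose := ⟨_, h.choose_spec.1, rfl⟩
    rw [dif_pos h']
    have h1 : φ h'.choose = φ h.choose :=
      (hfib _ h'.choose_spec.1 _ h.choose_spec.1).1 h'.choose_spec.2
    rw [h1]
    exact h.choose_spec.2
  open_source := hpo _ hU
  open_target := hφo U Subset.rfl hU
  continuousOn_toFun := by
    rw [continuousOn_open_iff (hpo _ hU)]
    intro W hW
    have h1 : p '' U ∩ (fun m => if h : ∃ u ∈ U, p u = m then φ h.choose else φ x₀) ⁻¹' W =
        p '' (U ∩ φ ⁻¹' W) := by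
      ext m
      constructor
      · rintro ⟨⟨u, hu, rfl⟩, hm⟩
        have h : ∃ v ∈ U, p v = p u := ⟨u, hu, rfl⟩
        simp only [mem_preimage, dif_pos h] at hm
        exact ⟨_, ⟨h.choose_spec.1, hm⟩, h.choose_spec.2⟩
      · rintro ⟨u, ⟨hu, hm⟩, rfl⟩
        refine ⟨⟨u, hu, rfl⟩, ?_⟩
        have h : ∃ v ∈ U, p v = p u := ⟨u, hu, rfl⟩
        simp only [mem_preimage, dif_pos h]
        rw [(hfib _ h.choose_spec.1 _ hu).1 h.choose_spec.2]
        exact hm
    rw [h1]
    exact hpo _ (hφ.isOpen_inter_preimage hU hW)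
  continuousOn_invFun := by
    rw [continuousOn_open_iff (hφo U Subset.rfl hU)]
    intro W hW
    have h1 : φ '' U ∩ (fun z => if h : ∃ u ∈ U, φ u = z then p h.choose else p x₀) ⁻¹' W =
        φ '' (U ∩ p ⁻¹' W) := by
      ext m
      constructor
      · rintro ⟨⟨u, hu, rfl⟩, hm⟩
        have h : ∃ v ∈ U, φ v = φ u := ⟨u, hu, rfl⟩
        simp only [mem_preimage, dif_pos h] at hm
        exact ⟨_, ⟨h.choose_spec.1, hm⟩, h.choose_spec.2⟩
      · rintro ⟨u, ⟨hu, hm⟩, rfl⟩
        refine ⟨⟨u, hu, rfl⟩, ?_⟩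
        have h : ∃ v ∈ U, φ v = φ u := ⟨u, hu, rfl⟩
        simp only [mem_preimage, dif_pos h]
        rw [(hfib _ h.choose_spec.1 _ hu).2 h.choose_spec.2]
        exact hm
    rw [h1]
    exact hφo _ inter_subset_left (hU.inter (hW.preimage hp))

section

variable {p : X → M} {hp : Continuous p} {hpo : IsOpenMap p} {x₀ : X} {U : Set X}
  {hU : IsOpen U} {φ : X → Z} {hφ : ContinuousOn φ U}
  {hφo : ∀ V ⊆ U, IsOpen V → IsOpen (φ '' V)}
  {hfib : ∀ u ∈ U, ∀ v ∈ U, p u = p v ↔ φ u = φ v}

@[simp] theorem mkChart_source : (mkChart p hp hpo x₀ U hU φ hφ hφo hfib).source = p '' U := rfl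

@[simp] theorem mkChart_target : (mkChart p hp hpo x₀ U hU φ hφ hφo hfib).target = φ '' U := rfl

open Classical in
theorem mkChart_apply {u : X} (hu : u ∈ U) :
    mkChart p hp hpo x₀ U hU φ hφ hφo hfib (p u) = φ u := by
  have h : ∃ v ∈ U, p v = p u := ⟨u, hu, rfl⟩
  show (if h : ∃ v ∈ U, p v = p u then φ h.choose else φ x₀) = _
  rw [dif_pos h]
  exact (hfib _ h.choose_spec.1 _ hu).1 h.choose_spec.2

open Classical in
theorem mkChart_symm_apply {u : X} (hu : u ∈ U) :
    (mkChart p hp hpo x₀ U hU φ hφ hφo hfib).symm (φ u) = p u := by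
  have h : ∃ v ∈ U, φ v = φ u := ⟨u, hu, rfl⟩
  show (if h : ∃ v ∈ U, φ v = φ u then p h.choose else p x₀) = _
  rw [dif_pos h]
  exact (hfib _ h.choose_spec.1 _ hu).2 h.choose_spec.2

end

end Chart

section Cover

/-- `q : X → Y` is the quotient map by the subgroup `N` of `G` -/
structure IsQ (G : Type u) [Group G] (X : Type v) [TopologicalSpace X] [MulAction G X]
    (N : Subgroup G) {Y : Type w} [TopologicalSpace Y] (q : X → Y) : Prop where
  cont : Continuous q
  opn : IsOpenMap q
  surj : Function.Surjective q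
  fib : ∀ x y, q x = q y ↔ ∃ g ∈ N, g • x = y

theorem IsQ.quotientMk (G : Type u) [Group G] (X : Type v) [TopologicalSpace X] [MulAction G X]
    [ContinuousConstSMul G X] (N : Subgroup G) :
    IsQ G X N (Quotient.mk (MulAction.orbitRel N X)) where
  cont := continuous_quotient_mk'
  opn := by
    haveI : ContinuousConstSMul N X := ⟨fun c => continuous_const_smul (c : G)⟩
    exact isOpenMap_quotient_mk'_mul
  surj := Quotient.mk_surjective
  fib x y := by
    rw [Quotient.eq]
    constructor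
    · rintro ⟨g, hg⟩
      refine ⟨((g⁻¹ : N) : G), (g⁻¹).2, ?_⟩
      have hg' : (g : G) • y = x := hg
      rw [← hg', Subgroup.coe_inv, inv_smul_smul]
    · rintro ⟨g, hg, h⟩
      refine ⟨(⟨g, hg⟩ : N)⁻¹, ?_⟩
      show ((⟨g, hg⟩ : N)⁻¹ : G) • y = x
      rw [← h]
      show g⁻¹ • g • x = x
      rw [inv_smul_smul]

/-- the full orbit space -/
theorem IsQ.quotientMk_top (G : Type u) [Group G] (X : Type v) [TopologicalSpace X]
    [MulAction G X] [ContinuousConstSMul G X] :
    IsQ G X (⊤ : Subgroup G) (Quotient.mk (MulAction.orbitRel G X)) where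
  cont := continuous_quotient_mk'
  opn := isOpenMap_quotient_mk'_mul
  surj := Quotient.mk_surjective
  fib x y := by
    rw [Quotient.eq]
    constructor
    · rintro ⟨g, hg⟩
      have hg' : g • y = x := hg
      exact ⟨g⁻¹, trivial, by rw [← hg', inv_smul_smul]⟩
    · rintro ⟨g, -, h⟩
      refine ⟨g⁻¹, ?_⟩
      show g⁻¹ • y = x
      rw [← h, inv_smul_smul]

variable {G : Type u} [Group G] {X : Type v} [TopologicalSpace X] [MulAction G X]
  {N : Subgroup G} {Y : Type w} [TopologicalSpace Y] {q : X → Y}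

theorem IsQ.isQuotientMap (hq : IsQ G X N q) : IsQuotientMap q :=
  hq.opn.isQuotientMap hq.cont hq.surj

theorem IsQ.smul_eq (hq : IsQ G X N q) {g : G} (hg : g ∈ N) (x : X) : q (g • x) = q x :=
  ((hq.fib _ _).2 ⟨g, hg, rfl⟩).symm

theorem IsQ.key [N.Normal] (hq : IsQ G X N q) {g g' : G} {x x' : X} (hx : q x = q x')
    (hg : (g : G ⧸ N) = g') : q (g • x) = q (g' • x') := by
  obtain ⟨n, hn, rfl⟩ := (hq.fib _ _).1 hx
  have h1 : g⁻¹ * g' ∈ N := QuotientGroup.eq.1 hg
  refine (hq.fib _ _).2 ⟨g * (g⁻¹ * g' * n) * g⁻¹, ?_, ?_⟩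
  · exact Subgroup.Normal.conj_mem inferInstance _ (N.mul_mem h1 hn) g
  · rw [← mul_smul, ← mul_smul]
    congr 1
    group

/-- orbit spaces are Hausdorff -/
theorem IsQ.t2Space [ContinuousConstSMul G X] [ProperlyDiscontinuousSMul G X]
    [T2Space X] [LocallyCompactSpace X] (hq : IsQ G X N q) : T2Space Y := by
  have : ContinuousConstSMul N X := ⟨fun c => continuous_const_smul (c : G)⟩
  let f : Y → Quotient (MulAction.orbitRel N X) :=
    fun y => Quotient.mk _ (Function.surjInv hq.surj y)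
  have hf : ∀ x, f (q x) = Quotient.mk _ x := fun x =>
    ((IsQ.quotientMk G X N).fib _ _).2
      ((hq.fib _ _).1 (Function.surjInv_eq hq.surj (q x)))
  have hfc : Continuous f := by
    rw [hq.isQuotientMap.continuous_iff]
    have h1 : f ∘ q = Quotient.mk _ := funext hf
    rw [h1]
    exact continuous_quotient_mk'
  refine T2Space.of_injective_continuous (f := f) ?_ hfc
  intro y₁ y₂ h
  obtain ⟨x₁, rfl⟩ := hq.surj y₁
  obtain ⟨x₂, rfl⟩ := hq.surj y₂
  rw [hf, hf] at h
  exact (hq.fib _ _).2 (((IsQ.quotientMk G X N).fib _ _).1 h)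

/-- the action of `G ⧸ N` on the orbit space of `N` -/
@[instance_reducible] def IsQ.act [N.Normal] (hq : IsQ G X N q) : MulAction (G ⧸ N) Y where
  smul c y := q (c.out • Function.surjInv hq.surj y)
  one_smul y := by
    show q ((1 : G ⧸ N).out • Function.surjInv hq.surj y) = y
    have h := hq.key (g := (1 : G ⧸ N).out) (g' := (1 : G)) (x := Function.surjInv hq.surj y)
      (x' := Function.surjInv hq.surj y) rfl (by rw [QuotientGroup.out_eq']; rfl)
    rw [h, one_smul]
    exact Function.surjInv_eq hq.surj y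
  mul_smul c d y := by
    show q ((c * d).out • Function.surjInv hq.surj y) =
      q (c.out • Function.surjInv hq.surj (q (d.out • Function.surjInv hq.surj y)))
    rw [hq.key (g := (c * d).out) (g' := c.out * d.out) (x := Function.surjInv hq.surj y)
      (x' := Function.surjInv hq.surj y) rfl
      (by rw [QuotientGroup.out_eq', QuotientGroup.mk_mul, QuotientGroup.out_eq',
        QuotientGroup.out_eq']), mul_smul]
    exact hq.key (by rw [Function.surjInv_eq hq.surj]) rfl

theorem IsQ.act_mk [N.Normal] (hq : IsQ G X N q) (g : G) (x : X) :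
    let := hq.act
    (g : G ⧸ N) • q x = q (g • x) := by
  let := hq.act
  show q ((g : G ⧸ N).out • Function.surjInv hq.surj (q x)) = q (g • x)
  exact hq.key (by rw [Function.surjInv_eq hq.surj]) (by rw [QuotientGroup.out_eq'])

/-- **the covering `N\X → G\X`** -/
theorem IsQ.isQuotientCoveringMap [ContinuousConstSMul G X] [ProperlyDiscontinuousSMul G X]
    [T2Space X] [LocallyCompactSpace X] [N.Normal] (hq : IsQ G X N q)
    {M : Type*} [TopologicalSpace M] {p : X → M} (hp : IsQ G X (⊤ : Subgroup G) p)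
    (hst : ∀ (g : G) (x : X), g • x = x → g ∈ N) {r : Y → M} (hr : ∀ x, r (q x) = p x) :
    let := hq.act
    IsQuotientCoveringMap r (G ⧸ N) := by
  let := hq.act
  have hrc : Continuous r := by
    rw [hq.isQuotientMap.continuous_iff]
    have : r ∘ q = p := funext hr
    rw [this]
    exact hp.cont
  have hqm : IsQuotientMap r := by
    refine IsQuotientMap.of_comp hq.cont hrc ?_
    have : r ∘ q = p := funext hr
    rw [this]
    exact hp.isQuotientMap
  refine { hqm with continuous_const_smul := ?_, apply_eq_iff_mem_orbit := ?_, disjoint := ?_ }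
  · intro c
    obtain ⟨g, rfl⟩ := QuotientGroup.mk_surjective c
    rw [hq.isQuotientMap.continuous_iff]
    have : (fun y : Y => (g : G ⧸ N) • y) ∘ q = fun x => q (g • x) := funext fun x => hq.act_mk g x
    rw [this]
    exact hq.cont.comp (continuous_const_smul g)
  · intro e₁ e₂
    obtain ⟨x₁, rfl⟩ := hq.surj e₁
    obtain ⟨x₂, rfl⟩ := hq.surj e₂
    rw [hr, hr, hp.fib]
    constructor
    · rintro ⟨g, _, rfl⟩
      refine ⟨((g⁻¹ : G) : G ⧸ N), ?_⟩
      show ((g⁻¹ : G) : G ⧸ N) • q (g • x₁) = q x₁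
      rw [hq.act_mk, inv_smul_smul]
    · rintro ⟨c, hc⟩
      obtain ⟨g, rfl⟩ := QuotientGroup.mk_surjective c
      have hc' : (g : G ⧸ N) • q x₂ = q x₁ := hc
      rw [hq.act_mk] at hc'
      obtain ⟨n, hn, hn'⟩ := (hq.fib _ _).1 hc'
      refine ⟨(n * g)⁻¹, trivial, ?_⟩
      rw [← hn', inv_smul_eq_iff, mul_smul]
  · intro e
    obtain ⟨x, rfl⟩ := hq.surj e
    obtain ⟨U, hUo, hxU, -, -, hU⟩ := exists_inv_nhd G x univ_mem
    refine ⟨q '' U, hq.opn.image_mem_nhds (hUo.mem_nhds hxU), ?_⟩
    intro c hc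
    obtain ⟨g, rfl⟩ := QuotientGroup.mk_surjective c
    obtain ⟨_, ⟨_, ⟨u, hu, rfl⟩, rfl⟩, ⟨v, hv, hv'⟩⟩ := hc
    have hv'' : q v = (g : G ⧸ N) • q u := hv'
    rw [hq.act_mk] at hv''
    obtain ⟨n, hn, hn'⟩ := (hq.fib _ _).1 hv''.symm
    have h1 : (n * g) • x = x := hU (n * g) u hu (by rw [mul_smul, hn']; exact hv)
    have h2 : n * g ∈ N := hst _ _ h1
    have h3 : g ∈ N := (Subgroup.mul_mem_cancel_left N hn).1 h2
    exact (QuotientGroup.eq_one_iff g).2 h3

theorem IsQ.isCoveringMap [ContinuousConstSMul G X] [ProperlyDiscontinuousSMul G X]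
    [T2Space X] [LocallyCompactSpace X] [N.Normal] (hq : IsQ G X N q)
    {M : Type*} [TopologicalSpace M] {p : X → M} (hp : IsQ G X (⊤ : Subgroup G) p)
    (hst : ∀ (g : G) (x : X), g • x = x → g ∈ N) {r : Y → M} (hr : ∀ x, r (q x) = p x) :
    IsCoveringMap r := by
  let := hq.act
  exact (hq.isQuotientCoveringMap hp hst hr).isCoveringMap

/-- the covering between the standard orbit spaces `N\X → G\X` -/
theorem isCoveringMap_orbit [ContinuousConstSMul G X] [ProperlyDiscontinuousSMul G X]
    [T2Space X] [LocallyCompactSpace X] [N.Normal]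
    (hst : ∀ (g : G) (x : X), g • x = x → g ∈ N)
    {r : Quotient (MulAction.orbitRel N X) → Quotient (MulAction.orbitRel G X)}
    (hr : ∀ x, r (Quotient.mk _ x) = Quotient.mk _ x) : IsCoveringMap r :=
  (IsQ.quotientMk G X N).isCoveringMap (IsQ.quotientMk_top G X) hst hr

end Cover

end

end Crest.Agent.R272.RQ1_302
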