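import Mathlib
import Crest.Agent.R272.RQ1_302

/-!
# R272 (S0415), leaf MOD-FIN, part 1 (helper302): stabilisers, compactness, connectedness

`P : X → B` continuous and equivariant, `G` properly discontinuous on `B`.

* `exists_stab_nhd`, `exists_stab_ball`, `exists_stab_ball'` : (U2) over a small neighbourhood of
  `p` only the stabiliser of `p` acts;
* `pd_of_map`, `lc_of_proper`, `exists_compact`, `compactSpace_quot`, `t2_quot` : (U3a);
* `preconnected_of_deck`, `preconnected_of_two` : a branched cover with commuting deck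
  transformations each of which has a fixed point is connected;
* `connected_quot`, `preconnected_of_dense`.
-/

set_option autoImplicit false

open Set Filter Topology

namespace Crest.Agent.R272.Fin1_302

open RQ1_302

universe u v w

/-! ### stabilisers -/

section Stab

variable {G : Type u} [Group G] {X : Type v} {B : Type w} [MulAction G X] [MulAction G B]
  [TopologicalSpace B] [ContinuousConstSMul G B] [ProperlyDiscontinuousSMul G B] [T2Space B]
  [LocallyCompactSpace B] {P : X → B}

/-- **(U2)** : over a small neighbourhood of `p` only the stabiliser of `p` acts -/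
theorem exists_stab_nhd (heq : ∀ (g : G) (x : X), P (g • x) = g • P x) (p : B) {V : Set B}
    (hV : V ∈ 𝓝 p) :
    ∃ U : Set B, IsOpen U ∧ p ∈ U ∧ U ⊆ V ∧ (∀ g : G, g • p = p → ∀ u ∈ U, g • u ∈ U) ∧
      (∀ (g : G) (x : X), P x ∈ U → P (g • x) ∈ U → g • p = p) ∧
      ∀ (g : G) (x y : X), P x ∈ U → P y ∈ U → g • x = y → g • p = p := by
  obtain ⟨U, hU, hp, hUV, hst, hmv⟩ := exists_inv_nhd G p hV
  refine ⟨U, hU, hp, hUV, hst, ?_, ?_⟩
  · intro g x hx hgx
    rw [heq] at hgx
    exact hmv g _ hx hgx
  · rintro g x y hx hy rfl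
    rw [heq] at hy
    exact hmv g _ hx hy

end Stab

section StabBall

variable {G : Type u} [Group G] {X : Type v} {B : Type w} [MulAction G X] [MulAction G B]
  [PseudoMetricSpace B] [ContinuousConstSMul G B] [ProperlyDiscontinuousSMul G B] [T2Space B]
  [LocallyCompactSpace B] {P : X → B}

theorem exists_stab_ball (heq : ∀ (g : G) (x : X), P (g • x) = g • P x) (p : B) :
    ∃ r > 0, ∀ (g : G) (x y : X), dist (P x) p < r → dist (P y) p < r → g • x = y →
      g • p = p := by
  obtain ⟨U, hU, hp, -, -, -, h⟩ := exists_stab_nhd heq p (univ_mem (f := 𝓝 p))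
  obtain ⟨r, hr, hrU⟩ := Metric.isOpen_iff.1 hU p hp
  exact ⟨r, hr, fun g x y hx hy => h g x y (hrU hx) (hrU hy)⟩

/-- the same with every smaller radius -/
theorem exists_stab_ball' (heq : ∀ (g : G) (x : X), P (g • x) = g • P x) (p : B) :
    ∃ r₀ > 0, ∀ r ≤ r₀, ∀ (g : G) (x y : X), dist (P x) p < r → dist (P y) p < r → g • x = y →
      g • p = p := by
  obtain ⟨r, hr, h⟩ := exists_stab_ball heq p
  exact ⟨r, hr, fun s hs g x y hx hy => h g x y (hx.trans_le hs) (hy.trans_le hs)⟩

end StabBall

/-! ### transfer from the base -/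

section Transfer

variable {G : Type u} [Group G] {X : Type v} {B : Type w} [MulAction G X] [MulAction G B]
  [TopologicalSpace X] [TopologicalSpace B] {P : X → B}

/-- proper discontinuity from the base -/
theorem pd_of_map [ProperlyDiscontinuousSMul G B] (hP : Continuous P)
    (heq : ∀ (g : G) (x : X), P (g • x) = g • P x) : ProperlyDiscontinuousSMul G X where
  finite_disjoint_inter_image := by
    intro K L hK hL
    refine (ProperlyDiscontinuousSMul.finite_disjoint_inter_image (Γ := G) (hK.image hP)
      (hL.image hP)).subset ?_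
    rintro g ⟨_, ⟨x, hx, rfl⟩, hxL⟩
    exact ⟨P (g • x), ⟨P x, ⟨x, hx, rfl⟩, (heq g x).symm⟩, ⟨_, hxL, rfl⟩⟩

/-- a space proper over a locally compact space is locally compact -/
theorem lc_of_proper [LocallyCompactSpace B] [T2Space X] (hP : IsProperMap P) :
    LocallyCompactSpace X := by
  have : WeaklyLocallyCompactSpace X := by
    refine ⟨fun x => ?_⟩
    obtain ⟨K, hK, hxK⟩ := exists_compact_mem_nhds (P x)
    exact ⟨P ⁻¹' K, hP.isCompact_preimage hK, hP.continuous.continuousAt.preimage_mem_nhds hxK⟩
  infer_instance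

/-- **cocompactness from the base** -/
theorem exists_compact (hP : IsProperMap P) (heq : ∀ (g : G) (x : X), P (g • x) = g • P x)
    {K : Set B} (hK : IsCompact K) (hc : ∀ b : B, ∃ g : G, g • b ∈ K) :
    ∃ K1 : Set X, IsCompact K1 ∧ ∀ x : X, ∃ g : G, g • x ∈ K1 := by
  refine ⟨P ⁻¹' K, hP.isCompact_preimage hK, fun x => ?_⟩
  obtain ⟨g, hg⟩ := hc (P x)
  exact ⟨g, by show P (g • x) ∈ K; rw [heq]; exact hg⟩

variable {M : Type*} [TopologicalSpace M] {q : X → M}

/-- the orbit space of a cocompact action is compact -/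
theorem compactSpace_quot (hq : Continuous q) (hs : Function.Surjective q)
    (hg : ∀ (g : G) (x : X), q (g • x) = q x) {K : Set X} (hK : IsCompact K)
    (hc : ∀ x : X, ∃ g : G, g • x ∈ K) : CompactSpace M := by
  refine ⟨?_⟩
  have h1 : (univ : Set M) = q '' K := by
    refine (eq_univ_of_forall fun m => ?_).symm
    obtain ⟨x, rfl⟩ := hs m
    obtain ⟨g, hgx⟩ := hc x
    exact ⟨g • x, hgx, hg g x⟩
  rw [h1]
  exact hK.image hq

/-- the orbit space is compact, from a proper equivariant map to `B` with cocompact action -/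
theorem compactSpace_quot' (hP : IsProperMap P) (heq : ∀ (g : G) (x : X), P (g • x) = g • P x)
    {K : Set B} (hK : IsCompact K) (hc : ∀ b : B, ∃ g : G, g • b ∈ K)
    (hq : Continuous q) (hs : Function.Surjective q)
    (hg : ∀ (g : G) (x : X), q (g • x) = q x) : CompactSpace M := by
  obtain ⟨K1, hK1, h1⟩ := exists_compact hP heq hK hc
  exact compactSpace_quot hq hs hg hK1 h1

end Transfer

/-! ### connectedness -/

section Conn

variable {X : Type u} [TopologicalSpace X]

/-- a space with a dense preconnected subset is preconnected -/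
theorem preconnected_of_dense {s : Set X} (hs : IsPreconnected s) (hd : Dense s) :
    PreconnectedSpace X := ⟨by rw [← hd.closure_eq]; exact hs.closure⟩

theorem connected_of_dense {s : Set X} (hs : IsConnected s) (hd : Dense s) :
    ConnectedSpace X :=
  { preconnected_of_dense hs.isPreconnected hd with toNonempty := ⟨hs.nonempty.some⟩ }

theorem connected_quot {M : Type v} [TopologicalSpace M] {q : X → M} [ConnectedSpace X]
    (hq : Continuous q) (hs : Function.Surjective q) : ConnectedSpace M :=
  hs.connectedSpace hq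

variable {B : Type v} [TopologicalSpace B]

/-- every component of `X` contains points over every point of `B0` -/
theorem exists_mem_component [LocallyConnectedSpace X] {P : X → B}
    (hPc : IsClosedMap P) {B0 : Set B} (hB0 : IsPreconnected B0) (hd : Dense (P ⁻¹' B0))
    (hopen : ∀ x, P x ∈ B0 → ∀ U ∈ 𝓝 x, P '' U ∈ 𝓝 (P x)) (x : X) {b : B} (hb : b ∈ B0) :
    ∃ y, P y = b ∧ connectedComponent y = connectedComponent x := by
  have hCo : IsOpen (connectedComponent x) := isOpen_connectedComponent
  have hCc : IsClosed (connectedComponent x) := isClosed_connectedComponent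
  obtain ⟨x0, hx0, hx0B⟩ := hd.inter_open_nonempty _ hCo ⟨x, mem_connectedComponent⟩
  -- the interior of the image and the complement of the image
  let O : Set B := interior (P '' connectedComponent x)
  let O' : Set B := (P '' connectedComponent x)ᶜ
  have hO : IsOpen O := isOpen_interior
  have hO' : IsOpen O' := (hPc _ hCc).isOpen_compl
  have hmem : ∀ z, P z ∈ B0 → z ∈ connectedComponent x → P z ∈ O := fun z hz hzC =>
    mem_interior_iff_mem_nhds.2 (hopen z hz _ (hCo.mem_nhds hzC))
  have hcov : B0 ⊆ O ∪ O' := by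
    intro c hc
    by_cases h : c ∈ P '' connectedComponent x
    · obtain ⟨z, hz, rfl⟩ := h
      exact Or.inl (hmem z hc hz)
    · exact Or.inr h
  have hsub : B0 ⊆ O := by
    refine hB0.subset_left_of_subset_union hO hO' ?_ hcov ⟨P x0, hx0B, hmem x0 hx0B hx0⟩
    rw [Set.disjoint_left]
    intro c hc hc'
    exact hc' (interior_subset hc)
  obtain ⟨y, hy, hyb⟩ := interior_subset (hsub hb)
  exact ⟨y, hyb, (connectedComponent_eq hy).symm⟩

/-- a homeomorphism respects the relation of lying in the same component -/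
theorem component_map {s : X ≃ₜ X} {x y : X}
    (h : connectedComponent x = connectedComponent y) :
    connectedComponent (s x) = connectedComponent (s y) := by
  have h1 : s '' connectedComponent x ⊆ connectedComponent (s x) :=
    s.continuous.image_connectedComponent_subset x
  have h2 : s y ∈ connectedComponent (s x) := h1 ⟨y, by rw [h]; exact mem_connectedComponent, rfl⟩
  exact connectedComponent_eq h2

/-- **branched covers with commuting deck transformations having fixed points are connected** -/
theorem preconnected_of_deck [LocallyConnectedSpace X] {P : X → B} (hPc : IsClosedMap P)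
    {B0 : Set B} (hB0 : IsPreconnected B0) (hne : B0.Nonempty)
    (hd : Dense (P ⁻¹' B0)) (hopen : ∀ x, P x ∈ B0 → ∀ U ∈ 𝓝 x, P '' U ∈ 𝓝 (P x))
    (S : Set (X ≃ₜ X)) (hcomm : ∀ s ∈ S, ∀ t ∈ S, s * t = t * s) (hfix : ∀ s ∈ S, ∃ x, s x = x)
    (hfib : ∀ x y, P x ∈ B0 → P x = P y → ∃ d ∈ Subgroup.closure S, d x = y) :
    PreconnectedSpace X := by
  obtain ⟨b, hb⟩ := hne
  -- a deck transformation commutes with the elements of `S`
  have hc : ∀ s ∈ S, ∀ d ∈ Subgroup.closure S, s * d = d * s := by
    intro s hs d hd'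
    induction hd' using Subgroup.closure_induction with
    | mem t ht => exact hcomm s hs t ht
    | one => rw [mul_one, one_mul]
    | mul a c _ _ ha hc => rw [← mul_assoc, ha, mul_assoc, hc, mul_assoc]
    | inv a _ ha => 
      have : a⁻¹ * (s * a) * a⁻¹ = a⁻¹ * (a * s) * a⁻¹ := by rw [ha]
      rw [mul_assoc, mul_assoc, mul_inv_cancel, mul_one, inv_mul_cancel_left] at this
      exact this.symm
  -- every `s ∈ S` preserves every component
  have hS : ∀ s ∈ S, ∀ x, connectedComponent (s x) = connectedComponent x := by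
    intro s hs x
    obtain ⟨z, hz⟩ := hfix s hs
    obtain ⟨y, hyb, hy⟩ := exists_mem_component hPc hB0 hd hopen x hb
    obtain ⟨y', hyb', hy'⟩ := exists_mem_component hPc hB0 hd hopen z hb
    obtain ⟨d, hd', hdy⟩ := hfib y' y (by rw [hyb']; exact hb) (by rw [hyb, hyb'])
    have h1 : connectedComponent (s y') = connectedComponent y' := by
      have := component_map (s := s) hy'
      rw [hz] at this
      exact this.trans hy'.symm
    have h2 : connectedComponent (s y) = connectedComponent y := by
      have h3 : s y = d (s y') := by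
        rw [← hdy]
        exact congrArg (fun f : X ≃ₜ X => f y') (hc s hs d hd')
      rw [h3, component_map h1, hdy]
    rw [component_map (s := s) hy.symm, h2, hy]
  have hD : ∀ d ∈ Subgroup.closure S, ∀ x, connectedComponent (d x) = connectedComponent x := by
    intro d hd'
    induction hd' using Subgroup.closure_induction with
    | mem t ht => exact hS t ht
    | one => exact fun x => rfl
    | mul a c _ _ ha hc => exact fun x => (ha _).trans (hc x)
    | inv a _ ha => 
      intro x
      have := ha (a⁻¹ x)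
      have h3 : a (a⁻¹ x) = x := congrArg (fun f : X ≃ₜ X => f x) (mul_inv_cancel a)
      rw [h3] at this
      exact this.symm
  have hall : ∀ x y : X, connectedComponent x = connectedComponent y := by
    intro x y
    obtain ⟨x', hxb, hx⟩ := exists_mem_component hPc hB0 hd hopen x hb
    obtain ⟨y', hyb, hy⟩ := exists_mem_component hPc hB0 hd hopen y hb
    obtain ⟨d, hd', hdy⟩ := hfib x' y' (by rw [hxb]; exact hb) (by rw [hxb, hyb])
    rw [← hx, ← hy, ← hdy, hD d hd']
  rcases isEmpty_or_nonempty X with h | ⟨⟨x⟩⟩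
  · infer_instance
  · refine ⟨?_⟩
    have : (univ : Set X) = connectedComponent x := (eq_univ_of_forall fun y => by
      rw [hall x y]; exact mem_connectedComponent).symm
    rw [this]
    exact isPreconnected_connectedComponent

/-- an involution as a homeomorphism -/
@[simps] def invHomeo (s : X → X) (hs : Continuous s) (h2 : ∀ x, s (s x) = x) : X ≃ₜ X where
  toFun := s
  invFun := s
  left_inv := h2
  right_inv := h2
  continuous_toFun := hs
  continuous_invFun := hs

/-- **two commuting involutions with fixed points, fibres `{x, s₁ x, s₂ x, s₁ s₂ x}`** -/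
theorem preconnected_of_two [LocallyConnectedSpace X] {P : X → B} (hPc : IsClosedMap P)
    {B0 : Set B} (hB0 : IsPreconnected B0) (hne : B0.Nonempty)
    (hd : Dense (P ⁻¹' B0)) (hopen : ∀ x, P x ∈ B0 → ∀ U ∈ 𝓝 x, P '' U ∈ 𝓝 (P x))
    (s₁ s₂ : X → X) (h₁ : Continuous s₁) (h₂ : Continuous s₂) (hi₁ : ∀ x, s₁ (s₁ x) = x)
    (hi₂ : ∀ x, s₂ (s₂ x) = x) (hc : ∀ x, s₁ (s₂ x) = s₂ (s₁ x)) (hf₁ : ∃ x, s₁ x = x)
    (hf₂ : ∃ x, s₂ x = x)
    (hfib : ∀ x y, P x ∈ B0 → P x = P y → y = x ∨ y = s₁ x ∨ y = s₂ x ∨ y = s₁ (s₂ x)) :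
    PreconnectedSpace X := by
  let t₁ := invHomeo s₁ h₁ hi₁
  let t₂ := invHomeo s₂ h₂ hi₂
  have hcc : t₁ * t₂ = t₂ * t₁ := Homeomorph.ext hc
  have m₁ : t₁ ∈ Subgroup.closure ({t₁, t₂} : Set (X ≃ₜ X)) := Subgroup.subset_closure (by simp)
  have m₂ : t₂ ∈ Subgroup.closure ({t₁, t₂} : Set (X ≃ₜ X)) := Subgroup.subset_closure (by simp)
  refine preconnected_of_deck hPc hB0 hne hd hopen {t₁, t₂} ?_ ?_ ?_
  · rintro s (rfl | rfl) t (rfl | rfl)
    · rfl
    · exact hcc
    · exact hcc.symm
    · rfl
  · rintro s (rfl | rfl)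
    · exact hf₁
    · exact hf₂
  · intro x y hx hxy
    rcases hfib x y hx hxy with h | h | h | h
    · exact ⟨1, Subgroup.one_mem _, h.symm⟩
    · exact ⟨t₁, m₁, h.symm⟩
    · exact ⟨t₂, m₂, h.symm⟩
    · exact ⟨t₁ * t₂, Subgroup.mul_mem _ m₁ m₂, h.symm⟩

end Conn

end Crest.Agent.R272.Fin1_302
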