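import Crest.Agent.R272.Refl4_246
import Crest.Agent.R272.RQ1_302

/-!
# R272, leaf MQ (helper783), part 1: quotients of a complex manifold by (subgroups of) a properly
discontinuous group all of whose stabilisers are trivial or generated by one reflection

`ReflAt C S x`  : the derivative of `S` at `x` is a reflection (in one compatible chart);
`RA C G`        : the hypotheses on the action; `RA.sub R` : they pass to every subgroup;
`RA.fam`        : the complex structure of `Orb G X`; `RA.holC_pr`, `RA.holC_iff`;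
`up`            : `Orb H X → Orb G X`;
`LocId`         : a map which is locally the identity in the charts of the families;
`RA.locId`      : `Orb N X → Orb G X` when `N` contains all stabilisers;
`RA.covering`   : it is a covering;
`orbMap`, `isProperMap_orbMap` : the projection to the orbit space of the base is proper.
-/

set_option autoImplicit false
set_option linter.unusedSectionVars false

open Set Filter Topology

namespace Crest.Agent.R272.MQ_783

open Crest.Agent.R275.Geo Crest.Agent.R273.Fam_835 Crest.Agent.R272.Refl_246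
  Crest.Agent.R272.RQ1_302

noncomputable section

variable {n m k : ℕ} {X : Type} [TopologicalSpace X] {C : Fam n X}

/-- the derivative of `S` at the point `x` is a reflection, in a chart compatible with `C` -/
def ReflAt (C : Fam n X) (S : X → X) (x : X) : Prop :=
  ∃ φ : OpenPartialHomeomorph X (Cn n), Cpt C φ ∧ x ∈ φ.source ∧
    ∃ (ℓ : Cn n →L[ℂ] ℂ) (v : Cn n), ℓ v = 2 ∧
      ∀ w, fderiv ℂ (fun z => φ (S (φ.symm z))) (φ x) w = w - ℓ w • v

/-- a (locally) properly discontinuous group of biholomorphisms all of whose stabilisers are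
trivial or generated by one reflection -/
structure RA (C : Fam n X) (G : Type) [Group G] [MulAction G X] : Prop where
  hol : ∀ g : G, HolC C C (fun x => g • x)
  pd : ∀ x : X, PD G x
  st : ∀ x : X, (∀ g : G, g • x = x → g = 1) ∨
    ∃ s : G, s * s = 1 ∧ s • x = x ∧ (∀ g : G, g • x = x → g = 1 ∨ g = s) ∧
      ReflAt C (fun y => s • y) x

variable {G : Type} [Group G] [MulAction G X]

theorem RA.ccs (h : RA C G) : ContinuousConstSMul G X := ⟨fun g => (h.hol g).cont⟩

/-- the hypotheses pass to subgroups -/
theorem RA.sub (h : RA C G) (R : Subgroup G) : RA C R where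
  hol g := h.hol (g : G)
  pd x := by
    obtain ⟨V, hV, hx, hVg⟩ := h.pd x
    exact ⟨V, hV, hx, fun g u hu hgu => hVg (g : G) u hu hgu⟩
  st x := by
    rcases h.st x with h1 | ⟨s, hs2, hsx, hst, hs⟩
    · left
      intro g hg
      exact Subtype.ext (h1 (g : G) hg)
    · by_cases hR : s ∈ R
      · right
        refine ⟨⟨s, hR⟩, Subtype.ext hs2, hsx, fun g hg => ?_, hs⟩
        rcases hst (g : G) hg with h2 | h2
        · exact Or.inl (Subtype.ext h2)
        · exact Or.inr (Subtype.ext h2)
      · left
        intro g hg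
        rcases hst (g : G) hg with h2 | h2
        · exact Subtype.ext h2
        · exact absurd (h2 ▸ g.2) hR

theorem pds_sub [ProperlyDiscontinuousSMul G X] (R : Subgroup G) :
    ProperlyDiscontinuousSMul R X where
  finite_disjoint_inter_image := by
    intro K L hK hL
    have h1 := ProperlyDiscontinuousSMul.finite_disjoint_inter_image (Γ := G) hK hL
    have h2 : {γ : R | ((γ • ·) '' K ∩ L).Nonempty} =
        (fun γ : R => (γ : G)) ⁻¹' {γ : G | ((γ • ·) '' K ∩ L).Nonempty} := rfl
    rw [h2]
    exact h1.preimage Subtype.val_injective.injOn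

theorem ccs_sub [ContinuousConstSMul G X] (R : Subgroup G) : ContinuousConstSMul R X :=
  ⟨fun g => continuous_const_smul (g : G)⟩

theorem RA.cov [ContinuousConstSMul G X] (h : RA C G) (x : X) :
    ∃ c : RC G C, x ∈ c.e.source := by
  rcases h.st x with h1 | ⟨s, hs2, hsx, hst, φ, hφ, hx, ℓ, v, hv, hd⟩
  · exact exists_RC_free (h.pd x) h1
  · exact exists_RC_deriv (h.pd x) hs2 hst hsx (h.hol s) hφ hx ℓ v hv hd

/-- adapted chart whose reflection (if any) fixes the given point -/
theorem exists_RC_fix {x : X} (hpd : PD G x) (c : RC G C) (hx : x ∈ c.e.source) :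
    ∃ c : RC G C, x ∈ c.e.source ∧ ∀ s a, c.k = some (s, a) → s • x = x := by
  by_cases hfix : ∀ s a, c.k = some (s, a) → s • x = x
  · exact ⟨c, hx, hfix⟩
  · push Not at hfix
    obtain ⟨s, a, hk, hsx⟩ := hfix
    obtain ⟨V, hV, hxV, hVg⟩ := hpd
    have hc := (Cpt.mk c.hol c.holi).restrOpen hV
    refine ⟨⟨c.e.restrOpen V hV, hc.hol, hc.holi, none, ?_, ?_, ?_, ?_⟩, ?_, ?_⟩
    · intro _ g u hu hgu
      rw [OpenPartialHomeomorph.restrOpen_source] at hu hgu
      have h1 : g • x = x := hVg g u hu.2 hgu.2
      rcases c.two s a hk g x hx (by rw [h1]; exact hx) with h2 | h2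
      · exact h2
      · exact absurd (h2 ▸ h1) hsx
    · intro s a h; exact absurd h (by simp)
    · intro s a h; exact absurd h (by simp)
    · intro s a h; exact absurd h (by simp)
    · change x ∈ (c.e.restrOpen V hV).source
      rw [OpenPartialHomeomorph.restrOpen_source]
      exact ⟨hx, hxV⟩
    · intro s a h; exact absurd h (by simp)

/-! ### the orbit space -/

section Quot

variable [ContinuousConstSMul G X] [Nonempty X]

/-- the complex structure of the orbit space -/
def RA.fam (h : RA C G) : Fam n (Orb G X) := qFam h.hol h.cov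

theorem RA.holC_pr (h : RA C G) : HolC C h.fam (pr G) := holC_pi h.hol h.cov

theorem RA.holC_iff (h : RA C G) {N : Type} [TopologicalSpace N] {D : Fam m N}
    {f : Orb G X → N} : HolC h.fam D f ↔ HolC C D (fun x => f (pr G x)) :=
  ⟨fun hf => hf.comp h.holC_pr, fun hf => holC_desc h.hol h.cov hf⟩

/-- invariant holomorphic maps descend -/
theorem RA.exists_desc (h : RA C G) {N : Type} [TopologicalSpace N] {D : Fam m N} {f : X → N}
    (hf : HolC C D f) (hinv : ∀ (g : G) x, f (g • x) = f x) :
    ∃ F : Orb G X → N, HolC h.fam D F ∧ ∀ x, F (pr G x) = f x := by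
  refine ⟨Quotient.lift f ?_, h.holC_iff.2 hf, fun x => rfl⟩
  rintro a b ⟨g, rfl⟩
  exact hinv g b

end Quot

theorem isQ_pr (G : Type) [Group G] (X : Type) [TopologicalSpace X] [MulAction G X]
    [ContinuousConstSMul G X] : IsQ G X (⊤ : Subgroup G) (pr G : X → Orb G X) :=
  IsQ.quotientMk_top G X

theorem t2_orb (G : Type) [Group G] (X : Type) [TopologicalSpace X] [MulAction G X]
    [ContinuousConstSMul G X] [ProperlyDiscontinuousSMul G X] [T2Space X]
    [LocallyCompactSpace X] : T2Space (Orb G X) := (isQ_pr G X).t2Space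

theorem connected_orb (G : Type) [Group G] (X : Type) [TopologicalSpace X] [MulAction G X]
    [ConnectedSpace X] : ConnectedSpace (Orb G X) := inferInstance

theorem compact_orb_of {K : Set X} (hK : IsCompact K) (hKG : ∀ x : X, ∃ g : G, g • x ∈ K) :
    CompactSpace (Orb G X) := by
  refine ⟨?_⟩
  have h1 : (pr G : X → Orb G X) '' K = univ := by
    refine eq_univ_of_forall fun y => ?_
    obtain ⟨x, rfl⟩ := surjective_pr (G := G) y
    obtain ⟨g, hg⟩ := hKG x
    exact ⟨g • x, hg, pr_smul g x⟩
  rw [← h1]
  exact hK.image continuous_quot_mk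

/-! ### towers of orbit spaces -/

section Up

variable {H : Type} [Group H] [MulAction H X]

/-- `Orb H X → Orb G X` if the `H`-orbits are contained in the `G`-orbits -/
def up (hHG : ∀ (h : H) (x : X), ∃ g : G, g • x = h • x) : Orb H X → Orb G X :=
  Quotient.lift (pr G) (by
    rintro a b ⟨h, rfl⟩
    obtain ⟨g, hg⟩ := hHG h b
    change pr G (h • b) = pr G b
    rw [← hg, pr_smul])

@[simp] theorem up_pr (hHG : ∀ (h : H) (x : X), ∃ g : G, g • x = h • x) (x : X) :
    up hHG (pr H x) = pr G x := rfl

theorem continuous_up (hHG : ∀ (h : H) (x : X), ∃ g : G, g • x = h • x) :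
    Continuous (up hHG : Orb H X → Orb G X) :=
  Continuous.quotient_lift continuous_quot_mk _

theorem surjective_up (hHG : ∀ (h : H) (x : X), ∃ g : G, g • x = h • x) :
    Function.Surjective (up hHG : Orb H X → Orb G X) := by
  intro y
  obtain ⟨x, rfl⟩ := surjective_pr (G := G) y
  exact ⟨pr H x, rfl⟩

theorem isOpenQuotientMap_up [ContinuousConstSMul G X]
    (hHG : ∀ (h : H) (x : X), ∃ g : G, g • x = h • x) :
    IsOpenQuotientMap (up hHG : Orb H X → Orb G X) := by
  refine ⟨surjective_up hHG, continuous_up hHG, fun U hU => ?_⟩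
  have h1 : up hHG '' U = pr G '' (pr H ⁻¹' U) := by
    ext y
    constructor
    · rintro ⟨u, hu, rfl⟩
      obtain ⟨x, rfl⟩ := surjective_pr (G := H) u
      exact ⟨x, hu, rfl⟩
    · rintro ⟨x, hx, rfl⟩
      exact ⟨pr H x, hx, rfl⟩
  rw [h1]
  exact isOpenQuotientMap_pr.isOpenMap _ (hU.preimage continuous_quot_mk)

theorem holC_up [ContinuousConstSMul G X] [ContinuousConstSMul H X] [Nonempty X]
    (hG : RA C G) (hH : RA C H) (hHG : ∀ (h : H) (x : X), ∃ g : G, g • x = h • x) :
    HolC hH.fam hG.fam (up hHG) :=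
  hH.holC_iff.2 hG.holC_pr

/-- the inclusion of orbits for a subgroup -/
theorem sub_orb (R : Subgroup G) : ∀ (h : R) (x : X), ∃ g : G, g • x = h • x :=
  fun h _ => ⟨(h : G), rfl⟩

theorem le_orb {R S : Subgroup G} (hRS : R ≤ S) : ∀ (h : R) (x : X), ∃ g : S, g • x = h • x :=
  fun h _ => ⟨⟨(h : G), hRS h.2⟩, rfl⟩

end Up

/-- `r` is locally the identity in the charts of the families -/
def LocId {M N : Type} [TopologicalSpace M] [TopologicalSpace N] (C : Fam n M) (D : Fam n N)
    (r : M → N) : Prop :=
  ∀ y, ∃ i j, y ∈ (C.e i).source ∧ MapsTo r (C.e i).source (D.e j).source ∧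
    ∀ z ∈ (C.e i).source, D.e j (r z) = C.e i z

section Loc

variable [ContinuousConstSMul G X] [Nonempty X]

theorem RC.exists_sub (N : Subgroup G) (c : RC G C) (hN : ∀ s a, c.k = some (s, a) → s ∈ N) :
    ∃ c' : RC N C, c'.e = c.e ∧ qk c'.k = qk c.k := by
  rcases hk : c.k with _ | ⟨s, a⟩
  · refine ⟨⟨c.e, c.hol, c.holi, none, ?_, ?_, ?_, ?_⟩, rfl, rfl⟩
    · intro _ g u hu hgu
      exact Subtype.ext (c.free hk (g : G) u hu hgu)
    · intro s a h; exact absurd h (by simp)
    · intro s a h; exact absurd h (by simp)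
    · intro s a h; exact absurd h (by simp)
  · refine ⟨⟨c.e, c.hol, c.holi, some (⟨s, hN s a hk⟩, a), ?_, ?_, ?_, ?_⟩, rfl, rfl⟩
    · intro h; exact absurd h (by simp)
    · intro s' a' h u hu
      rw [Option.some.injEq, Prod.mk.injEq] at h
      obtain ⟨rfl, rfl⟩ := h
      exact c.inv s a hk u hu
    · intro s' a' h u hu
      rw [Option.some.injEq, Prod.mk.injEq] at h
      obtain ⟨rfl, rfl⟩ := h
      exact c.ref s a hk u hu
    · intro s' a' h g u hu hgu
      rw [Option.some.injEq, Prod.mk.injEq] at h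
      obtain ⟨rfl, rfl⟩ := h
      rcases c.two s a hk (g : G) u hu hgu with h2 | h2
      · exact Or.inl (Subtype.ext h2)
      · exact Or.inr (Subtype.ext h2)

/-- `Orb N X → Orb G X` is locally the identity in charts if `N` contains all stabilisers -/
theorem RA.locId (h : RA C G) (N : Subgroup G) (hst : ∀ (g : G) (x : X), g • x = x → g ∈ N)
    [ContinuousConstSMul N X] :
    LocId (h.sub N).fam h.fam (up (sub_orb N)) := by
  intro y
  obtain ⟨x, rfl⟩ := surjective_pr (G := N) y
  obtain ⟨c0, hc0⟩ := h.cov x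
  obtain ⟨c, hc, hfix⟩ := exists_RC_fix (h.pd x) c0 hc0
  obtain ⟨c', he, hk⟩ := RC.exists_sub N c fun s a hk => hst s x (hfix s a hk)
  have hsrc : ∀ z ∈ c'.eM.source, ∃ u ∈ c.e.source, pr N u = z := by
    intro z hz
    rw [c'.eM_source, he] at hz
    exact hz
  refine ⟨c', c, ?_, ?_, ?_⟩
  · exact c'.mem_eM_source (by rw [he]; exact hc)
  · intro z hz
    obtain ⟨u, hu, rfl⟩ := hsrc z hz
    exact c.mem_eM_source hu
  · intro z hz
    obtain ⟨u, hu, rfl⟩ := hsrc z hz
    change c.eM (pr G u) = c'.eM (pr N u)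
    rw [c.eM_apply hu, c'.eM_apply (by rw [he]; exact hu), he, hk]

end Loc

/-- the covering `Orb N X → Orb G X` -/
theorem covering_up [ContinuousConstSMul G X] [ProperlyDiscontinuousSMul G X]
    [T2Space X] [LocallyCompactSpace X] (N : Subgroup G) [N.Normal]
    (hst : ∀ (g : G) (x : X), g • x = x → g ∈ N) :
    IsCoveringMap (up (sub_orb N) : Orb N X → Orb G X) :=
  isCoveringMap_orbit hst fun _ => rfl

/-! ### the projection to the base -/

section Base

variable {B : Type} [TopologicalSpace B] [MulAction G B] {P : X → B}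

/-- the map of orbit spaces induced by an equivariant map -/
def orbMap (P : X → B) (hP : ∀ (g : G) x, P (g • x) = g • P x) : Orb G X → Orb G B :=
  Quotient.lift (fun x => pr G (P x)) (by
    rintro a b ⟨g, rfl⟩
    change pr G (P (g • b)) = pr G (P b)
    rw [hP, pr_smul])

@[simp] theorem orbMap_pr (hP : ∀ (g : G) x, P (g • x) = g • P x) (x : X) :
    orbMap P hP (pr G x) = pr G (P x) := rfl

theorem continuous_orbMap (hc : Continuous P) (hP : ∀ (g : G) x, P (g • x) = g • P x) :
    Continuous (orbMap P hP) :=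
  Continuous.quotient_lift (continuous_quot_mk.comp hc) _

theorem isProperMap_orbMap [ContinuousConstSMul G B] (hc : IsProperMap P)
    (hP : ∀ (g : G) x, P (g • x) = g • P x) : IsProperMap (orbMap P hP) := by
  rw [isProperMap_iff_isClosedMap_and_compact_fibers]
  refine ⟨continuous_orbMap hc.continuous hP, fun F hF => ?_, fun y => ?_⟩
  · have hF' : IsClosed (pr G ⁻¹' F : Set X) := hF.preimage continuous_quot_mk
    have h1 : (pr G : B → Orb G B) ⁻¹' (orbMap P hP '' F) = P '' (pr G ⁻¹' F) := by
      ext b
      constructor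
      · rintro ⟨y, hy, hyb⟩
        obtain ⟨x, rfl⟩ := surjective_pr (G := G) y
        rw [orbMap_pr, pr_eq_iff] at hyb
        obtain ⟨g, hg⟩ := hyb
        refine ⟨g • x, ?_, ?_⟩
        · rw [mem_preimage, pr_smul]; exact hy
        · rw [hP, hg]
      · rintro ⟨x, hx, rfl⟩
        exact ⟨pr G x, hx, rfl⟩
    rw [← (isOpenQuotientMap_pr (G := G) (Y := B)).isQuotientMap.isClosed_preimage, h1]
    exact hc.isClosedMap _ hF'
  · obtain ⟨b, rfl⟩ := surjective_pr (G := G) y
    have h1 : orbMap P hP ⁻¹' {pr G b} = pr G '' (P ⁻¹' {b}) := by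
      ext y
      constructor
      · intro hy
        obtain ⟨x, rfl⟩ := surjective_pr (G := G) y
        have hy' : pr G (P x) = pr G b := hy
        rw [pr_eq_iff] at hy'
        obtain ⟨g, hg⟩ := hy'
        refine ⟨g • x, ?_, pr_smul g x⟩
        rw [mem_preimage, hP, hg]
        rfl
      · rintro ⟨x, hx, rfl⟩
        have hx' : P x = b := hx
        change pr G (P x) = pr G b
        rw [hx']
    rw [h1]
    exact (hc.isCompact_preimage isCompact_singleton).image continuous_quot_mk

end Base

end

end Crest.Agent.R272.MQ_783
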