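import Crest.Agent.R272.Flat2_302
import Crest.Agent.R272.Fin1_302
import Crest.Agent.R272.MQ1_783

/-!
# R272 (S0415), ACTION (helper302), part 1: the group acting on `X1`

`GAct D G` : `G` acts on the base `N` holomorphically and `f0, x i, P i, Q i` are permuted up to
automorphy factors `j0 g z, j g i z, (p g i z)^2, (q g i z)^2` with exact cocycle identities,
`σ : G →* Perm (Fin 2)`.

* `act g : Amb N → Amb N` : the action on `N × P1^5`, holomorphic; `act_mul`, `act_one`, `act_mem`;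
* `A.X` : the type `D.X1` with `MulAction G A.X`, continuous, equivariant over `N`, properly
  discontinuous if `G` is on `N`, `T2`, locally compact, proper over `N`.
-/

set_option autoImplicit false
set_option linter.unusedSectionVars false

open Set Filter Topology

namespace Crest.Agent.R272.Act_302

open Crest.Agent.R275.Geo Crest.Agent.R273.Fam_835 Crest.Agent.R272.Quot_783
  Crest.Agent.R272.Gr_559 Crest.Agent.R272.FamP_54 Crest.Agent.R272.P1A_54
  Crest.Agent.R272.Flat2_302 Crest.Agent.R272.Refl_246 Crest.Agent.R272.MQ_783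
open Crest.Agent.R272.P1F_54 (nn dd hmk mulP mulP_ne mulP_hmk mulP_mulP mulP_one mulP_scale
  mulP_rel mulP_holC p1Fam)

noncomputable section

variable {N : Type} [TopologicalSpace N] {F : Fam 3 N}

/-- automorphy data of a group acting on the base -/
structure GAct (D : GData F) (G : Type) [Group G] [MulAction G N] where
  /-- permutation of the colours -/
  σ : G →* Equiv.Perm (Fin 2)
  j0 : G → N → ℂ
  j : G → Fin 2 → N → ℂ
  p : G → Fin 2 → N → ℂ
  q : G → Fin 2 → N → ℂ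
  hol : ∀ g : G, HolC F F (fun z => g • z)
  j0_hol : ∀ g, HolF F univ (j0 g)
  j_hol : ∀ g i, HolF F univ (j g i)
  p_hol : ∀ g i, HolF F univ (p g i)
  q_hol : ∀ g i, HolF F univ (q g i)
  j0_ne : ∀ g z, j0 g z ≠ 0
  j_ne : ∀ g i z, j g i z ≠ 0
  p_ne : ∀ g i z, p g i z ≠ 0
  q_ne : ∀ g i z, q g i z ≠ 0
  f0_smul : ∀ (g : G) (z : N), D.f0 (g • z) = j0 g z * D.f0 z
  x_smul : ∀ (g : G) (i : Fin 2) (z : N), D.x (σ g i) (g • z) = j g i z * D.x i z
  P_smul : ∀ (g : G) (i : Fin 2) (z : N), D.P (σ g i) (g • z) = p g i z ^ 2 * D.P i z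
  Q_smul : ∀ (g : G) (i : Fin 2) (z : N), D.Q (σ g i) (g • z) = q g i z ^ 2 * D.Q i z
  j0_mul : ∀ (g h : G) (z : N), j0 (g * h) z = j0 g (h • z) * j0 h z
  j_mul : ∀ (g h : G) (i : Fin 2) (z : N), j (g * h) i z = j g (σ h i) (h • z) * j h i z
  p_mul : ∀ (g h : G) (i : Fin 2) (z : N), p (g * h) i z = p g (σ h i) (h • z) * p h i z
  q_mul : ∀ (g h : G) (i : Fin 2) (z : N), q (g * h) i z = q g (σ h i) (h • z) * q h i z

namespace GAct

variable {D : GData F} {G : Type} [Group G] [MulAction G N] (A : GAct D G)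

theorem j0_one (z : N) : A.j0 1 z = 1 := by
  have h := A.j0_mul 1 1 z
  rw [mul_one, one_smul] at h
  exact (mul_eq_left₀ (A.j0_ne 1 z)).1 h.symm

theorem j_one (i : Fin 2) (z : N) : A.j 1 i z = 1 := by
  have h := A.j_mul 1 1 i z
  rw [mul_one, one_smul, map_one, Equiv.Perm.one_apply] at h
  exact (mul_eq_left₀ (A.j_ne 1 i z)).1 h.symm

theorem p_one (i : Fin 2) (z : N) : A.p 1 i z = 1 := by
  have h := A.p_mul 1 1 i z
  rw [mul_one, one_smul, map_one, Equiv.Perm.one_apply] at h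
  exact (mul_eq_left₀ (A.p_ne 1 i z)).1 h.symm

theorem q_one (i : Fin 2) (z : N) : A.q 1 i z = 1 := by
  have h := A.q_mul 1 1 i z
  rw [mul_one, one_smul, map_one, Equiv.Perm.one_apply] at h
  exact (mul_eq_left₀ (A.q_ne 1 i z)).1 h.symm

/-- the factor of `v` -/
def jv (g : G) (z : N) : ℂ := A.j g 0 z * A.j g 1 z

theorem jv_ne (g : G) (z : N) : A.jv g z ≠ 0 := mul_ne_zero (A.j_ne g 0 z) (A.j_ne g 1 z)

theorem perm_cases (s : Equiv.Perm (Fin 2)) : (s 0 = 0 ∧ s 1 = 1) ∨ (s 0 = 1 ∧ s 1 = 0) := by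
  revert s; decide

theorem jv_perm (g : G) (s : Equiv.Perm (Fin 2)) (z : N) :
    A.j g (s 0) z * A.j g (s 1) z = A.jv g z := by
  rcases perm_cases s with ⟨h0, h1⟩ | ⟨h0, h1⟩
  · rw [h0, h1]; rfl
  · rw [h0, h1, mul_comm]; rfl

theorem jv_mul (g h : G) (z : N) : A.jv (g * h) z = A.jv g (h • z) * A.jv h z := by
  rw [← A.jv_perm g (A.σ h) (h • z)]
  unfold jv
  rw [A.j_mul, A.j_mul]
  ring

theorem jv_one (z : N) : A.jv 1 z = 1 := by
  unfold jv
  rw [A.j_one, A.j_one, mul_one]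

/-- the action on the ambient space -/
def act (g : G) (y : GData.Amb N) : GData.Amb N :=
  (g • y.1,
   fun i => mulP (A.j g ((A.σ g).symm i) y.1) (A.j0 g y.1) (y.2.1 ((A.σ g).symm i)),
   mulP (A.jv g y.1) (A.j0 g y.1) y.2.2.1,
   fun i => mulP (A.p g ((A.σ g).symm i) y.1) (A.q g ((A.σ g).symm i) y.1)
     (y.2.2.2 ((A.σ g).symm i)))

@[simp] theorem act_z (g : G) (y : GData.Amb N) : (A.act g y).1 = g • y.1 := rfl

theorem act_t (g : G) (y : GData.Amb N) (i : Fin 2) :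
    (A.act g y).2.1 (A.σ g i) = mulP (A.j g i y.1) (A.j0 g y.1) (y.2.1 i) := by
  simp [act]

theorem act_v (g : G) (y : GData.Amb N) :
    (A.act g y).2.2.1 = mulP (A.jv g y.1) (A.j0 g y.1) y.2.2.1 := rfl

theorem act_k (g : G) (y : GData.Amb N) (i : Fin 2) :
    (A.act g y).2.2.2 (A.σ g i) = mulP (A.p g i y.1) (A.q g i y.1) (y.2.2.2 i) := by
  simp [act]

theorem amb_ext (s : Equiv.Perm (Fin 2)) {y y' : GData.Amb N} (h1 : y.1 = y'.1)
    (h2 : ∀ i, y.2.1 (s i) = y'.2.1 (s i)) (h3 : y.2.2.1 = y'.2.2.1)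
    (h4 : ∀ i, y.2.2.2 (s i) = y'.2.2.2 (s i)) : y = y' := by
  refine Prod.ext h1 (Prod.ext (funext fun i => ?_) (Prod.ext h3 (funext fun i => ?_)))
  · have := h2 (s.symm i)
    rwa [Equiv.apply_symm_apply] at this
  · have := h4 (s.symm i)
    rwa [Equiv.apply_symm_apply] at this

theorem act_one (y : GData.Amb N) : A.act 1 y = y := by
  refine amb_ext (A.σ 1) (one_smul G _) (fun i => ?_) ?_ (fun i => ?_)
  · rw [A.act_t, A.j_one, A.j0_one, mulP_one, map_one, Equiv.Perm.one_apply]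
  · rw [A.act_v, A.jv_one, A.j0_one, mulP_one]
  · rw [A.act_k, A.p_one, A.q_one, mulP_one, map_one, Equiv.Perm.one_apply]

theorem act_mul (g h : G) (y : GData.Amb N) : A.act (g * h) y = A.act g (A.act h y) := by
  refine amb_ext (A.σ (g * h)) ?_ (fun i => ?_) ?_ (fun i => ?_)
  · show (g * h) • y.1 = g • h • y.1
    rw [mul_smul]
  · rw [A.act_t, map_mul, Equiv.Perm.mul_apply, A.act_t, A.act_t, A.act_z,
      mulP_mulP _ _ (A.j_ne _ _ _) (A.j0_ne _ _), A.j_mul, A.j0_mul]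
  · rw [A.act_v, A.act_v, A.act_v, A.act_z, mulP_mulP _ _ (A.jv_ne _ _) (A.j0_ne _ _), A.jv_mul,
      A.j0_mul]
  · rw [A.act_k, map_mul, Equiv.Perm.mul_apply, A.act_k, A.act_k, A.act_z,
      mulP_mulP _ _ (A.p_ne _ _ _) (A.q_ne _ _ _), A.p_mul, A.q_mul]

theorem hf_of {f : N → ℂ} (h : HolF F univ f) : HF F univ f := (holF_iff isOpen_univ).1 h

/-- the ambient action is holomorphic -/
theorem act_holC (g : G) : HolC (ambFam F) (ambFam F) (A.act g) := by
  have hz : HolC (ambFam F) F (fun p => p.1) := amb_z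
  have hf : ∀ {f : N → ℂ}, HolF F univ f → HF (ambFam F) univ (fun p : GData.Amb N => f p.1) :=
    fun h => (hf_of h).comp_right (p := fun p : GData.Amb N => p.1) hz
  rw [holC_amb_iff]
  refine ⟨(A.hol g).comp hz, fun i => ?_, ?_, fun i => ?_⟩
  · exact mulP_holC (hf (A.j_hol g _)) (hf (A.j0_hol g)) (fun _ => A.j_ne _ _ _)
      (fun _ => A.j0_ne _ _) (amb_t _)
  · refine mulP_holC (a := fun p : GData.Amb N => A.jv g p.1) ?_ (hf (A.j0_hol g))
      (fun _ => A.jv_ne _ _) (fun _ => A.j0_ne _ _) amb_v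
    exact fun x _ => (hf (A.j_hol g 0) x trivial).mul (hf (A.j_hol g 1) x trivial)
  · exact mulP_holC (hf (A.p_hol g _)) (hf (A.q_hol g _)) (fun _ => A.p_ne _ _ _)
      (fun _ => A.q_ne _ _ _) (amb_k _)

theorem continuous_act (g : G) : Continuous (A.act g) := (A.act_holC g).cont

/-- the induced map of `N × P1 × P1` for one colour -/
def actY (g : G) (i : Fin 2) (y : N × P1 × P1) : N × P1 × P1 :=
  (g • y.1, mulP (A.j g i y.1) (A.j0 g y.1) y.2.1, mulP (A.p g i y.1) (A.q g i y.1) y.2.2)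

theorem continuous_actY (g : G) (i : Fin 2) : Continuous (A.actY g i) := by
  have hz : HolC (prodFam F (prodFam p1Fam p1Fam)) F Prod.fst := prod_fst
  have ht : HolC (prodFam F (prodFam p1Fam p1Fam)) p1Fam (fun y => y.2.1) :=
    prod_fst.comp prod_snd
  have hk : HolC (prodFam F (prodFam p1Fam p1Fam)) p1Fam (fun y => y.2.2) :=
    prod_snd.comp prod_snd
  have hf : ∀ {f : N → ℂ}, HolF F univ f →
      HF (prodFam F (prodFam p1Fam p1Fam)) univ (fun p : N × P1 × P1 => f p.1) :=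
    fun h => (hf_of h).comp_right (p := fun p : N × P1 × P1 => p.1) hz
  have h1 := ((A.hol g).comp hz).cont
  have h2 := (mulP_holC (hf (A.j_hol g i)) (hf (A.j0_hol g)) (fun _ => A.j_ne _ _ _)
      (fun _ => A.j0_ne _ _) ht).cont
  have h3 := (mulP_holC (hf (A.p_hol g i)) (hf (A.q_hol g i)) (fun _ => A.p_ne _ _ _)
      (fun _ => A.q_ne _ _ _) hk).cont
  exact h1.prodMk (h2.prodMk h3)

/-- the relation `t = [x : f]` under `mulP` -/
theorem rel_mulP {a b x f : ℂ} (ha : a ≠ 0) (hb : b ≠ 0) {t : P1} (h : x * P1.d t = f * P1.n t) :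
    (a * x) * P1.d (mulP a b t) = (b * f) * P1.n (mulP a b t) := by
  obtain ⟨c, hc, h1, h2⟩ := mulP_rel ha hb t
  rw [n_eq, d_eq] at *
  apply mul_left_cancel₀ hc
  linear_combination a * b * h - a * x * h2 + b * f * h1

/-- the relation `k² = P / Q` under `mulP` -/
theorem sq_mulP {a b P Q : ℂ} (ha : a ≠ 0) (hb : b ≠ 0) {k : P1}
    (h : P1.n k ^ 2 * Q = P1.d k ^ 2 * P) :
    P1.n (mulP a b k) ^ 2 * (b ^ 2 * Q) = P1.d (mulP a b k) ^ 2 * (a ^ 2 * P) := by
  obtain ⟨c, hc, h1, h2⟩ := mulP_rel ha hb k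
  rw [n_eq, d_eq] at *
  apply mul_left_cancel₀ (pow_ne_zero 2 hc)
  have e1 : c ^ 2 * (nn (mulP a b k) ^ 2 * (b ^ 2 * Q)) =
      (c * nn (mulP a b k)) ^ 2 * (b ^ 2 * Q) := by ring
  have e2 : c ^ 2 * (dd (mulP a b k) ^ 2 * (a ^ 2 * P)) =
      (c * dd (mulP a b k)) ^ 2 * (a ^ 2 * P) := by ring
  rw [e1, e2, ← h1, ← h2]
  linear_combination a ^ 2 * b ^ 2 * h

theorem actY_mem_G (g : G) (i : Fin 2) {y : N × P1 × P1} (hy : y ∈ D.G i) :
    A.actY g i y ∈ D.G (A.σ g i) := by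
  obtain ⟨h0, h1, h2⟩ := hy
  refine ⟨?_, ?_, ?_⟩
  · show ¬(D.f0 (g • y.1) = 0 ∧ D.x (A.σ g i) (g • y.1) = 0)
    rw [A.f0_smul, A.x_smul]
    rintro ⟨h3, h4⟩
    exact h0 ⟨(mul_eq_zero.1 h3).resolve_left (A.j0_ne _ _),
      (mul_eq_zero.1 h4).resolve_left (A.j_ne _ _ _)⟩
  · show D.x (A.σ g i) (g • y.1) * _ = D.f0 (g • y.1) * _
    rw [A.f0_smul, A.x_smul]
    exact rel_mulP (A.j_ne _ _ _) (A.j0_ne _ _) h1
  · show _ * D.Q (A.σ g i) (g • y.1) = _ * D.P (A.σ g i) (g • y.1)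
    rw [A.P_smul, A.Q_smul]
    exact sq_mulP (A.p_ne _ _ _) (A.q_ne _ _ _) h2

theorem actY_mem_Y (g : G) (i : Fin 2) {y : N × P1 × P1} (hy : y ∈ D.Y i) :
    A.actY g i y ∈ D.Y (A.σ g i) := by
  have h1 : A.actY g i '' D.Y i ⊆ closure (A.actY g i '' D.G i) :=
    image_closure_subset_closure_image (A.continuous_actY g i)
  exact closure_mono (by rintro _ ⟨z, hz, rfl⟩; exact A.actY_mem_G g i hz) (h1 ⟨y, hy, rfl⟩)

/-- the relation of `v` -/
theorem v_mulP {a a' b x : ℂ} (ha : a ≠ 0) (ha' : a' ≠ 0) (hb : b ≠ 0) {v t : P1}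
    (h : P1.n v * P1.d t = P1.d v * P1.n t * x) :
    P1.n (mulP (a * a') b v) * P1.d (mulP a b t) =
      P1.d (mulP (a * a') b v) * P1.n (mulP a b t) * (a' * x) := by
  obtain ⟨c, hc, h1, h2⟩ := mulP_rel (mul_ne_zero ha ha') hb v
  obtain ⟨c', hc', h3, h4⟩ := mulP_rel ha hb t
  rw [n_eq, d_eq] at *
  rw [n_eq, d_eq] at h ⊢
  apply mul_left_cancel₀ (mul_ne_zero hc hc')
  have e1 : c * c' * (nn (mulP (a * a') b v) * dd (mulP a b t)) =
      (c * nn (mulP (a * a') b v)) * (c' * dd (mulP a b t)) := by ring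
  have e2 : c * c' * (dd (mulP (a * a') b v) * nn (mulP a b t) * (a' * x)) =
      (c * dd (mulP (a * a') b v)) * (c' * nn (mulP a b t)) * (a' * x) := by ring
  rw [e1, e2, ← h1, ← h2, ← h3, ← h4]
  linear_combination a * a' * b * h

/-- **the action preserves `X1`** -/
theorem act_mem (g : G) {y : GData.Amb N} (hy : y ∈ D.X1) : A.act g y ∈ D.X1 := by
  obtain ⟨h0, h1, h2⟩ := hy
  have hY : ∀ i, ((A.act g y).1, (A.act g y).2.1 i, (A.act g y).2.2.2 i) ∈ D.Y i := by
    intro i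
    obtain ⟨i', rfl⟩ := (A.σ g).surjective i
    have h := A.actY_mem_Y g i' (h0 i')
    rw [A.act_t, A.act_k]
    exact h
  -- both relations, in symmetric form
  have e0 : P1.n (A.act g y).2.2.1 * P1.d ((A.act g y).2.1 (A.σ g 0)) =
      P1.d (A.act g y).2.2.1 * P1.n ((A.act g y).2.1 (A.σ g 0)) *
        D.x (A.σ g 1) (g • y.1) := by
    rw [A.act_t, A.act_v, A.x_smul]
    exact v_mulP (A.j_ne g 0 y.1) (A.j_ne g 1 y.1) (A.j0_ne _ _) h1
  have e1 : P1.n (A.act g y).2.2.1 * P1.d ((A.act g y).2.1 (A.σ g 1)) =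
      P1.d (A.act g y).2.2.1 * P1.n ((A.act g y).2.1 (A.σ g 1)) *
        D.x (A.σ g 0) (g • y.1) := by
    rw [A.act_t, A.act_v, A.x_smul]
    have e : A.jv g y.1 = A.j g 1 y.1 * A.j g 0 y.1 := mul_comm _ _
    rw [e]
    exact v_mulP (A.j_ne g 1 y.1) (A.j_ne g 0 y.1) (A.j0_ne _ _) h2
  rcases perm_cases (A.σ g) with ⟨hs0, hs1⟩ | ⟨hs0, hs1⟩
  · rw [hs0, hs1] at e0 e1
    exact ⟨hY, e0, e1⟩
  · rw [hs0, hs1] at e0 e1
    exact ⟨hY, e1, e0⟩

/-- the space `X1` with the action -/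
@[nolint unusedArguments] def X (_A : GAct D G) : Type := D.X1

instance : TopologicalSpace A.X := inferInstanceAs (TopologicalSpace D.X1)

/-- the underlying point of the ambient space -/
def val (y : A.X) : GData.Amb N := Subtype.val (p := fun y => y ∈ D.X1) y

theorem val_mem (y : A.X) : A.val y ∈ D.X1 := y.2

theorem val_injective : Function.Injective A.val := Subtype.val_injective

theorem continuous_val : Continuous A.val := continuous_subtype_val

/-- the projection to the base -/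
def pz (y : A.X) : N := D.pz y

theorem pz_eq (y : A.X) : A.pz y = (A.val y).1 := rfl

instance : MulAction G A.X where
  smul g y := ⟨A.act g (A.val y), A.act_mem g (A.val_mem y)⟩
  one_smul y := Subtype.ext (A.act_one _)
  mul_smul g h y := Subtype.ext (A.act_mul g h _)

theorem val_smul (g : G) (y : A.X) : A.val (g • y) = A.act g (A.val y) := rfl

theorem pz_smul (g : G) (y : A.X) : A.pz (g • y) = g • A.pz y := rfl

theorem t_smul (g : G) (y : A.X) (i : Fin 2) : D.t (A.σ g i) (g • y : A.X) =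
    mulP (A.j g i (A.pz y)) (A.j0 g (A.pz y)) (D.t i y) := A.act_t g (A.val y) i

theorem v_smul (g : G) (y : A.X) : D.v (g • y : A.X) =
    mulP (A.jv g (A.pz y)) (A.j0 g (A.pz y)) (D.v y) := rfl

theorem k_smul (g : G) (y : A.X) (i : Fin 2) : D.k (A.σ g i) (g • y : A.X) =
    mulP (A.p g i (A.pz y)) (A.q g i (A.pz y)) (D.k i y) := A.act_k g (A.val y) i

theorem isProperMap_pz : IsProperMap A.pz := Flat2_302.isProperMap_pz D

theorem continuous_pz : Continuous A.pz := A.isProperMap_pz.continuous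

instance [T2Space N] : T2Space A.X := inferInstanceAs (T2Space D.X1)

instance [SecondCountableTopology N] [SecondCountableTopology P1] :
    SecondCountableTopology A.X := inferInstanceAs (SecondCountableTopology D.X1)

instance continuousConstSMul : ContinuousConstSMul G A.X where
  continuous_const_smul g :=
    Continuous.subtype_mk ((A.continuous_act g).comp A.continuous_val) _

theorem locallyCompact [LocallyCompactSpace N] [T2Space N] : LocallyCompactSpace A.X :=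
  Fin1_302.lc_of_proper A.isProperMap_pz

theorem properlyDiscontinuous [ProperlyDiscontinuousSMul G N] :
    ProperlyDiscontinuousSMul G A.X :=
  Fin1_302.pd_of_map A.continuous_pz A.pz_smul

theorem exists_compact {K : Set N} (hK : IsCompact K) (hc : ∀ b : N, ∃ g : G, g • b ∈ K) :
    ∃ K1 : Set A.X, IsCompact K1 ∧ ∀ y : A.X, ∃ g : G, g • y ∈ K1 :=
  Fin1_302.exists_compact A.isProperMap_pz A.pz_smul hK hc

theorem pd [LocallyCompactSpace N] [T2Space N] [ProperlyDiscontinuousSMul G N] (y : A.X) :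
    PD G y := by
  have := A.locallyCompact
  have := A.properlyDiscontinuous
  exact pd_of_properly y

/-- the complex structure (from slices of the ambient family) -/
def fam (h : SubF_54.IsSl (ambFam F) D.X1 3) : Fam 3 A.X := SubF_54.slFam h

variable (h : SubF_54.IsSl (ambFam F) D.X1 3)

theorem fam_hol : HolC (A.fam h) (ambFam F) A.val := SubF_54.slFam_hol h

theorem fam_lift_iff {m : ℕ} {P : Type} [TopologicalSpace P] {E : Fam m P} {f : P → A.X} :
    HolC E (A.fam h) f ↔ HolC E (ambFam F) (fun x => A.val (f x)) := SubF_54.slFam_lift_iff h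

/-- **the action is holomorphic** -/
theorem holC_smul (g : G) : HolC (A.fam h) (A.fam h) (fun y => g • y) := by
  rw [fam_lift_iff]
  exact (A.act_holC g).comp (A.fam_hol h)

theorem holC_pz : HolC (A.fam h) F A.pz := amb_z.comp (A.fam_hol h)

theorem holC_t (i : Fin 2) : HolC (A.fam h) p1Fam (fun y : A.X => D.t i y) :=
  (amb_t i).comp (A.fam_hol h)

theorem holC_v : HolC (A.fam h) p1Fam (fun y : A.X => D.v y) := amb_v.comp (A.fam_hol h)

theorem holC_k (i : Fin 2) : HolC (A.fam h) p1Fam (fun y : A.X => D.k i y) :=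
  (amb_k i).comp (A.fam_hol h)

end GAct

end

end Crest.Agent.R272.Act_302
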