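import Crest.Agent.R272.Gr1_559

/-!
# R272 (S0415), MOD-GRAPH (helper559), file 3: local equations `Loc` and the differentials
-/

set_option autoImplicit false
set_option linter.unusedSectionVars false

open Set Filter Topology Complex

namespace Crest.Agent.R272.Gr_559

open Crest.Agent.R275.Geo Crest.Agent.R273.Fam_835 Crest.Agent.R272.Quot_783
open Crest.Agent.R272

noncomputable section

variable {N : Type} [TopologicalSpace N] {F : Fam 3 N}

/-! ### calculus of `dd` -/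

theorem dd_congr {m : ℕ} {F : Fam m N} {i : F.ι} {q : N} (hi : q ∈ (F.e i).source)
    {f g : N → ℂ} (h : f =ᶠ[𝓝 q] g) : dd F i f q = dd F i g q := by
  unfold dd
  refine Filter.EventuallyEq.fderiv_eq ?_
  have h1 : Tendsto (F.e i).symm (𝓝 (F.e i q)) (𝓝 q) := by
    have h2 := (F.e i).continuousAt_symm ((F.e i).map_source hi)
    rw [ContinuousAt, (F.e i).left_inv hi] at h2
    exact h2
  exact h1.eventually h

/-- product with a factor vanishing at the point -/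
theorem dd_mul_zero {m : ℕ} {F : Fam m N} {U : Set N} (hU : IsOpen U) {a s : N → ℂ}
    (ha : HolF F U a) (hs : HolF F U s) {i : F.ι} {q : N} (hi : q ∈ (F.e i).source) (hq : q ∈ U)
    (h0 : s q = 0) (v : Cn m) : dd F i (fun z => a z * s z) q v = a q * dd F i s q v := by
  have h1 := (hasFDerivAt_dd hU ha hi hq).mul (hasFDerivAt_dd hU hs hi hq)
  have h2 : dd F i (fun z => a z * s z) q = _ := h1.fderiv
  rw [h2, (F.e i).left_inv hi, h0]
  show a q * dd F i s q v + 0 * dd F i a q v = _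
  ring

theorem dd_sub_smul {m : ℕ} {F : Fam m N} {U : Set N} (hU : IsOpen U) {s t : N → ℂ}
    (hs : HolF F U s) (ht : HolF F U t) {i : F.ι} {q : N} (hi : q ∈ (F.e i).source) (hq : q ∈ U)
    (c : ℂ) (v : Cn m) :
    dd F i (fun z => s z - c * t z) q v = dd F i s q v - c * dd F i t q v := by
  have h1 := (hasFDerivAt_dd hU hs hi hq).sub ((hasFDerivAt_dd hU ht hi hq).const_mul c)
  have h2 : dd F i (fun z => s z - c * t z) q = _ := h1.fderiv
  rw [h2]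
  rfl

theorem holF_sub_smul {m : ℕ} {F : Fam m N} {U : Set N} {s t : N → ℂ} (hs : HolF F U s)
    (ht : HolF F U t) (c : ℂ) : HolF F U (fun z => s z - c * t z) := fun i =>
  (hs i).sub ((ht i).const_mul c)

namespace Pen

variable {f0 x P Q : N → ℂ} {q : N} (p : Pen F f0 x P Q q)

theorem dd_f0 (h0 : f0 q = 0) {i : F.ι} (hi : q ∈ (F.e i).source) (v : Cn 3) :
    dd F i f0 q v = p.a q * dd F i p.s0 q v := by
  have h1 : dd F i f0 q = dd F i (fun z => p.a z * p.s0 z) q := dd_congr hi (by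
    filter_upwards [p.U_open.mem_nhds p.mem] with z hz using p.ef z hz)
  rw [h1]
  exact dd_mul_zero p.U_open p.a_hol p.s0_hol hi p.mem (p.s0_zero h0) v

theorem dd_x (h0 : f0 q = 0) (hx : x q = 0) {i : F.ι} (hi : q ∈ (F.e i).source) (v : Cn 3) :
    dd F i x q v = p.b q * (dd F i p.s1 q v - p.c 5 * dd F i p.s0 q v) := by
  have h1 : dd F i x q = dd F i (fun z => p.b z * (p.s1 z - p.c 5 * p.s0 z)) q := dd_congr hi (by
    filter_upwards [p.U_open.mem_nhds p.mem] with z hz using p.ex z hz)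
  rw [h1, dd_mul_zero p.U_open p.b_hol (holF_sub_smul p.s1_hol p.s0_hol _) hi p.mem
    (by rw [p.s0_zero h0, p.s1_zero h0 hx]; ring) v,
    dd_sub_smul p.U_open p.s1_hol p.s0_hol hi p.mem]

end Pen

namespace GData

variable (D : GData F)

/-- normal crossings off the flats -/
theorem rr' {q : N} (h : ∀ a, ¬ (D.f0 q = 0 ∧ D.x a q = 0)) {i : F.ι} (hi : q ∈ (F.e i).source)
    (φ γ : Fin 2 → ℂ) : ∃ v, ∀ a, (D.P a q = 0 → dd F i (D.P a) q v = φ a) ∧
      (D.Q a q = 0 → dd F i (D.Q a) q v = γ a) := by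
  obtain ⟨v, hv⟩ := D.rr q h i hi ![φ 0, γ 0, φ 1, γ 1]
  refine ⟨v, fun a => ?_⟩
  fin_cases a
  · exact ⟨fun h => hv 0 h, fun h => hv 1 h⟩
  · exact ⟨fun h => hv 2 h, fun h => hv 3 h⟩

/-- normal crossings on a flat of colour `a`, in terms of the global functions -/
theorem fr' {q : N} {a b : Fin 2} (hab : a ≠ b) (h0 : D.f0 q = 0) (hx : D.x a q = 0)
    (hy : D.x b q ≠ 0) {i : F.ι} (hi : q ∈ (F.e i).source) (α ξ φ γ : ℂ) :
    ∃ v, dd F i D.f0 q v = α ∧ dd F i (D.x a) q v = ξ ∧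
      (D.P b q = 0 → dd F i (D.P b) q v = φ) ∧ (D.Q b q = 0 → dd F i (D.Q b) q v = γ) := by
  obtain ⟨p, hp⟩ := D.fr q a b hab h0 hx hy
  have ha := p.a_ne q p.mem
  have hb := p.b_ne q p.mem
  obtain ⟨v, hv⟩ := hp i hi ![α / p.a q, ξ / p.b q + p.c 5 * (α / p.a q), φ, γ]
  have e0 : dd F i p.s0 q v = α / p.a q := hv 0 (p.s0_zero h0)
  have e1 : dd F i p.s1 q v = ξ / p.b q + p.c 5 * (α / p.a q) := hv 1 (p.s1_zero h0 hx)
  refine ⟨v, ?_, ?_, fun h => hv 2 h, fun h => hv 3 h⟩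
  · rw [p.dd_f0 h0 hi, e0]; field_simp
  · rw [p.dd_x h0 hx hi, e0, e1]; field_simp; ring

/-- cluster points, in terms of the global functions -/
theorem ff' {q : N} (h0 : D.f0 q = 0) (hx : D.x 0 q = 0) (hy : D.x 1 q = 0) {i : F.ι}
    (hi : q ∈ (F.e i).source) (α ξ η : ℂ) :
    ∃ v, dd F i D.f0 q v = α ∧ dd F i (D.x 0) q v = ξ ∧ dd F i (D.x 1) q v = η := by
  obtain ⟨p, p', hpp, hp⟩ := D.ff q h0 hx hy
  have ha := p.a_ne q p.mem
  have hb := p.b_ne q p.mem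
  have hb' := p'.b_ne q p'.mem
  obtain ⟨v, hv⟩ := hp i hi ![α / p.a q, ξ / p.b q + p.c 5 * (α / p.a q),
    η / p'.b q + p'.c 5 * (α / p.a q)]
  have e0 : dd F i p.s0 q v = α / p.a q := hv 0 (p.s0_zero h0)
  have e1 : dd F i p.s1 q v = ξ / p.b q + p.c 5 * (α / p.a q) := hv 1 (p.s1_zero h0 hx)
  have e2 : dd F i p'.s1 q v = η / p'.b q + p'.c 5 * (α / p.a q) := hv 2 (p'.s1_zero h0 hy)
  refine ⟨v, ?_, ?_, ?_⟩
  · rw [p.dd_f0 h0 hi, e0]; field_simp
  · rw [p.dd_x h0 hx hi, e0, e1]; field_simp; ring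
  · rw [p'.dd_x h0 hy hi, hpp, e0, e2]; field_simp; ring

end GData

/-! ### local equations -/

/-- local equation `n k ^ 2 g = d k ^ 2 f` of `Y a` near `q`; `f`, `g` are functions of the point
and of homogeneous coordinates of `t`, homogeneous of the same degree -/
structure Loc (D : GData F) (a : Fin 2) (q : N) where
  U : Set N
  U_open : IsOpen U
  mem : q ∈ U
  e : ℕ
  f : N → ℂ → ℂ → ℂ
  g : N → ℂ → ℂ → ℂ
  f_hom : ∀ z l X Y, f z (l * X) (l * Y) = l ^ e * f z X Y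
  g_hom : ∀ z l X Y, g z (l * X) (l * Y) = l ^ e * g z X Y
  f_hol : ∀ i b, DifferentiableOn ℂ
    (fun p : Cn 3 × ℂ => f ((F.e i).symm p.1) (hn b p.2) (hd b p.2))
    {p | p.1 ∈ (F.e i).target ∩ (F.e i).symm ⁻¹' U}
  g_hol : ∀ i b, DifferentiableOn ℂ
    (fun p : Cn 3 × ℂ => g ((F.e i).symm p.1) (hn b p.2) (hd b p.2))
    {p | p.1 ∈ (F.e i).target ∩ (F.e i).symm ⁻¹' U}
  iff : ∀ z ∈ U, ∀ t k : P1, (z, t, k) ∈ D.Y a ↔ D.x a z * t.d = D.f0 z * t.n ∧
    k.n ^ 2 * g z t.n t.d = k.d ^ 2 * f z t.n t.d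

namespace Loc

variable {D : GData F} {a : Fin 2} {q : N} (C : Loc D a q)

/-- `f` in charts -/
def fc (i : F.ι) (b : Bool) (p : Cn 3 × ℂ) : ℂ := C.f ((F.e i).symm p.1) (hn b p.2) (hd b p.2)
/-- `g` in charts -/
def gc (i : F.ι) (b : Bool) (p : Cn 3 × ℂ) : ℂ := C.g ((F.e i).symm p.1) (hn b p.2) (hd b p.2)

/-- nondegeneracy at the point `q` -/
structure OK : Prop where
  flat_inf : D.f0 q = 0 → D.x a q = 0 → C.f q 1 0 ≠ 0 ∧ C.g q 1 0 ≠ 0
  flat_f : D.f0 q = 0 → D.x a q = 0 → ∀ τ, C.f q τ 1 = 0 →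
    C.g q τ 1 ≠ 0 ∧ deriv (fun τ => C.f q τ 1) τ ≠ 0
  flat_g : D.f0 q = 0 → D.x a q = 0 → ∀ τ, C.g q τ 1 = 0 → deriv (fun τ => C.g q τ 1) τ ≠ 0
  reg_f : ¬ (D.f0 q = 0 ∧ D.x a q = 0) → ∀ i, q ∈ (F.e i).source → ∀ b τ,
    C.f q (hn b τ) (hd b τ) = 0 → D.P a q = 0 ∧ ∃ l : ℂ, l ≠ 0 ∧
      ∀ V T, fderiv ℂ (C.fc i b) (F.e i q, τ) (V, T) = l * dd F i (D.P a) q V
  reg_g : ¬ (D.f0 q = 0 ∧ D.x a q = 0) → ∀ i, q ∈ (F.e i).source → ∀ b τ,
    C.g q (hn b τ) (hd b τ) = 0 → D.Q a q = 0 ∧ ∃ l : ℂ, l ≠ 0 ∧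
      ∀ V T, fderiv ℂ (C.gc i b) (F.e i q, τ) (V, T) = l * dd F i (D.Q a) q V

theorem isOpen_dom (i : F.ι) :
    IsOpen {p : Cn 3 × ℂ | p.1 ∈ (F.e i).target ∩ (F.e i).symm ⁻¹' C.U} :=
  ((F.e i).isOpen_inter_preimage_symm C.U_open).preimage continuous_fst

theorem mem_dom {i : F.ι} (hi : q ∈ (F.e i).source) (τ : ℂ) :
    (F.e i q, τ) ∈ {p : Cn 3 × ℂ | p.1 ∈ (F.e i).target ∩ (F.e i).symm ⁻¹' C.U} :=
  ⟨(F.e i).map_source hi, by
    show (F.e i).symm (F.e i q) ∈ C.U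
    rw [(F.e i).left_inv hi]; exact C.mem⟩

theorem fc_diff {i : F.ι} (hi : q ∈ (F.e i).source) (b : Bool) (τ : ℂ) :
    DifferentiableAt ℂ (C.fc i b) (F.e i q, τ) :=
  (C.f_hol i b).differentiableAt ((C.isOpen_dom i).mem_nhds (C.mem_dom hi τ))

theorem gc_diff {i : F.ι} (hi : q ∈ (F.e i).source) (b : Bool) (τ : ℂ) :
    DifferentiableAt ℂ (C.gc i b) (F.e i q, τ) :=
  (C.g_hol i b).differentiableAt ((C.isOpen_dom i).mem_nhds (C.mem_dom hi τ))

theorem fderiv_fc_tau {i : F.ι} (hi : q ∈ (F.e i).source) (τ : ℂ) :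
    fderiv ℂ (C.fc i false) (F.e i q, τ) (0, 1) = deriv (fun τ => C.f q τ 1) τ := by
  have h1 : HasDerivAt (fun t : ℂ => (F.e i q, t)) ((0 : Cn 3), (1 : ℂ)) τ :=
    (hasDerivAt_const τ _).prodMk (hasDerivAt_id τ)
  have h2 := (C.fc_diff hi false τ).hasFDerivAt.comp_hasDerivAt τ h1
  have h3 : (C.fc i false) ∘ (fun t : ℂ => (F.e i q, t)) = fun τ => C.f q τ 1 := by
    funext t
    simp only [Function.comp, fc, (F.e i).left_inv hi, hn_false, hd_false]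
  rw [h3] at h2
  exact h2.deriv.symm

theorem fderiv_gc_tau {i : F.ι} (hi : q ∈ (F.e i).source) (τ : ℂ) :
    fderiv ℂ (C.gc i false) (F.e i q, τ) (0, 1) = deriv (fun τ => C.g q τ 1) τ := by
  have h1 : HasDerivAt (fun t : ℂ => (F.e i q, t)) ((0 : Cn 3), (1 : ℂ)) τ :=
    (hasDerivAt_const τ _).prodMk (hasDerivAt_id τ)
  have h2 := (C.gc_diff hi false τ).hasFDerivAt.comp_hasDerivAt τ h1
  have h3 : (C.gc i false) ∘ (fun t : ℂ => (F.e i q, t)) = fun τ => C.g q τ 1 := by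
    funext t
    simp only [Function.comp, gc, (F.e i).left_inv hi, hn_false, hd_false]
  rw [h3] at h2
  exact h2.deriv.symm

/-- on a flat the value of the differential can be prescribed by moving `t` only -/
theorem OK.flat {C : Loc D a q} (h : C.OK) (h0 : D.f0 q = 0) (hx : D.x a q = 0) {i : F.ι}
    (hi : q ∈ (F.e i).source) (τ : ℂ) (V : Cn 3) (φ γ : ℂ) :
    ∃ T : ℂ, (C.f q τ 1 = 0 → fderiv ℂ (C.fc i false) (F.e i q, τ) (V, T) = φ) ∧
      (C.g q τ 1 = 0 → fderiv ℂ (C.gc i false) (F.e i q, τ) (V, T) = γ) := by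
  have key : ∀ (L : Cn 3 × ℂ →L[ℂ] ℂ) (φ : ℂ), L (0, 1) ≠ 0 → ∃ T : ℂ, L (V, T) = φ := by
    intro L φ hL
    refine ⟨(φ - L (V, 0)) / L (0, 1), ?_⟩
    have h1 : (V, (φ - L (V, 0)) / L (0, 1)) = (V, (0 : ℂ)) +
        ((φ - L (V, 0)) / L (0, 1)) • ((0 : Cn 3), (1 : ℂ)) := by simp
    rw [h1, map_add, map_smul, smul_eq_mul]
    field_simp
    ring
  by_cases hf : C.f q τ 1 = 0
  · have h1 := h.flat_f h0 hx τ hf
    obtain ⟨T, hT⟩ := key (fderiv ℂ (C.fc i false) (F.e i q, τ)) φ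
      (by rw [C.fderiv_fc_tau hi]; exact h1.2)
    exact ⟨T, fun _ => hT, fun hg => absurd hg h1.1⟩
  · by_cases hg : C.g q τ 1 = 0
    · have h1 := h.flat_g h0 hx τ hg
      obtain ⟨T, hT⟩ := key (fderiv ℂ (C.gc i false) (F.e i q, τ)) γ
        (by rw [C.fderiv_gc_tau hi]; exact h1)
      exact ⟨T, fun h => absurd h hf, fun _ => hT⟩
    · exact ⟨0, fun h => absurd h hf, fun h => absurd h hg⟩

end Loc

/-! ### the two constructors -/

theorem differentiable_hn (b : Bool) : Differentiable ℂ (hn b) := by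
  cases b
  · exact differentiable_id
  · exact differentiable_const _

theorem differentiable_hd (b : Bool) : Differentiable ℂ (hd b) := by
  cases b
  · exact differentiable_const _
  · exact differentiable_id

/-- local equation off the flats -/
def Loc.reg (D : GData F) (a : Fin 2) (q : N) (h : ¬ (D.f0 q = 0 ∧ D.x a q = 0)) : Loc D a q where
  U := {z | ¬ (D.f0 z = 0 ∧ D.x a z = 0)}
  U_open := by
    have h1 : {z | ¬ (D.f0 z = 0 ∧ D.x a z = 0)} = ({z | D.f0 z = 0} ∩ {z | D.x a z = 0})ᶜ := rfl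
    rw [h1]
    exact ((isClosed_eq D.continuous_f0 continuous_const).inter
      (isClosed_eq (D.continuous_x a) continuous_const)).isOpen_compl
  mem := h
  e := 0
  f z _ _ := D.P a z
  g z _ _ := D.Q a z
  f_hom _ _ _ _ := by rw [pow_zero, one_mul]
  g_hom _ _ _ _ := by rw [pow_zero, one_mul]
  f_hol i b := (D.P_hol a i).comp differentiable_fst.differentiableOn fun _ hp => ⟨hp.1, trivial⟩
  g_hol i b := (D.Q_hol a i).comp differentiable_fst.differentiableOn fun _ hp => ⟨hp.1, trivial⟩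
  iff z hz t k := D.mem_Y_reg hz t k

theorem Loc.reg_ok (D : GData F) (a : Fin 2) (q : N) (h : ¬ (D.f0 q = 0 ∧ D.x a q = 0)) :
    (Loc.reg D a q h).OK where
  flat_inf h0 hx := absurd ⟨h0, hx⟩ h
  flat_f h0 hx := absurd ⟨h0, hx⟩ h
  flat_g h0 hx := absurd ⟨h0, hx⟩ h
  reg_f _ i hi b τ hf := by
    refine ⟨hf, 1, one_ne_zero, fun V T => ?_⟩
    have h1 := (hasFDerivAt_dd isOpen_univ (D.P_hol a) hi (mem_univ _)).comp (F.e i q, τ)
      (hasFDerivAt_fst (𝕜 := ℂ) (E := Cn 3) (F := ℂ))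
    have h2 : fderiv ℂ ((Loc.reg D a q h).fc i b) (F.e i q, τ) = _ := h1.fderiv
    rw [h2, one_mul]
    rfl
  reg_g _ i hi b τ hf := by
    refine ⟨hf, 1, one_ne_zero, fun V T => ?_⟩
    have h1 := (hasFDerivAt_dd isOpen_univ (D.Q_hol a) hi (mem_univ _)).comp (F.e i q, τ)
      (hasFDerivAt_fst (𝕜 := ℂ) (E := Cn 3) (F := ℂ))
    have h2 : fderiv ℂ ((Loc.reg D a q h).gc i b) (F.e i q, τ) = _ := h1.fderiv
    rw [h2, one_mul]
    rfl

/-- holomorphy of a product of three linear forms -/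
theorem Pen.L_hol {f0 x P Q : N → ℂ} {q : N} (p : Pen F f0 x P Q q) (j : Fin 6) (i : F.ι)
    (b : Bool) : DifferentiableOn ℂ
      (fun y : Cn 3 × ℂ => p.L j ((F.e i).symm y.1) (hn b y.2) (hd b y.2))
      {y | y.1 ∈ (F.e i).target ∩ (F.e i).symm ⁻¹' p.U} := by
  have ha : DifferentiableOn ℂ (fun y : Cn 3 × ℂ => p.a ((F.e i).symm y.1))
      {y | y.1 ∈ (F.e i).target ∩ (F.e i).symm ⁻¹' p.U} :=
    (p.a_hol i).comp differentiable_fst.differentiableOn fun _ hp => hp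
  have hb : DifferentiableOn ℂ (fun y : Cn 3 × ℂ => p.b ((F.e i).symm y.1))
      {y | y.1 ∈ (F.e i).target ∩ (F.e i).symm ⁻¹' p.U} :=
    (p.b_hol i).comp differentiable_fst.differentiableOn fun _ hp => hp
  have h1 : DifferentiableOn ℂ (fun y : Cn 3 × ℂ => hn b y.2)
      {y | y.1 ∈ (F.e i).target ∩ (F.e i).symm ⁻¹' p.U} :=
    ((differentiable_hn b).comp differentiable_snd).differentiableOn
  have h2 : DifferentiableOn ℂ (fun y : Cn 3 × ℂ => hd b y.2)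
      {y | y.1 ∈ (F.e i).target ∩ (F.e i).symm ⁻¹' p.U} :=
    ((differentiable_hd b).comp differentiable_snd).differentiableOn
  have hbn : ∀ y ∈ {y : Cn 3 × ℂ | y.1 ∈ (F.e i).target ∩ (F.e i).symm ⁻¹' p.U},
      p.b ((F.e i).symm y.1) ≠ 0 := fun y hy => p.b_ne _ (And.right hy)
  have han : ∀ y ∈ {y : Cn 3 × ℂ | y.1 ∈ (F.e i).target ∩ (F.e i).symm ⁻¹' p.U},
      p.a ((F.e i).symm y.1) ≠ 0 := fun y hy => p.a_ne _ (And.right hy)
  have h3 : DifferentiableOn ℂ (fun y : Cn 3 × ℂ => hn b y.2 / p.b ((F.e i).symm y.1))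
      {y | y.1 ∈ (F.e i).target ∩ (F.e i).symm ⁻¹' p.U} := by
    simp only [div_eq_mul_inv]
    exact h1.mul (hb.inv hbn)
  have h4 : DifferentiableOn ℂ (fun y : Cn 3 × ℂ => hd b y.2 / p.a ((F.e i).symm y.1))
      {y | y.1 ∈ (F.e i).target ∩ (F.e i).symm ⁻¹' p.U} := by
    simp only [div_eq_mul_inv]
    exact h2.mul (ha.inv han)
  exact h3.add (h4.const_mul _)

theorem Pen.fn_hol {f0 x P Q : N → ℂ} {q : N} (p : Pen F f0 x P Q q) (i : F.ι) (b : Bool) :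
    DifferentiableOn ℂ (fun y : Cn 3 × ℂ => p.fn ((F.e i).symm y.1) (hn b y.2) (hd b y.2))
      {y | y.1 ∈ (F.e i).target ∩ (F.e i).symm ⁻¹' p.U} := by
  have hu : DifferentiableOn ℂ (fun y : Cn 3 × ℂ => p.u ((F.e i).symm y.1))
      {y | y.1 ∈ (F.e i).target ∩ (F.e i).symm ⁻¹' p.U} :=
    (p.u_hol i).comp differentiable_fst.differentiableOn fun _ hp => hp
  simp only [Pen.fn]
  exact hu.mul (((p.L_hol 0 i b).mul (p.L_hol 1 i b)).mul (p.L_hol 2 i b))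

theorem Pen.gn_hol {f0 x P Q : N → ℂ} {q : N} (p : Pen F f0 x P Q q) (i : F.ι) (b : Bool) :
    DifferentiableOn ℂ (fun y : Cn 3 × ℂ => p.gn ((F.e i).symm y.1) (hn b y.2) (hd b y.2))
      {y | y.1 ∈ (F.e i).target ∩ (F.e i).symm ⁻¹' p.U} := by
  have hu : DifferentiableOn ℂ (fun y : Cn 3 × ℂ => p.w ((F.e i).symm y.1))
      {y | y.1 ∈ (F.e i).target ∩ (F.e i).symm ⁻¹' p.U} :=
    (p.w_hol i).comp differentiable_fst.differentiableOn fun _ hp => hp
  simp only [Pen.gn]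
  exact hu.mul (((p.L_hol 3 i b).mul (p.L_hol 4 i b)).mul (p.L_hol 5 i b))

/-- local equation over a flat, from a `Pen` -/
def Loc.pen (D : GData F) {a : Fin 2} {q : N} (p : Pen F D.f0 (D.x a) (D.P a) (D.Q a) q)
    (V : Set N) (hV : IsOpen V) (hq : q ∈ V) (hVU : V ⊆ p.U)
    (h : ∀ z ∈ V, ∀ t k : P1,
      ((z, t, k) ∈ closure (Flat1_302.Gr P1.n P1.d D.f0 (D.x a) (D.P a) (D.Q a)) ↔
        D.x a z * t.d = D.f0 z * t.n ∧ k.n ^ 2 * p.gn z t.n t.d = k.d ^ 2 * p.fn z t.n t.d)) :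
    Loc D a q where
  U := V
  U_open := hV
  mem := hq
  e := 3
  f := p.fn
  g := p.gn
  f_hom := p.fn_hom
  g_hom := p.gn_hom
  f_hol i b := (p.fn_hol i b).mono fun _ hy => ⟨hy.1, hVU hy.2⟩
  g_hol i b := (p.gn_hol i b).mono fun _ hy => ⟨hy.1, hVU hy.2⟩
  iff z hz t k := by
    rw [GData.Y, D.G_eq]
    exact h z hz t k

/-- derivative of a product of three affine functions at a zero of one factor only -/
theorem deriv_prod3 (w β : ℂ) (k : Fin 3 → ℂ) (τ : ℂ) : HasDerivAt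
    (fun τ : ℂ => w * ((τ / β + k 0) * (τ / β + k 1) * (τ / β + k 2)))
    (w * ((1 / β * (τ / β + k 1) + (τ / β + k 0) * (1 / β)) * (τ / β + k 2) +
      (τ / β + k 0) * (τ / β + k 1) * (1 / β))) τ := by
  have h1 : ∀ j, HasDerivAt (fun τ : ℂ => τ / β + k j) (1 / β) τ := fun j =>
    ((hasDerivAt_id τ).div_const β).add_const _
  exact (((h1 0).mul (h1 1)).mul (h1 2)).const_mul w

theorem deriv_prod3_ne {w β : ℂ} (hw : w ≠ 0) (hβ : β ≠ 0) {k : Fin 3 → ℂ}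
    (hk : Function.Injective k) {τ : ℂ}
    (h0 : w * ((τ / β + k 0) * (τ / β + k 1) * (τ / β + k 2)) = 0) :
    deriv (fun τ : ℂ => w * ((τ / β + k 0) * (τ / β + k 1) * (τ / β + k 2))) τ ≠ 0 := by
  rw [(deriv_prod3 w β k τ).deriv]
  have h1 := (mul_eq_zero.1 h0).resolve_left hw
  have k01 : k 0 ≠ k 1 := fun h => absurd (hk h) (by decide)
  have k02 : k 0 ≠ k 2 := fun h => absurd (hk h) (by decide)
  have k12 : k 1 ≠ k 2 := fun h => absurd (hk h) (by decide)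
  have hβ' : (1 / β : ℂ) ≠ 0 := one_div_ne_zero hβ
  rcases mul_eq_zero.1 h1 with h2 | h2
  · rcases mul_eq_zero.1 h2 with h3 | h3
    · rw [h3]
      have e1 : τ / β + k 1 ≠ 0 := by
        intro h; apply k01; linear_combination h3 - h
      have e2 : τ / β + k 2 ≠ 0 := by
        intro h; apply k02; linear_combination h3 - h
      rw [zero_mul, zero_mul, add_zero, zero_mul, add_zero]
      exact mul_ne_zero hw (mul_ne_zero (mul_ne_zero hβ' e1) e2)
    · rw [h3]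
      have e1 : τ / β + k 0 ≠ 0 := by
        intro h; apply k01; linear_combination h - h3
      have e2 : τ / β + k 2 ≠ 0 := by
        intro h; apply k12; linear_combination h3 - h
      rw [mul_zero, mul_zero, zero_add, zero_mul, add_zero]
      exact mul_ne_zero hw (mul_ne_zero (mul_ne_zero e1 hβ') e2)
  · rw [h2]
    have e1 : τ / β + k 0 ≠ 0 := by
      intro h; apply k02; linear_combination h - h2
    have e2 : τ / β + k 1 ≠ 0 := by
      intro h; apply k12; linear_combination h - h2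
    rw [mul_zero, zero_add]
    exact mul_ne_zero hw (mul_ne_zero (mul_ne_zero e1 e2) hβ')

theorem Pen.fn_fin {f0 x P Q : N → ℂ} {q : N} (p : Pen F f0 x P Q q) (τ : ℂ) :
    p.fn q τ 1 = p.u q * ((τ / p.b q + (p.c 5 - p.c 0) * (1 / p.a q)) *
      (τ / p.b q + (p.c 5 - p.c 1) * (1 / p.a q)) * (τ / p.b q + (p.c 5 - p.c 2) * (1 / p.a q))) :=
  rfl

theorem Pen.gn_fin {f0 x P Q : N → ℂ} {q : N} (p : Pen F f0 x P Q q) (τ : ℂ) :
    p.gn q τ 1 = p.w q * ((τ / p.b q + (p.c 5 - p.c 3) * (1 / p.a q)) *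
      (τ / p.b q + (p.c 5 - p.c 4) * (1 / p.a q)) * (τ / p.b q + (p.c 5 - p.c 5) * (1 / p.a q))) :=
  rfl

theorem Loc.pen_ok (D : GData F) {a : Fin 2} {q : N}
    (p : Pen F D.f0 (D.x a) (D.P a) (D.Q a) q) (V : Set N) (hV : IsOpen V) (hq : q ∈ V)
    (hVU : V ⊆ p.U) (h) (h0 : D.f0 q = 0) (hx : D.x a q = 0) :
    (Loc.pen D p V hV hq hVU h).OK := by
  have ha := p.a_ne q p.mem
  have hb := p.b_ne q p.mem
  have hu := p.u_ne q p.mem
  have hw := p.w_ne q p.mem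
  have ha' : (1 / p.a q : ℂ) ≠ 0 := one_div_ne_zero ha
  have hinj : ∀ e : Fin 3 → Fin 6, Function.Injective e →
      Function.Injective fun j => (p.c 5 - p.c (e j)) * (1 / p.a q) := by
    intro e he j k hjk
    have h1 := mul_right_cancel₀ ha' hjk
    exact he (p.c_inj (by linear_combination -h1))
  have hex : ∀ τ (j k : Fin 6), j ≠ k → τ / p.b q + (p.c 5 - p.c j) * (1 / p.a q) = 0 →
      τ / p.b q + (p.c 5 - p.c k) * (1 / p.a q) ≠ 0 := by
    intro τ j k hjk h1 h2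
    have h3 : (p.c j - p.c k) * (1 / p.a q) = 0 := by linear_combination h2 - h1
    have h4 := (mul_eq_zero.1 h3).resolve_right ha'
    exact hjk (p.c_inj (sub_eq_zero.1 h4))
  refine ⟨fun _ _ => ?_, fun _ _ τ hτ => ⟨?_, ?_⟩, fun _ _ τ hτ => ?_,
    fun h => absurd ⟨h0, hx⟩ h, fun h => absurd ⟨h0, hx⟩ h⟩
  · constructor
    · show p.fn q 1 0 ≠ 0
      simp only [Pen.fn, Pen.L, zero_div, mul_zero, add_zero]
      have := one_div_ne_zero hb
      exact mul_ne_zero hu (mul_ne_zero (mul_ne_zero this this) this)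
    · show p.gn q 1 0 ≠ 0
      simp only [Pen.gn, Pen.L, zero_div, mul_zero, add_zero]
      have := one_div_ne_zero hb
      exact mul_ne_zero hw (mul_ne_zero (mul_ne_zero this this) this)
  · show p.gn q τ 1 ≠ 0
    have h1 : p.fn q τ 1 = 0 := hτ
    rw [Pen.fn_fin] at h1
    rw [Pen.gn_fin]
    have h2 := (mul_eq_zero.1 h1).resolve_left hu
    obtain ⟨j, hj, hjz⟩ : ∃ j : Fin 6, (j = 0 ∨ j = 1 ∨ j = 2) ∧
        τ / p.b q + (p.c 5 - p.c j) * (1 / p.a q) = 0 := by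
      rcases mul_eq_zero.1 h2 with h3 | h3
      · rcases mul_eq_zero.1 h3 with h4 | h4
        · exact ⟨0, Or.inl rfl, h4⟩
        · exact ⟨1, Or.inr (Or.inl rfl), h4⟩
      · exact ⟨2, Or.inr (Or.inr rfl), h3⟩
    have h5 : ∀ k : Fin 6, (k = 3 ∨ k = 4 ∨ k = 5) → j ≠ k := by
      rintro k hk rfl
      revert hj hk
      fin_cases j <;> simp
    exact mul_ne_zero hw (mul_ne_zero (mul_ne_zero
      (hex τ j 3 (h5 3 (Or.inl rfl)) hjz) (hex τ j 4 (h5 4 (Or.inr (Or.inl rfl))) hjz))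
      (hex τ j 5 (h5 5 (Or.inr (Or.inr rfl))) hjz))
  · have h1 := deriv_prod3_ne (k := fun j : Fin 3 => (p.c 5 - p.c (![0, 1, 2] j)) * (1 / p.a q))
      hu hb (hinj ![0, 1, 2] (by decide)) (τ := τ) hτ
    exact h1
  · have h1 := deriv_prod3_ne (k := fun j : Fin 3 => (p.c 5 - p.c (![3, 4, 5] j)) * (1 / p.a q))
      hw hb (hinj ![3, 4, 5] (by decide)) (τ := τ) hτ
    exact h1

/-- local equations with nondegeneracy exist at every point -/
theorem GData.exists_loc (D : GData F) (a : Fin 2) (q : N) : ∃ C : Loc D a q, C.OK := by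
  by_cases h : D.f0 q = 0 ∧ D.x a q = 0
  · obtain ⟨i, hi⟩ := F.cover q
    have key : ∃ p : Pen F D.f0 (D.x a) (D.P a) (D.Q a) q,
        ∀ w0 w1 : ℂ, ∃ v, dd F i p.s0 q v = w0 ∧ dd F i p.s1 q v = w1 := by
      by_cases hb : D.x (1 - a) q = 0
      · have h2 : D.x 0 q = 0 ∧ D.x 1 q = 0 := by
          fin_cases a
          · exact ⟨h.2, hb⟩
          · exact ⟨hb, h.2⟩
        obtain ⟨p, p', hpp, hp⟩ := D.ff q h.1 h2.1 h2.2
        fin_cases a
        · refine ⟨p, fun w0 w1 => ?_⟩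
          obtain ⟨v, hv⟩ := hp i hi ![w0, w1, 0]
          exact ⟨v, hv 0 (p.s0_zero h.1), hv 1 (p.s1_zero h.1 h.2)⟩
        · refine ⟨p', fun w0 w1 => ?_⟩
          obtain ⟨v, hv⟩ := hp i hi ![w0, 0, w1]
          refine ⟨v, ?_, hv 2 (p'.s1_zero h.1 h.2)⟩
          rw [hpp]
          exact hv 0 (p.s0_zero h.1)
      · obtain ⟨p, hp⟩ := D.fr q a (1 - a) (by fin_cases a <;> decide) h.1 h.2 hb
        refine ⟨p, fun w0 w1 => ?_⟩
        obtain ⟨v, hv⟩ := hp i hi ![w0, w1, 0, 0]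
        exact ⟨v, hv 0 (p.s0_zero h.1), hv 1 (p.s1_zero h.1 h.2)⟩
    obtain ⟨p, hp⟩ := key
    obtain ⟨V, h1, h2, h3, h4⟩ := p.exists_mem_closure D.continuous_f0 (D.continuous_x a) hi hp
    exact ⟨Loc.pen D p V h1 h2 h3 h4, Loc.pen_ok D p V h1 h2 h3 h4 h.1 h.2⟩
  · exact ⟨Loc.reg D a q h, Loc.reg_ok D a q h⟩

end

end Crest.Agent.R272.Gr_559
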