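import Crest.Agent.R273.PB_835

/-!
# R272 (helper342): pointwise holomorphy for maps between manifolds with atlases

`HAt A B p x` : `p` is continuous at `x` and complex differentiable at `x` in the charts;
`holMap_iff : HolMap A B p ↔ ∀ x, HAt A B p x`; `HAt.of` : one pair of charts is enough;
`HAt.comp`, `HAt.congr`, `HAt.symm` (inverse of a partial homeomorphism with invertible
derivative), `FAt A f x` : the same for functions with values in a normed space.
-/

set_option autoImplicit false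
set_option linter.unusedSectionVars false
set_option linter.style.haveILetI false

open Set Filter Topology

namespace Crest.Agent.R272.HAt_342

open Crest.Agent.R275.Geo Crest.Agent.R275.Core144 Crest.Agent.R273.Map_835
  Crest.Agent.R273.PB_835

noncomputable section

variable {n m k : ℕ} {M N P : Type} [TopologicalSpace M] [TopologicalSpace N]
  [TopologicalSpace P] {A : Atl n M} {B : Atl m N} {C : Atl k P} {p q : M → N} {x : M}

/-- `p` is holomorphic at `x` -/
def HAt (A : Atl n M) (B : Atl m N) (p : M → N) (x : M) : Prop :=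
  ContinuousAt p x ∧ ∀ i j, x ∈ (A.e i).source → p x ∈ (B.e j).source →
    DifferentiableAt ℂ (rd A B p i j) (A.e i x)

/-- the coordinate change is differentiable -/
theorem diffAt_tr {i i' : A.ι} (hx : x ∈ (A.e i).source) (hx' : x ∈ (A.e i').source) :
    DifferentiableAt ℂ (fun z => A.e i' ((A.e i).symm z)) (A.e i x) := by
  refine (A.holo i i').differentiableAt ?_
  have ho : IsOpen ((A.e i).target ∩ (A.e i).symm ⁻¹' (A.e i').source) :=
    (A.e i).isOpen_inter_preimage_symm (A.e i').open_source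
  refine ho.mem_nhds ⟨(A.e i).map_source hx, ?_⟩
  rw [mem_preimage, (A.e i).left_inv hx]
  exact hx'

/-- near `x`, in the chart `i` -/
theorem eventually_chart {i : A.ι} (hx : x ∈ (A.e i).source) {Q : M → Prop}
    (hQ : ∀ᶠ y in 𝓝 x, Q y) :
    ∀ᶠ z in 𝓝 (A.e i x), z ∈ (A.e i).target ∧ Q ((A.e i).symm z) := by
  have h1 : ContinuousAt (A.e i).symm (A.e i x) := (A.e i).continuousAt_symm ((A.e i).map_source hx)
  have h2 : ∀ᶠ z in 𝓝 (A.e i x), Q ((A.e i).symm z) := by
    refine h1.eventually ?_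
    rw [(A.e i).left_inv hx]
    exact hQ
  exact ((A.e i).open_target.eventually_mem ((A.e i).map_source hx)).and h2

/-- one pair of charts is enough -/
theorem HAt.of (hc : ContinuousAt p x) (i : A.ι) (j : B.ι) (hx : x ∈ (A.e i).source)
    (hj : p x ∈ (B.e j).source) (hd : DifferentiableAt ℂ (rd A B p i j) (A.e i x)) :
    HAt A B p x := by
  refine ⟨hc, fun i' j' hx' hj' => ?_⟩
  have h1 := diffAt_tr hx' hx
  have h2 := diffAt_tr hj hj'
  have e1 : A.e i ((A.e i').symm (A.e i' x)) = A.e i x := by rw [(A.e i').left_inv hx']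
  have e2 : rd A B p i j (A.e i ((A.e i').symm (A.e i' x))) = B.e j (p x) := by
    rw [e1]
    simp only [rd, (A.e i).left_inv hx]
  have h3 : DifferentiableAt ℂ (fun z => rd A B p i j (A.e i ((A.e i').symm z))) (A.e i' x) :=
    DifferentiableAt.comp (A.e i' x) (g := rd A B p i j) (by rw [e1]; exact hd) h1
  have h4 : DifferentiableAt ℂ (fun z => B.e j' ((B.e j).symm
      (rd A B p i j (A.e i ((A.e i').symm z))))) (A.e i' x) :=
    DifferentiableAt.comp (A.e i' x) (g := fun w => B.e j' ((B.e j).symm w))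
      (by rw [e2]; exact h2) h3
  refine h4.congr_of_eventuallyEq ?_
  have h5 : ∀ᶠ y in 𝓝 x, y ∈ (A.e i).source ∧ p y ∈ (B.e j).source :=
    ((A.e i).open_source.eventually_mem hx).and (hc.eventually ((B.e j).open_source.mem_nhds hj))
  filter_upwards [eventually_chart hx' h5] with z hz
  simp only [rd]
  rw [(A.e i).left_inv hz.2.1, (B.e j).left_inv hz.2.2]

theorem HolMap.hAt (h : HolMap A B p) (x : M) : HAt A B p x :=
  ⟨h.cont.continuousAt, fun _ _ hx hj => h.diffAt (mem_dm hx hj)⟩

theorem holMap_iff : HolMap A B p ↔ ∀ x, HAt A B p x := by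
  refine ⟨fun h x => HolMap.hAt h x, fun h => ⟨continuous_iff_continuousAt.2 fun x => (h x).1,
    fun i j z hz => ?_⟩⟩
  have h1 := (h ((A.e i).symm z)).2 i j ((A.e i).map_target hz.1) hz.2
  rw [(A.e i).right_inv hz.1] at h1
  exact h1.differentiableWithinAt

theorem HAt.congr (h : HAt A B p x) (he : ∀ᶠ y in 𝓝 x, p y = q y) : HAt A B q x := by
  have hx := he.self_of_nhds
  refine ⟨h.1.congr he, fun i j hi hj => ?_⟩
  refine (h.2 i j hi (by rw [hx]; exact hj)).congr_of_eventuallyEq ?_
  filter_upwards [eventually_chart hi he] with z hz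
  simp only [rd]
  rw [hz.2]

theorem HAt.comp {q : N → P} (hq : HAt B C q (p x)) (hp : HAt A B p x) :
    HAt A C (fun y => q (p y)) x := by
  have hc : ContinuousAt (fun y => q (p y)) x := ContinuousAt.comp (g := q) hq.1 hp.1
  obtain ⟨i, hi⟩ := A.cover x
  obtain ⟨j, hj⟩ := B.cover (p x)
  obtain ⟨l, hl⟩ := C.cover (q (p x))
  refine HAt.of hc i l hi hl ?_
  have h1 := hp.2 i j hi hj
  have h2 := hq.2 j l hj hl
  have e1 : rd A B p i j (A.e i x) = B.e j (p x) := by simp only [rd, (A.e i).left_inv hi]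
  have h3 : DifferentiableAt ℂ (fun z => rd B C q j l (rd A B p i j z)) (A.e i x) :=
    DifferentiableAt.comp (A.e i x) (g := rd B C q j l) (by rw [e1]; exact h2) h1
  refine h3.congr_of_eventuallyEq ?_
  have h5 : ∀ᶠ y in 𝓝 x, p y ∈ (B.e j).source := hp.1.eventually ((B.e j).open_source.mem_nhds hj)
  filter_upwards [eventually_chart hi h5] with z hz
  simp only [rd]
  rw [(B.e j).left_inv hz.2]

theorem hAt_id : HAt A A id x := HolMap.hAt (holMap_id A) x

theorem hAt_const (y : N) : HAt A B (fun _ => y) x := by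
  refine ⟨continuousAt_const, fun i j _ _ => ?_⟩
  exact differentiableAt_const _

/-- local inverse -/
theorem HAt.of_inverse {q : N → M} (hq : ContinuousAt q (p x)) (hp : HAt A B p x)
    (e : ∀ᶠ y in 𝓝 (p x), p (q y) = y) (hx : q (p x) = x) (hmn : n = m)
    (hdet : ∃ i j, x ∈ (A.e i).source ∧ p x ∈ (B.e j).source ∧
      Function.Injective (fderiv ℂ (rd A B p i j) (A.e i x))) : HAt B A q (p x) := by
  subst hmn
  obtain ⟨i, j, hi, hj, hinj⟩ := hdet
  refine HAt.of hq j i hj (by rw [hx]; exact hi) ?_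
  have h2 := (hp.2 i j hi hj).hasFDerivAt
  let T : Cn n ≃L[ℂ] Cn n := (LinearEquiv.ofInjectiveEndo
    (fderiv ℂ (rd A B p i j) (A.e i x)).toLinearMap hinj).toContinuousLinearEquiv
  have hT : HasFDerivAt (rd A B p i j) (T : Cn n →L[ℂ] Cn n) (A.e i x) := by
    convert h2 using 1
    ext v
    rfl
  have e1 : rd B A q j i (B.e j (p x)) = A.e i x := by
    simp only [rd, (B.e j).left_inv hj, hx]
  have hc : ContinuousAt (rd B A q j i) (B.e j (p x)) := by
    have h3 : ContinuousAt (fun z => q ((B.e j).symm z)) (B.e j (p x)) := by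
      refine ContinuousAt.comp (g := q) ?_ ((B.e j).continuousAt_symm ((B.e j).map_source hj))
      rw [(B.e j).left_inv hj]
      exact hq
    refine ContinuousAt.comp (g := A.e i) ?_ h3
    show ContinuousAt (A.e i) (q ((B.e j).symm (B.e j (p x))))
    rw [(B.e j).left_inv hj, hx]
    exact (A.e i).continuousAt hi
  have hl : ∀ᶠ w in 𝓝 (B.e j (p x)), rd A B p i j (rd B A q j i w) = w := by
    have h4 : ∀ᶠ y in 𝓝 (p x), p (q y) = y ∧ q y ∈ (A.e i).source :=
      e.and (hq.eventually ((A.e i).open_source.mem_nhds (by rw [hx]; exact hi)))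
    filter_upwards [eventually_chart hj h4] with w hw
    simp only [rd]
    rw [(A.e i).left_inv hw.2.2, hw.2.1, (B.e j).right_inv hw.1]
  refine (HasFDerivAt.of_local_left_inverse hc ?_ hl).differentiableAt (f' := (T.symm :
    Cn n →L[ℂ] Cn n))
  rw [e1]
  exact hT

theorem HAt.symm {B : Atl n N} (e : OpenPartialHomeomorph M N) (hx : x ∈ e.source)
    (hp : HAt A B e x)
    (hdet : ∃ i j, x ∈ (A.e i).source ∧ e x ∈ (B.e j).source ∧ (Jp A B e i j x).det ≠ 0) :
    HAt B A e.symm (e x) := by
  obtain ⟨i, j, hi, hj, hd⟩ := hdet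
  refine HAt.of_inverse (p := e) (e.continuousAt_symm (e.map_source hx)) hp ?_ (e.left_inv hx) rfl
    ⟨i, j, hi, hj, mt_inj_of_det hd⟩
  filter_upwards [e.open_target.mem_nhds (e.map_source hx)] with y hy
  exact e.right_inv hy

/-- the determinant condition does not depend on the charts -/
theorem det_ne_iff {B : Atl n N} {p : M → N} (hp : HAt A B p x) {i i' : A.ι} {j j' : B.ι}
    (hi : x ∈ (A.e i).source) (hi' : x ∈ (A.e i').source) (hj : p x ∈ (B.e j).source)
    (hj' : p x ∈ (B.e j').source) (hd : (Jp A B p i j x).det ≠ 0) :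
    (Jp A B p i' j' x).det ≠ 0 := by
  have h1 := diffAt_tr hi' hi
  have h2 := diffAt_tr hj hj'
  have e1 : A.e i ((A.e i').symm (A.e i' x)) = A.e i x := by rw [(A.e i').left_inv hi']
  have e2 : rd A B p i j (A.e i x) = B.e j (p x) := by
    simp only [rd, (A.e i).left_inv hi]
  have hd0 := hp.2 i j hi hj
  have h3 : fderiv ℂ (rd A B p i' j') (A.e i' x) =
      (fderiv ℂ (fun w => B.e j' ((B.e j).symm w)) (B.e j (p x))).comp
        ((fderiv ℂ (rd A B p i j) (A.e i x)).comp
          (fderiv ℂ (fun z => A.e i ((A.e i').symm z)) (A.e i' x))) := by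
    have h4 : fderiv ℂ (fun z => rd A B p i j (A.e i ((A.e i').symm z))) (A.e i' x) =
        (fderiv ℂ (rd A B p i j) (A.e i x)).comp
          (fderiv ℂ (fun z => A.e i ((A.e i').symm z)) (A.e i' x)) := by
      have := fderiv_comp (A.e i' x) (g := rd A B p i j)
        (f := fun z => A.e i ((A.e i').symm z)) (by rw [e1]; exact hd0) h1
      rw [e1] at this
      exact this
    have h5 : DifferentiableAt ℂ (fun z => rd A B p i j (A.e i ((A.e i').symm z))) (A.e i' x) :=
      DifferentiableAt.comp (A.e i' x) (g := rd A B p i j) (by rw [e1]; exact hd0) h1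
    have h6 : fderiv ℂ (fun z => B.e j' ((B.e j).symm
        (rd A B p i j (A.e i ((A.e i').symm z))))) (A.e i' x) =
        (fderiv ℂ (fun w => B.e j' ((B.e j).symm w)) (B.e j (p x))).comp
          (fderiv ℂ (fun z => rd A B p i j (A.e i ((A.e i').symm z))) (A.e i' x)) := by
      have := fderiv_comp (A.e i' x) (g := fun w => B.e j' ((B.e j).symm w))
        (f := fun z => rd A B p i j (A.e i ((A.e i').symm z))) (by rw [e1, e2]; exact h2) h5
      rw [e1, e2] at this
      exact this
    rw [← h4, ← h6]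
    refine Filter.EventuallyEq.fderiv_eq ?_
    have h7 : ∀ᶠ y in 𝓝 x, y ∈ (A.e i).source ∧ p y ∈ (B.e j).source :=
      ((A.e i).open_source.eventually_mem hi).and (hp.1.eventually ((B.e j).open_source.mem_nhds hj))
    filter_upwards [eventually_chart hi' h7] with z hz
    simp only [rd]
    rw [(A.e i).left_inv hz.2.1, (B.e j).left_inv hz.2.2]
  have h4 : Jp A B p i' j' x = Jm B j j' (p x) * (Jp A B p i j x * Jm A i' i x) := by
    rw [Jp_eq, h3, mt_comp, mt_comp, Jm_eq, Jm_eq, Jp_eq]
  rw [h4, Matrix.det_mul, Matrix.det_mul]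
  refine mul_ne_zero ?_ (mul_ne_zero hd ?_)
  · rw [← KB_g ⟨hj, hj'⟩]
    exact (KB B).ne_zero _ _ _
  · rw [← KB_g ⟨hi', hi⟩]
    exact (KB A).ne_zero _ _ _

/-- pointwise local biholomorphy -/
def LAt (A : Atl n M) {N : Type} [TopologicalSpace N] (B : Atl n N) (p : M → N) (x : M) : Prop :=
  HAt A B p x ∧ ∀ i j, x ∈ (A.e i).source → p x ∈ (B.e j).source → (Jp A B p i j x).det ≠ 0

theorem LAt.of {B : Atl n N} {p : M → N} (h : HAt A B p x) (i : A.ι) (j : B.ι)
    (hi : x ∈ (A.e i).source) (hj : p x ∈ (B.e j).source) (hd : (Jp A B p i j x).det ≠ 0) :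
    LAt A B p x :=
  ⟨h, fun _ _ hi' hj' => det_ne_iff h hi hi' hj hj' hd⟩

theorem lBih_iff {B : Atl n N} {p : M → N} : LBih A B p ↔ ∀ x, LAt A B p x :=
  ⟨fun h x => ⟨HolMap.hAt h.toHolMap x, fun i j => h.det i j x⟩,
    fun h => ⟨holMap_iff.2 fun x => (h x).1, fun i j x => (h x).2 i j⟩⟩

theorem LAt.congr {B : Atl n N} {p q : M → N} (h : LAt A B p x)
    (he : ∀ᶠ y in 𝓝 x, p y = q y) : LAt A B q x := by
  refine ⟨h.1.congr he, fun i j hi hj => ?_⟩
  have h1 := h.2 i j hi (by rw [he.self_of_nhds]; exact hj)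
  have h2 : Jp A B q i j x = Jp A B p i j x := by
    rw [Jp_eq, Jp_eq]
    congr 1
    refine Filter.EventuallyEq.fderiv_eq ?_
    filter_upwards [eventually_chart hi he] with z hz
    simp only [rd]
    rw [hz.2]
  rwa [h2]

theorem LAt.comp {B : Atl n N} {C : Atl n P} {p : M → N} {q : N → P} (hq : LAt B C q (p x))
    (hp : LAt A B p x) : LAt A C (fun y => q (p y)) x := by
  obtain ⟨i, hi⟩ := A.cover x
  obtain ⟨j, hj⟩ := B.cover (p x)
  obtain ⟨l, hl⟩ := C.cover (q (p x))
  refine LAt.of (hq.1.comp hp.1) i l hi hl ?_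
  have h1 := hp.1.2 i j hi hj
  have h2 := hq.1.2 j l hj hl
  have e1 : rd A B p i j (A.e i x) = B.e j (p x) := by simp only [rd, (A.e i).left_inv hi]
  have h3 : fderiv ℂ (rd A C (fun y => q (p y)) i l) (A.e i x) =
      (fderiv ℂ (rd B C q j l) (B.e j (p x))).comp (fderiv ℂ (rd A B p i j) (A.e i x)) := by
    have h4 := fderiv_comp (A.e i x) (g := rd B C q j l) (f := rd A B p i j)
      (by rw [e1]; exact h2) h1
    rw [e1] at h4
    rw [← h4]
    refine Filter.EventuallyEq.fderiv_eq ?_
    have h5 : ∀ᶠ y in 𝓝 x, p y ∈ (B.e j).source :=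
      hp.1.1.eventually ((B.e j).open_source.mem_nhds hj)
    filter_upwards [eventually_chart hi h5] with z hz
    simp only [rd, Function.comp_apply]
    rw [(B.e j).left_inv hz.2]
  rw [Jp_eq, h3, mt_comp, Matrix.det_mul]
  exact mul_ne_zero (hq.2 j l hj hl) (hp.2 i j hi hj)

theorem lAt_id : LAt A A id x := lBih_iff.1 (lBih_id A) x

/-- if `q ∘ p = id` near `x` with `p`, `q` holomorphic then `p` is locally biholomorphic -/
theorem LAt.of_left_inverse {B : Atl n N} {p : M → N} {q : N → M} (hp : HAt A B p x)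
    (hq : HAt B A q (p x)) (he : ∀ᶠ y in 𝓝 x, q (p y) = y) : LAt A B p x := by
  obtain ⟨i, hi⟩ := A.cover x
  obtain ⟨j, hj⟩ := B.cover (p x)
  have hx : q (p x) = x := he.self_of_nhds
  refine LAt.of hp i j hi hj fun h0 => ?_
  have h1 := hp.2 i j hi hj
  have h2 := hq.2 j i hj (by rw [hx]; exact hi)
  have e1 : rd A B p i j (A.e i x) = B.e j (p x) := by simp only [rd, (A.e i).left_inv hi]
  have h3 : (fderiv ℂ (rd B A q j i) (B.e j (p x))).comp (fderiv ℂ (rd A B p i j) (A.e i x)) =
      ContinuousLinearMap.id ℂ (Cn n) := by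
    have h4 := fderiv_comp (A.e i x) (g := rd B A q j i) (f := rd A B p i j)
      (by rw [e1]; exact h2) h1
    rw [e1] at h4
    rw [← h4, ← fderiv_id (𝕜 := ℂ) (x := A.e i x)]
    refine Filter.EventuallyEq.fderiv_eq ?_
    have h5 : ∀ᶠ y in 𝓝 x, p y ∈ (B.e j).source ∧ q (p y) = y :=
      (hp.1.eventually ((B.e j).open_source.mem_nhds hj)).and he
    filter_upwards [eventually_chart hi h5] with z hz
    simp only [rd, Function.comp_apply, id]
    rw [(B.e j).left_inv hz.2.1, hz.2.2, (A.e i).right_inv hz.1]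
  have h6 := congrArg (fun T => (mt T).det) h3
  simp only [mt_comp, mt_id, Matrix.det_mul, Matrix.det_one] at h6
  rw [Jp_eq] at h0
  rw [h0, mul_zero] at h6
  exact zero_ne_one h6

/-! ### functions -/

/-- a function with values in a normed space is holomorphic at `x` -/
def FAt {W : Type*} [NormedAddCommGroup W] [NormedSpace ℂ W] (A : Atl n M) (f : M → W) (x : M) :
    Prop :=
  ∀ i, x ∈ (A.e i).source → DifferentiableAt ℂ (fun z => f ((A.e i).symm z)) (A.e i x)

section fn

variable {W : Type*} [NormedAddCommGroup W] [NormedSpace ℂ W] {f g : M → W}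

theorem FAt.of (i : A.ι) (hx : x ∈ (A.e i).source)
    (hd : DifferentiableAt ℂ (fun z => f ((A.e i).symm z)) (A.e i x)) : FAt A f x := by
  intro i' hx'
  have h1 := diffAt_tr hx' hx
  have e1 : A.e i ((A.e i').symm (A.e i' x)) = A.e i x := by rw [(A.e i').left_inv hx']
  have h3 : DifferentiableAt ℂ (fun z => f ((A.e i).symm (A.e i ((A.e i').symm z))))
      (A.e i' x) :=
    DifferentiableAt.comp (A.e i' x) (g := fun z => f ((A.e i).symm z))
      (by rw [e1]; exact hd) h1
  refine h3.congr_of_eventuallyEq ?_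
  filter_upwards [eventually_chart hx' ((A.e i).open_source.mem_nhds hx)] with z hz
  rw [(A.e i).left_inv hz.2]

theorem FAt.continuousAt (h : FAt A f x) : ContinuousAt f x := by
  obtain ⟨i, hi⟩ := A.cover x
  have h1 : ContinuousAt (fun y => f ((A.e i).symm (A.e i y))) x :=
    ContinuousAt.comp (g := fun z => f ((A.e i).symm z)) (h i hi).continuousAt
      ((A.e i).continuousAt hi)
  refine h1.congr ?_
  filter_upwards [(A.e i).open_source.mem_nhds hi] with y hy
  rw [(A.e i).left_inv hy]

theorem FAt.congr (h : FAt A f x) (he : ∀ᶠ y in 𝓝 x, f y = g y) : FAt A g x := by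
  intro i hi
  refine (h i hi).congr_of_eventuallyEq ?_
  filter_upwards [eventually_chart hi he] with z hz
  exact hz.2.symm

theorem FAt.comp {f : N → W} (hf : FAt B f (p x)) (hp : HAt A B p x) :
    FAt A (fun y => f (p y)) x := by
  obtain ⟨i, hi⟩ := A.cover x
  obtain ⟨j, hj⟩ := B.cover (p x)
  refine FAt.of i hi ?_
  have e1 : rd A B p i j (A.e i x) = B.e j (p x) := by simp only [rd, (A.e i).left_inv hi]
  have h3 : DifferentiableAt ℂ (fun z => f ((B.e j).symm (rd A B p i j z))) (A.e i x) :=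
    DifferentiableAt.comp (A.e i x) (g := fun w => f ((B.e j).symm w))
      (by rw [e1]; exact hf j hj) (hp.2 i j hi hj)
  refine h3.congr_of_eventuallyEq ?_
  have h5 : ∀ᶠ y in 𝓝 x, p y ∈ (B.e j).source := hp.1.eventually ((B.e j).open_source.mem_nhds hj)
  filter_upwards [eventually_chart hi h5] with z hz
  simp only [rd]
  rw [(B.e j).left_inv hz.2]

theorem holAt_iff_fAt {U : Set M} (hU : IsOpen U) {f : M → ℂ} :
    (∀ i, HolAt A i U f) ↔ ∀ x ∈ U, FAt A f x := by
  constructor
  · intro h x hx i hi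
    refine (h i).differentiableAt ((isOpen_ti hU).mem_nhds ⟨(A.e i).map_source hi, ?_⟩)
    rw [mem_preimage, (A.e i).left_inv hi]
    exact hx
  · intro h i z hz
    have h1 := h _ hz.2 i ((A.e i).map_target hz.1)
    rw [(A.e i).right_inv hz.1] at h1
    exact h1.differentiableWithinAt

/-- the chart itself is holomorphic -/
theorem fAt_chart {i : A.ι} (hx : x ∈ (A.e i).source) : FAt A (fun y => A.e i y) x := by
  refine FAt.of i hx ?_
  refine (differentiableAt_id (𝕜 := ℂ)).congr_of_eventuallyEq ?_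
  filter_upwards [(A.e i).open_target.mem_nhds ((A.e i).map_source hx)] with z hz
  exact (A.e i).right_inv hz

/-- holomorphic map into a chart -/
theorem hAt_of_fAt {j : B.ι} (hc : ContinuousAt p x) (hj : p x ∈ (B.e j).source)
    (h : FAt A (fun y => B.e j (p y)) x) : HAt A B p x := by
  obtain ⟨i, hi⟩ := A.cover x
  exact HAt.of hc i j hi hj (h i hi)

end fn

end

end Crest.Agent.R272.HAt_342
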