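import Crest.Agent.R273.Fam_835
import Crest.Agent.R272.HAt_342

/-!
# R272 (helper342): pointwise holomorphy in the language of `Fam`

`HC C D p x` : `p` is holomorphic at `x` (families of charts `C`, `D`);
`holC_iff_hC : HolC C D p ↔ ∀ x, HC C D p x`; `LC C D p x` : locally biholomorphic at `x`;
`FC C f x` : functions with values in a normed space.  Bridges to `HAt`, `FAt`.
-/

set_option autoImplicit false
set_option linter.unusedSectionVars false
set_option linter.style.haveILetI false

open Set Filter Topology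

namespace Crest.Agent.R272.HFam_342

open Crest.Agent.R275.Geo Crest.Agent.R275.Core144 Crest.Agent.R273.Map_835
  Crest.Agent.R273.PB_835 Crest.Agent.R273.Fam_835 Crest.Agent.R272.HAt_342

noncomputable section

variable {n m k : ℕ} {M N P : Type} [TopologicalSpace M] [TopologicalSpace N]
  [TopologicalSpace P] {A : Fam n M} {B : Fam m N} {C : Fam k P} {p q : M → N} {x : M}

/-- the map read in charts -/
def rc (A : Fam n M) (B : Fam m N) (p : M → N) (i : A.ι) (j : B.ι) : Cn n → Cn m :=
  fun z => B.e j (p ((A.e i).symm z))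

theorem rc_apply (A : Fam n M) (B : Fam m N) (p : M → N) {i : A.ι} (j : B.ι) {x : M}
    (hx : x ∈ (A.e i).source) : rc A B p i j (A.e i x) = B.e j (p x) := by
  simp only [rc, (A.e i).left_inv hx]

/-- `p` is holomorphic at `x` -/
def HC (A : Fam n M) (B : Fam m N) (p : M → N) (x : M) : Prop :=
  ContinuousAt p x ∧ ∀ i j, x ∈ (A.e i).source → p x ∈ (B.e j).source →
    DifferentiableAt ℂ (rc A B p i j) (A.e i x)

theorem diffAt_trC {i i' : A.ι} (hx : x ∈ (A.e i).source) (hx' : x ∈ (A.e i').source) :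
    DifferentiableAt ℂ (fun z => A.e i' ((A.e i).symm z)) (A.e i x) := by
  refine (A.holo i i').differentiableAt ?_
  have ho : IsOpen ((A.e i).target ∩ (A.e i).symm ⁻¹' (A.e i').source) :=
    (A.e i).isOpen_inter_preimage_symm (A.e i').open_source
  refine ho.mem_nhds ⟨(A.e i).map_source hx, ?_⟩
  rw [mem_preimage, (A.e i).left_inv hx]
  exact hx'

/-- near `x`, in the chart `i` -/
theorem eventually_chartC {i : A.ι} (hx : x ∈ (A.e i).source) {Q : M → Prop}
    (hQ : ∀ᶠ y in 𝓝 x, Q y) :
    ∀ᶠ z in 𝓝 (A.e i x), z ∈ (A.e i).target ∧ Q ((A.e i).symm z) := by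
  have h1 : ContinuousAt (A.e i).symm (A.e i x) := (A.e i).continuousAt_symm ((A.e i).map_source hx)
  have h2 : ∀ᶠ z in 𝓝 (A.e i x), Q ((A.e i).symm z) := by
    refine h1.eventually ?_
    rw [(A.e i).left_inv hx]
    exact hQ
  exact ((A.e i).open_target.eventually_mem ((A.e i).map_source hx)).and h2

/-- one pair of charts is enough -/
theorem HC.of (hc : ContinuousAt p x) (i : A.ι) (j : B.ι) (hx : x ∈ (A.e i).source)
    (hj : p x ∈ (B.e j).source) (hd : DifferentiableAt ℂ (rc A B p i j) (A.e i x)) :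
    HC A B p x := by
  refine ⟨hc, fun i' j' hx' hj' => ?_⟩
  have h1 := diffAt_trC hx' hx
  have h2 := diffAt_trC hj hj'
  have e1 : A.e i ((A.e i').symm (A.e i' x)) = A.e i x := by rw [(A.e i').left_inv hx']
  have e2 : rc A B p i j (A.e i ((A.e i').symm (A.e i' x))) = B.e j (p x) := by
    rw [e1, rc_apply A B p j hx]
  have h3 : DifferentiableAt ℂ (fun z => rc A B p i j (A.e i ((A.e i').symm z))) (A.e i' x) :=
    DifferentiableAt.comp (A.e i' x) (g := rc A B p i j) (by rw [e1]; exact hd) h1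
  have h4 : DifferentiableAt ℂ (fun z => B.e j' ((B.e j).symm
      (rc A B p i j (A.e i ((A.e i').symm z))))) (A.e i' x) :=
    DifferentiableAt.comp (A.e i' x) (g := fun w => B.e j' ((B.e j).symm w))
      (by rw [e2]; exact h2) h3
  refine h4.congr_of_eventuallyEq ?_
  have h5 : ∀ᶠ y in 𝓝 x, y ∈ (A.e i).source ∧ p y ∈ (B.e j).source :=
    ((A.e i).open_source.eventually_mem hx).and (hc.eventually ((B.e j).open_source.mem_nhds hj))
  filter_upwards [eventually_chartC hx' h5] with z hz
  simp only [rc]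
  rw [(A.e i).left_inv hz.2.1, (B.e j).left_inv hz.2.2]

theorem _root_.Crest.Agent.R273.Fam_835.HolC.hC (h : HolC A B p) (x : M) : HC A B p x := by
  refine ⟨h.cont.continuousAt, fun i j hx hj => ?_⟩
  refine h.diffAt ((A.e i).map_source hx) ?_
  rw [(A.e i).left_inv hx]
  exact hj

theorem holC_iff_hC : HolC A B p ↔ ∀ x, HC A B p x := by
  refine ⟨fun h x => h.hC x, fun h => ⟨continuous_iff_continuousAt.2 fun x => (h x).1,
    fun i j z hz => ?_⟩⟩
  have h1 := (h ((A.e i).symm z)).2 i j ((A.e i).map_target hz.1) hz.2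
  rw [(A.e i).right_inv hz.1] at h1
  exact h1.differentiableWithinAt

/-- bridge to atlases -/
theorem hC_fam_iff {A : Atl n M} {B : Atl m N} {p : M → N} {x : M} :
    HC (fam A) (fam B) p x ↔ HAt A B p x := Iff.rfl

theorem HC.congr (h : HC A B p x) (he : ∀ᶠ y in 𝓝 x, p y = q y) : HC A B q x := by
  have hx := he.self_of_nhds
  refine ⟨h.1.congr he, fun i j hi hj => ?_⟩
  refine (h.2 i j hi (by rw [hx]; exact hj)).congr_of_eventuallyEq ?_
  filter_upwards [eventually_chartC hi he] with z hz
  simp only [rc]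
  rw [hz.2]

theorem HC.comp {q : N → P} (hq : HC B C q (p x)) (hp : HC A B p x) :
    HC A C (fun y => q (p y)) x := by
  have hc : ContinuousAt (fun y => q (p y)) x := ContinuousAt.comp (g := q) hq.1 hp.1
  obtain ⟨i, hi⟩ := A.cover x
  obtain ⟨j, hj⟩ := B.cover (p x)
  obtain ⟨l, hl⟩ := C.cover (q (p x))
  refine HC.of hc i l hi hl ?_
  have h1 := hp.2 i j hi hj
  have h2 := hq.2 j l hj hl
  have e1 : rc A B p i j (A.e i x) = B.e j (p x) := rc_apply A B p j hi
  have h3 : DifferentiableAt ℂ (fun z => rc B C q j l (rc A B p i j z)) (A.e i x) :=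
    DifferentiableAt.comp (A.e i x) (g := rc B C q j l) (by rw [e1]; exact h2) h1
  refine h3.congr_of_eventuallyEq ?_
  have h5 : ∀ᶠ y in 𝓝 x, p y ∈ (B.e j).source := hp.1.eventually ((B.e j).open_source.mem_nhds hj)
  filter_upwards [eventually_chartC hi h5] with z hz
  simp only [rc]
  rw [(B.e j).left_inv hz.2]

theorem hC_id : HC A A id x := (HolC.id A).hC x

theorem hC_const (y : N) : HC A B (fun _ => y) x :=
  ⟨continuousAt_const, fun _ _ _ _ => differentiableAt_const _⟩

/-- pointwise local biholomorphy -/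
def LC (A : Fam n M) {N : Type} [TopologicalSpace N] (B : Fam n N) (p : M → N) (x : M) : Prop :=
  HC A B p x ∧ ∀ i j, x ∈ (A.e i).source → p x ∈ (B.e j).source →
    Function.Injective (fderiv ℂ (rc A B p i j) (A.e i x))

theorem inj_tr {i i' : A.ι} (hx : x ∈ (A.e i).source) (hx' : x ∈ (A.e i').source) :
    Function.Injective (fderiv ℂ (fun z => A.e i' ((A.e i).symm z)) (A.e i x)) := by
  have h1 := diffAt_trC hx hx'
  have h2 := diffAt_trC hx' hx
  have e1 : A.e i' ((A.e i).symm (A.e i x)) = A.e i' x := by rw [(A.e i).left_inv hx]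
  have h3 : (fderiv ℂ (fun z => A.e i ((A.e i').symm z)) (A.e i' x)).comp
      (fderiv ℂ (fun z => A.e i' ((A.e i).symm z)) (A.e i x)) = ContinuousLinearMap.id ℂ (Cn n) := by
    have h4 := fderiv_comp (A.e i x) (g := fun z => A.e i ((A.e i').symm z))
      (f := fun z => A.e i' ((A.e i).symm z)) (by rw [e1]; exact h2) h1
    rw [e1] at h4
    rw [← h4, ← fderiv_id (𝕜 := ℂ) (x := A.e i x)]
    refine Filter.EventuallyEq.fderiv_eq ?_
    filter_upwards [eventually_chartC hx ((A.e i').open_source.eventually_mem hx')] with z hz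
    simp only [Function.comp_apply, id]
    rw [(A.e i').left_inv hz.2, (A.e i).right_inv hz.1]
  intro v w hvw
  have h5 := congrArg (fun T => T v) h3
  have h6 := congrArg (fun T => T w) h3
  simp only [ContinuousLinearMap.comp_apply, ContinuousLinearMap.id_apply] at h5 h6
  rw [← h5, ← h6, hvw]

theorem LC.of {B : Fam n N} {p : M → N} (hp : HC A B p x) (i : A.ι) (j : B.ι)
    (hi : x ∈ (A.e i).source) (hj : p x ∈ (B.e j).source)
    (hd : Function.Injective (fderiv ℂ (rc A B p i j) (A.e i x))) : LC A B p x := by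
  refine ⟨hp, fun i' j' hi' hj' => ?_⟩
  have h1 := diffAt_trC hi' hi
  have h2 := diffAt_trC hj hj'
  have e1 : A.e i ((A.e i').symm (A.e i' x)) = A.e i x := by rw [(A.e i').left_inv hi']
  have e2 : rc A B p i j (A.e i x) = B.e j (p x) := rc_apply A B p j hi
  have hd0 := hp.2 i j hi hj
  have h3 : fderiv ℂ (rc A B p i' j') (A.e i' x) =
      (fderiv ℂ (fun w => B.e j' ((B.e j).symm w)) (B.e j (p x))).comp
        ((fderiv ℂ (rc A B p i j) (A.e i x)).comp
          (fderiv ℂ (fun z => A.e i ((A.e i').symm z)) (A.e i' x))) := by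
    have h4 : fderiv ℂ (fun z => rc A B p i j (A.e i ((A.e i').symm z))) (A.e i' x) =
        (fderiv ℂ (rc A B p i j) (A.e i x)).comp
          (fderiv ℂ (fun z => A.e i ((A.e i').symm z)) (A.e i' x)) := by
      have := fderiv_comp (A.e i' x) (g := rc A B p i j)
        (f := fun z => A.e i ((A.e i').symm z)) (by rw [e1]; exact hd0) h1
      rw [e1] at this
      exact this
    have h5 : DifferentiableAt ℂ (fun z => rc A B p i j (A.e i ((A.e i').symm z))) (A.e i' x) :=
      DifferentiableAt.comp (A.e i' x) (g := rc A B p i j) (by rw [e1]; exact hd0) h1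
    have h6 : fderiv ℂ (fun z => B.e j' ((B.e j).symm
        (rc A B p i j (A.e i ((A.e i').symm z))))) (A.e i' x) =
        (fderiv ℂ (fun w => B.e j' ((B.e j).symm w)) (B.e j (p x))).comp
          (fderiv ℂ (fun z => rc A B p i j (A.e i ((A.e i').symm z))) (A.e i' x)) := by
      have := fderiv_comp (A.e i' x) (g := fun w => B.e j' ((B.e j).symm w))
        (f := fun z => rc A B p i j (A.e i ((A.e i').symm z))) (by rw [e1, e2]; exact h2) h5
      rw [e1, e2] at this
      exact this
    rw [← h4, ← h6]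
    refine Filter.EventuallyEq.fderiv_eq ?_
    have h7 : ∀ᶠ y in 𝓝 x, y ∈ (A.e i).source ∧ p y ∈ (B.e j).source :=
      ((A.e i).open_source.eventually_mem hi).and (hp.1.eventually ((B.e j).open_source.mem_nhds hj))
    filter_upwards [eventually_chartC hi' h7] with z hz
    simp only [rc]
    rw [(A.e i).left_inv hz.2.1, (B.e j).left_inv hz.2.2]
  rw [h3]
  exact (inj_tr hj hj').comp (hd.comp (inj_tr hi' hi))

/-- bridge to `LAt` -/
theorem lC_fam_iff {A : Atl n M} {B : Atl n N} {p : M → N} {x : M} :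
    LC (fam A) (fam B) p x ↔ LAt A B p x := by
  refine ⟨fun h => ⟨h.1, fun i j hi hj => ?_⟩, fun h => ⟨h.1, fun i j hi hj =>
    mt_inj_of_det (h.2 i j hi hj)⟩⟩
  have h1 : Function.Injective (fderiv ℂ (rd A B p i j) (A.e i x)) := h.2 i j hi hj
  let T : Cn n ≃L[ℂ] Cn n := (LinearEquiv.ofInjectiveEndo
    (fderiv ℂ (rd A B p i j) (A.e i x)).toLinearMap h1).toContinuousLinearEquiv
  have hT : fderiv ℂ (rd A B p i j) (A.e i x) = (T : Cn n →L[ℂ] Cn n) := by
    ext v
    rfl
  rw [Jp_eq, hT]
  intro h0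
  have h2 : (mt (T.symm : Cn n →L[ℂ] Cn n)) * mt (T : Cn n →L[ℂ] Cn n) = 1 := by
    rw [← mt_comp, ← mt_id]
    congr 1
    ext v
    simp
  have h3 := congrArg Matrix.det h2
  rw [Matrix.det_mul, h0, mul_zero, Matrix.det_one] at h3
  exact zero_ne_one h3

/-- local inverse of a locally biholomorphic map -/
theorem LC.inverse {B : Fam n N} {p : M → N} (h : LC A B p x) {q : N → M}
    (hq : ContinuousAt q (p x)) (e : ∀ᶠ y in 𝓝 (p x), p (q y) = y) (hx : q (p x) = x) :
    HC B A q (p x) := by
  obtain ⟨i, hi⟩ := A.cover x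
  obtain ⟨j, hj⟩ := B.cover (p x)
  have hinj := h.2 i j hi hj
  refine HC.of hq j i hj (by rw [hx]; exact hi) ?_
  have h2 := (h.1.2 i j hi hj).hasFDerivAt
  let T : Cn n ≃L[ℂ] Cn n := (LinearEquiv.ofInjectiveEndo
    (fderiv ℂ (rc A B p i j) (A.e i x)).toLinearMap hinj).toContinuousLinearEquiv
  have hT : HasFDerivAt (rc A B p i j) (T : Cn n →L[ℂ] Cn n) (A.e i x) := by
    convert h2 using 1
    ext v
    rfl
  have e1 : rc B A q j i (B.e j (p x)) = A.e i x := by
    simp only [rc, (B.e j).left_inv hj, hx]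
  have hc : ContinuousAt (rc B A q j i) (B.e j (p x)) := by
    have h3 : ContinuousAt (fun z => q ((B.e j).symm z)) (B.e j (p x)) := by
      refine ContinuousAt.comp (g := q) ?_ ((B.e j).continuousAt_symm ((B.e j).map_source hj))
      rw [(B.e j).left_inv hj]
      exact hq
    refine ContinuousAt.comp (g := A.e i) ?_ h3
    show ContinuousAt (A.e i) (q ((B.e j).symm (B.e j (p x))))
    rw [(B.e j).left_inv hj, hx]
    exact (A.e i).continuousAt hi
  have hl : ∀ᶠ w in 𝓝 (B.e j (p x)), rc A B p i j (rc B A q j i w) = w := by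
    have h4 : ∀ᶠ y in 𝓝 (p x), p (q y) = y ∧ q y ∈ (A.e i).source :=
      e.and (hq.eventually ((A.e i).open_source.mem_nhds (by rw [hx]; exact hi)))
    filter_upwards [eventually_chartC hj h4] with w hw
    simp only [rc]
    rw [(A.e i).left_inv hw.2.2, hw.2.1, (B.e j).right_inv hw.1]
  refine (HasFDerivAt.of_local_left_inverse hc ?_ hl).differentiableAt (f' := (T.symm :
    Cn n →L[ℂ] Cn n))
  rw [e1]
  exact hT

theorem LC.symm {B : Fam n N} (e : OpenPartialHomeomorph M N) (hx : x ∈ e.source)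
    (hp : LC A B e x) : HC B A e.symm (e x) := by
  refine hp.inverse (e.continuousAt_symm (e.map_source hx)) ?_ (e.left_inv hx)
  filter_upwards [e.open_target.mem_nhds (e.map_source hx)] with y hy
  exact e.right_inv hy

theorem LC.congr {B : Fam n N} {p q : M → N} (h : LC A B p x)
    (he : ∀ᶠ y in 𝓝 x, p y = q y) : LC A B q x := by
  refine ⟨h.1.congr he, fun i j hi hj => ?_⟩
  have h1 := h.2 i j hi (by rw [he.self_of_nhds]; exact hj)
  have h2 : fderiv ℂ (rc A B q i j) (A.e i x) = fderiv ℂ (rc A B p i j) (A.e i x) := by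
    refine Filter.EventuallyEq.fderiv_eq ?_
    filter_upwards [eventually_chartC hi he] with z hz
    simp only [rc]
    rw [hz.2]
  rwa [h2]

theorem LC.comp {B : Fam n N} {C : Fam n P} {p : M → N} {q : N → P} (hq : LC B C q (p x))
    (hp : LC A B p x) : LC A C (fun y => q (p y)) x := by
  obtain ⟨i, hi⟩ := A.cover x
  obtain ⟨j, hj⟩ := B.cover (p x)
  obtain ⟨l, hl⟩ := C.cover (q (p x))
  refine LC.of (hq.1.comp hp.1) i l hi hl ?_
  have h1 := hp.1.2 i j hi hj
  have h2 := hq.1.2 j l hj hl
  have e1 : rc A B p i j (A.e i x) = B.e j (p x) := rc_apply A B p j hi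
  have h3 : fderiv ℂ (rc A C (fun y => q (p y)) i l) (A.e i x) =
      (fderiv ℂ (rc B C q j l) (B.e j (p x))).comp (fderiv ℂ (rc A B p i j) (A.e i x)) := by
    have h4 := fderiv_comp (A.e i x) (g := rc B C q j l) (f := rc A B p i j)
      (by rw [e1]; exact h2) h1
    rw [e1] at h4
    rw [← h4]
    refine Filter.EventuallyEq.fderiv_eq ?_
    have h5 : ∀ᶠ y in 𝓝 x, p y ∈ (B.e j).source :=
      hp.1.1.eventually ((B.e j).open_source.mem_nhds hj)
    filter_upwards [eventually_chartC hi h5] with z hz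
    simp only [rc, Function.comp_apply]
    rw [(B.e j).left_inv hz.2]
  rw [h3]
  exact (hq.2 j l hj hl).comp (hp.2 i j hi hj)

theorem lC_id : LC A A id x :=
  ⟨hC_id, fun _ _ hi hj => inj_tr hi hj⟩

/-- if `q ∘ p = id` near `x` with `p`, `q` holomorphic then `p` is locally biholomorphic -/
theorem LC.of_left_inverse {B : Fam n N} {p : M → N} {q : N → M} (hp : HC A B p x)
    (hq : HC B A q (p x)) (he : ∀ᶠ y in 𝓝 x, q (p y) = y) : LC A B p x := by
  obtain ⟨i, hi⟩ := A.cover x
  obtain ⟨j, hj⟩ := B.cover (p x)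
  have hx : q (p x) = x := he.self_of_nhds
  refine LC.of hp i j hi hj ?_
  have h1 := hp.2 i j hi hj
  have h2 := hq.2 j i hj (by rw [hx]; exact hi)
  have e1 : rc A B p i j (A.e i x) = B.e j (p x) := rc_apply A B p j hi
  have h3 : (fderiv ℂ (rc B A q j i) (B.e j (p x))).comp (fderiv ℂ (rc A B p i j) (A.e i x)) =
      ContinuousLinearMap.id ℂ (Cn n) := by
    have h4 := fderiv_comp (A.e i x) (g := rc B A q j i) (f := rc A B p i j)
      (by rw [e1]; exact h2) h1
    rw [e1] at h4
    rw [← h4, ← fderiv_id (𝕜 := ℂ) (x := A.e i x)]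
    refine Filter.EventuallyEq.fderiv_eq ?_
    have h5 : ∀ᶠ y in 𝓝 x, p y ∈ (B.e j).source ∧ q (p y) = y :=
      (hp.1.eventually ((B.e j).open_source.mem_nhds hj)).and he
    filter_upwards [eventually_chartC hi h5] with z hz
    simp only [rc, Function.comp_apply, id]
    rw [(B.e j).left_inv hz.2.1, hz.2.2, (A.e i).right_inv hz.1]
  intro v w hvw
  have h5 := congrArg (fun T => T v) h3
  have h6 := congrArg (fun T => T w) h3
  simp only [ContinuousLinearMap.comp_apply, ContinuousLinearMap.id_apply] at h5 h6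
  rw [← h5, ← h6, hvw]

/-! ### functions -/

/-- a function with values in a normed space is holomorphic at `x` -/
def FC {W : Type*} [NormedAddCommGroup W] [NormedSpace ℂ W] (A : Fam n M) (f : M → W) (x : M) :
    Prop :=
  ∀ i, x ∈ (A.e i).source → DifferentiableAt ℂ (fun z => f ((A.e i).symm z)) (A.e i x)

section fn

variable {W : Type*} [NormedAddCommGroup W] [NormedSpace ℂ W] {f g : M → W}

theorem FC.of (i : A.ι) (hx : x ∈ (A.e i).source)
    (hd : DifferentiableAt ℂ (fun z => f ((A.e i).symm z)) (A.e i x)) : FC A f x := by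
  intro i' hx'
  have h1 := diffAt_trC hx' hx
  have e1 : A.e i ((A.e i').symm (A.e i' x)) = A.e i x := by rw [(A.e i').left_inv hx']
  have h3 : DifferentiableAt ℂ (fun z => f ((A.e i).symm (A.e i ((A.e i').symm z))))
      (A.e i' x) :=
    DifferentiableAt.comp (A.e i' x) (g := fun z => f ((A.e i).symm z))
      (by rw [e1]; exact hd) h1
  refine h3.congr_of_eventuallyEq ?_
  filter_upwards [eventually_chartC hx' ((A.e i).open_source.mem_nhds hx)] with z hz
  rw [(A.e i).left_inv hz.2]

theorem FC.continuousAt (h : FC A f x) : ContinuousAt f x := by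
  obtain ⟨i, hi⟩ := A.cover x
  have h1 : ContinuousAt (fun y => f ((A.e i).symm (A.e i y))) x :=
    ContinuousAt.comp (g := fun z => f ((A.e i).symm z)) (h i hi).continuousAt
      ((A.e i).continuousAt hi)
  refine h1.congr ?_
  filter_upwards [(A.e i).open_source.mem_nhds hi] with y hy
  rw [(A.e i).left_inv hy]

theorem FC.congr (h : FC A f x) (he : ∀ᶠ y in 𝓝 x, f y = g y) : FC A g x := by
  intro i hi
  refine (h i hi).congr_of_eventuallyEq ?_
  filter_upwards [eventually_chartC hi he] with z hz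
  exact hz.2.symm

theorem FC.comp {f : N → W} (hf : FC B f (p x)) (hp : HC A B p x) :
    FC A (fun y => f (p y)) x := by
  obtain ⟨i, hi⟩ := A.cover x
  obtain ⟨j, hj⟩ := B.cover (p x)
  refine FC.of i hi ?_
  have e1 : rc A B p i j (A.e i x) = B.e j (p x) := rc_apply A B p j hi
  have h3 : DifferentiableAt ℂ (fun z => f ((B.e j).symm (rc A B p i j z))) (A.e i x) :=
    DifferentiableAt.comp (A.e i x) (g := fun w => f ((B.e j).symm w))
      (by rw [e1]; exact hf j hj) (hp.2 i j hi hj)
  refine h3.congr_of_eventuallyEq ?_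
  have h5 : ∀ᶠ y in 𝓝 x, p y ∈ (B.e j).source := hp.1.eventually ((B.e j).open_source.mem_nhds hj)
  filter_upwards [eventually_chartC hi h5] with z hz
  simp only [rc]
  rw [(B.e j).left_inv hz.2]

/-- the chart itself is holomorphic -/
theorem fC_chart {i : A.ι} (hx : x ∈ (A.e i).source) : FC A (fun y => A.e i y) x := by
  refine FC.of i hx ?_
  refine (differentiableAt_id (𝕜 := ℂ)).congr_of_eventuallyEq ?_
  filter_upwards [(A.e i).open_target.mem_nhds ((A.e i).map_source hx)] with z hz
  exact (A.e i).right_inv hz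

/-- holomorphic map into a chart -/
theorem hC_of_fC {j : B.ι} (hc : ContinuousAt p x) (hj : p x ∈ (B.e j).source)
    (h : FC A (fun y => B.e j (p y)) x) : HC A B p x := by
  obtain ⟨i, hi⟩ := A.cover x
  exact HC.of hc i j hi hj (h i hi)

end fn

end

end Crest.Agent.R272.HFam_342
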