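import Crest.Agent.R272.MQ1_783
import Mathlib.LinearAlgebra.Trace

/-!
# R272, leaf MQ (helper783), part 2: reflections

* `IsRefl L` : `L w = w - ℓ w • v`, `ℓ v = 2`; `isRefl_of_trace` : `L² = 1` and trace `n - 2`;
* `dC` : the derivative of a holomorphic map read in compatible charts, chain rule `dC_comp`;
* `ReflAt.chart` : `ReflAt` does not depend on the chart;
* `reflAt_of_limit` : `ReflAt` passes to limits of fixed points of an involution.
-/

set_option autoImplicit false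
set_option linter.unusedSectionVars false

open Set Filter Topology

namespace Crest.Agent.R272.MQ_783

open Crest.Agent.R275.Geo Crest.Agent.R273.Fam_835 Crest.Agent.R272.Refl_246
  Crest.Agent.R272.RQ1_302

noncomputable section

variable {n m k : ℕ}

/-- linear reflections -/
def IsRefl (L : Cn n →L[ℂ] Cn n) : Prop :=
  ∃ (ℓ : Cn n →L[ℂ] ℂ) (v : Cn n), ℓ v = 2 ∧ ∀ w, L w = w - ℓ w • v

theorem IsRefl.conj {L A B : Cn n →L[ℂ] Cn n} (h : IsRefl L) (hAB : ∀ w, A (B w) = w)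
    (hBA : ∀ w, B (A w) = w) : IsRefl (A.comp (L.comp B)) := by
  obtain ⟨ℓ, v, hv, hL⟩ := h
  refine ⟨ℓ.comp B, A v, ?_, fun w => ?_⟩
  · rw [ContinuousLinearMap.comp_apply, hBA, hv]
  · rw [ContinuousLinearMap.comp_apply, ContinuousLinearMap.comp_apply, hL, map_sub, map_smul,
      hAB, ContinuousLinearMap.comp_apply]

/-- the trace -/
def tr (L : Cn n →L[ℂ] Cn n) : ℂ := LinearMap.trace ℂ (Cn n) (L : Cn n →ₗ[ℂ] Cn n)

theorem continuous_tr : Continuous (tr : (Cn n →L[ℂ] Cn n) → ℂ) := by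
  have h : Continuous ((LinearMap.trace ℂ (Cn n)).comp
      (ContinuousLinearMap.coeLM ℂ : (Cn n →L[ℂ] Cn n) →ₗ[ℂ] (Cn n →ₗ[ℂ] Cn n))) :=
    LinearMap.continuous_of_finiteDimensional _
  exact h

theorem IsRefl.tr_eq {L : Cn n →L[ℂ] Cn n} (h : IsRefl L) : tr L = n - 2 := by
  obtain ⟨ℓ, v, hv, hL⟩ := h
  have h1 : (L : Cn n →ₗ[ℂ] Cn n) = LinearMap.id - (ℓ : Cn n →ₗ[ℂ] ℂ).smulRight v := by
    ext1 w
    exact hL w
  rw [tr, h1, map_sub, LinearMap.trace_smulRight, LinearMap.trace_id, finrank_euclideanSpace,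
    Fintype.card_fin]
  change (n : ℂ) - ℓ v = _
  rw [hv]

theorem isRefl_of_trace {L : Cn n →L[ℂ] Cn n} (hLL : ∀ w, L (L w) = w) (htr : tr L = n - 2) :
    IsRefl L := by
  set f : Cn n →ₗ[ℂ] Cn n := (1 / 2 : ℂ) • (LinearMap.id - (L : Cn n →ₗ[ℂ] Cn n)) with hf
  have hfw : ∀ w, f w = (1 / 2 : ℂ) • (w - L w) := fun w => rfl
  have hff : ∀ w, f (f w) = f w := by
    intro w
    rw [hfw (f w), hfw w, map_smul, map_sub, hLL, ← smul_sub, smul_smul]
    have h1 : w - L w - (L w - w) = (2 : ℂ) • (w - L w) := by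
      rw [two_smul]; abel
    rw [h1, smul_smul]
    norm_num
  have hidem : IsIdempotentElem f := by
    ext1 w
    exact hff w
  have htrf : LinearMap.trace ℂ (Cn n) f = 1 := by
    rw [hf, map_smul, map_sub, LinearMap.trace_id, finrank_euclideanSpace, Fintype.card_fin]
    have : LinearMap.trace ℂ (Cn n) (L : Cn n →ₗ[ℂ] Cn n) = (n : ℂ) - 2 := htr
    rw [this, smul_eq_mul]
    ring
  have hproj := LinearMap.IsIdempotentElem.isProj_range f hidem
  have hrk : Module.finrank ℂ (LinearMap.range f) = 1 := by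
    have h1 := hproj.trace
    rw [htrf] at h1
    exact_mod_cast h1.symm
  obtain ⟨v, hv0, hv⟩ := finrank_eq_one_iff'.1 hrk
  have hv0' : (v : Cn n) ≠ 0 := fun h => hv0 (Subtype.ext h)
  obtain ⟨a, ha⟩ : ∃ a, (v : Cn n) a ≠ 0 := by
    by_contra h
    push Not at h
    exact hv0' (by ext b; exact h b)
  let κ : Cn n →L[ℂ] ℂ := ((v : Cn n) a)⁻¹ • (EuclideanSpace.proj a : Cn n →L[ℂ] ℂ)
  have hκ : κ (v : Cn n) = 1 := by
    change ((v : Cn n) a)⁻¹ * (v : Cn n) a = 1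
    exact inv_mul_cancel₀ ha
  have hκf : ∀ w, f w = κ (f w) • (v : Cn n) := by
    intro w
    obtain ⟨c, hc⟩ := hv ⟨f w, LinearMap.mem_range_self f w⟩
    have hc' : c • (v : Cn n) = f w := congrArg Subtype.val hc
    rw [← hc', map_smul, hκ, smul_eq_mul, mul_one]
  have hfv : f (v : Cn n) = v := hproj.map_id _ v.2
  let F : Cn n →L[ℂ] Cn n := (1 / 2 : ℂ) • (ContinuousLinearMap.id ℂ (Cn n) - L)
  have hF : ∀ w, F w = f w := fun w => rfl
  refine ⟨(2 : ℂ) • κ.comp F, v, ?_, fun w => ?_⟩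
  · change (2 : ℂ) * κ (F v) = 2
    rw [hF, hfv, hκ, mul_one]
  · change L w = w - ((2 : ℂ) * κ (F w)) • (v : Cn n)
    rw [hF, mul_smul, ← hκf, hfw, smul_smul]
    norm_num

/-! ### derivatives in compatible charts -/

section dC

variable {M N P : Type} [TopologicalSpace M] [TopologicalSpace N] [TopologicalSpace P]
  {C : Fam n M} {D : Fam m N} {E : Fam k P}

/-- the derivative of `p` at `x`, read in the charts `φ`, `ψ` -/
def dC (φ : OpenPartialHomeomorph M (Cn n)) (ψ : OpenPartialHomeomorph N (Cn m)) (p : M → N)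
    (x : M) : Cn n →L[ℂ] Cn m :=
  fderiv ℂ (fun z => ψ (p (φ.symm z))) (φ x)

theorem dC_comp {φ : OpenPartialHomeomorph M (Cn n)} {ψ : OpenPartialHomeomorph N (Cn m)}
    {χ : OpenPartialHomeomorph P (Cn k)} (hφ : Cpt C φ) (hψ : Cpt D ψ) (hχ : Cpt E χ)
    {p : M → N} {q : N → P} (hp : HolC C D p) (hq : HolC D E q) {x : M} (hx : x ∈ φ.source)
    (hpx : p x ∈ ψ.source) (hqx : q (p x) ∈ χ.source) :
    dC φ χ (fun x => q (p x)) x = (dC ψ χ q (p x)).comp (dC φ ψ p x) := by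
  have h1 : DifferentiableAt ℂ (fun z => ψ (p (φ.symm z))) (φ x) := hφ.diffAt hψ hp hx hpx
  have h2 : DifferentiableAt ℂ (fun z => χ (q (ψ.symm z))) (ψ (p (φ.symm (φ x)))) := by
    rw [φ.left_inv hx]
    exact hψ.diffAt hχ hq hpx hqx
  have h3 := fderiv_comp (φ x) h2 h1
  have h4 : (fun z => χ (q (p (φ.symm z)))) =ᶠ[𝓝 (φ x)]
      (fun z => χ (q (ψ.symm z))) ∘ (fun z => ψ (p (φ.symm z))) := by
    have h5 : ∀ᶠ z in 𝓝 (φ x), p (φ.symm z) ∈ ψ.source := by
      have h6 : ContinuousAt (fun z => p (φ.symm z)) (φ x) :=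
        (hp.cont.continuousAt).comp (f := φ.symm) (φ.continuousAt_symm (φ.map_source hx))
      refine h6.preimage_mem_nhds ?_
      rw [φ.left_inv hx]
      exact ψ.open_source.mem_nhds hpx
    filter_upwards [h5] with z hz
    simp only [Function.comp]
    rw [ψ.left_inv hz]
  unfold dC
  rw [h4.fderiv_eq, h3, φ.left_inv hx]

theorem dC_id {φ : OpenPartialHomeomorph M (Cn n)} {x : M} (hx : x ∈ φ.source) (w : Cn n) :
    dC φ φ (fun x => x) x w = w := by
  unfold dC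
  have h4 : (fun z => φ (φ.symm z)) =ᶠ[𝓝 (φ x)] id := by
    filter_upwards [φ.open_target.mem_nhds (φ.map_source hx)] with z hz
    exact φ.right_inv hz
  rw [h4.fderiv_eq, fderiv_id]
  rfl

/-- change of charts for a self map at a fixed point -/
theorem dC_change {φ ψ : OpenPartialHomeomorph M (Cn n)} (hφ : Cpt C φ) (hψ : Cpt C ψ)
    {S : M → M} (hS : HolC C C S) {x : M} (hxφ : x ∈ φ.source) (hxψ : x ∈ ψ.source)
    (hSx : S x = x) :
    dC φ φ S x = (dC ψ φ (fun x => x) x).comp ((dC ψ ψ S x).comp (dC φ ψ (fun x => x) x)) := by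
  have h1 := dC_comp hφ hψ hψ (HolC.id C) hS hxφ (show id x ∈ ψ.source from hxψ)
    (show S (id x) ∈ ψ.source by rw [id, hSx]; exact hxψ)
  have h2 := dC_comp hφ hψ hφ hS (HolC.id C) hxφ (show S x ∈ ψ.source by rw [hSx]; exact hxψ)
    (show id (S x) ∈ φ.source by rw [id, hSx]; exact hxφ)
  rw [hSx] at h2
  change dC φ φ S x = (dC ψ φ (fun x => x) x).comp (dC φ ψ S x) at h2
  change dC φ ψ S x = (dC ψ ψ S x).comp (dC φ ψ (fun x => x) x) at h1
  rw [h2, h1]

theorem dC_inv {φ ψ : OpenPartialHomeomorph M (Cn n)} (hφ : Cpt C φ) (hψ : Cpt C ψ)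
    {x : M} (hxφ : x ∈ φ.source) (hxψ : x ∈ ψ.source) (w : Cn n) :
    dC ψ φ (fun x => x) x (dC φ ψ (fun x => x) x w) = w := by
  have h1 := dC_comp hφ hψ hφ (HolC.id C) (HolC.id C) hxφ (show id x ∈ ψ.source from hxψ)
    (show id (id x) ∈ φ.source from hxφ)
  have h2 := congrArg (fun L : Cn n →L[ℂ] Cn n => L w) h1
  change dC φ φ (fun x => x) x w = dC ψ φ (fun x => x) x (dC φ ψ (fun x => x) x w) at h2
  rw [← h2, dC_id hxφ]

end dC

/-! ### `ReflAt` -/

section Refl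

variable {X : Type} [TopologicalSpace X] {C : Fam n X} {S : X → X} {x : X}

theorem reflAt_iff_isRefl : ReflAt C S x ↔
    ∃ φ : OpenPartialHomeomorph X (Cn n), Cpt C φ ∧ x ∈ φ.source ∧ IsRefl (dC φ φ S x) := Iff.rfl

/-- `ReflAt` does not depend on the chart -/
theorem ReflAt.chart (h : ReflAt C S x) (hS : HolC C C S) (hSx : S x = x)
    {φ : OpenPartialHomeomorph X (Cn n)} (hφ : Cpt C φ) (hx : x ∈ φ.source) :
    IsRefl (dC φ φ S x) := by
  obtain ⟨ψ, hψ, hxψ, hr⟩ := reflAt_iff_isRefl.1 h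
  rw [dC_change hφ hψ hS hx hxψ hSx]
  exact hr.conj (fun w => dC_inv hφ hψ hx hxψ w) (fun w => dC_inv hψ hφ hxψ hx w)

theorem dC_invol {φ : OpenPartialHomeomorph X (Cn n)} (hφ : Cpt C φ) (hS : HolC C C S)
    (hSS : ∀ y, S (S y) = y) (hSx : S x = x) (hx : x ∈ φ.source) (w : Cn n) :
    dC φ φ S x (dC φ φ S x w) = w := by
  have h1 := dC_comp hφ hφ hφ hS hS hx (show S x ∈ φ.source by rw [hSx]; exact hx)
    (show S (S x) ∈ φ.source by rw [hSS]; exact hx)
  have h0 : (fun x => S (S x)) = (fun x => x) := funext hSS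
  rw [h0, hSx] at h1
  have h2 := congrArg (fun L : Cn n →L[ℂ] Cn n => L w) h1
  change dC φ φ (fun x => x) x w = dC φ φ S x (dC φ φ S x w) at h2
  rw [← h2, dC_id hx]

/-- **limit criterion** -/
theorem reflAt_of_limit (hS : HolC C C S) (hSS : ∀ y, S (S y) = y) (hSx : S x = x)
    (hcl : x ∈ closure {y | S y = y ∧ ReflAt C S y}) : ReflAt C S x := by
  obtain ⟨i, hi⟩ := C.cover x
  have hφ := cpt_e (C := C) i
  refine reflAt_iff_isRefl.2 ⟨C.e i, hφ, hi, isRefl_of_trace (dC_invol hφ hS hSS hSx hi) ?_⟩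
  set T : Cn n → Cn n := fun z => C.e i (S ((C.e i).symm z)) with hT
  -- `T` is analytic near `e x`
  have hW : IsOpen ((C.e i).source ∩ S ⁻¹' (C.e i).source) :=
    (C.e i).open_source.inter ((C.e i).open_source.preimage hS.cont)
  have hTd : ∀ z ∈ (C.e i).target ∩ (C.e i).symm ⁻¹' ((C.e i).source ∩ S ⁻¹' (C.e i).source),
      DifferentiableAt ℂ T z := by
    rintro z ⟨hz1, hz2, hz3⟩
    have h1 := hφ.diffAt hφ hS hz2 hz3
    rwa [(C.e i).right_inv hz1] at h1
  have hO : IsOpen ((C.e i).target ∩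
      (C.e i).symm ⁻¹' ((C.e i).source ∩ S ⁻¹' (C.e i).source)) :=
    (C.e i).isOpen_inter_preimage_symm hW
  have hxO : C.e i x ∈ (C.e i).target ∩
      (C.e i).symm ⁻¹' ((C.e i).source ∩ S ⁻¹' (C.e i).source) := by
    refine ⟨(C.e i).map_source hi, ?_⟩
    rw [mem_preimage, (C.e i).left_inv hi]
    exact ⟨hi, by rw [mem_preimage, hSx]; exact hi⟩
  have hTan : AnalyticAt ℂ T (C.e i x) :=
    Crest.Agent.R266.SCV.analyticAt_of_eventually_differentiableAt
      (mem_of_superset (hO.mem_nhds hxO) hTd)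
  have hc : ContinuousAt (fun y => tr (fderiv ℂ T (C.e i y))) x := by
    have h1 : ContinuousAt (fun z => tr (fderiv ℂ T z)) (C.e i x) :=
      continuous_tr.continuousAt.comp hTan.fderiv.continuousAt
    exact h1.comp (f := C.e i) ((C.e i).continuousAt hi)
  -- the value at the nearby fixed points
  have hmem : ∃ᶠ y in 𝓝 x, tr (fderiv ℂ T (C.e i y)) = (n : ℂ) - 2 := by
    have h1 : ∃ᶠ y in 𝓝 x, S y = y ∧ ReflAt C S y := mem_closure_iff_frequently.1 hcl
    refine (h1.and_eventually ((C.e i).open_source.mem_nhds hi)).mono ?_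
    rintro y ⟨⟨hy1, hy2⟩, hy3⟩
    exact (hy2.chart hS hy1 hφ hy3).tr_eq
  by_contra hne
  have h2 : ∀ᶠ y in 𝓝 x, tr (fderiv ℂ T (C.e i y)) ≠ (n : ℂ) - 2 :=
    hc.eventually_ne hne
  exact hmem h2

end Refl

end

end Crest.Agent.R272.MQ_783
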