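import Crest.Agent.R272.Act1_302
import Crest.Agent.R272.Gr2_559
import Crest.Agent.R272.MQ2_783
import Crest.Agent.R272.HFam_342

/-!
# R272 (S0415), ACTION (helper302), part 2: tools

* `hC_lift`, `hC_prod`, `hC_two`, `hC_amb`, `hC_hmk` : pointwise holomorphy of maps into a
  submanifold, a product, `Fin 2 → Y`, `Amb N`, `P1`;
* `reflAt_of_LC` : a locally biholomorphic equivariant map transports `ReflAt`;
* `exists_sqrt_lim`, `exists_lift` : square roots along a filter, in `ℂ` and in `P1`;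
* `Mir` : the fixed points near a reflection: `Mir.rel`, `Mir.mem`, `Mir.nhds_le`.
-/

set_option autoImplicit false
set_option linter.unusedSectionVars false

open Set Filter Topology

namespace Crest.Agent.R272.Act_302

open Crest.Agent.R275.Geo Crest.Agent.R273.Fam_835 Crest.Agent.R272.Quot_783
  Crest.Agent.R272.Gr_559 Crest.Agent.R272.FamP_54 Crest.Agent.R272.P1A_54
  Crest.Agent.R272.Flat2_302 Crest.Agent.R272.Refl_246 Crest.Agent.R272.MQ_783
  Crest.Agent.R272.SubF_54 Crest.Agent.R272.HFam_342 Crest.Agent.R275.Prod363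
open Crest.Agent.R272.P1F_54 (nn hmk mulP mulP_ne mulP_hmk mulP_mulP mulP_one mulP_scale
  mulP_rel mulP_holC p1Fam ps pc hmk_smul hfa_pc_hmk hmk_mem_ps ps_cover)

noncomputable section

/-! ### pointwise holomorphy -/

section HCtools

variable {n m k l N : ℕ} {X Y Z P : Type} [TopologicalSpace X] [TopologicalSpace Y]
  [TopologicalSpace Z] [TopologicalSpace P] {E : Fam k P} {F : Fam N X} {G : Fam m Y}

/-- `HFA` into a chart gives `HC` -/
theorem hC_of_hfa {p : P → Y} {x : P} (hc : ContinuousAt p x) {j : G.ι}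
    (hj : p x ∈ (G.e j).source) (h : HFA E (fun y => G.e j (p y)) x) : HC E G p x := by
  obtain ⟨i, hi⟩ := E.cover x
  exact HC.of hc i j hi hj (h i hi)

theorem hfa_of_hC {p : P → Y} {x : P} (h : HC E G p x) {j : G.ι}
    (hj : p x ∈ (G.e j).source) : HFA E (fun y => G.e j (p y)) x :=
  fun i hi => h.2 i j hi hj

theorem hC_lift {S : Set X} (h : IsSl F S n) {f : P → S} {x : P}
    (hf : HC E F (fun y => (f y).1) x) : HC E (slFam h) f x := by
  have hfc : ContinuousAt f x := Topology.IsInducing.subtypeVal.continuousAt_iff.2 hf.1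
  obtain ⟨i, hi⟩ := E.cover x
  refine HC.of hfc i (f x) hi (h.mem_sl (f x)) ?_
  set c := h.sl (f x) with hc
  have hxd : (f x).1 ∈ c.dom := h.mem_sl (f x)
  have h1 : DifferentiableAt ℂ (fun z => F.e c.j ((f ((E.e i).symm z)).1)) (E.e i x) :=
    hf.2 i c.j hi hxd.1
  have e1 : F.e c.j ((f ((E.e i).symm (E.e i x))).1) = F.e c.j (f x).1 := by
    rw [(E.e i).left_inv hi]
  have h2 : DifferentiableAt ℂ c.ψ (F.e c.j (f x).1) :=
    c.dψ.differentiableAt (c.hV.mem_nhds hxd.2)
  exact DifferentiableAt.comp (E.e i x) (g := c.ψ) (by rw [e1]; exact h2) h1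

theorem hC_prod {f : P → X} {g : P → Y} {x : P} (hf : HC E F f x) (hg : HC E G g x) :
    HC E (prodFam F G) (fun y => (f y, g y)) x := by
  obtain ⟨i, hi⟩ := E.cover x
  obtain ⟨j, hj⟩ := F.cover (f x)
  obtain ⟨j', hj'⟩ := G.cover (g x)
  refine HC.of (hf.1.prodMk hg.1) i (j, j') hi ⟨hj, hj'⟩ ?_
  exact DifferentiableAt.comp (E.e i x) (g := appL N m) (appL N m).differentiableAt
    ((hf.2 i j hi hj).prodMk (hg.2 i j' hi hj'))

theorem hC_two {f : P → Fin 2 → Y} {x : P} (h : ∀ i, HC E G (fun y => f y i) x) :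
    HC E (twoFam G) f x := by
  have h1 := ((tranH_symm_hol (Homeomorph.finTwoArrow (X := Y)) (prodFam G G)).hC _).comp
    (hC_prod (h 0) (h 1))
  have h2 : (fun x => (Homeomorph.finTwoArrow (X := Y)).symm (f x 0, f x 1)) = f := by
    funext x
    exact (Homeomorph.finTwoArrow (X := Y)).symm_apply_apply (f x)
  rw [h2] at h1
  exact h1

theorem hC_amb {f : P → GData.Amb X} {x : P} (hz : HC E F (fun y => (f y).1) x)
    (ht : ∀ i, HC E p1Fam (fun y => (f y).2.1 i) x) (hv : HC E p1Fam (fun y => (f y).2.2.1) x)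
    (hk : ∀ i, HC E p1Fam (fun y => (f y).2.2.2 i) x) : HC E (ambFam F) f x :=
  hC_prod hz (hC_prod (hC_two ht) (hC_prod hv (hC_two hk)))

theorem hC_hmk {f g : P → ℂ} {x : P} (hf : HFA E f x) (hg : HFA E g x)
    (h0 : f x ≠ 0 ∨ g x ≠ 0) : HC E p1Fam (fun y => hmk (f y) (g y)) x := by
  obtain ⟨s, hs⟩ := ps_cover (hmk (f x) (g x))
  refine hC_of_hfa (P1F_54.ContinuousAt.hmk hf.continuousAt hg.continuousAt h0) (j := s) hs ?_
  exact HFA.comp_left (g := oneL) (f := fun y => pc s (hmk (f y) (g y))) oneL.differentiableAt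
    (hfa_pc_hmk hf hg s ((hmk_mem_ps h0 s).1 hs))

end HCtools

/-! ### reflections and local biholomorphisms -/

section LCtools

variable {X N : Type} [TopologicalSpace X] [TopologicalSpace N] {n : ℕ} {C : Fam n X}
  {F : Fam n N}

/-- a locally biholomorphic equivariant map transports `ReflAt` -/
theorem reflAt_of_LC {p : X → N} {S : X → X} {T : N → N} (hp : HolC C F p) (hS : HolC C C S)
    (hT : HolC F F T) {y : X} (hL : LC C F p y) (hpS : ∀ x, p (S x) = T (p x)) (hSy : S y = y)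
    (hr : ReflAt F T (p y)) : ReflAt C S y := by
  obtain ⟨i, hi⟩ := C.cover y
  obtain ⟨j, hj⟩ := F.cover (p y)
  have hTy : T (p y) = p y := by rw [← hpS, hSy]
  have cφ := cpt_e (C := C) i
  have cψ := cpt_e (C := F) j
  have h1 := hr.chart hT hTy cψ hj
  have hinj : Function.Injective (dC (C.e i) (F.e j) p y) := hL.2 i j hi hj
  let L : Cn n ≃L[ℂ] Cn n := (LinearEquiv.ofInjectiveEndo
    (dC (C.e i) (F.e j) p y).toLinearMap hinj).toContinuousLinearEquiv
  have hL1 : ∀ w, L w = dC (C.e i) (F.e j) p y w := fun w => rfl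
  have c1 := dC_comp cφ cφ cψ hS hp hi (show S y ∈ (C.e i).source by rw [hSy]; exact hi)
    (show p (S y) ∈ (F.e j).source by rw [hSy]; exact hj)
  have c2 := dC_comp cφ cψ cψ hp hT hi hj (show T (p y) ∈ (F.e j).source by rw [hTy]; exact hj)
  have e0 : (fun x => p (S x)) = fun x => T (p x) := funext hpS
  rw [hSy, e0] at c1
  rw [c1] at c2
  -- `L ∘ dS = dT ∘ L`
  have e1 : dC (C.e i) (C.e i) S y =
      (L.symm : Cn n →L[ℂ] Cn n).comp ((dC (F.e j) (F.e j) T (p y)).comp
        (L : Cn n →L[ℂ] Cn n)) := by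
    ext1 w
    have h2 := congrArg (fun M : Cn n →L[ℂ] Cn n => M w) c2
    change dC (C.e i) (F.e j) p y (dC (C.e i) (C.e i) S y w) =
      dC (F.e j) (F.e j) T (p y) (dC (C.e i) (F.e j) p y w) at h2
    rw [← hL1, ← hL1] at h2
    change dC (C.e i) (C.e i) S y w = L.symm (dC (F.e j) (F.e j) T (p y) (L w))
    rw [← h2, L.symm_apply_apply]
  refine reflAt_iff_isRefl.2 ⟨C.e i, cφ, hi, ?_⟩
  rw [e1]
  exact h1.conj (fun w => L.symm_apply_apply w) (fun w => L.apply_symm_apply w)

end LCtools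

/-! ### square roots -/

/-- a square root along a filter -/
theorem exists_sqrt_lim {ι : Type*} {l : Filter ι} {T : ι → ℂ} {c : ℂ}
    (h : Tendsto T l (𝓝 (c ^ 2))) : ∃ r : ι → ℂ, Tendsto r l (𝓝 c) ∧ ∀ i, r i ^ 2 = T i := by
  rcases eq_or_ne c 0 with rfl | hc
  · refine ⟨fun i => (T i) ^ (((2 : ℕ) : ℂ)⁻¹), ?_,
      fun i => Complex.cpow_nat_inv_pow _ two_ne_zero⟩
    rw [tendsto_zero_iff_norm_tendsto_zero]
    have h1 : Tendsto (fun i => Real.sqrt ‖T i‖) l (𝓝 0) := by
      have h2 : Tendsto (fun i => Real.sqrt ‖T i‖) l (𝓝 (Real.sqrt ‖((0 : ℂ) ^ 2)‖)) :=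
        (Real.continuous_sqrt.tendsto _).comp h.norm
      simpa using h2
    refine h1.congr fun i => ?_
    rw [Real.sqrt_eq_iff_mul_self_eq (norm_nonneg _) (norm_nonneg _), ← norm_mul, ← pow_two,
      Complex.cpow_nat_inv_pow _ two_ne_zero]
  · refine ⟨fun i => c * (T i / c ^ 2) ^ (((2 : ℕ) : ℂ)⁻¹), ?_, fun i => ?_⟩
    · have h1 : Tendsto (fun i => T i / c ^ 2) l (𝓝 1) := by
        have := h.div_const (c ^ 2)
        rwa [div_self (pow_ne_zero 2 hc)] at this
      have h2 : ContinuousAt (fun w : ℂ => w ^ (((2 : ℕ) : ℂ)⁻¹)) 1 :=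
        continuousAt_id.cpow continuousAt_const Complex.one_mem_slitPlane
      have h3 := (h2.tendsto.comp h1).const_mul c
      rw [Complex.one_cpow, mul_one] at h3
      exact h3
    · rw [mul_pow, Complex.cpow_nat_inv_pow _ two_ne_zero]
      field_simp

/-- a square root of `[a : b]` along a filter -/
theorem exists_lift {ι : Type*} {l : Filter ι} {a b : ι → ℂ} {a0 b0 : ℂ}
    (ha : Tendsto a l (𝓝 a0)) (hb : Tendsto b l (𝓝 b0)) (h0 : ¬ (a0 = 0 ∧ b0 = 0)) {k : P1}
    (hk : P1.n k ^ 2 * b0 = P1.d k ^ 2 * a0) :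
    ∃ κ : ι → P1, Tendsto κ l (𝓝 k) ∧ ∀ᶠ i in l, P1.n (κ i) ^ 2 * b i = P1.d (κ i) ^ 2 * a i := by
  induction k using OnePoint.rec with
  | infty =>
    have hb0 : b0 = 0 := by simpa using hk
    have ha0 : a0 ≠ 0 := fun h => h0 ⟨h, hb0⟩
    have h1 : Tendsto (fun i => b i / a i) l (𝓝 ((0 : ℂ) ^ 2)) := by
      have h2 : Tendsto (fun i => b i / a i) l (𝓝 (b0 / a0)) := hb.div ha ha0
      rw [hb0, zero_div] at h2
      rwa [zero_pow two_ne_zero]
    obtain ⟨r, hr, hr2⟩ := exists_sqrt_lim h1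
    refine ⟨fun i => hmk 1 (r i), ?_, ?_⟩
    · have h2 : ContinuousAt (fun c : ℂ => hmk 1 c) 0 :=
        P1F_54.ContinuousAt.hmk continuousAt_const continuousAt_id (Or.inl one_ne_zero)
      have h3 := h2.tendsto.comp hr
      rw [P1F_54.hmk_zero] at h3
      exact h3
    · filter_upwards [ha.eventually_ne ha0] with i hi
      obtain ⟨c, hc, h2, h3⟩ := P1F_54.hmk_rel (a := 1) (b := r i) (Or.inl one_ne_zero)
      rw [n_eq, d_eq]
      apply mul_left_cancel₀ (pow_ne_zero 2 hc)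
      have e1 : c ^ 2 * (nn (hmk 1 (r i)) ^ 2 * b i) = (c * nn (hmk 1 (r i))) ^ 2 * b i := by ring
      have e2 : c ^ 2 * (P1F_54.dd (hmk 1 (r i)) ^ 2 * a i) =
          (c * P1F_54.dd (hmk 1 (r i))) ^ 2 * a i := by ring
      rw [e1, e2, ← h2, ← h3, hr2]
      field_simp
  | coe c =>
    have hk' : c ^ 2 * b0 = a0 := by simpa using hk
    have hb0 : b0 ≠ 0 := by
      rintro rfl
      exact h0 ⟨by rw [← hk', mul_zero], rfl⟩
    have h1 : Tendsto (fun i => a i / b i) l (𝓝 (c ^ 2)) := by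
      have := ha.div hb hb0
      rwa [← hk', mul_div_assoc, div_self hb0, mul_one] at this
    obtain ⟨r, hr, hr2⟩ := exists_sqrt_lim h1
    refine ⟨fun i => (r i : P1), (OnePoint.continuous_coe.tendsto c).comp hr, ?_⟩
    filter_upwards [hb.eventually_ne hb0] with i hi
    rw [P1.n_coe, P1.d_coe, hr2]
    field_simp

/-! ### the mirror -/

section Mirror

variable {N : Type} [TopologicalSpace N] {n : ℕ} {F : Fam n N} {W : Type*}
  [NormedAddCommGroup W] [NormedSpace ℂ W]

/-- the differential in a compatible chart -/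
def dl (φ : OpenPartialHomeomorph N (Cn n)) (f : N → W) (z : N) : Cn n →L[ℂ] W :=
  fderiv ℂ (fun w => f (φ.symm w)) (φ z)

theorem hfa_cpt {φ : OpenPartialHomeomorph N (Cn n)} (hφ : Cpt F φ) {f : N → W} {u : N}
    (hf : HFA F f u) (hu : u ∈ φ.source) : DifferentiableAt ℂ (fun w => f (φ.symm w)) (φ u) := by
  obtain ⟨i, hi⟩ := F.cover u
  have h1 : DifferentiableAt ℂ (fun w => F.e i (φ.symm w)) (φ u) := by
    refine (hφ.hol i).differentiableAt ((φ.isOpen_inter_preimage_symm
      (F.e i).open_source).mem_nhds ⟨φ.map_source hu, ?_⟩)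
    rw [mem_preimage, φ.left_inv hu]
    exact hi
  have h2 : DifferentiableAt ℂ (fun z => f ((F.e i).symm z)) (F.e i (φ.symm (φ u))) := by
    rw [φ.left_inv hu]; exact hf i hi
  have h3 := DifferentiableAt.comp (φ u) (g := fun z => f ((F.e i).symm z)) h2 h1
  refine h3.congr_of_eventuallyEq ?_
  have h4 : ∀ᶠ w in 𝓝 (φ u), φ.symm w ∈ (F.e i).source := by
    refine (φ.continuousAt_symm (φ.map_source hu)).preimage_mem_nhds ?_
    rw [φ.left_inv hu]
    exact (F.e i).open_source.mem_nhds hi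
  filter_upwards [h4] with w hw
  simp only [Function.comp]
  rw [(F.e i).left_inv hw]

/-- change of chart for the differential -/
theorem dd_eq_dl {φ : OpenPartialHomeomorph N (Cn n)} (hφ : Cpt F φ) {f : N → ℂ} {u : N}
    (hf : HFA F f u) (hu : u ∈ φ.source) {i : F.ι} (hi : u ∈ (F.e i).source) (v : Cn n) :
    Gr_559.dd F i f u v = dl φ f u (dC (F.e i) φ (fun x => x) u v) := by
  have h1 : DifferentiableAt ℂ (fun z => φ ((F.e i).symm z)) (F.e i u) :=
    (cpt_e (C := F) i).diffAt hφ (HolC.id F) hi hu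
  have h2 : DifferentiableAt ℂ (fun w => f (φ.symm w)) (φ ((F.e i).symm (F.e i u))) := by
    rw [(F.e i).left_inv hi]; exact hfa_cpt hφ hf hu
  have h3 := fderiv_comp (F.e i u) (g := fun w => f (φ.symm w)) h2 h1
  have h4 : (fun z => f ((F.e i).symm z)) =ᶠ[𝓝 (F.e i u)]
      (fun w => f (φ.symm w)) ∘ (fun z => φ ((F.e i).symm z)) := by
    have h5 : ∀ᶠ z in 𝓝 (F.e i u), (F.e i).symm z ∈ φ.source := by
      refine ((F.e i).continuousAt_symm ((F.e i).map_source hi)).preimage_mem_nhds ?_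
      rw [(F.e i).left_inv hi]
      exact φ.open_source.mem_nhds hu
    filter_upwards [h5] with z hz
    simp only [Function.comp]
    rw [φ.left_inv hz]
  unfold Gr_559.dd dl dC
  rw [h4.fderiv_eq, h3, (F.e i).left_inv hi]
  rfl

/-- a chart in which `S` is the reflection in the coordinate `a` -/
structure Mir (F : Fam n N) (S : N → N) (z : N) where
  e : OpenPartialHomeomorph N (Cn n)
  cpt : Cpt F e
  mem : z ∈ e.source
  a : Fin n
  inv : ∀ u ∈ e.source, S u ∈ e.source
  ref : ∀ u ∈ e.source, e (S u) = rf a (e u)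
  fix : S z = z

theorem exists_mir {G : Type} [Group G] [MulAction G N] [ContinuousConstSMul G N] (hR : RA F G)
    {s : G} (hs : s ≠ 1) {z : N} (hz : s • z = z) : Nonempty (Mir F (fun u => s • u) z) := by
  obtain ⟨c, hc⟩ := hR.cov z
  rcases hk : c.k with _ | ⟨s', a⟩
  · exact absurd (c.free hk s z hc (by rw [hz]; exact hc)) hs
  · obtain rfl : s = s' := (c.two s' a hk s z hc (by rw [hz]; exact hc)).resolve_left hs
    exact ⟨⟨c.e, ⟨c.hol, c.holi⟩, hc, a, c.inv s a hk, c.ref s a hk, hz⟩⟩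

namespace Mir

variable {S : N → N} {z : N} (m : Mir F S z)

/-- the projection to the mirror in the chart -/
def pj (a : Fin n) : Cn n →L[ℂ] Cn n :=
  ContinuousLinearMap.id ℂ (Cn n) -
    (EuclideanSpace.proj a : Cn n →L[ℂ] ℂ).smulRight (EuclideanSpace.single a (1 : ℂ))

theorem pj_apply (a : Fin n) (w : Cn n) : pj a w = w - w a • EuclideanSpace.single a (1 : ℂ) := rfl

theorem pj_same (a : Fin n) (w : Cn n) : pj a w a = 0 := by
  rw [pj_apply]
  simp

theorem pj_of (a : Fin n) {w : Cn n} (h : w a = 0) : pj a w = w := by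
  rw [pj_apply, h, zero_smul, sub_zero]

theorem fix_iff {u : N} (hu : u ∈ m.e.source) : S u = u ↔ m.e u m.a = 0 := by
  constructor
  · intro h
    have h1 := m.ref u hu
    rw [h] at h1
    have h2 := congrArg (fun w : Cn n => w m.a) h1
    simp only [rf_same] at h2
    linear_combination (1 / 2 : ℂ) * h2
  · intro h
    refine m.e.injOn (m.inv u hu) hu ?_
    rw [m.ref u hu]
    have h1 : rf m.a (m.e u) = up m.a (m.e u m.a) (m.e u) := by
      rw [rf, h, neg_zero]
    rw [h1, up_self]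

theorem ez : m.e z m.a = 0 := (m.fix_iff m.mem).1 m.fix

/-- the parametrisation of the mirror tends to `z` -/
theorem tendsto_param : Tendsto (fun w => m.e.symm (pj m.a w)) (𝓝 (m.e z))
    (𝓝[{u | S u = u}] z) := by
  have e1 : pj m.a (m.e z) = m.e z := pj_of m.a m.ez
  have h1 : ContinuousAt (fun w => m.e.symm (pj m.a w)) (m.e z) := by
    refine ContinuousAt.comp (g := m.e.symm) ?_ (pj m.a).continuous.continuousAt
    rw [e1]
    exact m.e.continuousAt_symm (m.e.map_source m.mem)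
  have h2 : Tendsto (fun w => m.e.symm (pj m.a w)) (𝓝 (m.e z)) (𝓝 z) := by
    have h3 := h1.tendsto
    rwa [e1, m.e.left_inv m.mem] at h3
  refine tendsto_nhdsWithin_iff.2 ⟨h2, ?_⟩
  have h4 : ∀ᶠ w in 𝓝 (m.e z), pj m.a w ∈ m.e.target := by
    refine (pj m.a).continuous.continuousAt.preimage_mem_nhds ?_
    rw [e1]
    exact m.e.open_target.mem_nhds (m.e.map_source m.mem)
  filter_upwards [h4] with w hw
  show S _ = _
  rw [m.fix_iff (m.e.map_target hw), m.e.right_inv hw, pj_same]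

/-- a relation `f = a g` on the mirror gives a relation of the differentials -/
theorem rel {f g b : N → ℂ} (hf : HFA F f z) (hg : HFA F g z) (hb : HFA F b z)
    (h : ∀ u, S u = u → f u = b u * g u) (h0 : g z = 0) {v : Cn n} (hv : v m.a = 0) :
    dl m.e f z v = b z * dl m.e g z v := by
  have e1 : pj m.a (m.e z) = m.e z := pj_of m.a m.ez
  have d1 : HasFDerivAt (fun w => f (m.e.symm w)) (dl m.e f z) (m.e z) :=
    (hfa_cpt m.cpt hf m.mem).hasFDerivAt
  have d2 : HasFDerivAt (fun w => g (m.e.symm w)) (dl m.e g z) (m.e z) :=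
    (hfa_cpt m.cpt hg m.mem).hasFDerivAt
  have d3 : HasFDerivAt (fun w => b (m.e.symm w)) (dl m.e b z) (m.e z) :=
    (hfa_cpt m.cpt hb m.mem).hasFDerivAt
  have d4 := d3.mul d2
  have dp : HasFDerivAt (fun w => pj m.a w) (pj m.a) (m.e z) := (pj m.a).hasFDerivAt
  have c1 : HasFDerivAt (fun w => f (m.e.symm (pj m.a w))) ((dl m.e f z).comp (pj m.a)) (m.e z) :=
    HasFDerivAt.comp (m.e z) (g := fun w => f (m.e.symm w)) (by rw [e1]; exact d1) dp
  have c2 := HasFDerivAt.comp (m.e z) (g := fun w => b (m.e.symm w) * g (m.e.symm w))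
    (f := fun w => pj m.a w) (by rw [e1]; exact d4) dp
  have h5 : (fun w => f (m.e.symm (pj m.a w))) =ᶠ[𝓝 (m.e z)]
      (fun w => b (m.e.symm w) * g (m.e.symm w)) ∘ fun w => pj m.a w := by
    have h6 := (tendsto_nhdsWithin_iff.1 m.tendsto_param).2
    filter_upwards [h6] with w hw
    exact h _ hw
  have h7 := (c1.congr_of_eventuallyEq h5.symm).unique c2
  have h8 := congrArg (fun L : Cn n →L[ℂ] ℂ => L v) h7
  change dl m.e f z (pj m.a v) = _ at h8
  rw [pj_of m.a hv] at h8
  rw [h8]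
  change (b (m.e.symm (m.e z)) • dl m.e g z + g (m.e.symm (m.e z)) • dl m.e b z) (pj m.a v) = _
  rw [m.e.left_inv m.mem, h0, zero_smul, add_zero, pj_of m.a hv]
  rfl

/-- directions satisfying the relation lie in the mirror -/
theorem mem_of {f g : N → ℂ} {κ : ℂ}
    (h : ∀ v : Cn n, v m.a = 0 → dl m.e f z v = κ * dl m.e g z v)
    (h1 : ∃ v, dl m.e f z v ≠ κ * dl m.e g z v) {v : Cn n}
    (hv : dl m.e f z v = κ * dl m.e g z v) : v m.a = 0 := by
  have key : ∀ w : Cn n, dl m.e f z w - κ * dl m.e g z w =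
      w m.a * (dl m.e f z (EuclideanSpace.single m.a 1) -
        κ * dl m.e g z (EuclideanSpace.single m.a 1)) := by
    intro w
    have h2 := h (pj m.a w) (pj_same m.a w)
    have h3 : w = pj m.a w + w m.a • EuclideanSpace.single m.a (1 : ℂ) := by
      rw [pj_apply]; abel
    have h4 : dl m.e f z w = dl m.e f z (pj m.a w) +
        w m.a * dl m.e f z (EuclideanSpace.single m.a 1) := by
      conv_lhs => rw [h3]
      rw [map_add, map_smul, smul_eq_mul]
    have h5 : dl m.e g z w = dl m.e g z (pj m.a w) +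
        w m.a * dl m.e g z (EuclideanSpace.single m.a 1) := by
      conv_lhs => rw [h3]
      rw [map_add, map_smul, smul_eq_mul]
    rw [h4, h5, h2]
    ring
  obtain ⟨w, hw⟩ := h1
  have h6 := key v
  rw [hv, sub_self] at h6
  refine (mul_eq_zero.1 h6.symm).resolve_right fun h7 => hw ?_
  have h8 := key w
  rw [h7, mul_zero] at h8
  exact sub_eq_zero.1 h8

/-- a function whose differential is onto on the mirror is open on the mirror -/
theorem nhds_le [CompleteSpace W] [FiniteDimensional ℂ W] {g : N → W} (hg : HF F univ g)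
    (hs : ∀ w : W, ∃ v : Cn n, v m.a = 0 ∧ dl m.e g z v = w) :
    𝓝 (g z) ≤ map g (𝓝[{u | S u = u}] z) := by
  have e1 : pj m.a (m.e z) = m.e z := pj_of m.a m.ez
  have hd : ∀ᶠ w in 𝓝 (m.e z), DifferentiableAt ℂ (fun w => g (m.e.symm w)) w := by
    filter_upwards [m.e.open_target.mem_nhds (m.e.map_source m.mem)] with w hw
    have h1 := hfa_cpt m.cpt (hg (m.e.symm w) trivial) (m.e.map_target hw)
    rwa [m.e.right_inv hw] at h1
  have hd' : ∀ᶠ w in 𝓝 (m.e z), DifferentiableAt ℂ (fun w => g (m.e.symm (pj m.a w))) w := by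
    have h1 : ∀ᶠ w in 𝓝 (m.e z), DifferentiableAt ℂ (fun w => g (m.e.symm w)) (pj m.a w) := by
      have h2 : Tendsto (pj m.a) (𝓝 (m.e z)) (𝓝 (m.e z)) := by
        have := (pj m.a).continuous.tendsto (m.e z)
        rwa [e1] at this
      exact h2.eventually hd
    filter_upwards [h1] with w hw
    exact DifferentiableAt.comp w (g := fun w => g (m.e.symm w)) hw (pj m.a).differentiableAt
  have han : AnalyticAt ℂ (fun w => g (m.e.symm (pj m.a w))) (m.e z) :=
    Crest.Agent.R266.SCV.analyticAt_of_eventually_differentiableAt hd'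
  have hst := han.hasStrictFDerivAt
  have hfd : fderiv ℂ (fun w => g (m.e.symm (pj m.a w))) (m.e z) =
      (dl m.e g z).comp (pj m.a) := by
    have d1 : HasFDerivAt (fun w => g (m.e.symm w)) (dl m.e g z) (m.e z) :=
      hd.self_of_nhds.hasFDerivAt
    exact (HasFDerivAt.comp (m.e z) (g := fun w => g (m.e.symm w))
      (by rw [e1]; exact d1) (pj m.a).hasFDerivAt).fderiv
  have hsurj : (fderiv ℂ (fun w => g (m.e.symm (pj m.a w))) (m.e z)).range = ⊤ := by
    rw [LinearMap.range_eq_top, hfd]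
    intro w
    obtain ⟨v, hv, hvw⟩ := hs w
    refine ⟨v, ?_⟩
    show dl m.e g z (pj m.a v) = w
    rw [pj_of m.a hv, hvw]
  have h1 := hst.map_nhds_eq_of_surj hsurj
  have e2 : g (m.e.symm (pj m.a (m.e z))) = g z := by rw [e1, m.e.left_inv m.mem]
  simp only [e2] at h1
  rw [← h1]
  have h2 : map (fun w => g (m.e.symm (pj m.a w))) (𝓝 (m.e z)) =
      map g (map (fun w => m.e.symm (pj m.a w)) (𝓝 (m.e z))) := by
    rw [map_map]; rfl
  rw [h2]
  exact map_mono m.tendsto_param

end Mir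

end Mirror

/-- lifting a curve through an open map -/
theorem neBot_lift {N E W : Type*} {l : Filter N} {l' : Filter E} [l'.NeBot] [TopologicalSpace W]
    {g : N → W} {w : W} (h : 𝓝 w ≤ map g l) {γ : E → W} (hγ : Tendsto γ l' (𝓝 w)) :
    ((l ×ˢ l') ⊓ 𝓟 {p : N × E | g p.1 = γ p.2}).NeBot := by
  rw [← frequently_mem_iff_neBot]
  intro hcon
  obtain ⟨s, hs, t, ht, hst⟩ := mem_prod_iff.1 hcon
  have h1 : g '' s ∈ 𝓝 w := h (image_mem_map hs)
  have h2 : γ ⁻¹' (g '' s) ∈ l' := hγ h1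
  obtain ⟨e, he1, he2⟩ := Filter.nonempty_of_mem (inter_mem h2 ht)
  obtain ⟨u, hu, hue⟩ := he1
  exact hst (show (u, e) ∈ s ×ˢ t from ⟨hu, he2⟩) hue

end

end Crest.Agent.R272.Act_302
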