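import Crest.Agent.R272.Act2_302

/-!
# R272 (S0415), ACTION (helper302), part 3: the stabilisers on `X1`

* `lc_pz`      : `X1 → N` is locally biholomorphic at the unramified points;
* `GAct.ra`    : `RA F G` on the base gives `RA (A.fam h) G` on `X1`, if every element with a fixed
                 point in `N` exchanges the two colours.
-/

set_option autoImplicit false
set_option linter.unusedSectionVars false

open Set Filter Topology

namespace Crest.Agent.R272.Act_302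

open Crest.Agent.R275.Geo Crest.Agent.R273.Fam_835 Crest.Agent.R272.Quot_783
  Crest.Agent.R272.Gr_559 Crest.Agent.R272.FamP_54 Crest.Agent.R272.P1A_54
  Crest.Agent.R272.Flat2_302 Crest.Agent.R272.Refl_246 Crest.Agent.R272.MQ_783
  Crest.Agent.R272.SubF_54 Crest.Agent.R272.HFam_342 Crest.Agent.R275.Prod363
open Crest.Agent.R272.P1F_54 (nn hmk mulP mulP_ne mulP_hmk mulP_mulP mulP_one mulP_scale
  mulP_rel mulP_holC p1Fam ps pc hmk_smul hfa_pc_hmk hmk_mem_ps ps_cover hmk_iff hmk_rel)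

noncomputable section

variable {N : Type} [TopologicalSpace N] {F : Fam 3 N}

/-- a holomorphic square root of `P / Q` -/
theorem exists_hroot {P Q : N → ℂ} {z : N} (hP : HFA F P z) (hQ : HFA F Q z) (hP0 : P z ≠ 0)
    (hQ0 : Q z ≠ 0) {c : ℂ} (hc : c ^ 2 * Q z = P z) :
    ∃ r : N → ℂ, HFA F r z ∧ r z = c ∧ ∀ u, Q u ≠ 0 → r u ^ 2 * Q u = P u := by
  have hc0 : c ≠ 0 := by
    rintro rfl
    exact hP0 (by rw [← hc]; ring)
  refine ⟨fun u => c * (P u * Q z / (Q u * P z)) ^ (((2 : ℕ) : ℂ)⁻¹), ?_, ?_, fun u hu => ?_⟩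
  · have h1 : HFA F (fun u => P u * Q z / (Q u * P z)) z :=
      (hP.mul (HFA.const _ _)).div (hQ.mul (HFA.const _ _)) (mul_ne_zero hQ0 hP0)
    have h2 : P z * Q z / (Q z * P z) = 1 := by field_simp
    have h3 : DifferentiableAt ℂ (fun w : ℂ => w ^ (((2 : ℕ) : ℂ)⁻¹))
        (P z * Q z / (Q z * P z)) := by
      rw [h2]
      exact (differentiableAt_id).cpow_const Complex.one_mem_slitPlane
    exact (HFA.const _ _).mul (HFA.comp_left (f := fun u => P u * Q z / (Q u * P z))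
      (g := fun w : ℂ => w ^ (((2 : ℕ) : ℂ)⁻¹)) h3 h1)
  · have h2 : P z * Q z / (Q z * P z) = 1 := by field_simp
    simp only [h2, Complex.one_cpow, mul_one]
  · rw [mul_pow, Complex.cpow_nat_inv_pow _ two_ne_zero]
    have h3 : c ^ 2 * Q z / P z = 1 := by rw [hc, div_self hP0]
    field_simp
    linear_combination P u * hc

namespace GAct

variable {D : GData F} {G : Type} [Group G] [MulAction G N] (A : GAct D G)
variable (h : IsSl (ambFam F) D.X1 3)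

theorem continuous_t (i : Fin 2) : Continuous (fun y : A.X => D.t i y) := by
  have h1 : Continuous fun p : GData.Amb N => p.2.1 i := by fun_prop
  exact h1.comp A.continuous_val

theorem continuous_v : Continuous (fun y : A.X => D.v y) := by
  have h1 : Continuous fun p : GData.Amb N => p.2.2.1 := by fun_prop
  exact h1.comp A.continuous_val

theorem continuous_k (i : Fin 2) : Continuous (fun y : A.X => D.k i y) := by
  have h1 : Continuous fun p : GData.Amb N => p.2.2.2 i := by fun_prop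
  exact h1.comp A.continuous_val

/-- the coordinates of a point of `X1` over a regular point of the base -/
theorem t_eq (y : A.X) {i : Fin 2} (h0 : ¬ (D.f0 (A.pz y) = 0 ∧ D.x i (A.pz y) = 0)) :
    D.t i y = hmk (D.x i (A.pz y)) (D.f0 (A.pz y)) := by
  have h1 := Y_rel D ((A.val_mem y).1 i)
  exact (hmk_iff (by tauto) _).1 h1

theorem k_sq (y : A.X) (i : Fin 2) : nn (D.k i y) ^ 2 * D.Q i (A.pz y) =
    P1F_54.dd (D.k i y) ^ 2 * D.P i (A.pz y) := by
  have h1 := Y_sq D ((A.val_mem y).1 i)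
  have h2 : P1.n (D.k i y) ^ 2 * D.Q i (A.pz y) = P1.d (D.k i y) ^ 2 * D.P i (A.pz y) := h1
  exact h2

theorem v_eq (y : A.X) (h0 : ∀ i, ¬ (D.f0 (A.pz y) = 0 ∧ D.x i (A.pz y) = 0)) :
    D.v y = hmk (D.x 0 (A.pz y) * D.x 1 (A.pz y)) (D.f0 (A.pz y)) := by
  have h1 := A.t_eq y (h0 0)
  have h2 : nn (D.v y) * P1F_54.dd (D.t 0 y) =
      P1F_54.dd (D.v y) * nn (D.t 0 y) * D.x 1 (A.pz y) := (A.val_mem y).2.1
  have h3 : D.x 0 (A.pz y) * D.x 1 (A.pz y) ≠ 0 ∨ D.f0 (A.pz y) ≠ 0 := by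
    by_cases hf : D.f0 (A.pz y) = 0
    · left
      exact mul_ne_zero (fun h => h0 0 ⟨hf, h⟩) (fun h => h0 1 ⟨hf, h⟩)
    · exact Or.inr hf
  refine (hmk_iff h3 _).1 ?_
  have h4 : D.x 0 (A.pz y) ≠ 0 ∨ D.f0 (A.pz y) ≠ 0 := by have := h0 0; tauto
  obtain ⟨c, hc, h5, h6⟩ := hmk_rel h4
  rw [← h1] at h5 h6
  calc D.x 0 (A.pz y) * D.x 1 (A.pz y) * P1F_54.dd (D.v y)
      = c * (P1F_54.dd (D.v y) * nn (D.t 0 y) * D.x 1 (A.pz y)) := by rw [h5]; ring
    _ = (c * P1F_54.dd (D.t 0 y)) * nn (D.v y) := by rw [← h2]; ring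
    _ = D.f0 (A.pz y) * nn (D.v y) := by rw [← h6]

/-- `X1 → N` is locally biholomorphic at the unramified points -/
theorem lc_pz {y : A.X} (h0 : ∀ i, ¬ (D.f0 (A.pz y) = 0 ∧ D.x i (A.pz y) = 0))
    (hP : ∀ i, D.P i (A.pz y) ≠ 0) (hQ : ∀ i, D.Q i (A.pz y) ≠ 0) :
    LC (A.fam h) F A.pz y := by
  set z := A.pz y with hz
  have aF : HFA F D.f0 z := hf_of D.f0_hol z trivial
  have aX : ∀ i, HFA F (D.x i) z := fun i => hf_of (D.x_hol i) z trivial
  have aP : ∀ i, HFA F (D.P i) z := fun i => hf_of (D.P_hol i) z trivial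
  have aQ : ∀ i, HFA F (D.Q i) z := fun i => hf_of (D.Q_hol i) z trivial
  -- the values of `k`
  have hk : ∀ i, ∃ c : ℂ, D.k i y = (c : P1) ∧ c ^ 2 * D.Q i z = D.P i z := by
    intro i
    have h1 : nn (D.k i y) ^ 2 * D.Q i z = P1F_54.dd (D.k i y) ^ 2 * D.P i z := A.k_sq y i
    rcases P1F_54.p1_cases (D.k i y) with h2 | ⟨c, h2⟩
    · rw [h2, P1F_54.nn_infty, P1F_54.dd_infty, one_pow, one_mul, zero_pow two_ne_zero,
        zero_mul] at h1
      exact absurd h1 (hQ i)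
    · refine ⟨c, h2, ?_⟩
      rw [h2, P1F_54.nn_coe, P1F_54.dd_coe, one_pow, one_mul] at h1
      exact h1
  choose c hkc hc using hk
  have hc0 : ∀ i, c i ≠ 0 := by
    intro i h1
    have := hc i
    rw [h1] at this
    exact hP i (by rw [← this]; ring)
  choose r hr hrz hr2 using fun i => exists_hroot (aP i) (aQ i) (hP i) (hQ i) (hc i)
  -- the section
  let w : N → GData.Amb N := fun u => (u, fun i => hmk (D.x i u) (D.f0 u),
    hmk (D.x 0 u * D.x 1 u) (D.f0 u), fun i => hmk (r i u) 1)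
  have hreg : ∀ᶠ u in 𝓝 z, ∀ i, ¬ (D.f0 u = 0 ∧ D.x i u = 0) := by
    rw [eventually_all]
    intro i
    by_cases hf : D.f0 z = 0
    · have hx : D.x i z ≠ 0 := fun h => h0 i ⟨hf, h⟩
      filter_upwards [(D.continuous_x i).continuousAt.eventually_ne hx] with u hu h1
      exact hu h1.2
    · filter_upwards [D.continuous_f0.continuousAt.eventually_ne hf] with u hu h1
      exact hu h1.1
  have hQe : ∀ᶠ u in 𝓝 z, ∀ i, D.Q i u ≠ 0 := by
    rw [eventually_all]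
    intro i
    exact (D.continuous_Q i).continuousAt.eventually_ne (hQ i)
  have hv0 : ∀ u, (∀ i, ¬ (D.f0 u = 0 ∧ D.x i u = 0)) →
      (D.x 0 u * D.x 1 u ≠ 0 ∨ D.f0 u ≠ 0) := by
    intro u hu
    by_cases hf : D.f0 u = 0
    · left
      exact mul_ne_zero (fun h => hu 0 ⟨hf, h⟩) (fun h => hu 1 ⟨hf, h⟩)
    · exact Or.inr hf
  have hw : ∀ᶠ u in 𝓝 z, w u ∈ D.X1 := by
    filter_upwards [hreg, hQe] with u hu hQu
    have ht : ∀ i, D.x i u * P1F_54.dd (hmk (D.x i u) (D.f0 u)) =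
        D.f0 u * nn (hmk (D.x i u) (D.f0 u)) := by
      intro i
      have hi : D.x i u ≠ 0 ∨ D.f0 u ≠ 0 := by have := hu i; tauto
      exact (hmk_iff hi _).2 rfl
    obtain ⟨e, he, hv1, hv2⟩ := hmk_rel (hv0 u hu)
    refine ⟨fun i => ?_, ?_, ?_⟩
    · refine (Y_reg D (hu i) _ _).2 ⟨ht i, ?_⟩
      show nn (hmk (r i u) 1) ^ 2 * D.Q i u = P1F_54.dd (hmk (r i u) 1) ^ 2 * D.P i u
      rw [P1F_54.hmk_one, P1F_54.nn_coe, P1F_54.dd_coe, hr2 i u (hQu i)]
      ring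
    · show nn (hmk (D.x 0 u * D.x 1 u) (D.f0 u)) * P1F_54.dd (hmk (D.x 0 u) (D.f0 u)) =
        P1F_54.dd (hmk (D.x 0 u * D.x 1 u) (D.f0 u)) * nn (hmk (D.x 0 u) (D.f0 u)) * D.x 1 u
      apply mul_left_cancel₀ he
      linear_combination D.x 1 u * ht 0 - P1F_54.dd (hmk (D.x 0 u) (D.f0 u)) * hv1 +
        D.x 1 u * nn (hmk (D.x 0 u) (D.f0 u)) * hv2
    · show nn (hmk (D.x 0 u * D.x 1 u) (D.f0 u)) * P1F_54.dd (hmk (D.x 1 u) (D.f0 u)) =
        P1F_54.dd (hmk (D.x 0 u * D.x 1 u) (D.f0 u)) * nn (hmk (D.x 1 u) (D.f0 u)) * D.x 0 u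
      apply mul_left_cancel₀ he
      linear_combination D.x 0 u * ht 1 - P1F_54.dd (hmk (D.x 1 u) (D.f0 u)) * hv1 +
        D.x 0 u * nn (hmk (D.x 1 u) (D.f0 u)) * hv2
  classical
  let q : N → A.X := fun u => if hu : w u ∈ D.X1 then ⟨w u, hu⟩ else y
  have hqd : ∀ u, w u ∈ D.X1 → A.val (q u) = w u := by
    intro u hu
    have h1 : q u = ⟨w u, hu⟩ := dif_pos hu
    rw [h1]
    rfl
  have hqv : ∀ᶠ u in 𝓝 z, w u = A.val (q u) := by
    filter_upwards [hw] with u hu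
    exact (hqd u hu).symm
  have hwz : HC F (ambFam F) w z := by
    refine hC_amb hC_id (fun i => ?_) ?_ (fun i => ?_)
    · exact hC_hmk (aX i) aF (by have := h0 i; tauto)
    · exact hC_hmk ((aX 0).mul (aX 1)) aF (hv0 z h0)
    · exact hC_hmk (hr i) (HFA.const _ _) (Or.inr one_ne_zero)
  have hq : HC F (A.fam h) q (A.pz y) := hC_lift h (hwz.congr hqv)
  refine LC.of_left_inverse ((A.holC_pz h).hC y) hq ?_
  have cz : Tendsto A.pz (𝓝 y) (𝓝 z) := A.continuous_pz.continuousAt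
  -- near `y` the coordinates `k i` are the chosen roots
  have hkr : ∀ᶠ x in 𝓝 y, ∀ i, D.k i x = hmk (r i (A.pz x)) 1 := by
    rw [eventually_all]
    intro i
    have h1 : ContinuousAt (fun x : A.X => pc false (D.k i x)) y := by
      refine ContinuousAt.comp (g := pc false) (P1F_54.continuousAt_pc (s := false) ?_)
        (A.continuous_k i).continuousAt
      rw [hkc i]
      exact P1F_54.coe_mem_ps_false _
    have h2 : ContinuousAt (fun x : A.X => r i (A.pz x)) y :=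
      ContinuousAt.comp (g := r i) (hr i).continuousAt cz
    have h3 : ∀ᶠ x in 𝓝 y, pc false (D.k i x) + r i (A.pz x) ≠ 0 := by
      refine (h1.add h2).eventually_ne ?_
      show pc false (D.k i y) + r i z ≠ 0
      rw [hkc i, P1F_54.pc_false_coe, hrz i]
      intro h4
      exact hc0 i (by linear_combination (1 / 2 : ℂ) * h4)
    have h4 : ∀ᶠ x : A.X in 𝓝 y, D.k i x ∈ ps false := by
      refine (A.continuous_k i).continuousAt.preimage_mem_nhds ((P1F_54.isOpen_ps _).mem_nhds ?_)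
      rw [hkc i]
      exact P1F_54.coe_mem_ps_false _
    filter_upwards [h3, h4, cz.eventually hQe] with x hx3 hx4 hx5
    obtain ⟨d, hd⟩ := OnePoint.ne_infty_iff_exists.1 (P1F_54.mem_ps_false.1 hx4)
    have h5 := A.k_sq x i
    rw [← hd] at h5 hx3
    rw [P1F_54.pc_false_coe] at hx3
    rw [P1F_54.nn_coe, P1F_54.dd_coe, ← hr2 i _ (hx5 i)] at h5
    have h6 : (d + r i (A.pz x)) * (d - r i (A.pz x)) = 0 := by
      apply mul_right_cancel₀ (hx5 i)
      linear_combination h5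
    have h7 := (mul_eq_zero.1 h6).resolve_left hx3
    rw [P1F_54.hmk_one, ← hd, sub_eq_zero.1 h7]
  filter_upwards [cz.eventually hreg, cz.eventually hw, hkr] with x hx1 hx2 hx3
  refine A.val_injective ?_
  rw [hqd _ hx2]
  refine Prod.ext rfl (Prod.ext (funext fun i => ?_) (Prod.ext ?_ (funext fun i => ?_)))
  · exact (A.t_eq x (hx1 i)).symm
  · exact (A.v_eq x hx1).symm
  · exact (hx3 i).symm

/-! ### fixed points -/

section Fixed

variable {s : G} (hσ : A.σ s = Equiv.swap 0 1)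

include hσ

theorem σ0 : A.σ s 0 = 1 := by rw [hσ]; rfl

theorem σ1 : A.σ s 1 = 0 := by rw [hσ]; rfl

theorem x1_fix {z : N} (hz : s • z = z) : D.x 1 z = A.j s 0 z * D.x 0 z := by
  have h1 := A.x_smul s 0 z
  rwa [A.σ0 hσ, hz] at h1

theorem x0_fix {z : N} (hz : s • z = z) : D.x 0 z = A.j s 1 z * D.x 1 z := by
  have h1 := A.x_smul s 1 z
  rwa [A.σ1 hσ, hz] at h1

omit hσ in
theorem f0_fix {z : N} (hz : s • z = z) : D.f0 z = A.j0 s z * D.f0 z := by
  have h1 := A.f0_smul s z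
  rwa [hz] at h1

theorem P1_fix {z : N} (hz : s • z = z) : D.P 1 z = A.p s 0 z ^ 2 * D.P 0 z := by
  have h1 := A.P_smul s 0 z
  rwa [A.σ0 hσ, hz] at h1

theorem Q1_fix {z : N} (hz : s • z = z) : D.Q 1 z = A.q s 0 z ^ 2 * D.Q 0 z := by
  have h1 := A.Q_smul s 0 z
  rwa [A.σ0 hσ, hz] at h1

theorem reg1_fix {z : N} (hz : s • z = z) (h0 : ¬ (D.f0 z = 0 ∧ D.x 0 z = 0)) :
    ∀ i, ¬ (D.f0 z = 0 ∧ D.x i z = 0) := by
  intro i
  fin_cases i
  · exact h0
  · rintro ⟨h1, h2⟩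
    refine h0 ⟨h1, ?_⟩
    have h3 := A.x0_fix hσ hz
    have h4 : D.x 1 z = 0 := h2
    rw [h3, h4, mul_zero]

omit hσ in
/-- the point of the ambient space over `(ζ, τ, κ)` -/
def W (s : G) (y : N × P1 × P1) (ν : P1) : GData.Amb N :=
  (y.1, ![y.2.1, (A.actY s 0 y).2.1], ν, ![y.2.2, (A.actY s 0 y).2.2])

omit hσ in
theorem continuous_W (s : G) : Continuous fun p : (N × P1 × P1) × P1 => A.W s p.1 p.2 := by
  have h1 : Continuous fun p : (N × P1 × P1) × P1 => A.actY s 0 p.1 :=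
    (A.continuous_actY s 0).comp continuous_fst
  have h2 : Continuous fun p : (N × P1 × P1) × P1 =>
      (![p.1.2.1, (A.actY s 0 p.1).2.1] : Fin 2 → P1) := by
    refine continuous_pi fun i => ?_
    fin_cases i
    · exact (continuous_fst.comp continuous_snd).comp continuous_fst
    · exact (continuous_fst.comp continuous_snd).comp h1
  have h3 : Continuous fun p : (N × P1 × P1) × P1 =>
      (![p.1.2.2, (A.actY s 0 p.1).2.2] : Fin 2 → P1) := by
    refine continuous_pi fun i => ?_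
    fin_cases i
    · exact (continuous_snd.comp continuous_snd).comp continuous_fst
    · exact (continuous_snd.comp continuous_snd).comp h1
  exact (continuous_fst.comp continuous_fst).prodMk (h2.prodMk (continuous_snd.prodMk h3))

/-- a fixed point is determined by `z, t 0, k 0, v` -/
theorem val_fix {y : A.X} (hy : s • y = y) :
    A.val y = A.W s (A.pz y, D.t 0 y, D.k 0 y) (D.v y) := by
  have h1 := A.t_smul s y 0
  have h2 := A.k_smul s y 0
  rw [A.σ0 hσ, hy] at h1 h2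
  refine Prod.ext rfl (Prod.ext (funext fun i => ?_) (Prod.ext rfl (funext fun i => ?_)))
  · fin_cases i
    · rfl
    · exact h1
  · fin_cases i
    · rfl
    · exact h2

variable (hs2 : s * s = 1)

include hs2

theorem jj {z : N} (hz : s • z = z) : A.j s 1 z * A.j s 0 z = 1 := by
  have h1 := A.j_mul s s 0 z
  rw [hs2, A.j_one, A.σ0 hσ, hz] at h1
  exact h1.symm

theorem pp {z : N} (hz : s • z = z) : A.p s 1 z * A.p s 0 z = 1 := by
  have h1 := A.p_mul s s 0 z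
  rw [hs2, A.p_one, A.σ0 hσ, hz] at h1
  exact h1.symm

theorem qq {z : N} (hz : s • z = z) : A.q s 1 z * A.q s 0 z = 1 := by
  have h1 := A.q_mul s s 0 z
  rw [hs2, A.q_one, A.σ0 hσ, hz] at h1
  exact h1.symm

omit hσ in
theorem j0j0 {z : N} (hz : s • z = z) : A.j0 s z * A.j0 s z = 1 := by
  have h1 := A.j0_mul s s z
  rw [hs2, A.j0_one, hz] at h1
  exact h1.symm

/-- **points of `X1` over the mirror** -/
theorem exists_fix {ζ : N} {τ κ ν : P1} (hz : s • ζ = ζ) (h0 : ¬ (D.f0 ζ = 0 ∧ D.x 0 ζ = 0))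
    (hY : (ζ, τ, κ) ∈ D.Y 0) (hν : ν = hmk (D.x 0 ζ * D.x 1 ζ) (D.f0 ζ)) :
    ∃ y : A.X, s • y = y ∧ A.pz y = ζ ∧ A.val y = A.W s (ζ, τ, κ) ν := by
  have hreg := A.reg1_fix hσ hz h0
  have hv0 : D.x 0 ζ * D.x 1 ζ ≠ 0 ∨ D.f0 ζ ≠ 0 := by
    by_cases hf : D.f0 ζ = 0
    · left
      exact mul_ne_zero (fun h => hreg 0 ⟨hf, h⟩) (fun h => hreg 1 ⟨hf, h⟩)
    · exact Or.inr hf
  have hY1 : (ζ, (A.actY s 0 (ζ, τ, κ)).2.1, (A.actY s 0 (ζ, τ, κ)).2.2) ∈ D.Y 1 := by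
    have h1 := A.actY_mem_Y s 0 hY
    rw [A.σ0 hσ] at h1
    have h2 : A.actY s 0 (ζ, τ, κ) =
        (ζ, (A.actY s 0 (ζ, τ, κ)).2.1, (A.actY s 0 (ζ, τ, κ)).2.2) := Prod.ext hz rfl
    rwa [h2] at h1
  have r0 : D.x 0 ζ * P1F_54.dd τ = D.f0 ζ * nn τ := Y_rel D hY
  have r1 : D.x 1 ζ * P1F_54.dd (A.actY s 0 (ζ, τ, κ)).2.1 =
      D.f0 ζ * nn (A.actY s 0 (ζ, τ, κ)).2.1 := Y_rel D hY1
  obtain ⟨e, he, hv1, hv2⟩ := hmk_rel hv0
  rw [← hν] at hv1 hv2
  have hmem : A.W s (ζ, τ, κ) ν ∈ D.X1 := by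
    refine ⟨fun i => ?_, ?_, ?_⟩
    · fin_cases i
      · exact hY
      · exact hY1
    · show nn ν * P1F_54.dd τ = P1F_54.dd ν * nn τ * D.x 1 ζ
      apply mul_left_cancel₀ he
      linear_combination D.x 1 ζ * r0 - P1F_54.dd τ * hv1 + D.x 1 ζ * nn τ * hv2
    · show nn ν * P1F_54.dd (A.actY s 0 (ζ, τ, κ)).2.1 =
        P1F_54.dd ν * nn (A.actY s 0 (ζ, τ, κ)).2.1 * D.x 0 ζ
      apply mul_left_cancel₀ he
      linear_combination D.x 0 ζ * r1 - P1F_54.dd (A.actY s 0 (ζ, τ, κ)).2.1 * hv1 +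
        D.x 0 ζ * nn (A.actY s 0 (ζ, τ, κ)).2.1 * hv2
  refine ⟨⟨_, hmem⟩, ?_, rfl, rfl⟩
  refine A.val_injective ?_
  show A.act s (A.W s (ζ, τ, κ) ν) = A.W s (ζ, τ, κ) ν
  refine amb_ext (A.σ s) hz (fun i => ?_) ?_ (fun i => ?_)
  · rw [A.act_t]
    fin_cases i
    · show mulP (A.j s 0 ζ) (A.j0 s ζ) τ = (A.W s (ζ, τ, κ) ν).2.1 (A.σ s 0)
      rw [A.σ0 hσ]
      rfl
    · show mulP (A.j s 1 ζ) (A.j0 s ζ) (mulP (A.j s 0 ζ) (A.j0 s ζ) τ) =
        (A.W s (ζ, τ, κ) ν).2.1 (A.σ s 1)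
      rw [A.σ1 hσ, mulP_mulP _ _ (A.j_ne _ _ _) (A.j0_ne _ _), A.jj hσ hs2 hz, A.j0j0 hs2 hz,
        mulP_one]
      rfl
  · rw [A.act_v]
    show mulP (A.jv s ζ) (A.j0 s ζ) ν = ν
    rw [hν, mulP_hmk _ _ hv0, ← A.f0_fix hz]
    congr 1
    have e0 := A.x0_fix hσ hz
    have e1 := A.x1_fix hσ hz
    unfold jv
    calc A.j s 0 ζ * A.j s 1 ζ * (D.x 0 ζ * D.x 1 ζ)
        = (A.j s 0 ζ * D.x 0 ζ) * (A.j s 1 ζ * D.x 1 ζ) := by ring
      _ = D.x 1 ζ * D.x 0 ζ := by rw [← e1, ← e0]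
      _ = D.x 0 ζ * D.x 1 ζ := by ring
  · rw [A.act_k]
    fin_cases i
    · show mulP (A.p s 0 ζ) (A.q s 0 ζ) κ = (A.W s (ζ, τ, κ) ν).2.2.2 (A.σ s 0)
      rw [A.σ0 hσ]
      rfl
    · show mulP (A.p s 1 ζ) (A.q s 1 ζ) (mulP (A.p s 0 ζ) (A.q s 0 ζ) κ) =
        (A.W s (ζ, τ, κ) ν).2.2.2 (A.σ s 1)
      rw [A.σ1 hσ, mulP_mulP _ _ (A.p_ne _ _ _) (A.q_ne _ _ _), A.pp hσ hs2 hz, A.qq hσ hs2 hz,
        mulP_one]
      rfl

omit hσ in
theorem holC_s : HolC (A.fam h) (A.fam h) (fun x => s • x) := A.holC_smul h s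

/-- **density step**: if `ReflAt` holds at the fixed points over `good` base points, it holds at a
fixed point which can be approximated -/
theorem step {y : A.X} (hy : s • y = y) (good : N → Prop)
    (hgood : ∀ x : A.X, s • x = x → good (A.pz x) → ReflAt (A.fam h) (fun x => s • x) x)
    {ι : Type*} {l : Filter ι} [l.NeBot] {ζ : ι → N} {τ κ ν : ι → P1}
    (hζ : Tendsto ζ l (𝓝 (A.pz y))) (hτ : Tendsto τ l (𝓝 (D.t 0 y)))
    (hκ : Tendsto κ l (𝓝 (D.k 0 y))) (hν : Tendsto ν l (𝓝 (D.v y)))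
    (hev : ∀ᶠ i in l, s • ζ i = ζ i ∧ ¬ (D.f0 (ζ i) = 0 ∧ D.x 0 (ζ i) = 0) ∧ good (ζ i) ∧
      (ζ i, τ i, κ i) ∈ D.Y 0 ∧ ν i = hmk (D.x 0 (ζ i) * D.x 1 (ζ i)) (D.f0 (ζ i))) :
    ReflAt (A.fam h) (fun x => s • x) y := by
  refine reflAt_of_limit (A.holC_smul h s) (fun x => ?_) hy ?_
  · show s • s • x = x
    rw [smul_smul, hs2, one_smul]
  have h1 : Tendsto (fun i => A.W s (ζ i, τ i, κ i) (ν i)) l (𝓝 (A.val y)) := by
    rw [A.val_fix hσ hy]
    exact ((A.continuous_W s).tendsto ((A.pz y, D.t 0 y, D.k 0 y), D.v y)).comp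
      ((hζ.prodMk_nhds (hτ.prodMk_nhds hκ)).prodMk_nhds hν)
  have h2 : A.val y ∈ closure (A.val '' {x : A.X | s • x = x ∧
      ReflAt (A.fam h) (fun x => s • x) x}) := by
    refine mem_closure_of_tendsto h1 ?_
    filter_upwards [hev] with i hi
    obtain ⟨h3, h4, h5, h6, h7⟩ := hi
    obtain ⟨x, hx1, hx2, hx3⟩ := A.exists_fix hσ hs2 h3 h4 h6 h7
    exact ⟨x, ⟨hx1, hgood x hx1 (by rw [hx2]; exact h5)⟩, hx3⟩
  have hind : Topology.IsInducing A.val := Topology.IsInducing.subtypeVal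
  rw [hind.closure_eq_preimage_closure_image]
  exact h2

end Fixed

end GAct

end

end Crest.Agent.R272.Act_302
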