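import Crest.Agent.R272.Act3_302

/-!
# R272 (S0415), ACTION (helper302), part 4: `RA (A.fam h) G`
-/

set_option autoImplicit false
set_option linter.unusedSectionVars false

open Set Filter Topology

namespace Crest.Agent.R272.Act_302

open Crest.Agent.R275.Geo Crest.Agent.R273.Fam_835 Crest.Agent.R272.Quot_783
  Crest.Agent.R272.Gr_559 Crest.Agent.R272.FamP_54 Crest.Agent.R272.P1A_54
  Crest.Agent.R272.Flat2_302 Crest.Agent.R272.Refl_246 Crest.Agent.R272.MQ_783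
  Crest.Agent.R272.SubF_54 Crest.Agent.R272.HFam_342 Crest.Agent.R275.Prod363
open Crest.Agent.R272.P1F_54 (nn hmk mulP mulP_ne mulP_hmk mulP_mulP mulP_one mulP_scale
  mulP_rel mulP_holC p1Fam ps pc hmk_smul hfa_pc_hmk hmk_mem_ps ps_cover hmk_iff hmk_rel)

noncomputable section

variable {N : Type} [TopologicalSpace N] {F : Fam 3 N}

namespace GAct

variable {D : GData F} {G : Type} [Group G] [MulAction G N] (A : GAct D G)
variable (h : IsSl (ambFam F) D.X1 3)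

section Base

variable {s : G} (hσ : A.σ s = Equiv.swap 0 1) (hs2 : s * s = 1) {z : N}
  (m : Mir F (fun u => s • u) z)

include hσ

/-- `P 0` and `Q 0` do not vanish simultaneously on the mirror off the flats -/
theorem PQ_ne (hz : s • z = z) (h0 : ¬ (D.f0 z = 0 ∧ D.x 0 z = 0)) :
    ¬ (D.P 0 z = 0 ∧ D.Q 0 z = 0) := by
  rintro ⟨hP, hQ⟩
  obtain ⟨i, hi⟩ := F.cover z
  have hP' : ∀ a, D.P a z = 0 := by
    intro a
    fin_cases a
    · exact hP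
    · show D.P 1 z = 0
      rw [A.P1_fix hσ hz, hP, mul_zero]
  have hQ' : ∀ a, D.Q a z = 0 := by
    intro a
    fin_cases a
    · exact hQ
    · show D.Q 1 z = 0
      rw [A.Q1_fix hσ hz, hQ, mul_zero]
  have hs : Function.Surjective ((LinearMap.pi fun a : Fin 2 =>
      ((Gr_559.dd F i (D.P a) z : Cn 3 →L[ℂ] ℂ) : Cn 3 →ₗ[ℂ] ℂ)).prod (LinearMap.pi fun a : Fin 2 =>
      ((Gr_559.dd F i (D.Q a) z : Cn 3 →L[ℂ] ℂ) : Cn 3 →ₗ[ℂ] ℂ))) := by
    rintro ⟨φ, γ⟩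
    obtain ⟨v, hv⟩ := D.rr' (A.reg1_fix hσ hz h0) hi φ γ
    refine ⟨v, Prod.ext (funext fun a => ?_) (funext fun a => ?_)⟩
    · exact (hv a).1 (hP' a)
    · exact (hv a).2 (hQ' a)
  have h1 := LinearMap.finrank_le_finrank_of_surjective hs
  rw [Module.finrank_prod, Module.finrank_pi, finrank_euclideanSpace, Fintype.card_fin,
    Fintype.card_fin] at h1
  omega

/-- a function with values nonzero along the mirror -/
theorem P_dir (hz : s • z = z) (h0 : ¬ (D.f0 z = 0 ∧ D.x 0 z = 0)) (hP : D.P 0 z = 0) (w : ℂ) :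
    ∃ v : Cn 3, v m.a = 0 ∧ dl m.e (D.P 0) z v = w := by
  obtain ⟨i, hi⟩ := F.cover z
  have hP1 : D.P 1 z = 0 := by rw [A.P1_fix hσ hz, hP, mul_zero]
  have a0 : HFA F (D.P 0) z := hf_of (D.P_hol 0) z trivial
  have a1 : HFA F (D.P 1) z := hf_of (D.P_hol 1) z trivial
  have ap : HFA F (A.p s 0) z := hf_of (A.p_hol s 0) z trivial
  have key : ∀ α β : ℂ, ∃ v, dl m.e (D.P 0) z v = α ∧ dl m.e (D.P 1) z v = β := by
    intro α β
    obtain ⟨v, hv⟩ := D.rr' (A.reg1_fix hσ hz h0) hi ![α, β] 0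
    refine ⟨dC (F.e i) m.e (fun x => x) z v, ?_, ?_⟩
    · rw [← dd_eq_dl m.cpt a0 m.mem hi]
      exact (hv 0).1 hP
    · rw [← dd_eq_dl m.cpt a1 m.mem hi]
      exact (hv 1).1 hP1
  have hrel : ∀ v : Cn 3, v m.a = 0 →
      dl m.e (D.P 1) z v = A.p s 0 z ^ 2 * dl m.e (D.P 0) z v := fun v hv =>
    m.rel (b := fun u => A.p s 0 u ^ 2) a1 a0 (ap.pow 2) (fun u hu => A.P1_fix hσ hu) hP hv
  have hne : ∃ v, dl m.e (D.P 1) z v ≠ A.p s 0 z ^ 2 * dl m.e (D.P 0) z v := by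
    obtain ⟨v, hv1, hv2⟩ := key 0 1
    exact ⟨v, by rw [hv1, hv2, mul_zero]; exact one_ne_zero⟩
  obtain ⟨v, hv1, hv2⟩ := key w (A.p s 0 z ^ 2 * w)
  exact ⟨v, m.mem_of hrel hne (by rw [hv1, hv2]), hv1⟩

theorem Q_dir (hz : s • z = z) (h0 : ¬ (D.f0 z = 0 ∧ D.x 0 z = 0)) (hP : D.Q 0 z = 0) (w : ℂ) :
    ∃ v : Cn 3, v m.a = 0 ∧ dl m.e (D.Q 0) z v = w := by
  obtain ⟨i, hi⟩ := F.cover z
  have hP1 : D.Q 1 z = 0 := by rw [A.Q1_fix hσ hz, hP, mul_zero]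
  have a0 : HFA F (D.Q 0) z := hf_of (D.Q_hol 0) z trivial
  have a1 : HFA F (D.Q 1) z := hf_of (D.Q_hol 1) z trivial
  have ap : HFA F (A.q s 0) z := hf_of (A.q_hol s 0) z trivial
  have key : ∀ α β : ℂ, ∃ v, dl m.e (D.Q 0) z v = α ∧ dl m.e (D.Q 1) z v = β := by
    intro α β
    obtain ⟨v, hv⟩ := D.rr' (A.reg1_fix hσ hz h0) hi 0 ![α, β]
    refine ⟨dC (F.e i) m.e (fun x => x) z v, ?_, ?_⟩
    · rw [← dd_eq_dl m.cpt a0 m.mem hi]
      exact (hv 0).2 hP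
    · rw [← dd_eq_dl m.cpt a1 m.mem hi]
      exact (hv 1).2 hP1
  have hrel : ∀ v : Cn 3, v m.a = 0 →
      dl m.e (D.Q 1) z v = A.q s 0 z ^ 2 * dl m.e (D.Q 0) z v := fun v hv =>
    m.rel (b := fun u => A.q s 0 u ^ 2) a1 a0 (ap.pow 2) (fun u hu => A.Q1_fix hσ hu) hP hv
  have hne : ∃ v, dl m.e (D.Q 1) z v ≠ A.q s 0 z ^ 2 * dl m.e (D.Q 0) z v := by
    obtain ⟨v, hv1, hv2⟩ := key 0 1
    exact ⟨v, by rw [hv1, hv2, mul_zero]; exact one_ne_zero⟩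
  obtain ⟨v, hv1, hv2⟩ := key w (A.q s 0 z ^ 2 * w)
  exact ⟨v, m.mem_of hrel hne (by rw [hv1, hv2]), hv1⟩

include m in
/-- the unramified points of the mirror are dense off the flats -/
theorem neBot_good (hz : s • z = z) (h0 : ¬ (D.f0 z = 0 ∧ D.x 0 z = 0)) :
    (𝓝 z ⊓ 𝓟 {u | s • u = u ∧ D.P 0 u ≠ 0 ∧ D.Q 0 u ≠ 0}).NeBot := by
  rw [← frequently_mem_iff_neBot]
  have hPQ := A.PQ_ne hσ hz h0
  have hfr : ∀ {g : N → ℂ}, g z = 0 → 𝓝 (g z) ≤ map g (𝓝[{u | s • u = u}] z) →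
      ∃ᶠ u in 𝓝[{u | s • u = u}] z, g u ≠ 0 := by
    intro g hg hle
    have h1 : ∃ᶠ w in 𝓝 (g z), w ≠ 0 := by
      rw [hg]
      have : (𝓝[≠] (0 : ℂ)).NeBot := inferInstance
      exact (self_mem_nhdsWithin (s := ({0}ᶜ : Set ℂ)) (a := (0 : ℂ)) |> fun h =>
        (Eventually.frequently h)).filter_mono nhdsWithin_le_nhds
    exact h1.filter_mono hle
  have hfin : ∃ᶠ u in 𝓝[{u | s • u = u}] z, D.P 0 u ≠ 0 ∧ D.Q 0 u ≠ 0 := by
    by_cases hP : D.P 0 z = 0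
    · have hQ : D.Q 0 z ≠ 0 := fun hQ => hPQ ⟨hP, hQ⟩
      have h1 := hfr hP (m.nhds_le (hf_of (D.P_hol 0)) (A.P_dir hσ m hz h0 hP))
      have h2 : ∀ᶠ u in 𝓝[{u | s • u = u}] z, D.Q 0 u ≠ 0 :=
        mem_nhdsWithin_of_mem_nhds ((D.continuous_Q 0).continuousAt.eventually_ne hQ)
      exact h1.and_eventually h2
    · by_cases hQ : D.Q 0 z = 0
      · have h1 := hfr hQ (m.nhds_le (hf_of (D.Q_hol 0)) (A.Q_dir hσ m hz h0 hQ))
        have h2 : ∀ᶠ u in 𝓝[{u | s • u = u}] z, D.P 0 u ≠ 0 :=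
          mem_nhdsWithin_of_mem_nhds ((D.continuous_P 0).continuousAt.eventually_ne hP)
        exact (h1.and_eventually h2).mono fun u hu => ⟨hu.2, hu.1⟩
      · intro hcon
        have h3 := mem_of_mem_nhdsWithin (show z ∈ {u | s • u = u} from hz) hcon
        exact h3 ⟨hP, hQ⟩
  have h4 : ∃ᶠ u in 𝓝 z, u ∈ {u | s • u = u} ∧ (D.P 0 u ≠ 0 ∧ D.Q 0 u ≠ 0) := by
    rw [frequently_nhdsWithin_iff] at hfin
    exact hfin.mono fun u hu => ⟨hu.2, hu.1⟩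
  exact h4

include m in
/-- `(f0, x 0)` is open on the mirror at a flat -/
theorem flat_open (hz : s • z = z) (hf : D.f0 z = 0) (hx : D.x 0 z = 0) :
    𝓝 ((0, 0) : ℂ × ℂ) ≤ map (fun u => (D.f0 u, D.x 0 u)) (𝓝[{u | s • u = u}] z) := by
  obtain ⟨i, hi⟩ := F.cover z
  have hx1 : D.x 1 z = 0 := by rw [A.x1_fix hσ hz, hx, mul_zero]
  have af : HFA F D.f0 z := hf_of D.f0_hol z trivial
  have a0 : HFA F (D.x 0) z := hf_of (D.x_hol 0) z trivial
  have a1 : HFA F (D.x 1) z := hf_of (D.x_hol 1) z trivial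
  have aj : HFA F (A.j s 0) z := hf_of (A.j_hol s 0) z trivial
  have key : ∀ α ξ η : ℂ, ∃ v, dl m.e D.f0 z v = α ∧ dl m.e (D.x 0) z v = ξ ∧
      dl m.e (D.x 1) z v = η := by
    intro α ξ η
    obtain ⟨v, hv0, hv1, hv2⟩ := D.ff' hf hx hx1 hi α ξ η
    refine ⟨dC (F.e i) m.e (fun x => x) z v, ?_, ?_, ?_⟩
    · rw [← dd_eq_dl m.cpt af m.mem hi]; exact hv0
    · rw [← dd_eq_dl m.cpt a0 m.mem hi]; exact hv1
    · rw [← dd_eq_dl m.cpt a1 m.mem hi]; exact hv2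
  have hrel : ∀ v : Cn 3, v m.a = 0 →
      dl m.e (D.x 1) z v = A.j s 0 z * dl m.e (D.x 0) z v := fun v hv =>
    m.rel a1 a0 aj (fun u hu => A.x1_fix hσ hu) hx hv
  have hne : ∃ v, dl m.e (D.x 1) z v ≠ A.j s 0 z * dl m.e (D.x 0) z v := by
    obtain ⟨v, hv0, hv1, hv2⟩ := key 0 0 1
    exact ⟨v, by rw [hv1, hv2, mul_zero]; exact one_ne_zero⟩
  have hg : HF F univ (fun u => (D.f0 u, D.x 0 u)) := fun u _ i hi =>
    (hf_of D.f0_hol u trivial i hi).prodMk (hf_of (D.x_hol 0) u trivial i hi)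
  have e0 : ((0, 0) : ℂ × ℂ) = (fun u => (D.f0 u, D.x 0 u)) z := by
    show _ = (D.f0 z, D.x 0 z)
    rw [hf, hx]
  rw [e0]
  refine m.nhds_le hg fun w => ?_
  obtain ⟨v, hv0, hv1, hv2⟩ := key w.1 w.2 (A.j s 0 z * w.2)
  refine ⟨v, m.mem_of hrel hne (by rw [hv1, hv2]), ?_⟩
  have d1 : HasFDerivAt (fun w => D.f0 (m.e.symm w)) (dl m.e D.f0 z) (m.e z) :=
    (hfa_cpt m.cpt af m.mem).hasFDerivAt
  have d2 : HasFDerivAt (fun w => D.x 0 (m.e.symm w)) (dl m.e (D.x 0) z) (m.e z) :=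
    (hfa_cpt m.cpt a0 m.mem).hasFDerivAt
  have d3 : dl m.e (fun u => (D.f0 u, D.x 0 u)) z = (dl m.e D.f0 z).prod (dl m.e (D.x 0) z) :=
    (d1.prodMk d2).fderiv
  rw [d3]
  exact Prod.ext hv0 hv1

end Base

section Refl

variable {s : G} (hσ : A.σ s = Equiv.swap 0 1) (hs2 : s * s = 1) (hs1 : s ≠ 1)
  [ContinuousConstSMul G N] (hR : RA F G)

include hσ hs2 hs1 hR

omit hs2 in
/-- the base reflection at a fixed point -/
theorem refl_base {z : N} (hz : s • z = z) : ReflAt F (fun u => s • u) z := by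
  rcases hR.st z with h1 | ⟨s', -, -, h3, h4⟩
  · exact absurd (h1 s hz) hs1
  · obtain rfl := (h3 s hz).resolve_left hs1
    exact h4

/-- unramified points -/
theorem refl_A {y : A.X} (hy : s • y = y) (h0 : ¬ (D.f0 (A.pz y) = 0 ∧ D.x 0 (A.pz y) = 0))
    (hP : D.P 0 (A.pz y) ≠ 0) (hQ : D.Q 0 (A.pz y) ≠ 0) :
    ReflAt (A.fam h) (fun x => s • x) y := by
  have hz : s • A.pz y = A.pz y := by rw [← A.pz_smul, hy]
  have hL : LC (A.fam h) F A.pz y := by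
    refine A.lc_pz h (A.reg1_fix hσ hz h0) (fun i => ?_) (fun i => ?_)
    · fin_cases i
      · exact hP
      · show D.P 1 (A.pz y) ≠ 0
        rw [A.P1_fix hσ hz]
        exact mul_ne_zero (pow_ne_zero 2 (A.p_ne _ _ _)) hP
    · fin_cases i
      · exact hQ
      · show D.Q 1 (A.pz y) ≠ 0
        rw [A.Q1_fix hσ hz]
        exact mul_ne_zero (pow_ne_zero 2 (A.q_ne _ _ _)) hQ
  exact reflAt_of_LC (T := fun u => s • u) (A.holC_pz h) (A.holC_smul h s) (hR.hol s) hL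
    (fun x => A.pz_smul s x) hy (A.refl_base hσ hs1 hR hz)

/-- points off the flats -/
theorem refl_B {y : A.X} (hy : s • y = y) (h0 : ¬ (D.f0 (A.pz y) = 0 ∧ D.x 0 (A.pz y) = 0)) :
    ReflAt (A.fam h) (fun x => s • x) y := by
  have hz : s • A.pz y = A.pz y := by rw [← A.pz_smul, hy]
  obtain ⟨m⟩ := exists_mir hR hs1 hz
  have hreg := A.reg1_fix hσ hz h0
  have hNB := A.neBot_good hσ m hz h0
  set z := A.pz y with hzd
  let l : Filter N := 𝓝 z ⊓ 𝓟 {u | s • u = u ∧ D.P 0 u ≠ 0 ∧ D.Q 0 u ≠ 0}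
  have hl : l ≤ 𝓝 z := inf_le_left
  have hid : Tendsto (fun u : N => u) l (𝓝 z) := hl
  have tP : Tendsto (D.P 0) l (𝓝 (D.P 0 z)) := ((D.continuous_P 0).tendsto z).mono_left hl
  have tQ : Tendsto (D.Q 0) l (𝓝 (D.Q 0 z)) := ((D.continuous_Q 0).tendsto z).mono_left hl
  obtain ⟨κ, hκ, hκ2⟩ := exists_lift tP tQ (A.PQ_ne hσ hz h0) (k := D.k 0 y)
    (by exact A.k_sq y 0)
  have h01 : D.x 0 z ≠ 0 ∨ D.f0 z ≠ 0 := by tauto
  have hv0 : D.x 0 z * D.x 1 z ≠ 0 ∨ D.f0 z ≠ 0 := by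
    by_cases hf : D.f0 z = 0
    · left
      exact mul_ne_zero (fun h => hreg 0 ⟨hf, h⟩) (fun h => hreg 1 ⟨hf, h⟩)
    · exact Or.inr hf
  have hτ : Tendsto (fun u => hmk (D.x 0 u) (D.f0 u)) l (𝓝 (D.t 0 y)) := by
    rw [A.t_eq y h0]
    exact (P1F_54.ContinuousAt.hmk (D.continuous_x 0).continuousAt D.continuous_f0.continuousAt
      h01).tendsto.mono_left hl
  have hν : Tendsto (fun u => hmk (D.x 0 u * D.x 1 u) (D.f0 u)) l (𝓝 (D.v y)) := by
    rw [A.v_eq y hreg]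
    exact (P1F_54.ContinuousAt.hmk ((D.continuous_x 0).mul (D.continuous_x 1)).continuousAt
      D.continuous_f0.continuousAt hv0).tendsto.mono_left hl
  refine A.step h hσ hs2 hy (fun u => ¬ (D.f0 u = 0 ∧ D.x 0 u = 0) ∧ D.P 0 u ≠ 0 ∧ D.Q 0 u ≠ 0)
    (fun x hx hg => A.refl_A h hσ hs2 hs1 hR hx hg.1 hg.2.1 hg.2.2) (l := l) hid hτ hκ hν ?_
  have hr : ∀ᶠ u in l, ¬ (D.f0 u = 0 ∧ D.x 0 u = 0) := by
    have h1 : ∀ᶠ u in 𝓝 z, ¬ (D.f0 u = 0 ∧ D.x 0 u = 0) := by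
      rcases h01 with h2 | h2
      · filter_upwards [(D.continuous_x 0).continuousAt.eventually_ne h2] with u hu h3
        exact hu h3.2
      · filter_upwards [D.continuous_f0.continuousAt.eventually_ne h2] with u hu h3
        exact hu h3.1
    exact hl h1
  have hm : ∀ᶠ u in l, s • u = u ∧ D.P 0 u ≠ 0 ∧ D.Q 0 u ≠ 0 :=
    mem_inf_of_right (mem_principal_self _)
  filter_upwards [hr, hm, hκ2] with u hu hu2 hu3
  refine ⟨hu2.1, hu, ⟨hu, hu2.2⟩, ?_, rfl⟩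
  refine (Y_reg D hu _ _).2 ⟨?_, hu3⟩
  exact (hmk_iff (by tauto) _).2 rfl

omit [ContinuousConstSMul G N] in
omit hσ hs2 hs1 hR in
/-- limits of points of the projective line by scaling -/
theorem _root_.Crest.Agent.R272.Act_302.tendsto_hmk {ι : Type*} {l : Filter ι}
    {a b cc X Y : ι → ℂ} {X0 Y0 : ℂ} (hcc : ∀ᶠ i in l, cc i ≠ 0)
    (ha : ∀ᶠ i in l, a i = cc i * X i) (hb : ∀ᶠ i in l, b i = cc i * Y i)
    (hX : Tendsto X l (𝓝 X0)) (hY : Tendsto Y l (𝓝 Y0)) (h0 : X0 ≠ 0 ∨ Y0 ≠ 0) :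
    Tendsto (fun i => hmk (a i) (b i)) l (𝓝 (hmk X0 Y0)) := by
  have h1 : Tendsto (fun i => hmk (X i) (Y i)) l (𝓝 (hmk X0 Y0)) :=
    (P1F_54.continuousAt_hmk h0).tendsto.comp (hX.prodMk_nhds hY)
  refine h1.congr' ?_
  filter_upwards [hcc, ha, hb] with i h2 h3 h4
  rw [h3, h4, hmk_smul h2]

omit hσ hs2 hs1 hR [ContinuousConstSMul G N] in
theorem _root_.Crest.Agent.R272.Act_302.hnd_ne (b : Bool) (c : ℂ) : hn b c ≠ 0 ∨ hd b c ≠ 0 := by
  cases b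
  · right; rw [hd_false]; exact one_ne_zero
  · left; rw [hn_true]; exact one_ne_zero

/-- approximation of a fixed point over a flat -/
theorem step_flat {y : A.X} (hy : s • y = y) (hf : D.f0 (A.pz y) = 0)
    (hx : D.x 0 (A.pz y) = 0) {ι : Type*} {l : Filter ι} [l.NeBot] {ζ : ι → N}
    (hζ : Tendsto ζ l (𝓝 (A.pz y))) (hM : ∀ᶠ i in l, s • ζ i = ζ i) (b : Bool) {p : ι → ℂ}
    {p0 : ℂ} (hp : Tendsto p l (𝓝 p0)) {cc : ι → ℂ} (hcc : ∀ᶠ i in l, cc i ≠ 0)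
    (ex : ∀ᶠ i in l, D.x 0 (ζ i) = cc i * hn b (p i))
    (ef : ∀ᶠ i in l, D.f0 (ζ i) = cc i * hd b (p i)) (ht : D.t 0 y = hmk (hn b p0) (hd b p0))
    (hb : b = true → p0 = 0)
    (hν : Tendsto (fun i => hmk (D.x 0 (ζ i) * D.x 1 (ζ i)) (D.f0 (ζ i))) l (𝓝 (D.v y))) :
    ReflAt (A.fam h) (fun x => s • x) y := by
  obtain ⟨C, hC⟩ := D.exists_loc 0 (A.pz y)
  obtain ⟨i, hi⟩ := F.cover (A.pz y)
  have hζi : Tendsto (fun j => F.e i (ζ j)) l (𝓝 (F.e i (A.pz y))) :=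
    ((F.e i).continuousAt hi).tendsto.comp hζ
  have hzp : Tendsto (fun j => (F.e i (ζ j), p j)) l (𝓝 (F.e i (A.pz y), p0)) :=
    hζi.prodMk_nhds hp
  have ta : Tendsto (fun j => C.fc i b (F.e i (ζ j), p j)) l (𝓝 (C.fc i b (F.e i (A.pz y), p0))) :=
    (C.fc_diff hi b p0).continuousAt.tendsto.comp hzp
  have tb : Tendsto (fun j => C.gc i b (F.e i (ζ j), p j)) l (𝓝 (C.gc i b (F.e i (A.pz y), p0))) :=
    (C.gc_diff hi b p0).continuousAt.tendsto.comp hzp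
  have efc : ∀ u ∈ (F.e i).source, ∀ c : ℂ, C.fc i b (F.e i u, c) = C.f u (hn b c) (hd b c) := by
    intro u hu c
    simp only [Loc.fc, (F.e i).left_inv hu]
  have egc : ∀ u ∈ (F.e i).source, ∀ c : ℂ, C.gc i b (F.e i u, c) = C.g u (hn b c) (hd b c) := by
    intro u hu c
    simp only [Loc.gc, (F.e i).left_inv hu]
  have hne : ¬ (C.fc i b (F.e i (A.pz y), p0) = 0 ∧ C.gc i b (F.e i (A.pz y), p0) = 0) := by
    rw [efc _ hi, egc _ hi]
    rintro ⟨h1, h2⟩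
    cases b
    · rw [hn_false, hd_false] at h1 h2
      exact (hC.flat_f hf hx p0 h1).1 h2
    · rw [hb rfl, hn_true, hd_true] at h1
      exact (hC.flat_inf hf hx).1 h1
  obtain ⟨c0, hc0, e1, e2⟩ := hmk_rel (hnd_ne b p0)
  rw [← ht] at e1 e2
  change hn b p0 = c0 * P1.n (D.t 0 y) at e1
  change hd b p0 = c0 * P1.d (D.t 0 y) at e2
  have hk : P1.n (D.k 0 y) ^ 2 * C.gc i b (F.e i (A.pz y), p0) =
      P1.d (D.k 0 y) ^ 2 * C.fc i b (F.e i (A.pz y), p0) := by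
    have h1 : P1.n (D.k 0 y) ^ 2 * C.g (A.pz y) (P1.n (D.t 0 y)) (P1.d (D.t 0 y)) =
        P1.d (D.k 0 y) ^ 2 * C.f (A.pz y) (P1.n (D.t 0 y)) (P1.d (D.t 0 y)) :=
      ((C.iff (A.pz y) C.mem (D.t 0 y) (D.k 0 y)).1 ((A.val_mem y).1 0)).2
    rw [efc _ hi, egc _ hi, e1, e2, C.f_hom, C.g_hom]
    linear_combination c0 ^ C.e * h1
  obtain ⟨κ, hκ, hκ2⟩ := exists_lift ta tb hne hk
  have hτ : Tendsto (fun j => hmk (D.x 0 (ζ j)) (D.f0 (ζ j))) l (𝓝 (D.t 0 y)) := by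
    rw [ht]
    refine tendsto_hmk hcc ex ef ?_ ?_ (hnd_ne b p0)
    · exact ((differentiable_hn b).continuous.tendsto p0).comp hp
    · exact ((differentiable_hd b).continuous.tendsto p0).comp hp
  refine A.step h hσ hs2 hy (fun u => ¬ (D.f0 u = 0 ∧ D.x 0 u = 0))
    (fun x hx hg => A.refl_B h hσ hs2 hs1 hR hx hg) hζ hτ hκ hν ?_
  filter_upwards [hM, hcc, ex, ef, hκ2, hζ.eventually (C.U_open.mem_nhds C.mem),
    hζ.eventually ((F.e i).open_source.mem_nhds hi)] with j h1 h2 h3 h4 h5 h6 h7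
  have hreg : ¬ (D.f0 (ζ j) = 0 ∧ D.x 0 (ζ j) = 0) := by
    rw [h3, h4]
    rintro ⟨h8, h9⟩
    rcases hnd_ne b (p j) with h10 | h10
    · exact mul_ne_zero h2 h10 h9
    · exact mul_ne_zero h2 h10 h8
  refine ⟨h1, hreg, hreg, ?_, rfl⟩
  have hτe : hmk (D.x 0 (ζ j)) (D.f0 (ζ j)) = hmk (hn b (p j)) (hd b (p j)) := by
    rw [h3, h4, hmk_smul h2]
  obtain ⟨c1, hc1, e3, e4⟩ := hmk_rel (hnd_ne b (p j))
  rw [← hτe] at e3 e4
  change hn b (p j) = c1 * P1.n (hmk (D.x 0 (ζ j)) (D.f0 (ζ j))) at e3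
  change hd b (p j) = c1 * P1.d (hmk (D.x 0 (ζ j)) (D.f0 (ζ j))) at e4
  refine (C.iff (ζ j) h6 _ _).2 ⟨?_, ?_⟩
  · exact (hmk_iff (by tauto) _).2 rfl
  · rw [efc _ h7, egc _ h7, e3, e4, C.f_hom, C.g_hom] at h5
    apply mul_left_cancel₀ (pow_ne_zero C.e hc1)
    linear_combination h5

/-- points over the flats -/
theorem refl_C {y : A.X} (hy : s • y = y) (hf : D.f0 (A.pz y) = 0)
    (hx : D.x 0 (A.pz y) = 0) : ReflAt (A.fam h) (fun x => s • x) y := by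
  have hz : s • A.pz y = A.pz y := by rw [← A.pz_smul, hy]
  obtain ⟨m⟩ := exists_mir hR hs1 hz
  have hop := A.flat_open hσ m hz hf hx
  have hx1 : D.x 1 (A.pz y) = 0 := by rw [A.x1_fix hσ hz, hx, mul_zero]
  have hrel : nn (D.v y) * P1F_54.dd (D.t 0 y) = 0 := by
    have h1 : nn (D.v y) * P1F_54.dd (D.t 0 y) =
      P1F_54.dd (D.v y) * nn (D.t 0 y) * D.x 1 (A.pz y) := (A.val_mem y).2.1
    rw [h1, hx1, mul_zero]
  have hjc : ContinuousAt (A.j s 0) (A.pz y) :=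
    (hf_of (A.j_hol s 0) (A.pz y) trivial).continuousAt
  have hjne := A.j_ne s 0 (A.pz y)
  -- the common part
  have main : ∀ γ : ℂ → ℂ × ℂ, Tendsto γ (𝓝[≠] 0) (𝓝 (0, 0)) → ∃ l : Filter (N × ℂ), l.NeBot ∧
      Tendsto Prod.fst l (𝓝 (A.pz y)) ∧ Tendsto Prod.snd l (𝓝 (0 : ℂ)) ∧
      (∀ᶠ p : N × ℂ in l, s • p.1 = p.1) ∧ (∀ᶠ p : N × ℂ in l, p.2 ≠ 0) ∧
      (∀ᶠ p : N × ℂ in l, D.f0 p.1 = (γ p.2).1) ∧ (∀ᶠ p : N × ℂ in l, D.x 0 p.1 = (γ p.2).2) ∧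
      (∀ᶠ p : N × ℂ in l, D.x 1 p.1 = A.j s 0 p.1 * (γ p.2).2) ∧
      Tendsto (fun p : N × ℂ => A.j s 0 p.1) l (𝓝 (A.j s 0 (A.pz y))) := by
    intro γ hγ
    have hNB := neBot_lift hop hγ
    refine ⟨_, hNB, ?_⟩
    have t1 : Tendsto Prod.fst ((𝓝[{u | s • u = u}] (A.pz y) ×ˢ 𝓝[≠] (0 : ℂ)) ⊓
        𝓟 {p : N × ℂ | (D.f0 p.1, D.x 0 p.1) = γ p.2}) (𝓝[{u | s • u = u}] (A.pz y)) :=
      tendsto_fst.mono_left inf_le_left
    have t2 : Tendsto Prod.snd ((𝓝[{u | s • u = u}] (A.pz y) ×ˢ 𝓝[≠] (0 : ℂ)) ⊓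
        𝓟 {p : N × ℂ | (D.f0 p.1, D.x 0 p.1) = γ p.2}) (𝓝[≠] (0 : ℂ)) :=
      tendsto_snd.mono_left inf_le_left
    have t3 := (tendsto_nhdsWithin_iff.1 t1)
    have t4 := (tendsto_nhdsWithin_iff.1 t2)
    have t5 : ∀ᶠ p : N × ℂ in ((𝓝[{u | s • u = u}] (A.pz y) ×ˢ 𝓝[≠] (0 : ℂ)) ⊓
        𝓟 {p : N × ℂ | (D.f0 p.1, D.x 0 p.1) = γ p.2}), (D.f0 p.1, D.x 0 p.1) = γ p.2 :=
      mem_inf_of_right (mem_principal_self _)
    refine ⟨t3.1, t4.1, t3.2, t4.2, t5.mono fun p hp => congrArg Prod.fst hp,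
      t5.mono fun p hp => congrArg Prod.snd hp, ?_, hjc.tendsto.comp t3.1⟩
    filter_upwards [t3.2, t5] with p hp1 hp2
    rw [A.x1_fix hσ hp1]
    exact congrArg (fun w => A.j s 0 p.1 * w) (congrArg Prod.snd hp2)
  have hsm : ∀ {f : ℂ → ℂ × ℂ}, Continuous f → f 0 = (0, 0) →
      Tendsto f (𝓝[≠] 0) (𝓝 (0, 0)) := by
    intro f hf h0
    have := hf.tendsto 0
    rw [h0] at this
    exact this.mono_left nhdsWithin_le_nhds
  rcases P1F_54.p1_cases (D.t 0 y) with ht | ⟨c, ht⟩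
  · by_cases hv : nn (D.v y) = 0
    · -- `t = ∞`, `v = 0`
      have hv0 : D.v y = ((0 : ℂ) : P1) := P1F_54.nn_eq_zero.1 hv
      obtain ⟨l, hl, h1, h2, h3, h4, h5, h6, h7, h8⟩ := main (fun e => (e ^ 3, e ^ 2))
        (hsm (by fun_prop) (by simp))
      refine A.step_flat h hσ hs2 hs1 hR hy hf hx h1 h3 true (p := Prod.snd) h2
        (cc := fun p => p.2 ^ 2) (h4.mono fun p hp => pow_ne_zero 2 hp) ?_ ?_ ?_ (fun _ => rfl) ?_
      · filter_upwards [h6] with p hp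
        rw [hp, hn_true, mul_one]
      · filter_upwards [h5] with p hp
        rw [hp, hd_true]
        ring
      · rw [ht, hn_true, hd_true, P1F_54.hmk_zero]
      · rw [hv0, ← P1F_54.hmk_one]
        refine tendsto_hmk (cc := fun p => p.2 ^ 3) (X := fun p => A.j s 0 p.1 * p.2)
          (Y := fun _ => 1) (h4.mono fun p hp => pow_ne_zero 3 hp) ?_ ?_ ?_ tendsto_const_nhds
          (Or.inr one_ne_zero)
        · filter_upwards [h6, h7] with p hp hp'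
          rw [hp, hp']
          ring
        · filter_upwards [h5] with p hp
          rw [hp, mul_one]
        · have := h8.mul h2
          rwa [mul_zero] at this
    · -- `t = ∞`, `v ≠ 0`
      obtain ⟨l, hl, h1, h2, h3, h4, h5, h6, h7, h8⟩ := main
        (fun e => (e * (e * (A.j s 0 (A.pz y) * P1F_54.dd (D.v y) / nn (D.v y))), e))
        (hsm (by fun_prop) (by simp))
      refine A.step_flat h hσ hs2 hs1 hR hy hf hx h1 h3 true
        (p := fun p => p.2 * (A.j s 0 (A.pz y) * P1F_54.dd (D.v y) / nn (D.v y))) (p0 := 0) ?_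
        (cc := fun p => p.2) h4 ?_ ?_ ?_ (fun _ => rfl) ?_
      · have := h2.mul_const (A.j s 0 (A.pz y) * P1F_54.dd (D.v y) / nn (D.v y))
        rwa [zero_mul] at this
      · filter_upwards [h6] with p hp
        rw [hp, hn_true, mul_one]
      · filter_upwards [h5] with p hp
        rw [hp, hd_true]
      · rw [ht, hn_true, hd_true, P1F_54.hmk_zero]
      · have e1 : D.v y = hmk (A.j s 0 (A.pz y))
            (A.j s 0 (A.pz y) * P1F_54.dd (D.v y) / nn (D.v y)) := by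
          refine (hmk_iff (Or.inl hjne) _).1 ?_
          field_simp
        have e2 := tendsto_hmk (l := l) (cc := fun p : N × ℂ => p.2 ^ 2)
          (X := fun p => A.j s 0 p.1)
          (Y := fun _ => A.j s 0 (A.pz y) * P1F_54.dd (D.v y) / nn (D.v y))
          (a := fun p => D.x 0 p.1 * D.x 1 p.1) (b := fun p => D.f0 p.1)
          (h4.mono fun p hp => pow_ne_zero 2 hp) (by
            filter_upwards [h6, h7] with p hp hp'
            rw [hp, hp']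
            ring) (by
            filter_upwards [h5] with p hp
            rw [hp]
            ring) h8 tendsto_const_nhds (Or.inl hjne)
        rw [← e1] at e2
        exact e2
  · -- `t = c`, `v = 0`
    have hv : nn (D.v y) = 0 := by
      rw [ht, P1F_54.dd_coe, mul_one] at hrel
      exact hrel
    have hv0 : D.v y = ((0 : ℂ) : P1) := P1F_54.nn_eq_zero.1 hv
    obtain ⟨l, hl, h1, h2, h3, h4, h5, h6, h7, h8⟩ := main (fun e => (e, e * c))
      (hsm (by fun_prop) (by simp))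
    refine A.step_flat h hσ hs2 hs1 hR hy hf hx h1 h3 false (p := fun _ => c) tendsto_const_nhds
      (cc := fun p => p.2) h4 ?_ ?_ ?_ (fun h => absurd h (by simp)) ?_
    · filter_upwards [h6] with p hp
      rw [hp, hn_false]
    · filter_upwards [h5] with p hp
      rw [hp, hd_false, mul_one]
    · rw [ht, hn_false, hd_false, P1F_54.hmk_one]
    · rw [hv0, ← P1F_54.hmk_one]
      refine tendsto_hmk (cc := fun p => p.2) (X := fun p => A.j s 0 p.1 * p.2 * c ^ 2)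
        (Y := fun _ => 1) h4 ?_ ?_ ?_ tendsto_const_nhds (Or.inr one_ne_zero)
      · filter_upwards [h6, h7] with p hp hp'
        rw [hp, hp']
        ring
      · filter_upwards [h5] with p hp
        rw [hp, mul_one]
      · have := (h8.mul h2).mul_const (c ^ 2)
        rwa [mul_zero, zero_mul] at this

/-- **the derivative at every fixed point of `X1` is a reflection** -/
theorem reflAt {y : A.X} (hy : s • y = y) : ReflAt (A.fam h) (fun x => s • x) y := by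
  by_cases h0 : D.f0 (A.pz y) = 0 ∧ D.x 0 (A.pz y) = 0
  · exact A.refl_C h hσ hs2 hs1 hR hy h0.1 h0.2
  · exact A.refl_B h hσ hs2 hs1 hR hy h0

end Refl

/-- **`RA` on `X1`** -/
theorem ra [T2Space N] [LocallyCompactSpace N] [ProperlyDiscontinuousSMul G N] (hR : RA F G)
    (hfix : ∀ (s : G) (z : N), s ≠ 1 → s • z = z → A.σ s = Equiv.swap 0 1) :
    RA (A.fam h) G where
  hol := A.holC_smul h
  pd := A.pd
  st y := by
    have := hR.ccs
    rcases hR.st (A.pz y) with h1 | ⟨s, h1, h2, h3, h4⟩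
    · left
      intro g hg
      exact h1 g (by rw [← A.pz_smul, hg])
    · by_cases hs : s = 1
      · left
        intro g hg
        rcases h3 g (by rw [← A.pz_smul, hg]) with h5 | h5
        · exact h5
        · rw [h5, hs]
      · by_cases hy : s • y = y
        · right
          refine ⟨s, h1, hy, fun g hg => h3 g (by rw [← A.pz_smul, hg]), ?_⟩
          exact A.reflAt h (hfix s _ hs h2) h1 hs hR hy
        · left
          intro g hg
          rcases h3 g (by rw [← A.pz_smul, hg]) with h5 | h5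
          · exact h5
          · exact absurd (h5 ▸ hg) hy

/-- the action on the `t`-coordinate depends on the base point only -/
theorem t_congr (g : G) {i : Fin 2} {x y : A.X} (hz : A.pz x = A.pz y) (ht : D.t i x = D.t i y) :
    D.t (A.σ g i) (g • x : A.X) = D.t (A.σ g i) (g • y : A.X) := by
  rw [A.t_smul, A.t_smul, hz, ht]

theorem k_congr (g : G) {i : Fin 2} {x y : A.X} (hz : A.pz x = A.pz y) (ht : D.k i x = D.k i y) :
    D.k (A.σ g i) (g • x : A.X) = D.k (A.σ g i) (g • y : A.X) := by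
  rw [A.k_smul, A.k_smul, hz, ht]

/-- opposite values of `k` stay opposite -/
theorem k_neg (g : G) {i : Fin 2} {x y : A.X} (hz : A.pz x = A.pz y)
    (hk : P1.n (D.k i y) * P1.d (D.k i x) = -(P1.n (D.k i x) * P1.d (D.k i y))) :
    P1.n (D.k (A.σ g i) (g • y : A.X)) * P1.d (D.k (A.σ g i) (g • x : A.X)) =
      -(P1.n (D.k (A.σ g i) (g • x : A.X)) * P1.d (D.k (A.σ g i) (g • y : A.X))) := by
  rw [A.k_smul, A.k_smul, hz]
  obtain ⟨c, hc, h1, h2⟩ := mulP_rel (A.p_ne g i (A.pz y)) (A.q_ne g i (A.pz y)) (D.k i x)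
  obtain ⟨c', hc', h3, h4⟩ := mulP_rel (A.p_ne g i (A.pz y)) (A.q_ne g i (A.pz y)) (D.k i y)
  change A.p g i (A.pz y) * P1.n (D.k i x) = c * P1.n _ at h1
  change A.q g i (A.pz y) * P1.d (D.k i x) = c * P1.d _ at h2
  change A.p g i (A.pz y) * P1.n (D.k i y) = c' * P1.n _ at h3
  change A.q g i (A.pz y) * P1.d (D.k i y) = c' * P1.d _ at h4
  have e : ∀ a b a' b' : ℂ, c' * a * (c * b) = -(c * a' * (c' * b')) → a * b = -(a' * b') := by
    intro a b a' b' h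
    apply mul_left_cancel₀ (mul_ne_zero hc hc')
    linear_combination h
  refine e _ _ _ _ ?_
  rw [← h1, ← h2, ← h3, ← h4]
  linear_combination A.p g i (A.pz y) * A.q g i (A.pz y) * hk

end GAct

end

end Crest.Agent.R272.Act_302
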