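import Crest.Agent.R272.GrP1_559

/-!
# R272 (S0415), MOD-GRAPH (helper559): LEVEL, submanifolds given by local submersions

`FamE E M` : holomorphic charts with values in `E`; `HolE A B p` : continuous and holomorphic.
`FamE.prod`, `FamE.pi`, `Fam.toE`. `Lv A S F' s` : near `s` the set `S` is the zero set of a
submersion with values in `F'`; `lvFam : (∀ s ∈ S, Lv A S F' s) → Fam n S`.
-/

set_option autoImplicit false
set_option linter.unusedSectionVars false

open Set Filter Topology Complex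

namespace Crest.Agent.R272.Gr_559

open Crest.Agent.R275.Geo Crest.Agent.R273.Fam_835 Crest.Agent.R272.DCov_426

noncomputable section

variable {E E' E'' : Type} [NormedAddCommGroup E] [NormedSpace ℂ E] [NormedAddCommGroup E']
  [NormedSpace ℂ E'] [NormedAddCommGroup E''] [NormedSpace ℂ E''] {M M' M'' : Type}
  [TopologicalSpace M] [TopologicalSpace M'] [TopologicalSpace M'']

/-- continuous and holomorphic in the charts -/
structure HolE (A : FamE E M) (B : FamE E' M') (p : M → M') : Prop where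
  cont : Continuous p
  hol : ∀ i j, DifferentiableOn ℂ (fun z => B.e j (p ((A.e i).symm z)))
    ((A.e i).target ∩ (A.e i).symm ⁻¹' (p ⁻¹' (B.e j).source))

/-- a `Fam` as a `FamE` -/
def toE {n : ℕ} (C : Fam n M) : FamE (Cn n) M := ⟨C.ι, C.e, C.cover, C.holo⟩

/-- a `FamE` with values in `Cn n` as a `Fam` -/
def toF {n : ℕ} (C : FamE (Cn n) M) : Fam n M := ⟨C.ι, C.e, C.cover, C.holo⟩

theorem holE_toE {n m : ℕ} {C : Fam n M} {D : Fam m M'} {p : M → M'} :
    HolE (toE C) (toE D) p ↔ HolC C D p :=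
  ⟨fun h => ⟨h.cont, h.hol⟩, fun h => ⟨h.cont, h.hol⟩⟩

theorem FamE.isOpen_tr (A : FamE E M) (i j : A.ι) :
    IsOpen {z | z ∈ (A.e i).target ∧ (A.e i).symm z ∈ (A.e j).source} :=
  (A.e i).isOpen_inter_preimage_symm (A.e j).open_source

theorem FamE.tr_diffAt (A : FamE E M) {i j : A.ι} {x : M} (hi : x ∈ (A.e i).source)
    (hj : x ∈ (A.e j).source) : DifferentiableAt ℂ (fun z => A.e j ((A.e i).symm z)) (A.e i x) :=
  (A.holo i j).differentiableAt ((A.isOpen_tr i j).mem_nhds
    ⟨(A.e i).map_source hi, by rw [(A.e i).left_inv hi]; exact hj⟩)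

theorem HolE.isOpen_dm {A : FamE E M} {B : FamE E' M'} {p : M → M'} (h : HolE A B p) (i : A.ι)
    (j : B.ι) : IsOpen ((A.e i).target ∩ (A.e i).symm ⁻¹' (p ⁻¹' (B.e j).source)) :=
  (A.e i).isOpen_inter_preimage_symm ((B.e j).open_source.preimage h.cont)

theorem HolE.diffAt {A : FamE E M} {B : FamE E' M'} {p : M → M'} (h : HolE A B p) {i : A.ι}
    {j : B.ι} {x : M} (hx : x ∈ (A.e i).source) (hj : p x ∈ (B.e j).source) :
    DifferentiableAt ℂ (fun z => B.e j (p ((A.e i).symm z))) (A.e i x) :=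
  (h.hol i j).differentiableAt ((h.isOpen_dm i j).mem_nhds ⟨(A.e i).map_source hx, by
    rw [mem_preimage, mem_preimage, (A.e i).left_inv hx]; exact hj⟩)

/-- locally checkable criterion -/
theorem holE_of_local {A : FamE E M} {B : FamE E' M'} {p : M → M'} (hc : Continuous p)
    (h : ∀ x, ∃ i j, x ∈ (A.e i).source ∧ p x ∈ (B.e j).source ∧
      DifferentiableAt ℂ (fun z => B.e j (p ((A.e i).symm z))) (A.e i x)) : HolE A B p := by
  refine ⟨hc, fun i' j' => ?_⟩
  intro z hz
  set x := (A.e i').symm z with hx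
  have hx' : x ∈ (A.e i').source := (A.e i').map_target hz.1
  obtain ⟨i, j, hi, hj, hd⟩ := h x
  have e1 : A.e i' x = z := (A.e i').right_inv hz.1
  have h1 : DifferentiableAt ℂ (fun w => A.e i ((A.e i').symm w)) z := by
    have := A.tr_diffAt hx' hi
    rwa [e1] at this
  have h2 : DifferentiableAt ℂ (fun w => B.e j' ((B.e j).symm w)) (B.e j (p x)) :=
    B.tr_diffAt hj hz.2
  have h3 : DifferentiableAt ℂ (fun w => B.e j (p ((A.e i).symm (A.e i ((A.e i').symm w))))) z :=
    DifferentiableAt.comp z (g := fun z => B.e j (p ((A.e i).symm z))) hd h1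
  have e3 : B.e j (p ((A.e i).symm (A.e i ((A.e i').symm z)))) = B.e j (p x) := by
    rw [← hx, (A.e i).left_inv hi]
  have h4 : DifferentiableAt ℂ (fun w => B.e j' ((B.e j).symm
      (B.e j (p ((A.e i).symm (A.e i ((A.e i').symm w))))))) z := by
    refine DifferentiableAt.comp z (g := fun w => B.e j' ((B.e j).symm w)) ?_ h3
    rw [e3]
    exact h2
  refine (h4.congr_of_eventuallyEq ?_).differentiableWithinAt
  have hcont : ContinuousAt (A.e i').symm z := (A.e i').continuousAt_symm hz.1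
  have h5 : ∀ᶠ w in 𝓝 z, (A.e i').symm w ∈ (A.e i).source ∩ p ⁻¹' (B.e j).source :=
    hcont.preimage_mem_nhds (((A.e i).open_source.inter
      ((B.e j).open_source.preimage hc)).mem_nhds ⟨hi, hj⟩)
  filter_upwards [h5] with w hw
  rw [(A.e i).left_inv hw.1, (B.e j).left_inv hw.2]

theorem HolE.id (A : FamE E M) : HolE A A _root_.id := ⟨continuous_id, fun i j => A.holo i j⟩

theorem HolE.comp {A : FamE E M} {B : FamE E' M'} {C : FamE E'' M''} {p : M → M'} {q : M' → M''}
    (hq : HolE B C q) (hp : HolE A B p) : HolE A C (fun x => q (p x)) := by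
  refine holE_of_local (hq.cont.comp hp.cont) fun x => ?_
  obtain ⟨i, hi⟩ := A.cover x
  obtain ⟨j, hj⟩ := B.cover (p x)
  obtain ⟨l, hl⟩ := C.cover (q (p x))
  refine ⟨i, l, hi, hl, ?_⟩
  have h1 := hp.diffAt hi hj
  have h2 := hq.diffAt hj hl
  have h3 : DifferentiableAt ℂ ((fun w => C.e l (q ((B.e j).symm w))) ∘
      (fun w => B.e j (p ((A.e i).symm w)))) (A.e i x) := by
    refine DifferentiableAt.comp _ ?_ h1
    rw [(A.e i).left_inv hi]
    exact h2
  refine h3.congr_of_eventuallyEq ?_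
  filter_upwards [(hp.isOpen_dm i j).mem_nhds ⟨(A.e i).map_source hi, by
    rw [mem_preimage, mem_preimage, (A.e i).left_inv hi]; exact hj⟩] with w hw
  simp only [Function.comp]
  rw [(B.e j).left_inv hw.2]

/-! ### products -/

/-- product -/
def FamE.prod (A : FamE E M) (B : FamE E' M') : FamE (E × E') (M × M') where
  ι := A.ι × B.ι
  e i := (A.e i.1).prod (B.e i.2)
  cover x := by
    obtain ⟨i, hi⟩ := A.cover x.1
    obtain ⟨j, hj⟩ := B.cover x.2
    exact ⟨(i, j), hi, hj⟩
  holo := by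
    rintro ⟨i, j⟩ ⟨i', j'⟩
    have h1 : DifferentiableOn ℂ (fun z : E × E' => A.e i' ((A.e i).symm z.1))
        {z | z ∈ ((A.e i).prod (B.e j)).target ∧
          ((A.e i).prod (B.e j)).symm z ∈ ((A.e i').prod (B.e j')).source} :=
      (A.holo i i').comp differentiable_fst.differentiableOn fun z hz => ⟨hz.1.1, hz.2.1⟩
    have h2 : DifferentiableOn ℂ (fun z : E × E' => B.e j' ((B.e j).symm z.2))
        {z | z ∈ ((A.e i).prod (B.e j)).target ∧
          ((A.e i).prod (B.e j)).symm z ∈ ((A.e i').prod (B.e j')).source} :=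
      (B.holo j j').comp differentiable_snd.differentiableOn fun z hz => ⟨hz.1.2, hz.2.2⟩
    exact h1.prodMk h2

/-- finite power -/
def FamE.pi {κ : Type} [Fintype κ] (A : FamE E M) : FamE (κ → E) (κ → M) where
  ι := κ → A.ι
  e i := OpenPartialHomeomorph.pi fun a => A.e (i a)
  cover x := by
    choose i hi using fun a => A.cover (x a)
    exact ⟨i, fun a _ => hi a⟩
  holo := by
    intro i i'
    rw [differentiableOn_pi]
    intro a
    exact (A.holo (i a) (i' a)).comp (differentiable_apply a).differentiableOn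
      fun z hz => ⟨hz.1 a trivial, hz.2 a trivial⟩

theorem holE_fst (A : FamE E M) (B : FamE E' M') : HolE (A.prod B) A Prod.fst := by
  refine holE_of_local continuous_fst fun x => ?_
  obtain ⟨i, hi⟩ := A.cover x.1
  obtain ⟨j, hj⟩ := B.cover x.2
  refine ⟨(i, j), i, ⟨hi, hj⟩, hi, ?_⟩
  exact (A.tr_diffAt hi hi).comp (f := Prod.fst) (((A.prod B).e (i, j)) x) differentiableAt_fst

theorem holE_snd (A : FamE E M) (B : FamE E' M') : HolE (A.prod B) B Prod.snd := by
  refine holE_of_local continuous_snd fun x => ?_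
  obtain ⟨i, hi⟩ := A.cover x.1
  obtain ⟨j, hj⟩ := B.cover x.2
  refine ⟨(i, j), j, ⟨hi, hj⟩, hj, ?_⟩
  exact (B.tr_diffAt hj hj).comp (f := Prod.snd) (((A.prod B).e (i, j)) x) differentiableAt_snd

theorem holE_prodMk {C : FamE E'' M''} {A : FamE E M} {B : FamE E' M'} {f : M'' → M}
    {g : M'' → M'} (hf : HolE C A f) (hg : HolE C B g) :
    HolE C (A.prod B) (fun x => (f x, g x)) := by
  refine holE_of_local (hf.cont.prodMk hg.cont) fun x => ?_
  obtain ⟨l, hl⟩ := C.cover x
  obtain ⟨i, hi⟩ := A.cover (f x)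
  obtain ⟨j, hj⟩ := B.cover (g x)
  exact ⟨l, (i, j), hl, ⟨hi, hj⟩, (hf.diffAt hl hi).prodMk (hg.diffAt hl hj)⟩

theorem holE_apply {κ : Type} [Fintype κ] (A : FamE E M) (a : κ) :
    HolE (FamE.pi (κ := κ) A) A (fun x => x a) := by
  refine holE_of_local (continuous_apply a) fun x => ?_
  choose i hi using fun a => A.cover (x a)
  refine ⟨i, i a, fun a _ => hi a, hi a, ?_⟩
  exact (A.tr_diffAt (hi a) (hi a)).comp (f := fun z : κ → E => z a)
    (((FamE.pi (κ := κ) A).e i) x) (differentiableAt_apply a _)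

theorem holE_pi {κ : Type} [Fintype κ] {C : FamE E'' M''} {A : FamE E M} {f : M'' → κ → M}
    (hf : ∀ a, HolE C A fun x => f x a) : HolE C (FamE.pi A) f := by
  refine holE_of_local (continuous_pi fun a => (hf a).cont) fun x => ?_
  obtain ⟨l, hl⟩ := C.cover x
  choose i hi using fun a => A.cover (f x a)
  refine ⟨l, i, hl, fun a _ => hi a, ?_⟩
  rw [differentiableAt_pi]
  intro a
  exact (hf a).diffAt hl (hi a)

/-! ### level sets -/

variable {F' : Type} [NormedAddCommGroup F'] [NormedSpace ℂ F']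

/-- near `s` the set `S` is the zero set of a holomorphic submersion -/
structure Lv (A : FamE E M) (S : Set M) (F' : Type) [NormedAddCommGroup F'] [NormedSpace ℂ F']
    (s : M) : Prop where
  ex : ∃ i, s ∈ (A.e i).source ∧ ∃ W : Set E, IsOpen W ∧ A.e i s ∈ W ∧ ∃ Φ : E → F',
    DifferentiableOn ℂ Φ W ∧ Function.Surjective (fderiv ℂ Φ (A.e i s)) ∧
    ∀ y ∈ (A.e i).source, A.e i y ∈ W → (y ∈ S ↔ Φ (A.e i y) = 0)

variable [FiniteDimensional ℂ E] [FiniteDimensional ℂ F'] {n : ℕ} {A : FamE E M} {S : Set M}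

/-- straightened ambient chart at a point of `S` -/
theorem Lv.chart {s : M} (h : Lv A S F' s)
    (hd : Module.finrank ℂ E = n + Module.finrank ℂ F') :
    ∃ (i : A.ι) (χ : OpenPartialHomeomorph E (Cn n × F')), s ∈ ((A.e i).trans χ).source ∧
      DifferentiableOn ℂ χ χ.source ∧ DifferentiableOn ℂ χ.symm χ.target ∧
      ∀ y ∈ ((A.e i).trans χ).source, y ∈ S ↔ (((A.e i).trans χ) y).2 = 0 := by
  obtain ⟨i, hs, W, hW, hsW, Φ, hΦ, hsur, hiff⟩ := h.ex
  obtain ⟨χ, h1, h2, h3, h4, h5⟩ := straighten (V := Cn n) hW hΦ hsW hsur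
    (by rw [hd, finrank_euclideanSpace, Fintype.card_fin])
  refine ⟨i, χ, ?_, h4, h5, ?_⟩
  · rw [OpenPartialHomeomorph.trans_source]
    exact ⟨hs, h1⟩
  · intro y hy
    rw [OpenPartialHomeomorph.trans_source] at hy
    rw [OpenPartialHomeomorph.coe_trans, Function.comp_apply, h3]
    exact hiff y hy.1 (h2 hy.2)

/-- the submanifold -/
structure LvS (n : ℕ) (A : FamE E M) (S : Set M) (F' : Type) [NormedAddCommGroup F']
    [NormedSpace ℂ F'] where
  i : S → A.ι
  χ : S → OpenPartialHomeomorph E (Cn n × F')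
  mem : ∀ s : S, (s : M) ∈ ((A.e (i s)).trans (χ s)).source
  hol : ∀ s, DifferentiableOn ℂ (χ s) (χ s).source
  hol' : ∀ s, DifferentiableOn ℂ (χ s).symm (χ s).target
  iff : ∀ s, ∀ y ∈ ((A.e (i s)).trans (χ s)).source,
    y ∈ S ↔ (((A.e (i s)).trans (χ s)) y).2 = 0

theorem exists_lvS (h : ∀ s ∈ S, Lv A S F' s)
    (hd : Module.finrank ℂ E = n + Module.finrank ℂ F') : Nonempty (LvS n A S F') := by
  choose i χ h1 h2 h3 h4 using fun s : S => (h s.1 s.2).chart hd
  exact ⟨⟨i, χ, h1, h2, h3, h4⟩⟩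

namespace LvS

omit [FiniteDimensional ℂ E] [FiniteDimensional ℂ F']

variable (L : LvS n A S F')

/-- ambient chart -/
def G (s : S) : OpenPartialHomeomorph M (Cn n × F') := (A.e (L.i s)).trans (L.χ s)

/-- chart of `S` at `s` -/
def ch (s : S) : OpenPartialHomeomorph S (Cn n) := slice (L.G s) S (L.iff s) s

theorem ch_source (s : S) : (L.ch s).source = {q : S | (q : M) ∈ (L.G s).source} := rfl

theorem mem_ch (s : S) : s ∈ (L.ch s).source := L.mem s

theorem ch_apply (s q : S) : L.ch s q = (L.G s q).1 := rfl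

theorem ch_symm {s : S} {z : Cn n} (hz : z ∈ (L.ch s).target) :
    (((L.ch s).symm z : S) : M) = (L.G s).symm (z, 0) := slice_symm hz

theorem target_iff {s : S} {z : Cn n} : z ∈ (L.ch s).target ↔ (z, (0 : F')) ∈ (L.G s).target :=
  Iff.rfl

theorem G_source {s : S} {y : M} : y ∈ (L.G s).source ↔
    y ∈ (A.e (L.i s)).source ∧ A.e (L.i s) y ∈ (L.χ s).source := by
  rw [G, OpenPartialHomeomorph.trans_source]
  rfl

theorem G_target {s : S} {z : Cn n × F'} : z ∈ (L.G s).target ↔
    z ∈ (L.χ s).target ∧ (L.χ s).symm z ∈ (A.e (L.i s)).target := by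
  rw [G, OpenPartialHomeomorph.trans_target]
  rfl

/-- the inverse chart, read in an ambient chart -/
theorem diffAt_symm {s : S} {j : A.ι} {z : Cn n} (hz : z ∈ (L.ch s).target)
    (hj : (((L.ch s).symm z : S) : M) ∈ (A.e j).source) :
    DifferentiableAt ℂ (fun w => A.e j (((L.ch s).symm w : S) : M)) z := by
  have h0 := (L.G_target).1 (L.target_iff.1 hz)
  have h1 : DifferentiableAt ℂ (fun w : Cn n => (L.χ s).symm (w, (0 : F'))) z := by
    refine DifferentiableAt.comp (g := (L.χ s).symm) z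
      ((L.hol' s).differentiableAt ((L.χ s).open_target.mem_nhds h0.1)) ?_
    exact differentiableAt_id.prodMk (differentiableAt_const _)
  rw [L.ch_symm hz] at hj
  have h2 : (L.G s).symm (z, 0) = (A.e (L.i s)).symm ((L.χ s).symm (z, 0)) := rfl
  have h3 : DifferentiableAt ℂ (fun w => A.e j ((A.e (L.i s)).symm w)) ((L.χ s).symm (z, 0)) := by
    have h4 := A.tr_diffAt (i := L.i s) (j := j) (x := (A.e (L.i s)).symm ((L.χ s).symm (z, 0)))
      ((A.e (L.i s)).map_target h0.2) (by rw [← h2]; exact hj)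
    rwa [(A.e (L.i s)).right_inv h0.2] at h4
  have h5 := DifferentiableAt.comp (g := fun w => A.e j ((A.e (L.i s)).symm w)) z h3 h1
  refine h5.congr_of_eventuallyEq ?_
  filter_upwards [(L.ch s).open_target.mem_nhds hz] with w hw
  rw [L.ch_symm hw]
  rfl

/-- the chart, read in an ambient chart -/
theorem diffAt_G {s : S} {j : A.ι} {y : M} (hy : y ∈ (L.G s).source) (hj : y ∈ (A.e j).source) :
    DifferentiableAt ℂ (fun w => L.G s ((A.e j).symm w)) (A.e j y) := by
  have h0 := (L.G_source).1 hy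
  have h1 := A.tr_diffAt hj h0.1
  have h2 : DifferentiableAt ℂ (L.χ s) (A.e (L.i s) y) :=
    (L.hol s).differentiableAt ((L.χ s).open_source.mem_nhds h0.2)
  refine DifferentiableAt.comp (g := L.χ s) (A.e j y) ?_ h1
  rw [(A.e j).left_inv hj]
  exact h2

/-- the complex manifold `S` -/
def fam : Fam n S where
  ι := S
  e := L.ch
  cover s := ⟨s, L.mem_ch s⟩
  holo := by
    intro s s' z hz
    obtain ⟨j, hj⟩ := A.cover (((L.ch s).symm z : S) : M)
    have h1 := L.diffAt_symm hz.1 hj
    have hy : (((L.ch s).symm z : S) : M) ∈ (L.G s').source := hz.2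
    have h2 := (L.diffAt_G hy hj).fst
    have h3 := DifferentiableAt.comp (g := fun w => (L.G s' ((A.e j).symm w)).1) z h2 h1
    refine (h3.congr_of_eventuallyEq ?_).differentiableWithinAt
    have hc : ContinuousAt (fun w => (((L.ch s).symm w : S) : M)) z :=
      continuous_subtype_val.continuousAt.comp ((L.ch s).continuousAt_symm hz.1)
    filter_upwards [hc.eventually_mem ((A.e j).open_source.mem_nhds hj)] with w hw
    simp only [Function.comp]
    rw [(A.e j).left_inv hw]
    rfl

/-- the inclusion is holomorphic -/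
theorem holE_val : HolE (toE L.fam) A (Subtype.val : S → M) := by
  refine holE_of_local continuous_subtype_val fun s => ?_
  obtain ⟨j, hj⟩ := A.cover (s : M)
  refine ⟨s, j, L.mem_ch s, hj, ?_⟩
  refine L.diffAt_symm ((L.ch s).map_source (L.mem_ch s)) ?_
  show (((L.ch s).symm (L.ch s s) : S) : M) ∈ (A.e j).source
  rw [(L.ch s).left_inv (L.mem_ch s)]
  exact hj

/-- maps into `S` -/
theorem holE_iff {B : FamE E' M'} {f : M' → S} :
    HolE B (toE L.fam) f ↔ HolE B A (fun y => (f y : M)) := by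
  constructor
  · intro h
    exact L.holE_val.comp h
  · intro h
    refine holE_of_local (continuous_induced_rng.2 h.cont) fun y => ?_
    obtain ⟨i, hi⟩ := B.cover y
    obtain ⟨j, hj⟩ := A.cover (f y : M)
    refine ⟨i, f y, hi, L.mem_ch _, ?_⟩
    have h1 := h.diffAt hi hj
    have h2 := (L.diffAt_G (s := f y) (y := f y) (L.mem (f y)) hj).fst
    have h3 : DifferentiableAt ℂ ((fun w => (L.G (f y) ((A.e j).symm w)).1) ∘
        (fun z => A.e j (f ((B.e i).symm z) : M))) (B.e i y) := by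
      refine DifferentiableAt.comp _ ?_ h1
      rw [(B.e i).left_inv hi]
      exact h2
    refine h3.congr_of_eventuallyEq ?_
    filter_upwards [(h.isOpen_dm i j).mem_nhds ⟨(B.e i).map_source hi, by
      rw [mem_preimage, mem_preimage, (B.e i).left_inv hi]; exact hj⟩] with w hw
    simp only [Function.comp]
    rw [(A.e j).left_inv hw.2]
    rfl

end LvS

end

end Crest.Agent.R272.Gr_559
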