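import Crest.Agent.R272.GrFr_54
import Crest.Agent.R272.GrLv_559

/-!
# R272 (S0415), MOD-GRAPH (helper54): bridge between `FamE` / `Lv` (559) and `Fam` / `Slice` (54)

`ambE F` : the ambient `N × P1^5` as a `FamE`; `isSl_of_lv` : `Lv (ambE F) S F' p` at all points of
`S` (`finrank F' = 5`) gives `IsSl (ambFam F) S N`; `holE_famP_iff`, `holE_amb_iff`,
`lv_slFam`, `slFam_lv` : the two complex structures of `S` agree.
-/

set_option autoImplicit false
set_option linter.unusedSectionVars false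

open Set Filter Topology Complex

namespace Crest.Agent.R272.GrFr_54

open Crest.Agent.R275.Geo Crest.Agent.R273.Fam_835 Crest.Agent.R272.FamP_54
  Crest.Agent.R272.SubF_54 Crest.Agent.R272.Lev_54 Crest.Agent.R272.P1A_54
  Crest.Agent.R272.Gr_559
open Crest.Agent.R272.P1F_54 (nn ps pc ln ld pinv pch p1Fam lift_rel isOpen_ps)
open Crest.Agent.R272.Gr_559.GData (Amb)

noncomputable section

theorem famP_source (b : Bool) : (famP.e b).source = ps b := by
  cases b
  · exact ps_false.symm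
  · exact ps_true.symm

theorem famP_apply {b : Bool} {t : P1} (ht : t ∈ ps b) : famP.e b t = pc b t := by
  cases b
  · exact c0_eq (P1F_54.mem_ps_false.1 ht)
  · exact c1_eq (P1F_54.mem_ps_true.1 ht)

variable {N n : ℕ} {X M : Type} [TopologicalSpace X] [TopologicalSpace M] {F : Fam N X}
  {C : Fam n M}

/-- holomorphic functions of a `FamE` -/
theorem hfa_of_holE {E' : Type} [NormedAddCommGroup E'] [NormedSpace ℂ E'] {Y : Type}
    [TopologicalSpace Y] {B : FamE E' Y} {p : M → Y} (h : HolE (toE C) B p) {x : M} {j : B.ι}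
    (hj : p x ∈ (B.e j).source) : HFA C (fun y => B.e j (p y)) x :=
  fun i hi => h.diffAt (i := i) hi hj

theorem holE_of_hfa {E' : Type} [NormedAddCommGroup E'] [NormedSpace ℂ E'] {Y : Type}
    [TopologicalSpace Y] {B : FamE E' Y} {p : M → Y} (hc : Continuous p)
    (h : ∀ x, ∃ j, p x ∈ (B.e j).source ∧ HFA C (fun y => B.e j (p y)) x) :
    HolE (toE C) B p := by
  refine holE_of_local hc fun x => ?_
  obtain ⟨i, hi⟩ := C.cover x
  obtain ⟨j, hj, h1⟩ := h x
  exact ⟨i, j, hi, hj, h1 i hi⟩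

theorem holE_famP_iff {p : M → P1} : HolE (toE C) famP p ↔ HolC C p1Fam p := by
  constructor
  · intro h
    refine (holC_iff_hfa h.cont).2 fun x => ?_
    obtain ⟨b, hb⟩ := P1F_54.ps_cover (p x)
    refine ⟨b, hb, HFA.comp_left (g := oneL) (f := fun y => pc b (p y))
      oneL.differentiableAt ?_⟩
    refine (hfa_of_holE h (j := b) (by rw [famP_source]; exact hb)).congr ?_
    filter_upwards [h.cont.continuousAt.preimage_mem_nhds ((isOpen_ps b).mem_nhds hb)] with y hy
    rw [famP_apply hy]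
  · intro h
    refine holE_of_hfa h.cont fun x => ?_
    obtain ⟨b, hb⟩ := P1F_54.ps_cover (p x)
    refine ⟨b, by rw [famP_source]; exact hb, ?_⟩
    refine (HFA.comp_right (P1F_54.hf_pc b _ hb) h).congr ?_
    filter_upwards [h.cont.continuousAt.preimage_mem_nhds ((isOpen_ps b).mem_nhds hb)] with y hy
    rw [famP_apply hy]

/-- the ambient space with charts in `E8 N` -/
def ambE (F : Fam N X) : FamE (E8 N) (Amb X) :=
  (toE F).prod ((FamE.pi famP).prod (famP.prod (FamE.pi famP)))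

theorem holE_amb_iff {f : M → Amb X} :
    HolE (toE C) (ambE F) f ↔ HolC C (ambFam F) f := by
  rw [holC_amb_iff]
  constructor
  · intro h
    have h1 : HolE (toE C) (toE F) fun x => (f x).1 := (holE_fst _ _).comp h
    have h2 : HolE (toE C) ((FamE.pi famP).prod (famP.prod (FamE.pi famP))) fun x => (f x).2 :=
      (holE_snd _ _).comp h
    have h3 : HolE (toE C) (FamE.pi famP) fun x => (f x).2.1 := (holE_fst _ _).comp h2
    have h4 : HolE (toE C) (famP.prod (FamE.pi famP)) fun x => (f x).2.2 := (holE_snd _ _).comp h2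
    have h5 : HolE (toE C) famP fun x => (f x).2.2.1 := (holE_fst _ _).comp h4
    have h6 : HolE (toE C) (FamE.pi famP) fun x => (f x).2.2.2 := (holE_snd _ _).comp h4
    exact ⟨holE_toE.1 h1, fun i => holE_famP_iff.1 ((holE_apply famP i).comp h3),
      holE_famP_iff.1 h5, fun i => holE_famP_iff.1 ((holE_apply famP i).comp h6)⟩
  · rintro ⟨h1, h2, h3, h4⟩
    exact holE_prodMk (holE_toE.2 h1) (holE_prodMk (holE_pi fun i => holE_famP_iff.2 (h2 i))
      (holE_prodMk (holE_famP_iff.2 h3) (holE_pi fun i => holE_famP_iff.2 (h4 i))))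

/-- membership in the source of a chart of `ambE` -/
theorem mem_ambE_source {i : F.ι} {s : Fin 2 → Bool} {sv : Bool} {r : Fin 2 → Bool}
    {P : Amb X} : P ∈ ((ambE F).e (i, s, sv, r)).source ↔ P.1 ∈ (F.e i).source ∧
      (∀ j, P.2.1 j ∈ ps (s j)) ∧ P.2.2.1 ∈ ps sv ∧ ∀ j, P.2.2.2 j ∈ ps (r j) := by
  have h1 : P ∈ ((ambE F).e (i, s, sv, r)).source ↔ P.1 ∈ (F.e i).source ∧
      (∀ j ∈ univ, P.2.1 j ∈ (famP.e (s j)).source) ∧ P.2.2.1 ∈ (famP.e sv).source ∧
        ∀ j ∈ univ, P.2.2.2 j ∈ (famP.e (r j)).source := Iff.rfl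
  rw [h1]
  simp only [famP_source, mem_univ, forall_const]

theorem ambE_apply {i : F.ι} {s : Fin 2 → Bool} {sv : Bool} {r : Fin 2 → Bool}
    {P : Amb X} (hs : ∀ j, P.2.1 j ∈ ps (s j)) (hv : P.2.2.1 ∈ ps sv)
    (hr : ∀ j, P.2.2.2 j ∈ ps (r j)) : (ambE F).e (i, s, sv, r) P = cor F i s sv r P := by
  have h1 : (ambE F).e (i, s, sv, r) P = (F.e i P.1, fun j => famP.e (s j) (P.2.1 j),
    famP.e sv P.2.2.1, fun j => famP.e (r j) (P.2.2.2 j)) := rfl
  rw [h1, cor]
  refine Prod.ext rfl (Prod.ext (funext fun j => famP_apply (hs j)) (Prod.ext (famP_apply hv)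
    (funext fun j => famP_apply (hr j))))

theorem slice_aux {S : Set (Amb X)} {F' : Type} [NormedAddCommGroup F'] [NormedSpace ℂ F']
    [FiniteDimensional ℂ F'] (hF' : Module.finrank ℂ F' = 5) {P : Amb X}
    (i : F.ι) (s : Fin 2 → Bool) (sv : Bool) (r : Fin 2 → Bool)
    (hPs : P ∈ ((ambE F).e (i, s, sv, r)).source) {W : Set (E8 N)} (hW : IsOpen W)
    (hPW : (ambE F).e (i, s, sv, r) P ∈ W) {Φ : E8 N → F'} (hΦ : DifferentiableOn ℂ Φ W)
    (hsur : Function.Surjective (fderiv ℂ Φ ((ambE F).e (i, s, sv, r) P)))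
    (hS : ∀ y ∈ ((ambE F).e (i, s, sv, r)).source, (ambE F).e (i, s, sv, r) y ∈ W →
      (y ∈ S ↔ Φ ((ambE F).e (i, s, sv, r) y) = 0)) :
    ∃ c : Slice (ambFam F) S N, P ∈ c.dom := by
  obtain ⟨h1, h2, h3, h4⟩ := mem_ambE_source.1 hPs
  have e1 : (ambE F).e (i, s, sv, r) P = cor F i s sv r P := ambE_apply h2 h3 h4
  refine exists_slice_amb hF' i s sv r h1 h2 h3 h4 hW (e1 ▸ hPW) hΦ ?_ (e1 ▸ hsur)
  intro Q q1 q2 q3 q4 hQW
  have e2 : (ambE F).e (i, s, sv, r) Q = cor F i s sv r Q := ambE_apply q2 q3 q4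
  have h5 := hS Q (mem_ambE_source.2 ⟨q1, q2, q3, q4⟩) (e2.symm ▸ hQW)
  have e3 : Φ ((ambE F).e (i, s, sv, r) Q) = Φ (cor F i s sv r Q) := congrArg Φ e2
  exact h5.trans (by rw [← e3])

/-- **the bridge**: level sets in the sense of 559 have slices -/
theorem isSl_of_lv {S : Set (Amb X)} {F' : Type} [NormedAddCommGroup F'] [NormedSpace ℂ F']
    [FiniteDimensional ℂ F'] (hF' : Module.finrank ℂ F' = 5)
    (h : ∀ p ∈ S, Lv (ambE F) S F' p) : IsSl (ambFam F) S N := by
  intro P hP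
  obtain ⟨idx, hPs, W, hW, hPW, Φ, hΦ, hsur, hS⟩ := (h P hP).ex
  exact slice_aux hF' idx.1 idx.2.1 idx.2.2.1 idx.2.2.2 hPs hW hPW hΦ hsur hS

section same

variable {S : Set (Amb X)} {F' : Type} [NormedAddCommGroup F'] [NormedSpace ℂ F']
  (L : LvS N (ambE F) S F') (h : IsSl (ambFam F) S N)

/-- the two structures agree -/
theorem lv_slFam : HolC L.fam (slFam h) _root_.id :=
  slFam_lift h (holE_amb_iff.1 L.holE_val)

theorem slFam_lv : HolC (slFam h) L.fam _root_.id :=
  holE_toE.1 (L.holE_iff.2 (holE_amb_iff.2 (slFam_hol h)))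

end same

end

end Crest.Agent.R272.GrFr_54
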