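import Crest.Agent.R272.Gr4_559
import Crest.Agent.R272.Gr4_54

/-!
# R272 (S0415), MOD-GRAPH (helper559), file 6: `X1` as a complex manifold

* `isSl_X1 D : IsSl (ambFam F) D.X1 3` (54's slices, the hypothesis of 302's `A.fam`);
* `famX1 D : Fam 3 D.X1` := `slFam (isSl_X1 D)`; `holC_val`, `holC_iff`, `holC_pz`, `holC_t`,
  `holC_v`, `holC_k`;
* `X1L D : LvS 3 (ambF F) D.X1 _` : the same manifold from the explicit equations.
-/

set_option autoImplicit false
set_option linter.unusedSectionVars false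

open Set Filter Topology Complex

namespace Crest.Agent.R272.Gr_559

open Crest.Agent.R275.Geo Crest.Agent.R273.Fam_835 Crest.Agent.R272.Quot_783
  Crest.Agent.R272.FamP_54 Crest.Agent.R272.SubF_54 Crest.Agent.R272.P1A_54
  Crest.Agent.R272.GrFr_54
open Crest.Agent.R272.P1F_54 (p1Fam)

noncomputable section

variable {N : Type} [TopologicalSpace N] {F : Fam 3 N} (D : GData F)

theorem ambE_eq : ambE F = ambF F := rfl

/-- **`X1` has slices at every point** -/
theorem isSl_X1 : IsSl (ambFam F) D.X1 3 := by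
  refine isSl_of_lv (F' := (Fin 3 → ℂ) × (Fin 2 → ℂ)) ?_ fun s hs => lv_X1 D s hs
  rw [Module.finrank_prod, Module.finrank_fintype_fun_eq_card, Module.finrank_fintype_fun_eq_card,
    Fintype.card_fin, Fintype.card_fin]

/-- **the complex manifold `X1`** -/
def famX1 : Fam 3 D.X1 := slFam (isSl_X1 D)

theorem holC_val : HolC (famX1 D) (ambFam F) (Subtype.val : D.X1 → GData.Amb N) :=
  slFam_hol (isSl_X1 D)

variable {m : ℕ} {P : Type} [TopologicalSpace P] {E : Fam m P}

/-- maps into `X1` -/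
theorem holC_iff_val {f : P → D.X1} :
    HolC E (famX1 D) f ↔ HolC E (ambFam F) (fun x => (f x : GData.Amb N)) :=
  slFam_lift_iff (isSl_X1 D)

theorem holC_iff {f : P → D.X1} : HolC E (famX1 D) f ↔ HolC E F (fun x => D.pz (f x)) ∧
    (∀ i, HolC E p1Fam (fun x => D.t i (f x))) ∧ HolC E p1Fam (fun x => D.v (f x)) ∧
      ∀ i, HolC E p1Fam (fun x => D.k i (f x)) := by
  rw [holC_iff_val, holC_amb_iff]
  rfl

theorem holC_pz : HolC (famX1 D) F D.pz := ((holC_iff D).1 (HolC.id _)).1
theorem holC_t (i : Fin 2) : HolC (famX1 D) p1Fam (D.t i) := ((holC_iff D).1 (HolC.id _)).2.1 i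
theorem holC_v : HolC (famX1 D) p1Fam D.v := ((holC_iff D).1 (HolC.id _)).2.2.1
theorem holC_k (i : Fin 2) : HolC (famX1 D) p1Fam (D.k i) := ((holC_iff D).1 (HolC.id _)).2.2.2 i

/-- the same manifold, from the explicit equations -/
theorem exists_lvX1 : Nonempty (LvS 3 (ambF F) D.X1 ((Fin 3 → ℂ) × (Fin 2 → ℂ))) := by
  refine exists_lvS (lv_X1 D) ?_
  simp [Module.finrank_prod]

end

end Crest.Agent.R272.Gr_559
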