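import Crest.Agent.R272.LbExt2_259

/-!
# LB-ASM (row 272), part 1 (helper585): abstract assembly of the lower bound of S0415

`G` acts on `E` (the model `X_1`), `K` = even part (normal, index two), `sw` the base swap,
`R` a normal subgroup containing `sw`, `R₀ = R ⊓ K`.  `th : E → Cir` continuous, zero off `O`, the
`R₀`-translates of `O` disjoint and locally finite.  `thHat = per th + per th ∘ sw`.
-/

set_option autoImplicit false
set_option linter.unusedSectionVars false

open Topology Set Filter unitInterval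
open Crest.Agent.R272.Per_939 Crest.Agent.R272.CovOrd_463 Crest.Agent.R272.LbExt_259

noncomputable section

namespace Crest.Agent.R272.LBAsm_585

variable {G E : Type*} [Group G] [TopologicalSpace E] [MulAction G E]

/-- Algebraic data: even part, swap, reflection subgroup. -/
structure Alg (K R : Subgroup G) (sw : G) : Prop where
  Kn : K.Normal
  Rn : R.Normal
  mem : sw ∈ R
  sq : sw * sw = 1
  cov : ∀ g : G, g ∈ K ∨ g * sw ∈ K

/-- Analytic data: the circle valued function and its support. -/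
structure Ana (R₀ : Subgroup G) (th : E → Cir) (O : Set E) : Prop where
  thc : Continuous th
  th0 : ∀ y, th y ≠ 0 → y ∈ O
  lf : LocFin R₀ O
  disj : ∀ g : R₀, ∀ x ∈ O, g • x ∈ O → g = 1

/-- The final function. -/
def hat (R₀ : Subgroup G) (sw : G) (th : E → Cir) (x : E) : Cir :=
  per R₀ th x + per R₀ th (sw • x)

section alg

variable {K R : Subgroup G} {sw : G} (A : Alg K R sw) {th : E → Cir} {O : Set E}

include A

theorem inv_eq : sw⁻¹ = sw := inv_eq_of_mul_eq_one_right A.sq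

theorem conj_mem {g : G} (hg : g ∈ R ⊓ K) (x : G) : x * g * x⁻¹ ∈ R ⊓ K :=
  ⟨A.Rn.conj_mem g hg.1 x, A.Kn.conj_mem g hg.2 x⟩

/-- An element of `R` is in `R₀` or in `R₀ sw`. -/
theorem cases_R {g : G} (hg : g ∈ R) : g ∈ R ⊓ K ∨ g * sw ∈ R ⊓ K := by
  rcases A.cov g with h | h
  · exact Or.inl ⟨hg, h⟩
  · exact Or.inr ⟨R.mul_mem hg A.mem, h⟩

/-- The commutator `sw g sw g⁻¹` is in `R₀`. -/
theorem comm_mem (g : G) : sw * (g * sw * g⁻¹) ∈ R ⊓ K := by
  refine ⟨R.mul_mem A.mem (A.Rn.conj_mem sw A.mem g), ?_⟩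
  rcases A.cov g with h | h
  · -- `g ∈ K`: `sw g sw⁻¹ · g⁻¹`
    have h1 : sw * g * sw⁻¹ ∈ K := A.Kn.conj_mem g h sw
    rw [inv_eq A] at h1
    have h2 : sw * (g * sw * g⁻¹) = (sw * g * sw) * g⁻¹ := by group
    rw [h2]
    exact K.mul_mem h1 (K.inv_mem h)
  · -- `g sw ∈ K`: `sw (gsw) g⁻¹ = sw (gsw) sw⁻¹ · (gsw)⁻¹`
    have h1 : sw * (g * sw) * sw⁻¹ ∈ K := A.Kn.conj_mem _ h sw
    have h2 : sw * (g * sw * g⁻¹) = (sw * (g * sw) * sw⁻¹) * (g * sw)⁻¹ := by
      rw [mul_inv_rev, inv_eq A]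
      have : sw * (g * sw) * sw * (sw * g⁻¹) = sw * (g * sw) * (sw * sw) * g⁻¹ := by group
      rw [this, A.sq]
      group
    rw [h2]
    exact K.mul_mem h1 (K.inv_mem h)

theorem per_smul' {g : G} (hg : g ∈ R ⊓ K) (x : E) :
    per (↥(R ⊓ K)) th (g • x) = per (↥(R ⊓ K)) th x :=
  per_smul (G := ↥(R ⊓ K)) th ⟨g, hg⟩ x

/-- invariance under `R₀` -/
theorem hat_smul_even {g : G} (hg : g ∈ R ⊓ K) (x : E) :
    hat (R ⊓ K) sw th (g • x) = hat (R ⊓ K) sw th x := by
  unfold hat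
  rw [per_smul' A hg]
  have h1 : sw • g • x = (sw * g * sw⁻¹) • sw • x := by
    rw [smul_smul, smul_smul]; congr 1; group
  rw [h1, per_smul' A (conj_mem A hg sw)]

/-- invariance under the swap -/
theorem hat_smul_swap (x : E) : hat (R ⊓ K) sw th (sw • x) = hat (R ⊓ K) sw th x := by
  unfold hat
  rw [smul_smul, A.sq, one_smul, add_comm]

/-- invariance under `R` -/
theorem hat_smul {g : G} (hg : g ∈ R) (x : E) :
    hat (R ⊓ K) sw th (g • x) = hat (R ⊓ K) sw th x := by
  rcases cases_R A hg with h | h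
  · exact hat_smul_even A h x
  · have h1 : g • x = (g * sw) • sw • x := by
      rw [smul_smul, mul_assoc, A.sq, mul_one]
    rw [h1, hat_smul_even A h, hat_smul_swap A]

/-- vanishing on the curve `e` and its translates -/
theorem hat_eq_zero {e₀ : Set E} (hneg : ∀ x ∈ e₀, ∀ g ∈ K, th (g • sw • x) = - th (g • x))
    (g : G) {x : E} (hx : x ∈ e₀) : hat (R ⊓ K) sw th (g • x) = 0 := by
  -- reduction to `g ∈ K`
  have key : ∀ g ∈ K, per (↥(R ⊓ K)) th (g • x) + per (↥(R ⊓ K)) th (g • sw • x) = 0 := by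
    intro g hg
    have h1 : ∀ r : ↥(R ⊓ K), th (r⁻¹ • g • sw • x) = - th (r⁻¹ • g • x) := by
      intro r
      have h2 : ∀ y : E, r⁻¹ • g • y = (((r : G)⁻¹) * g) • y := by
        intro y
        rw [mul_smul]; rfl
      rw [h2, h2]
      exact hneg x hx _ (K.mul_mem (K.inv_mem r.2.2) hg)
    have h3 : per (↥(R ⊓ K)) th (g • sw • x) = - per (↥(R ⊓ K)) th (g • x) := by
      unfold per
      rw [← finsum_neg_distrib]
      exact finsum_congr h1
    rw [h3, add_neg_cancel]
  have hsg : ∀ g : G, per (↥(R ⊓ K)) th (sw • g • x) = per (↥(R ⊓ K)) th (g • sw • x) := by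
    intro g
    have h1 : sw • g • x = (sw * (g * sw * g⁻¹)) • g • sw • x := by
      rw [smul_smul, smul_smul, smul_smul]
      congr 1
      have : sw * (g * sw * g⁻¹) * g * sw = sw * g * (sw * sw) := by group
      rw [this, A.sq, mul_one]
    rw [h1, per_smul' A (comm_mem A g)]
  unfold hat
  rw [hsg]
  rcases A.cov g with h | h
  · exact key g h
  · have h1 := key _ h
    have h2 : (g * sw) • sw • x = g • x := by
      rw [smul_smul, mul_assoc, A.sq, mul_one]
    rw [h2, mul_smul, add_comm] at h1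
    exact h1

end alg

section ana

variable [ContinuousConstSMul G E] {K R : Subgroup G} {sw : G} {th : E → Cir} {O : Set E}

theorem continuous_hat (N : Ana (R ⊓ K) th O) : Continuous (hat (R ⊓ K) sw th) := by
  haveI : ContinuousConstSMul (↥(R ⊓ K)) E :=
    ⟨fun g => (continuous_const_smul (g : G) : Continuous fun x : E => (g : G) • x)⟩
  have h1 : Continuous (per (↥(R ⊓ K)) th) := continuous_per N.lf N.thc N.th0
  unfold hat
  exact h1.add (h1.comp (continuous_const_smul sw))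

theorem hat_eq (N : Ana (R ⊓ K) th O) {x : E} (hx : x ∈ O) (hx' : sw • x ∈ O) :
    hat (R ⊓ K) sw th x = th x + th (sw • x) := by
  unfold hat
  rw [per_eq_self (G := ↥(R ⊓ K)) N.disj N.th0 hx, per_eq_self (G := ↥(R ⊓ K)) N.disj N.th0 hx']

end ana

section main

variable {X X' B Z W : Type*} [TopologicalSpace X] [TopologicalSpace X'] [TopologicalSpace B]
  [TopologicalSpace Z] [TopologicalSpace W] [MulAction G B] [ContinuousConstSMul G E]
variable {K R : Subgroup G} {sw : G} {th : E → Cir} {O : Set E}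
variable {β : E → B} {f : E → X} {k : B → Z} {h : B → W} {p : W → Z} {π : X → Z} {π' : X' → Z}

/-- **LOWER BOUND, assembled** (surgery form). -/
theorem lb_main [RegularSpace Z] (A : Alg K R sw) (N : Ana (R ⊓ K) th O)
    (D : QData R β f k h p π) {eX : Set X} {V : Set X'} {ψ : X' → X} (S : Surg π π' V ψ eX)
    {e₀ : Set E} (heX : ∀ y, f y ∈ eX → ∃ g : G, ∃ x ∈ e₀, y = g • x)
    (hneg : ∀ x ∈ e₀, ∀ g ∈ K, th (g • sw • x) = - th (g • x))
    {a b : E} (γ : Path a b) (hγ : ∀ t, γ t ∈ O) (hγ' : ∀ t, sw • γ t ∈ O)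
    {g : G} (hg : g ∈ R) (hab : g • a = b) {d d' : ℝ} (hdd : d + d' ≠ 0)
    (hd : HasDeg (fun t => th (γ t)) d) (hd' : HasDeg (fun t => th (sw • γ t)) d')
    {x : X'} (γX : Path x x) (hγV : ∀ t, γX t ∈ V) (hγψ : ∀ t, ψ (γX t) = f (γ t)) :
    ¬ IsOfFinOrder (cls γX) := by
  refine QData.not_isOfFinOrder_surg D S (continuous_hat (sw := sw) N)
    (fun g hg e => hat_smul A hg e) ?_ γ hg hab hdd ?_ γX hγV hγψ
  · intro y hy
    obtain ⟨g, x, hx, rfl⟩ := heX y hy
    exact hat_eq_zero A hneg g hx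
  · exact hasDeg_congr (hd.add hd') (fun t => (hat_eq N (hγ t) (hγ' t)).symm)

/-- **LOWER BOUND, assembled** (no surgery). -/
theorem lb_main' (A : Alg K R sw) (N : Ana (R ⊓ K) th O) (D : QData R β f k h p π)
    {a b : E} (γ : Path a b) (hγ : ∀ t, γ t ∈ O) (hγ' : ∀ t, sw • γ t ∈ O)
    {g : G} (hg : g ∈ R) (hab : g • a = b) {d d' : ℝ} (hdd : d + d' ≠ 0)
    (hd : HasDeg (fun t => th (γ t)) d) (hd' : HasDeg (fun t => th (sw • γ t)) d')
    {x : X} (γX : Path x x) (hγψ : ∀ t, γX t = f (γ t)) :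
    ¬ IsOfFinOrder (cls γX) := by
  refine QData.not_isOfFinOrder D (continuous_hat (sw := sw) N)
    (fun g hg e => hat_smul A hg e) γ hg hab hdd ?_ γX hγψ
  exact hasDeg_congr (hd.add hd') (fun t => (hat_eq N (hγ t) (hγ' t)).symm)

end main

end Crest.Agent.R272.LBAsm_585
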