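import Mathlib

/-!
# LB-SQRT, part 1 (row 272, lower bound for S0415; helper936; Mathlib only)

Second half of (4) of 585 #5391:
(S1) `root_of_homotopy`, (S2) `root_star`, (S4) `root_annulus`, (S6) `theta_cont`.
-/

set_option autoImplicit false

open Set Filter Topology
open scoped unitInterval

noncomputable section

namespace Crest.Agent.R272.LbSq_936

/-- (S1) a nonvanishing continuous function on `I × X` which has a continuous square root at
time `0` has a continuous square root at time `1` (`X` is any topological space). -/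
theorem root_of_homotopy {X : Type*} [TopologicalSpace X] (h : I × X → ℂ) (hc : Continuous h)
    (h0 : ∀ p, h p ≠ 0) (r0 : X → ℂ) (hr0c : Continuous r0) (hr0 : ∀ x, r0 x ^ 2 = h (0, x)) :
    ∃ r : X → ℂ, Continuous r ∧ ∀ x, r x ^ 2 = h (1, x) := by
  have hr0ne : ∀ x, r0 x ≠ 0 := by
    intro x hx
    apply h0 (0, x)
    rw [← hr0 x, hx]
    simp
  have cov := isCoveringMap_npow (𝕜 := ℂ) 2 (by norm_num)
  let H : C(I × X, {x : ℂ // x ≠ 0}) := ⟨fun p => ⟨h p, h0 p⟩, by fun_prop⟩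
  let f : C(X, {x : ℂ // x ≠ 0}) := ⟨fun x => ⟨r0 x, hr0ne x⟩, by fun_prop⟩
  have H0 : ∀ a, H (0, a) = (fun x : {x : ℂ // x ≠ 0} ↦ (⟨x ^ 2, pow_ne_zero 2 x.2⟩ :
      {x : ℂ // x ≠ 0})) (f a) := by
    intro a
    apply Subtype.ext
    show h (0, a) = r0 a ^ 2
    exact (hr0 a).symm
  let L := cov.liftHomotopy H f H0
  have hL := cov.liftHomotopy_lifts H f H0
  refine ⟨fun x => (L (1, x) : ℂ), by fun_prop, fun x => ?_⟩
  have := congrArg Subtype.val (congrFun hL (1, x))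
  exact this

/-- (S2) square root of `h0 ∘ z` when the segments `[0, z x]` avoid the zeros of `h0`. -/
theorem root_star {V X : Type*} [NormedAddCommGroup V] [NormedSpace ℝ V]
    [TopologicalSpace X] (z : X → V) (hz : Continuous z) (B : Set V) (h0 : V → ℂ)
    (hcont : ContinuousOn h0 B)
    (hB : ∀ x, ∀ t : ℝ, 0 ≤ t → t ≤ 1 → t • z x ∈ B)
    (hne : ∀ x, ∀ t : ℝ, 0 ≤ t → t ≤ 1 → h0 (t • z x) ≠ 0) :
    ∃ r : X → ℂ, Continuous r ∧ ∀ x, r x ^ 2 = h0 (z x) := by
  obtain ⟨c, hc⟩ : ∃ c : ℂ, c ^ 2 = h0 0 := IsAlgClosed.exists_pow_nat_eq _ two_pos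
  let h : I × X → ℂ := fun p => h0 ((p.1 : ℝ) • z p.2)
  have hcth : Continuous h := by
    have h1 : Continuous fun p : I × X => ((p.1 : ℝ) • z p.2) := by fun_prop
    have := hcont.comp_continuous h1 (fun p => hB p.2 p.1 p.1.2.1 p.1.2.2)
    exact this
  obtain ⟨r, hr, hr2⟩ := root_of_homotopy h hcth (fun p => hne p.2 p.1 p.1.2.1 p.1.2.2)
    (fun _ => c) continuous_const (fun x => by simp [h, hc])
  exact ⟨r, hr, fun x => by simpa [h] using hr2 x⟩

/-- the principal root of `1 - w`, continuous on the unit disc -/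
def sq1 (w : ℂ) : ℂ := (1 - w) ^ (1 / 2 : ℂ)

theorem sq1_sq (w : ℂ) : sq1 w ^ 2 = 1 - w := by
  rw [sq1, one_div]
  exact_mod_cast Complex.cpow_nat_inv_pow (1 - w) (two_ne_zero)

theorem sq1_cont : ContinuousOn sq1 (Metric.ball 0 1) := by
  intro w hw
  rw [mem_ball_zero_iff] at hw
  have h1 : 1 - w ∈ Complex.slitPlane := by
    left
    have := Complex.abs_re_le_norm w
    have h3 := abs_le.1 this
    simp only [Complex.sub_re, Complex.one_re]
    linarith
  have h2 : ContinuousAt sq1 w := by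
    have : ContinuousAt (fun w : ℂ => 1 - w) w := by fun_prop
    exact ContinuousAt.comp (f := fun w : ℂ => 1 - w) (continuousAt_cpow_const h1) this
  exact h2.continuousWithinAt

/-- an affine factor on the annulus: `a + b s` -/
def An (c : ℂ) (r1 r2 : ℝ) : Set ℂ := {s | r1 < ‖s - c‖ ∧ ‖s - c‖ < r2}

/-- a factor with zero outside (or at infinity) has a continuous root on the annulus -/
theorem root_out {c : ℂ} {r1 r2 : ℝ} (a b : ℂ)
    (h : ∀ s, ‖s - c‖ < r2 → a + b * s ≠ 0) (hr2 : 0 < r2) :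
    ∃ q : ℂ → ℂ, ContinuousOn q (An c r1 r2) ∧ ∀ s ∈ An c r1 r2, q s ^ 2 = a + b * s := by
  have hc : a + b * c ≠ 0 := h c (by simpa using hr2)
  obtain ⟨k, hk⟩ : ∃ k : ℂ, k ^ 2 = a + b * c := IsAlgClosed.exists_pow_nat_eq _ two_pos
  refine ⟨fun s => k * sq1 (-(b * (s - c)) / (a + b * c)), ?_, ?_⟩
  · refine continuousOn_const.mul (sq1_cont.comp (by fun_prop) ?_)
    intro s hs
    rw [mem_ball_zero_iff, norm_div, norm_neg, norm_mul, div_lt_one (norm_pos_iff.2 hc)]
    by_contra hcon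
    push Not at hcon
    have hb : b ≠ 0 := by
      rintro rfl
      simp at hcon hc
      exact hc hcon
    have hb' : 0 < ‖b‖ := norm_pos_iff.2 hb
    have := h (-a / b) ?_
    · apply this
      field_simp
      ring
    · have e : -a / b - c = -(a + b * c) / b := by field_simp; ring
      rw [e, norm_div, norm_neg, div_lt_iff₀ hb']
      calc ‖a + b * c‖ ≤ ‖b‖ * ‖s - c‖ := hcon
        _ < r2 * ‖b‖ := by
          rw [mul_comm]
          exact mul_lt_mul_of_pos_right hs.2 hb'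
  · intro s hs
    rw [mul_pow, sq1_sq, hk]
    field_simp
    ring

/-- a pair of factors with zeros inside has a continuous root on the annulus -/
theorem root_in {c : ℂ} {r1 r2 : ℝ} (hr1 : 0 ≤ r1) (a b a' b' : ℂ) (hb : b ≠ 0) (hb' : b' ≠ 0)
    (h : ‖-a / b - c‖ ≤ r1) (h' : ‖-a' / b' - c‖ ≤ r1) :
    ∃ q : ℂ → ℂ, ContinuousOn q (An c r1 r2) ∧
      ∀ s ∈ An c r1 r2, q s ^ 2 = (a + b * s) * (a' + b' * s) := by
  obtain ⟨k, hk⟩ : ∃ k : ℂ, k ^ 2 = b * b' := IsAlgClosed.exists_pow_nat_eq _ two_pos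
  have hne : ∀ s ∈ An c r1 r2, s - c ≠ 0 := by
    intro s hs h0
    have := hs.1
    rw [h0, norm_zero] at this
    linarith
  have key : ∀ e : ℂ, ‖e - c‖ ≤ r1 →
      ContinuousOn (fun s => sq1 ((e - c) / (s - c))) (An c r1 r2) := by
    intro e he
    refine sq1_cont.comp ?_ ?_
    · exact continuousOn_const.div (by fun_prop) hne
    · intro s hs
      rw [mem_ball_zero_iff, norm_div, div_lt_one (norm_pos_iff.2 (hne s hs))]
      exact lt_of_le_of_lt he hs.1
  refine ⟨fun s => k * (s - c) * (sq1 ((-a / b - c) / (s - c)) * sq1 ((-a' / b' - c) / (s - c))),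
    ?_, ?_⟩
  · exact (by fun_prop : ContinuousOn (fun s : ℂ => k * (s - c)) _).mul ((key _ h).mul (key _ h'))
  · intro s hs
    have hs0 := hne s hs
    rw [mul_pow, mul_pow, mul_pow, sq1_sq, sq1_sq, hk]
    field_simp
    ring

/-- (S4) product form -/
theorem root_annulus {ι : Type*} [DecidableEq ι] (S : Finset ι) (a b : ι → ℂ) {c : ℂ} {r1 r2 : ℝ}
    (hr1 : 0 ≤ r1) (hr2 : 0 < r2) (i j : ι) (hi : i ∈ S) (hj : j ∈ S) (hij : i ≠ j)
    (hbi : b i ≠ 0) (hbj : b j ≠ 0)
    (hin : ‖-a i / b i - c‖ ≤ r1) (hjn : ‖-a j / b j - c‖ ≤ r1)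
    (hout : ∀ l ∈ S, l ≠ i → l ≠ j → ∀ s, ‖s - c‖ < r2 → a l + b l * s ≠ 0) :
    ∃ q : ℂ → ℂ, ContinuousOn q (An c r1 r2) ∧
      ∀ s ∈ An c r1 r2, q s ^ 2 = ∏ l ∈ S, (a l + b l * s) := by
  obtain ⟨q0, hq0, hq0'⟩ := root_in (r2 := r2) hr1 (a i) (b i) (a j) (b j) hbi hbj hin hjn
  have : ∀ T : Finset ι, (∀ l ∈ T, l ∈ S ∧ l ≠ i ∧ l ≠ j) → ∃ q : ℂ → ℂ,
      ContinuousOn q (An c r1 r2) ∧ ∀ s ∈ An c r1 r2, q s ^ 2 = ∏ l ∈ T, (a l + b l * s) := by
    intro T
    induction T using Finset.induction_on with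
    | empty => intro _; exact ⟨fun _ => 1, continuousOn_const, fun s _ => by simp⟩
    | insert l T hl ih =>
      intro hT
      obtain ⟨q, hq, hq'⟩ := ih fun l' hl' => hT l' (Finset.mem_insert_of_mem hl')
      have hl3 := hT l (Finset.mem_insert_self _ _)
      obtain ⟨q1, hq1, hq1'⟩ := root_out (r1 := r1) (a l) (b l) (hout l hl3.1 hl3.2.1 hl3.2.2) hr2
      refine ⟨fun s => q1 s * q s, hq1.mul hq, fun s hs => ?_⟩
      rw [Finset.prod_insert hl, mul_pow, hq1' s hs, hq' s hs]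
  obtain ⟨q, hq, hq'⟩ := this ((S.erase i).erase j) (by
    intro l hl
    simp only [Finset.mem_erase] at hl
    exact ⟨hl.2.2, hl.2.1, hl.1⟩)
  refine ⟨fun s => q0 s * q s, hq0.mul hq, fun s hs => ?_⟩
  rw [mul_pow, hq0' s hs, hq' s hs]
  have hj' : j ∈ S.erase i := Finset.mem_erase.2 ⟨hij.symm, hj⟩
  rw [mul_assoc, Finset.mul_prod_erase _ (fun l => a l + b l * s) hj',
    Finset.mul_prod_erase _ (fun l => a l + b l * s) hi]

/-- (S5) the sheet function: if `y^2 = g^2`, `g ≠ 0`, then `y/g` is continuous with values `±1`. -/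
theorem sheet {Y : Type*} [TopologicalSpace Y] {O : Set Y} {y g : Y → ℂ} (hy : ContinuousOn y O)
    (hg : ContinuousOn g O) (hg0 : ∀ x ∈ O, g x ≠ 0) (h : ∀ x ∈ O, y x ^ 2 = g x ^ 2) :
    ContinuousOn (fun x => (y x / g x).re) O ∧
      ∀ x ∈ O, ((y x / g x).re = 1 ∧ y x = g x) ∨ ((y x / g x).re = -1 ∧ y x = -g x) := by
  refine ⟨Complex.continuous_re.comp_continuousOn (hy.div hg hg0), fun x hx => ?_⟩
  have h0 := hg0 x hx
  rcases sq_eq_sq_iff_eq_or_eq_neg.1 (h x hx) with h1 | h1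
  · left
    refine ⟨?_, h1⟩
    rw [h1, div_self h0]
    simp
  · right
    refine ⟨?_, h1⟩
    rw [h1, neg_div, div_self h0]
    simp

/-- (S6) `ε T mod 1` is continuous. -/
theorem theta_cont {Y : Type*} [TopologicalSpace Y] (T : Y → ℝ) (hT : Continuous T)
    (hT0 : ∀ y, 0 ≤ T y) (hT1 : ∀ y, T y ≤ 1) (ε : Y → ℝ) (hε : ∀ y, ε y = 1 ∨ ε y = -1)
    (hεc : ContinuousOn ε {y | 0 < T y ∧ T y < 1}) :
    Continuous (fun y => ((ε y * T y : ℝ) : AddCircle (1 : ℝ))) := by
  have hopen : IsOpen {y | 0 < T y ∧ T y < 1} :=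
    (isOpen_lt continuous_const hT).inter (isOpen_lt hT continuous_const)
  rw [continuous_iff_continuousAt]
  intro y
  by_cases hy : 0 < T y ∧ T y < 1
  · have h1 : ContinuousAt ε y := hεc.continuousAt (hopen.mem_nhds hy)
    exact (AddCircle.continuous_mk' (1 : ℝ)).continuousAt.comp (h1.mul hT.continuousAt)
  · -- `T y ∈ {0, 1}`
    have h2 : T y = 0 ∨ T y = 1 := by
      rcases (hT0 y).eq_or_lt with h | h
      · exact Or.inl h.symm
      · right
        by_contra h3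
        exact hy ⟨h, lt_of_le_of_ne (hT1 y) h3⟩
    -- the norm on the circle
    have key : ∀ x, ‖((ε x * T x : ℝ) : AddCircle (1 : ℝ))‖ ≤ |T x| ∧
        ‖((ε x * T x : ℝ) : AddCircle (1 : ℝ))‖ ≤ |T x - 1| := by
      intro x
      have e1 : ‖((ε x * T x : ℝ) : AddCircle (1 : ℝ))‖ = ‖((T x : ℝ) : AddCircle (1 : ℝ))‖ := by
        rcases hε x with h | h
        · rw [h, one_mul]
        · rw [h, neg_one_mul, AddCircle.coe_neg, norm_neg]
      rw [e1]
      constructor
      · rw [← Real.norm_eq_abs]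
        exact QuotientAddGroup.norm_mk_le_norm (S := AddSubgroup.zmultiples (1 : ℝ)) (m := T x)
      · have e2 : ((T x : ℝ) : AddCircle (1 : ℝ)) = ((T x - 1 : ℝ) : AddCircle (1 : ℝ)) := by
          rw [AddCircle.coe_sub, AddCircle.coe_period, sub_zero]
        rw [e2, ← Real.norm_eq_abs]
        exact QuotientAddGroup.norm_mk_le_norm (S := AddSubgroup.zmultiples (1 : ℝ)) (m := T x - 1)
    have hzero : ((ε y * T y : ℝ) : AddCircle (1 : ℝ)) = 0 := by
      rw [← norm_le_zero_iff]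
      rcases h2 with h | h
      · exact (key y).1.trans (by rw [h]; simp)
      · exact (key y).2.trans (by rw [h]; simp)
    rw [ContinuousAt, hzero, tendsto_zero_iff_norm_tendsto_zero]
    rcases h2 with h | h
    · refine squeeze_zero (fun _ => norm_nonneg _) (fun x => (key x).1) ?_
      have : Tendsto (fun x => |T x|) (𝓝 y) (𝓝 |T y|) := hT.continuousAt.abs
      simpa [h] using this
    · refine squeeze_zero (fun _ => norm_nonneg _) (fun x => (key x).2) ?_
      have : Tendsto (fun x => |T x - 1|) (𝓝 y) (𝓝 |T y - 1|) :=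
        (hT.sub continuous_const).continuousAt.abs
      simpa [h] using this

end Crest.Agent.R272.LbSq_936
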