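import Mathlib
import Crest.Agent.R272.Wei4_392

/-!
# LB-SQRT, part 2 (row 272, lower bound for S0415; helper936)

(S3) `Div.split`: a function on the ball with divisor `S` is, for every finite `S₀ ⊆ S`,
`(∏_{v ∈ S₀} lin v) * h₀` with `h₀` holomorphic with divisor `S \ S₀`.
-/

set_option autoImplicit false

open Set Filter Topology Metric
open Crest.Agent.R272.EBase_641 Crest.Agent.R272.Wei_392
open scoped ComplexConjugate

noncomputable section

namespace Crest.Agent.R272.LbSq_936

variable {n : ℕ}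

/-- the complement of finitely many proper affine hyperplanes is dense and open -/
theorem dense_prod (G : Finset (V1 n)) (hG : ∀ v ∈ G, v.1 ≠ 0) :
    Dense {w : E n | ∏ v ∈ G, lin v w ≠ 0} ∧ IsOpen {w : E n | ∏ v ∈ G, lin v w ≠ 0} := by
  classical
  induction G using Finset.induction_on with
  | empty => simp
  | insert a G ha ih =>
    obtain ⟨ih1, ih2⟩ := ih fun v hv => hG v (Finset.mem_insert_of_mem hv)
    have e1 : {w : E n | ∏ v ∈ insert a G, lin v w ≠ 0} =
        {w | lin a w ≠ 0} ∩ {w | ∏ v ∈ G, lin v w ≠ 0} := by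
      ext w
      simp [Finset.prod_insert ha]
    have e2 : IsOpen {w : E n | lin a w ≠ 0} :=
      isOpen_ne_fun (differentiable_lin a).continuous continuous_const
    have e3 : Dense {w : E n | lin a w ≠ 0} := by
      rw [Metric.dense_iff]
      intro w r hr
      by_cases hw : lin a w = 0
      · have ha1 : a.1 ≠ 0 := hG a (Finset.mem_insert_self _ _)
        have ha2 : (0 : ℝ) < ‖a.1‖ := norm_pos_iff.2 ha1
        refine ⟨w + ((r / 2 / ‖a.1‖ : ℝ) : ℂ) • a.1, ?_, ?_⟩
        · rw [mem_ball, dist_eq_norm, add_sub_cancel_left, norm_smul, Complex.norm_real,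
            Real.norm_of_nonneg (by positivity)]
          rw [div_mul_cancel₀ _ ha2.ne']
          linarith
        · show lin a _ ≠ 0
          rw [lin_sub, hw, zero_add, inner_smul_right, inner_self_eq_norm_sq_to_K]
          refine mul_ne_zero ?_ ?_
          · have : r / 2 / ‖a.1‖ ≠ 0 := by positivity
            exact_mod_cast this
          · simpa using ha1
      · exact ⟨w, mem_ball_self hr, hw⟩
    rw [e1]
    exact ⟨e3.inter_of_isOpen_left ih1 e2, e2.inter ih2⟩

theorem differentiable_prod_lin (G : Finset (V1 n)) :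
    Differentiable ℂ (fun w : E n => ∏ v ∈ G, lin v w) := by
  classical
  induction G using Finset.induction_on with
  | empty => simp
  | insert a G ha ih =>
    have : (fun w : E n => ∏ v ∈ insert a G, lin v w) =
        fun w => lin a w * ∏ v ∈ G, lin v w := by
      funext w
      rw [Finset.prod_insert ha]
    rw [this]
    exact (differentiable_lin a).mul ih

/-- (S3) division by finitely many of the linear factors -/
theorem Div.split {S : Set (V1 n)} {f : E n → ℂ} (h : Div n S f) (S0 : Finset (V1 n))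
    (hS0 : ∀ v ∈ S0, v ∈ S) (hne : ∀ v ∈ S0, v.1 ≠ 0) :
    ∃ q : E n → ℂ, Div n (S \ (S0 : Set (V1 n))) q ∧
      ∀ z ∈ Ball n, f z = (∏ v ∈ S0, lin v z) * q z := by
  classical
  -- local quotients
  have loc : ∀ z ∈ Ball n, ∃ V : Set (E n), IsOpen V ∧ z ∈ V ∧ V ⊆ Ball n ∧ ∃ q u : E n → ℂ,
      DifferentiableOn ℂ q V ∧ DifferentiableOn ℂ u V ∧ (∀ w ∈ V, u w ≠ 0) ∧
      (∀ w ∈ V, f w = (∏ v ∈ S0, lin v w) * q w) ∧
      ∃ F : Finset (V1 n), (∀ v, v ∈ F ↔ v ∈ S \ (S0 : Set (V1 n)) ∧ lin v z = 0) ∧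
        ∀ w ∈ V, q w = (∏ v ∈ F, lin v w) * u w := by
    intro z hz
    obtain ⟨U, hU, u, hu, hu0, F, hF, hf⟩ := h.div z hz
    -- `S0 = (S0 ∩ F) ∪ (S0 \ F)`, and the second part does not vanish at `z`
    set P : E n → ℂ := fun w => ∏ v ∈ S0 \ F, lin v w with hP
    have hPz : P z ≠ 0 := by
      rw [hP]
      refine Finset.prod_ne_zero_iff.2 fun v hv h0 => ?_
      rw [Finset.mem_sdiff] at hv
      exact hv.2 ((hF v).2 ⟨hS0 v hv.1, h0⟩)
    have hPd : Differentiable ℂ P := differentiable_prod_lin _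
    have hne' : {w | P w ≠ 0} ∈ 𝓝 z := (hPd.continuous.continuousAt).eventually_ne hPz
    obtain ⟨V, hV, hVo, hzV⟩ := _root_.mem_nhds_iff.1
      (inter_mem (inter_mem hU hne') (isOpen_Ball.mem_nhds hz))
    have hPV : DifferentiableOn ℂ (P)⁻¹ V := (hPd.differentiableOn).inv
      fun w hw => (hV hw).1.2
    refine ⟨V, hVo, hzV, fun w hw => (hV hw).2,
      fun w => (∏ v ∈ F \ S0, lin v w) * (u w * (P w)⁻¹), fun w => u w * (P w)⁻¹, ?_, ?_, ?_, ?_,
      F \ S0, ?_, fun w _ => rfl⟩
    · exact (differentiable_prod_lin _).differentiableOn.mul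
        ((hu.mono fun w hw => (hV hw).1.1).mul hPV)
    · exact (hu.mono fun w hw => (hV hw).1.1).mul hPV
    · intro w hw
      exact mul_ne_zero (hu0 w (hV hw).1.1) (inv_ne_zero (hV hw).1.2)
    · intro w hw
      have hPw : P w ≠ 0 := (hV hw).1.2
      rw [hf w (hV hw).1.1]
      have e1 : ∏ v ∈ F, lin v w = (∏ v ∈ F ∩ S0, lin v w) * ∏ v ∈ F \ S0, lin v w := by
        rw [← Finset.prod_union (Finset.disjoint_left.2 fun v h1 h2 =>
          (Finset.mem_sdiff.1 h2).2 (Finset.mem_inter.1 h1).2)]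
        congr 1
        ext v
        simp only [Finset.mem_union, Finset.mem_inter, Finset.mem_sdiff]
        tauto
      have e2 : ∏ v ∈ S0, lin v w = (∏ v ∈ F ∩ S0, lin v w) * P w := by
        rw [hP, ← Finset.prod_union (Finset.disjoint_left.2 fun v h1 h2 =>
          (Finset.mem_sdiff.1 h2).2 (Finset.mem_inter.1 h1).1)]
        congr 1
        ext v
        simp only [Finset.mem_union, Finset.mem_inter, Finset.mem_sdiff]
        tauto
      rw [e1, e2]
      field_simp
    · intro v
      rw [Finset.mem_sdiff, hF v, Set.mem_sdiff, Finset.mem_coe]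
      tauto
  choose! V hVo hzV hVB q u hq hu hu0 hfq F hF hqF using loc
  -- density
  have hd := (dense_prod S0 hne).1
  -- two local quotients agree
  have agree : ∀ z ∈ Ball n, ∀ z' ∈ Ball n, ∀ w ∈ V z ∩ V z', q z w = q z' w := by
    intro z hz z' hz' w hw
    have hcl : w ∈ closure {y | y ∈ V z ∩ V z' ∧ ∏ v ∈ S0, lin v y ≠ 0} := by
      have hVV : IsOpen (V z ∩ V z') := (hVo z hz).inter (hVo z' hz')
      exact hd.open_subset_closure_inter hVV hw
    have hc : ContinuousOn (fun y => q z y - q z' y) (V z ∩ V z') :=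
      ((hq z hz).continuousOn.mono inter_subset_left).sub
        ((hq z' hz').continuousOn.mono inter_subset_right)
    have hc' : ContinuousWithinAt (fun y => q z y - q z' y)
        {y | y ∈ V z ∩ V z' ∧ ∏ v ∈ S0, lin v y ≠ 0} w := (hc w hw).mono fun y hy => hy.1
    have h0 : ∀ y ∈ {y | y ∈ V z ∩ V z' ∧ ∏ v ∈ S0, lin v y ≠ 0}, q z y - q z' y = 0 := by
      intro y hy
      have h1 := hfq z hz y hy.1.1
      have h2 := hfq z' hz' y hy.1.2
      have h3 : (∏ v ∈ S0, lin v y) * (q z y - q z' y) = 0 := by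
        rw [mul_sub, ← h1, ← h2, sub_self]
      exact (mul_eq_zero.1 h3).resolve_left hy.2
    have h4 : q z w - q z' w ∈ closure ({0} : Set ℂ) :=
      hc'.mem_closure hcl (fun y hy => by simpa using h0 y hy)
    rw [closure_singleton] at h4
    exact sub_eq_zero.1 h4
  refine ⟨fun z => q z z, ⟨?_, ?_, ?_⟩, fun z hz => hfq z hz z (hzV z hz)⟩
  · intro z hz
    have h1 : DifferentiableAt ℂ (q z) z :=
      (hq z hz).differentiableAt ((hVo z hz).mem_nhds (hzV z hz))
    refine (h1.congr_of_eventuallyEq ?_).differentiableWithinAt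
    filter_upwards [(hVo z hz).mem_nhds (hzV z hz)] with w hw
    exact agree w (hVB z hz hw) z hz w ⟨hzV w (hVB z hz hw), hw⟩
  · intro z hz
    refine (h.fin z hz).subset ?_
    rintro v ⟨hv, h0⟩
    exact ⟨hv.1, h0⟩
  · intro z hz
    refine ⟨V z, (hVo z hz).mem_nhds (hzV z hz), u z, hu z hz, hu0 z hz, F z, hF z hz, ?_⟩
    intro w hw
    rw [← hqF z hz w hw]
    exact agree w (hVB z hz hw) z hz w ⟨hzV w (hVB z hz hw), hw⟩

end Crest.Agent.R272.LbSq_936
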