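import Crest.Agent.R272.LbCap1_382

/-!
# LB-CAP, part 2 (row 272, lower bound for S0415, 585 #5391 (2),(3))

Caps `Cap k v` of positive vectors: closed, radially upward closed, contain the hyperplane of `v`
and the `f₁`-cap of a type B vector; locally finite in the ball; intersecting caps are adjacent;
`Caps` instance (LbClu_382) from the arithmetic dichotomy; slopes of chain pieces.
-/

set_option autoImplicit false

open scoped ComplexConjugate

namespace Crest.Agent.R272.LbCap_382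

open Crest.Agent.R272.EBase_641 Crest.Agent.R272.LbClu_382

noncomputable section

variable {n : ℕ} {N N' : ℝ} {v w : V1 n}

/-- the direction of a point. -/
def dir (u : E n) : E n := ((‖u‖⁻¹ : ℝ) : ℂ) • u

theorem norm_dir {u : E n} (hu : u ≠ 0) : ‖dir u‖ = 1 := by
  have h : 0 < ‖u‖ := norm_pos_iff.2 hu
  rw [dir, norm_smul, Complex.norm_real, Real.norm_of_nonneg (by positivity)]
  field_simp

theorem norm_dir_le (u : E n) : ‖dir u‖ ≤ 1 := by
  by_cases hu : u = 0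
  · subst hu; simp [dir]
  · exact (norm_dir hu).le

theorem inner_dir (a u : E n) : inner ℂ a (dir u) = ((‖u‖⁻¹ : ℝ) : ℂ) * inner ℂ a u := by
  rw [dir, inner_smul_right]

theorem dir_smul {u : E n} {c : ℝ} (hc : 0 < c) : dir ((c : ℂ) • u) = dir u := by
  by_cases hu : u = 0
  · subst hu; simp [dir]
  have h : 0 < ‖u‖ := norm_pos_iff.2 hu
  rw [dir, dir, norm_smul, Complex.norm_real, Real.norm_of_nonneg hc.le, smul_smul]
  congr 1
  rw [← Complex.ofReal_mul]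
  congr 1
  field_simp

theorem continuousOn_dir : ContinuousOn (dir : E n → E n) {u | u ≠ 0} := by
  have h : ContinuousOn (fun u : E n => ((‖u‖⁻¹ : ℝ) : ℂ)) {u | u ≠ 0} := by
    apply Complex.continuous_ofReal.comp_continuousOn
    apply ContinuousOn.inv₀ continuous_norm.continuousOn
    intro x hx
    exact norm_ne_zero_iff.2 hx
  exact h.smul continuousOn_id

theorem continuous_rd (b : E n) : Continuous (fun a : E n => rd a b) := by
  unfold rd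
  apply Real.continuous_sqrt.comp
  apply continuous_norm.comp
  exact continuous_const.sub (continuous_const.inner continuous_id)

/-- The cap of `v`. -/
def Cap (k : ℝ) (v : V1 n) : Set (E n) :=
  {u | 1 - k ^ 2 * ep v ^ 2 ≤ ‖u‖ ∧ rd (dir u) (omv v) ≤ 2 * k * ep v}

theorem Cap.ne_zero {k : ℝ} (hk : k ^ 2 * ep v ^ 2 < 1) {u : E n} (hu : u ∈ Cap k v) : u ≠ 0 := by
  rintro rfl
  have := hu.1
  rw [norm_zero] at this
  linarith

theorem isClosed_Cap {k : ℝ} (hk : k ^ 2 * ep v ^ 2 < 1) : IsClosed (Cap k v) := by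
  have h1 : IsClosed {u : E n | 1 - k ^ 2 * ep v ^ 2 ≤ ‖u‖} :=
    isClosed_le continuous_const continuous_norm
  have h2 : ContinuousOn (fun u : E n => rd (dir u) (omv v))
      {u : E n | 1 - k ^ 2 * ep v ^ 2 ≤ ‖u‖} := by
    apply (continuous_rd (omv v)).comp_continuousOn
    apply continuousOn_dir.mono
    intro u hu
    rintro rfl
    simp only [Set.mem_ofPred_eq, norm_zero] at hu
    linarith
  have h3 := h2.preimage_isClosed_of_isClosed h1 (isClosed_Iic (a := 2 * k * ep v))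
  exact h3

/-- caps are radially upward closed. -/
theorem Cap.smul_mem {k : ℝ} (hk : k ^ 2 * ep v ^ 2 < 1) {u : E n} (hu : u ∈ Cap k v) {c : ℝ}
    (hc : 1 ≤ c) : (c : ℂ) • u ∈ Cap k v := by
  refine ⟨?_, ?_⟩
  · rw [norm_smul, Complex.norm_real, Real.norm_of_nonneg (by linarith)]
    have := hu.1
    nlinarith [norm_nonneg u]
  · rw [dir_smul (by linarith)]
    exact hu.2

/-- Points of the closed ball whose Rudin distance to `om` is at most `k ε` are in the cap. -/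
theorem mem_Cap_of_rd {k : ℝ} (hv : Pv N v) (hk0 : 0 ≤ k) (hk : k ^ 2 * ep v ^ 2 < 1) {u : E n}
    (hu1 : ‖u‖ ≤ 1) (hu : rd u (omv v) ≤ k * ep v) : u ∈ Cap k v := by
  have he := hv.ep_pos
  have hD : rd u (omv v) ^ 2 ≤ k ^ 2 * ep v ^ 2 := by
    rw [← mul_pow]
    exact pow_le_pow_left₀ (rd_nonneg _ _) hu 2
  rw [rd_sq] at hD
  have h1 : 1 - ‖(1 : ℂ) - inner ℂ (omv v) u‖ ≤ ‖(inner ℂ (omv v) u : ℂ)‖ := by
    have := norm_sub_norm_le (1 : ℂ) (1 - inner ℂ (omv v) u)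
    simp only [norm_one, sub_sub_cancel] at this
    exact this
  have h2 : ‖(inner ℂ (omv v) u : ℂ)‖ ≤ ‖u‖ := by
    have := norm_inner_le_norm (𝕜 := ℂ) (omv v) u
    rwa [hv.norm_omv, one_mul] at this
  have hu0 : 0 < ‖u‖ := by linarith
  refine ⟨by linarith, ?_⟩
  apply le_of_sq_le_sq _ (by positivity)
  rw [rd_sq, inner_dir]
  have e : (1 : ℂ) - ((‖u‖⁻¹ : ℝ) : ℂ) * inner ℂ (omv v) u =
      (1 - inner ℂ (omv v) u) - (((‖u‖⁻¹ - 1 : ℝ)) : ℂ) * inner ℂ (omv v) u := by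
    push_cast; ring
  rw [e]
  refine (norm_sub_le _ _).trans ?_
  have h3 : 0 ≤ ‖u‖⁻¹ - 1 := by
    have : 1 ≤ ‖u‖⁻¹ := (one_le_inv₀ hu0).2 hu1
    linarith
  rw [norm_mul, Complex.norm_real, Real.norm_of_nonneg h3]
  have h4 : (‖u‖⁻¹ - 1) * ‖(inner ℂ (omv v) u : ℂ)‖ ≤ 1 - ‖u‖ := by
    calc (‖u‖⁻¹ - 1) * ‖(inner ℂ (omv v) u : ℂ)‖ ≤ (‖u‖⁻¹ - 1) * ‖u‖ :=
          mul_le_mul_of_nonneg_left h2 h3
      _ = 1 - ‖u‖ := by field_simp
  have h5 : (2 * k * ep v) ^ 2 = 4 * (k ^ 2 * ep v ^ 2) := by ring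
  rw [h5]
  have h6 : 0 ≤ k ^ 2 * ep v ^ 2 := by positivity
  linarith

/-- The hyperplane of `v` (in the closed ball) is in the cap. -/
theorem mem_Cap_of_lin_eq_zero {k : ℝ} (hv : Pv N v) (hk1 : 1 ≤ k) (hk : k ^ 2 * ep v ^ 2 < 1)
    {u : E n} (hu1 : ‖u‖ ≤ 1) (hu : lin v u = 0) : u ∈ Cap k v := by
  apply mem_Cap_of_rd hv (by linarith) hk hu1
  have h := hv.norm_lin u
  rw [hu, norm_zero] at h
  have h1 : ‖inner ℂ (omv v) u - (tt v : ℂ)‖ = 0 := by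
    rcases mul_eq_zero.1 h.symm with h | h
    · exact absurd h hv.n1.ne'
    · exact h
  have h2 : (inner ℂ (omv v) u : ℂ) = (tt v : ℂ) := sub_eq_zero.1 (norm_eq_zero.1 h1)
  have h3 : rd u (omv v) ^ 2 = ep v ^ 2 := by
    rw [rd_sq, h2, hv.ep_sq, ← Complex.ofReal_one, ← Complex.ofReal_sub, Complex.norm_real,
      Real.norm_of_nonneg (by linarith [hv.tt_lt])]
  have h4 : rd u (omv v) = ep v := by
    have := rd_nonneg u (omv v)
    have := hv.ep_pos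
    nlinarith
  rw [h4]
  nlinarith [hv.ep_pos]

/-- **The `f₁`-cap of a vector far from `f₁` is in the cap.**  `P` is any contraction (here the
projection to the first two coordinates). -/
theorem mem_Cap_of_lin_le {k C Lam : ℝ} (hv : Pv N v) (hk0 : 0 < k)
    (hk : k ^ 2 * ep v ^ 2 < 1) (P : E n →L[ℂ] E n) (hP : ∀ x, ‖P x‖ ≤ ‖x‖) (hC : 0 ≤ C)
    (hLam : 0 < Lam) (hfar : Lam ≤ ‖P v.1‖)
    (hkC : 1 + 2 * C / N + 2 * C * Real.sqrt (2 / N) / Lam * k ≤ k ^ 2)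
    {u : E n} (hu1 : ‖u‖ ≤ 1) (hu : ‖lin v u‖ * ‖P v.1‖ ≤ C * ‖P u‖) : u ∈ Cap k v := by
  apply mem_Cap_of_rd hv hk0.le hk hu1
  have hN := hv.pos
  have he := hv.ep_pos
  have hn1 := hv.n1
  set D := rd u (omv v) with hD
  have hD0 : 0 ≤ D := rd_nonneg _ _
  -- `‖P om‖ = ‖P v'‖ / ‖v'‖`
  have hPom : ‖P (omv v)‖ = ‖P v.1‖ / ‖v.1‖ := by
    rw [omv, map_smul, norm_smul]
    have h2 := hv.n2
    have : ‖conj v.2 / ((‖v.2‖ * ‖v.1‖ : ℝ) : ℂ)‖ = ‖v.1‖⁻¹ := by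
      rw [← hv.phase, ← RCLike.norm_conj (v.2 / _)]
      congr 1
      rw [map_div₀, Complex.conj_ofReal]
    rw [this]; field_simp
  have hPpos : 0 < ‖P v.1‖ := lt_of_lt_of_le hLam hfar
  -- bound of `‖P u‖`
  have h1 : ‖P u‖ ≤ ‖P v.1‖ / ‖v.1‖ + 2 * D := by
    have e : P u = P (omv v) + P (u - omv v) := by rw [map_sub]; abel
    rw [e, ← hPom]
    refine (norm_add_le _ _).trans ?_
    have := norm_sub_le_rd hu1 hv.norm_omv.le
    have := hP (u - omv v)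
    linarith
  -- `|<u,om> - t|`
  have h2 : ‖inner ℂ (omv v) u - (tt v : ℂ)‖ ≤ C / ‖v.1‖ ^ 2 + 2 * C * D / (‖v.1‖ * Lam) := by
    have h3 := hv.norm_lin u
    have h4 : ‖v.1‖ * ‖inner ℂ (omv v) u - (tt v : ℂ)‖ * ‖P v.1‖ ≤
        C * (‖P v.1‖ / ‖v.1‖ + 2 * D) := by
      rw [← h3]
      exact hu.trans (mul_le_mul_of_nonneg_left h1 hC)
    have h5 : ‖inner ℂ (omv v) u - (tt v : ℂ)‖ ≤
        C * (‖P v.1‖ / ‖v.1‖ + 2 * D) / (‖v.1‖ * ‖P v.1‖) := by
      rw [le_div_iff₀ (by positivity)]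
      linarith
    refine h5.trans ?_
    have h6 : C * (‖P v.1‖ / ‖v.1‖ + 2 * D) / (‖v.1‖ * ‖P v.1‖) =
        C / ‖v.1‖ ^ 2 + 2 * C * D / (‖v.1‖ * ‖P v.1‖) := by
      field_simp
    rw [h6]
    have h7 : 2 * C * D / (‖v.1‖ * ‖P v.1‖) ≤ 2 * C * D / (‖v.1‖ * Lam) := by
      apply div_le_div_of_nonneg_left (by positivity) (by positivity)
      exact mul_le_mul_of_nonneg_left hfar hn1.le
    linarith
  -- sizes
  have hs : 1 / ‖v.1‖ ^ 2 ≤ 2 / N * ep v ^ 2 := by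
    rw [div_le_iff₀ (by positivity)]
    have := hv.le_sq
    rw [show 2 / N * ep v ^ 2 * ‖v.1‖ ^ 2 = 2 * (‖v.1‖ ^ 2 * ep v ^ 2) / N by ring,
      le_div_iff₀ hN]
    linarith
  have hs2 : 1 / ‖v.1‖ ≤ Real.sqrt (2 / N) * ep v := by
    apply le_of_sq_le_sq _ (by positivity)
    rw [mul_pow, Real.sq_sqrt (by positivity), div_pow, one_pow]
    exact hs
  have h8 : C / ‖v.1‖ ^ 2 ≤ 2 * C / N * ep v ^ 2 := by
    have := mul_le_mul_of_nonneg_left hs hC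
    calc C / ‖v.1‖ ^ 2 = C * (1 / ‖v.1‖ ^ 2) := by ring
      _ ≤ C * (2 / N * ep v ^ 2) := this
      _ = 2 * C / N * ep v ^ 2 := by ring
  have h9 : 2 * C * D / (‖v.1‖ * Lam) ≤ 2 * C * Real.sqrt (2 / N) / Lam * (ep v * D) := by
    have h10 : 0 ≤ 2 * C * D / Lam := by positivity
    have := mul_le_mul_of_nonneg_left hs2 h10
    calc 2 * C * D / (‖v.1‖ * Lam) = 2 * C * D / Lam * (1 / ‖v.1‖) := by
          field_simp
      _ ≤ 2 * C * D / Lam * (Real.sqrt (2 / N) * ep v) := this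
      _ = 2 * C * Real.sqrt (2 / N) / Lam * (ep v * D) := by ring
  have h11 : D ^ 2 ≤ ep v ^ 2 + ‖inner ℂ (omv v) u - (tt v : ℂ)‖ := by
    rw [hD, rd_sq, hv.ep_sq]
    have e : (1 : ℂ) - inner ℂ (omv v) u =
        ((1 - tt v : ℝ) : ℂ) - (inner ℂ (omv v) u - (tt v : ℂ)) := by push_cast; ring
    rw [e]
    refine (norm_sub_le _ _).trans ?_
    rw [Complex.norm_real, Real.norm_of_nonneg (by linarith [hv.tt_lt])]
  set δ := 2 * C * Real.sqrt (2 / N) / Lam with hδ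
  have hδ0 : 0 ≤ δ := by positivity
  have h12 : D ^ 2 ≤ (1 + 2 * C / N) * ep v ^ 2 + δ * (ep v * D) := by
    calc D ^ 2 ≤ ep v ^ 2 + (2 * C / N * ep v ^ 2 + δ * (ep v * D)) := by linarith
      _ = _ := by ring
  by_contra hcon
  push Not at hcon
  -- `D > k ε`
  have h13 : (1 + 2 * C / N) * ep v ^ 2 ≤ (k ^ 2 - δ * k) * ep v ^ 2 := by
    apply mul_le_mul_of_nonneg_right _ (by positivity)
    linarith
  have hkδ : δ < k := by
    have h14 : 0 ≤ 2 * C / N := by positivity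
    by_contra hle
    push Not at hle
    have : k * k ≤ δ * k := mul_le_mul_of_nonneg_right hle hk0.le
    nlinarith
  have h15 : D ^ 2 - δ * (ep v * D) ≤ (k * ep v) ^ 2 - δ * (ep v * (k * ep v)) := by
    nlinarith
  have h16 : 0 < (D - k * ep v) * (D + k * ep v - δ * ep v) := by
    apply mul_pos (by linarith)
    have : δ * ep v < k * ep v := mul_lt_mul_of_pos_right hkδ he
    linarith
  nlinarith

/-! ### Local finiteness -/

/-- A cap meeting the ball of radius `ρ < 1` comes from a vector with small `v'`. -/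
theorem Cap.norm_sq_le {k ρ : ℝ} (hv : Pv N v) (hρ : ρ < 1) {u : E n} (hu : u ∈ Cap k v)
    (hur : ‖u‖ ≤ ρ) : ‖v.1‖ ^ 2 ≤ N * k ^ 2 / (1 - ρ) := by
  have h1 := hu.1
  have h2 : 1 - ρ ≤ k ^ 2 * ep v ^ 2 := by linarith
  have h3 := hv.sq_le
  rw [le_div_iff₀ (by linarith)]
  calc ‖v.1‖ ^ 2 * (1 - ρ) ≤ ‖v.1‖ ^ 2 * (k ^ 2 * ep v ^ 2) :=
        mul_le_mul_of_nonneg_left h2 (by positivity)
    _ = (‖v.1‖ ^ 2 * ep v ^ 2) * k ^ 2 := by ring
    _ ≤ N * k ^ 2 := mul_le_mul_of_nonneg_right h3 (by positivity)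

/-- The caps of a discrete family of vectors are locally finite in the ball. -/
theorem Cap.locallyFinite {ι : Type*} {V : ι → V1 n} {Nn : ι → ℝ} {Nmax : ℝ}
    (hV : ∀ i, Pv (Nn i) (V i)) (hN : ∀ i, Nn i ≤ Nmax)
    (hdisc : ∀ T : ℝ, {i | ‖(V i).1‖ ≤ T}.Finite) (k : ℝ) {x : E n} (hx : ‖x‖ < 1) :
    ∃ t ∈ nhds x, {i | (Cap k (V i) ∩ t).Nonempty}.Finite := by
  set ρ : ℝ := (1 + ‖x‖) / 2 with hρ
  have hρ1 : ρ < 1 := by rw [hρ]; linarith
  have hxρ : ‖x‖ < ρ := by rw [hρ]; linarith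
  refine ⟨Metric.ball 0 ρ, Metric.isOpen_ball.mem_nhds (by simpa using hxρ), ?_⟩
  apply (hdisc (Real.sqrt (Nmax * k ^ 2 / (1 - ρ)))).subset
  rintro i ⟨u, hu, hut⟩
  have hur : ‖u‖ ≤ ρ := by
    have : u ∈ Metric.ball (0 : E n) ρ := hut
    rw [mem_ball_zero_iff] at this
    exact this.le
  have h1 := Cap.norm_sq_le (hV i) hρ1 hu hur
  show ‖(V i).1‖ ≤ _
  apply Real.le_sqrt_of_sq_le
  refine h1.trans ?_
  apply div_le_div_of_nonneg_right _ (by linarith)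
  exact mul_le_mul_of_nonneg_right (hN i) (by positivity)

/-- Subtype form of local finiteness. -/
theorem Cap.locallyFinite_ball {ι : Type*} {V : ι → V1 n} {Nn : ι → ℝ} {Nmax : ℝ}
    (hV : ∀ i, Pv (Nn i) (V i)) (hN : ∀ i, Nn i ≤ Nmax)
    (hdisc : ∀ T : ℝ, {i | ‖(V i).1‖ ≤ T}.Finite) (k : ℝ) :
    LocallyFinite (fun i : ι => (Subtype.val ⁻¹' Cap k (V i) : Set (Ball n))) := by
  intro x
  obtain ⟨t, ht, hfin⟩ := Cap.locallyFinite hV hN hdisc k (mem_Ball.1 x.2)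
  refine ⟨Subtype.val ⁻¹' t, continuous_subtype_val.continuousAt.preimage_mem_nhds ht, ?_⟩
  apply hfin.subset
  rintro i ⟨u, hu, hut⟩
  exact ⟨u.1, hu, hut⟩

/-! ### Adjacency and the `Caps` structure -/

/-- two caps with a common point are adjacent. -/
theorem Cap.rd_le {k : ℝ} (hv : Pv N v) (hw : Pv N' w) (hk : k ^ 2 * ep v ^ 2 < 1) {u : E n}
    (h : u ∈ Cap k v) (h' : u ∈ Cap k w) :
    rd (omv v) (omv w) ≤ 2 * k * (ep v + ep w) := by
  have hu := Cap.ne_zero hk h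
  have h1 := rd_tri (a := omv v) (b := dir u) (c := omv w) hv.norm_omv.le (norm_dir hu)
    hw.norm_omv.le
  have h2 := h.2
  have h3 := h'.2
  rw [rd_comm (omv v) (dir u)] at h1
  linarith

/-- the unit sphere of `E n`. -/
abbrev Sph (n : ℕ) := {x : E n // ‖x‖ = 1}

/-- The constant `A` of the first kind. -/
def capA (Nmin c0 : ℝ) : ℝ := Real.sqrt (2 + 2 * c0 / Nmin)

/-- The direction of `v` as a point of the sphere. -/
def omS {N : ℝ} (v : V1 n) (h : Pv N v) : Sph n := ⟨omv v, h.norm_omv⟩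

/-- **`Caps` from the arithmetic dichotomy.** -/
theorem capsOf {ι : Type*} {V : ι → V1 n} {Nn : ι → ℝ} {Nmin Nmax c0 Lam k : ℝ}
    (hV : ∀ i, Pv (Nn i) (V i)) (hmin0 : 0 < Nmin) (hmin : ∀ i, Nmin ≤ Nn i)
    (hmax : ∀ i, Nn i ≤ Nmax) (hk : 0 ≤ k) (hc0 : 0 ≤ c0)
    (hdich : ∀ i j, i ≠ j → ‖hh (V i) (V j)‖ ≤ c0 ∨ Lam ≤ ‖hh (V i) (V j)‖)
    (hLam : 4 * Nmax * (2 + (3 * (2 * (2 * k) + capA Nmin c0)) ^ 2) < Lam) :
    Caps (fun a b : Sph n => rd a.1 b.1) (fun i => omS (V i) (hV i)) (fun i => ep (V i))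
      1 (capA Nmin c0) (2 * k) := by
  have hA0 : 0 ≤ capA Nmin c0 := Real.sqrt_nonneg _
  have hA2 : capA Nmin c0 ^ 2 = 2 + 2 * c0 / Nmin := Real.sq_sqrt (by positivity)
  apply Caps.of_metric hA0 (by positivity)
  · intro x y; exact rd_comm _ _
  · intro x y; exact rd_nonneg _ _
  · intro x y z; exact rd_tri x.2.le y.2 z.2.le
  · intro i; exact (hV i).ep_pos
  · intro i j hij h1 h2
    have ei := (hV i).ep_pos
    have ej := (hV j).ep_pos
    have hNi : 0 < Nn i := (hV i).pos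
    have hNj : 0 < Nn j := (hV j).pos
    have hNmax : 0 < Nmax := lt_of_lt_of_le hNi (hmax i)
    set s := Real.sqrt (Nn i * Nn j) with hs
    have hs1 : Nmin ≤ s := by
      apply Real.le_sqrt_of_sq_le
      nlinarith [hmin i, hmin j]
    have hs2 : s ≤ Nmax := by
      rw [hs]
      apply (Real.sqrt_le_left hNmax.le).2
      nlinarith [hmax i, hmax j]
    have hs0 : 0 < s := lt_of_lt_of_le hmin0 hs1
    rcases hdich i j hij with h | h
    · left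
      show rd (omv (V i)) (omv (V j)) ≤ _
      apply le_of_sq_le_sq _ (by positivity)
      rw [mul_pow, hA2]
      refine (rd_omv_sq_le_std (hV i) (hV j) h).trans ?_
      rw [← hs]
      have h3 : 2 * c0 / s ≤ 2 * c0 / Nmin :=
        div_le_div_of_nonneg_left (by positivity) hmin0 hs1
      have h4 : ep (V i) * ep (V j) ≤ ep (V j) ^ 2 := by nlinarith
      have h5 : 0 ≤ ep (V i) * ep (V j) := by positivity
      have h6 : 0 ≤ 2 * c0 / Nmin := by positivity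
      have h7 : 2 * c0 / s * (ep (V i) * ep (V j)) ≤ 2 * c0 / Nmin * ep (V j) ^ 2 :=
        mul_le_mul h3 h4 h5 h6
      have h8 : ep (V i) ^ 2 ≤ ep (V j) ^ 2 := pow_le_pow_left₀ ei.le h2 2
      nlinarith
    · right
      show _ < rd (omv (V i)) (omv (V j))
      set c := 3 * (2 * (2 * k) + capA Nmin c0) with hc
      have hc0' : 0 ≤ c := by positivity
      have h3 := le_rd_omv_sq_far (hV i) (hV j) h
      rw [← hs] at h3
      have hLam0 : 0 < Lam := lt_of_le_of_lt (by positivity) hLam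
      have h4 : Lam / Nmax ≤ Lam / s := div_le_div_of_nonneg_left hLam0.le hs0 hs2
      have h5 : ep (V j) ^ 2 ≤ 4 * (ep (V i) * ep (V j)) := by nlinarith
      have h6 : 4 * (2 + c ^ 2) < Lam / Nmax := by
        rw [lt_div_iff₀ hNmax]; linarith
      have h7 : (2 + c ^ 2) * ep (V j) ^ 2 < Lam / s * (ep (V i) * ep (V j)) := by
        have h8 : 0 < ep (V i) * ep (V j) := by positivity
        calc (2 + c ^ 2) * ep (V j) ^ 2 ≤ (2 + c ^ 2) * (4 * (ep (V i) * ep (V j))) :=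
              mul_le_mul_of_nonneg_left h5 (by positivity)
          _ = 4 * (2 + c ^ 2) * (ep (V i) * ep (V j)) := by ring
          _ < Lam / s * (ep (V i) * ep (V j)) :=
              mul_lt_mul_of_pos_right (lt_of_lt_of_le h6 h4) h8
      have h8 : ep (V i) ^ 2 ≤ ep (V j) ^ 2 := pow_le_pow_left₀ ei.le h2 2
      have h9 : (c * ep (V j)) ^ 2 < rd (omv (V i)) (omv (V j)) ^ 2 := by
        rw [mul_pow]
        nlinarith
      exact lt_of_pow_lt_pow_left₀ 2 (rd_nonneg _ _) h9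

/-! ### Slopes -/

/-- `‖P om‖ = ‖P v'‖ / ‖v'‖`. -/
theorem Pv.norm_P_omv (hv : Pv N v) (P : E n →L[ℂ] E n) :
    ‖P (omv v)‖ = ‖P v.1‖ / ‖v.1‖ := by
  rw [omv, map_smul, norm_smul]
  have h1 := hv.n1
  have h2 := hv.n2
  have : ‖conj v.2 / ((‖v.2‖ * ‖v.1‖ : ℝ) : ℂ)‖ = ‖v.1‖⁻¹ := by
    rw [← hv.phase, ← RCLike.norm_conj (v.2 / _)]
    congr 1
    rw [map_div₀, Complex.conj_ofReal]
  rw [this]; field_simp

/-- a far vector has `‖P om‖ ≥ (Lam / sqrt N) ep`. -/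
theorem Pv.le_norm_P_omv (hv : Pv N v) (P : E n →L[ℂ] E n) {Lam : ℝ}
    (hfar : Lam ≤ ‖P v.1‖) : Lam / Real.sqrt N * ep v ≤ ‖P (omv v)‖ := by
  have h1 := hv.n1
  have hN := hv.pos
  have he := hv.ep_pos
  have hs : 0 < Real.sqrt N := Real.sqrt_pos.2 hN
  rw [hv.norm_P_omv]
  have h2 : ‖v.1‖ * ep v ≤ Real.sqrt N := by
    apply Real.le_sqrt_of_sq_le
    rw [mul_pow]
    exact hv.sq_le
  have h3 : ep v / Real.sqrt N ≤ 1 / ‖v.1‖ := by
    rw [div_le_div_iff₀ hs h1]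
    linarith
  calc Lam / Real.sqrt N * ep v = Lam * (ep v / Real.sqrt N) := by ring
    _ ≤ ‖P v.1‖ * (1 / ‖v.1‖) := mul_le_mul hfar h3 (by positivity) (norm_nonneg _)
    _ = ‖P v.1‖ / ‖v.1‖ := by ring

/-- direction of a point of a cap. -/
theorem Cap.norm_dir_sub_le {k : ℝ} (hv : Pv N v) {u : E n}
    (h : u ∈ Cap k v) : ‖dir u - omv v‖ ≤ 4 * k * ep v := by
  have h1 := norm_sub_le_rd (norm_dir_le u) hv.norm_omv.le
  have h2 := h.2
  linarith

/-- The slope constant. -/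
def slopeδ (k A Nmax Lam' : ℝ) : ℝ := (4 * k + 2 * capC 1 A (2 * k)) * Real.sqrt Nmax / Lam'

/-- Two points of the same chain piece have close `P`-directions. -/
theorem piece_slope {ι : Type*} {V : ι → V1 n} {Nn : ι → ℝ} {Nmax k A Lam' : ℝ}
    (hV : ∀ i, Pv (Nn i) (V i)) (hmax : ∀ i, Nn i ≤ Nmax) (hk : 0 ≤ k)
    (H : Caps (fun a b : Sph n => rd a.1 b.1) (fun i => omS (V i) (hV i)) (fun i => ep (V i))
      1 A (2 * k))
    (P : E n →L[ℂ] E n) (hP : ∀ x, ‖P x‖ ≤ ‖x‖) (hLam' : 0 < Lam')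
    (hfar : ∀ i, Lam' ≤ ‖P (V i).1‖) {i j : ι}
    (hij : Quotient.mk (chainSetoid H) i = Quotient.mk (chainSetoid H) j)
    {u u' : E n} (hu : u ∈ Cap k (V i)) (hu' : u' ∈ Cap k (V j)) :
    ∃ a : E n, 0 < ‖P a‖ ∧ ‖P (dir u) - P a‖ ≤ slopeδ k A Nmax Lam' * ‖P a‖ ∧
      ‖P (dir u') - P a‖ ≤ slopeδ k A Nmax Lam' * ‖P a‖ := by
  obtain ⟨m, -, hm1, hm2, hm3, hm4⟩ := chainSetoid_dist H hij
  have hC0 : 0 ≤ capC 1 A (2 * k) := capC_nonneg le_rfl H.hA (by positivity)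
  have hem := (hV m).ep_pos
  have hNm : 0 < Nn m := (hV m).pos
  have hNmax : 0 < Nmax := lt_of_lt_of_le hNm (hmax m)
  have hsN : 0 < Real.sqrt Nmax := Real.sqrt_pos.2 hNmax
  have hlow : Lam' / Real.sqrt Nmax * ep (V m) ≤ ‖P (omv (V m))‖ := by
    refine le_trans ?_ ((hV m).le_norm_P_omv P (hfar m))
    apply mul_le_mul_of_nonneg_right _ hem.le
    exact div_le_div_of_nonneg_left hLam'.le (Real.sqrt_pos.2 hNm) (Real.sqrt_le_sqrt (hmax m))
  have hpos : 0 < ‖P (omv (V m))‖ := lt_of_lt_of_le (by positivity) hlow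
  -- general estimate
  have key : ∀ (l : ι) (x : E n), x ∈ Cap k (V l) → ep (V l) ≤ ep (V m) →
      (l ≠ m → rd (omv (V l)) (omv (V m)) ≤ capC 1 A (2 * k) * ep (V m)) →
      ‖P (dir x) - P (omv (V m))‖ ≤ slopeδ k A Nmax Lam' * ‖P (omv (V m))‖ := by
    intro l x hx hl hlm
    have h1 : ‖dir x - omv (V l)‖ ≤ 4 * k * ep (V m) :=
      (Cap.norm_dir_sub_le (hV l) hx).trans (mul_le_mul_of_nonneg_left hl (by positivity))
    have h2 : ‖omv (V l) - omv (V m)‖ ≤ 2 * capC 1 A (2 * k) * ep (V m) := by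
      by_cases hlm' : l = m
      · subst hlm'
        rw [sub_self, norm_zero]
        positivity
      · have h3 := norm_sub_le_rd (hV l).norm_omv.le (hV m).norm_omv.le
        have h4 := hlm hlm'
        linarith
    have h5 : ‖P (dir x) - P (omv (V m))‖ ≤ (4 * k + 2 * capC 1 A (2 * k)) * ep (V m) := by
      rw [← map_sub]
      refine (hP _).trans ?_
      have e : dir x - omv (V m) = (dir x - omv (V l)) + (omv (V l) - omv (V m)) := by abel
      rw [e]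
      refine (norm_add_le _ _).trans ?_
      linarith
    refine h5.trans ?_
    have h6 : ep (V m) ≤ Real.sqrt Nmax / Lam' * ‖P (omv (V m))‖ := by
      have h7 := mul_le_mul_of_nonneg_left hlow (show 0 ≤ Real.sqrt Nmax / Lam' by positivity)
      have h8 : Real.sqrt Nmax / Lam' * (Lam' / Real.sqrt Nmax * ep (V m)) = ep (V m) := by
        field_simp
      linarith
    have h9 := mul_le_mul_of_nonneg_left h6
      (show 0 ≤ 4 * k + 2 * capC 1 A (2 * k) by positivity)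
    refine h9.trans (le_of_eq ?_)
    unfold slopeδ
    ring
  exact ⟨omv (V m), hpos, key i u hu hm1 hm3, key j u' hu' hm2 hm4⟩

/-- **Slope transfer.**  If the `P`-directions `a`, `b` are `δ`-close to a common vector and
`|ℓ₁ a| ≤ r |ℓ₀ a|`, then `|ℓ₁ b| ≤ r' |ℓ₀ b|`, as soon as `δ` is small. -/
theorem slope_transfer {F : Type*} [NormedAddCommGroup F] {a b a0 : F} {l0 l1 : F → ℂ}
    {M L0 L1 r r' δ : ℝ} (hM : 0 ≤ M) (hr' : 0 ≤ r')
    (h0 : ∀ x y, ‖l0 x - l0 y‖ ≤ L0 * ‖x - y‖) (h1 : ∀ x y, ‖l1 x - l1 y‖ ≤ L1 * ‖x - y‖)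
    (hMa : ‖a‖ ≤ M * (‖l0 a‖ + ‖l1 a‖)) (hL0 : 0 ≤ L0) (hL1 : 0 ≤ L1)
    (hδ0 : 0 ≤ δ) (hδ : δ ≤ 1 / 2) (ha : ‖a - a0‖ ≤ δ * ‖a0‖) (hb : ‖b - a0‖ ≤ δ * ‖a0‖)
    (hsmall : 4 * δ * M * (1 + r) * (L1 + r' * L0) ≤ r' - r)
    (har : ‖l1 a‖ ≤ r * ‖l0 a‖) : ‖l1 b‖ ≤ r' * ‖l0 b‖ := by
  have hab : ‖a - b‖ ≤ 2 * δ * ‖a0‖ := by
    have e : a - b = (a - a0) - (b - a0) := by abel
    rw [e]
    refine (norm_sub_le _ _).trans ?_
    linarith
  have h2 : ‖a0‖ ≤ 2 * ‖a‖ := by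
    have e : a0 = a - (a - a0) := by abel
    have h3 : ‖a0‖ ≤ ‖a‖ + ‖a - a0‖ := by
      conv_lhs => rw [e]
      exact norm_sub_le _ _
    have h4 : δ * ‖a0‖ ≤ 1 / 2 * ‖a0‖ := mul_le_mul_of_nonneg_right hδ (norm_nonneg _)
    linarith
  have hab' : ‖a - b‖ ≤ 4 * δ * ‖a‖ := by
    refine hab.trans ?_
    have := mul_le_mul_of_nonneg_left h2 (show 0 ≤ 2 * δ by positivity)
    linarith
  have ha2 : ‖a‖ ≤ M * (1 + r) * ‖l0 a‖ := by
    refine hMa.trans ?_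
    have := mul_le_mul_of_nonneg_left (show ‖l0 a‖ + ‖l1 a‖ ≤ (1 + r) * ‖l0 a‖ by linarith) hM
    linarith
  have hab3 : ‖a - b‖ ≤ 4 * δ * M * (1 + r) * ‖l0 a‖ := by
    refine hab'.trans ?_
    have := mul_le_mul_of_nonneg_left ha2 (show 0 ≤ 4 * δ by positivity)
    linarith
  have k1 : ‖l1 b‖ ≤ r * ‖l0 a‖ + L1 * (4 * δ * M * (1 + r) * ‖l0 a‖) := by
    have h5 : ‖l1 b‖ ≤ ‖l1 a‖ + ‖l1 a - l1 b‖ := by
      have e : l1 b = l1 a - (l1 a - l1 b) := by ring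
      conv_lhs => rw [e]
      exact norm_sub_le _ _
    have h6 := (h1 a b).trans (mul_le_mul_of_nonneg_left hab3 hL1)
    linarith
  have k0 : ‖l0 a‖ ≤ ‖l0 b‖ + L0 * (4 * δ * M * (1 + r) * ‖l0 a‖) := by
    have h5 : ‖l0 a‖ ≤ ‖l0 b‖ + ‖l0 a - l0 b‖ := by
      have e : l0 a = l0 b + (l0 a - l0 b) := by ring
      conv_lhs => rw [e]
      exact norm_add_le _ _
    have h6 := (h0 a b).trans (mul_le_mul_of_nonneg_left hab3 hL0)
    linarith
  have k2 := mul_le_mul_of_nonneg_left k0 hr'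
  have k3 := mul_le_mul_of_nonneg_right hsmall (norm_nonneg (l0 a))
  nlinarith

end

end Crest.Agent.R272.LbCap_382
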