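import Mathlib

/-!
# LB-WALL, part 3 (row 272, lower bound for S0415; helper936; Mathlib only)

(4) of 585 #5391: the wall is one Urysohn function.
-/

set_option autoImplicit false

open Set Filter Topology

noncomputable section

namespace Crest.Agent.R272.LbSq_936

/-- (W1) Urysohn wall: closed, locally finite, pairwise disjoint pieces `κ i` on which `m`
oscillates by less than `(m2-m1)/2`. -/
theorem wall {Q ι : Type*} [TopologicalSpace Q] [NormalSpace Q] (m : Q → ℝ) (hm : Continuous m)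
    {m1 m2 : ℝ} (h12 : m1 < m2) (κ : ι → Set Q) (hc : ∀ i, IsClosed (κ i))
    (hlf : LocallyFinite κ) (hdisj : ∀ i j, i ≠ j → Disjoint (κ i) (κ j))
    (hosc : ∀ i, ∀ x ∈ κ i, ∀ y ∈ κ i, m x - m y < (m2 - m1) / 2) :
    ∃ T : C(Q, ℝ), (∀ x, 0 ≤ T x) ∧ (∀ x, T x ≤ 1) ∧ (∀ x, m x ≤ m1 → T x = 0) ∧
      (∀ x, m2 ≤ m x → T x = 1) ∧ ∀ i, (∀ x ∈ κ i, T x = 0) ∨ (∀ x ∈ κ i, T x = 1) := by
  classical
  let I0 : Set ι := {i | ∃ x ∈ κ i, m x ≤ (m1 + m2) / 2}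
  let A0 : Set Q := {x | m x ≤ m1} ∪ ⋃ i : I0, κ i
  let A1 : Set Q := {x | m2 ≤ m x} ∪ ⋃ i : (I0ᶜ : Set ι), κ i
  have hlf0 : LocallyFinite fun i : I0 => κ i := hlf.comp_injective Subtype.val_injective
  have hlf1 : LocallyFinite fun i : (I0ᶜ : Set ι) => κ i :=
    hlf.comp_injective Subtype.val_injective
  have hA0 : IsClosed A0 := (isClosed_le hm continuous_const).union
    (hlf0.isClosed_iUnion fun i => hc i)
  have hA1 : IsClosed A1 := (isClosed_le continuous_const hm).union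
    (hlf1.isClosed_iUnion fun i => hc i)
  have hdis : Disjoint A0 A1 := by
    rw [Set.disjoint_left]
    rintro x (hx | hx) (hx' | hx')
    · have h1 : m x ≤ m1 := hx
      have h2 : m2 ≤ m x := hx'
      linarith
    · obtain ⟨⟨i, hi⟩, hxi⟩ := mem_iUnion.1 hx'
      exact hi ⟨x, hxi, by have h1 : m x ≤ m1 := hx; linarith⟩
    · obtain ⟨⟨i, y, hy, hym⟩, hxi⟩ := mem_iUnion.1 hx
      have h1 := hosc i x hxi y hy
      have h2 : m2 ≤ m x := hx'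
      linarith
    · obtain ⟨⟨i, hi⟩, hxi⟩ := mem_iUnion.1 hx
      obtain ⟨⟨j, hj⟩, hxj⟩ := mem_iUnion.1 hx'
      have hij : i ≠ j := by
        rintro rfl
        exact hj hi
      exact (Set.disjoint_left.1 (hdisj i j hij)) hxi hxj
  obtain ⟨T, hT0, hT1, hT⟩ := exists_continuous_zero_one_of_isClosed hA0 hA1 hdis
  refine ⟨T, fun x => (hT x).1, fun x => (hT x).2, fun x hx => hT0 (Or.inl hx),
    fun x hx => hT1 (Or.inl hx), fun i => ?_⟩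
  by_cases hi : i ∈ I0
  · left
    intro x hx
    exact hT0 (Or.inr (mem_iUnion.2 ⟨⟨i, hi⟩, hx⟩))
  · right
    intro x hx
    exact hT1 (Or.inr (mem_iUnion.2 ⟨⟨i, hi⟩, hx⟩))

/-- (W1') the same for caps `K i` grouped into the classes of an adjacency relation. -/
theorem wall_adj {Q ι : Type*} [TopologicalSpace Q] [NormalSpace Q] (m : Q → ℝ)
    (hm : Continuous m) {m1 m2 : ℝ} (h12 : m1 < m2) (K : ι → Set Q) (hc : ∀ i, IsClosed (K i))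
    (hlf : LocallyFinite K) (R : ι → ι → Prop)
    (hR : ∀ i j, (K i ∩ K j).Nonempty → R i j)
    (hosc : ∀ i j, Relation.EqvGen R i j → ∀ x ∈ K i, ∀ y ∈ K j, m x - m y < (m2 - m1) / 2) :
    ∃ T : C(Q, ℝ), (∀ x, 0 ≤ T x) ∧ (∀ x, T x ≤ 1) ∧ (∀ x, m x ≤ m1 → T x = 0) ∧
      (∀ x, m2 ≤ m x → T x = 1) ∧ ∀ i, (∀ x ∈ K i, T x = 0) ∨ (∀ x ∈ K i, T x = 1) := by
  classical
  let s : Setoid ι := Relation.EqvGen.setoid R
  let κ : Quotient s → Set Q := fun c => ⋃ i : {i : ι // (Quotient.mk s i) = c}, K i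
  have hcl : ∀ c, IsClosed (κ c) := fun c =>
    (hlf.comp_injective Subtype.val_injective).isClosed_iUnion fun i => hc i
  have hlf' : LocallyFinite κ := by
    intro x
    obtain ⟨U, hU, hfin⟩ := hlf x
    refine ⟨U, hU, (hfin.image (fun i => Quotient.mk s i)).subset ?_⟩
    rintro c ⟨y, hy, hyU⟩
    obtain ⟨⟨i, hi⟩, hyi⟩ := mem_iUnion.1 hy
    exact ⟨i, ⟨y, hyi, hyU⟩, hi⟩
  obtain ⟨T, h0, h1, h2, h3, h4⟩ := wall m hm h12 κ hcl hlf' (by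
    intro c d hcd
    rw [Set.disjoint_left]
    intro x hx hx'
    obtain ⟨⟨i, hi⟩, hxi⟩ := mem_iUnion.1 hx
    obtain ⟨⟨j, hj⟩, hxj⟩ := mem_iUnion.1 hx'
    apply hcd
    rw [← hi, ← hj]
    exact Quotient.sound (s := s) (Relation.EqvGen.rel _ _ (hR i j ⟨x, hxi, hxj⟩))) (by
    intro c x hx y hy
    obtain ⟨⟨i, hi⟩, hxi⟩ := mem_iUnion.1 hx
    obtain ⟨⟨j, hj⟩, hyj⟩ := mem_iUnion.1 hy
    exact hosc i j (Quotient.exact (s := s) (hi.trans hj.symm)) x hxi y hyj)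
  refine ⟨T, h0, h1, h2, h3, fun i => ?_⟩
  rcases h4 (Quotient.mk s i) with h | h
  · exact Or.inl fun x hx => h x (mem_iUnion.2 ⟨⟨i, rfl⟩, hx⟩)
  · exact Or.inr fun x hx => h x (mem_iUnion.2 ⟨⟨i, rfl⟩, hx⟩)

/-! ### the real slope coordinate -/

abbrev E3 := EuclideanSpace ℂ (Fin 3)

/-- numerator of the real slope coordinate -/
def nu (c : ℂ) (z : E3) : ℝ := ‖z 1 - c * z 0‖

/-- denominator -/
def de (c : ℂ) (z : E3) : ℝ := ‖z 0‖ + ‖z 1 - c * z 0‖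

/-- the real slope coordinate `|s - c| / (1 + |s - c|)` -/
def mm (c : ℂ) (z : E3) : ℝ := nu c z / de c z

/-- the real form of the blow up of the ball along `z 0 = z 1 = 0` -/
def Q0 (c : ℂ) : Set (E3 × ℝ) :=
  {p | ‖p.1‖ < 1 ∧ 0 ≤ p.2 ∧ p.2 ≤ 1 ∧ p.2 * de c p.1 = nu c p.1}

theorem de_eq_zero {c : ℂ} {z : E3} : de c z = 0 ↔ z 0 = 0 ∧ z 1 = 0 := by
  unfold de
  constructor
  · intro h
    have h0 : ‖z 0‖ = 0 := by
      have := norm_nonneg (z 0); have := norm_nonneg (z 1 - c * z 0); linarith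
    have h1 : ‖z 1 - c * z 0‖ = 0 := by
      have := norm_nonneg (z 0); have := norm_nonneg (z 1 - c * z 0); linarith
    have h0' : z 0 = 0 := norm_eq_zero.1 h0
    have h1' : z 1 - c * z 0 = 0 := norm_eq_zero.1 h1
    refine ⟨h0', ?_⟩
    rw [h0'] at h1'
    simpa using h1'
  · rintro ⟨h0, h1⟩
    simp [h0, h1]

theorem Q0_eq {c : ℂ} {p : E3 × ℝ} (hp : p ∈ Q0 c) (h : ¬ (p.1 0 = 0 ∧ p.1 1 = 0)) :
    p.2 = mm c p.1 := by
  have : de c p.1 ≠ 0 := fun h0 => h (de_eq_zero.1 h0)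
  rw [mm, eq_div_iff this]
  exact hp.2.2.2

/-- (W2) **the wall** on the real blow up: `K v` are closed subsets of the space, locally finite
in the ball, disjoint from `z 0 = z 1 = 0`. -/
theorem wallQ0 (c : ℂ) {m1 m2 : ℝ} (h12 : m1 < m2) {ι : Type*} (K : ι → Set E3)
    (hc : ∀ i, IsClosed (K i))
    (hlf : ∀ z : E3, ‖z‖ < 1 → ∃ U ∈ 𝓝 z, {i | (K i ∩ U).Nonempty}.Finite)
    (hf1 : ∀ i, ∀ z ∈ K i, ‖z‖ < 1 → ¬ (z 0 = 0 ∧ z 1 = 0)) (R : ι → ι → Prop)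
    (hR : ∀ i j, (∃ z, ‖z‖ < 1 ∧ z ∈ K i ∧ z ∈ K j) → R i j)
    (hosc : ∀ i j, Relation.EqvGen R i j → ∀ x ∈ K i, ∀ y ∈ K j, ‖x‖ < 1 → ‖y‖ < 1 →
      mm c x - mm c y < (m2 - m1) / 2) :
    ∃ T : C(Q0 c, ℝ), (∀ x, 0 ≤ T x) ∧ (∀ x, T x ≤ 1) ∧ (∀ x, x.1.2 ≤ m1 → T x = 0) ∧
      (∀ x, m2 ≤ x.1.2 → T x = 1) ∧
      ∀ i, (∀ x : Q0 c, x.1.1 ∈ K i → T x = 0) ∨ (∀ x : Q0 c, x.1.1 ∈ K i → T x = 1) := by
  have hz : Continuous fun x : Q0 c => x.1.1 := by fun_prop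
  refine wall_adj (fun x : Q0 c => x.1.2) (by fun_prop) h12
    (fun i => {x : Q0 c | x.1.1 ∈ K i}) (fun i => (hc i).preimage hz) ?_ R ?_ ?_
  · intro x
    obtain ⟨U, hU, hfin⟩ := hlf x.1.1 x.2.1
    refine ⟨(fun x : Q0 c => x.1.1) ⁻¹' U, hz.continuousAt.preimage_mem_nhds hU,
      hfin.subset ?_⟩
    rintro i ⟨y, hy, hyU⟩
    exact ⟨y.1.1, hy, hyU⟩
  · rintro i j ⟨x, hx, hx'⟩
    exact hR i j ⟨x.1.1, x.2.1, hx, hx'⟩
  · intro i j hij x hx y hy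
    have e1 := Q0_eq x.2 (hf1 i _ hx x.2.1)
    have e2 := Q0_eq y.2 (hf1 j _ hy y.2.1)
    show x.1.2 - y.1.2 < _
    rw [e1, e2]
    exact hosc i j hij _ hx _ hy x.2.1 y.2.1

end Crest.Agent.R272.LbSq_936
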