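import Mathlib
import Crest.Agent.R272.LbSq3_936
import Crest.Agent.R272.LbCap2_382

/-!
# LB-WALL, part 4 (row 272, lower bound for S0415; helper936)

The wall of (4) of 585 #5391 on the real blow up `Q0 c` of the ball of `ℂ³`, for the caps
`Cap k (V i)` of 382's LbCap.
-/

set_option autoImplicit false

open Set Filter Topology
open Crest.Agent.R272.EBase_641 Crest.Agent.R272.LbCap_382 Crest.Agent.R272.LbClu_382
open scoped ComplexConjugate

noncomputable section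

namespace Crest.Agent.R272.LbSq_936

/-- the projection to the first two coordinates -/
def PPl : E3 →ₗ[ℂ] E3 where
  toFun z := WithLp.toLp 2 ![z 0, z 1, 0]
  map_add' x y := by
    ext i
    fin_cases i <;> simp
  map_smul' c x := by
    ext i
    fin_cases i <;> simp

def PP : E3 →L[ℂ] E3 := LinearMap.toContinuousLinearMap PPl

@[simp] theorem PP0 (z : E3) : PP z 0 = z 0 := rfl
@[simp] theorem PP1 (z : E3) : PP z 1 = z 1 := rfl
@[simp] theorem PP2 (z : E3) : PP z 2 = 0 := rfl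

theorem norm_PP_sq (z : E3) : ‖PP z‖ ^ 2 = ‖z 0‖ ^ 2 + ‖z 1‖ ^ 2 := by
  rw [EuclideanSpace.norm_sq_eq, Fin.sum_univ_three]
  simp

theorem norm_PP_le (z : E3) : ‖PP z‖ ≤ ‖z‖ := by
  apply le_of_sq_le_sq _ (norm_nonneg _)
  rw [norm_PP_sq, EuclideanSpace.norm_sq_eq, Fin.sum_univ_three]
  have := sq_nonneg ‖z 2‖
  linarith

theorem coord_le (z : E3) (i : Fin 3) : ‖z i‖ ≤ ‖z‖ := by
  apply le_of_sq_le_sq _ (norm_nonneg _)
  rw [EuclideanSpace.norm_sq_eq z, Fin.sum_univ_three]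
  have h0 := sq_nonneg ‖z 0‖
  have h1 := sq_nonneg ‖z 1‖
  have h2 := sq_nonneg ‖z 2‖
  fin_cases i <;> simp <;> linarith

theorem norm_PP_le_de (c : ℂ) (z : E3) : ‖PP z‖ ≤ (1 + ‖c‖) * de c z := by
  have h1 : ‖PP z‖ ≤ ‖z 0‖ + ‖z 1‖ := by
    apply le_of_sq_le_sq _ (by positivity)
    rw [norm_PP_sq]
    nlinarith [norm_nonneg (z 0), norm_nonneg (z 1)]
  have h2 : ‖z 1‖ ≤ ‖z 1 - c * z 0‖ + ‖c‖ * ‖z 0‖ := by
    have := norm_add_le (z 1 - c * z 0) (c * z 0)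
    rw [sub_add_cancel, norm_mul] at this
    exact this
  have h3 : 0 ≤ ‖c‖ * ‖z 1 - c * z 0‖ := by positivity
  unfold de
  nlinarith

theorem nu_le_de (c : ℂ) (z : E3) : nu c z ≤ de c z := by
  unfold nu de
  have := norm_nonneg (z 0)
  linarith

theorem nu_nonneg (c : ℂ) (z : E3) : 0 ≤ nu c z := norm_nonneg _
theorem de_nonneg (c : ℂ) (z : E3) : 0 ≤ de c z := by unfold de; positivity

theorem mm_nonneg (c : ℂ) (z : E3) : 0 ≤ mm c z := div_nonneg (nu_nonneg c z) (de_nonneg c z)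
theorem mm_le_one (c : ℂ) (z : E3) : mm c z ≤ 1 :=
  div_le_one_of_le₀ (nu_le_de c z) (de_nonneg c z)

theorem nu_smul (c : ℂ) (t : ℂ) (z : E3) : nu c (t • z) = ‖t‖ * nu c z := by
  unfold nu
  rw [← norm_mul]
  congr 1
  simp only [PiLp.smul_apply, smul_eq_mul]
  ring

theorem de_smul (c : ℂ) (t : ℂ) (z : E3) : de c (t • z) = ‖t‖ * de c z := by
  have h := nu_smul c t z
  unfold nu at h
  unfold de
  rw [h, mul_add]
  congr 1
  rw [PiLp.smul_apply, smul_eq_mul, norm_mul]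

theorem mm_smul (c : ℂ) {t : ℂ} (ht : t ≠ 0) (z : E3) : mm c (t • z) = mm c z := by
  unfold mm
  rw [nu_smul, de_smul, mul_div_mul_left _ _ (norm_ne_zero_iff.2 ht)]

theorem mm_PP (c : ℂ) (z : E3) : mm c (PP z) = mm c z := rfl

theorem nu_sub (c : ℂ) (x y : E3) : |nu c x - nu c y| ≤ (1 + ‖c‖) * ‖x - y‖ := by
  have h1 := abs_norm_sub_norm_le (x 1 - c * x 0) (y 1 - c * y 0)
  have e : x 1 - c * x 0 - (y 1 - c * y 0) = (x - y) 1 - c * (x - y) 0 := by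
    simp only [PiLp.sub_apply]
    ring
  rw [e] at h1
  refine h1.trans ((norm_sub_le _ _).trans ?_)
  rw [norm_mul]
  have h2 := coord_le (x - y) 1
  have h3 := mul_le_mul_of_nonneg_left (coord_le (x - y) 0) (norm_nonneg c)
  linarith

theorem de_sub (c : ℂ) (x y : E3) : |de c x - de c y| ≤ (2 + ‖c‖) * ‖x - y‖ := by
  have h1 := nu_sub c x y
  have h2 : |‖x 0‖ - ‖y 0‖| ≤ ‖x - y‖ := by
    refine (abs_norm_sub_norm_le (x 0) (y 0)).trans ?_
    have := coord_le (x - y) 0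
    simpa using this
  have e : de c x - de c y = (‖x 0‖ - ‖y 0‖) + (nu c x - nu c y) := by
    unfold de nu
    ring
  rw [e]
  refine (abs_add_le _ _).trans ?_
  linarith

/-- close directions have close real slopes -/
theorem mm_close {c : ℂ} {x y a : E3} {δ : ℝ} (hδ : δ ≤ 1 / 2) (ha : 0 < ‖a‖)
    (hx : ‖PP x - a‖ ≤ δ * ‖a‖) (hy : ‖PP y - a‖ ≤ δ * ‖a‖) :
    |mm c x - mm c y| ≤ 4 * δ * (1 + ‖c‖) * (3 + 2 * ‖c‖) ∧ PP x ≠ 0 := by
  rw [← mm_PP c x, ← mm_PP c y]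
  set x' := PP x with hx'
  set y' := PP y with hy'
  have hδ0 : 0 ≤ δ := by
    by_contra h
    push Not at h
    have := norm_nonneg (x' - a)
    nlinarith
  have h1 : ‖x' - y'‖ ≤ 2 * δ * ‖a‖ := by
    have e : x' - y' = (x' - a) - (y' - a) := by abel
    rw [e]
    refine (norm_sub_le _ _).trans ?_
    linarith
  have h2 : ‖a‖ ≤ 2 * ‖x'‖ := by
    have e : a = x' - (x' - a) := by abel
    have h3 : ‖a‖ ≤ ‖x'‖ + ‖x' - a‖ := by
      conv_lhs => rw [e]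
      exact norm_sub_le _ _
    have h4 : δ * ‖a‖ ≤ 1 / 2 * ‖a‖ := mul_le_mul_of_nonneg_right hδ (norm_nonneg _)
    linarith
  have h2y : ‖a‖ ≤ 2 * ‖y'‖ := by
    have e : a = y' - (y' - a) := by abel
    have h3 : ‖a‖ ≤ ‖y'‖ + ‖y' - a‖ := by
      conv_lhs => rw [e]
      exact norm_sub_le _ _
    have h4 : δ * ‖a‖ ≤ 1 / 2 * ‖a‖ := mul_le_mul_of_nonneg_right hδ (norm_nonneg _)
    linarith
  have hx0 : x' ≠ 0 := by
    intro h0
    rw [h0, norm_zero] at h2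
    linarith
  refine ⟨?_, hx0⟩
  have h3 : ‖x' - y'‖ ≤ 4 * δ * ‖x'‖ := by
    refine h1.trans ?_
    have := mul_le_mul_of_nonneg_left h2 (show 0 ≤ 2 * δ by positivity)
    linarith
  have hxd : ‖x'‖ ≤ (1 + ‖c‖) * de c x' := norm_PP_le_de c x
  have hyd : ‖y'‖ ≤ (1 + ‖c‖) * de c y' := norm_PP_le_de c y
  have hxn : 0 < ‖x'‖ := norm_pos_iff.2 hx0
  have hc0 : 0 < 1 + ‖c‖ := by positivity
  have hdx : 0 < de c x' := by
    by_contra h
    push Not at h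
    have := mul_nonpos_of_nonneg_of_nonpos hc0.le h
    linarith
  have hdy : 0 < de c y' := by
    by_contra h
    push Not at h
    have := mul_nonpos_of_nonneg_of_nonpos hc0.le h
    linarith
  have e : mm c x' - mm c y' =
      ((nu c x' - nu c y') - mm c y' * (de c x' - de c y')) / de c x' := by
    unfold mm
    field_simp
    ring
  rw [e, abs_div, abs_of_pos hdx, div_le_iff₀ hdx]
  have h5 : |nu c x' - nu c y' - mm c y' * (de c x' - de c y')| ≤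
      (1 + ‖c‖) * ‖x' - y'‖ + (2 + ‖c‖) * ‖x' - y'‖ := by
    refine (abs_sub _ _).trans ?_
    refine add_le_add (nu_sub c x' y') ?_
    rw [abs_mul]
    have h6 : |mm c y'| ≤ 1 := by
      rw [abs_of_nonneg (mm_nonneg c y')]
      exact mm_le_one c y'
    calc |mm c y'| * |de c x' - de c y'| ≤ 1 * |de c x' - de c y'| :=
          mul_le_mul_of_nonneg_right h6 (abs_nonneg _)
      _ ≤ _ := by rw [one_mul]; exact de_sub c x' y'
  have h7 : ‖x' - y'‖ ≤ 4 * δ * ((1 + ‖c‖) * de c x') :=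
    h3.trans (mul_le_mul_of_nonneg_left hxd (by positivity))
  calc _ ≤ _ := h5
    _ = (3 + 2 * ‖c‖) * ‖x' - y'‖ := by ring
    _ ≤ (3 + 2 * ‖c‖) * (4 * δ * ((1 + ‖c‖) * de c x')) :=
        mul_le_mul_of_nonneg_left h7 (by positivity)
    _ = _ := by ring

theorem mm_dir (c : ℂ) {u : E3} (hu : u ≠ 0) : mm c (dir u) = mm c u := by
  unfold dir
  apply mm_smul
  have : ‖u‖⁻¹ ≠ 0 := inv_ne_zero (norm_ne_zero_iff.2 hu)
  exact_mod_cast this

/-- The arithmetic input of the wall: aliens and type B mirrors. -/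
structure WData (ι : Type*) (V : ι → V1 3) (Nn : ι → ℝ) (Nmin Nmax c0 Lam Lam' k : ℝ) : Prop where
  pv : ∀ i, Pv (Nn i) (V i)
  min_pos : 0 < Nmin
  le_min : ∀ i, Nmin ≤ Nn i
  le_max : ∀ i, Nn i ≤ Nmax
  hk : 1 ≤ k
  hc0 : 0 ≤ c0
  dich : ∀ i j, i ≠ j → ‖hh (V i) (V j)‖ ≤ c0 ∨ Lam ≤ ‖hh (V i) (V j)‖
  hLam : 4 * Nmax * (2 + (3 * (2 * (2 * k) + capA Nmin c0)) ^ 2) < Lam
  disc : ∀ T : ℝ, {i | ‖(V i).1‖ ≤ T}.Finite
  hLam' : 0 < Lam'
  far : ∀ i, Lam' ≤ ‖PP (V i).1‖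
  hkLam : k ^ 2 * Nmax < Lam' ^ 2

variable {ι : Type*} {V : ι → V1 3} {Nn : ι → ℝ} {Nmin Nmax c0 Lam Lam' k : ℝ}

theorem WData.small (W : WData ι V Nn Nmin Nmax c0 Lam Lam' k) (i : ι) :
    k ^ 2 * ep (V i) ^ 2 < 1 := by
  have h1 := (W.pv i).sq_le
  have h2 : Lam' ≤ ‖(V i).1‖ := (W.far i).trans (norm_PP_le _)
  have h3 : Lam' ^ 2 ≤ ‖(V i).1‖ ^ 2 := pow_le_pow_left₀ W.hLam'.le h2 2
  have h4 := W.le_max i
  have h5 : Lam' ^ 2 * ep (V i) ^ 2 ≤ Nmax :=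
    (mul_le_mul_of_nonneg_right h3 (sq_nonneg _)).trans (h1.trans h4)
  have h6 : 0 < Lam' ^ 2 := by have := W.hLam'; positivity
  have h7 : Lam' ^ 2 * (k ^ 2 * ep (V i) ^ 2) < Lam' ^ 2 * 1 := by
    calc Lam' ^ 2 * (k ^ 2 * ep (V i) ^ 2) = k ^ 2 * (Lam' ^ 2 * ep (V i) ^ 2) := by ring
      _ ≤ k ^ 2 * Nmax := mul_le_mul_of_nonneg_left h5 (sq_nonneg _)
      _ < Lam' ^ 2 * 1 := by rw [mul_one]; exact W.hkLam
  exact lt_of_mul_lt_mul_left h7 h6.le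

theorem WData.caps (W : WData ι V Nn Nmin Nmax c0 Lam Lam' k) :
    Caps (fun a b : Sph 3 => rd a.1 b.1) (fun i => omS (V i) (W.pv i)) (fun i => ep (V i))
      1 (capA Nmin c0) (2 * k) :=
  capsOf W.pv W.min_pos W.le_min W.le_max (by linarith [W.hk]) W.hc0 W.dich W.hLam

/-- **THE WALL.** -/
theorem wall_main (W : WData ι V Nn Nmin Nmax c0 Lam Lam' k) (c : ℂ) {m1 m2 : ℝ} (h12 : m1 < m2)
    (hδ : slopeδ k (capA Nmin c0) Nmax Lam' ≤ 1 / 2)
    (hδ2 : 4 * slopeδ k (capA Nmin c0) Nmax Lam' * (1 + ‖c‖) * (3 + 2 * ‖c‖) < (m2 - m1) / 2) :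
    ∃ T : C(Q0 c, ℝ), (∀ x, 0 ≤ T x) ∧ (∀ x, T x ≤ 1) ∧ (∀ x, x.1.2 ≤ m1 → T x = 0) ∧
      (∀ x, m2 ≤ x.1.2 → T x = 1) ∧
      ∀ i, (∀ x : Q0 c, x.1.1 ∈ Cap k (V i) → T x = 0) ∨
        (∀ x : Q0 c, x.1.1 ∈ Cap k (V i) → T x = 1) := by
  have H := W.caps
  refine wallQ0 c h12 (fun i => Cap k (V i)) (fun i => isClosed_Cap (W.small i)) ?_ ?_
    (fun i j => Quotient.mk (chainSetoid H) i = Quotient.mk (chainSetoid H) j) ?_ ?_
  · intro z hz
    exact Cap.locallyFinite W.pv W.le_max W.disc k hz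
  · rintro i z hz - ⟨h0, h1⟩
    obtain ⟨a, ha, h2, h3⟩ := piece_slope W.pv W.le_max (by linarith [W.hk]) H PP norm_PP_le
      W.hLam' W.far (rfl : Quotient.mk (chainSetoid H) i = Quotient.mk (chainSetoid H) i) hz hz
    have h4 := (mm_close (c := c) hδ ha h2 h3).2
    apply h4
    have hz0 : z ≠ 0 := Cap.ne_zero (W.small i) hz
    ext l
    fin_cases l
    · show PP (dir z) 0 = 0
      rw [PP0]
      show ((‖z‖⁻¹ : ℝ) : ℂ) * z 0 = 0
      rw [h0, mul_zero]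
    · show PP (dir z) 1 = 0
      rw [PP1]
      show ((‖z‖⁻¹ : ℝ) : ℂ) * z 1 = 0
      rw [h1, mul_zero]
    · rfl
  · rintro i j ⟨z, -, hzi, hzj⟩
    apply chainSetoid_of_adj H
    exact Cap.rd_le (W.pv i) (W.pv j) (W.small i) hzi hzj
  · intro i j hij x hx y hy _ _
    have hij' : Quotient.mk (chainSetoid H) i = Quotient.mk (chainSetoid H) j := by
      clear hx hy
      induction hij with
      | rel _ _ h => exact h
      | refl _ => rfl
      | symm _ _ _ ih => exact ih.symm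
      | trans _ _ _ _ _ ih1 ih2 => exact ih1.trans ih2
    obtain ⟨a, ha, h2, h3⟩ := piece_slope W.pv W.le_max (by linarith [W.hk]) H PP norm_PP_le
      W.hLam' W.far hij' hx hy
    have h4 := (mm_close (c := c) hδ ha h2 h3).1
    rw [mm_dir c (Cap.ne_zero (W.small i) hx), mm_dir c (Cap.ne_zero (W.small j) hy)] at h4
    exact lt_of_le_of_lt (le_abs_self _) (lt_of_le_of_lt h4 hδ2)

end Crest.Agent.R272.LbSq_936
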