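import Mathlib
import Crest.Agent.R272.LbSq1_936
import Crest.Agent.R272.LbSq2_936
import Crest.Agent.R272.LbSq4_936

/-!
# LB-WALL, part 5 (row 272, lower bound for S0415; helper936)

The circle valued function `θ' = ε T mod 1` on any double cover `y² = F / z₀^6`.
-/

set_option autoImplicit false

open Set Filter Topology
open Crest.Agent.R272.EBase_641 Crest.Agent.R272.LbCap_382 Crest.Agent.R272.LbClu_382
  Crest.Agent.R272.Wei_392
open scoped ComplexConjugate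

noncomputable section

namespace Crest.Agent.R272.LbSq_936

/-- a hyperplane whose real slopes stay outside `(m1, m2)` and which misses `z 0 = z 1 = 0`
(bridges) -/
def Bridge (c : ℂ) (m1 m2 : ℝ) (v : V1 3) : Prop :=
  ∀ z : E3, ‖z‖ < 1 → lin v z = 0 → ¬ (z 0 = 0 ∧ z 1 = 0) ∧ (mm c z ≤ m1 ∨ m2 ≤ mm c z)

/-- the properties of the wall function which are used -/
structure IsWall {ι : Type*} (V : ι → V1 3) (k : ℝ) (c : ℂ) (m1 m2 : ℝ) (T : C(Q0 c, ℝ)) :
    Prop where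
  nonneg : ∀ x, 0 ≤ T x
  le_one : ∀ x, T x ≤ 1
  lo : ∀ x, x.1.2 ≤ m1 → T x = 0
  hi : ∀ x, m2 ≤ x.1.2 → T x = 1
  cap : ∀ i, (∀ x : Q0 c, x.1.1 ∈ Cap k (V i) → T x = 0) ∨
        (∀ x : Q0 c, x.1.1 ∈ Cap k (V i) → T x = 1)

variable {ι : Type*} {V : ι → V1 3} {Nn : ι → ℝ} {Nmin Nmax c0 Lam Lam' k : ℝ}

theorem exists_isWall (W : WData ι V Nn Nmin Nmax c0 Lam Lam' k) (c : ℂ) {m1 m2 : ℝ}
    (h12 : m1 < m2)
    (hδ : slopeδ k (capA Nmin c0) Nmax Lam' ≤ 1 / 2)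
    (hδ2 : 4 * slopeδ k (capA Nmin c0) Nmax Lam' * (1 + ‖c‖) * (3 + 2 * ‖c‖) < (m2 - m1) / 2) :
    ∃ T : C(Q0 c, ℝ), IsWall V k c m1 m2 T := by
  obtain ⟨T, h1, h2, h3, h4, h5⟩ := wall_main W c h12 hδ hδ2
  exact ⟨T, h1, h2, h3, h4, h5⟩

/-- the support of the wall: `0 < T < 1` -/
def OO {c : ℂ} (T : C(Q0 c, ℝ)) : Set (Q0 c) := {x | 0 < T x ∧ T x < 1}

theorem IsWall.mem {c : ℂ} {m1 m2 : ℝ} {T : C(Q0 c, ℝ)} (h : IsWall V k c m1 m2 T) {x : Q0 c}
    (hx : x ∈ OO T) : m1 < x.1.2 ∧ x.1.2 < m2 ∧ ∀ i, x.1.1 ∉ Cap k (V i) := by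
  refine ⟨?_, ?_, fun i hi => ?_⟩
  · by_contra h1
    have := h.lo x (not_lt.1 h1)
    have := hx.1
    linarith
  · by_contra h1
    have := h.hi x (not_lt.1 h1)
    have := hx.2
    linarith
  · rcases h.cap i with h1 | h1
    · have := h1 x hi
      have := hx.1
      linarith
    · have := h1 x hi
      have := hx.2
      linarith

/-- the segment from the origin to a point of the support of the wall avoids all the planes which
are far (`V i`) or bridges. -/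
theorem IsWall.seg (W : WData ι V Nn Nmin Nmax c0 Lam Lam' k) {c : ℂ} {m1 m2 : ℝ}
    {T : C(Q0 c, ℝ)} (h : IsWall V k c m1 m2 T) {x : Q0 c} (hx : x ∈ OO T) {v : V1 3}
    (hv : (∃ i, V i = v) ∨ Bridge c m1 m2 v) {t : ℝ} (ht0 : 0 ≤ t) (ht1 : t ≤ 1) :
    lin v (t • x.1.1) ≠ 0 := by
  intro h0
  obtain ⟨h1, h2, h3⟩ := h.mem hx
  have hxn : ‖x.1.1‖ < 1 := x.2.1
  have htx : ‖t • x.1.1‖ < 1 := by
    rw [norm_smul, Real.norm_of_nonneg ht0]
    nlinarith [norm_nonneg x.1.1]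
  have hsm : t • x.1.1 = (t : ℂ) • x.1.1 := by
    ext i
    simp
  rcases hv with ⟨i, rfl⟩ | hb
  · have hcap : t • x.1.1 ∈ Cap k (V i) :=
      mem_Cap_of_lin_eq_zero (W.pv i) W.hk (W.small i) htx.le h0
    have hne := Cap.ne_zero (W.small i) hcap
    have ht : 0 < t := by
      rcases ht0.eq_or_lt with h4 | h4
      · exfalso
        apply hne
        rw [← h4, zero_smul]
      · exact h4
    have h5 := Cap.smul_mem (W.small i) hcap (c := t⁻¹) (by
      rw [one_le_inv₀ ht]; exact ht1)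
    apply h3 i
    rw [hsm, smul_smul, ← Complex.ofReal_mul, inv_mul_cancel₀ ht.ne', Complex.ofReal_one,
      one_smul] at h5
    exact h5
  · obtain ⟨h4, h5⟩ := hb _ htx h0
    have ht : t ≠ 0 := by
      rintro rfl
      apply h4
      simp
    have hz : ¬ (x.1.1 0 = 0 ∧ x.1.1 1 = 0) := by
      rintro ⟨h6, h7⟩
      apply h4
      constructor
      · simp [h6]
      · simp [h7]
    rw [hsm, mm_smul c (by exact_mod_cast ht), ← Q0_eq x.2 hz] at h5
    rcases h5 with h5 | h5 <;> linarith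

/-- the base vectors: coefficients of `lin v z = z₀ (a + b s)` -/
def ca (v : V1 3) : ℂ := conj (v.1 0)
def cb (v : V1 3) : ℂ := conj (v.1 1)

theorem lin_base {v : V1 3} (h2 : v.2 = 0) (h3 : v.1 2 = 0) {z : E3} {s : ℂ}
    (hs : z 1 = s * z 0) : lin v z = z 0 * (ca v + cb v * s) := by
  unfold lin ca cb
  rw [h2, PiLp.inner_apply, Fin.sum_univ_three, h3, hs]
  simp only [RCLike.inner_apply]
  simp
  ring

/-- Data of the colour 1 divisor near `p = 0`. -/
structure FData (S : Set (V1 3)) (F : E3 → ℂ) (S0 : Finset (V1 3)) (v1 v2 : V1 3)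
    {ι : Type*} (V : ι → V1 3) (c : ℂ) (r1 r2 m1 m2 : ℝ) : Prop where
  div : Div 3 S F
  sub : ∀ v ∈ S0, v ∈ S
  base : ∀ v ∈ S0, v.1 ≠ 0 ∧ v.2 = 0 ∧ v.1 2 = 0
  r1_nonneg : 0 ≤ r1
  r2_pos : 0 < r2
  mem1 : v1 ∈ S0
  mem2 : v2 ∈ S0
  ne12 : v1 ≠ v2
  b1 : cb v1 ≠ 0
  b2 : cb v2 ≠ 0
  in1 : ‖-ca v1 / cb v1 - c‖ ≤ r1
  in2 : ‖-ca v2 / cb v2 - c‖ ≤ r1
  out : ∀ v ∈ S0, v ≠ v1 → v ≠ v2 → ∀ s, ‖s - c‖ < r2 → ca v + cb v * s ≠ 0
  rest : ∀ v ∈ S, v ∉ S0 → (∃ i, V i = v) ∨ Bridge c m1 m2 v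

/-- **THE SHEET FUNCTION.**  `Y` is any space over the real blow up, `y` the normalised fibre
coordinate (`y² z₀^6 = F`), `s` the complex slope. -/
theorem exists_sheet (W : WData ι V Nn Nmin Nmax c0 Lam Lam' k) {S : Set (V1 3)} {F : E3 → ℂ}
    {S0 : Finset (V1 3)} {v1 v2 : V1 3} {c : ℂ} {r1 r2 m1 m2 : ℝ}
    (D : FData S F S0 v1 v2 V c r1 r2 m1 m2) {T : C(Q0 c, ℝ)} (hT : IsWall V k c m1 m2 T)
    {Y : Type*} [TopologicalSpace Y] (π : Y → Q0 c) (hπ : Continuous π) (s y : Y → ℂ)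
    (hs : ContinuousOn s {x | π x ∈ OO T}) (hy : ContinuousOn y {x | π x ∈ OO T})
    (hs1 : ∀ x, π x ∈ OO T → (π x).1.1 1 = s x * (π x).1.1 0)
    (hs2 : ∀ x, π x ∈ OO T → s x ∈ An c r1 r2)
    (hdense : ∀ x, π x ∈ OO T → x ∈ closure {x' | π x' ∈ OO T ∧ (π x').1.1 0 ≠ 0})
    (hy2 : ∀ x, π x ∈ OO T → y x ^ 2 * (π x).1.1 0 ^ S0.card = F (π x).1.1) :
    ∃ ε : Y → ℝ, (∀ x, ε x = 1 ∨ ε x = -1) ∧ ContinuousOn ε {x | π x ∈ OO T} ∧
      Continuous (fun x => ((ε x * T (π x) : ℝ) : AddCircle (1 : ℝ))) ∧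
      ∀ x x', π x ∈ OO T → π x = π x' → s x = s x' →
        (y x' = y x → ε x' = ε x) ∧ (y x' = -y x → ε x' = -ε x) := by
  classical
  obtain ⟨q, hqdiv, hFq⟩ :=
    LbSq_936.Div.split D.div S0 D.sub (fun v hv => (D.base v hv).1)
  obtain ⟨g0, hg0, hg0'⟩ := root_annulus S0 ca cb D.r1_nonneg D.r2_pos v1 v2 D.mem1 D.mem2
    D.ne12 D.b1 D.b2 D.in1 D.in2 D.out
  -- the root of `q`
  obtain ⟨r, hr, hr2⟩ := root_star (X := OO T) (fun x => x.1.1.1) (by fun_prop)
    (Metric.ball (0 : E3) 1) q hqdiv.hol.continuousOn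
    (by
      intro x t ht0 ht1
      rw [mem_ball_zero_iff, norm_smul, Real.norm_of_nonneg ht0]
      have := x.1.2.1
      nlinarith [norm_nonneg x.1.1.1])
    (by
      intro x t ht0 ht1 h0
      have hB : t • x.1.1.1 ∈ Ball 3 := by
        rw [mem_Ball, norm_smul, Real.norm_of_nonneg ht0]
        have := x.1.2.1
        nlinarith [norm_nonneg x.1.1.1]
      obtain ⟨v, hv, hv0⟩ := (hqdiv.eq_zero_iff hB).1 h0
      exact hT.seg W x.2 (D.rest v hv.1 (fun h => hv.2 (Finset.mem_coe.2 h))) ht0 ht1 hv0)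
  have hrne : ∀ x : OO T, r x ≠ 0 := by
    intro x h0
    have h1 := hr2 x
    rw [h0] at h1
    have hB : x.1.1.1 ∈ Ball 3 := by rw [mem_Ball]; exact x.1.2.1
    have h2 : q x.1.1.1 = 0 := by rw [← h1]; simp
    obtain ⟨v, hv, hv0⟩ := (hqdiv.eq_zero_iff hB).1 h2
    have := hT.seg W x.2 (D.rest v hv.1 (fun h => hv.2 (Finset.mem_coe.2 h)))
      (t := 1) zero_le_one le_rfl
    rw [one_smul] at this
    exact this hv0
  have hg0ne : ∀ u ∈ An c r1 r2, g0 u ≠ 0 := by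
    intro u hu h0
    have h1 := hg0' u hu
    rw [h0] at h1
    have h2 : ∏ l ∈ S0, (ca l + cb l * u) = 0 := by rw [← h1]; simp
    obtain ⟨l, hl, hl0⟩ := Finset.prod_eq_zero_iff.1 h2
    by_cases e1 : l = v1
    · subst e1
      have e : u = -ca l / cb l := by
        have := D.b1
        field_simp
        linear_combination hl0
      have h3 := D.in1
      rw [← e] at h3
      exact absurd hu.1 (not_lt.2 h3)
    · by_cases e2 : l = v2
      · subst e2
        have e : u = -ca l / cb l := by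
          have := D.b2
          field_simp
          linear_combination hl0
        have h3 := D.in2
        rw [← e] at h3
        exact absurd hu.1 (not_lt.2 h3)
      · exact D.out l hl e1 e2 u hu.2 hl0
  -- extend `r` to `Q0`
  let r' : Q0 c → ℂ := fun x => if h : x ∈ OO T then r ⟨x, h⟩ else 1
  have hr'c : ContinuousOn r' (OO T) := by
    rw [continuousOn_iff_continuous_domRestrict]
    have : (OO T).domRestrict r' = r := by
      funext x
      show r' x.1 = r x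
      simp only [r', x.2, dif_pos]
    rw [this]
    exact hr
  have hr'2 : ∀ x ∈ OO T, r' x ^ 2 = q x.1.1 := by
    intro x hx
    simp only [r', hx, dif_pos]
    exact hr2 ⟨x, hx⟩
  have hr'ne : ∀ x ∈ OO T, r' x ≠ 0 := by
    intro x hx
    simp only [r', hx, dif_pos]
    exact hrne ⟨x, hx⟩
  set O : Set Y := {x | π x ∈ OO T} with hO
  have hOopen : IsOpen (OO T) :=
    (isOpen_lt continuous_const T.continuous).inter (isOpen_lt T.continuous continuous_const)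
  have hOo : IsOpen O := hOopen.preimage hπ
  let g : Y → ℂ := fun x => g0 (s x) * r' (π x)
  have hgc : ContinuousOn g O := by
    refine ContinuousOn.mul (hg0.comp hs hs2) (hr'c.comp hπ.continuousOn fun x hx => hx)
  have hgne : ∀ x ∈ O, g x ≠ 0 := fun x hx => mul_ne_zero (hg0ne _ (hs2 x hx)) (hr'ne _ hx)
  -- `y² = g²`
  have hyg : ∀ x ∈ O, y x ^ 2 = g x ^ 2 := by
    intro x hx
    have hcl := hdense x hx
    have h1 : ContinuousWithinAt (fun x => y x ^ 2 - g x ^ 2)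
        {x' | π x' ∈ OO T ∧ (π x').1.1 0 ≠ 0} x :=
      (((hy.pow 2).sub (hgc.pow 2)) x hx).mono fun x' hx' => hx'.1
    have h2 : ∀ x' ∈ {x' | π x' ∈ OO T ∧ (π x').1.1 0 ≠ 0}, y x' ^ 2 - g x' ^ 2 = 0 := by
      rintro x' ⟨hx', hx0⟩
      have hB : (π x').1.1 ∈ Ball 3 := by rw [mem_Ball]; exact (π x').2.1
      have h3 := hy2 x' hx'
      rw [hFq _ hB] at h3
      have h4 : ∏ v ∈ S0, lin v (π x').1.1 =
          (π x').1.1 0 ^ S0.card * ∏ v ∈ S0, (ca v + cb v * s x') := by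
        rw [← Finset.prod_const, ← Finset.prod_mul_distrib]
        refine Finset.prod_congr rfl fun v hv => ?_
        exact lin_base (D.base v hv).2.1 (D.base v hv).2.2 (hs1 x' hx')
      rw [h4, ← hg0' _ (hs2 x' hx'), ← hr'2 _ hx'] at h3
      have h5 : (π x').1.1 0 ^ S0.card ≠ 0 := pow_ne_zero _ hx0
      have h6 : (π x').1.1 0 ^ S0.card * (y x' ^ 2 - g x' ^ 2) = 0 := by
        simp only [g]
        linear_combination h3
      exact (mul_eq_zero.1 h6).resolve_left h5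
    have h4 : y x ^ 2 - g x ^ 2 ∈ closure ({0} : Set ℂ) :=
      h1.mem_closure hcl (fun y hy => by simpa using h2 y hy)
    rw [closure_singleton] at h4
    exact sub_eq_zero.1 h4
  obtain ⟨hsh1, hsh2⟩ := sheet hy hgc hgne hyg
  let ε : Y → ℝ := fun x => if π x ∈ OO T then (y x / g x).re else 1
  have hεO : ∀ x ∈ O, ε x = (y x / g x).re := fun x hx => if_pos hx
  have hε : ∀ x, ε x = 1 ∨ ε x = -1 := by
    intro x
    by_cases hx : π x ∈ OO T
    · rw [hεO x hx]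
      rcases hsh2 x hx with h | h
      · exact Or.inl h.1
      · exact Or.inr h.1
    · left
      simp only [ε, hx, if_false]
  have hεc : ContinuousOn ε O := hsh1.congr hεO
  refine ⟨ε, hε, hεc, ?_, ?_⟩
  · exact theta_cont (fun x => T (π x)) (T.continuous.comp hπ) (fun x => hT.nonneg _)
      (fun x => hT.le_one _) ε hε hεc
  · intro x x' hx hxx hss
    have hx' : π x' ∈ OO T := hxx ▸ hx
    have hg : g x' = g x := by
      simp only [g]
      rw [hxx, hss]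
    refine ⟨fun h => ?_, fun h => ?_⟩
    · rw [hεO x hx, hεO x' hx', hg, h]
    · rw [hεO x hx, hεO x' hx', hg, h, neg_div, Complex.neg_re]

end Crest.Agent.R272.LbSq_936
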