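import Mathlib
import Crest.Agent.R272.LbSq5_936

/-!
# LB-ADAPT, part 1 (row 272, lower bound for S0415; helper936)

From the graph model of the colour 1 double cover (559 #6409: coordinates `t = [x : f0]`,
`κ² = P/Q` in `P¹`) to the input `(π, s, y)` of `exists_sheet`.
-/

set_option autoImplicit false

open Set Filter Topology
open Crest.Agent.R272.EBase_641 Crest.Agent.R272.LbCap_382 Crest.Agent.R272.LbClu_382
  Crest.Agent.R272.Wei_392
open scoped ComplexConjugate

noncomputable section

namespace Crest.Agent.R272.LbSq_936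

/-! ### projective coordinates -/

/-- `n`, `d : P → ℂ` are the homogeneous coordinates of a continuous map to `P¹` -/
def PCo {P : Type*} [TopologicalSpace P] (n d : P → ℂ) : Prop :=
  ∀ t, ∃ U ∈ 𝓝 t, ∃ l : P → ℂ, ContinuousOn (fun s => l s * n s) U ∧
    ContinuousOn (fun s => l s * d s) U ∧ ∀ s ∈ U, l s ≠ 0 ∧ (n s ≠ 0 ∨ d s ≠ 0)

variable {P : Type*} [TopologicalSpace P] {n d : P → ℂ}

theorem PCo.ne (h : PCo n d) (t : P) : n t ≠ 0 ∨ d t ≠ 0 := by
  obtain ⟨U, hU, l, -, -, h3⟩ := h t
  exact (h3 t (mem_of_mem_nhds hU)).2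

theorem PCo.isOpen_d (h : PCo n d) : IsOpen {t | d t ≠ 0} := by
  rw [isOpen_iff_mem_nhds]
  intro t ht
  obtain ⟨U, hU, l, -, h2, h3⟩ := h t
  have h4 : ContinuousAt (fun s => l s * d s) t := h2.continuousAt hU
  have h5 : ∀ᶠ s in 𝓝 t, l s * d s ≠ 0 :=
    h4.eventually_ne (mul_ne_zero (h3 t (mem_of_mem_nhds hU)).1 ht)
  filter_upwards [h5] with s hs h0
  apply hs
  rw [h0, mul_zero]

theorem PCo.ratio (h : PCo n d) : ContinuousOn (fun t => n t / d t) {t | d t ≠ 0} := by
  intro t ht
  obtain ⟨U, hU, l, h1, h2, h3⟩ := h t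
  have hl := (h3 t (mem_of_mem_nhds hU)).1
  have h4 : ContinuousAt (fun s => (l s * n s) / (l s * d s)) t :=
    (h1.continuousAt hU).div (h2.continuousAt hU) (mul_ne_zero hl ht)
  have h5 : (fun s => (l s * n s) / (l s * d s)) =ᶠ[𝓝 t] fun s => n s / d s := by
    filter_upwards [hU] with s hs
    exact mul_div_mul_left _ _ (h3 s hs).1
  exact (h4.congr h5).continuousWithinAt

/-- the one point compactification of `ℂ` -/
def on (t : OnePoint ℂ) : ℂ := t.elim 1 id
def od (t : OnePoint ℂ) : ℂ := t.elim 0 fun _ => 1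

@[simp] theorem on_coe (c : ℂ) : on (c : OnePoint ℂ) = c := rfl
@[simp] theorem od_coe (c : ℂ) : od (c : OnePoint ℂ) = 1 := rfl
@[simp] theorem on_infty : on OnePoint.infty = 1 := rfl
@[simp] theorem od_infty : od OnePoint.infty = 0 := rfl

theorem pco_onePoint : PCo on od := by
  intro t
  induction t using OnePoint.rec with
  | infty =>
    -- chart `1/t`
    refine ⟨{t | t ≠ ((0 : ℂ) : OnePoint ℂ)}, (isOpen_ne).mem_nhds (OnePoint.infty_ne_coe 0),
      fun t => (on t)⁻¹, ?_, ?_, ?_⟩
    · refine continuousOn_const (c := (1 : ℂ)) |>.congr fun s hs => ?_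
      induction s using OnePoint.rec with
      | infty => simp
      | coe c =>
        have : c ≠ 0 := fun h => hs (by rw [h])
        simp [this]
    · have key : Continuous fun t : {t : OnePoint ℂ // t ≠ ((0 : ℂ) : OnePoint ℂ)} =>
          (on t.1)⁻¹ * od t.1 := by
        rw [continuous_iff_continuousAt]
        rintro ⟨t, ht⟩
        induction t using OnePoint.rec with
        | infty =>
          rw [ContinuousAt]
          simp only [on_infty, od_infty, mul_zero]
          rw [Metric.tendsto_nhds]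
          intro ε hε
          have hcl : IsClosed (Metric.closedBall (0 : ℂ) (1 / ε)) := Metric.isClosed_closedBall
          have hco : IsCompact (Metric.closedBall (0 : ℂ) (1 / ε)) := isCompact_closedBall _ _
          have hop : IsOpen ((↑) '' Metric.closedBall (0 : ℂ) (1 / ε) : Set (OnePoint ℂ))ᶜ :=
            OnePoint.isOpen_compl_image_coe.2 ⟨hcl, hco⟩
          have hmem : (OnePoint.infty : OnePoint ℂ) ∈
              ((↑) '' Metric.closedBall (0 : ℂ) (1 / ε) : Set (OnePoint ℂ))ᶜ := by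
            rintro ⟨x, -, hx⟩
            exact OnePoint.coe_ne_infty x hx
          have h1 := continuous_subtype_val.continuousAt.preimage_mem_nhds
            (x := (⟨OnePoint.infty, ht⟩ : {t : OnePoint ℂ // t ≠ ((0 : ℂ) : OnePoint ℂ)}))
            (hop.mem_nhds hmem)
          filter_upwards [h1] with s hs
          obtain ⟨s, hs0⟩ := s
          induction s using OnePoint.rec with
          | infty => simpa using hε
          | coe c =>
            have h2 : ¬ ‖c‖ ≤ 1 / ε := by
              intro h3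
              exact hs ⟨c, by simpa using h3, rfl⟩
            push Not at h2
            simp only [on_coe, od_coe, mul_one, dist_zero_right, norm_inv]
            rw [inv_lt_comm₀ (lt_trans (by positivity) h2) hε]
            simpa using h2
        | coe c =>
          have hc : c ≠ 0 := fun h => ht (by rw [h])
          have h1 : Tendsto (fun x : ℂ => x⁻¹) (𝓝 c) (𝓝 c⁻¹) := tendsto_inv₀ hc
          rw [ContinuousAt]
          simp only [on_coe, od_coe, mul_one]
          have h2 : Tendsto (fun t : OnePoint ℂ => (on t)⁻¹ * od t) (𝓝 (c : OnePoint ℂ))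
              (𝓝 c⁻¹) := by
            rw [OnePoint.nhds_coe_eq, tendsto_map'_iff]
            simpa [Function.comp_def] using h1
          exact h2.comp continuous_subtype_val.continuousAt
      exact continuousOn_iff_continuous_domRestrict.2 key
    · intro s hs
      induction s using OnePoint.rec with
      | infty => simp
      | coe c =>
        have : c ≠ 0 := fun h => hs (by rw [h])
        simp [this]
  | coe c =>
    refine ⟨range ((↑) : ℂ → OnePoint ℂ), OnePoint.isOpen_range_coe.mem_nhds ⟨c, rfl⟩,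
      fun _ => 1, ?_, ?_, ?_⟩
    · rintro _ ⟨x, rfl⟩
      refine ContinuousAt.continuousWithinAt ?_
      rw [ContinuousAt, OnePoint.nhds_coe_eq, tendsto_map'_iff]
      simp only [Function.comp_def, on_coe, one_mul]
      exact tendsto_id
    · rintro _ ⟨x, rfl⟩
      refine ContinuousAt.continuousWithinAt ?_
      rw [ContinuousAt, OnePoint.nhds_coe_eq, tendsto_map'_iff]
      simp only [Function.comp_def, od_coe, one_mul]
      exact tendsto_const_nhds
    · rintro _ ⟨x, rfl⟩
      exact ⟨one_ne_zero, Or.inr (by simp)⟩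

/-! ### the real slope of a vector -/

/-- real slope of a pair -/
def ms (c : ℂ) (p q : ℂ) : ℝ := ‖q - c * p‖ / (‖p‖ + ‖q - c * p‖)

theorem mm_eq_ms (c : ℂ) (z : E3) : mm c z = ms c (z 0) (z 1) := rfl

theorem ms_den {c p q : ℂ} (h : p ≠ 0 ∨ q ≠ 0) : 0 < ‖p‖ + ‖q - c * p‖ := by
  rcases eq_or_ne p 0 with rfl | hp
  · have hq : q ≠ 0 := h.resolve_left (by simp)
    simpa using hq
  · have := norm_pos_iff.2 hp
    have := norm_nonneg (q - c * p)
    linarith

theorem ms_smul {c p q l : ℂ} (hl : l ≠ 0) : ms c (l * p) (l * q) = ms c p q := by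
  unfold ms
  have e : l * q - c * (l * p) = l * (q - c * p) := by ring
  rw [e, norm_mul, norm_mul, ← mul_add, mul_div_mul_left _ _ (norm_ne_zero_iff.2 hl)]

/-- proportional pairs have the same real slope -/
theorem ms_par {c p q p' q' : ℂ} (h : p ≠ 0 ∨ q ≠ 0) (h' : p' ≠ 0 ∨ q' ≠ 0)
    (hpar : p * q' = q * p') : ms c p q = ms c p' q' := by
  rcases eq_or_ne p 0 with rfl | hp
  · have hq : q ≠ 0 := h.resolve_left (by simp)
    have hp' : p' = 0 := by
      rw [zero_mul] at hpar
      exact (mul_eq_zero.1 hpar.symm).resolve_left hq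
    subst hp'
    have hq' : q' ≠ 0 := h'.resolve_left (by simp)
    unfold ms
    simp [hq, hq']
  · have hp' : p' ≠ 0 := by
      rintro rfl
      have hq' : q' ≠ 0 := h'.resolve_left (by simp)
      rw [mul_zero] at hpar
      exact (mul_ne_zero hp hq') hpar
    have e1 : p' = (p' / p) * p := by field_simp
    have e2 : q' = (p' / p) * q := by
      field_simp
      linear_combination hpar
    rw [e1, e2]
    exact (ms_smul (div_ne_zero hp' hp)).symm

/-! ### the adapter -/

/-- The graph model of the double cover of colour 1 near `f₁ = {z₀ = z₁ = 0}`: `Y` is any space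
with coordinates `z` (ball), `t` (slope), `k` (root of `P/Q`). -/
structure Gm (Y : Type*) [TopologicalSpace Y] (n d : P → ℂ) (z : Y → E3) (t k : Y → P)
    (e : ℂ) (a0 b0 qN qD : E3 → ℂ) (SN SD : Finset (V1 3)) : Prop where
  pco : PCo n d
  zc : Continuous z
  zB : ∀ y, ‖z y‖ < 1
  tc : Continuous t
  kc : Continuous k
  a0c : ContinuousOn a0 (Metric.ball 0 1)
  b0c : ContinuousOn b0 (Metric.ball 0 1)
  qNc : ContinuousOn qN (Metric.ball 0 1)
  qDc : ContinuousOn qD (Metric.ball 0 1)
  a0n : ∀ w : E3, ‖w‖ < 1 → w 0 = 0 → w 1 = 0 → a0 w ≠ 0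
  b0n : ∀ w : E3, ‖w‖ < 1 → w 0 = 0 → w 1 = 0 → b0 w ≠ 0
  r1 : ∀ y, b0 (z y) * (z y 1 - e * z y 0) * d (t y) = a0 (z y) * z y 0 * n (t y)
  r2 : ∀ y, n (k y) ^ 2 * ((∏ v ∈ SD, lin v (z y)) * qD (z y)) =
    d (k y) ^ 2 * ((∏ v ∈ SN, lin v (z y)) * qN (z y))
  cl : ∀ y, z y 0 = 0 → z y 1 = 0 → y ∈ closure {y' | ¬ (z y' 0 = 0 ∧ z y' 1 = 0)}

namespace Gm

variable {Y : Type*} [TopologicalSpace Y] {z : Y → E3} {t k : Y → P}
    {e : ℂ} {a0 b0 qN qD : E3 → ℂ} {SN SD : Finset (V1 3)}

/-- the slope vector near `f₁` -/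
def sg0 (b0 : E3 → ℂ) (d : P → ℂ) (z : Y → E3) (t : Y → P) (y : Y) : ℂ := b0 (z y) * d (t y)
def sg1 (n d : P → ℂ) (e : ℂ) (a0 b0 : E3 → ℂ) (z : Y → E3) (t : Y → P) (y : Y) : ℂ :=
  a0 (z y) * n (t y) + e * (b0 (z y) * d (t y))

/-- over `f₁`? -/
def F1 (z : Y → E3) (y : Y) : Prop := z y 0 = 0 ∧ z y 1 = 0

theorem par (G : Gm Y n d z t k e a0 b0 qN qD SN SD) (y : Y) :
    z y 0 * sg1 n d e a0 b0 z t y = z y 1 * sg0 b0 d z t y := by
  have h := G.r1 y
  unfold sg0 sg1
  linear_combination -h

/-- near points where `a0 b0 ≠ 0` the slope vector is nonzero -/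
theorem sg_ne (G : Gm Y n d z t k e a0 b0 qN qD SN SD) {y : Y} (ha : a0 (z y) ≠ 0)
    (hb : b0 (z y) ≠ 0) : sg0 b0 d z t y ≠ 0 ∨ sg1 n d e a0 b0 z t y ≠ 0 := by
  by_contra hcon
  push Not at hcon
  obtain ⟨h1, h2⟩ := hcon
  have hd : d (t y) = 0 := (mul_eq_zero.1 h1).resolve_left hb
  unfold sg1 at h2
  rw [hd, mul_zero, mul_zero, add_zero] at h2
  have hn : n (t y) = 0 := (mul_eq_zero.1 h2).resolve_left ha
  rcases G.pco.ne (t y) with h | h
  · exact h hn
  · exact h hd

open Classical in
/-- the real slope coordinate on `Y` -/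
def aa (c : ℂ) (n d : P → ℂ) (e : ℂ) (a0 b0 : E3 → ℂ) (z : Y → E3) (t : Y → P) (y : Y) : ℝ :=
  if F1 z y then ms c (sg0 b0 d z t y) (sg1 n d e a0 b0 z t y) else mm c (z y)

open Classical in
/-- the complex slope coordinate on `Y` -/
def ss (n d : P → ℂ) (e : ℂ) (a0 b0 : E3 → ℂ) (z : Y → E3) (t : Y → P) (y : Y) : ℂ :=
  if F1 z y then sg1 n d e a0 b0 z t y / sg0 b0 d z t y else z y 1 / z y 0

theorem aa_eq (G : Gm Y n d z t k e a0 b0 qN qD SN SD) (c : ℂ) {y : Y} (ha : a0 (z y) ≠ 0)
    (hb : b0 (z y) ≠ 0) :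
    aa c n d e a0 b0 z t y = ms c (sg0 b0 d z t y) (sg1 n d e a0 b0 z t y) := by
  unfold aa
  split_ifs with h
  · rfl
  · rw [mm_eq_ms]
    have h0 : z y 0 ≠ 0 ∨ z y 1 ≠ 0 := by
      by_contra hcon
      push Not at hcon
      exact h hcon
    exact ms_par h0 (G.sg_ne ha hb) (G.par y)

theorem nhds_ne (G : Gm Y n d z t k e a0 b0 qN qD SN SD) {y : Y} (h : F1 z y) :
    ∀ᶠ y' in 𝓝 y, a0 (z y') ≠ 0 ∧ b0 (z y') ≠ 0 := by
  have hB : Metric.ball (0 : E3) 1 ∈ 𝓝 (z y) :=
    Metric.isOpen_ball.mem_nhds (by simpa using G.zB y)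
  have h1 : ContinuousAt (fun y => a0 (z y)) y :=
    (G.a0c.continuousAt hB).comp G.zc.continuousAt
  have h2 : ContinuousAt (fun y => b0 (z y)) y :=
    (G.b0c.continuousAt hB).comp G.zc.continuousAt
  exact (h1.eventually_ne (G.a0n _ (G.zB y) h.1 h.2)).and
    (h2.eventually_ne (G.b0n _ (G.zB y) h.1 h.2))

/-- scaled slope vectors are continuous -/
theorem sg_cont (G : Gm Y n d z t k e a0 b0 qN qD SN SD) (y : Y) :
    ∃ l : Y → ℂ, (∀ᶠ y' in 𝓝 y, l y' ≠ 0) ∧
      ContinuousAt (fun y' => l y' * sg0 b0 d z t y') y ∧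
      ContinuousAt (fun y' => l y' * sg1 n d e a0 b0 z t y') y := by
  obtain ⟨U, hU, l, h1, h2, h3⟩ := G.pco (t y)
  have hB : Metric.ball (0 : E3) 1 ∈ 𝓝 (z y) :=
    Metric.isOpen_ball.mem_nhds (by simpa using G.zB y)
  have hta : ContinuousAt t y := G.tc.continuousAt
  have ha : ContinuousAt (fun y => a0 (z y)) y := (G.a0c.continuousAt hB).comp G.zc.continuousAt
  have hb : ContinuousAt (fun y => b0 (z y)) y := (G.b0c.continuousAt hB).comp G.zc.continuousAt
  have hn : ContinuousAt (fun y => l (t y) * n (t y)) y :=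
    ContinuousAt.comp (f := t) (h1.continuousAt hU) hta
  have hd : ContinuousAt (fun y => l (t y) * d (t y)) y :=
    ContinuousAt.comp (f := t) (h2.continuousAt hU) hta
  refine ⟨fun y => l (t y), ?_, ?_, ?_⟩
  · filter_upwards [hta.preimage_mem_nhds hU] with y' hy'
    exact (h3 _ hy').1
  · have : (fun y' => l (t y') * sg0 b0 d z t y') =
        fun y' => b0 (z y') * (l (t y') * d (t y')) := by
      funext y'
      unfold sg0
      ring
    rw [this]
    exact hb.mul hd
  · have : (fun y' => l (t y') * sg1 n d e a0 b0 z t y') =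
        fun y' => a0 (z y') * (l (t y') * n (t y')) + e * (b0 (z y') * (l (t y') * d (t y'))) := by
      funext y'
      unfold sg1
      ring
    rw [this]
    exact (ha.mul hn).add (continuousAt_const.mul (hb.mul hd))

theorem continuous_aa (G : Gm Y n d z t k e a0 b0 qN qD SN SD) (c : ℂ) :
    Continuous (aa c n d e a0 b0 z t) := by
  rw [continuous_iff_continuousAt]
  intro y
  by_cases h : F1 z y
  · obtain ⟨l, hl, h0, h1⟩ := G.sg_cont y
    have hne := G.nhds_ne h
    have hly : l y ≠ 0 := hl.self_of_nhds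
    have hsy := G.sg_ne hne.self_of_nhds.1 hne.self_of_nhds.2
    have hden : ‖l y * sg0 b0 d z t y‖ +
        ‖l y * sg1 n d e a0 b0 z t y - c * (l y * sg0 b0 d z t y)‖ ≠ 0 := by
      refine (ms_den ?_).ne'
      rcases hsy with h | h
      · exact Or.inl (mul_ne_zero hly h)
      · exact Or.inr (mul_ne_zero hly h)
    have hd1 : ContinuousAt (fun y' => l y' * sg1 n d e a0 b0 z t y' -
        c * (l y' * sg0 b0 d z t y')) y := h1.sub (continuousAt_const.mul h0)
    have hc : ContinuousAt (fun y' => ms c (l y' * sg0 b0 d z t y')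
        (l y' * sg1 n d e a0 b0 z t y')) y := by
      unfold ms
      exact hd1.norm.div (h0.norm.add hd1.norm) hden
    refine hc.congr ?_
    filter_upwards [hl, hne] with y' hl' hne'
    rw [G.aa_eq c hne'.1 hne'.2, ms_smul hl']
  · have h0 : z y 0 ≠ 0 ∨ z y 1 ≠ 0 := by
      by_contra hcon
      push Not at hcon
      exact h hcon
    have hz0 : ContinuousAt (fun y => z y 0) y := by
      have := G.zc
      fun_prop
    have hz1 : ContinuousAt (fun y => z y 1) y := by
      have := G.zc
      fun_prop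
    have hev : ∀ᶠ y' in 𝓝 y, ¬ F1 z y' := by
      rcases h0 with h0 | h0
      · filter_upwards [hz0.eventually_ne h0] with y' hy' h1
        exact hy' h1.1
      · filter_upwards [hz1.eventually_ne h0] with y' hy' h1
        exact hy' h1.2
    have hd1 : ContinuousAt (fun y' => z y' 1 - c * z y' 0) y :=
      hz1.sub (continuousAt_const.mul hz0)
    have hc : ContinuousAt (fun y' => mm c (z y')) y := by
      unfold mm nu de
      exact hd1.norm.div (hz0.norm.add hd1.norm) (ms_den h0).ne'
    refine hc.congr ?_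
    filter_upwards [hev] with y' hy'
    unfold aa
    rw [if_neg hy']

/-- the map to the real blow up -/
def pi (G : Gm Y n d z t k e a0 b0 qN qD SN SD) (c : ℂ) (y : Y) : Q0 c :=
  ⟨(z y, aa c n d e a0 b0 z t y), G.zB y, by
    unfold aa
    split_ifs with h
    · unfold ms
      positivity
    · exact mm_nonneg _ _, by
    unfold aa
    split_ifs with h
    · unfold ms
      apply div_le_one_of_le₀
      · have := norm_nonneg (sg0 b0 d z t y)
        linarith
      · positivity
    · exact mm_le_one _ _, by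
    unfold aa
    split_ifs with h
    · have h1 : de c (z y) = 0 := de_eq_zero.2 h
      have h2 : nu c (z y) = 0 := by
        have := nu_le_de c (z y)
        have := nu_nonneg c (z y)
        linarith
      rw [h1, h2, mul_zero]
    · have h1 : de c (z y) ≠ 0 := fun h2 => h (de_eq_zero.1 h2)
      show mm c (z y) * de c (z y) = nu c (z y)
      unfold mm
      field_simp⟩

theorem continuous_pi (G : Gm Y n d z t k e a0 b0 qN qD SN SD) (c : ℂ) :
    Continuous (G.pi c) :=
  Continuous.subtype_mk (G.zc.prodMk (G.continuous_aa c)) _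

@[simp] theorem pi_fst (G : Gm Y n d z t k e a0 b0 qN qD SN SD) (c : ℂ) (y : Y) :
    (G.pi c y).1.1 = z y := rfl

@[simp] theorem pi_snd (G : Gm Y n d z t k e a0 b0 qN qD SN SD) (c : ℂ) (y : Y) :
    (G.pi c y).1.2 = aa c n d e a0 b0 z t y := rfl

end Gm

end Crest.Agent.R272.LbSq_936
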