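import Mathlib
import Crest.Agent.R272.LbAd1_936

/-!
# LB-ADAPT, part 2 (row 272, lower bound for S0415; helper936)

`Gm.exists_theta`: the circle valued function on the graph model of the colour 1 cover.
-/

set_option autoImplicit false

open Set Filter Topology
open Crest.Agent.R272.EBase_641 Crest.Agent.R272.LbCap_382 Crest.Agent.R272.LbClu_382
  Crest.Agent.R272.Wei_392
open scoped ComplexConjugate

noncomputable section

namespace Crest.Agent.R272.LbSq_936

theorem ms_zero {c q : ℂ} (hq : q ≠ 0) : ms c 0 q = 1 := by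
  unfold ms
  simp [hq]

/-- real slope in the open interval ⟹ complex slope in the annulus -/
theorem An_of_ms {c p q : ℂ} {r1 r2 : ℝ} (hr1 : 0 ≤ r1) (hr2 : 0 < r2) (hp : p ≠ 0)
    (h1 : r1 / (1 + r1) < ms c p q) (h2 : ms c p q < r2 / (1 + r2)) : q / p ∈ An c r1 r2 := by
  have hp' : 0 < ‖p‖ := norm_pos_iff.2 hp
  have e : q - c * p = (q / p - c) * p := by field_simp
  have e2 : ms c p q = ‖q / p - c‖ / (1 + ‖q / p - c‖) := by
    unfold ms
    rw [e, norm_mul]
    have h3 : 0 < 1 + ‖q / p - c‖ := by positivity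
    rw [div_eq_div_iff (by positivity) h3.ne']
    ring
  rw [e2] at h1 h2
  have h3 : 0 < 1 + ‖q / p - c‖ := by positivity
  rw [div_lt_div_iff₀ (by linarith) h3] at h1
  rw [div_lt_div_iff₀ h3 (by linarith)] at h2
  constructor
  · show r1 < ‖q / p - c‖
    nlinarith
  · show ‖q / p - c‖ < r2
    nlinarith

namespace Gm

variable {P : Type*} [TopologicalSpace P] {n d : P → ℂ}
variable {Y : Type*} [TopologicalSpace Y] {z : Y → E3} {t k : Y → P}
    {e : ℂ} {a0 b0 qN qD : E3 → ℂ} {SN SD : Finset (V1 3)}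

/-- local: where the real slope is `< 1` the first component does not vanish -/
theorem z0_ne {c : ℂ} {y : Y}
    (h : aa c n d e a0 b0 z t y < 1) (hF : ¬ F1 z y) : z y 0 ≠ 0 := by
  intro h0
  have h1 : z y 1 ≠ 0 := fun h1 => hF ⟨h0, h1⟩
  unfold aa at h
  rw [if_neg hF, mm_eq_ms, h0, ms_zero h1] at h
  exact lt_irrefl _ h

theorem sg0_ne (G : Gm Y n d z t k e a0 b0 qN qD SN SD) {c : ℂ} {y : Y}
    (h : aa c n d e a0 b0 z t y < 1) (hF : F1 z y) : sg0 b0 d z t y ≠ 0 := by
  intro h0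
  have h1 := (G.sg_ne (G.a0n _ (G.zB y) hF.1 hF.2) (G.b0n _ (G.zB y) hF.1 hF.2)).resolve_left
    (fun h => h h0)
  unfold aa at h
  rw [if_pos hF, h0, ms_zero h1] at h
  exact lt_irrefl _ h

theorem ss_mem (G : Gm Y n d z t k e a0 b0 qN qD SN SD) {c : ℂ} {r1 r2 : ℝ} (hr1 : 0 ≤ r1)
    (hr2 : 0 < r2) {y : Y} (h1 : r1 / (1 + r1) < aa c n d e a0 b0 z t y)
    (h2 : aa c n d e a0 b0 z t y < r2 / (1 + r2)) : ss n d e a0 b0 z t y ∈ An c r1 r2 := by
  have h3 : aa c n d e a0 b0 z t y < 1 := by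
    refine h2.trans ?_
    rw [div_lt_one (by linarith)]
    linarith
  by_cases hF : F1 z y
  · have h0 := G.sg0_ne h3 hF
    unfold ss
    rw [if_pos hF]
    unfold aa at h1 h2
    rw [if_pos hF] at h1 h2
    exact An_of_ms hr1 hr2 h0 h1 h2
  · have h0 := z0_ne h3 hF
    unfold ss
    rw [if_neg hF]
    unfold aa at h1 h2
    rw [if_neg hF, mm_eq_ms] at h1 h2
    exact An_of_ms hr1 hr2 h0 h1 h2

theorem ss_mul {c : ℂ} {y : Y}
    (h : aa c n d e a0 b0 z t y < 1) : z y 1 = ss n d e a0 b0 z t y * z y 0 := by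
  by_cases hF : F1 z y
  · rw [hF.1, hF.2, mul_zero]
  · have h0 := z0_ne h hF
    unfold ss
    rw [if_neg hF]
    field_simp

theorem continuousAt_ss (G : Gm Y n d z t k e a0 b0 qN qD SN SD) {c : ℂ} {y : Y}
    (h : aa c n d e a0 b0 z t y < 1) : ContinuousAt (ss n d e a0 b0 z t) y := by
  have hz0 : ContinuousAt (fun y => z y 0) y := by
    have := G.zc
    fun_prop
  have hz1 : ContinuousAt (fun y => z y 1) y := by
    have := G.zc
    fun_prop
  by_cases hF : F1 z y
  · obtain ⟨l, hl, h0, h1⟩ := G.sg_cont y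
    have hne := G.nhds_ne hF
    have hly : l y ≠ 0 := hl.self_of_nhds
    have hsg := G.sg0_ne h hF
    have hc : ContinuousAt (fun y' => (l y' * sg1 n d e a0 b0 z t y') /
        (l y' * sg0 b0 d z t y')) y := h1.div h0 (mul_ne_zero hly hsg)
    refine hc.congr ?_
    have hsg' : ∀ᶠ y' in 𝓝 y, l y' * sg0 b0 d z t y' ≠ 0 :=
      h0.eventually_ne (mul_ne_zero hly hsg)
    filter_upwards [hl, hsg'] with y' hl' hs'
    have hs0 : sg0 b0 d z t y' ≠ 0 := right_ne_zero_of_mul hs'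
    rw [mul_div_mul_left _ _ hl']
    unfold ss
    split_ifs with hF'
    · rfl
    · have hp := G.par y'
      have hz : z y' 0 ≠ 0 := by
        intro h0'
        have h1' : z y' 1 ≠ 0 := fun h1' => hF' ⟨h0', h1'⟩
        rw [h0', zero_mul] at hp
        exact (mul_ne_zero h1' hs0) hp.symm
      rw [div_eq_div_iff hs0 hz]
      linear_combination hp
  · have h0 := z0_ne h hF
    have hc : ContinuousAt (fun y => z y 1 / z y 0) y := hz1.div hz0 h0
    refine hc.congr ?_
    have hev : ∀ᶠ y' in 𝓝 y, z y' 0 ≠ 0 := hz0.eventually_ne h0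
    filter_upwards [hev] with y' hy'
    unfold ss
    rw [if_neg (fun hF' => hy' hF'.1)]

/-- `∏ (a + b s) * q` -/
def hat (Sx : Finset (V1 3)) (q : E3 → ℂ) (z : Y → E3) (s : Y → ℂ) (y : Y) : ℂ :=
  (∏ v ∈ Sx, (ca v + cb v * s y)) * q (z y)

/-- the normalised fibre coordinate -/
def yy (n d : P → ℂ) (e : ℂ) (a0 b0 qD : E3 → ℂ) (SD : Finset (V1 3)) (z : Y → E3)
    (t k : Y → P) (y : Y) : ℂ :=
  n (k y) / d (k y) * hat SD qD z (ss n d e a0 b0 z t) y

/-- The data of the adapter. -/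
structure AD (S : Set (V1 3)) (F : E3 → ℂ) (S0 SN SD : Finset (V1 3)) (qN qD : E3 → ℂ) :
    Prop where
  split : ∀ w : E3, ‖w‖ < 1 → F w = ((∏ v ∈ SN, lin v w) * qN w) * ((∏ v ∈ SD, lin v w) * qD w)
  subN : ∀ v ∈ SN, v ∈ S0
  subD : ∀ v ∈ SD, v ∈ S0
  cardN : SN.card = 3
  cardD : SD.card = 3
  card0 : S0.card = 6
  zN : ∀ w : E3, ‖w‖ < 1 → qN w = 0 → ∃ v ∈ S, v ∉ S0 ∧ lin v w = 0
  zD : ∀ w : E3, ‖w‖ < 1 → qD w = 0 → ∃ v ∈ S, v ∉ S0 ∧ lin v w = 0

variable {ι : Type*} {V : ι → V1 3} {Nn : ι → ℝ} {Nmin Nmax c0 Lam Lam' kc : ℝ}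

/-- **THE CIRCLE VALUED FUNCTION ON THE GRAPH MODEL.** -/
theorem exists_theta (G : Gm Y n d z t k e a0 b0 qN qD SN SD)
    (W : WData ι V Nn Nmin Nmax c0 Lam Lam' kc) {S : Set (V1 3)} {F : E3 → ℂ}
    {S0 : Finset (V1 3)} {v1 v2 : V1 3} {c : ℂ} {r1 r2 : ℝ}
    (D : FData S F S0 v1 v2 V c r1 r2 (r1 / (1 + r1)) (r2 / (1 + r2))) {T : C(Q0 c, ℝ)}
    (hT : IsWall V kc c (r1 / (1 + r1)) (r2 / (1 + r2)) T) (A : AD S F S0 SN SD qN qD) :
    ∃ ε : Y → ℝ, (∀ y, ε y = 1 ∨ ε y = -1) ∧ ContinuousOn ε {y | G.pi c y ∈ OO T} ∧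
      Continuous (fun y => ((ε y * T (G.pi c y) : ℝ) : AddCircle (1 : ℝ))) ∧
      ∀ y y', G.pi c y ∈ OO T → z y = z y' → t y = t y' →
        (k y' = k y → ε y' = ε y) ∧
        (n (k y') * d (k y) = -(n (k y) * d (k y')) → ε y' = -ε y) := by
  have hr1 := D.r1_nonneg
  have hr2 := D.r2_pos
  have hm2 : r2 / (1 + r2) < 1 := by
    rw [div_lt_one (by linarith)]
    linarith
  -- notation
  set s : Y → ℂ := ss n d e a0 b0 z t with hs
  have hOopen : IsOpen (OO T) :=
    (isOpen_lt continuous_const T.continuous).inter (isOpen_lt T.continuous continuous_const)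
  have hOo : IsOpen {y | G.pi c y ∈ OO T} := hOopen.preimage (G.continuous_pi c)
  have hlt : ∀ y, G.pi c y ∈ OO T → aa c n d e a0 b0 z t y < 1 := fun y hy =>
    lt_trans (hT.mem hy).2.1 hm2
  have hsA : ∀ y, G.pi c y ∈ OO T → s y ∈ An c r1 r2 := fun y hy =>
    G.ss_mem hr1 hr2 (hT.mem hy).1 (hT.mem hy).2.1
  have hsc : ContinuousOn s {y | G.pi c y ∈ OO T} := fun y hy =>
    (G.continuousAt_ss (hlt y hy)).continuousWithinAt
  have hs1 : ∀ y, G.pi c y ∈ OO T → z y 1 = s y * z y 0 := fun y hy => ss_mul (hlt y hy)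
  -- base factors do not vanish
  have hbase : ∀ u ∈ An c r1 r2, ∀ v ∈ S0, ca v + cb v * u ≠ 0 := by
    intro u hu l hl hl0
    by_cases e1 : l = v1
    · subst e1
      have e : u = -ca l / cb l := by
        have := D.b1
        field_simp
        linear_combination hl0
      have h3 := D.in1
      rw [← e] at h3
      exact absurd hu.1 (not_lt.2 h3)
    · by_cases e2 : l = v2
      · subst e2
        have e : u = -ca l / cb l := by
          have := D.b2
          field_simp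
          linear_combination hl0
        have h3 := D.in2
        rw [← e] at h3
        exact absurd hu.1 (not_lt.2 h3)
      · exact D.out l hl e1 e2 u hu.2 hl0
  have hq : ∀ q : E3 → ℂ, (∀ w : E3, ‖w‖ < 1 → q w = 0 → ∃ v ∈ S, v ∉ S0 ∧ lin v w = 0) →
      ∀ y, G.pi c y ∈ OO T → q (z y) ≠ 0 := by
    intro q hq y hy h0
    obtain ⟨v, hv, hv0, hl⟩ := hq _ (G.zB y) h0
    have := hT.seg W hy (D.rest v hv hv0) (t := 1) zero_le_one le_rfl
    rw [one_smul] at this
    exact this hl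
  have hDne : ∀ y, G.pi c y ∈ OO T → hat SD qD z s y ≠ 0 := fun y hy =>
    mul_ne_zero (Finset.prod_ne_zero_iff.2 fun v hv => hbase _ (hsA y hy) v (A.subD v hv))
      (hq qD A.zD y hy)
  -- continuity of the hats
  have hB : ∀ y, Metric.ball (0 : E3) 1 ∈ 𝓝 (z y) := fun y =>
    Metric.isOpen_ball.mem_nhds (by simpa using G.zB y)
  have hhat : ∀ (Sx : Finset (V1 3)) (q : E3 → ℂ), ContinuousOn q (Metric.ball 0 1) →
      ∀ y, G.pi c y ∈ OO T → ContinuousAt (hat Sx q z s) y := by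
    intro Sx q hqc y hy
    have h1 : ContinuousAt s y := G.continuousAt_ss (hlt y hy)
    have h2 : ContinuousAt (fun y => q (z y)) y := (hqc.continuousAt (hB y)).comp G.zc.continuousAt
    refine ContinuousAt.mul ?_ h2
    exact tendsto_finsetProd _ fun v _ => (continuousAt_const.add (continuousAt_const.mul h1))
  -- products
  have hprod : ∀ Sx : Finset (V1 3), (∀ v ∈ Sx, v ∈ S0) → ∀ y, G.pi c y ∈ OO T →
      ∏ v ∈ Sx, lin v (z y) = z y 0 ^ Sx.card * ∏ v ∈ Sx, (ca v + cb v * s y) := by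
    intro Sx hSx y hy
    rw [← Finset.prod_const, ← Finset.prod_mul_distrib]
    refine Finset.prod_congr rfl fun v hv => ?_
    exact lin_base (D.base v (hSx v hv)).2.1 (D.base v (hSx v hv)).2.2 (hs1 y hy)
  -- the points not over `f₁` are dense
  have hdense0 : ∀ y, G.pi c y ∈ OO T → y ∈ closure {y' | G.pi c y' ∈ OO T ∧ z y' 0 ≠ 0} := by
    intro y hy
    by_cases hF : F1 z y
    · have h1 := G.cl y hF.1 hF.2
      rw [mem_closure_iff_nhds] at h1 ⊢
      intro U hU
      obtain ⟨y', hy'U, hy'⟩ := h1 (U ∩ {y | G.pi c y ∈ OO T})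
        (inter_mem hU (hOo.mem_nhds hy))
      exact ⟨y', hy'U.1, hy'U.2, z0_ne (hlt y' hy'U.2) hy'⟩
    · exact subset_closure ⟨hy, z0_ne (hlt y hy) hF⟩
  -- the relation after division by `z₀³`
  have hrel0 : ∀ y, G.pi c y ∈ OO T → z y 0 ≠ 0 →
      n (k y) ^ 2 * hat SD qD z s y = d (k y) ^ 2 * hat SN qN z s y := by
    intro y hy h0
    have h := G.r2 y
    rw [hprod SD A.subD y hy, hprod SN A.subN y hy, A.cardN, A.cardD] at h
    have h3 : z y 0 ^ 3 ≠ 0 := pow_ne_zero _ h0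
    apply mul_left_cancel₀ h3
    unfold hat
    linear_combination h
  have hrel : ∀ y, G.pi c y ∈ OO T →
      n (k y) ^ 2 * hat SD qD z s y = d (k y) ^ 2 * hat SN qN z s y := by
    intro y hy
    obtain ⟨U, hU, l, h1, h2, h3⟩ := G.pco (k y)
    have hka : ContinuousAt k y := G.kc.continuousAt
    have hn : ContinuousAt (fun y => l (k y) * n (k y)) y :=
      ContinuousAt.comp (f := k) (h1.continuousAt hU) hka
    have hd : ContinuousAt (fun y => l (k y) * d (k y)) y :=
      ContinuousAt.comp (f := k) (h2.continuousAt hU) hka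
    have hΦ : ContinuousAt (fun y => (l (k y) * n (k y)) ^ 2 * hat SD qD z s y -
        (l (k y) * d (k y)) ^ 2 * hat SN qN z s y) y :=
      ((hn.pow 2).mul (hhat SD qD G.qDc y hy)).sub ((hd.pow 2).mul (hhat SN qN G.qNc y hy))
    have h4 : (l (k y) * n (k y)) ^ 2 * hat SD qD z s y -
        (l (k y) * d (k y)) ^ 2 * hat SN qN z s y ∈ closure ({0} : Set ℂ) :=
      (hΦ.continuousWithinAt
      (s := {y' | G.pi c y' ∈ OO T ∧ z y' 0 ≠ 0})).mem_closure (hdense0 y hy) (by
        rintro y' ⟨hy', h0'⟩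
        have := hrel0 y' hy' h0'
        show (l (k y') * n (k y')) ^ 2 * hat SD qD z s y' -
          (l (k y') * d (k y')) ^ 2 * hat SN qN z s y' = 0
        linear_combination (l (k y')) ^ 2 * this)
    rw [closure_singleton] at h4
    have h5 : (l (k y) * n (k y)) ^ 2 * hat SD qD z s y -
        (l (k y) * d (k y)) ^ 2 * hat SN qN z s y = 0 := h4
    have hl : l (k y) ^ 2 ≠ 0 := pow_ne_zero _ (h3 _ (mem_of_mem_nhds hU)).1
    apply mul_left_cancel₀ hl
    linear_combination h5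
  -- `k` is finite
  have hdk : ∀ y, G.pi c y ∈ OO T → d (k y) ≠ 0 := by
    intro y hy h0
    have h1 := hrel y hy
    rw [h0] at h1
    have h2 : n (k y) ^ 2 * hat SD qD z s y = 0 := by rw [h1]; ring
    have h3 : n (k y) = 0 := by
      rcases mul_eq_zero.1 h2 with h | h
      · exact pow_eq_zero_iff (two_ne_zero) |>.1 h
      · exact absurd h (hDne y hy)
    rcases G.pco.ne (k y) with h | h
    · exact h h3
    · exact h h0
  set w : Y → ℂ := yy n d e a0 b0 qD SD z t k with hw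
  have hwc : ContinuousOn w {y | G.pi c y ∈ OO T} := by
    intro y hy
    refine ContinuousAt.continuousWithinAt ?_
    have h1 : ContinuousAt (fun y => n (k y) / d (k y)) y :=
      ContinuousAt.comp (f := k) (g := fun s => n s / d s)
        ((G.pco.ratio).continuousAt (G.pco.isOpen_d.mem_nhds (hdk y hy))) G.kc.continuousAt
    exact h1.mul (hhat SD qD G.qDc y hy)
  have hw2 : ∀ y, G.pi c y ∈ OO T →
      w y ^ 2 * (G.pi c y).1.1 0 ^ S0.card = F (G.pi c y).1.1 := by
    intro y hy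
    rw [pi_fst, A.split _ (G.zB y), hprod SD A.subD y hy, hprod SN A.subN y hy, A.cardN, A.cardD,
      A.card0]
    have h1 := hrel y hy
    have h2 := hdk y hy
    have h3 : w y ^ 2 = hat SN qN z s y * hat SD qD z s y := by
      show (n (k y) / d (k y) * hat SD qD z s y) ^ 2 = _
      field_simp
      linear_combination hat SD qD z s y * h1
    rw [h3]
    unfold hat
    ring
  obtain ⟨ε, h1, h2, h3, h4⟩ := exists_sheet W D hT (G.pi c) (G.continuous_pi c) s w hsc hwc
    (fun y hy => by rw [pi_fst]; exact hs1 y hy) hsA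
    (fun y hy => by simpa using hdense0 y hy) hw2
  refine ⟨ε, h1, h2, h3, ?_⟩
  intro y y' hy hz ht
  have haa : aa c n d e a0 b0 z t y = aa c n d e a0 b0 z t y' := by
    unfold aa F1 sg0 sg1
    rw [hz, ht]
  have hss : s y = s y' := by
    rw [hs]
    unfold ss F1 sg0 sg1
    rw [hz, ht]
  have hpi : G.pi c y = G.pi c y' := Subtype.ext (Prod.ext hz haa)
  have hy' : G.pi c y' ∈ OO T := hpi ▸ hy
  have hhats : hat SD qD z s y' = hat SD qD z s y := by
    unfold hat
    rw [hz, hss]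
  obtain ⟨h5, h6⟩ := h4 y y' hy hpi hss
  refine ⟨fun hk => h5 ?_, fun hk => h6 ?_⟩
  · show n (k y') / d (k y') * hat SD qD z s y' = n (k y) / d (k y) * hat SD qD z s y
    rw [hk, hhats]
  · show n (k y') / d (k y') * hat SD qD z s y' = -(n (k y) / d (k y) * hat SD qD z s y)
    rw [hhats]
    have e1 : n (k y') / d (k y') = -(n (k y) / d (k y)) := by
      have := hdk y hy
      have := hdk y' hy'
      rw [← neg_div, div_eq_div_iff (hdk y' hy') (hdk y hy)]
      linear_combination hk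
    rw [e1]
    ring

end Gm

end Crest.Agent.R272.LbSq_936
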