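import Crest.Agent.R272.LbAsm2_990
import Crest.Agent.R272.LBAsm1_585
import Crest.Agent.R272.LbAd2_936

/-!
# Row 272, LB-ASM-2 (helper990), part 3: the wall function of LbAd2_936 in the language of LBAsm1_585

* `cap_smul`: the caps do not depend on the scaling of the vector;
* `mem_OO_of_wall`: points of the support of the wall are good points;
* `GrpData.alg`, `GrpData.ana`: the hypotheses `Alg`, `Ana` of helper585's `lb_main`;
* `exists_th`: the circle valued function on any space over the graph model.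
-/

set_option autoImplicit false

open scoped ComplexConjugate Topology
open Crest.Agent.R272.EBase_641 Crest.Agent.R272.LbPP_990 Crest.Agent.R272.LbSep_990
open Crest.Agent.R272.LbGood_990 Crest.Agent.R272.St2_702 Crest.Agent.R272.LbCap_382
open Crest.Agent.R272.LbFin_990 Crest.Agent.R272.LbFin2_990 Crest.Agent.R272.Per_939

namespace Crest.Agent.R272.LbAsm_990

noncomputable section

variable {n : ℕ}

/-! ### scaling -/

theorem tt_smul {u : ℂ} (hu : u ≠ 0) (w : V1 n) : tt (u • w) = tt w := by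
  have h : ‖u‖ ≠ 0 := norm_ne_zero_iff.2 hu
  rw [tt, tt, Prod.smul_fst, Prod.smul_snd, norm_smul, norm_smul]
  exact mul_div_mul_left _ _ h

theorem ep_smul {u : ℂ} (hu : u ≠ 0) (w : V1 n) : ep (u • w) = ep w := by
  rw [ep, ep, tt_smul hu]

theorem omv_smul {u : ℂ} (hu : u ≠ 0) (w : V1 n) : omv (u • w) = omv w := by
  have h : (‖u‖ : ℂ) ≠ 0 := by exact_mod_cast norm_ne_zero_iff.2 hu
  have hc : conj u * u = (‖u‖ : ℂ) * ‖u‖ := by
    rw [mul_comm, Complex.mul_conj, Complex.normSq_eq_norm_sq]; push_cast; ring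
  rw [omv, omv, Prod.smul_fst, Prod.smul_snd, norm_smul, norm_smul, smul_smul]
  congr 1
  rw [smul_eq_mul, map_mul]
  push_cast
  rcases eq_or_ne ((‖w.2‖ : ℂ) * (‖w.1‖ : ℂ)) 0 with h0 | h0
  · rw [h0]
    have : (‖u‖ : ℂ) * (‖w.2‖ : ℂ) * ((‖u‖ : ℂ) * (‖w.1‖ : ℂ)) = 0 := by
      linear_combination (‖u‖ : ℂ) * ‖u‖ * h0
    rw [this]
    simp
  · have h1 : (‖w.2‖ : ℂ) ≠ 0 := left_ne_zero_of_mul h0
    have h2 : (‖w.1‖ : ℂ) ≠ 0 := right_ne_zero_of_mul h0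
    field_simp
    linear_combination conj w.2 * hc

theorem cap_smul {u : ℂ} (hu : u ≠ 0) (k : ℝ) (w : V1 n) : Cap k (u • w) = Cap k w := by
  ext z
  show _ ∧ _ ↔ _ ∧ _
  rw [ep_smul hu, omv_smul hu]

/-! ### the wall -/

/-- every type B mirror is one of the far vectors, up to scaling -/
def Link {ι : Type*} (W : Set (V1 3)) (Λ : ℝ) (V : ι → V1 3) : Prop :=
  ∀ w ∈ W, TypeB Λ w → ∃ i, ∃ u : ℂ, u ≠ 0 ∧ V i = u • w

theorem pv_of_link {ι : Type*} {W : Set (V1 3)} {Λ : ℝ} {V : ι → V1 3} (hL : Link W Λ V)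
    {Nn : ι → ℝ} {Nmin Nmax c0 Lam Lam' k : ℝ}
    (Wd : LbSq_936.WData ι V Nn Nmin Nmax c0 Lam Lam' k) {w : V1 3} (hw : w ∈ W)
    (hB : TypeB Λ w) : Pv 2 w ∧ k ^ 2 * ep w ^ 2 < 1 := by
  obtain ⟨i, u, hu, e⟩ := hL w hw hB
  have h1 := Wd.small i
  rw [e, ep_smul hu] at h1
  refine ⟨⟨by norm_num, ?_, ?_⟩, h1⟩
  · have h2 : hh w w = 2 := hB.1
    have h3 : hh w w = ((‖w.1‖ ^ 2 - ‖w.2‖ ^ 2 : ℝ) : ℂ) := by
      unfold hh
      rw [inner_self_eq_norm_sq_to_K, Complex.mul_conj, Complex.normSq_eq_norm_sq]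
      push_cast
      rfl
    rw [h3] at h2
    exact_mod_cast h2
  · intro h0
    have := (Wd.pv i).ne
    rw [e, Prod.smul_snd, h0, smul_zero] at this
    exact this rfl

theorem norm_le_of_mm {c : ℂ} {r2 : ℝ} (hr2 : 0 < r2) {z : E 3} (h0 : ¬ (z 0 = 0 ∧ z 1 = 0))
    (h : LbSq_936.mm c z < r2 / (1 + r2)) : ‖z 1‖ ≤ (‖c‖ + r2) * ‖z 0‖ := by
  have hd : 0 < LbSq_936.de c z :=
    lt_of_le_of_ne (LbSq_936.de_nonneg c z) (fun h1 => h0 (LbSq_936.de_eq_zero.1 h1.symm))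
  have h1 : LbSq_936.nu c z * (1 + r2) < r2 * LbSq_936.de c z := by
    rw [LbSq_936.mm, div_lt_div_iff₀ hd (by linarith)] at h
    exact h
  unfold LbSq_936.nu LbSq_936.de at h1
  have h2 : ‖z 1 - c * z 0‖ < r2 * ‖z 0‖ := by nlinarith
  have h3 : ‖z 1‖ ≤ ‖z 1 - c * z 0‖ + ‖c‖ * ‖z 0‖ := by
    have := norm_add_le (z 1 - c * z 0) (c * z 0)
    rw [sub_add_cancel, norm_mul] at this
    exact this
  linarith

/-- points of the support of the wall are good -/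
theorem mem_OO_of_wall {ι : Type*} {W : Set (V1 3)} {Λ : ℝ} {V : ι → V1 3} (hL : Link W Λ V)
    {Nn : ι → ℝ} {Nmin Nmax c0 Lam Lam' k : ℝ}
    (Wd : LbSq_936.WData ι V Nn Nmin Nmax c0 Lam Lam' k)
    {c : ℂ} {m1 r2 : ℝ} (hr2 : 0 < r2) {T : C(LbSq_936.Q0 c, ℝ)}
    (hT : LbSq_936.IsWall V k c m1 (r2 / (1 + r2)) T)
    {r C : ℝ} (hr : ‖c‖ + r2 ≤ r) (hC : 0 ≤ C) (hΛ : 0 < Λ)
    (hkC : 1 + C + 2 * C / Λ * k ≤ k ^ 2) (hW2 : ∀ w ∈ W, hh w w = 2)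
    {x : LbSq_936.Q0 c} (hx : x ∈ LbSq_936.OO T) : x.1.1 ∈ OO W r C Λ := by
  obtain ⟨h1, h2, h3⟩ := hT.mem hx
  have hB : x.1.1 ∈ Ball 3 := by rw [mem_Ball]; exact x.2.1
  by_cases h0 : x.1.1 0 = 0 ∧ x.1.1 1 = 0
  · exact mem_OO_of_flat hB h0.1 h0.2
  · refine mem_OO hC hΛ (lt_of_lt_of_le one_pos Wd.hk) hkC
      (fun w hw hB => pv_of_link hL Wd hw hB) hB ?_ ?_ hW2
    · rw [LbSq_936.Q0_eq x.2 h0] at h2
      exact (norm_le_of_mm hr2 h0 h2).trans (mul_le_mul_of_nonneg_right hr (norm_nonneg _))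
    · intro w hw hwB hcap
      obtain ⟨i, u, hu, e⟩ := hL w hw hwB
      apply h3 i
      rw [e, cap_smul hu]
      exact hcap

/-! ### helper585's hypotheses -/

namespace GrpData

variable {Γ : Type*} [Group Γ] {φ : Γ →* UG 3} {W : Set (V1 3)} {Λ : ℝ} (D : GrpData φ W Λ)

theorem σ_inv : D.σ⁻¹ = D.σ := inv_eq_of_mul_eq_one_right D.two

/-- the algebraic hypotheses of `lb_main` -/
theorem alg (h : ∀ g : Γ, ∀ w ∈ W, (φ g).1 w ∈ W) : LBAsm_585.Alg D.K D.R D.σ where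
  Kn := D.Knorm
  Rn := D.R_normal h
  mem := D.σ_mem
  sq := D.two
  cov := fun g => by
    rcases D.idx g with h | h
    · exact Or.inl h
    · right
      rwa [D.σ_inv] at h

/-- the analytic hypotheses of `lb_main` -/
theorem ana {Y : Type*} [TopologicalSpace Y] [MulAction Γ Y]
    (hΛ : (10 : ℝ) ^ 10 ≤ Λ) {r C : ℝ} (hr : 0 ≤ r) (hC : 16512 < C)
    (hCΛ : 6 * C ≤ Λ ^ 2) (hrΛ : 9 * (1 + r) ^ 2 < Λ - 1)
    (q : Y → E 3) (hq : Continuous q)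
    (hmem : ∀ y, q y ∈ Ball 3) (heq : ∀ (g : Γ) y, q (g • y) = act (φ g) (q y))
    (th : Y → Cir) (hth : Continuous th) (hO : ∀ y, th y ≠ 0 → q y ∈ OO W r C Λ) :
    LBAsm_585.Ana (D.R ⊓ D.K) th (q ⁻¹' OO W r C Λ) := by
  obtain ⟨h1, h2⟩ := locFin_of_sep (G := ↥(D.R ⊓ D.K)) (φ.comp (D.R ⊓ D.K).subtype) q hq hmem
    (fun g y => heq g.1 y) (O := OO W r C Λ) (fun g x hx y hy hxb hyb h =>
      Subtype.ext (D.hpp hΛ hr hC hCΛ hrΛ g.1 g.2 x hx y hy hxb hyb h))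
  exact ⟨hth, hO, h1, h2⟩

end GrpData

/-! ### the circle valued function -/

section th

variable {P : Type*} [TopologicalSpace P] {n d : P → ℂ}
variable {Y : Type*} [TopologicalSpace Y] {z : Y → E 3} {t k : Y → P}
    {e : ℂ} {a0 b0 qN qD : E 3 → ℂ} {SN SD : Finset (V1 3)}

theorem cir_eq_zero {ε x : ℝ} (hε : ε = 1 ∨ ε = -1) (hx : x = 0 ∨ x = 1) :
    ((ε * x : ℝ) : Cir) = 0 := by
  rw [AddCircle.coe_eq_zero_iff]
  rcases hε with rfl | rfl <;> rcases hx with rfl | rfl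
  · exact ⟨0, by simp⟩
  · exact ⟨1, by simp⟩
  · exact ⟨0, by simp⟩
  · exact ⟨-1, by simp⟩

/-- points with the same `z`, `t` have the same image in the real blow up -/
theorem pi_congr (G : LbSq_936.Gm Y n d z t k e a0 b0 qN qD SN SD) (c : ℂ) {y y' : Y}
    (hz : z y = z y') (ht : t y = t y') : G.pi c y = G.pi c y' := by
  refine Subtype.ext (Prod.ext hz ?_)
  show LbSq_936.Gm.aa c n d e a0 b0 z t y = LbSq_936.Gm.aa c n d e a0 b0 z t y'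
  unfold LbSq_936.Gm.aa LbSq_936.Gm.F1 LbSq_936.Gm.sg0 LbSq_936.Gm.sg1
  rw [hz, ht]

/-- **The circle valued function on a space over the graph model**: with all the properties used by
helper585's `lb_main`. -/
theorem exists_th {Γ : Type*} [Group Γ] {φ : Γ →* UG 3} {W : Set (V1 3)} {Λ : ℝ}
    (Gd : GrpData φ W Λ) [MulAction Γ Y]
    (G : LbSq_936.Gm Y n d z t k e a0 b0 qN qD SN SD)
    (heq : ∀ (g : Γ) y, z (g • y) = act (φ g) (z y))
    {ι : Type*} {V : ι → V1 3} (hL : Link W Λ V)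
    {Nn : ι → ℝ} {Nmin Nmax c0 Lam Lam' kc : ℝ}
    (Wd : LbSq_936.WData ι V Nn Nmin Nmax c0 Lam Lam' kc)
    {S : Set (V1 3)} {F : E 3 → ℂ} {S0 : Finset (V1 3)} {v1 v2 : V1 3} {c : ℂ} {r1 r2 : ℝ}
    (Fd : LbSq_936.FData S F S0 v1 v2 V c r1 r2 (r1 / (1 + r1)) (r2 / (1 + r2)))
    {T : C(LbSq_936.Q0 c, ℝ)}
    (hT : LbSq_936.IsWall V kc c (r1 / (1 + r1)) (r2 / (1 + r2)) T)
    (A : LbSq_936.Gm.AD S F S0 SN SD qN qD)
    (hΛ : (10 : ℝ) ^ 10 ≤ Λ) {r C : ℝ} (hr : ‖c‖ + r2 ≤ r) (hC : 16512 < C)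
    (hCΛ : 6 * C ≤ Λ ^ 2) (hrΛ : 9 * (1 + r) ^ 2 < Λ - 1)
    (hkC : 1 + C + 2 * C / Λ * kc ≤ kc ^ 2) :
    ∃ ε : Y → ℝ, (∀ y, ε y = 1 ∨ ε y = -1) ∧
      ContinuousOn ε {y | G.pi c y ∈ LbSq_936.OO T} ∧
      LBAsm_585.Ana (Gd.R ⊓ Gd.K) (fun y => ((ε y * T (G.pi c y) : ℝ) : Cir))
        (z ⁻¹' OO W r C Λ) ∧
      ∀ y y', z y = z y' → t y = t y' →
        (k y' = k y → ((ε y' * T (G.pi c y') : ℝ) : Cir) = ((ε y * T (G.pi c y) : ℝ) : Cir)) ∧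
        (n (k y') * d (k y) = -(n (k y) * d (k y')) →
          ((ε y' * T (G.pi c y') : ℝ) : Cir) = -((ε y * T (G.pi c y) : ℝ) : Cir)) := by
  obtain ⟨ε, h1, h2, h3, h4⟩ := LbSq_936.Gm.exists_theta G Wd Fd hT A
  have hr2 := Fd.r2_pos
  have hr0 : 0 ≤ r := le_trans (by positivity) hr
  have hΛ0 : 0 < Λ := lt_of_lt_of_le (by norm_num) hΛ
  have hTc : ∀ y, G.pi c y ∉ LbSq_936.OO T → T (G.pi c y) = 0 ∨ T (G.pi c y) = 1 := by
    intro y hy
    rcases (hT.nonneg (G.pi c y)).eq_or_lt with h | h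
    · exact Or.inl h.symm
    · rcases (hT.le_one (G.pi c y)).eq_or_lt with h' | h'
      · exact Or.inr h'
      · exact absurd ⟨h, h'⟩ hy
  refine ⟨ε, h1, h2, ?_, ?_⟩
  · refine Gd.ana hΛ hr0 hC hCΛ hrΛ z G.zc (fun y => by rw [mem_Ball]; exact G.zB y) heq _ h3 ?_
    intro y hy
    have hy' : G.pi c y ∈ LbSq_936.OO T := by
      by_contra hcon
      exact hy (cir_eq_zero (h1 y) (hTc y hcon))
    have hC0 : 0 ≤ C := by linarith
    have h7 := mem_OO_of_wall (x := G.pi c y) hL Wd hr2 hT hr hC0 hΛ0 hkC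
      (fun w hw => Gd.wsys.norm w hw) hy'
    rwa [LbSq_936.Gm.pi_fst] at h7
  · intro y y' hz ht
    have hpi := pi_congr G c hz ht
    by_cases hy : G.pi c y ∈ LbSq_936.OO T
    · obtain ⟨h5, h6⟩ := h4 y y' hy hz ht
      refine ⟨fun hk => ?_, fun hk => ?_⟩
      · rw [h5 hk, hpi]
      · rw [h6 hk, hpi, neg_mul, AddCircle.coe_neg]
    · have hy' : G.pi c y' ∉ LbSq_936.OO T := hpi ▸ hy
      have e1 := cir_eq_zero (h1 y) (hTc y hy)
      have e2 := cir_eq_zero (h1 y') (hTc y' hy')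
      exact ⟨fun _ => by rw [e1, e2], fun _ => by rw [e1, e2, neg_zero]⟩

/-- the colour preserving subgroup acts on `t`, `k` by factors depending on `z` only -/
structure KAct {Γ : Type*} [Group Γ] [MulAction Γ Y] (K : Subgroup Γ) (n d : P → ℂ)
    (z : Y → E 3) (t k : Y → P) : Prop where
  kz : ∀ g ∈ K, ∀ x y : Y, z x = z y → z (g • x) = z (g • y)
  kt : ∀ g ∈ K, ∀ x y : Y, z x = z y → t x = t y → t (g • x) = t (g • y)
  kk : ∀ g ∈ K, ∀ x y : Y, z x = z y → n (k y) * d (k x) = -(n (k x) * d (k y)) →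
    n (k (g • y)) * d (k (g • x)) = -(n (k (g • x)) * d (k (g • y)))

omit [TopologicalSpace P] [TopologicalSpace Y] in
/-- the hypothesis `hneg` of `lb_main` -/
theorem hneg_of {Γ : Type*} [Group Γ] [MulAction Γ Y] {K : Subgroup Γ} {σ : Γ}
    (hK : KAct K n d z t k) {th : Y → Cir}
    (hth : ∀ y y', z y = z y' → t y = t y' →
        n (k y') * d (k y) = -(n (k y) * d (k y')) → th y' = -th y)
    {e₀ : Set Y} (he : ∀ x ∈ e₀, z x = z (σ • x) ∧ t x = t (σ • x) ∧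
      n (k (σ • x)) * d (k x) = -(n (k x) * d (k (σ • x)))) :
    ∀ x ∈ e₀, ∀ g ∈ K, th (g • σ • x) = - th (g • x) := by
  intro x hx g hg
  obtain ⟨h1, h2, h3⟩ := he x hx
  exact hth _ _ (hK.kz g hg _ _ h1) (hK.kt g hg _ _ h1 h2) (hK.kk g hg _ _ h1 h3)

end th

end

end Crest.Agent.R272.LbAsm_990
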