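import Crest.Agent.R272.Act4_302
import Crest.Agent.R272.Gr5_559
import Crest.Agent.R272.LbAsm3_990

/-!
# R272 (S0415), ACTION (helper302), part 5: the statements with 559's complex structure of `X1`

* `A.C1 : Fam 3 A.X` := 559's `famX1`; `A.ra1 : RA F G → RA A.C1 G`;
* `kAct` : 990's `KAct`.
-/

set_option autoImplicit false
set_option linter.unusedSectionVars false

open Set Filter Topology

namespace Crest.Agent.R272.Act_302

open Crest.Agent.R275.Geo Crest.Agent.R273.Fam_835 Crest.Agent.R272.Quot_783
  Crest.Agent.R272.Gr_559 Crest.Agent.R272.P1A_54 Crest.Agent.R272.MQ_783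

noncomputable section

variable {N : Type} [TopologicalSpace N] {F : Fam 3 N}

namespace GAct

variable {D : GData F} {G : Type} [Group G] [MulAction G N] (A : GAct D G)

/-- the complex structure of `X1` -/
abbrev C1 : Fam 3 A.X := A.fam (isSl_X1 D)

/-- **the quotient hypotheses on `X1`** -/
theorem ra1 [T2Space N] [LocallyCompactSpace N] [ProperlyDiscontinuousSMul G N] (hR : RA F G)
    (hfix : ∀ (s : G) (z : N), s ≠ 1 → s • z = z → A.σ s = Equiv.swap 0 1) : RA A.C1 G :=
  A.ra (isSl_X1 D) hR hfix

/-- the subgroup preserving the colours -/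
theorem kAct {K : Subgroup G} (hK : ∀ g ∈ K, A.σ g = 1) {ι : N → EBase_641.E 3}
    (hι : Function.Injective ι) (i : Fin 2) :
    LbAsm_990.KAct K P1.n P1.d (fun y : A.X => ι (A.pz y)) (fun y : A.X => D.t i y)
      (fun y : A.X => D.k i y) where
  kz g _ x y h := by
    show ι (A.pz (g • x)) = ι (A.pz (g • y))
    rw [A.pz_smul, A.pz_smul, hι h]
  kt g hg x y h ht := by
    have h1 := A.t_congr g (hι h) ht
    rw [hK g hg] at h1
    exact h1
  kk g hg x y h hk := by
    have h1 := A.k_neg g (hι h) hk
    rw [hK g hg] at h1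
    exact h1

end GAct

end

end Crest.Agent.R272.Act_302
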