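import Crest.Agent.R272.GLoc4_620

/-!
Row 272, GINST-LOC (helper620), part 5: **the data `GData` (559) of the arrangement**, from the root
functions (641) of the classes and AR-CLS (620).
-/

set_option autoImplicit false
set_option linter.unusedSectionVars false

open Set Filter Topology
open scoped ComplexConjugate

namespace Crest.Agent.R272.GI_620

open Crest.Agent.R272.EBase_641 Crest.Agent.R272.GLoc_620
open Crest.Agent.R272.Cls_620 Crest.Agent.R272.Quot_783
open Crest.Agent.R272.In_68 (Z5r io)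
open Crest.Agent.R272.Gr_559 (Pen GData SNC)

noncomputable section

variable {O : Subring (Fin 2 → ℂ)} {z μ : Fin 2 → ℂ} (h : Z5r O z)
variable {G : Type} [Group G] {ρ : G →* UG 3} {kk : ℕ} (R : ∀ a : Lb, Root 3 kk ρ (SS h μ a))

lemma root_zero (hD : Deep O z μ 2) {q : E 3} (hq : q ∈ Ball 3) {a : Lb}
    (ha : Occ O z μ a (pt h q)) : (R a).f q = 0 := by
  obtain ⟨v, hv, hvp⟩ := ha
  exact (root_L h hD (R a) hq hv hvp).self_eq.mpr ((perp_iff h v q).mp hvp)

lemma root_occ {q : E 3} (hq : q ∈ Ball 3) {a : Lb} (ha : (R a).f q = 0) :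
    Occ O z μ a (pt h q) := by
  by_contra hn
  exact (root_U h (R a) hq hn).ne ha

/-- a root function vanishes exactly on the planes of its class. -/
theorem root_iff (hD : Deep O z μ 2) {q : E 3} (hq : q ∈ Ball 3) {a : Lb} :
    (R a).f q = 0 ↔ Occ O z μ a (pt h q) := ⟨root_occ h R hq, root_zero h R hD hq⟩

/-- flats are the common zeros of `f0` and `x i`. -/
theorem flat_iff (hD : Deep O z μ 2) {q : E 3} (hq : q ∈ Ball 3) (i : Bool) :
    ((R .o).f q = 0 ∧ (R (.v i 0)).f q = 0) ↔ FlatAt O z μ i (pt h q) := by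
  rw [root_iff h R hD hq, root_iff h R hD hq]
  exact ⟨fun ⟨h1, h2⟩ => flatAt_vo h.toZ5 hD (neg_pt h hq) h2 h1, fun hf => ⟨hf.o, hf.v 0⟩⟩

lemma slotP (hμ : μ ∈ O) (hD : Deep O z μ 2) {q : E 3} (hq : q ∈ Ball 3) {i : Bool}
    (hreg : ¬ FlatAt O z μ i (pt h q)) :
    IsU (FP h R i) q ∨ ∃ v, (∃ a ∈ PL i, v ∈ VV O z μ a) ∧ Perp z (pt h q) v ∧
      IsUM (FP h R i) (lin (io h v).1) q := by
  rcases slot h R hD (PL i) hq (uniqP h hμ hD hq hreg) with h1 | ⟨a, ha, v, hv, hvp, h1⟩
  · exact Or.inl (h1.congr (Eventually.of_forall fun w => FP_eq h R i w))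
  · exact Or.inr ⟨v, ⟨a, ha, hv⟩, hvp, IsUM.congr_left h1 fun w => FP_eq h R i w⟩

lemma slotQ (hμ : μ ∈ O) (hD : Deep O z μ 2) {q : E 3} (hq : q ∈ Ball 3) {i : Bool}
    (hreg : ¬ FlatAt O z μ i (pt h q)) :
    IsU (FQ h R i) q ∨ ∃ v, (∃ a ∈ QL i, v ∈ VV O z μ a) ∧ Perp z (pt h q) v ∧
      IsUM (FQ h R i) (lin (io h v).1) q := by
  rcases slot h R hD (QL i) hq (uniqQ h hμ hD hq hreg) with h1 | ⟨a, ha, v, hv, hvp, h1⟩
  · exact Or.inl (h1.congr (Eventually.of_forall fun w => FQ_eq h R i w))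
  · exact Or.inr ⟨v, ⟨a, ha, hv⟩, hvp, IsUM.congr_left h1 fun w => FQ_eq h R i w⟩

/-- the labels of the list `P 0, Q 0, P 1, Q 1` -/
def LL : Fin 4 → Finset Lb := ![PL false, QL false, PL true, QL true]

lemma LL_disj : ∀ k l : Fin 4, ∀ a ∈ LL k, a ∈ LL l → k = l := by decide

lemma LL_o : ∀ k : Fin 4, Lb.o ∉ LL k := by decide

/-- normal crossings at regular points -/
theorem snc_reg (hμ : μ ∈ O) (hD : Deep O z μ 2) {q : E 3} (hq : q ∈ Ball 3)
    (hreg : ∀ i, ¬ FlatAt O z μ i (pt h q)) (w : Fin 4 → ℂ) :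
    ∃ X : E 3, ∀ k, (![FP h R false, FQ h R false, FP h R true, FQ h R true] : Fin 4 → E 3 → ℂ) k q = 0 →
      fderiv ℂ ((![FP h R false, FQ h R false, FP h R true, FQ h R true] : Fin 4 → E 3 → ℂ) k) q X
        = w k := by
  refine snc_list h (Pr := fun k v => ∃ a ∈ LL k, v ∈ VV O z μ a) ?_ ?_ w
  · intro k
    fin_cases k
    · exact slotP h R hμ hD hq (hreg false)
    · exact slotQ h R hμ hD hq (hreg false)
    · exact slotP h R hμ hD hq (hreg true)
    · exact slotQ h R hμ hD hq (hreg true)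
  · intro s v hv hvp
    choose a ha hva using hv
    have : Fintype s := Fintype.ofFinite _
    refine indep_labels h.toZ5 hμ hD (neg_pt h hq) hreg (a := a) ?_ ?_ hva hvp
    · intro k l hkl
      have h1 := ha k
      rw [hkl] at h1
      exact Subtype.ext (LL_disj _ _ _ h1 (ha l))
    · intro k hk
      have h1 := ha k
      rw [hk] at h1
      exact LL_o _ h1

include h in
lemma sym0 {x y : Fin 4 → Fin 2 → ℂ} (hxy : Cls_620.hh (HH z) x y = 0) :
    Cls_620.hh (HH z) y x = 0 := by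
  rw [← Cls_620.hh_star (HH z) h.toZ5.frm.real x y, hxy, star_zero]

/-- normal crossings on a flat of colour `i`, off the flats of colour `j` -/
theorem snc_flat (hμ : μ ∈ O) (hD : Deep O z μ 2) {q : E 3} (hq : q ∈ Ball 3) {i j : Bool}
    (hij : i ≠ j) (hj : ¬ FlatAt O z μ j (pt h q)) {f0 f1 : Fin 4 → Fin 2 → ℂ}
    (hf : Flat O z μ i f0 f1) (hf0 : Perp z (pt h q) f0) (hf1 : Perp z (pt h q) f1)
    (w : Fin 4 → ℂ) :
    ∃ X : E 3, ∀ k, (![lin (io h f0).1, lin (io h f1).1, FP h R j, FQ h R j] :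
        Fin 4 → E 3 → ℂ) k q = 0 →
      fderiv ℂ ((![lin (io h f0).1, lin (io h f1).1, FP h R j, FQ h R j] :
        Fin 4 → E 3 → ℂ) k) q X = w k := by
  have hp := neg_pt h hq
  have h5 := h.toZ5
  have hFA : FlatAt O z μ i (pt h q) := ⟨f0, f1, hf, hf0, hf1⟩
  have hone : ∀ f : E 3 → ℂ, IsUM f f q := fun f =>
    ⟨fun _ => 1, IsU.one q, Eventually.of_forall fun w => by rw [mul_one]⟩
  -- labels of colour `j` at `q`
  have hlab : ∀ a v, (a ∈ PL j ∨ a ∈ QL j) → v ∈ VV O z μ a → Perp z (pt h q) v → a = .n j := by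
    intro a v ha hv hvp
    have hOc : Occ O z μ a (pt h q) := ⟨v, hv, hvp⟩
    cases a with
    | o => rcases ha with ha | ha <;> simp [PL, QL] at ha
    | n l =>
      rcases ha with ha | ha <;> simp [PL, QL] at ha
      rw [ha]
    | v l k =>
      exfalso
      have hl : l = j := by
        rcases ha with ha | ha <;> simp [PL, QL] at ha
        · rcases ha with ha | ha
          · exact ha.1
          · exact ha.1
        · rcases ha with ha | ha | ha
          · exact ha.1
          · exact ha.1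
          · exact ha.1
      subst hl
      exact hj (flatAt_other h5 hD hp hFA hOc)
    | b l k => exact absurd hOc (hFA.no_b h5 hD hp l k)
  refine snc_list h (κ := Fin 4)
    (Pr := fun k v => ![v = f0, v = f1, v ∈ VV O z μ (.n j), False] k) ?_ ?_ w
  · intro k
    fin_cases k
    · exact Or.inr ⟨f0, rfl, hf0, hone _⟩
    · exact Or.inr ⟨f1, rfl, hf1, hone _⟩
    · rcases slotP h R hμ hD hq hj with h1 | ⟨v, ⟨a, ha, hv⟩, hvp, h1⟩
      · exact Or.inl h1
      · have := hlab a v (Or.inl ha) hv hvp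
        subst this
        exact Or.inr ⟨v, hv, hvp, h1⟩
    · rcases slotQ h R hμ hD hq hj with h1 | ⟨v, ⟨a, ha, hv⟩, hvp, h1⟩
      · exact Or.inl h1
      · exfalso
        have := hlab a v (Or.inr ha) hv hvp
        subst this
        simp [QL] at ha
  · intro s v hv hvp
    have : Fintype s := Fintype.ofFinite _
    have hn0 : ∀ {x}, x = f0 → 0 < (Cls_620.hh (HH z) x x 0).re := by
      rintro x rfl
      exact nrm_ne h5 hf.m0
    have hn1 : ∀ {x}, x = f1 → 0 < (Cls_620.hh (HH z) x x 0).re := by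
      rintro x rfl
      exact nrm_ne h5 hf.m1
    have h01 : Cls_620.hh (HH z) f0 f1 = 0 := sym0 h hf.orth
    have hg0 : ∀ {g}, g ∈ VV O z μ (.n j) → Perp z (pt h q) g → Cls_620.hh (HH z) g f0 = 0 :=
      fun hg hgp => orth_no h5 hD hp hg hf.m0 hgp hf0
    have hg1 : ∀ {g}, g ∈ VV O z μ (.n j) → Perp z (pt h q) g → Cls_620.hh (HH z) g f1 = 0 :=
      fun hg hgp => orth_nn h5 hD hp hg hf.m1 hgp hf1 (Ne.symm hij)
    refine indep_orth h5 ?_ ?_
    · rintro ⟨k, hk⟩ ⟨l, hl⟩ hkl
      have hvk := hv ⟨k, hk⟩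
      have hvl := hv ⟨l, hl⟩
      have hpk := hvp ⟨k, hk⟩
      have hpl := hvp ⟨l, hl⟩
      have hne : k ≠ l := fun e => hkl (Subtype.ext e)
      clear hkl
      generalize v ⟨k, hk⟩ = x at hvk hpk ⊢
      generalize v ⟨l, hl⟩ = y at hvl hpl ⊢
      fin_cases k <;> fin_cases l
      · exact absurd rfl hne
      · have e1 : x = f0 := hvk
        have e2 : y = f1 := hvl
        rw [e1, e2]; exact h01
      · have e1 : x = f0 := hvk
        rw [e1]; exact sym0 h (hg0 hvl hpl)
      · exact absurd hvl id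
      · have e1 : x = f1 := hvk
        have e2 : y = f0 := hvl
        rw [e1, e2]; exact hf.orth
      · exact absurd rfl hne
      · have e1 : x = f1 := hvk
        rw [e1]; exact sym0 h (hg1 hvl hpl)
      · exact absurd hvl id
      · have e1 : y = f0 := hvl
        rw [e1]; exact hg0 hvk hpk
      · have e1 : y = f1 := hvl
        rw [e1]; exact hg1 hvk hpk
      · exact absurd rfl hne
      · exact absurd hvl id
      · exact absurd hvk id
      · exact absurd hvk id
      · exact absurd hvk id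
      · exact absurd hvk id
    · rintro ⟨k, hk⟩
      have hvk := hv ⟨k, hk⟩
      generalize v ⟨k, hk⟩ = x at hvk ⊢
      fin_cases k
      · exact hn0 hvk
      · exact hn1 hvk
      · exact nrm_ne h5 (a := .n j) hvk
      · exact absurd hvk id

/-- normal crossings at a cluster point -/
theorem snc_clu (hD : Deep O z μ 2) {q : E 3} (hq : q ∈ Ball 3)
    {f0 f1 g1 : Fin 4 → Fin 2 → ℂ}
    (hf : Flat O z μ false f0 f1) (hg : Flat O z μ true f0 g1) (hf0 : Perp z (pt h q) f0)
    (hf1 : Perp z (pt h q) f1) (hg1 : Perp z (pt h q) g1)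
    (w : Fin 3 → ℂ) :
    ∃ X : E 3, ∀ k, (![lin (io h f0).1, lin (io h f1).1, lin (io h g1).1] :
        Fin 3 → E 3 → ℂ) k q = 0 →
      fderiv ℂ ((![lin (io h f0).1, lin (io h f1).1, lin (io h g1).1] :
        Fin 3 → E 3 → ℂ) k) q X = w k := by
  have hp := neg_pt h hq
  have h5 := h.toZ5
  have hone : ∀ f : E 3 → ℂ, IsUM f f q := fun f =>
    ⟨fun _ => 1, IsU.one q, Eventually.of_forall fun w => by rw [mul_one]⟩
  obtain ⟨-, h10, hg0, h1g, -, -, -⟩ := cluster_at h5 hD hp hf hg hf0 hf1 hf0 hg1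
  refine snc_list h (κ := Fin 3) (Pr := fun k v => v = ![f0, f1, g1] k) ?_ ?_ w
  · intro k
    fin_cases k
    · exact Or.inr ⟨f0, rfl, hf0, hone _⟩
    · exact Or.inr ⟨f1, rfl, hf1, hone _⟩
    · exact Or.inr ⟨g1, rfl, hg1, hone _⟩
  · intro s v hv hvp
    have : Fintype s := Fintype.ofFinite _
    refine indep_orth h5 ?_ ?_
    · rintro ⟨k, hk⟩ ⟨l, hl⟩ hkl
      rw [hv ⟨k, hk⟩, hv ⟨l, hl⟩]
      have hne : k ≠ l := fun e => hkl (Subtype.ext e)
      clear hkl
      show Cls_620.hh (HH z) (![f0, f1, g1] k) (![f0, f1, g1] l) = 0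
      clear hk hl
      fin_cases k <;> fin_cases l
      · exact absurd rfl hne
      · exact sym0 h h10
      · exact sym0 h hg0
      · exact h10
      · exact absurd rfl hne
      · exact h1g
      · exact hg0
      · exact sym0 h h1g
      · exact absurd rfl hne
    · rintro ⟨k, hk⟩
      rw [hv ⟨k, hk⟩]
      show 0 < (Cls_620.hh (HH z) (![f0, f1, g1] k) (![f0, f1, g1] k) 0).re
      clear hk
      fin_cases k
      · exact nrm_ne h5 hf.m0
      · exact nrm_ne h5 hf.m1
      · exact nrm_ne h5 hg.m1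

/-! ### the data -/

variable {Γ : Type} [Group Γ] (ρ' : Γ →* UG 3)

/-- **the data of the graph model**. -/
def gdata (hμ : μ ∈ O) (hD : Deep O z μ 2) : GData (ballFam ρ') where
  f0 := fun y => (R .o).f y.val
  x := fun i y => (R (.v (col i) 0)).f y.val
  P := fun i y => FP h R (col i) y.val
  Q := fun i y => FQ h R (col i) y.val
  f0_hol := holF_of ρ' fun y _ => diff_root (R .o) y.mem
  x_hol := fun i => holF_of ρ' fun y _ => diff_root (R _) y.mem
  P_hol := fun i => holF_of ρ' fun y _ =>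
    (((diff_root (R _) y.mem).mul (diff_root (R _) y.mem)).mul (diff_root (R _) y.mem)).mul
      ((diff_root (R _) y.mem).mul (diff_root (R _) y.mem))
  Q_hol := fun i => holF_of ρ' fun y _ =>
    (((diff_root (R _) y.mem).mul (diff_root (R _) y.mem)).mul (diff_root (R _) y.mem)).mul
      (diff_root (R _) y.mem)
  rr := by
    intro q hq
    have hreg : ∀ i : Fin 2, ¬ FlatAt O z μ (col i) (pt h q.val) := fun i hf =>
      hq i ((flat_iff h R hD q.mem (col i)).mpr hf)
    have hreg' : ∀ i, ¬ FlatAt O z μ i (pt h q.val) := by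
      intro i
      cases i
      · exact hreg 0
      · exact hreg 1
    have h1 := snc_of ρ' (q := q) (snc_reg h R hμ hD q.mem hreg')
    convert h1 using 1
    funext k
    fin_cases k <;> rfl
  fr := by
    intro q i j hij h0 hi hj
    obtain ⟨f0, f1, hf, hf0, hf1⟩ := (flat_iff h R hD q.mem (col i)).mp ⟨h0, hi⟩
    have hjr : ¬ FlatAt O z μ (col j) (pt h q.val) := fun hf =>
      hj ((flat_iff h R hD q.mem (col j)).mpr hf).2
    have hc : col i ≠ col j := by
      rw [col_ne hij]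
      cases col i <;> simp
    obtain ⟨p, e0, e1⟩ := pen_exists h R ρ' hD hf hf0 hf1
    refine ⟨p, ?_⟩
    rw [e0, e1]
    have h1 := snc_of ρ' (q := q) (snc_flat h R hμ hD q.mem hc hjr hf hf0 hf1)
    convert h1 using 1
    funext k
    fin_cases k <;> rfl
  ff := by
    intro q h0 h1 h2
    obtain ⟨f0, f1, hf, hf0, hf1⟩ := (flat_iff h R hD q.mem (col 0)).mp ⟨h0, h1⟩
    obtain ⟨g0, g1, hg, hg0, hg1⟩ := (flat_iff h R hD q.mem (col 1)).mp ⟨h0, h2⟩
    have e : g0 = f0 := (cluster_at h.toZ5 hD (neg_pt h q.mem) hf hg hf0 hf1 hg0 hg1).1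
    subst e
    obtain ⟨p, e0, e1⟩ := pen_exists h R ρ' hD hf hf0 hf1
    obtain ⟨p', e0', e1'⟩ := pen_exists h R ρ' hD hg hg0 hg1
    refine ⟨p, p', e0'.trans e0.symm, ?_⟩
    rw [e0, e1, e1']
    have h3 := snc_of ρ' (q := q) (snc_clu h hD q.mem hf hg hf0 hf1 hg1)
    convert h3 using 1
    funext k
    fin_cases k <;> rfl

end

end Crest.Agent.R272.GI_620
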