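import Crest.Agent.R272.Kod7_410
import Crest.Agent.R273.SerE_945
import Crest.Agent.R273.D13_505

/-!
# R272, KOD-EMB (helper410), part 8: Kodaira's embedding theorem

`M` compact, `A` finite, `hO : HM O` with positive curvature (`hO.Pos`):

* `exists_genAll` : `∃ m > 0`, the global sections of `O ^ m` generate all 1-jets;
* `fd_of_gen`     : `GenAll L → Nonempty (FD L)`;
* `exists_fd`     : `∃ m > 0, Nonempty (FD (O ^ m))`;
* `kodaira`       : for every line bundle `L`, `∃ m1, ∀ m ≥ m1, ∃ P' : ProjD A, lb P' = L * O ^ m`;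
* `exists_projD`  : `∃ m > 0, ∃ P' : ProjD A, lb P' = O ^ m`.

No hypothesis besides the positivity of `hO` is used.
-/

set_option autoImplicit false
set_option linter.unusedSectionVars false

open Set Filter Topology Complex MeasureTheory Metric
open scoped ContDiff Matrix ComplexConjugate Kronecker ComplexOrder ENNReal NNReal

namespace Crest.Agent.R272.Kod8_410

open Crest.Agent.R275 Crest.Agent.R275.Geo Crest.Agent.R275.Core144 Crest.Agent.R275.Dg199
open Crest.Agent.R273.Defs_333 Crest.Agent.R273.HM_333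
open Crest.Agent.R273.SerA_945 (Fn)
open Crest.Agent.R273.SerC_945 (FD Rel rel_iff)
open Crest.Agent.R273.SerE_945 (fd_HS proj_large)
open Crest.Agent.R273.FS_333 (lb)
open Crest.Agent.R273.Kah_333 (cur cur_pow cur_posDef pos_of_cur kah)
open Crest.Agent.R272.Kod7_410

noncomputable section

variable {n : ℕ} {M : Type} [TopologicalSpace M] {A : Atl n M}

/-- 1-jets are generated at every point -/
def GenAll (L : LB A) : Prop := ∀ i, ∀ x ∈ (A.e i).source, Gen1 L i x

theorem exists_genAll [T2Space M] [CompactSpace M] [Finite A.ι] (P : Part A) {O : LB A}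
    {hO : HM O} (hp : hO.Pos) : ∃ m, 0 < m ∧ GenAll (O ^ m) := by
  have h1 : ∀ x : M, ∃ k, 0 < k ∧ ∃ i, ∀ᶠ y in 𝓝 x, y ∈ (A.e i).source ∧ Gen1 (O ^ k) i y := by
    intro x
    obtain ⟨i, hi⟩ := A.cover x
    obtain ⟨k0, hk0⟩ := gen1 P hp hi
    exact ⟨k0 + 1, Nat.succ_pos _, i, (hk0 (k0 + 1) (Nat.le_succ _)).ev hi⟩
  choose k hk i hi using h1
  obtain ⟨t, -, ht⟩ := isCompact_univ.elim_nhds_subcover
    (fun x => {y | y ∈ (A.e (i x)).source ∧ Gen1 (O ^ k x) (i x) y}) (fun x _ => hi x)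
  refine ⟨∏ x ∈ t, k x, Finset.prod_pos fun x _ => hk x, fun j y hy => ?_⟩
  obtain ⟨x, hx, hyx⟩ := mem_iUnion₂.1 (ht (mem_univ y))
  obtain ⟨q, hq⟩ := Finset.dvd_prod_of_mem k hx
  have hq0 : q ≠ 0 := by
    rintro rfl
    have h2 : 0 < ∏ x ∈ t, k x := Finset.prod_pos fun x _ => hk x
    rw [hq, mul_zero] at h2
    exact lt_irrefl _ h2
  obtain ⟨q', rfl⟩ := Nat.exists_eq_succ_of_ne_zero hq0
  rw [hq, pow_mul]
  exact (Gen1.pow hyx.1 hyx.2 q').chg hyx.1 hy

/-! ### from the generation of jets to `FD` -/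

/-- a finite set of sections spanning `HS L univ` -/
theorem exists_span (L : LB A) [FiniteDimensional ℂ (HS L univ)] :
    ∃ r : ℕ, ∃ F : Fin (r + 1) → Fn A, (∀ k, IsHS L univ (F k)) ∧
      ∀ s, IsHS L univ s → ∃ c : Fin (r + 1) → ℂ, s = ∑ k, c k • F k := by
  set b := Module.finBasis ℂ (HS L univ) with hb
  refine ⟨_, Fin.cons 0 fun k => (b k).1, fun k => ?_, fun s hs => ?_⟩
  · refine Fin.cases ?_ (fun k => ?_) k
    · exact (HS L univ).zero_mem
    · exact (b k).2
  · refine ⟨Fin.cons 0 (b.repr ⟨s, hs⟩), ?_⟩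
    rw [Fin.sum_univ_succ]
    simp only [Fin.cons_zero, Fin.cons_succ, smul_zero, zero_add]
    have h1 := congrArg Subtype.val (b.sum_repr ⟨s, hs⟩)
    rw [AddSubmonoidClass.coe_finsetSum] at h1
    exact h1.symm

section Fd

variable {L : LB A} {r : ℕ} {F : Fin (r + 1) → Fn A} (hF : ∀ k, IsHS L univ (F k))
  (hs : ∀ s, IsHS L univ s → ∃ c : Fin (r + 1) → ℂ, s = ∑ k, c k • F k) (hg : GenAll L)

include hF hs hg

theorem fam_ne (i : A.ι) {x : M} (hx : x ∈ (A.e i).source) : ∃ k, F k i x ≠ 0 := by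
  by_contra h
  push Not at h
  obtain ⟨s, h1, h2, -⟩ := hg i x hx 1 0
  obtain ⟨c, rfl⟩ := hs s h1
  rw [Finset.sum_apply, Finset.sum_apply] at h2
  refine zero_ne_one (α := ℂ) ?_
  rw [← h2]
  refine (Finset.sum_eq_zero fun k _ => ?_).symm
  show c k * F k i x = 0
  rw [h k, mul_zero]

theorem fam_imm (i : A.ι) {z : Cn n} (hz : z ∈ (A.e i).target) (v : Cn n) (c : ℂ)
    (h : ∀ k, fderiv ℂ (fun w => F k i ((A.e i).symm w)) z v = c * F k i ((A.e i).symm z)) :
    v = 0 := by
  have hx : (A.e i).symm z ∈ (A.e i).source := (A.e i).map_target hz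
  have hzz : A.e i ((A.e i).symm z) = z := (A.e i).right_inv hz
  -- all sections satisfy the same relation
  have h1 : ∀ s, IsHS L univ s → fderiv ℂ (fun w => s i ((A.e i).symm w)) z v =
      c * s i ((A.e i).symm z) := by
    intro s h1
    obtain ⟨a, rfl⟩ := hs s h1
    have hval : ∀ y, (∑ k, a k • F k) i y = ∑ k, a k * F k i y := by
      intro y
      rw [Finset.sum_apply, Finset.sum_apply]
      rfl
    have h7 : (fun w => (∑ k, a k • F k) i ((A.e i).symm w)) =
        fun w => ∑ k, a k * F k i ((A.e i).symm w) := funext fun w => hval _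
    have h8 : HasFDerivAt (fun w => ∑ k, a k * F k i ((A.e i).symm w))
        (∑ k, a k • fderiv ℂ (fun w => F k i ((A.e i).symm w)) z) z := by
      refine HasFDerivAt.fun_sum fun k _ => ?_
      have h9 := diffAt (hF k) hx
      rw [hzz] at h9
      exact h9.hasFDerivAt.const_mul (a k)
    rw [h7, h8.fderiv, _root_.sum_apply, hval, Finset.mul_sum]
    refine Finset.sum_congr rfl fun k _ => ?_
    show a k * fderiv ℂ (fun w => F k i ((A.e i).symm w)) z v = _
    rw [h k]
    ring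
  have h2 : ∀ φ : Cn n →L[ℂ] ℂ, φ v = 0 := by
    intro φ
    obtain ⟨s, h3, h4, h5⟩ := hg i _ hx 0 φ
    have h6 := h1 s h3
    rw [h4, mul_zero] at h6
    rw [hzz] at h5
    rw [← h5, h6]
  ext b
  exact h2 (EuclideanSpace.proj b)

theorem fam_disc (x0 y : M) : ∀ᶠ z in 𝓝[≠] y, ¬ Rel F x0 z := by
  obtain ⟨i, hi⟩ := A.cover x0
  obtain ⟨j, hj⟩ := A.cover y
  obtain ⟨k0, hk0⟩ := fam_ne hF hs hg i hi
  -- continuity of the sections in the chart `j`
  have hd : ∀ k, DifferentiableAt ℂ (fun w => F k j ((A.e j).symm w)) (A.e j y) :=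
    fun k => diffAt (hF k) hj
  let G : Cn n → (Fin (r + 1) → ℂ) := fun w k =>
    F k0 i x0 * F k j ((A.e j).symm w) - F k i x0 * F k0 j ((A.e j).symm w)
  have hG : HasFDerivAt G (ContinuousLinearMap.pi fun k =>
      F k0 i x0 • fderiv ℂ (fun w => F k j ((A.e j).symm w)) (A.e j y) -
        F k i x0 • fderiv ℂ (fun w => F k0 j ((A.e j).symm w)) (A.e j y)) (A.e j y) := by
    refine hasFDerivAt_pi.2 fun k => ?_
    exact ((hd k).hasFDerivAt.const_mul _).sub ((hd k0).hasFDerivAt.const_mul _)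
  -- it suffices to prove that `G` has no zero in a punctured neighbourhood of `e j y`
  suffices h : ∀ᶠ w in 𝓝[≠] (A.e j y), G w ≠ 0 by
    have h1 : Tendsto (A.e j) (𝓝[≠] y) (𝓝[≠] (A.e j y)) := by
      refine tendsto_nhdsWithin_iff.2 ⟨((A.e j).continuousAt hj).tendsto.mono_left
        nhdsWithin_le_nhds, ?_⟩
      filter_upwards [self_mem_nhdsWithin,
        nhdsWithin_le_nhds ((A.e j).open_source.mem_nhds hj)] with z hz hzs h2
      exact hz ((A.e j).injOn hzs hj h2)
    filter_upwards [h1.eventually h,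
      nhdsWithin_le_nhds ((A.e j).open_source.mem_nhds hj)] with z hz hzs hrel
    refine hz ?_
    obtain ⟨c, hc⟩ := (rel_iff hF hi hzs).1 hrel
    funext k
    show F k0 i x0 * F k j ((A.e j).symm (A.e j z)) -
      F k i x0 * F k0 j ((A.e j).symm (A.e j z)) = 0
    rw [(A.e j).left_inv hzs, hc k, hc k0]
    ring
  by_cases h0 : G (A.e j y) = 0
  · -- `y` is in the fibre
    have h1 : ∀ k, F k0 i x0 * F k j y = F k i x0 * F k0 j y := by
      intro k
      have h2 : F k0 i x0 * F k j ((A.e j).symm (A.e j y)) -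
        F k i x0 * F k0 j ((A.e j).symm (A.e j y)) = 0 := congrFun h0 k
      rw [(A.e j).left_inv hj] at h2
      exact sub_eq_zero.1 h2
    have hk0j : F k0 j y ≠ 0 := by
      intro h2
      obtain ⟨k, hk⟩ := fam_ne hF hs hg j hj
      have h3 := h1 k
      rw [h2, mul_zero] at h3
      rcases mul_eq_zero.1 h3 with h4 | h4
      · exact hk0 h4
      · exact hk h4
    have hinj : LinearMap.ker ((ContinuousLinearMap.pi fun k =>
        F k0 i x0 • fderiv ℂ (fun w => F k j ((A.e j).symm w)) (A.e j y) -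
        F k i x0 • fderiv ℂ (fun w => F k0 j ((A.e j).symm w)) (A.e j y) :
          Cn n →L[ℂ] (Fin (r + 1) → ℂ)) : Cn n →ₗ[ℂ] (Fin (r + 1) → ℂ)) = ⊥ := by
      refine LinearMap.ker_eq_bot'.2 fun v hv => ?_
      refine fam_imm hF hs hg j ((A.e j).map_source hj) v
        (fderiv ℂ (fun w => F k0 j ((A.e j).symm w)) (A.e j y) v / F k0 j y) fun k => ?_
      rw [(A.e j).left_inv hj]
      have h2 : F k0 i x0 * fderiv ℂ (fun w => F k j ((A.e j).symm w)) (A.e j y) v -
        F k i x0 * fderiv ℂ (fun w => F k0 j ((A.e j).symm w)) (A.e j y) v = 0 := congrFun hv k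
      have h3 := sub_eq_zero.1 h2
      have h4 := h1 k
      set X := fderiv ℂ (fun w => F k j ((A.e j).symm w)) (A.e j y) v
      set Y := fderiv ℂ (fun w => F k0 j ((A.e j).symm w)) (A.e j y) v
      rw [div_mul_eq_mul_div, eq_div_iff hk0j]
      refine mul_left_cancel₀ hk0 ?_
      calc F k0 i x0 * (X * F k0 j y) = (F k0 i x0 * X) * F k0 j y := by ring
        _ = (F k i x0 * Y) * F k0 j y := by rw [h3]
        _ = Y * (F k i x0 * F k0 j y) := by ring
        _ = Y * (F k0 i x0 * F k j y) := by rw [h4]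
        _ = F k0 i x0 * (Y * F k j y) := by ring
    obtain ⟨K, hK, hanti⟩ := LinearMap.exists_antilipschitzWith _ hinj
    have h5 := hG.eventually_ne (c := 0) ⟨K, hanti⟩
    exact h5
  · -- `y` is not in the fibre
    exact nhdsWithin_le_nhds (hG.continuousAt.eventually_ne h0)

theorem fam_fin [CompactSpace M] (x : M) : {y | Rel F x y}.Finite := by
  by_contra h
  obtain ⟨y, hy⟩ := Set.Infinite.exists_accPt_principal h
  have h1 := fam_disc hF hs hg x y
  have h2 : ∃ᶠ z in 𝓝[≠] y, z ∈ {y | Rel F x y} := accPt_iff_frequently_nhdsNE.1 hy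
  exact h2 (h1.mono fun z hz => hz)

end Fd

variable [T2Space M] [CompactSpace M] [Finite A.ι] (P : Part A)

include P in
theorem fd_of_gen {L : LB A} (hg : GenAll L) : Nonempty (FD L) := by
  have := fd_HS P L
  obtain ⟨r, F, hF, hs⟩ := exists_span L
  exact ⟨⟨r, F, hF, fun i x hx => fam_ne hF hs hg i hx, fun i z hz v ⟨c, hc⟩ =>
    fam_imm hF hs hg i hz v c hc, fun x => fam_fin hF hs hg x⟩⟩

variable {O : LB A} {hO : HM O}

theorem pow_pos' (hp : hO.Pos) {m : ℕ} (hm : 0 < m) : (pow hO m).Pos :=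
  pos_of_cur fun i x hx => by
    rw [cur_pow hO m i hx]
    exact (cur_posDef hp i hx).smul (by exact_mod_cast hm)

include P in
theorem exists_fd (hp : hO.Pos) : ∃ m, 0 < m ∧ Nonempty (FD (O ^ m)) := by
  obtain ⟨m, hm, h⟩ := exists_genAll P hp
  exact ⟨m, hm, fd_of_gen P h⟩

include P in
/-- **Kodaira's embedding theorem**: every large twist `L * O ^ m` is very ample -/
theorem kodaira (hp : hO.Pos) (L : LB A) :
    ∃ m1 : ℕ, ∀ m, m1 ≤ m → ∃ P' : ProjD A, lb P' = L * O ^ m := by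
  obtain ⟨m, hm, ⟨D⟩⟩ := exists_fd P hp
  have hD : Crest.Agent.R273.TD3_733.D2 A := Crest.Agent.R273.D13_505.d2 P (kah hO hp)
  have h1 : ∀ r : ℕ, ∃ q0 : ℕ, ∀ q, q0 ≤ q → ∃ P' : ProjD A, lb P' = L * O ^ r * (O ^ m) ^ q :=
    fun r => proj_large P hD (pow_pos' hp hm) D (L * O ^ r)
  choose q0 hq0 using h1
  refine ⟨m * (Finset.range m).sup q0, fun k hk => ?_⟩
  have hr : k % m < m := Nat.mod_lt _ hm
  obtain ⟨P', hP'⟩ := hq0 (k % m) (k / m) (by
    refine (Finset.le_sup (f := q0) (Finset.mem_range.2 hr)).trans ?_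
    rw [Nat.le_div_iff_mul_le hm, mul_comm]
    exact hk)
  refine ⟨P', ?_⟩
  rw [hP', ← pow_mul, mul_assoc, ← pow_add, Nat.mod_add_div]

include P in
/-- **Kodaira's embedding theorem**, powers -/
theorem exists_projD (hp : hO.Pos) : ∃ m, 0 < m ∧ ∃ P' : ProjD A, lb P' = O ^ m := by
  obtain ⟨m1, h⟩ := kodaira P hp (1 : LB A)
  obtain ⟨P', hP'⟩ := h (m1 + 1) (Nat.le_succ _)
  exact ⟨m1 + 1, Nat.succ_pos _, P', by rw [hP', one_mul]⟩

end

end Crest.Agent.R272.Kod8_410
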