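import Mathlib

/-!
# LB-PER (row 272), part 1: periodisation and coverings between quotients

* `per` : the sum over the translates of a function supported in a set whose translates are
  locally finite and disjoint (`Sep`); continuity, invariance, values.
* `sep_of_close` : the metric (or any invariant "closeness" relation) form of the hypothesis.
* `isCoveringMap_of_normal`, `isCoveringMap_of_stab` : `Γ` acts on `E`, `N` normal and contains
  all `γ` with `γ U ∩ U ≠ ∅` for a small neighbourhood `U` (e.g. contains all point stabilisers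
  and the action is properly discontinuous): `E / N → E / Γ` is a covering map.
-/

set_option autoImplicit false
set_option linter.unusedSectionVars false
set_option linter.style.haveILetI false

namespace Crest.Agent.R272.Per1_370

open Topology Set

/-! ## Periodisation -/

section Periodise

variable {G Y A : Type*} [Group G] [MulAction G Y]

/-- The translates of `O` are disjoint, locally uniformly: every point has a neighbourhood that
meets at most one translate of `O`. -/
def Sep (G : Type*) {Y : Type*} [Group G] [MulAction G Y] [TopologicalSpace Y] (O : Set Y) :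
    Prop :=
  ∀ y : Y, ∃ W ∈ 𝓝 y, ∀ g h : G, (∃ w ∈ W, g • w ∈ O) → (∃ w ∈ W, h • w ∈ O) → g = h

/-- the periodisation of `t` -/
noncomputable def per (G : Type*) {Y A : Type*} [Group G] [MulAction G Y] [AddCommMonoid A]
    (t : Y → A) (y : Y) : A := ∑ᶠ g : G, t (g • y)

theorem per_smul [AddCommMonoid A] (t : Y → A) (h : G) (y : Y) :
    per G t (h • y) = per G t y := by
  unfold per
  refine Eq.trans (finsum_congr fun g => ?_)
    (finsum_comp_equiv (Equiv.mulRight h) (f := fun g : G => t (g • y)))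
  show t (g • h • y) = t ((g * h) • y)
  rw [mul_smul]

variable [TopologicalSpace Y]

theorem Sep.mono {O O' : Set Y} (h : Sep G O') (hO : O ⊆ O') : Sep G O := fun y => by
  obtain ⟨W, hW, h1⟩ := h y
  exact ⟨W, hW, fun g k ⟨w, hw, hg⟩ ⟨v, hv, hk⟩ => h1 g k ⟨w, hw, hO hg⟩ ⟨v, hv, hO hk⟩⟩

theorem Sep.eq {O : Set Y} (h : Sep G O) {y : Y} {g k : G} (hg : g • y ∈ O) (hk : k • y ∈ O) :
    g = k := by
  obtain ⟨W, hW, h1⟩ := h y
  exact h1 g k ⟨y, mem_of_mem_nhds hW, hg⟩ ⟨y, mem_of_mem_nhds hW, hk⟩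

theorem per_eq [AddCommMonoid A] {O : Set Y} (hO : Sep G O) {t : Y → A}
    (ht : ∀ y ∉ O, t y = 0) {g : G} {y : Y} (hy : g • y ∈ O) : per G t y = t (g • y) := by
  unfold per
  refine finsum_eq_single _ g fun k hk => ht _ fun hk' => hk (hO.eq hk' hy)

theorem per_eq_self [AddCommMonoid A] {O : Set Y} (hO : Sep G O) {t : Y → A}
    (ht : ∀ y ∉ O, t y = 0) {y : Y} (hy : y ∈ O) : per G t y = t y := by
  have := per_eq (g := (1 : G)) hO ht (y := y) (by rwa [one_smul])
  rwa [one_smul] at this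

theorem per_eq_zero [AddCommMonoid A] {O : Set Y} {t : Y → A}
    (ht : ∀ y ∉ O, t y = 0) {y : Y} (hy : ∀ g : G, g • y ∉ O) : per G t y = 0 := by
  unfold per
  exact (finsum_congr fun g => ht _ (hy g)).trans finsum_zero

theorem continuous_per [AddCommMonoid A] [TopologicalSpace A] [ContinuousConstSMul G Y]
    {O : Set Y} (hO : Sep G O) {t : Y → A} (htc : Continuous t) (ht : ∀ y ∉ O, t y = 0) :
    Continuous (per G t) := by
  rw [continuous_iff_continuousAt]
  intro y
  obtain ⟨W, hW, h1⟩ := hO y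
  by_cases hg : ∃ g : G, ∃ w ∈ W, g • w ∈ O
  · obtain ⟨g, hg⟩ := hg
    have key : per G t =ᶠ[𝓝 y] fun w => t (g • w) := by
      filter_upwards [hW] with w hw
      unfold per
      refine finsum_eq_single _ g fun k hk => ht _ fun hk' => hk (h1 k g ⟨w, hw, hk'⟩ hg)
    exact ((htc.comp (continuous_const_smul g)).continuousAt).congr key.symm
  · have key : per G t =ᶠ[𝓝 y] fun _ => 0 := by
      filter_upwards [hW] with w hw
      exact per_eq_zero ht fun g hgw => hg ⟨g, w, hw, hgw⟩
    exact continuousAt_const.congr key.symm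

/-- **Separation from an invariant closeness relation.**  `π : Y → B` equivariant, `close` an
invariant relation on `B` which holds locally; if two points of `O` whose images are close modulo
`g` force `g = 1`, then the translates of `O` are separated. -/
theorem sep_of_close {B : Type*} [TopologicalSpace B] [MulAction G B] {π : Y → B}
    (hπ : Continuous π) (hπG : ∀ (g : G) y, π (g • y) = g • π y) (close : B → B → Prop)
    (hinv : ∀ (g : G) u v, close u v → close (g • u) (g • v))
    (hloc : ∀ b : B, ∃ W ∈ 𝓝 b, ∀ u ∈ W, ∀ v ∈ W, close u v) {O : Set Y}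
    (hsep : ∀ x ∈ O, ∀ y ∈ O, ∀ g : G, close (π x) (g • π y) → g = 1) : Sep G O := by
  intro y
  obtain ⟨W, hW, h1⟩ := hloc (π y)
  refine ⟨π ⁻¹' W, hπ.continuousAt hW, ?_⟩
  rintro g h ⟨w, hw, hgw⟩ ⟨v, hv, hhv⟩
  have h2 : close (π (g • w)) ((g * h⁻¹) • π (h • v)) := by
    rw [hπG, hπG, smul_smul, inv_mul_cancel_right]
    exact hinv g _ _ (h1 _ hw _ hv)
  have h3 := hsep _ hgw _ hhv _ h2
  exact mul_inv_eq_one.mp h3

/-- **Separation, metric form.** -/
theorem sep_of_dist {B : Type*} [PseudoMetricSpace B] [MulAction G B] {π : Y → B}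
    (hπ : Continuous π) (hπG : ∀ (g : G) y, π (g • y) = g • π y)
    (hiso : ∀ (g : G) (u v : B), dist (g • u) (g • v) = dist u v) {r : ℝ} (hr : 0 < r)
    {O : Set Y} (hsep : ∀ x ∈ O, ∀ y ∈ O, ∀ g : G, dist (π x) (g • π y) < r → g = 1) :
    Sep G O := by
  refine sep_of_close (G := G) hπ hπG (fun u v => dist u v < r) (fun g u v h => ?_) (fun b => ?_)
    hsep
  · show dist (g • u) (g • v) < r
    rw [hiso]; exact h
  · refine ⟨Metric.ball b (r / 2), Metric.ball_mem_nhds b (by positivity), fun u hu v hv => ?_⟩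
    have h1 := dist_triangle_right u v b
    rw [Metric.mem_ball] at hu hv
    show dist u v < r
    linarith

end Periodise

/-! ## Coverings between quotients -/

section Covering

variable {Γ E W Z : Type*} [Group Γ] [MulAction Γ E] [TopologicalSpace E] [TopologicalSpace W]
  [TopologicalSpace Z] [ContinuousConstSMul Γ E]

/-- the quotient map of an action is open, for any model of the quotient -/
theorem isOpenMap_of_orbit {h : E → W} (hh : IsQuotientMap h)
    (hhG : ∀ {e₁ e₂}, h e₁ = h e₂ ↔ e₁ ∈ MulAction.orbit Γ e₂) : IsOpenMap h := by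
  intro U hU
  rw [← hh.isOpen_preimage]
  have h1 : h ⁻¹' (h '' U) = ⋃ g : Γ, (g • ·) ⁻¹' U := by
    ext e
    simp only [mem_preimage, mem_image, mem_iUnion]
    constructor
    · rintro ⟨u, hu, hue⟩
      obtain ⟨g, hg⟩ := hhG.1 hue
      exact ⟨g, by simpa [hg] using hu⟩
    · rintro ⟨g, hg⟩
      exact ⟨g • e, hg, hhG.2 ⟨g, rfl⟩⟩
  rw [h1]
  exact isOpen_iUnion fun g => hU.preimage (continuous_const_smul g)

variable (N : Subgroup Γ) [N.Normal] {h : E → W} {f : E → Z} {p : W → Z}

/-- the action of `Γ ⧸ N` on a model `W` of the quotient `E / N` -/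
noncomputable def qsmul (hs : Function.Surjective h) (q : Γ ⧸ N) (w : W) : W :=
  h (q.out • Function.surjInv hs w)

theorem qsmul_mk (hs : Function.Surjective h)
    (hhN : ∀ {e₁ e₂}, h e₁ = h e₂ ↔ e₁ ∈ MulAction.orbit N e₂) (g : Γ) (e : E) :
    qsmul N hs (QuotientGroup.mk g) (h e) = h (g • e) := by
  unfold qsmul
  rw [hhN]
  obtain ⟨n, hn⟩ := QuotientGroup.mk_out_eq_mul N g
  obtain ⟨m, hm⟩ := hhN.1 (Function.surjInv_eq hs (h e))
  rw [hn, ← hm]
  have key : (g * (n : Γ) * (m : Γ) * g⁻¹) ∈ N := by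
    have h1 := (inferInstance : N.Normal).conj_mem _ (N.mul_mem n.2 m.2) g
    simpa [mul_assoc] using h1
  refine ⟨⟨_, key⟩, ?_⟩
  show (g * (n : Γ) * (m : Γ) * g⁻¹) • (g • e) = (g * (n : Γ)) • ((m : Γ) • e)
  simp only [smul_smul, inv_mul_cancel_right]

/-- the action of `Γ ⧸ N` on a model `W` of the quotient `E / N` -/
@[implicit_reducible] noncomputable def qaction (hs : Function.Surjective h)
    (hhN : ∀ {e₁ e₂}, h e₁ = h e₂ ↔ e₁ ∈ MulAction.orbit N e₂) : MulAction (Γ ⧸ N) W where
  smul := qsmul N hs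
  one_smul w := by
    obtain ⟨e, rfl⟩ := hs w
    have := qsmul_mk N hs hhN 1 e
    rw [one_smul] at this
    exact this
  mul_smul q r w := by
    obtain ⟨e, rfl⟩ := hs w
    induction q using QuotientGroup.induction_on with | _ q => ?_
    induction r using QuotientGroup.induction_on with | _ r => ?_
    show qsmul N hs (QuotientGroup.mk q * QuotientGroup.mk r) (h e) =
      qsmul N hs (QuotientGroup.mk q) (qsmul N hs (QuotientGroup.mk r) (h e))
    rw [← QuotientGroup.mk_mul, qsmul_mk N hs hhN, qsmul_mk N hs hhN, qsmul_mk N hs hhN, mul_smul]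

/-- **Intermediate quotients.**  `Γ` acts on `E`, `N` is normal, every point of `E` has a
neighbourhood `U` with `γ U ∩ U ≠ ∅ → γ ∈ N`; then `E / N → E / Γ` is the quotient covering map
for the free action of `Γ ⧸ N`. -/
theorem isQuotientCoveringMap_of_normal (hh : IsQuotientMap h) (hf : IsQuotientMap f)
    (hp : ∀ e, p (h e) = f e)
    (hhN : ∀ {e₁ e₂}, h e₁ = h e₂ ↔ e₁ ∈ MulAction.orbit N e₂)
    (hfG : ∀ {e₁ e₂}, f e₁ = f e₂ ↔ e₁ ∈ MulAction.orbit Γ e₂)
    (disj : ∀ e : E, ∃ U ∈ 𝓝 e, ∀ g : Γ, ((g • ·) '' U ∩ U).Nonempty → g ∈ N) :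
    letI := qaction N hh.surjective hhN
    IsQuotientCoveringMap p (Γ ⧸ N) := by
  letI := qaction N hh.surjective hhN
  have hmk : ∀ (g : Γ) (e : E), (QuotientGroup.mk g : Γ ⧸ N) • h e = h (g • e) := fun g e =>
    qsmul_mk N hh.surjective hhN g e
  have hpf : p ∘ h = f := funext hp
  have hpc : Continuous p := hh.continuous_iff.2 (by rw [hpf]; exact hf.continuous)
  have hpq : IsQuotientMap p := IsQuotientMap.of_comp hh.continuous hpc (by rw [hpf]; exact hf)
  have : ContinuousConstSMul N E := ⟨fun n => continuous_const_smul (n : Γ)⟩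
  have hopen : IsOpenMap h := isOpenMap_of_orbit (Γ := N) hh hhN
  refine
    { toIsQuotientMap := hpq
      toContinuousConstSMul := ⟨fun q => ?_⟩
      apply_eq_iff_mem_orbit := fun {w₁ w₂} => ?_
      disjoint := fun w => ?_ }
  · induction q using QuotientGroup.induction_on with | _ q => ?_
    rw [hh.continuous_iff]
    have : ((fun w : W => (QuotientGroup.mk q : Γ ⧸ N) • w) ∘ h) = h ∘ (q • ·) :=
      funext fun e => hmk q e
    rw [this]
    exact hh.continuous.comp (continuous_const_smul q)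
  · obtain ⟨e₁, rfl⟩ := hh.surjective w₁
    obtain ⟨e₂, rfl⟩ := hh.surjective w₂
    rw [hp, hp, hfG]
    constructor
    · rintro ⟨g, hg⟩
      refine ⟨QuotientGroup.mk g, ?_⟩
      show (QuotientGroup.mk g : Γ ⧸ N) • h e₂ = h e₁
      rw [hmk]
      exact congrArg h hg
    · rintro ⟨q, hq⟩
      induction q using QuotientGroup.induction_on with | _ q => ?_
      have h1 : (QuotientGroup.mk q : Γ ⧸ N) • h e₂ = h e₁ := hq
      rw [hmk] at h1
      obtain ⟨n, hn⟩ := hhN.1 h1.symm
      refine ⟨(n : Γ) * q, ?_⟩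
      show ((n : Γ) * q) • e₂ = e₁
      rw [mul_smul]
      exact hn
  · obtain ⟨e, rfl⟩ := hh.surjective w
    obtain ⟨U, hU, hUN⟩ := disj e
    refine ⟨h '' U, hopen.image_mem_nhds hU, fun q => ?_⟩
    induction q using QuotientGroup.induction_on with | _ q => ?_
    rintro ⟨_, ⟨_, ⟨u, hu, rfl⟩, rfl⟩, v, hv, huv⟩
    have h1 : h v = h (q • u) := huv.trans (hmk q u)
    obtain ⟨n, hn⟩ := hhN.1 h1
    have h2 : ((n : Γ) * q) • u = v := by rw [mul_smul]; exact hn
    have h3 : ((n : Γ) * q) ∈ N := hUN _ ⟨v, ⟨u, hu, h2⟩, hv⟩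
    have h4 : q ∈ N := (N.mul_mem_cancel_left n.2).1 h3
    exact (QuotientGroup.eq_one_iff q).2 h4

/-- **Intermediate quotients are coverings** (local form). -/
theorem isCoveringMap_of_normal (hh : IsQuotientMap h) (hf : IsQuotientMap f)
    (hp : ∀ e, p (h e) = f e)
    (hhN : ∀ {e₁ e₂}, h e₁ = h e₂ ↔ e₁ ∈ MulAction.orbit N e₂)
    (hfG : ∀ {e₁ e₂}, f e₁ = f e₂ ↔ e₁ ∈ MulAction.orbit Γ e₂)
    (disj : ∀ e : E, ∃ U ∈ 𝓝 e, ∀ g : Γ, ((g • ·) '' U ∩ U).Nonempty → g ∈ N) :
    IsCoveringMap p :=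
  letI := qaction N hh.surjective hhN
  (isQuotientCoveringMap_of_normal N hh hf hp hhN hfG disj).isCoveringMap

/-- **Intermediate quotients are coverings** (`N` contains all point stabilisers). -/
theorem isCoveringMap_of_stab [ProperlyDiscontinuousSMul Γ E] [LocallyCompactSpace E] [T2Space E]
    (hh : IsQuotientMap h) (hf : IsQuotientMap f) (hp : ∀ e, p (h e) = f e)
    (hhN : ∀ {e₁ e₂}, h e₁ = h e₂ ↔ e₁ ∈ MulAction.orbit N e₂)
    (hfG : ∀ {e₁ e₂}, f e₁ = f e₂ ↔ e₁ ∈ MulAction.orbit Γ e₂)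
    (hstab : ∀ (e : E) (g : Γ), g • e = e → g ∈ N) : IsCoveringMap p :=
  isCoveringMap_of_normal N hh hf hp hhN hfG fun e => by
    obtain ⟨U, hU, h1⟩ := ProperlyDiscontinuousSMul.exists_nhds_image_smul_eq_self Γ e
    exact ⟨U, hU, fun g hg => hstab e g (h1 g hg)⟩

end Covering

section Literal

variable {Γ E : Type*} [Group Γ] [MulAction Γ E] [TopologicalSpace E] [ContinuousConstSMul Γ E]

/-- the literal map `E / N → E / Γ` -/
def proj (N : Subgroup Γ) :
    MulAction.orbitRel.Quotient N E → MulAction.orbitRel.Quotient Γ E :=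
  Quotient.map' id fun _ _ ⟨n, hn⟩ => ⟨(n : Γ), hn⟩

@[simp] theorem proj_mk (N : Subgroup Γ) (e : E) :
    proj N (Quotient.mk'' e) = (Quotient.mk'' e : MulAction.orbitRel.Quotient Γ E) := rfl

/-- **`E / N → E / Γ` is a covering map** for the literal orbit spaces. -/
theorem isCoveringMap_proj (N : Subgroup Γ) [N.Normal]
    (disj : ∀ e : E, ∃ U ∈ 𝓝 e, ∀ g : Γ, ((g • ·) '' U ∩ U).Nonempty → g ∈ N) :
    IsCoveringMap (proj (E := E) N) :=
  isCoveringMap_of_normal N (h := Quotient.mk'') (f := Quotient.mk'')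
    isQuotientMap_quotient_mk' isQuotientMap_quotient_mk' (fun _ => rfl) Quotient.eq''
    Quotient.eq'' disj

theorem isCoveringMap_proj_of_stab [ProperlyDiscontinuousSMul Γ E] [LocallyCompactSpace E]
    [T2Space E] (N : Subgroup Γ) [N.Normal] (hstab : ∀ (e : E) (g : Γ), g • e = e → g ∈ N) :
    IsCoveringMap (proj (E := E) N) :=
  isCoveringMap_proj N fun e => by
    obtain ⟨U, hU, h1⟩ := ProperlyDiscontinuousSMul.exists_nhds_image_smul_eq_self Γ e
    exact ⟨U, hU, fun g hg => hstab e g (h1 g hg)⟩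

end Literal

end Crest.Agent.R272.Per1_370
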