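import Mathlib
import Crest.Agent.R272.Per1_370

/-!
# LB-EXT (row 272), part 1: pulled back coverings and quotients

* `PB q π` : the pull back of `q : N' → N` along `π : Y → N`;
  `isCoveringMap_fst` : it is a covering of `Y` if `q` is a covering and `π` is continuous.
* `PB.map`, `PB.mapHomeo` : functoriality.
* `quotHomeo` : `E → B` equivariant, `R` contains the stabilisers (in `B`) and is normal:
  `E / R ≃ₜ (E / G) ×_{B/G} (B / R)`.
* `exists_onPB` : hence an `R`-invariant continuous function on `E` is a continuous function on the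
  pulled back covering of `E / G`.
-/

set_option autoImplicit false
set_option linter.unusedSectionVars false

namespace Crest.Agent.R272.LbExt_259

open Topology Set

section PullBack

variable {Y Z N N' : Type*}

/-- the pull back of `q : N' → N` along `π : Y → N` -/
abbrev PB (q : N' → N) (π : Y → N) := {p : Y × N' // π p.1 = q p.2}

/-- the projection to `Y` -/
def pbFst (q : N' → N) (π : Y → N) (p : PB q π) : Y := p.1.1

/-- the projection to `N'` -/
def pbSnd (q : N' → N) (π : Y → N) (p : PB q π) : N' := p.1.2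

/-- the map of pull backs induced by `f : Y → Z` over `N` -/
def pbMap (q : N' → N) {π : Y → N} {π' : Z → N} (f : Y → Z) (hf : ∀ y, π' (f y) = π y)
    (p : PB q π) : PB q π' := ⟨(f p.1.1, p.1.2), by
      show π' (f p.1.1) = q p.1.2
      rw [hf]; exact p.2⟩

variable [TopologicalSpace Y] [TopologicalSpace Z] [TopologicalSpace N] [TopologicalSpace N']
variable {q : N' → N} {π : Y → N} {π' : Z → N}

theorem continuous_pbFst : Continuous (pbFst q π) := continuous_fst.comp continuous_subtype_val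

theorem continuous_pbSnd : Continuous (pbSnd q π) := continuous_snd.comp continuous_subtype_val

theorem continuous_pbMap {f : Y → Z} (hfc : Continuous f) (hf : ∀ y, π' (f y) = π y) :
    Continuous (pbMap q f hf) :=
  ((hfc.comp continuous_pbFst).prodMk continuous_pbSnd).subtype_mk _

/-- **(P1)** the pull back of a covering is a covering -/
theorem isCoveringMap_fst (hq : IsCoveringMap q) (hπ : Continuous π) :
    IsCoveringMap (pbFst q π) := by
  intro y
  refine IsEvenlyCovered.to_isEvenlyCovered_preimage (I := q ⁻¹' {π y}) ?_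
  obtain ⟨hd, U, hxU, hU, hqU, H, hH⟩ := hq (π y)
  refine ⟨hd, π ⁻¹' U, hxU, hU.preimage hπ, (hU.preimage hπ).preimage continuous_pbFst, ?_⟩
  have hmem : ∀ p : pbFst q π ⁻¹' (π ⁻¹' U), p.1.1.2 ∈ q ⁻¹' U := fun p => by
    show q p.1.1.2 ∈ U
    rw [← p.1.2]; exact p.2
  have hmem2 : ∀ a : (π ⁻¹' U : Set Y) × (q ⁻¹' {π y} : Set N'),
      π a.1.1 = q (H.symm (⟨π a.1.1, a.1.2⟩, a.2)).1 := fun a => by
    rw [← hH, H.apply_symm_apply]
  refine ⟨{
    toFun := fun p => (⟨p.1.1.1, p.2⟩, (H ⟨p.1.1.2, hmem p⟩).2)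
    invFun := fun a => ⟨⟨(a.1.1, (H.symm (⟨π a.1.1, a.1.2⟩, a.2)).1), hmem2 a⟩, a.1.2⟩
    left_inv := ?_
    right_inv := ?_
    continuous_toFun := ?_
    continuous_invFun := ?_ }, fun p => rfl⟩
  · intro p
    have h1 : H.symm (⟨π p.1.1.1, p.2⟩, (H ⟨p.1.1.2, hmem p⟩).2) = ⟨p.1.1.2, hmem p⟩ := by
      rw [H.symm_apply_eq]
      refine Prod.ext (Subtype.ext ?_) rfl
      show π p.1.1.1 = (H ⟨p.1.1.2, hmem p⟩).1.1
      rw [hH]; exact p.1.2
    refine Subtype.ext (Subtype.ext (Prod.ext rfl ?_))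
    show (H.symm (⟨π p.1.1.1, p.2⟩, (H ⟨p.1.1.2, hmem p⟩).2)).1 = p.1.1.2
    rw [h1]
  · rintro ⟨⟨a, ha⟩, i⟩
    refine Prod.ext (Subtype.ext rfl) ?_
    show (H ⟨(H.symm (⟨π a, ha⟩, i)).1, _⟩).2 = i
    have h2 : (⟨(H.symm (⟨π a, ha⟩, i)).1, (H.symm (⟨π a, ha⟩, i)).2⟩ : q ⁻¹' U) =
        H.symm (⟨π a, ha⟩, i) := rfl
    rw [h2, H.apply_symm_apply]
  · refine Continuous.prodMk ?_ ?_
    · exact (continuous_pbFst.comp continuous_subtype_val).subtype_mk _
    · exact continuous_snd.comp (H.continuous.comp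
        ((continuous_pbSnd.comp continuous_subtype_val).subtype_mk _))
  · refine Continuous.subtype_mk (Continuous.subtype_mk (Continuous.prodMk ?_ ?_) _) _
    · exact continuous_subtype_val.comp continuous_fst
    · refine continuous_subtype_val.comp (H.symm.continuous.comp (Continuous.prodMk ?_
        continuous_snd))
      exact (hπ.comp (continuous_subtype_val.comp continuous_fst)).subtype_mk _

/-- a homeomorphism over `N` gives a homeomorphism of the pull backs -/
def pbHomeo (q : N' → N) (f : Y ≃ₜ Z) (hf : ∀ y, π' (f y) = π y) : PB q π ≃ₜ PB q π' where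
  toFun := pbMap q f hf
  invFun := pbMap q f.symm (fun z => by rw [← hf, f.apply_symm_apply])
  left_inv p := Subtype.ext (Prod.ext (f.symm_apply_apply _) rfl)
  right_inv p := Subtype.ext (Prod.ext (f.apply_symm_apply _) rfl)
  continuous_toFun := continuous_pbMap f.continuous hf
  continuous_invFun := continuous_pbMap f.symm.continuous _

/-- the inclusion of an open embedding gives an open embedding -/
theorem isOpenEmbedding_pbMap {f : Y → Z} (hfe : IsOpenEmbedding f) (hf : ∀ y, π' (f y) = π y) :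
    IsOpenEmbedding (pbMap q f hf) := by
  refine ⟨⟨?_, ?_⟩, ?_⟩
  · -- inducing
    have h1 : IsInducing (fun p : PB q π => (f p.1.1, p.1.2)) := by
      have := (hfe.isInducing.prodMap (IsInducing.id (X := N'))).comp
        (IsInducing.subtypeVal (t := {p : Y × N' | π p.1 = q p.2}))
      exact this
    exact h1.of_comp (continuous_pbMap hfe.continuous hf) continuous_subtype_val
  · intro p r h
    have h1 : (f p.1.1, p.1.2) = (f r.1.1, r.1.2) := congrArg Subtype.val h
    have h2 : f p.1.1 = f r.1.1 := congrArg (fun z : Z × N' => z.1) h1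
    have h3 : p.1.2 = r.1.2 := congrArg (fun z : Z × N' => z.2) h1
    exact Subtype.ext (Prod.ext (hfe.injective h2) h3)
  · have h1 : range (pbMap q f hf) = pbFst q π' ⁻¹' (range f) := by
      ext r
      constructor
      · rintro ⟨p, rfl⟩; exact ⟨p.1.1, rfl⟩
      · rintro ⟨y, hy⟩
        refine ⟨⟨(y, r.1.2), ?_⟩, Subtype.ext (Prod.ext hy rfl)⟩
        show π y = q r.1.2
        rw [← hf, hy]; exact r.2
    rw [h1]
    exact hfe.isOpen_range.preimage continuous_pbFst

end PullBack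

section Quot

variable {G E B X Z W A : Type*} [Group G] [TopologicalSpace E] [TopologicalSpace B]
  [TopologicalSpace X] [TopologicalSpace Z] [TopologicalSpace W] [TopologicalSpace A]
  [MulAction G E] [MulAction G B]

/-- the data of **(P2)**: `G` acts on `E` and `B`, `β : E → B` is equivariant, `f : E → X` is (a
model of) the quotient by `G`, `k : B → Z` is (a model of) the quotient by `G` and `h : B → W` is
(a model of) the quotient by the subgroup `R`; `p : W → Z` and `π : X → Z` are the induced maps;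
`R` contains all elements which nearly stabilise a point of `B`. -/
structure QData (R : Subgroup G) (β : E → B) (f : E → X) (k : B → Z) (h : B → W) (p : W → Z)
    (π : X → Z) : Prop where
  βc : Continuous β
  βG : ∀ (g : G) (e : E), β (g • e) = g • β e
  fq : IsQuotientMap f
  fo : IsOpenMap f
  fG : ∀ e₁ e₂, f e₁ = f e₂ ↔ ∃ g : G, g • e₂ = e₁
  kG : ∀ b₁ b₂, k b₁ = k b₂ ↔ ∃ g : G, g • b₂ = b₁
  hs : Function.Surjective h
  hc : Continuous h
  ho : IsOpenMap h
  hR : ∀ b₁ b₂, h b₁ = h b₂ ↔ ∃ g ∈ R, g • b₂ = b₁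
  pc : IsCoveringMap p
  ph : ∀ b, p (h b) = k b
  πc : Continuous π
  πf : ∀ e, π (f e) = k (β e)
  disj : ∀ b : B, ∃ U ∈ 𝓝 b, ∀ g : G, ∀ u ∈ U, g • u ∈ U → g ∈ R

variable {R : Subgroup G} {β : E → B} {f : E → X} {k : B → Z} {h : B → W} {p : W → Z} {π : X → Z}

namespace QData

variable (D : QData R β f k h p π)

include D in
/-- the covering of `X` -/
theorem isCoveringMap : IsCoveringMap (pbFst p π) := isCoveringMap_fst D.pc D.πc

/-- the map from `E` to the pulled back covering -/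
def psi (e : E) : PB p π := ⟨(f e, h (β e)), by
  show π (f e) = p (h (β e))
  rw [D.πf, D.ph]⟩

theorem psi_fst (e : E) : pbFst p π (D.psi e) = f e := rfl

theorem psi_snd (e : E) : pbSnd p π (D.psi e) = h (β e) := rfl

theorem continuous_psi : Continuous D.psi :=
  (D.fq.continuous.prodMk (D.hc.comp D.βc)).subtype_mk _

theorem surjective_psi : Function.Surjective D.psi := by
  rintro ⟨⟨x, w⟩, hxw⟩
  obtain ⟨e, rfl⟩ := D.fq.surjective x
  obtain ⟨b, rfl⟩ := D.hs w
  have h1 : k b = k (β e) := by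
    rw [← D.πf, ← D.ph]; exact hxw.symm
  obtain ⟨g, hg⟩ := (D.kG _ _).1 h1
  refine ⟨g • e, Subtype.ext (Prod.ext ?_ ?_)⟩
  · exact (D.fG _ _).2 ⟨g, rfl⟩
  · show h (β (g • e)) = h b
    rw [D.βG, hg]

theorem isOpenMap_psi : IsOpenMap D.psi := by
  intro U hU
  rw [isOpen_iff_mem_nhds]
  rintro _ ⟨e, he, rfl⟩
  obtain ⟨V, hV, hVR⟩ := D.disj (β e)
  obtain ⟨V', hV'V, hV'o, hV'e⟩ := mem_nhds_iff.1 hV
  have hO : IsOpen (pbFst p π ⁻¹' (f '' (U ∩ β ⁻¹' V')) ∩ pbSnd p π ⁻¹' (h '' V')) :=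
    ((D.fo _ (hU.inter (hV'o.preimage D.βc))).preimage continuous_pbFst).inter
      ((D.ho _ hV'o).preimage continuous_pbSnd)
  refine Filter.mem_of_superset (hO.mem_nhds ⟨⟨e, ⟨he, hV'e⟩, rfl⟩, ⟨β e, hV'e, rfl⟩⟩) ?_
  rintro ⟨⟨x, w⟩, hxw⟩ ⟨⟨u, ⟨huU, huV⟩, hux⟩, ⟨v, hv, hvw⟩⟩
  have hux' : f u = x := hux
  have hvw' : h v = w := hvw
  subst hux' hvw'
  have h1 : k v = k (β u) := by
    rw [← D.πf, ← D.ph]; exact hxw.symm
  obtain ⟨g, hg⟩ := (D.kG _ _).1 h1
  have h2 : g ∈ R := hVR g (β u) (hV'V huV) (by rw [hg]; exact hV'V hv)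
  refine ⟨u, huU, Subtype.ext (Prod.ext rfl ?_)⟩
  exact ((D.hR _ _).2 ⟨g, h2, hg⟩).symm

theorem isQuotientMap_psi : IsQuotientMap D.psi :=
  D.isOpenMap_psi.isQuotientMap D.continuous_psi D.surjective_psi

/-- **the pulled back covering is `E / R`** -/
theorem psi_eq_iff (e₁ e₂ : E) : D.psi e₁ = D.psi e₂ ↔ ∃ g ∈ R, g • e₂ = e₁ := by
  constructor
  · intro hh
    have h1 : f e₁ = f e₂ := congrArg (pbFst p π) hh
    have h2 : h (β e₁) = h (β e₂) := congrArg (pbSnd p π) hh
    obtain ⟨g, hg⟩ := (D.fG _ _).1 h1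
    obtain ⟨r, hr, hre⟩ := (D.hR _ _).1 h2
    rw [← hg, D.βG] at hre
    obtain ⟨V, hV, hVR⟩ := D.disj (β e₂)
    have h3 : (r⁻¹ * g) • β e₂ = β e₂ := by
      rw [mul_smul, ← hre, inv_smul_smul]
    have h4 : r⁻¹ * g ∈ R := hVR _ (β e₂) (mem_of_mem_nhds hV) (by
      rw [h3]; exact mem_of_mem_nhds hV)
    exact ⟨g, (R.mul_mem_cancel_left (R.inv_mem hr)).1 h4, hg⟩
  · rintro ⟨g, hg, rfl⟩
    refine Subtype.ext (Prod.ext ((D.fG _ _).2 ⟨g, rfl⟩) ?_)
    show h (β (g • e₂)) = h (β e₂)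
    rw [D.βG]
    exact (D.hR _ _).2 ⟨g, hg, rfl⟩

/-- **(P2)** an `R`-invariant continuous function on `E` is a continuous function on the covering -/
theorem exists_fun {θ : E → A} (hθ : Continuous θ) (hθR : ∀ g ∈ R, ∀ e, θ (g • e) = θ e) :
    ∃ Θ : PB p π → A, Continuous Θ ∧ ∀ e, Θ (D.psi e) = θ e := by
  obtain ⟨s, hs⟩ : ∃ s : PB p π → E, ∀ q, D.psi (s q) = q := D.surjective_psi.hasRightInverse
  have key : ∀ e, θ (s (D.psi e)) = θ e := by
    intro e
    obtain ⟨g, hg, he⟩ := (D.psi_eq_iff _ _).1 (hs (D.psi e))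
    rw [← he, hθR g hg]
  refine ⟨θ ∘ s, ?_, key⟩
  rw [D.isQuotientMap_psi.continuous_iff]
  convert hθ using 1
  funext e
  exact key e

end QData

open Per1_370 in
/-- the data of **(P2)** from the hypotheses of `Per1_370.isCoveringMap_of_normal` -/
theorem QData.of_normal [ContinuousConstSMul G E] [ContinuousConstSMul G B] [R.Normal]
    (βc : Continuous β) (βG : ∀ (g : G) (e : E), β (g • e) = g • β e)
    (hf : IsQuotientMap f) (hk : IsQuotientMap k) (hh : IsQuotientMap h)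
    (ph : ∀ b, p (h b) = k b) (πf : ∀ e, π (f e) = k (β e))
    (fG : ∀ {e₁ e₂}, f e₁ = f e₂ ↔ e₁ ∈ MulAction.orbit G e₂)
    (kG : ∀ {b₁ b₂}, k b₁ = k b₂ ↔ b₁ ∈ MulAction.orbit G b₂)
    (hR : ∀ {b₁ b₂}, h b₁ = h b₂ ↔ b₁ ∈ MulAction.orbit R b₂)
    (disj : ∀ b : B, ∃ U ∈ 𝓝 b, ∀ g : G, ((g • ·) '' U ∩ U).Nonempty → g ∈ R) :
    QData R β f k h p π := by
  have hRc : ContinuousConstSMul R B := ⟨fun n => continuous_const_smul (n : G)⟩
  refine ⟨βc, βG, hf, isOpenMap_of_orbit (Γ := G) hf fG, fun e₁ e₂ => fG, fun b₁ b₂ => kG,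
    hh.surjective, hh.continuous, isOpenMap_of_orbit (Γ := R) hh hR, fun b₁ b₂ => ?_,
    isCoveringMap_of_normal R hh hk ph hR kG disj, ph, ?_, πf, fun b => ?_⟩
  · rw [hR]
    constructor
    · rintro ⟨r, hr⟩; exact ⟨r, r.2, hr⟩
    · rintro ⟨g, hg, hr⟩; exact ⟨⟨g, hg⟩, hr⟩
  · rw [hf.continuous_iff]
    exact (hk.continuous.comp βc).congr fun e => (πf e).symm
  · obtain ⟨U, hU, h1⟩ := disj b
    exact ⟨U, hU, fun g u hu hgu => h1 g ⟨g • u, ⟨u, hu, rfl⟩, hgu⟩⟩

open Per1_370 in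
/-- the data of **(P2)** for a properly discontinuous action on `B`, `R` normal containing all
stabilisers of points of `B` -/
theorem QData.of_stab [ContinuousConstSMul G E] [ContinuousConstSMul G B] [R.Normal]
    [ProperlyDiscontinuousSMul G B] [LocallyCompactSpace B] [T2Space B]
    (βc : Continuous β) (βG : ∀ (g : G) (e : E), β (g • e) = g • β e)
    (hf : IsQuotientMap f) (hk : IsQuotientMap k) (hh : IsQuotientMap h)
    (ph : ∀ b, p (h b) = k b) (πf : ∀ e, π (f e) = k (β e))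
    (fG : ∀ {e₁ e₂}, f e₁ = f e₂ ↔ e₁ ∈ MulAction.orbit G e₂)
    (kG : ∀ {b₁ b₂}, k b₁ = k b₂ ↔ b₁ ∈ MulAction.orbit G b₂)
    (hR : ∀ {b₁ b₂}, h b₁ = h b₂ ↔ b₁ ∈ MulAction.orbit R b₂)
    (hstab : ∀ (b : B) (g : G), g • b = b → g ∈ R) : QData R β f k h p π :=
  QData.of_normal βc βG hf hk hh ph πf fG kG hR fun b => by
    obtain ⟨U, hU, h1⟩ := ProperlyDiscontinuousSMul.exists_nhds_image_smul_eq_self G b
    exact ⟨U, hU, fun g hg => hstab b g (h1 g hg)⟩

end Quot

end Crest.Agent.R272.LbExt_259
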