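import Crest.Agent.R272.MQ2_783
import Crest.Agent.R272.LbExt1_259

/-!
# R272, leaf MQ (helper783), part 3: the intermediate quotient by a normal subgroup of index two

`N` normal in `G`, acting freely, `s₀ * s₀ ∈ N`, `G = N ∪ s₀ N`:
* `sig` : the involution of `Orb N X` induced by `s₀`; `holC_sig`, `sig_sig`, `up_eq_iff`;
* `reflAt_sig` : at its fixed points its derivative is a reflection;
* `holC_iff_up` : the universal property of `Orb N X → Orb G X`;
* `holMap_sig`, `refl_sig_atl`, `holMap_up`, `huniv_up` : the same in atlases compatible with the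
  families (the hypotheses of `Refl9_246`);
* `qData` : the data of 259's LB-EXT.
-/

set_option autoImplicit false
set_option linter.unusedSectionVars false

open Set Filter Topology

namespace Crest.Agent.R272.MQ_783

open Crest.Agent.R275.Geo Crest.Agent.R273.Fam_835 Crest.Agent.R273.Map_835
  Crest.Agent.R272.Refl_246 Crest.Agent.R272.RQ1_302

noncomputable section

variable {n m k : ℕ} {X : Type} [TopologicalSpace X] {C : Fam n X}
variable {G : Type} [Group G] [MulAction G X]

/-! ### change of family -/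

theorem cpt_of_equiv {M : Type} [TopologicalSpace M] {C D : Fam n M} (h : HolC C D id)
    (h' : HolC D C id) {φ : OpenPartialHomeomorph M (Cn n)} (hφ : Cpt C φ) : Cpt D φ := by
  constructor
  · intro j z hz
    have h1 := hφ.diffAt (cpt_e (C := D) j) h (φ.map_target hz.1) hz.2
    rw [φ.right_inv hz.1] at h1
    exact h1.differentiableWithinAt
  · intro j z hz
    have h1 := (cpt_e (C := D) j).diffAt hφ h' ((D.e j).map_target hz.1) hz.2
    rw [(D.e j).right_inv hz.1] at h1
    exact h1.differentiableWithinAt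

theorem ReflAt.of_equiv {M : Type} [TopologicalSpace M] {C D : Fam n M} (h : HolC C D id)
    (h' : HolC D C id) {S : M → M} {x : M} (hr : ReflAt C S x) : ReflAt D S x := by
  obtain ⟨φ, hφ, hx, hr⟩ := hr
  exact ⟨φ, cpt_of_equiv h h' hφ, hx, hr⟩

/-! ### charts of the quotient at points with trivial stabiliser -/

theorem exists_RC_of_cpt {x : X} (hpd : PD G x) (hst : ∀ g : G, g • x = x → g = 1)
    {φ : OpenPartialHomeomorph X (Cn n)} (hφ : Cpt C φ) (hx : x ∈ φ.source) :
    ∃ c : RC G C, x ∈ c.e.source ∧ c.k = none ∧ c.e.source ⊆ φ.source ∧ ⇑c.e = ⇑φ := by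
  obtain ⟨V, hV, hyV, hVg⟩ := hpd
  have hc := hφ.restrOpen hV
  refine ⟨⟨φ.restrOpen V hV, hc.hol, hc.holi, none, ?_, ?_, ?_, ?_⟩, ?_, rfl, ?_, rfl⟩
  · intro _ g u hu hgu
    rw [OpenPartialHomeomorph.restrOpen_source] at hu hgu
    exact hst g (hVg g u hu.2 hgu.2)
  · intro s a h; exact absurd h (by simp)
  · intro s a h; exact absurd h (by simp)
  · intro s a h; exact absurd h (by simp)
  · change x ∈ (φ.restrOpen V hV).source
    rw [OpenPartialHomeomorph.restrOpen_source]
    exact ⟨hx, hyV⟩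
  · intro u hu
    have hu' : u ∈ (φ.restrOpen V hV).source := hu
    rw [OpenPartialHomeomorph.restrOpen_source] at hu'
    exact hu'.1

section Two

variable (N : Subgroup G) [N.Normal] (s₀ : G)

/-- the map of `Orb N X` induced by `s₀` -/
def sig : Orb N X → Orb N X :=
  Quotient.lift (fun x => pr N (s₀ • x)) (by
    rintro a b ⟨g, rfl⟩
    change pr N (s₀ • (g : G) • b) = pr N (s₀ • b)
    refine (pr_eq_iff.2 ⟨⟨s₀ * g * s₀⁻¹, Subgroup.Normal.conj_mem inferInstance _ g.2 _⟩, ?_⟩).symm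
    change (s₀ * g * s₀⁻¹) • s₀ • b = s₀ • (g : G) • b
    rw [← mul_smul, ← mul_smul]
    congr 1
    group)

@[simp] theorem sig_pr (x : X) : sig N s₀ (pr N x) = pr N (s₀ • x) := rfl

variable {N s₀}

theorem sig_sig (hs : s₀ * s₀ ∈ N) (y : Orb N X) : sig N s₀ (sig N s₀ y) = y := by
  obtain ⟨x, rfl⟩ := surjective_pr (G := N) y
  rw [sig_pr, sig_pr, ← mul_smul]
  exact pr_smul (⟨s₀ * s₀, hs⟩ : N) x

theorem up_sig (y : Orb N X) : up (sub_orb N) (sig N s₀ y) = (up (sub_orb N) y : Orb G X) := by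
  obtain ⟨x, rfl⟩ := surjective_pr (G := N) y
  rw [sig_pr, up_pr, up_pr, pr_smul]

theorem up_eq_iff (hidx : ∀ g : G, g ∈ N ∨ s₀⁻¹ * g ∈ N) {y y' : Orb N X} :
    (up (sub_orb N) y : Orb G X) = up (sub_orb N) y' ↔ y = y' ∨ sig N s₀ y = y' := by
  constructor
  · obtain ⟨x, rfl⟩ := surjective_pr (G := N) y
    obtain ⟨x', rfl⟩ := surjective_pr (G := N) y'
    intro h
    rw [up_pr, up_pr, pr_eq_iff] at h
    obtain ⟨g, rfl⟩ := h
    rcases hidx g with hg | hg
    · left
      exact (pr_smul (⟨g, hg⟩ : N) x).symm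
    · right
      have h1 : pr N ((s₀⁻¹ * g) • x) = pr N x := pr_smul (⟨s₀⁻¹ * g, hg⟩ : N) x
      rw [← h1, sig_pr, ← mul_smul, mul_inv_cancel_left]
  · rintro (rfl | rfl)
    · rfl
    · exact (up_sig y).symm

theorem sig_ne (hs0 : s₀ ∉ N) {x : X} (hx : ∀ g : G, g • x = x → g = 1) :
    sig N s₀ (pr N x) ≠ pr N x := by
  intro h
  rw [sig_pr, pr_eq_iff] at h
  obtain ⟨g, hg⟩ := h
  have h1 : ((g : G) * s₀) • x = x := by rw [mul_smul]; exact hg
  have h2 := hx _ h1
  have h3 : s₀ = (g : G)⁻¹ := (inv_eq_of_mul_eq_one_right h2).symm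
  exact hs0 (h3 ▸ N.inv_mem g.2)

variable [ContinuousConstSMul G X] [ContinuousConstSMul N X] [Nonempty X]

theorem holC_sig (h : RA C G) : HolC (h.sub N).fam (h.sub N).fam (sig N s₀) :=
  (h.sub N).holC_iff.2 ((h.sub N).holC_pr.comp (h.hol s₀))

/-- at the fixed points of `sig` the derivative is a reflection -/
theorem reflAt_sig (h : RA C G) (hfree : ∀ g ∈ N, ∀ x : X, g • x = x → g = 1) (hs0 : s₀ ∉ N)
    {y : Orb N X} (hy : sig N s₀ y = y) : ReflAt (h.sub N).fam (sig N s₀) y := by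
  obtain ⟨x, rfl⟩ := surjective_pr (G := N) y
  rw [sig_pr, pr_eq_iff] at hy
  obtain ⟨a, ha⟩ := hy
  have ha' : ((a : G) * s₀) • x = x := by rw [mul_smul]; exact ha
  have hne : (a : G) * s₀ ≠ 1 := by
    intro h1
    have h3 : s₀ = (a : G)⁻¹ := (inv_eq_of_mul_eq_one_right h1).symm
    exact hs0 (h3 ▸ N.inv_mem a.2)
  rcases h.st x with h1 | ⟨s, hs2, hsx, hst, hs⟩
  · exact absurd (h1 _ ha') hne
  · have hgs : (a : G) * s₀ = s := (hst _ ha').resolve_left hne
    obtain ⟨i, hi⟩ := C.cover x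
    obtain ⟨c, hc, hk, -, -⟩ := exists_RC_of_cpt (G := N) ((h.sub N).pd x)
      (fun g hg => Subtype.ext (hfree g g.2 x hg)) (cpt_e (C := C) i) hi
    have hq : ∀ u ∈ c.e.source, c.eM (pr N u) = c.e u := by
      intro u hu
      rw [c.eM_apply hu, hk, qk_none, id]
    have hqs : ∀ z ∈ c.e.target, c.eM.symm z = pr N (c.e.symm z) := by
      intro z hz
      have h2 := c.eM_symm (c.e.map_target hz)
      rw [c.e.right_inv hz, hk, qk_none, id] at h2
      exact h2
    refine reflAt_iff_isRefl.2 ⟨c.eM, cpt_e (C := (h.sub N).fam) c, c.mem_eM_source hc, ?_⟩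
    have h3 := hs.chart (h.hol s) hsx (Cpt.mk c.hol c.holi) hc
    have h4 : dC c.eM c.eM (sig N s₀) (pr N x) = dC c.e c.e (fun y => s • y) x := by
      unfold dC
      rw [hq x hc]
      refine Filter.EventuallyEq.fderiv_eq ?_
      have h5 : ∀ᶠ z in 𝓝 (c.e x), s • c.e.symm z ∈ c.e.source := by
        have h6 : ContinuousAt (fun z => s • c.e.symm z) (c.e x) :=
          (c.e.continuousAt_symm (c.e.map_source hc)).const_smul s
        refine h6.preimage_mem_nhds ?_
        rw [c.e.left_inv hc, hsx]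
        exact c.e.open_source.mem_nhds hc
      filter_upwards [h5, c.e.open_target.mem_nhds (c.e.map_source hc)] with z hz1 hz2
      rw [hqs z hz2, sig_pr, ← hq _ hz1, ← hgs, mul_smul]
      congr 1
      exact (pr_smul a (s₀ • c.e.symm z)).symm
    rw [h4]
    exact h3

theorem holC_iff_up (h : RA C G) {M : Type} [TopologicalSpace M] {D : Fam m M}
    {f : Orb G X → M} :
    HolC h.fam D f ↔ HolC (h.sub N).fam D (fun y => f (up (sub_orb N) y)) := by
  rw [h.holC_iff, (h.sub N).holC_iff]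
  rfl

/-! ### atlas forms -/

theorem holMap_sig (h : RA C G) {A : Atl n (Orb N X)} (hA : HolC (fam A) (h.sub N).fam id)
    (hA' : HolC (h.sub N).fam (fam A) id) : HolMap A A (sig N s₀) :=
  holC_iff.1 (hA'.comp ((holC_sig h).comp hA))

theorem refl_sig_atl (h : RA C G) (hfree : ∀ g ∈ N, ∀ x : X, g • x = x → g = 1) (hs0 : s₀ ∉ N)
    {A : Atl n (Orb N X)} (hA : HolC (fam A) (h.sub N).fam id)
    (hA' : HolC (h.sub N).fam (fam A) id) (y : Orb N X) (hy : sig N s₀ y = y) :
    ∃ i, y ∈ (A.e i).source ∧ ∃ (ℓ : Cn n →L[ℂ] ℂ) (v : Cn n), ℓ v = 2 ∧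
      ∀ w, fderiv ℂ (fun z => A.e i (sig N s₀ ((A.e i).symm z))) (A.e i y) w = w - ℓ w • v := by
  obtain ⟨i, hi⟩ := A.cover y
  have h1 := (reflAt_sig h hfree hs0 hy).of_equiv hA' hA
  have h2 : HolC (fam A) (fam A) (sig N s₀) := hA'.comp ((holC_sig h).comp hA)
  exact ⟨i, hi, h1.chart h2 hy (cpt_e (C := fam A) i) hi⟩

theorem holMap_up (h : RA C G) {A : Atl n (Orb N X)} {B : Atl n (Orb G X)}
    (hA : HolC (fam A) (h.sub N).fam id) (hB' : HolC h.fam (fam B) id) :
    HolMap A B (up (sub_orb N) : Orb N X → Orb G X) :=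
  holC_iff.1 (hB'.comp ((holC_up h (h.sub N) (sub_orb N)).comp hA))

theorem huniv_up (h : RA C G) {A : Atl n (Orb N X)} {B : Atl n (Orb G X)}
    (hA' : HolC (h.sub N).fam (fam A) id) (hB : HolC (fam B) h.fam id) {m : ℕ} {M : Type}
    [TopologicalSpace M] {D : Fam m M} {f : Orb G X → M}
    (hf : HolC (fam A) D (fun y => f (up (sub_orb N) y))) : HolC (fam B) D f := by
  have h1 : HolC (h.sub N).fam D (fun y => f (up (sub_orb N) y)) := hf.comp hA'
  exact (holC_iff_up h |>.2 h1).comp hB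

end Two

/-! ### the data of LB-EXT -/

section Ext

variable {B : Type} [TopologicalSpace B] [MulAction G B] {P : X → B}

/-- 259's data for `X → B` equivariant and a normal subgroup containing all stabilisers of `B` -/
theorem qData [ContinuousConstSMul G X] [ContinuousConstSMul G B]
    [ProperlyDiscontinuousSMul G B] [LocallyCompactSpace B] [T2Space B] (R : Subgroup G)
    [R.Normal] (hc : Continuous P) (hP : ∀ (g : G) x, P (g • x) = g • P x)
    (hst : ∀ (b : B) (g : G), g • b = b → g ∈ R) :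
    LbExt_259.QData R P (pr G : X → Orb G X) (pr G : B → Orb G B) (pr R : B → Orb R B)
      (up (sub_orb R)) (orbMap P hP) := by
  have _ : ContinuousConstSMul R B := ccs_sub R
  have key : ∀ (H : Type) [Group H] (Y : Type) [TopologicalSpace Y] [MulAction H Y] (e₁ e₂ : Y),
      (pr H e₁ = pr H e₂ ↔ e₁ ∈ MulAction.orbit H e₂) := by
    intro H _ Y _ _ e₁ e₂
    rw [eq_comm, pr_eq_iff, MulAction.mem_orbit_iff]
  refine LbExt_259.QData.of_stab hc hP isOpenQuotientMap_pr.isQuotientMap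
    isOpenQuotientMap_pr.isQuotientMap isOpenQuotientMap_pr.isQuotientMap (fun b => rfl)
    (fun e => rfl) (fun {e₁ e₂} => ?_) (fun {b₁ b₂} => ?_) (fun {b₁ b₂} => ?_) hst
  · exact key G X e₁ e₂
  · exact key G B b₁ b₂
  · exact key R B b₁ b₂

end Ext

end

end Crest.Agent.R272.MQ_783
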