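import Crest.Agent.R272.Quot2_783
import Crest.Agent.R272.EBase_641

/-!
# R272, leaf QUOT (helper783), part 3: compact ball quotients

`ρ : Γ →* UG n` (EBase_641) acting on the ball.
* `BX ρ`     : the ball with the action of `Γ` through `ρ`; `ballFam ρ` its complex structure;
* `Cpt ρ`    : hypotheses `free`, `proper`, `cocpt` (the last two literally those of `EDat`);
* `BQ ρ`     : the quotient (T2, compact, connected), `BQ.mk`, `BQ.qd : QD ..`, covering map;
* `jjF ρ`    : the automorphy factor `jj`; weight `1 - ‖z‖²`; `lev_ball`: it is positive;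
* `exists_ballQ` : finite good atlas with partition of unity and sheets, subordinate to any open
  cover, `L := lb jj` with a positive metric.
-/

set_option autoImplicit false
set_option linter.unusedSectionVars false

open Set Filter Topology Complex
open scoped ContDiff Matrix ComplexConjugate Manifold

namespace Crest.Agent.R272.Quot_783

open Crest.Agent.R275.Geo Crest.Agent.R275.Core144 Crest.Agent.R275.GC293
open Crest.Agent.R273.Defs_333 Crest.Agent.R273.Map_835 Crest.Agent.R273.PB_835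
open Crest.Agent.R273.Fam_835 Crest.Agent.R272.EBase_641

noncomputable section

variable {n : ℕ} {Γ : Type} [Group Γ]

/-! ### the Levi form of `-log (1 - ‖z‖²)` -/

theorem lev_ball {z : Cn n} (hz : ‖z‖ < 1) {v : Cn n} (hv : v ≠ 0) :
    0 < lev (fun w : Cn n => - Real.log (1 - ‖w‖ ^ 2)) z v := by
  set F : Fin n → Cn n → ℂ := fun j w => w j with hF
  have han : ∀ j, AnalyticAt ℂ (F j) z := fun j =>
    (EuclideanSpace.proj (𝕜 := ℂ) j : Cn n →L[ℂ] ℂ).analyticAt z
  have hS : Crest.Agent.R273.Levi_145.sumSq F = fun w => ‖w‖ ^ 2 := by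
    funext w
    rw [EuclideanSpace.norm_sq_eq]
    rfl
  have hu : ContDiffAt ℝ 2 (Crest.Agent.R273.Levi_145.sumSq F) z :=
    Crest.Agent.R273.Levi_145.c2_sumSq han 2
  have hz1 : Crest.Agent.R273.Levi_145.sumSq F z < 1 := by
    rw [hS]
    show ‖z‖ ^ 2 < 1
    nlinarith [norm_nonneg z]
  have h1 : ∀ t : ℝ, t < 1 → HasDerivAt (fun t : ℝ => - Real.log (1 - t)) ((1 - t)⁻¹) t := by
    intro t ht
    have h2 : HasDerivAt (fun t : ℝ => 1 - t) (-1) t := by
      simpa using (hasDerivAt_id t).const_sub 1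
    have h3 := (h2.log (by linarith : (1 : ℝ) - t ≠ 0)).neg
    have e : (1 - t)⁻¹ = -(-1 / (1 - t)) := by rw [neg_div, neg_neg, one_div]
    rw [e]
    exact h3
  have h4 : HasDerivAt (fun t : ℝ => (1 - t)⁻¹)
      (((1 - Crest.Agent.R273.Levi_145.sumSq F z) ^ 2)⁻¹)
      (Crest.Agent.R273.Levi_145.sumSq F z) := by
    have h2 : HasDerivAt (fun t : ℝ => 1 - t) (-1) (Crest.Agent.R273.Levi_145.sumSq F z) := by
      simpa using (hasDerivAt_id (Crest.Agent.R273.Levi_145.sumSq F z)).const_sub 1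
    have h3 := h2.inv (by linarith : (1 : ℝ) - Crest.Agent.R273.Levi_145.sumSq F z ≠ 0)
    have e : ((1 - Crest.Agent.R273.Levi_145.sumSq F z) ^ 2)⁻¹ =
        - -1 / (1 - Crest.Agent.R273.Levi_145.sumSq F z) ^ 2 := by rw [neg_neg, one_div]
    rw [e]
    exact h3
  have h5 := Crest.Agent.R273.Levi_145.lev_comp_real (χ := fun t : ℝ => - Real.log (1 - t))
    (χ' := fun t : ℝ => (1 - t)⁻¹) hu ((gt_mem_nhds hz1).mono fun t ht => h1 t ht) h4 v
  have h6 : (fun w : Cn n => - Real.log (1 - ‖w‖ ^ 2)) =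
      fun y => - Real.log (1 - Crest.Agent.R273.Levi_145.sumSq F y) := by
    rw [hS]
  rw [h6, lev_bridge, h5, Crest.Agent.R273.Levi_145.lev_sumSq han]
  have h7 : ∑ j, ‖fderiv ℂ (F j) z v‖ ^ 2 = ‖v‖ ^ 2 := by
    rw [EuclideanSpace.norm_sq_eq]
    refine Finset.sum_congr rfl fun j _ => ?_
    have : fderiv ℂ (F j) z = (EuclideanSpace.proj (𝕜 := ℂ) j : Cn n →L[ℂ] ℂ) :=
      (EuclideanSpace.proj (𝕜 := ℂ) j : Cn n →L[ℂ] ℂ).fderiv
    rw [this]
    rfl
  rw [h7]
  have h8 : 0 < 1 - Crest.Agent.R273.Levi_145.sumSq F z := by linarith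
  have h9 : 0 < ‖v‖ := norm_pos_iff.2 hv
  positivity

/-! ### the ball with a group action -/

/-- the ball as an open set -/
def BO (n : ℕ) : TopologicalSpace.Opens (E n) := ⟨Ball n, Metric.isOpen_ball⟩

/-- the ball with the action of `Γ` through `ρ` -/
def BX (_ρ : Γ →* UG n) : Type := BO n

namespace BX

variable (ρ : Γ →* UG n)

instance : TopologicalSpace (BX ρ) := inferInstanceAs (TopologicalSpace (BO n))
instance : T2Space (BX ρ) := inferInstanceAs (T2Space (BO n))
instance : LocallyCompactSpace (BX ρ) := (BO n).isOpen.locallyCompactSpace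

/-- the point of the ball -/
def val {ρ : Γ →* UG n} (x : BX ρ) : E n := Subtype.val x

/-- constructor -/
def mk (z : E n) (hz : z ∈ Ball n) : BX ρ := ⟨z, hz⟩

@[simp] theorem val_mk (z : E n) (hz : z ∈ Ball n) : (mk ρ z hz).val = z := rfl

variable {ρ}

theorem mem (x : BX ρ) : x.val ∈ Ball n := x.2

theorem norm_lt (x : BX ρ) : ‖x.val‖ < 1 := mem_Ball.1 x.2

@[ext] theorem ext {x y : BX ρ} (h : x.val = y.val) : x = y := Subtype.ext h

theorem continuous_val : Continuous (val : BX ρ → E n) := continuous_subtype_val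

theorem isOpenEmbedding_val : IsOpenEmbedding (val : BX ρ → E n) :=
  (BO n).isOpen.isOpenEmbedding_subtypeVal

instance : Nonempty (BX ρ) := ⟨mk ρ 0 (by simp [Ball])⟩

instance : ConnectedSpace (BX ρ) := by
  have h1 : IsConnected (Ball n) := (convex_ball (0 : E n) 1).isConnected ⟨0, by simp⟩
  exact isConnected_iff_connectedSpace.1 h1

instance : MulAction Γ (BX ρ) where
  smul g x := ⟨act (ρ g) x.val, act_mem (ρ g) x.2⟩
  one_smul x := by
    apply BX.ext
    show act (ρ 1) x.val = x.val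
    rw [map_one, act_one]
  mul_smul g g' x := by
    apply BX.ext
    show act (ρ (g * g')) x.val = act (ρ g) (act (ρ g') x.val)
    rw [map_mul, act_mul _ _ x.mem]

@[simp] theorem val_smul (g : Γ) (x : BX ρ) : (g • x).val = act (ρ g) x.val := rfl

end BX

/-- the complex structure of the ball (one chart, the inclusion) -/
def ballFam (ρ : Γ →* UG n) : Fam n (BX ρ) where
  ι := Unit
  e _ := (BO n).openPartialHomeomorphSubtypeCoe (inferInstanceAs (Nonempty (BX ρ)))
  cover x := ⟨(), mem_univ _⟩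
  holo i j := by
    refine differentiableOn_id.congr fun z hz => ?_
    exact ((BO n).openPartialHomeomorphSubtypeCoe
      (inferInstanceAs (Nonempty (BX ρ)))).right_inv hz.1

section ball

variable (ρ : Γ →* UG n)

theorem ballFam_apply (i : (ballFam ρ).ι) (x : BX ρ) : (ballFam ρ).e i x = x.val := rfl

theorem ballFam_source (i : (ballFam ρ).ι) : ((ballFam ρ).e i).source = univ := rfl

theorem ballFam_target (i : (ballFam ρ).ι) : ((ballFam ρ).e i).target = Ball n := by
  show ((BO n).openPartialHomeomorphSubtypeCoe (inferInstanceAs (Nonempty (BX ρ)))).target = _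
  rw [TopologicalSpace.Opens.openPartialHomeomorphSubtypeCoe_target]
  rfl

theorem ballFam_symm (i : (ballFam ρ).ι) {z : E n} (hz : z ∈ Ball n) :
    (((ballFam ρ).e i).symm z).val = z :=
  ((ballFam ρ).e i).right_inv (by rw [ballFam_target]; exact hz)

theorem differentiable_jj (g : UG n) : Differentiable ℂ (jj g) := by
  have h1 : Differentiable ℂ fun z : E n => g.1 ((z, 1) : V1 n) := by
    have h2 : Differentiable ℂ (fun w : V1 n => g.1 w) := by
      have := (LinearMap.toContinuousLinearMap (g.1 : V1 n →ₗ[ℂ] V1 n)).differentiable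
      exact this
    exact h2.comp (differentiable_id.prodMk (differentiable_const _))
  exact h1.snd

theorem differentiableOn_act (g : UG n) : DifferentiableOn ℂ (act g) (Ball n) := by
  have h1 : Differentiable ℂ fun z : E n => g.1 ((z, 1) : V1 n) := by
    have h2 : Differentiable ℂ (fun w : V1 n => g.1 w) := by
      have := (LinearMap.toContinuousLinearMap (g.1 : V1 n →ₗ[ℂ] V1 n)).differentiable
      exact this
    exact h2.comp (differentiable_id.prodMk (differentiable_const _))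
  intro z hz
  have h3 : DifferentiableAt ℂ (fun z => (jj g z)⁻¹) z :=
    (differentiable_jj g z).inv (jj_ne_zero g hz)
  exact (h3.smul (h1 z).fst).differentiableWithinAt

theorem continuous_smul_ball (g : Γ) : Continuous (fun x : BX ρ => g • x) := by
  rw [BX.isOpenEmbedding_val.isEmbedding.continuous_iff]
  have h1 : ContinuousOn (act (ρ g)) (Ball n) := (differentiableOn_act (ρ g)).continuousOn
  exact h1.comp_continuous BX.continuous_val fun x => x.mem

theorem holC_smul (g : Γ) : HolC (ballFam ρ) (ballFam ρ) (fun x => g • x) := by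
  refine ⟨continuous_smul_ball ρ g, fun i j => ?_⟩
  have h1 := differentiableOn_act (ρ g)
  intro z hz
  have hzB : z ∈ Ball n := by
    have := hz.1
    rwa [ballFam_target] at this
  have h2 : DifferentiableAt ℂ (act (ρ g)) z :=
    h1.differentiableAt (Metric.isOpen_ball.mem_nhds hzB)
  refine (h2.congr_of_eventuallyEq ?_).differentiableWithinAt
  filter_upwards [Metric.isOpen_ball.mem_nhds hzB] with w hw
  show (g • ((ballFam ρ).e i).symm w).val = _
  rw [BX.val_smul, ballFam_symm ρ i hw]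

/-- `Γ` is a free, discrete, cocompact group on the ball -/
structure Cpt : Prop where
  free : ∀ g : Γ, ∀ z ∈ Ball n, act (ρ g) z = z → g = 1
  proper : ∀ r : ℝ, r < 1 → {g | ∃ z, ‖z‖ ≤ r ∧ ‖act (ρ g) z‖ ≤ r}.Finite
  cocpt : ∃ r : ℝ, r < 1 ∧ ∀ z ∈ Ball n, ∃ g, ‖act (ρ g) z‖ ≤ r

variable {ρ}

theorem exists_radius {K : Set (BX ρ)} (hK : IsCompact K) : ∃ r : ℝ, r < 1 ∧ ∀ x ∈ K, ‖x.val‖ ≤ r := by
  rcases K.eq_empty_or_nonempty with rfl | hne
  · exact ⟨0, by norm_num, by simp⟩
  · obtain ⟨x, hx, hmax⟩ := hK.exists_isMaxOn hne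
      (f := fun x : BX ρ => ‖x.val‖) (BX.continuous_val.norm.continuousOn)
    exact ⟨‖x.val‖, x.norm_lt, fun y hy => hmax hy⟩

theorem Cpt.pd (H : Cpt ρ) : ProperlyDiscontinuousSMul Γ (BX ρ) := by
  refine ⟨fun {K L} hK hL => ?_⟩
  obtain ⟨r1, h1, h1'⟩ := exists_radius hK
  obtain ⟨r2, h2, h2'⟩ := exists_radius hL
  refine (H.proper (max r1 r2) (max_lt h1 h2)).subset ?_
  rintro g ⟨x, ⟨y, hy, rfl⟩, hx⟩
  exact ⟨y.val, (h1' y hy).trans (le_max_left _ _), by
    have := h2' _ hx
    exact this.trans (le_max_right _ _)⟩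

theorem Cpt.cancel (H : Cpt ρ) : IsCancelSMul Γ (BX ρ) := by
  refine ⟨fun g g' x h => ?_⟩
  have h1 : (g'⁻¹ * g) • x = x := by
    rw [mul_smul, h, inv_smul_smul]
  have h2 := H.free (g'⁻¹ * g) x.val x.mem (congrArg BX.val h1)
  rw [inv_mul_eq_one] at h2
  exact h2.symm

theorem Cpt.hfree (H : Cpt ρ) (g : Γ) (x : BX ρ) (h : g • x = x) : g = 1 :=
  H.free g x.val x.mem (congrArg BX.val h)

variable (ρ) in
/-- the ball quotient -/
def BQ : Type := MulAction.orbitRel.Quotient Γ (BX ρ)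

instance : TopologicalSpace (BQ ρ) :=
  inferInstanceAs (TopologicalSpace (Quotient (MulAction.orbitRel Γ (BX ρ))))

variable (ρ) in
/-- the projection -/
def BQ.mk (x : BX ρ) : BQ ρ := Quotient.mk (MulAction.orbitRel Γ (BX ρ)) x

theorem Cpt.qd (H : Cpt ρ) : QD (ballFam ρ) Γ (BQ.mk ρ) := by
  have := H.pd
  have := H.cancel
  exact QD.ofPD (holC_smul ρ)

theorem Cpt.isCoveringMap (H : Cpt ρ) : IsCoveringMap (BQ.mk ρ) := by
  have := H.pd
  have := H.cancel
  have : ContinuousConstSMul Γ (BX ρ) := ⟨fun g => continuous_smul_ball ρ g⟩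
  exact (isQuotientCoveringMap_quotientMk_of_properlyDiscontinuousSMul (E := BX ρ)
    (G := Γ)).isCoveringMap

theorem Cpt.t2 (H : Cpt ρ) : T2Space (BQ ρ) := by
  have := H.pd
  have : ContinuousConstSMul Γ (BX ρ) := ⟨fun g => continuous_smul_ball ρ g⟩
  exact t2Space_of_properlyDiscontinuousSMul_of_t2Space (Γ := Γ) (T := BX ρ)

theorem Cpt.compact (H : Cpt ρ) : CompactSpace (BQ ρ) := by
  obtain ⟨r, hr, hcov⟩ := H.cocpt
  have hK : IsCompact {x : BX ρ | ‖x.val‖ ≤ r} := by
    rw [BX.isOpenEmbedding_val.isEmbedding.isCompact_iff]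
    have h1 : (BX.val : BX ρ → E n) '' {x : BX ρ | ‖x.val‖ ≤ r} = Metric.closedBall (0 : E n) r := by
      ext z
      simp only [mem_image, Set.mem_ofPred_eq, Metric.mem_closedBall, dist_zero_right]
      constructor
      · rintro ⟨x, hx, rfl⟩
        exact hx
      · intro hz
        exact ⟨BX.mk ρ z (mem_Ball.2 (lt_of_le_of_lt hz hr)), hz, rfl⟩
    rw [h1]
    exact isCompact_closedBall _ _
  have h2 := hK.image H.qd.cont
  have h3 : BQ.mk ρ '' {x : BX ρ | ‖x.val‖ ≤ r} = univ := by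
    rw [eq_univ_iff_forall]
    intro y
    obtain ⟨x, rfl⟩ := H.qd.surj y
    obtain ⟨g, hg⟩ := hcov x.val x.mem
    exact ⟨g • x, hg, H.qd.p_smul g x⟩
  rw [h3] at h2
  exact ⟨h2⟩

theorem Cpt.connected (H : Cpt ρ) : ConnectedSpace (BQ ρ) := by
  have h1 : IsConnected (range (BQ.mk ρ)) := isConnected_range H.qd.cont
  rw [H.qd.surj.range_eq] at h1
  exact connectedSpace_iff_univ.2 h1

variable (ρ) in
/-- the automorphy factor `jj` -/
def jjF : AutF (ballFam ρ) Γ where
  J g x := jj (ρ g) x.val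
  hol g j := by
    intro z hz
    have hzB : z ∈ Ball n := by
      have := hz.1
      rwa [ballFam_target] at this
    refine ((differentiable_jj (ρ g) z).congr_of_eventuallyEq ?_).differentiableWithinAt
    filter_upwards [Metric.isOpen_ball.mem_nhds hzB] with w hw
    show jj (ρ g) (((ballFam ρ).e j).symm w).val = _
    rw [ballFam_symm ρ j hw]
  ne g x := jj_ne_zero (ρ g) x.mem
  mul g g' x := by
    show jj (ρ (g * g')) x.val = jj (ρ g) (act (ρ g') x.val) * jj (ρ g') x.val
    rw [map_mul, jj_mul _ _ x.mem]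

/-- the weight `1 - ‖z‖²` -/
def wB (x : BX ρ) : ℝ := 1 - ‖x.val‖ ^ 2

theorem wB_pos (x : BX ρ) : 0 < wB x := by
  have := x.norm_lt
  unfold wB
  nlinarith [norm_nonneg x.val]

theorem wB_smul (g : Γ) (x : BX ρ) : wB (g • x) * ‖(jjF ρ).J g x‖ ^ 2 = wB x := by
  have h1 : ‖jj (ρ g) x.val‖ ≠ 0 := by simpa using jj_ne_zero (ρ g) x.mem
  show (1 - ‖act (ρ g) x.val‖ ^ 2) * ‖jj (ρ g) x.val‖ ^ 2 = 1 - ‖x.val‖ ^ 2
  rw [one_sub_norm_act _ x.mem]
  field_simp

theorem wB_sm : SmF (ballFam ρ) (wB : BX ρ → ℝ) := by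
  intro j
  have h1 : ContDiff ℝ ∞ (fun z : E n => 1 - ‖z‖ ^ 2) :=
    contDiff_const.sub (contDiff_norm_sq ℝ)
  refine h1.contDiffOn.congr fun z hz => ?_
  rw [ballFam_target] at hz
  show 1 - ‖(((ballFam ρ).e j).symm z).val‖ ^ 2 = _
  rw [ballFam_symm ρ j hz]

theorem wB_lev (j : (ballFam ρ).ι) (z : Cn n) (hz : z ∈ ((ballFam ρ).e j).target) (v : Cn n)
    (hv : v ≠ 0) : 0 < lev (fun w => - Real.log (wB (((ballFam ρ).e j).symm w))) z v := by
  rw [ballFam_target] at hz
  have h1 : (fun w => - Real.log (wB (((ballFam ρ).e j).symm w))) =ᶠ[𝓝 z]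
      fun w : Cn n => - Real.log (1 - ‖w‖ ^ 2) := by
    filter_upwards [Metric.isOpen_ball.mem_nhds hz] with w hw
    show - Real.log (1 - ‖(((ballFam ρ).e j).symm w).val‖ ^ 2) = _
    rw [ballFam_symm ρ j hw]
  rw [lev_congr' h1]
  exact lev_ball (mem_Ball.1 hz) hv

/-- the positive metric on `lb jj` -/
def hmB (H : Cpt ρ) {A : Atl n (BQ ρ)} (S : Sheets H.qd A) : HM (S.lb H.hfree (jjF ρ)) :=
  S.hm H.hfree (jjF ρ) wB_pos wB_sm wB_smul

theorem hmB_pos (H : Cpt ρ) {A : Atl n (BQ ρ)} (S : Sheets H.qd A) : (hmB H S).Pos :=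
  S.hm_pos H.hfree (jjF ρ) wB_pos wB_sm wB_smul wB_lev

/-- **BALLQ**: the compact ball quotient as a complex manifold with a positive line bundle -/
theorem exists_ballQ (H : Cpt ρ) {κ : Type*} (O : κ → Set (BQ ρ))
    (hO : ∀ k, IsOpen (O k)) (hOc : ∀ x, ∃ k, x ∈ O k) :
    ∃ (A : Atl n (BQ ρ)) (S : Sheets H.qd A), Finite A.ι ∧ GoodA A ∧ Nonempty (Part A) ∧
      (∀ i, ∃ k, (A.e i).source ⊆ O k) ∧ (hmB H S).Pos := by
  have := H.t2
  have := H.compact
  obtain ⟨A, h1, h2, h3, h4, ⟨S⟩⟩ := H.qd.exists_sheets O hO hOc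
  exact ⟨A, S, h1, h2, h3, h4, hmB_pos H S⟩

end ball

end

end Crest.Agent.R272.Quot_783
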