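import Crest.Agent.R272.BBase1_246
import Crest.Agent.R272.MQ3_783
import Crest.Agent.R272.Quot3_783
import Crest.Agent.R272.Kod8_410

/-!
# R272, leaf B-BASE (helper246), part 2: the base `N' = B/G^`

`exists_trivial_stab` : a point with trivial stabiliser;
`kPos`, `exists_projD_K`: `K\B` (free cocompact) has a finite good atlas with `ProjD`;
`exists_base` : `G^ ⊇ K` normal of index two, `K` free, cocompact, `RA (ballFam ρ) G^` ⟹
`Orb G^ B` is compact, T2, connected, with a finite good atlas `B` with partition of unity,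
compatible with `RA.fam`, and `ProjD B` (hence a positive line bundle, `fs`);
`holC_orbMap` : the projection `X^- = Orb G^ X₁ → Orb G^ B` is holomorphic.
-/

set_option autoImplicit false
set_option linter.unusedSectionVars false

open Set Filter Topology
open scoped ContDiff

namespace Crest.Agent.R272.BBase_246

open Crest.Agent.R275.Geo Crest.Agent.R275.GC293 Crest.Agent.R275.Core144
open Crest.Agent.R273.Fam_835 Crest.Agent.R273.Map_835 Crest.Agent.R273.Defs_333
open Crest.Agent.R273.FS_333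
open Crest.Agent.R272.Refl_246 Crest.Agent.R272.MQ_783 Crest.Agent.R272.Quot_783
open Crest.Agent.R272.EBase_641

noncomputable section

variable {n : ℕ}

/-! ### a point with trivial stabiliser -/

theorem exists_trivial_stab {X : Type} [TopologicalSpace X] [Nonempty X] {C : Fam n X} {G : Type}
    [Group G] [MulAction G X] (h : RA C G) : ∃ x : X, ∀ g : G, g • x = x → g = 1 := by
  have _ := h.ccs
  obtain ⟨x0⟩ := (inferInstance : Nonempty X)
  obtain ⟨c, hc⟩ := h.cov x0
  rcases hk : c.k with _ | ⟨s, a⟩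
  · exact ⟨x0, fun g hg => c.free hk g x0 hc (by rw [hg]; exact hc)⟩
  · have h3 : Tendsto (fun τ : ℂ => c.e x0 + τ • (EuclideanSpace.single a (1 : ℂ) : Cn n))
        (𝓝 0) (𝓝 (c.e x0)) := by
      have : Continuous fun τ : ℂ => c.e x0 + τ • (EuclideanSpace.single a (1 : ℂ) : Cn n) := by
        fun_prop
      simpa using this.tendsto 0
    have h4 : ∀ᶠ τ : ℂ in 𝓝 0,
        c.e x0 + τ • (EuclideanSpace.single a (1 : ℂ) : Cn n) ∈ c.e.target :=
      h3.eventually (c.e.open_target.mem_nhds (c.e.map_source hc))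
    -- choose `τ` with non zero coordinate
    have h5 : ∃ τ : ℂ, c.e x0 + τ • (EuclideanSpace.single a (1 : ℂ) : Cn n) ∈ c.e.target ∧
        (c.e x0 + τ • (EuclideanSpace.single a (1 : ℂ) : Cn n)) a ≠ 0 := by
      by_cases h0 : (c.e x0) a = 0
      · have h7 : ∀ᶠ τ : ℂ in 𝓝[≠] 0,
            c.e x0 + τ • (EuclideanSpace.single a (1 : ℂ) : Cn n) ∈ c.e.target :=
          h4.filter_mono nhdsWithin_le_nhds
        obtain ⟨τ, hτ, hτ0⟩ := (h7.and self_mem_nhdsWithin).exists
        refine ⟨τ, hτ, ?_⟩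
        simp only [PiLp.add_apply, PiLp.smul_apply, PiLp.single_apply, if_true, smul_eq_mul,
          mul_one, h0, zero_add]
        exact hτ0
      · refine ⟨0, ?_, ?_⟩
        · rw [zero_smul, add_zero]
          exact c.e.map_source hc
        · rw [zero_smul, add_zero]
          exact h0
    obtain ⟨τ, hτ, hτ0⟩ := h5
    refine ⟨c.e.symm (c.e x0 + τ • EuclideanSpace.single a (1 : ℂ)), fun g hg => ?_⟩
    have hu := c.e.map_target hτ
    rcases c.two s a hk g _ hu (by rw [hg]; exact hu) with h6 | h6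
    · exact h6
    · exfalso
      have h7 := c.ref s a hk _ hu
      rw [← h6, hg, c.e.right_inv hτ] at h7
      have h8 := congrArg (fun z : Cn n => z a) h7
      simp only [rf_same] at h8
      have h9 : (2 : ℂ) * (c.e x0 + τ • (EuclideanSpace.single a (1 : ℂ) : Cn n)) a = 0 := by
        linear_combination h8
      rcases mul_eq_zero.1 h9 with h10 | h10
      · norm_num at h10
      · exact hτ0 h10

/-! ### the free cocompact subgroup -/

section K

variable {Gh : Type} [Group Gh] {ρ : Gh →* UG n} (K : Subgroup Gh)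

theorem cancel_of_free (hfree : ∀ g ∈ K, ∀ x : BX ρ, g • x = x → g = 1) :
    IsCancelSMul K (BX ρ) := by
  refine ⟨fun g g' x h => ?_⟩
  have h1 : ((g' : Gh)⁻¹ * (g : Gh)) • x = x := by
    rw [mul_smul]
    have h2 : (g : Gh) • x = (g' : Gh) • x := h
    rw [h2, inv_smul_smul]
  have h2 := hfree _ (K.mul_mem (K.inv_mem g'.2) g.2) x h1
  rw [inv_mul_eq_one] at h2
  exact (Subtype.ext h2).symm

theorem qd_K (hpd : ProperlyDiscontinuousSMul Gh (BX ρ))
    (hfree : ∀ g ∈ K, ∀ x : BX ρ, g • x = x → g = 1) :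
    QD (ballFam ρ) K (pr K : BX ρ → Orb K (BX ρ)) := by
  have _ := pds_sub (X := BX ρ) K
  have _ := cancel_of_free K hfree
  exact QD.ofPD fun g => holC_smul ρ (g : Gh)

variable (ρ) in
/-- the automorphy factor `jj` restricted to `K` -/
def jjK : AutF (ballFam ρ) K where
  J g x := (jjF ρ).J (g : Gh) x
  hol g := (jjF ρ).hol (g : Gh)
  ne g x := (jjF ρ).ne (g : Gh) x
  mul g g' x := (jjF ρ).mul (g : Gh) (g' : Gh) x

/-- compactness of a cocompact orbit space of the ball -/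
theorem compact_orb {r : ℝ} (hr : r < 1)
    (hcov : ∀ z ∈ Ball n, ∃ g ∈ K, ‖act (ρ g) z‖ ≤ r) : CompactSpace (Orb K (BX ρ)) := by
  have hKc : IsCompact {x : BX ρ | ‖x.val‖ ≤ r} := by
    rw [BX.isOpenEmbedding_val.isEmbedding.isCompact_iff]
    have h1 : (BX.val : BX ρ → E n) '' {x : BX ρ | ‖x.val‖ ≤ r} =
        Metric.closedBall (0 : E n) r := by
      ext z
      simp only [mem_image, Set.mem_ofPred_eq, Metric.mem_closedBall, dist_zero_right]
      constructor
      · rintro ⟨x, hx, rfl⟩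
        exact hx
      · intro hz
        exact ⟨BX.mk ρ z (mem_Ball.2 (lt_of_le_of_lt hz hr)), hz, rfl⟩
    rw [h1]
    exact isCompact_closedBall _ _
  refine compact_orb_of (G := K) hKc fun x => ?_
  obtain ⟨g, hg, hgr⟩ := hcov x.val x.mem
  exact ⟨⟨g, hg⟩, hgr⟩

theorem t2_K (hpd : ProperlyDiscontinuousSMul Gh (BX ρ)) : T2Space (Orb K (BX ρ)) := by
  have _ := pds_sub (X := BX ρ) K
  have : ContinuousConstSMul K (BX ρ) := ⟨fun g => continuous_smul_ball ρ (g : Gh)⟩
  exact t2_orb K (BX ρ)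

/-- **the free quotient is projective** -/
theorem exists_projD_K (hpd : ProperlyDiscontinuousSMul Gh (BX ρ))
    (hfree : ∀ g ∈ K, ∀ x : BX ρ, g • x = x → g = 1) {r : ℝ} (hr : r < 1)
    (hcov : ∀ z ∈ Ball n, ∃ g ∈ K, ‖act (ρ g) z‖ ≤ r) (h : RA (ballFam ρ) Gh)
    [ContinuousConstSMul K (BX ρ)] :
    ∃ A : Atl n (Orb K (BX ρ)), Finite A.ι ∧ GoodA A ∧ Nonempty (Part A) ∧
      HolC (fam A) (h.sub K).fam id ∧ HolC (h.sub K).fam (fam A) id ∧ Nonempty (ProjD A) := by
  have _ := t2_K K hpd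
  have _ := compact_orb K hr hcov
  have hq := qd_K K hpd hfree
  obtain ⟨A, h1, h2, ⟨PA⟩, -, ⟨S⟩⟩ := hq.exists_sheets (κ := Unit) (fun _ => univ)
    (fun _ => isOpen_univ) (fun _ => ⟨(), mem_univ _⟩)
  have hf : ∀ (g : K) (x : BX ρ), g • x = x → g = 1 := fun g x hg =>
    Subtype.ext (hfree g g.2 x hg)
  have hpos := S.hm_pos hf (jjK ρ K) wB_pos wB_sm (fun g x => wB_smul (ρ := ρ) (g : Gh) x) wB_lev
  obtain ⟨m, -, P, -⟩ := Kod8_410.exists_projD PA hpos
  refine ⟨A, h1, h2, ⟨PA⟩, ?_, ?_, ⟨P⟩⟩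
  · -- `A → hq.fam → (h.sub K).fam`
    have e1 : HolC hq.fam (h.sub K).fam id := hq.holC_iff'.2 (h.sub K).holC_pr
    exact e1.comp S.toF
  · have e1 : HolC (h.sub K).fam hq.fam id := (h.sub K).holC_iff.2 hq.holC_p
    exact S.frF.comp e1

end K

/-! ### the base -/

/-- **B-BASE** -/
theorem exists_base {Gh : Type} [Group Gh] {ρ : Gh →* UG n} (h : RA (ballFam ρ) Gh)
    (hpd : ProperlyDiscontinuousSMul Gh (BX ρ)) [ContinuousConstSMul Gh (BX ρ)]
    (K : Subgroup Gh) [K.Normal] (hfree : ∀ g ∈ K, ∀ x : BX ρ, g • x = x → g = 1)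
    {s₀ : Gh} (hs0 : s₀ ∉ K) (hss : s₀ * s₀ ∈ K) (hidx : ∀ g : Gh, g ∈ K ∨ s₀⁻¹ * g ∈ K)
    {r : ℝ} (hr : r < 1) (hcov : ∀ z ∈ Ball n, ∃ g ∈ K, ‖act (ρ g) z‖ ≤ r) :
    T2Space (Orb Gh (BX ρ)) ∧ CompactSpace (Orb Gh (BX ρ)) ∧ ConnectedSpace (Orb Gh (BX ρ)) ∧
    ∃ B : Atl n (Orb Gh (BX ρ)), Finite B.ι ∧ GoodA B ∧ Nonempty (Part B) ∧
      HolC (fam B) h.fam id ∧ HolC h.fam (fam B) id ∧ Nonempty (ProjD B) := by
  have _ : ContinuousConstSMul K (BX ρ) := ccs_sub K
  have _ := t2_K K hpd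
  have _ := compact_orb K hr hcov
  have hT2 : T2Space (Orb Gh (BX ρ)) := t2_orb Gh (BX ρ)
  have hcp : CompactSpace (Orb Gh (BX ρ)) := by
    refine ⟨?_⟩
    have h1 : range (up (sub_orb K) : Orb K (BX ρ) → Orb Gh (BX ρ)) = univ :=
      (surjective_up (sub_orb K)).range_eq
    rw [← h1]
    exact isCompact_range (continuous_up _)
  refine ⟨hT2, hcp, connected_orb Gh (BX ρ), ?_⟩
  obtain ⟨A, -, -, -, hA, hA', ⟨P⟩⟩ := exists_projD_K K hpd hfree hr hcov h
  obtain ⟨x, hx⟩ := exists_trivial_stab h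
  have hσ : HolC (fam A) (fam A) (sig K s₀) := holC_iff.2 (holMap_sig h hA hA')
  refine exists_atl_projD P hσ (fun y => sig_sig hss y) ⟨pr K x, sig_ne hs0 hx⟩ (fun y hy => ?_)
    (isOpenQuotientMap_up (sub_orb K)) (fun y y' => up_eq_iff hidx)
    ((holC_up h (h.sub K) (sub_orb K)).comp hA) (fun {m N} _ {D f} hf => ?_)
  · exact (reflAt_sig h hfree hs0 hy).of_equiv hA' hA
  · exact holC_iff_up h |>.2 (hf.comp hA')

/-- the projection of orbit spaces is holomorphic -/
theorem holC_orbMap {m : ℕ} {G : Type} [Group G] {X B : Type} [TopologicalSpace X]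
    [TopologicalSpace B] [MulAction G X] [MulAction G B] [ContinuousConstSMul G X]
    [ContinuousConstSMul G B] [Nonempty X] [Nonempty B] {C : Fam n X} {CB : Fam m B}
    (hX : RA C G) (hB : RA CB G) {P : X → B} (hP : HolC C CB P)
    (heq : ∀ (g : G) x, P (g • x) = g • P x) : HolC hX.fam hB.fam (orbMap P heq) :=
  hX.holC_iff.2 (hB.holC_pr.comp hP)

/-- the same with an atlas of the target -/
theorem holC_orbMap' {m : ℕ} {G : Type} [Group G] {X B : Type} [TopologicalSpace X]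
    [TopologicalSpace B] [MulAction G X] [MulAction G B] [ContinuousConstSMul G X]
    [ContinuousConstSMul G B] [Nonempty X] [Nonempty B] {C : Fam n X} {CB : Fam m B}
    (hX : RA C G) (hB : RA CB G) {P : X → B} (hP : HolC C CB P)
    (heq : ∀ (g : G) x, P (g • x) = g • P x) {N : Atl m (Orb G B)}
    (hN : HolC hB.fam (fam N) id) : HolC hX.fam (fam N) (orbMap P heq) :=
  hN.comp (holC_orbMap hX hB hP heq)

end

end Crest.Agent.R272.BBase_246
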