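import Crest.Agent.R272.EBase_641

/-!
Row 272, GINST-LOC (helper620), part 1: local forms of the root functions of division E near a point
of the ball, independent differentials.
-/

set_option autoImplicit false

open scoped ComplexConjugate Topology
open Filter

namespace Crest.Agent.R272.GLoc_620

open Crest.Agent.R272.EBase_641

variable {n : ℕ}

theorem lin_sub_smul (f g : V1 n) (c : ℂ) (w : E n) :
    lin (f - c • g) w = lin f w - conj c * lin g w := by
  simp only [lin, Prod.fst_sub, Prod.snd_sub, Prod.smul_fst, Prod.smul_snd, inner_sub_left,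
    inner_smul_left, map_sub, smul_eq_mul, map_mul]
  ring

theorem hasFDerivAt_lin (v : V1 n) (q : E n) : HasFDerivAt (lin v) (innerSL ℂ v.1) q := by
  have h : lin v = fun z => (innerSL ℂ v.1) z - conj v.2 := by
    funext z; simp [lin]
  rw [h]
  exact ((innerSL ℂ v.1).hasFDerivAt).sub_const _

/-- independent vectors orthogonal to a point have independent space parts. -/
theorem indep_fst {κ : Type*} [Fintype κ] {v : κ → V1 n} (hv : LinearIndependent ℂ v) {q : E n}
    (h0 : ∀ k, lin (v k) q = 0) : LinearIndependent ℂ (fun k => (v k).1) := by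
  rw [Fintype.linearIndependent_iff] at hv ⊢
  intro g hg
  apply hv g
  refine Prod.ext ?_ ?_
  · rw [Prod.fst_sum]
    simp only [Prod.smul_fst]
    exact hg
  · rw [Prod.snd_sum]
    simp only [Prod.smul_snd, Prod.snd_zero, smul_eq_mul]
    have h1 : ∀ k, (v k).2 = conj (inner ℂ (v k).1 q : ℂ) := by
      intro k
      have := h0 k
      rw [lin, sub_eq_zero] at this
      rw [this, Complex.conj_conj]
    have h2 : ∑ k, g k * (v k).2 = inner ℂ q (∑ k, g k • (v k).1) := by
      rw [inner_sum]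
      refine Finset.sum_congr rfl fun k _ => ?_
      rw [h1 k, inner_conj_symm, inner_smul_right]
    rw [h2, hg, inner_zero_right]

/-- independent vectors: the functionals are jointly surjective. -/
theorem surj_inner {κ : Type*} [Fintype κ] {u : κ → E n} (hu : LinearIndependent ℂ u)
    (w : κ → ℂ) : ∃ X : E n, ∀ k, (inner ℂ (u k) X : ℂ) = w k := by
  classical
  let T : E n →ₗ[ℂ] (κ → ℂ) :=
    LinearMap.pi fun k => (innerSL ℂ (u k)).toLinearMap
  have hT : ∀ X k, T X k = inner ℂ (u k) X := fun X k => rfl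
  suffices hs : LinearMap.range T = ⊤ by
    obtain ⟨X, hX⟩ := LinearMap.range_eq_top.mp hs w
    exact ⟨X, fun k => by rw [← hT, hX]⟩
  by_contra hne
  obtain ⟨f, hf0, hf⟩ := Submodule.exists_le_ker_of_lt_top _ (lt_top_iff_ne_top.mpr hne)
  apply hf0
  set a : κ → ℂ := fun k => f (Pi.single k 1) with ha
  have hfw : ∀ x : κ → ℂ, f x = ∑ k, x k * a k := by
    intro x
    rw [LinearMap.pi_apply_eq_sum_univ f x]
    refine Finset.sum_congr rfl fun k _ => ?_
    rw [smul_eq_mul, ha]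
    congr 2
    funext j
    simp [Pi.single_apply, eq_comm]
  have h1 : ∑ k, conj (a k) • u k = 0 := by
    apply ext_inner_right ℂ
    intro X
    rw [sum_inner, inner_zero_left]
    have h2 : f (T X) = 0 := hf (LinearMap.mem_range_self T X)
    rw [hfw] at h2
    rw [← h2]
    refine Finset.sum_congr rfl fun k _ => ?_
    rw [inner_smul_left, Complex.conj_conj, hT, mul_comm]
  rw [Fintype.linearIndependent_iff] at hu
  have h3 := hu _ h1
  have h4 : a = 0 := by
    funext k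
    have := h3 k
    exact (map_eq_zero (starRingEnd ℂ)).mp this
  ext k
  simp [hfw, h4]

/-- `f` is a unit near `q`. -/
def IsU (f : E n → ℂ) (q : E n) : Prop :=
  ∃ U ∈ 𝓝 q, DifferentiableOn ℂ f U ∧ ∀ w ∈ U, f w ≠ 0

/-- `f` is a unit times `g` near `q`. -/
def IsUM (f g : E n → ℂ) (q : E n) : Prop :=
  ∃ u : E n → ℂ, IsU u q ∧ ∀ᶠ w in 𝓝 q, f w = g w * u w

theorem IsU.one (q : E n) : IsU (fun _ => (1 : ℂ)) q :=
  ⟨Set.univ, univ_mem, differentiableOn_const _, fun _ _ => one_ne_zero⟩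

theorem IsU.const {c : ℂ} (hc : c ≠ 0) (q : E n) : IsU (fun _ => c) q :=
  ⟨Set.univ, univ_mem, differentiableOn_const _, fun _ _ => hc⟩

theorem IsU.mul {f g : E n → ℂ} {q : E n} (hf : IsU f q) (hg : IsU g q) :
    IsU (fun w => f w * g w) q := by
  obtain ⟨U, hU, h1, h2⟩ := hf
  obtain ⟨V, hV, h3, h4⟩ := hg
  exact ⟨U ∩ V, inter_mem hU hV, (h1.mono Set.inter_subset_left).mul (h3.mono Set.inter_subset_right),
    fun w hw => mul_ne_zero (h2 w hw.1) (h4 w hw.2)⟩

theorem IsU.inv {f : E n → ℂ} {q : E n} (hf : IsU f q) : IsU (fun w => (f w)⁻¹) q := by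
  obtain ⟨U, hU, h1, h2⟩ := hf
  exact ⟨U, hU, h1.inv h2, fun w hw => inv_ne_zero (h2 w hw)⟩

theorem IsU.ne {f : E n → ℂ} {q : E n} (hf : IsU f q) : f q ≠ 0 := by
  obtain ⟨U, hU, -, h2⟩ := hf
  exact h2 q (mem_of_mem_nhds hU)

theorem IsU.diffAt {f : E n → ℂ} {q : E n} (hf : IsU f q) : DifferentiableAt ℂ f q := by
  obtain ⟨U, hU, h1, -⟩ := hf
  exact h1.differentiableAt hU

theorem IsU.congr {f g : E n → ℂ} {q : E n} (hf : IsU f q) (h : ∀ᶠ w in 𝓝 q, g w = f w) :
    IsU g q := by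
  obtain ⟨U, hU, h1, h2⟩ := hf
  obtain ⟨V, hV, hV'⟩ := eventually_iff_exists_mem.mp h
  refine ⟨U ∩ V, inter_mem hU hV, ?_, ?_⟩
  · exact (h1.mono Set.inter_subset_left).congr fun w hw => hV' w hw.2
  · intro w hw
    rw [hV' w hw.2]
    exact h2 w hw.1

theorem IsUM.mul {f g f' g' : E n → ℂ} {q : E n} (h : IsUM f g q) (h' : IsUM f' g' q) :
    IsUM (fun w => f w * f' w) (fun w => g w * g' w) q := by
  obtain ⟨u, hu, e⟩ := h
  obtain ⟨u', hu', e'⟩ := h'
  refine ⟨_, hu.mul hu', ?_⟩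
  filter_upwards [e, e'] with w h1 h2
  rw [h1, h2]; ring

theorem IsU.isUM {f : E n → ℂ} {q : E n} (hf : IsU f q) : IsUM f (fun _ => 1) q :=
  ⟨f, hf, Eventually.of_forall fun w => by rw [one_mul]⟩

theorem IsUM.isU {f g : E n → ℂ} {q : E n} (h : IsUM f g q) (hg : IsU g q) : IsU f q := by
  obtain ⟨u, hu, e⟩ := h
  exact (hg.mul hu).congr e

theorem IsUM.mulU {f g u : E n → ℂ} {q : E n} (h : IsUM f g q) (hu : IsU u q) :
    IsUM (fun w => f w * u w) g q := by
  obtain ⟨u', hu', e⟩ := h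
  refine ⟨_, hu'.mul hu, ?_⟩
  filter_upwards [e] with w h1
  rw [h1]; ring

theorem IsUM.Umul {f g u : E n → ℂ} {q : E n} (h : IsUM f g q) (hu : IsU u q) :
    IsUM (fun w => u w * f w) g q := by
  obtain ⟨u', hu', e⟩ := h
  refine ⟨_, hu'.mul hu, ?_⟩
  filter_upwards [e] with w h1
  rw [h1]; ring

theorem IsUM.self_eq {f g : E n → ℂ} {q : E n} (h : IsUM f g q) : f q = 0 ↔ g q = 0 := by
  obtain ⟨u, hu, e⟩ := h
  rw [e.self_of_nhds]
  constructor
  · intro h0
    exact (mul_eq_zero.mp h0).resolve_right hu.ne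
  · intro h0
    rw [h0, zero_mul]

/-- differential of a unit times `lin v` at a zero. -/
theorem IsUM.deriv {f : E n → ℂ} {v : V1 n} {q : E n} (h : IsUM f (lin v) q)
    (h0 : lin v q = 0) : ∃ c : ℂ, c ≠ 0 ∧ DifferentiableAt ℂ f q ∧
      ∀ X, fderiv ℂ f q X = c * inner ℂ v.1 X := by
  obtain ⟨u, hu, e⟩ := h
  refine ⟨u q, hu.ne, ?_, ?_⟩
  · exact (((hasFDerivAt_lin v q).differentiableAt).mul hu.diffAt).congr_of_eventuallyEq e
  · intro X
    have h1 : HasFDerivAt f ((lin v q) • fderiv ℂ u q + (u q) • (innerSL ℂ v.1)) q :=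
      ((hasFDerivAt_lin v q).mul hu.diffAt.hasFDerivAt).congr_of_eventuallyEq e
    rw [h1.fderiv, h0]
    simp

/-- **normal crossings** for functions which are units times `lin v`, `v` independent. -/
theorem snc {κ : Type*} [Fintype κ] {f : κ → E n → ℂ} {v : κ → V1 n} {q : E n}
    (hf : ∀ k, IsUM (f k) (lin (v k)) q) (h0 : ∀ k, lin (v k) q = 0)
    (hv : LinearIndependent ℂ v) (w : κ → ℂ) : ∃ X : E n, ∀ k, fderiv ℂ (f k) q X = w k := by
  choose c hc _ hd using fun k => (hf k).deriv (h0 k)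
  obtain ⟨X, hX⟩ := surj_inner (indep_fst hv h0) (fun k => (c k)⁻¹ * w k)
  refine ⟨X, fun k => ?_⟩
  rw [hd k X, hX k, mul_inv_cancel_left₀ (hc k)]

/-- local form of a root function: no hyperplane through `q`. -/
theorem root_unit {G : Type} [Group G] {ρ : G →* UG n} {S : Set (V1 n)} {k : ℕ}
    (R : Root n k ρ S) {q : E n} (hq : q ∈ Ball n) (h : ∀ v ∈ S, lin v q ≠ 0) : IsU R.f q := by
  obtain ⟨U, hU, u, hu, hu0, F, hF, e⟩ := R.f_div q hq
  have hF0 : F = ∅ := by
    apply Finset.eq_empty_of_forall_notMem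
    intro v hv
    obtain ⟨h1, h2⟩ := (hF v).mp hv
    exact h v h1 h2
  refine ⟨U, hU, ?_, ?_⟩
  · refine hu.congr fun w hw => ?_
    rw [e w hw, hF0, Finset.prod_empty, one_mul]
  · intro w hw
    rw [e w hw, hF0, Finset.prod_empty, one_mul]
    exact hu0 w hw

/-- local form of a root function: exactly one hyperplane through `q`. -/
theorem root_lin {G : Type} [Group G] {ρ : G →* UG n} {S : Set (V1 n)} {k : ℕ}
    (R : Root n k ρ S) {q : E n} (hq : q ∈ Ball n) {v : V1 n} (hv : v ∈ S) (h0 : lin v q = 0)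
    (h : ∀ v' ∈ S, lin v' q = 0 → v' = v) : IsUM R.f (lin v) q := by
  obtain ⟨U, hU, u, hu, hu0, F, hF, e⟩ := R.f_div q hq
  have hF0 : F = {v} := by
    ext v'
    rw [hF, Finset.mem_singleton]
    constructor
    · rintro ⟨h1, h2⟩
      exact h v' h1 h2
    · rintro rfl
      exact ⟨hv, h0⟩
  refine ⟨u, ⟨U, hU, hu, hu0⟩, ?_⟩
  filter_upwards [hU] with w hw
  rw [e w hw, hF0, Finset.prod_singleton]

end Crest.Agent.R272.GLoc_620
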