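import Crest.Agent.R272.Cls10_620
import Crest.Agent.R272.GLoc1_620

/-!
Row 272, GINST-LOC (helper620), part 2: independence of the occurring vectors in general, local forms
of the root functions of the classes, normal crossings at regular points.
-/

set_option linter.unusedSectionVars false

namespace Crest.Agent.R272.Cls_620

open Finset

section gen

variable {ι : Type*} [Fintype ι]

lemma h1_sum_left {κ : Type*} (s : Finset κ) (c : ι → ℝ) (g : κ → ℂ) (x : κ → ι → ℂ)
    (w : ι → ℂ) : h1 c (∑ k ∈ s, g k • x k) w = ∑ k ∈ s, g k * h1 c (x k) w := by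
  classical
  induction s using Finset.induction_on with
  | empty => simp [h1]
  | insert a s ha ih => rw [sum_insert ha, sum_insert ha, h1_add_left, h1_smul_left, ih]

lemma pair_zero {c : ι → ℝ} {x y : ι → ℂ} {s t : ℂ}
    (hs : ‖h1 c x y‖ ^ 2 < (h1 c x x).re * (h1 c y y).re)
    (ex : s * h1 c x x + t * h1 c y x = 0) (ey : s * h1 c x y + t * h1 c y y = 0) : s = 0 := by
  have hyx : h1 c y x = star (h1 c x y) := (h1_star c x y).symm
  have hn : h1 c x y * h1 c y x = ((‖h1 c x y‖ ^ 2 : ℝ) : ℂ) := by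
    rw [hyx, Complex.star_def, Complex.mul_conj, Complex.normSq_eq_norm_sq]
  have hdet : h1 c x x * h1 c y y - h1 c x y * h1 c y x ≠ 0 := by
    rw [hn, h1_self_real c x, h1_self_real c y, ← Complex.ofReal_mul, ← Complex.ofReal_sub]
    rw [Ne, Complex.ofReal_eq_zero]
    intro h0
    linarith
  have : s * (h1 c x x * h1 c y y - h1 c x y * h1 c y x) = 0 := by
    linear_combination (h1 c y y) * ex - (h1 c y x) * ey
  exact (mul_eq_zero.mp this).resolve_right hdet

/-- independence when every vector is orthogonal to all the others except perhaps one. -/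
lemma indep_of {κ : Type*} [Fintype κ] {c : ι → ℝ} {x : κ → ι → ℂ}
    (H : ∀ k, ∃ l, (l = k ∧ h1 c (x k) (x k) ≠ 0 ∨
        l ≠ k ∧ ‖h1 c (x k) (x l)‖ ^ 2 < (h1 c (x k) (x k)).re * (h1 c (x l) (x l)).re) ∧
      ∀ m, m ≠ k → m ≠ l → h1 c (x m) (x k) = 0 ∧ h1 c (x m) (x l) = 0) :
    LinearIndependent ℂ x := by
  classical
  rw [Fintype.linearIndependent_iff]
  intro g hg k
  have hw : ∀ w, ∑ m, g m * h1 c (x m) w = 0 := by
    intro w
    rw [← h1_sum_left, hg]
    simp [h1]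
  obtain ⟨l, hl, hm⟩ := H k
  rcases hl with ⟨rfl, hne⟩ | ⟨hlk, hs⟩
  · have := hw (x l)
    rw [sum_eq_single l (fun m _ hml => by rw [(hm m hml hml).1, mul_zero])
      (fun h => absurd (mem_univ _) h)] at this
    exact (mul_eq_zero.mp this).resolve_right hne
  · have e1 := hw (x k)
    have e2 := hw (x l)
    rw [sum_eq_add k l hlk.symm (fun m _ hml => by rw [(hm m hml.1 hml.2).1, mul_zero])
      (fun h => absurd (mem_univ _) h) (fun h => absurd (mem_univ _) h)] at e1
    rw [sum_eq_add k l hlk.symm (fun m _ hml => by rw [(hm m hml.1 hml.2).2, mul_zero])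
      (fun h => absurd (mem_univ _) h) (fun h => absurd (mem_univ _) h)] at e2
    exact pair_zero hs e1 e2

end gen

section labels

variable {O : Subring (Fin 2 → ℂ)} {z μ : Fin 2 → ℂ} {p : Fin 4 → ℂ}

lemma notnot {i i' : Bool} (h : i' ≠ i) : i' = !i := by cases i <;> cases i' <;> simp_all

lemma nrm_ne (h : Z5 O z) {a : Lb} {v : Fin 4 → Fin 2 → ℂ} (hv : v ∈ VV O z μ a) :
    0 < (hh (HH z) v v 0).re := by
  have hs := sqrt5_bd
  have e : hh (HH z) v v = hh (HH z) (base z a) (base z a) := hv.2.2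
  rw [e]
  cases a with
  | o => simp [base, hh_e00]
  | n i => simp [base, hh_ei]
  | v i j => rw [n_v h]; simp
  | b i k => rw [nb_re h]; linarith

/-- relation between two different occurring labels at a regular point. -/
lemma rel_labels (h : Z5 O z) (hμ : μ ∈ O) (hD : Deep O z μ 2) (hp : Neg z p)
    (hreg : ∀ i, ¬ FlatAt O z μ i p) {a b : Lb} {v w : Fin 4 → Fin 2 → ℂ} (hab : a ≠ b)
    (hao : a ≠ .o) (hbo : b ≠ .o)
    (hv : v ∈ VV O z μ a) (hw : w ∈ VV O z μ b) (hv' : Perp z p v) (hw' : Perp z p w) :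
    hh (HH z) v w = 0 ∨
      (‖hh (HH z) v w 0‖ ^ 2 < (hh (HH z) v v 0).re * (hh (HH z) w w 0).re ∧
        ∀ (c : Lb) (u : Fin 4 → Fin 2 → ℂ), c ≠ a → c ≠ b → c ≠ .o → u ∈ VV O z μ c →
          Perp z p u → hh (HH z) u v = 0 ∧ hh (HH z) u w = 0) := by
  have hOv : Occ O z μ a p := ⟨v, hv, hv'⟩
  have hOw : Occ O z μ b p := ⟨w, hw, hw'⟩
  have hsym : ∀ {x y : Fin 4 → Fin 2 → ℂ}, hh (HH z) x y = 0 → hh (HH z) y x = 0 := by
    intro x y hxy
    rw [← hh_star (HH z) h.frm.real x y, hxy, star_zero]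
  have hsymn : ∀ {x y : Fin 4 → Fin 2 → ℂ}, ‖hh (HH z) x y 0‖ = ‖hh (HH z) y x 0‖ := by
    intro x y
    rw [← hh_star (HH z) h.frm.real x y, Pi.star_apply, norm_star]
  -- the two non orthogonal situations
  have key_vv : ∀ {i : Bool} {j k : Fin 5} {x y : Fin 4 → Fin 2 → ℂ},
      x ∈ VV O z μ (.v i j) → y ∈ VV O z μ (.v (!i) k) → Perp z p x → Perp z p y →
      (‖hh (HH z) x y 0‖ ^ 2 < (hh (HH z) x x 0).re * (hh (HH z) y y 0).re ∧
        ∀ (c : Lb) (u : Fin 4 → Fin 2 → ℂ), c ≠ .v i j → c ≠ .v (!i) k → c ≠ .o →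
          u ∈ VV O z μ c → Perp z p u → hh (HH z) u x = 0 ∧ hh (HH z) u y = 0) := by
    intro i j k x y hx hy hx' hy'
    constructor
    · rw [meet_std h hD hx hy (meet_of hp hx' hy'), nrm_v h hx, nrm_v h hy, g_vv h]
      have e1 : (dl i (!i) + z ^ ((j : ℕ) + 4 * k)) 0 = (z ^ ((j : ℕ) + 4 * k)) 0 := by
        cases i <;> simp [dl]
      rw [e1, norm_z0 h]
      norm_num
    · intro c u h1 h2 h3 hu hu'
      exfalso
      obtain ⟨ho, hn, hb, hvi, hvi'⟩ := two_colours h hμ hD hp ⟨x, hx, hx'⟩ ⟨y, hy, hy'⟩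
        (hreg i) (hreg (!i))
      have hOu : Occ O z μ c p := ⟨u, hu, hu'⟩
      cases c with
      | o => exact h3 rfl
      | n i' => exact hn i' hOu
      | b i' l => exact hb i' l hOu
      | v i' l =>
        by_cases hi : i' = i
        · subst hi
          exact h1 (by rw [hvi l hOu])
        · have := notnot hi
          subst this
          exact h2 (by rw [hvi' l hOu])
  have key_bv : ∀ {i i' : Bool} {k j : Fin 5} {x y : Fin 4 → Fin 2 → ℂ},
      x ∈ VV O z μ (.b i k) → y ∈ VV O z μ (.v i' j) → Perp z p x → Perp z p y →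
      (‖hh (HH z) x y 0‖ ^ 2 < (hh (HH z) x x 0).re * (hh (HH z) y y 0).re ∧
        ∀ (c : Lb) (u : Fin 4 → Fin 2 → ℂ), c ≠ .b i k → c ≠ .v i' j → c ≠ .o →
          u ∈ VV O z μ c → Perp z p u → hh (HH z) u x = 0 ∧ hh (HH z) u y = 0) := by
    intro i i' k j x y hx hy hx' hy'
    refine ⟨lin_bv h hD hp hx hy hx' hy', ?_⟩
    intro c u h1 h2 h3 hu hu'
    obtain ⟨ho, hn, hb, hvi, hvv, -⟩ := bridge_at h hμ hD hp (i := i) (k := k) ⟨x, hx, hx'⟩
    have hOu : Occ O z μ c p := ⟨u, hu, hu'⟩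
    have hi := (hvi i' j ⟨y, hy, hy'⟩).1
    subst hi
    cases c with
    | o => exact absurd rfl h3
    | n i'' =>
      obtain ⟨hi, e1⟩ := orth_bn h hD hp hx hu hx' hu'
      refine ⟨hsym e1, hsym (orth_vn h hD hp hy hu hy' hu' ?_)⟩
      rw [hi]
      cases i' <;> simp
    | b i'' l =>
      exfalso
      obtain ⟨e1, e2⟩ := hb i'' l hOu
      exact h1 (by rw [e1, e2])
    | v i'' l =>
      exfalso
      have e1 := (hvi i'' l hOu).1
      subst e1
      exact h2 (by rw [hvv l j hOu ⟨y, hy, hy'⟩])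
  cases a with
  | o => exact absurd rfl hao
  | n i =>
    cases b with
    | o => exact absurd rfl hbo
    | n i' =>
      left
      exact orth_nn h hD hp hv hw hv' hw' (fun e => hab (by rw [e]))
    | v i' j =>
      left
      by_cases hi : i' = i
      · subst hi
        exact absurd (flatAt_vn h hD hp hOw hOv) (hreg i')
      · exact hsym (orth_vn h hD hp hw hv hw' hv' hi)
    | b i' k =>
      left
      exact hsym (orth_bn h hD hp hw hv hw' hv').2
  | v i j =>
    cases b with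
    | o => exact absurd rfl hbo
    | n i' =>
      left
      by_cases hi : i = i'
      · subst hi
        exact absurd (flatAt_vn h hD hp hOv hOw) (hreg i)
      · exact orth_vn h hD hp hv hw hv' hw' hi
    | v i' j' =>
      right
      by_cases hi : i' = i
      · subst hi
        exact absurd (flatAt_vv h hμ hD hp (fun e => hab (by rw [e])) hOv hOw) (hreg i')
      · have := notnot hi
        subst this
        exact key_vv hv hw hv' hw'
    | b i' k =>
      right
      obtain ⟨h1, h2⟩ := key_bv hw hv hw' hv'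
      refine ⟨?_, fun c u c1 c2 c3 hu hu' => ?_⟩
      · rw [hsymn, mul_comm]; exact h1
      · exact (h2 c u c2 c1 c3 hu hu').symm
  | b i k =>
    cases b with
    | o => exact absurd rfl hbo
    | n i' =>
      left
      exact (orth_bn h hD hp hv hw hv' hw').2
    | v i' j => exact Or.inr (key_bv hv hw hv' hw')
    | b i' l =>
      exfalso
      obtain ⟨-, -, hb, -⟩ := bridge_at h hμ hD hp hOv
      obtain ⟨e1, e2⟩ := hb i' l hOw
      exact hab (by rw [e1, e2])

/-- **independence at regular points**: occurring vectors of different labels (`≠ o`). -/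
theorem indep_labels (h : Z5 O z) (hμ : μ ∈ O) (hD : Deep O z μ 2) (hp : Neg z p)
    (hreg : ∀ i, ¬ FlatAt O z μ i p) {κ : Type*} [Fintype κ] {a : κ → Lb}
    (ha : Function.Injective a) (hao : ∀ k, a k ≠ .o) {v : κ → Fin 4 → Fin 2 → ℂ}
    (hv : ∀ k, v k ∈ VV O z μ (a k)) (hvp : ∀ k, Perp z p (v k)) :
    LinearIndependent ℂ (fun k => at0 (0 : Fin 2) (v k)) := by
  classical
  apply indep_of (c := c0 0 (HH z))
  intro k
  by_cases hk : ∀ l, l ≠ k → hh (HH z) (v l) (v k) = 0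
  · refine ⟨k, Or.inl ⟨rfl, ?_⟩, ?_⟩
    · intro h0
      have := nrm_ne h (hv k)
      rw [hh_at0 h.frm.real, h0] at this
      simp at this
    · intro m hmk _
      have := hk m hmk
      have e : h1 (c0 0 (HH z)) (at0 0 (v m)) (at0 0 (v k)) = 0 := by
        rw [← hh_at0 h.frm.real, this]; rfl
      exact ⟨e, e⟩
  · push Not at hk
    obtain ⟨l, hlk, hne⟩ := hk
    rcases rel_labels h hμ hD hp hreg (fun e => hlk (ha e)) (hao l) (hao k) (hv l) (hv k)
      (hvp l) (hvp k) with h0 | ⟨h1', h2⟩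
    · exact absurd h0 hne
    · refine ⟨l, Or.inr ⟨hlk, ?_⟩, ?_⟩
      · rw [← hh_at0 h.frm.real, ← hh_at0 h.frm.real, ← hh_at0 h.frm.real, mul_comm]
        have : ‖hh (HH z) (v k) (v l) 0‖ = ‖hh (HH z) (v l) (v k) 0‖ := by
          rw [← hh_star (HH z) h.frm.real (v k) (v l), Pi.star_apply, norm_star]
        rw [this]
        exact h1'
      · intro m hmk hml
        obtain ⟨e1, e2⟩ := h2 (a m) (v m) (fun e => hml (ha e)) (fun e => hmk (ha e)) (hao m)
          (hv m) (hvp m)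
        rw [← hh_at0 h.frm.real, ← hh_at0 h.frm.real, e1, e2]
        exact ⟨rfl, rfl⟩

/-- independence of pairwise orthogonal vectors of positive norm. -/
theorem indep_orth (h : Z5 O z) {κ : Type*} [Fintype κ] {v : κ → Fin 4 → Fin 2 → ℂ}
    (h0 : ∀ k l, k ≠ l → hh (HH z) (v k) (v l) = 0) (hn : ∀ k, 0 < (hh (HH z) (v k) (v k) 0).re) :
    LinearIndependent ℂ (fun k => at0 (0 : Fin 2) (v k)) := by
  apply indep_of (c := c0 0 (HH z))
  intro k
  refine ⟨k, Or.inl ⟨rfl, ?_⟩, ?_⟩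
  · intro h0'
    have := hn k
    rw [hh_at0 h.frm.real, h0'] at this
    simp at this
  · intro m hmk _
    rw [← hh_at0 h.frm.real, h0 m k hmk]
    exact ⟨rfl, rfl⟩

end labels

section root

open Crest.Agent.R272.EBase_641 Crest.Agent.R272.In_68 Crest.Agent.R272.GLoc_620

variable {O : Subring (Fin 2 → ℂ)} {z μ : Fin 2 → ℂ}

/-- the class at the ball place. -/
def SS (h : Z5r O z) (μ : Fin 2 → ℂ) (a : Lb) : Set (V1 3) := Prod.fst '' (io h '' VV O z μ a)

lemma mem_SS (h : Z5r O z) {a : Lb} {v : Fin 4 → Fin 2 → ℂ} (hv : v ∈ VV O z μ a) :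
    (io h v).1 ∈ SS h μ a := ⟨_, ⟨v, hv, rfl⟩, rfl⟩

lemma root_U (h : Z5r O z) {G : Type} [Group G] {ρ : G →* UG 3} {k : ℕ} {a : Lb}
    (R : Root 3 k ρ (SS h μ a)) {q : E 3} (hq : q ∈ Ball 3) (hn : ¬ Occ O z μ a (pt h q)) :
    IsU R.f q := by
  refine root_unit R hq ?_
  rintro _ ⟨_, ⟨v, hv, rfl⟩, rfl⟩ h0
  exact hn ⟨v, hv, (perp_iff h v q).mpr h0⟩

lemma root_L (h : Z5r O z) (hD : Deep O z μ 2) {G : Type} [Group G] {ρ : G →* UG 3} {k : ℕ}
    {a : Lb} (R : Root 3 k ρ (SS h μ a)) {q : E 3} (hq : q ∈ Ball 3)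
    {v : Fin 4 → Fin 2 → ℂ} (hv : v ∈ VV O z μ a) (hvp : Perp z (pt h q) v) :
    IsUM R.f (lin (io h v).1) q := by
  refine root_lin R hq (mem_SS h hv) ((perp_iff h v q).mp hvp) ?_
  rintro _ ⟨_, ⟨w, hw, rfl⟩, rfl⟩ h0
  rw [occ_unique (p := pt h q) h.toZ5 hD (neg_pt h hq) hw hv ((perp_iff h w q).mpr h0) hvp]

/-- independence transported to the ball. -/
lemma indep_io (h : Z5r O z) {κ : Type*} {v : κ → Fin 4 → Fin 2 → ℂ}
    (hv : LinearIndependent ℂ (fun k => at0 (0 : Fin 2) (v k))) :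
    LinearIndependent ℂ (fun k => (io h (v k)).1) :=
  hv.map' (P0 h).toLinearMap (LinearEquiv.ker _)

/-- **normal crossings** at `q` for a list of functions, each a unit or a unit times `lin` of a
vector through `q`, the vectors being independent. -/
theorem snc_list (h : Z5r O z) {κ : Type*} [Fintype κ] {f : κ → E 3 → ℂ} {q : E 3}
    (Pr : κ → (Fin 4 → Fin 2 → ℂ) → Prop)
    (hf : ∀ k, IsU (f k) q ∨ ∃ v, Pr k v ∧ Perp z (pt h q) v ∧ IsUM (f k) (lin (io h v).1) q)
    (hi : ∀ (s : Set κ) (v : s → Fin 4 → Fin 2 → ℂ), (∀ k : s, Pr k (v k)) →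
      (∀ k : s, Perp z (pt h q) (v k)) → LinearIndependent ℂ (fun k : s => at0 (0 : Fin 2) (v k)))
    (w : κ → ℂ) : ∃ X : E 3, ∀ k, f k q = 0 → fderiv ℂ (f k) q X = w k := by
  classical
  set s : Set κ := {k | f k q = 0} with hs
  have h1 : ∀ k : s, ∃ v, Pr k v ∧ Perp z (pt h q) v ∧ IsUM (f k) (lin (io h v).1) q := by
    intro k
    rcases hf k with h2 | h2
    · exact absurd k.2 h2.ne
    · exact h2
  choose v hv1 hv2 hv3 using h1
  have : Fintype s := Fintype.ofFinite _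
  obtain ⟨X, hX⟩ := snc (n := 3) (f := fun k : s => f k) (v := fun k => (io h (v k)).1) hv3
    (fun k => (perp_iff h (v k) q).mp (hv2 k)) (indep_io h (hi s v hv1 hv2)) (fun k => w k)
  exact ⟨X, fun k hk => hX ⟨k, hk⟩⟩

end root

end Crest.Agent.R272.Cls_620
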