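import Crest.Agent.R272.Cls7_620

/-!
Row 272, AR-CLS (helper620), part 8: mirrors.
-/

set_option linter.unusedSectionVars false

namespace Crest.Agent.R272.Cls_620

open Finset

/-- a mirror vector: integral, norm two, its reflection is the swap modulo `π μ`. -/
structure Mir (O : Subring (Fin 2 → ℂ)) (z μ : Fin 2 → ℂ) (r : Fin 4 → Fin 2 → ℂ) : Prop where
  int : Int' O r
  two : hh (HH z) r r = 2
  cong : ∀ x, Int' O x → Cg O (pz z * μ) (rf (HH z) r x) (rf (HH z) mi x)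

section

variable {O : Subring (Fin 2 → ℂ)} {z μ : Fin 2 → ℂ} {p : Fin 4 → ℂ}

lemma hh_mi (x : Fin 4 → Fin 2 → ℂ) : hh (HH z) x mi = x 1 - x 2 := by
  simp [hh, Fin.sum_univ_four, HH, mi, e1, e2, sub_eq_add_neg]

lemma rf_mi (x : Fin 4 → Fin 2 → ℂ) : rf (HH z) mi x = ![x 0, x 2, x 1, x 3] := by
  funext i
  simp only [rf, hh_mi]
  fin_cases i <;> simp [mi, e1, e2]

lemma sw_sw (a : Lb) : sw (sw a) = a := by cases a <;> simp [sw]

lemma rf_mi_base (a : Lb) : rf (HH z) mi (base z a) = base z (sw a) := by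
  rw [rf_mi]
  funext i
  cases a with
  | o => fin_cases i <;> simp [base, sw, e0]
  | n j => cases j <;> fin_cases i <;> simp [base, sw, ei, e1, e2]
  | v j k => cases j <;> fin_cases i <;> simp [base, sw, ei, e0, e1, e2]
  | b j k => cases j <;> fin_cases i <;> simp [base, sw, ei, e0, e1, e2, e3]

lemma cg_rf_mi {ν : Fin 2 → ℂ} {x y : Fin 4 → Fin 2 → ℂ} (h : Cg O ν x y) :
    Cg O ν (rf (HH z) mi x) (rf (HH z) mi y) := by
  rw [rf_mi, rf_mi]
  intro i
  fin_cases i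
  · exact h 0
  · exact h 2
  · exact h 1
  · exact h 3

lemma lev_sw (a : Lb) : lev z μ (sw a) = lev z μ a := by cases a <;> rfl

lemma lev_dvd (h : Z5 O z) (a : Lb) : ∃ ν ∈ O, pz z * μ = ν * lev z μ a := by
  cases a with
  | o => exact ⟨pz z, h.pz_mem, rfl⟩
  | n i => exact ⟨pz z, h.pz_mem, rfl⟩
  | v i j => exact ⟨1, O.one_mem, by simp [lev]⟩
  | b i j => exact ⟨1, O.one_mem, by simp [lev]⟩

lemma Cg.mono' {ν μ' : Fin 2 → ℂ} (hν : ν ∈ O) {x y : Fin 4 → Fin 2 → ℂ}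
    (h : Cg O (ν * μ') x y) : Cg O μ' x y := fun i => by
  obtain ⟨u, hu, e⟩ := h i
  exact ⟨ν * u, O.mul_mem hν hu, by rw [e]; ring⟩

/-- (M1) the reflection in a mirror maps `VV a` to `VV (sw a)`. -/
theorem Mir.map (h : Z5 O z) {r : Fin 4 → Fin 2 → ℂ} (hr : Mir O z μ r) {a : Lb}
    {v : Fin 4 → Fin 2 → ℂ} (hv : v ∈ VV O z μ a) : rf (HH z) r v ∈ VV O z μ (sw a) := by
  refine ⟨hv.1.sub (hr.int.smul (hh_mem h.ord h.frm hv.1 hr.int)), ?_, ?_⟩
  · obtain ⟨ν, hν, e⟩ := lev_dvd (μ := μ) h a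
    have h1 := hr.cong v hv.1
    rw [e] at h1
    have h2 := Cg.mono' hν h1
    have h3 : Cg O (lev z μ a) (rf (HH z) mi v) (rf (HH z) mi (base z a)) := cg_rf_mi hv.2.1
    rw [rf_mi_base] at h3
    rw [lev_sw]
    exact h2.trans h3
  · rw [rf_hh h.frm hr.two, hv.2.2, ← rf_mi_base, rf_hh h.frm g_mm]

lemma Mir.perp {r v : Fin 4 → Fin 2 → ℂ} (hrp : Perp z p r) (hv : Perp z p v) :
    Perp z p (rf (HH z) r v) := hv.sub (hrp.smul _)

/-- (M2) occurrences at a point of a mirror are symmetric. -/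
theorem Mir.occ (h : Z5 O z) {r : Fin 4 → Fin 2 → ℂ} (hr : Mir O z μ r) (hrp : Perp z p r) {a : Lb}
    (ha : Occ O z μ a p) : Occ O z μ (sw a) p := by
  obtain ⟨v, hv, hv'⟩ := ha
  exact ⟨_, hr.map h hv, Mir.perp hrp hv'⟩

theorem Mir.occ_iff (h : Z5 O z) {r : Fin 4 → Fin 2 → ℂ} (hr : Mir O z μ r) (hrp : Perp z p r)
    (a : Lb) : Occ O z μ a p ↔ Occ O z μ (sw a) p :=
  ⟨hr.occ h hrp, fun hb => by simpa only [sw_sw] using hr.occ h hrp hb⟩

/-- the reflection maps flats to flats. -/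
theorem Mir.flat (h : Z5 O z) {r : Fin 4 → Fin 2 → ℂ} (hr : Mir O z μ r) {i : Bool}
    {f0 f1 : Fin 4 → Fin 2 → ℂ} (hf : Flat O z μ i f0 f1) :
    Flat O z μ (!i) (rf (HH z) r f0) (rf (HH z) r f1) where
  m0 := hr.map h hf.m0
  m1 := hr.map h hf.m1
  orth := by rw [rf_hh h.frm hr.two, hf.orth]
  mv := fun j => by
    have := hr.map h (hf.mv j)
    have e : rf (HH z) r (f1 - z ^ (j : ℕ) • f0)
        = rf (HH z) r f1 - z ^ (j : ℕ) • rf (HH z) r f0 := by
      simp only [rf, hh_sub_left, hh_smul_left]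
      funext i
      simp only [Pi.sub_apply, Pi.smul_apply, smul_eq_mul]
      ring
    rw [e] at this
    exact this

theorem Mir.flatAt (h : Z5 O z) {r : Fin 4 → Fin 2 → ℂ} (hr : Mir O z μ r) (hrp : Perp z p r)
    {i : Bool} (hf : FlatAt O z μ i p) : FlatAt O z μ (!i) p := by
  obtain ⟨f0, f1, hF, h0, h1⟩ := hf
  exact ⟨_, _, hr.flat h hF, Mir.perp hrp h0, Mir.perp hrp h1⟩

/-- no bridges on mirrors. -/
theorem Mir.no_b (h : Z5 O z) (hμ : μ ∈ O) (hD : Deep O z μ 2) (hp : Neg z p)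
    {r : Fin 4 → Fin 2 → ℂ} (hr : Mir O z μ r) (hrp : Perp z p r) (i : Bool) (k : Fin 5) :
    ¬ Occ O z μ (.b i k) p := by
  intro hb
  have hb' := hr.occ h hrp hb
  have := ((bridge_at h hμ hD hp hb).2.2.1 (!i) k hb').1
  cases i <;> simp at this

/-- on a mirror, `v i j` and `v i' k` with `j ≠ k` occur only in clusters. -/
theorem Mir.same (h : Z5 O z) (hμ : μ ∈ O) (hD : Deep O z μ 2) (hp : Neg z p)
    {r : Fin 4 → Fin 2 → ℂ} (hr : Mir O z μ r) (hrp : Perp z p r) {i i' : Bool} {j k : Fin 5}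
    (hv : Occ O z μ (.v i j) p) (hw : Occ O z μ (.v i' k) p) (hjk : j ≠ k) :
    ∀ l, FlatAt O z μ l p := by
  have hfl : ∃ l, FlatAt O z μ l p := by
    by_cases hi : i = i'
    · subst hi
      exact ⟨i, flatAt_vv h hμ hD hp hjk hv hw⟩
    · have : i' = !i := by cases i <;> cases i' <;> simp_all
      subst this
      exact ⟨!i, flatAt_vv h hμ hD hp hjk (hr.occ h hrp hv) hw⟩
  obtain ⟨l, hl⟩ := hfl
  have hl' := hr.flatAt h hrp hl
  intro l'
  have : l' = l ∨ l' = !l := by cases l <;> cases l' <;> simp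
  rcases this with rfl | rfl
  · exact hl
  · exact hl'

/-- a mirror vector does not vanish at any place. -/
lemma Mir.smul_zero {r : Fin 4 → Fin 2 → ℂ} (hr : Mir O z μ r) {x : Fin 2 → ℂ}
    (hx : x • r = 0) : x = 0 := by
  have h1 : x * hh (HH z) r r = 0 := by
    rw [← hh_smul_left, hx]
    simp [hh]
  rw [hr.two] at h1
  funext t
  have := congrFun h1 t
  simpa using this

/-- (M3) a mirror through a cluster point: `r` is proportional to `f1 - g1`, and orthogonal to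
`f0`. -/
theorem Mir.cluster (h : Z5 O z) (hD : Deep O z μ 2) (hp : Neg z p)
    {r : Fin 4 → Fin 2 → ℂ} (hr : Mir O z μ r) (hrp : Perp z p r) {f0 f1 g1 : Fin 4 → Fin 2 → ℂ}
    (hf : Flat O z μ false f0 f1) (hg : Flat O z μ true f0 g1) (hf0 : Perp z p f0)
    (hf1 : Perp z p f1) (hg1 : Perp z p g1) :
    rf (HH z) r f0 = f0 ∧ rf (HH z) r f1 = g1 ∧ rf (HH z) r g1 = f1 ∧ hh (HH z) f0 r = 0 ∧
      ∃ c ∈ O, c * star c = 1 ∧ f1 - g1 = c • r := by
  have hfr := hr.flat h hf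
  have e0 : rf (HH z) r f0 = f0 :=
    occ_unique (p := p) h hD hp hfr.m0 hf.m0 (Mir.perp hrp hf0) hf0
  have e1 : rf (HH z) r f1 = g1 :=
    occ_unique (p := p) h hD hp hfr.m1 hg.m1 (Mir.perp hrp hf1) hg1
  have e2 : rf (HH z) r g1 = f1 := by rw [← e1, rf_rf hr.two]
  have e3 : hh (HH z) f0 r = 0 := by
    apply hr.smul_zero
    have : f0 - rf (HH z) r f0 = hh (HH z) f0 r • r := by simp [rf]
    rw [← this, e0, sub_self]
  have e4 : f1 - g1 = hh (HH z) f1 r • r := by rw [← e1]; simp [rf]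
  refine ⟨e0, e1, e2, e3, hh (HH z) f1 r, hh_mem h.ord h.frm hf.m1.1 hr.int, ?_, e4⟩
  obtain ⟨-, -, -, h4, -, h6, h7⟩ := cluster_at h hD hp hf hg hf0 hf1 hf0 hg1
  have h8 : hh (HH z) g1 f1 = 0 := by rw [← hh_star (HH z) h.frm.real f1 g1, h4, star_zero]
  have h9 : hh (HH z) (f1 - g1) (f1 - g1) = 2 := by
    simp only [hh_sub_left, hh_sub_right, h4, h6, h7, h8]; norm_num
  rw [e4, hh_smul_left, hh_smul_right, hr.two] at h9
  funext t
  have := congrFun h9 t
  simp only [Pi.mul_apply, Pi.ofNat_apply] at this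
  simp only [Pi.mul_apply, Pi.one_apply]
  have h2 : (2 : ℂ) ≠ 0 := by norm_num
  apply mul_right_cancel₀ h2
  linear_combination this

/-- elements of the class of the base mirror are mirrors. -/
theorem mir_of_cl (h : Z5 O z) {ε : Fin 2 → ℂ} (hε : ε ∈ O) (hμs : star μ = μ * ε)
    {r : Fin 4 → Fin 2 → ℂ} (hr : r ∈ Cl O (HH z) (pz z * μ) mi) : Mir O z μ r where
  int := hr.1
  two := hr.2.2.trans g_mm
  cong := fun x hx => by
    have hs : star (pz z * μ) = (pz z * μ) * (-z ^ 4 * ε) := by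
      rw [star_mul', h.pz_star, hμs]; ring
    have hm : Int' O mi := by
      intro i
      fin_cases i <;> simp [mi, e1, e2, O.one_mem, O.zero_mem]
    have h1 := hh_cg h.ord h.frm (O.mul_mem (O.neg_mem (h.pmem 4)) hε) hs hx hm (Cg.refl _ x)
      hr.2.1
    exact (Cg.refl _ x).sub (Cs.smul (hh_mem h.ord h.frm hx hr.1) hm h1 hr.2.1)

/-- unit multiples of mirrors are mirrors. -/
theorem Mir.smul {r : Fin 4 → Fin 2 → ℂ} (hr : Mir O z μ r) {c : Fin 2 → ℂ}
    (hc : c ∈ O) (hcc : c * star c = 1) : Mir O z μ (c • r) := by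
  have e : ∀ x, rf (HH z) (c • r) x = rf (HH z) r x := by
    intro x
    simp only [rf, hh_smul_right, smul_smul]
    congr 2
    linear_combination (hh (HH z) x r) * hcc
  exact ⟨hr.int.smul hc, by rw [hh_smul_left, hh_smul_right, hr.two]; linear_combination 2 * hcc,
    fun x hx => by rw [e]; exact hr.cong x hx⟩

/-- (T4') at a point with `v false j`, `v true j` there is a mirror exchanging them. -/
theorem exists_mirror (h : Z5 O z) (hD : Deep O z μ 2) {ε : Fin 2 → ℂ} (hε : ε ∈ O)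
    (hμs : star μ = μ * ε) (hp : Neg z p) {j : Fin 5}
    {v w : Fin 4 → Fin 2 → ℂ} (hv : v ∈ VV O z μ (.v false j)) (hw : w ∈ VV O z μ (.v true j))
    (hv' : Perp z p v) (hw' : Perp z p w) :
    Mir O z μ (v - w) ∧ Perp z p (v - w) ∧ rf (HH z) (v - w) v = w := by
  obtain ⟨h1, h2, h3⟩ := diff_mirror h hD hp hv hw hv' hw'
  have hst := meet_std h hD hv hw (meet_of hp hv' hw')
  have h4 : hh (HH z) v w = 1 := by
    rw [hst, g_vv h]
    simp only [dl, Bool.false_eq_true, if_false, zero_add]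
    exact z5k h j
  refine ⟨mir_of_cl h hε hμs h1, h3, ?_⟩
  have h5 : hh (HH z) v v = 2 := hv.2.2.trans (n_v h false j)
  rw [rf, hh_sub_right, h5, h4]
  have : ((2 : Fin 2 → ℂ) - 1) = 1 := by norm_num
  rw [this, one_smul]
  abel

end

end Crest.Agent.R272.Cls_620
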