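import Crest.Agent.R272.Fix2_74
import Crest.Agent.R272.Cls2_620

/-!
helper74, row 272: principal congruence groups act freely on negative lines (trace argument, no
Minkowski lemma, no finiteness of stabilisers).
-/

set_option autoImplicit false
set_option linter.unusedSectionVars false
set_option linter.unusedVariables false

open scoped ComplexConjugate
open Matrix

namespace Crest.Agent.R272.Free1_74

open Crest.Agent.R272.Fix1_74 Crest.Agent.R272.Fix2_74

variable {ι : Type*} [Fintype ι] [DecidableEq ι]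

/-- eigenvalues of a matrix preserving a positive definite "square norm" have modulus one, so the
trace is bounded by the dimension. -/
theorem norm_trace_le (A : Matrix ι ι ℂ) (m : (ι → ℂ) → ℝ) (hpos : ∀ v, v ≠ 0 → 0 < m v)
    (hinv : ∀ v, m (A *ᵥ v) = m v) (hsm : ∀ (c : ℂ) v, m (c • v) = ‖c‖ ^ 2 * m v) :
    ‖A.trace‖ ≤ Fintype.card ι := by
  rw [Matrix.trace_eq_sum_roots_charpoly]
  refine (norm_multiset_sum_le _).trans ?_
  have h1 : ∀ x ∈ A.charpoly.roots.map (fun x => ‖x‖), x ≤ 1 := by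
    intro x hx
    obtain ⟨r, hr, rfl⟩ := Multiset.mem_map.1 hx
    have hroot : Polynomial.IsRoot A.charpoly r := Polynomial.isRoot_of_mem_roots hr
    have hev : Module.End.HasEigenvalue (Matrix.toLin' A) r := by
      rw [Module.End.hasEigenvalue_iff_isRoot_charpoly, Matrix.charpoly_toLin']
      exact hroot
    obtain ⟨v, hv⟩ := hev.exists_hasEigenvector
    have hv1 : A *ᵥ v = r • v := by
      have := hv.apply_eq_smul
      rwa [Matrix.toLin'_apply] at this
    have hv0 : v ≠ 0 := hv.2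
    have h2 := hinv v
    rw [hv1, hsm] at h2
    have h3 : ‖r‖ ^ 2 = 1 := by
      have hm := hpos v hv0
      have h4 : (‖r‖ ^ 2 - 1) * m v = 0 := by linarith
      rcases mul_eq_zero.1 h4 with h5 | h5
      · linarith
      · exact absurd h5 hm.ne'
    have h5 : ‖r‖ = 1 := by
      have := norm_nonneg r
      nlinarith
    exact h5.le
  refine (Multiset.sum_le_card_nsmul _ 1 h1).trans ?_
  rw [Multiset.card_map, nsmul_eq_mul, mul_one]
  have := Polynomial.card_roots' A.charpoly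
  rw [Matrix.charpoly_natDegree_eq_dim] at this
  exact_mod_cast this

section form

open Crest.Agent.R272.Cls_620

variable {c : ι → ℝ} {i0 : ι}

theorem h1_self_real (c : ι → ℝ) (x : ι → ℂ) : Cls_620.h1 c x x = ((Cls_620.h1 c x x).re : ℂ) := by
  have e2 : (Cls_620.h1 c x x).im = 0 := by
    have := congrArg Complex.im (h1_star c x x)
    simp only [Complex.star_def, Complex.conj_im] at this
    linarith
  apply Complex.ext <;> simp [e2]

/-- nondegeneracy -/
theorem eq_zero_of_forall (hc : ∀ i, c i ≠ 0) {x : ι → ℂ} (h : ∀ w, Cls_620.h1 c x w = 0) :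
    x = 0 := by
  funext i
  have := h (Pi.single i 1)
  rw [Cls_620.h1, Finset.sum_eq_single i] at this
  · simp only [Pi.single_eq_same, star_one, mul_one] at this
    rcases mul_eq_zero.1 this with h1 | h1
    · exact absurd (by exact_mod_cast h1) (hc i)
    · exact h1
  · intro b _ hb
    rw [Pi.single_eq_of_ne hb, star_zero, mul_zero]
  · simp

/-- strict positivity on the orthogonal complement of a negative vector -/
theorem perp_pos (h0 : c i0 < 0) (hp : ∀ i, i ≠ i0 → 0 < c i) {p x : ι → ℂ}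
    (hneg : (Cls_620.h1 c p p).re < 0) (hx : Cls_620.h1 c x p = 0) (hx0 : x ≠ 0) :
    0 < (Cls_620.h1 c x x).re := by
  refine lt_of_le_of_ne (perp_nonneg h0 hp hneg hx) fun h => hx0 ?_
  refine eq_zero_of_forall (c := c) ?_ ?_
  · intro i
    by_cases hi : i = i0
    · subst hi; exact h0.ne
    · exact (hp i hi).ne'
  · intro w
    set a : ℂ := Cls_620.h1 c w p / Cls_620.h1 c p p with ha
    have hpp : Cls_620.h1 c p p ≠ 0 := by
      intro h1; rw [h1] at hneg; simp at hneg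
    have hw' : Cls_620.h1 c (w + (-a) • p) p = 0 := by
      rw [h1_add_left, h1_smul_left, ha]; field_simp; ring
    have h3 := perp_cs h0 hp hneg hx hw'
    rw [← h, zero_mul] at h3
    have h4 : Cls_620.h1 c x (w + (-a) • p) = 0 := by
      have : ‖Cls_620.h1 c x (w + (-a) • p)‖ = 0 := by
        have := norm_nonneg (Cls_620.h1 c x (w + (-a) • p))
        nlinarith
      exact norm_eq_zero.1 this
    rw [h1_add_right, h1_smul_right, hx, mul_zero, add_zero] at h4
    exact h4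

/-- majorant attached to a negative vector -/
noncomputable def maj (c : ι → ℝ) (p v : ι → ℂ) : ℝ :=
  (Cls_620.h1 c v v).re + 2 * ‖Cls_620.h1 c v p‖ ^ 2 / (-(Cls_620.h1 c p p).re)

theorem maj_pos (h0 : c i0 < 0) (hp : ∀ i, i ≠ i0 → 0 < c i) {p : ι → ℂ}
    (hneg : (Cls_620.h1 c p p).re < 0) (v : ι → ℂ) (hv : v ≠ 0) : 0 < maj c p v := by
  set N : ℝ := (Cls_620.h1 c p p).re with hN
  have hpp : Cls_620.h1 c p p = (N : ℂ) := h1_self_real c p
  set a : ℂ := Cls_620.h1 c v p / N with ha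
  have hNne : (N : ℂ) ≠ 0 := by exact_mod_cast hneg.ne
  obtain ⟨w, hw⟩ : ∃ w : ι → ℂ, w = v + (-a) • p := ⟨_, rfl⟩
  have hwp : Cls_620.h1 c w p = 0 := by
    rw [hw, h1_add_left, h1_smul_left, hpp, ha]; field_simp; ring
  have hpw : Cls_620.h1 c p w = 0 := by rw [← h1_star, hwp, star_zero]
  have hvw : v = w + a • p := by rw [hw]; funext i; simp; 
  have e1 : Cls_620.h1 c v v = Cls_620.h1 c w w + ((‖a‖ ^ 2 * N : ℝ) : ℂ) := by
    conv_lhs => rw [hvw]
    rw [h1_add_left, h1_add_right, h1_add_right, h1_smul_left, h1_smul_left, h1_smul_right,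
      h1_smul_right, hwp, hpw, hpp]
    have : a * star a = ((‖a‖ ^ 2 : ℝ) : ℂ) := by
      rw [Complex.star_def, Complex.mul_conj, Complex.normSq_eq_norm_sq]
    push_cast
    push_cast at this
    linear_combination (N : ℂ) * this
  have e2 : ‖Cls_620.h1 c v p‖ ^ 2 = ‖a‖ ^ 2 * N ^ 2 := by
    have : Cls_620.h1 c v p = a * N := by rw [ha]; field_simp
    rw [this, norm_mul, Complex.norm_real, mul_pow, Real.norm_eq_abs, sq_abs]
  have e3 : maj c p v = (Cls_620.h1 c w w).re + ‖a‖ ^ 2 * (-N) := by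
    rw [maj, e1, e2, Complex.add_re, Complex.ofReal_re, ← hN]
    have : -N ≠ 0 := by linarith
    field_simp; ring
  rw [e3]
  by_cases hw0 : w = 0
  · have ha0 : a ≠ 0 := by
      intro h; apply hv; rw [hvw, hw0, h]; simp
    have h5 : 0 < ‖a‖ ^ 2 := by have := norm_pos_iff.2 ha0; positivity
    rw [hw0]
    have h6 : Cls_620.h1 c (0 : ι → ℂ) 0 = 0 := by simp [Cls_620.h1]
    rw [h6, Complex.zero_re]
    nlinarith
  · have h7 := perp_pos h0 hp hneg hwp hw0
    have h8 : 0 ≤ ‖a‖ ^ 2 * (-N) := mul_nonneg (by positivity) (by linarith)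
    linarith

theorem maj_smul (p : ι → ℂ) (a : ℂ) (v : ι → ℂ) : maj c p (a • v) = ‖a‖ ^ 2 * maj c p v := by
  have e1 : Cls_620.h1 c (a • v) (a • v) = ((‖a‖ ^ 2 : ℝ) : ℂ) * Cls_620.h1 c v v := by
    rw [h1_smul_left, h1_smul_right, ← mul_assoc]
    congr 1
    rw [Complex.star_def, Complex.mul_conj, Complex.normSq_eq_norm_sq]
  rw [maj, maj, e1, Complex.re_ofReal_mul, h1_smul_left, norm_mul, mul_pow]
  ring

theorem maj_inv {p : ι → ℂ} (hneg : (Cls_620.h1 c p p).re < 0) (A : Matrix ι ι ℂ)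
    (hA : ∀ v w, Cls_620.h1 c (A *ᵥ v) (A *ᵥ w) = Cls_620.h1 c v w) (lam : ℂ)
    (hfix : A *ᵥ p = lam • p) (v : ι → ℂ) : maj c p (A *ᵥ v) = maj c p v := by
  have hl : ‖lam‖ ^ 2 = 1 := by
    have h1 := hA p p
    rw [hfix, h1_smul_left, h1_smul_right, ← mul_assoc, Complex.star_def, Complex.mul_conj,
      Complex.normSq_eq_norm_sq] at h1
    have h2 := congrArg Complex.re h1
    rw [Complex.re_ofReal_mul] at h2
    have h3 : (‖lam‖ ^ 2 - 1) * (Cls_620.h1 c p p).re = 0 := by linarith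
    rcases mul_eq_zero.1 h3 with h4 | h4
    · linarith
    · exact absurd h4 hneg.ne
  have hl1 : ‖lam‖ = 1 := by
    have := norm_nonneg lam
    nlinarith
  have h2 : ‖Cls_620.h1 c (A *ᵥ v) p‖ = ‖Cls_620.h1 c v p‖ := by
    have h3 : Cls_620.h1 c (A *ᵥ v) (A *ᵥ p) = Cls_620.h1 c v p := hA v p
    rw [hfix, h1_smul_right] at h3
    rw [← h3, norm_mul, norm_star, hl1, one_mul]
  rw [maj, maj, hA, h2]

end form

variable {R : Type*} [CommRing R]

theorem isU_h1 (D : Dat R) (H : ι → R) (hH : ∀ i, D.st (H i) = H i) {s : Matrix ι ι R}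
    (hs : IsU D H s) (ρ : R →+* ℂ) (hρ : ∀ x, ρ (D.st x) = conj (ρ x)) (v w : ι → ℂ) :
    Cls_620.h1 (fun i => (ρ (H i)).re) ((s.map ρ) *ᵥ v) ((s.map ρ) *ᵥ w)
      = Cls_620.h1 (fun i => (ρ (H i)).re) v w := by
  have hreal : ∀ i, (((ρ (H i)).re : ℝ) : ℂ) = ρ (H i) := by
    intro i
    have := hρ (H i)
    rw [hH] at this
    exact Complex.conj_eq_iff_re.1 this.symm
  have hent : ∀ i j, ∑ k, conj (ρ (s k i)) * ρ (H k) * ρ (s k j)
      = if i = j then ρ (H i) else 0 := by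
    intro i j
    have h1 := congrFun (congrFun hs i) j
    have h2 : ((s.map D.st)ᵀ * diagonal H * s) i j = ∑ k, D.st (s k i) * H k * s k j := by
      rw [Matrix.mul_apply]
      refine Finset.sum_congr rfl fun k _ => ?_
      rw [Matrix.mul_diagonal, Matrix.transpose_apply, Matrix.map_apply]
    rw [h2] at h1
    have h3 := congrArg ρ h1
    rw [map_sum] at h3
    simp only [map_mul, hρ] at h3
    rw [h3, Matrix.diagonal_apply]
    split_ifs <;> simp
  have e1 : ∀ k, (((ρ (H k)).re : ℝ) : ℂ) * ((s.map ρ) *ᵥ v) k * star (((s.map ρ) *ᵥ w) k)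
      = ∑ j, ∑ i, (conj (ρ (s k i)) * ρ (H k) * ρ (s k j)) * (v j * star (w i)) := by
    intro k
    rw [hreal]
    simp only [Matrix.mulVec, dotProduct, Matrix.map_apply, star_sum, star_mul']
    rw [mul_assoc, Finset.sum_mul_sum, Finset.mul_sum]
    refine Finset.sum_congr rfl fun j _ => ?_
    rw [Finset.mul_sum]
    refine Finset.sum_congr rfl fun i _ => ?_
    simp only [Complex.star_def]
    ring
  have e2 : Cls_620.h1 (fun i => (ρ (H i)).re) ((s.map ρ) *ᵥ v) ((s.map ρ) *ᵥ w)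
      = ∑ j, ∑ i, (∑ k, conj (ρ (s k i)) * ρ (H k) * ρ (s k j)) * (v j * star (w i)) := by
    rw [Cls_620.h1, Finset.sum_congr rfl fun k _ => e1 k, Finset.sum_comm]
    refine Finset.sum_congr rfl fun j _ => ?_
    rw [Finset.sum_comm]
    refine Finset.sum_congr rfl fun i _ => ?_
    rw [Finset.sum_mul]
  rw [e2, Cls_620.h1]
  refine Finset.sum_congr rfl fun j _ => ?_
  have e3 : ∀ i, (∑ k, conj (ρ (s k i)) * ρ (H k) * ρ (s k j)) * (v j * star (w i))
      = if i = j then ρ (H i) * (v j * star (w i)) else 0 := by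
    intro i
    rw [hent]
    split_ifs <;> simp
  rw [Finset.sum_congr rfl fun i _ => e3 i, Finset.sum_ite_eq', if_pos (Finset.mem_univ _), hreal]
  ring

/-- **freeness**: a unitary matrix congruent to `1` modulo `μ` which fixes a line negative at
place 1 is the identity, as soon as `N(μ) > (2 n)²`. -/
theorem free [IsDomain R] (D : Dat R) (H : ι → R) (hH : ∀ i, D.st (H i) = H i)
    (hH2 : ∀ i, 0 < (D.ρ2 (H i)).re) {i0 : ι} (hneg0 : (D.ρ1 (H i0)).re < 0)
    (hpos0 : ∀ i, i ≠ i0 → 0 < (D.ρ1 (H i)).re)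
    (hn : ∀ x : R, x ≠ 0 → 1 ≤ ‖D.ρ1 x‖ * ‖D.ρ2 x‖)
    (μ : R) (hμ : (2 * (Fintype.card ι : ℝ)) * (2 * Fintype.card ι) < ‖D.ρ1 μ‖ * ‖D.ρ2 μ‖)
    (g : Matrix ι ι R) (hg : IsU D H g) (hc : Cong μ g 1) (hf : FixNeg D H g) : g = 1 := by
  obtain ⟨x, lam, hx, hfix⟩ := hf
  have hreal1 : ∀ i, (((D.ρ1 (H i)).re : ℝ) : ℂ) = D.ρ1 (H i) := fun i => (D.real1 (hH i)).symm
  have hform1 : ∀ v w, D.h1 H v w = Cls_620.h1 (fun i => (D.ρ1 (H i)).re) v w := by
    intro v w
    simp only [Dat.h1, Cls_620.h1, hreal1, Complex.star_def]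
  rw [hform1] at hx
  set X : R := g.trace - (Fintype.card ι : R) with hX
  have hμX : μ ∣ X := by
    have h1 : X = ∑ i, (g i i - (1 : Matrix ι ι R) i i) := by
      rw [Finset.sum_sub_distrib, hX]
      simp [Matrix.trace]
    rw [h1]
    exact Finset.dvd_sum fun i _ => hc i i
  -- traces
  have t1 : ‖(g.map D.ρ1).trace‖ ≤ Fintype.card ι :=
    norm_trace_le _ (maj (fun i => (D.ρ1 (H i)).re) x)
      (maj_pos (c := fun i => (D.ρ1 (H i)).re) (i0 := i0) hneg0 hpos0 hx)
      (fun v => maj_inv hx _ (isU_h1 D H hH hg D.ρ1 D.st1) lam hfix v)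
      (fun a v => maj_smul x a v)
  have hc2 : ∀ v : ι → ℂ, (Cls_620.h1 (fun i => (D.ρ2 (H i)).re) v v).re
      = ∑ i, (D.ρ2 (H i)).re * ‖v i‖ ^ 2 := fun v => Cls_620.h1_self_re _ v
  have t2 : ‖(g.map D.ρ2).trace‖ ≤ Fintype.card ι := by
    refine norm_trace_le _ (fun v => (Cls_620.h1 (fun i => (D.ρ2 (H i)).re) v v).re) ?_ ?_ ?_
    · intro v hv
      rw [hc2]
      obtain ⟨j, hj⟩ := Function.ne_iff.1 hv
      refine Finset.sum_pos' (fun i _ => mul_nonneg (hH2 i).le (by positivity))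
        ⟨j, Finset.mem_univ _, mul_pos (hH2 j) ?_⟩
      have : 0 < ‖v j‖ := norm_pos_iff.2 hj
      positivity
    · intro v
      show (Cls_620.h1 _ ((g.map D.ρ2) *ᵥ v) ((g.map D.ρ2) *ᵥ v)).re = _
      rw [isU_h1 D H hH hg D.ρ2 D.st2]
    · intro a v
      show (Cls_620.h1 _ (a • v) (a • v)).re = _
      rw [hc2, hc2, Finset.mul_sum]
      refine Finset.sum_congr rfl fun i _ => ?_
      rw [Pi.smul_apply, smul_eq_mul, norm_mul, mul_pow]; ring
  have htr : ∀ ρ : R →+* ℂ, ρ X = (g.map ρ).trace - (Fintype.card ι : ℂ) := by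
    intro ρ
    rw [hX, map_sub, map_natCast]
    congr 1
    simp [Matrix.trace, Matrix.diag, Matrix.map_apply]
  have b1 : ‖D.ρ1 X‖ ≤ 2 * Fintype.card ι := by
    rw [htr]
    refine (norm_sub_le _ _).trans ?_
    rw [Complex.norm_natCast]; linarith
  have b2 : ‖D.ρ2 X‖ ≤ 2 * Fintype.card ι := by
    rw [htr]
    refine (norm_sub_le _ _).trans ?_
    rw [Complex.norm_natCast]; linarith
  have hX0 : X = 0 := by
    by_contra hne
    obtain ⟨a, ha⟩ := hμX
    have ha0 : a ≠ 0 := by rintro rfl; rw [mul_zero] at ha; exact hne ha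
    have h1 := hn a ha0
    rw [ha, map_mul, norm_mul] at b1 b2
    have h2 : (‖D.ρ1 μ‖ * ‖D.ρ1 a‖) * (‖D.ρ2 μ‖ * ‖D.ρ2 a‖)
        ≤ (2 * Fintype.card ι) * (2 * Fintype.card ι) := by gcongr
    have h3 : (‖D.ρ1 μ‖ * ‖D.ρ2 μ‖) * 1 ≤ (‖D.ρ1 μ‖ * ‖D.ρ2 μ‖) * (‖D.ρ1 a‖ * ‖D.ρ2 a‖) := by
      gcongr
    have h4 : (‖D.ρ1 μ‖ * ‖D.ρ1 a‖) * (‖D.ρ2 μ‖ * ‖D.ρ2 a‖)
        = (‖D.ρ1 μ‖ * ‖D.ρ2 μ‖) * (‖D.ρ1 a‖ * ‖D.ρ2 a‖) := by ring
    linarith
  -- the trace at place 2 is n
  set G := g.map D.ρ2 with hG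
  have hGtr : G.trace = (Fintype.card ι : ℂ) := by
    have := htr D.ρ2
    rw [hX0, map_zero] at this
    exact (sub_eq_zero.1 this.symm)
  -- column norms
  have hcol : ∀ j, ∑ i, (D.ρ2 (H i)).re * ‖G i j‖ ^ 2 = (D.ρ2 (H j)).re := by
    intro j
    have h1 := isU_h1 D H hH hg D.ρ2 D.st2 (Pi.single j 1) (Pi.single j 1)
    have h2 := congrArg Complex.re h1
    rw [hc2, hc2] at h2
    have h3 : ∀ i, (G *ᵥ (Pi.single j 1)) i = G i j := fun i => by
      rw [Matrix.mulVec_single_one]; rfl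
    simp only [← hG, h3] at h2
    rw [h2, Finset.sum_eq_single j]
    · simp
    · intro b _ hb; rw [Pi.single_eq_of_ne hb]; simp
    · simp
  have hdiag_le : ∀ j, ‖G j j‖ ≤ 1 := by
    intro j
    have h1 : (D.ρ2 (H j)).re * ‖G j j‖ ^ 2 ≤ (D.ρ2 (H j)).re :=
      (Finset.single_le_sum (f := fun i => (D.ρ2 (H i)).re * ‖G i j‖ ^ 2)
        (fun i _ => mul_nonneg (hH2 i).le (by positivity)) (Finset.mem_univ j)).trans (hcol j).le
    have h2 : ‖G j j‖ ^ 2 ≤ 1 := by
      by_contra h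
      push Not at h
      have := hH2 j
      nlinarith
    have := norm_nonneg (G j j)
    nlinarith
  have hdiag : ∀ j, G j j = 1 := by
    have hre : ∀ j, (G j j).re ≤ 1 := fun j => (Complex.re_le_norm _).trans (hdiag_le j)
    have hsum : ∑ j, (1 - (G j j).re) = 0 := by
      have h1 := congrArg Complex.re hGtr
      rw [Matrix.trace, Complex.re_sum, Complex.natCast_re] at h1
      rw [Finset.sum_sub_distrib]
      simp only [Matrix.diag_apply] at h1
      rw [h1]; simp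
    intro j
    have h2 := (Finset.sum_eq_zero_iff_of_nonneg (fun j _ => sub_nonneg.2 (hre j))).1 hsum j
      (Finset.mem_univ j)
    have h3 : (G j j).re = 1 := by linarith
    have h4 : (G j j).im = 0 := by
      have h5 := hdiag_le j
      have h6 : ‖G j j‖ ^ 2 = (G j j).re ^ 2 + (G j j).im ^ 2 := by
        rw [← Complex.normSq_eq_norm_sq, Complex.normSq_apply]; ring
      have h7 := norm_nonneg (G j j)
      nlinarith
    exact Complex.ext (by rw [h3, Complex.one_re]) (by rw [h4, Complex.one_im])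
  have hoff : ∀ i j, i ≠ j → G i j = 0 := by
    intro i j hij
    have h1 := hcol j
    rw [← Finset.add_sum_erase _ _ (Finset.mem_univ j), hdiag j, norm_one] at h1
    have h2 : ∑ i ∈ Finset.univ.erase j, (D.ρ2 (H i)).re * ‖G i j‖ ^ 2 = 0 := by linarith
    have h3 := (Finset.sum_eq_zero_iff_of_nonneg
      (fun i _ => mul_nonneg (hH2 i).le (by positivity))).1 h2 i
      (Finset.mem_erase.2 ⟨hij, Finset.mem_univ _⟩)
    rcases mul_eq_zero.1 h3 with h4 | h4
    · exact absurd h4 (hH2 i).ne'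
    · have : ‖G i j‖ = 0 := by
        have := norm_nonneg (G i j)
        nlinarith
      exact norm_eq_zero.1 this
  ext i j
  apply D.inj2
  have e1 : D.ρ2 (g i j) = G i j := rfl
  rw [e1]
  by_cases hij : i = j
  · subst hij; rw [hdiag, Matrix.one_apply_eq, map_one]
  · rw [hoff i j hij, Matrix.one_apply_ne hij, map_zero]

end Crest.Agent.R272.Free1_74
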