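import Crest.Agent.R272.O5a_74
import Crest.Agent.R272.Free1_74
import Crest.Agent.R272.In2_68
import Crest.Agent.R272.Cls8_620

/-!
helper74, row 272, AR-O5 / AR-FIX, last part: stabilisers of points of the ball in the arithmetic
group `GU O z` of 68, in the language of 620 (`Mir`) and 641 (`act`, `lin`).
-/

set_option autoImplicit false
set_option linter.unusedSectionVars false
set_option linter.unusedVariables false

open scoped ComplexConjugate
open Matrix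

namespace Crest.Agent.R272.O5_74

open Crest.Agent.R272.Fix1_74 Crest.Agent.R272.Fix2_74 Crest.Agent.R272.Fix3_74
open Crest.Agent.R272.In_68 Crest.Agent.R272.EBase_641

noncomputable section

theorem z5r : Z5r O5 z5v where
  toZ5 := Z5_O5
  rep := fun _ hx => rep5 hx
  im0 := im0
  im1 := im1

theorem eq_of_sum {x y : ℂ} {c : ℝ} (hx5 : x * x ^ 4 = 1) (hy5 : y * y ^ 4 = 1)
    (hx : x + x ^ 4 = c) (hy : y + y ^ 4 = c) (hix : 0 < x.im) (hiy : 0 < y.im) : x = y := by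
  have h1 : (x - y) * (x + y - c) = 0 := by
    have e1 : x ^ 4 = c - x := by rw [← hx]; ring
    have e2 : y ^ 4 = c - y := by rw [← hy]; ring
    rw [e1] at hx5
    rw [e2] at hy5
    linear_combination hy5 - hx5
  rcases mul_eq_zero.1 h1 with h | h
  · exact sub_eq_zero.1 h
  · exfalso
    have h2 := congrArg Complex.im h
    rw [Complex.sub_im, Complex.add_im, Complex.ofReal_im, Complex.zero_im] at h2
    linarith

/-- the pair `(O, z)` is unique -/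
theorem Z5r_unique {O : Subring (Fin 2 → ℂ)} {z : Fin 2 → ℂ} (h : Z5r O z) :
    z = z5v ∧ O = O5 := by
  have hz : z = z5v := by
    funext t
    have h5 : z t * z t ^ 4 = 1 := by rw [← pow_succ']; exact z5t h t
    have h5' : z5v t * z5v t ^ 4 = 1 := by rw [← pow_succ']; exact z5t z5r t
    fin_cases t
    · exact eq_of_sum h5 h5' h.at0 z5r.at0 h.im0 im0
    · exact eq_of_sum h5 h5' h.at1 z5r.at1 h.im1 im1
  refine ⟨hz, ?_⟩
  subst hz
  apply le_antisymm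
  · intro x hx
    obtain ⟨a, b, c, d, rfl⟩ := h.rep x hx
    exact O5.add_mem (O5.add_mem (O5.add_mem (intCast_mem O5 a)
      (O5.mul_mem (intCast_mem O5 b) z5r.zmem)) (O5.mul_mem (intCast_mem O5 c)
      (O5.pow_mem z5r.zmem 2))) (O5.mul_mem (intCast_mem O5 d) (O5.pow_mem z5r.zmem 3))
  · intro x hx
    obtain ⟨a, b, c, d, rfl⟩ := rep5 hx
    exact O.add_mem (O.add_mem (O.add_mem (intCast_mem O a)
      (O.mul_mem (intCast_mem O b) h.zmem)) (O.mul_mem (intCast_mem O c)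
      (O.pow_mem h.zmem 2))) (O.mul_mem (intCast_mem O d) (O.pow_mem h.zmem 3))

/-! ### dictionary -/

theorem Φ_H5 (i : Fin 4) : Φ (H5 i) = Cls_620.HH z5v i := by
  fin_cases i
  · simp [H5, Cls_620.HH]
  · simp [H5, Cls_620.HH]
  · simp [H5, Cls_620.HH]
  · show Φ (-phi) = z5v ^ 2 + z5v ^ 3
    rw [phi, neg_neg, map_add, map_pow, map_pow, z5v]

theorem hh_Φ (v w : Fin 4 → R5) :
    Cls_620.hh (Cls_620.HH z5v) (fun i => Φ (v i)) (fun i => Φ (w i)) = Φ (dat.hR H5 v w) := by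
  simp only [Cls_620.hh, Dat.hR, map_sum, map_mul]
  refine Finset.sum_congr rfl fun i _ => ?_
  rw [Φ_H5, star_Φ]; rfl

theorem h1_eq (x y : Fin 4 → ℂ) :
    Cls_620.h1 (Cls_620.c0 0 (Cls_620.HH z5v)) x y = dat.h1 H5 x y := by
  simp only [Cls_620.h1, Dat.h1, Cls_620.c0]
  refine Finset.sum_congr rfl fun i _ => ?_
  have h1 : ((((Cls_620.HH z5v i 0).re : ℝ)) : ℂ) = dat.ρ1 (H5 i) := by
    rw [← Φ_H5]
    exact (dat.real1 (H5_st i)).symm
  rw [h1]; rfl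

/-- lift an integral matrix to `R5` -/
theorem exists_lift {M : Mt} (hM : ∀ i j, M i j ∈ O5) :
    ∃ S : Matrix (Fin 4) (Fin 4) R5, ∀ i j, Φ (S i j) = M i j := by
  choose S hS using hM
  exact ⟨S, hS⟩

theorem mulVec_Φ {M : Mt} {S : Matrix (Fin 4) (Fin 4) R5} (hS : ∀ i j, Φ (S i j) = M i j)
    (v : Fin 4 → R5) : (M *ᵥ fun i => Φ (v i)) = fun i => Φ ((S *ᵥ v) i) := by
  funext i
  simp only [Matrix.mulVec, dotProduct, map_sum, map_mul, hS]

theorem isU_of {M : Mt} {S : Matrix (Fin 4) (Fin 4) R5} (hS : ∀ i j, Φ (S i j) = M i j)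
    (hu : ∀ v w : Fin 4 → Fin 2 → ℂ, Cls_620.hh (Cls_620.HH z5v) (M *ᵥ v) (M *ᵥ w)
      = Cls_620.hh (Cls_620.HH z5v) v w) : IsU dat H5 S := by
  unfold IsU
  refine Matrix.ext fun i j => Φ_inj ?_
  have h1 := hu (fun k => Φ ((Pi.single j 1 : Fin 4 → R5) k))
    (fun k => Φ ((Pi.single i 1 : Fin 4 → R5) k))
  rw [mulVec_Φ hS, mulVec_Φ hS, hh_Φ, hh_Φ] at h1
  have e1 : dat.hR H5 (fun k => (S *ᵥ (Pi.single j 1 : Fin 4 → R5)) k)
      (fun k => (S *ᵥ (Pi.single i 1 : Fin 4 → R5)) k)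
      = ((S.map dat.st)ᵀ * diagonal H5 * S) i j := by
    rw [Matrix.mul_apply, Dat.hR]
    refine Finset.sum_congr rfl fun k _ => ?_
    rw [Matrix.mul_diagonal, Matrix.transpose_apply, Matrix.map_apply,
      Matrix.mulVec_single_one, Matrix.mulVec_single_one]
    simp only [Matrix.col_apply]
    ring
  have e2 : dat.hR H5 (fun k => (Pi.single j 1 : Fin 4 → R5) k)
      (fun k => (Pi.single i 1 : Fin 4 → R5) k) = diagonal H5 i j := by
    rw [Dat.hR, Matrix.diagonal_apply]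
    by_cases hij : i = j
    · subst hij
      rw [if_pos rfl, Finset.sum_eq_single i]
      · simp
      · intro b _ hb; rw [Pi.single_eq_of_ne hb]; simp
      · simp
    · rw [if_neg hij]
      refine Finset.sum_eq_zero fun k _ => ?_
      by_cases hk : k = j
      · subst hk
        rw [Pi.single_eq_of_ne (M := fun _ => R5) (Ne.symm hij), map_zero, mul_zero]
      · rw [Pi.single_eq_of_ne (M := fun _ => R5) hk, mul_zero, zero_mul]
  rw [e1, e2] at h1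
  exact h1

theorem dvd_of_O5 {μ x : R5} (h : ∃ u ∈ O5, Φ x = Φ μ * u) : μ ∣ x := by
  obtain ⟨_, ⟨u, rfl⟩, hu⟩ := h
  exact ⟨u, Φ_inj (by rw [hu, map_mul])⟩

theorem ev0 {M : Mt} {S : Matrix (Fin 4) (Fin 4) R5} (hS : ∀ i j, Φ (S i j) = M i j) :
    ev 0 M = S.map ρ1 := by
  ext i j
  rw [ev_apply, ← hS, Matrix.map_apply, Φ_zero]

/-- the swap of the coordinates `1` and `2` -/
def swp : Mt := Dat.swapM (Fin 2 → ℂ) 1 2

theorem Φ_swapM (i j : Fin 4) : Φ (Dat.swapM R5 1 2 i j) = swp i j := by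
  simp only [swp, Dat.swapM]
  split_ifs <;> simp

theorem swp_mulVec (v : Fin 4 → Fin 2 → ℂ) : swp *ᵥ v = Cls_620.rf (Cls_620.HH z5v) Cls_620.mi v := by
  rw [Cls_620.rf_mi]
  funext i
  simp only [Matrix.mulVec, dotProduct, swp, Dat.swapM, Fin.sum_univ_four]
  fin_cases i <;> simp +decide

theorem swp_mul_self : swp * swp = 1 := swapM_mul_self 1 2

/-- the point of the ball as a negative vector -/
theorem neg_of_ball {O : Subring (Fin 2 → ℂ)} {z : Fin 2 → ℂ} (h : Z5r O z) {ζ : E 3}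
    (hζ : ζ ∈ Ball 3) : Cls_620.Neg z ((P0 h).symm (ζ, 1)) := by
  set p := (P0 h).symm (ζ, 1) with hp
  have h1 : hh (P0 h p) (P0 h p) = dd z 0 * ht z 0 p p := hh_P0 h p p
  rw [hp, LinearEquiv.apply_symm_apply, hh_self] at h1
  rw [← hp] at h1
  have h2 : ht z 0 p p = Cls_620.h1 (Cls_620.c0 0 (Cls_620.HH z)) p p := by
    simp only [ht, Cls_620.h1, Cls_620.c0, rr]
    rfl
  rw [h2] at h1
  have h3 := congrArg Complex.re h1
  rw [Complex.ofReal_re, Complex.re_ofReal_mul] at h3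
  have h4 : ‖ζ‖ < 1 := mem_Ball.1 hζ
  have h5 := dd_pos h 0
  have h6 : ‖(ζ, (1:ℂ)).1‖ ^ 2 - ‖(ζ, (1:ℂ)).2‖ ^ 2 < 0 := by
    simp only [norm_one]
    nlinarith [norm_nonneg ζ]
  rw [h3] at h6
  unfold Cls_620.Neg
  by_contra hc
  push Not at hc
  have := mul_nonneg h5.le hc
  linarith

theorem fix_of_act {O : Subring (Fin 2 → ℂ)} {z : Fin 2 → ℂ} (h : Z5r O z) (g : GU O z) {ζ : E 3}
    (hζ : ζ ∈ Ball 3) (hg : act (rho h g) ζ = ζ) :
    ev 0 ((g : Mtˣ) : Mt) *ᵥ ((P0 h).symm (ζ, 1)) = jj (rho h g) ζ • ((P0 h).symm (ζ, 1)) := by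
  have h1 := apply_eq (rho h g) hζ
  rw [hg] at h1
  have h2 := rho_P0 h g ((P0 h).symm (ζ, 1))
  rw [LinearEquiv.apply_symm_apply, h1, gl_apply] at h2
  apply (P0 h).injective
  rw [← h2, map_smul, LinearEquiv.apply_symm_apply]

theorem act_of_fix {O : Subring (Fin 2 → ℂ)} {z : Fin 2 → ℂ} (h : Z5r O z) (g : GU O z) {ζ : E 3}
    (hζ : ζ ∈ Ball 3) {lam : ℂ}
    (hg : ev 0 ((g : Mtˣ) : Mt) *ᵥ ((P0 h).symm (ζ, 1)) = lam • ((P0 h).symm (ζ, 1))) :
    act (rho h g) ζ = ζ := by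
  have h2 := rho_P0 h g ((P0 h).symm (ζ, 1))
  rw [LinearEquiv.apply_symm_apply, gl_apply, hg, map_smul, LinearEquiv.apply_symm_apply] at h2
  have h3 : jj (rho h g) ζ = lam := by rw [jj, h2]; simp
  have hj := jj_ne_zero (rho h g) hζ
  rw [act, h2, h3]
  rw [h3] at hj
  show lam⁻¹ • (lam • ζ) = ζ
  rw [smul_smul, inv_mul_cancel₀ hj, one_smul]

theorem prod_norm (μ : R5) : ∏ t, ‖Φ μ t‖ = ‖ρ1 μ‖ * ‖ρ2 μ‖ := by
  rw [Fin.prod_univ_two]; rfl

theorem H5_neg1 : (dat.ρ1 (H5 3)).re < 0 := by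
  show (ρ1 (-phi)).re < 0
  rw [map_neg, Complex.neg_re]; linarith [rho1_phi_pos]

theorem H5_pos1 : ∀ i, i ≠ 3 → 0 < (dat.ρ1 (H5 i)).re := by
  intro i hi
  fin_cases i
  · simp [H5]
  · simp [H5]
  · simp [H5]
  · exact absurd rfl hi

/-- **freeness**: the principal congruence subgroup acts freely on the ball as soon as
`N(μ) > 64`. -/
theorem gc_free' {g : Mtˣ} {μ : Fin 2 → ℂ} (hμ : μ ∈ O5) (hN : 64 < ∏ t, ‖μ t‖)
    (hg : g ∈ GC O5 z5v μ) {p : Fin 4 → ℂ} (hp : Cls_620.Neg z5v p) {lam : ℂ}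
    (hf : ev 0 (g : Mt) *ᵥ p = lam • p) : g = 1 := by
  obtain ⟨hgU, hgc⟩ := hg
  obtain ⟨S, hS⟩ := exists_lift hgU.1
  obtain ⟨m, rfl⟩ := hμ
  have hU := isU_of hS hgU.2.2
  have hC : Cong m S 1 := by
    intro i j
    apply dvd_of_O5
    obtain ⟨u, hu, e⟩ := hgc i j
    refine ⟨u, hu, ?_⟩
    rw [← e, map_sub, hS, Matrix.sub_apply]
    congr 1
    rw [Matrix.one_apply, Matrix.one_apply]
    split_ifs <;> simp
  have hF : FixNeg dat H5 S := by
    refine ⟨p, lam, ?_, ?_⟩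
    · rw [← h1_eq]; exact hp
    · have := ev0 hS
      rw [this] at hf
      exact hf
  have h1 : S = 1 := Free1_74.free dat H5 H5_st H5_pos2 (i0 := 3) H5_neg1 H5_pos1 one_le_norm m
    (by
      rw [prod_norm] at hN
      rw [Fintype.card_fin]
      calc (2 * ((4 : ℕ) : ℝ)) * (2 * ((4 : ℕ) : ℝ)) = 64 := by norm_num
        _ < _ := hN) S hU hC hF
  apply Units.ext
  refine Matrix.ext fun i j => ?_
  rw [← hS, h1]
  show Φ ((1 : Matrix (Fin 4) (Fin 4) R5) i j) = (1 : Mt) i j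
  rw [Matrix.one_apply, Matrix.one_apply]
  split_ifs <;> simp

/-- version on the ball, for any `Z5r O z` -/
theorem gc_free {O : Subring (Fin 2 → ℂ)} {z : Fin 2 → ℂ} (h : Z5r O z) {μ : Fin 2 → ℂ}
    (hμ : μ ∈ O) (hN : 64 < ∏ t, ‖μ t‖) (g : GU O z) (hg : (g : Mtˣ) ∈ GC O z μ) {ζ : E 3}
    (hζ : ζ ∈ Ball 3) (hf : act (rho h g) ζ = ζ) : g = 1 := by
  obtain ⟨rfl, rfl⟩ := Z5r_unique h
  apply Subtype.ext
  exact gc_free' hμ hN hg (neg_of_ball h hζ) (fix_of_act h g hζ hf)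

/-- **AR-FIX**: an element of the swap coset (modulo `(1-z)μ`) fixing a negative line is the
reflection in a mirror vector orthogonal to the line. -/
theorem swap_fix' {g : Mtˣ} {μ : Fin 2 → ℂ} (hμ : μ ∈ O5) (hN : 64 < ∏ t, ‖(Cls_620.pz z5v * μ) t‖)
    (h2 : ∃ c ∈ O5, μ = 2 * c) (hg : g ∈ GU O5 z5v)
    (hsw : Div O5 (Cls_620.pz z5v * μ) ((g : Mt) - swp)) {p : Fin 4 → ℂ}
    (hp : Cls_620.Neg z5v p) {lam : ℂ} (hf : ev 0 (g : Mt) *ᵥ p = lam • p) :
    ∃ r, Cls_620.Mir O5 z5v μ r ∧ (∀ v, (g : Mt) *ᵥ v = Cls_620.rf (Cls_620.HH z5v) r v) ∧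
      Cls_620.Perp z5v p r ∧ ev 0 (g : Mt) *ᵥ p = p := by
  obtain ⟨S, hS⟩ := exists_lift hg.1
  obtain ⟨m, rfl⟩ := hμ
  have hU := isU_of hS hg.2.2
  have hpz : Cls_620.pz z5v * Φ m = Φ ((1 - z) * m) := by
    rw [Cls_620.pz, map_mul, map_sub, map_one, z5v]
  rw [hpz] at hN hsw
  have hC : Cong ((1 - z) * m) S (Dat.swapM R5 1 2) := by
    intro i j
    apply dvd_of_O5
    obtain ⟨u, hu, e⟩ := hsw i j
    refine ⟨u, hu, ?_⟩
    rw [← e, map_sub, hS, Φ_swapM, Matrix.sub_apply]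
  have hfree : ∀ g : Matrix (Fin 4) (Fin 4) R5, IsU dat H5 g → Cong ((1 - z) * m) g 1 →
      FixNeg dat H5 g → g = 1 := by
    intro g hgU hgc hgf
    refine Free1_74.free dat H5 H5_st H5_pos2 (i0 := 3) H5_neg1 H5_pos1 one_le_norm
      ((1 - z) * m) ?_ g hgU hgc hgf
    rw [prod_norm] at hN
    rw [Fintype.card_fin]
    calc (2 * ((4 : ℕ) : ℝ)) * (2 * ((4 : ℕ) : ℝ)) = 64 := by norm_num
      _ < _ := hN
  have hdvd2 : (2 : R5) ∣ (1 - z) * m := by
    obtain ⟨_, ⟨c, rfl⟩, hc⟩ := h2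
    have : m = 2 * c := Φ_inj (by rw [hc, map_mul, map_ofNat])
    rw [this]
    exact ⟨(1 - z) * c, by ring⟩
  have hev := ev0 hS
  have hev' : ev 0 (g : Mt) = S.map ρ1 := hev
  rw [hev'] at hf
  obtain ⟨r, hR, ⟨a, ha⟩, hperp, hx⟩ := fix5 ((1 - z) * m) hdvd2 (Dvd.intro _ rfl)
    (by rw [prod_norm] at hN; linarith) hfree S hU hC p (by rw [← h1_eq]; exact hp) lam hf
  -- action on vectors
  have hM : ∀ i j, (g : Mt) i j = (1 : Mt) i j
      - Φ (r i) * (Cls_620.HH z5v j * star (Φ (r j))) := by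
    intro i j
    rw [← hS, hR.eq, one_mul, map_sub, map_mul, map_mul, Φ_H5, star_Φ]
    congr 1
    rw [Matrix.one_apply, Matrix.one_apply]
    split_ifs <;> simp
  have hact : ∀ v, (g : Mt) *ᵥ v = Cls_620.rf (Cls_620.HH z5v) (fun i => Φ (r i)) v := by
    intro v
    funext i
    simp only [Matrix.mulVec, dotProduct, Cls_620.rf, Pi.sub_apply, Pi.smul_apply, smul_eq_mul,
      Cls_620.hh]
    have e1 : ∀ j, (g : Mt) i j * v j = (if i = j then v j else 0)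
        - (Cls_620.HH z5v j * v j * star (Φ (r j))) * Φ (r i) := by
      intro j
      rw [hM, sub_mul, Matrix.one_apply]
      split_ifs <;> ring
    rw [Finset.sum_congr rfl fun j _ => e1 j, Finset.sum_sub_distrib, Finset.sum_ite_eq,
      if_pos (Finset.mem_univ _), ← Finset.sum_mul]
  refine ⟨fun i => Φ (r i), ⟨fun i => Φ_mem _, ?_, ?_⟩, hact, ?_, ?_⟩
  · have := hR.norm
    rw [one_mul] at this
    rw [hh_Φ, this, map_ofNat]
  · intro x hx i
    rw [← hact, ← swp_mulVec, hpz]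
    have e1 : ((g : Mt) *ᵥ x) i - (swp *ᵥ x) i = (((g : Mt) - swp) *ᵥ x) i := by
      rw [Matrix.sub_mulVec]; rfl
    rw [e1]
    choose u hu e using hsw
    refine ⟨∑ j, u i j * x j, O5.sum_mem fun j _ => O5.mul_mem (hu i j) (hx j), ?_⟩
    simp only [Matrix.mulVec, dotProduct]
    rw [Finset.mul_sum]
    refine Finset.sum_congr rfl fun j _ => ?_
    rw [e]; ring
  · unfold Cls_620.Perp
    rw [← Cls_620.h1_star, h1_eq]
    have : dat.h1 H5 p (fun i => ρ1 (r i)) = 0 := hperp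
    have e1 : Cls_620.at0 (0 : Fin 2) (fun i => Φ (r i)) = fun i => ρ1 (r i) := rfl
    rw [e1, this, star_zero]
  · rw [hev']; exact hx

/-- version on the ball for any `Z5r O z` -/
theorem swap_fix {O : Subring (Fin 2 → ℂ)} {z : Fin 2 → ℂ} (h : Z5r O z) {μ : Fin 2 → ℂ}
    (hμ : μ ∈ O) (hN : 64 < ∏ t, ‖(Cls_620.pz z * μ) t‖) (h2 : ∃ c ∈ O, μ = 2 * c) (g : GU O z)
    (hsw : Div O (Cls_620.pz z * μ) (((g : Mtˣ) : Mt) - swp)) {ζ : E 3} (hζ : ζ ∈ Ball 3)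
    (hf : act (rho h g) ζ = ζ) :
    ∃ r, Cls_620.Mir O z μ r ∧ (∀ v, ((g : Mtˣ) : Mt) *ᵥ v = Cls_620.rf (Cls_620.HH z) r v) ∧
      lin (io h r).1 ζ = 0 ∧ jj (rho h g) ζ = 1 := by
  obtain ⟨rfl, rfl⟩ := Z5r_unique h
  have hfix := fix_of_act h g hζ hf
  obtain ⟨r, hr, hact, hperp, hx⟩ := swap_fix' hμ hN h2 g.2 hsw (neg_of_ball h hζ) hfix
  refine ⟨r, hr, hact, ?_, ?_⟩
  · rw [lin_eq_hh, ← hh_conj, io_fst]
    have h1 := hh_P0 h (at' r 0) ((P0 h).symm (ζ, 1))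
    rw [LinearEquiv.apply_symm_apply] at h1
    rw [h1]
    have h3 : ht z5v 0 (at' r 0) ((P0 h).symm (ζ, 1)) = 0 := by
      unfold Cls_620.Perp at hperp
      rw [← hperp]
      simp only [ht, Cls_620.h1, Cls_620.c0, rr]
      rfl
    rw [h3, mul_zero, map_zero]
  · rw [hx] at hfix
    have hpne : (P0 h).symm (ζ, 1) ≠ 0 := by
      intro h0
      have := neg_of_ball h hζ
      unfold Cls_620.Neg at this
      rw [h0] at this
      simp [Cls_620.h1] at this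
    have h4 : (1 - jj (rho h g) ζ) • (P0 h).symm (ζ, 1) = 0 := by
      rw [sub_smul, one_smul, ← hfix, sub_self]
    rcases smul_eq_zero.1 h4 with h5 | h5
    · exact (sub_eq_zero.1 h5).symm
    · exact absurd h5 hpne

/-- two elements of the swap coset with a common fixed point are equal, and their square is one. -/
theorem swap_unique {O : Subring (Fin 2 → ℂ)} {z : Fin 2 → ℂ} (h : Z5r O z) {μ : Fin 2 → ℂ}
    (hμ : μ ∈ O) (hN : 64 < ∏ t, ‖μ t‖) (g g' : GU O z)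
    (hg : Div O μ (((g : Mtˣ) : Mt) - swp)) (hg' : Div O μ (((g' : Mtˣ) : Mt) - swp))
    {ζ : E 3} (hζ : ζ ∈ Ball 3) (hf : act (rho h g) ζ = ζ) (hf' : act (rho h g') ζ = ζ) :
    g * g' = 1 := by
  refine gc_free h hμ hN (g * g') ?_ hζ ?_
  · refine ⟨(g * g').2, ?_⟩
    have e1 : ((g * g' : GU O z) : Mtˣ) = (g : Mtˣ) * (g' : Mtˣ) := rfl
    have e2 : (((g : Mtˣ) * (g' : Mtˣ) : Mtˣ) : Mt) - 1
        = (((g : Mtˣ) : Mt) - swp) * ((g' : Mtˣ) : Mt) + swp * (((g' : Mtˣ) : Mt) - swp) := by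
      rw [Units.val_mul, sub_mul, mul_sub, swp_mul_self]; abel
    rw [e1, e2]
    refine (hg.mul_right g'.2.1).add (hg'.mul_left ?_)
    intro i j
    obtain ⟨rfl, rfl⟩ := Z5r_unique h
    rw [← Φ_swapM]; exact Φ_mem _
  · rw [map_mul, act_mul _ _ hζ, hf', hf]

/-- the matrix of the reflection in `r` -/
def refM (r : Fin 4 → R5) : Matrix (Fin 4) (Fin 4) R5 :=
  Matrix.of fun i j => (1 : Matrix (Fin 4) (Fin 4) R5) i j - 1 * r i * (H5 j * dat.st (r j))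

theorem refM_mulVec (r v : Fin 4 → R5) :
    (fun i => Φ ((refM r *ᵥ v) i)) = Cls_620.rf (Cls_620.HH z5v) (fun i => Φ (r i))
      (fun i => Φ (v i)) := by
  funext i
  simp only [Matrix.mulVec, dotProduct, Cls_620.rf, Pi.sub_apply, Pi.smul_apply, smul_eq_mul,
    refM, Matrix.of_apply]
  rw [hh_Φ, ← map_mul, ← map_sub]
  congr 1
  have e1 : ∀ j, ((1 : Matrix (Fin 4) (Fin 4) R5) i j - 1 * r i * (H5 j * dat.st (r j))) * v j
      = (if i = j then v j else 0) - (H5 j * v j * dat.st (r j)) * r i := by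
    intro j
    rw [sub_mul, Matrix.one_apply]
    split_ifs <;> ring
  rw [Finset.sum_congr rfl fun j _ => e1 j, Finset.sum_sub_distrib, Finset.sum_ite_eq,
    if_pos (Finset.mem_univ _), ← Finset.sum_mul, Dat.hR]

theorem mir_refl {m : R5} {r : Fin 4 → R5} (hr : Cls_620.Mir O5 z5v (Φ m) (fun i => Φ (r i))) :
    Refl dat H5 (refM r) 1 r ∧ Cong ((1 - z) * m) (refM r) (Dat.swapM R5 1 2) := by
  refine ⟨⟨map_one _, by simp, by simp, ?_, fun i j => rfl⟩, fun i j => ?_⟩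
  · rw [one_mul]
    apply Φ_inj
    rw [← hh_Φ, hr.two, map_ofNat]
  · have h1 := hr.cong (fun k => Φ ((Pi.single j 1 : Fin 4 → R5) k)) (fun k => Φ_mem _) i
    rw [← refM_mulVec, ← swp_mulVec] at h1
    apply dvd_of_O5
    obtain ⟨u, hu, e⟩ := h1
    refine ⟨u, hu, ?_⟩
    have hpz : Cls_620.pz z5v * Φ m = Φ ((1 - z) * m) := by
      rw [Cls_620.pz, map_mul, map_sub, map_one, z5v]
    rw [hpz] at e
    rw [← e, map_sub, Matrix.mulVec_single_one]
    congr 1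
    simp only [Matrix.mulVec, dotProduct]
    rw [Finset.sum_eq_single j]
    · rw [Pi.single_eq_same, map_one, mul_one]; exact Φ_swapM i j
    · intro b _ hb
      rw [Pi.single_eq_of_ne hb, map_zero, mul_zero]
    · simp

/-- **sparsity of mirrors** in the language of 620. -/
theorem mir_sparse {O : Subring (Fin 2 → ℂ)} {zz : Fin 2 → ℂ} (h : Z5r O zz) {μ : Fin 2 → ℂ}
    (hμ : μ ∈ O) {r r' : Fin 4 → Fin 2 → ℂ} (hr : Cls_620.Mir O zz μ r)
    (hr' : Cls_620.Mir O zz μ r') :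
    ((∀ v, Cls_620.rf (Cls_620.HH zz) r v = Cls_620.rf (Cls_620.HH zz) r' v) ∧
      ∃ c : ℂ, ∀ i, r i 0 = c * r' i 0) ∨
    ∏ t, ‖(Cls_620.pz zz * μ) t‖ ≤ 4 * (‖Cls_620.hh (Cls_620.HH zz) r r' 0‖ ^ 2 + 4) := by
  obtain ⟨rfl, rfl⟩ := Z5r_unique h
  obtain ⟨m, rfl⟩ := hμ
  have e : ∀ {r : Fin 4 → Fin 2 → ℂ}, Cls_620.Int' O5 r → ∃ s : Fin 4 → R5, (fun i => Φ (s i)) = r := by
    intro r hr
    choose s hs using hr
    exact ⟨s, funext hs⟩
  obtain ⟨s, rfl⟩ := e hr.int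
  obtain ⟨s', rfl⟩ := e hr'.int
  obtain ⟨hR, hC⟩ := mir_refl hr
  obtain ⟨hR', hC'⟩ := mir_refl hr'
  have hpz : Cls_620.pz z5v * Φ m = Φ ((1 - z) * m) := by
    rw [Cls_620.pz, map_mul, map_sub, map_one, z5v]
  rcases sparse dat H5 H5_st H5_pos2 one_le_norm hR hR' hC hC' with ⟨h1, c, hc⟩ | h1
  · left
    refine ⟨fun v => ?_, c, hc⟩
    have hm : ∀ (s : Fin 4 → R5) (v : Fin 4 → Fin 2 → ℂ),
        Cls_620.rf (Cls_620.HH z5v) (fun i => Φ (s i)) v
          = (Matrix.of fun i j => Φ (refM s i j)) *ᵥ v := by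
      intro s v
      funext i
      simp only [Matrix.mulVec, dotProduct, Cls_620.rf, Pi.sub_apply, Pi.smul_apply, smul_eq_mul,
        Cls_620.hh, refM, Matrix.of_apply]
      have e1 : ∀ j, Φ ((1 : Matrix (Fin 4) (Fin 4) R5) i j - 1 * s i * (H5 j * dat.st (s j))) * v j
          = (if i = j then v j else 0) - (Cls_620.HH z5v j * v j * star (Φ (s j))) * Φ (s i) := by
        intro j
        rw [map_sub, map_mul, map_mul, map_mul, map_one, Φ_H5, star_Φ, sub_mul, Matrix.one_apply]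
        have : dat.st (s j) = st5 (s j) := rfl
        rw [this]
        split_ifs
        · rw [map_one]; ring
        · rw [map_zero]; ring
      rw [Finset.sum_congr rfl fun j _ => e1 j, Finset.sum_sub_distrib, Finset.sum_ite_eq,
        if_pos (Finset.mem_univ _), ← Finset.sum_mul]
    rw [hm, hm, h1]
  · right
    rw [hpz, prod_norm]
    refine h1.trans (le_of_eq ?_)
    have e2 : (dat.ρ1 (1 : R5)).re = 1 := by rw [map_one, Complex.one_re]
    rw [e2, one_mul, one_mul, ← h1_eq, Complex.normSq_eq_norm_sq]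
    congr 4
    rw [h1_eq, hh_Φ, Φ_zero]
    exact (dat.rho1_hR H5 s s').symm

end

end Crest.Agent.R272.O5_74
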