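import Crest.Agent.R272.GInG1_502
import Crest.Agent.R272.O5b_74
import Crest.Agent.R272.GLoc2_620
import Crest.Agent.R272.In3_68
import Crest.Agent.R272.Prop1_392
import Crest.Agent.R272.Ball7_916

/-!
Row 272, GINST (helper502), part 2: the swap as an element of `GU O z`, its action on the classes,
the group `Gh = K ∪ K s` in `GU`, fixed points, properness, cocompactness.
-/

set_option autoImplicit false
set_option linter.unusedSectionVars false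
set_option linter.unusedVariables false

open scoped ComplexConjugate Topology
open Filter Matrix

namespace Crest.Agent.R272.GInG_502

open Crest.Agent.R272.EBase_641 Crest.Agent.R272.In_68 Crest.Agent.R272.O5_74
open Crest.Agent.R272.Fix1_74 Crest.Agent.R272.Fix2_74

noncomputable section

variable {O : Subring (Fin 2 → ℂ)} {z μ : Fin 2 → ℂ}

/-! ### the swap -/

theorem swp_mem (O : Subring (Fin 2 → ℂ)) (i j : Fin 4) : swp i j ∈ O := by
  simp only [swp, Dat.swapM]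
  split_ifs
  · exact O.one_mem
  · exact O.zero_mem

theorem swp_rf (h : Z5r O z) (v : Fin 4 → Fin 2 → ℂ) :
    swp *ᵥ v = Cls_620.rf (Cls_620.HH z) Cls_620.mi v := by
  obtain ⟨rfl, rfl⟩ := Z5r_unique h
  exact swp_mulVec v

theorem mir_mi (h : Z5r O z) : Cls_620.Mir O z μ Cls_620.mi where
  int := by
    intro i
    fin_cases i
    · simp [Cls_620.mi, Cls_620.e1, Cls_620.e2, O.zero_mem]
    · simp [Cls_620.mi, Cls_620.e1, Cls_620.e2, O.one_mem]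
    · simp [Cls_620.mi, Cls_620.e1, Cls_620.e2, O.one_mem]
    · simp [Cls_620.mi, Cls_620.e1, Cls_620.e2, O.zero_mem]
  two := Cls_620.g_mm
  cong := fun _ _ => Cls_620.Cg.refl _ _

/-- the swap as a unit matrix -/
def swT : Mtˣ := ⟨swp, swp, swp_mul_self, swp_mul_self⟩

theorem swT_mem (h : Z5r O z) : swT ∈ GU O z :=
  mem_GU.2 ⟨swp_mem O, swp_mem O, fun v w => by
    show Cls_620.hh _ (swp *ᵥ v) (swp *ᵥ w) = _
    rw [swp_rf h, swp_rf h, Cls_620.rf_hh h.frm Cls_620.g_mm]⟩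

/-- the swap as an element of the integral unitary group -/
def swG (h : Z5r O z) : GU O z := ⟨swT, swT_mem h⟩

theorem swG_coe (h : Z5r O z) : (((swG h : GU O z) : Mtˣ) : Mt) = swp := rfl

theorem swG_sq (h : Z5r O z) : swG h * swG h = 1 := by
  apply Subtype.ext
  apply Units.ext
  exact swp_mul_self

/-! ### classes -/

theorem rho_io (h : Z5r O z) (g : GU O z) (v : Fin 4 → Fin 2 → ℂ) :
    (rho h g).1 (io h v).1 = (io h (((g : Mtˣ) : Mt) *ᵥ v)).1 := by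
  rw [io_mulVec]

theorem SS_map (h : Z5r O z) {g : GU O z} {a b : Cls_620.Lb}
    (hg : ∀ v ∈ Cls_620.VV O z μ a, ((g : Mtˣ) : Mt) *ᵥ v ∈ Cls_620.VV O z μ b) {x : V1 3}
    (hx : x ∈ Cls_620.SS h μ a) : (rho h g).1 x ∈ Cls_620.SS h μ b := by
  obtain ⟨_, ⟨v, hv, rfl⟩, rfl⟩ := hx
  rw [rho_io]
  exact Cls_620.mem_SS h (hg v hv)

theorem swp_VV (h : Z5r O z) {a : Cls_620.Lb} {v : Fin 4 → Fin 2 → ℂ}
    (hv : v ∈ Cls_620.VV O z μ a) : swp *ᵥ v ∈ Cls_620.VV O z μ (Cls_620.sw a) := by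
  rw [swp_rf h]
  exact (mir_mi h).map h.toZ5 hv

theorem GC_VV (h : Z5r O z) {g : GU O z} (hg : (g : Mtˣ) ∈ GC O z (Cls_620.pz z * μ))
    {a : Cls_620.Lb} {v : Fin 4 → Fin 2 → ℂ} (hv : v ∈ Cls_620.VV O z μ a) :
    ((g : Mtˣ) : Mt) *ᵥ v ∈ Cls_620.VV O z μ a := by
  obtain ⟨hvI, hvC, hvN⟩ := hv
  refine ⟨fun i => ?_, ?_, ?_⟩
  · simp only [Matrix.mulVec, dotProduct]
    exact O.sum_mem fun j _ => O.mul_mem (g.2.1 i j) (hvI j)
  · have h1 : Cls_620.Cg O (Cls_620.pz z * μ) (((g : Mtˣ) : Mt) *ᵥ v) v := by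
      intro i
      choose u hu e using hg.2
      refine ⟨∑ j, u i j * v j, O.sum_mem fun j _ => O.mul_mem (hu i j) (hvI j), ?_⟩
      have e1 : (((g : Mtˣ) : Mt) *ᵥ v) i - v i = ((((g : Mtˣ) : Mt) - 1) *ᵥ v) i := by
        rw [Matrix.sub_mulVec, Matrix.one_mulVec]; rfl
      rw [e1]
      simp only [Matrix.mulVec, dotProduct]
      rw [Finset.mul_sum]
      refine Finset.sum_congr rfl fun j _ => ?_
      rw [e]; ring
    obtain ⟨ν, hν, e⟩ := Cls_620.lev_dvd (μ := μ) h.toZ5 a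
    rw [e] at h1
    exact (Cls_620.Cg.mono' hν h1).trans hvC
  · rw [g.2.2.2, hvN]

theorem SS_GC (h : Z5r O z) {g : GU O z} (hg : (g : Mtˣ) ∈ GC O z (Cls_620.pz z * μ))
    (a : Cls_620.Lb) (x : V1 3) : (rho h g).1 x ∈ Cls_620.SS h μ a ↔ x ∈ Cls_620.SS h μ a := by
  constructor
  · intro hx
    have hg' : ((g⁻¹ : GU O z) : Mtˣ) ∈ GC O z (Cls_620.pz z * μ) :=
      (GC O z (Cls_620.pz z * μ)).inv_mem hg
    have h1 := SS_map h (g := g⁻¹) (fun v hv => GC_VV h hg' hv) hx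
    have e : (rho h g⁻¹).1 ((rho h g).1 x) = x := by
      have e2 : (rho h g⁻¹ * rho h g) = 1 := by rw [← map_mul, inv_mul_cancel, map_one]
      have e3 : ((rho h g⁻¹ * rho h g : UG 3)).1 x = x := by rw [e2]; rfl
      exact e3
    rwa [e] at h1
  · intro hx
    exact SS_map h (fun v hv => GC_VV h hg hv) hx

theorem swG_swG (h : Z5r O z) (x : V1 3) : (rho h (swG h)).1 ((rho h (swG h)).1 x) = x := by
  have e2 : (rho h (swG h) * rho h (swG h)) = 1 := by rw [← map_mul, swG_sq, map_one]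
  have e3 : ((rho h (swG h) * rho h (swG h) : UG 3)).1 x = x := by rw [e2]; rfl
  exact e3

theorem SS_sw (h : Z5r O z) (a : Cls_620.Lb) (x : V1 3) :
    (rho h (swG h)).1 x ∈ Cls_620.SS h μ a ↔ x ∈ Cls_620.SS h μ (Cls_620.sw a) := by
  constructor
  · intro hx
    have h1 := SS_map h (g := swG h) (fun v hv => swp_VV h hv) hx
    rwa [swG_swG] at h1
  · intro hx
    have h1 := SS_map h (g := swG h) (fun v hv => swp_VV h hv) hx
    rwa [Cls_620.sw_sw] at h1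

theorem SS_sw_eq (h : Z5r O z) (a : Cls_620.Lb) :
    {v | (rho h (swG h)).1 v ∈ Cls_620.SS h μ a} = Cls_620.SS h μ (Cls_620.sw a) :=
  Set.ext fun x => SS_sw h a x

theorem SS_ne (h : Z5r O z) {a : Cls_620.Lb} {x : V1 3} (hx : x ∈ Cls_620.SS h μ a) : x.1 ≠ 0 := by
  obtain ⟨_, ⟨v, hv, rfl⟩, rfl⟩ := hx
  intro h0
  have h1 := hh_io h v v
  rw [hh_self, h0, norm_zero] at h1
  have h3 := congrArg Complex.re h1
  rw [Complex.ofReal_re, Complex.re_ofReal_mul] at h3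
  have h4 := dd_pos h 0
  have h5 := Cls_620.nrm_ne h.toZ5 hv
  have h6 := mul_pos h4 h5
  rw [← h3] at h6
  have h7 : 0 ≤ ‖(io h v).1.2‖ ^ 2 := by positivity
  simp only [ne_eq, OfNat.ofNat_ne_zero, not_false_eq_true, zero_pow, zero_sub] at h6
  linarith

/-! ### the group -/

variable {ν : Fin 2 → ℂ}

theorem swG_not_mem (h : Z5r O z) (hν : 1 < ∏ t, ‖ν t‖) : (swG h : Mtˣ) ∉ GC O z ν := by
  intro hg
  obtain ⟨u, hu, e⟩ := hg.2 1 1
  have e1 : ((((swG h : GU O z) : Mtˣ) : Mt) - 1) 1 1 = -1 := by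
    rw [swG_coe, Matrix.sub_apply, Matrix.one_apply_eq]
    simp [swp, Dat.swapM]
  rw [e1] at e
  have h1 : (1 : ℝ) = (∏ t, ‖ν t‖) * ∏ t, ‖u t‖ := by
    rw [← Finset.prod_mul_distrib]
    have h2 : ∀ t : Fin 2, ‖ν t‖ * ‖u t‖ = 1 := by
      intro t
      rw [← norm_mul]
      have := congrFun e t
      rw [Pi.neg_apply, Pi.one_apply, Pi.mul_apply] at this
      rw [← this, norm_neg, norm_one]
    rw [Finset.prod_congr rfl fun t _ => h2 t, Finset.prod_const_one]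
  have hu0 : u ≠ 0 := by
    rintro rfl
    simp at h1
  have h3 := h.ord.norm_ge u hu hu0
  nlinarith

theorem swD (h : Z5r O z) {K : Subgroup (GU O z)} (hK : K.Normal)
    (hKν : ∀ g ∈ K, (g : Mtˣ) ∈ GC O z ν) (hν : 1 < ∏ t, ‖ν t‖) : SwD K (swG h) where
  nrm := hK
  sq := swG_sq h
  nmem := fun hm => swG_not_mem h hν (hKν _ hm)

theorem coset_div (h : Z5r O z) {g : GU O z} (hg : ((g * swG h : GU O z) : Mtˣ) ∈ GC O z ν) :
    Div O ν (((g : Mtˣ) : Mt) - swp) := by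
  have h1 := hg.2.mul_right (swp_mem O)
  have e : ((((g * swG h : GU O z) : Mtˣ) : Mt) - 1) * swp = ((g : Mtˣ) : Mt) - swp := by
    have e1 : (((g * swG h : GU O z) : Mtˣ) : Mt) = ((g : Mtˣ) : Mt) * swp := rfl
    rw [e1, sub_mul, one_mul, mul_assoc, swp_mul_self, mul_one]
  rwa [e] at h1

/-- the invariance of the classes under `Gh` -/
theorem Gh_SS (h : Z5r O z) {K : Subgroup (GU O z)} (D : SwD K (swG h))
    (hKν : ∀ g ∈ K, (g : Mtˣ) ∈ GC O z (Cls_620.pz z * μ)) (g : D.Gh) (x : V1 3) :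
    (rho h g.1).1 x ∈ Cls_620.SS h μ .o ↔ x ∈ Cls_620.SS h μ .o := by
  rcases D.mem_Gh.1 g.2 with hg | hg
  · exact SS_GC h (hKν _ hg) _ x
  · have e : g.1 = (g.1 * swG h) * swG h := by rw [mul_assoc, swG_sq, mul_one]
    have e2 : (rho h g.1).1 x = (rho h (g.1 * swG h)).1 ((rho h (swG h)).1 x) := by
      conv_lhs => rw [e, map_mul]
      rfl
    rw [e2, SS_GC h (hKν _ hg), SS_sw]
    rfl

/-- **fixed points** of `Gh` in the ball -/
theorem fix_Gh (h : Z5r O z) {K : Subgroup (GU O z)} (D : SwD K (swG h))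
    (hμ : μ ∈ O) (hN : 64 < ∏ t, ‖(Cls_620.pz z * μ) t‖) (h2 : ∃ c ∈ O, μ = 2 * c)
    (hKν : ∀ g ∈ K, (g : Mtˣ) ∈ GC O z (Cls_620.pz z * μ)) {g : GU O z} (hg : g ∈ D.Gh)
    {ζ : E 3} (hζ : ζ ∈ Ball 3) (hf : act (rho h g) ζ = ζ) :
    g = 1 ∨ (g ∉ K ∧ g * g = 1 ∧ ∃ r, Cls_620.Mir O z μ r ∧
      (∀ v, ((g : Mtˣ) : Mt) *ᵥ v = Cls_620.rf (Cls_620.HH z) r v) ∧
      lin (io h r).1 ζ = 0 ∧ jj (rho h g) ζ = 1) := by
  have hpμ : Cls_620.pz z * μ ∈ O := O.mul_mem h.pz_mem hμ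
  rcases D.mem_Gh.1 hg with hk | hk
  · left
    exact gc_free h hpμ hN g (hKν _ hk) hζ hf
  · right
    have hd := coset_div h (hKν _ hk)
    refine ⟨D.not_mem hk, swap_unique h hpμ hN g g hd hd hζ hf hf, ?_⟩
    exact swap_fix h hμ hN h2 g hd hζ hf

theorem fix_unique (h : Z5r O z) {K : Subgroup (GU O z)} (D : SwD K (swG h))
    (hμ : μ ∈ O) (hN : 64 < ∏ t, ‖(Cls_620.pz z * μ) t‖)
    (hKν : ∀ g ∈ K, (g : Mtˣ) ∈ GC O z (Cls_620.pz z * μ)) {g g' : GU O z} (hg : g ∈ D.Gh)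
    (hg' : g' ∈ D.Gh) (h1 : g ∉ K) (h1' : g' ∉ K)
    {ζ : E 3} (hζ : ζ ∈ Ball 3) (hf : act (rho h g) ζ = ζ) (hf' : act (rho h g') ζ = ζ) :
    g' = g := by
  have hpμ : Cls_620.pz z * μ ∈ O := O.mul_mem h.pz_mem hμ
  have hk := (D.mem_Gh.1 hg).resolve_left h1
  have hk' := (D.mem_Gh.1 hg').resolve_left h1'
  have e1 := swap_unique h hpμ hN g g (coset_div h (hKν _ hk)) (coset_div h (hKν _ hk)) hζ hf hf
  have e2 := swap_unique h hpμ hN g g' (coset_div h (hKν _ hk)) (coset_div h (hKν _ hk')) hζ hf hf'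
  exact mul_left_cancel (e2.trans e1.symm)

/-! ### properness and cocompactness -/

theorem proper_GU (h : Z5r O z) (r : ℝ) (hr : r < 1) :
    {g : GU O z | ∃ q, ‖q‖ ≤ r ∧ ‖act (rho h g) q‖ ≤ r}.Finite :=
  Prop_392.proper (rho h) (sig h) (LO h) (LO_disc h) (LO_span h)
    (fun g x hx => LO_stab h g hx) (fun g g' h1 h2 => faith h h1 h2) r hr

theorem proper_sub (h : Z5r O z) (G : Subgroup (GU O z)) (r : ℝ) (hr : r < 1) :
    {g : G | ∃ q, ‖q‖ ≤ r ∧ ‖act ((rho h).comp G.subtype g) q‖ ≤ r}.Finite :=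
  Set.Finite.preimage (f := fun g : G => (g : GU O z)) Subtype.val_injective.injOn
    (proper_GU h r hr)

theorem act_bound {n : ℕ} (g : UG n) {r : ℝ} (hr : r < 1) :
    ∃ r' : ℝ, r' < 1 ∧ ∀ z : E n, ‖z‖ ≤ r → ‖act g z‖ ≤ r' := by
  by_cases hr0 : 0 ≤ r
  swap
  · refine ⟨0, one_pos, fun z hz => absurd ((norm_nonneg z).trans hz) hr0⟩
  have hsub : Metric.closedBall (0 : E n) r ⊆ Ball n := by
    intro z hz
    rw [mem_closedBall_zero_iff] at hz
    exact mem_Ball.2 (hz.trans_lt hr)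
  have hc : ContinuousOn (fun z => ‖act g z‖) (Metric.closedBall (0 : E n) r) :=
    ((differentiableOn_act g).continuousOn.mono hsub).norm
  obtain ⟨z0, hz0, hmax⟩ := (isCompact_closedBall (0 : E n) r).exists_isMaxOn
    ⟨0, by rw [mem_closedBall_zero_iff, norm_zero]; exact hr0⟩ hc
  refine ⟨‖act g z0‖, mem_Ball.1 (act_mem g (hsub hz0)), fun z hz => ?_⟩
  exact hmax (mem_closedBall_zero_iff.2 hz)

theorem cocpt_sub (h : Z5r O z) (G : Subgroup (GU O z)) (hG : G.FiniteIndex) :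
    ∃ r : ℝ, r < 1 ∧ ∀ ζ ∈ Ball 3, ∃ g : G, ‖act ((rho h).comp G.subtype g) ζ‖ ≤ r := by
  classical
  obtain ⟨r, hr, hr'⟩ := Ball7_916.cocpt h (μ := 1) O.one_mem one_ne_zero
  have hfin : Finite (GU O z ⧸ G) := Subgroup.finite_quotient_of_finiteIndex
  choose R hR1 hR2 using fun q : GU O z ⧸ G => act_bound (rho h (q.out)⁻¹) hr
  obtain ⟨q0, hq0⟩ := Finite.exists_max R
  refine ⟨R q0, hR1 q0, fun ζ hζ => ?_⟩
  obtain ⟨g, -, -, hg⟩ := hr' ζ hζ
  have hk : ((QuotientGroup.mk g : GU O z ⧸ G).out)⁻¹ * g ∈ G := by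
    rw [← QuotientGroup.eq]
    exact QuotientGroup.out_eq' _
  refine ⟨⟨_, hk⟩, ?_⟩
  show ‖act (rho h (((QuotientGroup.mk g : GU O z ⧸ G).out)⁻¹ * g)) ζ‖ ≤ R q0
  rw [map_mul, act_mul _ _ hζ]
  exact (hR2 _ _ hg).trans (hq0 _)

end

end Crest.Agent.R272.GInG_502
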