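import Crest.Agent.R272.MQ3_783
import Crest.Agent.R272.Quot3_783

/-!
# R272, leaf MQ (helper783), part 4: the ball, and the projection to the base

`ρ : Γ →* UG n` acting on the ball (`BX ρ`, `ballFam ρ` of `Quot3_783`).
* `IsPR g R c`     : `g v = v - (c * hh v R) • R`, `c * hh R R = 2` (a unitary reflection);
* `act_of_isPR`, `reflAt_ball` : fixed points and the derivative there;
* `pds_ball`       : proper discontinuity from the finiteness condition `proper` of `EDat`;
* `ra_ball`        : `RA (ballFam ρ) Γ` from the description of the stabilisers;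
* `compact_ball`   : the orbit space is compact;
* `holC_orbMap`    : the projection `Orb G X → Orb G B` is holomorphic.
-/

set_option autoImplicit false
set_option linter.unusedSectionVars false

open Set Filter Topology
open scoped ComplexConjugate

namespace Crest.Agent.R272.MQ_783

open Crest.Agent.R275.Geo Crest.Agent.R273.Fam_835 Crest.Agent.R273.Map_835
  Crest.Agent.R272.Refl_246 Crest.Agent.R272.RQ1_302 Crest.Agent.R272.EBase_641
  Crest.Agent.R272.Quot_783

noncomputable section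

variable {n m : ℕ} {Γ : Type} [Group Γ]

/-- unitary reflections of the Hermitian space of signature `(n,1)` -/
def IsPR (g : UG n) (R : V1 n) (c : ℂ) : Prop :=
  c * hh R R = 2 ∧ ∀ v, g.1 v = v - (c * hh v R) • R

theorem IsPR.sq {g : UG n} {R : V1 n} {c : ℂ} (h : IsPR g R c) : g * g = 1 := by
  apply Subtype.ext
  apply LinearEquiv.ext
  intro v
  change g.1 (g.1 v) = v
  rw [h.2 (g.1 v), h.2 v]
  have h1 : hh (v - (c * hh v R) • R) R = hh v R - c * hh v R * hh R R := by
    have h2 : v - (c * hh v R) • R = v + (-(c * hh v R)) • R := by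
      rw [neg_smul, sub_eq_add_neg]
    rw [h2, hh_add_left, hh_smul_left]
    ring
  rw [h1]
  have h3 : c * (hh v R - c * hh v R * hh R R) = -(c * hh v R) := by
    have : c * (hh v R - c * hh v R * hh R R) = c * hh v R - c * hh v R * (c * hh R R) := by ring
    rw [this, h.1]
    ring
  rw [h3, neg_smul]
  abel

theorem IsPR.jj_eq {g : UG n} {R : V1 n} {c : ℂ} (h : IsPR g R c) {z : E n} (hz : lin R z = 0) :
    jj g z = 1 := by
  have h1 : g.1 (z, 1) = (z, 1) := by
    rw [h.2, ← lin_eq_hh, hz, mul_zero, zero_smul, sub_zero]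
  rw [jj, h1]

theorem IsPR.act_eq {g : UG n} {R : V1 n} {c : ℂ} (h : IsPR g R c) {z : E n} (hz : lin R z = 0) :
    act g z = z := by
  have h1 : g.1 (z, 1) = (z, 1) := by
    rw [h.2, ← lin_eq_hh, hz, mul_zero, zero_smul, sub_zero]
  rw [act, h.jj_eq hz, h1, inv_one, one_smul]

/-- the derivative of the action of a reflection at a fixed point -/
theorem IsPR.fderiv_act {g : UG n} {R : V1 n} {c : ℂ} (h : IsPR g R c) {z : E n}
    (hzB : z ∈ Ball n) (hz : lin R z = 0) (X : E n) :
    fderiv ℂ (act g) z X = X - (c * inner ℂ R.1 X) • (R.1 - R.2 • z) := by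
  set Gc : V1 n →L[ℂ] V1 n := LinearMap.toContinuousLinearMap (g.1 : V1 n →ₗ[ℂ] V1 n) with hGc
  have hG : ∀ v, Gc v = g.1 v := fun v => rfl
  have hj := jj_ne_zero g hzB
  have h0 : HasFDerivAt (fun y : E n => ((y, 1) : V1 n)) (ContinuousLinearMap.inl ℂ (E n) ℂ) z :=
    (hasFDerivAt_id (𝕜 := ℂ) z).prodMk (hasFDerivAt_const (1 : ℂ) z)
  have h1 : HasFDerivAt (fun y : E n => g.1 (y, 1)) (Gc ∘L ContinuousLinearMap.inl ℂ (E n) ℂ) z :=
    Gc.hasFDerivAt.comp z h0
  have h2 : HasFDerivAt (fun y : E n => (g.1 (y, 1)).2)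
      ((ContinuousLinearMap.snd ℂ (E n) ℂ) ∘L (Gc ∘L ContinuousLinearMap.inl ℂ (E n) ℂ)) z :=
    (ContinuousLinearMap.snd ℂ (E n) ℂ).hasFDerivAt.comp z h1
  have h3 : HasFDerivAt (fun y : E n => (g.1 (y, 1)).1)
      ((ContinuousLinearMap.fst ℂ (E n) ℂ) ∘L (Gc ∘L ContinuousLinearMap.inl ℂ (E n) ℂ)) z :=
    (ContinuousLinearMap.fst ℂ (E n) ℂ).hasFDerivAt.comp z h1
  have h4 := (hasDerivAt_inv (show (g.1 (z, 1)).2 ≠ 0 from hj)).comp_hasFDerivAt z h2
  have h5 := h4.smul h3
  have h6 : HasFDerivAt (act g) _ z := h5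
  rw [h6.fderiv]
  have e0 : g.1 (z, 1) = (z, 1) := by
    rw [h.2, ← lin_eq_hh, hz, mul_zero, zero_smul, sub_zero]
  have e1 : g.1 (X, 0) = (X - (c * inner ℂ R.1 X) • R.1, -((c * inner ℂ R.1 X) * R.2)) := by
    rw [h.2]
    have : hh (X, 0) R = inner ℂ R.1 X := by simp [hh]
    rw [this]
    ext1
    · rfl
    · simp
  simp only [Function.comp, add_apply, smul_apply,
    ContinuousLinearMap.comp_apply, ContinuousLinearMap.smulRight_apply,
    ContinuousLinearMap.inl_apply, ContinuousLinearMap.coe_fst', ContinuousLinearMap.coe_snd', hG,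
    e0, e1, smul_eq_mul, smul_sub, smul_smul]
  norm_num
  abel

theorem reflAt_ball (ρ : Γ →* UG n) {s : Γ} {R : V1 n} {c : ℂ} (h : IsPR (ρ s) R c) {x : BX ρ}
    (hx : lin R x.val = 0) : ReflAt (ballFam ρ) (fun y => s • y) x := by
  obtain ⟨i, hi⟩ := (ballFam ρ).cover x
  refine reflAt_iff_isRefl.2 ⟨(ballFam ρ).e i, cpt_e (C := ballFam ρ) i, hi,
    c • (innerSL ℂ R.1), R.1 - R.2 • x.val, ?_, fun w => ?_⟩
  · change c * inner ℂ R.1 (R.1 - R.2 • x.val) = 2
    have h1 : inner ℂ R.1 x.val = conj R.2 := by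
      have := hx
      rw [lin, sub_eq_zero] at this
      exact this
    rw [inner_sub_right, inner_smul_right, h1, ← h.1]
    rfl
  · have h1 : dC ((ballFam ρ).e i) ((ballFam ρ).e i) (fun y => s • y) x =
        fderiv ℂ (act (ρ s)) x.val := by
      unfold dC
      rw [ballFam_apply]
      refine Filter.EventuallyEq.fderiv_eq ?_
      filter_upwards [Metric.isOpen_ball.mem_nhds x.mem] with z hz
      rw [ballFam_apply, BX.val_smul, ballFam_symm ρ i hz]
    rw [h1, h.fderiv_act x.mem hx]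
    rfl

theorem pds_ball (ρ : Γ →* UG n)
    (hp : ∀ r : ℝ, r < 1 → {g | ∃ z, ‖z‖ ≤ r ∧ ‖act (ρ g) z‖ ≤ r}.Finite) :
    ProperlyDiscontinuousSMul Γ (BX ρ) := by
  refine ⟨fun {K L} hK hL => ?_⟩
  obtain ⟨r1, h1, h1'⟩ := exists_radius hK
  obtain ⟨r2, h2, h2'⟩ := exists_radius hL
  refine (hp (max r1 r2) (max_lt h1 h2)).subset ?_
  rintro g ⟨x, ⟨y, hy, rfl⟩, hx⟩
  exact ⟨y.val, (h1' y hy).trans (le_max_left _ _), by
    have := h2' _ hx
    exact this.trans (le_max_right _ _)⟩

theorem ccs_ball (ρ : Γ →* UG n) : ContinuousConstSMul Γ (BX ρ) :=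
  ⟨fun g => continuous_smul_ball ρ g⟩

/-- **the hypotheses of MQ for the ball** -/
theorem ra_ball (ρ : Γ →* UG n) [ProperlyDiscontinuousSMul Γ (BX ρ)]
    (hst : ∀ x : BX ρ, (∀ g : Γ, g • x = x → g = 1) ∨
      ∃ (s : Γ) (R : V1 n) (c : ℂ), s * s = 1 ∧ IsPR (ρ s) R c ∧ lin R x.val = 0 ∧
        ∀ g : Γ, g • x = x → g = 1 ∨ g = s) : RA (ballFam ρ) Γ where
  hol g := holC_smul ρ g
  pd x := by
    have := ccs_ball ρ
    exact pd_of_properly x
  st x := by
    rcases hst x with h | ⟨s, R, c, hs, hR, hx, h⟩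
    · exact Or.inl h
    · exact Or.inr ⟨s, hs, BX.ext (hR.act_eq hx), h, reflAt_ball ρ hR hx⟩

/-- compactness of the orbit space of the ball -/
theorem compact_ball (ρ : Γ →* UG n)
    (hc : ∃ r : ℝ, r < 1 ∧ ∀ z ∈ Ball n, ∃ g, ‖act (ρ g) z‖ ≤ r) :
    CompactSpace (Orb Γ (BX ρ)) := by
  obtain ⟨r, hr, hcov⟩ := hc
  have hK : IsCompact {x : BX ρ | ‖x.val‖ ≤ r} := by
    rw [BX.isOpenEmbedding_val.isEmbedding.isCompact_iff]
    have h1 : (BX.val : BX ρ → E n) '' {x : BX ρ | ‖x.val‖ ≤ r} = Metric.closedBall (0 : E n) r := by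
      ext z
      simp only [mem_image, Set.mem_ofPred_eq, Metric.mem_closedBall, dist_zero_right]
      constructor
      · rintro ⟨x, hx, rfl⟩
        exact hx
      · intro hz
        exact ⟨BX.mk ρ z (mem_Ball.2 (lt_of_le_of_lt hz hr)), hz, rfl⟩
    rw [h1]
    exact isCompact_closedBall _ _
  exact compact_orb_of hK fun x => hcov x.val x.mem

/-! ### the projection to the base -/

section Base

variable {k : ℕ} {G : Type} [Group G] {X : Type} [TopologicalSpace X] [MulAction G X]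
  {C : Fam n X} {B : Type} [TopologicalSpace B] [MulAction G B] {D : Fam m B} {P : X → B}

theorem holC_orbMap [ContinuousConstSMul G X] [ContinuousConstSMul G B] [Nonempty X] [Nonempty B]
    (hX : RA C G) (hB : RA D G) (hP : HolC C D P) (heq : ∀ (g : G) x, P (g • x) = g • P x) :
    HolC hX.fam hB.fam (orbMap P heq) :=
  hX.holC_iff.2 (hB.holC_pr.comp hP)

/-- compactness of `Orb G X` from a proper equivariant map -/
theorem compact_of_orbMap [ContinuousConstSMul G B] [CompactSpace (Orb G B)]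
    (hc : IsProperMap P) (heq : ∀ (g : G) x, P (g • x) = g • P x) : CompactSpace (Orb G X) := by
  have h := (isProperMap_orbMap hc heq).isCompact_preimage isCompact_univ
  rw [preimage_univ] at h
  exact ⟨h⟩

end Base

end

end Crest.Agent.R272.MQ_783
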