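/-
helper295, row 272 (S0415), GINST (G2) + (G3): the group `Gh = K ∪ K s` (502) acting on the ball:
stabilisers, `RA`, proper discontinuity, compact quotient, the base `N' = Orb Gh B` with `ProjD`
(246).
-/
import Crest.Agent.R272.GInG2_502
import Crest.Agent.R272.MQ4_783
import Crest.Agent.R272.BBase2_246

set_option autoImplicit false
set_option linter.unusedSectionVars false
set_option linter.unusedVariables false

open scoped ComplexConjugate
open Matrix

namespace Crest.Agent.R272.Gi_295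

open Crest.Agent.R275.Geo Crest.Agent.R275.GC293 Crest.Agent.R275.Core144
open Crest.Agent.R273.Fam_835 Crest.Agent.R273.Map_835 Crest.Agent.R273.Defs_333
open Crest.Agent.R272.Refl_246
open Crest.Agent.R272.EBase_641 Crest.Agent.R272.In_68 Crest.Agent.R272.GInG_502
open Crest.Agent.R272.O5_74 Crest.Agent.R272.MQ_783 Crest.Agent.R272.Quot_783
open Crest.Agent.R272.RQ1_302

noncomputable section

variable {O : Subring (Fin 2 → ℂ)} {z : Fin 2 → ℂ}

/-- a matrix reflection acts as a unitary reflection of `V1 3` -/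
theorem isPR_of_rf (h : Z5r O z) {g : GU O z} {r : Fin 4 → Fin 2 → ℂ}
    (h2 : Cls_620.hh (Cls_620.HH z) r r = 2)
    (hact : ∀ v, ((g : Mtˣ) : Mt) *ᵥ v = Cls_620.rf (Cls_620.HH z) r v) :
    IsPR (rho h g) (io h r).1 ((dd z 0 : ℂ)⁻¹) := by
  have hd : (dd z 0 : ℂ) ≠ 0 := by exact_mod_cast (dd_pos h 0).ne'
  constructor
  · rw [hh_io, h2]
    show (dd z 0 : ℂ)⁻¹ * ((dd z 0 : ℂ) * 2) = 2
    field_simp
  · intro v
    obtain ⟨x, rfl⟩ := (P0 h).surjective v
    have h1 := io_mulVec h g (fun i _ => x i)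
    rw [hact] at h1
    have h3 := congrArg Prod.fst h1
    have h4 : (io h (fun i _ => x i)).1 = P0 h x := rfl
    simp only [h4] at h3
    rw [← h3, io_fst]
    have h5 : hh (P0 h x) (io h r).1 = (dd z 0 : ℂ) * Cls_620.hh (Cls_620.HH z) (fun i _ => x i) r 0 := by
      rw [← h4, hh_io]
    rw [h5, io_fst, ← map_smul, ← map_sub]
    congr 1
    funext i
    show (Cls_620.rf (Cls_620.HH z) r (fun i _ => x i)) i 0 = _
    simp only [Cls_620.rf, Pi.sub_apply, Pi.smul_apply, smul_eq_mul, at']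
    rw [inv_mul_cancel_left₀ hd]
    rfl

/-- the hypotheses on `K` and the level -/
structure KD (h : Z5r O z) (μ : Fin 2 → ℂ) (K : Subgroup (GU O z)) : Prop where
  mem : μ ∈ O
  big : 64 < ∏ t, ‖(Cls_620.pz z * μ) t‖
  two : ∃ c ∈ O, μ = 2 * c
  nrm : K.Normal
  fin : K.FiniteIndex
  lev : ∀ g ∈ K, (g : Mtˣ) ∈ GC O z (Cls_620.pz z * μ)

/-- the swap datum -/
theorem KD.swD {h : Z5r O z} {μ : Fin 2 → ℂ} {K : Subgroup (GU O z)} (H : KD h μ K) :
    SwD K (swG h) :=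
  GInG_502.swD h H.nrm H.lev (by linarith [H.big])

/-- the representation of `Gh` -/
abbrev rhG (h : Z5r O z) {K : Subgroup (GU O z)} (D : SwD K (swG h)) : D.Gh →* UG 3 :=
  (rho h).comp D.Gh.subtype

section main

variable {h : Z5r O z} {μ : Fin 2 → ℂ} {K : Subgroup (GU O z)} (H : KD h μ K)
  (D : SwD K (swG h))

include H

/-- **freeness of `K`** on the ball -/
theorem free_K {g : GU O z} (hg : g ∈ K) {q : E 3} (hq : q ∈ Ball 3) (hf : act (rho h g) q = q) :
    g = 1 :=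
  gc_free h (O.mul_mem h.toZ5.pz_mem H.mem) H.big g (H.lev g hg) hq hf

/-- **stabilisers** -/
theorem stab_Gh {q : E 3} (hq : q ∈ Ball 3) :
    (∀ g : D.Gh, act (rhG h D g) q = q → g = 1) ∨
      ∃ (s : D.Gh) (r : Fin 4 → Fin 2 → ℂ), s * s = 1 ∧ s.1 ∉ K ∧
        Cls_620.Mir O z μ r ∧
        (∀ v, (((s.1 : GU O z) : Mtˣ) : Mt) *ᵥ v = Cls_620.rf (Cls_620.HH z) r v) ∧
        IsPR (rhG h D s) (io h r).1 ((dd z 0 : ℂ)⁻¹) ∧ lin (io h r).1 q = 0 ∧
        jj (rhG h D s) q = 1 ∧ act (rhG h D s) q = q ∧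
        ∀ g : D.Gh, act (rhG h D g) q = q → g = 1 ∨ g = s := by
  by_cases hall : ∀ g : D.Gh, act (rhG h D g) q = q → g = 1
  · exact Or.inl hall
  · right
    push Not at hall
    obtain ⟨s, hs, hs1⟩ := hall
    rcases fix_Gh h D H.mem H.big H.two H.lev s.2 hq hs with h1 | ⟨h1, h2, r, hr, hact, hlin, hjj⟩
    · exact absurd (Subtype.ext h1) hs1
    · refine ⟨s, r, Subtype.ext h2, h1, hr, hact, isPR_of_rf h hr.two hact, hlin, hjj, hs, ?_⟩
      intro g hg
      rcases fix_Gh h D H.mem H.big H.two H.lev g.2 hq hg with h3 | ⟨h3, -, -⟩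
      · exact Or.inl (Subtype.ext h3)
      · exact Or.inr (Subtype.ext (fix_unique h D H.mem H.big H.lev s.2 g.2 h1 h3 hq hs hg))

omit H in
theorem pds : ProperlyDiscontinuousSMul D.Gh (BX (rhG h D)) :=
  pds_ball _ (proper_sub h D.Gh)

omit H in
instance ccs : ContinuousConstSMul D.Gh (BX (rhG h D)) := ccs_ball _

/-- **`RA` for the ball** -/
theorem ra : RA (ballFam (rhG h D)) D.Gh := by
  have := pds (h := h) D
  refine ra_ball (rhG h D) fun x => ?_
  rcases stab_Gh H D x.mem with h1 | ⟨s, r, h1, h2, h3, h4, h5, h6, h7, h8, h9⟩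
  · exact Or.inl fun g hg => h1 g (congrArg BX.val hg)
  · exact Or.inr ⟨s, _, _, h1, h5, h6, fun g hg => h9 g (congrArg BX.val hg)⟩

/-- stabilisers of points of the ball, literal input of 302's ACTION (B) -/
theorem base_st (x : BX (rhG h D)) : (∀ g : D.Gh, g • x = x → g = 1) ∨
    ∃ s : D.Gh, s * s = 1 ∧ s • x = x ∧ (∀ g : D.Gh, g • x = x → g = 1 ∨ g = s) ∧ s.1 ∉ K ∧
      ReflAt (ballFam (rhG h D)) (fun y => s • y) x := by
  rcases stab_Gh H D x.mem with h1 | ⟨s, r, h1, h2, h3, h4, h5, h6, h7, h8, h9⟩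
  · exact Or.inl fun g hg => h1 g (congrArg BX.val hg)
  · exact Or.inr ⟨s, h1, BX.ext h8, fun g hg => h9 g (congrArg BX.val hg), h2,
      reflAt_ball (rhG h D) h5 h6⟩

/-- cocompactness with elements of `K` -/
theorem cocpt_K : ∃ r : ℝ, r < 1 ∧ ∀ q ∈ Ball 3, ∃ g : D.Gh, g.1 ∈ K ∧
    ‖act (rhG h D g) q‖ ≤ r := by
  obtain ⟨r, hr, hc⟩ := cocpt_sub h K H.fin
  refine ⟨r, hr, fun q hq => ?_⟩
  obtain ⟨g, hg⟩ := hc q hq
  exact ⟨⟨g.1, D.K_le g.2⟩, g.2, hg⟩

theorem compactSpace_orb : CompactSpace (Orb D.Gh (BX (rhG h D))) := by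
  refine compact_ball _ ?_
  obtain ⟨r, hr, hc⟩ := cocpt_K H D
  exact ⟨r, hr, fun q hq => by
    obtain ⟨g, -, hg⟩ := hc q hq
    exact ⟨g, hg⟩⟩

omit H in
/-- `K` inside `Gh` -/
def KG (D : SwD K (swG h)) : Subgroup D.Gh := K.subgroupOf D.Gh

omit H in
theorem mem_KG {g : D.Gh} : g ∈ KG D ↔ g.1 ∈ K := Iff.rfl

theorem KG_normal : (KG D).Normal := by
  have := H.nrm
  exact Subgroup.Normal.subgroupOf this _

omit H in
/-- the swap inside `Gh` -/
def s0 (D : SwD K (swG h)) : D.Gh := ⟨swG h, D.s_mem⟩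

omit H in
theorem s0_not : s0 D ∉ KG D := D.nmem

omit H in
theorem s0_sq : s0 D * s0 D = 1 := Subtype.ext (swG_sq h)

omit H in
theorem s0_inv : (s0 D)⁻¹ = s0 D := inv_eq_of_mul_eq_one_left (s0_sq D)

theorem idx (g : D.Gh) : g ∈ KG D ∨ (s0 D)⁻¹ * g ∈ KG D := by
  rcases D.mem_Gh.1 g.2 with h1 | h1
  · exact Or.inl h1
  · right
    rw [s0_inv]
    show swG h * g.1 ∈ K
    have h2 := H.nrm.conj_mem _ h1 (swG h)
    have e : swG h * (g.1 * swG h) * (swG h)⁻¹ = swG h * g.1 := by group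
    rwa [e] at h2

theorem free_KG : ∀ g ∈ KG D, ∀ x : BX (rhG h D), g • x = x → g = 1 := by
  intro g hg x hx
  apply Subtype.ext
  exact free_K H hg x.mem (congrArg BX.val hx)

/-- **the base `N' = Orb Gh B`** (246's `exists_base`) -/
theorem base : T2Space (Orb D.Gh (BX (rhG h D))) ∧ CompactSpace (Orb D.Gh (BX (rhG h D))) ∧
    ConnectedSpace (Orb D.Gh (BX (rhG h D))) ∧
    ∃ B : Atl 3 (Orb D.Gh (BX (rhG h D))), Finite B.ι ∧ GoodA B ∧ Nonempty (Part B) ∧
      HolC (fam B) (ra H D).fam id ∧ HolC (ra H D).fam (fam B) id ∧ Nonempty (ProjD B) := by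
  have h1 := pds (h := h) D
  have h2 := ccs (h := h) D
  have h3 := KG_normal H D
  obtain ⟨r, hr, hc⟩ := cocpt_K H D
  exact Crest.Agent.R272.BBase_246.exists_base (ra H D) h1 (KG D) (free_KG H D) (s0_not D)
    (by rw [s0_sq]; exact (KG D).one_mem) (idx H D) hr hc

end main

end

end Crest.Agent.R272.Gi_295
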