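import Crest.Agent.R272.GInG2_502
import Crest.Agent.R272.Act1_302
import Crest.Agent.R272.GLoc5_620
import Crest.Agent.R272.Gi1_295
import Crest.Agent.R272.AROut_641

/-!
Row 272, GINST (helper502), part 3: the literal `GAct` (302) of `Gh` on 620's `gdata`, and
`RA (ballFam ρ̂) Gh` (783), for roots `R0 a` over a normal subgroup `K` of `GU O z`.
-/

set_option autoImplicit false
set_option linter.unusedSectionVars false
set_option linter.unusedVariables false

open scoped ComplexConjugate Topology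
open Filter Matrix Set

namespace Crest.Agent.R272.GInG_502

open Crest.Agent.R272.EBase_641 Crest.Agent.R272.In_68 Crest.Agent.R272.O5_74
open Crest.Agent.R272.Quot_783 Crest.Agent.R272.MQ_783 Crest.Agent.R272.GI_620
open Crest.Agent.R272.Act_302
open Crest.Agent.R272.Gi_295 (rhG KD)
open Crest.Agent.R272.Cls_620 (Lb SS VV sw Mir rf HH pz Deep)
open Crest.Agent.R272.Gr_559 (GData)

noncomputable section

/-! ### the permutation of the colours -/

section perm

variable {Γ : Type} [Group Γ] {K : Subgroup Γ} {s : Γ} (D : SwD K s)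

open Classical in
/-- permutation of the two colours -/
def sgF (K : Subgroup Γ) (g : Γ) : Equiv.Perm (Fin 2) := if g ∈ K then 1 else Equiv.swap 0 1

theorem col_inj {i j : Fin 2} (h : col i = col j) : i = j := by
  revert i j; decide

theorem col_sgF (g : Γ) (i : Fin 2) : col (sgF K g i) = sgn K g (col i) := by
  by_cases h : g ∈ K
  · rw [sgn_of_mem h, sgF, if_pos h]; rfl
  · rw [sgn_of_not h, sgF, if_neg h]
    revert i; decide

/-- the permutation of the colours, as a homomorphism -/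
def sgH : D.Gh →* Equiv.Perm (Fin 2) where
  toFun g := sgF K g.1
  map_one' := by
    rw [sgF, if_pos]
    exact K.one_mem
  map_mul' g h := by
    refine Equiv.ext fun i => col_inj ?_
    rw [Equiv.Perm.mul_apply, col_sgF, col_sgF, col_sgF]
    exact D.sgn_mul g.2 h.2 _

theorem col_sgH (g : D.Gh) (i : Fin 2) : col (sgH D g i) = sgn K g.1 (col i) := col_sgF g.1 i

theorem sgH_of_mem {g : D.Gh} (h : g.1 ∈ K) : sgH D g = 1 := if_pos h

theorem sgH_of_not {g : D.Gh} (h : g.1 ∉ K) : sgH D g = Equiv.swap 0 1 := if_neg h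

end perm

/-! ### the roots -/

/-- a root structure with another name of the class -/
def rootCast {n k : ℕ} {G : Type} [Group G] {ρ : G →* UG n} {S S' : Set (V1 n)} (e : S = S')
    (R : Root n k ρ S) : Root n k ρ S' where
  f := R.f
  j := R.j
  f_hol := R.f_hol
  fin := by subst e; exact R.fin
  f_div := by subst e; exact R.f_div
  j_hol := R.j_hol
  j_ne := R.j_ne
  j_mul := R.j_mul
  f_act := R.f_act

theorem rootCast_f {n k : ℕ} {G : Type} [Group G] {ρ : G →* UG n} {S S' : Set (V1 n)} (e : S = S')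
    (R : Root n k ρ S) : (rootCast e R).f = R.f := rfl

variable {O : Subring (Fin 2 → ℂ)} {z μ : Fin 2 → ℂ} (h : Z5r O z) {K : Subgroup (GU O z)}
  (D : SwD K (swG h)) (R0 : ∀ a : Lb, Root 3 2 ((rho h).comp K.subtype) (SS h μ a))

theorem SSn (μ : Fin 2 → ℂ) : {v | (rho h (swG h)).1 v ∈ SS h μ (.n false)} = SS h μ (.n true) :=
  SS_sw_eq h (.n false)

theorem SSv (μ : Fin 2 → ℂ) (j : Fin 5) :
    {v | (rho h (swG h)).1 v ∈ SS h μ (.v false j)} = SS h μ (.v true j) :=
  SS_sw_eq h (.v false j)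

theorem SSb (μ : Fin 2 → ℂ) (j : Fin 5) :
    {v | (rho h (swG h)).1 v ∈ SS h μ (.b false j)} = SS h μ (.b true j) :=
  SS_sw_eq h (.b false j)

/-- **the roots**: colour `true` is the conjugate of colour `false` -/
def RR : ∀ a : Lb, Root 3 2 ((rho h).comp K.subtype) (SS h μ a)
  | .o => R0 .o
  | .n false => R0 (.n false)
  | .n true => rootCast (SSn h μ) (rootConj D (R0 (.n false)))
  | .v false j => R0 (.v false j)
  | .v true j => rootCast (SSv h μ j) (rootConj D (R0 (.v false j)))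
  | .b false j => R0 (.b false j)
  | .b true j => rootCast (SSb h μ j) (rootConj D (R0 (.b false j)))

theorem RR_n (b : Bool) {q : E 3} (hq : q ∈ Ball 3) :
    (RR h D R0 (.n b)).f q = FF D (R0 (.n false)) b q := by
  cases b
  · exact (FF_false D (R0 (.n false))).symm
  · exact congrFun (rootCast_f (SSn h μ) (rootConj D (R0 (.n false)))) q

theorem RR_v (j : Fin 5) (b : Bool) {q : E 3} (hq : q ∈ Ball 3) :
    (RR h D R0 (.v b j)).f q = FF D (R0 (.v false j)) b q := by
  cases b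
  · exact (FF_false D (R0 (.v false j))).symm
  · exact congrFun (rootCast_f (SSv h μ j) (rootConj D (R0 (.v false j)))) q

theorem RR_b (j : Fin 5) (b : Bool) {q : E 3} (hq : q ∈ Ball 3) :
    (RR h D R0 (.b b j)).f q = FF D (R0 (.b false j)) b q := by
  cases b
  · exact (FF_false D (R0 (.b false j))).symm
  · exact congrFun (rootCast_f (SSb h μ j) (rootConj D (R0 (.b false j)))) q

theorem RR_sw (a : Lb) {q : E 3} (hq : q ∈ Ball 3) :
    (RR h D R0 (sw a)).f (act (rho h (swG h)) q) = (RR h D R0 a).f q ∨ a = .o := by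
  have hs : act (rho h (swG h)) (act (rho h (swG h)) q) = q := by
    rw [← act_mul _ _ hq, ← map_mul, swG_sq, map_one, act_one]
  have hq' := act_mem (rho h (swG h)) hq
  cases a with
  | o => exact Or.inr rfl
  | n b =>
    left
    cases b
    · rw [show sw (.n false) = .n true from rfl, RR_n h D R0 _ hq', RR_n h D R0 _ hq, FF_true, hs,
        FF_false]
    · rw [show sw (.n true) = .n false from rfl, RR_n h D R0 _ hq', RR_n h D R0 _ hq, FF_true,
        FF_false]
  | v b j =>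
    left
    cases b
    · rw [show sw (.v false j) = .v true j from rfl, RR_v h D R0 _ _ hq', RR_v h D R0 _ _ hq,
        FF_true, hs, FF_false]
    · rw [show sw (.v true j) = .v false j from rfl, RR_v h D R0 _ _ hq', RR_v h D R0 _ _ hq,
        FF_true, FF_false]
  | b b j =>
    left
    cases b
    · rw [show sw (.b false j) = .b true j from rfl, RR_b h D R0 _ _ hq', RR_b h D R0 _ _ hq,
        FF_true, hs, FF_false]
    · rw [show sw (.b true j) = .b false j from rfl, RR_b h D R0 _ _ hq', RR_b h D R0 _ _ hq,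
        FF_true, FF_false]

variable (hK : ∀ g ∈ K, (g : Mtˣ) ∈ GC O z (pz z * μ))

/-- `holF` of a function on the ball -/
theorem holF_ball {Γ : Type} [Group Γ] (ρ' : Γ →* UG 3) {u : E 3 → ℂ}
    (hu : DifferentiableOn ℂ u (Ball 3)) : HolF (ballFam ρ') univ (fun x : BX ρ' => u x.val) :=
  holF_of ρ' fun x _ => (hu _ x.mem).differentiableAt (ball_nhds x.mem)

theorem alg5 (a b c d e A B C D' E' : ℂ) :
    (a ^ 2 * A) * (b ^ 2 * B) * (c ^ 2 * C) * ((d ^ 2 * D') * (e ^ 2 * E')) =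
      (a * b * c * (d * e)) ^ 2 * (A * B * C * (D' * E')) := by ring

theorem alg4 (a b c d A B C D' : ℂ) :
    (a ^ 2 * A) * (b ^ 2 * B) * (c ^ 2 * C) * (d ^ 2 * D') =
      (a * b * c * d) ^ 2 * (A * B * C * D') := by ring

theorem alg5' (a b c d e A B C D' E' : ℂ) :
    (a * A) * (b * B) * (c * C) * ((d * D') * (e * E')) =
      (a * b * c * (d * e)) * (A * B * C * (D' * E')) := by ring

theorem alg4' (a b c d A B C D' : ℂ) :
    (a * A) * (b * B) * (c * C) * (d * D') = (a * b * c * d) * (A * B * C * D') := by ring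

theorem alg2 (a A : ℂ) : (a * A) ^ 2 = a ^ 2 * A ^ 2 := by ring

/-- the factors of the four functions -/
def fx (g : D.Gh) (b : Bool) (q : E 3) : ℂ := JJ D (R0 (.v false 0)) g b q ^ 2

def fp (g : D.Gh) (b : Bool) (q : E 3) : ℂ :=
  JJ D (R0 (.v false 1)) g b q * JJ D (R0 (.v false 2)) g b q * JJ D (R0 (.n false)) g b q *
    (JJ D (R0 (.b false 1)) g b q * JJ D (R0 (.b false 2)) g b q)

def fq (g : D.Gh) (b : Bool) (q : E 3) : ℂ :=
  JJ D (R0 (.v false 3)) g b q * JJ D (R0 (.v false 4)) g b q * JJ D (R0 (.v false 0)) g b q *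
    JJ D (R0 (.b false 4)) g b q

theorem sv_act (j : Fin 5) (g : D.Gh) (b : Bool) {q : E 3} (hq : q ∈ Ball 3) :
    (RR h D R0 (.v (sgn K g.1 b) j)).f (act (rho h g.1) q) =
      JJ D (R0 (.v false j)) g b q ^ 2 * (RR h D R0 (.v b j)).f q := by
  rw [RR_v h D R0 j _ (act_mem _ hq), RR_v h D R0 j _ hq]
  exact FF_act D (R0 (.v false j)) g b hq

theorem sn_act (g : D.Gh) (b : Bool) {q : E 3} (hq : q ∈ Ball 3) :
    (RR h D R0 (.n (sgn K g.1 b))).f (act (rho h g.1) q) =
      JJ D (R0 (.n false)) g b q ^ 2 * (RR h D R0 (.n b)).f q := by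
  rw [RR_n h D R0 _ (act_mem _ hq), RR_n h D R0 _ hq]
  exact FF_act D (R0 (.n false)) g b hq

theorem sb_act (j : Fin 5) (g : D.Gh) (b : Bool) {q : E 3} (hq : q ∈ Ball 3) :
    (RR h D R0 (.b (sgn K g.1 b) j)).f (act (rho h g.1) q) =
      JJ D (R0 (.b false j)) g b q ^ 2 * (RR h D R0 (.b b j)).f q := by
  rw [RR_b h D R0 j _ (act_mem _ hq), RR_b h D R0 j _ hq]
  exact FF_act D (R0 (.b false j)) g b hq

theorem FP_act (g : D.Gh) (b : Bool) {q : E 3} (hq : q ∈ Ball 3) :
    FP h (RR h D R0) (sgn K g.1 b) (act (rho h g.1) q) =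
      fp h D R0 g b q ^ 2 * FP h (RR h D R0) b q := by
  unfold FP fp
  rw [sv_act h D R0 1 g b hq, sv_act h D R0 2 g b hq, sn_act h D R0 g b hq,
    sb_act h D R0 1 g b hq, sb_act h D R0 2 g b hq]
  exact alg5 _ _ _ _ _ _ _ _ _ _

theorem FQ_act (g : D.Gh) (b : Bool) {q : E 3} (hq : q ∈ Ball 3) :
    FQ h (RR h D R0) (sgn K g.1 b) (act (rho h g.1) q) =
      fq h D R0 g b q ^ 2 * FQ h (RR h D R0) b q := by
  unfold FQ fq
  rw [sv_act h D R0 3 g b hq, sv_act h D R0 4 g b hq, sv_act h D R0 0 g b hq,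
    sb_act h D R0 4 g b hq]
  exact alg4 _ _ _ _ _ _ _ _

theorem fx_mul (g g' : D.Gh) (b : Bool) {q : E 3} (hq : q ∈ Ball 3) :
    fx h D R0 (g * g') b q =
      fx h D R0 g (sgn K g'.1 b) (act (rho h g'.1) q) * fx h D R0 g' b q := by
  unfold fx
  rw [JJ_mul D _ g g' _ hq]
  exact alg2 _ _

theorem fp_mul (g g' : D.Gh) (b : Bool) {q : E 3} (hq : q ∈ Ball 3) :
    fp h D R0 (g * g') b q =
      fp h D R0 g (sgn K g'.1 b) (act (rho h g'.1) q) * fp h D R0 g' b q := by
  unfold fp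
  rw [JJ_mul D (R0 (.v false 1)) g g' _ hq, JJ_mul D (R0 (.v false 2)) g g' _ hq,
    JJ_mul D (R0 (.n false)) g g' _ hq, JJ_mul D (R0 (.b false 1)) g g' _ hq,
    JJ_mul D (R0 (.b false 2)) g g' _ hq]
  exact alg5' _ _ _ _ _ _ _ _ _ _

theorem fq_mul (g g' : D.Gh) (b : Bool) {q : E 3} (hq : q ∈ Ball 3) :
    fq h D R0 (g * g') b q =
      fq h D R0 g (sgn K g'.1 b) (act (rho h g'.1) q) * fq h D R0 g' b q := by
  unfold fq
  rw [JJ_mul D (R0 (.v false 3)) g g' _ hq, JJ_mul D (R0 (.v false 4)) g g' _ hq,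
    JJ_mul D (R0 (.v false 0)) g g' _ hq, JJ_mul D (R0 (.b false 4)) g g' _ hq]
  exact alg4' _ _ _ _ _ _ _ _

theorem SSo_ne : ∀ v ∈ SS h μ .o, v.1 ≠ 0 := fun _ hv => SS_ne h hv

/-- **the action data** of `Gh` on 620's `gdata` -/
def gact (hμ : μ ∈ O) (hD : Deep O z μ 2) :
    GAct (gdata h (RR h D R0) (rhG h D) hμ hD) D.Gh where
  σ := sgH D
  j0 g x := J0 D (R0 .o) (SSo_ne h) (Gh_SS h D hK) g x.val
  j g i x := fx h D R0 g (col i) x.val
  p g i x := fp h D R0 g (col i) x.val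
  q g i x := fq h D R0 g (col i) x.val
  hol g := holC_smul _ g
  j0_hol g := holF_ball _ (J0_hol D (R0 .o) (SSo_ne h) (Gh_SS h D hK) g)
  j_hol g i := holF_ball _ ((JJ_hol D _ g _).pow 2)
  p_hol g i := holF_ball _ ((((JJ_hol D _ g _).mul (JJ_hol D _ g _)).mul (JJ_hol D _ g _)).mul
    ((JJ_hol D _ g _).mul (JJ_hol D _ g _)))
  q_hol g i := holF_ball _ ((((JJ_hol D _ g _).mul (JJ_hol D _ g _)).mul (JJ_hol D _ g _)).mul
    (JJ_hol D _ g _))
  j0_ne g x := J0_ne D (R0 .o) (SSo_ne h) (Gh_SS h D hK) g x.mem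
  j_ne g i x := pow_ne_zero _ (JJ_ne D _ g _ x.mem)
  p_ne g i x := mul_ne_zero (mul_ne_zero (mul_ne_zero (JJ_ne D _ g _ x.mem) (JJ_ne D _ g _ x.mem))
    (JJ_ne D _ g _ x.mem)) (mul_ne_zero (JJ_ne D _ g _ x.mem) (JJ_ne D _ g _ x.mem))
  q_ne g i x := mul_ne_zero (mul_ne_zero (mul_ne_zero (JJ_ne D _ g _ x.mem) (JJ_ne D _ g _ x.mem))
    (JJ_ne D _ g _ x.mem)) (JJ_ne D _ g _ x.mem)
  f0_smul g x := J0_act D (R0 .o) (SSo_ne h) (Gh_SS h D hK) g x.mem
  x_smul g i x := by
    have e := sv_act h D R0 0 g (col i) x.mem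
    rw [← col_sgH D g i] at e
    exact e
  P_smul g i x := by
    have e := FP_act h D R0 g (col i) x.mem
    rw [← col_sgH D g i] at e
    exact e
  Q_smul g i x := by
    have e := FQ_act h D R0 g (col i) x.mem
    rw [← col_sgH D g i] at e
    exact e
  j0_mul g g' x := J0_mul D (R0 .o) (SSo_ne h) (Gh_SS h D hK) g g' x.mem
  j_mul g g' i x := by
    have e := fx_mul h D R0 g g' (col i) x.mem
    rw [← col_sgH D g' i] at e
    exact e
  p_mul g g' i x := by
    have e := fp_mul h D R0 g g' (col i) x.mem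
    rw [← col_sgH D g' i] at e
    exact e
  q_mul g g' i x := by
    have e := fq_mul h D R0 g g' (col i) x.mem
    rw [← col_sgH D g' i] at e
    exact e

theorem gact_σ (hμ : μ ∈ O) (hD : Deep O z μ 2) (g : D.Gh) :
    (gact h D R0 hK hμ hD).σ g = sgH D g := rfl

/-- an element with a fixed point is trivial or swaps the colours -/
theorem sgn_fix (H : KD h μ K) (g : D.Gh) (x : BX (rhG h D)) (hg : g • x = x) (h1 : g ≠ 1) :
    sgH D g = Equiv.swap 0 1 := by
  have hgf : act (rho h g.1) x.val = x.val := congrArg BX.val hg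
  rcases fix_Gh h D H.mem H.big H.two H.lev g.2 x.mem hgf with h1' | ⟨hgK, -⟩
  · exact absurd (Subtype.ext h1') h1
  · exact sgH_of_not D hgK

/-- **everything from division E**: for every level `μ` and every finite index subgroup `K0`, a
normal finite index subgroup `K ≤ K0` with `KD` and roots for all classes. -/
theorem exists_KR (hE : EMain) (hμL : I2_939.Lvl O z μ) (hμ : μ ∈ O)
    (hN : 64 < ∏ t, ‖(pz z * μ) t‖) (h2 : ∃ c ∈ O, μ = 2 * c)
    (K0 : Subgroup (GU O z)) (hK0 : K0.FiniteIndex) :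
    ∃ K : Subgroup (GU O z), KD h μ K ∧ K ≤ K0 ∧
      Nonempty (∀ a : Lb, Root 3 2 ((rho h).comp K.subtype) (SS h μ a)) := by
  obtain ⟨K, k1, k2, k3, k4, k5⟩ := AROut_641.arOut_of hE h hμL 2 two_pos K0 hK0
  refine ⟨K, ⟨hμ, hN, h2, k1, k2, fun g hg => k4 hg⟩, k3, ⟨fun a => (k5 a).some⟩⟩

end

end Crest.Agent.R272.GInG_502
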