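import Crest.Agent.R272.Act1_302
import Crest.Agent.R272.MQ3_783

/-!
# R272 (S0415), leaf MQ (helper783), part 5: the quotients of the model `X1` of a `GAct`

* `exists_pt`, `dense_nonflat`, `surjective_pz`, `nonempty_X` : `X1 → N` is surjective;
* `XM A = Orb G A.X` (the space `X⁻`), `bM`, the projection `piM A : Orb G A.X → Orb G N`;
* `t2_XM`, `compact_XM`, `isProperMap_piM`, `surjective_piM`, `ra_X` (from the stabiliser clause), `holC_piM`;
* the same for the subgroups `R` of `G`.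
-/

set_option autoImplicit false
set_option linter.unusedSectionVars false

open Set Filter Topology

namespace Crest.Agent.R272.MQ_783

open Crest.Agent.R275.Geo Crest.Agent.R273.Fam_835 Crest.Agent.R272.Quot_783
  Crest.Agent.R272.Gr_559 Crest.Agent.R272.P1A_54 Crest.Agent.R272.Refl_246
  Crest.Agent.R272.Act_302

noncomputable section

variable {N : Type} [TopologicalSpace N] {F : Fam 3 N}

section Surj

variable (D : GData F)

/-- `k² = P / Q` is solvable -/
theorem exists_root (P Q : ℂ) : ∃ k : P1, P1.n k ^ 2 * Q = P1.d k ^ 2 * P := by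
  by_cases hQ : Q = 0
  · refine ⟨OnePoint.infty, ?_⟩
    rw [P1.n_infty, P1.d_infty, hQ]
    ring
  · obtain ⟨c, hc⟩ := IsAlgClosed.exists_pow_nat_eq (P / Q) (n := 2) two_pos
    refine ⟨(c : P1), ?_⟩
    rw [P1.n_coe, P1.d_coe, hc]
    field_simp

/-- off the flats there is a point of `X1` -/
theorem exists_pt {z : N} (hz : ∀ i, ¬ (D.f0 z = 0 ∧ D.x i z = 0)) :
    ∃ y : D.X1, D.pz y = z := by
  choose k hk using fun i : Fin 2 => exists_root (D.P i z) (D.Q i z)
  have ht : ∀ i, D.x i z * (P1.mk (D.x i z) (D.f0 z)).d =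
      D.f0 z * (P1.mk (D.x i z) (D.f0 z)).n := fun i =>
    P1.rel_mk fun h => hz i ⟨h.2, h.1⟩
  have hY : ∀ i, ((z, P1.mk (D.x i z) (D.f0 z), k i) : N × P1 × P1) ∈ D.Y i := fun i =>
    subset_closure ⟨hz i, ht i, hk i⟩
  refine ⟨⟨(z, fun i => P1.mk (D.x i z) (D.f0 z), P1.mk (D.x 0 z * D.x 1 z) (D.f0 z), k), hY,
    ?_, ?_⟩, rfl⟩
  · change P1.n (P1.mk (D.x 0 z * D.x 1 z) (D.f0 z)) * P1.d (P1.mk (D.x 0 z) (D.f0 z)) =
      P1.d (P1.mk (D.x 0 z * D.x 1 z) (D.f0 z)) * P1.n (P1.mk (D.x 0 z) (D.f0 z)) * D.x 1 z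
    by_cases h0 : D.f0 z = 0
    · rw [h0]
      simp
    · rw [P1.mk_of_ne h0, P1.mk_of_ne h0]
      simp only [P1.n_coe, P1.d_coe]
      field_simp
  · change P1.n (P1.mk (D.x 0 z * D.x 1 z) (D.f0 z)) * P1.d (P1.mk (D.x 1 z) (D.f0 z)) =
      P1.d (P1.mk (D.x 0 z * D.x 1 z) (D.f0 z)) * P1.n (P1.mk (D.x 1 z) (D.f0 z)) * D.x 0 z
    by_cases h0 : D.f0 z = 0
    · rw [h0]
      simp
    · rw [P1.mk_of_ne h0, P1.mk_of_ne h0]
      simp only [P1.n_coe, P1.d_coe]
      field_simp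

/-- a function with a non zero differential at a zero is not locally zero -/
theorem frequently_of_dd {s : N → ℂ} {q : N} (h : ∀ i, q ∈ (F.e i).source → ∃ v, dd F i s q v = 1) :
    ∃ᶠ z in 𝓝 q, s z ≠ 0 := by
  intro hev
  obtain ⟨i, hi⟩ := F.cover q
  obtain ⟨v, hv⟩ := h i hi
  have h1 : ∀ᶠ w in 𝓝 (F.e i q), s ((F.e i).symm w) = 0 := by
    have h2 := (F.e i).continuousAt_symm ((F.e i).map_source hi)
    rw [ContinuousAt, (F.e i).left_inv hi] at h2
    exact h2.eventually (hev.mono fun z hz => not_not.1 hz)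
  have h3 : dd F i s q = 0 := by
    unfold dd
    have h4 : (fun w => s ((F.e i).symm w)) =ᶠ[𝓝 (F.e i q)] fun _ => (0 : ℂ) := h1
    rw [h4.fderiv_eq]
    exact hasFDerivAt_const (0 : ℂ) (F.e i q) |>.fderiv
  rw [h3] at hv
  exact zero_ne_one hv

/-- the points off the flats are dense -/
theorem dense_nonflat : Dense {z : N | ∀ i, ¬ (D.f0 z = 0 ∧ D.x i z = 0)} := by
  intro q
  by_cases hq : ∀ i, ¬ (D.f0 q = 0 ∧ D.x i q = 0)
  · exact subset_closure hq
  have key : ∀ (x P Q : N → ℂ) (p : Pen F D.f0 x P Q q), (∃ᶠ z in 𝓝 q, p.s0 z ≠ 0) →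
      q ∈ closure {z : N | ∀ i, ¬ (D.f0 z = 0 ∧ D.x i z = 0)} := by
    intro x P Q p hp
    rw [mem_closure_iff_frequently]
    refine (hp.and_eventually (p.U_open.mem_nhds p.mem)).mono ?_
    rintro z ⟨h1, h2⟩ i ⟨h3, -⟩
    rw [p.ef z h2] at h3
    exact mul_ne_zero (p.a_ne z h2) h1 h3
  push Not at hq
  obtain ⟨i, h0, hx⟩ := hq
  have hs0 : ∀ (x P Q : N → ℂ) (p : Pen F D.f0 x P Q q), p.s0 q = 0 := by
    intro x P Q p
    have h1 := p.ef q p.mem
    rw [h0] at h1
    exact (mul_eq_zero.1 h1.symm).resolve_left (p.a_ne q p.mem)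
  by_cases hall : ∀ j, D.x j q = 0
  · obtain ⟨p, p', hpp, hS⟩ := D.ff q h0 (hall 0) (hall 1)
    refine key _ _ _ p (frequently_of_dd (F := F) fun j hj => ?_)
    obtain ⟨v, hv⟩ := hS j hj fun _ => 1
    exact ⟨v, hv 0 (hs0 _ _ _ p)⟩
  · push Not at hall
    obtain ⟨j, hj⟩ := hall
    have hij : i ≠ j := by rintro rfl; exact hj hx
    obtain ⟨p, hS⟩ := D.fr q i j hij h0 hx hj
    refine key _ _ _ p (frequently_of_dd (F := F) fun l hl => ?_)
    obtain ⟨v, hv⟩ := hS l hl fun _ => 1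
    exact ⟨v, hv 0 (hs0 _ _ _ p)⟩

theorem surjective_pz : Function.Surjective D.pz := by
  have h1 : IsClosed (range D.pz) := (Flat2_302.isProperMap_pz D).isClosedMap.isClosed_range
  have h2 : {z : N | ∀ i, ¬ (D.f0 z = 0 ∧ D.x i z = 0)} ⊆ range D.pz := fun z hz =>
    exists_pt D hz
  have h3 : range D.pz = univ := by
    rw [← h1.closure_eq]
    exact ((dense_nonflat D).mono h2).closure_eq
  exact range_eq_univ.1 h3

end Surj

/-! ### the quotient of the model -/

section Model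

variable {D : GData F} {G : Type} [Group G] [MulAction G N] (A : GAct D G)

theorem surjective_pzA : Function.Surjective A.pz := surjective_pz D

instance nonempty_X [Nonempty N] : Nonempty A.X := by
  obtain ⟨y, -⟩ := surjective_pzA A (Classical.arbitrary N)
  exact ⟨y⟩

/-- the space `X⁻` -/
abbrev XM : Type := Orb G A.X

/-- the projection `X⁻ → M` -/
def piM : XM A → Orb G N := orbMap A.pz A.pz_smul

@[simp] theorem piM_pr (y : A.X) : piM A (pr G y) = pr G (A.pz y) := rfl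

theorem continuous_piM : Continuous (piM A) := continuous_orbMap A.continuous_pz A.pz_smul

theorem surjective_piM : Function.Surjective (piM A) := by
  intro m
  obtain ⟨z, rfl⟩ := surjective_pr (G := G) m
  obtain ⟨y, rfl⟩ := surjective_pzA A z
  exact ⟨pr G y, rfl⟩

theorem isProperMap_piM [ContinuousConstSMul G N] : IsProperMap (piM A) :=
  isProperMap_orbMap A.isProperMap_pz A.pz_smul

theorem t2_XM [T2Space N] [LocallyCompactSpace N] [ProperlyDiscontinuousSMul G N] :
    T2Space (XM A) := by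
  have := A.properlyDiscontinuous
  have := A.locallyCompact
  exact t2_orb G A.X

theorem compact_XM [ContinuousConstSMul G N] [CompactSpace (Orb G N)] : CompactSpace (XM A) := by
  refine ⟨?_⟩
  rw [← preimage_univ (f := piM A)]
  exact (isProperMap_piM A).isCompact_preimage isCompact_univ

/-- the hypotheses of the quotient construction for `X1`, from the stabiliser clause -/
theorem ra_X (h : SubF_54.IsSl (ambFam F) D.X1 3) [T2Space N] [LocallyCompactSpace N]
    [ProperlyDiscontinuousSMul G N]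
    (hst : ∀ y : A.X, (∀ g : G, g • y = y → g = 1) ∨
      ∃ s : G, s * s = 1 ∧ s • y = y ∧ (∀ g : G, g • y = y → g = 1 ∨ g = s) ∧
        ReflAt (A.fam h) (fun v => s • v) y) : RA (A.fam h) G :=
  ⟨A.holC_smul h, A.pd, hst⟩

theorem holC_piM [ContinuousConstSMul G N] [Nonempty N]
    {h : SubF_54.IsSl (ambFam F) D.X1 3} (hX : RA (A.fam h) G) (hN : RA F G) :
    HolC hX.fam hN.fam (piM A) :=
  hX.holC_iff.2 (hN.holC_pr.comp (A.holC_pz h))

/-! ### the fibre of `piM` -/

theorem piM_fibre (z : N) : piM A ⁻¹' {pr G z} = pr G '' (A.pz ⁻¹' {z}) := by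
  ext m
  constructor
  · intro hm
    obtain ⟨y, rfl⟩ := surjective_pr (G := G) m
    have h1 : pr G (A.pz y) = pr G z := hm
    obtain ⟨g, hg⟩ := pr_eq_iff.1 h1
    exact ⟨g • y, by rw [mem_preimage, A.pz_smul, hg]; rfl, pr_smul g y⟩
  · rintro ⟨y, hy, rfl⟩
    have hy' : A.pz y = z := hy
    change pr G (A.pz y) = pr G z
    rw [hy']

end Model

end

end Crest.Agent.R272.MQ_783
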