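import Crest.Agent.R272.P0Defs_939
import Crest.Agent.R272.GLoc5_620
import Crest.Agent.R272.GInG2_502

/-!
# R272 (S0415): the base cluster point `p₀ = 0` of the ball (helper939)

* `par h`     : the branch slopes of the curve, `(w, w², 0 | w³, w⁴, 1)`, `w = conj (z 0)`;
* `flat_base` : the standard flats;
* `l0, l1`    : the three linear forms, multiples of the coordinates;
* `act_sw`    : the swap exchanges the last two coordinates;
* `bpt`       : the structure `BPt` for 620's `gdata` and 502's group `Gh = K ∪ K s`.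
-/

set_option autoImplicit false
set_option linter.unusedSectionVars false

open Set Filter Topology Matrix
open scoped ComplexConjugate

namespace Crest.Agent.R272.P0_939

open Crest.Agent.R272.EBase_641 Crest.Agent.R272.GLoc_620
open Crest.Agent.R272.Cls_620 Crest.Agent.R272.Quot_783 Crest.Agent.R272.GI_620
open Crest.Agent.R272.In_68 (Z5r io P0 rho GU Mt GC dd ww rr at' ww_pos rho_P0 io_fst P0_fst P0_snd)
open Crest.Agent.R272.Gr_559 (Pen GData SNC)
open Crest.Agent.R272.GInG_502 (SwD swG swD)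
open Crest.Agent.R272.O5_74 (swp)

noncomputable section

variable {O : Subring (Fin 2 → ℂ)} {z μ : Fin 2 → ℂ} (h : Z5r O z)

/-- the branch slopes -/
def par : Cur_297.Par := ⟨sl z, sl_inj h⟩

theorem par_c : (par h).c = sl z := rfl

/-! ### the standard flats -/

include h in
theorem flat_base (i : Bool) : Flat O z μ i e0 (ei i) where
  m0 := ⟨base_mem h.toZ5 .o, Cg.refl _ _, rfl⟩
  m1 := ⟨base_mem h.toZ5 (.n i), Cg.refl _ _, rfl⟩
  orth := by
    cases i <;> simp [Cls_620.hh, Fin.sum_univ_four, HH, e0, ei, e1, e2]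
  mv j := ⟨base_mem h.toZ5 (.v i j), Cg.refl _ _, rfl⟩

/-- the scale -/
def cc (z : Fin 2 → ℂ) : ℂ := (ww z 0 0 : ℂ)

include h in
theorem cc_ne : cc z ≠ 0 := by
  unfold cc
  exact_mod_cast (ww_pos h 0 0).ne'

theorem ww_eq (i : Fin 4) (hi : i ≠ 3) : ww z i 0 = ww z 0 0 := by
  have hr : ∀ j : Fin 4, j ≠ 3 → rr z j 0 = 1 := by
    intro j hj
    fin_cases j
    · simp [rr, HH]
    · simp [rr, HH]
    · simp [rr, HH]
    · exact absurd rfl hj
  unfold ww
  rw [hr i hi, hr 0 (by decide)]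

theorem lin_io_eq (v : Fin 4 → Fin 2 → ℂ) (q : E 3) :
    lin (io h v).1 q = cc z * (conj (v 0 0) * q 0 + conj (v 1 0) * q 1 + conj (v 2 0) * q 2)
      - (ww z 3 0 : ℂ) * conj (v 3 0) := by
  rw [lin, io_fst, PiLp.inner_apply, Fin.sum_univ_three]
  simp only [P0_fst, P0_snd, at', RCLike.inner_apply, map_mul, Complex.conj_ofReal]
  have e1 : ww z (Fin.castSucc (0 : Fin 3)) 0 = ww z 0 0 := rfl
  have e2 : ww z (Fin.castSucc (1 : Fin 3)) 0 = ww z 0 0 := ww_eq _ (by decide)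
  have e3 : ww z (Fin.castSucc (2 : Fin 3)) 0 = ww z 0 0 := ww_eq _ (by decide)
  rw [e1, e2, e3]
  have f0 : (Fin.castSucc (0 : Fin 3)) = (0 : Fin 4) := rfl
  have f1 : (Fin.castSucc (1 : Fin 3)) = (1 : Fin 4) := rfl
  have f2 : (Fin.castSucc (2 : Fin 3)) = (2 : Fin 4) := rfl
  rw [f0, f1, f2]
  unfold cc
  ring

theorem l0_eq (q : E 3) : lin (io h e0).1 q = cc z * q 0 := by
  rw [lin_io_eq]
  simp [e0]

theorem l1_false (q : E 3) : lin (io h (ei false)).1 q = cc z * q 1 := by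
  rw [lin_io_eq]
  simp [ei, e1]

theorem l1_true (q : E 3) : lin (io h (ei true)).1 q = cc z * q 2 := by
  rw [lin_io_eq]
  simp [ei, e2]

/-! ### the swap -/

theorem rho_sw (v : Fin 4 → ℂ) : (rho h (swG h)).1 (P0 h v) = P0 h ![v 0, v 2, v 1, v 3] := by
  rw [rho_P0]
  congr 1
  rw [In_68.gl_apply]
  funext i
  simp only [Matrix.mulVec, dotProduct, Fin.sum_univ_four, In_68.ev_apply]
  have e : ∀ i j, (((swG h : GU O z) : Mtˣ) : Mt) i j = swp i j := fun _ _ => rfl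
  have e' : ((swG h : Mtˣ) : Mt) = swp := rfl
  fin_cases i <;> simp +decide [e', swp, Fix1_74.Dat.swapM]

/-- the swap of the last two coordinates -/
def sw3 (q : E 3) : E 3 := WithLp.toLp 2 ![q 0, q 2, q 1]

@[simp] theorem sw3_zero (q : E 3) : sw3 q 0 = q 0 := rfl
@[simp] theorem sw3_one (q : E 3) : sw3 q 1 = q 2 := rfl
@[simp] theorem sw3_two (q : E 3) : sw3 q 2 = q 1 := rfl

theorem rho_sw' (v : V1 3) : (rho h (swG h)).1 v = (sw3 v.1, v.2) := by
  obtain ⟨x, rfl⟩ := (P0 h).surjective v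
  rw [rho_sw]
  have e2 : ww z 1 0 = ww z 0 0 := ww_eq _ (by decide)
  have e3 : ww z 2 0 = ww z 0 0 := ww_eq _ (by decide)
  refine Prod.ext ?_ ?_
  · ext i
    fin_cases i
    · rfl
    · show (ww z 1 0 : ℂ) * x 2 = (ww z 2 0 : ℂ) * x 2
      rw [e2, e3]
    · show (ww z 2 0 : ℂ) * x 1 = (ww z 1 0 : ℂ) * x 1
      rw [e2, e3]
  · rfl

theorem jj_sw (q : E 3) : jj (rho h (swG h)) q = 1 := by
  rw [jj, rho_sw']

theorem act_sw (q : E 3) : act (rho h (swG h)) q = sw3 q := by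
  rw [act, jj_sw, rho_sw', inv_one, one_smul]

/-! ### pens with known slopes -/

variable {G : Type} [Group G] {ρ : G →* UG 3} {kk : ℕ} (R : ∀ a : Lb, Root 3 kk ρ (SS h μ a))
variable {Γ : Type} [Group Γ] (ρ' : Γ →* UG 3)

/-- 620's normal form at a flat, with the slopes. -/
theorem pen_exists' {i : Bool} {f0 f1 : Fin 4 → Fin 2 → ℂ} (hD : Deep O z μ 2) {x : BX ρ'}
    (hf : Flat O z μ i f0 f1) (hf0 : Perp z (pt h x.val) f0) (hf1 : Perp z (pt h x.val) f1) :
    ∃ p : Pen (ballFam ρ') (fun y => (R .o).f y.val) (fun y => (R (.v i 0)).f y.val)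
        (fun y => FP h R i y.val) (fun y => FQ h R i y.val) x,
      p.s0 = (fun y => lin (io h f0).1 y.val) ∧ p.s1 = (fun y => lin (io h f1).1 y.val) ∧
        p.c = sl z := by
  obtain ⟨a, V1, o1, m1, d1, n1, e1⟩ := IsUM.nbhd (root_L h hD (R .o) x.mem hf.m0 hf0)
  obtain ⟨b, V2, o2, m2, d2, n2, e2⟩ := IsUM.nbhd (flat_v h R hD x.mem hf hf0 hf1 0)
  obtain ⟨u, V3, o3, m3, d3, n3, e3⟩ := IsUM.nbhd (flat_P h R hD x.mem hf hf0 hf1)
  obtain ⟨w, V4, o4, m4, d4, n4, e4⟩ := IsUM.nbhd (flat_Q h R hD x.mem hf hf0 hf1)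
  set U : Set (BX ρ') := BX.val ⁻¹' (V1 ∩ V2 ∩ (V3 ∩ V4)) with hU
  have hUo : IsOpen U := ((o1.inter o2).inter (o3.inter o4)).preimage BX.continuous_val
  refine ⟨{
    U := U
    U_open := hUo
    mem := ⟨⟨m1, m2⟩, m3, m4⟩
    s0 := fun y => lin (io h f0).1 y.val
    s1 := fun y => lin (io h f1).1 y.val
    a := fun y => a y.val
    b := fun y => b y.val
    u := fun y => u y.val
    w := fun y => w y.val
    c := sl z
    c_inj := sl_inj h
    s0_hol := holF_of ρ' fun y _ => (differentiable_lin _) _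
    s1_hol := holF_of ρ' fun y _ => (differentiable_lin _) _
    a_hol := holF_of ρ' fun y hy => d1.differentiableAt (o1.mem_nhds hy.1.1)
    b_hol := holF_of ρ' fun y hy => d2.differentiableAt (o2.mem_nhds hy.1.2)
    u_hol := holF_of ρ' fun y hy => d3.differentiableAt (o3.mem_nhds hy.2.1)
    w_hol := holF_of ρ' fun y hy => d4.differentiableAt (o4.mem_nhds hy.2.2)
    a_ne := fun y hy => n1 _ hy.1.1
    b_ne := fun y hy => n2 _ hy.1.2
    u_ne := fun y hy => n3 _ hy.2.1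
    w_ne := fun y hy => n4 _ hy.2.2
    ef := fun y hy => by rw [e1 _ hy.1.1, mul_comm]
    ex := fun y hy => by
      rw [e2 _ hy.1.2, mul_comm]
      rfl
    eP := fun y hy => by rw [e3 _ hy.2.1, mul_comm]
    eQ := fun y hy => by rw [e4 _ hy.2.2, mul_comm] }, rfl, rfl, rfl⟩

/-! ### the centre of the ball -/

/-- the centre -/
def o3 : BX ρ' := BX.mk ρ' 0 (by simp [Ball])

@[simp] theorem o3_val : (o3 ρ').val = 0 := rfl

theorem perp_e0 : Perp z (pt h (o3 ρ').val) e0 := by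
  rw [perp_iff, l0_eq, o3_val]
  simp

theorem perp_ei (i : Bool) : Perp z (pt h (o3 ρ').val) (ei i) := by
  rw [perp_iff, o3_val]
  cases i
  · rw [l1_false]; simp
  · rw [l1_true]; simp

theorem flatAt_o3 (i : Bool) : FlatAt O z μ i (pt h (o3 ρ').val) :=
  ⟨e0, ei i, flat_base h i, perp_e0 h ρ', perp_ei h ρ' i⟩

/-- **the pens at the centre** -/
theorem exists_pens (hμ : μ ∈ O) (hD : Deep O z μ 2) :
    ∃ (p : Pen (ballFam ρ') (gdata h R ρ' hμ hD).f0 ((gdata h R ρ' hμ hD).x 0)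
        ((gdata h R ρ' hμ hD).P 0) ((gdata h R ρ' hμ hD).Q 0) (o3 ρ'))
      (p' : Pen (ballFam ρ') (gdata h R ρ' hμ hD).f0 ((gdata h R ρ' hμ hD).x 1)
        ((gdata h R ρ' hμ hD).P 1) ((gdata h R ρ' hμ hD).Q 1) (o3 ρ')),
      (p.s0 = (fun y => cc z * y.val 0) ∧ p.s1 = (fun y => cc z * y.val 1) ∧ p.c = (par h).c) ∧
      (p'.s0 = (fun y => cc z * y.val 0) ∧ p'.s1 = (fun y => cc z * y.val 2) ∧
        p'.c = (par h).c) ∧
      SNC (ballFam ρ') (o3 ρ') ![p.s0, p.s1, p'.s1] := by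
  obtain ⟨p, a1, a2, a3⟩ := pen_exists' h R ρ' hD (i := col 0) (x := o3 ρ') (flat_base h _)
    (perp_e0 h ρ') (perp_ei h ρ' _)
  obtain ⟨p', b1, b2, b3⟩ := pen_exists' h R ρ' hD (i := col 1) (x := o3 ρ') (flat_base h _)
    (perp_e0 h ρ') (perp_ei h ρ' _)
  refine ⟨p, p', ⟨?_, ?_, a3⟩, ⟨?_, ?_, b3⟩, ?_⟩
  · rw [a1]; funext y; exact l0_eq h _
  · rw [a2]; funext y; exact l1_false h _
  · rw [b1]; funext y; exact l0_eq h _
  · rw [b2]; funext y; exact l1_true h _
  · rw [a1, a2, b2]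
    have h3 := snc_of ρ' (q := o3 ρ') (snc_clu h hD (o3 ρ').mem (flat_base h false)
      (flat_base h true) (perp_e0 h ρ') (perp_ei h ρ' false) (perp_ei h ρ' true))
    convert h3 using 1
    funext k
    fin_cases k <;> rfl

/-! ### the structure `BPt` for `Gh = K ∪ K s` -/

variable {K : Subgroup (GU O z)} (D : SwD K (swG h))

/-- `Gh` on the ball -/
abbrev rhG : D.Gh →* UG 3 := (rho h).comp D.Gh.subtype

/-- the swap as an element of `Gh` -/
def sG : D.Gh := ⟨swG h, D.s_mem⟩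

theorem sG_sq : sG h D * sG h D = 1 := Subtype.ext D.sq

theorem sG_ne : sG h D ≠ 1 := by
  intro e
  apply D.nmem
  have e' : swG h = 1 := congrArg Subtype.val e
  rw [e']
  exact K.one_mem

theorem val_sG (y : BX (rhG h D)) : (sG h D • y).val = sw3 y.val := act_sw h y.val

theorem sw3_z : sw3 (0 : E 3) = 0 := by
  ext i
  fin_cases i <;> simp [sw3]

theorem sG_fix : sG h D • (o3 (rhG h D)) = o3 (rhG h D) := by
  apply BX.ext
  rw [val_sG, o3_val, sw3_z]

/-- the stabiliser of the centre -/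
theorem stab_o3 (hμ : μ ∈ O) (hN : 64 < ∏ t, ‖(pz z * μ) t‖)
    (hK : ∀ g ∈ K, (g : Mtˣ) ∈ GC O z (pz z * μ)) (g : D.Gh)
    (hg : g • (o3 (rhG h D)) = o3 (rhG h D)) : g = 1 ∨ g = sG h D := by
  have hf : act (rho h g.1) (0 : E 3) = 0 := congrArg BX.val hg
  have hs : act (rho h (swG h)) (0 : E 3) = 0 := congrArg BX.val (sG_fix h D)
  have h0 : (0 : E 3) ∈ Ball 3 := (o3 (rhG h D)).mem
  by_cases hk : g.1 ∈ K
  · left
    apply Subtype.ext
    exact O5_74.gc_free h (O.mul_mem h.pz_mem hμ) hN g.1 (hK _ hk) h0 hf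
  · right
    apply Subtype.ext
    exact GInG_502.fix_unique h D hμ hN hK D.s_mem g.2 D.nmem hk h0 hs hf

/-- **the base cluster point** -/
theorem exists_bpt (hμ : μ ∈ O) (hD : Deep O z μ 2) (hN : 64 < ∏ t, ‖(pz z * μ) t‖)
    (hK : ∀ g ∈ K, (g : Mtˣ) ∈ GC O z (pz z * μ)) :
    ∃ B : BPt (gdata h R (rhG h D) hμ hD) (par h) D.Gh (o3 (rhG h D)) (sG h D),
      B.p.s0 = (fun y => cc z * y.val 0) ∧ B.p.s1 = (fun y => cc z * y.val 1) ∧
        B.p'.s1 = (fun y => cc z * y.val 2) := by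
  obtain ⟨p, p', ⟨a1, a2, a3⟩, ⟨b1, b2, b3⟩, hs⟩ := exists_pens h R (rhG h D) hμ hD
  have hfl := fun i => (flat_iff h R hD (o3 (rhG h D)).mem i).mpr (flatAt_o3 h (rhG h D) i)
  refine ⟨{
    p := p
    p' := p'
    s0_eq := b1.trans a1.symm
    c_eq := a3
    c'_eq := b3
    snc := hs
    s0_zero := by rw [a1]; show cc z * (0 : E 3) 0 = 0; simp
    s1_zero := by rw [a2]; show cc z * (0 : E 3) 1 = 0; simp
    s1'_zero := by rw [b2]; show cc z * (0 : E 3) 2 = 0; simp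
    f0_zero := (hfl false).1
    x_zero := fun i => (hfl (col i)).2
    s_sq := sG_sq h D
    s_ne := sG_ne h D
    s_fix := sG_fix h D
    stab := stab_o3 h D hμ hN hK
    s0_smul := fun y => by
      rw [a1]
      show cc z * (sG h D • y).val 0 = _
      rw [val_sG]; rfl
    s1_smul := fun y => by
      rw [a2, b2]
      show cc z * (sG h D • y).val 1 = _
      rw [val_sG]; rfl
    s1'_smul := fun y => by
      rw [a2, b2]
      show cc z * (sG h D • y).val 2 = _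
      rw [val_sG]; rfl }, a1, a2, b2⟩

end

end Crest.Agent.R272.P0_939
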