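import Crest.Agent.R272.Cur6_297
import Crest.Agent.R272.P0a_939

/-!
# R272, S15-REF (helper246), part 1: the slopes

`z0_eq : z 0 = exp (2πi/5)`, `sl_eq : sl z = Pz.c`, `par_eq : P0_939.par h = Cur_297.Pz`.
-/

set_option autoImplicit false
set_option linter.unusedSectionVars false

open scoped ComplexConjugate

namespace Crest.Agent.R272.Ref_246

open Crest.Agent.R272.EBase_641 Crest.Agent.R272.In_68 Crest.Agent.R272.GI_620

noncomputable section

variable {O : Subring (Fin 2 → ℂ)} {z : Fin 2 → ℂ}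

theorem cos_two_pi_div_five : Real.cos (2 * Real.pi / 5) = (Real.sqrt 5 - 1) / 4 := by
  have h : 2 * Real.pi / 5 = 2 * (Real.pi / 5) := by ring
  rw [h, Real.cos_two_mul, Real.cos_pi_div_five]
  have h5 : Real.sqrt 5 ^ 2 = 5 := Real.sq_sqrt (by norm_num)
  linear_combination (1 / 8) * h5

/-- the ball place of `z` -/
theorem z0_eq (h : Z5r O z) : z 0 = Complex.exp (2 * Real.pi * Complex.I / 5) := by
  have e1 : Complex.exp (2 * Real.pi * Complex.I / 5) =
      (Real.cos (2 * Real.pi / 5) : ℂ) + (Real.sin (2 * Real.pi / 5) : ℂ) * Complex.I := by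
    have h1 : 2 * (Real.pi : ℂ) * Complex.I / 5 = ((2 * Real.pi / 5 : ℝ) : ℂ) * Complex.I := by
      push_cast; ring
    rw [h1, Complex.exp_mul_I, ← Complex.ofReal_cos, ← Complex.ofReal_sin]
  have hre : (z 0).re = Real.cos (2 * Real.pi / 5) := by
    have h1 := h.at0
    rw [← conj_z h 0, Complex.add_conj] at h1
    have h2 := Complex.ofReal_injective h1
    rw [cos_two_pi_div_five]
    linarith
  have hn : (z 0).re ^ 2 + (z 0).im ^ 2 = 1 := by
    have h1 : z 0 * conj (z 0) = 1 := by
      rw [conj_z h 0]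
      have := z5t h 0
      rw [← this]; ring
    rw [Complex.mul_conj, Complex.normSq_apply] at h1
    have h2 : (z 0).re * (z 0).re + (z 0).im * (z 0).im = 1 := by exact_mod_cast h1
    linarith [h2, sq (z 0).re, sq (z 0).im]
  have hs : 0 < Real.sin (2 * Real.pi / 5) := by
    apply Real.sin_pos_of_pos_of_lt_pi
    · have := Real.pi_pos; positivity
    · have := Real.pi_pos; linarith
  have him : (z 0).im = Real.sin (2 * Real.pi / 5) := by
    have h1 := Real.cos_sq_add_sin_sq (2 * Real.pi / 5)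
    have h2 := h.im0
    rw [hre] at hn
    have h3 : ((z 0).im - Real.sin (2 * Real.pi / 5)) *
        ((z 0).im + Real.sin (2 * Real.pi / 5)) = 0 := by
      linear_combination hn - h1
    rcases mul_eq_zero.1 h3 with h4 | h4
    · linarith
    · exfalso; linarith
  rw [e1, ← hre, ← him]
  exact (Complex.re_add_im (z 0)).symm

/-- `w = conj (z 0)` -/
theorem conj_z0 (h : Z5r O z) : conj (z 0) = Complex.exp (-(2 * Real.pi * Complex.I / 5)) := by
  rw [z0_eq h, ← Complex.exp_conj]
  congr 1
  simp only [map_div₀, map_mul, Complex.conj_I, Complex.conj_ofReal]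
  have h2 : conj (2 : ℂ) = 2 := map_ofNat _ 2
  have h5 : conj (5 : ℂ) = 5 := map_ofNat _ 5
  rw [h2, h5]
  ring

theorem conj_z0' (h : Z5r O z) : conj (z 0) = Cur_297.ze := conj_z0 h

/-- **the slopes of the arithmetic are the slopes of the curve** -/
theorem sl_eq (h : Z5r O z) : sl z = Cur_297.Pz.c := by
  show sl z = ![Cur_297.ze, Cur_297.ze ^ 2, 0, Cur_297.ze ^ 3, Cur_297.ze ^ 4, 1]
  rw [← conj_z0' h]
  funext i
  fin_cases i <;> simp [sl]

theorem par_ext {P P' : Cur_297.Par} (h : P.c = P'.c) : P = P' := by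
  cases P
  cases P'
  simp only at h
  subst h
  rfl

theorem par_eq (h : Z5r O z) : P0_939.par h = Cur_297.Pz := par_ext (sl_eq h)

end

end Crest.Agent.R272.Ref_246
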