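import Crest.Agent.R272.Gi2_295
import Crest.Agent.R272.GInG3_502
import Crest.Agent.R272.Gr5_559
import Crest.Agent.R272.P0a_939
import Crest.Agent.R272.Ref1_246
import Crest.Agent.R272.MQ5_783

/-!
# R272 (S0415), the base block of M15 (helper939)

`Ar` : the arithmetic data (the level `n`, the group `K`, the roots); `exists_ar`.
Everything else is a definition over `M : Ar`:
`M.h, M.μ, M.D, M.G, M.ρ, M.N, M.F, M.R, M.DX, M.A, M.X, M.CX, M.p0, M.s`.
-/

set_option autoImplicit false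
set_option linter.unusedSectionVars false
set_option linter.unusedVariables false

open Set Filter Topology
open scoped ComplexConjugate

namespace Crest.Agent.R272.M15_939

open Crest.Agent.R275.Geo Crest.Agent.R273.Fam_835
open Crest.Agent.R272 Crest.Agent.R272.EBase_641 Crest.Agent.R272.In_68
open Crest.Agent.R272.Quot_783 Crest.Agent.R272.MQ_783 Crest.Agent.R272.Refl_246
open Crest.Agent.R272.Gi_295 (KD rhG)
open Crest.Agent.R272.Cls_620 (Lb SS Deep)

noncomputable section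

/-- `h : Z5r O5 z5v` -/
abbrev hz : Z5r O5_74.O5 O5_74.z5v := AROut_641.z5r

/-- the arithmetic data of the model -/
structure Ar where
  /-- the level -/
  n : ℕ
  big : 10 ^ 100 ≤ n
  even : 2 ∣ n
  /-- the group -/
  K : Subgroup (GU O5_74.O5 O5_74.z5v)
  kd : KD hz (n : Fin 2 → ℂ) K
  /-- the roots -/
  R0 : ∀ a : Lb, Root 3 2 ((rho hz).comp K.subtype) (SS hz (n : Fin 2 → ℂ) a)

/-- **existence of the arithmetic data** -/
theorem exists_ar (K0 : Subgroup (GU O5_74.O5 O5_74.z5v)) (hK0 : K0.FiniteIndex) (m : ℕ) :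
    ∃ M : Ar, M.K ≤ K0 ∧ m ≤ M.n := by
  have h1 : 10 ^ 100 ≤ 2 * (10 ^ 100 + m) := by omega
  obtain ⟨K, h2, h3, h4⟩ := Gi_295.exists_kd hz (n := 2 * (10 ^ 100 + m))
    (le_trans (by norm_num) h1) (dvd_mul_right _ _) 2 (by norm_num) K0 hK0
  exact ⟨⟨2 * (10 ^ 100 + m), h1, dvd_mul_right _ _, K, h2, fun a => (h4 a).some⟩, h3, by
    show m ≤ 2 * (10 ^ 100 + m)
    omega⟩

instance : Nonempty Ar :=
  ⟨(exists_ar ⊤ inferInstance 0).choose⟩

namespace Ar

variable (M : Ar)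

/-- the level -/
abbrev μ : Fin 2 → ℂ := (M.n : Fin 2 → ℂ)

theorem nine_le : 9 ≤ M.n := le_trans (by norm_num) M.big

/-- the level, as a real number -/
theorem bigR : (10 : ℝ) ^ 100 ≤ (M.n : ℝ) := by exact_mod_cast M.big

/-- **all gap hypotheses** -/
theorem deep {k : ℝ} (hk : k ≤ 10 ^ 199) : Deep O5_74.O5 O5_74.z5v M.μ k := by
  refine Gi_295.deep_nat hz.toZ5 ?_
  have h1 := M.bigR
  have h2 : (10 : ℝ) ^ 200 ≤ (M.n : ℝ) ^ 2 := by
    calc (10 : ℝ) ^ 200 = ((10 : ℝ) ^ 100) ^ 2 := by rw [← pow_mul]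
      _ ≤ _ := pow_le_pow_left₀ (by positivity) h1 2
  have h3 : 6 * (k + 4) < (10 : ℝ) ^ 200 := by
    have : (10 : ℝ) ^ 200 = 10 * 10 ^ 199 := by norm_num
    nlinarith [show (10 : ℝ) ^ 199 ≥ 100 by norm_num]
  linarith

theorem deep2 : Deep O5_74.O5 O5_74.z5v M.μ 2 := M.deep (by norm_num)

/-- the norm of the level -/
theorem level_big : (10 : ℝ) ^ 200 ≤ ∏ t, ‖(Cls_620.pz O5_74.z5v * M.μ) t‖ := by
  have h1 : (1 : ℝ) ≤ ∏ t, ‖Cls_620.pz O5_74.z5v t‖ :=
    hz.toZ5.ord.norm_ge _ hz.toZ5.pz_mem (fun h0 => hz.toZ5.pz_ne 0 (by rw [h0]; rfl))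
  have h2 : ∏ t, ‖(Cls_620.pz O5_74.z5v * M.μ) t‖ =
      (∏ t, ‖Cls_620.pz O5_74.z5v t‖) * (M.n : ℝ) ^ 2 := by
    rw [Fin.prod_univ_two, Fin.prod_univ_two]
    simp only [Pi.mul_apply, norm_mul, μ, Pi.natCast_apply, Complex.norm_natCast]
    ring
  rw [h2]
  have h3 : (10 : ℝ) ^ 200 ≤ (M.n : ℝ) ^ 2 := by
    calc (10 : ℝ) ^ 200 = ((10 : ℝ) ^ 100) ^ 2 := by rw [← pow_mul]
      _ ≤ _ := pow_le_pow_left₀ (by positivity) M.bigR 2
  nlinarith

/-- the swap datum -/
theorem D : GInG_502.SwD M.K (GInG_502.swG hz) := M.kd.swD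

/-- the group `Gh = K ∪ K s` -/
abbrev G : Type := M.D.Gh

/-- its representation -/
abbrev ρ : M.G →* UG 3 := rhG hz M.D

/-- the base: the ball -/
abbrev N : Type := BX M.ρ

/-- the complex structure of the base -/
abbrev F : Fam 3 M.N := ballFam M.ρ

/-- the roots, colour `true` conjugate to colour `false` -/
abbrev R : ∀ a : Lb, Root 3 2 ((rho hz).comp M.K.subtype) (SS hz M.μ a) :=
  GInG_502.RR hz M.D M.R0

/-- the data of the graph model -/
def DX : Gr_559.GData M.F := GI_620.gdata hz M.R M.ρ M.kd.mem M.deep2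

/-- the group action data -/
def A : Act_302.GAct M.DX M.G := GInG_502.gact hz M.D M.R0 M.kd.lev M.kd.mem M.deep2

/-- **the smooth model** -/
abbrev X : Type := M.A.X

/-- its complex structure -/
abbrev CX : Fam 3 M.X := M.A.fam (Gr_559.isSl_X1 M.DX)

/-- the base cluster point -/
abbrev p0 : M.N := P0_939.o3 M.ρ

/-- the swap -/
abbrev s : M.G := P0_939.sG hz M.D

/-- `K` inside `G` -/
abbrev KG : Subgroup M.G := Gi_295.KG M.D

/-! ### the base -/

instance pds : ProperlyDiscontinuousSMul M.G M.N := Gi_295.pds (h := hz) M.D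

instance ccs : ContinuousConstSMul M.G M.N := Gi_295.ccs (h := hz) M.D

theorem ra : RA M.F M.G := Gi_295.ra M.kd M.D

instance KG_normal : M.KG.Normal := Gi_295.KG_normal M.kd M.D

theorem free_KG : ∀ g ∈ M.KG, ∀ x : M.N, g • x = x → g = 1 := Gi_295.free_KG M.kd M.D

theorem s_not_mem : M.s ∉ M.KG := M.D.nmem

theorem s_sq : M.s * M.s = 1 := P0_939.sG_sq hz M.D

/-- stabilisers of the points of the base, literal input of 302's ACTION (B) -/
theorem base_st (x : M.N) : (∀ g : M.G, g • x = x → g = 1) ∨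
    ∃ s : M.G, s * s = 1 ∧ s • x = x ∧ (∀ g : M.G, g • x = x → g = 1 ∨ g = s) ∧
      M.A.σ s = Equiv.swap 0 1 ∧ ReflAt M.F (fun y => s • y) x := by
  rcases Gi_295.base_st M.kd M.D x with h1 | ⟨s, h1, h2, h3, h4, h5⟩
  · exact Or.inl h1
  · exact Or.inr ⟨s, h1, h2, h3, GInG_502.sgH_of_not M.D h4, h5⟩

instance compact_orb : CompactSpace (Orb M.G M.N) := Gi_295.compactSpace_orb M.kd M.D

/-- the base cluster point -/
theorem exists_bpt : ∃ B : P0_939.BPt M.DX Cur_297.Pz M.G M.p0 M.s,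
    B.p.s0 = (fun y => P0_939.cc O5_74.z5v * y.val 0) ∧
    B.p.s1 = (fun y => P0_939.cc O5_74.z5v * y.val 1) ∧
    B.p'.s1 = (fun y => P0_939.cc O5_74.z5v * y.val 2) := by
  have h1 : (64 : ℝ) < ∏ t, ‖(Cls_620.pz O5_74.z5v * M.μ) t‖ := M.kd.big
  have h2 := P0_939.exists_bpt hz M.R M.D M.kd.mem M.deep2 h1 M.kd.lev
  rwa [Ref_246.par_eq hz] at h2

/-- the base cluster point -/
def bpt : P0_939.BPt M.DX Cur_297.Pz M.G M.p0 M.s := M.exists_bpt.choose

theorem bpt_s0 : M.bpt.p.s0 = (fun y => P0_939.cc O5_74.z5v * y.val 0) :=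
  M.exists_bpt.choose_spec.1

theorem bpt_s1 : M.bpt.p.s1 = (fun y => P0_939.cc O5_74.z5v * y.val 1) :=
  M.exists_bpt.choose_spec.2.1

theorem bpt_s1' : M.bpt.p'.s1 = (fun y => P0_939.cc O5_74.z5v * y.val 2) :=
  M.exists_bpt.choose_spec.2.2

/-! ### the smooth model -/

instance : Nonempty M.X := inferInstance

instance : T2Space M.X := inferInstance

instance : ContinuousConstSMul M.G M.X := inferInstance

instance pdsX : ProperlyDiscontinuousSMul M.G M.X := M.A.properlyDiscontinuous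

theorem lcX : LocallyCompactSpace M.X := M.A.locallyCompact

end Ar

end

end Crest.Agent.R272.M15_939
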