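import Crest.Agent.R272.Act5_302
import Crest.Agent.R272.Ins1_939

/-!
# R272 (S0415), ACTION (helper302), part 6: the literal `RA M.CX M.G`
-/

set_option autoImplicit false

namespace Crest.Agent.R272.M15_939

open Crest.Agent.R272.MQ_783

noncomputable section

namespace Ar

variable (M : Ar)

/-- an element with a fixed point in the base exchanges the colours -/
theorem fix_swap (g : M.G) (z : M.N) (hg : g ≠ 1) (hz : g • z = z) :
    M.A.σ g = Equiv.swap 0 1 := by
  rcases M.base_st z with h | ⟨s, -, -, h1, h2, -⟩
  · exact absurd (h g hz) hg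
  · obtain rfl := (h1 g hz).resolve_left hg
    exact h2

/-- **`RA` on `X1`** -/
theorem raX : RA M.CX M.G := M.A.ra1 M.ra M.fix_swap

end Ar

end

end Crest.Agent.R272.M15_939
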