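import Crest.Agent.R272.PImm1_102

/-!
# R272, task P-IMM (helper102), part 2: the positivity lemma

`exists_pos_pow_ker` : `h0` on `F`, `h` semipositive on `O`, `h0` positive on the null vectors of `h`
                       ⟹ `h0 · h^m` positive for `m ≥ m0` (`M` compact);
`RS p F L`           : holomorphic section of `F ⊗ p^* L` on `M` (`f i j` read in the frame of `F` over the chart `i`
                       and of `L` over the chart `j`); `RS.ofPB` from a section of `F * L'`, `PB p L' L`;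
`relHM`              : the metric `(∑ |y_a|² h_a)⁻¹` on `F`;
`pimm`               : **P-IMM**.
-/

set_option autoImplicit false
set_option linter.unusedSectionVars false

open Set Filter Topology Complex
open scoped ContDiff Matrix ComplexConjugate Manifold ComplexOrder

namespace Crest.Agent.R272.PImm2_102

open Crest.Agent.R275.Geo Crest.Agent.R275.Core144 Crest.Agent.R275.EDR890
open Crest.Agent.R273.Defs_333 Crest.Agent.R273.Hess_333 Crest.Agent.R273.HessB_333
open Crest.Agent.R273.HM_333 Crest.Agent.R273.Kah_333 Crest.Agent.R273.SerD_945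
open Crest.Agent.R273.Map_835 Crest.Agent.R273.PB_835 Crest.Agent.R273.PB_835.PB
open Crest.Agent.R272.PImm1_102

noncomputable section

variable {n m : ℕ} {M N : Type} [TopologicalSpace M] [TopologicalSpace N]
  {A : Atl n M} {B : Atl m N} {p : M → N}

/-! ### powers of a semipositive bundle -/

theorem qf_cur {L : LB A} (h : HM L) (i : A.ι) {x : M} (hx : x ∈ (A.e i).source) (v : Fin n → ℂ) :
    qf (cur h i x) v =
      lev (h.wt i) (A.e i x) (WithLp.toLp 2 (fun a => conj (v a))) / 4 := by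
  unfold qf cur
  rw [hq_eq_dot, hq_re (wt_contDiffAt h i ((A.e i).map_source hx))]

/-- **positivity of large powers, semipositive version** -/
theorem exists_pos_pow_ker [CompactSpace M] {F O : LB A} (h0 : HM F) (h : HM O) (hs : h.Semipos)
    (hk : ∀ i, ∀ z ∈ (A.e i).target, ∀ v : Cn n, v ≠ 0 → lev (h.wt i) z v = 0 →
      0 < lev (h0.wt i) z v) :
    ∃ m0 : ℕ, ∀ k, m0 ≤ k → (mul h0 (pow h k)).Pos := by
  have hker : ∀ i, ∀ x ∈ (A.e i).source, ∀ v : Fin n → ℂ, v ≠ 0 → qf (cur h i x) v = 0 →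
      0 < qf (cur h0 i x) v := by
    intro i x hx v hv hq
    have h0' : (WithLp.toLp 2 (fun a => conj (v a)) : Cn n) ≠ 0 := by
      intro h1
      apply hv
      funext a
      have := congrArg (fun v : Cn n => v a) h1
      simpa using this
    rw [qf_cur h i hx] at hq
    rw [qf_cur h0 i hx]
    have := hk i _ ((A.e i).map_source hx) _ h0' (by linarith)
    linarith
  obtain ⟨t0, ht⟩ := exists_pos_add_ker (cur h) (cur h0) (cur_cont h) (cur_cont h0)
    (fun i x hx => cur_posSemidef hs i hx) (fun i x hx => cur_herm h0 i hx) hker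
    (fun i j x hx => cur_tr h hx) (fun i j x hx => cur_tr h0 hx)
  obtain ⟨m0, hm0⟩ := exists_nat_ge t0
  refine ⟨m0, fun k hk => pos_of_cur fun i x hx => ?_⟩
  rw [cur_mul h0 (pow h k) i hx, cur_pow h k i hx]
  have := ht k (hm0.trans (by exact_mod_cast hk)) i x hx
  exact_mod_cast this

/-! ### sections of `F ⊗ p^* L` -/

/-- holomorphic section of `F ⊗ p^* L`: `f i j` in the frames of the charts `i` (for `F`) and `j`
(for `L`) -/
structure RS (p : M → N) (F : LB A) (L : LB B) where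
  f : A.ι → B.ι → M → ℂ
  hol : ∀ i j, HolAt A i (p ⁻¹' (B.e j).source) (f i j)
  left : ∀ i i' j, ∀ x ∈ (A.e i).source ∩ (A.e i').source, p x ∈ (B.e j).source →
    f i j x = F.g i i' x * f i' j x
  right : ∀ i j j', ∀ x ∈ (A.e i).source, p x ∈ (B.e j).source ∩ (B.e j').source →
    f i j x = L.g j j' (p x) * f i j' x

/-- from a section of `F * L'`, `L' ≅ p^* L` -/
def RS.ofPB {F L' : LB A} {L : LB B} (T : PB p L' L) {y : A.ι → M → ℂ}
    (hy : IsHS (F * L') univ y) : RS p F L where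
  f i j x := y i x * (T.c i j x)⁻¹
  hol i j := ((hy.hol i).mono (subset_univ _)).mul ((T.hol i j).inv fun x hx hj => T.ne i j x hx hj)
  left i i' j x hx hj := by
    have h1 := T.ne i j x hx.1 hj
    have h2 := T.ne i' j x hx.2 hj
    have h3 := L'.ne_zero i i' x
    rw [hy.tr i i' x hx (mem_univ x), ← T.left i i' j x hx hj, LB.mul_g]
    field_simp
  right i j j' x hx hj := by
    have h1 := T.ne i j x hx hj.1
    have h2 := T.ne i j' x hx hj.2
    have h3 := L.ne_zero j j' (p x)
    rw [← T.right i j j' x hx hj]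
    field_simp

/-- the constant section `1` of the trivial bundle -/
def RS.one (p : M → N) : RS p (1 : LB A) (1 : LB B) where
  f _ _ _ := 1
  hol _ _ := holAt_const 1
  left _ _ _ _ _ _ := by simp
  right _ _ _ _ _ _ := by simp

variable {α : Type*} [Fintype α] {F : LB A} {L : α → LB B}

/-- the local expression of `∑ |y_a|² h_a` -/
def relS (y : ∀ a, RS p F (L a)) (h : ∀ a, HM (L a)) (i : A.ι) (j : B.ι) (x : M) : ℝ :=
  ∑ a, ‖(y a).f i j x‖ ^ 2 * (h a).w j (p x)

theorem relS_indep (y : ∀ a, RS p F (L a)) (h : ∀ a, HM (L a)) {i : A.ι} {j j' : B.ι} {x : M}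
    (hx : x ∈ (A.e i).source) (hj : p x ∈ (B.e j).source) (hj' : p x ∈ (B.e j').source) :
    relS y h i j x = relS y h i j' x := by
  refine Finset.sum_congr rfl fun a _ => ?_
  rw [(h a).tr j j' (p x) ⟨hj, hj'⟩, (y a).right i j j' x hx ⟨hj, hj'⟩, norm_mul]
  ring

theorem relS_left (y : ∀ a, RS p F (L a)) (h : ∀ a, HM (L a)) {i i' : A.ι} {j : B.ι} {x : M}
    (hx : x ∈ (A.e i).source ∩ (A.e i').source) (hj : p x ∈ (B.e j).source) :
    relS y h i j x = ‖F.g i i' x‖ ^ 2 * relS y h i' j x := by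
  unfold relS
  rw [Finset.mul_sum]
  refine Finset.sum_congr rfl fun a _ => ?_
  rw [(y a).left i i' j x hx hj, norm_mul]
  ring

theorem relS_pos (y : ∀ a, RS p F (L a)) (h : ∀ a, HM (L a)) {i : A.ι} {j : B.ι} {x : M}
    (hj : p x ∈ (B.e j).source) (h0 : ∃ a, (y a).f i j x ≠ 0) : 0 < relS y h i j x := by
  obtain ⟨a, ha⟩ := h0
  exact Finset.sum_pos' (fun b _ => by have := (h b).pos j _ hj; positivity)
    ⟨a, Finset.mem_univ a, by have := (h a).pos j _ hj; positivity⟩

/-- no common zeros -/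
def NZ (y : ∀ a, RS p F (L a)) : Prop :=
  ∀ i j x, x ∈ (A.e i).source → p x ∈ (B.e j).source → ∃ a, (y a).f i j x ≠ 0

/-- `M → P(⊕ L_a)` is an immersion over `N` -/
def Imm (y : ∀ a, RS p F (L a)) : Prop :=
  ∀ i j, ∀ z ∈ dm A B p i j, ∀ v : Cn n, fderiv ℂ (rd A B p i j) z v = 0 →
    (∃ c : ℂ, ∀ a, fderiv ℂ (fun w => (y a).f i j ((A.e i).symm w)) z v =
      c * (y a).f i j ((A.e i).symm z)) → v = 0

theorem rs_anal (hp : HolMap A B p) {L₁ : LB B} (y : RS p F L₁) {i : A.ι} {j : B.ι} {z : Cn n}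
    (hz : z ∈ dm A B p i j) : AnalyticAt ℂ (fun w => y.f i j ((A.e i).symm w)) z :=
  Crest.Agent.R266.SCV.analyticOnNhd_of_differentiableOn (hp.isOpen_dm i j) (y.hol i j) z hz

/-- the metric `(∑ |y_a|² h_a)⁻¹` on `F` -/
def relHM (hp : HolMap A B p) (y : ∀ a, RS p F (L a)) (hnz : NZ y) (h : ∀ a, HM (L a)) :
    HM F where
  w i x := (relS y h i (ch B (p x)) x)⁻¹
  pos i x hx := inv_pos.2 (relS_pos y h (ch_mem B (p x)) (hnz i _ x hx (ch_mem B (p x))))
  sm i := by
    intro z hz
    have hx := (A.e i).map_target hz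
    set x := (A.e i).symm z with hxz
    set j := ch B (p x) with hj
    have hjm : p x ∈ (B.e j).source := ch_mem B (p x)
    have hzd : z ∈ dm A B p i j := ⟨hz, hjm⟩
    have h1 : ContDiffAt ℝ ∞ (fun w => ∑ a, ‖(y a).f i j ((A.e i).symm w)‖ ^ 2 *
        (h a).w j ((B.e j).symm (rd A B p i j w))) z := by
      refine ContDiffAt.sum fun a _ => ?_
      have h2 : ContDiffAt ℝ ∞ (fun y => (h a).w j ((B.e j).symm y)) (rd A B p i j z) :=
        ((h a).sm j).contDiffAt ((B.e j).open_target.mem_nhds ((B.e j).map_source hjm))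
      have h3 : ContDiffAt ℝ ∞ (rd A B p i j) z :=
        (hp.analyticAt hzd).contDiffAt.restrict_scalars ℝ
      exact (((rs_anal hp (y a) hzd).contDiffAt.restrict_scalars ℝ).norm_sq ℝ).mul (h2.comp z h3)
    have h4 : (fun w => ∑ a, ‖(y a).f i j ((A.e i).symm w)‖ ^ 2 *
        (h a).w j ((B.e j).symm (rd A B p i j w))) z ≠ 0 := by
      have h5 := relS_pos y h hjm (hnz i j x hx hjm)
      have h6 : (B.e j).symm (rd A B p i j z) = p x := (B.e j).left_inv hjm
      simp only [h6]
      exact h5.ne'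
    refine ((h1.inv h4).congr_of_eventuallyEq ?_).contDiffWithinAt
    filter_upwards [(hp.isOpen_dm i j).mem_nhds hzd] with w hw
    have h7 : (B.e j).symm (rd A B p i j w) = p ((A.e i).symm w) := (B.e j).left_inv hw.2
    show (relS y h i (ch B (p ((A.e i).symm w))) ((A.e i).symm w))⁻¹ =
      (∑ a, ‖(y a).f i j ((A.e i).symm w)‖ ^ 2 *
        (h a).w j ((B.e j).symm (rd A B p i j w)))⁻¹
    rw [h7, relS_indep y h ((A.e i).map_target hw.1) (ch_mem B _) hw.2]
    rfl
  tr i i' x hx := by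
    have h1 := relS_pos y h (ch_mem B (p x)) (hnz i' _ x hx.2 (ch_mem B (p x)))
    have h2 := F.ne_zero i i' x
    rw [relS_left y h hx (ch_mem B (p x))]
    field_simp

theorem relHM_wt (hp : HolMap A B p) (y : ∀ a, RS p F (L a)) (hnz : NZ y) (h : ∀ a, HM (L a))
    {i : A.ι} {j : B.ι} {z : Cn n} (hz : z ∈ dm A B p i j) :
    (relHM hp y hnz h).wt i z =
      Real.log (wsum (fun a w => (y a).f i j ((A.e i).symm w))
        (fun a w => (h a).w j ((B.e j).symm (rd A B p i j w))) z) := by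
  have h7 : (B.e j).symm (rd A B p i j z) = p ((A.e i).symm z) := (B.e j).left_inv hz.2
  show - Real.log ((relS y h i (ch B (p ((A.e i).symm z))) ((A.e i).symm z))⁻¹) = _
  rw [Real.log_inv, neg_neg, relS_indep y h ((A.e i).map_target hz.1) (ch_mem B _) hz.2]
  unfold wsum
  simp only [h7]
  rfl

/-- the curvature of `relHM` along `ker dp` -/
theorem relHM_lev_pos (hp : HolMap A B p) (y : ∀ a, RS p F (L a)) (hnz : NZ y) (himm : Imm y)
    (h : ∀ a, HM (L a)) {i : A.ι} {j : B.ι} {z : Cn n} (hz : z ∈ dm A B p i j) {v : Cn n}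
    (hv : v ≠ 0) (hk : fderiv ℂ (rd A B p i j) z v = 0) :
    0 < lev ((relHM hp y hnz h).wt i) z v := by
  have he : (relHM hp y hnz h).wt i =ᶠ[𝓝 z] fun z =>
      Real.log (wsum (fun a w => (y a).f i j ((A.e i).symm w))
        (fun a w => (h a).w j ((B.e j).symm (rd A B p i j w))) z) := by
    filter_upwards [(hp.isOpen_dm i j).mem_nhds hz] with w hw
    exact relHM_wt hp y hnz h hw
  have hf : ∀ a, AnalyticAt ℂ (fun w => (y a).f i j ((A.e i).symm w)) z := fun a =>
    rs_anal hp (y a) hz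
  have hw : ∀ a, 0 < (h a).w j ((B.e j).symm (rd A B p i j z)) := fun a => by
    have h7 : (B.e j).symm (rd A B p i j z) = p ((A.e i).symm z) := (B.e j).left_inv hz.2
    rw [h7]
    exact (h a).pos j _ hz.2
  have h0 := hnz i j _ ((A.e i).map_target hz.1) hz.2
  have hfl : ∀ a, Flat (fun w => (h a).w j ((B.e j).symm (rd A B p i j w))) z v := fun a =>
    flat_comp (U := fun y => (h a).w j ((B.e j).symm y)) (hp.analyticAt hz)
      ((((h a).sm j).contDiffAt ((B.e j).open_target.mem_nhds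
        ((B.e j).map_source hz.2))).of_le (by norm_cast)) hk
  rw [lev_congr' he, lev_bridge]
  have h1 := lev_log_wsum_nonneg (f := fun a w => (y a).f i j ((A.e i).symm w))
    (w := fun a w => (h a).w j ((B.e j).symm (rd A B p i j w))) hf hw h0 hfl
  rcases h1.lt_or_eq with h2 | h2
  · linarith
  · exact absurd (himm i j z hz v hk (lev_log_wsum_eq_zero
      (f := fun a w => (y a).f i j ((A.e i).symm w))
      (w := fun a w => (h a).w j ((B.e j).symm (rd A B p i j w))) hf hw h0 hfl h2.symm)) hv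

/-- **P-IMM** (metric form): if `M → P(⊕ L_a)` is an immersion over `N` and `H` is positive on `N`, then
`F ⊗ p^* H^k` is positive for `k ≥ m0`. -/
theorem pimm_metric [CompactSpace M] (hp : HolMap A B p) {H : LB B} {hH : HM H} (hHp : hH.Pos)
    {H' : LB A} (T : PB p H' H) (y : ∀ a, RS p F (L a)) (hnz : NZ y) (himm : Imm y)
    (h : ∀ a, HM (L a)) :
    ∃ m0 : ℕ, ∀ k, m0 ≤ k → (mul (relHM hp y hnz h) (pow (T.pullHM hp hH) k)).Pos := by
  refine exists_pos_pow_ker _ _ (T.pullHM_semipos hp (Pos.semipos hHp)) fun i z hz v hv hl => ?_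
  obtain ⟨j, hj⟩ := B.cover (p ((A.e i).symm z))
  have hzd : z ∈ dm A B p i j := ⟨hz, hj⟩
  refine relHM_lev_pos hp y hnz himm h hzd hv ?_
  by_contra hne
  rw [T.pullHM_lev hp hH hzd] at hl
  exact absurd hl (hHp j _ ((B.e j).map_source hj) _ hne).ne'

/-- **P-IMM** -/
theorem pimm [CompactSpace M] (hp : HolMap A B p) {H : LB B} {hH : HM H} (hHp : hH.Pos)
    {H' : LB A} (T : PB p H' H) (y : ∀ a, RS p F (L a)) (hnz : NZ y) (himm : Imm y)
    (h : ∀ a, HM (L a)) :
    ∃ m0 : ℕ, ∀ k, m0 ≤ k → ∃ hh : HM (F * H' ^ k), hh.Pos := by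
  obtain ⟨m0, h1⟩ := pimm_metric hp hHp T y hnz himm h
  exact ⟨m0, fun k hk => ⟨_, h1 k hk⟩⟩

end

end Crest.Agent.R272.PImm2_102
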