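import Crest.Agent.R272.DCov3_426
import Crest.Agent.R272.PImm2_102

/-!
# R272 (S0414, S0415), DCOV (helper426), file 4: atlases of the cover, immersion, line bundles

* `locAtl C O`       : every `Fam` (no compactness) has an atlas `Atl` subordinate to an open cover `O`;
* `Cmp C A'`         : the atlas `A'` is compatible with the family `C`; `cmp_locAtl`, `exists_cmp`
                       (compact case: finite, good, partition of unity)
* `holMap_p`         : `p : X → M` is holomorphic for every compatible atlas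
* `rs`, `nz_rs`, `imm_rs` : `X → P(O ⊕ L_1 ⊕ ..)` is an immersion over `M` (input of P-IMM, 102)
* `yS`, `isHS_yS`    : the tautological section of `pullLB (L a)`; `yS_pow`
* `inj_of_ne`, `det_of_ne` : `p` is locally biholomorphic off the branch divisor
-/

set_option autoImplicit false
set_option linter.unusedSectionVars false

open Set Filter Topology Metric

namespace Crest.Agent.R272.DCov_426

open Crest.Agent.R275.Geo Crest.Agent.R275.Core144 Crest.Agent.R275.GC293
open Crest.Agent.R273.Map_835 Crest.Agent.R273.Fam_835 Crest.Agent.R273.PB_835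
open Crest.Agent.R273.Defs_333 Crest.Agent.R272.PImm2_102

noncomputable section

section Loc

variable {n : ℕ} {X : Type} [TopologicalSpace X] (C : Fam n X) {κ : Type} (O : κ → Set X)

/-- index of a small ball in a chart, inside one of the sets `O k` -/
structure LI where
  c : C.ι
  z0 : Cn n
  r : ℝ
  k : κ
  hr : 0 < r
  sub : ∀ z ∈ ball z0 r, z ∈ (C.e c).target ∧ (C.e c).symm z ∈ O k

variable {C O}

/-- the normalised chart -/
def LI.e (t : LI C O) : OpenPartialHomeomorph X (Cn n) :=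
  (C.e t.c).trans ((aff t.z0 t.r t.hr).toOpenPartialHomeomorph.restrOpen (ball t.z0 t.r)
    isOpen_ball)

theorem LI.e_apply (t : LI C O) (x : X) : t.e x = aff t.z0 t.r t.hr (C.e t.c x) := rfl

theorem LI.e_symm (t : LI C O) (z : Cn n) :
    t.e.symm z = (C.e t.c).symm ((aff t.z0 t.r t.hr).symm z) := rfl

theorem LI.mem_source (t : LI C O) {x : X} :
    x ∈ t.e.source ↔ x ∈ (C.e t.c).source ∧ C.e t.c x ∈ ball t.z0 t.r := by
  constructor
  · intro h
    exact ⟨h.1, h.2.2⟩
  · intro h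
    exact ⟨h.1, mem_univ _, h.2⟩

theorem LI.mem_target (t : LI C O) {z : Cn n} :
    z ∈ t.e.target ↔ (aff t.z0 t.r t.hr).symm z ∈ ball t.z0 t.r := by
  constructor
  · intro h
    exact h.1.2
  · intro h
    exact ⟨⟨mem_univ _, h⟩, (t.sub _ h).1⟩

theorem LI.source_sub (t : LI C O) : t.e.source ⊆ O t.k := by
  intro x hx
  obtain ⟨h1, h2⟩ := t.mem_source.1 hx
  have h3 := (t.sub _ h2).2
  rwa [(C.e t.c).left_inv h1] at h3

variable (C O)

/-- **atlas subordinate to an open cover** (no compactness) -/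
def locAtl (hO : ∀ k, IsOpen (O k)) (hOc : ∀ x, ∃ k, x ∈ O k) : Atl n X where
  ι := LI C O
  e t := t.e
  cover x := by
    obtain ⟨c, hc⟩ := C.cover x
    obtain ⟨k, hk⟩ := hOc x
    have h1 : (C.e c).target ∩ (C.e c).symm ⁻¹' (O k) ∈ 𝓝 (C.e c x) :=
      ((C.e c).isOpen_inter_preimage_symm (hO k)).mem_nhds
        ⟨(C.e c).map_source hc, by rw [mem_preimage, (C.e c).left_inv hc]; exact hk⟩
    obtain ⟨r, hr, h2⟩ := Metric.mem_nhds_iff.1 h1
    refine ⟨⟨c, C.e c x, r, k, hr, fun z hz => h2 hz⟩, ?_⟩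
    rw [LI.mem_source]
    exact ⟨hc, mem_ball_self hr⟩
  cube t z hz p := rc_mem_of_ball t.z0 t.r t.hr (t.mem_target.1 hz) p
  holo t t' := by
    intro z hz
    have h1 := t.mem_target.1 hz.1
    have h2 := (t.sub _ h1).1
    have h3 := (t'.mem_source.1 hz.2).1
    rw [t.e_symm] at h3
    have h4 : DifferentiableAt ℂ (fun z => C.e t'.c ((C.e t.c).symm z))
        ((aff t.z0 t.r t.hr).symm z) :=
      (C.holo t.c t'.c).differentiableAt (((C.e t.c).isOpen_inter_preimage_symm
        (C.e t'.c).open_source).mem_nhds ⟨h2, h3⟩)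
    have h5 := DifferentiableAt.comp z (g := fun z => C.e t'.c ((C.e t.c).symm z)) h4
      (differentiable_aff_symm t.z0 t.r t.hr).differentiableAt
    exact (DifferentiableAt.comp z (g := aff t'.z0 t'.r t'.hr)
      (differentiable_aff t'.z0 t'.r t'.hr).differentiableAt h5).differentiableWithinAt

/-- compatible atlases -/
structure Cmp (A' : Atl n X) : Prop where
  fwd : HolC (fam A') C id
  bwd : HolC C (fam A') id

theorem cmp_locAtl (hO : ∀ k, IsOpen (O k)) (hOc : ∀ x, ∃ k, x ∈ O k) :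
    Cmp C (locAtl C O hO hOc) := by
  refine ⟨⟨continuous_id, fun t c => ?_⟩, ⟨continuous_id, fun c t => ?_⟩⟩
  · intro z hz
    have h1 := t.mem_target.1 hz.1
    have h2 := (t.sub _ h1).1
    have h4 : DifferentiableAt ℂ (fun z => C.e c ((C.e t.c).symm z))
        ((aff t.z0 t.r t.hr).symm z) :=
      (C.holo t.c c).differentiableAt (((C.e t.c).isOpen_inter_preimage_symm
        (C.e c).open_source).mem_nhds ⟨h2, hz.2⟩)
    exact (DifferentiableAt.comp z (g := fun z => C.e c ((C.e t.c).symm z)) h4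
      (differentiable_aff_symm t.z0 t.r t.hr).differentiableAt).differentiableWithinAt
  · intro z hz
    have h3 : (C.e c).symm z ∈ (C.e t.c).source := (t.mem_source.1 hz.2).1
    have h4 : DifferentiableAt ℂ (fun z => C.e t.c ((C.e c).symm z)) z :=
      (C.holo c t.c).differentiableAt (((C.e c).isOpen_inter_preimage_symm
        (C.e t.c).open_source).mem_nhds ⟨hz.1, h3⟩)
    exact (DifferentiableAt.comp z (g := aff t.z0 t.r t.hr)
      (differentiable_aff t.z0 t.r t.hr).differentiableAt h4).differentiableWithinAt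

/-- the compact case -/
theorem exists_cmp [CompactSpace X] [T2Space X] (hO : ∀ k, IsOpen (O k))
    (hOc : ∀ x, ∃ k, x ∈ O k) : ∃ A' : Atl n X, Finite A'.ι ∧ GoodA A' ∧ Nonempty (Part A') ∧
      (∀ i, ∃ k, (A'.e i).source ⊆ O k) ∧ Cmp C A' := by
  obtain ⟨A', h1, h2, h3, h4, h5, h6⟩ := C.exists_atl O hO hOc
  exact ⟨A', h1, h2, h3, h4, h5, h6⟩

end Loc

variable {n : ℕ} {M : Type} [TopologicalSpace M] {A : Atl n M} {ρ : Type} [Fintype ρ]

namespace Data

variable (D : Data A ρ) {A' : Atl n D.X} (hc : Cmp D.famX A')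

include hc in
theorem holMap_p : HolMap A' A D.p := holC_iff.1 (D.holC_p.comp hc.fwd)

include hc in
theorem diffAt_ch' {i : A'.ι} {j : A.ι} {z : Cn n} (hz : z ∈ (A'.e i).target)
    (hj : D.p ((A'.e i).symm z) ∈ (A.e j).source) :
    DifferentiableAt ℂ (fun z => D.ch j ((A'.e i).symm z : D.X)) z := by
  obtain ⟨c, hcx⟩ := D.famX.cover ((A'.e i).symm z)
  have h1 : DifferentiableAt ℂ (fun z => c.e ((A'.e i).symm z)) z := hc.fwd.diffAt hz hcx
  have h2 : DifferentiableAt ℂ (fun z => D.ch j (c.e.symm z : D.X)) (c.e ((A'.e i).symm z)) := by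
    refine c.diffAt_ch (c.e.map_source hcx) ?_
    rw [c.e.left_inv hcx]
    exact hj
  have h3 := DifferentiableAt.comp z (g := fun z => D.ch j (c.e.symm z : D.X)) h2 h1
  refine h3.congr_of_eventuallyEq ?_
  have h4 : ∀ᶠ w in 𝓝 z, (A'.e i).symm w ∈ c.e.source :=
    (A'.e i).continuousAt_symm hz (c.e.open_source.mem_nhds hcx)
  filter_upwards [h4] with w hw
  show _ = D.ch j ((c.e.symm (c.e ((A'.e i).symm w)) : D.X) : D.T)
  rw [c.e.left_inv hw]

/-- the tautological coordinate as a section of `p^* L a` -/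
def rsY (a : ρ) : RS D.p (1 : LB A') (D.L a) where
  f _ j q := D.y a j q
  hol i j := by
    intro z hz
    exact (differentiableAt_pi.1 (D.diffAt_ch' hc hz.1 hz.2).snd a).differentiableWithinAt
  left _ _ _ _ _ _ := by simp
  right _ _ _ _ _ hx := D.y_tr a hx.1 hx.2

/-- the bundles `O, L a` -/
def Lo : Option ρ → LB A
  | none => 1
  | some a => D.L a

/-- the sections `1, y a` -/
def rs : ∀ o : Option ρ, RS D.p (1 : LB A') (D.Lo o)
  | none => RS.one D.p
  | some a => D.rsY hc a

theorem nz_rs : NZ (D.rs hc) := fun _ _ _ _ _ => ⟨none, one_ne_zero⟩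

/-- **the cover is immersed in the total space** -/
theorem imm_rs : Imm (D.rs hc) := by
  rintro i j z ⟨hz, hj⟩ v hv ⟨c0, hc0⟩
  have h0 : c0 = 0 := by
    have h1 := hc0 none
    have h2 : (fun w => ((D.rs hc) none).f i j ((A'.e i).symm w)) = fun _ : Cn n => (1 : ℂ) := rfl
    have h3 : ((D.rs hc) none).f i j ((A'.e i).symm z) = 1 := rfl
    rw [h2, h3, fderiv_fun_const] at h1
    simpa using h1.symm
  have hj' : D.p ((A'.e i).symm z) ∈ (A.e j).source := hj
  have hy : ∀ a, fderiv ℂ (fun w => D.y a j ((A'.e i).symm w)) z v = 0 := by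
    intro a
    have h1 := hc0 (some a)
    rw [h0, zero_mul] at h1
    exact h1
  set H : Cn n → Cn n × (ρ → ℂ) := fun w => D.ch j ((A'.e i).symm w : D.X) with hH
  have hHd : DifferentiableAt ℂ H z := D.diffAt_ch' hc hz hj'
  have hHv : fderiv ℂ H z v = 0 := by
    have h1 : fderiv ℂ H z v = (fderiv ℂ (fun w => (H w).1) z v, fderiv ℂ (fun w => (H w).2) z v) := by
      have h2 : fderiv ℂ H z = (fderiv ℂ (fun w => (H w).1) z).prod
          (fderiv ℂ (fun w => (H w).2) z) :=
        (hHd.fst.hasFDerivAt.prodMk hHd.snd.hasFDerivAt).fderiv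
      rw [h2]
      rfl
    rw [h1]
    refine Prod.ext hv ?_
    show fderiv ℂ (fun w => (H w).2) z v = 0
    rw [fderiv_pi (differentiableAt_pi.1 hHd.snd)]
    funext a
    exact hy a
  -- the left inverse
  obtain ⟨c, hcx⟩ := D.famX.cover ((A'.e i).symm z)
  have hcx' : ((A'.e i).symm z : D.X) ∈ c.e.source := hcx
  obtain ⟨hb, hχ⟩ := c.mem_source.1 (show (((A'.e i).symm z : D.X) : D.T) ∈ c.G.source from hcx)
  set x : D.X := (A'.e i).symm z with hx
  have hHz : H z = D.ch j (x : D.T) := rfl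
  have hw0 : (H z).1 ∈ (A.e j).target := (A.e j).map_source hj'
  have hinv : (D.ch j).symm (H z) = (x : D.T) := (D.ch j).left_inv (D.mem_ch_source.2 hj')
  have g1 : DifferentiableAt ℂ (fun u => D.ch c.i ((D.ch j).symm u)) (H z) := by
    refine D.diffAt_ch hw0 ?_
    have : ((D.ch j).symm (H z)).1 ∈ (A.e c.i).source := by
      rw [hinv]
      exact hb
    exact this
  have g2 : DifferentiableAt ℂ c.χ (D.ch c.i ((D.ch j).symm (H z))) := by
    rw [hinv]
    exact c.d1.differentiableAt (c.χ.open_source.mem_nhds hχ)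
  have g3 : DifferentiableAt ℂ (fun u => (c.χ (D.ch c.i ((D.ch j).symm u))).1) (H z) :=
    (DifferentiableAt.comp (H z) (f := fun u => D.ch c.i ((D.ch j).symm u)) g2 g1).fst
  have g4 : DifferentiableAt ℂ (fun z => A'.e i (c.e.symm z)) (c.e x) := by
    have h1 := hc.bwd.diffAt (i := c) (j := i) (z := c.e x) (c.e.map_source hcx')
      (by
        show c.e.symm (c.e x) ∈ (A'.e i).source
        rw [c.e.left_inv hcx']
        exact (A'.e i).map_target hz)
    exact h1
  have g4' : DifferentiableAt ℂ (fun z => A'.e i (c.e.symm z))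
      ((c.χ (D.ch c.i ((D.ch j).symm (H z)))).1) := by
    rw [hinv]
    exact g4
  have g5 : DifferentiableAt ℂ
      (fun u => A'.e i (c.e.symm ((c.χ (D.ch c.i ((D.ch j).symm u))).1))) (H z) :=
    DifferentiableAt.comp (H z) (g := fun z => A'.e i (c.e.symm z)) g4' g3
  have g6 : (fun w => A'.e i (c.e.symm ((c.χ (D.ch c.i ((D.ch j).symm (H w)))).1))) =ᶠ[𝓝 z]
      id := by
    have k1 : ∀ᶠ w in 𝓝 z, (A'.e i).symm w ∈ c.e.source :=
      (A'.e i).continuousAt_symm hz (c.e.open_source.mem_nhds hcx')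
    have k2 : ∀ᶠ w in 𝓝 z, D.p ((A'.e i).symm w) ∈ (A.e j).source := by
      have k3 : ContinuousAt (fun w => D.p ((A'.e i).symm w)) z :=
        ContinuousAt.comp (g := D.p) D.continuous_p.continuousAt ((A'.e i).continuousAt_symm hz)
      exact k3 ((A.e j).open_source.mem_nhds hj')
    filter_upwards [k1, k2, (A'.e i).open_target.mem_nhds hz] with w hw1 hw2 hw3
    have k4 : (D.ch j).symm (H w) = (((A'.e i).symm w : D.X) : D.T) :=
      (D.ch j).left_inv (D.mem_ch_source.2 hw2)
    show A'.e i (c.e.symm ((c.χ (D.ch c.i ((D.ch j).symm (H w)))).1)) = w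
    rw [k4]
    show A'.e i (c.e.symm (c.e ((A'.e i).symm w))) = w
    rw [c.e.left_inv hw1, (A'.e i).right_inv hw3]
  have g7 := fderiv_comp z (g := fun u => A'.e i (c.e.symm ((c.χ (D.ch c.i ((D.ch j).symm u))).1)))
    (f := H) g5 hHd
  have g8 : fderiv ℂ ((fun u => A'.e i (c.e.symm ((c.χ (D.ch c.i ((D.ch j).symm u))).1))) ∘ H) z =
      ContinuousLinearMap.id ℂ (Cn n) := by
    have g9 : ((fun u => A'.e i (c.e.symm ((c.χ (D.ch c.i ((D.ch j).symm u))).1))) ∘ H) =ᶠ[𝓝 z]
      id := g6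
    rw [g9.fderiv_eq, fderiv_id]
  rw [g8] at g7
  have g10 := congrArg (fun T : Cn n →L[ℂ] Cn n => T v) g7
  simpa [hHv] using g10

/-! ### the tautological sections -/

open Classical in
/-- the tautological section of the pull-back of `L a` -/
def yS (R : Ref A' A D.p) (a : ρ) : A'.ι → D.X → ℂ := fun i q =>
  if q ∈ (A'.e i).source then D.y a (R.r i) q else 0

theorem yS_of_mem (R : Ref A' A D.p) (a : ρ) {i : A'.ι} {q : D.X} (hq : q ∈ (A'.e i).source) :
    D.yS R a i q = D.y a (R.r i) q := if_pos hq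

theorem isHS_yS (R : Ref A' A D.p) (a : ρ) :
    IsHS (pullLB (D.holMap_p hc) R (D.L a)) univ (D.yS R a) := by
  refine ⟨fun i => ?_, fun i x hx => if_neg hx, fun i j x hx _ => ?_⟩
  · have h1 : HolAt A' i (D.p ⁻¹' (A.e (R.r i)).source) (D.y a (R.r i)) :=
      (D.rsY hc a).hol i (R.r i)
    intro z hz
    have hx := (A'.e i).map_target hz.1
    have h2 := h1.diffAt ((A.e (R.r i)).open_source.preimage D.continuous_p) hx (R.sub i _ hx)
    rw [(A'.e i).right_inv hz.1] at h2
    refine (h2.congr_of_eventuallyEq ?_).differentiableWithinAt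
    filter_upwards [(A'.e i).open_target.mem_nhds hz.1] with w hw
    exact D.yS_of_mem R a ((A'.e i).map_target hw)
  · rw [D.yS_of_mem R a hx.1, D.yS_of_mem R a hx.2, pullLB_g (D.holMap_p hc) R (D.L a) hx]
    exact D.y_tr a (R.sub i x hx.1) (R.sub j x hx.2)

theorem yS_pow (R : Ref A' A D.p) (a : ρ) {i : A'.ι} {q : D.X} (hq : q ∈ (A'.e i).source) :
    D.yS R a i q ^ D.k a = D.s a (R.r i) (D.p q) := by
  rw [D.yS_of_mem R a hq]
  exact D.y_pow a (R.sub i q hq)

theorem yS_eq_zero_iff (R : Ref A' A D.p) (a : ρ) {i : A'.ι} {q : D.X}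
    (hq : q ∈ (A'.e i).source) : D.yS R a i q = 0 ↔ D.s a (R.r i) (D.p q) = 0 := by
  rw [← D.yS_pow R a hq]
  exact (pow_eq_zero_iff (D.kpos a).ne').symm

/-! ### off the branch divisor -/

include hc in
/-- a vector killed by `dp` is killed by `dy a` wherever `s a ≠ 0` -/
theorem dy_of_ne {i : A'.ι} {j : A.ι} {z : Cn n} (hz : z ∈ dm A' A D.p i j) {a : ρ}
    (hs : D.s a j (D.p ((A'.e i).symm z)) ≠ 0) {v : Cn n}
    (hv : fderiv ℂ (rd A' A D.p i j) z v = 0) :
    fderiv ℂ (fun w => D.y a j ((A'.e i).symm w)) z v = 0 := by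
  have hp := D.holMap_p hc
  have hy : DifferentiableAt ℂ (fun w => D.y a j ((A'.e i).symm w)) z :=
    differentiableAt_pi.1 (D.diffAt_ch' hc hz.1 hz.2).snd a
  have hsd : DifferentiableAt ℂ (fun u => D.s a j ((A.e j).symm u)) (rd A' A D.p i j z) :=
    D.diff_s j a ((A.e j).map_source hz.2)
  have h1 : (fun w => D.y a j ((A'.e i).symm w) ^ D.k a) =ᶠ[𝓝 z]
      (fun u => D.s a j ((A.e j).symm u)) ∘ (rd A' A D.p i j) := by
    filter_upwards [(hp.isOpen_dm i j).mem_nhds hz] with w hw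
    rw [D.y_pow a (show D.p ((A'.e i).symm w) ∈ (A.e j).source from hw.2)]
    show _ = D.s a j ((A.e j).symm (A.e j (D.p ((A'.e i).symm w))))
    rw [(A.e j).left_inv hw.2]
  have h2 := h1.fderiv_eq (𝕜 := ℂ)
  rw [fderiv_comp z hsd (hp.diffAt hz)] at h2
  have h3 : fderiv ℂ (fun w => D.y a j ((A'.e i).symm w) ^ D.k a) z = _ :=
    (hy.hasFDerivAt.pow (D.k a)).fderiv
  rw [h3] at h2
  have h4 := congrArg (fun T : Cn n →L[ℂ] ℂ => T v) h2
  have h5 : ((D.k a : ℂ) * D.y a j ((A'.e i).symm z) ^ (D.k a - 1)) *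
      fderiv ℂ (fun w => D.y a j ((A'.e i).symm w)) z v = 0 := by
    simpa [hv, smul_eq_mul, mul_assoc] using h4
  have h6 : D.y a j ((A'.e i).symm z) ≠ 0 := by
    intro h0
    apply hs
    rw [← D.y_pow a (show D.p ((A'.e i).symm z) ∈ (A.e j).source from hz.2), h0,
      zero_pow (D.kpos a).ne']
  exact (mul_eq_zero.1 h5).resolve_left
    (mul_ne_zero (by exact_mod_cast (D.kpos a).ne') (pow_ne_zero _ h6))

include hc in
/-- `p` is an immersion off the branch divisor -/
theorem inj_of_ne {i : A'.ι} {j : A.ι} {z : Cn n} (hz : z ∈ dm A' A D.p i j)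
    (hs : ∀ a, D.s a j (D.p ((A'.e i).symm z)) ≠ 0) :
    Function.Injective (fderiv ℂ (rd A' A D.p i j) z) := by
  rw [injective_iff_map_eq_zero]
  intro v hv
  refine D.imm_rs hc i j z hz v hv ⟨0, fun o => ?_⟩
  rw [zero_mul]
  match o with
  | none =>
    show fderiv ℂ (fun _ : Cn n => (1 : ℂ)) z v = 0
    simp
  | some a => exact D.dy_of_ne hc hz (hs a) hv

include hc in
/-- the Jacobian is invertible off the branch divisor -/
theorem det_of_ne {i : A'.ι} {j : A.ι} {x : D.X} (hx : x ∈ (A'.e i).source)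
    (hj : D.p x ∈ (A.e j).source) (hs : ∀ a, D.s a j (D.p x) ≠ 0) :
    (Jp A' A D.p i j x).det ≠ 0 := by
  have hz := mem_dm hx hj
  have h1 := D.inj_of_ne hc hz (by rw [(A'.e i).left_inv hx]; exact hs)
  intro h0
  rw [← Matrix.exists_mulVec_eq_zero_iff] at h0
  obtain ⟨v, hv, hv0⟩ := h0
  apply hv
  have h2 : fderiv ℂ (rd A' A D.p i j) (A'.e i x) (WithLp.toLp 2 v) = 0 := by
    ext b
    rw [mt_apply]
    exact congrFun hv0 b
  have h3 := h1 (h2.trans (map_zero _).symm)
  funext b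
  exact congrArg (fun v : Cn n => v b) h3

end Data

end

end Crest.Agent.R272.DCov_426
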