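import Crest.Agent.R272.Refl3_246
import Crest.Agent.R272.DCov4_426

/-!
# R272 (S0414), leaf S14-ADAPT (helper409), part 1: adding adapted coordinate charts to an atlas

* `cpt_trans`      : two charts compatible with a family are compatible with each other;
* `addFam`         : a family enlarged by compatible charts;
* `Cen A`          : points `p s`, compatible charts `χ s` at `p s`, small radii `ρ s`;
* `Cen.adp`        : the atlas `A` enlarged by the charts `(2 ρ s)⁻¹ • (χ s - χ s (p s)) + centre`;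
* `Cen.ref`, `Cen.lbih`, `Cen.lbih'`, `Cen.part`, `Cen.cmp`;
* `mkCen`          : existence (radii as small as wanted).
-/

set_option autoImplicit false
set_option linter.unusedSectionVars false

open Set Filter Topology Metric
open scoped ContDiff Manifold

namespace Crest.Agent.R272.Adp_409

open Crest.Agent.R275.Geo Crest.Agent.R275.Core144 Crest.Agent.R275.GC293
open Crest.Agent.R273.Map_835 Crest.Agent.R273.Fam_835 Crest.Agent.R273.PB_835
open Crest.Agent.R273.Defs_333 Crest.Agent.R272.Refl_246 Crest.Agent.R272.DCov_426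

noncomputable section

variable {n : ℕ} {M : Type} [TopologicalSpace M]

/-! ### compatible charts -/

theorem Cpt.diffAt {C : Fam n M} {e : OpenPartialHomeomorph M (Cn n)} (h : Cpt C e) {j : C.ι}
    {z : Cn n} (hz : z ∈ e.target) (hj : e.symm z ∈ (C.e j).source) :
    DifferentiableAt ℂ (fun z => C.e j (e.symm z)) z :=
  (h.hol j).differentiableAt
    ((e.isOpen_inter_preimage_symm (C.e j).open_source).mem_nhds ⟨hz, hj⟩)

theorem Cpt.diffAt' {C : Fam n M} {e : OpenPartialHomeomorph M (Cn n)} (h : Cpt C e) {j : C.ι}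
    {z : Cn n} (hz : z ∈ (C.e j).target) (hj : (C.e j).symm z ∈ e.source) :
    DifferentiableAt ℂ (fun z => e ((C.e j).symm z)) z :=
  (h.holi j).differentiableAt
    (((C.e j).isOpen_inter_preimage_symm e.open_source).mem_nhds ⟨hz, hj⟩)

/-- two charts compatible with a family are compatible -/
theorem cpt_trans {C : Fam n M} {e e' : OpenPartialHomeomorph M (Cn n)} (h : Cpt C e)
    (h' : Cpt C e') : DifferentiableOn ℂ (fun z => e' (e.symm z))
      (e.target ∩ e.symm ⁻¹' e'.source) := by
  intro z hz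
  obtain ⟨j, hj⟩ := C.cover (e.symm z)
  have h1 := Cpt.diffAt h hz.1 hj
  have h2 : DifferentiableAt ℂ (fun z => e' ((C.e j).symm z)) (C.e j (e.symm z)) := by
    refine Cpt.diffAt' h' ((C.e j).map_source hj) ?_
    rw [(C.e j).left_inv hj]
    exact hz.2
  have h3 := DifferentiableAt.comp z (g := fun z => e' ((C.e j).symm z))
    (f := fun z => C.e j (e.symm z)) h2 h1
  refine (h3.congr_of_eventuallyEq ?_).differentiableWithinAt
  filter_upwards [(e.isOpen_inter_preimage_symm (C.e j).open_source).mem_nhds ⟨hz.1, hj⟩]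
    with w hw
  simp only [Function.comp]
  rw [(C.e j).left_inv hw.2]

/-- a family enlarged by compatible charts -/
def addFam (C : Fam n M) {S : Type} (χ : S → OpenPartialHomeomorph M (Cn n))
    (h : ∀ s, Cpt C (χ s)) : Fam n M where
  ι := C.ι ⊕ S
  e := Sum.elim C.e χ
  cover x := by
    obtain ⟨i, hi⟩ := C.cover x
    exact ⟨Sum.inl i, hi⟩
  holo := by
    rintro (i | s) (j | t)
    · exact C.holo i j
    · exact (h t).holi i
    · exact (h s).hol j
    · exact cpt_trans (h s) (h t)

/-- compatibility with `C` is compatibility with any compatible atlas -/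
theorem Cpt.cmp {C : Fam n M} {A : Atl n M} (hc : Cmp C A) {e : OpenPartialHomeomorph M (Cn n)}
    (h : Cpt C e) : Cpt (fam A) e := by
  constructor
  · intro j z hz
    obtain ⟨c, hc1⟩ := C.cover (e.symm z)
    have h1 := Cpt.diffAt h hz.1 hc1
    have h2 := hc.bwd.diffAt (i := c) (j := j) ((C.e c).map_source hc1)
      (by rw [(C.e c).left_inv hc1]; exact hz.2)
    have h3 := DifferentiableAt.comp z (f := fun z => C.e c (e.symm z)) h2 h1
    refine (h3.congr_of_eventuallyEq ?_).differentiableWithinAt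
    filter_upwards [(e.isOpen_inter_preimage_symm (C.e c).open_source).mem_nhds ⟨hz.1, hc1⟩]
      with w hw
    simp only [Function.comp, id]
    rw [(C.e c).left_inv hw.2]
  · intro j z hz
    obtain ⟨c, hc1⟩ := C.cover ((A.e j).symm z)
    have h1 := hc.fwd.diffAt (i := j) (j := c) hz.1 hc1
    have h2 : DifferentiableAt ℂ (fun z => e ((C.e c).symm z)) (C.e c ((A.e j).symm z)) := by
      refine Cpt.diffAt' h ((C.e c).map_source hc1) ?_
      rw [(C.e c).left_inv hc1]
      exact hz.2
    have h3 := DifferentiableAt.comp z (g := fun z => e ((C.e c).symm z)) h2 h1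
    refine (h3.congr_of_eventuallyEq ?_).differentiableWithinAt
    filter_upwards [((A.e j).isOpen_inter_preimage_symm (C.e c).open_source).mem_nhds
      ⟨hz.1, hc1⟩] with w hw
    exact (congrArg e ((C.e c).left_inv hw.2)).symm

/-- the normalised restriction of a chart to a small ball -/
def nrm (e : OpenPartialHomeomorph M (Cn n)) (c : Cn n) (r : ℝ) (hr : 0 < r) :
    OpenPartialHomeomorph M (Cn n) :=
  e.trans ((aff c r hr).toOpenPartialHomeomorph.restrOpen (ball c r) isOpen_ball)

section Nrm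

variable (e : OpenPartialHomeomorph M (Cn n)) (c : Cn n) (r : ℝ) (hr : 0 < r)

theorem nrm_apply (x : M) : nrm e c r hr x = aff c r hr (e x) := rfl

theorem nrm_symm (z : Cn n) : (nrm e c r hr).symm z = e.symm ((aff c r hr).symm z) := rfl

theorem mem_nrm_source {x : M} : x ∈ (nrm e c r hr).source ↔ x ∈ e.source ∧ e x ∈ ball c r := by
  constructor
  · intro h
    exact ⟨h.1, h.2.2⟩
  · intro h
    exact ⟨h.1, mem_univ _, h.2⟩

theorem mem_nrm_target {z : Cn n} : z ∈ (nrm e c r hr).target ↔
    (aff c r hr).symm z ∈ ball c r ∧ (aff c r hr).symm z ∈ e.target := by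
  constructor
  · intro h
    exact ⟨h.1.2, h.2⟩
  · intro h
    exact ⟨⟨mem_univ _, h.1⟩, h.2⟩

theorem cpt_nrm {C : Fam n M} (h : Cpt C e) : Cpt C (nrm e c r hr) := by
  constructor
  · intro j z hz
    have h1 := ((mem_nrm_target e c r hr).1 hz.1).2
    have h2 := DifferentiableAt.comp z (g := fun z => C.e j (e.symm z))
      (f := (aff c r hr).symm) (Cpt.diffAt h h1 hz.2)
      (differentiable_aff_symm c r hr).differentiableAt
    exact h2.differentiableWithinAt
  · intro j z hz
    have h1 := ((mem_nrm_source e c r hr).1 hz.2).1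
    have h2 := DifferentiableAt.comp z (g := aff c r hr)
      (f := fun z => e ((C.e j).symm z)) (differentiable_aff c r hr).differentiableAt
      (Cpt.diffAt' h hz.1 h1)
    exact h2.differentiableWithinAt

end Nrm

/-! ### adapted charts at given points -/

/-- points with compatible charts and small radii -/
structure Cen (A : Atl n M) where
  S : Type
  p : S → M
  χ : S → OpenPartialHomeomorph M (Cn n)
  cpt : ∀ s, Cpt (fam A) (χ s)
  i0 : S → A.ι
  ρ : S → ℝ
  hρ : ∀ s, 0 < ρ s
  mem : ∀ s, p s ∈ (χ s).source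
  sub : ∀ s, ∀ z ∈ ball (χ s (p s)) (ρ s), z ∈ (χ s).target ∧ (χ s).symm z ∈ (A.e (i0 s)).source

namespace Cen

variable {A : Atl n M} (K : Cen A)

/-- the adapted chart at `p s` -/
def c (s : K.S) : OpenPartialHomeomorph M (Cn n) := nrm (K.χ s) (K.χ s (K.p s)) (K.ρ s) (K.hρ s)

theorem c_apply (s : K.S) (x : M) : K.c s x =
    ((2 * K.ρ s : ℝ) : ℂ)⁻¹ • (K.χ s x - K.χ s (K.p s)) + ctr n := rfl

theorem mem_c_source {s : K.S} {x : M} : x ∈ (K.c s).source ↔
    x ∈ (K.χ s).source ∧ K.χ s x ∈ ball (K.χ s (K.p s)) (K.ρ s) := mem_nrm_source _ _ _ _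

theorem p_mem (s : K.S) : K.p s ∈ (K.c s).source :=
  K.mem_c_source.2 ⟨K.mem s, mem_ball_self (K.hρ s)⟩

theorem c_p (s : K.S) : K.c s (K.p s) = ctr n := by
  rw [c_apply, sub_self, smul_zero, zero_add]

/-- the coordinates of the adapted chart, centred at `p s` -/
theorem c_sub (s : K.S) (x : M) : K.c s x - K.c s (K.p s) =
    ((2 * K.ρ s : ℝ) : ℂ)⁻¹ • (K.χ s x - K.χ s (K.p s)) := by
  rw [c_p, c_apply, add_sub_cancel_right]

theorem source_sub (s : K.S) : (K.c s).source ⊆ (A.e (K.i0 s)).source := by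
  intro x hx
  obtain ⟨h1, h2⟩ := K.mem_c_source.1 hx
  have h3 := (K.sub s _ h2).2
  rwa [(K.χ s).left_inv h1] at h3

theorem source_sub' (s : K.S) : (K.c s).source ⊆ (K.χ s).source := fun _ hx =>
  (K.mem_c_source.1 hx).1

theorem c_target (s : K.S) : (K.c s).target = ball (ctr n) (1 / 2) := by
  have hρ := K.hρ s
  ext z
  have h1 : z ∈ (K.c s).target ↔ (aff (K.χ s (K.p s)) (K.ρ s) (K.hρ s)).symm z ∈
      ball (K.χ s (K.p s)) (K.ρ s) := by
    constructor
    · intro h
      exact ((mem_nrm_target _ _ _ _).1 h).1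
    · intro h
      exact (mem_nrm_target _ _ _ _).2 ⟨h, (K.sub s _ h).1⟩
  rw [h1, aff_symm_apply, mem_ball, mem_ball, dist_eq_norm, dist_eq_norm, add_sub_cancel_right,
    norm_smul, Complex.norm_real, Real.norm_of_nonneg (by positivity)]
  constructor
  · intro h
    by_contra h2
    push Not at h2
    have : 2 * K.ρ s * (1 / 2) ≤ 2 * K.ρ s * ‖z - ctr n‖ := by gcongr
    linarith
  · intro h
    calc 2 * K.ρ s * ‖z - ctr n‖ < 2 * K.ρ s * (1 / 2) := by gcongr
      _ = K.ρ s := by ring

theorem cptc (s : K.S) : Cpt (fam A) (K.c s) := cpt_nrm _ _ _ _ (K.cpt s)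

/-- the charts of the enlarged atlas -/
def ee : A.ι ⊕ K.S → OpenPartialHomeomorph M (Cn n) := Sum.elim A.e K.c

theorem cpt_ee (i : A.ι ⊕ K.S) : Cpt (fam A) (K.ee i) := by
  rcases i with i | s
  · exact cpt_e (C := fam A) i
  · exact K.cptc s

/-- **the enlarged atlas** -/
def adp : Atl n M where
  ι := A.ι ⊕ K.S
  e := K.ee
  cover x := by
    obtain ⟨i, hi⟩ := A.cover x
    exact ⟨Sum.inl i, hi⟩
  cube := by
    rintro (i | s) z hz p
    · exact A.cube i z hz p
    · exact rc_mem_of_ball _ _ (K.hρ s) ((mem_nrm_target _ _ _ _).1 hz).1 p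
  holo i j := cpt_trans (K.cpt_ee i) (K.cpt_ee j)

@[simp] theorem adp_inl (i : A.ι) : K.adp.e (Sum.inl i) = A.e i := rfl

@[simp] theorem adp_inr (s : K.S) : K.adp.e (Sum.inr s) = K.c s := rfl

instance [Finite A.ι] [Finite K.S] : Finite K.adp.ι := inferInstanceAs (Finite (A.ι ⊕ K.S))

/-- every chart of the enlarged atlas lies in a chart of `A` -/
def ref : Ref K.adp A id where
  r := Sum.elim id K.i0
  sub := by
    rintro (i | s) x hx
    · exact hx
    · exact K.source_sub s hx

@[simp] theorem ref_inl (i : A.ι) : K.ref.r (Sum.inl i) = i := rfl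

@[simp] theorem ref_inr (s : K.S) : K.ref.r (Sum.inr s) = K.i0 s := rfl

/-- the old atlas refines the new one -/
def ref' : Ref A K.adp id where
  r := Sum.inl
  sub _ _ hx := hx

theorem hol : HolMap K.adp A id := ⟨continuous_id, fun i j => (K.cpt_ee i).hol j⟩

theorem hol' : HolMap A K.adp id := ⟨continuous_id, fun i j => (K.cpt_ee j).holi i⟩

theorem lbih : LBih K.adp A id := lBih_of_inv K.hol K.hol' fun _ => rfl

theorem lbih' : LBih A K.adp id := lBih_of_inv K.hol' K.hol fun _ => rfl

theorem cmp : Cmp (fam A) K.adp := ⟨holC_iff.2 K.hol, holC_iff.2 K.hol'⟩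

theorem cmp_of {C : Fam n M} (hc : Cmp C A) : Cmp C K.adp :=
  ⟨hc.fwd.comp (holC_iff.2 K.hol), (holC_iff.2 K.hol').comp hc.bwd⟩

/-! ### partition of unity -/

theorem sm {f : M → ℝ} (hf : A.Sm f) : K.adp.Sm f := by
  intro i
  refine fun z hz => ContDiffAt.contDiffWithinAt ?_
  have hx : (K.adp.e i).symm z ∈ (A.e (K.ref.r i)).source := K.ref.sub i _ ((K.adp.e i).map_target hz)
  set j := K.ref.r i with hj
  have h1 : ContDiffAt ℂ ω (fun z => A.e j ((K.adp.e i).symm z)) z := by
    have ho : IsOpen (dm K.adp A id i j) := K.hol.isOpen_dm i j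
    have h2 := (Crest.Agent.R266.SCV.contDiffOn_omega_of_differentiableOn ho (K.hol.hol i j))
    exact h2.contDiffAt (ho.mem_nhds ⟨hz, hx⟩)
  have h3 : ContDiffAt ℝ ∞ (fun z => A.e j ((K.adp.e i).symm z)) z :=
    (h1.restrict_scalars ℝ).of_le (by exact_mod_cast le_top)
  have h4 : ContDiffAt ℝ ∞ (fun z => f ((A.e j).symm z)) (A.e j ((K.adp.e i).symm z)) :=
    (hf j).contDiffAt ((A.e j).open_target.mem_nhds ((A.e j).map_source hx))
  have h5 := ContDiffAt.comp z (g := fun z => f ((A.e j).symm z)) h4 h3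
  refine h5.congr_of_eventuallyEq ?_
  filter_upwards [(K.hol.isOpen_dm i j).mem_nhds ⟨hz, hx⟩] with w hw
  exact (congrArg f ((A.e j).left_inv hw.2)).symm

/-- the partition of unity of the enlarged atlas -/
def part (P : Part A) : Part K.adp where
  ψ := Sum.elim P.ψ (fun _ _ => 0)
  χ := Sum.elim P.χ (fun _ _ => 0)
  ψ_sm := by
    rintro (i | s)
    · exact K.sm (P.ψ_sm i)
    · exact fun _ => contDiffOn_const
  χ_sm := by
    rintro (i | s)
    · exact K.sm (P.χ_sm i)
    · exact fun _ => contDiffOn_const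
  χ_cpt := by
    rintro (i | s)
    · exact P.χ_cpt i
    · have : tsupport (fun _ : M => (0 : ℝ)) = ∅ := tsupport_eq_empty_iff.2 rfl
      show IsCompact (tsupport (fun _ : M => (0 : ℝ)))
      rw [this]
      exact isCompact_empty
  χ_sub := by
    rintro (i | s)
    · exact P.χ_sub i
    · have : tsupport (fun _ : M => (0 : ℝ)) = ∅ := tsupport_eq_empty_iff.2 rfl
      show tsupport (fun _ : M => (0 : ℝ)) ⊆ _
      rw [this]
      exact empty_subset _
  χ_one := by
    rintro (i | s) x hx
    · exact P.χ_one i x hx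
    · have : tsupport (fun _ : M => (0 : ℝ)) = ∅ := tsupport_eq_empty_iff.2 rfl
      change x ∈ tsupport (fun _ : M => (0 : ℝ)) at hx
      rw [this] at hx
      exact absurd hx (notMem_empty _)
  lf := by
    intro B hB
    refine ((P.lf B hB).image Sum.inl).subset ?_
    rintro (i | s) hi
    · exact ⟨i, hi, rfl⟩
    · exfalso
      have : tsupport (fun _ : M => (0 : ℝ)) = ∅ := tsupport_eq_empty_iff.2 rfl
      change (tsupport (fun _ : M => (0 : ℝ)) ∩ B).Nonempty at hi
      rw [this, empty_inter] at hi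
      exact not_nonempty_empty hi
  sum_one := by
    intro x
    rw [← P.sum_one x]
    have h1 : (Function.support fun i : K.adp.ι => Sum.elim P.ψ (fun _ _ => (0 : ℝ)) i x) ⊆
        range (Sum.inl : A.ι → K.adp.ι) := by
      rintro (i | s) hi
      · exact ⟨i, rfl⟩
      · exact absurd rfl hi
    have h2 := finsum_mem_range (f := fun i : K.adp.ι => Sum.elim P.ψ (fun _ _ => (0 : ℝ)) i x)
      (g := (Sum.inl : A.ι → K.adp.ι)) Sum.inl_injective
    have h3 := finsum_mem_inter_support_eq'
      (fun i : K.adp.ι => Sum.elim P.ψ (fun _ _ => (0 : ℝ)) i x)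
      (range (Sum.inl : A.ι → K.adp.ι)) univ fun i hi => ⟨fun _ => mem_univ _, fun _ => h1 hi⟩
    rw [finsum_mem_univ, h2] at h3
    exact h3.symm

end Cen

/-! ### existence -/

section Mk

variable {A : Atl n M} {S : Type} (p : S → M) (χ : S → OpenPartialHomeomorph M (Cn n))
  (cpt : ∀ s, Cpt (fam A) (χ s)) (mem : ∀ s, p s ∈ (χ s).source) (O : S → Set M)
  (hO : ∀ s, O s ∈ 𝓝 (p s))

theorem exists_rad {s : S} (mem : p s ∈ (χ s).source) (hO : O s ∈ 𝓝 (p s)) :
    ∃ r : ℝ, 0 < r ∧ ∀ z ∈ ball (χ s (p s)) r, z ∈ (χ s).target ∧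
      (χ s).symm z ∈ (A.e (A.cover (p s)).choose).source ∩ O s := by
  have h1 : (χ s).symm ⁻¹' ((A.e (A.cover (p s)).choose).source ∩ O s) ∈ 𝓝 (χ s (p s)) := by
    refine ((χ s).continuousAt_symm ((χ s).map_source mem)).preimage_mem_nhds ?_
    rw [(χ s).left_inv mem]
    exact inter_mem ((A.e _).open_source.mem_nhds (A.cover (p s)).choose_spec) hO
  obtain ⟨r, hr, h2⟩ := Metric.mem_nhds_iff.1
    (inter_mem ((χ s).open_target.mem_nhds ((χ s).map_source mem)) h1)
  exact ⟨r, hr, fun z hz => h2 hz⟩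

/-- **adapted charts exist** -/
def mkCen : Cen A where
  S := S
  p := p
  χ := χ
  cpt := cpt
  i0 s := (A.cover (p s)).choose
  ρ s := (exists_rad (A := A) p χ O (mem s) (hO s)).choose
  hρ s := (exists_rad (A := A) p χ O (mem s) (hO s)).choose_spec.1
  mem := mem
  sub s z hz := ⟨((exists_rad (A := A) p χ O (mem s) (hO s)).choose_spec.2 z hz).1,
    ((exists_rad (A := A) p χ O (mem s) (hO s)).choose_spec.2 z hz).2.1⟩

theorem mkCen_sub (s : S) : ((mkCen p χ cpt mem O hO).c s).source ⊆ O s := by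
  intro x hx
  obtain ⟨h1, h2⟩ := (mkCen p χ cpt mem O hO).mem_c_source.1 hx
  have h3 := ((exists_rad (A := A) p χ O (mem s) (hO s)).choose_spec.2 _ h2).2.2
  have h4 : (χ s).symm (χ s x) = x := (χ s).left_inv h1
  have h5 : (χ s).symm (χ s x) ∈ O s := h3
  rwa [h4] at h5

end Mk

end

end Crest.Agent.R272.Adp_409
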