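import Crest.Agent.R272.Blup5_102

/-!
# R272, BLUP (helper102), part 6: strict transforms

* `exists_div_pow`: division of a holomorphic function by `u_a ^ k`;
* `st`: the strict transform of a section of `L` of order `≥ k s` at the centres, a section of
  `π^* L * O(- k E)`; `st_eq` (uniqueness of the local equation), `st_one` (value on `E`, `k = 1`).
-/

set_option autoImplicit false
set_option linter.unusedSectionVars false

open Set Filter Topology Complex Asymptotics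
open scoped ContDiff Matrix ComplexConjugate Manifold

namespace Crest.Agent.R272.Blup1_102

open Crest.Agent.R275.Geo Crest.Agent.R275.Core144
open Crest.Agent.R273.Map_835 Crest.Agent.R273.PB_835

noncomputable section

variable {n : ℕ}

/-! ### division by a power of a coordinate -/

/-- the basis vector -/
abbrev ev (a : Fin n) : Cn n := EuclideanSpace.single a 1

section Div

variable {D : Set (Cn n)} {a : Fin n}

theorem frequently_ne (u : Cn n) (hu : u a = 0) : ∃ᶠ v : Cn n in 𝓝 u, v a ≠ 0 := by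
  have hc : Tendsto (fun t : ℂ => u + t • ev a) (𝓝 0) (𝓝 u) := by
    have h1 : ContinuousAt (fun t : ℂ => u + t • ev a) 0 := by fun_prop
    have h2 := h1.tendsto
    simp only [zero_smul, add_zero] at h2
    exact h2
  have hfr : ∃ᶠ t : ℂ in 𝓝 0, t ≠ 0 := by
    have : (𝓝[≠] (0 : ℂ)).NeBot := inferInstance
    rw [Filter.frequently_iff]
    intro U hU
    obtain ⟨t, ht1, ht2⟩ := this.nonempty_of_mem (inter_mem_nhdsWithin {0}ᶜ hU)
    exact ⟨t, ht2, ht1⟩
  refine hc.frequently (hfr.mono fun t ht => ?_)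
  simp [hu, ht]

/-- division by a coordinate, on a domain which is star shaped in this coordinate -/
theorem exists_div_one (hD : IsOpen D)
    (hstar : ∀ u ∈ D, ∀ t ∈ Icc (0 : ℝ) 1, u - (((1 - t : ℝ) : ℂ) * u a) • ev a ∈ D)
    {Φ : Cn n → ℂ} (hΦ : DifferentiableOn ℂ Φ D) (h0 : ∀ u ∈ D, u a = 0 → Φ u = 0) :
    ∃ Ψ : Cn n → ℂ, DifferentiableOn ℂ Ψ D ∧ ∀ u ∈ D, Φ u = u a * Ψ u := by
  have hA : AnalyticOnNhd ℂ Φ D := Crest.Agent.R266.SCV.analyticOnNhd_of_differentiableOn hD hΦ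
  have hA1 : AnalyticOnNhd ℂ (fun w => fderiv ℂ Φ w (ev a)) D := fun w hw =>
    (ContinuousLinearMap.apply ℂ ℂ (ev a)).analyticAt _ |>.comp (hA.fderiv w hw)
  set F : Cn n × ℝ → ℂ := fun y => fderiv ℂ Φ (y.1 - (((1 - y.2 : ℝ) : ℂ) * y.1 a) • ev a) (ev a)
    with hF
  have hu01 : uIcc (0 : ℝ) 1 = Icc 0 1 := uIcc_of_le zero_le_one
  have hcF : ContinuousOn F (D ×ˢ uIcc (0 : ℝ) 1) := by
    refine ContinuousOn.comp (g := fun w => fderiv ℂ Φ w (ev a)) (t := D)
      (f := fun y : Cn n × ℝ => y.1 - (((1 - y.2 : ℝ) : ℂ) * y.1 a) • ev a) hA1.continuousOn ?_ ?_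
    · have : Continuous fun y : Cn n × ℝ => y.1 - (((1 - y.2 : ℝ) : ℂ) * y.1 a) • ev a := by
        fun_prop
      exact this.continuousOn
    · rintro ⟨u, t⟩ ⟨h1, h2⟩
      rw [hu01] at h2
      exact hstar u h1 t h2
  have hdF : ∀ t ∈ uIcc (0 : ℝ) 1, DifferentiableOn ℂ (fun x => F (x, t)) D := by
    intro t ht
    rw [hu01] at ht
    refine DifferentiableOn.comp (g := fun w => fderiv ℂ Φ w (ev a)) (t := D)
      (f := fun x : Cn n => x - (((1 - t : ℝ) : ℂ) * x a) • ev a) hA1.differentiableOn ?_ ?_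
    · have : Differentiable ℂ fun x : Cn n => x - (((1 - t : ℝ) : ℂ) * x a) • ev a := by
        fun_prop
      exact this.differentiableOn
    · intro u hu
      exact hstar u hu t ht
  have hI := Crest.Agent.R266.SCV.analyticOnNhd_intervalIntegral hD hcF hdF
  refine ⟨fun x => ∫ t in (0 : ℝ)..1, F (x, t), hI.differentiableOn, fun u hu => ?_⟩
  have hd : ∀ t ∈ uIcc (0 : ℝ) 1, HasDerivAt
      (fun t : ℝ => Φ (u - (((1 - t : ℝ) : ℂ) * u a) • ev a)) (u a * F (u, t)) t := by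
    intro t ht
    rw [hu01] at ht
    have h1 : HasFDerivAt Φ (fderiv ℂ Φ (u - (((1 - t : ℝ) : ℂ) * u a) • ev a))
        (u - (((1 - t : ℝ) : ℂ) * u a) • ev a) :=
      (hΦ.differentiableAt (hD.mem_nhds (hstar u hu t ht))).hasFDerivAt
    have h2 : HasDerivAt (fun t : ℝ => u - (((1 - t : ℝ) : ℂ) * u a) • ev a) (u a • ev a) t := by
      have h3 : HasDerivAt (fun t : ℝ => (((1 - t : ℝ) : ℂ) * u a)) (-u a) t := by
        have h4 : HasDerivAt (fun t : ℝ => ((1 - t : ℝ) : ℂ)) (-1) t := by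
          have h5 : HasDerivAt (fun t : ℝ => 1 - t) (-1) t := by
            simpa using (hasDerivAt_id t).const_sub 1
          simpa using h5.ofReal_comp
        simpa using h4.mul_const (u a)
      have h6 := (h3.smul_const (ev a)).const_sub u
      simpa using h6
    have h7 := (h1.restrictScalars ℝ).comp_hasDerivAt t h2
    refine h7.congr_deriv ?_
    simp only [ContinuousLinearMap.coe_restrictScalars', map_smul, smul_eq_mul, hF]
  have hint : IntervalIntegrable (fun t => u a * F (u, t)) MeasureTheory.volume 0 1 := by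
    refine ContinuousOn.intervalIntegrable ?_
    refine continuousOn_const.mul (hcF.comp (Continuous.continuousOn (by fun_prop)) ?_)
    intro t ht
    exact ⟨hu, ht⟩
  have h8 := intervalIntegral.integral_eq_sub_of_hasDerivAt hd hint
  rw [intervalIntegral.integral_const_mul] at h8
  rw [h8]
  have h9 : Φ (u - (((1 - 0 : ℝ) : ℂ) * u a) • ev a) = 0 := by
    refine h0 _ (hstar u hu 0 ⟨le_rfl, zero_le_one⟩) ?_
    simp
  rw [h9]
  simp

theorem exists_div_pow (hD : IsOpen D)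
    (hstar : ∀ u ∈ D, ∀ t ∈ Icc (0 : ℝ) 1, u - (((1 - t : ℝ) : ℂ) * u a) • ev a ∈ D)
    {Φ : Cn n → ℂ} (hΦ : DifferentiableOn ℂ Φ D) (k : ℕ)
    (hO : ∀ u ∈ D, u a = 0 → Φ =O[𝓝 u] fun v => (v a) ^ k) :
    ∃ Ψ : Cn n → ℂ, DifferentiableOn ℂ Ψ D ∧ ∀ u ∈ D, Φ u = (u a) ^ k * Ψ u := by
  induction k with
  | zero => exact ⟨Φ, hΦ, fun u _ => by simp⟩
  | succ k ih =>
    obtain ⟨Ψ0, h1, h2⟩ := ih fun u hu hua => by
      refine (hO u hu hua).trans ?_
      have h3 : (fun v : Cn n => v a) =O[𝓝 u] fun _ => (1 : ℂ) := by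
        have hc : ContinuousAt (fun v : Cn n => v a) u := by fun_prop
        exact hc.isBigO_one ℂ
      have h4 := (isBigO_refl (fun v : Cn n => (v a) ^ k) (𝓝 u)).mul h3
      simpa [pow_succ] using h4
    have h0 : ∀ u ∈ D, u a = 0 → Ψ0 u = 0 := by
      intro u hu hua
      by_contra hne
      have hδ : 0 < ‖Ψ0 u‖ / 2 := half_pos (norm_pos_iff.2 hne)
      have hc : ContinuousAt Ψ0 u := (h1.differentiableAt (hD.mem_nhds hu)).continuousAt
      have e1 : ∀ᶠ v in 𝓝 u, ‖Ψ0 u‖ / 2 < ‖Ψ0 v‖ :=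
        hc.norm.eventually (lt_mem_nhds (half_lt_self (norm_pos_iff.2 hne)))
      obtain ⟨c, hcpos, hcO⟩ := (hO u hu hua).exists_pos
      have e2 := hcO.bound
      have e3 : ∀ᶠ v : Cn n in 𝓝 u, c * ‖v a‖ < ‖Ψ0 u‖ / 2 := by
        have h5 : ContinuousAt (fun v : Cn n => c * ‖v a‖) u := by fun_prop
        refine h5.eventually (gt_mem_nhds ?_)
        simp only [hua, norm_zero, mul_zero]
        exact hδ
      have e4 := hD.mem_nhds hu
      obtain ⟨v, hva, hv1, hv2, hv3, hv4⟩ :=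
        ((frequently_ne u hua).and_eventually (e1.and (e2.and (e3.and e4)))).exists
      rw [h2 v hv4, norm_mul, norm_pow, norm_pow, pow_succ] at hv2
      have h6 : 0 < ‖v a‖ ^ k := pow_pos (norm_pos_iff.2 hva) k
      have h7 : ‖v a‖ ^ k * ‖Ψ0 v‖ ≤ ‖v a‖ ^ k * (c * ‖v a‖) := by
        calc ‖v a‖ ^ k * ‖Ψ0 v‖ ≤ c * (‖v a‖ ^ k * ‖v a‖) := hv2
          _ = ‖v a‖ ^ k * (c * ‖v a‖) := by ring
      have h8 := le_of_mul_le_mul_left h7 h6
      linarith
    obtain ⟨Ψ, h3, h4⟩ := exists_div_one hD hstar h1 h0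
    refine ⟨Ψ, h3, fun u hu => ?_⟩
    rw [h2 u hu, h4 u hu, pow_succ]
    ring

end Div

/-! ### strict transforms -/

variable [NeZero n] {M : Type} [TopologicalSpace M] [T2Space M] {A : Atl n M}

theorem contAt_of_holAt {A : Atl n M} {i : A.ι} {U : Set M} {f : M → ℂ} (h : HolAt A i U f)
    (hU : IsOpen U) {x : M} (hx : x ∈ (A.e i).source) (hxU : x ∈ U) : ContinuousAt f x := by
  have h1 := (h.diffAt hU hx hxU).continuousAt
  have h2 : ContinuousAt (fun y => f ((A.e i).symm (A.e i y))) x :=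
    ContinuousAt.comp (g := fun z => f ((A.e i).symm z)) h1 ((A.e i).continuousAt hx)
  refine h2.congr ?_
  filter_upwards [(A.e i).open_source.mem_nhds hx] with y hy
  rw [(A.e i).left_inv hy]

theorem pullLB_mul {m : ℕ} {N : Type} [TopologicalSpace N] {B : Atl m N} {p : M → N}
    (hp : HolMap A B p) (R : Ref A B p) (L L' : LB B) :
    pullLB hp R (L * L') = pullLB hp R L * pullLB hp R L' := by
  ext i j x
  rw [LB.mul_g]
  by_cases hx : x ∈ (A.e i).source ∩ (A.e j).source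
  · rw [pullLB_g hp R _ hx, pullLB_g hp R _ hx, pullLB_g hp R _ hx, LB.mul_g]
  · rw [LB.off _ _ _ _ hx, LB.off _ _ _ _ hx, LB.off _ _ _ _ hx, one_mul]

theorem pullLB_one {m : ℕ} {N : Type} [TopologicalSpace N] {B : Atl m N} {p : M → N}
    (hp : HolMap A B p) (R : Ref A B p) : pullLB hp R (1 : LB B) = 1 := by
  have h := pullLB_mul hp R 1 1
  rw [mul_one] at h
  exact (left_eq_mul.1 h)

theorem pullLB_pow {m : ℕ} {N : Type} [TopologicalSpace N] {B : Atl m N} {p : M → N}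
    (hp : HolMap A B p) (R : Ref A B p) (L : LB B) (k : ℕ) :
    pullLB hp R (L ^ k) = (pullLB hp R L) ^ k := by
  induction k with
  | zero => rw [pow_zero, pow_zero, pullLB_one]
  | succ k ih => rw [pow_succ, pow_succ, pullLB_mul, ih]

namespace Ctr

variable (C : Ctr A) {L : LB A} {σ : A.ι → M → ℂ}

/-- the section read in the chart of the centre `s` -/
def phi (σ : A.ι → M → ℂ) (s : C.S) (v : Cn n) : ℂ := σ (C.i s) (C.pt s v)

theorem phi_hol (hσ : IsHS L univ σ) (s : C.S) :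
    DifferentiableOn ℂ (C.phi σ s) (Metric.ball 0 (C.r s)) := by
  have h : DifferentiableOn ℂ (fun z => σ (C.i s) ((A.e (C.i s)).symm z)) (A.e (C.i s)).target :=
    DifferentiableOn.mono (hσ.hol (C.i s)) fun z hz => ⟨hz, mem_univ _⟩
  refine DifferentiableOn.comp h (f := fun v => A.e (C.i s) (C.p s) + v) (by fun_prop) ?_
  intro v hv
  rw [mem_ball_zero_iff] at hv
  exact C.sub_ball hv

/-- order of vanishing at the centres -/
def Ord (σ : A.ι → M → ℂ) (k : C.S → ℕ) : Prop :=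
  ∀ s, (C.phi σ s) =O[𝓝 0] fun v => ‖v‖ ^ (k s)

/-- the section read in the chart `s, a` -/
def Phi (σ : A.ι → M → ℂ) (s : C.S) (a : Fin n) (u : Cn n) : ℂ := C.phi σ s (u a • W a u)

theorem Phi_hol (hσ : IsHS L univ σ) (s : C.S) (a : Fin n) :
    DifferentiableOn ℂ (C.Phi σ s a) (C.T s a) := by
  refine DifferentiableOn.comp (C.phi_hol hσ s) (f := fun u : Cn n => u a • W a u)
    (differentiable_blow a).differentiableOn ?_
  intro u hu
  rw [mem_ball_zero_iff]
  exact hu.1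

theorem T_star {s : C.S} {a : Fin n} (u : Cn n) (hu : u ∈ C.T s a) (t : ℝ) (ht : t ∈ Icc (0 : ℝ) 1) :
    u - (((1 - t : ℝ) : ℂ) * u a) • ev a ∈ C.T s a := by
  have h1 : (u - (((1 - t : ℝ) : ℂ) * u a) • ev a) a = (t : ℂ) * u a := by
    simp
    ring
  have h2 : W a (u - (((1 - t : ℝ) : ℂ) * u a) • ev a) = W a u := by
    ext b
    rw [W_apply, W_apply]
    split_ifs with hb
    · rfl
    · simp [hb]
  refine ⟨?_, fun b hb => ?_⟩
  · rw [h1, h2, mul_smul, norm_smul, Complex.norm_real, Real.norm_of_nonneg ht.1]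
    have h3 := hu.1
    have h4 := norm_nonneg (u a • W a u)
    nlinarith [ht.2]
  · have h3 : (u - (((1 - t : ℝ) : ℂ) * u a) • ev a) b = u b := by
      simp [hb]
    rw [h3]
    exact hu.2 b hb

theorem Phi_isBigO {k : C.S → ℕ} (hk : C.Ord σ k) (s : C.S) (a : Fin n) {u : Cn n}
    (hua : u a = 0) : (C.Phi σ s a) =O[𝓝 u] fun v => (v a) ^ (k s) := by
  have hc : Tendsto (fun v : Cn n => v a • W a v) (𝓝 u) (𝓝 0) := by
    have h1 := (differentiable_blow a u).continuousAt.tendsto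
    rw [hua, zero_smul] at h1
    exact h1
  have h2 := (hk s).comp_tendsto hc
  refine h2.trans ?_
  have h3 : (fun v : Cn n => ‖W a v‖ ^ (k s)) =O[𝓝 u] fun _ => (1 : ℂ) := by
    have h4 : ContinuousAt (fun v : Cn n => ‖W a v‖ ^ (k s)) u :=
      ((differentiable_W a).continuous.norm.pow _).continuousAt
    exact h4.isBigO_one ℂ
  have h5 : (fun v : Cn n => ‖v a‖ ^ (k s)) =O[𝓝 u] fun v => (v a) ^ (k s) := by
    refine IsBigO.of_bound 1 (Eventually.of_forall fun v => ?_)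
    rw [norm_pow, norm_pow, norm_norm, one_mul]
  have h6 := h5.mul h3
  refine h6.congr' (Eventually.of_forall fun v => ?_) ?_ |>.trans (isBigO_refl _ _)
  · simp only [Function.comp, norm_smul, mul_pow]
  · exact Eventually.of_forall fun v => by simp

/-- the local equation of the strict transform -/
theorem exists_Psi (hσ : IsHS L univ σ) {k : C.S → ℕ} (hk : C.Ord σ k) (s : C.S) (a : Fin n) :
    ∃ Ψ : Cn n → ℂ, DifferentiableOn ℂ Ψ (C.T s a) ∧
      ∀ u ∈ C.T s a, C.Phi σ s a u = (u a) ^ (k s) * Ψ u :=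
  exists_div_pow (C.isOpen_T s a) (fun u hu t ht => C.T_star u hu t ht) (C.Phi_hol hσ s a) (k s)
    fun _ _ hua => C.Phi_isBigO hk s a hua

/-- the local equation of the strict transform in the (unscaled) chart `s, a` -/
def Psi (hσ : IsHS L univ σ) {k : C.S → ℕ} (hk : C.Ord σ k) (s : C.S) (a : Fin n) : Cn n → ℂ :=
  (C.exists_Psi hσ hk s a).choose

theorem Psi_hol (hσ : IsHS L univ σ) {k : C.S → ℕ} (hk : C.Ord σ k) (s : C.S) (a : Fin n) :
    DifferentiableOn ℂ (C.Psi hσ hk s a) (C.T s a) := (C.exists_Psi hσ hk s a).choose_spec.1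

theorem Psi_eq (hσ : IsHS L univ σ) {k : C.S → ℕ} (hk : C.Ord σ k) (s : C.S) (a : Fin n)
    {u : Cn n} (hu : u ∈ C.T s a) : C.phi σ s (u a • W a u) = (u a) ^ (k s) * C.Psi hσ hk s a u :=
  (C.exists_Psi hσ hk s a).choose_spec.2 u hu

/-- uniqueness of the local equation -/
theorem Psi_unique (hσ : IsHS L univ σ) {k : C.S → ℕ} (hk : C.Ord σ k) {s : C.S} {a : Fin n}
    {u : Cn n} (hu : u ∈ C.T s a) {g : Cn n → ℂ} (hg : ContinuousAt g u)
    (h : ∀ᶠ v in 𝓝 u, v a ≠ 0 → C.phi σ s (v a • W a v) = (v a) ^ (k s) * g v) :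
    C.Psi hσ hk s a u = g u := by
  by_cases hua : u a = 0
  · by_contra hne
    have hc : ContinuousAt (C.Psi hσ hk s a) u :=
      ((C.Psi_hol hσ hk s a).differentiableAt ((C.isOpen_T s a).mem_nhds hu)).continuousAt
    have h1 : ∀ᶠ v in 𝓝 u, C.Psi hσ hk s a v ≠ g v :=
      (hc.prodMk hg).eventually (isClosed_diagonal.isOpen_compl.mem_nhds hne)
    obtain ⟨v, hv, h2, h3, h4⟩ := ((frequently_ne u hua).and_eventually
      (h.and (h1.and ((C.isOpen_T s a).mem_nhds hu)))).exists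
    have h5 := h2 hv
    rw [C.Psi_eq hσ hk s a h4] at h5
    exact h3 (mul_left_cancel₀ (pow_ne_zero _ hv) h5)
  · have h5 := h.self_of_nhds hua
    rw [C.Psi_eq hσ hk s a hu] at h5
    exact mul_left_cancel₀ (pow_ne_zero _ hua) h5

/-- value on the exceptional divisor, multiplicity one -/
theorem Psi_one (hσ : IsHS L univ σ) {k : C.S → ℕ} (hk : C.Ord σ k) {s : C.S} {a : Fin n}
    (hks : k s = 1) {u : Cn n} (hu : u ∈ C.T s a) (hua : u a = 0) :
    C.Psi hσ hk s a u = fderiv ℂ (C.phi σ s) 0 (W a u) := by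
  have hr : (0 : Cn n) ∈ Metric.ball (0 : Cn n) (C.r s) := Metric.mem_ball_self (C.r_pos s)
  have h1 : HasFDerivAt (C.phi σ s) (fderiv ℂ (C.phi σ s) 0) 0 :=
    ((C.phi_hol hσ s).differentiableAt (Metric.isOpen_ball.mem_nhds hr)).hasFDerivAt
  have h2 : HasFDerivAt (C.Psi hσ hk s a) (fderiv ℂ (C.Psi hσ hk s a) u) u :=
    ((C.Psi_hol hσ hk s a).differentiableAt ((C.isOpen_T s a).mem_nhds hu)).hasFDerivAt
  -- derivative along `t ↦ u + t e_a`
  have hl : HasDerivAt (fun t : ℂ => u + t • ev a) (ev a) 0 := by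
    simpa using ((hasDerivAt_id (0 : ℂ)).smul_const (ev a)).const_add u
  have hWt : ∀ t : ℂ, W a (u + t • ev a) = W a u := by
    intro t
    ext b
    rw [W_apply, W_apply]
    split_ifs with hb
    · rfl
    · simp [hb]
  have hat : ∀ t : ℂ, (u + t • ev a) a = t := by
    intro t
    simp [hua]
  have h3 : HasDerivAt (fun t : ℂ => C.phi σ s (t • W a u)) (fderiv ℂ (C.phi σ s) 0 (W a u)) 0 := by
    have h4 : HasDerivAt (fun t : ℂ => t • W a u) (W a u) 0 := by
      simpa using (hasDerivAt_id (0 : ℂ)).smul_const (W a u)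
    have h1' : HasFDerivAt (C.phi σ s) (fderiv ℂ (C.phi σ s) 0) ((0 : ℂ) • W a u) := by
      rw [zero_smul]
      exact h1
    exact h1'.comp_hasDerivAt (0 : ℂ) h4
  have h5 : HasDerivAt (fun t : ℂ => t * C.Psi hσ hk s a (u + t • ev a)) (C.Psi hσ hk s a u) 0 := by
    have h2' : HasFDerivAt (C.Psi hσ hk s a) (fderiv ℂ (C.Psi hσ hk s a) u) (u + (0 : ℂ) • ev a) := by
      rw [zero_smul, add_zero]
      exact h2
    have h6 := h2'.comp_hasDerivAt (0 : ℂ) hl
    have h7 : HasDerivAt (fun t : ℂ => t * C.Psi hσ hk s a (u + t • ev a)) _ 0 :=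
      (hasDerivAt_id' (0 : ℂ)).fun_mul h6
    refine h7.congr_deriv ?_
    simp
  have h6 : (fun t : ℂ => t * C.Psi hσ hk s a (u + t • ev a)) =ᶠ[𝓝 0]
      fun t => C.phi σ s (t • W a u) := by
    have h7 : ∀ᶠ t : ℂ in 𝓝 0, u + t • ev a ∈ C.T s a := by
      refine hl.continuousAt.eventually ((C.isOpen_T s a).mem_nhds ?_)
      simpa using hu
    filter_upwards [h7] with t ht
    have h8 := C.Psi_eq hσ hk s a ht
    rw [hWt, hat, hks, pow_one] at h8
    exact h8.symm
  exact (h5.congr_of_eventuallyEq h6.symm).unique h3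

open Classical in
/-- the strict transform -/
def st (hσ : IsHS L univ σ) {k : C.S → ℕ} (hk : C.Ord σ k) (i : C.atl.ι) (y : C.X) : ℂ :=
  if y ∈ (C.atl.e i).source then
    Sum.elim (fun i : A.ι => σ i (C.pi y)) (fun sa => C.Psi hσ hk sa.1 sa.2 (C.co sa.1 sa.2 y)) i
  else 0

theorem st_inl (hσ : IsHS L univ σ) {k : C.S → ℕ} (hk : C.Ord σ k) {i : A.ι} {y : C.X}
    (hy : y ∈ (C.atl.e (Sum.inl i)).source) : C.st hσ hk (Sum.inl i) y = σ i (C.pi y) := if_pos hy

theorem st_inr (hσ : IsHS L univ σ) {k : C.S → ℕ} (hk : C.Ord σ k) {s : C.S} {a : Fin n} {y : C.X}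
    (hy : y ∈ C.V s a) : C.st hσ hk (Sum.inr (s, a)) y = C.Psi hσ hk s a (C.co s a y) :=
  if_pos (C.mem_ec_inr.2 hy)

theorem phi_co {s : C.S} {a : Fin n} {y : C.X} (hy : y ∈ C.V s a) (σ : A.ι → M → ℂ) :
    C.phi σ s (C.co s a y a • W a (C.co s a y)) = σ (C.i s) (C.pi y) := by
  rw [phi, ← (C.exists_W hy.1 hy.2.1).1, C.pt_z hy.1]

/-- off the exceptional divisor the strict transform is the section divided by the frame -/
theorem st_mul_fr (hσ : IsHS L univ σ) {k : C.S → ℕ} (hk : C.Ord σ k) {i : C.atl.ι} {y : C.X}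
    (hy : y ∈ (C.atl.e i).source) (hE : y ∉ C.E) :
    C.fr (C.kz k) i y * C.st hσ hk i y = σ (C.refPi.r i) (C.pi y) := by
  rcases i with i | ⟨s, a⟩
  · rw [C.st_inl hσ hk hy, fr_inl, one_mul]
    rfl
  · have hV := C.mem_ec_inr.1 hy
    rw [C.st_inr hσ hk hV, fr_inr, C.dv_off hE, kz, zpow_natCast]
    have h1 := C.Psi_eq hσ hk s a (C.co_mem hV)
    rw [C.phi_co hV σ] at h1
    have h2 : C.co s a y a = C.z s (C.pi y) a := by rw [co_apply, if_pos rfl]
    rw [h2] at h1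
    exact h1.symm

theorem st_holAt (hσ : IsHS L univ σ) {k : C.S → ℕ} (hk : C.Ord σ k) (i : C.atl.ι) :
    HolAt C.atl i univ (C.st hσ hk i) := by
  rcases i with i | ⟨s, a⟩
  · rw [holAt_inl]
    have h : DifferentiableOn ℂ (fun z => σ i ((A.e i).symm z)) {v | v ∈ (A.e i).target ∧
        (A.e i).symm v ∉ C.Z ∧ C.lift ((A.e i).symm v) ∈ (univ : Set C.X)} :=
      DifferentiableOn.mono (hσ.hol i) fun z hz => ⟨hz.1, mem_univ _⟩
    refine h.congr fun v hv => ?_
    rw [C.st_inl, C.pi_lift]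
    refine C.mem_ec_inl.2 ?_
    rw [C.pi_lift]
    exact ⟨hv.2.1, (A.e i).map_target hv.1⟩
  · rw [holAt_inr]
    refine ((C.Psi_hol hσ hk s a).mono inter_subset_left).congr fun u hu => ?_
    rw [C.st_inr hσ hk (C.ci_mem hu.1), C.co_ci hu.1]

/-- the strict transform is a section of `π^* L * O(-k E)` -/
theorem isHS_st (hσ : IsHS L univ σ) {k : C.S → ℕ} (hk : C.Ord σ k) :
    IsHS (pullLB C.holMap_pi C.refPi L * C.OE (-C.kz k)) univ (C.st hσ hk) := by
  refine ⟨C.st_holAt hσ hk, fun i y hy => if_neg hy, fun i j y hy _ => ?_⟩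
  have hopen : (C.atl.e i).source ∩ (C.atl.e j).source ∈ 𝓝 y :=
    ((C.atl.e i).open_source.inter (C.atl.e j).open_source).mem_nhds hy
  have hc1 : ContinuousAt (C.st hσ hk i) y :=
    contAt_of_holAt (C.st_holAt hσ hk i) isOpen_univ hy.1 (mem_univ _)
  have hc2 : ContinuousAt (C.st hσ hk j) y :=
    contAt_of_holAt (C.st_holAt hσ hk j) isOpen_univ hy.2 (mem_univ _)
  have hc3 : ContinuousAt ((pullLB C.holMap_pi C.refPi L * C.OE (-C.kz k)).g i j) y :=
    contAt_of_holAt ((pullLB C.holMap_pi C.refPi L * C.OE (-C.kz k)).hol i j)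
      (C.atl.e j).open_source hy.1 hy.2
  refine C.eq_of_off hc1 (hc3.mul hc2) ?_
  filter_upwards [hopen] with y' hy' hE
  have h1 := C.st_mul_fr hσ hk hy'.1 hE
  have h2 := C.st_mul_fr hσ hk hy'.2 hE
  have h3 := hσ.tr (C.refPi.r i) (C.refPi.r j) (C.pi y')
    ⟨C.refPi.sub i y' hy'.1, C.refPi.sub j y' hy'.2⟩ (mem_univ _)
  have h4 := C.fr_ne (C.kz k) hy'.1
  have h5 := C.fr_ne (C.kz k) hy'.2
  show C.st hσ hk i y' = (pullLB C.holMap_pi C.refPi L * C.OE (-C.kz k)).g i j y' * C.st hσ hk j y'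
  rw [LB.mul_g, pullLB_g _ _ _ hy', OE_neg, LB.inv_g, C.OE_g _ hy', inv_div]
  rw [h3, ← h2] at h1
  field_simp
  linear_combination h1

end Ctr

end

end Crest.Agent.R272.Blup1_102
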