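import Crest.Agent.R272.Root2_83
import Crest.Agent.R273.Cic_769

/-!
# R272, leaf ROOTCOV (helper83), part 4: roots from meromorphic roots

`exists_root_frac`: on a complex manifold, if `f * a ^ 2 = b ^ 2` with `f, a, b` holomorphic near `x` and
`a` not identically zero near `x`, then `f` has a holomorphic square root `r` near `x` with `r * a = b`
(normality of the ring of germs).  So square roots only have to be given as fractions.
-/

set_option autoImplicit false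

open Set Topology Filter

namespace Crest.Agent.R272.Root_83

open Crest.Agent.R275.Geo Crest.Agent.R273.Fam_835 Crest.Agent.R272.Quot_783

noncomputable section

theorem exists_root_frac_cn {n : ℕ} {U : Set (Cn n)} (hU : IsOpen U) (hpc : IsPreconnected U)
    {f a b : Cn n → ℂ} (hf : DifferentiableOn ℂ f U) (ha : DifferentiableOn ℂ a U)
    (hb : DifferentiableOn ℂ b U) (h : ∀ z ∈ U, f z * a z ^ 2 = b z ^ 2)
    (hne : ∃ z ∈ U, a z ≠ 0) :
    ∃ r : Cn n → ℂ, DifferentiableOn ℂ r U ∧ (∀ z ∈ U, r z ^ 2 = f z) ∧ ∀ z ∈ U, r z * a z = b z := by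
  have haA := Crest.Agent.R266.SCV.analyticOnNhd_of_differentiableOn hU ha
  have hdense : ∀ y ∈ U, ∃ᶠ z in 𝓝 y, a z ≠ 0 := fun y hy => by
    have := Crest.Agent.R266.SCV.dense_ne_zero hU hpc haA hne y hy
    exact this.mono fun z hz => hz.2
  have hbd : ∀ y ∈ U, ∃ C : ℝ, ∀ᶠ z in 𝓝 y, ‖b z‖ ≤ C * ‖a z‖ := by
    intro y hy
    have hcf : ContinuousAt f y := (hf.differentiableAt (hU.mem_nhds hy)).continuousAt
    have h1 : ∀ᶠ z in 𝓝 y, ‖f z‖ < ‖f y‖ + 1 :=
      hcf.norm.eventually_lt continuousAt_const (by linarith)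
    refine ⟨‖f y‖ + 1, ?_⟩
    filter_upwards [h1, hU.mem_nhds hy] with z hz hzU
    have h2 := h z hzU
    have h3 : ‖f z‖ * ‖a z‖ ^ 2 = ‖b z‖ ^ 2 := by
      rw [← norm_pow, ← norm_pow, ← norm_mul, h2]
    have h4 : ‖b z‖ ^ 2 ≤ ((‖f y‖ + 1) * ‖a z‖) ^ 2 := by
      rw [← h3, mul_pow]
      refine mul_le_mul_of_nonneg_right ?_ (by positivity)
      have h5 : 0 ≤ ‖f y‖ := norm_nonneg _
      nlinarith
    exact le_of_sq_le_sq h4 (by positivity)
  obtain ⟨lam, hlam, hle⟩ := Crest.Agent.R273.Cic769.exists_quot hU hb ha hdense hbd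
  refine ⟨lam, hlam, ?_, fun z hz => (hle z hz).symm⟩
  intro y hy
  by_contra hcon
  have h1 : ContinuousAt (fun z => lam z ^ 2 - f z) y :=
    ((hlam.differentiableAt (hU.mem_nhds hy)).continuousAt.pow 2).sub
      (hf.differentiableAt (hU.mem_nhds hy)).continuousAt
  have h2 : ∀ᶠ z in 𝓝 y, lam z ^ 2 - f z ≠ 0 := h1.eventually_ne (sub_ne_zero.2 hcon)
  obtain ⟨z, hz, hz2, hzU⟩ := ((hdense y hy).and_eventually (h2.and (hU.mem_nhds hy))).exists
  apply hz2
  have h3 := h z hzU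
  rw [hle z hzU, mul_pow] at h3
  have h4 := mul_right_cancel₀ (pow_ne_zero 2 hz) h3
  rw [h4, sub_self]

variable {n : ℕ} {X : Type} [TopologicalSpace X]

/-- a holomorphic function in one chart is holomorphic -/
theorem holF_of_chart (C : Fam n X) (i : C.ι) {V : Set (Cn n)} {r : Cn n → ℂ}
    (hr : DifferentiableOn ℂ r V) {U : Set X} (hU : ∀ x ∈ U, x ∈ (C.e i).source ∧ C.e i x ∈ V) :
    HolF C U (fun x => r (C.e i x)) := by
  intro j z hz
  have h1 := hU _ hz.2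
  have h2 : DifferentiableAt ℂ (fun w => C.e i ((C.e j).symm w)) z :=
    (C.holo j i).differentiableAt (((C.e j).isOpen_inter_preimage_symm
      (C.e i).open_source).mem_nhds ⟨hz.1, h1.1⟩)
  have h3 : DifferentiableWithinAt ℂ r V (C.e i ((C.e j).symm z)) := hr _ h1.2
  exact h3.comp z h2.differentiableWithinAt fun w hw => (hU _ hw.2).2

/-- **Roots from meromorphic roots.** -/
theorem exists_root_frac (C : Fam n X) {U : Set X} (hU : IsOpen U) {f a b : X → ℂ}
    (hf : HolF C U f) (ha : HolF C U a) (hb : HolF C U b)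
    (h : ∀ x ∈ U, f x * a x ^ 2 = b x ^ 2) {x : X} (hx : x ∈ U) (hne : ∃ᶠ z in 𝓝 x, a z ≠ 0) :
    ∃ V, IsOpen V ∧ x ∈ V ∧ V ⊆ U ∧ ∃ r : X → ℂ, HolF C V r ∧
      (∀ z ∈ V, r z ^ 2 = f z) ∧ ∀ z ∈ V, r z * a z = b z := by
  obtain ⟨i, hi⟩ := C.cover x
  set z0 := C.e i x with hz0
  have hΩ : IsOpen ((C.e i).target ∩ (C.e i).symm ⁻¹' U) :=
    (C.e i).isOpen_inter_preimage_symm hU
  have hz0Ω : z0 ∈ (C.e i).target ∩ (C.e i).symm ⁻¹' U :=
    ⟨(C.e i).map_source hi, by rw [mem_preimage, hz0, (C.e i).left_inv hi]; exact hx⟩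
  obtain ⟨ε, hε, hball⟩ := Metric.isOpen_iff.1 hΩ z0 hz0Ω
  set V : Set X := (C.e i).source ∩ C.e i ⁻¹' (Metric.ball z0 ε) with hV
  have hVo : IsOpen V := (C.e i).isOpen_inter_preimage Metric.isOpen_ball
  have hxV : x ∈ V := ⟨hi, by rw [mem_preimage]; exact Metric.mem_ball_self hε⟩
  have hVU : V ⊆ U := by
    rintro y ⟨hy1, hy2⟩
    have := (hball hy2).2
    rwa [mem_preimage, (C.e i).left_inv hy1] at this
  obtain ⟨y, hy, hyV⟩ := (hne.and_eventually (hVo.mem_nhds hxV)).exists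
  obtain ⟨r, hr, hr2, hra⟩ := exists_root_frac_cn Metric.isOpen_ball
    (convex_ball z0 ε).isPreconnected
    (f := fun z => f ((C.e i).symm z)) (a := fun z => a ((C.e i).symm z))
    (b := fun z => b ((C.e i).symm z))
    ((hf i).mono hball) ((ha i).mono hball) ((hb i).mono hball)
    (fun z hz => h _ (hball hz).2)
    ⟨C.e i y, hyV.2, by rw [(C.e i).left_inv hyV.1]; exact hy⟩
  refine ⟨V, hVo, hxV, hVU, fun x => r (C.e i x), holF_of_chart C i hr fun y hy => hy, ?_, ?_⟩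
  · rintro z ⟨hz1, hz2⟩
    rw [hr2 _ hz2, (C.e i).left_inv hz1]
  · rintro z ⟨hz1, hz2⟩
    have := hra _ hz2
    rwa [(C.e i).left_inv hz1] at this

theorem HolF.mul {C : Fam n X} {U : Set X} {f g : X → ℂ} (hf : HolF C U f) (hg : HolF C U g) :
    HolF C U (fun x => f x * g x) := fun j => (hf j).mul (hg j)

theorem HolF.pow {C : Fam n X} {U : Set X} {f : X → ℂ} (hf : HolF C U f) (k : ℕ) :
    HolF C U (fun x => f x ^ k) := fun j => (hf j).pow k

/-- holomorphic root of `f`, when `f * a ^ 2 * u = b ^ 2` with a unit `u` -/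
theorem exists_root_frac_unit (C : Fam n X) {U : Set X} (hU : IsOpen U) {f a b u : X → ℂ}
    (hf : HolF C U f) (ha : HolF C U a) (hb : HolF C U b) (hu : HolF C U u)
    (h : ∀ x ∈ U, f x * a x ^ 2 * u x = b x ^ 2) {x : X} (hx : x ∈ U) (hux : u x ≠ 0)
    (hne : ∃ᶠ z in 𝓝 x, a z ≠ 0) :
    ∃ V, IsOpen V ∧ x ∈ V ∧ V ⊆ U ∧ ∃ r : X → ℂ, HolF C V r ∧ ∀ z ∈ V, r z ^ 2 = f z := by
  have hcont : ContinuousOn (fun z => u z / u x) U := (HolF.continuousOn hU hu).div_const _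
  have hVo : IsOpen (U ∩ (fun z => u z / u x) ⁻¹' Complex.slitPlane) :=
    hcont.isOpen_inter_preimage hU Complex.isOpen_slitPlane
  set W := U ∩ (fun z => u z / u x) ⁻¹' Complex.slitPlane with hW
  have hxW : x ∈ W := ⟨hx, by rw [mem_preimage, div_self hux]; exact Complex.one_mem_slitPlane⟩
  set v : X → ℂ := fun z => (u x) ^ (1 / 2 : ℂ) * (u z / u x) ^ (1 / 2 : ℂ) with hv
  have hvh : HolF C W v := by
    intro j z hz
    have h1 : DifferentiableWithinAt ℂ (fun z => u ((C.e j).symm z) / u x)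
        ((C.e j).target ∩ (C.e j).symm ⁻¹' W) z := by
      have h2 : ((C.e j).target ∩ (C.e j).symm ⁻¹' W) ⊆ ((C.e j).target ∩ (C.e j).symm ⁻¹' U) :=
        fun y hy => ⟨hy.1, hy.2.1⟩
      exact ((hu j z ⟨hz.1, hz.2.1⟩).mono h2).mul_const (u x)⁻¹
    exact (h1.cpow_const hz.2.2).const_mul _
  have hv2 : ∀ z ∈ W, v z ^ 2 = u z := by
    intro z hz
    have h2 : ((1 / 2 : ℂ)) = (((2 : ℕ) : ℂ))⁻¹ := by norm_num
    simp only [hv]
    rw [mul_pow, h2, Complex.cpow_nat_inv_pow _ two_ne_zero, Complex.cpow_nat_inv_pow _ two_ne_zero,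
      mul_div_cancel₀ _ hux]
  have hvx : ∀ z ∈ W, v z ≠ 0 := by
    intro z hz h0
    have h3 : u z / u x ≠ 0 := Complex.slitPlane_ne_zero hz.2
    have h4 := hv2 z hz
    rw [h0] at h4
    apply h3
    rw [← h4]; simp
  obtain ⟨V, hVo', hxV, hVW, r, hr, hr2, -⟩ := exists_root_frac C hVo (f := f)
    (a := fun z => a z * v z) (b := b)
    (HolF.mono hf inter_subset_left)
    (HolF.mul (HolF.mono ha inter_subset_left) hvh) (HolF.mono hb inter_subset_left)
    (fun z hz => by rw [mul_pow, hv2 z hz, ← mul_assoc]; exact h z hz.1) hxW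
    (by
      refine (hne.and_eventually (hVo.mem_nhds hxW)).mono ?_
      rintro z ⟨h1, h2⟩
      exact mul_ne_zero h1 (hvx z h2))
  exact ⟨V, hVo', hxV, fun z hz => (hVW hz).1, r, hr, hr2⟩

end

end Crest.Agent.R272.Root_83
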