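import Crest.Agent.R272.Root3_83
import Crest.Agent.R272.Root4_83

/-!
# R272, leaf S14-ROOTS (helper83): square classes of germs

`SqE C x f g`: `f` and `g` differ, as germs of meromorphic functions at `x`, by a square and a unit:
`f * α ^ 2 * u = g * β ^ 2` near `x`, `α, β` holomorphic not locally zero, `u` holomorphic, `u x ≠ 0`.

* equivalence relation, compatible with products, pull back under open holomorphic maps;
* `SqE.of_ne` (units), `SqE.sq` (squares), `SqE.div` (fractions);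
* `SqE.root`: `SqE C x f 1`, `f` holomorphic near `x` ⟹ `f` has a holomorphic root near `x`;
* `RS.ofSqE`: the root system.
-/

set_option autoImplicit false

open Set Topology Filter

namespace Crest.Agent.R272.Root_83

open Crest.Agent.R275.Geo Crest.Agent.R273.Fam_835 Crest.Agent.R272.Quot_783

noncomputable section

universe v

variable {n : ℕ} {X : Type} [TopologicalSpace X]

/-- `f` is a holomorphic germ at `x`, not identically zero -/
structure NZ (C : Fam n X) (x : X) (f : X → ℂ) : Prop where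
  hol : ∃ U, IsOpen U ∧ x ∈ U ∧ HolF C U f
  ne : ∃ᶠ z in 𝓝 x, f z ≠ 0

/-- holomorphic near `x` -/
def HG (C : Fam n X) (x : X) (f : X → ℂ) : Prop := ∃ U, IsOpen U ∧ x ∈ U ∧ HolF C U f

variable {C : Fam n X} {x : X} {f g h a b u : X → ℂ}

theorem HG.mul (hf : HG C x f) (hg : HG C x g) : HG C x (fun z => f z * g z) := by
  obtain ⟨U, hU, hxU, h1⟩ := hf
  obtain ⟨V, hV, hxV, h2⟩ := hg
  exact ⟨U ∩ V, hU.inter hV, ⟨hxU, hxV⟩, HolF.mul (HolF.mono h1 inter_subset_left)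
    (HolF.mono h2 inter_subset_right)⟩

theorem HG.const (c : ℂ) : HG C x (fun _ => c) :=
  ⟨univ, isOpen_univ, mem_univ _, fun _ => differentiableOn_const c⟩

theorem HG.pow (hf : HG C x f) (k : ℕ) : HG C x (fun z => f z ^ k) := by
  obtain ⟨U, hU, hxU, h1⟩ := hf
  exact ⟨U, hU, hxU, HolF.pow h1 k⟩

theorem HG.add (hf : HG C x f) (hg : HG C x g) : HG C x (fun z => f z + g z) := by
  obtain ⟨U, hU, hxU, h1⟩ := hf
  obtain ⟨V, hV, hxV, h2⟩ := hg
  exact ⟨U ∩ V, hU.inter hV, ⟨hxU, hxV⟩, fun j => (HolF.mono h1 inter_subset_left j).add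
    (HolF.mono h2 inter_subset_right j)⟩

theorem HG.sub (hf : HG C x f) (hg : HG C x g) : HG C x (fun z => f z - g z) := by
  obtain ⟨U, hU, hxU, h1⟩ := hf
  obtain ⟨V, hV, hxV, h2⟩ := hg
  exact ⟨U ∩ V, hU.inter hV, ⟨hxU, hxV⟩, fun j => (HolF.mono h1 inter_subset_left j).sub
    (HolF.mono h2 inter_subset_right j)⟩

theorem HG.congr (hf : HG C x f) (hfg : f =ᶠ[𝓝 x] g) : HG C x g := by
  obtain ⟨U, hU, hxU, h1⟩ := hf
  obtain ⟨V, hV, hVo, hxV⟩ := _root_.eventually_nhds_iff.1 hfg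
  refine ⟨U ∩ V, hU.inter hVo, ⟨hxU, hxV⟩, fun j => ?_⟩
  refine (HolF.mono h1 inter_subset_left j).congr ?_
  rintro z ⟨-, hz⟩
  exact (hV _ hz.2).symm

theorem HG.continuousAt (hf : HG C x f) : ContinuousAt f x := by
  obtain ⟨U, hU, hxU, h1⟩ := hf
  exact (HolF.continuousOn hU h1).continuousAt (hU.mem_nhds hxU)

theorem HG.inv (hf : HG C x f) (hne : f x ≠ 0) : HG C x (fun z => (f z)⁻¹) := by
  obtain ⟨U, hU, hxU, h1⟩ := hf
  refine ⟨U ∩ f ⁻¹' {w | w ≠ 0}, (HolF.continuousOn hU h1).isOpen_inter_preimage hU isOpen_ne,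
    ⟨hxU, hne⟩, fun j => ?_⟩
  exact DifferentiableOn.inv (HolF.mono h1 inter_subset_left j) fun z hz => hz.2.2

theorem HG.eventually (hf : HG C x f) : ∀ᶠ z in 𝓝 x, HG C z f := by
  obtain ⟨U, hU, hxU, h1⟩ := hf
  filter_upwards [hU.mem_nhds hxU] with z hz
  exact ⟨U, hU, hz, h1⟩

/-- the product of two non-zero germs is non-zero -/
theorem freq_mul (ha : HG C x a) (hb : HG C x b) (h1 : ∃ᶠ z in 𝓝 x, a z ≠ 0)
    (h2 : ∃ᶠ z in 𝓝 x, b z ≠ 0) : ∃ᶠ z in 𝓝 x, a z * b z ≠ 0 := by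
  obtain ⟨U, hU, hxU, haU⟩ := ha
  obtain ⟨U', hU', hxU', hbU⟩ := hb
  obtain ⟨i, hi⟩ := C.cover x
  set z0 := C.e i x with hz0
  intro hcon
  obtain ⟨W, hW, hWo, hxW⟩ := _root_.eventually_nhds_iff.1 hcon
  have hΩ : IsOpen ((C.e i).target ∩ (C.e i).symm ⁻¹' (U ∩ U' ∩ W)) :=
    (C.e i).isOpen_inter_preimage_symm ((hU.inter hU').inter hWo)
  have hz0Ω : z0 ∈ (C.e i).target ∩ (C.e i).symm ⁻¹' (U ∩ U' ∩ W) :=
    ⟨(C.e i).map_source hi, by
      rw [mem_preimage, hz0, (C.e i).left_inv hi]; exact ⟨⟨hxU, hxU'⟩, hxW⟩⟩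
  obtain ⟨ε, hε, hball⟩ := Metric.isOpen_iff.1 hΩ z0 hz0Ω
  have hmem : ∀ᶠ y in 𝓝 x, y ∈ (C.e i).source ∧ C.e i y ∈ Metric.ball z0 ε := by
    filter_upwards [(C.e i).open_source.mem_nhds hi,
      (C.e i).continuousAt hi |>.preimage_mem_nhds (Metric.ball_mem_nhds z0 hε)] with y hy1 hy2
    exact ⟨hy1, hy2⟩
  rcases eq_zero_of_mul Metric.isOpen_ball (convex_ball z0 ε).isPreconnected
    (F := fun z => a ((C.e i).symm z)) (G := fun z => b ((C.e i).symm z))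
    ((haU i).mono fun z hz => ⟨(hball hz).1, (hball hz).2.1.1⟩)
    ((hbU i).mono fun z hz => ⟨(hball hz).1, (hball hz).2.1.2⟩)
    (fun z hz => not_not.1 (hW _ (hball hz).2.2)) with h3 | h3
  · apply h1
    filter_upwards [hmem] with y hy
    have := h3 _ hy.2
    simp only [(C.e i).left_inv hy.1] at this
    exact fun h => h this
  · apply h2
    filter_upwards [hmem] with y hy
    have := h3 _ hy.2
    simp only [(C.e i).left_inv hy.1] at this
    exact fun h => h this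

/-- equality up to squares and units -/
def SqE (C : Fam n X) (x : X) (f g : X → ℂ) : Prop :=
  ∃ α β u : X → ℂ, HG C x α ∧ HG C x β ∧ HG C x u ∧ u x ≠ 0 ∧ (∃ᶠ z in 𝓝 x, α z ≠ 0) ∧
    (∃ᶠ z in 𝓝 x, β z ≠ 0) ∧ ∀ᶠ z in 𝓝 x, f z * α z ^ 2 * u z = g z * β z ^ 2

theorem freq_one : ∃ᶠ _z in 𝓝 x, (1 : ℂ) ≠ 0 :=
  (Filter.Eventually.of_forall fun _ => one_ne_zero).frequently

theorem freq_of_ne (hf : HG C x f) (h : f x ≠ 0) : ∃ᶠ z in 𝓝 x, f z ≠ 0 :=
  (hf.continuousAt.eventually_ne h).frequently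

theorem SqE.of_eq (h : f =ᶠ[𝓝 x] g) : SqE C x f g :=
  ⟨fun _ => 1, fun _ => 1, fun _ => 1, HG.const 1, HG.const 1, HG.const 1, one_ne_zero, freq_one,
    freq_one, by filter_upwards [h] with z hz; rw [hz]; ring⟩

theorem SqE.refl (f : X → ℂ) : SqE C x f f := SqE.of_eq EventuallyEq.rfl

theorem SqE.symm (h : SqE C x f g) : SqE C x g f := by
  obtain ⟨α, β, u, hα, hβ, hu, hux, h1, h2, h3⟩ := h
  refine ⟨β, α, fun z => (u z)⁻¹, hβ, hα, hu.inv hux, inv_ne_zero hux, h2, h1, ?_⟩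
  filter_upwards [h3, hu.continuousAt.eventually_ne hux] with z hz hne
  rw [← hz]
  field_simp

theorem SqE.trans (h : SqE C x f g) (h' : SqE C x g b) : SqE C x f b := by
  obtain ⟨α, β, u, hα, hβ, hu, hux, h1, h2, h3⟩ := h
  obtain ⟨α', β', u', hα', hβ', hu', hux', h1', h2', h3'⟩ := h'
  refine ⟨fun z => α z * α' z, fun z => β z * β' z, fun z => u z * u' z, hα.mul hα', hβ.mul hβ',
    hu.mul hu', mul_ne_zero hux hux', freq_mul hα hα' h1 h1', freq_mul hβ hβ' h2 h2', ?_⟩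
  filter_upwards [h3, h3'] with z hz hz'
  linear_combination (α' z ^ 2 * u' z) * hz + (β z ^ 2) * hz'

theorem SqE.mul {f' g' : X → ℂ} (h : SqE C x f g) (h' : SqE C x f' g') :
    SqE C x (fun z => f z * f' z) (fun z => g z * g' z) := by
  obtain ⟨α, β, u, hα, hβ, hu, hux, h1, h2, h3⟩ := h
  obtain ⟨α', β', u', hα', hβ', hu', hux', h1', h2', h3'⟩ := h'
  refine ⟨fun z => α z * α' z, fun z => β z * β' z, fun z => u z * u' z, hα.mul hα', hβ.mul hβ',
    hu.mul hu', mul_ne_zero hux hux', freq_mul hα hα' h1 h1', freq_mul hβ hβ' h2 h2', ?_⟩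
  filter_upwards [h3, h3'] with z hz hz'
  linear_combination (f' z * α' z ^ 2 * u' z) * hz + (g z * β z ^ 2) * hz'

/-- units are trivial -/
theorem SqE.of_ne (hf : HG C x f) (hne : f x ≠ 0) : SqE C x f (fun _ => 1) :=
  ⟨fun _ => 1, fun _ => 1, fun z => (f z)⁻¹, HG.const 1, HG.const 1, hf.inv hne, inv_ne_zero hne,
    freq_one, freq_one, by
      filter_upwards [hf.continuousAt.eventually_ne hne] with z hz
      rw [one_pow, mul_one, mul_one, mul_inv_cancel₀ hz]⟩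

/-- multiplication by a unit -/
theorem SqE.unit_mul (hu : HG C x u) (hne : u x ≠ 0) (hfg : ∀ᶠ z in 𝓝 x, f z = u z * g z) :
    SqE C x f g :=
  ⟨fun _ => 1, fun _ => 1, fun z => (u z)⁻¹, HG.const 1, HG.const 1, hu.inv hne, inv_ne_zero hne,
    freq_one, freq_one, by
      filter_upwards [hu.continuousAt.eventually_ne hne, hfg] with z hz h2
      rw [h2]; field_simp⟩

/-- multiplication by a square -/
theorem SqE.sq_mul (ha : HG C x a) (hne : ∃ᶠ z in 𝓝 x, a z ≠ 0)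
    (hfg : ∀ᶠ z in 𝓝 x, f z = a z ^ 2 * g z) : SqE C x f g :=
  ⟨fun _ => 1, a, fun _ => 1, HG.const 1, ha, HG.const 1, one_ne_zero, freq_one, hne, by
    filter_upwards [hfg] with z h2
    rw [h2]; ring⟩

/-- squares are trivial -/
theorem SqE.of_sq (ha : HG C x a) (hne : ∃ᶠ z in 𝓝 x, a z ≠ 0)
    (hf : ∀ᶠ z in 𝓝 x, f z = a z ^ 2) : SqE C x f (fun _ => 1) :=
  SqE.sq_mul ha hne (by filter_upwards [hf] with z hz; rw [hz, mul_one])

/-- fractions -/
theorem SqE.div (hb : HG C x b) (hne : ∃ᶠ z in 𝓝 x, b z ≠ 0) (hf : ∀ᶠ z in 𝓝 x, f z * b z = a z) :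
    SqE C x f (fun z => a z * b z) :=
  ⟨b, fun _ => 1, fun _ => 1, hb, HG.const 1, HG.const 1, one_ne_zero, hne, freq_one, by
    filter_upwards [hf] with z hz
    rw [← hz]; ring⟩

/-- **roots** -/
theorem SqE.root (h : SqE C x f (fun _ => 1)) (hf : HG C x f) : ∃ r, HRt C f r x := by
  obtain ⟨α, β, u, hα, hβ, hu, hux, h1, h2, h3⟩ := h
  obtain ⟨U1, hU1, hx1, hα⟩ := hα
  obtain ⟨U2, hU2, hx2, hβ⟩ := hβ
  obtain ⟨U3, hU3, hx3, hu⟩ := hu
  obtain ⟨U4, hU4, hx4, hf⟩ := hf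
  obtain ⟨U5, hU5, hU5o, hx5⟩ := _root_.eventually_nhds_iff.1 h3
  have hU : IsOpen (U1 ∩ U2 ∩ U3 ∩ U4 ∩ U5) :=
    (((hU1.inter hU2).inter hU3).inter hU4).inter hU5o
  obtain ⟨V, hV, hxV, -, r, hr, hr2⟩ := exists_root_frac_unit C hU (f := f) (a := α) (b := β)
    (u := u) (HolF.mono hf fun z hz => hz.1.2) (HolF.mono hα fun z hz => hz.1.1.1.1)
    (HolF.mono hβ fun z hz => hz.1.1.1.2) (HolF.mono hu fun z hz => hz.1.1.2)
    (fun z hz => by rw [hU5 z hz.2, one_mul]) (x := x) ⟨⟨⟨⟨hx1, hx2⟩, hx3⟩, hx4⟩, hx5⟩ hux h1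
  exact ⟨r, V, hV, hxV, hr, hr2⟩

/-- **The root system of functions which are squares up to squares of fractions and units.** -/
def RS.ofSqE (C : Fam n X) {ι : Type v} (g : ι → X → ℂ) (hg : ∀ a x, HG C x (g a))
    (hne : ∀ a x, ∃ᶠ z in 𝓝 x, g a z ≠ 0) (h : ∀ a x, SqE C x (g a) (fun _ => 1)) : RS X ι g :=
  RS.ofHol C g hne fun a x => (h a x).root (hg a x)

/-! ### pull back -/

variable {m : ℕ} {Y : Type} [TopologicalSpace Y] {D : Fam m Y} {p : Y → X} {y : Y}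

theorem HG.comp (hf : HG C (p y) f) (hp : HolC D C p) : HG D y (fun z => f (p z)) := by
  obtain ⟨U, hU, hx, h1⟩ := hf
  refine ⟨p ⁻¹' U, hU.preimage hp.cont, hx, fun j => ?_⟩
  intro z hz
  obtain ⟨i, hi⟩ := C.cover (p ((D.e j).symm z))
  have h2 := hp.diffAt hz.1 hi
  have h3 := h1.diffAt hU hi hz.2
  have h4 : DifferentiableAt ℂ (fun w => f ((C.e i).symm (C.e i (p ((D.e j).symm w))))) z :=
    DifferentiableAt.comp z (g := fun w => f ((C.e i).symm w)) h3 h2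
  refine (h4.congr_of_eventuallyEq ?_).differentiableWithinAt
  filter_upwards [(hp.isOpen_dm j i).mem_nhds ⟨hz.1, hi⟩] with w hw
  rw [(C.e i).left_inv hw.2]

/-- `p` is dominant at `y`: non-zero germs stay non-zero -/
def Dom (D : Fam m Y) (C : Fam n X) (p : Y → X) (y : Y) : Prop :=
  ∀ a : X → ℂ, HG C (p y) a → (∃ᶠ z in 𝓝 (p y), a z ≠ 0) → ∃ᶠ w in 𝓝 y, a (p w) ≠ 0

theorem Dom.freq (hd : Dom D C p y) (ha : HG C (p y) a)
    (h : ∃ᶠ z in 𝓝 (p y), a z ≠ 0) : ∃ᶠ w in 𝓝 y, a (p w) ≠ 0 := hd a ha h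

/-- composition of dominant maps -/
theorem Dom.comp {k : ℕ} {Z : Type} [TopologicalSpace Z] {E : Fam k Z} {r : Z → Y} {z : Z}
    (hp : HolC D C p) (h1 : Dom D C p (r z)) (h2 : Dom E D r z) : Dom E C (fun w => p (r w)) z :=
  fun _ ha hne => h2 _ (ha.comp hp) (h1 _ ha hne)

/-- a germ which is not locally zero at `x` is not locally zero at the points near `x` -/
theorem freq_near (ha : HG C x a) (h : ∃ᶠ z in 𝓝 x, a z ≠ 0) :
    ∀ᶠ x' in 𝓝 x, ∃ᶠ z in 𝓝 x', a z ≠ 0 := by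
  obtain ⟨U, hU, hxU, haU⟩ := ha
  obtain ⟨i, hi⟩ := C.cover x
  set z0 := C.e i x with hz0
  have hΩ : IsOpen ((C.e i).target ∩ (C.e i).symm ⁻¹' U) :=
    (C.e i).isOpen_inter_preimage_symm hU
  have hz0Ω : z0 ∈ (C.e i).target ∩ (C.e i).symm ⁻¹' U :=
    ⟨(C.e i).map_source hi, by rw [mem_preimage, hz0, (C.e i).left_inv hi]; exact hxU⟩
  obtain ⟨ε, hε, hball⟩ := Metric.isOpen_iff.1 hΩ z0 hz0Ω
  have hmem : ∀ᶠ y in 𝓝 x, y ∈ (C.e i).source ∧ C.e i y ∈ Metric.ball z0 ε := by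
    filter_upwards [(C.e i).open_source.mem_nhds hi,
      (C.e i).continuousAt hi |>.preimage_mem_nhds (Metric.ball_mem_nhds z0 hε)] with y hy1 hy2
    exact ⟨hy1, hy2⟩
  have hA : AnalyticOnNhd ℂ (fun z => a ((C.e i).symm z)) (Metric.ball z0 ε) :=
    Crest.Agent.R266.SCV.analyticOnNhd_of_differentiableOn Metric.isOpen_ball
      ((haU i).mono hball)
  obtain ⟨y, hy, hy1, hy2⟩ := (h.and_eventually hmem).exists
  have hdense := Crest.Agent.R266.SCV.dense_ne_zero Metric.isOpen_ball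
    (convex_ball z0 ε).isPreconnected hA ⟨C.e i y, hy2, by rw [(C.e i).left_inv hy1]; exact hy⟩
  filter_upwards [hmem] with x' hx'
  have h1 := hdense _ hx'.2
  intro hcon
  apply h1
  have h2 : ContinuousAt (C.e i).symm (C.e i x') :=
    (C.e i).continuousAt_symm ((C.e i).map_source hx'.1)
  have h3 : ∀ᶠ z in 𝓝 (C.e i x'), ¬ a ((C.e i).symm z) ≠ 0 :=
    h2.eventually (by rw [(C.e i).left_inv hx'.1]; exact hcon)
  filter_upwards [h3] with z hz hz2
  exact hz hz2.2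

/-- **criterion**: `p` is open at points arbitrarily near `y` -/
theorem dom_of_freq_open (hp : Continuous p)
    (h : ∃ᶠ y' in 𝓝 y, 𝓝 (p y') ≤ Filter.map p (𝓝 y')) : Dom D C p y := by
  intro a ha hne hcon
  have h1 : ∀ᶠ y' in 𝓝 y, ∃ᶠ z in 𝓝 (p y'), a z ≠ 0 :=
    hp.continuousAt.eventually (freq_near ha hne)
  obtain ⟨y', h2, h3, h4⟩ := (h.and_eventually (h1.and hcon.eventually_nhds)).exists
  have h5 : ∃ᶠ w in 𝓝 y', a (p w) ≠ 0 := Filter.frequently_map.1 (h3.filter_mono h2)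
  exact h5 h4

theorem dom_of_open (hp : IsOpenMap p) (hc : Continuous p) : Dom D C p y :=
  dom_of_freq_open hc (Filter.Eventually.frequently (Filter.Eventually.of_forall fun y' =>
    hp.nhds_le y'))

theorem SqE.comp (h : SqE C (p y) f g) (hp : HolC D C p) (hd : Dom D C p y) :
    SqE D y (fun z => f (p z)) (fun z => g (p z)) := by
  obtain ⟨α, β, u, hα, hβ, hu, hux, h1, h2, h3⟩ := h
  exact ⟨fun z => α (p z), fun z => β (p z), fun z => u (p z), hα.comp hp, hβ.comp hp, hu.comp hp,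
    hux, hd _ hα h1, hd _ hβ h2, hp.cont.continuousAt.eventually h3⟩

/-- functions which bound each other differ by a unit -/
theorem SqE.of_bounds (hf : HG C x f) (ha : HG C x a) (hne : ∃ᶠ z in 𝓝 x, a z ≠ 0) {K : ℝ}
    (h1 : ∀ᶠ z in 𝓝 x, ‖f z‖ ≤ K * ‖a z‖) (h2 : ∀ᶠ z in 𝓝 x, ‖a z‖ ≤ K * ‖f z‖) :
    SqE C x a f := by
  obtain ⟨U, hU, hxU, hfU⟩ := hf
  obtain ⟨V, hV, hxV, haV⟩ := ha
  obtain ⟨O, hO, hOo, hxO⟩ := _root_.eventually_nhds_iff.1 (h1.and h2)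
  obtain ⟨i, hi⟩ := C.cover x
  set z0 := C.e i x with hz0
  have hΩ : IsOpen ((C.e i).target ∩ (C.e i).symm ⁻¹' (U ∩ V ∩ O)) :=
    (C.e i).isOpen_inter_preimage_symm ((hU.inter hV).inter hOo)
  have hz0Ω : z0 ∈ (C.e i).target ∩ (C.e i).symm ⁻¹' (U ∩ V ∩ O) :=
    ⟨(C.e i).map_source hi, by
      rw [mem_preimage, hz0, (C.e i).left_inv hi]; exact ⟨⟨hxU, hxV⟩, hxO⟩⟩
  obtain ⟨ε, hε, hball⟩ := Metric.isOpen_iff.1 hΩ z0 hz0Ω
  set W : Set X := (C.e i).source ∩ C.e i ⁻¹' (Metric.ball z0 ε) with hW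
  have hWo : IsOpen W := (C.e i).isOpen_inter_preimage Metric.isOpen_ball
  have hxW : x ∈ W := ⟨hi, by rw [mem_preimage]; exact Metric.mem_ball_self hε⟩
  have hf' : DifferentiableOn ℂ (fun z => f ((C.e i).symm z)) (Metric.ball z0 ε) :=
    (hfU i).mono fun z hz => ⟨(hball hz).1, (hball hz).2.1.1⟩
  have ha' : DifferentiableOn ℂ (fun z => a ((C.e i).symm z)) (Metric.ball z0 ε) :=
    (haV i).mono fun z hz => ⟨(hball hz).1, (hball hz).2.1.2⟩
  have hb1 : ∀ z ∈ Metric.ball z0 ε, ‖f ((C.e i).symm z)‖ ≤ K * ‖a ((C.e i).symm z)‖ :=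
    fun z hz => (hO _ (hball hz).2.2).1
  have hb2 : ∀ z ∈ Metric.ball z0 ε, ‖a ((C.e i).symm z)‖ ≤ K * ‖f ((C.e i).symm z)‖ :=
    fun z hz => (hO _ (hball hz).2.2).2
  have hA := Crest.Agent.R266.SCV.analyticOnNhd_of_differentiableOn Metric.isOpen_ball ha'
  obtain ⟨y, hy, hyW⟩ := (hne.and_eventually (hWo.mem_nhds hxW)).exists
  have hdense := Crest.Agent.R266.SCV.dense_ne_zero Metric.isOpen_ball
    (convex_ball z0 ε).isPreconnected hA
    ⟨C.e i y, hyW.2, by simp only [(C.e i).left_inv hyW.1]; exact hy⟩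
  have hda : ∀ z ∈ Metric.ball z0 ε, ∃ᶠ w in 𝓝 z, a ((C.e i).symm w) ≠ 0 := fun z hz =>
    (hdense z hz).mono fun w hw => hw.2
  have hdf : ∀ z ∈ Metric.ball z0 ε, ∃ᶠ w in 𝓝 z, f ((C.e i).symm w) ≠ 0 := fun z hz =>
    (hdense z hz).mono fun w hw h0 => hw.2 (by
      have := hb2 w hw.1
      rw [h0, norm_zero, mul_zero] at this
      exact norm_le_zero_iff.1 this)
  obtain ⟨lam, hlam, hl⟩ := Crest.Agent.R273.Cic769.exists_quot Metric.isOpen_ball hf' ha' hda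
    fun z hz => ⟨K, by filter_upwards [Metric.isOpen_ball.mem_nhds hz] with w hw using hb1 w hw⟩
  obtain ⟨mu, hmu, hm⟩ := Crest.Agent.R273.Cic769.exists_quot Metric.isOpen_ball ha' hf' hdf
    fun z hz => ⟨K, by filter_upwards [Metric.isOpen_ball.mem_nhds hz] with w hw using hb2 w hw⟩
  have hmem0 : z0 ∈ Metric.ball z0 ε := Metric.mem_ball_self hε
  have hunit : mu z0 ≠ 0 := by
    intro h0
    have hc : ContinuousAt (fun z => lam z * mu z) z0 :=
      ((hlam.mul hmu).differentiableAt (Metric.isOpen_ball.mem_nhds hmem0)).continuousAt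
    have h3 : ∀ᶠ z in 𝓝 z0, lam z * mu z ≠ 1 :=
      hc.eventually_ne (by rw [h0, mul_zero]; exact zero_ne_one)
    obtain ⟨w, hw, hw2, hwb⟩ := ((hda z0 hmem0).and_eventually
      (h3.and (Metric.isOpen_ball.mem_nhds hmem0))).exists
    apply hw2
    have e1 := hl w hwb
    have e2 := hm w hwb
    have e3 : (lam w * mu w) * a ((C.e i).symm w) = 1 * a ((C.e i).symm w) := by
      linear_combination (-1 : ℂ) * e2 - mu w * e1
    exact mul_right_cancel₀ hw e3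
  refine SqE.unit_mul (u := fun y => mu (C.e i y)) ⟨W, hWo, hxW,
    holF_of_chart C i hmu fun y hy => hy⟩ hunit ?_
  filter_upwards [hWo.mem_nhds hxW] with y hy
  have := hm _ hy.2
  simpa only [(C.e i).left_inv hy.1] using this

end

end Crest.Agent.R272.Root_83
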