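import Crest.Agent.R272.Adp1_409
import Crest.Agent.R272.Root5_83
import Crest.Agent.R272.Blup6_102

/-!
# R272 (S0414), leaf S14-ADAPT (helper409), part 2

* `exists_chi`    : `n` holomorphic functions with independent differentials are a compatible chart;
* `Crd A x u`, `cenOf`, `cenOf_c` : the enlarged atlas with charts `(2 ρ)⁻¹ (u - u p) + centre`;
* `Cen.up`, `isHS_up`, `Cen.hmUp`, `Cen.hmUp_pos`, `Cen.projUp` : transport of sections, metrics,
  projective embeddings;
* `Cen.ctr`       : the centres of 102's blow-up for a finite injective family of points.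
-/

set_option autoImplicit false
set_option linter.unusedSectionVars false

open Set Filter Topology Metric
open scoped ContDiff Manifold

namespace Crest.Agent.R272.Adp_409

open Crest.Agent.R275.Geo Crest.Agent.R275.Core144 Crest.Agent.R275.GC293
open Crest.Agent.R273.Map_835 Crest.Agent.R273.Fam_835 Crest.Agent.R273.PB_835
open Crest.Agent.R273.Defs_333 Crest.Agent.R272.Refl_246 Crest.Agent.R272.DCov_426
open Crest.Agent.R272.Quot_783 Crest.Agent.R272.Root_83 Crest.Agent.R272.Blup1_102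

noncomputable section

variable {n : ℕ} {M : Type} [TopologicalSpace M]

/-! ### charts from functions -/

/-- **a chart from `n` functions with independent differentials** -/
theorem exists_chi {C : Fam n M} {x : M} {O : Set M} (hO : O ∈ 𝓝 x) {u : Fin n → M → ℂ}
    (hu : ∀ b, HG C x (u b)) {c : C.ι} (hx : x ∈ (C.e c).source)
    (hd : ∀ v, (∀ b, fderiv ℂ (fun z => u b ((C.e c).symm z)) (C.e c x) v = 0) → v = 0) :
    ∃ χ : OpenPartialHomeomorph M (Cn n), x ∈ χ.source ∧ χ.source ⊆ O ∧ Cpt C χ ∧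
      ∀ y ∈ χ.source, ∀ b, χ y b = u b y := by
  classical
  choose U hU hxU hF using hu
  set z0 := C.e c x with hz0
  set F : Cn n → Cn n := fun z => WithLp.toLp 2 fun b => u b ((C.e c).symm z) with hFd
  -- the open set of the chart on which everything is holomorphic
  set V : Set M := ⋂ b, U b with hV
  have hVo : IsOpen V := isOpen_iInter_of_finite hU
  have hxV : x ∈ V := mem_iInter.2 hxU
  set W : Set (Cn n) := (C.e c).target ∩ (C.e c).symm ⁻¹' V with hW
  have hWo : IsOpen W := (C.e c).isOpen_inter_preimage_symm hVo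
  have hzW : z0 ∈ W := ⟨(C.e c).map_source hx, by
    rw [mem_preimage, hz0, (C.e c).left_inv hx]; exact hxV⟩
  have hdb : ∀ b, ∀ z ∈ W, DifferentiableAt ℂ (fun z => u b ((C.e c).symm z)) z := by
    intro b z hz
    exact ((hF b c).mono fun w hw => ⟨hw.1, mem_iInter.1 hw.2 b⟩).differentiableAt
      (hWo.mem_nhds hz)
  have hFd' : ∀ z ∈ W, DifferentiableAt ℂ F z := by
    intro z hz
    have h1 : DifferentiableAt ℂ (fun z => fun b => u b ((C.e c).symm z)) z :=
      differentiableAt_pi.2 fun b => hdb b z hz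
    exact ((PiLp.continuousLinearEquiv 2 ℂ fun _ : Fin n => ℂ).symm.differentiableAt).comp z h1
  have hA : AnalyticAt ℂ F z0 := Crest.Agent.R266.SCV.analyticOnNhd_of_differentiableOn hWo
    (fun z hz => (hFd' z hz).differentiableWithinAt) z0 hzW
  have hcomp : ∀ v b, (fderiv ℂ F z0 v) b = fderiv ℂ (fun z => u b ((C.e c).symm z)) z0 v := by
    intro v b
    have h1 : HasFDerivAt F (fderiv ℂ F z0) z0 := (hFd' z0 hzW).hasFDerivAt
    have h2 : HasFDerivAt (fun z => (F z) b) ((EuclideanSpace.proj b).comp (fderiv ℂ F z0)) z0 :=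
      (EuclideanSpace.proj b : Cn n →L[ℂ] ℂ).hasFDerivAt.comp z0 h1
    have h3 := h2.fderiv
    have h4 : fderiv ℂ (fun z => u b ((C.e c).symm z)) z0 =
        (EuclideanSpace.proj b).comp (fderiv ℂ F z0) := h3
    rw [h4]
    rfl
  have hinj : Function.Injective (fderiv ℂ F z0) := by
    rw [injective_iff_map_eq_zero]
    intro v hv
    refine hd v fun b => ?_
    rw [← hcomp, hv]
    rfl
  let T : Cn n ≃L[ℂ] Cn n := (LinearEquiv.ofInjectiveEndo (fderiv ℂ F z0).toLinearMap
    hinj).toContinuousLinearEquiv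
  have hT : HasFDerivAt F (T : Cn n →L[ℂ] Cn n) z0 := by
    have h2 := (hFd' z0 hzW).hasFDerivAt
    convert h2 using 1
    ext v
    rfl
  have hN : W ∩ (C.e c).symm ⁻¹' O ∈ 𝓝 z0 := by
    refine inter_mem (hWo.mem_nhds hzW) ?_
    refine ((C.e c).continuousAt_symm hzW.1).preimage_mem_nhds ?_
    rw [hz0, (C.e c).left_inv hx]
    exact hO
  obtain ⟨e, h1, h2, h3, h4, h5⟩ :=
    Crest.Agent.R266.SCV.exists_analytic_openPartialHomeomorph hA T hT hN
  refine ⟨(C.e c).trans e, ⟨hx, h1⟩, ?_, ?_, ?_⟩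
  · rintro y ⟨hy1, hy2⟩
    have h6 := (h2 hy2).2
    have h7 : (C.e c).symm (C.e c y) ∈ O := h6
    rwa [(C.e c).left_inv hy1] at h7
  · constructor
    · rintro j z ⟨⟨hz1, hz2⟩, hz3⟩
      have h6 : DifferentiableAt ℂ e.symm z := (h5 z hz1).differentiableAt
      have h7 : DifferentiableAt ℂ (fun z => C.e j ((C.e c).symm z)) (e.symm z) :=
        (C.holo c j).differentiableAt (((C.e c).isOpen_inter_preimage_symm
          (C.e j).open_source).mem_nhds ⟨hz2, hz3⟩)
      exact (DifferentiableAt.comp z (g := fun z => C.e j ((C.e c).symm z)) h7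
        h6).differentiableWithinAt
    · rintro j z ⟨hz1, ⟨hz2, hz3⟩⟩
      have h6 : DifferentiableAt ℂ e (C.e c ((C.e j).symm z)) := (h4 _ hz3).differentiableAt
      have h7 : DifferentiableAt ℂ (fun z => C.e c ((C.e j).symm z)) z :=
        (C.holo j c).differentiableAt (((C.e j).isOpen_inter_preimage_symm
          (C.e c).open_source).mem_nhds ⟨hz1, hz2⟩)
      exact (DifferentiableAt.comp z (g := e) h6 h7).differentiableWithinAt
  · rintro y ⟨hy1, hy2⟩ b
    show (e (C.e c y)) b = _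
    rw [h3]
    show u b ((C.e c).symm (C.e c y)) = _
    rw [(C.e c).left_inv hy1]

/-- `n` functions which are local coordinates at `x` -/
structure Crd (A : Atl n M) (x : M) (u : Fin n → M → ℂ) : Prop where
  hol : ∀ b, HG (fam A) x (u b)
  ind : ∃ i, x ∈ (A.e i).source ∧
    ∀ v, (∀ b, fderiv ℂ (fun z => u b ((A.e i).symm z)) (A.e i x) v = 0) → v = 0

/-- independence in the form of `DCov_426.Data.snc` -/
theorem Crd.of_surj {A : Atl n M} {x : M} {u : Fin n → M → ℂ} (hol : ∀ b, HG (fam A) x (u b))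
    {i : A.ι} (hi : x ∈ (A.e i).source)
    (h : ∀ w : Fin n → ℂ, ∃ v, ∀ b, fderiv ℂ (fun z => u b ((A.e i).symm z)) (A.e i x) v = w b) :
    Crd A x u := by
  refine ⟨hol, i, hi, ?_⟩
  let L : Cn n →ₗ[ℂ] Cn n :=
    ((PiLp.continuousLinearEquiv 2 ℂ fun _ : Fin n => ℂ).symm.toLinearEquiv.toLinearMap).comp
    (LinearMap.pi fun b => (fderiv ℂ (fun z => u b ((A.e i).symm z)) (A.e i x)).toLinearMap)
  have hL : ∀ v b, L v b = fderiv ℂ (fun z => u b ((A.e i).symm z)) (A.e i x) v := fun v b => rfl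
  have hs : Function.Surjective L := by
    intro w
    obtain ⟨v, hv⟩ := h fun b => w b
    exact ⟨v, by ext b; rw [hL, hv]⟩
  have hinj : Function.Injective L := LinearMap.injective_iff_surjective.2 hs
  intro v hv
  apply hinj
  ext b
  rw [hL, hv b, map_zero]
  rfl

section CenOf

variable (A : Atl n M) {S : Type} (p : S → M) (u : S → Fin n → M → ℂ)
  (hu : ∀ s, Crd A (p s) (u s)) (O : S → Set M) (hO : ∀ s, O s ∈ 𝓝 (p s))

theorem exists_chi' (s : S) (hu : Crd A (p s) (u s)) (hO : O s ∈ 𝓝 (p s)) :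
    ∃ χ : OpenPartialHomeomorph M (Cn n), p s ∈ χ.source ∧ χ.source ⊆ O s ∧ Cpt (fam A) χ ∧
      ∀ y ∈ χ.source, ∀ b, χ y b = u s b y := by
  obtain ⟨i, hi, h⟩ := hu.ind
  exact exists_chi (C := fam A) hO hu.hol hi h

/-- **the adapted atlas data of functions `u s b` at the points `p s`** -/
def cenOf : Cen A := mkCen p (fun s => (exists_chi' A p u O s (hu s) (hO s)).choose)
  (fun s => (exists_chi' A p u O s (hu s) (hO s)).choose_spec.2.2.1)
  (fun s => (exists_chi' A p u O s (hu s) (hO s)).choose_spec.1) O hO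

theorem cenOf_sub (s : S) : ((cenOf A p u hu O hO).c s).source ⊆ O s := mkCen_sub _ _ _ _ _ _ s

/-- the coordinates of the adapted chart -/
theorem cenOf_c (s : S) {x : M} (hx : x ∈ ((cenOf A p u hu O hO).c s).source) (b : Fin n) :
    ((cenOf A p u hu O hO).c s x - (cenOf A p u hu O hO).c s (p s)) b =
      ((2 * (cenOf A p u hu O hO).ρ s : ℝ) : ℂ)⁻¹ * (u s b x - u s b (p s)) := by
  have h1 := (exists_chi' A p u O s (hu s) (hO s)).choose_spec
  have h2 : x ∈ ((cenOf A p u hu O hO).χ s).source := (cenOf A p u hu O hO).source_sub' s hx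
  have h3 := (cenOf A p u hu O hO).c_sub s x
  have h4 : (cenOf A p u hu O hO).p s = p s := rfl
  rw [h4] at h3
  rw [h3]
  rw [PiLp.smul_apply, smul_eq_mul, PiLp.sub_apply]
  have h5 : ((cenOf A p u hu O hO).χ s) x b = u s b x := h1.2.2.2 x h2 b
  have h6 : ((cenOf A p u hu O hO).χ s) (p s) b = u s b (p s) := h1.2.2.2 (p s) h1.1 b
  rw [h5, h6]

/-- the functions in terms of the centred coordinates `z` of the adapted chart -/
theorem cenOf_u (s : S) {x : M} (hx : x ∈ ((cenOf A p u hu O hO).c s).source) (b : Fin n) :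
    u s b x = u s b (p s) + ((2 * (cenOf A p u hu O hO).ρ s : ℝ) : ℂ) *
      ((cenOf A p u hu O hO).adp.e (Sum.inr s) x -
        (cenOf A p u hu O hO).adp.e (Sum.inr s) (p s)) b := by
  have h1 := cenOf_c A p u hu O hO s hx b
  have h2 : ((2 * (cenOf A p u hu O hO).ρ s : ℝ) : ℂ) ≠ 0 := by
    exact_mod_cast (by have := (cenOf A p u hu O hO).hρ s; positivity :
      (2 * (cenOf A p u hu O hO).ρ s : ℝ) ≠ 0)
  have h3 : ((cenOf A p u hu O hO).adp.e (Sum.inr s) x -
        (cenOf A p u hu O hO).adp.e (Sum.inr s) (p s)) b =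
      ((cenOf A p u hu O hO).c s x - (cenOf A p u hu O hO).c s (p s)) b := rfl
  rw [h3, h1, mul_inv_cancel_left₀ h2]
  ring

end CenOf

/-! ### transport of sections, metrics, embeddings -/

namespace Cen

variable {A : Atl n M} (K : Cen A) {L : LB A}

/-- a section in the enlarged atlas -/
def up (s : A.ι → M → ℂ) : K.adp.ι → M → ℂ := fun i x =>
  open Classical in if x ∈ (K.adp.e i).source then s (K.ref.r i) x else 0

theorem up_of_mem (s : A.ι → M → ℂ) {i : K.adp.ι} {x : M} (hx : x ∈ (K.adp.e i).source) :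
    K.up s i x = s (K.ref.r i) x := if_pos hx

theorem isHS_up {U : Set M} {s : A.ι → M → ℂ} (h : IsHS L U s) :
    IsHS (pullLB K.hol K.ref L) U (K.up s) := by
  refine ⟨fun i => ?_, fun i x hx => if_neg hx, fun i j x hx hxU => ?_⟩
  · have h1 := K.hol.comp_holAt (i := i) (h.hol (K.ref.r i))
    intro z hz
    have hx := (K.adp.e i).map_target hz.1
    have h2 : (K.adp.e i).target ∩ (K.adp.e i).symm ⁻¹' U ⊆
        (K.adp.e i).target ∩ (K.adp.e i).symm ⁻¹' (id ⁻¹' (U ∩ (A.e (K.ref.r i)).source)) :=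
      fun w hw => ⟨hw.1, hw.2, K.ref.sub i _ ((K.adp.e i).map_target hw.1)⟩
    exact ((DifferentiableOn.mono h1 h2).congr fun w hw =>
      K.up_of_mem s ((K.adp.e i).map_target hw.1)) z hz
  · rw [K.up_of_mem s hx.1, K.up_of_mem s hx.2, pullLB_g K.hol K.ref L hx]
    exact h.tr _ _ _ ⟨K.ref.sub i x hx.1, K.ref.sub j x hx.2⟩ hxU

/-- a metric in the enlarged atlas -/
def hmUp (h : HM L) : HM (pullLB K.hol K.ref L) := (PB.ref K.hol K.ref L).pullHM K.hol h

theorem hmUp_pos {h : HM L} (hs : h.Pos) : (K.hmUp h).Pos :=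
  (PB.ref K.hol K.ref L).pullHM_pos K.hol hs fun _ _ _ hz => K.lbih.inj hz

/-- a projective embedding in the enlarged atlas -/
def projUp (P : ProjD A) : ProjD K.adp :=
  pullProjD K.hol K.ref Function.injective_id (fun _ _ _ hz => K.lbih.inj hz) P

/-! ### centres of the blow-up -/

theorem exists_r [T2Space M] [Finite K.S] (hp : Function.Injective K.p) {ρ0 : ℝ} (h0 : 0 < ρ0) :
    ∃ r : K.S → ℝ, (∀ s, 0 < r s) ∧ (∀ s, r s ≤ ρ0) ∧ (∀ s, r s < 1 / 2) ∧
      ∀ s t, s ≠ t → Disjoint ((K.c s).symm '' closedBall (K.c s (K.p s)) (r s))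
        ((K.c t).symm '' closedBall (K.c t (K.p t)) (r t)) := by
  obtain ⟨U, hU, hd⟩ := (finite_range K.p).t2_separation
  have h1 : ∀ s, ∃ r : ℝ, 0 < r ∧ r ≤ ρ0 ∧ r < 1 / 2 ∧
      (K.c s).symm '' closedBall (K.c s (K.p s)) r ⊆ U (K.p s) := by
    intro s
    have h2 : (K.c s).symm ⁻¹' U (K.p s) ∈ 𝓝 (K.c s (K.p s)) := by
      refine ((K.c s).continuousAt_symm ((K.c s).map_source (K.p_mem s))).preimage_mem_nhds ?_
      rw [(K.c s).left_inv (K.p_mem s)]
      exact (hU (K.p s)).2.mem_nhds (hU (K.p s)).1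
    obtain ⟨r, hr, h3⟩ := Metric.nhds_basis_closedBall.mem_iff.1 h2
    refine ⟨min r (min ρ0 (1 / 4)), lt_min hr (lt_min h0 (by norm_num)),
      (min_le_right _ _).trans (min_le_left _ _),
      ((min_le_right _ _).trans (min_le_right _ _)).trans_lt (by norm_num), ?_⟩
    rintro _ ⟨z, hz, rfl⟩
    exact h3 (closedBall_subset_closedBall (min_le_left _ _) hz)
  choose r hr hr1 hr2 hr3 using h1
  refine ⟨r, hr, hr1, hr2, fun s t hst => ?_⟩
  have h4 := hd (mem_range_self s) (mem_range_self t) (fun h => hst (hp h))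
  exact h4.mono (hr3 s) (hr3 t)

/-- **the centres of 102's blow-up in the enlarged atlas** (chart `Sum.inr s` at `p s`, radii `≤ ρ0`) -/
def ctr [T2Space M] [Finite K.S] (hp : Function.Injective K.p) {ρ0 : ℝ} (h0 : 0 < ρ0)
    (h1 : ρ0 ≤ 1) : Ctr K.adp where
  S := K.S
  i := Sum.inr
  p := K.p
  r := (K.exists_r hp h0).choose
  hp := K.p_mem
  r_pos := (K.exists_r hp h0).choose_spec.1
  r_le s := ((K.exists_r hp h0).choose_spec.2.1 s).trans h1
  sub s := by
    show closedBall (K.c s (K.p s)) _ ⊆ (K.c s).target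
    rw [K.c_target, K.c_p]
    exact closedBall_subset_ball ((K.exists_r hp h0).choose_spec.2.2.1 s)
  disj := (K.exists_r hp h0).choose_spec.2.2.2
  lf := locallyFinite_of_finite _

@[simp] theorem ctr_S [T2Space M] [Finite K.S] (hp : Function.Injective K.p) {ρ0 : ℝ}
    (h0 : 0 < ρ0) (h1 : ρ0 ≤ 1) : (K.ctr hp h0 h1).S = K.S := rfl

@[simp] theorem ctr_i [T2Space M] [Finite K.S] (hp : Function.Injective K.p) {ρ0 : ℝ}
    (h0 : 0 < ρ0) (h1 : ρ0 ≤ 1) (s : K.S) : (K.ctr hp h0 h1).i s = Sum.inr s := rfl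

@[simp] theorem ctr_p [T2Space M] [Finite K.S] (hp : Function.Injective K.p) {ρ0 : ℝ}
    (h0 : 0 < ρ0) (h1 : ρ0 ≤ 1) (s : K.S) : (K.ctr hp h0 h1).p s = K.p s := rfl

theorem ctr_r_le [T2Space M] [Finite K.S] (hp : Function.Injective K.p) {ρ0 : ℝ}
    (h0 : 0 < ρ0) (h1 : ρ0 ≤ 1) (s : K.S) : (K.ctr hp h0 h1).r s ≤ ρ0 :=
  (K.exists_r hp h0).choose_spec.2.1 s

end Cen

end

end Crest.Agent.R272.Adp_409
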