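import Crest.Agent.R272.DCov6_426

/-!
# R272 (S0414, S0415), DCOV (helper426), file 7: arbitrary atlases on compact manifolds

* `exists_hm'`   : on a compact manifold every line bundle over EVERY atlas has a metric
                   (no `Finite`, no `Part`)
* `Data.exists_pos'`, `exists_posR` : positivity of the pull-back to the cover, same generality
* `good_refine`  : a positive bundle over an arbitrary atlas of a compact manifold passes to a
                   finite good atlas with `Part`
-/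

set_option autoImplicit false
set_option linter.unusedSectionVars false

open Set Filter Topology Metric

namespace Crest.Agent.R272.DCov_426

open Crest.Agent.R275.Geo Crest.Agent.R275.Core144 Crest.Agent.R275.GC293
open Crest.Agent.R273.Map_835 Crest.Agent.R273.Fam_835 Crest.Agent.R273.PB_835
open Crest.Agent.R273.PB_835.PB
open Crest.Agent.R273.Defs_333 Crest.Agent.R273.HM_333

noncomputable section

section

variable {n : ℕ} {M : Type} [TopologicalSpace M]

/-- refinement of an atlas of a compact manifold -/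
theorem exists_ref [CompactSpace M] [T2Space M] (A : Atl n M) : ∃ A'' : Atl n M,
    Finite A''.ι ∧ GoodA A'' ∧ Nonempty (Part A'') ∧ HolMap A'' A id ∧ HolMap A A'' id ∧
      Nonempty (Ref A'' A id) := by
  obtain ⟨A'', h1, h2, h3, h4, h5, h6⟩ := (fam A).exists_atl (fun i : A.ι => (A.e i).source)
    (fun i => (A.e i).open_source) (fun x => A.cover x)
  choose r hr using h4
  exact ⟨A'', h1, h2, h3, holC_iff.1 h5, holC_iff.1 h6, ⟨⟨r, fun i x hx => hr i hx⟩⟩⟩

/-- the bundle over the coarse atlas is the pull-back of the bundle over the fine atlas -/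
def pbBack {A A'' : Atl n M} (h1 : HolMap A'' A id)
    (R : Ref A'' A id) (L : LB A) : PB (id : M → M) L (pullLB h1 R L) where
  c i j x := L.g i (R.r j) x
  hol i j := by
    have h3 : HolAt A i (A.e (R.r j)).source (L.g i (R.r j)) := L.hol i (R.r j)
    exact h3.mono fun x hx => R.sub j x hx
  ne i j x _ _ := L.ne_zero _ _ _
  left i i' j x hx hj := L.mul _ _ _ _ ⟨hx, R.sub j x hj⟩
  right i j j' x hx hj := by
    show L.g i (R.r j) x * (pullLB h1 R L).g j j' x = L.g i (R.r j') x
    rw [pullLB_g h1 R L (x := x) hj]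
    exact L.mul _ _ _ _ ⟨⟨hx, R.sub j x hj.1⟩, R.sub j' x hj.2⟩

/-- every line bundle on a compact manifold has a metric -/
theorem exists_hm' [CompactSpace M] [T2Space M] {A : Atl n M} (L : LB A) : Nonempty (HM L) := by
  obtain ⟨A'', hF, _, ⟨P⟩, h1, h2, ⟨R⟩⟩ := exists_ref A
  obtain ⟨h⟩ := exists_hm P (pullLB h1 R L)
  exact ⟨(pbBack h1 R L).pullHM h2 h⟩

/-- `id` is an immersion between compatible atlases -/
theorem imm_id {A A'' : Atl n M} (h1 : HolMap A'' A id) (h2 : HolMap A A'' id) :
    ∀ i j, ∀ z ∈ dm A'' A id i j, Function.Injective (fderiv ℂ (rd A'' A id i j) z) :=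
  fun _ _ _ hz => (lBih_of_inv h1 h2 (fun _ => rfl)).inj hz

/-- a positive bundle passes to a finite good atlas -/
theorem good_refine [CompactSpace M] [T2Space M] (A : Atl n M) {H : LB A} {h : HM H}
    (hp : h.Pos) : ∃ (A'' : Atl n M) (h1 : HolMap A'' A id) (R : Ref A'' A id),
      Finite A''.ι ∧ GoodA A'' ∧ Nonempty (Part A'') ∧ HolMap A A'' id ∧
      ∃ hh : HM (pullLB h1 R H), hh.Pos := by
  obtain ⟨A'', hF, hG, hP, h1, h2, ⟨R⟩⟩ := exists_ref A
  exact ⟨A'', h1, R, hF, hG, hP, h2, _, (PB.ref h1 R H).pullHM_pos h1 hp (imm_id h1 h2)⟩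

end

variable {n : ℕ} {M : Type} [TopologicalSpace M] {A : Atl n M} {ρ : Type} [Fintype ρ]

namespace Data

variable (D : Data A ρ) {A' : Atl n D.X} (hc : Cmp D.famX A')

include hc in
/-- the pull-back of a positive bundle is positive (after a power), arbitrary atlas of the base -/
theorem exists_pos' [CompactSpace M] [T2Space M] {H : LB A} {hH : HM H}
    (hHp : hH.Pos) {H' : LB A'} (T : PB D.p H' H) :
    ∃ m0 : ℕ, ∀ k, m0 ≤ k → ∃ hh : HM (H' ^ k), hh.Pos := by
  have := D.compact_X
  have h1 : ∀ o, Nonempty (HM (D.Lo o)) := fun o => exists_hm' (D.Lo o)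
  obtain ⟨m0, h2⟩ := Crest.Agent.R272.PImm2_102.pimm (D.holMap_p hc) hHp T (D.rs hc)
    (D.nz_rs hc) (D.imm_rs hc) (fun o => (h1 o).some)
  refine ⟨m0, fun k hk => ?_⟩
  have h3 := h2 k hk
  rwa [one_mul] at h3

/-- everything for a compact base with a positive bundle (arbitrary atlas of the base) -/
theorem exists_all' [CompactSpace M] [T2Space M] {H : LB A} {hH : HM H}
    (hHp : hH.Pos) : ∃ (A' : Atl n D.X) (hc : Cmp D.famX A') (R : Ref A' A D.p),
      Finite A'.ι ∧ GoodA A' ∧ Nonempty (Part A') ∧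
      ∃ m0 : ℕ, ∀ k, m0 ≤ k → ∃ hh : HM (pullLB (D.holMap_p hc) R H ^ k), hh.Pos := by
  obtain ⟨A', h1, h2, h3, h4, ⟨R⟩⟩ := D.exists_atlX
  exact ⟨A', h4, R, h1, h2, h3, D.exists_pos' h4 hHp (PB.ref (D.holMap_p h4) R H)⟩

end Data

end

end Crest.Agent.R272.DCov_426
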