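import Crest.Agent.R272.Blup6_102
import Crest.Agent.R272.DCov7_426

/-!
# R272 (S0414), BL (a) (helper266), part 1: divided sections on the blow-up

* `Snc0 h u`: the functions `h a` which vanish at `u` have independent differentials at `u`;
  stability under units, changes of coordinates, congruence;
* `PD A ρ`: line bundles `L a`, exponents `k a`, sections `s a` of `L a ^ k a`
  (`Data` of `DCov2_426` without normal crossings); `PD.Snc P x`; `PD.toData`;
* `PD.bl P C m hm`: the divided (strict) sections on the blow-up, sections of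
  `(π^* L a * O(- m a E)) ^ k a`.
-/

set_option autoImplicit false
set_option linter.unusedSectionVars false

open Set Filter Topology Complex Asymptotics
open scoped ContDiff Matrix ComplexConjugate Manifold

namespace Crest.Agent.R272.BlA_266

open Crest.Agent.R275.Geo Crest.Agent.R275.Core144
open Crest.Agent.R273.Map_835 Crest.Agent.R273.PB_835
open Crest.Agent.R272.Blup1_102 Crest.Agent.R272.Blup1_102.Ctr

noncomputable section

/-! ### independent differentials -/

section Snc0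

variable {E E' : Type*} [NormedAddCommGroup E] [NormedSpace ℂ E] [NormedAddCommGroup E']
  [NormedSpace ℂ E'] {ρ : Type}

/-- the functions which vanish at `u` have independent differentials at `u` -/
def Snc0 (h : ρ → E → ℂ) (u : E) : Prop :=
  ∀ w : ρ → ℂ, ∃ v : E, ∀ a, h a u = 0 → fderiv ℂ (h a) u v = w a

theorem Snc0.congr {h h' : ρ → E → ℂ} {u : E} (hs : Snc0 h u) (he : ∀ a, h' a =ᶠ[𝓝 u] h a) :
    Snc0 h' u := by
  intro w
  obtain ⟨v, hv⟩ := hs w
  refine ⟨v, fun a ha => ?_⟩
  rw [(he a).fderiv_eq]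
  exact hv a (by rw [← (he a).eq_of_nhds]; exact ha)

/-- multiplication by units -/
theorem Snc0.unit {h U h' : ρ → E → ℂ} {u : E} (hs : Snc0 h u)
    (hh : ∀ a, DifferentiableAt ℂ (h a) u) (hU : ∀ a, DifferentiableAt ℂ (U a) u)
    (hU0 : ∀ a, U a u ≠ 0) (he : ∀ a, h' a =ᶠ[𝓝 u] fun y => U a y * h a y) : Snc0 h' u := by
  intro w
  obtain ⟨v, hv⟩ := hs fun a => (U a u)⁻¹ * w a
  refine ⟨v, fun a ha => ?_⟩
  have h0 : h a u = 0 := by
    have h1 := (he a).eq_of_nhds
    rw [ha] at h1
    exact (mul_eq_zero.1 h1.symm).resolve_left (hU0 a)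
  rw [(he a).fderiv_eq, fderiv_fun_mul (hU a) (hh a)]
  simp only [_root_.add_apply, _root_.smul_apply, smul_eq_mul, h0,
    zero_mul, add_zero]
  rw [hv a h0, mul_inv_cancel_left₀ (hU0 a)]

/-- only the direct image direction is needed: the differential of `φ` is arbitrary -/
theorem Snc0.of_comp {h : ρ → E → ℂ} {φ : E' → E} {u' : E'} {u : E} (hu : φ u' = u)
    (hφ : DifferentiableAt ℂ φ u') (hh : ∀ a, DifferentiableAt ℂ (h a) u)
    (hs : Snc0 (fun a y => h a (φ y)) u') : Snc0 h u := by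
  subst hu
  intro w
  obtain ⟨v, hv⟩ := hs w
  refine ⟨fderiv ℂ φ u' v, fun a ha => ?_⟩
  have h1 := hv a ha
  rw [fderiv_fun_comp u' (hh a) hφ] at h1
  exact h1

/-- nothing vanishes -/
theorem Snc0.of_ne {h : ρ → E → ℂ} {u : E} (hs : ∀ a, h a u ≠ 0) : Snc0 h u :=
  fun _ => ⟨0, fun a ha => absurd ha (hs a)⟩

/-- at most one function vanishes, with non-zero differential -/
theorem Snc0.of_one {h : ρ → E → ℂ} {u : E} (a : ρ) (hs : ∀ b, b ≠ a → h b u ≠ 0) {v : E}
    (hv : h a u = 0 → fderiv ℂ (h a) u v ≠ 0) : Snc0 h u := by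
  intro w
  by_cases ha : h a u = 0
  · refine ⟨(w a / fderiv ℂ (h a) u v) • v, fun b hb => ?_⟩
    have hba : b = a := by
      by_contra hne
      exact hs b hne hb
    subst hba
    rw [map_smul, smul_eq_mul, div_mul_cancel₀ _ (hv ha)]
  · refine ⟨0, fun b hb => ?_⟩
    by_cases hba : b = a
    · subst hba
      exact absurd hb ha
    · exact absurd hb (hs b hba)

/-- two functions may vanish: a vector `v` with `dh_a v ≠ 0`, `dh_b v = 0`, and a vector `v'` with
`dh_b v' ≠ 0` -/
theorem Snc0.of_two {h : ρ → E → ℂ} {u : E} (a b : ρ) (hs : ∀ c, c ≠ a → c ≠ b → h c u ≠ 0)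
    {v v' : E} (hav : h a u = 0 → fderiv ℂ (h a) u v ≠ 0) (hbv : h b u = 0 → fderiv ℂ (h b) u v = 0)
    (hbv' : h b u = 0 → fderiv ℂ (h b) u v' ≠ 0) : Snc0 h u := by
  intro w
  by_cases ha : h a u = 0
  · by_cases hb : h b u = 0
    · have hab : a ≠ b := by
        rintro rfl
        exact hav ha (hbv ha)
      set y := (w b / fderiv ℂ (h b) u v') with hy
      refine ⟨((w a - y * fderiv ℂ (h a) u v') / fderiv ℂ (h a) u v) • v + y • v', fun c hc => ?_⟩
      by_cases hca : c = a
      · subst hca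
        rw [map_add, map_smul, map_smul, smul_eq_mul, smul_eq_mul, div_mul_cancel₀ _ (hav ha)]
        ring
      · by_cases hcb : c = b
        · subst hcb
          rw [map_add, map_smul, map_smul, hbv hb, smul_eq_mul, smul_eq_mul, mul_zero, zero_add, hy,
            div_mul_cancel₀ _ (hbv' hb)]
        · exact absurd hc (hs c hca hcb)
    · refine ⟨(w a / fderiv ℂ (h a) u v) • v, fun c hc => ?_⟩
      by_cases hca : c = a
      · subst hca
        rw [map_smul, smul_eq_mul, div_mul_cancel₀ _ (hav ha)]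
      · by_cases hcb : c = b
        · subst hcb
          exact absurd hc hb
        · exact absurd hc (hs c hca hcb)
  · by_cases hb : h b u = 0
    · refine ⟨(w b / fderiv ℂ (h b) u v') • v', fun c hc => ?_⟩
      by_cases hca : c = a
      · subst hca
        exact absurd hc ha
      · by_cases hcb : c = b
        · subst hcb
          rw [map_smul, smul_eq_mul, div_mul_cancel₀ _ (hbv' hb)]
        · exact absurd hc (hs c hca hcb)
    · refine ⟨0, fun c hc => ?_⟩
      by_cases hca : c = a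
      · subst hca
        exact absurd hc ha
      · by_cases hcb : c = b
        · subst hcb
          exact absurd hc hb
        · exact absurd hc (hs c hca hcb)

end Snc0

/-! ### data without normal crossings -/

variable {n : ℕ} {M : Type} [TopologicalSpace M]

/-- `DCov_426.Data` without the condition `snc` -/
structure PD (A : Atl n M) (ρ : Type) where
  L : ρ → LB A
  k : ρ → ℕ
  s : ρ → A.ι → M → ℂ
  kpos : ∀ a, 0 < k a
  hs : ∀ a, IsHS (L a ^ k a) univ (s a)

namespace PD

variable {A : Atl n M} {ρ : Type} (P : PD A ρ)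

/-- the sections read in the chart `i` -/
def rd (i : A.ι) (a : ρ) (z : Cn n) : ℂ := P.s a i ((A.e i).symm z)

/-- normal crossings at `x`, in one chart -/
def Snc (x : M) : Prop := ∃ i, x ∈ (A.e i).source ∧ Snc0 (P.rd i) (A.e i x)

theorem rd_diffAt (i : A.ι) {x : M} (hx : x ∈ (A.e i).source) (a : ρ) :
    DifferentiableAt ℂ (P.rd i a) (A.e i x) :=
  ((P.hs a).hol i).diffAt isOpen_univ hx (mem_univ _)

theorem rd_at (i : A.ι) {x : M} (hx : x ∈ (A.e i).source) (a : ρ) :
    P.rd i a (A.e i x) = P.s a i x := by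
  rw [rd, (A.e i).left_inv hx]

/-- the main criterion: a holomorphic map `γ` from a vector space to `M` (a parametrisation, or a
curve, if only one section vanishes), along which the sections read in one chart are units times
functions with independent differentials -/
theorem snc_of_par {E' : Type*} [NormedAddCommGroup E'] [NormedSpace ℂ E'] {x : M} {i : A.ι}
    (hx : x ∈ (A.e i).source) {γ : E' → M} {u' : E'} (hγ : γ u' = x) (hc : ContinuousAt γ u')
    (hd : DifferentiableAt ℂ (fun u => A.e i (γ u)) u') {F U : ρ → E' → ℂ}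
    (hF : ∀ a, DifferentiableAt ℂ (F a) u') (hU : ∀ a, DifferentiableAt ℂ (U a) u')
    (hU0 : ∀ a, U a u' ≠ 0) (he : ∀ a, ∀ᶠ u in 𝓝 u', P.s a i (γ u) = U a u * F a u)
    (hs : Snc0 F u') : P.Snc x := by
  refine ⟨i, hx, ?_⟩
  refine Snc0.of_comp (φ := fun u => A.e i (γ u)) (u' := u') (by rw [hγ]) hd
    (fun a => P.rd_diffAt i hx a) ?_
  refine hs.unit hF hU hU0 fun a => ?_
  have h1 : ∀ᶠ u in 𝓝 u', γ u ∈ (A.e i).source :=
    hc.eventually ((A.e i).open_source.mem_nhds (by rw [hγ]; exact hx))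
  filter_upwards [h1, he a] with u hu1 hu2
  rw [← hu2, rd, (A.e i).left_inv hu1]

/-- one chart is enough -/
theorem Snc.all {x : M} (h : P.Snc x) {j : A.ι} (hj : x ∈ (A.e j).source) :
    Snc0 (P.rd j) (A.e j x) := by
  obtain ⟨i, hi, h1⟩ := h
  have hz : A.e i x ∈ A.ov i j := ⟨(A.e i).map_source hi, by rw [(A.e i).left_inv hi]; exact hj⟩
  refine Snc0.of_comp (φ := fun z => A.e j ((A.e i).symm z)) (u' := A.e i x)
    (by rw [(A.e i).left_inv hi]) ((A.holo i j).differentiableAt ((isOpen_ov (A := A) i j).mem_nhds hz))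
    (fun a => P.rd_diffAt j hj a) ?_
  refine h1.unit (U := fun a z => (P.L a ^ P.k a).g j i ((A.e i).symm z))
    (fun a => P.rd_diffAt i hi a) (fun a => ?_) (fun a => ?_) fun a => ?_
  · have h2 := ((P.L a ^ P.k a).hol j i).chg (A.e i).open_source i
    exact h2.diffAt ((A.e i).open_source.inter (A.e j).open_source) hi ⟨hi, hj⟩
  · exact (P.L a ^ P.k a).ne_zero _ _ _
  · filter_upwards [(isOpen_ov (A := A) i j).mem_nhds hz] with z hz'
    have h2 : (A.e i).symm z ∈ (A.e i).source := (A.e i).map_target hz'.1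
    have h3 := (P.hs a).tr j i ((A.e i).symm z) ⟨hz'.2, h2⟩ (mem_univ _)
    rw [rd, (A.e j).left_inv hz'.2, h3]
    rfl

/-- all points have normal crossings: the `Data` of DCOV -/
def toData (h : ∀ x, P.Snc x) : DCov_426.Data A ρ where
  L := P.L
  k := P.k
  s := P.s
  kpos := P.kpos
  hs := P.hs
  snc i x hx w := by
    obtain ⟨v, hv⟩ := (h x).all P hx w
    exact ⟨v, fun a ha => hv a (by rw [P.rd_at i hx]; exact ha)⟩

@[simp] theorem toData_s (h : ∀ x, P.Snc x) : (P.toData h).s = P.s := rfl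
@[simp] theorem toData_k (h : ∀ x, P.Snc x) : (P.toData h).k = P.k := rfl
@[simp] theorem toData_L (h : ∀ x, P.Snc x) : (P.toData h).L = P.L := rfl

/-! ### the divided sections on the blow-up -/

variable [NeZero n] [T2Space M] (C : Ctr A) (m : ρ → C.S → ℕ)

/-- the bundle `π^* L * O(- m E)` -/
def bL (L : LB A) (m : C.S → ℕ) : LB C.atl := pullLB C.holMap_pi C.refPi L * C.OE (-C.kz m)

theorem bL_pow (L : LB A) (m : C.S → ℕ) (k : ℕ) :
    bL C L m ^ k = pullLB C.holMap_pi C.refPi (L ^ k) * C.OE (-C.kz (fun t => k * m t)) := by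
  rw [bL, mul_pow, pullLB_pow, ← C.OE_nsmul]
  congr 2
  funext t
  simp [Ctr.kz]

/-- the divided sections on the blow-up -/
def bl (hm : ∀ a, C.Ord (P.s a) (fun t => P.k a * m a t)) : PD C.atl ρ where
  L a := bL C (P.L a) (m a)
  k := P.k
  s a := C.st (P.hs a) (hm a)
  kpos := P.kpos
  hs a := by
    rw [bL_pow]
    exact C.isHS_st (P.hs a) (hm a)

variable {C m} (hm : ∀ a, C.Ord (P.s a) (fun t => P.k a * m a t))

@[simp] theorem bl_k : (P.bl C m hm).k = P.k := rfl

theorem bl_s (a : ρ) : (P.bl C m hm).s a = C.st (P.hs a) (hm a) := rfl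

theorem bl_L (a : ρ) : (P.bl C m hm).L a = bL C (P.L a) (m a) := rfl

theorem bl_s_inl (a : ρ) {i : A.ι} {y : C.X} (hy : y ∈ (C.atl.e (Sum.inl i)).source) :
    (P.bl C m hm).s a (Sum.inl i) y = P.s a i (C.pi y) := C.st_inl _ _ hy

theorem bl_s_inr (a : ρ) {t : C.S} {b : Fin n} {y : C.X} (hy : y ∈ C.V t b) :
    (P.bl C m hm).s a (Sum.inr (t, b)) y = C.Psi (P.hs a) (hm a) t b (C.co t b y) :=
  C.st_inr _ _ hy

/-- the sections read in a chart off the centres -/
theorem bl_rd_inl (a : ρ) {i : A.ι} {z : Cn n} (hz : z ∈ (C.atl.e (Sum.inl i)).target) :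
    (P.bl C m hm).rd (Sum.inl i) a z = P.rd i a z := by
  have h1 : (C.atl.e (Sum.inl i)).symm z ∈ (C.atl.e (Sum.inl i)).source :=
    (C.atl.e (Sum.inl i)).map_target hz
  have h2 : (P.bl C m hm).rd (Sum.inl i) a z =
      P.s a i (C.pi (C.lift ((A.e i).symm z))) := P.bl_s_inl hm a h1
  rw [h2, C.pi_lift]
  rfl

/-- the sections read in a chart at the exceptional divisor -/
theorem bl_rd_inr (a : ρ) {t : C.S} {b : Fin n} {u : Cn n} (hu : u ∈ C.T t b) :
    (P.bl C m hm).rd (Sum.inr (t, b)) a (sc n u) = C.Psi (P.hs a) (hm a) t b u := by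
  have h1 : (C.ec (Sum.inr (t, b))).symm (sc n u) = C.ci t b u := by
    rw [ec_inr_symm, Homeomorph.symm_apply_apply]
  have h2 : (P.bl C m hm).rd (Sum.inr (t, b)) a (sc n u) =
      C.st (P.hs a) (hm a) (Sum.inr (t, b)) ((C.ec (Sum.inr (t, b))).symm (sc n u)) := rfl
  rw [h2, h1, C.st_inr _ _ (C.ci_mem hu), C.co_ci hu]

/-- off `E` -/
theorem bl_snc_off {y : C.X} (hy : C.pi y ∉ C.Z) (h : P.Snc (C.pi y)) : (P.bl C m hm).Snc y := by
  obtain ⟨i, hi, h1⟩ := h
  have hyi : y ∈ (C.atl.e (Sum.inl i)).source := C.mem_ec_inl.2 ⟨hy, hi⟩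
  refine ⟨Sum.inl i, hyi, h1.congr fun a => ?_⟩
  filter_upwards [(C.atl.e (Sum.inl i)).open_target.mem_nhds
    ((C.atl.e (Sum.inl i)).map_source hyi)] with z hz
  exact P.bl_rd_inl hm a hz

/-- on `E` (in the unscaled chart) -/
theorem bl_snc_on {t : C.S} {b : Fin n} {u : Cn n} (hu : u ∈ C.T t b)
    (h : Snc0 (fun a => C.Psi (P.hs a) (hm a) t b) u) : (P.bl C m hm).Snc (C.ci t b u) := by
  have hy : C.ci t b u ∈ (C.atl.e (Sum.inr (t, b))).source := C.mem_ec_inr.2 (C.ci_mem hu)
  have he : C.atl.e (Sum.inr (t, b)) (C.ci t b u) = sc n u := by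
    show sc n (C.co t b (C.ci t b u)) = _
    rw [C.co_ci hu]
  refine ⟨Sum.inr (t, b), hy, ?_⟩
  refine Snc0.of_comp (φ := sc n) (u' := u) he.symm (differentiable_sc u)
    (fun a => (P.bl C m hm).rd_diffAt _ hy a) ?_
  refine h.congr fun a => ?_
  filter_upwards [(C.isOpen_T t b).mem_nhds hu] with w hw
  exact P.bl_rd_inr hm a hw

/-- every point over a centre is in one of the charts -/
theorem exists_ci {y : C.X} {t : C.S} (hy : C.pi y = C.p t) :
    ∃ b, ∃ u ∈ C.T t b, u b = 0 ∧ y = C.ci t b u := by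
  have hE : y ∈ C.E := ⟨t, hy.symm⟩
  obtain ⟨i, hi⟩ := C.atl.cover y
  rcases i with i | ⟨t', b⟩
  · exact absurd hE (C.mem_ec_inl.1 hi).1
  · have hV := C.mem_ec_inr.1 hi
    have ht : t' = t := C.U_unique hV.1 (by rw [hy]; exact C.p_mem t)
    subst ht
    exact ⟨b, C.co t' b y, C.co_mem hV, (C.mem_E_iff hV).1 hE, (C.ci_co hV).symm⟩

/-- the local equation of the divided section from a factorisation of the section -/
theorem Psi_germ {A : Atl n M} {C : Ctr A} {L : LB A} {σ : A.ι → M → ℂ} (hσ : IsHS L univ σ)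
    {k : C.S → ℕ} (hk : C.Ord σ k) {t : C.S} {b : Fin n} {u : Cn n} (hu : u ∈ C.T t b)
    (hub : u b = 0) {U F Fh : Cn n → ℂ} (hU : ContinuousAt U 0)
    (he : ∀ᶠ v in 𝓝 0, C.phi σ t v = U v * F v)
    (hF : ∀ᶠ w in 𝓝 u, F (w b • W b w) = (w b) ^ (k t) * Fh w)
    (hFh : ∀ᶠ w in 𝓝 u, w b = 0 → ContinuousAt Fh w) :
    C.Psi hσ hk t b =ᶠ[𝓝 u] fun w => U (w b • W b w) * Fh w := by
  have hbl : ∀ w : Cn n, w b = 0 → Tendsto (fun w : Cn n => w b • W b w) (𝓝 w) (𝓝 0) := by
    intro w hw
    have h1 := (differentiable_blow b w).continuousAt.tendsto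
    rw [hw, zero_smul] at h1
    exact h1
  have h1 : ∀ᶠ w in 𝓝 u, C.phi σ t (w b • W b w) = U (w b • W b w) * F (w b • W b w) :=
    (hbl u hub).eventually he
  filter_upwards [h1.eventually_nhds, hF.eventually_nhds, hFh, (C.isOpen_T t b).mem_nhds hu] with
    w h2 h3 h4 h5
  by_cases hwb : w b = 0
  · refine C.Psi_unique hσ hk h5 (g := fun w => U (w b • W b w) * Fh w) ?_ ?_
    · refine ContinuousAt.mul ?_ (h4 hwb)
      have h6 : ContinuousAt U (w b • W b w) := by
        rw [hwb, zero_smul]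
        exact hU
      exact ContinuousAt.comp (g := U) (f := fun w : Cn n => w b • W b w) h6
        (differentiable_blow b w).continuousAt
    · filter_upwards [h2, h3] with w' h7 h8 _
      rw [h7, h8]
      ring
  · have h7 := C.Psi_eq hσ hk t b h5
    rw [h2.self_of_nhds, h3.self_of_nhds] at h7
    refine mul_left_cancel₀ (pow_ne_zero (k t) hwb) ?_
    rw [← h7]
    ring

end PD

end

end Crest.Agent.R272.BlA_266
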