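import Crest.Agent.R272.Adp2_409
import Crest.Agent.R272.BlA1_266

/-!
# R272 (S0414), helper409: from functions `T, S` at the centres to the centred local forms

* `Cen.pd K P`       : the data `P : PD A ρ` (266) on the enlarged atlas `K.adp`; `pd_snc`;
* `Shape`, `HasForm` : `φ = U * F (T, S, c)` near a point, `F` one of `1`, `S^(2k) - T^(2k) c`,
                       `S^2 - T^4 c`;
* `CForm`            : the same in centred coordinates of `ℂ²`;
* `Node P x`         : functions `T, S` at a centre with the forms of all sections;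
* `nodeCen`, `nodeCen_form` : all centres at once.
-/

set_option autoImplicit false
set_option linter.unusedSectionVars false

open Set Filter Topology Metric
open scoped ContDiff Manifold

namespace Crest.Agent.R272.Adp_409

open Crest.Agent.R275.Geo Crest.Agent.R275.Core144 Crest.Agent.R275.GC293
open Crest.Agent.R273.Map_835 Crest.Agent.R273.Fam_835 Crest.Agent.R273.PB_835
open Crest.Agent.R273.Defs_333 Crest.Agent.R272.Refl_246 Crest.Agent.R272.DCov_426
open Crest.Agent.R272.Quot_783 Crest.Agent.R272.Root_83 Crest.Agent.R272.Blup1_102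
open Crest.Agent.R272.BlA_266

noncomputable section

variable {n : ℕ} {M : Type} [TopologicalSpace M]

/-! ### powers of pulled back bundles (no instances, cf. `pullLB_pow` of Blup6) -/

theorem pull_mul {A : Atl n M} {m : ℕ} {N : Type} [TopologicalSpace N] {B : Atl m N} {p : M → N}
    (hp : HolMap A B p) (R : Ref A B p) (L L' : LB B) :
    pullLB hp R (L * L') = pullLB hp R L * pullLB hp R L' := by
  ext i j x
  rw [LB.mul_g]
  by_cases hx : x ∈ (A.e i).source ∩ (A.e j).source
  · rw [pullLB_g hp R _ hx, pullLB_g hp R _ hx, pullLB_g hp R _ hx, LB.mul_g]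
  · rw [LB.off _ _ _ _ hx, LB.off _ _ _ _ hx, LB.off _ _ _ _ hx, one_mul]

theorem pull_pow {A : Atl n M} {m : ℕ} {N : Type} [TopologicalSpace N] {B : Atl m N} {p : M → N}
    (hp : HolMap A B p) (R : Ref A B p) (L : LB B) (k : ℕ) :
    pullLB hp R (L ^ k) = (pullLB hp R L) ^ k := by
  induction k with
  | zero =>
    have h := pull_mul hp R 1 1
    rw [mul_one] at h
    rw [pow_zero, pow_zero]
    exact left_eq_mul.1 h
  | succ k ih => rw [pow_succ, pow_succ, pull_mul, ih]

/-! ### the data on the enlarged atlas -/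

namespace Cen

variable {A : Atl n M} {ρ : Type} (K : Cen A) (P : PD A ρ)

/-- the data on the enlarged atlas -/
def pd : PD K.adp ρ where
  L a := pullLB K.hol K.ref (P.L a)
  k := P.k
  s a := K.up (P.s a)
  kpos := P.kpos
  hs a := by
    rw [← pull_pow]
    exact K.isHS_up (P.hs a)

@[simp] theorem pd_k : (K.pd P).k = P.k := rfl

theorem pd_s (a : ρ) : (K.pd P).s a = K.up (P.s a) := rfl

theorem pd_L (a : ρ) : (K.pd P).L a = pullLB K.hol K.ref (P.L a) := rfl

theorem pd_s_mem (a : ρ) {i : K.adp.ι} {x : M} (hx : x ∈ (K.adp.e i).source) :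
    (K.pd P).s a i x = P.s a (K.ref.r i) x := K.up_of_mem _ hx

theorem pd_rd_inl (a : ρ) {i : A.ι} {z : Cn n} (hz : z ∈ (A.e i).target) :
    (K.pd P).rd (Sum.inl i) a z = P.rd i a z :=
  K.up_of_mem (i := Sum.inl i) (P.s a) ((A.e i).map_target hz)

theorem pd_rd_inr (a : ρ) {s : K.S} {z : Cn n} (hz : z ∈ (K.c s).target) :
    (K.pd P).rd (Sum.inr s) a z = P.s a (K.i0 s) ((K.c s).symm z) :=
  K.up_of_mem (i := Sum.inr s) (P.s a) ((K.c s).map_target hz)

theorem pd_snc {x : M} : (K.pd P).Snc x ↔ P.Snc x := by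
  constructor
  · intro h
    obtain ⟨i, hi⟩ := A.cover x
    have h1 := h.all (K.pd P) (j := Sum.inl i) hi
    refine ⟨i, hi, h1.congr fun a => ?_⟩
    filter_upwards [(A.e i).open_target.mem_nhds ((A.e i).map_source hi)] with z hz
    exact (K.pd_rd_inl P a hz).symm
  · rintro ⟨i, hi, h1⟩
    refine ⟨Sum.inl i, hi, ?_⟩
    refine Snc0.congr h1 fun a => ?_
    filter_upwards [(A.e i).open_target.mem_nhds ((A.e i).map_source hi)] with z hz
    exact K.pd_rd_inl P a hz

end Cen

/-! ### shapes -/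

/-- the shape of a local equation in two functions `T`, `S` -/
inductive Shape : Type
  | unit : Shape
  | star (k : ℕ) : Shape
  | tac : Shape

/-- the model function -/
def Shape.F : Shape → ℂ → ℂ → ℂ → ℂ
  | .unit, _, _, _ => 1
  | .star k, T, S, c => S ^ (2 * k) - T ^ (2 * k) * c
  | .tac, T, S, c => S ^ 2 - T ^ 4 * c

/-- scaling of the coordinates: the unit -/
def Shape.su : Shape → ℂ → ℂ
  | .unit, _ => 1
  | .star k, R => R ^ (2 * k)
  | .tac, R => R ^ 2

/-- scaling of the coordinates: the coefficient -/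
def Shape.sc : Shape → ℂ → ℂ
  | .unit, _ => 1
  | .star _, _ => 1
  | .tac, R => R ^ 2

theorem Shape.F_scale (sh : Shape) (R T S c : ℂ) :
    sh.F (R * T) (R * S) c = sh.su R * sh.F T S (sh.sc R * c) := by
  cases sh <;> simp only [Shape.F, Shape.su, Shape.sc] <;> ring

theorem Shape.su_ne (sh : Shape) {R : ℂ} (hR : R ≠ 0) : sh.su R ≠ 0 := by
  cases sh <;> simp [Shape.su, hR]

theorem Shape.sc_ne (sh : Shape) {R : ℂ} (hR : R ≠ 0) : sh.sc R ≠ 0 := by
  cases sh <;> simp [Shape.sc, hR]

/-- near `x`: `φ = U * F (T, S, c)` with holomorphic units `U`, `c` -/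
def HasForm (C : Fam n M) (sh : Shape) (φ T S : M → ℂ) (x : M) : Prop :=
  ∃ U c : M → ℂ, HG C x U ∧ HG C x c ∧ U x ≠ 0 ∧ c x ≠ 0 ∧
    ∀ᶠ y in 𝓝 x, φ y = U y * sh.F (T y) (S y) (c y)

/-- a change by a unit -/
theorem HasForm.mul {C : Fam n M} {sh : Shape} {φ φ' T S g : M → ℂ} {x : M}
    (h : HasForm C sh φ T S x) (hg : HG C x g) (hg0 : g x ≠ 0)
    (he : ∀ᶠ y in 𝓝 x, φ' y = g y * φ y) : HasForm C sh φ' T S x := by
  obtain ⟨U, c, hU, hc, hU0, hc0, h1⟩ := h
  refine ⟨fun y => g y * U y, c, hg.mul hU, hc, mul_ne_zero hg0 hU0, hc0, ?_⟩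
  filter_upwards [h1, he] with y h2 h3
  rw [h3, h2, mul_assoc]

/-- other functions `T`, `S` with the same germs -/
theorem HasForm.congr {C : Fam n M} {sh : Shape} {φ T S T' S' : M → ℂ} {x : M}
    (h : HasForm C sh φ T S x) (hT : T' =ᶠ[𝓝 x] T) (hS : S' =ᶠ[𝓝 x] S) :
    HasForm C sh φ T' S' x := by
  obtain ⟨U, c, hU, hc, hU0, hc0, h1⟩ := h
  refine ⟨U, c, hU, hc, hU0, hc0, ?_⟩
  filter_upwards [h1, hT, hS] with y h2 h3 h4
  rw [h2, h3, h4]

/-- the transition functions are holomorphic near every point of the overlap -/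
theorem hg_g {A : Atl n M} (L : LB A) {i j : A.ι} {x : M} (hi : x ∈ (A.e i).source)
    (hj : x ∈ (A.e j).source) : HG (fam A) x (L.g i j) := by
  refine ⟨(A.e j).source ∩ (A.e i).source, (A.e j).open_source.inter (A.e i).open_source,
    ⟨hj, hi⟩, fun k => ?_⟩
  exact (L.hol i j).chg (A.e j).open_source k

/-- the form in one frame is the form in every frame -/
theorem HasForm.frame {A : Atl n M} {L : LB A} {σ : A.ι → M → ℂ} (hσ : IsHS L univ σ)
    {sh : Shape} {T S : M → ℂ} {x : M} {i j : A.ι} (hi : x ∈ (A.e i).source)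
    (hj : x ∈ (A.e j).source) (h : HasForm (fam A) sh (σ i) T S x) :
    HasForm (fam A) sh (σ j) T S x := by
  refine h.mul (hg_g L hj hi) (L.ne_zero _ _ _) ?_
  filter_upwards [(A.e i).open_source.mem_nhds hi, (A.e j).open_source.mem_nhds hj] with y h1 h2
  exact hσ.tr j i y ⟨h2, h1⟩ (mem_univ _)

/-- the form in centred coordinates -/
def CForm (sh : Shape) (φ : Cn 2 → ℂ) : Prop :=
  ∃ U c : Cn 2 → ℂ, AnalyticAt ℂ U 0 ∧ AnalyticAt ℂ c 0 ∧ U 0 ≠ 0 ∧ c 0 ≠ 0 ∧
    ∀ᶠ z in 𝓝 (0 : Cn 2), φ z = U z * sh.F (z 0) (z 1) (c z)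

/-- a holomorphic germ read in a compatible chart -/
theorem HG.analyticAt {C : Fam n M} {x : M} {f : M → ℂ} (hf : HG C x f)
    {e : OpenPartialHomeomorph M (Cn n)} (he : Cpt C e) (hx : x ∈ e.source) :
    AnalyticAt ℂ (fun z => f (e.symm z)) (e x) := by
  obtain ⟨U, hU, hxU, h1⟩ := hf
  have ho : IsOpen (e.target ∩ e.symm ⁻¹' U) := e.isOpen_inter_preimage_symm hU
  refine Crest.Agent.R266.SCV.analyticOnNhd_of_differentiableOn ho ?_ (e x)
    ⟨e.map_source hx, by rw [mem_preimage, e.left_inv hx]; exact hxU⟩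
  intro z hz
  obtain ⟨j, hj⟩ := C.cover (e.symm z)
  have h2 := Cpt.diffAt he hz.1 hj
  have h3 : DifferentiableAt ℂ (fun w => f ((C.e j).symm w)) (C.e j (e.symm z)) := by
    refine (h1 j).differentiableAt (((C.e j).isOpen_inter_preimage_symm hU).mem_nhds
      ⟨(C.e j).map_source hj, ?_⟩)
    rw [mem_preimage, (C.e j).left_inv hj]
    exact hz.2
  have h4 := DifferentiableAt.comp z (g := fun w => f ((C.e j).symm w))
    (f := fun z => C.e j (e.symm z)) h3 h2
  refine (h4.congr_of_eventuallyEq ?_).differentiableWithinAt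
  filter_upwards [(e.isOpen_inter_preimage_symm (C.e j).open_source).mem_nhds ⟨hz.1, hj⟩]
    with w hw
  exact (congrArg f ((C.e j).left_inv hw.2)).symm

/-- **the form in the centred coordinates of a chart in which `T`, `S` are multiples of the
coordinates** -/
theorem cform_of_form {M : Type} [TopologicalSpace M] {C : Fam 2 M} {x : M}
    {sh : Shape} {φ T S : M → ℂ} (h : HasForm C sh φ T S x)
    {e : OpenPartialHomeomorph M (Cn 2)} (he : Cpt C e) (hx : x ∈ e.source) {R : ℂ} (hR : R ≠ 0)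
    (hT : ∀ᶠ y in 𝓝 x, T y = R * (e y - e x) 0) (hS : ∀ᶠ y in 𝓝 x, S y = R * (e y - e x) 1) :
    CForm sh fun v => φ (e.symm (e x + v)) := by
  obtain ⟨U, c, hU, hc, hU0, hc0, h1⟩ := h
  have ha : AnalyticAt ℂ (fun v : Cn 2 => e x + v) 0 := by fun_prop
  have h0 : e.symm (e x + 0) = x := by rw [add_zero, e.left_inv hx]
  refine ⟨fun v => sh.su R * U (e.symm (e x + v)), fun v => sh.sc R * c (e.symm (e x + v)),
    ?_, ?_, ?_, ?_, ?_⟩
  · refine analyticAt_const.mul ?_
    have h2 := HG.analyticAt hU he hx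
    exact AnalyticAt.fun_comp (g := fun z => U (e.symm z)) (f := fun v : Cn 2 => e x + v)
      (by rw [add_zero]; exact h2) ha
  · refine analyticAt_const.mul ?_
    have h2 := HG.analyticAt hc he hx
    exact AnalyticAt.fun_comp (g := fun z => c (e.symm z)) (f := fun v : Cn 2 => e x + v)
      (by rw [add_zero]; exact h2) ha
  · simp only [h0]
    exact mul_ne_zero (sh.su_ne hR) hU0
  · simp only [h0]
    exact mul_ne_zero (sh.sc_ne hR) hc0
  · have ht : Tendsto (fun v : Cn 2 => e.symm (e x + v)) (𝓝 0) (𝓝 x) := by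
      have h2 : ContinuousAt e.symm (e x) := e.continuousAt_symm (e.map_source hx)
      have h3 : ContinuousAt (fun v : Cn 2 => e.symm (e x + v)) 0 :=
        ContinuousAt.comp (g := e.symm) (f := fun v : Cn 2 => e x + v)
          (by rw [add_zero]; exact h2) ha.continuousAt
      have h4 := h3.tendsto
      rwa [h0] at h4
    have htt : ∀ᶠ v : Cn 2 in 𝓝 0, e x + v ∈ e.target := by
      refine ha.continuousAt.eventually (e.open_target.mem_nhds ?_)
      show e x + 0 ∈ e.target
      rw [add_zero]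
      exact e.map_source hx
    filter_upwards [ht.eventually h1, ht.eventually hT, ht.eventually hS, htt] with v h2 h3 h4 h5
    rw [h2, h3, h4, e.right_inv h5, add_sub_cancel_left, Shape.F_scale]
    ring

/-! ### all centres -/

/-- a centre: functions `T`, `S` and the local forms of the sections (in one frame) -/
structure Node {M : Type} [TopologicalSpace M] {A : Atl 2 M} {ρ : Type} (P : PD A ρ) (x : M) where
  T : M → ℂ
  S : M → ℂ
  sh : ρ → Shape
  T0 : T x = 0
  S0 : S x = 0
  crd : Crd A x ![T, S]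
  i : A.ι
  hi : x ∈ (A.e i).source
  form : ∀ a, HasForm (fam A) (sh a) (P.s a i) T S x

section NodeCen

variable {M : Type} [TopologicalSpace M] {A : Atl 2 M} {ρ : Type} {P : PD A ρ} {Z : Set M}
  (N : ∀ x : Z, Node P (x : M))

/-- the adapted charts of all centres -/
def nodeCen : Cen A := cenOf A (fun x : Z => (x : M)) (fun x => ![(N x).T, (N x).S])
  (fun x => (N x).crd) (fun _ => univ) (fun _ => univ_mem)

@[simp] theorem nodeCen_S : (nodeCen N).S = Z := rfl

@[simp] theorem nodeCen_p (s : Z) : (nodeCen N).p s = s := rfl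

theorem nodeCen_inj : Function.Injective (nodeCen N).p := Subtype.val_injective

/-- the scaling factor -/
def nodeR (s : Z) : ℂ := ((2 * (nodeCen N).ρ s : ℝ) : ℂ)

theorem nodeR_ne (s : Z) : nodeR N s ≠ 0 := by
  have h : (0 : ℝ) < (nodeCen N).ρ s := (nodeCen N).hρ s
  have h2 : (2 * (nodeCen N).ρ s : ℝ) ≠ 0 := by positivity
  exact Complex.ofReal_ne_zero.2 h2

/-- the functions `T`, `S` in the adapted chart -/
theorem nodeCen_T (s : Z) {x : M} (hx : x ∈ ((nodeCen N).c s).source) :
    (N s).T x = nodeR N s * ((nodeCen N).adp.e (Sum.inr s) x -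
      (nodeCen N).adp.e (Sum.inr s) (s : M)) 0 := by
  have h := cenOf_u A (fun x : Z => (x : M)) (fun x => ![(N x).T, (N x).S])
    (fun x => (N x).crd) (fun _ => univ) (fun _ => univ_mem) s hx 0
  have h1 : (N s).T x = (N s).T (s : M) + nodeR N s * ((nodeCen N).adp.e (Sum.inr s) x -
      (nodeCen N).adp.e (Sum.inr s) (s : M)) 0 := h
  rw [(N s).T0, zero_add] at h1
  exact h1

theorem nodeCen_S' (s : Z) {x : M} (hx : x ∈ ((nodeCen N).c s).source) :
    (N s).S x = nodeR N s * ((nodeCen N).adp.e (Sum.inr s) x -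
      (nodeCen N).adp.e (Sum.inr s) (s : M)) 1 := by
  have h := cenOf_u A (fun x : Z => (x : M)) (fun x => ![(N x).T, (N x).S])
    (fun x => (N x).crd) (fun _ => univ) (fun _ => univ_mem) s hx 1
  have h1 : (N s).S x = (N s).S (s : M) + nodeR N s * ((nodeCen N).adp.e (Sum.inr s) x -
      (nodeCen N).adp.e (Sum.inr s) (s : M)) 1 := h
  rw [(N s).S0, zero_add] at h1
  exact h1

/-- **the local functions of the sections at every centre in centred coordinates** -/
theorem nodeCen_form [T2Space M] [Finite (nodeCen N).S] {ρ0 : ℝ} (h0 : 0 < ρ0) (h1 : ρ0 ≤ 1)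
    (s : Z) (a : ρ) : CForm ((N s).sh a)
      (((nodeCen N).ctr (nodeCen_inj N) h0 h1).phi (((nodeCen N).pd P).s a) s) := by
  set K := nodeCen N with hK
  have hps : (s : M) ∈ (K.c s).source := K.p_mem s
  have hi0 : (s : M) ∈ (A.e (K.i0 s)).source := K.source_sub s hps
  have h2 : HasForm (fam A) ((N s).sh a) (P.s a (K.i0 s)) (N s).T (N s).S (s : M) :=
    ((N s).form a).frame (P.hs a) (N s).hi hi0
  have h3 := cform_of_form h2 (K.cptc s) hps (nodeR_ne N s) (by
    filter_upwards [(K.c s).open_source.mem_nhds hps] with x hx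
    exact nodeCen_T N s hx) (by
    filter_upwards [(K.c s).open_source.mem_nhds hps] with x hx
    exact nodeCen_S' N s hx)
  obtain ⟨U, c, hU, hc, hU0, hc0, h4⟩ := h3
  refine ⟨U, c, hU, hc, hU0, hc0, ?_⟩
  have h5 : ∀ᶠ v : Cn 2 in 𝓝 0, K.c s (s : M) + v ∈ (K.c s).target := by
    have h6 : ContinuousAt (fun v : Cn 2 => K.c s (s : M) + v) 0 := by fun_prop
    refine h6.eventually ((K.c s).open_target.mem_nhds ?_)
    show K.c s (s : M) + 0 ∈ (K.c s).target
    have h7 := (K.c s).map_source hps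
    rwa [← add_zero (K.c s (s : M))] at h7
  filter_upwards [h4, h5] with v h6 h7
  rw [← h6]
  exact K.up_of_mem (i := Sum.inr s) (P.s a) ((K.c s).map_target h7)

end NodeCen

end

end Crest.Agent.R272.Adp_409
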