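import Crest.Agent.R273.PB_835
import Crest.Agent.R275.ProdAtl_363

/-!
# R272, leaf S14-PROD (helper414), part 1: the product of two atlases as a base

For `A : Atl n M`, `B : Atl m N` and 363's `A.prod B : Atl (n + m) (M × N)` (index type `A.ι × B.ι`):

* `fst`, `snd` (`HolMap`), `rfst`, `rsnd` (`Ref`), `mk` (maps into the product), `map`, `const`,
  slices `left y : x ↦ (x, y)`, `right x : y ↦ (x, y)`, the exchange `swap`;
* `ext L L' = L ⊠ L'`, `extS s t` the section `s ⊠ t`, `sfst s`, `ssnd t`;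
* `fderiv_app` : the differential in a product chart is the sum of the partial differentials;
* `good`, `part` : `GoodA`, `Part` of the product.
-/

set_option autoImplicit false
set_option linter.unusedSectionVars false

open Set Filter Topology Complex
open scoped ContDiff Matrix ComplexConjugate Manifold

namespace Crest.Agent.R272.Pr_414

open Crest.Agent.R275.Geo Crest.Agent.R275.Core144 Crest.Agent.R275.GC293 Crest.Agent.R275.Prod363
open Crest.Agent.R273.Defs_333 Crest.Agent.R273.Map_835 Crest.Agent.R273.PB_835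

noncomputable section

variable {n m k l : ℕ} {M N P Q : Type} [TopologicalSpace M] [TopologicalSpace N]
  [TopologicalSpace P] [TopologicalSpace Q]
  {A : Atl n M} {B : Atl m N} {C : Atl k P} {D : Atl l Q}

/-! ### holomorphic maps -/

theorem fst (A : Atl n M) (B : Atl m N) : HolMap (A.prod B) A Prod.fst := by
  refine ⟨continuous_fst, ?_⟩
  rintro ⟨i, j⟩ i'
  exact (A.holo i i').comp (fstL n m).differentiable.differentiableOn
    (fun z hz => ⟨hz.1.1, hz.2⟩)

theorem snd (A : Atl n M) (B : Atl m N) : HolMap (A.prod B) B Prod.snd := by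
  refine ⟨continuous_snd, ?_⟩
  rintro ⟨i, j⟩ j'
  exact (B.holo j j').comp (sndL n m).differentiable.differentiableOn
    (fun z hz => ⟨hz.1.2, hz.2⟩)

def rfst (A : Atl n M) (B : Atl m N) : Ref (A.prod B) A Prod.fst := ⟨fun i => i.1, fun _ _ hx => hx.1⟩

def rsnd (A : Atl n M) (B : Atl m N) : Ref (A.prod B) B Prod.snd := ⟨fun i => i.2, fun _ _ hx => hx.2⟩

theorem mk {f : P → M} {g : P → N} (hf : HolMap C A f) (hg : HolMap C B g) :
    HolMap C (A.prod B) (fun x => (f x, g x)) := by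
  refine ⟨hf.cont.prodMk hg.cont, ?_⟩
  rintro i ⟨j, j'⟩
  have h1 : DifferentiableOn ℂ (fun z => A.e j (f ((C.e i).symm z)))
      ((C.e i).target ∩ (C.e i).symm ⁻¹' ((fun x => (f x, g x)) ⁻¹' ((A.prod B).e (j, j')).source)) :=
    (hf.hol i j).mono fun z hz => ⟨hz.1, hz.2.1⟩
  have h2 : DifferentiableOn ℂ (fun z => B.e j' (g ((C.e i).symm z)))
      ((C.e i).target ∩ (C.e i).symm ⁻¹' ((fun x => (f x, g x)) ⁻¹' ((A.prod B).e (j, j')).source)) :=
    (hg.hol i j').mono fun z hz => ⟨hz.1, hz.2.2⟩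
  exact (appH n m).differentiable.comp_differentiableOn (h1.prodMk h2)

theorem const (C : Atl k P) (A : Atl n M) (a : M) : HolMap C A (fun _ => a) :=
  ⟨continuous_const, fun _ _ => differentiableOn_const _⟩

theorem map {f : M → P} {g : N → Q} (hf : HolMap A C f) (hg : HolMap B D g) :
    HolMap (A.prod B) (C.prod D) (Prod.map f g) :=
  mk (hf.comp (fst A B)) (hg.comp (snd A B))

/-- refinement of a product map -/
def rmap {f : M → P} {g : N → Q} (rf : Ref A C f) (rg : Ref B D g) :
    Ref (A.prod B) (C.prod D) (Prod.map f g) :=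
  ⟨fun i => (rf.r i.1, rg.r i.2), fun i x hx => ⟨rf.sub i.1 x.1 hx.1, rg.sub i.2 x.2 hx.2⟩⟩

theorem left (A : Atl n M) (B : Atl m N) (y : N) : HolMap A (A.prod B) (fun x => (x, y)) :=
  mk (holMap_id A) (const A B y)

theorem right (A : Atl n M) (B : Atl m N) (x : M) : HolMap B (A.prod B) (fun y => (x, y)) :=
  mk (const B A x) (holMap_id B)

/-- the graph map -/
theorem graph {f : M → N} (hf : HolMap A B f) : HolMap A (A.prod B) (fun x => (x, f x)) :=
  mk (holMap_id A) hf

theorem swap (A : Atl n M) (B : Atl m N) : HolMap (A.prod B) (B.prod A) Prod.swap :=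
  mk (snd A B) (fst A B)

/-! ### differentials in a product chart -/

section Diff

variable {W : Type*} [NormedAddCommGroup W] [NormedSpace ℂ W]

theorem app_eq (x : Cn n) (y : Cn m) : app x y = app x 0 + app 0 y := by
  ext a
  induction a using Fin.addCases with
  | left a => simp
  | right a => simp

/-- the differential of a function in a product chart -/
theorem fderiv_app {F : Cn (n + m) → W} {x : Cn n} {y : Cn m}
    (hF : DifferentiableAt ℂ F (app x y)) (v : Cn n) (w : Cn m) :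
    fderiv ℂ F (app x y) (app v w) =
      fderiv ℂ (fun z => F (app z y)) x v + fderiv ℂ (fun z => F (app x z)) y w := by
  have h1 : HasFDerivAt (fun z : Cn n => app z y)
      ((appL n m).comp (ContinuousLinearMap.inl ℂ (Cn n) (Cn m))) x := by
    have h0 : HasFDerivAt (fun z : Cn n => (z, y)) (ContinuousLinearMap.inl ℂ (Cn n) (Cn m)) x :=
      hasFDerivAt_prodMk_left x y
    exact (appL n m).hasFDerivAt.comp x h0
  have h2 : HasFDerivAt (fun z : Cn m => app x z)
      ((appL n m).comp (ContinuousLinearMap.inr ℂ (Cn n) (Cn m))) y := by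
    have h0 : HasFDerivAt (fun z : Cn m => (x, z)) (ContinuousLinearMap.inr ℂ (Cn n) (Cn m)) y :=
      hasFDerivAt_prodMk_right x y
    exact (appL n m).hasFDerivAt.comp y h0
  have h3 := (hF.hasFDerivAt.comp x h1).fderiv
  have h4 := (hF.hasFDerivAt.comp y h2).fderiv
  have e3 : fderiv ℂ (fun z => F (app z y)) x v = fderiv ℂ F (app x y) (app v 0) := by
    have := congrArg (fun L => L v) h3
    exact this
  have e4 : fderiv ℂ (fun z => F (app x z)) y w = fderiv ℂ F (app x y) (app 0 w) := by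
    have := congrArg (fun L => L w) h4
    exact this
  rw [e3, e4, ← map_add, ← app_eq]

theorem fderiv_comp_fst {F : Cn n → W} {x : Cn n} {y : Cn m} (hF : DifferentiableAt ℂ F x)
    (v : Cn n) (w : Cn m) :
    fderiv ℂ (fun z => F (fstL n m z)) (app x y) (app v w) = fderiv ℂ F x v := by
  have h0 : HasFDerivAt F (fderiv ℂ F x) (fstL n m (app x y)) := by
    rw [fstL_app]
    exact hF.hasFDerivAt
  have h1 := (h0.comp (app x y) (fstL n m).hasFDerivAt).fderiv
  have h2 := congrArg (fun L => L (app v w)) h1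
  simp only [ContinuousLinearMap.comp_apply, fstL_app] at h2
  exact h2

theorem fderiv_comp_snd {F : Cn m → W} {x : Cn n} {y : Cn m} (hF : DifferentiableAt ℂ F y)
    (v : Cn n) (w : Cn m) :
    fderiv ℂ (fun z => F (sndL n m z)) (app x y) (app v w) = fderiv ℂ F y w := by
  have h0 : HasFDerivAt F (fderiv ℂ F y) (sndL n m (app x y)) := by
    rw [sndL_app]
    exact hF.hasFDerivAt
  have h1 := (h0.comp (app x y) (sndL n m).hasFDerivAt).fderiv
  have h2 := congrArg (fun L => L (app v w)) h1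
  simp only [ContinuousLinearMap.comp_apply, sndL_app] at h2
  exact h2

theorem eq_app (z : Cn (n + m)) : z = app (fstL n m z) (sndL n m z) := (app_fstL_sndL z).symm

theorem app_eq_zero {v : Cn n} {w : Cn m} : app v w = 0 ↔ v = 0 ∧ w = 0 := by
  constructor
  · intro h
    refine ⟨?_, ?_⟩
    · have := congrArg (fstL n m) h
      rwa [fstL_app, map_zero] at this
    · have := congrArg (sndL n m) h
      rwa [sndL_app, map_zero] at this
  · rintro ⟨rfl, rfl⟩
    have : app (0 : Cn n) (0 : Cn m) = appL n m (0, 0) := rfl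
    rw [this]
    exact map_zero _

end Diff

/-! ### line bundles and sections -/

/-- `L ⊠ L'` -/
def ext (L : LB A) (L' : LB B) : LB (A.prod B) :=
  pullLB (fst A B) (rfst A B) L * pullLB (snd A B) (rsnd A B) L'

theorem ext_g (L : LB A) (L' : LB B) {i i' : A.ι} {j j' : B.ι} {x : M × N}
    (hx : x ∈ ((A.prod B).e (i, j)).source ∩ ((A.prod B).e (i', j')).source) :
    (ext L L').g (i, j) (i', j') x = L.g i i' x.1 * L'.g j j' x.2 := by
  unfold ext
  rw [LB.mul_g, pullLB_g _ _ _ hx, pullLB_g _ _ _ hx]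
  rfl

theorem ext_mul (L K : LB A) (L' K' : LB B) : ext (L * K) (L' * K') = ext L L' * ext K K' := by
  ext i j x
  by_cases hx : x ∈ ((A.prod B).e i).source ∩ ((A.prod B).e j).source
  · obtain ⟨i, i'⟩ := i
    obtain ⟨j, j'⟩ := j
    rw [LB.mul_g, ext_g _ _ hx, ext_g _ _ hx, ext_g _ _ hx, LB.mul_g, LB.mul_g]
    ring
  · rw [LB.off _ _ _ _ hx, LB.off _ _ _ _ hx]

theorem ext_one : ext (1 : LB A) (1 : LB B) = 1 := by
  ext i j x
  by_cases hx : x ∈ ((A.prod B).e i).source ∩ ((A.prod B).e j).source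
  · obtain ⟨i, i'⟩ := i
    obtain ⟨j, j'⟩ := j
    rw [ext_g _ _ hx]
    simp
  · rw [LB.off _ _ _ _ hx, LB.off _ _ _ _ hx]

theorem ext_pow (L : LB A) (L' : LB B) (r : ℕ) : ext (L ^ r) (L' ^ r) = ext L L' ^ r := by
  induction r with
  | zero => rw [pow_zero, pow_zero, pow_zero, ext_one]
  | succ r ih => rw [pow_succ, pow_succ, pow_succ, ext_mul, ih]

/-- the section `s ⊠ t` -/
def extS (s : A.ι → M → ℂ) (t : B.ι → N → ℂ) : (A.prod B).ι → M × N → ℂ :=
  fun i x => s i.1 x.1 * t i.2 x.2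

@[simp] theorem extS_apply (s : A.ι → M → ℂ) (t : B.ι → N → ℂ) (i : A.ι) (j : B.ι) (x : M) (y : N) :
    extS s t (i, j) (x, y) = s i x * t j y := rfl

theorem holAt_fst {i : A.ι} {U : Set M} {f : M → ℂ} (hf : HolAt A i U f) (j : B.ι) :
    HolAt (A.prod B) (i, j) (Prod.fst ⁻¹' U) (fun x => f x.1) :=
  DifferentiableOn.comp (g := fun z => f ((A.e i).symm z)) hf
    (fstL n m).differentiable.differentiableOn (fun _ hz => ⟨hz.1.1, hz.2⟩)

theorem holAt_snd {j : B.ι} {U : Set N} {f : N → ℂ} (hf : HolAt B j U f) (i : A.ι) :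
    HolAt (A.prod B) (i, j) (Prod.snd ⁻¹' U) (fun x => f x.2) :=
  DifferentiableOn.comp (g := fun z => f ((B.e j).symm z)) hf
    (sndL n m).differentiable.differentiableOn (fun _ hz => ⟨hz.1.2, hz.2⟩)

theorem isHS_extS {L : LB A} {L' : LB B} {U : Set M} {V : Set N} {s : A.ι → M → ℂ}
    {t : B.ι → N → ℂ} (hs : IsHS L U s) (ht : IsHS L' V t) :
    IsHS (ext L L') (U ×ˢ V) (extS s t) := by
  refine ⟨?_, ?_, ?_⟩
  · rintro ⟨i, j⟩
    exact ((holAt_fst (hs.hol i) j).mono fun x hx => hx.1).mul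
      ((holAt_snd (ht.hol j) i).mono fun x hx => hx.2)
  · rintro ⟨i, j⟩ ⟨x, y⟩ hx
    rw [extS_apply]
    by_cases h1 : x ∈ (A.e i).source
    · have h2 : y ∉ (B.e j).source := fun h => hx ⟨h1, h⟩
      rw [ht.off j y h2, mul_zero]
    · rw [hs.off i x h1, zero_mul]
  · rintro ⟨i, j⟩ ⟨i', j'⟩ ⟨x, y⟩ hx hU
    rw [extS_apply, extS_apply, ext_g _ _ hx, hs.tr i i' x ⟨hx.1.1, hx.2.1⟩ hU.1,
      ht.tr j j' y ⟨hx.1.2, hx.2.2⟩ hU.2]
    ring

theorem isHS_extS' {L : LB A} {L' : LB B} {s : A.ι → M → ℂ} {t : B.ι → N → ℂ}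
    (hs : IsHS L univ s) (ht : IsHS L' univ t) : IsHS (ext L L') univ (extS s t) := by
  have := isHS_extS hs ht
  rwa [univ_prod_univ] at this

/-- the pull-back of a section under the first projection -/
def sfst (s : A.ι → M → ℂ) : (A.prod B).ι → M × N → ℂ := extS s (oneS B)

def ssnd (t : B.ι → N → ℂ) : (A.prod B).ι → M × N → ℂ := extS (oneS A) t

theorem sfst_apply (s : A.ι → M → ℂ) {i : A.ι} {j : B.ι} {x : M} {y : N}
    (hy : y ∈ (B.e j).source) : sfst (B := B) s (i, j) (x, y) = s i x := by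
  simp [sfst, oneS, hy]

theorem ssnd_apply (t : B.ι → N → ℂ) {i : A.ι} {j : B.ι} {x : M} {y : N}
    (hx : x ∈ (A.e i).source) : ssnd (A := A) t (i, j) (x, y) = t j y := by
  simp [ssnd, oneS, hx]

theorem isHS_sfst {L : LB A} {U : Set M} {s : A.ι → M → ℂ} (hs : IsHS L U s) :
    IsHS (ext L (1 : LB B)) (U ×ˢ univ) (sfst s) := isHS_extS hs (isHS_oneS univ)

theorem isHS_ssnd {L' : LB B} {V : Set N} {t : B.ι → N → ℂ} (ht : IsHS L' V t) :
    IsHS (ext (1 : LB A) L') (univ ×ˢ V) (ssnd t) := isHS_extS (isHS_oneS univ) ht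

/-! ### good covers and partitions -/

theorem good (hA : GoodA A) (hB : GoodA B) : GoodA (A.prod B) := by
  rintro ⟨i, j⟩ ⟨i', j'⟩
  have h1 : (A.prod B).ov (i, j) (i', j') =
      ((fstL n m).restrictScalars ℝ).toLinearMap ⁻¹' A.ov i i' ∩
        ((sndL n m).restrictScalars ℝ).toLinearMap ⁻¹' B.ov j j' := by
    ext z
    exact mem_prod_ov A B
  rw [h1]
  exact ((hA i i').linear_preimage _).inter ((hB j j').linear_preimage _)

theorem tsupport_prod_subset (f : M → ℝ) (g : N → ℝ) :
    tsupport (fun x : M × N => f x.1 * g x.2) ⊆ tsupport f ×ˢ tsupport g := by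
  refine closure_minimal ?_ ((isClosed_tsupport f).prod (isClosed_tsupport g))
  intro x hx
  rw [Function.mem_support] at hx
  exact ⟨subset_tsupport _ (left_ne_zero_of_mul hx), subset_tsupport _ (right_ne_zero_of_mul hx)⟩

def part [Finite A.ι] [Finite B.ι] (PA : Part A) (PB : Part B) : Part (A.prod B) where
  ψ i x := PA.ψ i.1 x.1 * PB.ψ i.2 x.2
  χ i x := PA.χ i.1 x.1 * PB.χ i.2 x.2
  ψ_sm i := fun j => (sm_fst A B (PA.ψ_sm i.1) j).mul (sm_snd A B (PB.ψ_sm i.2) j)
  χ_sm i := fun j => (sm_fst A B (PA.χ_sm i.1) j).mul (sm_snd A B (PB.χ_sm i.2) j)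
  χ_cpt i := ((PA.χ_cpt i.1).prod (PB.χ_cpt i.2)).of_isClosed_subset (isClosed_tsupport _)
    (tsupport_prod_subset _ _)
  χ_sub i := fun x hx => by
    have := tsupport_prod_subset _ _ hx
    exact ⟨PA.χ_sub i.1 this.1, PB.χ_sub i.2 this.2⟩
  χ_one i x hx := by
    have := tsupport_prod_subset _ _ hx
    have h1 := continuous_fst.continuousAt.eventually (PA.χ_one i.1 x.1 this.1)
    have h2 := continuous_snd.continuousAt.eventually (PB.χ_one i.2 x.2 this.2)
    filter_upwards [h1, h2] with y h3 h4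
    rw [h3, h4, one_mul]
  lf K _ := toFinite _
  sum_one x := by
    have := Fintype.ofFinite A.ι
    have := Fintype.ofFinite B.ι
    have h1 := PA.sum_one x.1
    have h2 := PB.sum_one x.2
    rw [finsum_eq_sum_of_fintype] at h1 h2 ⊢
    rw [Fintype.sum_prod_type]
    simp only [← Finset.mul_sum, h2, mul_one, h1]

end

end Crest.Agent.R272.Pr_414
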