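import Crest.Agent.R272.Adp3_409
import Crest.Agent.R272.Pr1_414
import Crest.Agent.Lib.InjHolo

/-!
# R272 (S0414), helper409: centres on a product of two curves

* `Cr1 A x t`     : `t` is a local coordinate of the curve at `x`; `Cr1.of_inj` (holomorphic and
                    injective near `x`), `Cr1.inj`;
* `hg_fst`, `hg_snd` : pull back of holomorphic germs to the product;
* `crd_prod`      : the coordinates of the two curves are coordinates of the product;
* `prodNode`      : a `Node` at a point of the product.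
-/

set_option autoImplicit false
set_option linter.unusedSectionVars false

open Set Filter Topology Metric
open scoped ContDiff Manifold

namespace Crest.Agent.R272.Adp_409

open Crest.Agent.R275.Geo Crest.Agent.R275.Core144 Crest.Agent.R275.GC293
open Crest.Agent.R275.Prod363
open Crest.Agent.R273.Map_835 Crest.Agent.R273.Fam_835 Crest.Agent.R273.PB_835
open Crest.Agent.R273.Defs_333 Crest.Agent.R272.Refl_246 Crest.Agent.R272.DCov_426
open Crest.Agent.R272.Quot_783 Crest.Agent.R272.Root_83 Crest.Agent.R272.Blup1_102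
open Crest.Agent.R272.BlA_266

noncomputable section

variable {M N : Type} [TopologicalSpace M] [TopologicalSpace N]

/-! ### local coordinates of a curve -/

/-- a local coordinate of a curve at `x` (derivative in one chart) -/
structure Cr1 (A : Atl 1 M) (x : M) (t : M → ℂ) : Prop where
  hol : HG (fam A) x t
  ne : ∃ i, x ∈ (A.e i).source ∧ ∃ v, fderiv ℂ (fun z => t ((A.e i).symm z)) (A.e i x) v ≠ 0

theorem Cr1.congr {A : Atl 1 M} {x : M} {t t' : M → ℂ} (h : Cr1 A x t) (he : t =ᶠ[𝓝 x] t') :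
    Cr1 A x t' := by
  refine ⟨h.hol.congr he, ?_⟩
  obtain ⟨i, hi, v, hv⟩ := h.ne
  refine ⟨i, hi, v, ?_⟩
  have h1 : (fun z => t ((A.e i).symm z)) =ᶠ[𝓝 (A.e i x)] fun z => t' ((A.e i).symm z) := by
    have h2 : Tendsto (A.e i).symm (𝓝 (A.e i x)) (𝓝 x) := by
      have := ((A.e i).continuousAt_symm ((A.e i).map_source hi)).tendsto
      rwa [(A.e i).left_inv hi] at this
    exact h2.eventually he
  rwa [h1.fderiv_eq] at hv

/-- a linear form on a line which is not zero is injective -/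
theorem lin_inj {L : Cn 1 →L[ℂ] ℂ} {v : Cn 1} (hv : L v ≠ 0) {w : Cn 1} (hw : L w = 0) : w = 0 := by
  have hv0 : v 0 ≠ 0 := by
    intro h
    apply hv
    have : v = 0 := by
      ext i
      rw [Subsingleton.elim i 0, h]
      rfl
    rw [this, map_zero]
  have h1 : w = (w 0 / v 0) • v := by
    ext i
    rw [Subsingleton.elim i 0, PiLp.smul_apply, smul_eq_mul, div_mul_cancel₀ _ hv0]
  rw [h1, map_smul, smul_eq_mul] at hw
  have h2 : w 0 / v 0 = 0 := (mul_eq_zero.1 hw).resolve_right hv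
  rw [h1, h2, zero_smul]

/-- every chart will do -/
theorem Cr1.all {A : Atl 1 M} {x : M} {t : M → ℂ} (h : Cr1 A x t) {j : A.ι}
    (hj : x ∈ (A.e j).source) : ∃ v, fderiv ℂ (fun z => t ((A.e j).symm z)) (A.e j x) v ≠ 0 := by
  obtain ⟨i, hi, v, hv⟩ := h.ne
  obtain ⟨U, hU, hxU, h1⟩ := h.hol
  have ht : DifferentiableAt ℂ (fun z => t ((A.e j).symm z)) (A.e j x) :=
    (h1 j).differentiableAt (((A.e j).isOpen_inter_preimage_symm hU).mem_nhds
      ⟨(A.e j).map_source hj, by
        show (A.e j).symm (A.e j x) ∈ U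
        rw [(A.e j).left_inv hj]; exact hxU⟩)
  have hz : A.e i x ∈ A.ov i j := ⟨(A.e i).map_source hi, by rw [(A.e i).left_inv hi]; exact hj⟩
  have hd : DifferentiableAt ℂ (fun z => A.e j ((A.e i).symm z)) (A.e i x) :=
    (A.holo i j).differentiableAt ((Crest.Agent.R275.GC293.isOpen_ov A i j).mem_nhds hz)
  have he : (fun z => t ((A.e i).symm z)) =ᶠ[𝓝 (A.e i x)]
      fun z => t ((A.e j).symm (A.e j ((A.e i).symm z))) := by
    filter_upwards [(Crest.Agent.R275.GC293.isOpen_ov A i j).mem_nhds hz] with w hw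
    rw [(A.e j).left_inv hw.2]
  refine ⟨fderiv ℂ (fun z => A.e j ((A.e i).symm z)) (A.e i x) v, ?_⟩
  have h3 : A.e j ((A.e i).symm (A.e i x)) = A.e j x := by rw [(A.e i).left_inv hi]
  have h4 := fderiv_comp (A.e i x) (g := fun z => t ((A.e j).symm z))
    (f := fun z => A.e j ((A.e i).symm z)) (by rw [h3]; exact ht) hd
  rw [he.fderiv_eq] at hv
  have h5 : fderiv ℂ (fun z => t ((A.e j).symm (A.e j ((A.e i).symm z)))) (A.e i x) =
      (fderiv ℂ (fun z => t ((A.e j).symm z)) (A.e j ((A.e i).symm (A.e i x)))).comp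
        (fderiv ℂ (fun z => A.e j ((A.e i).symm z)) (A.e i x)) := h4
  rw [h5, h3] at hv
  exact hv

theorem Cr1.inj {A : Atl 1 M} {x : M} {t : M → ℂ} (h : Cr1 A x t) {j : A.ι}
    (hj : x ∈ (A.e j).source) {w : Cn 1}
    (hw : fderiv ℂ (fun z => t ((A.e j).symm z)) (A.e j x) w = 0) : w = 0 := by
  obtain ⟨v, hv⟩ := h.all hj
  exact lin_inj hv hw

/-- **holomorphic and injective near the point** (`LC` of Root6_83 and UnB8_894) -/
theorem Cr1.of_inj {A : Atl 1 M} {x : M} {t : M → ℂ} (ht : HG (fam A) x t)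
    (hi : ∃ O ∈ 𝓝 x, InjOn t O) : Cr1 A x t := by
  obtain ⟨i, hxi⟩ := A.cover x
  refine ⟨ht, i, hxi, ?_⟩
  obtain ⟨U, hU, hcU, hfU⟩ := ht
  obtain ⟨N0, hN0, hinj⟩ := hi
  obtain ⟨O, hO, hOo, hcO⟩ := _root_.mem_nhds_iff.1 hN0
  set z0 := A.e i x with hz0
  set k : ℂ → Cn 1 := fun u => z0 + u • EuclideanSpace.single 0 1 with hk
  have hkd : Differentiable ℂ k := by
    intro u
    exact (differentiableAt_const _).add (differentiableAt_id.smul_const _)
  have hk0 : k 0 = z0 := by simp [hk]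
  set G : ℂ → ℂ := fun u => t ((A.e i).symm (k u)) with hG
  set Ω : Set ℂ := k ⁻¹' ((A.e i).target ∩ (A.e i).symm ⁻¹' (U ∩ O)) with hΩ
  have hΩo : IsOpen Ω :=
    ((A.e i).isOpen_inter_preimage_symm (hU.inter hOo)).preimage hkd.continuous
  have hmem : (0 : ℂ) ∈ Ω := by
    rw [hΩ, mem_preimage, hk0]
    exact ⟨(A.e i).map_source hxi, by rw [mem_preimage, hz0, (A.e i).left_inv hxi]; exact ⟨hcU, hcO⟩⟩
  have htd : ∀ u ∈ Ω, DifferentiableAt ℂ (fun z => t ((A.e i).symm z)) (k u) := fun u hu =>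
    (hfU i).differentiableAt (((A.e i).isOpen_inter_preimage_symm hU).mem_nhds ⟨hu.1, hu.2.1⟩)
  have hGd : DifferentiableOn ℂ G Ω := fun u hu =>
    (DifferentiableAt.comp u (g := fun z => t ((A.e i).symm z)) (htd u hu)
      (hkd u)).differentiableWithinAt
  have hGi : InjOn G Ω := by
    intro u hu v hv e
    have h2 := hinj (hO hu.2.2) (hO hv.2.2) e
    have h3 := (A.e i).symm.injOn hu.1 hv.1 h2
    have h4 := congrArg (fun z : Cn 1 => z 0) h3
    simpa [hk] using h4
  have hne := Crest.Agent.Lib.deriv_ne_zero_of_injOn hΩo hGd hGi hmem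
  refine ⟨EuclideanSpace.single 0 1, fun h0 => hne ?_⟩
  have h5 : HasDerivAt k (EuclideanSpace.single 0 1) 0 := by
    have h6 := ((hasDerivAt_id (0 : ℂ)).smul_const (EuclideanSpace.single (0 : Fin 1) (1 : ℂ)))
    rw [one_smul] at h6
    exact h6.const_add z0
  have h7 := (htd 0 hmem).hasFDerivAt.comp_hasDerivAt (0 : ℂ) h5
  rw [hk0] at h7
  have h8 : deriv G 0 = fderiv ℂ (fun z => t ((A.e i).symm z)) z0 (EuclideanSpace.single 0 1) :=
    h7.deriv
  rw [h8, h0]

/-! ### the product -/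

variable {A : Atl 1 M} {B : Atl 1 N}

theorem hg_fst {n m : ℕ} {A : Atl n M} {B : Atl m N} {a : M} {b : N} {f : M → ℂ}
    (hf : HG (fam A) a f) : HG (fam (A.prod B)) (a, b) fun q => f q.1 :=
  HG.comp (p := Prod.fst) (y := (a, b)) hf (holC_iff.2 (Crest.Agent.R272.Pr_414.fst A B))

theorem hg_snd {n m : ℕ} {A : Atl n M} {B : Atl m N} {a : M} {b : N} {f : N → ℂ}
    (hf : HG (fam B) b f) : HG (fam (A.prod B)) (a, b) fun q => f q.2 :=
  HG.comp (p := Prod.snd) (y := (a, b)) hf (holC_iff.2 (Crest.Agent.R272.Pr_414.snd A B))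

theorem HG.diffAt_e {n : ℕ} {A : Atl n M} {x : M} {f : M → ℂ} (hf : HG (fam A) x f) {i : A.ι}
    (hi : x ∈ (A.e i).source) : DifferentiableAt ℂ (fun z => f ((A.e i).symm z)) (A.e i x) :=
  (HG.analyticAt (C := fam A) hf (e := A.e i) (cpt_e (C := fam A) i) hi).differentiableAt

/-- **coordinates of the two curves are coordinates of the product** -/
theorem crd_prod {a : M} {b : N} {t : M → ℂ} {s : N → ℂ} (ht : Cr1 A a t) (hs : Cr1 B b s) :
    Crd (n := 2) (A.prod B) (a, b) ![fun q => t q.1, fun q => s q.2] := by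
  obtain ⟨i, hi⟩ := A.cover a
  obtain ⟨j, hj⟩ := B.cover b
  refine ⟨?_, (i, j), ⟨hi, hj⟩, ?_⟩
  · intro c
    fin_cases c
    · exact hg_fst (B := B) ht.hol
    · exact hg_snd (A := A) hs.hol
  · intro v hv
    have h0 := hv 0
    have h1 := hv 1
    have hv' : (v : Cn (1 + 1)) = app (fstL 1 1 v) (sndL 1 1 v) :=
      (app_fstL_sndL (n := 1) (m := 1) v).symm
    have e0 : fderiv ℂ (fun z : Cn (1 + 1) => t ((A.e i).symm (fstL 1 1 z)))
        (app (A.e i a) (B.e j b)) (app (fstL 1 1 v) (sndL 1 1 v)) =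
        fderiv ℂ (fun z => t ((A.e i).symm z)) (A.e i a) (fstL 1 1 v) :=
      Crest.Agent.R272.Pr_414.fderiv_comp_fst (F := fun z => t ((A.e i).symm z))
        (HG.diffAt_e ht.hol hi) _ _
    have e1 : fderiv ℂ (fun z : Cn (1 + 1) => s ((B.e j).symm (sndL 1 1 z)))
        (app (A.e i a) (B.e j b)) (app (fstL 1 1 v) (sndL 1 1 v)) =
        fderiv ℂ (fun z => s ((B.e j).symm z)) (B.e j b) (sndL 1 1 v) :=
      Crest.Agent.R272.Pr_414.fderiv_comp_snd (F := fun z => s ((B.e j).symm z))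
        (HG.diffAt_e hs.hol hj) _ _
    rw [← hv'] at e0 e1
    have f0 : fstL 1 1 v = 0 := ht.inj hi (e0.symm.trans h0)
    have f1 : sndL 1 1 v = 0 := hs.inj hj (e1.symm.trans h1)
    refine ext_prod (n := 1) (m := 1) ?_ ?_
    · rw [f0, map_zero]
    · rw [f1, map_zero]

/-- **a centre of the product of two curves** -/
def prodNode {ρ : Type} (P : PD (n := 2) (A.prod B) ρ) {a : M} {b : N} {t : M → ℂ} {s : N → ℂ}
    (ht : Cr1 A a t) (hs : Cr1 B b s) (t0 : t a = 0) (s0 : s b = 0) (sh : ρ → Shape)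
    (i : (A.prod B).ι) (hi : (a, b) ∈ ((A.prod B).e i).source)
    (form : ∀ c, HasForm (fam (A.prod B)) (sh c) (P.s c i) (fun q => t q.1) (fun q => s q.2)
      (a, b)) : Node P (a, b) where
  T q := t q.1
  S q := s q.2
  sh := sh
  T0 := t0
  S0 := s0
  crd := crd_prod ht hs
  i := i
  hi := hi
  form := form

end

end Crest.Agent.R272.Adp_409
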