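import Crest.Agent.R272.BlA1_266

/-!
# R272 (S0414), BL (a) (helper266), part 2: local forms in dimension two

* `IsPQ p q f` : `f v = U v * (v 1 ^ p - v 0 ^ q * c v)` near `0`, `U 0 ≠ 0`, `c 0 ≠ 0`;
  `star k = (2k, 2k)`, `tac = (2, 4)`;
* `ord_of_pq`, `ord_zero` : the order of vanishing;
* `snc_star`, `snc_tac` : normal crossings of the divided sections over a centre;
* `pq_second`, `unit_second` : the forms at the second centre (origin of the chart `(t, 0)`).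
-/

set_option autoImplicit false
set_option linter.unusedSectionVars false

open Set Filter Topology Complex Asymptotics
open scoped ContDiff Matrix ComplexConjugate Manifold

namespace Crest.Agent.R272.BlA_266

open Crest.Agent.R275.Geo Crest.Agent.R275.Core144
open Crest.Agent.R273.Map_835 Crest.Agent.R273.PB_835
open Crest.Agent.R272.Blup1_102 Crest.Agent.R272.Blup1_102.Ctr

noncomputable section

/-- the local form `unit * (z₁ ^ p - z₀ ^ q * unit)` -/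
def IsPQ (p q : ℕ) (f : Cn 2 → ℂ) : Prop :=
  ∃ U c : Cn 2 → ℂ, DifferentiableAt ℂ U 0 ∧ DifferentiableAt ℂ c 0 ∧ U 0 ≠ 0 ∧ c 0 ≠ 0 ∧
    ∀ᶠ v in 𝓝 0, f v = U v * (v 1 ^ p - v 0 ^ q * c v)

/-! ### the blowing down map in coordinates -/

theorem bl00 (w : Cn 2) : (w 0 • W 0 w) 0 = w 0 := by simp
theorem bl01 (w : Cn 2) : (w 0 • W 0 w) 1 = w 0 * w 1 := by simp
theorem bl10 (w : Cn 2) : (w 1 • W 1 w) 0 = w 1 * w 0 := by simp
theorem bl11 (w : Cn 2) : (w 1 • W 1 w) 1 = w 1 := by simp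

theorem form0 {p q : ℕ} (hpq : p ≤ q) (c : Cn 2 → ℂ) (w : Cn 2) :
    (w 0 • W 0 w) 1 ^ p - (w 0 • W 0 w) 0 ^ q * c (w 0 • W 0 w) =
      w 0 ^ p * (w 1 ^ p - w 0 ^ (q - p) * c (w 0 • W 0 w)) := by
  rw [bl00, bl01]
  obtain ⟨r, rfl⟩ := Nat.exists_eq_add_of_le hpq
  rw [Nat.add_sub_cancel_left, mul_pow, pow_add]
  ring

theorem form1 {p q : ℕ} (hpq : p ≤ q) (c : Cn 2 → ℂ) (w : Cn 2) :
    (w 1 • W 1 w) 1 ^ p - (w 1 • W 1 w) 0 ^ q * c (w 1 • W 1 w) =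
      w 1 ^ p * (1 - w 0 ^ q * w 1 ^ (q - p) * c (w 1 • W 1 w)) := by
  rw [bl10, bl11]
  obtain ⟨r, rfl⟩ := Nat.exists_eq_add_of_le hpq
  rw [Nat.add_sub_cancel_left, mul_pow, pow_add]
  ring

theorem contAt_blow {b : Fin 2} {w : Cn 2} (hw : w b = 0) {c : Cn 2 → ℂ} (hc : ContinuousAt c 0) :
    ContinuousAt (fun w : Cn 2 => c (w b • W b w)) w := by
  have h1 : ContinuousAt c (w b • W b w) := by
    rw [hw, zero_smul]
    exact hc
  exact ContinuousAt.comp (g := c) (f := fun w : Cn 2 => w b • W b w) h1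
    (differentiable_blow b w).continuousAt

theorem diffAt_blow {b : Fin 2} {w : Cn 2} (hw : w b = 0) {c : Cn 2 → ℂ}
    (hc : DifferentiableAt ℂ c 0) : DifferentiableAt ℂ (fun w : Cn 2 => c (w b • W b w)) w := by
  have h1 : DifferentiableAt ℂ c (w b • W b w) := by
    rw [hw, zero_smul]
    exact hc
  exact DifferentiableAt.comp w (g := c) (f := fun w : Cn 2 => w b • W b w) h1
    (differentiable_blow b w)

variable {M : Type} [TopologicalSpace M] [T2Space M] {A : Atl 2 M} {C : Ctr A} {L : LB A}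
  {σ : A.ι → M → ℂ} {k : C.S → ℕ}

/-! ### orders -/

theorem ord_at {t : C.S} {p q : ℕ} (hpq : p ≤ q) (h : IsPQ p q (C.phi σ t)) :
    (C.phi σ t) =O[𝓝 0] fun v => ‖v‖ ^ p := by
  obtain ⟨U, c, hU, hc, -, -, he⟩ := h
  have h1 : U =O[𝓝 0] fun _ => (1 : ℝ) := hU.continuousAt.isBigO_one ℝ
  have h2 : c =O[𝓝 0] fun _ => (1 : ℝ) := hc.continuousAt.isBigO_one ℝ
  have h3 : ∀ i : Fin 2, (fun v : Cn 2 => v i) =O[𝓝 0] fun v => ‖v‖ := fun i =>
    IsBigO.of_bound 1 (Eventually.of_forall fun v => by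
      rw [norm_norm, one_mul]; exact norm_coord_le v i)
  have h4 : (fun v : Cn 2 => v 1 ^ p) =O[𝓝 0] fun v => ‖v‖ ^ p := (h3 1).pow p
  have h5 : (fun v : Cn 2 => v 0 ^ q * c v) =O[𝓝 0] fun v => ‖v‖ ^ p := by
    have h6 : (fun v : Cn 2 => v 0 ^ q) =O[𝓝 0] fun v => ‖v‖ ^ p := by
      refine ((h3 0).pow q).trans ?_
      refine IsBigO.of_bound 1 ?_
      filter_upwards [Metric.ball_mem_nhds (0 : Cn 2) one_pos] with v hv
      rw [mem_ball_zero_iff] at hv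
      rw [norm_pow, norm_pow, norm_norm, one_mul]
      exact pow_le_pow_of_le_one (norm_nonneg v) hv.le hpq
    have h7 := h6.mul h2
    simpa using h7
  have h8 := h1.mul (h4.sub h5)
  have h9 : (C.phi σ t) =ᶠ[𝓝 0] fun v => U v * (v 1 ^ p - v 0 ^ q * c v) := he
  exact h9.trans_isBigO (by simpa using h8)

theorem phi_diffAt (hσ : IsHS L univ σ) (t : C.S) : DifferentiableAt ℂ (C.phi σ t) 0 :=
  (C.phi_hol hσ t).differentiableAt (Metric.isOpen_ball.mem_nhds (Metric.mem_ball_self (C.r_pos t)))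

theorem ord_zero (hσ : IsHS L univ σ) (t : C.S) : (C.phi σ t) =O[𝓝 0] fun v => ‖v‖ ^ 0 := by
  simpa using (phi_diffAt (C := C) hσ t).continuousAt.isBigO_one ℝ

/-! ### the divided section on `E` -/

section Line

variable (hσ : IsHS L univ σ) (hk : C.Ord σ k) {t : C.S}

theorem Psi_unit {b : Fin 2} {u : Cn 2} (hu : u ∈ C.T t b) (hub : u b = 0) (hkt : k t = 0) :
    C.Psi hσ hk t b u = C.phi σ t 0 := by
  have h := C.Psi_eq hσ hk t b hu
  rw [hub, zero_smul, hkt, pow_zero, one_mul] at h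
  exact h.symm

/-- the divided section in the chart `(t, 0)` -/
theorem Psi_germ0 {p q : ℕ} (hpq : p ≤ q) (hkt : k t = p) {U c : Cn 2 → ℂ} (hU : ContinuousAt U 0)
    (hc : ContinuousAt c 0) (he : ∀ᶠ v in 𝓝 0, C.phi σ t v = U v * (v 1 ^ p - v 0 ^ q * c v))
    {u : Cn 2} (hu : u ∈ C.T t 0) (hu0 : u 0 = 0) :
    C.Psi hσ hk t 0 =ᶠ[𝓝 u] fun w => U (w 0 • W 0 w) *
      (w 1 ^ p - w 0 ^ (q - p) * c (w 0 • W 0 w)) := by
  refine PD.Psi_germ hσ hk hu hu0 (F := fun v => v 1 ^ p - v 0 ^ q * c v)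
    (Fh := fun w => w 1 ^ p - w 0 ^ (q - p) * c (w 0 • W 0 w)) hU he ?_ ?_
  · refine Eventually.of_forall fun w => ?_
    show _ = w 0 ^ (k t) * _
    rw [hkt]
    exact form0 hpq c w
  · refine Eventually.of_forall fun w hw => ?_
    have h1 : ContinuousAt (fun w : Cn 2 => c (w 0 • W 0 w)) w := contAt_blow hw hc
    have h2 : ContinuousAt (fun w : Cn 2 => w 1 ^ p) w := by fun_prop
    have h3 : ContinuousAt (fun w : Cn 2 => w 0 ^ (q - p)) w := by fun_prop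
    exact h2.sub (h3.mul h1)

/-- the divided section in the chart `(t, 1)` -/
theorem Psi_germ1 {p q : ℕ} (hpq : p ≤ q) (hkt : k t = p) {U c : Cn 2 → ℂ} (hU : ContinuousAt U 0)
    (hc : ContinuousAt c 0) (he : ∀ᶠ v in 𝓝 0, C.phi σ t v = U v * (v 1 ^ p - v 0 ^ q * c v))
    {u : Cn 2} (hu : u ∈ C.T t 1) (hu0 : u 1 = 0) :
    C.Psi hσ hk t 1 =ᶠ[𝓝 u] fun w => U (w 1 • W 1 w) *
      (1 - w 0 ^ q * w 1 ^ (q - p) * c (w 1 • W 1 w)) := by
  refine PD.Psi_germ hσ hk hu hu0 (F := fun v => v 1 ^ p - v 0 ^ q * c v)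
    (Fh := fun w => 1 - w 0 ^ q * w 1 ^ (q - p) * c (w 1 • W 1 w)) hU he ?_ ?_
  · refine Eventually.of_forall fun w => ?_
    show _ = w 1 ^ (k t) * _
    rw [hkt]
    exact form1 hpq c w
  · refine Eventually.of_forall fun w hw => ?_
    have h1 : ContinuousAt (fun w : Cn 2 => c (w 1 • W 1 w)) w := contAt_blow hw hc
    have h2 : ContinuousAt (fun w : Cn 2 => w 0 ^ q * w 1 ^ (q - p)) w := by fun_prop
    exact continuousAt_const.sub (h2.mul h1)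

theorem fderiv_line {f : Cn 2 → ℂ} {u v : Cn 2} (hf : DifferentiableAt ℂ f u) {g : ℂ → ℂ} {d : ℂ}
    (he : ∀ᶠ s : ℂ in 𝓝 0, f (u + s • v) = g s) (hg : HasDerivAt g d 0) :
    fderiv ℂ f u v = d := by
  have hl : HasDerivAt (fun s : ℂ => u + s • v) v 0 := by
    simpa using ((hasDerivAt_id (0 : ℂ)).smul_const v).const_add u
  have h1 : HasFDerivAt f (fderiv ℂ f u) (u + (0 : ℂ) • v) := by
    rw [zero_smul, add_zero]
    exact hf.hasFDerivAt
  have h2 := h1.comp_hasDerivAt (0 : ℂ) hl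
  exact (h2.congr_of_eventuallyEq (he.mono fun s hs => hs.symm)).unique hg

theorem tendsto_line (u v : Cn 2) : Tendsto (fun s : ℂ => u + s • v) (𝓝 0) (𝓝 u) := by
  have h : ContinuousAt (fun s : ℂ => u + s • v) 0 := by fun_prop
  have h1 := h.tendsto
  simp only [zero_smul, add_zero] at h1
  exact h1

theorem Psi_diffAt {b : Fin 2} {u : Cn 2} (hu : u ∈ C.T t b) :
    DifferentiableAt ℂ (C.Psi hσ hk t b) u :=
  (C.Psi_hol hσ hk t b).differentiableAt ((C.isOpen_T t b).mem_nhds hu)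

/-- value and derivative along `E` in the chart `(t, 0)` -/
theorem Psi_E0 {p q : ℕ} (hpq : p ≤ q) (hkt : k t = p) {U c : Cn 2 → ℂ} (hU : ContinuousAt U 0)
    (hc : ContinuousAt c 0) (he : ∀ᶠ v in 𝓝 0, C.phi σ t v = U v * (v 1 ^ p - v 0 ^ q * c v))
    {u : Cn 2} (hu : u ∈ C.T t 0) (hu0 : u 0 = 0) :
    C.Psi hσ hk t 0 u = U 0 * (u 1 ^ p - 0 ^ (q - p) * c 0) ∧
      fderiv ℂ (C.Psi hσ hk t 0) u (ev 1) = U 0 * (p * u 1 ^ (p - 1)) := by
  have hg := Psi_germ0 hσ hk hpq hkt hU hc he hu hu0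
  refine ⟨?_, ?_⟩
  · rw [hg.eq_of_nhds]
    simp only [hu0, zero_smul]
  · refine fderiv_line (Psi_diffAt hσ hk hu)
      (g := fun s => U 0 * ((u 1 + s) ^ p - 0 ^ (q - p) * c 0)) ?_ ?_
    · filter_upwards [(tendsto_line u (ev 1)).eventually hg] with s hs
      rw [hs]
      have h0 : (u + s • ev 1 : Cn 2) 0 = 0 := by simp [hu0]
      have h1 : (u + s • ev 1 : Cn 2) 1 = u 1 + s := by simp
      rw [h0, h1, zero_smul]
    · have h1 : HasDerivAt (fun s : ℂ => u 1 + s) 1 0 := by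
        simpa using (hasDerivAt_id (0 : ℂ)).const_add (u 1)
      have h2 := ((h1.pow p).sub_const (0 ^ (q - p) * c 0)).const_mul (U 0)
      simpa using h2

/-- value and derivative along `E` in the chart `(t, 1)` -/
theorem Psi_E1 {p q : ℕ} (hpq : p ≤ q) (hkt : k t = p) {U c : Cn 2 → ℂ} (hU : ContinuousAt U 0)
    (hc : ContinuousAt c 0) (he : ∀ᶠ v in 𝓝 0, C.phi σ t v = U v * (v 1 ^ p - v 0 ^ q * c v))
    {u : Cn 2} (hu : u ∈ C.T t 1) (hu0 : u 1 = 0) :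
    C.Psi hσ hk t 1 u = U 0 * (1 - u 0 ^ q * 0 ^ (q - p) * c 0) ∧
      fderiv ℂ (C.Psi hσ hk t 1) u (ev 0) = - (U 0 * (q * u 0 ^ (q - 1) * 0 ^ (q - p) * c 0)) := by
  have hg := Psi_germ1 hσ hk hpq hkt hU hc he hu hu0
  refine ⟨?_, ?_⟩
  · rw [hg.eq_of_nhds]
    simp only [hu0, zero_smul]
  · refine fderiv_line (Psi_diffAt hσ hk hu)
      (g := fun s => U 0 * (1 - (u 0 + s) ^ q * (0 ^ (q - p) * c 0))) ?_ ?_
    · filter_upwards [(tendsto_line u (ev 0)).eventually hg] with s hs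
      rw [hs]
      have h0 : (u + s • ev 0 : Cn 2) 1 = 0 := by simp [hu0]
      have h1 : (u + s • ev 0 : Cn 2) 0 = u 0 + s := by simp
      rw [h0, h1, zero_smul]
      ring
    · have h1 : HasDerivAt (fun s : ℂ => u 0 + s) 1 0 := by
        simpa using (hasDerivAt_id (0 : ℂ)).const_add (u 0)
      have h2 := (((h1.pow q).mul_const (0 ^ (q - p) * c 0)).const_sub 1).const_mul (U 0)
      refine h2.congr_deriv ?_
      simp only [add_zero, mul_one]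
      ring

end Line

/-! ### normal crossings over the centres -/

namespace PD

variable {ρ : Type} (P : PD A ρ) {m : ρ → C.S → ℕ}
  (hm : ∀ a, C.Ord (P.s a) (fun t => P.k a * m a t)) {t : C.S}

/-- the other index -/
def oth (b : Fin 2) : Fin 2 := 1 - b

/-- star form: on `E` the zeros are simple -/
theorem star_simple {a : ρ} {p : ℕ} (hp : 0 < p) (hma : P.k a * m a t = p)
    (ha : IsPQ p p (C.phi (P.s a) t)) {b : Fin 2} {u : Cn 2} (hu : u ∈ C.T t b) (hub : u b = 0)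
    (h0 : C.Psi (P.hs a) (hm a) t b u = 0) :
    fderiv ℂ (C.Psi (P.hs a) (hm a) t b) u (ev (oth b)) ≠ 0 := by
  obtain ⟨U, c, hU, hc, hU0, hc0, he⟩ := ha
  have hp0 : (p : ℂ) ≠ 0 := Nat.cast_ne_zero.2 hp.ne'
  fin_cases b
  · obtain ⟨h1, h2⟩ := Psi_E0 (P.hs a) (hm a) le_rfl hma hU.continuousAt hc.continuousAt he hu hub
    have h0' : C.Psi (P.hs a) (hm a) t 0 u = 0 := h0
    show fderiv ℂ (C.Psi (P.hs a) (hm a) t 0) u (ev 1) ≠ 0
    rw [h1] at h0'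
    rw [h2]
    refine mul_ne_zero hU0 (mul_ne_zero hp0 (pow_ne_zero _ fun h3 => ?_))
    have h4 := (mul_eq_zero.1 h0').resolve_left hU0
    rw [h3, zero_pow hp.ne', Nat.sub_self, pow_zero, one_mul, zero_sub, neg_eq_zero] at h4
    exact hc0 h4
  · obtain ⟨h1, h2⟩ := Psi_E1 (P.hs a) (hm a) le_rfl hma hU.continuousAt hc.continuousAt he hu hub
    have h0' : C.Psi (P.hs a) (hm a) t 1 u = 0 := h0
    show fderiv ℂ (C.Psi (P.hs a) (hm a) t 1) u (ev 0) ≠ 0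
    rw [h1] at h0'
    rw [h2]
    rw [Nat.sub_self, pow_zero, mul_one] at h0' ⊢
    refine neg_ne_zero.2 (mul_ne_zero hU0 (mul_ne_zero (mul_ne_zero hp0 (pow_ne_zero _ fun h3 => ?_))
      hc0))
    have h4 := (mul_eq_zero.1 h0').resolve_left hU0
    rw [h3, zero_pow hp.ne', zero_mul, sub_zero] at h4
    exact one_ne_zero h4

/-- unit form -/
theorem unit_ne {b : ρ} (hmb : P.k b * m b t = 0) (hb : C.phi (P.s b) t 0 ≠ 0) {e : Fin 2}
    {u : Cn 2} (hu : u ∈ C.T t e) (hue : u e = 0) : C.Psi (P.hs b) (hm b) t e u ≠ 0 := by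
  rw [Psi_unit (P.hs b) (hm b) hu hue hmb]
  exact hb

/-- tacnode form: the divided section vanishes on `E` only at the origin of the chart `(t, 0)` -/
theorem tac_ne {a : ρ} {p q : ℕ} (hpq : p < q) (hma : P.k a * m a t = p)
    (ha : IsPQ p q (C.phi (P.s a) t)) {b : Fin 2} {u : Cn 2} (hu : u ∈ C.T t b) (hub : u b = 0)
    (h : b = 0 → u ≠ 0) : C.Psi (P.hs a) (hm a) t b u ≠ 0 := by
  obtain ⟨U, c, hU, hc, hU0, hc0, he⟩ := ha
  have hs : q - p ≠ 0 := Nat.sub_ne_zero_of_lt hpq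
  fin_cases b
  · obtain ⟨h1, -⟩ := Psi_E0 (P.hs a) (hm a) hpq.le hma hU.continuousAt hc.continuousAt he hu hub
    show C.Psi (P.hs a) (hm a) t 0 u ≠ 0
    rw [h1, zero_pow hs, zero_mul, sub_zero]
    refine mul_ne_zero hU0 (pow_ne_zero _ fun h3 => h rfl ?_)
    ext j
    fin_cases j
    · exact hub
    · exact h3
  · obtain ⟨h1, -⟩ := Psi_E1 (P.hs a) (hm a) hpq.le hma hU.continuousAt hc.continuousAt he hu hub
    show C.Psi (P.hs a) (hm a) t 1 u ≠ 0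
    rw [h1, zero_pow hs, mul_zero, zero_mul, sub_zero, mul_one]
    exact hU0

/-- **star centre**: normal crossings at all points over it -/
theorem snc_star {a : ρ} {p : ℕ} (hp : 0 < p) (hma : P.k a * m a t = p)
    (ha : IsPQ p p (C.phi (P.s a) t))
    (hb : ∀ b, b ≠ a → P.k b * m b t = 0 ∧ C.phi (P.s b) t 0 ≠ 0) {y : C.X}
    (hy : C.pi y = C.p t) : (P.bl C m hm).Snc y := by
  obtain ⟨e, u, hu, hue, rfl⟩ := exists_ci hy
  refine P.bl_snc_on hm hu (Snc0.of_one a (fun b hba => ?_) (v := ev (oth e)) fun h0 => ?_)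
  · exact P.unit_ne hm (hb b hba).1 (hb b hba).2 hu hue
  · exact P.star_simple hm hp hma ha hu hue h0

/-- **unit centre**: nothing vanishes -/
theorem snc_unit (hb : ∀ b, P.k b * m b t = 0 ∧ C.phi (P.s b) t 0 ≠ 0) {y : C.X}
    (hy : C.pi y = C.p t) : (P.bl C m hm).Snc y := by
  obtain ⟨e, u, hu, hue, rfl⟩ := exists_ci hy
  exact P.bl_snc_on hm hu (Snc0.of_ne fun b => P.unit_ne hm (hb b).1 (hb b).2 hu hue)

/-- **tacnode centre**: normal crossings at all points over it but the second centre -/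
theorem snc_tac {a b : ρ} {p q : ℕ} (hpq : p < q) (hma : P.k a * m a t = p)
    (ha : IsPQ p q (C.phi (P.s a) t))
    (hb : (∃ p', 0 < p' ∧ P.k b * m b t = p' ∧ IsPQ p' p' (C.phi (P.s b) t)) ∨
      (P.k b * m b t = 0 ∧ C.phi (P.s b) t 0 ≠ 0))
    (hc : ∀ c, c ≠ a → c ≠ b → P.k c * m c t = 0 ∧ C.phi (P.s c) t 0 ≠ 0) {y : C.X}
    (hy : C.pi y = C.p t) (hy0 : y ≠ C.ci t 0 0) : (P.bl C m hm).Snc y := by
  obtain ⟨e, u, hu, hue, rfl⟩ := exists_ci hy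
  have hne : e = 0 → u ≠ 0 := by
    rintro rfl rfl
    exact hy0 rfl
  refine P.bl_snc_on hm hu (Snc0.of_one b (fun c hcb => ?_) (v := ev (oth e)) fun h0 => ?_)
  · by_cases hca : c = a
    · subst hca
      exact P.tac_ne hm hpq hma ha hu hue hne
    · exact P.unit_ne hm (hc c hca hcb).1 (hc c hca hcb).2 hu hue
  · rcases hb with ⟨p', h1, h2, h3⟩ | ⟨h1, h2⟩
    · exact P.star_simple hm h1 h2 h3 hu hue h0
    · exact absurd h0 (P.unit_ne hm h1 h2 hu hue)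

/-! ### the second centre -/

theorem zero_mem_T (t : C.S) (b : Fin 2) : (0 : Cn 2) ∈ C.T t b := by
  refine ⟨?_, fun e _ => ?_⟩
  · simpa using C.r_pos t
  · simp

/-- the divided sections read at the second centre -/
theorem phi_second {C₂ : Ctr C.atl} {t₂ : C₂.S} (hi : C₂.i t₂ = Sum.inr (t, 0))
    (hp₂ : C₂.p t₂ = C.ci t 0 0) (a : ρ) :
    ∀ᶠ v in 𝓝 0, C₂.phi ((P.bl C m hm).s a) t₂ v = C.Psi (P.hs a) (hm a) t 0 ((5 : ℂ) • v) := by
  have h1 : Tendsto (fun v : Cn 2 => (5 : ℂ) • v) (𝓝 0) (𝓝 0) := by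
    have h : ContinuousAt (fun v : Cn 2 => (5 : ℂ) • v) 0 := by fun_prop
    have h2 := h.tendsto
    simp only [smul_zero] at h2
    exact h2
  filter_upwards [h1.eventually ((C.isOpen_T t 0).mem_nhds (zero_mem_T t 0))] with v hv
  have h2 : C₂.phi ((P.bl C m hm).s a) t₂ v = (P.bl C m hm).s a (C₂.i t₂)
      ((C.atl.e (C₂.i t₂)).symm (C.atl.e (C₂.i t₂) (C₂.p t₂) + v)) := rfl
  have h3 : (C.ec (Sum.inr (t, 0))).symm (C.ec (Sum.inr (t, 0)) (C.ci t 0 0) + v) =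
      C.ci t 0 ((5 : ℂ) • v) := by
    rw [ec_inr_apply, ec_inr_symm, C.co_ci (zero_mem_T t 0)]
    congr 1
    show (5 : ℂ) • ((1 / 5 : ℂ) • (0 : Cn 2) + kap 2 + v - kap 2) = _
    rw [smul_zero, zero_add, add_sub_cancel_left]
  rw [h2, hi, hp₂]
  have h4 : (C.atl.e (Sum.inr (t, 0))).symm (C.atl.e (Sum.inr (t, 0)) (C.ci t 0 0) + v) =
      C.ci t 0 ((5 : ℂ) • v) := h3
  rw [h4]
  have h5 := C.st_inr (P.hs a) (hm a) (C.ci_mem hv)
  rw [C.co_ci hv] at h5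
  exact h5

/-- at the second centre the form `(p, q)` becomes `(p, q - p)` -/
theorem pq_second {C₂ : Ctr C.atl} {t₂ : C₂.S} (hi : C₂.i t₂ = Sum.inr (t, 0))
    (hp₂ : C₂.p t₂ = C.ci t 0 0) {a : ρ} {p q : ℕ} (hpq : p ≤ q) (hma : P.k a * m a t = p)
    (ha : IsPQ p q (C.phi (P.s a) t)) : IsPQ p (q - p) (C₂.phi ((P.bl C m hm).s a) t₂) := by
  obtain ⟨U, c, hU, hc, hU0, hc0, he⟩ := ha
  have h5 : (5 : ℂ) ^ p ≠ 0 := pow_ne_zero _ (by norm_num)
  have h5' : (5 : ℂ) ^ (q - p) ≠ 0 := pow_ne_zero _ (by norm_num)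
  have hg := Psi_germ0 (P.hs a) (hm a) hpq hma hU.continuousAt hc.continuousAt he (zero_mem_T t 0) rfl
  have h1 : Tendsto (fun v : Cn 2 => (5 : ℂ) • v) (𝓝 0) (𝓝 0) := by
    have h : ContinuousAt (fun v : Cn 2 => (5 : ℂ) • v) 0 := by fun_prop
    have h2 := h.tendsto
    simp only [smul_zero] at h2
    exact h2
  have hd : ∀ f : Cn 2 → ℂ, DifferentiableAt ℂ f 0 → DifferentiableAt ℂ (fun v : Cn 2 =>
      f (((5 : ℂ) • v : Cn 2) 0 • W 0 ((5 : ℂ) • v))) 0 := by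
    intro f hf
    have h2 : DifferentiableAt ℂ (fun w : Cn 2 => f (w 0 • W 0 w)) ((5 : ℂ) • (0 : Cn 2)) := by
      rw [smul_zero]
      exact diffAt_blow (b := 0) rfl hf
    exact DifferentiableAt.comp (0 : Cn 2) (g := fun w : Cn 2 => f (w 0 • W 0 w))
      (f := fun v : Cn 2 => (5 : ℂ) • v) h2 (by fun_prop)
  have hv : ∀ f : Cn 2 → ℂ, f (((5 : ℂ) • (0 : Cn 2) : Cn 2) 0 • W 0 ((5 : ℂ) • (0 : Cn 2))) = f 0 := by
    intro f
    congr 1
    simp
  refine ⟨fun v => (5 : ℂ) ^ p * U (((5 : ℂ) • v : Cn 2) 0 • W 0 ((5 : ℂ) • v)),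
    fun v => (5 : ℂ) ^ (q - p) / 5 ^ p * c (((5 : ℂ) • v : Cn 2) 0 • W 0 ((5 : ℂ) • v)),
    (hd U hU).const_mul _, (hd c hc).const_mul _, ?_, ?_, ?_⟩
  · refine mul_ne_zero h5 ?_
    rw [hv U]
    exact hU0
  · refine mul_ne_zero (div_ne_zero h5' h5) ?_
    rw [hv c]
    exact hc0
  · filter_upwards [P.phi_second hm hi hp₂ a, h1.eventually hg] with v h2 h3
    rw [h2, h3]
    have h4 : ∀ j, ((5 : ℂ) • v : Cn 2) j = 5 * v j := fun j => rfl
    rw [h4 1, h4 0, mul_pow, mul_pow]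
    field_simp

theorem star_second {C₂ : Ctr C.atl} {t₂ : C₂.S} (hi : C₂.i t₂ = Sum.inr (t, 0))
    (hp₂ : C₂.p t₂ = C.ci t 0 0) {b : ρ} {p : ℕ} (hp : 0 < p) (hmb : P.k b * m b t = p)
    (hb : IsPQ p p (C.phi (P.s b) t)) : C₂.phi ((P.bl C m hm).s b) t₂ 0 ≠ 0 := by
  obtain ⟨U, c, hU, hc, hU0, hc0, he⟩ := hb
  rw [(P.phi_second hm hi hp₂ b).self_of_nhds, smul_zero]
  obtain ⟨h1, -⟩ := Psi_E0 (P.hs b) (hm b) le_rfl hmb hU.continuousAt hc.continuousAt he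
    (zero_mem_T t 0) rfl
  rw [h1]
  refine mul_ne_zero hU0 ?_
  have h2 : ((0 : Cn 2) 1 : ℂ) = 0 := rfl
  rw [h2, zero_pow hp.ne', Nat.sub_self, pow_zero, one_mul, zero_sub]
  exact neg_ne_zero.2 hc0

theorem unit_second {C₂ : Ctr C.atl} {t₂ : C₂.S} (hi : C₂.i t₂ = Sum.inr (t, 0))
    (hp₂ : C₂.p t₂ = C.ci t 0 0) {b : ρ} (hmb : P.k b * m b t = 0)
    (hb : C.phi (P.s b) t 0 ≠ 0) : C₂.phi ((P.bl C m hm).s b) t₂ 0 ≠ 0 := by
  rw [(P.phi_second hm hi hp₂ b).self_of_nhds, smul_zero]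
  exact P.unit_ne hm hmb hb (zero_mem_T t 0) rfl

end PD

end

end Crest.Agent.R272.BlA_266
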