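import Crest.Agent.R272.Root5_83

/-!
# R272 (S0414), S14-FORMS (helper140): local forms of `s_M`, `s_N` at the centres

Model of record `#6536`.  `C^` : `d ^ 8 = 1 - t ^ 16`, `r ^ 2 = t ^ 8 + I` (patch `t`),
`d ^ 8 = c ^ 16 - 1`, `r ^ 2 = 1 + I c ^ 8` (patch `c = 1 / t`); `F8` : `e ^ 8 = 1 - o ^ 8`
(patch `o`), `e ^ 8 = z ^ 8 - 1` (patch `z = 1 / o`).

`Frm C x s S T p q` : near `x`, `s = U * (S ^ p - c * T ^ q)` with units `U`, `c`.
-/

set_option autoImplicit false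

open Set Topology Filter Complex

namespace Crest.Agent.R272.NF_140

open Crest.Agent.R275.Geo Crest.Agent.R273.Fam_835 Crest.Agent.R272.Quot_783
open Crest.Agent.R272.Root_83

noncomputable section

variable {n : ℕ} {X : Type} [TopologicalSpace X]

/-- `s = U * (S ^ p - c * T ^ q)` near `x`, with units `U`, `c` -/
def Frm (C : Fam n X) (x : X) (s S T : X → ℂ) (p q : ℕ) : Prop :=
  ∃ U c : X → ℂ, HG C x U ∧ HG C x c ∧ U x ≠ 0 ∧ c x ≠ 0 ∧
    ∀ᶠ y in 𝓝 x, s y = U y * (S y ^ p - c y * T y ^ q)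

/-- `s` is a unit at `x` -/
def Unt (C : Fam n X) (x : X) (s : X → ℂ) : Prop := HG C x s ∧ s x ≠ 0

variable {C : Fam n X} {x : X} {s s' S T u : X → ℂ} {p q : ℕ}

theorem Frm.unit_mul (h : Frm C x s S T p q) (hu : HG C x u) (hne : u x ≠ 0)
    (hs : ∀ᶠ y in 𝓝 x, s' y = u y * s y) : Frm C x s' S T p q := by
  obtain ⟨U, c, hU, hc, hU0, hc0, he⟩ := h
  refine ⟨fun y => u y * U y, c, hu.mul hU, hc, mul_ne_zero hne hU0, hc0, ?_⟩
  filter_upwards [hs, he] with y h1 h2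
  rw [h1, h2]
  ring

theorem Frm.congr (h : Frm C x s S T p q) (hs : ∀ᶠ y in 𝓝 x, s' y = s y) :
    Frm C x s' S T p q :=
  h.unit_mul (HG.const 1) one_ne_zero (by filter_upwards [hs] with y hy; rw [hy, one_mul])

theorem Frm.hg (h : Frm C x s S T p q) (hS : HG C x S) (hT : HG C x T) : HG C x s := by
  obtain ⟨U, c, hU, hc, -, -, he⟩ := h
  refine (hU.mul ((hS.pow p).sub (hc.mul (hT.pow q)))).congr ?_
  filter_upwards [he] with y hy
  rw [hy]

theorem Frm.sqE (h : Frm C x s S T p q) :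
    ∃ c : X → ℂ, HG C x c ∧ c x ≠ 0 ∧ SqE C x s (fun y => S y ^ p - c y * T y ^ q) := by
  obtain ⟨U, c, hU, hc, hU0, hc0, he⟩ := h
  exact ⟨c, hc, hc0, SqE.unit_mul hU hU0 he⟩

theorem Unt.unit_mul (h : Unt C x s) (hu : HG C x u) (hne : u x ≠ 0)
    (hs : ∀ᶠ y in 𝓝 x, s' y = u y * s y) : Unt C x s' :=
  ⟨(hu.mul h.1).congr (by filter_upwards [hs] with y hy; rw [hy]), by
    rw [hs.self_of_nhds]; exact mul_ne_zero hne h.2⟩

theorem Frm.comp {m : ℕ} {Y : Type} [TopologicalSpace Y] {D : Fam m Y} {f : Y → X} {y : Y}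
    (h : Frm C (f y) s S T p q) (hf : HolC D C f) :
    Frm D y (fun z => s (f z)) (fun z => S (f z)) (fun z => T (f z)) p q := by
  obtain ⟨U, c, hU, hc, hU0, hc0, he⟩ := h
  exact ⟨fun z => U (f z), fun z => c (f z), hU.comp hf, hc.comp hf, hU0, hc0,
    hf.cont.continuousAt.eventually he⟩

theorem Unt.comp {m : ℕ} {Y : Type} [TopologicalSpace Y] {D : Fam m Y} {f : Y → X} {y : Y}
    (h : Unt C (f y) s) (hf : HolC D C f) : Unt D y (fun z => s (f z)) := ⟨h.1.comp hf, h.2⟩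

/-! ### the patches -/

/-- patch `t` of `C^` -/
structure Pt (C : Fam n X) (x : X) (t d r : X → ℂ) : Prop where
  ht : HG C x t
  hd : HG C x d
  hr : HG C x r
  ed : ∀ᶠ y in 𝓝 x, d y ^ 8 = 1 - t y ^ 16
  er : ∀ᶠ y in 𝓝 x, r y ^ 2 = t y ^ 8 + I

/-- patch `c = 1 / t` of `C^` -/
structure Pc (C : Fam n X) (x : X) (c d r : X → ℂ) : Prop where
  hc : HG C x c
  hd : HG C x d
  hr : HG C x r
  ed : ∀ᶠ y in 𝓝 x, d y ^ 8 = c y ^ 16 - 1
  er : ∀ᶠ y in 𝓝 x, r y ^ 2 = 1 + I * c y ^ 8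

/-- patch `o` of `F8` -/
structure Po (C : Fam n X) (x : X) (o e : X → ℂ) : Prop where
  ho : HG C x o
  he : HG C x e
  ee : ∀ᶠ y in 𝓝 x, e y ^ 8 = 1 - o y ^ 8

/-- patch `z = 1 / o` of `F8` -/
structure Pz (C : Fam n X) (x : X) (z e : X → ℂ) : Prop where
  hz : HG C x z
  he : HG C x e
  ee : ∀ᶠ y in 𝓝 x, e y ^ 8 = z y ^ 8 - 1

/-! ### the two sections in the patches -/

def sMto (t o : X → ℂ) : X → ℂ := fun y => o y ^ 2 - t y ^ 4
def sMco (c o : X → ℂ) : X → ℂ := fun y => o y ^ 2 * c y ^ 4 - 1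
def sMtz (t z : X → ℂ) : X → ℂ := fun y => 1 - z y ^ 2 * t y ^ 4
def sMcz (c z : X → ℂ) : X → ℂ := fun y => c y ^ 4 - z y ^ 2
def sNto (k : ℂ) (t d o : X → ℂ) : X → ℂ := fun y =>
  o y ^ 2 * (t y ^ 8 - I) - k * t y ^ 2 * d y ^ 2
def sNco (k : ℂ) (c d o : X → ℂ) : X → ℂ := fun y =>
  o y ^ 2 * (1 - I * c y ^ 8) - k * c y ^ 2 * d y ^ 2
def sNtz (k : ℂ) (t d z : X → ℂ) : X → ℂ := fun y =>
  (t y ^ 8 - I) - k * t y ^ 2 * d y ^ 2 * z y ^ 2
def sNcz (k : ℂ) (c d z : X → ℂ) : X → ℂ := fun y =>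
  (1 - I * c y ^ 8) - k * c y ^ 2 * d y ^ 2 * z y ^ 2

variable {t d r o e c z : X → ℂ} {k : ℂ}

theorem I_ne : (-I : ℂ) ≠ 0 := neg_ne_zero.2 I_ne_zero

theorem k_ne (hk : k ^ 4 = 8 * I) : k ≠ 0 := by
  rintro rfl
  rw [zero_pow (by norm_num)] at hk
  exact (mul_ne_zero (by norm_num) I_ne_zero) hk.symm

theorem hg_tI (ht : HG C x t) : HG C x (fun y => t y ^ 8 - I) := (ht.pow 8).sub (HG.const I)

theorem hg_cI (hc : HG C x c) : HG C x (fun y => 1 - I * c y ^ 8) :=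
  (HG.const 1).sub ((HG.const I).mul (hc.pow 8))

/-- common shape of `s_N` -/
theorem frm_N {w d' S T : X → ℂ} (hw : HG C x w) (hw0 : w x ≠ 0) (hd : HG C x d')
    (hd0 : d' x ≠ 0) (hk : k ≠ 0)
    (hs : ∀ᶠ y in 𝓝 x, s y = S y ^ 2 * w y - k * T y ^ 2 * d' y ^ 2) : Frm C x s S T 2 2 := by
  refine ⟨w, fun y => k * d' y ^ 2 * (w y)⁻¹, hw,
    ((HG.const k).mul (hd.pow 2)).mul (hw.inv hw0), hw0,
    mul_ne_zero (mul_ne_zero hk (pow_ne_zero 2 hd0)) (inv_ne_zero hw0), ?_⟩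
  filter_upwards [hs, hw.continuousAt.eventually_ne hw0] with y hy hwy
  rw [hy]
  field_simp

/-- **(P)** -/
theorem form_P (h : Pt C x t d r) (hk : k ^ 4 = 8 * I) (ht : t x = 0)
    (_ho : o x = 0) :
    Frm C x (sMto t o) o t 2 4 ∧ Frm C x (sNto k t d o) o t 2 2 := by
  constructor
  · refine ⟨fun _ => 1, fun _ => 1, HG.const 1, HG.const 1, one_ne_zero, one_ne_zero, ?_⟩
    filter_upwards with y
    rw [sMto]
    ring
  · have hd0 : d x ≠ 0 := by
      intro h0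
      have := h.ed.self_of_nhds
      rw [h0, ht] at this
      norm_num at this
    refine frm_N (hg_tI h.ht) (by rw [ht]; norm_num) h.hd hd0 (k_ne hk) ?_
    filter_upwards with y
    rw [sNto]

/-- **(Q)** -/
theorem form_Q (h : Pc C x c d r) (h' : Pz C x z e) (hc : c x = 0) (_hz : z x = 0) :
    Frm C x (sMcz c z) z c 2 4 ∧ Unt C x (sNcz k c d z) := by
  constructor
  · refine ⟨fun _ => -1, fun _ => 1, HG.const _, HG.const 1, by norm_num, one_ne_zero, ?_⟩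
    filter_upwards with y
    rw [sMcz]
    ring
  · refine ⟨(hg_cI h.hc).sub ((((HG.const k).mul (h.hc.pow 2)).mul (h.hd.pow 2)).mul (h'.hz.pow 2)),
      ?_⟩
    rw [sNcz, hc]
    norm_num

theorem tI_ne {a : ℂ} (h : a ^ 2 = 1) : a - I ≠ 0 := by
  intro h0
  have h1 : a = I := sub_eq_zero.1 h0
  rw [h1, I_sq] at h
  norm_num at h

/-- **(T)**, `d = 0` -/
theorem form_T1 (h : Pt C x t d r) (h' : Po C x o e) (hk : k ^ 4 = 8 * I) (hd : d x = 0)
    (ho : o x = 0) :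
    Unt C x (sMto t o) ∧ Frm C x (sNto k t d o) o d 2 2 := by
  have h16 : t x ^ 16 = 1 := by
    have := h.ed.self_of_nhds
    rw [hd] at this
    linear_combination this
  have ht0 : t x ≠ 0 := by
    intro h0
    rw [h0] at h16
    norm_num at h16
  constructor
  · refine ⟨(h'.ho.pow 2).sub (h.ht.pow 4), ?_⟩
    rw [sMto, ho]
    intro h0
    apply ht0
    have : t x ^ 4 = 0 := by linear_combination -h0
    exact pow_eq_zero_iff (by norm_num) |>.1 this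
  · refine frm_N (hg_tI h.ht) (tI_ne (a := t x ^ 8) (by rw [← pow_mul]; exact h16)) h.ht ht0
      (k_ne hk) ?_
    filter_upwards with y
    rw [sNto]
    ring

/-- **(T)**, `c = 0` -/
theorem form_T2 (h : Pc C x c d r) (h' : Po C x o e) (hk : k ^ 4 = 8 * I) (hc : c x = 0)
    (_ho : o x = 0) :
    Unt C x (sMco c o) ∧ Frm C x (sNco k c d o) o c 2 2 := by
  have hd0 : d x ≠ 0 := by
    intro h0
    have := h.ed.self_of_nhds
    rw [h0, hc] at this
    norm_num at this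
  constructor
  · refine ⟨((h'.ho.pow 2).mul (h.hc.pow 4)).sub (HG.const 1), ?_⟩
    rw [sMco, hc]
    norm_num
  · refine frm_N (hg_cI h.hc) (by rw [hc]; norm_num) h.hd hd0 (k_ne hk) ?_
    filter_upwards with y
    rw [sNco]

/-- `a ^ 4 - b ^ 4` with `a x = b x ≠ 0` -/
theorem frm_88 {a b w S T c' : X → ℂ} (ha : HG C x a) (hb : HG C x b) (hw : HG C x w)
    (hc : HG C x c') (hw0 : w x ≠ 0) (hc0 : c' x ≠ 0) (hab : a x = b x) (ha0 : a x ≠ 0)
    (h : ∀ᶠ y in 𝓝 x, b y ^ 4 - a y ^ 4 = S y ^ 8 - c' y * T y ^ 8)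
    (hs : ∀ᶠ y in 𝓝 x, s y = w y * (a y - b y)) : Frm C x s S T 8 8 := by
  have hq : HG C x (fun y => (a y + b y) * (a y ^ 2 + b y ^ 2)) :=
    (ha.add hb).mul ((ha.pow 2).add (hb.pow 2))
  have hq0 : (a x + b x) * (a x ^ 2 + b x ^ 2) ≠ 0 := by
    rw [← hab]
    have h4 : (4 : ℂ) ≠ 0 := by norm_num
    have : (a x + a x) * (a x ^ 2 + a x ^ 2) = 4 * a x ^ 3 := by ring
    rw [this]
    exact mul_ne_zero h4 (pow_ne_zero 3 ha0)
  refine ⟨fun y => -1 * w y * ((a y + b y) * (a y ^ 2 + b y ^ 2))⁻¹, c',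
    ((HG.const (-1)).mul hw).mul (hq.inv hq0), hc, mul_ne_zero (mul_ne_zero (by norm_num) hw0)
    (inv_ne_zero hq0), hc0, ?_⟩
  filter_upwards [h, hs, hq.continuousAt.eventually_ne hq0] with y h1 h2 h3
  rw [h2, ← h1]
  have h5 : ((a y + b y) * (a y ^ 2 + b y ^ 2))⁻¹ * ((a y + b y) * (a y ^ 2 + b y ^ 2)) = 1 :=
    inv_mul_cancel₀ h3
  linear_combination (-(w y * (a y - b y))) * h5

/-- **(S)** -/
theorem form_S (h : Pt C x t d r) (h' : Po C x o e) (hd : d x = 0) (_he : e x = 0)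
    (hot : o x ^ 2 = t x ^ 4) :
    Frm C x (sMto t o) e d 8 8 ∧ Unt C x (sNto k t d o) := by
  have h16 : t x ^ 16 = 1 := by
    have := h.ed.self_of_nhds
    rw [hd] at this
    linear_combination this
  have ht0 : t x ≠ 0 := by
    intro h0
    rw [h0] at h16
    norm_num at h16
  constructor
  · refine frm_88 (a := fun y => o y ^ 2) (b := fun y => t y ^ 4) (w := fun _ => 1)
      (c' := fun _ => 1) (h'.ho.pow 2) (h.ht.pow 4) (HG.const 1) (HG.const 1) one_ne_zero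
      one_ne_zero hot (by rw [hot]; exact pow_ne_zero 4 ht0) ?_ ?_
    · filter_upwards [h.ed, h'.ee] with y h1 h2
      rw [h1, h2]
      ring
    · filter_upwards with y
      rw [sMto, one_mul]
  · refine ⟨((h'.ho.pow 2).mul (hg_tI h.ht)).sub (((HG.const k).mul (h.ht.pow 2)).mul (h.hd.pow 2)),
      ?_⟩
    rw [sNto, hd, hot]
    have h1 := tI_ne (a := t x ^ 8) (by rw [← pow_mul]; exact h16)
    have h2 : t x ^ 4 * (t x ^ 8 - I) - k * t x ^ 2 * 0 ^ 2 = t x ^ 4 * (t x ^ 8 - I) := by ring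
    rw [h2]
    exact mul_ne_zero (pow_ne_zero 4 ht0) h1

/-- **(S')** -/
theorem form_S' (h : Pt C x t d r) (h' : Po C x o e) (hk : k ^ 4 = 8 * I) (hr : r x = 0)
    (he : e x = 0) (hN : sNto k t d o x = 0) :
    Unt C x (sMto t o) ∧ Frm C x (sNto k t d o) e r 8 8 := by
  have h8 : t x ^ 8 = -I := by
    have := h.er.self_of_nhds
    rw [hr] at this
    linear_combination -this
  have ho8 : o x ^ 8 = 1 := by
    have := h'.ee.self_of_nhds
    rw [he] at this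
    linear_combination this
  have hw0 : t x ^ 8 - I ≠ 0 := by
    rw [h8]
    have h1 : -I - I = -2 * I := by ring
    rw [h1]
    exact mul_ne_zero (by norm_num) I_ne_zero
  have ho0 : o x ≠ 0 := by
    intro h0
    rw [h0] at ho8
    norm_num at ho8
  constructor
  · refine ⟨(h'.ho.pow 2).sub (h.ht.pow 4), ?_⟩
    rw [sMto]
    intro h0
    have h1 : o x ^ 2 = t x ^ 4 := by linear_combination h0
    have h2 : o x ^ 8 = t x ^ 8 * t x ^ 8 := by
      rw [show o x ^ 8 = (o x ^ 2) ^ 4 by ring, h1]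
      ring
    rw [ho8, h8] at h2
    have h3 : (-I) * (-I) = -1 := by linear_combination I_mul_I
    rw [h3] at h2
    norm_num at h2
  · have hw := hg_tI h.ht
    refine frm_88 (a := fun y => o y ^ 2)
      (b := fun y => k * t y ^ 2 * d y ^ 2 * (t y ^ 8 - I)⁻¹) (w := fun y => t y ^ 8 - I)
      (c' := fun y => ((t y ^ 8 - I)⁻¹) ^ 4) (h'.ho.pow 2)
      ((((HG.const k).mul (h.ht.pow 2)).mul (h.hd.pow 2)).mul (hw.inv hw0)) hw
      ((hw.inv hw0).pow 4) hw0 (pow_ne_zero 4 (inv_ne_zero hw0)) ?_ (pow_ne_zero 2 ho0) ?_ ?_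
    · rw [sNto] at hN
      have h1 : k * t x ^ 2 * d x ^ 2 = o x ^ 2 * (t x ^ 8 - I) := by linear_combination -hN
      rw [h1, mul_assoc, mul_inv_cancel₀ hw0, mul_one]
    · filter_upwards [h.ed, h.er, h'.ee, hw.continuousAt.eventually_ne hw0] with y h1 h2 h3 h4
      have e1 : (k * t y ^ 2 * d y ^ 2 * (t y ^ 8 - I)⁻¹) ^ 4 =
          8 * I * t y ^ 8 * (1 - t y ^ 16) * ((t y ^ 8 - I)⁻¹) ^ 4 := by
        rw [← h1, ← hk]
        ring
      have e2 : r y ^ 8 = (t y ^ 8 + I) ^ 4 := by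
        rw [← h2]
        ring
      have e3 : (o y ^ 2) ^ 4 = 1 - e y ^ 8 := by
        rw [h3]
        ring
      rw [e1, e2, e3]
      have h5 : ((t y ^ 8 - I)⁻¹) ^ 4 * (t y ^ 8 - I) ^ 4 = 1 := by
        rw [← mul_pow, inv_mul_cancel₀ h4, one_pow]
      have hI3 : I ^ 3 = -I := by rw [pow_succ, I_sq]; ring
      have hI4 : I ^ 4 = 1 := by rw [show I ^ 4 = (I ^ 2) ^ 2 by ring, I_sq]; ring
      have h6 : 8 * I * t y ^ 8 * (1 - t y ^ 16) =
          (t y ^ 8 - I) ^ 4 - (t y ^ 8 + I) ^ 4 := by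
        linear_combination (8 * t y ^ 8) * hI3
      rw [h6]
      linear_combination h5
    · filter_upwards [hw.continuousAt.eventually_ne hw0] with y h4
      rw [sNto]
      field_simp

end

end Crest.Agent.R272.NF_140
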