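import Crest.Agent.R272.Adp4_409
import Crest.Agent.R272.NF_140
import Crest.Agent.R272.BlA2_266

/-!
# R272 (S0414), helper409: conversions `Frm`, `Unt` (140) → `HasForm`, and `CForm` → `IsPQ` (266)
-/

set_option autoImplicit false
set_option linter.unusedSectionVars false

open Set Filter Topology Metric
open scoped ContDiff Manifold

namespace Crest.Agent.R272.Adp_409

open Crest.Agent.R275.Geo Crest.Agent.R275.Core144 Crest.Agent.R275.GC293
open Crest.Agent.R273.Map_835 Crest.Agent.R273.Fam_835 Crest.Agent.R273.PB_835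
open Crest.Agent.R273.Defs_333 Crest.Agent.R272.Refl_246 Crest.Agent.R272.DCov_426
open Crest.Agent.R272.Quot_783 Crest.Agent.R272.Root_83 Crest.Agent.R272.Blup1_102
open Crest.Agent.R272.BlA_266 Crest.Agent.R272.NF_140

noncomputable section

variable {n : ℕ} {M : Type} [TopologicalSpace M] {C : Fam n M} {x : M} {s S T : M → ℂ}

theorem HasForm.of_tac (h : Frm C x s S T 2 4) : HasForm C .tac s T S x := by
  obtain ⟨U, c, hU, hc, hU0, hc0, h1⟩ := h
  refine ⟨U, c, hU, hc, hU0, hc0, ?_⟩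
  filter_upwards [h1] with y hy
  rw [hy, Shape.F, mul_comm (c y)]

theorem HasForm.of_star {k : ℕ} (h : Frm C x s S T (2 * k) (2 * k)) :
    HasForm C (.star k) s T S x := by
  obtain ⟨U, c, hU, hc, hU0, hc0, h1⟩ := h
  refine ⟨U, c, hU, hc, hU0, hc0, ?_⟩
  filter_upwards [h1] with y hy
  rw [hy, Shape.F, mul_comm (c y)]

theorem HasForm.of_star1 (h : Frm C x s S T 2 2) : HasForm C (.star 1) s T S x :=
  HasForm.of_star (k := 1) h

theorem HasForm.of_star4 (h : Frm C x s S T 8 8) : HasForm C (.star 4) s T S x :=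
  HasForm.of_star (k := 4) h

theorem HasForm.of_unt (h : Unt C x s) : HasForm C .unit s T S x := by
  refine ⟨s, fun _ => 1, h.1, HG.const 1, h.2, one_ne_zero, ?_⟩
  exact Eventually.of_forall fun y => by rw [Shape.F, mul_one]

theorem CForm.isPQ_star {φ : Cn 2 → ℂ} {k : ℕ} (h : CForm (.star k) φ) :
    IsPQ (2 * k) (2 * k) φ := by
  obtain ⟨U, c, hU, hc, hU0, hc0, h1⟩ := h
  exact ⟨U, c, hU.differentiableAt, hc.differentiableAt, hU0, hc0, h1⟩

theorem CForm.isPQ_tac {φ : Cn 2 → ℂ} (h : CForm .tac φ) : IsPQ 2 4 φ := by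
  obtain ⟨U, c, hU, hc, hU0, hc0, h1⟩ := h
  exact ⟨U, c, hU.differentiableAt, hc.differentiableAt, hU0, hc0, h1⟩

theorem CForm.ne {φ : Cn 2 → ℂ} (h : CForm .unit φ) : φ 0 ≠ 0 := by
  obtain ⟨U, c, hU, hc, hU0, hc0, h1⟩ := h
  rw [h1.self_of_nhds, Shape.F, mul_one]
  exact hU0

end

end Crest.Agent.R272.Adp_409
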