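import Crest.Agent.R272.Adp4_409

/-!
# R272 (S0414), helper409: zeros on a compact curve are finite in number

* `finite_of_loc`  : `Z` is finite if every point has a neighbourhood meeting `Z` at most in the point;
* `Iso1`, `HG.isolated` : a holomorphic germ on a curve which is not locally `0` has isolated zeros;
* `Cr1.isolated`;
* `zeros_finite`   : zeros of a section on a compact curve.
-/

set_option autoImplicit false
set_option linter.unusedSectionVars false

open Set Filter Topology Metric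
open scoped ContDiff Manifold

namespace Crest.Agent.R272.Adp_409

open Crest.Agent.R275.Geo Crest.Agent.R275.Core144
open Crest.Agent.R273.Map_835 Crest.Agent.R273.Fam_835 Crest.Agent.R273.PB_835
open Crest.Agent.R273.Defs_333 Crest.Agent.R272.Refl_246 Crest.Agent.R272.DCov_426
open Crest.Agent.R272.Quot_783 Crest.Agent.R272.Root_83

noncomputable section

variable {M N : Type} [TopologicalSpace M] [TopologicalSpace N]

/-- a set which is locally at most one point is finite -/
theorem finite_of_loc [CompactSpace M] {Z : Set M} (h : ∀ x, ∃ O ∈ 𝓝 x, Z ∩ O ⊆ {x}) :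
    Z.Finite := by
  choose O hO hZ using h
  obtain ⟨t, ht⟩ := finite_cover_nhds hO
  refine (t.finite_toSet).subset fun z hz => ?_
  have h1 : z ∈ ⋃ x ∈ t, O x := by rw [ht]; exact mem_univ z
  obtain ⟨x, hx, hzx⟩ := mem_iUnion₂.1 h1
  have h2 : z = x := hZ x ⟨hz, hzx⟩
  rw [h2]
  exact hx

/-- the zeros of a holomorphic germ on a curve are isolated, or the germ is `0` -/
theorem HG.isolated {A : Atl 1 M} {x : M} {f : M → ℂ} (hf : HG (fam A) x f)
    (hne : ∃ᶠ y in 𝓝 x, f y ≠ 0) : ∀ᶠ y in 𝓝 x, f y = 0 → y = x := by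
  obtain ⟨i, hi⟩ := A.cover x
  have ha := HG.analyticAt (C := fam A) hf (e := A.e i) (cpt_e (C := fam A) i) hi
  set z0 := A.e i x with hz0
  set k : ℂ → Cn 1 := fun u => z0 + u • EuclideanSpace.single 0 1 with hk
  have hk0 : k 0 = z0 := by simp [hk]
  have hka : AnalyticAt ℂ k 0 := by
    rw [hk]
    exact analyticAt_const.add (analyticAt_id.smul analyticAt_const)
  have hG : AnalyticAt ℂ (fun u => f ((A.e i).symm (k u))) 0 :=
    AnalyticAt.fun_comp (g := fun z => f ((A.e i).symm z)) (f := k) (by rw [hk0]; exact ha) hka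
  -- the inverse parametrisation
  set co : M → ℂ := fun y => (A.e i y - z0) 0 with hco
  have hcoc : ContinuousAt co x := by
    have h1 : ContinuousAt (fun y => A.e i y - z0) x := ((A.e i).continuousAt hi).sub continuousAt_const
    have h2 : Continuous fun w : Cn 1 => w 0 := (EuclideanSpace.proj (0 : Fin 1) : Cn 1 →L[ℂ] ℂ).continuous
    exact h2.continuousAt.comp h1
  have hco0 : co x = 0 := by
    rw [hco]
    show (A.e i x - z0) 0 = 0
    rw [← hz0, sub_self]
    rfl
  have hkco : ∀ y, k (co y) = A.e i y := by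
    intro y
    rw [hk, hco]
    ext j
    rw [Subsingleton.elim j 0]
    simp
  have hsrc : ∀ᶠ y in 𝓝 x, y ∈ (A.e i).source := (A.e i).open_source.mem_nhds hi
  have hval : ∀ᶠ y in 𝓝 x, f ((A.e i).symm (k (co y))) = f y := by
    filter_upwards [hsrc] with y hy
    rw [hkco, (A.e i).left_inv hy]
  have ht : Tendsto co (𝓝 x) (𝓝 0) := by
    have := hcoc.tendsto
    rwa [hco0] at this
  rcases hG.eventually_eq_zero_or_eventually_ne_zero with h0 | h0
  · exfalso
    refine hne ?_
    filter_upwards [ht.eventually h0, hval] with y h1 h2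
    rw [← h2, not_not]
    exact h1
  · have h1 : ∀ᶠ u : ℂ in 𝓝 0, u ≠ 0 → f ((A.e i).symm (k u)) ≠ 0 := by
      rw [eventually_nhdsWithin_iff] at h0
      exact h0
    filter_upwards [ht.eventually h1, hval, hsrc] with y h2 h3 h4 h5
    by_contra hyx
    refine h2 ?_ (by rw [h3]; exact h5)
    intro h6
    apply hyx
    apply (A.e i).injOn h4 hi
    rw [← hkco y, h6, hk0]

/-- a local coordinate is injective near the point; in particular its zero is isolated -/
theorem Cr1.freq {A : Atl 1 M} {x : M} {t : M → ℂ} (h : Cr1 A x t) (c : ℂ) :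
    ∃ᶠ y in 𝓝 x, t y ≠ c := by
  intro h0
  obtain ⟨i, hi, v, hv⟩ := h.ne
  apply hv
  have h1 : (fun z => t ((A.e i).symm z)) =ᶠ[𝓝 (A.e i x)] fun _ => c := by
    have h2 : Tendsto (A.e i).symm (𝓝 (A.e i x)) (𝓝 x) := by
      have := ((A.e i).continuousAt_symm ((A.e i).map_source hi)).tendsto
      rwa [(A.e i).left_inv hi] at this
    filter_upwards [h2.eventually h0] with z hz
    exact not_not.1 hz
  rw [h1.fderiv_eq]
  simp

theorem Cr1.isolated {A : Atl 1 M} {x : M} {t : M → ℂ} (h : Cr1 A x t) (c : ℂ) :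
    ∀ᶠ y in 𝓝 x, t y = c → y = x := by
  have h1 := HG.isolated (h.hol.sub (HG.const c)) ((h.freq c).mono fun y hy => sub_ne_zero.2 hy)
  filter_upwards [h1] with y hy h2
  exact hy (sub_eq_zero.2 h2)

/-- a section read in a frame is a holomorphic germ -/
theorem hg_sec {n : ℕ} {A : Atl n M} {L : LB A} {s : A.ι → M → ℂ} (hs : IsHS L univ s) {i : A.ι}
    {x : M} (hi : x ∈ (A.e i).source) : HG (fam A) x (s i) := by
  refine ⟨univ ∩ (A.e i).source, isOpen_univ.inter (A.e i).open_source, ⟨mem_univ _, hi⟩,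
    fun k => ?_⟩
  exact (hs.hol i).chg isOpen_univ k

/-- **the zeros of a section on a compact curve** -/
theorem zeros_finite [CompactSpace M] {A : Atl 1 M} {L : LB A} {s : A.ι → M → ℂ}
    (hs : IsHS L univ s)
    (h : ∀ i, ∀ x ∈ (A.e i).source, s i x = 0 → ∃ᶠ y in 𝓝 x, s i y ≠ 0) :
    {x | ∃ i, x ∈ (A.e i).source ∧ s i x = 0}.Finite := by
  refine finite_of_loc fun x => ?_
  obtain ⟨i, hi⟩ := A.cover x
  have htr : ∀ y ∈ (A.e i).source, (∃ j, y ∈ (A.e j).source ∧ s j y = 0) → s i y = 0 := by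
    rintro y hy ⟨j, hj, h0⟩
    rw [hs.tr i j y ⟨hy, hj⟩ (mem_univ _), h0, mul_zero]
  by_cases h0 : s i x = 0
  · have h1 := HG.isolated (hg_sec hs hi) (h i x hi h0)
    have h2 : ∀ᶠ y in 𝓝 x, y ∈ (A.e i).source ∧ (s i y = 0 → y = x) :=
      ((A.e i).open_source.eventually_mem hi).and h1
    exact ⟨_, h2, fun y hy => hy.2.2 (htr y hy.2.1 hy.1)⟩
  · have h1 : ∀ᶠ y in 𝓝 x, s i y ≠ 0 := (hg_sec hs hi).continuousAt.eventually_ne h0
    have h2 : ∀ᶠ y in 𝓝 x, y ∈ (A.e i).source ∧ s i y ≠ 0 :=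
      ((A.e i).open_source.eventually_mem hi).and h1
    exact ⟨_, h2, fun y hy => absurd (htr y hy.2.1 hy.1) hy.2.2⟩

end

end Crest.Agent.R272.Adp_409
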