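import Crest.Agent.R272.UB4_20
import Crest.Agent.R272.GLoc1_620

/-!
# R272, leaf UB-DISC (helper20), part 5: square roots on the square, global units

* `exists_root_sqr` : a continuous zero free function on the closed unit square has a continuous root;
* `exists_unit` : `f` is near every point of `K` a unit times `lin v` ⟹ `f = lin v * U` on `K`, `U`
  continuous and zero free on `K`.
-/

set_option autoImplicit false

open Set Filter Topology

namespace Crest.Agent.R272.UB_20

open Crest.Agent.R272.EBase_641 Crest.Agent.R272.GLoc_620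

noncomputable section

/-- retraction of the plane to the square -/
def clamp (p : ℝ × ℝ) : ℝ × ℝ := (max 0 (min 1 p.1), max 0 (min 1 p.2))

theorem clamp_cont : Continuous clamp := by
  unfold clamp
  fun_prop

theorem clamp_mem (p : ℝ × ℝ) : clamp p ∈ sqr :=
  ⟨⟨le_max_left _ _, max_le zero_le_one (min_le_left _ _)⟩,
    le_max_left _ _, max_le zero_le_one (min_le_left _ _)⟩

theorem clamp_eq {p : ℝ × ℝ} (hp : p ∈ sqr) : clamp p = p := by
  obtain ⟨⟨h1, h2⟩, h3, h4⟩ := hp
  unfold clamp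
  rw [min_eq_right h2, min_eq_right h4, max_eq_right h1, max_eq_right h3]

theorem simply_univ : IsSimplyConnected (univ : Set (ℝ × ℝ)) := by
  have h : StarConvex ℝ (0 : ℝ × ℝ) (univ : Set (ℝ × ℝ)) := starConvex_univ _
  have : ContractibleSpace (univ : Set (ℝ × ℝ)) := h.contractibleSpace univ_nonempty
  exact SimplyConnectedSpace.ofContractible _

/-- square roots on the square -/
theorem exists_root_sqr {g : ℝ × ℝ → ℂ} (hg : ContinuousOn g sqr) (h0 : ∀ p ∈ sqr, g p ≠ 0) :
    ∃ r : ℝ × ℝ → ℂ, ContinuousOn r sqr ∧ (∀ p ∈ sqr, r p ^ 2 = g p) ∧ ∀ p ∈ sqr, r p ≠ 0 := by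
  have hc : Continuous fun p => g (clamp p) := hg.comp_continuous clamp_cont clamp_mem
  obtain ⟨f, hf, hf2⟩ := Complex.exists_continuousOn_pow_eq simply_univ isOpen_univ
    (g := fun p => g (clamp p)) hc.continuousOn (by
      rintro ⟨p, -, hp⟩
      exact h0 _ (clamp_mem p) hp) (n := 2) (by norm_num)
  have h2 : ∀ p ∈ sqr, f p ^ 2 = g p := by
    intro p hp
    rw [hf2 p, clamp_eq hp]
  refine ⟨f, hf.mono (subset_univ _), h2, fun p hp h => h0 p hp ?_⟩
  rw [← h2 p hp, h]
  norm_num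

/-- near every point there are points where `lin v ≠ 0` -/
theorem lin_ne_near {n : ℕ} {v : V1 n} (hv : v.1 ≠ 0) (q : E n) :
    ∃ᶠ w in 𝓝 q, lin v w ≠ 0 := by
  by_contra hcon
  rw [not_frequently] at hcon
  simp only [not_not] at hcon
  -- along `q + ε v.1`
  have h1 : Tendsto (fun ε : ℝ => q + (ε : ℂ) • v.1) (𝓝 0) (𝓝 q) := by
    have : Continuous fun ε : ℝ => q + (ε : ℂ) • v.1 := by fun_prop
    have h := this.tendsto 0
    simpa using h
  have h2 := h1.eventually hcon
  have h3 : ∃ ε : ℝ, 0 < ε ∧ lin v (q + (ε : ℂ) • v.1) = 0 := by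
    have h4 : ∃ᶠ ε : ℝ in 𝓝 0, 0 < ε := by
      have h41 : ∀ᶠ ε : ℝ in 𝓝[>] 0, 0 < ε := by
        filter_upwards [self_mem_nhdsWithin] with ε hε
        exact hε
      exact h41.frequently.filter_mono nhdsWithin_le_nhds
    obtain ⟨ε, hε1, hε2⟩ := (h4.and_eventually h2).exists
    exact ⟨ε, hε1, hε2⟩
  obtain ⟨ε, hε, h5⟩ := h3
  have h6 : lin v q = 0 := hcon.self_of_nhds
  have h7 : lin v (q + (ε : ℂ) • v.1) = lin v q + ε * inner ℂ v.1 v.1 := by
    simp only [lin, inner_add_right, inner_smul_right]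
    ring
  rw [h7, h6, zero_add] at h5
  rcases mul_eq_zero.1 h5 with h8 | h8
  · exact hε.ne' (by exact_mod_cast h8)
  · exact hv (inner_self_eq_zero.1 h8)

/-- gluing local units -/
theorem exists_unit {n : ℕ} {v : V1 n} (hv : v.1 ≠ 0) {f : E n → ℂ} {K : Set (E n)}
    (h : ∀ q ∈ K, IsUM f (lin v) q) :
    ∃ U : E n → ℂ, ContinuousOn U K ∧ (∀ q ∈ K, U q ≠ 0) ∧ ∀ q ∈ K, f q = lin v q * U q := by
  classical
  choose! u hu he using h
  refine ⟨fun q => u q q, ?_, fun q hq => (hu q hq).ne, fun q hq => (he q hq).self_of_nhds⟩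
  intro q hq
  -- near `q` (in `K`), `u q' q' = u q q'`
  have h1 : ContinuousAt (u q) q := (hu q hq).diffAt.continuousAt
  obtain ⟨V, hV, hd, hne⟩ := hu q hq
  have h2 : ∀ᶠ q' in 𝓝 q, ContinuousAt (u q) q' := by
    obtain ⟨W, hWV, hWo, hqW⟩ := mem_nhds_iff.1 hV
    filter_upwards [hWo.mem_nhds hqW] with q' hq'
    exact (hd.differentiableAt (mem_of_superset (hWo.mem_nhds hq') hWV)).continuousAt
  have h3 : ∀ᶠ q' in 𝓝[K] q, u q' q' = u q q' := by
    have h4 : ∀ᶠ q' in 𝓝 q, ∀ᶠ w in 𝓝 q', f w = lin v w * u q w :=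
      eventually_eventually_nhds.2 (he q hq)
    filter_upwards [nhdsWithin_le_nhds h4, nhdsWithin_le_nhds h2, self_mem_nhdsWithin]
      with q' h5 h6 hq'K
    have h7 := he q' hq'K
    have h8 : ContinuousAt (u q') q' := (hu q' hq'K).diffAt.continuousAt
    by_contra hcon
    have h9 : ∀ᶠ w in 𝓝 q', u q' w - u q w ≠ 0 :=
      (h8.sub h6).eventually_ne (sub_ne_zero.2 hcon)
    obtain ⟨w, hw1, hw2, hw3, hw4⟩ :=
      ((lin_ne_near hv q').and_eventually (h5.and (h7.and h9))).exists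
    apply hw4
    rw [hw2] at hw3
    have := mul_left_cancel₀ hw1 hw3
    rw [this, sub_self]
  have h10 : ContinuousWithinAt (u q) K q := h1.continuousWithinAt
  exact h10.congr_of_eventuallyEq h3 rfl

end

end Crest.Agent.R272.UB_20
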