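import Crest.Agent.R272.UB2_20
import Crest.Agent.R272.AJDefs_956

/-!
# R272, leaf UB-DISC (helper20), part 7: holonomy of arcs between Weierstrass points

`𝒞 : Cur C` (956), `J : 𝒞.IsJac q Λ π`. For a path `γ` of `C` there is a unique continuous
`h : I → ℂ²` with `h 0 = 0` and increments `P (γ t) (γ t')`; if the end points of `γ` are fixed by `iv`
then `2 h(1) ∈ Λ`, and it dies in `π₁(Y)` as soon as the two arcs `q (γ t, c')`, `q (iv γ t, c')` are
homotopic rel end points in `Y`.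
-/

set_option autoImplicit false

open Set Filter Topology Crest.Agent.R272.CovOrd_463 Crest.Agent.R272.TLoop_463
open Crest.Agent.R272.AJ_956

namespace Crest.Agent.R272.UB_20

noncomputable section

local notation "I" => unitInterval

variable {C : Type} [TopologicalSpace C] (𝒞 : Cur C) {A : Type} [TopologicalSpace A]
  {q : C × C → A} {Λ : AddSubgroup E2} {π : E2 → A}

/-- `h` is the integral of `ω` along `γ` -/
structure IsInt (γ : C(I, C)) (h : C(I, E2)) : Prop where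
  zero : h 0 = 0
  inc : ∀ t, ∀ᶠ t' in 𝓝 t, h t' = h t + 𝒞.P (γ t) (γ t')

variable {𝒞}

theorem P_self (c : C) : 𝒞.P c c = 0 := by
  show 𝒞.G c (𝒞.k c c) = 0
  rw [𝒞.k_zero, 𝒞.G_zero]

theorem P_cont (c : C) : ContinuousAt (𝒞.P c) c := by
  have h1 : ContinuousAt (𝒞.k c) c := (𝒞.k c).continuousAt (𝒞.k_mem c)
  have h2 : ContinuousAt (𝒞.G c) (𝒞.k c c) := by
    refine (𝒞.G_an c _ ?_).continuousAt
    exact (𝒞.k c).map_source (𝒞.k_mem c)
  exact ContinuousAt.comp (f := 𝒞.k c) h2 h1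

/-- a locally constant function on the interval is constant -/
theorem const_of_loc {E : Type*} (f : I → E) (h : ∀ t, ∀ᶠ t' in 𝓝 t, f t' = f t) (t : I) :
    f t = f 0 := by
  have h1 : IsLocallyConstant f := by
    rw [IsLocallyConstant.iff_eventually_eq]
    exact h
  exact h1.apply_eq_of_isPreconnected isPreconnected_univ (mem_univ _) (mem_univ _)

theorem IsInt.unique {γ : C(I, C)} {h h' : C(I, E2)} (H : IsInt 𝒞 γ h) (H' : IsInt 𝒞 γ h') :
    h = h' := by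
  ext t : 1
  have := const_of_loc (fun t => h t - h' t) (fun t => by
    filter_upwards [H.inc t, H'.inc t] with t' h1 h2
    rw [h1, h2]
    abel) t
  simp only [H.zero, H'.zero, sub_self] at this
  exact sub_eq_zero.1 this

/-- lifting of `q (γ t, c')` -/
theorem exists_lift (J : 𝒞.IsJac q Λ π) (hq : Continuous q) (γ : C(I, C)) (c' : C) (z₀ : E2)
    (hz : π z₀ = q (γ 0, c')) :
    ∃ L : C(I, E2), L 0 = z₀ ∧ (∀ t, π (L t) = q (γ t, c')) ∧
      ∀ t, ∀ᶠ t' in 𝓝 t, L t' = L t + 𝒞.P (γ t) (γ t') := by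
  let a : C(I, A) := ⟨fun t => q (γ t, c'), by fun_prop⟩
  have h0 : a 0 = π z₀ := hz.symm
  let L := J.cov.liftPath a z₀ h0
  have hL1 : ∀ t, π (L t) = q (γ t, c') := fun t =>
    congrFun (J.cov.liftPath_lifts a z₀ h0) t
  refine ⟨L, J.cov.liftPath_zero a z₀ h0, hL1, fun t => ?_⟩
  -- local injectivity
  obtain ⟨U, hU, hinj⟩ : ∃ U ∈ 𝓝 (L t), InjOn π U := by
    obtain ⟨e, he, hee⟩ := J.cov.isLocalHomeomorph (L t)
    exact ⟨e.source, e.open_source.mem_nhds he, by rw [hee]; exact e.injOn⟩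
  have h1 : ∀ᶠ t' in 𝓝 t, L t' ∈ U := L.continuous.continuousAt hU
  have h2 : ∀ᶠ t' in 𝓝 t, L t + 𝒞.P (γ t) (γ t') ∈ U := by
    have hc : ContinuousAt (fun t' => L t + 𝒞.P (γ t) (γ t')) t := by
      refine continuousAt_const.add ?_
      exact ContinuousAt.comp (f := γ) (P_cont (γ t)) γ.continuous.continuousAt
    have hv : L t + 𝒞.P (γ t) (γ t) = L t := by rw [P_self, add_zero]
    have hU' : U ∈ 𝓝 (L t + 𝒞.P (γ t) (γ t)) := by rwa [hv]
    exact hc hU'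
  have h3 : ∀ᶠ t' in 𝓝 t, q (γ t', c') = π (L t + 𝒞.P (γ t) (γ t')) := by
    have h4 := J.loc (γ t, c') (L t) (hL1 t)
    have h5 : Tendsto (fun t' : I => (γ t', c')) (𝓝 t) (𝓝 (γ t, c')) := by
      have : Continuous fun t' : I => (γ t', c') := by fun_prop
      exact this.continuousAt
    filter_upwards [h5.eventually h4] with t' h6
    rw [h6]
    show π (L t + (𝒞.P (γ t) (γ t') + 𝒞.P c' c')) = _
    rw [P_self, add_zero]
  filter_upwards [h1, h2, h3] with t' g1 g2 g3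
  refine hinj g1 g2 ?_
  rw [hL1 t', g3]

theorem exists_int (J : 𝒞.IsJac q Λ π) (hq : Continuous q) (γ : C(I, C)) : ∃ h, IsInt 𝒞 γ h := by
  obtain ⟨z₀, hz⟩ := J.surj (q (γ 0, γ 0))
  obtain ⟨L, h0, -, h2⟩ := exists_lift J hq γ (γ 0) z₀ hz
  refine ⟨⟨fun t => L t - z₀, by fun_prop⟩, ?_, ?_⟩
  · show L 0 - z₀ = 0
    rw [h0, sub_self]
  · intro t
    filter_upwards [h2 t] with t' h3
    show L t' - z₀ = L t - z₀ + _
    rw [h3]
    abel

/-- the lift is `z₀ + h` -/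
theorem lift_eq (J : 𝒞.IsJac q Λ π) (hq : Continuous q) {γ : C(I, C)} {h : C(I, E2)}
    (H : IsInt 𝒞 γ h) (c' : C) (z₀ : E2) (hz : π z₀ = q (γ 0, c')) (t : I) :
    π (z₀ + h t) = q (γ t, c') := by
  obtain ⟨L, h0, h1, h2⟩ := exists_lift J hq γ c' z₀ hz
  have := const_of_loc (fun t => L t - h t) (fun t => by
    filter_upwards [H.inc t, h2 t] with t' g1 g2
    rw [g1, g2]
    abel) t
  simp only [H.zero, h0, sub_zero] at this
  rw [← this, sub_add_cancel, h1]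

/-- the integral along `iv ∘ γ` -/
theorem IsInt.neg {γ : C(I, C)} {h : C(I, E2)} (H : IsInt 𝒞 γ h) :
    IsInt 𝒞 ⟨fun t => 𝒞.iv (γ t), 𝒞.iv_cont.comp γ.continuous⟩
      ⟨fun t => - h t, by fun_prop⟩ := by
  refine ⟨?_, fun t => ?_⟩
  · show - h 0 = 0
    rw [H.zero, neg_zero]
  · have h1 : Tendsto γ (𝓝 t) (𝓝 (γ t)) := γ.continuous.continuousAt
    filter_upwards [H.inc t, h1.eventually (𝒞.anti (γ t))] with t' g1 g2
    show - h t' = - h t + 𝒞.P (𝒞.iv (γ t)) (𝒞.iv (γ t'))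
    have g3 : 𝒞.P (𝒞.iv (γ t)) (𝒞.iv (γ t')) = - 𝒞.P (γ t) (γ t') := g2
    rw [g3, g1]
    abel

/-- the integral along `α ∘ γ` -/
theorem IsInt.map {γ : C(I, C)} {h : C(I, E2)} (H : IsInt 𝒞 γ h) (α : C(C, C))
    (D : E2 →L[ℂ] E2) (hD : ∀ c, ∀ᶠ y in 𝓝 c, 𝒞.P (α c) (α y) = D (𝒞.P c y)) :
    IsInt 𝒞 (α.comp γ) ⟨fun t => D (h t), by fun_prop⟩ := by
  refine ⟨?_, fun t => ?_⟩
  · show D (h 0) = 0
    rw [H.zero, map_zero]
  · have h1 : Tendsto γ (𝓝 t) (𝓝 (γ t)) := γ.continuous.continuousAt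
    filter_upwards [H.inc t, h1.eventually (hD (γ t))] with t' g1 g2
    show D (h t') = D (h t) + 𝒞.P (α (γ t)) (α (γ t'))
    rw [g2, g1, map_add]

/-- the period of an arc between two Weierstrass points -/
theorem two_mem (J : 𝒞.IsJac q Λ π) (hq : Continuous q) {γ : C(I, C)} {h : C(I, E2)}
    (H : IsInt 𝒞 γ h) (hs : 𝒞.iv (γ 0) = γ 0) (he : 𝒞.iv (γ 1) = γ 1) :
    h 1 + h 1 ∈ Λ := by
  obtain ⟨z₀, hz⟩ := J.surj (q (γ 0, γ 0))
  have h1 := lift_eq J hq H (γ 0) z₀ hz 1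
  have h2 := lift_eq J hq H.neg (γ 0) z₀ (by
    show π z₀ = q (𝒞.iv (γ 0), γ 0)
    rw [hs, hz]) 1
  have h3 : π (z₀ + h 1) = π (z₀ - h 1) := by
    rw [h1]
    have h4 : π (z₀ + - h 1) = q (𝒞.iv (γ 1), γ 0) := h2
    rw [sub_eq_add_neg, h4, he]
  have h5 := (J.eq_iff _ _).1 h3
  have e : z₀ + h 1 - (z₀ - h 1) = h 1 + h 1 := by abel
  rwa [e] at h5

/-- **the period of an arc dies** as soon as the two arcs over it are homotopic rel end points -/
theorem per_dies (J : 𝒞.IsJac q Λ π) (hq : Continuous q) {Y : Type} [TopologicalSpace Y]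
    (ι : A → Y) (f : C(E2, Y)) (hf : ∀ v, f v = ι (π v)) (hper : Per f Λ) (v₀ : E2)
    {γ : C(I, C)} {h : C(I, E2)} (H : IsInt 𝒞 γ h) (hs : 𝒞.iv (γ 0) = γ 0)
    (he : 𝒞.iv (γ 1) = γ 1) (c' : C) {a b a' b' : Y} (p : Path a b) (p' : Path a' b')
    (hp : ∀ t, p t = ι (q (γ t, c'))) (hp' : ∀ t, p' t = ι (q (𝒞.iv (γ t), c')))
    (hh : HR p p') :
    perHom hper v₀ (Multiplicative.ofAdd (⟨h 1 + h 1, two_mem J hq H hs he⟩ : Λ)) = 1 := by
  obtain ⟨z₀, hz⟩ := J.surj (q (γ 0, c'))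
  have h1 := lift_eq J hq H c' z₀ hz
  have h2 := lift_eq J hq H.neg c' z₀ (by
    show π z₀ = q (𝒞.iv (γ 0), c')
    rw [hs, hz])
  have h2' : ∀ t, π (z₀ - h t) = q (𝒞.iv (γ t), c') := by
    intro t
    rw [sub_eq_add_neg]
    exact h2 t
  let g : Path z₀ (z₀ + h 1) := ⟨⟨fun t => z₀ + h t, by fun_prop⟩, by
    show z₀ + h 0 = z₀
    rw [H.zero, add_zero], rfl⟩
  let g' : Path z₀ (z₀ - h 1) := ⟨⟨fun t => z₀ - h t, by fun_prop⟩, by
    show z₀ - h 0 = z₀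
    rw [H.zero, sub_zero], rfl⟩
  refine perHom_eq_one hper v₀ _ g g' (by
    show z₀ + h 1 = z₀ - h 1 + (h 1 + h 1)
    abel) ?_
  refine HR.trans (HR_of_eq (fun t => ?_)) (hh.trans (HR_of_eq (fun t => ?_)))
  · rw [hp]
    show f (z₀ + h t) = _
    rw [hf, h1]
  · rw [hp']
    show _ = f (z₀ - h t)
    rw [hf, h2']

end

end Crest.Agent.R272.UB_20
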