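import Crest.Agent.R272.Cur6_297
import Crest.Agent.R272.UB5_20
import Crest.Agent.R272.UB7_20

/-!
Row 272 (helper297), UB6, the half in the curve: the arcs of `y² = t⁶ - t` over the segments
`[ζ^j, ζ^(j+1)]`.
-/

set_option autoImplicit false
set_option linter.unusedSectionVars false

open Set Filter Topology Metric Complex OnePoint

noncomputable section

namespace Crest.Agent.R272.Cur_297

open Crest.Agent.R272.AJ_956 Crest.Agent.R272.UB_20

local notation "I" => unitInterval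

variable {P : Par}

/-! ### uniqueness of arcs over a segment -/

theorem arc_unique {g g' : C(I, Cv P)} (htt : ∀ t, tt (g' t) = tt (g t))
    (hne : ∀ t : I, (0 : ℝ) < t → (t : ℝ) < 1 → iv (g t) ≠ g t) :
    (∀ t, g' t = g t) ∨ (∀ t, g' t = iv (g t)) := by
  let φ : ℝ → I := projIcc 0 1 zero_le_one
  have hφ : Continuous φ := continuous_projIcc
  have hφ' : ∀ t : ℝ, t ∈ Ioo (0 : ℝ) 1 → ((φ t : I) : ℝ) = t := fun t ht =>
    congrArg Subtype.val (projIcc_of_mem zero_le_one ⟨ht.1.le, ht.2.le⟩)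
  have hφI : ∀ t : I, φ (t : ℝ) = t := fun t => projIcc_val zero_le_one t
  set A : Set ℝ := {t | g' (φ t) = g (φ t)} with hA
  set B : Set ℝ := {t | g' (φ t) = iv (g (φ t))} with hB
  have cA : IsClosed A := isClosed_eq (g'.continuous.comp hφ) (g.continuous.comp hφ)
  have cB : IsClosed B := isClosed_eq (g'.continuous.comp hφ)
    (continuous_iv.comp (g.continuous.comp hφ))
  have hcov : Ioo (0 : ℝ) 1 ⊆ A ∪ B := fun t _ => eq_or_eq_iv (htt (φ t)).symm
  have hcl : closure (Ioo (0 : ℝ) 1) = Icc 0 1 := closure_Ioo (by norm_num)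
  have key := isPreconnected_closed_iff.1 (isPreconnected_Ioo (a := (0 : ℝ)) (b := 1)) A B cA cB hcov
  by_cases h1 : (Ioo (0 : ℝ) 1 ∩ A).Nonempty
  · by_cases h2 : (Ioo (0 : ℝ) 1 ∩ B).Nonempty
    · obtain ⟨t, ht, htA, htB⟩ := key h1 h2
      exfalso
      refine hne (φ t) ?_ ?_ ?_
      · rw [hφ' t ht]; exact ht.1
      · rw [hφ' t ht]; exact ht.2
      · rw [← show g' (φ t) = iv (g (φ t)) from htB]
        exact htA
    · left
      have h3 : Ioo (0 : ℝ) 1 ⊆ A := fun t ht => (hcov ht).resolve_right fun hb => h2 ⟨t, ht, hb⟩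
      have h4 : Icc (0 : ℝ) 1 ⊆ A := by rw [← hcl]; exact closure_minimal h3 cA
      intro t
      have := h4 t.2
      rwa [hA, mem_ofPred_eq, hφI] at this
  · right
    have h3 : Ioo (0 : ℝ) 1 ⊆ B := fun t ht => (hcov ht).resolve_left fun hb => h1 ⟨t, ht, hb⟩
    have h4 : Icc (0 : ℝ) 1 ⊆ B := by rw [← hcl]; exact closure_minimal h3 cB
    intro t
    have := h4 t.2
    rwa [hB, mem_ofPred_eq, hφI] at this

/-! ### the segments -/

/-- the segment from `ζ^j` to `ζ^(j+1)` -/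
def seg (j : ℕ) (t : ℝ) : ℂ := ze ^ j * (1 + t * (ze - 1))

theorem seg_zero (j : ℕ) : seg j 0 = ze ^ j := by simp [seg]
theorem seg_one (j : ℕ) : seg j 1 = ze ^ (j + 1) := by
  simp only [seg, ofReal_one, one_mul]; ring
theorem seg_succ (j : ℕ) (t : ℝ) : seg (j + 1) t = ze * seg j t := by
  simp only [seg]; ring
theorem seg_eq (j : ℕ) (t : ℝ) : seg j t = ze ^ j + t * (ze ^ (j + 1) - ze ^ j) := by
  simp only [seg]; ring

@[fun_prop] theorem continuous_seg (j : ℕ) : Continuous (seg j) := by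
  unfold seg; fun_prop

theorem norm_ze : ‖ze‖ = 1 := by
  have h : ‖ze‖ ^ 5 = 1 := by rw [← norm_pow, ze_pow, norm_one]
  exact (pow_eq_one_iff_of_nonneg (norm_nonneg _) (by norm_num)).1 h

theorem ze_ne_one : ze ≠ 1 := fun h => by
  have := ze_inj (i := 1) (j := 0) (by norm_num) (by norm_num) (by rw [h]; simp)
  omega

theorem base_lt {t : ℝ} (h0 : 0 < t) (h1 : t < 1) : ‖1 + t * (ze - 1)‖ < 1 := by
  have h := norm_combo_lt_of_ne (x := (1 : ℂ)) (y := ze) (r := 1) (a := 1 - t) (b := t)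
    (by rw [norm_one]) (by rw [norm_ze]) ze_ne_one.symm (by linarith) h0 (by ring)
  have e : (1 - t) • (1 : ℂ) + t • ze = 1 + t * (ze - 1) := by
    rw [real_smul, real_smul]; push_cast; ring
  rwa [e] at h

theorem base_ne {t : ℝ} (h0 : 0 ≤ t) (h1 : t ≤ 1) : (1 + t * (ze - 1) : ℂ) ≠ 0 := by
  intro h
  have ht : 0 < t := by
    rcases h0.eq_or_lt with h2 | h2
    · rw [← h2] at h; simp at h
    · exact h2
  have ht1 : t < 1 := by
    rcases h1.eq_or_lt with h2 | h2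
    · rw [h2] at h
      have : ze = 0 := by rw [ofReal_one, one_mul] at h; linear_combination h
      exact absurd this ze_ne
    · exact h2
  have htc : (t : ℂ) ≠ 0 := ofReal_ne_zero.2 ht.ne'
  have hz : ze = ((-(1 - t) / t : ℝ) : ℂ) := by
    push_cast
    field_simp
    linear_combination h
  have h5 := ze_pow
  rw [hz, ← ofReal_pow] at h5
  have h6 : (-(1 - t) / t : ℝ) ^ 5 = 1 := by exact_mod_cast h5
  have h7 : (-(1 - t) / t : ℝ) ^ 5 < 0 := by
    refine Odd.pow_neg (by decide) ?_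
    exact div_neg_of_neg_of_pos (by linarith) ht
  linarith

theorem p0_seg_ne {j : ℕ} {t : ℝ} (h0 : 0 < t) (h1 : t < 1) : Pz.p0 (seg j t) ≠ 0 := by
  rw [Pz_p0]
  have hlt : ‖seg j t‖ < 1 := by
    unfold seg
    rw [norm_mul, norm_pow, norm_ze, one_pow, one_mul]
    exact base_lt h0 h1
  have hne : seg j t ≠ 0 := mul_ne_zero (pow_ne_zero j ze_ne) (base_ne h0.le h1.le)
  have : seg j t ^ 6 - seg j t = seg j t * (seg j t ^ 5 - 1) := by ring
  rw [this]
  refine mul_ne_zero hne (sub_ne_zero.2 fun h => ?_)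
  have h2 : ‖seg j t‖ ^ 5 = 1 := by rw [← norm_pow, h, norm_one]
  have h3 := pow_lt_one₀ (norm_nonneg (seg j t)) hlt (n := 5) (by norm_num)
  linarith

theorem iv_ne_seg {c : Cz} {j : ℕ} {t : ℝ} (hc : tt c = (seg j t : ℂ)) (h0 : 0 < t) (h1 : t < 1) :
    iv c ≠ c := by
  intro h
  have hi : tt c ≠ ∞ := by rw [hc]; exact OnePoint.coe_ne_infty _
  have h2 := (iv_eq_iff0 hi).1 h
  have h3 := yv_sq hi
  have h4 : tv c = seg j t := by unfold tv; rw [hc, fin_coe]
  rw [h2, h4] at h3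
  exact p0_seg_ne h0 h1 (by rw [← h3]; ring)

theorem p0_pow (j : ℕ) : Pz.p0 (ze ^ j) = 0 := by
  rw [Pz_p0]
  have h5 : (ze ^ j) ^ 5 = 1 := by rw [← pow_mul, mul_comm, pow_mul, ze_pow, one_pow]
  have : (ze ^ j) ^ 6 - ze ^ j = ze ^ j * ((ze ^ j) ^ 5 - 1) := by ring
  rw [this, h5, sub_self, mul_zero]

theorem iv_pow {c : Cz} {j : ℕ} (hc : tt c = (ze ^ j : ℂ)) : iv c = c := by
  have hi : tt c ≠ ∞ := by rw [hc]; exact OnePoint.coe_ne_infty _
  refine (iv_eq_iff0 hi).2 ?_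
  have h3 := yv_sq hi
  have h4 : tv c = ze ^ j := by unfold tv; rw [hc, fin_coe]
  rw [h4, p0_pow] at h3
  exact pow_eq_zero_iff two_ne_zero |>.1 h3

/-- the cofactor of `t (1 - t)` in `p0 (seg 0 t)` -/
def cof (t : ℝ) : ℂ :=
  -((ze - 1) ^ 2 * (1 + t * (ze - 1)) * ((1 + t * (ze - 1)) - ze ^ 2) *
    ((1 + t * (ze - 1)) - ze ^ 3) * ((1 + t * (ze - 1)) - ze ^ 4))

theorem p0_seg (t : ℝ) : Pz.p0 (seg 0 t) = t * (1 - t) * cof t := by
  simp only [Par.p0, Par.AA, Par.BB, Pz, seg, cof, pow_zero, one_mul]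
  simp [Matrix.cons_val_zero, Matrix.cons_val_one]
  ring

theorem cof_ne {t : ℝ} (h0 : 0 ≤ t) (h1 : t ≤ 1) : cof t ≠ 0 := by
  have hk : ∀ k : ℕ, 2 ≤ k → k < 5 → (1 + t * (ze - 1)) - ze ^ k ≠ 0 := by
    intro k hk hk5 h
    have hw : (1 + t * (ze - 1) : ℂ) = ze ^ k := sub_eq_zero.1 h
    rcases h0.eq_or_lt with h2 | h2
    · rw [← h2] at hw
      have := ze_inj (i := 0) (j := k) (by norm_num) hk5 (by rw [← hw]; simp)
      omega
    · rcases h1.eq_or_lt with h3 | h3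
      · rw [h3] at hw
        have := ze_inj (i := 1) (j := k) (by norm_num) hk5 (by rw [← hw]; simp)
        omega
      · have := base_lt h2 h3
        rw [hw, norm_pow, norm_ze, one_pow] at this
        exact lt_irrefl _ this
  unfold cof
  exact neg_ne_zero.2 (mul_ne_zero (mul_ne_zero (mul_ne_zero (mul_ne_zero
    (pow_ne_zero 2 (sub_ne_zero.2 ze_ne_one)) (base_ne h0 h1)) (hk 2 le_rfl (by norm_num)))
    (hk 3 (by norm_num) (by norm_num))) (hk 4 (by norm_num) (by norm_num)))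

theorem continuous_cof : Continuous cof := by unfold cof; fun_prop

theorem exists_arc0 : ∃ g : C(I, Cz), ∀ t : I, tt (g t) = (seg 0 t : ℂ) := by
  obtain ⟨r, hr, hr2, -⟩ := exists_root_sqr (g := fun p => cof p.2)
    (continuous_cof.comp continuous_snd).continuousOn (fun p hp => cof_ne hp.2.1 hp.2.2)
  have hmem : ∀ t : I, ((0 : ℝ), (t : ℝ)) ∈ sqr := fun t =>
    ⟨⟨le_refl _, zero_le_one⟩, t.2.1, t.2.2⟩
  let y : I → ℂ := fun t => ((√((t : ℝ) * (1 - t)) : ℝ) : ℂ) * r (0, (t : ℝ))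
  have hyc : Continuous y := by
    refine Continuous.mul ?_ ?_
    · exact continuous_ofReal.comp (Real.continuous_sqrt.comp (by fun_prop))
    · exact hr.comp_continuous (by fun_prop) hmem
  have hy2 : ∀ t : I, y t ^ 2 = Pz.p0 (seg 0 t) := by
    intro t
    rw [p0_seg]
    show (((√((t : ℝ) * (1 - t)) : ℝ) : ℂ) * r (0, (t : ℝ))) ^ 2 = _
    rw [mul_pow, hr2 _ (hmem t), ← ofReal_pow,
      Real.sq_sqrt (mul_nonneg t.2.1 (by linarith [t.2.2]))]
    push_cast
    ring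
  refine ⟨⟨fun t => mk0 ⟨(seg 0 t, y t), hy2 t⟩, ?_⟩, fun t => rfl⟩
  refine continuous_mk0.comp (Continuous.subtype_mk (Continuous.prodMk ?_ hyc) _)
  exact (continuous_seg 0).comp continuous_subtype_val

def arc0 : C(I, Cz) := Classical.choose exists_arc0

theorem tt_arc0 (t : I) : tt (arc0 t) = (seg 0 t : ℂ) := Classical.choose_spec exists_arc0 t

def alC : C(Cz, Cz) := ⟨al, continuous_al⟩

/-- the arc over the segment `[ζ^j, ζ^(j+1)]` -/
def arc : ℕ → C(I, Cz)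
  | 0 => arc0
  | j + 1 => alC.comp (arc j)

theorem arc_succ (j : ℕ) (t : I) : arc (j + 1) t = al (arc j t) := rfl

theorem tt_arc (j : ℕ) (t : I) : tt (arc j t) = (seg j t : ℂ) := by
  induction j with
  | zero => exact tt_arc0 t
  | succ j ih =>
    have hi : tt (arc j t) ≠ ∞ := by rw [ih]; exact OnePoint.coe_ne_infty _
    rw [arc_succ, tt_al0 hi, seg_succ]
    congr 2
    unfold tv; rw [ih, fin_coe]

theorem iv_arc_zero (j : ℕ) : iv (arc j 0) = arc j 0 := iv_pow (j := j) (by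
  rw [tt_arc]
  show ((seg j 0 : ℂ) : P1) = _
  rw [seg_zero])

theorem iv_arc_one (j : ℕ) : iv (arc j 1) = arc j 1 := iv_pow (j := j + 1) (by
  rw [tt_arc]
  show ((seg j 1 : ℂ) : P1) = _
  rw [seg_one])

/-- any lift of the segment is `arc j` or `iv (arc j)` -/
theorem eq_arc {j : ℕ} {g : C(I, Cz)} (hg : ∀ t : I, tt (g t) = (seg j t : ℂ)) :
    (∀ t, g t = arc j t) ∨ (∀ t, g t = iv (arc j t)) :=
  arc_unique (fun t => by rw [hg, tt_arc]) fun t h0 h1 => iv_ne_seg (tt_arc j t) h0 h1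

end Crest.Agent.R272.Cur_297
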