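import Crest.Agent.R272.Arc1_297

/-!
Row 272 (helper297), UB6, the half in the curve, part 2: the integrals of `ω` along the arcs, their
relation by `D`, and the death of the period of an arc from any lift of the segment.
-/

set_option autoImplicit false
set_option linter.unusedSectionVars false

open Set Filter Topology Metric Complex OnePoint

noncomputable section

namespace Crest.Agent.R272.Cur_297

open Crest.Agent.R272.AJ_956 Crest.Agent.R272.UB_20
open Crest.Agent.R272.CovOrd_463 Crest.Agent.R272.TLoop_463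

local notation "I" => unitInterval

/-! ### integrals -/

/-- `Dz` as a continuous linear map -/
def DzL : E2 →L[ℂ] E2 := LinearMap.toContinuousLinearMap Dz

@[simp] theorem DzL_apply (v : E2) : DzL v = Dz v := rfl

section Int

variable {A : Type} [TopologicalSpace A] {q : Cz × Cz → A} {Λ : AddSubgroup E2} {π : E2 → A}

/-- the integrals along `arc j` from the one along `arc 0` -/
def hh (h0 : C(I, E2)) : ℕ → C(I, E2)
  | 0 => h0
  | j + 1 => ⟨fun t => DzL (hh h0 j t), by fun_prop⟩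

theorem hh_succ (h0 : C(I, E2)) (j : ℕ) (t : I) : hh h0 (j + 1) t = Dz (hh h0 j t) := rfl

theorem isInt_hh {h0 : C(I, E2)} (H : IsInt (cur Pz) (arc 0) h0) (j : ℕ) :
    IsInt (cur Pz) (arc j) (hh h0 j) := by
  induction j with
  | zero => exact H
  | succ j ih => exact ih.map alC DzL al_P

/-- **the integrals along all arcs** -/
theorem exists_ints (J : (cur Pz).IsJac q Λ π) (hq : Continuous q) :
    ∃ h : ℕ → C(I, E2), (∀ j, IsInt (cur Pz) (arc j) (h j)) ∧ ∀ j t, h (j + 1) t = Dz (h j t) := by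
  obtain ⟨h0, H⟩ := exists_int J hq (arc 0)
  exact ⟨hh h0, isInt_hh H, fun j t => rfl⟩

end Int

/-- 338's four arcs: `0` = slopes (1,2), `1` = (2,3), `2` = (3,4), `3` = (4,0) -/
def arcs (i : Fin 4) : C(I, Cz) := arc (i + 1)

theorem tt_arcs (i : Fin 4) (t : I) : tt (arcs i t) = (seg (i + 1) t : ℂ) := tt_arc _ t
theorem iv_arcs_zero (i : Fin 4) : (cur Pz).iv (arcs i 0) = arcs i 0 := iv_arc_zero _
theorem iv_arcs_one (i : Fin 4) : (cur Pz).iv (arcs i 1) = arcs i 1 := iv_arc_one _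

/-- **(f) of 338's `s15_model`: the four arcs and their integrals** -/
theorem exists_ints4 {A : Type} [TopologicalSpace A] {q : Cz × Cz → A} {Λ : AddSubgroup E2}
    {π : E2 → A} (J : (cur Pz).IsJac q Λ π) (hq : Continuous q) :
    ∃ h : Fin 4 → C(I, E2), (∀ i, IsInt (cur Pz) (arcs i) (h i)) ∧
      ∀ i : Fin 3, h i.succ 1 = Dz (h i.castSucc 1) ∨ h i.succ 1 = -Dz (h i.castSucc 1) := by
  obtain ⟨h, H, hD⟩ := exists_ints J hq
  refine ⟨fun i => h (i + 1), fun i => H (i + 1), fun i => Or.inl ?_⟩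
  exact hD (i + 1) 1

/-! ### lifts of segments -/

/-- a continuous map to the curve from its two coordinates -/
def mkc {P : Par} {Y : Type*} [TopologicalSpace Y] (T K : C(Y, P1)) (h : ∀ y, Eqn P (T y) (K y)) :
    C(Y, Cv P) :=
  ⟨fun y => ⟨(T y, K y), h y⟩, (T.continuous.prodMk K.continuous).subtype_mk _⟩

@[simp] theorem tt_mkc {P : Par} {Y : Type*} [TopologicalSpace Y] (T K : C(Y, P1))
    (h : ∀ y, Eqn P (T y) (K y)) (y : Y) : tt (mkc T K h y) = T y := rfl
@[simp] theorem kk_mkc {P : Par} {Y : Type*} [TopologicalSpace Y] (T K : C(Y, P1))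
    (h : ∀ y, Eqn P (T y) (K y)) (y : Y) : kk (mkc T K h y) = K y := rfl

theorem iv_of {P : Par} {c c' : Cv P} (h1 : tt c' = tt c) (h2 : kk c' = negP (kk c)) :
    c' = iv c := ext_c h1 h2

section Dies

variable {C : Type} [TopologicalSpace C] {𝒞 : Cur C} {A : Type} [TopologicalSpace A]
  {q : C × C → A} {Λ : AddSubgroup E2} {π : E2 → A}

/-- `per_dies` for another lift of the same segment -/
theorem per_dies' (J : 𝒞.IsJac q Λ π) (hq : Continuous q) {Y : Type} [TopologicalSpace Y]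
    (ι : A → Y) (f : C(E2, Y)) (hf : ∀ v, f v = ι (π v)) (hper : Per f Λ) (v₀ : E2)
    {γ : C(I, C)} {h : C(I, E2)} (H : IsInt 𝒞 γ h) (hs : 𝒞.iv (γ 0) = γ 0)
    (he : 𝒞.iv (γ 1) = γ 1) {γ' : I → C} (hγ : (∀ t, γ' t = γ t) ∨ (∀ t, γ' t = 𝒞.iv (γ t)))
    (c' : C) {a b a' b' : Y} (p : Path a b) (p' : Path a' b')
    (hp : ∀ t, p t = ι (q (γ' t, c'))) (hp' : ∀ t, p' t = ι (q (𝒞.iv (γ' t), c')))
    (hh : HR p p') :
    perHom hper v₀ (Multiplicative.ofAdd (⟨h 1 + h 1, two_mem J hq H hs he⟩ : Λ)) = 1 := by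
  rcases hγ with hγ | hγ
  · exact per_dies J hq ι f hf hper v₀ H hs he c' p p' (fun t => by rw [hp, hγ])
      (fun t => by rw [hp', hγ]) hh
  · exact per_dies J hq ι f hf hper v₀ H hs he c' p' p (fun t => by rw [hp', hγ, 𝒞.iv_iv])
      (fun t => by rw [hp, hγ]) hh.symm

end Dies

section DiesZ

variable {A : Type} [TopologicalSpace A] {q : Cz × Cz → A} {Λ : AddSubgroup E2} {π : E2 → A}

/-- **the period of `arc j` dies**, from any lift `c` of the segment -/
theorem arc_dies (J : (cur Pz).IsJac q Λ π) (hq : Continuous q) {Y : Type} [TopologicalSpace Y]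
    (ι : A → Y) (f : C(E2, Y)) (hf : ∀ v, f v = ι (π v)) (hper : Per f Λ) (v₀ : E2)
    {j : ℕ} {h : C(I, E2)} (H : IsInt (cur Pz) (arc j) h) (c : C(I, Cz))
    (hc : ∀ t : I, tt (c t) = (seg j t : ℂ)) (c' : Cz) {a b a' b' : Y} (p : Path a b)
    (p' : Path a' b') (hp : ∀ t, p t = ι (q (c t, c'))) (hp' : ∀ t, p' t = ι (q (iv (c t), c')))
    (hh : HR p p') :
    perHom hper v₀ (Multiplicative.ofAdd
      (⟨h 1 + h 1, two_mem J hq H (iv_arc_zero j) (iv_arc_one j)⟩ : Λ)) = 1 :=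
  per_dies' J hq ι f hf hper v₀ H (iv_arc_zero j) (iv_arc_one j) (eq_arc hc) c' p p' hp hp' hh

/-- the same if the segment is run backwards -/
theorem arc_dies_rev (J : (cur Pz).IsJac q Λ π) (hq : Continuous q) {Y : Type}
    [TopologicalSpace Y] (ι : A → Y) (f : C(E2, Y)) (hf : ∀ v, f v = ι (π v)) (hper : Per f Λ)
    (v₀ : E2) {j : ℕ} {h : C(I, E2)} (H : IsInt (cur Pz) (arc j) h) (c : C(I, Cz))
    (hc : ∀ t : I, tt (c t) = (seg j (1 - t) : ℂ)) (c' : Cz) {a b a' b' : Y} (p : Path a b)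
    (p' : Path a' b') (hp : ∀ t, p t = ι (q (c t, c'))) (hp' : ∀ t, p' t = ι (q (iv (c t), c')))
    (hh : HR p p') :
    perHom hper v₀ (Multiplicative.ofAdd
      (⟨h 1 + h 1, two_mem J hq H (iv_arc_zero j) (iv_arc_one j)⟩ : Λ)) = 1 := by
  refine arc_dies J hq ι f hf hper v₀ H ⟨fun t => c (unitInterval.symm t), by fun_prop⟩ ?_ c'
    p.symm p'.symm ?_ ?_ (HR_rev hh)
  · intro t
    show tt (c (unitInterval.symm t)) = _
    rw [hc, unitInterval.coe_symm_eq]
    congr 2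
    ring
  · exact fun t => hp (unitInterval.symm t)
  · exact fun t => hp' (unitInterval.symm t)

/-- **version with the two coordinates**: `T = seg j`, `K` the coordinate `κ`, the two paths over
`(T, K)` and `(T, -K)` -/
theorem arc_dies_TK (J : (cur Pz).IsJac q Λ π) (hq : Continuous q) {Y : Type}
    [TopologicalSpace Y] (ι : A → Y) (f : C(E2, Y)) (hf : ∀ v, f v = ι (π v)) (hper : Per f Λ)
    (v₀ : E2) {j : ℕ} {h : C(I, E2)} (H : IsInt (cur Pz) (arc j) h) (T K : C(I, P1))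
    (hE : ∀ t, Eqn Pz (T t) (K t)) (hT : (∀ t : I, T t = (seg j t : ℂ)) ∨
      (∀ t : I, T t = (seg j (1 - t) : ℂ))) (c' : Cz) {a b a' b' : Y} (p : Path a b)
    (p' : Path a' b') (hp : ∀ t, ∃ c : Cz, tt c = T t ∧ kk c = K t ∧ p t = ι (q (c, c')))
    (hp' : ∀ t, ∃ c : Cz, tt c = T t ∧ kk c = negP (K t) ∧ p' t = ι (q (c, c')))
    (hh : HR p p') :
    perHom hper v₀ (Multiplicative.ofAdd
      (⟨h 1 + h 1, two_mem J hq H (iv_arc_zero j) (iv_arc_one j)⟩ : Λ)) = 1 := by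
  have e1 : ∀ t, p t = ι (q (mkc T K hE t, c')) := by
    intro t
    obtain ⟨c, h1, h2, h3⟩ := hp t
    rw [h3, ext_c (c := c) (c' := mkc T K hE t) h1 h2]
  have e2 : ∀ t, p' t = ι (q (iv (mkc T K hE t), c')) := by
    intro t
    obtain ⟨c, h1, h2, h3⟩ := hp' t
    rw [h3, iv_of (c := mkc T K hE t) (c' := c) h1 h2]
  rcases hT with hT | hT
  · exact arc_dies J hq ι f hf hper v₀ H (mkc T K hE) hT c' p p' e1 e2 hh
  · exact arc_dies_rev J hq ι f hf hper v₀ H (mkc T K hE) hT c' p p' e1 e2 hh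

end DiesZ

end Crest.Agent.R272.Cur_297
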