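import Crest.Prelude.Def_RatCurveLoops
import Mathlib.RingTheory.Polynomial.Cyclotomic.Roots
import Mathlib.LinearAlgebra.Dimension.Finite
import Mathlib.Analysis.Complex.Basic
import Mathlib.Tactic

/-!
Row 272, leaf A-SIMPLE: a period lattice of `ℂ²` which is stable under `diag(ζ, ζ²)`, `ζ` a primitive
fifth root of unity, satisfies the simplicity clause of `IsSimpleAbelianSurface`.
-/

set_option autoImplicit false

open Crest.AlgGeometry

namespace Crest.Agent.R272.Simple_729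

/-- The linear map `diag(a, b)` of `ℂ²`. -/
noncomputable def dg (a b : ℂ) : (Fin 2 → ℂ) →ₗ[ℂ] (Fin 2 → ℂ) where
  toFun v := ![a * v 0, b * v 1]
  map_add' v w := by
    ext i; fin_cases i <;> simp [mul_add]
  map_smul' c v := by
    ext i; fin_cases i <;> simp [mul_left_comm]

@[simp] lemma dg_zero (a b : ℂ) (v : Fin 2 → ℂ) : dg a b v 0 = a * v 0 := rfl
@[simp] lemma dg_one (a b : ℂ) (v : Fin 2 → ℂ) : dg a b v 1 = b * v 1 := rfl

/-- Powers `1, ζ, ζ², ζ³` of a primitive fifth root of unity are linearly independent over `ℚ`. -/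
lemma indep {ζ : ℂ} (hζ : IsPrimitiveRoot ζ 5) (c0 c1 c2 c3 : ℚ)
    (h : (c0 : ℂ) + c1 * ζ + c2 * ζ ^ 2 + c3 * ζ ^ 3 = 0) :
    c0 = 0 ∧ c1 = 0 ∧ c2 = 0 ∧ c3 = 0 := by
  classical
  set p : Polynomial ℚ := Polynomial.C c0 + Polynomial.C c1 * Polynomial.X
    + Polynomial.C c2 * Polynomial.X ^ 2 + Polynomial.C c3 * Polynomial.X ^ 3 with hp
  have hroot : Polynomial.aeval ζ p = 0 := by
    simp only [hp, map_add, map_mul, map_pow, Polynomial.aeval_C, Polynomial.aeval_X]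
    simpa using h
  have hcyc : Polynomial.cyclotomic 5 ℚ = minpoly ℚ ζ :=
    Polynomial.cyclotomic_eq_minpoly_rat hζ (by norm_num)
  have hdeg : (minpoly ℚ ζ).degree = 4 := by
    rw [← hcyc, Polynomial.degree_cyclotomic]
    rfl
  have hp0 : p = 0 := by
    by_contra hne
    have h1 := minpoly.degree_le_of_ne_zero ℚ ζ hne hroot
    have h2 : p.degree ≤ 3 := by
      rw [hp]; compute_degree
    rw [hdeg] at h1
    have := h1.trans h2
    exact absurd this (by decide)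
  have hc : ∀ n, p.coeff n = 0 := fun n => by rw [hp0]; simp
  refine ⟨?_, ?_, ?_, ?_⟩
  · simpa [hp, Polynomial.coeff_X, Polynomial.coeff_C] using hc 0
  · simpa [hp, Polynomial.coeff_X, Polynomial.coeff_C] using hc 1
  · simpa [hp, Polynomial.coeff_X, Polynomial.coeff_C] using hc 2
  · simpa [hp, Polynomial.coeff_X, Polynomial.coeff_C] using hc 3


lemma prim_sq {ζ : ℂ} (hζ : IsPrimitiveRoot ζ 5) : IsPrimitiveRoot (ζ ^ 2) 5 :=
  hζ.pow_of_coprime 2 (by norm_num)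

lemma pow_four {ζ : ℂ} (hζ : IsPrimitiveRoot ζ 5) : ζ ^ 4 = -1 - ζ - ζ ^ 2 - ζ ^ 3 := by
  have h := hζ.geom_sum_eq_zero (by norm_num)
  simp only [Finset.sum_range_succ, Finset.sum_range_zero, zero_add, pow_zero, pow_one] at h
  linear_combination h

/-- Five elements of a period lattice satisfy a rational relation. -/
lemma exists_rel (ω : Fin 4 → Fin 2 → ℂ) (v : Fin 5 → Fin 2 → ℂ)
    (hv : ∀ i, v i ∈ periodLattice ω) :
    ∃ g : Fin 5 → ℚ, g ≠ 0 ∧ ∀ s : Fin 2, ∑ i, (g i : ℂ) * v i s = 0 := by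
  classical
  have hv' : ∀ i, ∃ c : Fin 4 → ℤ, ∑ j, c j • ω j = v i := fun i => by
    have := hv i
    rw [periodLattice, Submodule.mem_span_range_iff_exists_fun] at this
    exact this
  choose c hc using hv'
  have hdep : ¬ LinearIndependent ℚ (fun i : Fin 5 => fun j : Fin 4 => (c i j : ℚ)) := by
    intro h
    have := h.fintype_card_le_finrank
    simp at this
  rw [Fintype.not_linearIndependent_iff] at hdep
  obtain ⟨g, hg, i0, hi0⟩ := hdep
  refine ⟨g, fun h => hi0 (by rw [h]; rfl), fun s => ?_⟩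
  have hj : ∀ j, ∑ i, (g i : ℂ) * (c i j : ℂ) = 0 := by
    intro j
    have := congrFun hg j
    simp only [Finset.sum_apply, Pi.smul_apply, smul_eq_mul, Pi.zero_apply] at this
    have h2 : ((∑ i, g i * (c i j : ℚ) : ℚ) : ℂ) = 0 := by rw [this]; simp
    push_cast at h2
    exact h2
  calc ∑ i, (g i : ℂ) * v i s = ∑ i, (g i : ℂ) * ∑ j, (c i j : ℂ) * ω j s := by
        refine Finset.sum_congr rfl fun i _ => ?_
        rw [← hc i]
        simp [Finset.sum_apply]
    _ = ∑ j, (∑ i, (g i : ℂ) * (c i j : ℂ)) * ω j s := by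
        simp_rw [Finset.mul_sum, Finset.sum_mul]
        rw [Finset.sum_comm]
        refine Finset.sum_congr rfl fun j _ => Finset.sum_congr rfl fun i _ => by ring
    _ = 0 := by simp [hj]

/-- In a lattice stable under `N • diag(ζ, ζ²)` every element `m` is a rational polynomial in
`diag(ζ, ζ²)` applied to a given non-zero element `l`. -/
lemma exists_poly (ω : Fin 4 → Fin 2 → ℂ) {ζ : ℂ} (hζ : IsPrimitiveRoot ζ 5) {N : ℤ} (hN : N ≠ 0)
    (hst : ∀ l ∈ periodLattice ω, N • dg ζ (ζ ^ 2) l ∈ periodLattice ω)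
    {l m : Fin 2 → ℂ} (hl : l ∈ periodLattice ω) (hm : m ∈ periodLattice ω) (hl0 : l ≠ 0) :
    ∃ q0 q1 q2 q3 : ℚ,
      m 0 = ((q0 : ℂ) + q1 * ζ + q2 * ζ ^ 2 + q3 * ζ ^ 3) * l 0 ∧
      m 1 = ((q0 : ℂ) + q1 * ζ ^ 2 + q2 * (ζ ^ 2) ^ 2 + q3 * (ζ ^ 2) ^ 3) * l 1 := by
  classical
  set T := dg ζ (ζ ^ 2) with hT
  have hNC : (N : ℂ) ≠ 0 := by exact_mod_cast hN
  have hNQ : (N : ℚ) ≠ 0 := by exact_mod_cast hN
  set l1 := N • T l with hl1
  set l2 := N • T l1 with hl2
  set l3 := N • T l2 with hl3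
  have m1 : l1 ∈ periodLattice ω := hst _ hl
  have m2 : l2 ∈ periodLattice ω := hst _ m1
  have m3 : l3 ∈ periodLattice ω := hst _ m2
  have e1 : ∀ s, l1 s = N * T l s := fun s => by simp [hl1]
  have e2 : ∀ s, l2 s = N * T l1 s := fun s => by simp [hl2]
  have e3 : ∀ s, l3 s = N * T l2 s := fun s => by simp [hl3]
  have a1 : l1 0 = N * ζ * l 0 := by rw [e1, hT, dg_zero]; ring
  have a2 : l2 0 = N ^ 2 * ζ ^ 2 * l 0 := by rw [e2, hT, dg_zero, a1]; ring
  have a3 : l3 0 = N ^ 3 * ζ ^ 3 * l 0 := by rw [e3, hT, dg_zero, a2]; ring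
  have b1 : l1 1 = N * ζ ^ 2 * l 1 := by rw [e1, hT, dg_one]; ring
  have b2 : l2 1 = N ^ 2 * (ζ ^ 2) ^ 2 * l 1 := by rw [e2, hT, dg_one, b1]; ring
  have b3 : l3 1 = N ^ 3 * (ζ ^ 2) ^ 3 * l 1 := by rw [e3, hT, dg_one, b2]; ring
  obtain ⟨g, hg, hs⟩ := exists_rel ω ![l, l1, l2, l3, m] (by
    intro i; fin_cases i
    · exact hl
    · exact m1
    · exact m2
    · exact m3
    · exact hm)
  have h0 := hs 0
  have h1 := hs 1
  rw [Fin.sum_univ_five] at h0 h1
  simp only [Matrix.cons_val_zero, Matrix.cons_val_one, Matrix.cons_val] at h0 h1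
  rw [a1, a2, a3] at h0
  rw [b1, b2, b3] at h1
  have hg4 : g 4 ≠ 0 := by
    intro h4
    apply hg
    rw [h4] at h0 h1
    have key : g 0 = 0 ∧ g 1 * N = 0 ∧ g 2 * N ^ 2 = 0 ∧ g 3 * N ^ 3 = 0 := by
      by_cases hz : l 0 = 0
      · have hz1 : l 1 ≠ 0 := by
          intro hz1; apply hl0; ext i; fin_cases i <;> simp [hz, hz1]
        apply indep (prim_sq hζ)
        have : l 1 * (((g 0 : ℚ) : ℂ) + ((g 1 * N : ℚ) : ℂ) * ζ ^ 2
            + ((g 2 * N ^ 2 : ℚ) : ℂ) * (ζ ^ 2) ^ 2 + ((g 3 * N ^ 3 : ℚ) : ℂ) * (ζ ^ 2) ^ 3) = 0 := by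
          push_cast
          push_cast at h1
          linear_combination h1
        exact (mul_eq_zero.mp this).resolve_left hz1
      · apply indep hζ
        have : l 0 * (((g 0 : ℚ) : ℂ) + ((g 1 * N : ℚ) : ℂ) * ζ
            + ((g 2 * N ^ 2 : ℚ) : ℂ) * ζ ^ 2 + ((g 3 * N ^ 3 : ℚ) : ℂ) * ζ ^ 3) = 0 := by
          push_cast
          push_cast at h0
          linear_combination h0
        exact (mul_eq_zero.mp this).resolve_left hz
    obtain ⟨k0, k1, k2, k3⟩ := key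
    have k1' : g 1 = 0 := (mul_eq_zero.mp k1).resolve_right hNQ
    have k2' : g 2 = 0 := (mul_eq_zero.mp k2).resolve_right (pow_ne_zero _ hNQ)
    have k3' : g 3 = 0 := (mul_eq_zero.mp k3).resolve_right (pow_ne_zero _ hNQ)
    ext i
    fin_cases i <;> simp [k0, k1', k2', k3', h4]
  have hg4C : ((g 4 : ℚ) : ℂ) ≠ 0 := by exact_mod_cast hg4
  refine ⟨-(g 0) / g 4, -(g 1 * N) / g 4, -(g 2 * N ^ 2) / g 4, -(g 3 * N ^ 3) / g 4, ?_, ?_⟩
  · push_cast
    field_simp
    linear_combination h0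
  · push_cast
    field_simp
    linear_combination h1

/-- Elements of a stable lattice have non-zero coordinates. -/
lemma coord_ne (ω : Fin 4 → Fin 2 → ℂ) (hω : LinearIndependent ℝ ω) {ζ : ℂ}
    (hζ : IsPrimitiveRoot ζ 5) {N : ℤ} (hN : N ≠ 0)
    (hst : ∀ l ∈ periodLattice ω, N • dg ζ (ζ ^ 2) l ∈ periodLattice ω)
    {l : Fin 2 → ℂ} (hl : l ∈ periodLattice ω) (hl0 : l ≠ 0) : l 0 ≠ 0 ∧ l 1 ≠ 0 := by
  classical
  have hmem : ∀ j, ω j ∈ periodLattice ω := fun j => Submodule.subset_span ⟨j, rfl⟩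
  have aux : ∀ s : Fin 2, l s = 0 → False := by
    intro s hs
    have hall : ∀ j, ω j s = 0 := by
      intro j
      obtain ⟨q0, q1, q2, q3, h0, h1⟩ := exists_poly ω hζ hN hst hl (hmem j) hl0
      fin_cases s
      · simp only [Fin.zero_eta, Fin.isValue] at hs ⊢
        rw [h0, hs, mul_zero]
      · simp only [Fin.mk_one, Fin.isValue] at hs ⊢
        rw [h1, hs, mul_zero]
    obtain ⟨t, ht⟩ : ∃ t : Fin 2, ∀ u : Fin 2, u ≠ s → u = t := by
      fin_cases s
      · exact ⟨1, by decide⟩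
      · exact ⟨0, by decide⟩
    have hind : LinearIndependent ℝ (fun j => ω j t) := by
      rw [Fintype.linearIndependent_iff] at hω ⊢
      intro g hg
      apply hω g
      ext u
      by_cases hu : u = s
      · rw [hu]
        simp [Finset.sum_apply, hall]
      · rw [ht u hu]
        simpa [Finset.sum_apply] using hg
    have := hind.fintype_card_le_finrank
    rw [Complex.finrank_real_complex] at this
    simp at this
  exact ⟨fun h => aux 0 h, fun h => aux 1 h⟩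

/-- **A-SIMPLE.** A period lattice stable under `N • diag(ζ, ζ²)`, `ζ` a primitive fifth root of
unity, `N ≠ 0`, satisfies the simplicity clause of `IsSimpleAbelianSurface`. -/
theorem simple (ω : Fin 4 → Fin 2 → ℂ) (hω : LinearIndependent ℝ ω) {ζ : ℂ}
    (hζ : IsPrimitiveRoot ζ 5) {N : ℤ} (hN : N ≠ 0)
    (hst : ∀ l ∈ periodLattice ω, N • dg ζ (ζ ^ 2) l ∈ periodLattice ω) :
    ∀ l m : Fin 2 → ℂ, l ∈ periodLattice ω → m ∈ periodLattice ω → l ≠ 0 →
      ∀ a : ℂ, m = a • l → a.im = 0 := by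
  intro l m hl hm hl0 a ham
  obtain ⟨hz0, hz1⟩ := coord_ne ω hω hζ hN hst hl hl0
  obtain ⟨q0, q1, q2, q3, h0, h1⟩ := exists_poly ω hζ hN hst hl hm hl0
  rw [ham] at h0 h1
  simp only [Pi.smul_apply, smul_eq_mul] at h0 h1
  have h0' := mul_right_cancel₀ hz0 h0
  have h1' := mul_right_cancel₀ hz1 h1
  have h4 := pow_four hζ
  have h5 : ζ ^ 5 = 1 := hζ.pow_eq_one
  have hk := indep hζ q2 (q1 + q2 - q3) (2 * q2 - q1) (q3 + q2) (by
    have e : (q0 : ℂ) + q1 * ζ + q2 * ζ ^ 2 + q3 * ζ ^ 3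
        = (q0 : ℂ) + q1 * ζ ^ 2 + q2 * (ζ ^ 2) ^ 2 + q3 * (ζ ^ 2) ^ 3 := by rw [← h0', ← h1']
    push_cast
    linear_combination e + (q2 : ℂ) * h4 + (q3 : ℂ) * ζ * h5)
  obtain ⟨k2, k1, k3, k4⟩ := hk
  have e3 : q3 = 0 := by linarith
  have e1 : q1 = 0 := by linarith
  rw [h0', k2, e1, e3]
  simp

/-- Version for an honestly stable lattice. -/
theorem simple' (ω : Fin 4 → Fin 2 → ℂ) (hω : LinearIndependent ℝ ω) {ζ : ℂ}
    (hζ : IsPrimitiveRoot ζ 5)
    (hst : ∀ l ∈ periodLattice ω, ![ζ * l 0, ζ ^ 2 * l 1] ∈ periodLattice ω) :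
    ∀ l m : Fin 2 → ℂ, l ∈ periodLattice ω → m ∈ periodLattice ω → l ≠ 0 →
      ∀ a : ℂ, m = a • l → a.im = 0 :=
  simple ω hω hζ (N := 1) one_ne_zero (fun l hl => by simpa [dg] using hst l hl)


/-- The simplicity clause passes to sublattices (trivially) and to lattices `Λ` with `N Λ ⊆ Λ'`. -/
theorem simple_of_commens (ω ω' : Fin 4 → Fin 2 → ℂ) {N : ℤ} (hN : N ≠ 0)
    (hsub : ∀ l ∈ periodLattice ω, N • l ∈ periodLattice ω')
    (h : ∀ l m : Fin 2 → ℂ, l ∈ periodLattice ω' → m ∈ periodLattice ω' → l ≠ 0 →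
      ∀ a : ℂ, m = a • l → a.im = 0) :
    ∀ l m : Fin 2 → ℂ, l ∈ periodLattice ω → m ∈ periodLattice ω → l ≠ 0 →
      ∀ a : ℂ, m = a • l → a.im = 0 := by
  intro l m hl hm hl0 a ham
  refine h (N • l) (N • m) (hsub l hl) (hsub m hm) ?_ a ?_
  · exact smul_ne_zero hN hl0
  · rw [ham, smul_comm]

/-- The four vectors `(ζᵏ, ζ²ᵏ)`, `k = 0, 1, 2, 3`: a basis of `Φ(ℤ[ζ])`. -/
noncomputable def om (ζ : ℂ) : Fin 4 → Fin 2 → ℂ := fun k => ![ζ ^ (k : ℕ), (ζ ^ 2) ^ (k : ℕ)]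

lemma om_indep {ζ : ℂ} (hζ : IsPrimitiveRoot ζ 5) : LinearIndependent ℝ (om ζ) := by
  classical
  rw [Fintype.linearIndependent_iff]
  intro g hg
  have h0 := congrFun hg 0
  have h1 := congrFun hg 1
  simp only [Finset.sum_apply, Pi.smul_apply, Complex.real_smul, Pi.zero_apply, Fin.sum_univ_four,
    om, Matrix.cons_val_zero, Matrix.cons_val_one] at h0 h1
  simp only [Fin.val_zero, Fin.val_one, Fin.val_two, pow_zero, pow_one] at h0 h1
  have hv3 : ((3 : Fin 4) : ℕ) = 3 := rfl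
  rw [hv3] at h0 h1
  set p : Polynomial ℂ := Polynomial.C (g 0 : ℂ) + Polynomial.C (g 1 : ℂ) * Polynomial.X
    + Polynomial.C (g 2 : ℂ) * Polynomial.X ^ 2 + Polynomial.C (g 3 : ℂ) * Polynomial.X ^ 3 with hp
  have hev : ∀ x : ℂ, p.eval x = (g 0 : ℂ) + g 1 * x + g 2 * x ^ 2 + g 3 * x ^ 3 := fun x => by
    simp [hp]
  have hconj : ∀ x : ℂ, p.eval x = 0 → p.eval (starRingEnd ℂ x) = 0 := by
    intro x hx
    have := congrArg (starRingEnd ℂ) hx
    rw [hev] at this ⊢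
    simpa using this
  have r1 : p.eval ζ = 0 := by rw [hev]; linear_combination h0
  have r2 : p.eval (ζ ^ 2) = 0 := by rw [hev]; linear_combination h1
  have hn : (starRingEnd ℂ) ζ = ζ ^ 4 := by
    have hnorm : ‖ζ‖ = 1 := hζ.norm'_eq_one (by norm_num)
    have h1 : ζ * (starRingEnd ℂ) ζ = 1 := by
      rw [Complex.mul_conj, Complex.normSq_eq_norm_sq, hnorm]; simp
    have h5 : ζ * ζ ^ 4 = 1 := by
      have := hζ.pow_eq_one
      linear_combination this
    have hz : ζ ≠ 0 := hζ.ne_zero (by norm_num)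
    exact mul_left_cancel₀ hz (h1.trans h5.symm)
  have r4 : p.eval (ζ ^ 4) = 0 := by rw [← hn]; exact hconj _ r1
  have r3 : p.eval (ζ ^ 3) = 0 := by
    have e : (starRingEnd ℂ) (ζ ^ 2) = ζ ^ 3 := by
      rw [map_pow, hn]
      have h5 : ζ ^ 5 = 1 := hζ.pow_eq_one
      linear_combination ζ ^ 3 * h5
    rw [← e]; exact hconj _ r2
  have hp0 : p = 0 := by
    by_contra hne
    have hcard : (({ζ, ζ ^ 2, ζ ^ 3, ζ ^ 4} : Finset ℂ)).card = 4 := by
      have inj : ∀ i j : ℕ, i < 5 → j < 5 → ζ ^ i = ζ ^ j → i = j :=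
        fun i j hi hj h => hζ.pow_inj hi hj h
      have e12 : ζ ≠ ζ ^ 2 := fun h => by
        have := inj 1 2 (by norm_num) (by norm_num) (by simpa using h); omega
      have e13 : ζ ≠ ζ ^ 3 := fun h => by
        have := inj 1 3 (by norm_num) (by norm_num) (by simpa using h); omega
      have e14 : ζ ≠ ζ ^ 4 := fun h => by
        have := inj 1 4 (by norm_num) (by norm_num) (by simpa using h); omega
      have e23 : ζ ^ 2 ≠ ζ ^ 3 := fun h => by
        have := inj 2 3 (by norm_num) (by norm_num) h; omega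
      have e24 : ζ ^ 2 ≠ ζ ^ 4 := fun h => by
        have := inj 2 4 (by norm_num) (by norm_num) h; omega
      have e34 : ζ ^ 3 ≠ ζ ^ 4 := fun h => by
        have := inj 3 4 (by norm_num) (by norm_num) h; omega
      rw [Finset.card_insert_of_notMem (by simp [e12, e13, e14]),
        Finset.card_insert_of_notMem (by simp [e23, e24]),
        Finset.card_insert_of_notMem (by simp [e34]), Finset.card_singleton]
    have hsub : ({ζ, ζ ^ 2, ζ ^ 3, ζ ^ 4} : Finset ℂ).val ⊆ p.roots := by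
      intro x hx
      simp only [Finset.mem_val, Finset.mem_insert, Finset.mem_singleton] at hx
      rw [Polynomial.mem_roots hne, Polynomial.IsRoot.def]
      rcases hx with rfl | rfl | rfl | rfl <;> assumption
    have h1 := Polynomial.card_le_degree_of_subset_roots hsub
    have h2 : p.natDegree ≤ 3 := by rw [hp]; compute_degree
    omega
  have hc : ∀ n, p.coeff n = 0 := fun n => by rw [hp0]; simp
  intro i
  have c0 := hc 0
  have c1 := hc 1
  have c2 := hc 2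
  have c3 := hc 3
  simp [hp, Polynomial.coeff_X, Polynomial.coeff_C] at c0 c1 c2 c3
  fin_cases i <;> assumption

lemma om_stable {ζ : ℂ} (hζ : IsPrimitiveRoot ζ 5) :
    ∀ l ∈ periodLattice (om ζ), ![ζ * l 0, ζ ^ 2 * l 1] ∈ periodLattice (om ζ) := by
  intro l hl
  have hmem : ∀ j, om ζ j ∈ periodLattice (om ζ) := fun j => Submodule.subset_span ⟨j, rfl⟩
  change dg ζ (ζ ^ 2) l ∈ periodLattice (om ζ)
  induction hl using Submodule.span_induction with
  | mem x hx =>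
    obtain ⟨j, rfl⟩ := hx
    have h4 := pow_four hζ
    have h4' := pow_four (prim_sq hζ)
    fin_cases j
    · have : dg ζ (ζ ^ 2) (om ζ 0) = om ζ 1 := by
        ext i; fin_cases i <;> simp [dg, om]
      exact this ▸ hmem 1
    · have : dg ζ (ζ ^ 2) (om ζ 1) = om ζ 2 := by
        ext i; fin_cases i <;> simp [dg, om] <;> ring
      exact this ▸ hmem 2
    · have : dg ζ (ζ ^ 2) (om ζ 2) = om ζ 3 := by
        have hv3 : ((3 : Fin 4) : ℕ) = 3 := rfl
        ext i; fin_cases i <;> simp [dg, om, hv3] <;> ring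
      exact this ▸ hmem 3
    · have : dg ζ (ζ ^ 2) (om ζ 3) = -om ζ 0 - om ζ 1 - om ζ 2 - om ζ 3 := by
        have hv3 : ((3 : Fin 4) : ℕ) = 3 := rfl
        ext i; fin_cases i
        · simp [dg, om, hv3]; linear_combination h4
        · simp [dg, om, hv3]; linear_combination h4'
      change dg ζ (ζ ^ 2) (om ζ 3) ∈ _
      rw [this]
      exact Submodule.sub_mem _ (Submodule.sub_mem _ (Submodule.sub_mem _
        (Submodule.neg_mem _ (hmem 0)) (hmem 1)) (hmem 2)) (hmem 3)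
  | zero => rw [map_zero]; exact Submodule.zero_mem _
  | add x y _ _ hx hy => rw [map_add]; exact Submodule.add_mem _ hx hy
  | smul a x _ hx =>
    have : dg ζ (ζ ^ 2) (a • x) = a • dg ζ (ζ ^ 2) x := by
      rw [← Int.cast_smul_eq_zsmul ℂ a x, map_smul, Int.cast_smul_eq_zsmul]
    rw [this]; exact Submodule.smul_mem _ _ hx

/-- A simple torus exists: `ℂ² / Φ(ℤ[ζ₅])`. -/
theorem exists_simple : ∃ ω : Fin 4 → Fin 2 → ℂ, LinearIndependent ℝ ω ∧
    ∀ l m : Fin 2 → ℂ, l ∈ periodLattice ω → m ∈ periodLattice ω → l ≠ 0 →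
      ∀ a : ℂ, m = a • l → a.im = 0 := by
  have hζ := Complex.isPrimitiveRoot_exp 5 (by norm_num)
  exact ⟨om _, om_indep hζ, simple' _ (om_indep hζ) hζ (om_stable hζ)⟩

end Crest.Agent.R272.Simple_729
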