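import Crest.Agent.R272.UB2_20

/-!
# R272, leaf UB-DISC (helper20), part 8: algebra of the period lattice

`Λ ⊆ ℂ²` a lattice stable under a diagonal `D` whose entries are primitive 5th roots of unity,
`Q ∈ Λ` non-zero: every `l ∈ Λ` has a non-zero multiple in `ℤ Q + ℤ D Q + ℤ D² Q + ℤ D³ Q`.
If a homomorphism kills `Q`, `D² Q`, `D³ Q`, then up to multiples everything is a power of the image
of `D Q`.
-/

set_option autoImplicit false

open Set Filter Topology Multiplicative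

namespace Crest.Agent.R272.UB_20

noncomputable section

/-- `ℂ²` -/
local notation "E2" => (Fin 2 → ℂ)

/-- a primitive 5th root of unity is not a root of a non-zero integral polynomial of degree `≤ 3` -/
theorem prim5_indep {d : ℂ} (hd : IsPrimitiveRoot d 5) (a : Fin 4 → ℤ)
    (h : ∑ i, (a i : ℂ) * d ^ (i : ℕ) = 0) : ∀ i, a i = 0 := by
  have hdeg : (minpoly ℚ d).natDegree = 4 := by
    rw [← Polynomial.cyclotomic_eq_minpoly_rat hd (by norm_num), Polynomial.natDegree_cyclotomic]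
    decide
  have hli := linearIndependent_pow (K := ℚ) d
  rw [hdeg] at hli
  rw [Fintype.linearIndependent_iff] at hli
  have := hli (fun i => (a i : ℚ)) (by
    rw [← h]
    refine Finset.sum_congr rfl (fun i _ => ?_)
    rw [Algebra.smul_def]
    simp)
  intro i
  exact_mod_cast this i

/-- iterates of a diagonal map -/
theorem diag_iter {D : E2 → E2} {d : Fin 2 → ℂ} (hD : ∀ v i, D v i = d i * v i) (n : ℕ) (v : E2)
    (i : Fin 2) : (D^[n]) v i = d i ^ n * v i := by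
  induction n generalizing v with
  | zero => simp
  | succ n ih =>
    rw [Function.iterate_succ_apply, ih, hD, pow_succ]
    ring

theorem iter_mem {Λ : AddSubgroup E2} {D : E2 → E2} (hΛ : ∀ v ∈ Λ, D v ∈ Λ) {Q : E2} (hQ : Q ∈ Λ)
    (n : ℕ) : (D^[n]) Q ∈ Λ := by
  induction n with
  | zero => exact hQ
  | succ n ih =>
    rw [Function.iterate_succ_apply']
    exact hΛ _ ih

/-- **multiples of lattice vectors** -/
theorem exists_mult {Λ : AddSubgroup E2} [DiscreteTopology Λ]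
    (hspan : Submodule.span ℝ (Λ : Set E2) = ⊤) {D : E2 → E2} {d : Fin 2 → ℂ}
    (hD : ∀ v i, D v i = d i * v i) (hd : ∀ i, IsPrimitiveRoot (d i) 5)
    (hΛ : ∀ v ∈ Λ, D v ∈ Λ) {Q : E2} (hQ : Q ∈ Λ) (hQ0 : Q ≠ 0) (l : E2) (hl : l ∈ Λ) :
    ∃ m : ℤ, m ≠ 0 ∧ ∃ a : Fin 4 → ℤ, m • l = ∑ i, a i • (D^[(i : ℕ)]) Q := by
  let L : Submodule ℤ E2 := AddSubgroup.toIntSubmodule Λ
  have hLd : DiscreteTopology L := inferInstanceAs (DiscreteTopology Λ)
  have hLs : IsZLattice ℝ L := ⟨hspan⟩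
  have hrank : Module.finrank ℤ L = 4 := by
    rw [ZLattice.rank ℝ L]
    simp [Module.finrank_pi_fintype]
  have : Module.Finite ℤ L := ZLattice.module_finite ℝ L
  -- the five vectors
  let v : Fin 5 → L := Fin.cons ⟨l, hl⟩ (fun i : Fin 4 => ⟨(D^[(i : ℕ)]) Q, iter_mem hΛ hQ i⟩)
  have hnot : ¬ LinearIndependent ℤ v := by
    intro h
    have := h.fintype_card_le_finrank
    rw [hrank] at this
    simp at this
  rw [Fintype.not_linearIndependent_iff] at hnot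
  obtain ⟨g, hg, i₀, hi₀⟩ := hnot
  have hg' : g 0 • l + ∑ i : Fin 4, g i.succ • (D^[(i : ℕ)]) Q = 0 := by
    have h1 := congrArg Subtype.val hg
    rw [Fin.sum_univ_succ] at h1
    have h2 : ((g 0 • v 0 + ∑ i : Fin 4, g i.succ • v i.succ : L) : E2) =
        g 0 • l + ∑ i : Fin 4, g i.succ • (D^[(i : ℕ)]) Q := by
      rw [Submodule.coe_add, Submodule.coe_sum]
      rfl
    rw [h2] at h1
    exact h1
  have hg0 : g 0 ≠ 0 := by
    intro h0
    rw [h0, zero_smul, zero_add] at hg'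
    -- a non-zero coordinate of `Q`
    obtain ⟨c, hc⟩ : ∃ c, Q c ≠ 0 := by
      by_contra hcon
      push Not at hcon
      exact hQ0 (funext hcon)
    have h1 := congrFun hg' c
    rw [Finset.sum_apply] at h1
    have h2 : (∑ i : Fin 4, ((g i.succ : ℤ) : ℂ) * d c ^ (i : ℕ)) * Q c = 0 := by
      rw [Finset.sum_mul]
      rw [show (0 : E2) c = 0 from rfl] at h1
      rw [← h1]
      refine Finset.sum_congr rfl (fun i _ => ?_)
      rw [Pi.smul_apply, diag_iter hD, zsmul_eq_mul]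
      ring
    have h3 := prim5_indep (hd c) (fun i => g i.succ) ((mul_eq_zero.1 h2).resolve_right hc)
    refine hi₀ ?_
    refine Fin.cases h0 (fun i => h3 i) i₀
  refine ⟨g 0, hg0, fun i => - g i.succ, ?_⟩
  have h3 : g 0 • l = - ∑ i : Fin 4, g i.succ • (D^[(i : ℕ)]) Q := eq_neg_of_add_eq_zero_left hg'
  rw [h3, ← Finset.sum_neg_distrib]
  refine Finset.sum_congr rfl (fun i _ => ?_)
  rw [neg_smul]

/-- **the last brace of 338's end of S0415**: if `φ` kills `Q`, `D² Q`, `D³ Q` (`Q ≠ 0`) then every `l`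
has a non-zero multiple congruent to a multiple of `D Q` modulo the kernel -/
theorem brace {Λ : AddSubgroup E2} [DiscreteTopology Λ]
    (hspan : Submodule.span ℝ (Λ : Set E2) = ⊤) {D : E2 → E2} {d : Fin 2 → ℂ}
    (hD : ∀ v i, D v i = d i * v i) (hd : ∀ i, IsPrimitiveRoot (d i) 5)
    (hΛ : ∀ v ∈ Λ, D v ∈ Λ) {Q : E2} (hQ : Q ∈ Λ) (hQ0 : Q ≠ 0) {G : Type*} [Group G]
    (φ : Multiplicative Λ →* G) (h0 : φ (ofAdd ⟨Q, hQ⟩) = 1)
    (h2 : φ (ofAdd ⟨D (D Q), hΛ _ (hΛ _ hQ)⟩) = 1)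
    (h3 : φ (ofAdd ⟨D (D (D Q)), hΛ _ (hΛ _ (hΛ _ hQ))⟩) = 1) (l : Λ) :
    ∃ m : ℤ, m ≠ 0 ∧ ∃ k : ℤ, φ (ofAdd (m • l - k • (⟨D Q, hΛ _ hQ⟩ : Λ))) = 1 := by
  obtain ⟨m, hm, a, ha⟩ := exists_mult hspan hD hd hΛ hQ hQ0 l l.2
  refine ⟨m, hm, a 1, ?_⟩
  have e : m • l - a 1 • (⟨D Q, hΛ _ hQ⟩ : Λ) = a 0 • (⟨Q, hQ⟩ : Λ) +
      (a 2 • (⟨D (D Q), hΛ _ (hΛ _ hQ)⟩ : Λ) +
        a 3 • (⟨D (D (D Q)), hΛ _ (hΛ _ (hΛ _ hQ))⟩ : Λ)) := by
    apply Subtype.ext
    show m • (l : E2) - a 1 • D Q = a 0 • Q + (a 2 • D (D Q) + a 3 • D (D (D Q)))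
    rw [ha, Fin.sum_univ_four]
    show a 0 • Q + a 1 • D Q + a 2 • D (D Q) + a 3 • D (D (D Q)) - a 1 • D Q = _
    abel
  rw [e, ofAdd_add, map_mul, ofAdd_add, map_mul, ofAdd_zsmul, map_zpow, h0, one_zpow, one_mul,
    ofAdd_zsmul, map_zpow, h2, one_zpow, one_mul, ofAdd_zsmul, map_zpow, h3, one_zpow]

end

end Crest.Agent.R272.UB_20
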