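import Crest.Agent.R272.Comp3_259
import Crest.Agent.R272.UB8_20
import Crest.Agent.R272.UB7_20
import Crest.Agent.R272.Simple_729
import Crest.Agent.R272.DCov4_426

/-!
# R272, leaf S15-ASM (helper338), part 1: the end of S0415 for a lattice `Λ ⊆ ℂ²` stable under `D`

* `exists_omega`: a discrete spanning subgroup of `ℂ²` is a period lattice;
* `simple_diag` : simplicity clause from `D = diag (d₀, d₁)`, `d₀, d₁` primitive fifth roots of unity,
                  `d₁ ≠ d₀`, `d₀ d₁ ≠ 1`;
* `s15_torus`   : `M` compact (connectedness not needed: 259), `f : ℂ² → M` holomorphic immersion with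
                  `f z = f w ↔ z - w ∈ Λ`, the periods `Q`, `D² Q`, `D³ Q` die in `M` and `D Q` has
                  infinite order ⟹ S15.
-/

set_option autoImplicit false
set_option linter.unusedSectionVars false

open Set Filter Topology TopologicalSpace
open Crest.AlgGeometry

namespace Crest.Agent.R272.As15_338

open Crest.Agent.R275.Geo Crest.Agent.R275.Core144 Crest.Agent.R275.GC293
open Crest.Agent.R273.Defs_333 Crest.Agent.R273.Fam_835
open CpEnd_338 TLoop_463 Crest.Agent.R272.AJ_956 UB_20 Simple_729 Comp_259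

noncomputable section

/-- a discrete subgroup of `ℂ²` which spans over `ℝ` is a period lattice -/
theorem exists_omega {Λ : AddSubgroup E2} (hdisc : DiscreteTopology Λ)
    (hspan : Submodule.span ℝ (Λ : Set E2) = ⊤) :
    ∃ ω : Fin 4 → E2, LinearIndependent ℝ ω ∧ (periodLattice ω).toAddSubgroup = Λ := by
  let L : Submodule ℤ E2 := AddSubgroup.toIntSubmodule Λ
  have hd : DiscreteTopology L := hdisc
  have hz : IsZLattice ℝ L := ⟨hspan⟩
  have hn : Module.finrank ℝ E2 = 4 := by
    rw [Module.finrank_pi_fintype]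
    simp [Complex.finrank_real_complex]
  have : Module.Finite ℤ L := ZLattice.module_finite ℝ L
  have : Module.Free ℤ L := ZLattice.module_free ℝ L
  have hr : Module.finrank ℤ L = 4 := by rw [ZLattice.rank ℝ, hn]
  let b := Module.finBasisOfFinrankEq ℤ L hr
  let B := b.ofZLatticeBasis ℝ L
  refine ⟨fun k => B k, B.linearIndependent, ?_⟩
  have h1 : periodLattice (fun k => B k) = L := Module.Basis.ofZLatticeBasis_span ℝ L b
  rw [h1]
  rfl

/-- a primitive fifth root of unity is a power of any other one -/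
theorem eq_pow {a b : ℂ} (ha : IsPrimitiveRoot a 5) (hb : IsPrimitiveRoot b 5) (h1 : a ≠ b)
    (h2 : a * b ≠ 1) : b = a ^ 2 ∨ a = b ^ 2 := by
  obtain ⟨i, hi, rfl⟩ := ha.eq_pow_of_pow_eq_one hb.pow_eq_one
  have h5 : a ^ 5 = 1 := ha.pow_eq_one
  interval_cases i
  · exact absurd hb (by
      intro h
      have := h.pow_inj (i := 0) (j := 1) (by norm_num) (by norm_num) (by simp)
      omega)
  · exact absurd (pow_one a).symm h1
  · exact Or.inl rfl
  · refine Or.inr ?_
    have : (a ^ 3) ^ 2 = a ^ 5 * a := by ring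
    rw [this, h5, one_mul]
  · exact absurd (by
      have : a * a ^ 4 = a ^ 5 := by ring
      rw [this, h5]) h2

theorem simple_diag {ω : Fin 4 → E2} (hω : LinearIndependent ℝ ω) {d : Fin 2 → ℂ}
    (hd : ∀ i, IsPrimitiveRoot (d i) 5) (h1 : d 0 ≠ d 1) (h2 : d 0 * d 1 ≠ 1)
    (hst : ∀ l ∈ periodLattice ω, (fun i => d i * l i) ∈ periodLattice ω) :
    ∀ l m : Fin 2 → ℂ, l ∈ periodLattice ω → m ∈ periodLattice ω → l ≠ 0 →
      ∀ a : ℂ, m = a • l → a.im = 0 := by
  rcases eq_pow (hd 0) (hd 1) h1 h2 with h | h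
  · refine simple' ω hω (hd 0) fun l hl => ?_
    convert hst l hl using 1
    funext i
    fin_cases i
    · rfl
    · show d 0 ^ 2 * l 1 = d 1 * l 1
      rw [h]
  · -- exchange the coordinates
    let e : E2 ≃ₗ[ℝ] E2 := LinearEquiv.funCongrLeft ℝ ℂ (Equiv.swap (0 : Fin 2) 1)
    have he : ∀ (v : E2) (i : Fin 2), e v i = v (Equiv.swap 0 1 i) := fun v i => rfl
    let ω' : Fin 4 → E2 := fun k => e (ω k)
    have hω' : LinearIndependent ℝ ω' := hω.map' e.toLinearMap e.ker
    have hmem : ∀ v, v ∈ periodLattice ω ↔ e v ∈ periodLattice ω' := by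
      intro v
      let eZ : E2 ≃+ E2 := e.toAddEquiv
      let eL : E2 →ₗ[ℤ] E2 := eZ.toAddMonoidHom.toIntLinearMap
      have h3 : periodLattice ω' = (periodLattice ω).map eL := by
        show Submodule.span ℤ (range ω') = (Submodule.span ℤ (range ω)).map eL
        rw [Submodule.map_span]
        congr 1
        rw [← range_comp]
        rfl
      rw [h3, Submodule.mem_map]
      constructor
      · intro hv
        exact ⟨v, hv, rfl⟩
      · rintro ⟨w, hw, hwv⟩
        have : w = v := e.injective hwv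
        rwa [← this]
    have h4 := simple' ω' hω' (hd 1) (fun l hl => by
      obtain ⟨v, rfl⟩ := e.surjective l
      have h5 := (hmem _).1 (hst v ((hmem v).2 hl))
      convert h5 using 1
      funext i
      fin_cases i
      · rfl
      · show d 1 ^ 2 * v (Equiv.swap 0 1 1) = d (Equiv.swap 0 1 1) * v (Equiv.swap 0 1 1)
        rw [Equiv.swap_apply_right, h])
    intro l m hl hm hl0 a ham
    refine h4 (e l) (e m) ((hmem l).1 hl) ((hmem m).1 hm) (fun h => hl0 ?_) a ?_
    · exact e.map_eq_zero_iff.1 h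
    · rw [ham]
      rfl

variable {n : ℕ} {M : Type} [TopologicalSpace M] {A : Atl n M}
variable [T2Space M] [CompactSpace M] [Finite A.ι]

/-- the components are projective -/
def CompProj (A : Atl n M) : Prop :=
  ∀ (U : Opens M) [Nonempty U], IsClosed (U : Set M) → ConnectedSpace U →
    Nonempty (ProjD (subA A U))

theorem compProj_of (P : ProjD A) : CompProj A := fun _ _ _ _ => ⟨subPD P⟩

theorem compProj_of_pos (K : KodEmb n) (PA : Part A) {O : LB A} {hm : HM O} (hp : hm.Pos) :
    CompProj A := fun U _ hU hc => K.cmp PA hp U hU hc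

theorem compProj_of_posG (K : KodEmbG n) (hA : GoodA A) (PA : Part A) {O : LB A} {hm : HM O}
    (hp : hm.Pos) : CompProj A := fun U _ hU hc => K.cmp hA PA hp U hU hc

/-- **S0415 from the immersed torus and its four periods** -/
theorem s15_torus (PA : Part A) (P : CompProj A) {Λ : AddSubgroup E2} (hdisc : DiscreteTopology Λ)
    (hspan : Submodule.span ℝ (Λ : Set E2) = ⊤) {d : Fin 2 → ℂ}
    (hd : ∀ i, IsPrimitiveRoot (d i) 5) (hd1 : d 0 ≠ d 1) (hd2 : d 0 * d 1 ≠ 1)
    {D : E2 → E2} (hD : ∀ v i, D v i = d i * v i) (hΛ : ∀ v ∈ Λ, D v ∈ Λ)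
    (f : C(E2, M)) (hf : HolTo A f) (him : ImmTo A f)
    (hinj : ∀ z w, f z = f w ↔ z - w ∈ Λ) (hper : Per f Λ) (z₀ : E2)
    {Q : E2} (hQ : Q ∈ Λ)
    (h0 : perHom hper z₀ (Multiplicative.ofAdd ⟨Q, hQ⟩) = 1)
    (h1 : ¬ IsOfFinOrder (perHom hper z₀ (Multiplicative.ofAdd ⟨D Q, hΛ _ hQ⟩)))
    (h2 : perHom hper z₀ (Multiplicative.ofAdd ⟨D (D Q), hΛ _ (hΛ _ hQ)⟩) = 1)
    (h3 : perHom hper z₀ (Multiplicative.ofAdd ⟨D (D (D Q)), hΛ _ (hΛ _ (hΛ _ hQ))⟩) = 1) :
    S15 := by
  obtain ⟨ω, hω, rfl⟩ := exists_omega hdisc hspan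
  have hQ0 : Q ≠ 0 := by
    rintro rfl
    apply h1
    have hD0 : D 0 = 0 := by
      funext i
      rw [hD]
      simp
    have : (⟨D 0, hΛ _ hQ⟩ : (periodLattice ω).toAddSubgroup) = 0 := Subtype.ext hD0
    rw [this, ofAdd_zero, map_one]
    exact IsOfFinOrder.one
  refine s15_aux PA hω (simple_diag hω hd hd1 hd2 fun l hl => ?_) f hf hper z₀
    ⟨D Q, hΛ _ hQ⟩ h1 (fun l => ?_) P (Or.inr ⟨him, hinj⟩)
  · have h4 : D l ∈ (periodLattice ω).toAddSubgroup := hΛ l hl
    have h5 : D l = fun i => d i * l i := funext fun i => hD l i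
    rwa [h5] at h4
  · exact brace hspan hD hd hΛ hQ hQ0 (perHom hper z₀) h0 h2 h3 l

end

end Crest.Agent.R272.As15_338
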