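import Crest.Agent.R272.As151_338

/-!
# R272, leaf S15-ASM (helper338), part 2: holomorphic immersions `ℂ² → X` in the `Fam` language

* `ImmF C f` : at every point, in ONE chart of the family `C`, `f` is differentiable with injective
               differential;
* `ImmF.holTo`, `ImmF.immTo` : `HolTo A f`, `ImmTo A f` for every atlas `A` compatible with `C`;
* `Pos C`    : a finite good atlas compatible with `C` whose components are projective;
* `s15_fam`  : S0415 from `f : ℂ² → X`.
-/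

set_option autoImplicit false
set_option linter.unusedSectionVars false

open Set Filter Topology TopologicalSpace
open Crest.AlgGeometry

namespace Crest.Agent.R272.As15_338

open Crest.Agent.R275.Geo Crest.Agent.R275.Core144 Crest.Agent.R275.GC293
open Crest.Agent.R273.Defs_333 Crest.Agent.R273.Fam_835
open CpEnd_338 TLoop_463 Crest.Agent.R272.AJ_956 UB_20 Simple_729 Comp_259 DCov_426

noncomputable section

variable {n m : ℕ} {X Y : Type} [TopologicalSpace X] [TopologicalSpace Y]

/-- at every point, in one chart of `C`, `f` is differentiable with injective differential -/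
def ImmF (C : Fam n X) (f : E2 → X) : Prop :=
  ∀ z, ∃ i, f z ∈ (C.e i).source ∧ DifferentiableAt ℂ (fun w => C.e i (f w)) z ∧
    ∀ v, fderiv ℂ (fun w => C.e i (f w)) z v = 0 → v = 0

variable {C : Fam n X} {D : Fam m Y} {A : Atl n X}

/-- differentiable in one chart, hence in all charts of a compatible atlas -/
theorem diff_chart (h : HolC C (fam A) id) {f : E2 → X} (hc : Continuous f) {z : E2} {i : C.ι}
    {j : A.ι} (hi : f z ∈ (C.e i).source) (hj : f z ∈ (A.e j).source)
    (hd : DifferentiableAt ℂ (fun w => C.e i (f w)) z) :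
    DifferentiableAt ℂ (fun w => A.e j (f w)) z := by
  have h1 : DifferentiableAt ℂ (fun y => A.e j ((C.e i).symm y)) (C.e i (f z)) :=
    h.diffAt (i := i) (j := j) ((C.e i).map_source hi) (by
      show (C.e i).symm (C.e i (f z)) ∈ (A.e j).source
      rw [(C.e i).left_inv hi]; exact hj)
  have h2 := h1.comp z (f := fun w => C.e i (f w)) hd
  refine h2.congr_of_eventuallyEq ?_
  filter_upwards [hc.continuousAt.eventually ((C.e i).open_source.mem_nhds hi)] with w hw
  simp only [Function.comp_apply, (C.e i).left_inv hw]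

theorem ImmF.holTo (h : Cmp C A) {f : E2 → X} (hc : Continuous f) (hf : ImmF C f) : HolTo A f := by
  intro j z hj
  obtain ⟨i, hi, hd, -⟩ := hf z
  exact diff_chart h.bwd hc hi hj hd

theorem ImmF.immTo (h : Cmp C A) {f : E2 → X} (hc : Continuous f) (hf : ImmF C f) : ImmTo A f := by
  intro z
  obtain ⟨i, hi, hd, hinj⟩ := hf z
  obtain ⟨j, hj⟩ := A.cover (f z)
  refine ⟨j, hj, fun v hv => hinj v ?_⟩
  have h0 := diff_chart h.bwd hc hi hj hd
  have h1 : DifferentiableAt ℂ (fun y => C.e i ((A.e j).symm y)) (A.e j (f z)) :=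
    h.fwd.diffAt (i := j) (j := i) ((A.e j).map_source hj) (by
      show (A.e j).symm (A.e j (f z)) ∈ (C.e i).source
      rw [(A.e j).left_inv hj]; exact hi)
  have h2 : HasFDerivAt (fun w => C.e i ((A.e j).symm (A.e j (f w))))
      ((fderiv ℂ (fun y => C.e i ((A.e j).symm y)) (A.e j (f z))).comp
        (fderiv ℂ (fun w => A.e j (f w)) z)) z :=
    HasFDerivAt.comp (g := fun y => C.e i ((A.e j).symm y)) (f := fun w => A.e j (f w)) z
      h1.hasFDerivAt h0.hasFDerivAt
  have h3 : HasFDerivAt (fun w => C.e i (f w))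
      ((fderiv ℂ (fun y => C.e i ((A.e j).symm y)) (A.e j (f z))).comp
        (fderiv ℂ (fun w => A.e j (f w)) z)) z := by
    refine h2.congr_of_eventuallyEq ?_
    filter_upwards [hc.continuousAt.eventually ((A.e j).open_source.mem_nhds hj)] with w hw
    rw [(A.e j).left_inv hw]
  rw [h3.fderiv, ContinuousLinearMap.comp_apply, hv, map_zero]

/-- post-composition with a map which is holomorphic with holomorphic left inverse near the point
(e.g. an open embedding of a piece): immersions in the chart sense -/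
theorem ImmF.of_holF {f : E2 → X} (h : ∀ z, ∃ i, f z ∈ (C.e i).source ∧
    DifferentiableAt ℂ (fun w => C.e i (f w)) z ∧
    ∃ (g : Cn n → E2), DifferentiableAt ℂ g (C.e i (f z)) ∧
      ∀ᶠ w in 𝓝 z, g (C.e i (f w)) = w) : ImmF C f := by
  intro z
  obtain ⟨i, hi, hd, g, hg, hgf⟩ := h z
  refine ⟨i, hi, hd, fun v hv => ?_⟩
  have h1 : HasFDerivAt (fun w => g (C.e i (f w)))
      ((fderiv ℂ g (C.e i (f z))).comp (fderiv ℂ (fun w => C.e i (f w)) z)) z :=
    HasFDerivAt.comp (g := g) (f := fun w => C.e i (f w)) z hg.hasFDerivAt hd.hasFDerivAt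
  have h2 : HasFDerivAt (fun w : E2 => w)
      ((fderiv ℂ g (C.e i (f z))).comp (fderiv ℂ (fun w => C.e i (f w)) z)) z :=
    h1.congr_of_eventuallyEq (hgf.mono fun w hw => hw.symm)
  have h3 := h2.unique (hasFDerivAt_id z)
  have h4 := DFunLike.congr_fun h3 v
  rw [ContinuousLinearMap.comp_apply, hv, map_zero] at h4
  exact h4.symm

/-- a finite good atlas compatible with `C` whose components are projective -/
def PosF (C : Fam n X) : Prop :=
  ∃ A : Atl n X, Finite A.ι ∧ Nonempty (Part A) ∧ Cmp C A ∧ CompProj A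

variable [T2Space X] [CompactSpace X]

theorem posF_of_projD {A : Atl n X} [Finite A.ι] (PA : Part A) (h : Cmp C A) (P : ProjD A) :
    PosF C := ⟨A, inferInstance, ⟨PA⟩, h, compProj_of P⟩

theorem posF_of_pos (K : KodEmb n) {A : Atl n X} [Finite A.ι] (PA : Part A) (h : Cmp C A)
    {O : LB A} {hm : HM O} (hp : hm.Pos) : PosF C :=
  ⟨A, inferInstance, ⟨PA⟩, h, compProj_of_pos K PA hp⟩

theorem posF_of_posG (K : KodEmbG n) {A : Atl n X} [Finite A.ι] (hA : GoodA A) (PA : Part A)
    (h : Cmp C A) {O : LB A} {hm : HM O} (hp : hm.Pos) : PosF C :=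
  ⟨A, inferInstance, ⟨PA⟩, h, compProj_of_posG K hA PA hp⟩

/-- **S0415, `Fam` language** -/
theorem s15_fam (hC : PosF C) {Λ : AddSubgroup E2} (hdisc : DiscreteTopology Λ)
    (hspan : Submodule.span ℝ (Λ : Set E2) = ⊤) {d : Fin 2 → ℂ}
    (hd : ∀ i, IsPrimitiveRoot (d i) 5) (hd1 : d 0 ≠ d 1) (hd2 : d 0 * d 1 ≠ 1)
    {D : E2 → E2} (hD : ∀ v i, D v i = d i * v i) (hΛ : ∀ v ∈ Λ, D v ∈ Λ)
    (f : C(E2, X)) (hf : ImmF C f)
    (hinj : ∀ z w, f z = f w ↔ z - w ∈ Λ) (hper : Per f Λ) (z₀ : E2)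
    {Q : E2} (hQ : Q ∈ Λ)
    (h0 : perHom hper z₀ (Multiplicative.ofAdd ⟨Q, hQ⟩) = 1)
    (h1 : ¬ IsOfFinOrder (perHom hper z₀ (Multiplicative.ofAdd ⟨D Q, hΛ _ hQ⟩)))
    (h2 : perHom hper z₀ (Multiplicative.ofAdd ⟨D (D Q), hΛ _ (hΛ _ hQ)⟩) = 1)
    (h3 : perHom hper z₀ (Multiplicative.ofAdd ⟨D (D (D Q)), hΛ _ (hΛ _ (hΛ _ hQ))⟩) = 1) :
    S15 := by
  obtain ⟨A, _, ⟨PA⟩, hc, P⟩ := hC
  exact s15_torus PA P hdisc hspan hd hd1 hd2 hD hΛ f (hf.holTo hc f.continuous)
    (hf.immTo hc f.continuous) hinj hper z₀ hQ h0 h1 h2 h3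

end

end Crest.Agent.R272.As15_338
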