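import Crest.Agent.R272.As152_338

/-!
# R272, leaf S15-ASM (helper338), part 3: S0415 from the Abel-Jacobi description

`s15_top` : `X = X⁺` compact Hausdorff with a complex structure `CX : Fam 3 X` (66, 342) with a positive
bundle (`PosF CX`; 876, 232, 848, 220, 246 and 410); the curve `𝒞 : Cur C` (297), `J : 𝒞.IsJac q Λ π`
(956), `ι : A → X` injective with `ι ∘ π` a holomorphic immersion (834), `D = diag (d 0, d 1)` (297, 956),
four periods `Q j`, `Q (j+1) = ± D (Q j)`, `Q 0`, `Q 2`, `Q 3` die in `X` (20) and `Q 1` has infinite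
order (936, 990, 259) ⟹ S0415.
-/

set_option autoImplicit false
set_option linter.unusedSectionVars false

open Set Filter Topology TopologicalSpace
open Crest.AlgGeometry

namespace Crest.Agent.R272.As15_338

open Crest.Agent.R275.Geo Crest.Agent.R275.Core144 Crest.Agent.R275.GC293
open Crest.Agent.R273.Defs_333 Crest.Agent.R273.Fam_835
open CpEnd_338 TLoop_463 Crest.Agent.R272.AJ_956 UB_20 Simple_729 Comp_259 DCov_426

noncomputable section

/-- the sign of a period is irrelevant -/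
theorem perHom_pm {Y : Type} [TopologicalSpace Y] {Λ : AddSubgroup E2} {f : C(E2, Y)}
    (hper : Per f Λ) (z₀ : E2) {a b : Λ} (h : (a : E2) = b ∨ (a : E2) = - b) :
    (perHom hper z₀ (Multiplicative.ofAdd a) = 1 ↔ perHom hper z₀ (Multiplicative.ofAdd b) = 1) ∧
    (IsOfFinOrder (perHom hper z₀ (Multiplicative.ofAdd a)) ↔
      IsOfFinOrder (perHom hper z₀ (Multiplicative.ofAdd b))) := by
  rcases h with h | h
  · rw [Subtype.ext h]
    exact ⟨Iff.rfl, Iff.rfl⟩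
  · have h1 : a = - b := Subtype.ext h
    rw [h1, ofAdd_neg, map_inv]
    exact ⟨inv_eq_one, isOfFinOrder_inv_iff⟩

variable {n : ℕ} {X : Type} [TopologicalSpace X] [T2Space X] [CompactSpace X] {CX : Fam n X}
variable {C : Type} [TopologicalSpace C] {𝒞 : Cur C} {A : Type} [TopologicalSpace A]
  {q : C × C → A} {Λ : AddSubgroup E2} {π : E2 → A}

theorem per_of {X : Type} {Λ : AddSubgroup E2} {π : E2 → A} {ι : A → X}
    (h : ∀ z w, π z = π w ↔ z - w ∈ Λ) : ∀ v, ∀ l ∈ Λ, ι (π (v + l)) = ι (π v) := by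
  intro v l hl
  rw [(h (v + l) v).2 (by rwa [add_sub_cancel_left])]

/-- **S0415 from the final manifold, the Abel-Jacobi map and the four periods** -/
theorem s15_top (hC : PosF CX) (J : 𝒞.IsJac q Λ π) (f : C(E2, X)) {ι : A → X}
    (hf : ∀ z, f z = ι (π z)) (hι : Function.Injective ι) (himm : ImmF CX f)
    (hper : Per f Λ) {d : Fin 2 → ℂ}
    (hd : ∀ i, IsPrimitiveRoot (d i) 5) (hd1 : d 0 ≠ d 1) (hd2 : d 0 * d 1 ≠ 1)
    {D : E2 → E2} (hD : ∀ v i, D v i = d i * v i) (hΛ : ∀ v ∈ Λ, D v ∈ Λ) (z₀ : E2)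
    {Q : Fin 4 → E2} (hQ : ∀ j, Q j ∈ Λ)
    (hrel : ∀ j : Fin 3, Q j.succ = D (Q j.castSucc) ∨ Q j.succ = - D (Q j.castSucc))
    (die0 : perHom hper z₀ (Multiplicative.ofAdd ⟨Q 0, hQ 0⟩) = 1)
    (live : ¬ IsOfFinOrder (perHom hper z₀ (Multiplicative.ofAdd ⟨Q 1, hQ 1⟩)))
    (die2 : perHom hper z₀ (Multiplicative.ofAdd ⟨Q 2, hQ 2⟩) = 1)
    (die3 : perHom hper z₀ (Multiplicative.ofAdd ⟨Q 3, hQ 3⟩) = 1) : S15 := by
  have hDn : ∀ v, D (-v) = - D v := by
    intro v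
    funext i
    rw [hD, Pi.neg_apply, Pi.neg_apply, hD]
    ring
  have r1 : D (Q 0) = Q 1 ∨ D (Q 0) = - Q 1 := by
    rcases hrel 0 with h | h
    · exact Or.inl h.symm
    · refine Or.inr ?_
      have : Q 1 = - D (Q 0) := h
      rw [this, neg_neg]
  have r2 : D (D (Q 0)) = Q 2 ∨ D (D (Q 0)) = - Q 2 := by
    have h2 : D (Q 1) = Q 2 ∨ D (Q 1) = - Q 2 := by
      rcases hrel 1 with h | h
      · exact Or.inl h.symm
      · refine Or.inr ?_
        have : Q 2 = - D (Q 1) := h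
        rw [this, neg_neg]
    rcases r1 with h | h
    · rw [h]; exact h2
    · rw [h, hDn]
      rcases h2 with h2 | h2
      · exact Or.inr (by rw [h2])
      · exact Or.inl (by rw [h2, neg_neg])
  have r3 : D (D (D (Q 0))) = Q 3 ∨ D (D (D (Q 0))) = - Q 3 := by
    have h3 : D (Q 2) = Q 3 ∨ D (Q 2) = - Q 3 := by
      rcases hrel 2 with h | h
      · exact Or.inl h.symm
      · refine Or.inr ?_
        have : Q 3 = - D (Q 2) := h
        rw [this, neg_neg]
    rcases r2 with h | h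
    · rw [h]; exact h3
    · rw [h, hDn]
      rcases h3 with h3 | h3
      · exact Or.inr (by rw [h3])
      · exact Or.inl (by rw [h3, neg_neg])
  refine s15_fam hC J.disc J.span hd hd1 hd2 hD hΛ f himm (fun z w => ?_) hper z₀ (hQ 0) die0 ?_ ?_ ?_
  · rw [hf, hf, hι.eq_iff]
    exact J.eq_iff z w
  · rw [(perHom_pm hper z₀ (a := ⟨D (Q 0), hΛ _ (hQ 0)⟩) (b := ⟨Q 1, hQ 1⟩) r1).2]
    exact live
  · rw [(perHom_pm hper z₀ (a := ⟨D (D (Q 0)), hΛ _ (hΛ _ (hQ 0))⟩) (b := ⟨Q 2, hQ 2⟩) r2).1]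
    exact die2
  · rw [(perHom_pm hper z₀ (a := ⟨D (D (D (Q 0))), hΛ _ (hΛ _ (hΛ _ (hQ 0)))⟩)
      (b := ⟨Q 3, hQ 3⟩) r3).1]
    exact die3

end

end Crest.Agent.R272.As15_338
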