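import Crest.Agent.R272.DCov5_426

/-!
# R272 (S0414, S0415), DCOV (helper426), file 6: positivity on the cover

`Data.exists_pos` : `M` compact with a positive line bundle `H`; then the pull-back of `H ^ k` to the
cover has a positive metric for `k ≥ m0`; `Data.exists_all` collects everything for compact `M`.
-/

set_option autoImplicit false
set_option linter.unusedSectionVars false

open Set Filter Topology Metric

namespace Crest.Agent.R272.DCov_426

open Crest.Agent.R275.Geo Crest.Agent.R275.Core144 Crest.Agent.R275.GC293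
open Crest.Agent.R273.Map_835 Crest.Agent.R273.Fam_835 Crest.Agent.R273.PB_835
open Crest.Agent.R273.Defs_333 Crest.Agent.R273.HM_333

noncomputable section

variable {n : ℕ} {M : Type} [TopologicalSpace M] {A : Atl n M} {ρ : Type} [Fintype ρ]

namespace Data

variable (D : Data A ρ) {A' : Atl n D.X} (hc : Cmp D.famX A')

include hc in
/-- the pull-back of a positive bundle is positive (after a power) -/
theorem exists_pos [CompactSpace M] [Finite A.ι] (P : Part A) {H : LB A} {hH : HM H}
    (hHp : hH.Pos) {H' : LB A'} (T : PB D.p H' H) :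
    ∃ m0 : ℕ, ∀ k, m0 ≤ k → ∃ hh : HM (H' ^ k), hh.Pos := by
  have := D.compact_X
  have h1 : ∀ o, Nonempty (HM (D.Lo o)) := fun o => exists_hm P (D.Lo o)
  obtain ⟨m0, h2⟩ := Crest.Agent.R272.PImm2_102.pimm (D.holMap_p hc) hHp T (D.rs hc)
    (D.nz_rs hc) (D.imm_rs hc) (fun o => (h1 o).some)
  refine ⟨m0, fun k hk => ?_⟩
  have h3 := h2 k hk
  rwa [one_mul] at h3

/-- everything for a compact base with a positive bundle -/
theorem exists_all [CompactSpace M] [T2Space M] [Finite A.ι] (P : Part A) {H : LB A} {hH : HM H}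
    (hHp : hH.Pos) : ∃ (A' : Atl n D.X) (hc : Cmp D.famX A') (R : Ref A' A D.p),
      Finite A'.ι ∧ GoodA A' ∧ Nonempty (Part A') ∧
      ∃ m0 : ℕ, ∀ k, m0 ≤ k → ∃ hh : HM (pullLB (D.holMap_p hc) R H ^ k), hh.Pos := by
  obtain ⟨A', h1, h2, h3, h4, ⟨R⟩⟩ := D.exists_atlX
  exact ⟨A', h4, R, h1, h2, h3, D.exists_pos h4 P hHp (PB.ref (D.holMap_p h4) R H)⟩

end Data

end

end Crest.Agent.R272.DCov_426
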