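import Crest.Agent.R272.Part_414
import Crest.Agent.R272.DCov6_426
import Crest.Agent.R272.Kod8_410

/-!
# R272, S14-ASM (helper414): the middle part: DCOV over a compact surface with a positive bundle ⟹ ProjD

`exists_projD_any` : Kodaira for any finite atlas on a compact T2 space;
`mid` : `D : Data A ρ` over a compact `M` with a finite atlas and a positive line bundle: the cover `D.X` is
compact T2 and has a finite good atlas `A'` compatible with `D.famX`, with `Part` and `ProjD`.
-/

set_option autoImplicit false
set_option linter.unusedSectionVars false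

open Set Filter Topology Metric

namespace Crest.Agent.R272.Mid_414

open Crest.Agent.R275.Geo Crest.Agent.R275.Core144 Crest.Agent.R275.GC293
open Crest.Agent.R273.Map_835 Crest.Agent.R273.Fam_835 Crest.Agent.R273.PB_835
open Crest.Agent.R273.Defs_333 Crest.Agent.R273.HM_333
open DCov_426 Part_414

noncomputable section

variable {n : ℕ} {M : Type} [TopologicalSpace M] {A : Atl n M}

theorem exists_projD_any [T2Space M] [CompactSpace M] [Finite A.ι] {O : LB A} {hO : HM O}
    (hp : hO.Pos) : Nonempty (ProjD A) := by
  obtain ⟨PA⟩ := exists_part_any A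
  obtain ⟨m, -, P, -⟩ := Kod8_410.exists_projD PA hp
  exact ⟨P⟩

variable {ρ : Type} [Fintype ρ]

/-- **the cover of a compact manifold with a positive bundle is projective** -/
theorem mid [T2Space M] [CompactSpace M] [Finite A.ι] (D : Data A ρ) {H : LB A} {hH : HM H}
    (hHp : hH.Pos) : CompactSpace D.X ∧ T2Space D.X ∧
      ∃ (A' : Atl n D.X) (_ : Cmp D.famX A') (_ : Ref A' A D.p),
        Finite A'.ι ∧ GoodA A' ∧ Nonempty (Part A') ∧ Nonempty (ProjD A') := by
  obtain ⟨PA⟩ := exists_part_any A
  have h1 : CompactSpace D.X := D.compact_X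
  have h2 : T2Space D.X := D.t2_X
  obtain ⟨A', hc, R, h3, h4, h5, m0, h6⟩ := D.exists_all PA hHp
  obtain ⟨hh, hp⟩ := h6 m0 le_rfl
  exact ⟨h1, h2, A', hc, R, h3, h4, h5, exists_projD_any hp⟩

end

end Crest.Agent.R272.Mid_414
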