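import Crest.Agent.R272.Comp2_259
import Crest.Agent.R272.Mid_414

/-!
# R272, leaf COMP-RED (helper259), part 4: the two frozen ends with the landed Kodaira theorem

`s14_end`, `s15_end` : only a compact Hausdorff manifold (finite atlas) with ONE positive line bundle;
no `Part`, no `ProjD`, no connectedness.
-/

set_option autoImplicit false
set_option linter.unusedSectionVars false

open Set Filter Topology Complex TopologicalSpace
open Crest.AlgGeometry

namespace Crest.Agent.R272.Comp_259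

open Crest.Agent.R275.Geo Crest.Agent.R275.Core144 Crest.Agent.R275.GC293
open Crest.Agent.R273.Defs_333
open CpTop_338 CpChow_338 CpMan_338 CpPi_338 CpRat423 G14a_414

noncomputable section

/-- **the end of S0414** -/
theorem s14_end {X : Type} [TopologicalSpace X] [T2Space X] [CompactSpace X] {A : Atl 2 X}
    [Finite A.ι] {O : LB A} {h : HM O} (hp : h.Pos) {k : ℕ}
    (γ : Fin k → P1C A) (ht : ∀ i j, i ≠ j → Trans (γ i) (γ j))
    (h3 : ∀ i j l, i ≠ j → j ≠ l → i ≠ l → (γ i).img ∩ (γ j).img ∩ (γ l).img = ∅)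
    (hc : IsConnected (⋃ i, (γ i).img)) {x : X} (hx : x ∈ ⋃ i, (γ i).img)
    (hi : (loopsIn (⋃ i, (γ i).img) x).Infinite) : S14 := by
  obtain ⟨PA⟩ := Part_414.exists_part_any A
  obtain ⟨P⟩ := Mid_414.exists_projD_any hp
  exact s14_of PA P γ ht h3 hc hx hi

open CpEnd_338 CpTor_338 TLoop_463 in
/-- **the end of S0415** -/
theorem s15_end {n : ℕ} {M : Type} [TopologicalSpace M] [T2Space M] [CompactSpace M]
    {A : Atl n M} [Finite A.ι] {O : LB A} {hm : HM O} (hp : hm.Pos)
    {ω : Fin 4 → (Fin 2 → ℂ)} (hω : LinearIndependent ℝ ω)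
    (hsim : ∀ l m : Fin 2 → ℂ, l ∈ periodLattice ω → m ∈ periodLattice ω → l ≠ 0 →
      ∀ a : ℂ, m = a • l → a.im = 0)
    (f : C(Fin 2 → ℂ, M)) (hf : HolTo A f) (him : ImmTo A f)
    (hinj : ∀ z w, f z = f w ↔ z - w ∈ periodLattice ω)
    (hper : Per f (periodLattice ω).toAddSubgroup)
    (z₀ : Fin 2 → ℂ) (l₁ : (periodLattice ω).toAddSubgroup)
    (h1 : ¬ IsOfFinOrder (perHom hper z₀ (Multiplicative.ofAdd l₁)))
    (h : ∀ l : (periodLattice ω).toAddSubgroup, ∃ m : ℤ, m ≠ 0 ∧ ∃ k : ℤ,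
      perHom hper z₀ (Multiplicative.ofAdd (m • l - k • l₁)) = 1) : S15 := by
  obtain ⟨PA⟩ := Part_414.exists_part_any A
  obtain ⟨P⟩ := Mid_414.exists_projD_any hp
  exact s15_emb PA P hω hsim f hf him hinj hper z₀ l₁ h1 h

end

end Crest.Agent.R272.Comp_259
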