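import Crest.Agent.R272.LbEnd1_259
import Crest.Agent.R272.LBAsm1_585

/-!
# R272 (S0415), leaf LB-ASM-3 (helper259), part 2: 585's `lb_main` for orbit spaces, in terms of
`perHom`

`lb_per` : `G` acts on `E` (= `X₁`) and `B`, `P : E → B` equivariant; 585's `Alg`, `Ana`; surgery
`Surg (orbMap P) π' V ψ eX` on `X⁻ = Orb G E`; the torus map `F : ℂ² → X'` (periodic, factoring
through the covering `πA : ℂ² → A` and `inc : A → X'`); `j : C × C → E` the fibre; `c` a closed path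
of `C` and `P₀`; degrees `d + d' ≠ 0`: the period of the loop `q (c t, P₀)` has infinite order.
-/

set_option autoImplicit false
set_option linter.unusedSectionVars false

open Topology Set Filter unitInterval

namespace Crest.Agent.R272.LbEnd_259

open Crest.Agent.R272.Per_939 Crest.Agent.R272.CovOrd_463
open Crest.Agent.R272.LbExt_259 Crest.Agent.R272.TLoop_463 Crest.Agent.R272.UB_20
open Crest.Agent.R272.MQ_783 Crest.Agent.R272.Refl_246 Crest.Agent.R272.AJ_956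
open Crest.Agent.R272.LBAsm_585

noncomputable section

section Main

variable {G : Type} [Group G] {E B X' : Type} [TopologicalSpace E] [TopologicalSpace B]
  [TopologicalSpace X'] [MulAction G E] [MulAction G B] [ContinuousConstSMul G E]
  [ContinuousConstSMul G B] [ProperlyDiscontinuousSMul G B] [T2Space B] [LocallyCompactSpace B]

/-- **the lower bound in terms of periods** (paths of `ℂ²` given) -/
theorem lb_per {K R : Subgroup G} {sw : G} (A : Alg K R sw)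
    (hstab : ∀ (b : B) (g : G), g • b = b → g ∈ R) {P : E → B} (hPc : Continuous P)
    (hP : ∀ (g : G) x, P (g • x) = g • P x) {th : E → Cir} {O : Set E}
    (N : Ana (R ⊓ K) th O) {π' : X' → Orb G B} {V : Set X'} {ψ : X' → Orb G E}
    {eX : Set (Orb G E)} (S : Surg (orbMap P hP) π' V ψ eX) {e₀ : Set E}
    (heX : ∀ y : E, pr G y ∈ eX → ∃ g : G, ∃ x ∈ e₀, y = g • x)
    (hneg : ∀ x ∈ e₀, ∀ g ∈ K, th (g • sw • x) = - th (g • x))
    {F : C(E2, X')} {Λ : AddSubgroup E2} (hper : Per F Λ)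
    (γ : C(I, E)) (hγ : ∀ t, γ t ∈ O) (hγ' : ∀ t, sw • γ t ∈ O)
    {g : G} (hg : g ∈ R) (hab : g • γ 0 = γ 1) {d d' : ℝ} (hdd : d + d' ≠ 0)
    (hd : HasDeg (fun t => th (γ t)) d) (hd' : HasDeg (fun t => th (sw • γ t)) d')
    (Γ : C(I, E2)) (l : Λ) (hl : Γ 1 = Γ 0 + (l : E2))
    (hV : ∀ t, F (Γ t) ∈ V) (hψ : ∀ t, ψ (F (Γ t)) = pr G (γ t)) (z₀ : E2) :
    ¬ IsOfFinOrder (perHom hper z₀ (Multiplicative.ofAdd l)) := by
  have hR : R.Normal := A.Rn
  have hreg : RegularSpace (Orb G B) := regular_orb G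
  have D := qdata_orb R hstab hPc hP
  let Γ' : Path (Γ 0) (Γ 1) := ⟨Γ, rfl, rfl⟩
  let γ' : Path (γ 0) (γ 1) := ⟨γ, rfl, rfl⟩
  have h01 : F (Γ 1) = F (Γ 0) := by rw [hl, hper _ _ l.2]
  let α : Path (F (Γ 0)) (F (Γ 0)) := ⟨F.comp Γ, rfl, h01⟩
  have h1 := lb_main A N D S heX hneg γ' hγ hγ' hg hab hdd hd hd' α hV hψ
  exact not_fin_of_path hper z₀ Γ' l hl α (fun t => rfl) h1

/-- **the lower bound, final form**: the loop `q (c t, P₀)` of the torus -/
theorem lb_per' {K R : Subgroup G} {sw : G} (A : Alg K R sw)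
    (hstab : ∀ (b : B) (g : G), g • b = b → g ∈ R) {P : E → B} (hPc : Continuous P)
    (hP : ∀ (g : G) x, P (g • x) = g • P x) {th : E → Cir} {O : Set E}
    (N : Ana (R ⊓ K) th O) {π' : X' → Orb G B} {V : Set X'} {ψ : X' → Orb G E}
    {eX : Set (Orb G E)} (S : Surg (orbMap P hP) π' V ψ eX) {e₀ : Set E}
    (heX : ∀ y : E, pr G y ∈ eX → ∃ g : G, ∃ x ∈ e₀, y = g • x)
    (hneg : ∀ x ∈ e₀, ∀ g ∈ K, th (g • sw • x) = - th (g • x))
    {C T : Type} [TopologicalSpace C] [TopologicalSpace T] {q : C × C → T} {πA : E2 → T}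
    {Λ : AddSubgroup E2} {F : C(E2, X')} {inc : T → X'} (hF : ∀ z, F z = inc (πA z))
    (hper : Per F Λ) {j : C × C → E} (hj : Continuous j)
    (hjO : ∀ x, j x ∈ O) (hsw : ∀ x, sw • j x = j x.swap)
    {c : C(I, C)} (hc : c 0 = c 1) {P₀ : C} (hV : ∀ t, inc (q (c t, P₀)) ∈ V)
    (hψ : ∀ t, ψ (inc (q (c t, P₀))) = pr G (j (c t, P₀))) {d d' : ℝ} (hdd : d + d' ≠ 0)
    (hd : HasDeg (fun t => th (j (c t, P₀))) d) (hd' : HasDeg (fun t => th (j (P₀, c t))) d')
    (Γ : C(I, E2)) (hΓ : ∀ t, πA (Γ t) = q (c t, P₀)) (l : Λ) (hl : Γ 1 = Γ 0 + (l : E2))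
    (z₀ : E2) : ¬ IsOfFinOrder (perHom hper z₀ (Multiplicative.ofAdd l)) := by
  let γ : C(I, E) := ⟨fun t => j (c t, P₀), hj.comp (c.continuous.prodMk continuous_const)⟩
  have hs : ∀ t, sw • γ t = j (P₀, c t) := fun t => hsw _
  refine lb_per A hstab hPc hP N S heX hneg hper γ (fun t => hjO _) (fun t => ?_) R.one_mem ?_ hdd
    hd (hasDeg_congr hd' fun t => ?_) Γ l hl (fun t => ?_) (fun t => ?_) z₀
  · rw [hs]; exact hjO _
  · rw [one_smul]
    show j (c 0, P₀) = j (c 1, P₀)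
    rw [hc]
  · rw [hs]
  · rw [hF, hΓ]; exact hV t
  · rw [hF, hΓ]; exact hψ t

end Main

end

end Crest.Agent.R272.LbEnd_259
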