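import Crest.Agent.R272.As153_338
import Crest.Agent.R272.Comp4_259
import Crest.Agent.R272.LbEnd2_259

/-!
# R272, leaf S15-ASM (helper338), part 4: the doubled arc

* `dbl γ`      : the closed path `γ · (iv γ)⁻¹` of `C` (`γ` an arc between two Weierstrass points);
* `exists_dbl` : its image `q (dbl γ t, c')` lifts to `Γ : I → ℂ²`, `Γ 1 = Γ 0 + (h 1 + h 1)`,
                 `h` the integral of `ω` along `γ`;
* `lives`      : `¬ IsOfFinOrder` of the loop over `dbl γ` ⟹ `¬ IsOfFinOrder (perHom ⟨h 1 + h 1⟩)`.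
-/

set_option autoImplicit false
set_option linter.unusedSectionVars false

open Set Filter Topology TopologicalSpace

namespace Crest.Agent.R272.As15_338

open TLoop_463 CovOrd_463 Crest.Agent.R272.AJ_956 UB_20 LbEnd_259 LbExt_259

noncomputable section

local notation "I" => unitInterval

variable {C : Type} [TopologicalSpace C] {𝒞 : Cur C} {A : Type} [TopologicalSpace A]
  {q : C × C → A} {Λ : AddSubgroup E2} {π : E2 → A}

/-- first half -/
def lo (t : I) : I := ⟨min (2 * (t : ℝ)) 1, by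
  constructor
  · have := t.2.1
    exact le_min (by linarith) zero_le_one
  · exact min_le_right _ _⟩

/-- second half -/
def hi (t : I) : I := ⟨min (2 - 2 * (t : ℝ)) 1, by
  constructor
  · have := t.2.2
    exact le_min (by linarith) zero_le_one
  · exact min_le_right _ _⟩

theorem lo_cont : Continuous lo := by
  unfold lo
  fun_prop

theorem hi_cont : Continuous hi := by
  unfold hi
  fun_prop

theorem lo_of_ge {t : I} (h : (1 / 2 : ℝ) ≤ t) : lo t = 1 :=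
  Subtype.ext (min_eq_right (by linarith))

theorem hi_of_le {t : I} (h : (t : ℝ) ≤ 1 / 2) : hi t = 1 :=
  Subtype.ext (min_eq_right (by linarith))

theorem lo_zero : lo 0 = 0 := Subtype.ext (by simp [lo])
theorem lo_one : lo 1 = 1 := Subtype.ext (by simp [lo])
theorem hi_zero : hi 0 = 1 := Subtype.ext (by simp [hi])
theorem hi_one : hi 1 = 0 := Subtype.ext (by simp [hi])

/-- gluing of two maps at `1/2` -/
theorem glue_half {Y : Type*} [TopologicalSpace Y] {F₁ F₂ : I → Y} (h₁ : Continuous F₁)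
    (h₂ : Continuous F₂) (he : ∀ t : I, (t : ℝ) = 1 / 2 → F₁ t = F₂ t) :
    Continuous fun t : I => if (t : ℝ) ≤ 1 / 2 then F₁ t else F₂ t :=
  Continuous.if_le h₁ h₂ continuous_subtype_val continuous_const fun t ht => he t ht

/-- the closed path `γ · (iv γ)⁻¹` -/
def dbl (𝒞 : Cur C) (γ : C(I, C)) (he : 𝒞.iv (γ 1) = γ 1) : C(I, C) where
  toFun t := if (t : ℝ) ≤ 1 / 2 then γ (lo t) else 𝒞.iv (γ (hi t))
  continuous_toFun := glue_half (γ.continuous.comp lo_cont)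
    (𝒞.iv_cont.comp (γ.continuous.comp hi_cont)) fun t ht => by
      rw [lo_of_ge ht.ge, hi_of_le ht.le, he]

theorem dbl_le (γ : C(I, C)) (he : 𝒞.iv (γ 1) = γ 1) {t : I} (ht : (t : ℝ) ≤ 1 / 2) :
    dbl 𝒞 γ he t = γ (lo t) := if_pos ht

theorem dbl_ge (γ : C(I, C)) (he : 𝒞.iv (γ 1) = γ 1) {t : I} (ht : (1 / 2 : ℝ) ≤ t) :
    dbl 𝒞 γ he t = 𝒞.iv (γ (hi t)) := by
  by_cases h : (t : ℝ) ≤ 1 / 2
  · have h2 : (t : ℝ) = 1 / 2 := le_antisymm h ht
    rw [dbl_le γ he h, lo_of_ge ht, hi_of_le h, he]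
  · exact if_neg h

theorem dbl_closed (γ : C(I, C)) (hs : 𝒞.iv (γ 0) = γ 0) (he : 𝒞.iv (γ 1) = γ 1) :
    dbl 𝒞 γ he 0 = dbl 𝒞 γ he 1 := by
  rw [dbl_le γ he (by simp), dbl_ge γ he (by simp; norm_num), lo_zero, hi_one, hs]

theorem exists_dbl (J : 𝒞.IsJac q Λ π) (hq : Continuous q) {γ : C(I, C)} {h : C(I, E2)}
    (H : IsInt 𝒞 γ h) (hs : 𝒞.iv (γ 0) = γ 0) (he : 𝒞.iv (γ 1) = γ 1) (c' : C) :
    ∃ Γ : C(I, E2), Γ 1 = Γ 0 + (h 1 + h 1) ∧ ∀ t, π (Γ t) = q (dbl 𝒞 γ he t, c') := by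
  obtain ⟨z₀, hz⟩ := J.surj (q (γ 0, c'))
  have h1 := lift_eq J hq H c' z₀ hz
  have h2 := lift_eq J hq H.neg c' z₀ (by
    show π z₀ = q (𝒞.iv (γ 0), c')
    rw [hs, hz])
  have h2' : ∀ t, π (z₀ + (h 1 + h 1) - h t) = q (𝒞.iv (γ t), c') := by
    intro t
    have h3 : π (z₀ + - h t) = q (𝒞.iv (γ t), c') := h2 t
    rw [← h3, J.eq_iff]
    have e : z₀ + (h 1 + h 1) - h t - (z₀ + - h t) = h 1 + h 1 := by abel
    rw [e]
    exact two_mem J hq H hs he
  let Γ : C(I, E2) := ⟨fun t => if (t : ℝ) ≤ 1 / 2 then z₀ + h (lo t) else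
      z₀ + (h 1 + h 1) - h (hi t), glue_half
    (continuous_const.add (h.continuous.comp lo_cont))
    (continuous_const.sub (h.continuous.comp hi_cont)) fun t ht => by
      rw [lo_of_ge ht.ge, hi_of_le ht.le]
      abel⟩
  have hle : ∀ t : I, (t : ℝ) ≤ 1 / 2 → Γ t = z₀ + h (lo t) := fun t ht => if_pos ht
  have hgt : ∀ t : I, ¬ (t : ℝ) ≤ 1 / 2 → Γ t = z₀ + (h 1 + h 1) - h (hi t) := fun t ht => if_neg ht
  refine ⟨Γ, ?_, fun t => ?_⟩
  · rw [hle 0 (by simp), hgt 1 (by norm_num), lo_zero, hi_one, H.zero, sub_zero, add_zero]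
  · by_cases ht : (t : ℝ) ≤ 1 / 2
    · rw [hle t ht, dbl_le γ he ht]
      exact h1 (lo t)
    · rw [hgt t ht, dbl_ge γ he (not_le.1 ht).le]
      exact h2' (hi t)

/-- the loop over `dbl γ` computes the period `h 1 + h 1` -/
theorem lives (J : 𝒞.IsJac q Λ π) (hq : Continuous q) {Y : Type} [TopologicalSpace Y]
    {ι : A → Y} {f : C(E2, Y)} (hf : ∀ v, f v = ι (π v)) (hper : Per f Λ) (z₀ : E2)
    {γ : C(I, C)} {h : C(I, E2)} (H : IsInt 𝒞 γ h) (hs : 𝒞.iv (γ 0) = γ 0)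
    (he : 𝒞.iv (γ 1) = γ 1) (c' : C) {y : Y} (δ : Path y y)
    (hδ : ∀ t, δ t = ι (q (dbl 𝒞 γ he t, c'))) (hn : ¬ IsOfFinOrder (cls δ)) :
    ¬ IsOfFinOrder (perHom hper z₀
      (Multiplicative.ofAdd (⟨h 1 + h 1, two_mem J hq H hs he⟩ : Λ))) := by
  obtain ⟨Γ, h1, h2⟩ := exists_dbl J hq H hs he c'
  refine not_fin_of_path hper z₀ (⟨Γ, rfl, rfl⟩ : Path (Γ 0) (Γ 1)) _ h1 δ (fun t => ?_) hn
  rw [hδ]
  show _ = f (Γ t)
  rw [hf, h2]

section Pos

open Crest.Agent.R275.Geo Crest.Agent.R275.Core144 Crest.Agent.R275.GC293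
open Crest.Agent.R273.Defs_333 Crest.Agent.R273.Fam_835 DCov_426

/-- one positive line bundle on a compatible finite atlas (414, 410) -/
theorem posF_of_pos' {n : ℕ} {X : Type} [TopologicalSpace X] [T2Space X] [CompactSpace X]
    {CX : Fam n X} {A : Atl n X} [Finite A.ι] (h : Cmp CX A) {O : LB A} {hm : HM O}
    (hp : hm.Pos) : PosF CX := by
  obtain ⟨PA⟩ := Part_414.exists_part_any A
  obtain ⟨P⟩ := Mid_414.exists_projD_any hp
  exact posF_of_projD PA h P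

end Pos

end

end Crest.Agent.R272.As15_338
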