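import Crest.Agent.R272.As154_338

/-!
# R272, leaf S15-ASM (helper338), part 5: S0415 from the model, the lower bound and the upper bound

`s15_model` : the composition of
* the lower bound for orbit spaces and surgery `LbEnd_259.lb_per'` (585, 990, 936, 259, 783, 342, 66);
* the Abel-Jacobi description `J : 𝒞.IsJac q Λ πA` (956) and the doubled arc (20, `exists_dbl`);
* the positive line bundle on `X⁺` (`PosF`), the holomorphic immersion `F : ℂ² → X⁺` (834);
* the upper bound: the periods of the arcs `0`, `2`, `3` die (20).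
-/

set_option autoImplicit false
set_option linter.unusedSectionVars false

open Set Filter Topology TopologicalSpace
open Crest.AlgGeometry

namespace Crest.Agent.R272.As15_338

open Crest.Agent.R275.Geo Crest.Agent.R275.Core144 Crest.Agent.R275.GC293
open Crest.Agent.R273.Defs_333 Crest.Agent.R273.Fam_835
open Crest.Agent.R272.Per_939 CovOrd_463 LbExt_259 TLoop_463 Crest.Agent.R272.AJ_956 UB_20
open MQ_783 Refl_246 LBAsm_585 LbEnd_259 Comp_259

noncomputable section

local notation "I" => unitInterval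

variable {G : Type} [Group G] {E B X : Type} [TopologicalSpace E] [TopologicalSpace B]
  [TopologicalSpace X] [MulAction G E] [MulAction G B] [ContinuousConstSMul G E]
  [ContinuousConstSMul G B] [ProperlyDiscontinuousSMul G B] [T2Space B] [LocallyCompactSpace B]
  [T2Space X] [CompactSpace X]

/-- **S0415 from the model** -/
theorem s15_model {n : ℕ} {CX : Fam n X} (hC : PosF CX)
    -- the group and the base
    {K R : Subgroup G} {sw : G} (A : Alg K R sw)
    (hstab : ∀ (b : B) (g : G), g • b = b → g ∈ R) {P : E → B} (hPc : Continuous P)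
    (hP : ∀ (g : G) x, P (g • x) = g • P x)
    -- the circle valued function
    {th : E → Cir} {O : Set E} (N : Ana (R ⊓ K) th O)
    -- the surgery
    {π' : X → Orb G B} {V : Set X} {ψ : X → Orb G E}
    {eX : Set (Orb G E)} (S : Surg (orbMap P hP) π' V ψ eX) {e₀ : Set E}
    (heX : ∀ y : E, pr G y ∈ eX → ∃ g : G, ∃ x ∈ e₀, y = g • x)
    (hneg : ∀ x ∈ e₀, ∀ g ∈ K, th (g • sw • x) = - th (g • x))
    -- the curve and the torus
    {C T : Type} [TopologicalSpace C] [TopologicalSpace T] {𝒞 : Cur C} {q : C × C → T}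
    (hq : Continuous q) {Λ : AddSubgroup E2} {πA : E2 → T} (J : 𝒞.IsJac q Λ πA)
    {F : C(E2, X)} {inc : T → X} (hF : ∀ z, F z = inc (πA z)) (hinc : Function.Injective inc)
    (himm : ImmF CX F) (hper : Per F Λ)
    -- the complex multiplication
    {d : Fin 2 → ℂ} (hd : ∀ i, IsPrimitiveRoot (d i) 5) (hd1 : d 0 ≠ d 1) (hd2 : d 0 * d 1 ≠ 1)
    {D : E2 → E2} (hD : ∀ v i, D v i = d i * v i) (hΛ : ∀ v ∈ Λ, D v ∈ Λ)
    -- the four arcs
    {γ : Fin 4 → C(I, C)} {h : Fin 4 → C(I, E2)} (H : ∀ i, IsInt 𝒞 (γ i) (h i))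
    (hs : ∀ i, 𝒞.iv (γ i 0) = γ i 0) (he : ∀ i, 𝒞.iv (γ i 1) = γ i 1)
    (hrel : ∀ i : Fin 3, h i.succ 1 = D (h i.castSucc 1) ∨ h i.succ 1 = - D (h i.castSucc 1))
    (z₀ : E2)
    -- upper bound
    (die0 : perHom hper z₀ (Multiplicative.ofAdd
      ⟨h 0 1 + h 0 1, two_mem J hq (H 0) (hs 0) (he 0)⟩) = 1)
    (die2 : perHom hper z₀ (Multiplicative.ofAdd
      ⟨h 2 1 + h 2 1, two_mem J hq (H 2) (hs 2) (he 2)⟩) = 1)
    (die3 : perHom hper z₀ (Multiplicative.ofAdd
      ⟨h 3 1 + h 3 1, two_mem J hq (H 3) (hs 3) (he 3)⟩) = 1)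
    -- lower bound: the fibre, the loop, the degrees
    {j : C × C → E} (hj : Continuous j) (hjO : ∀ x, j x ∈ O) (hsw : ∀ x, sw • j x = j x.swap)
    {P₀ : C} (hV : ∀ t, inc (q (dbl 𝒞 (γ 1) (he 1) t, P₀)) ∈ V)
    (hψ : ∀ t, ψ (inc (q (dbl 𝒞 (γ 1) (he 1) t, P₀))) = pr G (j (dbl 𝒞 (γ 1) (he 1) t, P₀)))
    {d₁ d₂ : ℝ} (hdd : d₁ + d₂ ≠ 0)
    (hdeg : HasDeg (fun t => th (j (dbl 𝒞 (γ 1) (he 1) t, P₀))) d₁)
    (hdeg' : HasDeg (fun t => th (j (P₀, dbl 𝒞 (γ 1) (he 1) t))) d₂) : S15 := by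
  have hadd : ∀ v w, D (v + w) = D v + D w := by
    intro v w
    funext i
    rw [Pi.add_apply, hD, hD, hD, Pi.add_apply]
    ring
  obtain ⟨Γ, h1, h2⟩ := exists_dbl J hq (H 1) (hs 1) (he 1) P₀
  have live := lb_per' A hstab hPc hP N S heX hneg hF hper hj hjO hsw
    (dbl_closed (γ 1) (hs 1) (he 1)) hV hψ hdd hdeg hdeg' Γ h2
    ⟨h 1 1 + h 1 1, two_mem J hq (H 1) (hs 1) (he 1)⟩ h1 z₀
  refine s15_top hC J F hF hinc himm hper hd hd1 hd2 hD hΛ z₀ (Q := fun i => h i 1 + h i 1)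
    (fun i => two_mem J hq (H i) (hs i) (he i)) (fun i => ?_) die0 live die2 die3
  rcases hrel i with h3 | h3
  · left
    show h i.succ 1 + h i.succ 1 = D (h i.castSucc 1 + h i.castSucc 1)
    rw [h3, hadd]
  · right
    show h i.succ 1 + h i.succ 1 = - D (h i.castSucc 1 + h i.castSucc 1)
    rw [h3, hadd, neg_add]

end

end Crest.Agent.R272.As15_338
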