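import Crest.Agent.R272.PEnd5_732

/-!
# R272, task POS-END (helper732), part 6: the composition, comparison only OFF THE FIBRE over `q₀`

(correction #7393 of helper848) `J^mm R^k` and the ideal generated by `Φ` are compared only at the points
`ι x` with `p x ≠ q₀`.
-/

set_option autoImplicit false
set_option linter.unusedSectionVars false
set_option linter.unusedVariables false

open Set Filter Topology Complex
open scoped ContDiff Matrix ComplexConjugate Manifold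

namespace Crest.Agent.R272.PEnd_732

open Crest.Agent.R275.Geo Crest.Agent.R275.Core144 Crest.Agent.R275.GC293
open Crest.Agent.R273 Crest.Agent.R273.Defs_333 Crest.Agent.R273.Map_835
open Crest.Agent.R273.Fam_835
open Crest.Agent.R272.Quot_783 Crest.Agent.R272.PosGlue_232 Crest.Agent.R272.HFam_342
open Crest.Agent.R272.CB_232

noncomputable section

variable {n m : ℕ} {X Y N : Type} [TopologicalSpace X] [TopologicalSpace Y] [TopologicalSpace N]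
  {C : Fam n X} {C' : Fam n Y} {p : X → N} {p' : Y → N} {U U' V W T : Set X} {κ : Type}

/-- restriction of local equations to an open set -/
def restr (E : Eqs C U) (T : Set X) (hT : IsOpen T) : Eqs C (U ∩ T) where
  α := E.α
  V a := E.V a ∩ T
  op a := (E.op a).inter hT
  cov x hx := by
    obtain ⟨a, ha⟩ := E.cov x hx.1
    exact ⟨a, ha, hx.2⟩
  f := E.f
  dense a := inter_subset_left.trans (E.dense a)
  loc a b x hx := E.loc a b x ⟨hx.1.1, hx.2.1⟩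

theorem restr_g {E : Eqs C U} {hT : IsOpen T} {a b : E.α} {x : X}
    (hx : x ∈ (restr E T hT).V a ∩ (restr E T hT).V b) :
    (restr E T hT).cb.g a b x = E.cb.g a b x := by
  obtain ⟨T', hT', hxT, u, hu, hu0, he⟩ := E.loc a b x ⟨hx.1.1, hx.2.1⟩
  rw [E.g_eq (a := a) (b := b) ⟨hx.1.1, hx.2.1⟩ hT' hxT hu he]
  exact (restr E T hT).g_eq (a := a) (b := b) hx hT' hxT hu he

theorem posNear_restr {E : Eqs C U} (hU : IsOpen U) (hT : IsOpen T) {k : ℕ} {K : Set X}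
    (hKU : K ⊆ U) (hKT : K ⊆ T) (h : PosNear (E.idl k) K) :
    PosNear ((restr E T hT).idl k) K :=
  PosNear.ofIso (hU.inter hT) Subset.rfl inter_subset_left (subset_inter hKU hKT)
    (IsoOn.ofSub (L := (restr E T hT).idl k) (L' := E.idl k) (fun a => a)
      (fun a x hx => hx.1.1) (fun a b x hx => by
        show (restr E T hT).cb.g a b x ^ (-(k : ℤ)) = E.cb.g a b x ^ (-(k : ℤ))
        rw [restr_g (E := E) (hT := hT) ⟨hx.1.1, hx.1.2⟩])) h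

/-- positivity of the transported ideal near the fibres over `q ≠ q₀` -/
theorem posNear_eqY [CompactSpace Y] [CompactSpace N] {J R : Eqs C univ}
    {hJ : ∀ a, HolF C (J.V a) (J.f a)} {ι : OpenPartialHomeomorph X Y}
    {hι : ∀ x ∈ ι.source, LC C C' ι x} (hιp : ∀ x ∈ ι.source, p' (ι x) = p x) {mm k : ℕ} {q : N}
    (hq : ∀ y, p' y = q → y ∈ ι.target)
    (h : PosNear (((J.idl 1).zpow mm).tens (R.idl k)) (p ⁻¹' {q})) :
    PosNear ((eqY J R hJ ι hι mm k).idl 1) (p' ⁻¹' {q}) := by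
  have hO : IsOpen (ι.symm.source ∩ ι.symm ⁻¹' (univ : Set X)) :=
    ι.symm.isOpen_inter_preimage isOpen_univ
  have hK : p' ⁻¹' {q} ⊆ ι.symm.source ∩ ι.symm ⁻¹' univ := fun y hy => ⟨hq y hy, mem_univ _⟩
  have h1 : PosNear ((eqJR J R hJ mm k).idl 1) (p ⁻¹' {q}) :=
    PosNear.ofIso isOpen_univ Subset.rfl Subset.rfl (subset_univ _) (isoJR J R hJ mm k univ) h
  have h2 := PosNear.push ι.symm (lC_symm hι) (K := p ⁻¹' {q}) isOpen_univ h1
  have h3 : p' ⁻¹' {q} ⊆ ι.symm.source ∩ ι.symm ⁻¹' (p ⁻¹' {q} ∩ univ) := by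
    intro y hy
    have hy1 : y ∈ ι.target := (hK hy).1
    refine ⟨hy1, ?_, mem_univ _⟩
    show p (ι.symm y) = q
    have h4 := hιp _ (ι.map_target hy1)
    rw [ι.right_inv hy1] at h4
    rw [← h4]
    exact hy
  exact PosNear.ofIso hO Subset.rfl Subset.rfl hK
    (isoPush ι.symm (lC_symm hι) (eqJR J R hJ mm k) 1 (ι.symm.source ∩ ι.symm ⁻¹' univ))
    (h2.mono h3)

/-- **the composition**, comparison off the fibre over `q₀` only -/
theorem pos_top2 [CompactSpace X] [T2Space X] [CompactSpace Y] [T2Space Y] [CompactSpace N]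
    [T2Space N] (B : Atl m N) {H : LB B} {hH : HM H} (hpos : hH.Pos) (hp : Continuous p)
    (hp' : HolC C' (fam B) p') (J R : Eqs C univ) (hJ : ∀ a, HolF C (J.V a) (J.f a)) (k : ℕ)
    (q₀ : N) (hJpos : ∀ q, PosNear (J.idl 1) (p ⁻¹' {q})) (ι : OpenPartialHomeomorph X Y)
    (hι : ∀ x ∈ ι.source, LC C C' ι x) (hιp : ∀ x ∈ ι.source, p' (ι x) = p x)
    (htgt : ∀ y, p' y ≠ q₀ → y ∈ ι.target)
    (germ : ∀ m₀ : ℕ, ∃ mm : ℕ, m₀ ≤ mm ∧ ∃ (W : Set Y), IsOpen W ∧ p' ⁻¹' {q₀} ⊆ W ∧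
      ∃ E : Eqs C' W, (∀ a b, ∀ y ∈ (eqY J R hJ ι hι mm k).V a ∩ E.V b, p' y ≠ q₀ →
        UnitAt C' ((eqY J R hJ ι hι mm k).f a) (E.f b) y) ∧ PosNear (E.idl 1) (p' ⁻¹' {q₀})) :
    ∃ A : Atl n Y, Finite A.ι ∧ GoodA A ∧ Nonempty (Part A) ∧ HolC (fam A) C' id ∧
      HolC C' (fam A) id ∧ Nonempty (ProjD A) := by
  obtain ⟨m₀, hm₀⟩ := exists_posNear_tens (C := C) (p := p) hp (Q := J.idl 1) (D := R.idl k) hJpos
  obtain ⟨mm, hmm, W, hW, hqW, E, hE, hEpos⟩ := germ m₀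
  have hT : IsOpen {y | p' y ≠ q₀} :=
    (isClosed_singleton.preimage hp'.cont : IsClosed (p' ⁻¹' {q₀})).isOpen_compl
  have hO : IsOpen (ι.symm.source ∩ ι.symm ⁻¹' (univ : Set X)) :=
    ι.symm.isOpen_inter_preimage isOpen_univ
  set E₀ := eqY J R hJ ι hι mm k with hE₀
  let E₀' := restr E₀ {y | p' y ≠ q₀} hT
  have hE' : ∀ a b, ∀ y ∈ E₀'.V a ∩ E.V b, UnitAt C' (E₀'.f a) (E.f b) y :=
    fun a b y hy => hE a b y ⟨hy.1.1, hy.2⟩ hy.1.2
  let E₁ := Eqs.join E₀' E hE'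
  have hcov : ∀ y : Y, y ∈ ((ι.symm.source ∩ ι.symm ⁻¹' univ) ∩ {y | p' y ≠ q₀}) ∪ W := by
    intro y
    by_cases hy : p' y = q₀
    · exact Or.inr (hqW hy)
    · exact Or.inl ⟨⟨htgt y hy, mem_univ _⟩, hy⟩
  have hloc : ∀ q, PosNear ((eUniv E₁ hcov).idl 1) (p' ⁻¹' {q}) := by
    intro q
    refine posNear_univ hcov ?_
    by_cases hq : q = q₀
    · subst hq
      exact PosNear.join_right (E₀ := E₀') (E₁ := E) (h := hE') (-((1 : ℕ) : ℤ)) hW hqW hEpos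
    · have hK1 : p' ⁻¹' {q} ⊆ {y | p' y ≠ q₀} := by
        intro y hy h
        exact hq ((show p' y = q from hy).symm.trans h)
      have hK : p' ⁻¹' {q} ⊆ ι.symm.source ∩ ι.symm ⁻¹' univ := fun y hy =>
        ⟨htgt y (hK1 hy), mem_univ _⟩
      refine PosNear.join_left (E₀ := E₀') (E₁ := E) (h := hE') (-((1 : ℕ) : ℤ))
        (hO.inter hT) (subset_inter hK hK1) ?_
      exact posNear_restr hO hT hK hK1
        (posNear_eqY hιp (fun y hy => htgt y (by rw [hy]; exact hq)) (hm₀ mm hmm q))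
  obtain ⟨A, h1, h2, ⟨PA⟩, h4, h5, P, g, hg⟩ := pos_end C' B hpos hp' _ hloc
  obtain ⟨r, -, P', -⟩ := Kod8_410.exists_projD PA hg
  exact ⟨A, h1, h2, ⟨PA⟩, h4, h5, ⟨P'⟩⟩

/-- **data near the bad fibre** (corrected): functions `Φ j` which generate an invertible ideal near
`p'⁻¹(q₀)`, with finite fibres there, and which generate `J^mm R^k` off the fibre over `q₀` -/
structure PhiD (C : Fam n X) (C' : Fam n Y) (p : X → N) (p' : Y → N) (q₀ : N)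
    (ι : OpenPartialHomeomorph X Y) (J R : Eqs C univ) (mm k : ℕ) where
  κ : Type
  fin : Fintype κ
  Φ : κ → Y → ℂ
  W : Set Y
  hW : IsOpen W
  sub : p' ⁻¹' {q₀} ⊆ W
  gen : ∀ y ∈ p' ⁻¹' {q₀}, ∃ c, FinCB3_876.ValC C' Φ y c
  cmp : ∀ x ∈ ι.source, ι x ∈ W → p x ≠ q₀ → ∃ a b, x ∈ J.V a ∧ x ∈ R.V b ∧
    FinCB3_876.GenAt C (fun j z => Φ j (ι z)) (fun z => J.f a z ^ mm * R.f b z ^ k) x
  ff : ∀ q ∈ p' ⁻¹' {q₀}, {x | x ∈ p' ⁻¹' {q₀} ∧ ∃ c c', FinCB3_876.ValC C' Φ q c ∧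
    FinCB3_876.ValC C' Φ x c' ∧ ∀ i j, c i * c' j = c j * c' i}.Finite

/-- **the composition with functions `Φ`** (corrected) -/
theorem pos_gen2 [CompactSpace X] [T2Space X] [CompactSpace Y] [T2Space Y] [CompactSpace N]
    [T2Space N] (B : Atl m N) {H : LB B} {hH : HM H} (hpos : hH.Pos) (hp : Continuous p)
    (hp' : HolC C' (fam B) p') (J R : Eqs C univ) (hJ : ∀ a, HolF C (J.V a) (J.f a)) (k : ℕ)
    (q₀ : N) (hJpos : ∀ q, PosNear (J.idl 1) (p ⁻¹' {q})) (ι : OpenPartialHomeomorph X Y)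
    (hι : ∀ x ∈ ι.source, LC C C' ι x) (hιp : ∀ x ∈ ι.source, p' (ι x) = p x)
    (htgt : ∀ y, p' y ≠ q₀ → y ∈ ι.target)
    (germ : ∀ m₀ : ℕ, ∃ mm : ℕ, m₀ ≤ mm ∧ Nonempty (PhiD C C' p p' q₀ ι J R mm k)) :
    ∃ A : Atl n Y, Finite A.ι ∧ GoodA A ∧ Nonempty (Part A) ∧ HolC (fam A) C' id ∧
      HolC C' (fam A) id ∧ Nonempty (ProjD A) := by
  refine pos_top2 B hpos hp hp' J R hJ k q₀ hJpos ι hι hιp htgt fun m₀ => ?_
  obtain ⟨mm, hmm, ⟨D⟩⟩ := germ m₀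
  refine ⟨mm, hmm, ?_⟩
  have := D.fin
  set U : Set Y := D.W ∩ {y | ∃ O γ ψ, y ∈ O ∧ Gen C' D.Φ O γ ψ} with hUd
  have hU : IsOpen U := D.hW.inter (isOpen_genSet C' D.Φ)
  have hKU : p' ⁻¹' {q₀} ⊆ U := by
    intro y hy
    obtain ⟨c, hc⟩ := D.gen y hy
    exact ⟨D.sub hy, valC_gen hc⟩
  set E₀ := eqY J R hJ ι hι mm k with hE₀
  let E₁ : Eqs C' U := genE C' D.Φ U hU fun x hx => hx.2
  have hT : IsOpen {y | p' y ≠ q₀} :=
    (isClosed_singleton.preimage hp'.cont : IsClosed (p' ⁻¹' {q₀})).isOpen_compl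
  -- units on the overlap
  have hE : ∀ a b, ∀ y ∈ E₀.V a ∩ E₁.V b, p' y ≠ q₀ → UnitAt C' (E₀.f a) (E₁.f b) y := by
    intro a b y hy hyq
    have hy1 : y ∈ ι.target := hy.1.1
    have hx := ι.map_target hy1
    obtain ⟨a', b', ha', hb', hg⟩ := D.cmp (ι.symm y) hx (by
      rw [ι.right_inv hy1]; exact hy.2.2.1) (by
      rw [← hιp _ hx, ι.right_inv hy1]; exact hyq)
    have h1 := genAt_push hι hy1 hg
    let ab : E₀.α := (a', b')
    have hab : y ∈ E₀.V ab := ⟨hy1, ha', hb'⟩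
    obtain ⟨O, ψ, hyO, hG⟩ := genAt_gen h1 (E₀.op ab) hab (E₀.dense ab)
    have h2 : UnitAt C' (E₀.f ab) (E₁.f b) y := hG.unit b.2 ⟨hyO, hy.2.1⟩
    have h3 : UnitAt C' (E₀.f a) (E₀.f ab) y := E₀.loc a ab y ⟨hy.1, hab⟩
    exact h3.trans h2
  let E₂ := Eqs.join (restr E₀ {y | p' y ≠ q₀} hT) E₁
    fun a b y hy => hE a b y ⟨hy.1.1, hy.2⟩ hy.1.2
  have hcov : ∀ y : Y, y ∈ ((ι.symm.source ∩ ι.symm ⁻¹' univ) ∩ {y | p' y ≠ q₀}) ∪ U := by
    intro y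
    by_cases hy : p' y = q₀
    · exact Or.inr (hKU hy)
    · exact Or.inl ⟨⟨htgt y hy, mem_univ _⟩, hy⟩
  refine ⟨univ, isOpen_univ, subset_univ _, eUniv E₂ hcov, ?_, ?_⟩
  · rintro a (b | b) y hy hyq
    · exact E₀.loc a b y ⟨hy.1, hy.2.1⟩
    · exact hE a b y hy hyq
  · have hN : IsClosed (p' ⁻¹' {q₀}) := isClosed_singleton.preimage hp'.cont
    refine FinCB3_876.posNear_idl (eUniv E₂ hcov) hN.isCompact D.Φ (fun y hy => ?_) D.ff
    obtain ⟨b, hb⟩ := E₁.cov y (hKU hy)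
    refine ⟨Sum.inr b, hb, b.1.1, b.2.op, hb.1, b.1.2.2, b.2.hol, fun z hz j => ?_, b.2.nz y hb.1⟩
    rw [b.2.eq j z hz, mul_comm]
    rfl

end

end Crest.Agent.R272.PEnd_732
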