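import Crest.Agent.R272.As155_338
import Crest.Agent.R272.AJz_956
import Crest.Agent.R272.PEnd6_732

/-!
# R272, leaf S15-ASM (helper338), part 6: S0415 for the curve `cur Pz` (297) and its Jacobian (956)

* `Dies 𝒞 hq inc γ`, `Lives 𝒞 hq inc γ` : the period `2 ∫_γ ω` of an arc `γ` between Weierstrass points
  is trivial (has infinite order) in `π₁(X)`, for every description `T = ℂ² / Λ`;
* `s15_z` : S0415 from `PosF CX`, `q : C × C → T`, `inc : T → X` (immersion), ONE arc `g` between two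
  Weierstrass points such that `g`, `α² g`, `α³ g` die and `α g` lives.
-/

set_option autoImplicit false
set_option linter.unusedSectionVars false

open Set Filter Topology TopologicalSpace
open Crest.AlgGeometry

namespace Crest.Agent.R272.As15_338

open Crest.Agent.R275.Geo Crest.Agent.R275.Core144 Crest.Agent.R275.GC293
open Crest.Agent.R273.Defs_333 Crest.Agent.R273.Fam_835
open Crest.Agent.R272.Per_939 CovOrd_463 LbExt_259 TLoop_463 Crest.Agent.R272.AJ_956 UB_20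
open MQ_783 Refl_246 LBAsm_585 LbEnd_259 Comp_259 DCov_426
open Cur_297 AJz_956

noncomputable section

local notation "I" => unitInterval

/-! ### positivity in 732's form -/

/-- the conclusion of `PEnd_732.pos_gen2` is `PosF` -/
theorem posF_of_gen2 {n : ℕ} {X : Type} [TopologicalSpace X] [T2Space X] [CompactSpace X]
    {CX : Fam n X} (h : ∃ A : Atl n X, Finite A.ι ∧ GoodA A ∧ Nonempty (Part A) ∧
      HolC (fam A) CX id ∧ HolC CX (fam A) id ∧ Nonempty (ProjD A)) : PosF CX := by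
  obtain ⟨A, _, -, ⟨PA⟩, h1, h2, ⟨P⟩⟩ := h
  exact posF_of_projD PA ⟨h1, h2⟩ P

/-! ### dying and living arcs -/

section DL

variable {C T X : Type} [TopologicalSpace C] [TopologicalSpace T] [TopologicalSpace X]

/-- the period of the arc `γ` dies in `π₁(X)` -/
def Dies (𝒞 : Cur C) {q : C × C → T} (hq : Continuous q) (inc : T → X) (γ : C(I, C)) : Prop :=
  ∀ (Λ : AddSubgroup E2) (π : E2 → T) (J : 𝒞.IsJac q Λ π) (F : C(E2, X))
    (_ : ∀ z, F z = inc (π z)) (hper : Per F Λ) (v₀ : E2) (h : C(I, E2)) (H : IsInt 𝒞 γ h)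
    (hs : 𝒞.iv (γ 0) = γ 0) (he : 𝒞.iv (γ 1) = γ 1),
    perHom hper v₀ (Multiplicative.ofAdd (⟨h 1 + h 1, two_mem J hq H hs he⟩ : Λ)) = 1

/-- the period of the arc `γ` has infinite order in `π₁(X)` -/
def Lives (𝒞 : Cur C) {q : C × C → T} (hq : Continuous q) (inc : T → X) (γ : C(I, C)) : Prop :=
  ∀ (Λ : AddSubgroup E2) (π : E2 → T) (J : 𝒞.IsJac q Λ π) (F : C(E2, X))
    (_ : ∀ z, F z = inc (π z)) (hper : Per F Λ) (v₀ : E2) (h : C(I, E2)) (H : IsInt 𝒞 γ h)
    (hs : 𝒞.iv (γ 0) = γ 0) (he : 𝒞.iv (γ 1) = γ 1),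
    ¬ IsOfFinOrder
      (perHom hper v₀ (Multiplicative.ofAdd (⟨h 1 + h 1, two_mem J hq H hs he⟩ : Λ)))

variable {𝒞 : Cur C} {q : C × C → T} {hq : Continuous q} {inc : T → X} {γ γ' : C(I, C)}

theorem Dies.congr (h : Dies 𝒞 hq inc γ) (e : ∀ t, γ' t = γ t) : Dies 𝒞 hq inc γ' := by
  have : γ' = γ := by ext t; exact e t
  rwa [this]

theorem Lives.congr (h : Lives 𝒞 hq inc γ) (e : ∀ t, γ' t = γ t) : Lives 𝒞 hq inc γ' := by
  have : γ' = γ := by ext t; exact e t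
  rwa [this]

/-- the two lifts `γ`, `iv ∘ γ` -/
theorem Dies.iv (h : Dies 𝒞 hq inc γ) (e : ∀ t, γ' t = 𝒞.iv (γ t)) : Dies 𝒞 hq inc γ' := by
  intro Λ π J F hF hper v₀ g H hs he
  have e1 : γ' = ⟨fun t => 𝒞.iv (γ t), 𝒞.iv_cont.comp γ.continuous⟩ := by ext t; exact e t
  have hs' : 𝒞.iv (γ 0) = γ 0 := by
    have := hs
    rw [e, 𝒞.iv_iv] at this
    exact this.symm
  have he' : 𝒞.iv (γ 1) = γ 1 := by
    have := he
    rw [e, 𝒞.iv_iv] at this
    exact this.symm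
  obtain ⟨g0, H0⟩ := exists_int J hq γ
  have H1 : IsInt 𝒞 γ' ⟨fun t => - g0 t, by fun_prop⟩ := by rw [e1]; exact H0.neg
  have e2 := IsInt.unique H H1
  have h1 := h Λ π J F hF hper v₀ g0 H0 hs' he'
  have e3 : (⟨g 1 + g 1, two_mem J hq H hs he⟩ : Λ) = -⟨g0 1 + g0 1, two_mem J hq H0 hs' he'⟩ := by
    apply Subtype.ext
    show g 1 + g 1 = -(g0 1 + g0 1)
    rw [e2]
    show - g0 1 + - g0 1 = _
    abel
  rw [e3, ofAdd_neg, map_inv, h1, inv_one]

theorem Lives.iv (h : Lives 𝒞 hq inc γ) (e : ∀ t, γ' t = 𝒞.iv (γ t)) : Lives 𝒞 hq inc γ' := by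
  intro Λ π J F hF hper v₀ g H hs he hfin
  have e1 : γ' = ⟨fun t => 𝒞.iv (γ t), 𝒞.iv_cont.comp γ.continuous⟩ := by ext t; exact e t
  have hs' : 𝒞.iv (γ 0) = γ 0 := by
    have := hs
    rw [e, 𝒞.iv_iv] at this
    exact this.symm
  have he' : 𝒞.iv (γ 1) = γ 1 := by
    have := he
    rw [e, 𝒞.iv_iv] at this
    exact this.symm
  obtain ⟨g0, H0⟩ := exists_int J hq γ
  have H1 : IsInt 𝒞 γ' ⟨fun t => - g0 t, by fun_prop⟩ := by rw [e1]; exact H0.neg
  have e2 := IsInt.unique H H1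
  refine h Λ π J F hF hper v₀ g0 H0 hs' he' ?_
  have e3 : (⟨g 1 + g 1, two_mem J hq H hs he⟩ : Λ) = -⟨g0 1 + g0 1, two_mem J hq H0 hs' he'⟩ := by
    apply Subtype.ext
    show g 1 + g 1 = -(g0 1 + g0 1)
    rw [e2]
    show - g0 1 + - g0 1 = _
    abel
  rw [e3, ofAdd_neg, map_inv] at hfin
  exact isOfFinOrder_inv_iff.1 hfin

/-- 20's `per_dies` : the two arcs over `γ` are homotopic rel end points in `X` -/
theorem dies_of (c' : C) {a b a' b' : X} (p : Path a b) (p' : Path a' b')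
    (hp : ∀ t, p t = inc (q (γ t, c'))) (hp' : ∀ t, p' t = inc (q (𝒞.iv (γ t), c')))
    (hh : HR p p') : Dies 𝒞 hq inc γ :=
  fun _ _ J F hF hper v₀ _ H hs he =>
    per_dies J hq inc F hF hper v₀ H hs he c' p p' hp hp' hh

end DL

/-! ### the curve `cur Pz` -/

/-- the automorphism of order five as a continuous map -/
def alC : C(Cz, Cz) := ⟨al, continuous_al⟩

theorem alC_fix {c : Cz} (h : (cur Pz).iv c = c) : (cur Pz).iv (alC c) = alC c := by
  show (cur Pz).iv (al c) = al c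
  have h1 : al ((cur Pz).iv c) = (cur Pz).iv (al c) := al_iv c
  rw [← h1, h]

variable {X : Type} [TopologicalSpace X] [T2Space X] [CompactSpace X]

/-- **S0415 from the manifold, the surface `T` and one arc** -/
theorem s15_z {n : ℕ} {CX : Fam n X} (hC : PosF CX) {T : Type} [TopologicalSpace T] [T2Space T]
    {q : Cz × Cz → T} (hq : (cur Pz).IsQ q) {inc : T → X} (hi : Continuous inc)
    (hinc : Function.Injective inc)
    (himm : ∀ (Λ : AddSubgroup E2) (π : E2 → T), (cur Pz).IsJac q Λ π →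
      ImmF CX fun z => inc (π z))
    (g : C(I, Cz)) (hs : (cur Pz).iv (g 0) = g 0) (he : (cur Pz).iv (g 1) = g 1)
    (die0 : Dies (cur Pz) hq.cont inc g)
    (live : Lives (cur Pz) hq.cont inc (alC.comp g))
    (die2 : Dies (cur Pz) hq.cont inc (alC.comp (alC.comp g)))
    (die3 : Dies (cur Pz) hq.cont inc (alC.comp (alC.comp (alC.comp g)))) : S15 := by
  obtain ⟨Λ, π, J, hΛ⟩ := exists_jac_z hq
  let F : C(E2, X) := ⟨fun z => inc (π z), hi.comp J.cont⟩
  have hF : ∀ z, F z = inc (π z) := fun _ => rfl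
  have hper : Per F Λ := fun v l hl => per_of (ι := inc) J.eq_iff v l hl
  let γ : Fin 4 → C(I, Cz) := ![g, alC.comp g, alC.comp (alC.comp g),
    alC.comp (alC.comp (alC.comp g))]
  obtain ⟨h0, H0⟩ := exists_int J hq.cont g
  let DL : E2 →L[ℂ] E2 := LinearMap.toContinuousLinearMap Dz
  have hDL : ∀ c, ∀ᶠ y in 𝓝 c, (cur Pz).P (alC c) (alC y) = DL ((cur Pz).P c y) := al_P
  have H1 := H0.map alC DL hDL
  have H2 := H1.map alC DL hDL
  have H3 := H2.map alC DL hDL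
  have s1 := alC_fix hs
  have s2 := alC_fix s1
  have s3 := alC_fix s2
  have e1 := alC_fix he
  have e2 := alC_fix e1
  have e3 := alC_fix e2
  refine s15_top hC J F hF hinc (himm Λ π J) hper dz_prim dz_ne dz_mul_ne (D := fun v => Dz v)
    Dz_apply hΛ 0 (Q := ![h0 1 + h0 1, Dz (h0 1) + Dz (h0 1), Dz (Dz (h0 1)) + Dz (Dz (h0 1)),
      Dz (Dz (Dz (h0 1))) + Dz (Dz (Dz (h0 1)))]) ?_ ?_ ?_ ?_ ?_ ?_
  · intro j
    fin_cases j
    · exact two_mem J hq.cont H0 hs he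
    · exact two_mem J hq.cont H1 s1 e1
    · exact two_mem J hq.cont H2 s2 e2
    · exact two_mem J hq.cont H3 s3 e3
  · intro j
    left
    fin_cases j
    · show Dz (h0 1) + Dz (h0 1) = Dz (h0 1 + h0 1)
      rw [map_add]
    · show Dz (Dz (h0 1)) + Dz (Dz (h0 1)) = Dz (Dz (h0 1) + Dz (h0 1))
      rw [map_add Dz (Dz (h0 1))]
    · show Dz (Dz (Dz (h0 1))) + Dz (Dz (Dz (h0 1))) = Dz (Dz (Dz (h0 1)) + Dz (Dz (h0 1)))
      rw [map_add Dz (Dz (Dz (h0 1)))]
  · exact die0 Λ π J F hF hper 0 _ H0 hs he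
  · exact live Λ π J F hF hper 0 _ H1 s1 e1
  · exact die2 Λ π J F hF hper 0 _ H2 s2 e2
  · exact die3 Λ π J F hF hper 0 _ H3 s3 e3

end

end Crest.Agent.R272.As15_338
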