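import Crest.Agent.R272.Ax1_834

/-!
# R272, leaf D4 (helper834), part 2: `QHol` + `IsJac` ==> `f` is holomorphic and immersive
-/

set_option autoImplicit false
set_option linter.unusedSectionVars false

open Set Filter Topology
open scoped ContDiff

namespace Crest.Agent.R272.Ax_834

open Crest.Agent.R275.Geo Crest.Agent.R273.Fam_835 Crest.Agent.R272.Refl_246
open Crest.Agent.R272.AJ_956 Crest.Agent.R272.Idn_834

noncomputable section

/-- `(a, b) ↦ a u + b v` -/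
def colMap (u v : E2) : (ℂ × ℂ) →L[ℂ] E2 :=
  (ContinuousLinearMap.fst ℂ ℂ ℂ).smulRight u + (ContinuousLinearMap.snd ℂ ℂ ℂ).smulRight v

theorem colMap_apply (u v : E2) (p : ℂ × ℂ) : colMap u v p = p.1 • u + p.2 • v := rfl

theorem colMap_inj {u v : E2} (h : det2 u v ≠ 0) : Function.Injective (colMap u v) := by
  rw [injective_iff_map_eq_zero]
  intro p hp
  rw [colMap_apply] at hp
  have h0 : p.1 * u 0 + p.2 * v 0 = 0 := congrFun hp 0
  have h1 : p.1 * u 1 + p.2 * v 1 = 0 := congrFun hp 1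
  have e1 : p.1 * det2 u v = 0 := by
    unfold det2
    linear_combination v 1 * h0 - v 0 * h1
  have e2 : p.2 * det2 u v = 0 := by
    unfold det2
    linear_combination u 0 * h1 - u 1 * h0
  refine Prod.ext ?_ ?_
  · exact (mul_eq_zero.1 e1).resolve_right h
  · exact (mul_eq_zero.1 e2).resolve_right h

/-- the same as an equivalence -/
def colEquiv (u v : E2) (h : det2 u v ≠ 0) : (ℂ × ℂ) ≃L[ℂ] E2 :=
  (LinearEquiv.ofInjectiveOfFinrankEq (colMap u v : (ℂ × ℂ) →ₗ[ℂ] E2) (colMap_inj h)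
    (by simp)).toContinuousLinearEquiv

theorem coe_colEquiv (u v : E2) (h : det2 u v ≠ 0) :
    (colEquiv u v h : (ℂ × ℂ) →L[ℂ] E2) = colMap u v := by
  refine ContinuousLinearMap.ext fun p => ?_
  rfl

variable {C : Type} [TopologicalSpace C] {𝒞 : Cur C}

theorem zero_tgt (c : C) : (0 : ℂ) ∈ (𝒞.k c).target := by
  rw [← 𝒞.k_zero c]
  exact (𝒞.k c).map_source (𝒞.k_mem c)

theorem symm_zero (c : C) : (𝒞.k c).symm 0 = c := by
  rw [← 𝒞.k_zero c]
  exact (𝒞.k c).left_inv (𝒞.k_mem c)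

theorem G_an0 (c : C) : AnalyticAt ℂ (𝒞.G c) 0 := 𝒞.G_an c 0 (zero_tgt c)

theorem G_deriv (c : C) : HasDerivAt (𝒞.G c) (𝒞.w c) 0 := (G_an0 c).differentiableAt.hasDerivAt

/-- the pair of points with given coordinates -/
def pt (𝒞 : Cur C) (c c' : C) (p : ℂ × ℂ) : C × C := ((𝒞.k c).symm p.1, (𝒞.k c').symm p.2)

theorem pt_cont (c c' : C) : ContinuousAt (pt 𝒞 c c') 0 :=
  ContinuousAt.prodMk
    (ContinuousAt.comp (f := Prod.fst) (g := (𝒞.k c).symm)
      ((𝒞.k c).continuousAt_symm (zero_tgt c)) continuousAt_fst)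
    (ContinuousAt.comp (f := Prod.snd) (g := (𝒞.k c').symm)
      ((𝒞.k c').continuousAt_symm (zero_tgt c')) continuousAt_snd)

theorem pt_zero (c c' : C) : pt 𝒞 c c' 0 = (c, c') := by
  simp only [pt, Prod.fst_zero, Prod.snd_zero, symm_zero]

theorem ev_tgt (c c' : C) : ∀ᶠ p in 𝓝 (0 : ℂ × ℂ), p.1 ∈ (𝒞.k c).target ∧
    p.2 ∈ (𝒞.k c').target :=
  prod_mem_nhds ((𝒞.k c).open_target.mem_nhds (zero_tgt c))
    ((𝒞.k c').open_target.mem_nhds (zero_tgt c'))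

variable {m : ℕ} {M : Type} [TopologicalSpace M] {FM : Fam m M} {q : C × C → M}
  {Λ : AddSubgroup E2} {π : E2 → range q}

/-- off the diagonal -/
theorem good_off (h : QHol 𝒞 FM q) (hJ : 𝒞.IsJac (rq q) Λ π) {x : C × C} {z₀ : E2}
    (hz : π z₀ = rq q x) (hx : x ∉ 𝒞.Gam) (hd : x.1 ≠ x.2) :
    GoodF FM (fun z => (π z).1) z₀ := by
  obtain ⟨j, hj, Q, hQ, hQe⟩ := h.off x hx hd
  have hdet : det2 (𝒞.w x.1) (𝒞.w x.2) ≠ 0 := 𝒞.nd2 x.1 x.2 (fun h => hd h.symm) hx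
  let A : ℂ × ℂ → E2 := fun p => z₀ + (𝒞.G x.1 p.1 + 𝒞.G x.2 p.2)
  have h1 : AnalyticAt ℂ (fun p : ℂ × ℂ => 𝒞.G x.1 p.1) 0 :=
    AnalyticAt.comp (g := 𝒞.G x.1) (f := Prod.fst) (G_an0 _) analyticAt_fst
  have h2 : AnalyticAt ℂ (fun p : ℂ × ℂ => 𝒞.G x.2 p.2) 0 :=
    AnalyticAt.comp (g := 𝒞.G x.2) (f := Prod.snd) (G_an0 _) analyticAt_snd
  have hA : AnalyticAt ℂ A 0 := analyticAt_const.add (h1.add h2)
  have hA0 : A 0 = z₀ := by simp [A, 𝒞.G_zero]
  have hA' : HasFDerivAt A (colEquiv _ _ hdet : (ℂ × ℂ) →L[ℂ] E2) 0 := by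
    rw [coe_colEquiv]
    have e1 : HasFDerivAt (fun p : ℂ × ℂ => 𝒞.G x.1 p.1)
        ((ContinuousLinearMap.fst ℂ ℂ ℂ).smulRight (𝒞.w x.1)) 0 := by
      have := HasFDerivAt.comp (g := 𝒞.G x.1) (f := Prod.fst) (0 : ℂ × ℂ)
        (G_deriv x.1).hasFDerivAt hasFDerivAt_fst
      refine this.congr_fderiv ?_
      ext <;> simp
    have e2 : HasFDerivAt (fun p : ℂ × ℂ => 𝒞.G x.2 p.2)
        ((ContinuousLinearMap.snd ℂ ℂ ℂ).smulRight (𝒞.w x.2)) 0 := by
      have := HasFDerivAt.comp (g := 𝒞.G x.2) (f := Prod.snd) (0 : ℂ × ℂ)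
        (G_deriv x.2).hasFDerivAt hasFDerivAt_snd
      refine this.congr_fderiv ?_
      ext <;> simp
    exact (e1.add e2).const_add z₀
  obtain ⟨B, hB0, hB1, hB2⟩ := exists_loc_inv hA hA'
  rw [hA0] at hB0 hB1 hB2
  refine ⟨j, by simp only [hz]; exact hj, ?_⟩
  have hQB : Imm (fun v => Q (B v)) z₀ := imm_comp (by rw [hB0]; exact hQ) hB1
  refine imm_congr hQB ?_
  have hBt : Tendsto B (𝓝 z₀) (𝓝 0) := by
    have := hB1.1.continuousAt.tendsto
    rwa [hB0] at this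
  have hpt : Tendsto (fun v => pt 𝒞 x.1 x.2 (B v)) (𝓝 z₀) (𝓝 x) := by
    have h3 := (pt_cont (𝒞 := 𝒞) x.1 x.2).tendsto
    rw [pt_zero] at h3
    exact h3.comp hBt
  filter_upwards [hB2, hpt.eventually (hJ.loc x z₀ hz), hpt.eventually hQe,
    hBt.eventually (ev_tgt x.1 x.2)] with v v1 v2 v3 v4
  have e1 : 𝒞.k x.1 (pt 𝒞 x.1 x.2 (B v)).1 = (B v).1 := (𝒞.k x.1).right_inv v4.1
  have e2 : 𝒞.k x.2 (pt 𝒞 x.1 x.2 (B v)).2 = (B v).2 := (𝒞.k x.2).right_inv v4.2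
  rw [e1, e2] at v3
  have e3 : z₀ + (𝒞.P x.1 (pt 𝒞 x.1 x.2 (B v)).1 + 𝒞.P x.2 (pt 𝒞 x.1 x.2 (B v)).2) = v := by
    simp only [Cur.P, e1, e2]
    exact v1
  rw [e3] at v2
  rw [← v2]
  exact v3.symm

/-- `G ((σ+d)/2) + G ((σ-d)/2) = H (σ, d²)` -/
theorem exists_H (c : C) : ∃ H : ℂ × ℂ → E2, AnalyticAt ℂ H 0 ∧ H 0 = 0 ∧
    (∀ᶠ p in 𝓝 (0 : ℂ × ℂ), 𝒞.G c ((p.1 + p.2) / 2) + 𝒞.G c ((p.1 - p.2) / 2)
      = H (p.1, p.2 ^ 2)) ∧
    HasFDerivAt H (colMap (𝒞.w c) ((1 / 4 : ℂ) • deriv (deriv (𝒞.G c)) 0)) 0 := by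
  classical
  have hG := G_an0 (𝒞 := 𝒞) c
  let fj : Fin 2 → ℂ × ℂ → ℂ := fun j p => 𝒞.G c ((p.1 + p.2) / 2) j + 𝒞.G c ((p.1 - p.2) / 2) j
  have hl1 : AnalyticAt ℂ (fun p : ℂ × ℂ => (p.1 + p.2) / 2) 0 :=
    (analyticAt_fst.add analyticAt_snd).div_const
  have hl2 : AnalyticAt ℂ (fun p : ℂ × ℂ => (p.1 - p.2) / 2) 0 :=
    (analyticAt_fst.sub analyticAt_snd).div_const
  have hGj : ∀ j, AnalyticAt ℂ (fun z => 𝒞.G c z j) 0 := fun j =>
    ((ContinuousLinearMap.proj (R := ℂ) (φ := fun _ : Fin 2 => ℂ) j).analyticAt _).comp hG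
  have hfj : ∀ j, AnalyticAt ℂ (fj j) 0 := by
    intro j
    have a1 : AnalyticAt ℂ (fun p : ℂ × ℂ => 𝒞.G c ((p.1 + p.2) / 2) j) 0 :=
      AnalyticAt.comp (g := fun z => 𝒞.G c z j) (f := fun p : ℂ × ℂ => (p.1 + p.2) / 2)
        (by simpa using hGj j) hl1
    have a2 : AnalyticAt ℂ (fun p : ℂ × ℂ => 𝒞.G c ((p.1 - p.2) / 2) j) 0 :=
      AnalyticAt.comp (g := fun z => 𝒞.G c z j) (f := fun p : ℂ × ℂ => (p.1 - p.2) / 2)
        (by simpa using hGj j) hl2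
    exact a1.add a2
  have hev : ∀ j, ∀ᶠ p in 𝓝 (0 : ℂ × ℂ), fj j (p.1, -p.2) = fj j p := by
    intro j
    refine Eventually.of_forall fun p => ?_
    simp only [fj]
    rw [add_comm]
    congr 2 <;> ring
  choose h hh1 hh2 using fun j => even_desc (hfj j) (hev j)
  have hd2 : ∀ j, h j (0, 0) = 0 := by
    intro j
    have := (hh2 j).self_of_nhds
    simp only [fj, Prod.fst_zero, Prod.snd_zero, add_zero, sub_zero, zero_div, 𝒞.G_zero,
      Pi.zero_apply] at this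
    rw [zero_pow two_ne_zero] at this
    exact this.symm
  -- one-variable restrictions
  have hA1 : ∀ j, HasDerivAt (fun σ : ℂ => h j (σ, 0)) (𝒞.w c j) 0 := by
    intro j
    have e1 : ∀ᶠ σ in 𝓝 (0 : ℂ), 𝒞.G c (σ / 2) j + 𝒞.G c (σ / 2) j = h j (σ, 0) := by
      have hc : ContinuousAt (fun σ : ℂ => ((σ, 0) : ℂ × ℂ)) 0 := by fun_prop
      have := hc.tendsto.eventually (hh2 j)
      filter_upwards [this] with σ hσ
      simp only [fj, add_zero, sub_zero] at hσ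
      rw [zero_pow two_ne_zero] at hσ
      exact hσ
    have e2 : HasDerivAt (fun σ : ℂ => 𝒞.G c (σ / 2) j) ((1 / 2) * 𝒞.w c j) 0 := by
      have b1 : HasDerivAt (fun z => 𝒞.G c z j) (𝒞.w c j) (0 / 2) := by
        rw [zero_div]
        exact (hasDerivAt_pi.1 (G_deriv c)) j
      have b2 : HasDerivAt (fun σ : ℂ => σ / 2) (1 / 2) 0 := (hasDerivAt_id 0).div_const 2
      have b3 := HasDerivAt.comp (0 : ℂ) b1 b2
      rw [mul_comm]
      exact b3
    have e3 := e2.add e2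
    refine (e3.congr_of_eventuallyEq (e1.mono fun σ hσ => hσ.symm)).congr_deriv ?_
    ring
  have hA2 : ∀ j, HasDerivAt (fun δ : ℂ => h j (0, δ)) ((1 / 4) * deriv (deriv (𝒞.G c)) 0 j) 0 := by
    intro j
    set u : ℂ → ℂ := fun δ => h j (0, δ) with hu
    set g : ℂ → ℂ := fun z => 𝒞.G c z j with hg
    have hu_an : AnalyticAt ℂ u 0 := by
      refine AnalyticAt.comp (g := h j) (f := fun δ : ℂ => ((0, δ) : ℂ × ℂ)) (hh1 j) ?_
      exact analyticAt_const.prod analyticAt_id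
    have hg_an : AnalyticAt ℂ g 0 := hGj j
    have e1 : ∀ᶠ d in 𝓝 (0 : ℂ), g (d / 2) + g (-(d / 2)) = u (d ^ 2) := by
      have hc : ContinuousAt (fun d : ℂ => ((0, d) : ℂ × ℂ)) 0 := by fun_prop
      have := hc.tendsto.eventually (hh2 j)
      filter_upwards [this] with d hd
      simp only [fj, zero_add, zero_sub] at hd
      rw [neg_div] at hd
      exact hd
    -- first derivatives
    have e2 : ∀ᶠ d in 𝓝 (0 : ℂ), (1 / 2) * deriv g (d / 2) - (1 / 2) * deriv g (-(d / 2))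
        = 2 * d * deriv u (d ^ 2) := by
      have t1 : Tendsto (fun d : ℂ => d / 2) (𝓝 0) (𝓝 0) := by
        have : ContinuousAt (fun d : ℂ => d / 2) 0 := by fun_prop
        simpa using this.tendsto
      have t2 : Tendsto (fun d : ℂ => -(d / 2)) (𝓝 0) (𝓝 0) := by
        have : ContinuousAt (fun d : ℂ => -(d / 2)) 0 := by fun_prop
        simpa using this.tendsto
      have t3 : Tendsto (fun d : ℂ => d ^ 2) (𝓝 0) (𝓝 0) := by
        have : ContinuousAt (fun d : ℂ => d ^ 2) 0 := by fun_prop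
        simpa using this.tendsto
      filter_upwards [eventually_eventually_nhds.2 e1, t1.eventually hg_an.eventually_analyticAt,
        t2.eventually hg_an.eventually_analyticAt, t3.eventually hu_an.eventually_analyticAt]
        with d h1 h2 h3 h4
      have b1 : HasDerivAt (fun d : ℂ => g (d / 2)) (deriv g (d / 2) * (1 / 2)) d :=
        HasDerivAt.comp d (h₂ := g) (h := fun d : ℂ => d / 2) h2.differentiableAt.hasDerivAt
          ((hasDerivAt_id' d).div_const 2)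
      have b2 : HasDerivAt (fun d : ℂ => g (-(d / 2))) (deriv g (-(d / 2)) * (-(1 / 2))) d :=
        HasDerivAt.comp d (h₂ := g) (h := fun d : ℂ => -(d / 2)) h3.differentiableAt.hasDerivAt
          ((hasDerivAt_id' d).div_const 2).neg
      have b3 : HasDerivAt (fun d : ℂ => u (d ^ 2)) (deriv u (d ^ 2) * (2 * d)) d := by
        have h5 : HasDerivAt (fun d : ℂ => d ^ 2) (2 * d) d := by
          simpa using hasDerivAt_pow 2 d
        exact HasDerivAt.comp d (h₂ := u) (h := fun d : ℂ => d ^ 2)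
          h4.differentiableAt.hasDerivAt h5
      have b4 := ((b1.add b2).congr_of_eventuallyEq (h1.mono fun d hd => hd.symm)).unique b3
      linear_combination b4
    -- second derivatives at 0
    have c1 : HasDerivAt (fun d : ℂ => (1 / 2) * deriv g (d / 2) - (1 / 2) * deriv g (-(d / 2)))
        ((1 / 2) * (deriv (deriv g) 0 * (1 / 2)) - (1 / 2) * (deriv (deriv g) 0 * (-(1 / 2)))) 0 := by
      have hg' : HasDerivAt (deriv g) (deriv (deriv g) 0) 0 :=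
        hg_an.deriv.differentiableAt.hasDerivAt
      have b1 : HasDerivAt (fun d : ℂ => deriv g (d / 2)) (deriv (deriv g) 0 * (1 / 2)) 0 := by
        refine HasDerivAt.comp (0 : ℂ) (h₂ := deriv g) (h := fun d : ℂ => d / 2) ?_
          ((hasDerivAt_id 0).div_const 2)
        rw [zero_div]; exact hg'
      have b2 : HasDerivAt (fun d : ℂ => deriv g (-(d / 2))) (deriv (deriv g) 0 * (-(1 / 2))) 0 := by
        refine HasDerivAt.comp (0 : ℂ) (h₂ := deriv g) (h := fun d : ℂ => -(d / 2)) ?_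
          ((hasDerivAt_id 0).div_const 2).neg
        rw [zero_div, neg_zero]; exact hg'
      exact (b1.const_mul _).sub (b2.const_mul _)
    have c2 : HasDerivAt (fun d : ℂ => 2 * d * deriv u (d ^ 2)) (2 * deriv u 0) 0 := by
      have hu' : AnalyticAt ℂ (deriv u) 0 := hu_an.deriv
      have b1 : HasDerivAt (fun d : ℂ => deriv u (d ^ 2)) (deriv (deriv u) 0 * (2 * 0)) 0 := by
        refine (HasDerivAt.comp (0 : ℂ) (h₂ := deriv u) (h := fun d : ℂ => d ^ 2)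
          (h₂' := deriv (deriv u) 0) (h' := 2 * 0) ?_ ?_)
        · rw [zero_pow two_ne_zero]
          exact hu'.differentiableAt.hasDerivAt
        · simpa using hasDerivAt_pow 2 (0 : ℂ)
      have b2 : HasDerivAt (fun d : ℂ => 2 * d) 2 0 := by
        simpa using (hasDerivAt_id (0 : ℂ)).const_mul 2
      have b3 := b2.mul b1
      refine b3.congr_deriv ?_
      rw [zero_pow two_ne_zero]
      ring
    have c3 := (c1.congr_of_eventuallyEq (e2.mono fun d hd => hd.symm)).unique c2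
    have hgg : deriv (deriv g) 0 = deriv (deriv (𝒞.G c)) 0 j := by
      have d1 : ∀ᶠ z in 𝓝 (0 : ℂ), deriv g z = deriv (𝒞.G c) z j := by
        filter_upwards [hG.eventually_analyticAt] with z hz
        exact ((hasDerivAt_pi.1 hz.differentiableAt.hasDerivAt) j).deriv
      rw [Filter.EventuallyEq.deriv_eq d1]
      exact ((hasDerivAt_pi.1 hG.deriv.differentiableAt.hasDerivAt) j).deriv
    have c4 : deriv u 0 = (1 / 4) * deriv (deriv (𝒞.G c)) 0 j := by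
      rw [← hgg]
      linear_combination (-1 / 2) * c3
    rw [← c4]
    exact hu_an.differentiableAt.hasDerivAt
  refine ⟨fun p j => h j p, ?_, ?_, ?_, ?_⟩
  · rw [analyticAt_pi_iff]
    exact hh1
  · funext j
    exact hd2 j
  · have h1 : ∀ᶠ p in 𝓝 (0 : ℂ × ℂ), ∀ j, fj j p = h j (p.1, p.2 ^ 2) := eventually_all.2 hh2
    filter_upwards [h1] with p hp
    funext j
    exact hp j
  · rw [hasFDerivAt_pi']
    intro j
    have hd : HasFDerivAt (h j) (fderiv ℂ (h j) 0) 0 := (hh1 j).differentiableAt.hasFDerivAt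
    refine hd.congr_fderiv ?_
    -- compare on the basis
    have f1 : fderiv ℂ (h j) 0 (1, 0) = 𝒞.w c j := by
      have g1 : HasDerivAt (fun σ : ℂ => ((σ, 0) : ℂ × ℂ)) (1, 0) 0 :=
        (hasDerivAt_id (0 : ℂ)).prodMk (hasDerivAt_const (0 : ℂ) (0 : ℂ))
      have g2 : HasDerivAt (fun σ : ℂ => h j (σ, 0)) (fderiv ℂ (h j) 0 (1, 0)) 0 :=
        HasFDerivAt.comp_hasDerivAt (0 : ℂ) (l := h j) (f := fun σ : ℂ => ((σ, 0) : ℂ × ℂ)) hd g1
      exact g2.unique (hA1 j)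
    have f2 : fderiv ℂ (h j) 0 (0, 1) = (1 / 4) * deriv (deriv (𝒞.G c)) 0 j := by
      have g1 : HasDerivAt (fun δ : ℂ => ((0, δ) : ℂ × ℂ)) (0, 1) 0 :=
        (hasDerivAt_const (0 : ℂ) (0 : ℂ)).prodMk (hasDerivAt_id (0 : ℂ))
      have g2 : HasDerivAt (fun δ : ℂ => h j (0, δ)) (fderiv ℂ (h j) 0 (0, 1)) 0 :=
        HasFDerivAt.comp_hasDerivAt (0 : ℂ) (l := h j) (f := fun δ : ℂ => ((0, δ) : ℂ × ℂ)) hd g1
      exact g2.unique (hA2 j)
    refine ContinuousLinearMap.ext fun v => ?_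
    have hv : v = v.1 • ((1, 0) : ℂ × ℂ) + v.2 • ((0, 1) : ℂ × ℂ) := by
      ext <;> simp
    have h5 : fderiv ℂ (h j) 0 v = v.1 * 𝒞.w c j + v.2 * ((1 / 4) * deriv (deriv (𝒞.G c)) 0 j) := by
      conv_lhs => rw [hv]
      rw [map_add, map_smul, map_smul, f1, f2, smul_eq_mul, smul_eq_mul]
    rw [h5]
    simp [colMap]

/-- on the diagonal -/
theorem good_diag (h : QHol 𝒞 FM q) (hJ : 𝒞.IsJac (rq q) Λ π) {c : C} {z₀ : E2}
    (hz : π z₀ = rq q (c, c)) (hc : 𝒞.iv c ≠ c) : GoodF FM (fun z => (π z).1) z₀ := by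
  obtain ⟨j, hj, Q, hQ, hQe⟩ := h.diag c hc
  obtain ⟨H, hH, hH0, hHe, hH'⟩ := exists_H (𝒞 := 𝒞) c
  have hdet : det2 (𝒞.w c) ((1 / 4 : ℂ) • deriv (deriv (𝒞.G c)) 0) ≠ 0 := by
    have h1 := 𝒞.nd c hc
    have h2 : det2 (𝒞.w c) ((1 / 4 : ℂ) • deriv (deriv (𝒞.G c)) 0) =
        (1 / 4) * det2 (deriv (𝒞.G c) 0) (deriv (deriv (𝒞.G c)) 0) := by
      simp only [det2, Cur.w, Pi.smul_apply, smul_eq_mul]
      ring
    rw [h2]
    exact mul_ne_zero (by norm_num) h1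
  let A : ℂ × ℂ → E2 := fun p => z₀ + H p
  have hA : AnalyticAt ℂ A 0 := analyticAt_const.add hH
  have hA0 : A 0 = z₀ := by simp [A, hH0]
  have hA' : HasFDerivAt A (colEquiv _ _ hdet : (ℂ × ℂ) →L[ℂ] E2) 0 := by
    rw [coe_colEquiv]
    exact hH'.const_add z₀
  obtain ⟨B, hB0, hB1, hB2⟩ := exists_loc_inv hA hA'
  rw [hA0] at hB0 hB1 hB2
  refine ⟨j, by simp only [hz]; exact hj, ?_⟩
  have hQB : Imm (fun v => Q (B v)) z₀ := imm_comp (by rw [hB0]; exact hQ) hB1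
  refine imm_congr hQB ?_
  have hBt : Tendsto B (𝓝 z₀) (𝓝 0) := by
    have := hB1.1.continuousAt.tendsto
    rwa [hB0] at this
  -- `(σ, d)` with `d = √δ`
  let R : E2 → ℂ × ℂ := fun v => ((B v).1, rt (B v).2)
  have hRt : Tendsto R (𝓝 z₀) (𝓝 0) := by
    have h1 : Tendsto (fun v => (B v).1) (𝓝 z₀) (𝓝 0) :=
      (continuous_fst.tendsto (0 : ℂ × ℂ)).comp hBt
    have h2 : Tendsto (fun v => rt (B v).2) (𝓝 z₀) (𝓝 0) := by
      have h3 : Tendsto (fun v => (B v).2) (𝓝 z₀) (𝓝 0) :=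
        (continuous_snd.tendsto (0 : ℂ × ℂ)).comp hBt
      have h4 := continuousAt_rt_zero.tendsto
      rw [rt_zero] at h4
      exact h4.comp h3
    exact h1.prodMk_nhds h2
  let L : ℂ × ℂ → ℂ × ℂ := fun p => ((p.1 + p.2) / 2, (p.1 - p.2) / 2)
  have hLc : Continuous L := by fun_prop
  have hL0 : L 0 = 0 := by simp [L]
  have hLt : Tendsto (fun v => L (R v)) (𝓝 z₀) (𝓝 0) := by
    have := hLc.tendsto 0
    rw [hL0] at this
    exact this.comp hRt
  have hpt : Tendsto (fun v => pt 𝒞 c c (L (R v))) (𝓝 z₀) (𝓝 (c, c)) := by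
    have h3 := (pt_cont (𝒞 := 𝒞) c c).tendsto
    rw [pt_zero] at h3
    exact h3.comp hLt
  filter_upwards [hB2, hpt.eventually (hJ.loc (c, c) z₀ hz), hpt.eventually hQe,
    hLt.eventually (ev_tgt c c), hRt.eventually hHe] with v v1 v2 v3 v4 v5
  have e1 : 𝒞.k c (pt 𝒞 c c (L (R v))).1 = (L (R v)).1 := (𝒞.k c).right_inv v4.1
  have e2 : 𝒞.k c (pt 𝒞 c c (L (R v))).2 = (L (R v)).2 := (𝒞.k c).right_inv v4.2
  have hδ : (R v).2 ^ 2 = (B v).2 := rt_sq _
  have e4 : ((L (R v)).1 + (L (R v)).2, ((L (R v)).1 - (L (R v)).2) ^ 2) = B v := by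
    refine Prod.ext ?_ ?_
    · simp only [L]
      change ((R v).1 + (R v).2) / 2 + ((R v).1 - (R v).2) / 2 = (B v).1
      have : (R v).1 = (B v).1 := rfl
      rw [← this]
      ring
    · simp only [L]
      change (((R v).1 + (R v).2) / 2 - ((R v).1 - (R v).2) / 2) ^ 2 = (B v).2
      rw [← hδ]
      ring
  rw [e1, e2, e4] at v3
  have e3 : z₀ + (𝒞.P c (pt 𝒞 c c (L (R v))).1 + 𝒞.P c (pt 𝒞 c c (L (R v))).2) = v := by
    simp only [Cur.P, e1, e2]
    change z₀ + (𝒞.G c (((R v).1 + (R v).2) / 2) + 𝒞.G c (((R v).1 - (R v).2) / 2)) = v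
    rw [v5, hδ]
    exact v1
  rw [e3] at v2
  rw [← v2]
  exact v3.symm

/-- at the point `o` -/
theorem good_gam (h : QHol 𝒞 FM q) (hJ : 𝒞.IsJac (rq q) Λ π) {N : Set (C × C)} {U : C × C → E2}
    (hN : 𝒞.NearE N U) {x : C × C} {z₀ : E2} (hz : π z₀ = rq q x) (hx : x ∈ 𝒞.Gam) :
    GoodF FM (fun z => (π z).1) z₀ := by
  obtain ⟨j, hj, κ, hκ, hκe⟩ := h.gam N U hN
  have hx' : x = (x.1, 𝒞.iv x.1) := Prod.ext rfl hx
  obtain ⟨O, hO, hGO, hOs⟩ := mem_nhdsSet_iff_exists.1 (hκe.and (hJ.near N U hN))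
  obtain ⟨δ, hδ, -, hsm⟩ := hN.small O hO hGO
  have h0 : ∀ v ∈ Metric.ball (0 : E2) δ, FM.e j (π v).1 = κ v := by
    intro v hv
    obtain ⟨y, ⟨-, hyO⟩, hyv⟩ := hsm hv
    obtain ⟨h1, h2⟩ := hOs hyO
    rw [hyv] at h1 h2
    rw [← h2]
    exact h1
  have hπ0 : π z₀ = π 0 := by rw [hz, hx', hJ.zero x.1]
  have hΛ : z₀ ∈ Λ := by
    have := (hJ.eq_iff z₀ 0).1 hπ0
    rwa [sub_zero] at this
  refine ⟨j, ?_, ?_⟩
  · change (π z₀).1 ∈ _
    rw [hz, hx']
    exact hj x.1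
  · have h1 : Imm (fun w => κ (w - z₀)) z₀ := by
      have h2 : Imm (fun w : E2 => w - z₀) z₀ := by
        refine ⟨analyticAt_id.sub analyticAt_const, fun v hv => ?_⟩
        rw [fderiv_sub_const, fderiv_fun_id] at hv
        exact hv
      exact imm_comp (Q := κ) (B := fun w : E2 => w - z₀) (by rw [sub_self]; exact hκ) h2
    refine imm_congr h1 ?_
    filter_upwards [Metric.ball_mem_nhds z₀ hδ] with w hw
    have h3 : w - z₀ ∈ Metric.ball (0 : E2) δ := by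
      rw [mem_ball_zero_iff]
      rwa [mem_ball_iff_norm] at hw
    rw [← h0 _ h3]
    congr 2
    rw [hJ.eq_iff]
    have : w - z₀ - w = -z₀ := by abel
    rw [this]
    exact neg_mem hΛ

/-- **`f` is holomorphic and immersive** -/
theorem QHol.good (h : QHol 𝒞 FM q) (hJ : 𝒞.IsJac (rq q) Λ π) {N : Set (C × C)}
    {U : C × C → E2} (hN : 𝒞.NearE N U) (z : E2) : GoodF FM (fun z => (π z).1) z := by
  obtain ⟨x, hx⟩ := h.isQ.surj (π z)
  by_cases hg : x ∈ 𝒞.Gam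
  · exact good_gam h hJ hN hx.symm hg
  · by_cases hd : x.1 = x.2
    · have hxe : x = (x.1, x.1) := Prod.ext rfl hd.symm
      refine good_diag h hJ (c := x.1) (by rw [← hx, ← hxe]) ?_
      intro hiv
      apply hg
      change x.2 = 𝒞.iv x.1
      rw [hiv, hd]
    · exact good_off h hJ hx.symm hg hd

theorem QHol.inj (hJ : 𝒞.IsJac (rq q) Λ π) (z w : E2) :
    (π z).1 = (π w).1 ↔ z - w ∈ Λ := by
  rw [← hJ.eq_iff]
  exact Subtype.ext_iff.symm

theorem QHol.contf (hJ : 𝒞.IsJac (rq q) Λ π) : Continuous fun z => (π z).1 :=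
  continuous_subtype_val.comp hJ.cont

end

end Crest.Agent.R272.Ax_834
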