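import Crest.Agent.R272.As156_338
import Crest.Agent.R272.Ax2_834

/-!
# R272, leaf S15-ASM (helper338), part 7: S0415 from 834's `QHol`

`s15_q` : S0415 from `PosF CX` and ONE map `q : C × C → X` with `QHol (cur Pz) CX q` (834), and one
arc `g` of the curve such that `g`, `α² g`, `α³ g` die and `α g` lives.
-/

set_option autoImplicit false
set_option linter.unusedSectionVars false

open Set Filter Topology TopologicalSpace
open Crest.AlgGeometry

namespace Crest.Agent.R272.As15_338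

open Crest.Agent.R275.Geo Crest.Agent.R275.Core144 Crest.Agent.R275.GC293
open Crest.Agent.R273.Defs_333 Crest.Agent.R273.Fam_835
open Crest.Agent.R272.Per_939 CovOrd_463 LbExt_259 TLoop_463 Crest.Agent.R272.AJ_956 UB_20
open MQ_783 Refl_246 LBAsm_585 LbEnd_259 Comp_259 DCov_426
open Cur_297 AJz_956 Ax_834

noncomputable section

local notation "I" => unitInterval

theorem immF_of_goodF {n : ℕ} {X : Type} [TopologicalSpace X] {CX : Fam n X} {f : E2 → X}
    (h : ∀ z, GoodF CX f z) : ImmF CX f := by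
  intro z
  obtain ⟨j, hj, h1, h2⟩ := h z
  exact ⟨j, hj, h1.differentiableAt, h2⟩

section DL

variable {C X : Type} [TopologicalSpace C] [TopologicalSpace X] {n : ℕ} {CX : Fam n X}

/-- the arc dies in `X` -/
def DiesQ (𝒞 : Cur C) (q : C × C → X) (γ : C(I, C)) : Prop :=
  ∀ hq : Continuous (rq q), Dies 𝒞 hq (Subtype.val : range q → X) γ

/-- the arc lives in `X` -/
def LivesQ (𝒞 : Cur C) (q : C × C → X) (γ : C(I, C)) : Prop :=
  ∀ hq : Continuous (rq q), Lives 𝒞 hq (Subtype.val : range q → X) γ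

variable {𝒞 : Cur C} {q : C × C → X} {γ γ' : C(I, C)}

theorem DiesQ.congr (h : DiesQ 𝒞 q γ) (e : ∀ t, γ' t = γ t) : DiesQ 𝒞 q γ' :=
  fun hq => (h hq).congr e

theorem LivesQ.congr (h : LivesQ 𝒞 q γ) (e : ∀ t, γ' t = γ t) : LivesQ 𝒞 q γ' :=
  fun hq => (h hq).congr e

theorem DiesQ.iv (h : DiesQ 𝒞 q γ) (e : ∀ t, γ' t = 𝒞.iv (γ t)) : DiesQ 𝒞 q γ' :=
  fun hq => (h hq).iv e

theorem LivesQ.iv (h : LivesQ 𝒞 q γ) (e : ∀ t, γ' t = 𝒞.iv (γ t)) : LivesQ 𝒞 q γ' :=
  fun hq => (h hq).iv e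

/-- the two arcs over `γ` are homotopic rel end points in `X` -/
theorem diesQ_of (c' : C) {a b a' b' : X} (p : Path a b) (p' : Path a' b')
    (hp : ∀ t, p t = q (γ t, c')) (hp' : ∀ t, p' t = q (𝒞.iv (γ t), c'))
    (hh : HR p p') : DiesQ 𝒞 q γ :=
  fun _ => dies_of c' p p' hp hp' hh

end DL

variable {X : Type} [TopologicalSpace X] [T2Space X] [CompactSpace X]

/-- **S0415 from `q : C × C → X` and one arc** -/
theorem s15_q {n : ℕ} {CX : Fam n X} (hC : PosF CX) {q : Cz × Cz → X}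
    (hQ : QHol (cur Pz) CX q) (g : C(I, Cz)) (hs : (cur Pz).iv (g 0) = g 0)
    (he : (cur Pz).iv (g 1) = g 1) (die0 : DiesQ (cur Pz) q g)
    (live : LivesQ (cur Pz) q (alC.comp g)) (die2 : DiesQ (cur Pz) q (alC.comp (alC.comp g)))
    (die3 : DiesQ (cur Pz) q (alC.comp (alC.comp (alC.comp g)))) : S15 := by
  obtain ⟨N, U, hN⟩ := AJg_956.exists_nearE (𝒞 := cur Pz)
  exact s15_z hC hQ.isQ (inc := (Subtype.val : range q → X)) continuous_subtype_val
    Subtype.val_injective (fun Λ π J => immF_of_goodF fun z => hQ.good J hN z) g hs he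
    (die0 _) (live _) (die2 _) (die3 _)

end

end Crest.Agent.R272.As15_338
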