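import Mathlib
import Crest.Agent.R272.LbSq5_936

/-!
# LB-WALL, part 6 (row 272, lower bound for S0415; helper936)

`exists_sheet'` : as `exists_sheet`, with the explicit sheet function over `p = 0`.
-/

set_option autoImplicit false

open Set Filter Topology
open Crest.Agent.R272.EBase_641 Crest.Agent.R272.LbCap_382 Crest.Agent.R272.LbClu_382
  Crest.Agent.R272.Wei_392
open scoped ComplexConjugate unitInterval

noncomputable section

namespace Crest.Agent.R272.LbSq_936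

/-- `root_of_homotopy` with normalisation at the stationary points. -/
theorem root_of_homotopy' {X : Type*} [TopologicalSpace X] (h : I × X → ℂ) (hc : Continuous h)
    (h0 : ∀ p, h p ≠ 0) (r0 : X → ℂ) (hr0c : Continuous r0) (hr0 : ∀ x, r0 x ^ 2 = h (0, x)) :
    ∃ r : X → ℂ, Continuous r ∧ (∀ x, r x ^ 2 = h (1, x)) ∧
      ∀ x, (∀ t, h (t, x) = h (0, x)) → r x = r0 x := by
  have hr0ne : ∀ x, r0 x ≠ 0 := by
    intro x hx
    apply h0 (0, x)
    rw [← hr0 x, hx]
    simp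
  have cov := isCoveringMap_npow (𝕜 := ℂ) 2 (by norm_num)
  let H : C(I × X, {x : ℂ // x ≠ 0}) := ⟨fun p => ⟨h p, h0 p⟩, by fun_prop⟩
  let f : C(X, {x : ℂ // x ≠ 0}) := ⟨fun x => ⟨r0 x, hr0ne x⟩, by fun_prop⟩
  have H0 : ∀ a, H (0, a) = (fun x : {x : ℂ // x ≠ 0} ↦ (⟨x ^ 2, pow_ne_zero 2 x.2⟩ :
      {x : ℂ // x ≠ 0})) (f a) := by
    intro a
    apply Subtype.ext
    show h (0, a) = r0 a ^ 2
    exact (hr0 a).symm
  let L := cov.liftHomotopy H f H0
  have hL := cov.liftHomotopy_lifts H f H0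
  have hL0 := cov.liftHomotopy_zero H f H0
  refine ⟨fun x => (L (1, x) : ℂ), by fun_prop, fun x => ?_, fun x hx => ?_⟩
  · exact congrArg Subtype.val (congrFun hL (1, x))
  · -- uniqueness of path lifting
    have hq : Continuous fun t : I => L (t, x) := by fun_prop
    have hconst : Continuous fun _ : I => f x := continuous_const
    have key : (fun t : I => L (t, x)) = fun _ : I => f x := by
      refine cov.eq_of_comp_eq hq hconst ?_ 0 (hL0 x)
      funext t
      apply Subtype.ext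
      have h1 : (L (t, x) : ℂ) ^ 2 = h (t, x) := congrArg Subtype.val (congrFun hL (t, x))
      show (L (t, x) : ℂ) ^ 2 = r0 x ^ 2
      rw [h1, hx t, hr0 x]
    exact congrArg Subtype.val (congrFun key 1)

/-- `root_star` with normalisation over the origin. -/
theorem root_star' {V X : Type*} [NormedAddCommGroup V] [NormedSpace ℝ V]
    [TopologicalSpace X] (z : X → V) (hz : Continuous z) (B : Set V) (h0 : V → ℂ)
    (hcont : ContinuousOn h0 B)
    (hB : ∀ x, ∀ t : ℝ, 0 ≤ t → t ≤ 1 → t • z x ∈ B)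
    (hne : ∀ x, ∀ t : ℝ, 0 ≤ t → t ≤ 1 → h0 (t • z x) ≠ 0) :
    ∃ (r : X → ℂ) (c : ℂ), Continuous r ∧ (∀ x, r x ^ 2 = h0 (z x)) ∧ c ^ 2 = h0 0 ∧
      ∀ x, z x = 0 → r x = c := by
  obtain ⟨c, hc⟩ : ∃ c : ℂ, c ^ 2 = h0 0 := IsAlgClosed.exists_pow_nat_eq _ two_pos
  let h : I × X → ℂ := fun p => h0 ((p.1 : ℝ) • z p.2)
  have hcth : Continuous h := by
    have h1 : Continuous fun p : I × X => ((p.1 : ℝ) • z p.2) := by fun_prop
    have := hcont.comp_continuous h1 (fun p => hB p.2 p.1 p.1.2.1 p.1.2.2)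
    exact this
  obtain ⟨r, hr, hr2, hr3⟩ := root_of_homotopy' h hcth (fun p => hne p.2 p.1 p.1.2.1 p.1.2.2)
    (fun _ => c) continuous_const (fun x => by simp [h, hc])
  refine ⟨r, c, hr, fun x => by simpa [h] using hr2 x, hc, fun x hx => hr3 x fun t => ?_⟩
  simp [h, hx]

variable {ι : Type*} {V : ι → V1 3} {Nn : ι → ℝ} {Nmin Nmax c0 Lam Lam' k : ℝ}

/-- **THE SHEET FUNCTION**, with the normalisation over the origin. -/
theorem exists_sheet' (W : WData ι V Nn Nmin Nmax c0 Lam Lam' k) {S : Set (V1 3)} {F : E3 → ℂ}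
    {S0 : Finset (V1 3)} {v1 v2 : V1 3} {c : ℂ} {r1 r2 m1 m2 : ℝ}
    (D : FData S F S0 v1 v2 V c r1 r2 m1 m2) {T : C(Q0 c, ℝ)} (hT : IsWall V k c m1 m2 T)
    {Y : Type*} [TopologicalSpace Y] (π : Y → Q0 c) (hπ : Continuous π) (s y : Y → ℂ)
    (hs : ContinuousOn s {x | π x ∈ OO T}) (hy : ContinuousOn y {x | π x ∈ OO T})
    (hs1 : ∀ x, π x ∈ OO T → (π x).1.1 1 = s x * (π x).1.1 0)
    (hs2 : ∀ x, π x ∈ OO T → s x ∈ An c r1 r2)
    (hdense : ∀ x, π x ∈ OO T → x ∈ closure {x' | π x' ∈ OO T ∧ (π x').1.1 0 ≠ 0})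
    (hy2 : ∀ x, π x ∈ OO T → y x ^ 2 * (π x).1.1 0 ^ S0.card = F (π x).1.1) :
    ∃ ε : Y → ℝ, (∀ x, ε x = 1 ∨ ε x = -1) ∧ ContinuousOn ε {x | π x ∈ OO T} ∧
      Continuous (fun x => ((ε x * T (π x) : ℝ) : AddCircle (1 : ℝ))) ∧
      (∀ x x', π x ∈ OO T → π x = π x' → s x = s x' →
        (y x' = y x → ε x' = ε x) ∧ (y x' = -y x → ε x' = -ε x)) ∧
      ∃ (g : ℂ → ℂ) (κ : ℂ), ContinuousOn g (An c r1 r2) ∧ (∀ u ∈ An c r1 r2, g u ≠ 0) ∧
        (∀ u ∈ An c r1 r2, g u ^ 2 = (∏ l ∈ S0, (ca l + cb l * u)) * κ) ∧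
        ∀ x, π x ∈ OO T → (π x).1.1 = 0 → y x = (ε x : ℂ) * g (s x) := by
  classical
  obtain ⟨q, hqdiv, hFq⟩ :=
    LbSq_936.Div.split D.div S0 D.sub (fun v hv => (D.base v hv).1)
  obtain ⟨g0, hg0, hg0'⟩ := root_annulus S0 ca cb D.r1_nonneg D.r2_pos v1 v2 D.mem1 D.mem2
    D.ne12 D.b1 D.b2 D.in1 D.in2 D.out
  -- the root of `q`
  obtain ⟨r, r0, hr, hr2, hr02, hr0⟩ := root_star' (X := OO T) (fun x => x.1.1.1) (by fun_prop)
    (Metric.ball (0 : E3) 1) q hqdiv.hol.continuousOn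
    (by
      intro x t ht0 ht1
      rw [mem_ball_zero_iff, norm_smul, Real.norm_of_nonneg ht0]
      have := x.1.2.1
      nlinarith [norm_nonneg x.1.1.1])
    (by
      intro x t ht0 ht1 h0
      have hB : t • x.1.1.1 ∈ Ball 3 := by
        rw [mem_Ball, norm_smul, Real.norm_of_nonneg ht0]
        have := x.1.2.1
        nlinarith [norm_nonneg x.1.1.1]
      obtain ⟨v, hv, hv0⟩ := (hqdiv.eq_zero_iff hB).1 h0
      exact hT.seg W x.2 (D.rest v hv.1 (fun h => hv.2 (Finset.mem_coe.2 h))) ht0 ht1 hv0)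
  have hrne : ∀ x : OO T, r x ≠ 0 := by
    intro x h0
    have h1 := hr2 x
    rw [h0] at h1
    have hB : x.1.1.1 ∈ Ball 3 := by rw [mem_Ball]; exact x.1.2.1
    have h2 : q x.1.1.1 = 0 := by rw [← h1]; simp
    obtain ⟨v, hv, hv0⟩ := (hqdiv.eq_zero_iff hB).1 h2
    have := hT.seg W x.2 (D.rest v hv.1 (fun h => hv.2 (Finset.mem_coe.2 h)))
      (t := 1) zero_le_one le_rfl
    rw [one_smul] at this
    exact this hv0
  have hg0ne : ∀ u ∈ An c r1 r2, g0 u ≠ 0 := by
    intro u hu h0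
    have h1 := hg0' u hu
    rw [h0] at h1
    have h2 : ∏ l ∈ S0, (ca l + cb l * u) = 0 := by rw [← h1]; simp
    obtain ⟨l, hl, hl0⟩ := Finset.prod_eq_zero_iff.1 h2
    by_cases e1 : l = v1
    · subst e1
      have e : u = -ca l / cb l := by
        have := D.b1
        field_simp
        linear_combination hl0
      have h3 := D.in1
      rw [← e] at h3
      exact absurd hu.1 (not_lt.2 h3)
    · by_cases e2 : l = v2
      · subst e2
        have e : u = -ca l / cb l := by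
          have := D.b2
          field_simp
          linear_combination hl0
        have h3 := D.in2
        rw [← e] at h3
        exact absurd hu.1 (not_lt.2 h3)
      · exact D.out l hl e1 e2 u hu.2 hl0
  -- extend `r` to `Q0`
  let r' : Q0 c → ℂ := fun x => if h : x ∈ OO T then r ⟨x, h⟩ else 1
  have hr'c : ContinuousOn r' (OO T) := by
    rw [continuousOn_iff_continuous_domRestrict]
    have : (OO T).domRestrict r' = r := by
      funext x
      show r' x.1 = r x
      simp only [r', x.2, dif_pos]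
    rw [this]
    exact hr
  have hr'2 : ∀ x ∈ OO T, r' x ^ 2 = q x.1.1 := by
    intro x hx
    simp only [r', hx, dif_pos]
    exact hr2 ⟨x, hx⟩
  have hr'ne : ∀ x ∈ OO T, r' x ≠ 0 := by
    intro x hx
    simp only [r', hx, dif_pos]
    exact hrne ⟨x, hx⟩
  have hr'0 : ∀ x ∈ OO T, x.1.1 = 0 → r' x = r0 := by
    intro x hx h0
    simp only [r', hx, dif_pos]
    exact hr0 ⟨x, hx⟩ h0
  set O : Set Y := {x | π x ∈ OO T} with hO
  have hOopen : IsOpen (OO T) :=
    (isOpen_lt continuous_const T.continuous).inter (isOpen_lt T.continuous continuous_const)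
  have hOo : IsOpen O := hOopen.preimage hπ
  let g : Y → ℂ := fun x => g0 (s x) * r' (π x)
  have hgc : ContinuousOn g O := by
    refine ContinuousOn.mul (hg0.comp hs hs2) (hr'c.comp hπ.continuousOn fun x hx => hx)
  have hgne : ∀ x ∈ O, g x ≠ 0 := fun x hx => mul_ne_zero (hg0ne _ (hs2 x hx)) (hr'ne _ hx)
  -- `y² = g²`
  have hyg : ∀ x ∈ O, y x ^ 2 = g x ^ 2 := by
    intro x hx
    have hcl := hdense x hx
    have h1 : ContinuousWithinAt (fun x => y x ^ 2 - g x ^ 2)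
        {x' | π x' ∈ OO T ∧ (π x').1.1 0 ≠ 0} x :=
      (((hy.pow 2).sub (hgc.pow 2)) x hx).mono fun x' hx' => hx'.1
    have h2 : ∀ x' ∈ {x' | π x' ∈ OO T ∧ (π x').1.1 0 ≠ 0}, y x' ^ 2 - g x' ^ 2 = 0 := by
      rintro x' ⟨hx', hx0⟩
      have hB : (π x').1.1 ∈ Ball 3 := by rw [mem_Ball]; exact (π x').2.1
      have h3 := hy2 x' hx'
      rw [hFq _ hB] at h3
      have h4 : ∏ v ∈ S0, lin v (π x').1.1 =
          (π x').1.1 0 ^ S0.card * ∏ v ∈ S0, (ca v + cb v * s x') := by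
        rw [← Finset.prod_const, ← Finset.prod_mul_distrib]
        refine Finset.prod_congr rfl fun v hv => ?_
        exact lin_base (D.base v hv).2.1 (D.base v hv).2.2 (hs1 x' hx')
      rw [h4, ← hg0' _ (hs2 x' hx'), ← hr'2 _ hx'] at h3
      have h5 : (π x').1.1 0 ^ S0.card ≠ 0 := pow_ne_zero _ hx0
      have h6 : (π x').1.1 0 ^ S0.card * (y x' ^ 2 - g x' ^ 2) = 0 := by
        simp only [g]
        linear_combination h3
      exact (mul_eq_zero.1 h6).resolve_left h5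
    have h4 : y x ^ 2 - g x ^ 2 ∈ closure ({0} : Set ℂ) :=
      h1.mem_closure hcl (fun y hy => by simpa using h2 y hy)
    rw [closure_singleton] at h4
    exact sub_eq_zero.1 h4
  obtain ⟨hsh1, hsh2⟩ := sheet hy hgc hgne hyg
  let ε : Y → ℝ := fun x => if π x ∈ OO T then (y x / g x).re else 1
  have hεO : ∀ x ∈ O, ε x = (y x / g x).re := fun x hx => if_pos hx
  have hε : ∀ x, ε x = 1 ∨ ε x = -1 := by
    intro x
    by_cases hx : π x ∈ OO T
    · rw [hεO x hx]
      rcases hsh2 x hx with h | h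
      · exact Or.inl h.1
      · exact Or.inr h.1
    · left
      simp only [ε, hx, if_false]
  have hεc : ContinuousOn ε O := hsh1.congr hεO
  refine ⟨ε, hε, hεc, ?_, ?_, fun u => g0 u * r0, r0 ^ 2, hg0.mul continuousOn_const, ?_, ?_,
    ?_⟩
  · exact theta_cont (fun x => T (π x)) (T.continuous.comp hπ) (fun x => hT.nonneg _)
      (fun x => hT.le_one _) ε hε hεc
  · intro x x' hx hxx hss
    have hx' : π x' ∈ OO T := hxx ▸ hx
    have hg : g x' = g x := by
      simp only [g]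
      rw [hxx, hss]
    refine ⟨fun h => ?_, fun h => ?_⟩
    · rw [hεO x hx, hεO x' hx', hg, h]
    · rw [hεO x hx, hεO x' hx', hg, h, neg_div, Complex.neg_re]
  · intro u hu
    have hr00 : r0 ≠ 0 := by
      intro h0
      rw [h0] at hr02
      have hB : (0 : E3) ∈ Ball 3 := by rw [mem_Ball]; simp
      have h2 : q 0 = 0 := by rw [← hr02]; simp
      obtain ⟨v, hv, hv0⟩ := (hqdiv.eq_zero_iff hB).1 h2
      rcases D.rest v hv.1 (fun h => hv.2 (Finset.mem_coe.2 h)) with ⟨i, rfl⟩ | hb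
      · have := mem_Cap_of_lin_eq_zero (W.pv i) W.hk (W.small i) (u := (0 : E3))
          (by simp) hv0
        exact Cap.ne_zero (W.small i) this rfl
      · have := (hb 0 (by simp) hv0).1
        exact this ⟨rfl, rfl⟩
    exact mul_ne_zero (hg0ne u hu) hr00
  · intro u hu
    show (g0 u * r0) ^ 2 = _
    rw [mul_pow, hg0' u hu]
  · intro x hx h0
    have h1 : g x = g0 (s x) * r0 := by
      simp only [g]
      rw [hr'0 _ hx h0]
    show y x = (ε x : ℂ) * (g0 (s x) * r0)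
    rw [hεO x hx, ← h1]
    rcases hsh2 x hx with h | h
    · rw [h.1, h.2]; simp
    · rw [h.1, h.2]; simp

end Crest.Agent.R272.LbSq_936
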