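import Mathlib
import Crest.Agent.R272.LbAd2_936
import Crest.Agent.R272.LbSq6_936

/-!
# LB-ADAPT, part 3 (row 272, lower bound for S0415; helper936)

`Gm.main` : the circle valued function `θ'` on the graph model, its support, its sign under
`κ ↦ -κ` and its behaviour on paths over the origin.
-/

set_option autoImplicit false
set_option linter.unusedSectionVars false

open Set Filter Topology
open Crest.Agent.R272.EBase_641 Crest.Agent.R272.LbCap_382 Crest.Agent.R272.LbClu_382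
  Crest.Agent.R272.Wei_392
open scoped ComplexConjugate unitInterval

noncomputable section

namespace Crest.Agent.R272.LbSq_936

namespace Gm

variable {P : Type*} [TopologicalSpace P] {n d : P → ℂ}
variable {Y : Type*} [TopologicalSpace Y] {z : Y → E3} {t k : Y → P}
    {e : ℂ} {a0 b0 qN qD : E3 → ℂ} {SN SD : Finset (V1 3)}

/-- the base factors do not vanish on the annulus -/
theorem _root_.Crest.Agent.R272.LbSq_936.FData.base_ne {S : Set (V1 3)} {F : E3 → ℂ}
    {S0 : Finset (V1 3)} {v1 v2 : V1 3} {ι : Type*} {V : ι → V1 3} {c : ℂ} {r1 r2 m1 m2 : ℝ}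
    (D : FData S F S0 v1 v2 V c r1 r2 m1 m2) {u : ℂ} (hu : u ∈ An c r1 r2) {l : V1 3}
    (hl : l ∈ S0) : ca l + cb l * u ≠ 0 := by
  intro hl0
  by_cases e1 : l = v1
  · subst e1
    have e : u = -ca l / cb l := by
      have := D.b1
      field_simp
      linear_combination hl0
    have h3 := D.in1
    rw [← e] at h3
    exact absurd hu.1 (not_lt.2 h3)
  · by_cases e2 : l = v2
    · subst e2
      have e : u = -ca l / cb l := by
        have := D.b2
        field_simp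
        linear_combination hl0
      have h3 := D.in2
      rw [← e] at h3
      exact absurd hu.1 (not_lt.2 h3)
    · exact D.out l hl e1 e2 u hu.2 hl0

/-- the open set where everything is controlled -/
def Op (c : ℂ) (r1 r2 : ℝ) (n d : P → ℂ) (e : ℂ) (a0 b0 qN qD : E3 → ℂ) (z : Y → E3)
    (t : Y → P) : Set Y :=
  {y | r1 / (1 + r1) < aa c n d e a0 b0 z t y ∧ aa c n d e a0 b0 z t y < r2 / (1 + r2) ∧
    qN (z y) ≠ 0 ∧ qD (z y) ≠ 0}

theorem isOpen_Op (G : Gm Y n d z t k e a0 b0 qN qD SN SD) (c : ℂ) (r1 r2 : ℝ) :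
    IsOpen (Op c r1 r2 n d e a0 b0 qN qD z t) := by
  have hB : ∀ y, Metric.ball (0 : E3) 1 ∈ 𝓝 (z y) := fun y =>
    Metric.isOpen_ball.mem_nhds (by simpa using G.zB y)
  have hN : Continuous fun y => qN (z y) := continuous_iff_continuousAt.2 fun y =>
    (G.qNc.continuousAt (hB y)).comp G.zc.continuousAt
  have hD : Continuous fun y => qD (z y) := continuous_iff_continuousAt.2 fun y =>
    (G.qDc.continuousAt (hB y)).comp G.zc.continuousAt
  exact (isOpen_lt continuous_const (G.continuous_aa c)).inter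
    ((isOpen_lt (G.continuous_aa c) continuous_const).inter
      ((isOpen_ne_fun hN continuous_const).inter (isOpen_ne_fun hD continuous_const)))

theorem lt_one_of {r2 : ℝ} (hr2 : 0 < r2) : r2 / (1 + r2) < 1 := by
  rw [div_lt_one (by linarith)]
  linarith

section core

variable {S : Set (V1 3)} {F : E3 → ℂ} {S0 : Finset (V1 3)} {v1 v2 : V1 3}
  {ι : Type*} {V : ι → V1 3} {c : ℂ} {r1 r2 m1 m2 : ℝ}

theorem hat_ne (G : Gm Y n d z t k e a0 b0 qN qD SN SD)
    (D : FData S F S0 v1 v2 V c r1 r2 m1 m2) {y : Y}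
    (hy : y ∈ Op c r1 r2 n d e a0 b0 qN qD z t) {Sx : Finset (V1 3)} (hSx : ∀ v ∈ Sx, v ∈ S0)
    {q : E3 → ℂ} (hq : q (z y) ≠ 0) : hat Sx q z (ss n d e a0 b0 z t) y ≠ 0 :=
  mul_ne_zero (Finset.prod_ne_zero_iff.2 fun v hv =>
    D.base_ne (G.ss_mem D.r1_nonneg D.r2_pos hy.1 hy.2.1) (hSx v hv)) hq

theorem continuousAt_hat (G : Gm Y n d z t k e a0 b0 qN qD SN SD) (hr2 : 0 < r2) {y : Y}
    (hy : y ∈ Op c r1 r2 n d e a0 b0 qN qD z t) (Sx : Finset (V1 3))
    {q : E3 → ℂ} (hqc : ContinuousOn q (Metric.ball 0 1)) :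
    ContinuousAt (hat Sx q z (ss n d e a0 b0 z t)) y := by
  have h1 : ContinuousAt (ss n d e a0 b0 z t) y :=
    G.continuousAt_ss (c := c) (lt_trans hy.2.1 (lt_one_of hr2))
  have hB : Metric.ball (0 : E3) 1 ∈ 𝓝 (z y) :=
    Metric.isOpen_ball.mem_nhds (by simpa using G.zB y)
  have h2 : ContinuousAt (fun y => q (z y)) y := (hqc.continuousAt hB).comp G.zc.continuousAt
  refine ContinuousAt.mul ?_ h2
  exact tendsto_finsetProd _ fun v _ => (continuousAt_const.add (continuousAt_const.mul h1))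

theorem prod_hat (D : FData S F S0 v1 v2 V c r1 r2 m1 m2)
    {y : Y} (hy : y ∈ Op c r1 r2 n d e a0 b0 qN qD z t)
    {Sx : Finset (V1 3)} (hSx : ∀ v ∈ Sx, v ∈ S0) :
    ∏ v ∈ Sx, lin v (z y) =
      z y 0 ^ Sx.card * ∏ v ∈ Sx, (ca v + cb v * ss n d e a0 b0 z t y) := by
  rw [← Finset.prod_const, ← Finset.prod_mul_distrib]
  refine Finset.prod_congr rfl fun v hv => ?_
  exact lin_base (D.base v (hSx v hv)).2.1 (D.base v (hSx v hv)).2.2
    (ss_mul (c := c) (lt_trans hy.2.1 (lt_one_of D.r2_pos)))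

theorem dense0 (G : Gm Y n d z t k e a0 b0 qN qD SN SD) (hr2 : 0 < r2) {y : Y}
    (hy : y ∈ Op c r1 r2 n d e a0 b0 qN qD z t) {O : Set Y} (hO : O ∈ 𝓝 y) :
    y ∈ closure {y' | y' ∈ O ∧ y' ∈ Op c r1 r2 n d e a0 b0 qN qD z t ∧ z y' 0 ≠ 0} := by
  have hOp : Op c r1 r2 n d e a0 b0 qN qD z t ∈ 𝓝 y := (G.isOpen_Op c r1 r2).mem_nhds hy
  by_cases hF : F1 z y
  · have h1 := G.cl y hF.1 hF.2
    rw [mem_closure_iff_nhds] at h1 ⊢
    intro U hU
    obtain ⟨y', hy'U, hy'⟩ := h1 (U ∩ (O ∩ Op c r1 r2 n d e a0 b0 qN qD z t))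
      (inter_mem hU (inter_mem hO hOp))
    exact ⟨y', hy'U.1, hy'U.2.1, hy'U.2.2,
      z0_ne (c := c) (lt_trans hy'U.2.2.2.1 (lt_one_of hr2)) hy'⟩
  · exact subset_closure ⟨mem_of_mem_nhds hO, hy,
      z0_ne (c := c) (lt_trans hy.2.1 (lt_one_of hr2)) hF⟩

variable (G : Gm Y n d z t k e a0 b0 qN qD SN SD)
  (D : FData S F S0 v1 v2 V c r1 r2 m1 m2) (A : AD S F S0 SN SD qN qD)

include G D A

theorem rel {y : Y} (hy : y ∈ Op c r1 r2 n d e a0 b0 qN qD z t) :
    n (k y) ^ 2 * hat SD qD z (ss n d e a0 b0 z t) y =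
      d (k y) ^ 2 * hat SN qN z (ss n d e a0 b0 z t) y := by
  have hrel0 : ∀ y, y ∈ Op c r1 r2 n d e a0 b0 qN qD z t → z y 0 ≠ 0 →
      n (k y) ^ 2 * hat SD qD z (ss n d e a0 b0 z t) y =
        d (k y) ^ 2 * hat SN qN z (ss n d e a0 b0 z t) y := by
    intro y hy h0
    have h := G.r2 y
    rw [prod_hat D hy A.subD, prod_hat D hy A.subN, A.cardN, A.cardD] at h
    have h3 : z y 0 ^ 3 ≠ 0 := pow_ne_zero _ h0
    apply mul_left_cancel₀ h3
    unfold hat
    linear_combination h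
  obtain ⟨U, hU, l, h1, h2, h3⟩ := G.pco (k y)
  have hka : ContinuousAt k y := G.kc.continuousAt
  have hn : ContinuousAt (fun y => l (k y) * n (k y)) y :=
    ContinuousAt.comp (f := k) (h1.continuousAt hU) hka
  have hd : ContinuousAt (fun y => l (k y) * d (k y)) y :=
    ContinuousAt.comp (f := k) (h2.continuousAt hU) hka
  have hΦ : ContinuousAt (fun y => (l (k y) * n (k y)) ^ 2 *
      hat SD qD z (ss n d e a0 b0 z t) y -
      (l (k y) * d (k y)) ^ 2 * hat SN qN z (ss n d e a0 b0 z t) y) y :=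
    ((hn.pow 2).mul (G.continuousAt_hat D.r2_pos hy SD G.qDc)).sub
      ((hd.pow 2).mul (G.continuousAt_hat D.r2_pos hy SN G.qNc))
  have h4 : (l (k y) * n (k y)) ^ 2 * hat SD qD z (ss n d e a0 b0 z t) y -
      (l (k y) * d (k y)) ^ 2 * hat SN qN z (ss n d e a0 b0 z t) y ∈ closure ({0} : Set ℂ) :=
    (hΦ.continuousWithinAt
      (s := {y' | y' ∈ univ ∧ y' ∈ Op c r1 r2 n d e a0 b0 qN qD z t ∧ z y' 0 ≠ 0})).mem_closure
      (G.dense0 D.r2_pos hy univ_mem) (by
      rintro y' ⟨-, hy', h0'⟩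
      have := hrel0 y' hy' h0'
      show (l (k y') * n (k y')) ^ 2 * hat SD qD z (ss n d e a0 b0 z t) y' -
        (l (k y') * d (k y')) ^ 2 * hat SN qN z (ss n d e a0 b0 z t) y' = 0
      linear_combination (l (k y')) ^ 2 * this)
  rw [closure_singleton] at h4
  have h5 : (l (k y) * n (k y)) ^ 2 * hat SD qD z (ss n d e a0 b0 z t) y -
      (l (k y) * d (k y)) ^ 2 * hat SN qN z (ss n d e a0 b0 z t) y = 0 := h4
  have hl : l (k y) ^ 2 ≠ 0 := pow_ne_zero _ (h3 _ (mem_of_mem_nhds hU)).1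
  apply mul_left_cancel₀ hl
  linear_combination h5

theorem dk_ne {y : Y} (hy : y ∈ Op c r1 r2 n d e a0 b0 qN qD z t) : d (k y) ≠ 0 := by
  intro h0
  have h1 := rel G D A hy
  rw [h0] at h1
  have h2 : n (k y) ^ 2 * hat SD qD z (ss n d e a0 b0 z t) y = 0 := by rw [h1]; ring
  have h3 : n (k y) = 0 := by
    rcases mul_eq_zero.1 h2 with h | h
    · exact pow_eq_zero_iff (two_ne_zero) |>.1 h
    · exact absurd h (G.hat_ne D hy A.subD hy.2.2.2)
  rcases G.pco.ne (k y) with h | h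
  · exact h h3
  · exact h h0

theorem yy_sq {y : Y} (hy : y ∈ Op c r1 r2 n d e a0 b0 qN qD z t) :
    yy n d e a0 b0 qD SD z t k y ^ 2 =
      hat SN qN z (ss n d e a0 b0 z t) y * hat SD qD z (ss n d e a0 b0 z t) y := by
  have h1 := rel G D A hy
  have h2 := dk_ne G D A hy
  show (n (k y) / d (k y) * hat SD qD z (ss n d e a0 b0 z t) y) ^ 2 = _
  field_simp
  linear_combination hat SD qD z (ss n d e a0 b0 z t) y * h1

theorem continuousAt_yy {y : Y} (hy : y ∈ Op c r1 r2 n d e a0 b0 qN qD z t) :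
    ContinuousAt (yy n d e a0 b0 qD SD z t k) y := by
  have h1 : ContinuousAt (fun y => n (k y) / d (k y)) y :=
    ContinuousAt.comp (f := k) (g := fun s => n s / d s)
      ((G.pco.ratio).continuousAt (G.pco.isOpen_d.mem_nhds (dk_ne G D A hy))) G.kc.continuousAt
  exact h1.mul (G.continuousAt_hat D.r2_pos hy SD G.qDc)

theorem yy_sq_mul {y : Y} (hy : y ∈ Op c r1 r2 n d e a0 b0 qN qD z t) :
    yy n d e a0 b0 qD SD z t k y ^ 2 * z y 0 ^ S0.card = F (z y) := by
  rw [yy_sq G D A hy, A.split _ (G.zB y), prod_hat D hy A.subD, prod_hat D hy A.subN, A.cardN,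
    A.cardD, A.card0]
  unfold hat
  ring

end core

variable {ι : Type*} {V : ι → V1 3} {Nn : ι → ℝ} {Nmin Nmax c0 Lam Lam' kc : ℝ}

/-- **THE CIRCLE VALUED FUNCTION ON THE GRAPH MODEL.** -/
theorem main (G : Gm Y n d z t k e a0 b0 qN qD SN SD)
    (W : WData ι V Nn Nmin Nmax c0 Lam Lam' kc) {S : Set (V1 3)} {F : E3 → ℂ}
    {S0 : Finset (V1 3)} {v1 v2 : V1 3} {c : ℂ} {r1 r2 : ℝ}
    (D : FData S F S0 v1 v2 V c r1 r2 (r1 / (1 + r1)) (r2 / (1 + r2))) {T : C(Q0 c, ℝ)}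
    (hT : IsWall V kc c (r1 / (1 + r1)) (r2 / (1 + r2)) T) (A : AD S F S0 SN SD qN qD)
    (hprod : ∀ f : V1 3 → ℂ, ∏ v ∈ S0, f v = (∏ v ∈ SN, f v) * ∏ v ∈ SD, f v) :
    ∃ θ : Y → AddCircle (1 : ℝ), Continuous θ ∧ (∀ y, θ y ≠ 0 → G.pi c y ∈ OO T) ∧
      (∀ y y', z y = z y' → t y = t y' →
        n (k y') * d (k y) = -(n (k y) * d (k y')) → θ y' = -θ y) ∧
      ∀ α : I → Y, Continuous α → (∀ τ, z (α τ) = 0) →
        IsPreconnected {τ | r1 / (1 + r1) < aa c n d e a0 b0 z t (α τ) ∧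
          aa c n d e a0 b0 z t (α τ) < r2 / (1 + r2)} →
        ∃ sg' : ℝ, (sg' = 1 ∨ sg' = -1) ∧
          ∀ τ, θ (α τ) = ((sg' * T (G.pi c (α τ)) : ℝ) : AddCircle (1 : ℝ)) := by
  set s : Y → ℂ := ss n d e a0 b0 z t with hs
  have hqz : ∀ q : E3 → ℂ, (∀ w : E3, ‖w‖ < 1 → q w = 0 → ∃ v ∈ S, v ∉ S0 ∧ lin v w = 0) →
      ∀ y, G.pi c y ∈ OO T → q (z y) ≠ 0 := by
    intro q hq y hy h0
    obtain ⟨v, hv, hv0, hl⟩ := hq _ (G.zB y) h0
    have := hT.seg W hy (D.rest v hv hv0) (t := 1) zero_le_one le_rfl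
    rw [one_smul] at this
    exact this hl
  have hqz0 : ∀ q : E3 → ℂ, (∀ w : E3, ‖w‖ < 1 → q w = 0 → ∃ v ∈ S, v ∉ S0 ∧ lin v w = 0) →
      q 0 ≠ 0 := by
    intro q hq h0
    obtain ⟨v, hv, hv0, hl⟩ := hq 0 (by simp) h0
    rcases D.rest v hv hv0 with ⟨i, rfl⟩ | hb
    · have := mem_Cap_of_lin_eq_zero (W.pv i) W.hk (W.small i) (u := (0 : E3)) (by simp) hl
      exact Cap.ne_zero (W.small i) this rfl
    · exact (hb 0 (by simp) hl).1 ⟨rfl, rfl⟩
  have hOp : ∀ y, G.pi c y ∈ OO T → y ∈ Op c r1 r2 n d e a0 b0 qN qD z t := fun y hy =>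
    ⟨(hT.mem hy).1, (hT.mem hy).2.1, hqz qN A.zN y hy, hqz qD A.zD y hy⟩
  have hOopen : IsOpen (OO T) :=
    (isOpen_lt continuous_const T.continuous).inter (isOpen_lt T.continuous continuous_const)
  have hOo : IsOpen {y | G.pi c y ∈ OO T} := hOopen.preimage (G.continuous_pi c)
  have hsA : ∀ y ∈ Op c r1 r2 n d e a0 b0 qN qD z t, s y ∈ An c r1 r2 := fun y hy =>
    G.ss_mem D.r1_nonneg D.r2_pos hy.1 hy.2.1
  have hlt : ∀ y ∈ Op c r1 r2 n d e a0 b0 qN qD z t, aa c n d e a0 b0 z t y < 1 := fun y hy =>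
    lt_trans hy.2.1 (lt_one_of D.r2_pos)
  have hsc : ∀ y ∈ Op c r1 r2 n d e a0 b0 qN qD z t, ContinuousAt s y := fun y hy =>
    G.continuousAt_ss (hlt y hy)
  set w : Y → ℂ := yy n d e a0 b0 qD SD z t k with hw
  obtain ⟨ε, hε, hεc, hθ, hsgn, g, κ, hgc, hgne, hg2, hg0⟩ :=
    exists_sheet' W D hT (G.pi c) (G.continuous_pi c) s w
    (fun y hy => (hsc y (hOp y hy)).continuousWithinAt)
    (fun y hy => (continuousAt_yy G D A (hOp y hy)).continuousWithinAt)
    (fun y hy => by rw [pi_fst]; exact ss_mul (hlt y (hOp y hy)))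
    (fun y hy => hsA y (hOp y hy))
    (fun y hy => by
      have h1 := G.dense0 D.r2_pos (hOp y hy) (hOo.mem_nhds hy)
      refine closure_mono ?_ h1
      rintro y' ⟨h2, -, h3⟩
      exact ⟨h2, by simpa using h3⟩)
    (fun y hy => by rw [pi_fst]; exact yy_sq_mul G D A (hOp y hy))
  have hzero : ∀ y, G.pi c y ∉ OO T → T (G.pi c y) = 0 ∨ T (G.pi c y) = 1 := by
    intro y hy
    rcases (hT.nonneg (G.pi c y)).eq_or_lt with h | h
    · exact Or.inl h.symm
    · right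
      by_contra h3
      exact hy ⟨h, lt_of_le_of_ne (hT.le_one _) h3⟩
  have hclass : ∀ (sg' : ℝ), (sg' = 1 ∨ sg' = -1) → ∀ x : ℝ, (x = 0 ∨ x = 1) →
      ((sg' * x : ℝ) : AddCircle (1 : ℝ)) = 0 := by
    intro sg' hsg' x hx
    rcases hx with rfl | rfl
    · simp
    · rcases hsg' with rfl | rfl
      · rw [mul_one]; exact AddCircle.coe_period 1
      · rw [neg_one_mul, AddCircle.coe_neg, AddCircle.coe_period, neg_zero]
  refine ⟨fun y => ((ε y * T (G.pi c y) : ℝ) : AddCircle (1 : ℝ)), hθ, ?_, ?_, ?_⟩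
  · intro y hy
    by_contra h
    exact hy (hclass _ (hε y) _ (hzero y h))
  · intro y y' hz ht hk
    have haa : aa c n d e a0 b0 z t y = aa c n d e a0 b0 z t y' := by
      unfold aa F1 sg0 sg1
      rw [hz, ht]
    have hss : s y = s y' := by
      rw [hs]
      unfold ss F1 sg0 sg1
      rw [hz, ht]
    have hpi : G.pi c y = G.pi c y' := Subtype.ext (Prod.ext hz haa)
    show ((ε y' * T (G.pi c y') : ℝ) : AddCircle (1 : ℝ)) =
      -((ε y * T (G.pi c y) : ℝ) : AddCircle (1 : ℝ))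
    by_cases hy : G.pi c y ∈ OO T
    · have hy' : G.pi c y' ∈ OO T := hpi ▸ hy
      have hhats : hat SD qD z s y' = hat SD qD z s y := by
        unfold hat
        rw [hz, hss]
      have h6 := (hsgn y y' hy hpi hss).2 (by
        show n (k y') / d (k y') * hat SD qD z s y' = -(n (k y) / d (k y) * hat SD qD z s y)
        rw [hhats]
        have e1 : n (k y') / d (k y') = -(n (k y) / d (k y)) := by
          rw [← neg_div, div_eq_div_iff (dk_ne G D A (hOp y' hy')) (dk_ne G D A (hOp y hy))]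
          linear_combination hk
        rw [e1]
        ring)
      rw [h6, ← hpi, neg_mul, AddCircle.coe_neg]
    · have hy' : G.pi c y' ∉ OO T := fun h => hy (hpi.symm ▸ h)
      rw [hclass _ (hε y') _ (hzero y' hy'), hclass _ (hε y) _ (hzero y hy), neg_zero]
  · intro α hα hα0 hJ
    set J : Set I := {τ | r1 / (1 + r1) < aa c n d e a0 b0 z t (α τ) ∧
          aa c n d e a0 b0 z t (α τ) < r2 / (1 + r2)} with hJdef
    have hJOp : ∀ τ ∈ J, α τ ∈ Op c r1 r2 n d e a0 b0 qN qD z t := by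
      intro τ hτ
      refine ⟨hτ.1, hτ.2, ?_, ?_⟩
      · rw [hα0 τ]; exact hqz0 qN A.zN
      · rw [hα0 τ]; exact hqz0 qD A.zD
    have hOJ : ∀ τ, G.pi c (α τ) ∈ OO T → τ ∈ J := fun τ hτ => ⟨(hT.mem hτ).1, (hT.mem hτ).2.1⟩
    by_cases hex : ∃ τ0, G.pi c (α τ0) ∈ OO T
    · obtain ⟨τ0, hτ0⟩ := hex
      -- the ratio
      let ρ : I → ℂ := fun τ => w (α τ) / g (s (α τ))
      have hρc : ContinuousOn ρ J := by
        intro τ hτ
        have hy := hJOp τ hτ
        have h1 : ContinuousAt (fun τ => w (α τ)) τ :=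
          (continuousAt_yy G D A hy).comp hα.continuousAt
        have h2 : ContinuousWithinAt (fun τ => g (s (α τ))) J τ := by
          have h3 : ContinuousWithinAt (fun τ => s (α τ)) J τ :=
            ((hsc _ hy).comp hα.continuousAt).continuousWithinAt
          exact ContinuousWithinAt.comp (g := g) (f := fun τ => s (α τ)) (t := An c r1 r2)
            (hgc _ (hsA _ hy)) h3 fun τ' hτ' => hsA _ (hJOp τ' hτ')
        exact h1.continuousWithinAt.div h2 (hgne _ (hsA _ hy))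
      have hρ0 : ∀ τ, G.pi c (α τ) ∈ OO T → ρ τ = (ε (α τ) : ℂ) := by
        intro τ hτ
        have h1 := hg0 (α τ) hτ (by rw [pi_fst]; exact hα0 τ)
        show w (α τ) / g (s (α τ)) = _
        rw [h1, mul_div_assoc, div_self (hgne _ (hsA _ (hOp _ hτ))), mul_one]
      -- `ρ² = 1` on `J`
      have hρ2 : ∀ τ ∈ J, ρ τ ^ 2 * κ = qN 0 * qD 0 := by
        intro τ hτ
        have hy := hJOp τ hτ
        have h1 := yy_sq G D A hy
        have h2 := hg2 _ (hsA _ hy)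
        have h3 := hgne _ (hsA _ hy)
        have h4 : ∏ l ∈ S0, (ca l + cb l * s (α τ)) ≠ 0 :=
          Finset.prod_ne_zero_iff.2 fun v hv => D.base_ne (hsA _ hy) hv
        have h5 : w (α τ) ^ 2 = (∏ l ∈ S0, (ca l + cb l * s (α τ))) * (qN 0 * qD 0) := by
          rw [hprod, h1]
          unfold hat
          rw [hα0 τ]
          ring
        have h6 : g (s (α τ)) ^ 2 ≠ 0 := pow_ne_zero _ h3
        have h7 : (∏ l ∈ S0, (ca l + cb l * s (α τ))) * κ ≠ 0 := by rw [← h2]; exact h6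
        show (w (α τ) / g (s (α τ))) ^ 2 * κ = _
        rw [div_pow, h5, h2]
        have hκ : κ ≠ 0 := right_ne_zero_of_mul h7
        rw [div_mul_eq_mul_div, div_eq_iff h7]
        ring
      have hκ : κ = qN 0 * qD 0 := by
        have h1 := hρ2 τ0 (hOJ _ hτ0)
        rw [hρ0 τ0 hτ0] at h1
        rcases hε (α τ0) with h | h
        · rw [h] at h1
          simpa using h1
        · rw [h] at h1
          simpa using h1
      have hq0 : qN 0 * qD 0 ≠ 0 := mul_ne_zero (hqz0 qN A.zN) (hqz0 qD A.zD)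
      have hρ1 : ∀ τ ∈ J, ρ τ = 1 ∨ ρ τ = -1 := by
        intro τ hτ
        have h1 := hρ2 τ hτ
        rw [hκ] at h1
        have h2 : ρ τ ^ 2 = 1 := by
          apply mul_right_cancel₀ hq0
          rw [h1, one_mul]
        exact mul_self_eq_one_iff.1 (by rw [← sq]; exact h2)
      -- constant on `J`
      have hconst : ∀ τ ∈ J, ρ τ = ρ τ0 := by
        intro τ hτ
        exact hJ.constant_of_mapsTo (T := ({1, -1} : Set ℂ)) (Set.toFinite _).isDiscrete hρc
          (fun τ hτ => by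
            rcases hρ1 τ hτ with h | h
            · rw [h]; simp
            · rw [h]; simp) hτ (hOJ _ hτ0)
      refine ⟨ε (α τ0), hε _, fun τ => ?_⟩
      by_cases hτ : G.pi c (α τ) ∈ OO T
      · have h1 := hconst τ (hOJ τ hτ)
        rw [hρ0 τ hτ, hρ0 τ0 hτ0] at h1
        have h2 : ε (α τ) = ε (α τ0) := by exact_mod_cast h1
        show ((ε (α τ) * T (G.pi c (α τ)) : ℝ) : AddCircle (1 : ℝ)) = _
        rw [h2]
      · show ((ε (α τ) * T (G.pi c (α τ)) : ℝ) : AddCircle (1 : ℝ)) = _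
        rw [hclass _ (hε _) _ (hzero _ hτ), hclass _ (hε _) _ (hzero _ hτ)]
    · refine ⟨1, Or.inl rfl, fun τ => ?_⟩
      have hτ : G.pi c (α τ) ∉ OO T := fun h => hex ⟨τ, h⟩
      show ((ε (α τ) * T (G.pi c (α τ)) : ℝ) : AddCircle (1 : ℝ)) = _
      rw [hclass _ (hε _) _ (hzero _ hτ), hclass _ (Or.inl rfl) _ (hzero _ hτ)]

end Gm

end Crest.Agent.R272.LbSq_936
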