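import Crest.Agent.R272.LbAsm3_990
import Crest.Agent.R272.LbAd3_936
import Crest.Agent.R272.LbEnd2_259
import Crest.Agent.R272.UB7_20

/-!
# Row 272, LB-ASM (helper990), part 4: the lower bound in one theorem

`lb_live` : the period `2 ∫_γ ω` of the arc `γ` has infinite order in `π₁(X')`, from the literal
outputs of the leaves (group data, graph model, arithmetic of the far vectors, surgery, fibre, arc).
-/

set_option autoImplicit false
set_option linter.unusedSectionVars false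

open scoped ComplexConjugate Topology unitInterval
open Crest.Agent.R272.EBase_641 Crest.Agent.R272.LbPP_990 Crest.Agent.R272.LbSep_990
open Crest.Agent.R272.LbGood_990 Crest.Agent.R272.St2_702 Crest.Agent.R272.LbCap_382
open Crest.Agent.R272.LbFin_990 Crest.Agent.R272.LbFin2_990 Crest.Agent.R272.Per_939
open Crest.Agent.R272.CovOrd_463 Crest.Agent.R272.LbExt_259 Crest.Agent.R272.TLoop_463
open Crest.Agent.R272.UB_20 Crest.Agent.R272.MQ_783 Crest.Agent.R272.Refl_246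
open Crest.Agent.R272.AJ_956

namespace Crest.Agent.R272.LbAsm_990

noncomputable section

/-! ### out and back -/

/-- the map `t ↦ 1 - |2 t - 1|` -/
def fold : C(I, I) :=
  ⟨fun t => Set.projIcc 0 1 zero_le_one (1 - |2 * (t : ℝ) - 1|), by fun_prop⟩

theorem fold_zero : fold 0 = 0 := by
  show Set.projIcc (0 : ℝ) 1 zero_le_one (1 - |2 * ((0 : I) : ℝ) - 1|) = 0
  apply Set.projIcc_of_le_left
  simp

theorem fold_one : fold 1 = 0 := by
  show Set.projIcc (0 : ℝ) 1 zero_le_one (1 - |2 * ((1 : I) : ℝ) - 1|) = 0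
  apply Set.projIcc_of_le_left
  norm_num

theorem fold_half {t : I} (ht : (t : ℝ) = 1 / 2) : fold t = 1 := by
  show Set.projIcc (0 : ℝ) 1 zero_le_one (1 - |2 * (t : ℝ) - 1|) = 1
  apply Set.projIcc_of_right_le
  rw [ht]
  norm_num

/-- `a` forwards, then `b` backwards -/
def ob {X : Type*} [TopologicalSpace X] (a b : C(I, X)) (h : a 1 = b 1) : C(I, X) :=
  ⟨fun t => if (t : ℝ) ≤ 1 / 2 then a (fold t) else b (fold t), by
    refine Continuous.if_le (by fun_prop) (by fun_prop) (by fun_prop) continuous_const ?_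
    intro t ht
    rw [fold_half ht, h]⟩

variable {X : Type*} [TopologicalSpace X] {a b : C(I, X)} {h : a 1 = b 1}

theorem ob_apply (t : I) :
    ob a b h t = if (t : ℝ) ≤ 1 / 2 then a (fold t) else b (fold t) := rfl

theorem ob_zero : ob a b h 0 = a 0 := by
  rw [ob_apply, if_pos (by simp), fold_zero]

theorem ob_one : ob a b h 1 = b 0 := by
  rw [ob_apply, if_neg (by norm_num), fold_one]

/-- pointwise properties -/
theorem ob_forall {P : X → Prop} (ha : ∀ τ, P (a τ)) (hb : ∀ τ, P (b τ)) (t : I) :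
    P (ob a b h t) := by
  rw [ob_apply]
  split_ifs
  · exact ha _
  · exact hb _

/-- **degree of the loop out and back.** -/
theorem hasDeg_ob {θ : X → Cir} {T : I → ℝ} (hT : Continuous T)
    (hT1 : T 1 = 0 ∨ T 1 = 1) {s : ℝ} (hs : s = 1 ∨ s = -1)
    (ha : ∀ τ, θ (a τ) = ((s * T τ : ℝ) : Cir)) (hb : ∀ τ, θ (b τ) = ((-(s * T τ) : ℝ) : Cir)) :
    HasDeg (fun t => θ (ob a b h t)) (2 * s * (T 1 - T 0)) := by
  refine ⟨fun t => if (t : ℝ) ≤ 1 / 2 then s * T (fold t) else 2 * s * T 1 - s * T (fold t),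
    ?_, ?_, ?_⟩
  · refine Continuous.if_le (by fun_prop) (by fun_prop) (by fun_prop) continuous_const ?_
    intro t ht
    rw [fold_half ht]
    ring
  · intro t
    have hz : ((2 * s * T 1 : ℝ) : Cir) = 0 := by
      rw [AddCircle.coe_eq_zero_iff]
      rcases hs with rfl | rfl <;> rcases hT1 with h1 | h1 <;> rw [h1]
      · exact ⟨0, by simp⟩
      · exact ⟨2, by simp⟩
      · exact ⟨0, by simp⟩
      · exact ⟨-2, by simp⟩
    dsimp only
    rw [ob_apply]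
    split_ifs
    · exact (ha _).symm
    · rw [hb, sub_eq_add_neg, AddCircle.coe_add, hz, zero_add]
  · have h0 : ((0 : I) : ℝ) ≤ 1 / 2 := by simp
    have h1 : ¬ ((1 : I) : ℝ) ≤ 1 / 2 := by norm_num
    simp only [h0, h1, if_true, if_false, fold_zero, fold_one]
    ring

/-! ### the lower bound -/

section live

variable {P : Type*} [TopologicalSpace P] {n d : P → ℂ}
variable {Y : Type} [TopologicalSpace Y] {z : Y → E 3} {t k : Y → P}
    {e : ℂ} {a0 b0 qN qD : E 3 → ℂ} {SN SD : Finset (V1 3)}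

/-- the fibre `C × C → Y` over the origin: the colour of `t`, `k` is the first factor -/
structure Fib {C : Type} [TopologicalSpace C] (iv : C → C) (n d : P → ℂ) (z : Y → E 3)
    (t k : Y → P) (j : C × C → Y) : Prop where
  cont : Continuous j
  jz : ∀ x, z (j x) = 0
  jt : ∀ x y y', t (j (x, y)) = t (j (x, y'))
  jk : ∀ x y y', k (j (x, y)) = k (j (x, y'))
  it : ∀ x y, t (j (iv x, y)) = t (j (x, y))
  ik : ∀ x y, n (k (j (iv x, y))) * d (k (j (x, y))) =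
    -(n (k (j (x, y))) * d (k (j (iv x, y))))

/-- an arc of the curve whose slopes cross the annulus once -/
structure Arc {C : Type} [TopologicalSpace C] (f : C → ℝ) (m1 m2 : ℝ) (γ : C(I, C)) : Prop where
  pre : IsPreconnected {τ | m1 < f (γ τ) ∧ f (γ τ) < m2}
  ends : (f (γ 0) ≤ m1 ∧ m2 ≤ f (γ 1)) ∨ (m2 ≤ f (γ 0) ∧ f (γ 1) ≤ m1)

/-- **THE LOWER BOUND.** -/
theorem lb_live
    -- the group
    {Γ : Type} [Group Γ] {φ : Γ →* UG 3} {W : Set (V1 3)} {Λ : ℝ} (Gd : GrpData φ W Λ)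
    (hW : ∀ g : Γ, ∀ w ∈ W, (φ g).1 w ∈ W)
    -- the spaces
    {B X' : Type} [TopologicalSpace B] [TopologicalSpace X'] [MulAction Γ Y] [MulAction Γ B]
    [ContinuousConstSMul Γ Y] [ContinuousConstSMul Γ B] [ProperlyDiscontinuousSMul Γ B]
    [T2Space B] [LocallyCompactSpace B]
    (hstab : ∀ (b : B) (g : Γ), g • b = b → g ∈ Gd.R) {p : Y → B} (hpc : Continuous p)
    (hp : ∀ (g : Γ) x, p (g • x) = g • p x)
    -- the graph model
    (G : LbSq_936.Gm Y n d z t k e a0 b0 qN qD SN SD)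
    (heq : ∀ (g : Γ) y, z (g • y) = act (φ g) (z y)) (hK : KAct Gd.K n d z t k)
    -- the far vectors and the classes
    {ι : Type*} {V : ι → V1 3} (hL : Link W Λ V)
    {Nn : ι → ℝ} {Nmin Nmax c0 Lam Lam' kc : ℝ}
    (Wd : LbSq_936.WData ι V Nn Nmin Nmax c0 Lam Lam' kc)
    {S : Set (V1 3)} {Fs : E 3 → ℂ} {S0 : Finset (V1 3)} {v1 v2 : V1 3} {c : ℂ} {r1 r2 : ℝ}
    (Fd : LbSq_936.FData S Fs S0 v1 v2 V c r1 r2 (r1 / (1 + r1)) (r2 / (1 + r2)))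
    (A : LbSq_936.Gm.AD S Fs S0 SN SD qN qD)
    (hprod : ∀ f : V1 3 → ℂ, ∏ v ∈ S0, f v = (∏ v ∈ SN, f v) * ∏ v ∈ SD, f v)
    -- the numbers
    (h12 : r1 < r2) (hδ : slopeδ kc (capA Nmin c0) Nmax Lam' ≤ 1 / 2)
    (hδ2 : 4 * slopeδ kc (capA Nmin c0) Nmax Lam' * (1 + ‖c‖) * (3 + 2 * ‖c‖) <
      (r2 / (1 + r2) - r1 / (1 + r1)) / 2)
    (hΛ : (10 : ℝ) ^ 10 ≤ Λ) {r C0 : ℝ} (hr : ‖c‖ + r2 ≤ r) (hC : 16512 < C0)
    (hCΛ : 6 * C0 ≤ Λ ^ 2) (hrΛ : 9 * (1 + r) ^ 2 < Λ - 1)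
    (hkC : 1 + C0 + 2 * C0 / Λ * kc ≤ kc ^ 2)
    -- the curve and the torus
    {C A' : Type} [TopologicalSpace C] [TopologicalSpace A'] {𝒞 : Cur C} {q : C × C → A'}
    {L : AddSubgroup E2} {πA : E2 → A'} (J : 𝒞.IsJac q L πA) (hq : Continuous q)
    -- the fibre over the origin
    {j : C × C → Y} (hj : Fib 𝒞.iv n d z t k j) (hsw : ∀ x, Gd.σ • j x = j x.swap)
    -- the surgery
    {π' : X' → Orb Γ B} {Vs : Set X'} {ψ : X' → Orb Γ Y} {eX : Set (Orb Γ Y)}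
    (Sg : Surg (orbMap p hp) π' Vs ψ eX)
    (heX : ∀ y : Y, pr Γ y ∈ eX → ∃ (g : Γ) (x : C), y = g • j (x, 𝒞.iv x))
    -- the torus map
    {F : C(E2, X')} {inc : A' → X'} (hF : ∀ v, F v = inc (πA v)) (hper : Per F L)
    {P₀ : C} (hVs : ∀ x, x ≠ 𝒞.iv P₀ → inc (q (x, P₀)) ∈ Vs)
    (hψ : ∀ x, x ≠ 𝒞.iv P₀ → ψ (inc (q (x, P₀))) = pr Γ (j (x, P₀)))
    -- the arc
    {γ : C(I, C)} (hγP : ∀ τ, γ τ ≠ P₀ ∧ γ τ ≠ 𝒞.iv P₀)
    (hγ : Arc (fun x => LbSq_936.Gm.aa c n d e a0 b0 z t (j (x, P₀)))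
      (r1 / (1 + r1)) (r2 / (1 + r2)) γ)
    {hh : C(I, E2)} (H : IsInt 𝒞 γ hh) (hs : 𝒞.iv (γ 0) = γ 0) (he : 𝒞.iv (γ 1) = γ 1)
    (v₀ : E2) :
    ¬ IsOfFinOrder (perHom hper v₀
      (Multiplicative.ofAdd (⟨hh 1 + hh 1, two_mem J hq H hs he⟩ : L))) := by
  have hr10 := Fd.r1_nonneg
  have hr20 := Fd.r2_pos
  have hm12 : r1 / (1 + r1) < r2 / (1 + r2) := by
    rw [div_lt_div_iff₀ (by linarith) (by linarith)]
    linarith
  have hr0 : 0 ≤ r := le_trans (by positivity) hr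
  have hΛ0 : 0 < Λ := lt_of_lt_of_le (by norm_num) hΛ
  have hC0 : 0 ≤ C0 := by linarith
  obtain ⟨T, hT⟩ := LbSq_936.exists_isWall Wd c hm12 hδ hδ2
  obtain ⟨θ, hθc, hθO, hθneg, hθα⟩ := LbSq_936.Gm.main G Wd Fd hT A hprod
  -- the abstract hypotheses
  have hN : LBAsm_585.Ana (Gd.R ⊓ Gd.K) θ (z ⁻¹' OO W r C0 Λ) := by
    refine Gd.ana hΛ hr0 hC hCΛ hrΛ z G.zc (fun y => by rw [mem_Ball]; exact G.zB y) heq _ hθc ?_
    intro y hy
    have h7 := mem_OO_of_wall (x := G.pi c y) hL Wd hr20 hT hr hC0 hΛ0 hkC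
      (fun w hw => Gd.wsys.norm w hw) (hθO y hy)
    rwa [LbSq_936.Gm.pi_fst] at h7
  have hA := Gd.alg hW
  have hflat : ∀ y, z y = 0 → y ∈ z ⁻¹' OO W r C0 Λ := by
    intro y hy
    show z y ∈ OO W r C0 Λ
    rw [hy]
    refine mem_OO_of_flat ?_ rfl rfl
    rw [mem_Ball, norm_zero]
    exact one_pos
  have hneg : ∀ x ∈ Set.range (fun x : C => j (x, 𝒞.iv x)), ∀ g ∈ Gd.K,
      θ (g • Gd.σ • x) = - θ (g • x) := by
    refine hneg_of hK hθneg ?_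
    rintro _ ⟨x, rfl⟩
    have e1 : Gd.σ • j (x, 𝒞.iv x) = j (𝒞.iv x, x) := hsw _
    refine ⟨?_, ?_, ?_⟩
    · dsimp only
      rw [e1, hj.jz, hj.jz]
    · dsimp only
      rw [e1, hj.it, hj.jt x (𝒞.iv x) x]
    · dsimp only
      rw [e1, hj.jk x (𝒞.iv x) x]
      exact hj.ik x x
  -- the paths of `Y`
  let α : C(I, Y) := ⟨fun τ => j (γ τ, P₀), hj.cont.comp (γ.continuous.prodMk continuous_const)⟩
  let β : C(I, Y) := ⟨fun τ => j (𝒞.iv (γ τ), P₀),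
    hj.cont.comp ((𝒞.iv_cont.comp γ.continuous).prodMk continuous_const)⟩
  have hαβ : α 1 = β 1 := by
    show j (γ 1, P₀) = j (𝒞.iv (γ 1), P₀)
    rw [he]
  have hαβ0 : α 0 = β 0 := by
    show j (γ 0, P₀) = j (𝒞.iv (γ 0), P₀)
    rw [hs]
  obtain ⟨s, hs1, hsα⟩ := hθα α α.continuous (fun τ => hj.jz _) hγ.pre
  have hsβ : ∀ τ, θ (β τ) = ((-(s * T (G.pi c (α τ))) : ℝ) : Cir) := by
    intro τ
    have h1 : θ (β τ) = - θ (α τ) := by
      refine hθneg (α τ) (β τ) ?_ ?_ ?_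
      · show z (j _) = z (j _)
        rw [hj.jz, hj.jz]
      · exact (hj.it _ _).symm
      · exact hj.ik _ _
    rw [h1, hsα τ, AddCircle.coe_neg]
  have hTc : Continuous fun τ => T (G.pi c (α τ)) :=
    T.continuous.comp ((G.continuous_pi c).comp α.continuous)
  have hlo : ∀ τ, LbSq_936.Gm.aa c n d e a0 b0 z t (α τ) ≤ r1 / (1 + r1) →
      T (G.pi c (α τ)) = 0 := fun τ h => hT.lo _ (by rw [LbSq_936.Gm.pi_snd]; exact h)
  have hhi : ∀ τ, r2 / (1 + r2) ≤ LbSq_936.Gm.aa c n d e a0 b0 z t (α τ) →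
      T (G.pi c (α τ)) = 1 := fun τ h => hT.hi _ (by rw [LbSq_936.Gm.pi_snd]; exact h)
  have hends : (T (G.pi c (α 0)) = 0 ∧ T (G.pi c (α 1)) = 1) ∨
      (T (G.pi c (α 0)) = 1 ∧ T (G.pi c (α 1)) = 0) := by
    rcases hγ.ends with ⟨h1, h2⟩ | ⟨h1, h2⟩
    · exact Or.inl ⟨hlo 0 h1, hhi 1 h2⟩
    · exact Or.inr ⟨hhi 0 h1, hlo 1 h2⟩
  have hdeg := hasDeg_ob (a := α) (b := β) (h := hαβ) (θ := θ)
    (T := fun τ => T (G.pi c (α τ))) hTc
    (by rcases hends with h | h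
        · exact Or.inr h.2
        · exact Or.inl h.2) hs1 hsα hsβ
  -- the swapped path
  have hdeg' : HasDeg (fun τ => θ (Gd.σ • ob α β hαβ τ)) 0 := by
    let δ : I → Y := fun τ => Gd.σ • ob α β hαβ τ
    have hδc : Continuous δ := (ob α β hαβ).continuous.const_smul Gd.σ
    have hδ' : ∀ τ, ∃ x, δ τ = j (P₀, x) := by
      intro τ
      refine ob_forall (P := fun y => ∃ x, Gd.σ • y = j (P₀, x)) (fun τ => ?_) (fun τ => ?_) τ
      · exact ⟨γ τ, hsw _⟩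
      · exact ⟨𝒞.iv (γ τ), hsw _⟩
    have hδz : ∀ τ, z (δ τ) = 0 := by
      intro τ
      obtain ⟨x, hx⟩ := hδ' τ
      rw [hx, hj.jz]
    have hδt : ∀ τ, t (δ τ) = t (δ 0) := by
      intro τ
      obtain ⟨x, hx⟩ := hδ' τ
      obtain ⟨x0, hx0⟩ := hδ' 0
      rw [hx, hx0, hj.jt P₀ x x0]
    have hδpi : ∀ τ, G.pi c (δ τ) = G.pi c (δ 0) := fun τ =>
      pi_congr G c (by rw [hδz, hδz]) (hδt τ)
    have hδa : ∀ τ, LbSq_936.Gm.aa c n d e a0 b0 z t (δ τ) =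
        LbSq_936.Gm.aa c n d e a0 b0 z t (δ 0) := fun τ => by
      have := congrArg (fun x : LbSq_936.Q0 c => x.1.2) (hδpi τ)
      simpa only [LbSq_936.Gm.pi_snd] using this
    obtain ⟨s', -, hs'⟩ := hθα δ hδc hδz (by
      by_cases hc : r1 / (1 + r1) < LbSq_936.Gm.aa c n d e a0 b0 z t (δ 0) ∧
          LbSq_936.Gm.aa c n d e a0 b0 z t (δ 0) < r2 / (1 + r2)
      · have : {τ | r1 / (1 + r1) < LbSq_936.Gm.aa c n d e a0 b0 z t (δ τ) ∧
            LbSq_936.Gm.aa c n d e a0 b0 z t (δ τ) < r2 / (1 + r2)} = Set.univ := by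
          ext τ
          simp only [hδa τ, hc, Set.mem_univ, Set.mem_ofPred_eq, and_self]
        rw [this]
        exact isPreconnected_univ
      · have : {τ | r1 / (1 + r1) < LbSq_936.Gm.aa c n d e a0 b0 z t (δ τ) ∧
            LbSq_936.Gm.aa c n d e a0 b0 z t (δ τ) < r2 / (1 + r2)} = ∅ := by
          ext τ
          simp only [hδa τ, hc, Set.mem_empty_iff_false, Set.mem_ofPred_eq]
        rw [this]
        exact isPreconnected_empty)
    have h1 : (fun τ => θ (δ τ)) = fun _ => ((s' * T (G.pi c (δ 0)) : ℝ) : Cir) := by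
      funext τ
      rw [hs' τ, hδpi τ]
    show HasDeg (fun τ => θ (δ τ)) 0
    rw [h1]
    exact HasDeg.const _
  have hdd : 2 * s * (T (G.pi c (α 1)) - T (G.pi c (α 0))) + 0 ≠ 0 := by
    rcases hends with ⟨h1, h2⟩ | ⟨h1, h2⟩ <;> rw [h1, h2] <;> rcases hs1 with rfl | rfl <;>
      norm_num
  -- the path of `ℂ²`
  obtain ⟨z₀, hz⟩ := J.surj (q (γ 0, P₀))
  have g1 := lift_eq J hq H P₀ z₀ hz
  have g2 := lift_eq J hq H.neg P₀ z₀ (by
    show πA z₀ = q (𝒞.iv (γ 0), P₀)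
    rw [hs, hz])
  have hl : hh 1 + hh 1 ∈ L := two_mem J hq H hs he
  have g2' : ∀ τ, πA (z₀ + (hh 1 + hh 1) - hh τ) = q (𝒞.iv (γ τ), P₀) := by
    intro τ
    have h3 : πA (z₀ + - hh τ) = q (𝒞.iv (γ τ), P₀) := g2 τ
    rw [← h3, J.eq_iff]
    have e : z₀ + (hh 1 + hh 1) - hh τ - (z₀ + -hh τ) = hh 1 + hh 1 := by abel
    rwa [e]
  let a' : C(I, E2) := ⟨fun τ => z₀ + hh τ, by fun_prop⟩
  let b' : C(I, E2) := ⟨fun τ => z₀ + (hh 1 + hh 1) - hh τ, by fun_prop⟩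
  have hab : a' 1 = b' 1 := by
    show z₀ + hh 1 = z₀ + (hh 1 + hh 1) - hh 1
    abel
  have hFa : ∀ τ, F (a' τ) = inc (q (γ τ, P₀)) := fun τ => by
    rw [hF]; exact congrArg inc (g1 τ)
  have hFb : ∀ τ, F (b' τ) = inc (q (𝒞.iv (γ τ), P₀)) := fun τ => by
    rw [hF]; exact congrArg inc (g2' τ)
  have hne : ∀ τ, 𝒞.iv (γ τ) ≠ 𝒞.iv P₀ := fun τ h =>
    (hγP τ).1 (by rw [← 𝒞.iv_iv (γ τ), h, 𝒞.iv_iv])
  refine LbEnd_259.lb_per hA hstab hpc hp hN Sg (e₀ := Set.range fun x : C => j (x, 𝒞.iv x))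
    ?_ hneg hper (ob α β hαβ) ?_ ?_ Gd.R.one_mem ?_ hdd hdeg hdeg' (ob a' b' hab)
    ⟨hh 1 + hh 1, hl⟩ ?_ ?_ ?_ v₀
  · intro y hy
    obtain ⟨g, x, hx⟩ := heX y hy
    exact ⟨g, _, ⟨x, rfl⟩, hx⟩
  · exact ob_forall (P := fun y => y ∈ z ⁻¹' OO W r C0 Λ) (fun τ => hflat _ (hj.jz _))
      (fun τ => hflat _ (hj.jz _))
  · intro τ
    refine ob_forall (P := fun y => Gd.σ • y ∈ z ⁻¹' OO W r C0 Λ) (fun τ => ?_) (fun τ => ?_) τ
    · refine hflat _ ?_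
      show z (Gd.σ • j _) = 0
      rw [hsw, hj.jz]
    · refine hflat _ ?_
      show z (Gd.σ • j _) = 0
      rw [hsw, hj.jz]
  · rw [one_smul, ob_zero, ob_one, hαβ0]
  · rw [ob_zero, ob_one]
    show z₀ + (hh 1 + hh 1) - hh 0 = z₀ + hh 0 + (hh 1 + hh 1)
    rw [H.zero]
    abel
  · exact ob_forall (P := fun v => F v ∈ Vs) (fun τ => by rw [hFa]; exact hVs _ (hγP τ).2)
      (fun τ => by rw [hFb]; exact hVs _ (hne τ))
  · intro τ
    rw [ob_apply, ob_apply]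
    split_ifs
    · rw [hFa]; exact hψ _ (hγP _).2
    · rw [hFb]; exact hψ _ (hne _)

end live

end

end Crest.Agent.R272.LbAsm_990
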