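import Mathlib
import Crest.Prelude.Def_RatCurveLoops

/-!
# R272, leaf COV-ORD (helper463): infinite order from a covering and a map to the circle

* `not_isOfFinOrder_of_degree` : a loop on which a continuous map to `AddCircle 1` has non-zero
  degree has infinite order;
* `not_isOfFinOrder_map` : coverings preserve infinite order;
* `not_isOfFinOrder_of_cover` : the criterion used for S0415;
* `loopClassesIn_infinite` : the criterion used for S0414.
-/

set_option autoImplicit false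

open Set Topology Crest.AlgGeometry

namespace Crest.Agent.R272.CovOrd_463

noncomputable section

local notation "I" => unitInterval

universe u v

variable {X : Type u} [TopologicalSpace X] {E : Type v} [TopologicalSpace E]

/-- the class of a loop -/
abbrev cls {x : X} (γ : Path x x) : FundamentalGroup X x := FundamentalGroup.fromPath ⟦γ⟧

/-- the covering `ℝ → ℝ/ℤ` -/
theorem cov_coe : IsCoveringMap ((↑) : ℝ → AddCircle (1 : ℝ)) := AddCircle.isCoveringMap_coe 1

/-- the translation of a lift is a lift -/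
theorem monodromy_loop {c : AddCircle (1 : ℝ)} (γ : Path c c) (ℓ : C(I, ℝ))
    (hℓ : ∀ t, (ℓ t : AddCircle (1 : ℝ)) = γ t) (n : ℤ)
    (r : ((↑) : ℝ → AddCircle (1 : ℝ)) ⁻¹' {c}) (hr : (r : ℝ) = ℓ 0 + n) :
    ((cov_coe.monodromy (⟦γ⟧ : Path.Homotopic.Quotient c c) r : _) : ℝ) = ℓ 1 + n := by
  have hn : ((n : ℝ) : AddCircle (1 : ℝ)) = 0 := by
    have : ((n : ℝ) : AddCircle (1 : ℝ)) = n • ((1 : ℝ) : AddCircle (1 : ℝ)) := by
      rw [← AddCircle.coe_zsmul]; simp
    rw [this, AddCircle.coe_period, smul_zero]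
  let ℓ' : C(I, ℝ) := ⟨fun t => ℓ t + n, by fun_prop⟩
  have h0 : (γ : C(I, AddCircle (1 : ℝ))) 0 = ((r : ℝ) : AddCircle (1 : ℝ)) := by
    have h1 : ((r : ℝ) : AddCircle (1 : ℝ)) = c := r.2
    rw [h1]; exact γ.source
  have h2 : cov_coe.liftPath (γ : C(I, AddCircle (1 : ℝ))) (r : ℝ) h0 = ℓ' := by
    symm
    rw [IsCoveringMap.eq_liftPath_iff']
    refine ⟨?_, ?_⟩
    · ext t
      show ((ℓ t + n : ℝ) : AddCircle (1 : ℝ)) = γ t
      rw [AddCircle.coe_add, hn, add_zero, hℓ t]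
    · show ℓ 0 + n = (r : ℝ)
      rw [hr]
  show cov_coe.liftPath (γ : C(I, AddCircle (1 : ℝ))) (r : ℝ) _ 1 = _
  rw [h2]
  rfl

/-- a loop of non-zero degree in the circle has infinite order -/
theorem not_isOfFinOrder_circle {c : AddCircle (1 : ℝ)} (γ : Path c c) (ℓ : C(I, ℝ))
    (hℓ : ∀ t, (ℓ t : AddCircle (1 : ℝ)) = γ t) (hne : ℓ 1 ≠ ℓ 0) :
    ¬ IsOfFinOrder (cls γ) := by
  rw [isOfFinOrder_iff_pow_eq_one]
  rintro ⟨m, hm, h1⟩
  -- the degree
  have h01 : ((ℓ 0 : ℝ) : AddCircle (1 : ℝ)) = c := by rw [hℓ]; exact γ.source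
  have h11 : ((ℓ 1 : ℝ) : AddCircle (1 : ℝ)) = c := by rw [hℓ]; exact γ.target
  obtain ⟨d, hd⟩ : ∃ d : ℤ, ℓ 1 = ℓ 0 + d := by
    have : ((ℓ 1 - ℓ 0 : ℝ) : AddCircle (1 : ℝ)) = 0 := by
      rw [AddCircle.coe_sub, h01, h11, sub_self]
    rw [AddCircle.coe_eq_zero_iff] at this
    obtain ⟨d, hd⟩ := this
    refine ⟨d, ?_⟩
    have h2 : (d : ℝ) = ℓ 1 - ℓ 0 := by simpa using hd
    linarith
  have hd0 : d ≠ 0 := by
    rintro rfl
    exact hne (by simpa using hd)
  -- the monodromy of the powers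
  have key : ∀ k : ℕ, ∀ r : ((↑) : ℝ → AddCircle (1 : ℝ)) ⁻¹' {c}, (r : ℝ) = ℓ 0 →
      (((cov_coe.monodromyPerm c (cls γ)) ^ k) r : ℝ) = ℓ 0 + k * d := by
    intro k
    induction k with
    | zero => intro r hr; simpa using hr
    | succ k ih =>
      intro r hr
      rw [pow_succ', Equiv.Perm.mul_apply]
      have h3 := ih r hr
      have h4 := monodromy_loop γ ℓ hℓ (k * d)
        (((cov_coe.monodromyPerm c (cls γ)) ^ k) r) (by rw [h3]; push_cast; ring)
      have h5 : ((cov_coe.monodromyPerm c (cls γ)) (((cov_coe.monodromyPerm c (cls γ)) ^ k) r) : ℝ)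
          = ℓ 1 + ((k * d : ℤ) : ℝ) := h4
      rw [h5, hd]
      push_cast
      ring
  have h6 := key m ⟨ℓ 0, h01⟩ rfl
  rw [← map_pow, h1, map_one] at h6
  have h7 : ℓ 0 = ℓ 0 + m * d := h6
  have h8 : (m : ℝ) * d = 0 := by linarith
  rcases mul_eq_zero.1 h8 with h | h
  · exact hm.ne' (by exact_mod_cast h)
  · exact hd0 (by exact_mod_cast h)

/-- the class of the image of a loop -/
theorem map_cls {Y : Type v} [TopologicalSpace Y] (f : C(X, Y)) {x : X} (γ : Path x x) :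
    FundamentalGroup.map f x (cls γ) = cls (γ.map f.continuous) := rfl

/-- **degree criterion** -/
theorem not_isOfFinOrder_of_degree (θ : C(X, AddCircle (1 : ℝ))) {x : X} (γ : Path x x)
    (ℓ : C(I, ℝ)) (hℓ : ∀ t, (ℓ t : AddCircle (1 : ℝ)) = θ (γ t)) (hne : ℓ 1 ≠ ℓ 0) :
    ¬ IsOfFinOrder (cls γ) := by
  intro h
  have h1 := (FundamentalGroup.map θ x).isOfFinOrder h
  exact not_isOfFinOrder_circle (γ.map θ.continuous) ℓ hℓ hne h1

/-- a covering is injective on fundamental groups -/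
theorem map_injective {p : E → X} (hp : IsCoveringMap p) (e : E) :
    Function.Injective (FundamentalGroup.map ⟨p, hp.continuous⟩ e) :=
  hp.injective_path_homotopic_map e e

/-- coverings preserve infinite order -/
theorem not_isOfFinOrder_map {p : E → X} (hp : IsCoveringMap p) {e : E} (γ : Path e e)
    (h : ¬ IsOfFinOrder (cls γ)) : ¬ IsOfFinOrder (cls (γ.map hp.continuous)) := by
  intro h1
  exact h ((map_injective hp e).isOfFinOrder_iff (f := FundamentalGroup.map ⟨p, hp.continuous⟩ e)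
    |>.1 h1)

/-- **COV-ORD**: a covering `p : E → X`, a continuous `θ : E → ℝ/ℤ`, a loop `γ` of `E` on which
`θ` has non-zero degree: the loop `p ∘ γ` has infinite order in `X` -/
theorem not_isOfFinOrder_of_cover {p : E → X} (hp : IsCoveringMap p)
    (θ : C(E, AddCircle (1 : ℝ))) {e : E} (γ : Path e e) (ℓ : C(I, ℝ))
    (hℓ : ∀ t, (ℓ t : AddCircle (1 : ℝ)) = θ (γ t)) (hne : ℓ 1 ≠ ℓ 0) :
    ¬ IsOfFinOrder (cls (γ.map hp.continuous)) :=
  not_isOfFinOrder_map hp γ (not_isOfFinOrder_of_degree θ γ ℓ hℓ hne)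

/-- infinite order from infinitely many reachable sheets: `g ^ k` moves `e` to different points -/
theorem not_isOfFinOrder_of_monodromy {p : E → X} (hp : IsCoveringMap p) {x : X}
    (g : FundamentalGroup X x) (e : p ⁻¹' {x})
    (h : Set.Infinite (Set.range fun k : ℕ => (hp.monodromyPerm x (g ^ k)) e)) :
    ¬ IsOfFinOrder g := by
  intro hg
  rw [isOfFinOrder_iff_pow_eq_one] at hg
  obtain ⟨m, hm, h1⟩ := hg
  refine h ((Set.finite_range fun k : Fin m => (hp.monodromyPerm x (g ^ (k : ℕ))) e).subset ?_)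
  rintro _ ⟨k, rfl⟩
  refine ⟨⟨k % m, Nat.mod_lt _ hm⟩, ?_⟩
  have : g ^ k = g ^ (k % m) := by
    conv_lhs => rw [← Nat.div_add_mod k m, pow_add, pow_mul, h1, one_pow, one_mul]
  simp only [this]

/-! ### `loopClassesIn` -/

section Loop

variable {N : ℕ} {X Z : Set (CPn N)} {x : X}

theorem one_mem (hx : (x : CPn N) ∈ Z) : (1 : FundamentalGroup X x) ∈ loopClassesIn X Z x :=
  ⟨Path.refl x, fun _ => hx, rfl⟩

theorem mul_mem {g h : FundamentalGroup X x} (hg : g ∈ loopClassesIn X Z x)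
    (hh : h ∈ loopClassesIn X Z x) : g * h ∈ loopClassesIn X Z x := by
  obtain ⟨p, hp, rfl⟩ := hg
  obtain ⟨q, hq, rfl⟩ := hh
  refine ⟨q.trans p, fun t => ?_, rfl⟩
  have : (q.trans p) t ∈ Set.range (q.trans p) := ⟨t, rfl⟩
  rw [Path.trans_range] at this
  rcases this with ⟨s, hs⟩ | ⟨s, hs⟩
  · rw [← hs]; exact hq s
  · rw [← hs]; exact hp s

theorem inv_mem {g : FundamentalGroup X x} (hg : g ∈ loopClassesIn X Z x) :
    g⁻¹ ∈ loopClassesIn X Z x := by
  obtain ⟨p, hp, rfl⟩ := hg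
  exact ⟨p.symm, fun t => hp _, rfl⟩

theorem pow_mem {g : FundamentalGroup X x} (hx : (x : CPn N) ∈ Z)
    (hg : g ∈ loopClassesIn X Z x) (k : ℕ) : g ^ k ∈ loopClassesIn X Z x := by
  induction k with
  | zero => rw [pow_zero]; exact one_mem hx
  | succ k ih => rw [pow_succ]; exact mul_mem ih hg

theorem zpow_mem {g : FundamentalGroup X x} (hx : (x : CPn N) ∈ Z)
    (hg : g ∈ loopClassesIn X Z x) (k : ℤ) : g ^ k ∈ loopClassesIn X Z x := by
  obtain ⟨n, rfl | rfl⟩ := k.eq_nat_or_neg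
  · rw [zpow_natCast]; exact pow_mem hx hg n
  · rw [zpow_neg, zpow_natCast]; exact inv_mem (pow_mem hx hg n)

/-- the loop classes form a subgroup -/
def loopSub (hx : (x : CPn N) ∈ Z) : Subgroup (FundamentalGroup X x) where
  carrier := loopClassesIn X Z x
  mul_mem' := mul_mem
  one_mem' := one_mem hx
  inv_mem' := inv_mem

theorem cls_mem (γ : Path x x) (h : ∀ t, ((γ t : X) : CPn N) ∈ Z) :
    cls γ ∈ loopClassesIn X Z x := ⟨γ, h, rfl⟩

/-- one loop in `Z` of infinite order: `loopClassesIn X Z x` is infinite (S0414) -/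
theorem infinite_of_not_isOfFinOrder (hx : (x : CPn N) ∈ Z) {g : FundamentalGroup X x}
    (hg : g ∈ loopClassesIn X Z x) (h : ¬ IsOfFinOrder g) : (loopClassesIn X Z x).Infinite := by
  have hinj : Function.Injective fun k : ℕ => g ^ k := injective_pow_iff_not_isOfFinOrder.2 h
  exact (Set.infinite_range_of_injective hinj).mono (by
    rintro _ ⟨k, rfl⟩
    exact pow_mem hx hg k)

/-- infinitely many sheets can be reached over `Z` -/
theorem infinite_of_monodromy {p : E → X} (hp : IsCoveringMap p) (e : p ⁻¹' {x})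
    (h : Set.Infinite {e' : p ⁻¹' {x} | ∃ γ : Path (e : E) (e' : E), ∀ t, ((p (γ t) : X) : CPn N) ∈ Z}) :
    (loopClassesIn X Z x).Infinite := by
  intro hfin
  refine h ((hfin.image fun g : FundamentalGroup X x => hp.monodromyPerm x g e).subset ?_)
  rintro e' ⟨γ, hγ⟩
  have he : p (e : E) = x := e.2
  have he' : p (e' : E) = x := e'.2
  refine ⟨FundamentalGroup.fromPath ⟦(γ.map hp.continuous).cast he.symm he'.symm⟧,
    ⟨_, fun t => hγ t, rfl⟩, ?_⟩
  exact hp.monodromy_eq_of_map_eq (γ := ⟦(γ.map hp.continuous).cast he.symm he'.symm⟧)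
    (ex := e) (ey := e') (⟦γ⟧ : Path.Homotopic.Quotient (e : E) (e' : E)) rfl

/-- **S0414 form**: a covering `p : E → X`, `θ : E → ℝ/ℤ`, a loop over `Z` of non-zero degree -/
theorem infinite_of_cover {p : E → X} (hp : IsCoveringMap p) (θ : C(E, AddCircle (1 : ℝ)))
    {e : E} (γ : Path e e) (hZ : ∀ t, ((p (γ t) : X) : CPn N) ∈ Z) (ℓ : C(I, ℝ))
    (hℓ : ∀ t, (ℓ t : AddCircle (1 : ℝ)) = θ (γ t)) (hne : ℓ 1 ≠ ℓ 0) :
    (loopClassesIn X Z (p e)).Infinite := by
  have hx : ((p e : X) : CPn N) ∈ Z := by have := hZ 0; rwa [γ.source] at this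
  exact infinite_of_not_isOfFinOrder hx (cls_mem (γ.map hp.continuous) hZ)
    (not_isOfFinOrder_of_cover hp θ γ ℓ hℓ hne)

end Loop

end

end Crest.Agent.R272.CovOrd_463
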