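import Crest.Agent.R272.Per1_939

/-!
# LB-PER (2): sheets, fibre products, descent, degrees
-/

set_option linter.unusedSectionVars false

open Set Topology Filter

noncomputable section

namespace Crest.Agent.R272.Per_939

/-- the circle used everywhere. -/
abbrev Cir := AddCircle (1 : ℝ)

section Sheet

variable {Y : Type*} [TopologicalSpace Y]

/-- `± T` modulo one is continuous if the sign is locally constant on `{0 < T < 1}`. -/
theorem continuous_sheet {T : Y → ℝ} (hT : Continuous T) (h01 : ∀ y, T y ∈ Icc (0 : ℝ) 1)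
    {s : Y → ℝ} (hs : ∀ y, s y = 1 ∨ s y = -1)
    (hloc : ∀ y, 0 < T y → T y < 1 → ∀ᶠ z in 𝓝 y, s z = s y) :
    Continuous fun y => ((s y * T y : ℝ) : Cir) := by
  have habs : ∀ y, |s y| = 1 := by
    intro y
    rcases hs y with h | h <;> simp [h]
  have hint : ∀ y, ((s y : ℝ) : Cir) = 0 := by
    intro y
    rcases hs y with h | h
    · rw [h]
      exact AddCircle.coe_period 1
    · rw [h, AddCircle.coe_neg, neg_eq_zero]
      exact AddCircle.coe_period 1
  rw [continuous_iff_continuousAt]
  intro y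
  rcases (h01 y).1.eq_or_lt with h0 | h0
  · -- `T y = 0`
    have h1 : Tendsto (fun z => s z * T z) (𝓝 y) (𝓝 0) := by
      apply squeeze_zero_norm (a := fun z => T z)
      · intro z
        rw [Real.norm_eq_abs, abs_mul, habs, one_mul, abs_of_nonneg (h01 z).1]
      · have := hT.tendsto y
        rwa [← h0] at this
    have h2 : Tendsto (fun z => ((s z * T z : ℝ) : Cir)) (𝓝 y) (𝓝 ((0 : ℝ) : Cir)) :=
      ((AddCircle.continuous_mk' 1).tendsto 0).comp h1
    have h3 : (s y * T y : ℝ) = 0 := by rw [← h0, mul_zero]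
    have h4 : Tendsto (fun z => ((s z * T z : ℝ) : Cir)) (𝓝 y) (𝓝 ((s y * T y : ℝ) : Cir)) := by
      rw [h3]; exact h2
    exact h4
  rcases (h01 y).2.eq_or_lt with h2 | h2
  · -- `T y = 1`
    have h1 : Tendsto (fun z => s z * (T z - 1)) (𝓝 y) (𝓝 0) := by
      apply squeeze_zero_norm (a := fun z => |T z - 1|)
      · intro z
        rw [Real.norm_eq_abs, abs_mul, habs, one_mul]
      · have h4 : Continuous fun z => |T z - 1| := by fun_prop
        have := h4.tendsto y
        simpa [h2] using this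
    have h3 : Tendsto (fun z => ((s z * (T z - 1) : ℝ) : Cir)) (𝓝 y) (𝓝 ((0 : ℝ) : Cir)) :=
      ((AddCircle.continuous_mk' 1).tendsto 0).comp h1
    have h4 : (fun z => ((s z * (T z - 1) : ℝ) : Cir)) = fun z => ((s z * T z : ℝ) : Cir) := by
      funext z
      have : s z * T z = s z * (T z - 1) + s z := by ring
      rw [this, AddCircle.coe_add, hint, add_zero]
    rw [h4] at h3
    have h5 : ((s y * T y : ℝ) : Cir) = ((0 : ℝ) : Cir) := by
      rw [h2, mul_one, hint]; simp
    have h6 : Tendsto (fun z => ((s z * T z : ℝ) : Cir)) (𝓝 y) (𝓝 ((s y * T y : ℝ) : Cir)) := by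
      rw [h5]; exact h3
    exact h6
  · -- `0 < T y < 1`
    have h1 : ContinuousAt (fun z => s y * T z) y := by fun_prop
    have h3 : ContinuousAt (fun z => s z * T z) y := by
      refine h1.congr ?_
      filter_upwards [hloc y h0 h2] with z hz
      rw [hz]
    exact (AddCircle.continuous_mk' 1).continuousAt.comp h3

/-- it vanishes where `T ∈ {0, 1}`. -/
theorem sheet_eq_zero {T s : Y → ℝ} (hs : ∀ y, s y = 1 ∨ s y = -1) {y : Y}
    (h : T y = 0 ∨ T y = 1) : ((s y * T y : ℝ) : Cir) = 0 := by
  rcases h with h | h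
  · rw [h, mul_zero]; simp
  · rw [h, mul_one]
    rcases hs y with h | h
    · rw [h]
      exact AddCircle.coe_period 1
    · rw [h, AddCircle.coe_neg, neg_eq_zero]
      exact AddCircle.coe_period 1

end Sheet

section Fibre

variable {G Y₁ Y₂ B : Type*} [Group G] [TopologicalSpace Y₁] [TopologicalSpace Y₂]
  [MulAction G Y₁] [MulAction G Y₂]

/-- **(P2)** the function on the fibre product: `τ : Y₂ → Y₁` intertwines the action of `g` on
`Y₂` with the action of `σ g` on `Y₁` (`σ` = conjugation by the swap). -/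
def thHat (G : Type*) {Y₁ Y₂ : Type*} [Group G] [MulAction G Y₁] (th : Y₁ → Cir) (τ : Y₂ → Y₁)
    (z : Y₁ × Y₂) : Cir := per G th z.1 + per G th (τ z.2)

theorem continuous_thHat {th : Y₁ → Cir} (h : Continuous (per G th)) {τ : Y₂ → Y₁}
    (hτ : Continuous τ) : Continuous (thHat G th τ) := by
  unfold thHat
  fun_prop

/-- invariance under the diagonal action. -/
theorem thHat_smul {th : Y₁ → Cir} {τ : Y₂ → Y₁} {σ : G → G}
    (hτ : ∀ (g : G) y, τ (g • y) = σ g • τ y) (g : G) (z : Y₁ × Y₂) :
    thHat G th τ (g • z.1, g • z.2) = thHat G th τ z := by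
  simp [thHat, hτ, per_smul]

/-- invariance under the swap. -/
theorem thHat_swap {th : Y₁ → Cir} {τ : Y₂ → Y₁} {τ' : Y₁ → Y₂} (hτ : ∀ y, τ (τ' y) = y)
    (z : Y₁ × Y₂) : thHat G th τ (τ z.2, τ' z.1) = thHat G th τ z := by
  simp [thHat, hτ, add_comm]

/-- more generally the swap followed by group elements. -/
theorem thHat_swap' {th : Y₁ → Cir} {τ : Y₂ → Y₁} (z w : Y₁ × Y₂) {g h : G}
    (h1 : w.1 = g • τ z.2) (h2 : τ w.2 = h • z.1) : thHat G th τ w = thHat G th τ z := by
  simp [thHat, h1, h2, per_smul, add_comm]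

/-- descent to any quotient. -/
theorem exists_descend {Z Q M : Type*} [TopologicalSpace Z] [TopologicalSpace Q]
    [TopologicalSpace M] {π : Z → Q} (hπ : IsQuotientMap π) {f : Z → M} (hf : Continuous f)
    (hinv : ∀ z w, π z = π w → f z = f w) : ∃ F : Q → M, Continuous F ∧ ∀ z, F (π z) = f z := by
  obtain ⟨s, hs⟩ : ∃ s : Q → Z, ∀ q, π (s q) = q := hπ.surjective.hasRightInverse
  refine ⟨f ∘ s, ?_, fun z => hinv _ _ (hs _)⟩
  rw [hπ.continuous_iff]
  convert hf using 1
  funext z
  exact hinv _ _ (hs _)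

end Fibre

section Degree

open unitInterval

/-- a circle valued path has degree `d`: there is a continuous real lift with increment `d`. -/
def HasDeg (c : I → Cir) (d : ℝ) : Prop :=
  ∃ L : I → ℝ, Continuous L ∧ (∀ t, ((L t : ℝ) : Cir) = c t) ∧ L 1 - L 0 = d

theorem HasDeg.add {c c' : I → Cir} {d d' : ℝ} (h : HasDeg c d) (h' : HasDeg c' d') :
    HasDeg (fun t => c t + c' t) (d + d') := by
  obtain ⟨L, hL, h1, h2⟩ := h
  obtain ⟨L', hL', h1', h2'⟩ := h'
  refine ⟨fun t => L t + L' t, hL.add hL', fun t => ?_, by dsimp only; linarith⟩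
  rw [AddCircle.coe_add, h1, h1']

theorem HasDeg.const (a : Cir) : HasDeg (fun _ => a) 0 := by
  obtain ⟨x, rfl⟩ := QuotientAddGroup.mk_surjective a
  exact ⟨fun _ => x, continuous_const, fun _ => rfl, sub_self _⟩

/-- a function with values in the image of a short real interval has degree zero; here: `c t` is
the class of a continuous real function. -/
theorem HasDeg.of_lift {c : I → Cir} {L : I → ℝ} (hL : Continuous L)
    (h : ∀ t, ((L t : ℝ) : Cir) = c t) : HasDeg c (L 1 - L 0) := ⟨L, hL, h, rfl⟩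

/-- Uniqueness of the degree: the difference of two lifts is a continuous integer valued function. -/
theorem HasDeg.unique {c : I → Cir} {d d' : ℝ} (h : HasDeg c d) (h' : HasDeg c d') : d = d' := by
  obtain ⟨L, hL, h1, h2⟩ := h
  obtain ⟨L', hL', h1', h2'⟩ := h'
  have key : ∀ t, ∃ n : ℤ, L t - L' t = n := by
    intro t
    have h3 : ((L t - L' t : ℝ) : Cir) = 0 := by
      rw [AddCircle.coe_sub, h1, h1', sub_self]
    obtain ⟨n, hn⟩ := (AddCircle.coe_eq_zero_iff (1 : ℝ)).mp h3
    exact ⟨n, by rw [← hn]; simp⟩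
  choose n hn using key
  have hcont : Continuous fun t => (n t : ℝ) := by
    have : (fun t => (n t : ℝ)) = fun t => L t - L' t := by
      funext t; exact (hn t).symm
    rw [this]; exact hL.sub hL'
  have hcn : Continuous n := Int.isClosedEmbedding_coe_real.isInducing.continuous_iff.mpr hcont
  have : n 1 = n 0 := by
    exact PreconnectedSpace.constant (inferInstance) hcn
  have h4 := hn 1
  have h5 := hn 0
  rw [this] at h4
  linarith

/-- **(P3)** the basic loop: out on the sheet `+`, back on the sheet `-`: degree two. -/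
theorem hasDeg_two {c : I → Cir} {T : I → ℝ} (hT : Continuous T) (h0 : T 0 = 0) (h1 : T 1 = 0)
    {m : I} (hm : T m = 1) (hp : ∀ t ≤ m, c t = ((T t : ℝ) : Cir))
    (hq : ∀ t, m ≤ t → c t = ((-(T t) : ℝ) : Cir)) : HasDeg c 2 := by
  classical
  refine ⟨fun t => if t ≤ m then T t else 2 - T t, ?_, ?_, ?_⟩
  · refine Continuous.if_le hT (by fun_prop) continuous_id continuous_const ?_
    intro x hx
    have : x = m := hx
    rw [this, hm]; norm_num
  · intro t
    by_cases ht : t ≤ m
    · simp only [ht, if_true]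
      exact (hp t ht).symm
    · simp only [ht, if_false]
      rw [hq t (le_of_not_ge ht)]
      have : (2 - T t : ℝ) = -(T t) + (2 : ℤ) * (1 : ℝ) := by push_cast; ring
      rw [this, AddCircle.coe_add]
      have h2 : (((2 : ℤ) * (1 : ℝ) : ℝ) : Cir) = 0 := by
        rw [AddCircle.coe_eq_zero_iff]
        exact ⟨2, by simp⟩
      rw [h2, add_zero]
  · have hm0 : (0 : I) ≤ m := unitInterval.nonneg'
    have hm1 : ¬ (1 : I) ≤ m := by
      intro h
      have h2 : m = 1 := le_antisymm unitInterval.le_one' h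
      rw [h2, h1] at hm
      exact zero_ne_one hm
    simp only [hm0, hm1, if_true, if_false, h0, h1]
    norm_num

end Degree

end Crest.Agent.R272.Per_939
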