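import Mathlib
import Crest.Agent.R272.LbExt1_259
import Crest.Agent.R272.CovOrd_463
import Crest.Agent.R272.Per2_939

/-!
# LB-EXT (row 272), part 2: surgery, collapse, degrees, infinite order

* `rho : Cir → Cir` : continuous, zero on `‖c‖ ≤ 1/4`, `hasDeg_rho` : keeps the degree of loops.
* `Surg π π' V ψ e` : `X'` is obtained from `X` by replacing the closed set `e` by `X' \ V`;
  `Surg.ofCollapse`, `Surg.of_norm` : how to get it.
* `Surg.extend`, `Surg.continuous_extend` : a continuous `θ` on the pulled back covering of `X`,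
  zero over `e`, gives a continuous function on the pulled back covering of `X'`.
* `not_isOfFinOrder_of_surg`, `QData.not_isOfFinOrder`, `QData.not_isOfFinOrder_surg` : loops of
  non-zero degree have infinite order in `π₁(X')`.
-/

set_option autoImplicit false
set_option linter.unusedSectionVars false

namespace Crest.Agent.R272.LbExt_259

open Topology Set Filter Crest.Agent.R272.Per_939 Crest.Agent.R272.CovOrd_463 unitInterval

noncomputable section

section Rho

/-- the collapse of a neighbourhood of `0` in the circle: a continuous self map of degree one -/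
def rho (c : Cir) : Cir := c - ((‖c + ((1 / 4 : ℝ) : Cir)‖ - 1 / 4 : ℝ) : Cir)

theorem continuous_rho : Continuous rho := by
  have h1 : Continuous fun x : ℝ => (x : Cir) := AddCircle.continuous_mk' 1
  unfold rho
  exact continuous_id.sub (h1.comp (((continuous_id.add continuous_const).norm).sub
    continuous_const))

theorem rho_eq_zero {c : Cir} (hc : ‖c‖ ≤ 1 / 4) : rho c = 0 := by
  obtain ⟨y, rfl⟩ := QuotientAddGroup.mk_surjective c
  have h0 : ((y : ℝ) : Cir) = ((y - round y : ℝ) : Cir) := by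
    rw [AddCircle.coe_sub]
    have : (((round y : ℤ) : ℝ) : Cir) = 0 := by
      rw [AddCircle.coe_eq_zero_iff]
      exact ⟨round y, by simp⟩
    rw [this, sub_zero]
  have h1 : ‖((y : ℝ) : Cir)‖ = |y - round y| := by
    have := AddCircle.norm_eq (1 : ℝ) (x := y)
    simpa using this
  have h2 : ‖((y : ℝ) : Cir)‖ ≤ 1 / 4 := hc
  rw [h1] at h2
  change rho ((y : ℝ) : Cir) = 0
  rw [h0]
  set x := y - round y with hx
  unfold rho
  rw [← AddCircle.coe_add]
  have h3 : |x + 1 / 4| ≤ |(1 : ℝ)| / 2 := by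
    rw [abs_le] at h2 ⊢
    rw [abs_one]
    constructor <;> linarith [h2.1, h2.2]
  have h4 : ‖((x + 1 / 4 : ℝ) : Cir)‖ = |x + 1 / 4| :=
    (AddCircle.norm_coe_eq_abs_iff (p := (1 : ℝ)) (x := x + 1 / 4) one_ne_zero).2 h3
  have h5 : |x + 1 / 4| = x + 1 / 4 := abs_of_nonneg (by linarith [(abs_le.1 h2).1])
  rw [h4, h5, ← AddCircle.coe_sub]
  have : x - (x + 1 / 4 - 1 / 4) = 0 := by ring
  rw [this]
  rfl

/-- `rho` keeps the degree of closed paths -/
theorem hasDeg_rho {c : I → Cir} {d : ℝ} (hc : Continuous c) (h01 : c 0 = c 1)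
    (h : HasDeg c d) : HasDeg (fun t => rho (c t)) d := by
  obtain ⟨L, hL, h1, h2⟩ := h
  refine ⟨fun t => L t - (‖c t + ((1 / 4 : ℝ) : Cir)‖ - 1 / 4), ?_, fun t => ?_, ?_⟩
  · exact hL.sub (((hc.add continuous_const).norm).sub continuous_const)
  · rw [AddCircle.coe_sub, h1]; rfl
  · dsimp only
    rw [h01]
    linarith

/-- the same for continuous real lifts -/
theorem continuous_of_hasDeg {c : I → Cir} {d : ℝ} (h : HasDeg c d) : Continuous c := by
  obtain ⟨L, hL, h1, -⟩ := h
  have h2 : Continuous fun x : ℝ => (x : Cir) := AddCircle.continuous_mk' 1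
  exact (h2.comp hL).congr h1

/-- a reparametrisation and congruence lemma -/
theorem hasDeg_congr {c c' : I → Cir} {d : ℝ} (h : HasDeg c d) (hcc : ∀ t, c t = c' t) :
    HasDeg c' d := by
  obtain ⟨L, hL, h1, h2⟩ := h
  exact ⟨L, hL, fun t => (h1 t).trans (hcc t), h2⟩

end Rho

section Surgery

variable {X X' N N' Q : Type*} [TopologicalSpace X] [TopologicalSpace X'] [TopologicalSpace N]
  [TopologicalSpace N'] [TopologicalSpace Q]

/-- **surgery** : `X'` is obtained from `X` by replacing `e` by `X' \ V`; everything lies over `N`.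
`ψ` is (on `V`) the inclusion of the common part `V` into `X` -/
structure Surg (π : X → N) (π' : X' → N) (V : Set X') (ψ : X' → X) (e : Set X) : Prop where
  πc : Continuous π
  π'c : Continuous π'
  Vo : IsOpen V
  ψc : ContinuousOn ψ V
  πψ : ∀ x ∈ V, π (ψ x) = π' x
  lim : ∀ k ∉ V, Tendsto ψ (𝓝[V] k) (𝓝ˢ e)

variable {π : X → N} {π' : X' → N} {V : Set X'} {ψ : X' → X} {e : Set X}

/-- the limit condition from a common collapse `Q` of `X` and `X'`: `c` closed, `c'` continuous -/
theorem lim_of_collapse {c : X → Q} {c' : X' → Q} (hc : IsClosedMap c) (hc' : Continuous c')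
    (hcc : ∀ x ∈ V, c (ψ x) = c' x) {k : X'} (hk : c ⁻¹' {c' k} ⊆ e) :
    Tendsto ψ (𝓝[V] k) (𝓝ˢ e) := by
  intro W hW
  obtain ⟨W', hW'o, heW, hW'W⟩ := mem_nhdsSet_iff_exists.1 hW
  have h1 : IsOpen (c '' W'ᶜ)ᶜ := (hc _ hW'o.isClosed_compl).isOpen_compl
  have h2 : c' k ∈ (c '' W'ᶜ)ᶜ := by
    rintro ⟨w, hw, hwk⟩
    exact hw (heW (hk hwk))
  have h3 : c' ⁻¹' (c '' W'ᶜ)ᶜ ∈ 𝓝 k := hc'.continuousAt (h1.mem_nhds h2)
  rw [mem_map]
  filter_upwards [mem_nhdsWithin_of_mem_nhds h3, self_mem_nhdsWithin] with x hx hxV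
  have hx' : c' x ∉ c '' W'ᶜ := hx
  rw [← hcc x hxV] at hx'
  by_contra hcon
  exact hx' ⟨ψ x, fun h => hcon (hW'W h), rfl⟩

/-- the limit condition from a norm function: `nf` small only near `e₀ ⊆ e` -/
theorem lim_of_norm {nf : X → ℝ} {nf' : X' → ℝ} {e₀ : Set X} (he : e₀ ⊆ e)
    (hnf : ∀ W : Set X, IsOpen W → e₀ ⊆ W → ∃ ε > 0, ∀ x, nf x < ε → x ∈ W) {k : X'}
    (hk0 : nf' k = 0) (hk : ContinuousAt nf' k)
    (hcc : ∀ᶠ x in 𝓝[V] k, nf (ψ x) = nf' x) :
    Tendsto ψ (𝓝[V] k) (𝓝ˢ e) := by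
  refine Tendsto.mono_right ?_ (nhdsSet_mono he)
  intro W hW
  obtain ⟨W', hW'o, heW, hW'W⟩ := mem_nhdsSet_iff_exists.1 hW
  obtain ⟨ε, hε, h1⟩ := hnf W' hW'o heW
  have h2 : ∀ᶠ x in 𝓝 k, nf' x < ε := by
    have : Iio ε ∈ 𝓝 (nf' k) := by rw [hk0]; exact Iio_mem_nhds hε
    exact hk this
  rw [mem_map]
  filter_upwards [mem_nhdsWithin_of_mem_nhds h2, hcc] with x hx hx2
  exact hW'W (h1 _ (by rw [hx2]; exact hx))

namespace Surg

variable (S : Surg π π' V ψ e) {q : N' → N}

/-- the point of the pulled back covering of `X` belonging to a point over `V` -/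
def pt (p : PB q π') (h : pbFst q π' p ∈ V) : PB q π :=
  ⟨(ψ p.1.1, p.1.2), (S.πψ _ h).trans p.2⟩

/-- the extended function -/
def extend (θ : PB q π → Cir) (p : PB q π') : Cir :=
  open Classical in if h : pbFst q π' p ∈ V then rho (θ (S.pt p h)) else 0

theorem extend_of_mem (θ : PB q π → Cir) {p : PB q π'} (h : pbFst q π' p ∈ V) :
    S.extend θ p = LbExt_259.rho (θ (S.pt p h)) := dif_pos h

theorem extend_of_not_mem (θ : PB q π → Cir) {p : PB q π'} (h : pbFst q π' p ∉ V) :
    S.extend θ p = 0 := dif_neg h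

/-- **(P3)** the extended function is continuous -/
theorem continuous_extend [RegularSpace N] (hq : IsCoveringMap q) {θ : PB q π → Cir}
    (hθ : Continuous θ) (hθe : ∀ p, pbFst q π p ∈ e → θ p = 0) : Continuous (S.extend θ) := by
  rw [continuous_iff_continuousAt]
  intro p
  by_cases hp : pbFst q π' p ∈ V
  · -- over `V`
    have hO : IsOpen (pbFst q π' ⁻¹' V) := S.Vo.preimage continuous_pbFst
    refine ContinuousOn.continuousAt ?_ (hO.mem_nhds hp)
    rw [continuousOn_iff_continuous_domRestrict]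
    have h1 : (pbFst q π' ⁻¹' V).domRestrict (S.extend θ) =
        fun r => rho (θ (S.pt r.1 r.2)) := by
      funext r
      exact S.extend_of_mem θ r.2
    rw [h1]
    refine continuous_rho.comp (hθ.comp (Continuous.subtype_mk (Continuous.prodMk ?_ ?_) _))
    · have h2 : Continuous (V.domRestrict ψ) := continuousOn_iff_continuous_domRestrict.1 S.ψc
      exact h2.comp ((continuous_pbFst.comp continuous_subtype_val).subtype_mk
        (fun r : ↥(pbFst q π' ⁻¹' V) => r.2))
    · exact continuous_pbSnd.comp continuous_subtype_val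
  · -- over the new part
    have key : ∀ᶠ r in 𝓝 p, S.extend θ r = 0 := by
      obtain ⟨F, hnF, hF⟩ := hq.isLocalHomeomorph (pbSnd q π' p)
      have hFt : π' (pbFst q π' p) ∈ F.target := by
        have h1 : π' (pbFst q π' p) = F (pbSnd q π' p) := by
          rw [← hF]; exact p.2
        rw [h1]; exact F.map_source hnF
      obtain ⟨C, hCn, hCc, hCF⟩ : ∃ C ∈ 𝓝 (π' (pbFst q π' p)), IsClosed C ∧ C ⊆ F.target :=
        exists_mem_nhds_isClosed_subset (F.open_target.mem_nhds hFt)
      -- the open set where `θ` is small on the sheet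
      have hOs : IsOpen (θ ⁻¹' (Metric.ball 0 (1 / 4)) ∩ pbSnd q π ⁻¹' F.source) :=
        (Metric.isOpen_ball.preimage hθ).inter (F.open_source.preimage continuous_pbSnd)
      set W := pbFst q π '' (θ ⁻¹' (Metric.ball 0 (1 / 4)) ∩ pbSnd q π ⁻¹' F.source) with hW
      have hWo : IsOpen W := (isCoveringMap_fst hq S.πc).isOpenMap _ hOs
      have hWe : e ⊆ W ∪ π ⁻¹' Cᶜ := by
        intro x hx
        by_cases hxC : π x ∈ C
        · left
          have hxt : π x ∈ F.target := hCF hxC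
          refine ⟨⟨(x, F.symm (π x)), ?_⟩, ⟨?_, ?_⟩, rfl⟩
          · show π x = q (F.symm (π x))
            rw [hF, F.right_inv hxt]
          · have h0 : θ ⟨(x, F.symm (π x)), by
                show π x = q (F.symm (π x))
                rw [hF, F.right_inv hxt]⟩ = 0 := hθe ⟨(x, F.symm (π x)), _⟩ hx
            rw [mem_preimage, h0]
            exact Metric.mem_ball_self (by norm_num)
          · exact F.map_target hxt
        · right; exact hxC
      have hlim := S.lim _ hp ((hWo.union (hCc.isOpen_compl.preimage S.πc)).mem_nhdsSet.2 hWe)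
      rw [mem_map, mem_nhdsWithin] at hlim
      obtain ⟨O, hOo, hkO, hOV⟩ := hlim
      have h2 : ∀ᶠ r in 𝓝 p, pbFst q π' r ∈ O :=
        continuous_pbFst.continuousAt (hOo.mem_nhds hkO)
      have h3 : ∀ᶠ r in 𝓝 p, π' (pbFst q π' r) ∈ C :=
        (S.π'c.comp continuous_pbFst).continuousAt hCn
      have h4 : ∀ᶠ r in 𝓝 p, pbSnd q π' r ∈ F.source :=
        continuous_pbSnd.continuousAt (F.open_source.mem_nhds hnF)
      filter_upwards [h2, h3, h4] with r hr2 hr3 hr4
      by_cases hrV : pbFst q π' r ∈ V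
      · rw [S.extend_of_mem θ hrV]
        have h5 := hOV ⟨hr2, hrV⟩
        have h6 : ψ (pbFst q π' r) ∈ W := by
          rcases h5 with h5 | h5
          · exact h5
          · exfalso
            apply h5
            rw [S.πψ _ hrV]
            exact hr3
        obtain ⟨s, ⟨hs1, hs2⟩, hs3⟩ := h6
        have h7 : s = S.pt r hrV := by
          refine Subtype.ext (Prod.ext hs3 ?_)
          apply F.injOn hs2 hr4
          have h8 : F (pbSnd q π s) = π (pbFst q π s) := by
            rw [← hF]; exact s.2.symm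
          have h9 : F (pbSnd q π' r) = π' (pbFst q π' r) := by
            rw [← hF]; exact r.2.symm
          show F (pbSnd q π s) = F (pbSnd q π' r)
          rw [h8, h9, hs3, S.πψ _ hrV]
        rw [← h7]
        apply rho_eq_zero
        have h10 : θ s ∈ Metric.ball (0 : Cir) (1 / 4) := hs1
        rw [mem_ball_zero_iff] at h10
        exact h10.le
      · exact S.extend_of_not_mem θ hrV
    have h0 : S.extend θ p = 0 := S.extend_of_not_mem θ hp
    exact (continuousAt_const (y := (0 : Cir))).congr (key.mono fun r hr => hr.symm)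

end Surg

/-- the criterion of `CovOrd_463` in terms of `HasDeg` -/
theorem not_isOfFinOrder_of_hasDeg {E : Type*} [TopologicalSpace E] {p : E → X}
    (hp : IsCoveringMap p) {θ : E → Cir} (hθ : Continuous θ) {a : E} (γ : Path a a) {d : ℝ}
    (hd : d ≠ 0) (hdeg : HasDeg (fun t => θ (γ t)) d) :
    ¬ IsOfFinOrder (cls (γ.map hp.continuous)) := by
  obtain ⟨L, hL, h1, h2⟩ := hdeg
  refine not_isOfFinOrder_of_cover hp ⟨θ, hθ⟩ γ ⟨L, hL⟩ h1 fun h => hd ?_
  have h3 : L 1 = L 0 := h
  rw [← h2, h3, sub_self]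

theorem cls_transport {x x' : X} (hx : x' = x) (γ : Path x x) (γ2 : Path x' x')
    (h : ∀ t, γ2 t = γ t) (hn : ¬ IsOfFinOrder (cls γ2)) : ¬ IsOfFinOrder (cls γ) := by
  subst hx
  have h1 : γ2 = γ := Path.ext (funext h)
  rw [← h1]
  exact hn

/-- **(P5)** surgery form: a loop over the common part on which `θ` has non-zero degree -/
theorem not_isOfFinOrder_of_surg [RegularSpace N] (S : Surg π π' V ψ e) {q : N' → N}
    (hq : IsCoveringMap q) {θ : PB q π → Cir} (hθ : Continuous θ)
    (hθe : ∀ p, pbFst q π p ∈ e → θ p = 0) {a : PB q π'} (γ : Path a a)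
    (hγ : ∀ t, pbFst q π' (γ t) ∈ V) {d : ℝ} (hd : d ≠ 0)
    (hdeg : HasDeg (fun t => θ (S.pt (γ t) (hγ t))) d) :
    ¬ IsOfFinOrder (cls (γ.map (isCoveringMap_fst hq S.π'c).continuous)) := by
  refine not_isOfFinOrder_of_hasDeg (isCoveringMap_fst hq S.π'c) (S.continuous_extend hq hθ hθe)
    γ hd ?_
  have h1 := hasDeg_rho (continuous_of_hasDeg hdeg) (by
    have h01 : γ 0 = γ 1 := by rw [γ.source, γ.target]
    have : S.pt (γ 0) (hγ 0) = S.pt (γ 1) (hγ 1) := by
      refine Subtype.ext ?_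
      show (ψ (γ 0).1.1, (γ 0).1.2) = (ψ (γ 1).1.1, (γ 1).1.2)
      rw [h01]
    show θ _ = θ _
    rw [this]) hdeg
  exact hasDeg_congr h1 fun t => (S.extend_of_mem θ (hγ t)).symm

section Bridge

variable {G E B Z W A : Type*} [Group G] [TopologicalSpace E] [TopologicalSpace B]
  [TopologicalSpace Z] [TopologicalSpace W] [TopologicalSpace A]
  [MulAction G E] [MulAction G B]
variable {R : Subgroup G} {β : E → B} {f : E → X} {k : B → Z} {h : B → W} {p : W → Z} {π : X → Z}
  {π' : X' → Z}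

/-- **(P5)** without surgery: `γ` is a path of `E` whose end points are `R`-equivalent, the
`R`-invariant continuous function `θ` has non-zero degree on it; then its image in `X = E / G` is a
loop of infinite order -/
theorem QData.not_isOfFinOrder (D : QData R β f k h p π) {θ : E → Cir} (hθ : Continuous θ)
    (hθR : ∀ g ∈ R, ∀ e, θ (g • e) = θ e) {e₀ e₁ : E} (γ : Path e₀ e₁) {g : G} (hg : g ∈ R)
    (he : g • e₀ = e₁) {d : ℝ} (hd : d ≠ 0) (hdeg : HasDeg (fun t => θ (γ t)) d)
    {x : X} (γ' : Path x x) (hγ' : ∀ t, γ' t = f (γ t)) : ¬ IsOfFinOrder (cls γ') := by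
  obtain ⟨Θ, hΘ, hΘ1⟩ := D.exists_fun hθ hθR
  have h01 : D.psi e₁ = D.psi e₀ := (D.psi_eq_iff _ _).2 ⟨g, hg, he⟩
  let γ1 : Path (D.psi e₀) (D.psi e₀) := (γ.map D.continuous_psi).cast rfl h01.symm
  have h1 := not_isOfFinOrder_of_hasDeg D.isCoveringMap hΘ γ1 hd
    (hasDeg_congr hdeg fun t => (hΘ1 (γ t)).symm)
  have hx : pbFst p π (D.psi e₀) = x := by
    rw [D.psi_fst, ← γ.source, ← hγ', γ'.source]
  exact cls_transport hx γ' (γ1.map D.isCoveringMap.continuous) (fun t => (hγ' t).symm) h1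

/-- **(P5)**, final form : `X = E / G`, `X'` is obtained from `X` by surgery along `eX`, `θ` is an
`R`-invariant continuous function on `E`, zero over `eX`; `γ` is a path of `E` whose end points are
`R`-equivalent, with `θ` of non-zero degree, and `γ'` is the corresponding loop of `X'`: then the
class of `γ'` in `π₁(X')` has infinite order -/
theorem QData.not_isOfFinOrder_surg [RegularSpace Z] (D : QData R β f k h p π) {eX : Set X}
    {V : Set X'} {ψ : X' → X} (S : Surg π π' V ψ eX) {θ : E → Cir} (hθ : Continuous θ)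
    (hθR : ∀ g ∈ R, ∀ e, θ (g • e) = θ e) (hθe : ∀ e, f e ∈ eX → θ e = 0)
    {e₀ e₁ : E} (γ : Path e₀ e₁) {g : G} (hg : g ∈ R) (he : g • e₀ = e₁) {d : ℝ} (hd : d ≠ 0)
    (hdeg : HasDeg (fun t => θ (γ t)) d) {x : X'} (γ' : Path x x) (hγV : ∀ t, γ' t ∈ V)
    (hγ' : ∀ t, ψ (γ' t) = f (γ t)) : ¬ IsOfFinOrder (cls γ') := by
  obtain ⟨Θ, hΘ, hΘ1⟩ := D.exists_fun hθ hθR
  have hpt : ∀ t, π' (γ' t) = p (h (β (γ t))) := fun t => by
    rw [← S.πψ _ (hγV t), hγ' t, D.πf, D.ph]
  have h01 : h (β (γ 1)) = h (β (γ 0)) := by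
    rw [γ.source, γ.target, ← he, D.βG]
    exact (D.hR _ _).2 ⟨g, hg, rfl⟩
  let c : I → PB p π' := fun t => ⟨(γ' t, h (β (γ t))), hpt t⟩
  have hc : Continuous c := (γ'.continuous.prodMk
    (D.hc.comp (D.βc.comp γ.continuous))).subtype_mk _
  have hc01 : c 1 = c 0 := by
    refine Subtype.ext (Prod.ext ?_ h01)
    show γ' 1 = γ' 0
    rw [γ'.source, γ'.target]
  let γ1 : Path (c 0) (c 0) := ⟨⟨c, hc⟩, rfl, hc01⟩
  have hΘe : ∀ r : PB p π, pbFst p π r ∈ eX → Θ r = 0 := by
    intro r hr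
    obtain ⟨e, rfl⟩ := D.surjective_psi r
    rw [hΘ1]
    exact hθe e hr
  have h1 := not_isOfFinOrder_of_surg S D.pc hΘ hΘe γ1 (fun t => hγV t) hd
    (hasDeg_congr hdeg fun t => by
      rw [← hΘ1]
      refine congrArg Θ (Subtype.ext (Prod.ext ?_ rfl))
      exact (hγ' t).symm)
  exact cls_transport (show pbFst p π' (c 0) = x from γ'.source) γ'
    (γ1.map (isCoveringMap_fst D.pc S.π'c).continuous) (fun t => rfl) h1

end Bridge

end Surgery

end

end Crest.Agent.R272.LbExt_259
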