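import Crest.Agent.R272.Sur1_342
import Crest.Agent.R272.LbExt2_259

/-!
# R272 (helper342): the surgery of `Sur1_342` in the language of `LbExt2_259.Surg`
-/

set_option autoImplicit false
set_option linter.unusedSectionVars false

open Set Filter Topology

namespace Crest.Agent.R272.Sur_342

open Crest.Agent.R272.LbExt_259

noncomputable section

namespace Sur

variable {X A B N : Type*} [TopologicalSpace X] [TopologicalSpace A]
  [TopologicalSpace B] [TopologicalSpace N] (S : Sur X A B) [T2Space X]

theorem tendsto_iota_symm {k : S.XP} (hk : S.nf k = 0) :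
    Tendsto S.iota.symm (𝓝[{z | S.nf z ≠ 0}] k) (𝓝ˢ S.K) := by
  intro W hW
  obtain ⟨U, hU, hKU, hUW⟩ := mem_nhdsSet_iff_exists.1 hW
  obtain ⟨δ, hδ, -, h1⟩ := S.exists_delta_X hU hKU
  rw [mem_map]
  have h2 : {z | S.nf z < δ} ∈ 𝓝[{z | S.nf z ≠ 0}] k :=
    mem_nhdsWithin_of_mem_nhds
      ((isOpen_lt S.continuous_nf continuous_const).mem_nhds (by rw [mem_ofPred_eq, hk]; exact hδ))
  filter_upwards [h2, self_mem_nhdsWithin] with z hz hz'
  exact hUW (h1 _ (by rw [S.nX_iota_symm hz']; exact hz))

/-- the surgery over a base `N` (the centre is contracted to a point of `N`) -/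
theorem surg {π : X → N} {y₀ : N} (hπ : Continuous π) (h0 : ∀ x ∈ S.K, π x = y₀) :
    Surg π (S.push π y₀) {z | S.nf z ≠ 0} S.iota.symm S.K where
  πc := hπ
  π'c := S.continuous_push hπ h0
  Vo := isOpen_ne_fun S.continuous_nf continuous_const
  ψc := S.iota.continuousOn_symm.mono fun _ hz => S.mem_iota_target.2 hz
  πψ _ hz := (S.push_of π y₀ hz).symm
  lim k hk := S.tendsto_iota_symm (by
    by_contra h
    exact hk h)

end Sur

end

end Crest.Agent.R272.Sur_342
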