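import Crest.Agent.R272.As157_338
import Crest.Agent.R272.LbAsm4_990
import Crest.Agent.R272.Sur3_342

/-!
# R272, leaf S15-ASM (helper338), part 8: the living arc, in the language of `s15_q`

`livesQ_of` : 990's `lb_live` for the surgery `S : Sur (Orb Γ Y) A B` of 342 and a map
`q : C × C → S.XP` which off `Γ` is `iota (pr (j x))`, `j` the zero section.
-/

set_option autoImplicit false
set_option linter.unusedSectionVars false

open scoped ComplexConjugate Topology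
open Set Filter
open Crest.Agent.R272.EBase_641 Crest.Agent.R272.LbPP_990 Crest.Agent.R272.LbSep_990
open Crest.Agent.R272.LbGood_990 Crest.Agent.R272.St2_702 Crest.Agent.R272.LbCap_382
open Crest.Agent.R272.LbFin_990 Crest.Agent.R272.LbFin2_990 Crest.Agent.R272.Per_939
open Crest.Agent.R272.CovOrd_463 Crest.Agent.R272.LbExt_259 Crest.Agent.R272.TLoop_463
open Crest.Agent.R272.UB_20 Crest.Agent.R272.MQ_783 Crest.Agent.R272.Refl_246
open Crest.Agent.R272.AJ_956 Crest.Agent.R272.LbAsm_990 Crest.Agent.R272.Sur_342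
open Crest.Agent.R272.Ax_834

namespace Crest.Agent.R272.As15_338

noncomputable section

local notation "I" => unitInterval

variable {P : Type*} [TopologicalSpace P] {n d : P → ℂ}
variable {Y : Type} [TopologicalSpace Y] {z : Y → E 3} {t k : Y → P}
    {e : ℂ} {a0 b0 qN qD : E 3 → ℂ} {SN SD : Finset (V1 3)}

/-- **the living arc** -/
theorem livesQ_of
    -- the group
    {Γ : Type} [Group Γ] {φ : Γ →* UG 3} {W : Set (V1 3)} {Λ : ℝ} (Gd : GrpData φ W Λ)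
    (hW : ∀ g : Γ, ∀ w ∈ W, (φ g).1 w ∈ W)
    -- the spaces
    {B : Type} [TopologicalSpace B] [MulAction Γ Y] [MulAction Γ B]
    [ContinuousConstSMul Γ Y] [ContinuousConstSMul Γ B] [ProperlyDiscontinuousSMul Γ B]
    [T2Space B] [LocallyCompactSpace B]
    (hstab : ∀ (b : B) (g : Γ), g • b = b → g ∈ Gd.R) {p : Y → B} (hpc : Continuous p)
    (hp : ∀ (g : Γ) x, p (g • x) = g • p x)
    -- the graph model
    (G : LbSq_936.Gm Y n d z t k e a0 b0 qN qD SN SD)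
    (heq : ∀ (g : Γ) y, z (g • y) = act (φ g) (z y)) (hK : KAct Gd.K n d z t k)
    -- the far vectors and the classes
    {ι : Type*} {V : ι → V1 3} (hL : Link W Λ V)
    {Nn : ι → ℝ} {Nmin Nmax c0 Lam Lam' kc : ℝ}
    (Wd : LbSq_936.WData ι V Nn Nmin Nmax c0 Lam Lam' kc)
    {S0' : Set (V1 3)} {Fs : E 3 → ℂ} {S0 : Finset (V1 3)} {v1 v2 : V1 3} {c : ℂ} {r1 r2 : ℝ}
    (Fd : LbSq_936.FData S0' Fs S0 v1 v2 V c r1 r2 (r1 / (1 + r1)) (r2 / (1 + r2)))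
    (A : LbSq_936.Gm.AD S0' Fs S0 SN SD qN qD)
    (hprod : ∀ f : V1 3 → ℂ, ∏ v ∈ S0, f v = (∏ v ∈ SN, f v) * ∏ v ∈ SD, f v)
    -- the numbers
    (h12 : r1 < r2) (hδ : slopeδ kc (capA Nmin c0) Nmax Lam' ≤ 1 / 2)
    (hδ2 : 4 * slopeδ kc (capA Nmin c0) Nmax Lam' * (1 + ‖c‖) * (3 + 2 * ‖c‖) <
      (r2 / (1 + r2) - r1 / (1 + r1)) / 2)
    (hΛ : (10 : ℝ) ^ 10 ≤ Λ) {r C0 : ℝ} (hr : ‖c‖ + r2 ≤ r) (hC : 16512 < C0)
    (hCΛ : 6 * C0 ≤ Λ ^ 2) (hrΛ : 9 * (1 + r) ^ 2 < Λ - 1)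
    (hkC : 1 + C0 + 2 * C0 / Λ * kc ≤ kc ^ 2)
    -- the curve and the zero section
    {C : Type} [TopologicalSpace C] {𝒞 : Cur C}
    {j : C × C → Y} (hj : Fib 𝒞.iv n d z t k j) (hsw : ∀ x, Gd.σ • j x = j x.swap)
    -- the surgery
    {A1 B1 : Type} [TopologicalSpace A1] [TopologicalSpace B1] [T2Space (Orb Γ Y)]
    (S : Sur (Orb Γ Y) A1 B1) {y₀ : Orb Γ B} (h0 : ∀ x ∈ S.K, orbMap p hp x = y₀)
    (hKm : ∀ x ∈ S.K, ∃ c : C, x = pr Γ (j (c, 𝒞.iv c)))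
    (hKn : ∀ x : C × C, x ∉ 𝒞.Gam → pr Γ (j x) ∉ S.K)
    -- the surface
    {q : C × C → S.XP} (hq : ∀ x : C × C, x ∉ 𝒞.Gam → q x = S.iota (pr Γ (j x)))
    -- the arc
    {P₀ : C} {γ : C(I, C)} (hγP : ∀ τ, γ τ ≠ P₀ ∧ γ τ ≠ 𝒞.iv P₀)
    (hγ : Arc (fun x => LbSq_936.Gm.aa c n d e a0 b0 z t (j (x, P₀)))
      (r1 / (1 + r1)) (r2 / (1 + r2)) γ) : LivesQ 𝒞 q γ := by
  intro hqc L πA J F hF hper v₀ hh H hs he
  have hG : ∀ x : C, x ≠ 𝒞.iv P₀ → ((x, P₀) : C × C) ∉ 𝒞.Gam := by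
    intro x hx h
    have h1 : P₀ = 𝒞.iv x := h
    exact hx (by rw [h1, 𝒞.iv_iv])
  have hSg := S.surg (continuous_orbMap hpc hp) h0
  refine lb_live Gd hW hstab hpc hp G heq hK hL Wd Fd A hprod h12 hδ hδ2 hΛ hr hC hCΛ hrΛ hkC
    J hqc hj hsw hSg ?_ hF hper (P₀ := P₀) ?_ ?_ hγP hγ H hs he v₀
  · intro y hy
    obtain ⟨x, hx⟩ := hKm _ hy
    obtain ⟨g, hg⟩ := pr_eq_iff.1 hx.symm
    exact ⟨g, x, hg.symm⟩
  · intro x hx
    show q (x, P₀) ∈ {z | S.nf z ≠ 0}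
    rw [hq _ (hG x hx)]
    show S.nf (S.iota _) ≠ 0
    rw [S.nf_iota (hKn _ (hG x hx))]
    exact S.nX_ne_zero.2 (hKn _ (hG x hx))
  · intro x hx
    show S.iota.symm (q (x, P₀)) = _
    rw [hq _ (hG x hx), S.iota.left_inv (S.mem_iota_source.2 (hKn _ (hG x hx)))]

end

end Crest.Agent.R272.As15_338
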