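import Crest.Agent.R272.Quot1_783

/-!
# R272, leaf QUOT (helper783), part 2: line bundles and metrics from automorphy factors

`S : Sheets h A`, free action.
* `S.dk i j y`  : the element of `G` with `dk • σ j y = σ i y` (locally constant);
* `Aut B G`     : automorphy factor `J (g g') x = J g (g' x) * J g' x`, holomorphic, zero free;
* `S.lb J`      : the line bundle on the quotient; `S.sec F`, `isHS_sec`: functions with
                  `F (g x) = J g x * F x` are holomorphic sections (also over open sets);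
* `S.hm J W`    : the metric of a weight `W > 0` with `W (g x) * ‖J g x‖² = W x`;
                  `hm_pos`, `hm_semipos`: positivity upstairs gives positivity downstairs.
-/

set_option autoImplicit false
set_option linter.unusedSectionVars false

open Set Filter Topology Complex
open scoped ContDiff Matrix ComplexConjugate Manifold

namespace Crest.Agent.R272.Quot_783

open Crest.Agent.R275.Geo Crest.Agent.R275.Core144 Crest.Agent.R275.GC293
open Crest.Agent.R273.Defs_333 Crest.Agent.R273.Map_835 Crest.Agent.R273.PB_835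
open Crest.Agent.R273.Fam_835

noncomputable section

variable {n m : ℕ} {X M N : Type} [TopologicalSpace X] [TopologicalSpace M] [TopologicalSpace N]

/-! ### holomorphic and smooth functions on a family -/

/-- holomorphic function on the open set `U` of a manifold `(X, B)` -/
def HolF (B : Fam n X) (U : Set X) (F : X → ℂ) : Prop :=
  ∀ j, DifferentiableOn ℂ (fun z => F ((B.e j).symm z)) ((B.e j).target ∩ (B.e j).symm ⁻¹' U)

/-- smooth function on a manifold `(X, B)` -/
def SmF (B : Fam n X) {W : Type*} [NormedAddCommGroup W] [NormedSpace ℝ W] (F : X → W) : Prop :=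
  ∀ j, ContDiffOn ℝ ∞ (fun z => F ((B.e j).symm z)) (B.e j).target

theorem HolF.diffAt {B : Fam n X} {U : Set X} (hU : IsOpen U) {F : X → ℂ} (hF : HolF B U F)
    {j : B.ι} {x : X} (hx : x ∈ (B.e j).source) (hxU : x ∈ U) :
    DifferentiableAt ℂ (fun z => F ((B.e j).symm z)) (B.e j x) :=
  (hF j).differentiableAt (((B.e j).isOpen_inter_preimage_symm hU).mem_nhds
    ⟨(B.e j).map_source hx, by rw [mem_preimage, (B.e j).left_inv hx]; exact hxU⟩)

variable {B : Fam n X} {G : Type*} [Group G] [MulAction G X] {p : X → M} {h : QD B G p}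
  {A : Atl n M}

namespace Sheets

variable (S : Sheets h A)

/-- the local section, read in the charts, is holomorphic -/
theorem diffAt {i : A.ι} {j : B.ι} {z : Cn n} (hz : z ∈ (A.e i).target)
    (hj : S.σ i ((A.e i).symm z) ∈ (B.e j).source) :
    DifferentiableAt ℂ (fun w => B.e j (S.σ i ((A.e i).symm w))) z := by
  set y := (A.e i).symm z with hy
  have hys : y ∈ (A.e i).source := (A.e i).map_target hz
  set u := S.σ i y with hu
  have hpu : p u = y := S.sec i y hys
  set j0 := (B.cover u).choose with hj0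
  have hj0s : u ∈ (B.e j0).source := (B.cover u).choose_spec
  -- the section agrees with the chosen inverse near `y`
  have h1 : ∀ᶠ w in 𝓝 u, (1 : G) • w = S.σ i (p w) :=
    h.local_smul (A.e i).open_source (S.cont i) (S.sec i) (by rw [hpu]; exact hys)
      (by rw [one_smul, hpu])
  have hyt : y ∈ (h.lhp u).target := by
    rw [← hpu, ← h.lhp_apply u u]
    exact (h.lhp u).map_source (h.mem_lhp u)
  have hlu : (h.lhp u).symm y = u := by
    rw [← hpu]; exact h.lhp_symm_p u (h.mem_lhp u)
  have h2 : ∀ᶠ y' in 𝓝 y, (h.lhp u).symm y' = S.σ i y' := by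
    have hc : ContinuousAt (h.lhp u).symm y := (h.lhp u).continuousAt_symm hyt
    have h3 : ∀ᶠ y' in 𝓝 y, (1 : G) • (h.lhp u).symm y' = S.σ i (p ((h.lhp u).symm y')) :=
      hc.eventually (by rw [hlu]; exact h1)
    filter_upwards [h3, (h.lhp u).open_target.mem_nhds hyt] with y' h4 h5
    rw [one_smul, h.p_lhp_symm u h5] at h4
    exact h4
  have hd : DifferentiableAt ℂ (fun w => h.fam.e u (id ((A.e i).symm w))) z := by
    refine S.toF.diffAt (i := i) (j := u) hz ?_
    show (id y : M) ∈ ((h.lhp u).symm.trans (B.e j0)).source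
    rw [OpenPartialHomeomorph.trans_source]
    exact ⟨hyt, by rw [mem_preimage, id, hlu]; exact hj0s⟩
  have hct : ContinuousAt (A.e i).symm z := (A.e i).continuousAt_symm hz
  have hd0 : DifferentiableAt ℂ (fun w => B.e j0 (S.σ i ((A.e i).symm w))) z := by
    refine hd.congr_of_eventuallyEq ?_
    filter_upwards [hct.eventually h2] with w hw
    show _ = B.e j0 ((h.lhp u).symm ((A.e i).symm w))
    rw [hw]
  -- change of chart upstairs
  have hd1 : DifferentiableAt ℂ (fun w => B.e j ((B.e j0).symm w)) (B.e j0 u) :=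
    (B.holo j0 j).differentiableAt (((B.e j0).isOpen_inter_preimage_symm
      (B.e j).open_source).mem_nhds ⟨(B.e j0).map_source hj0s, by
        rw [mem_preimage, (B.e j0).left_inv hj0s]; exact hj⟩)
  have hd2 := DifferentiableAt.comp z (g := fun w => B.e j ((B.e j0).symm w))
    (f := fun w => B.e j0 (S.σ i ((A.e i).symm w))) hd1 hd0
  refine hd2.congr_of_eventuallyEq ?_
  have hcs : ContinuousAt (fun w => S.σ i ((A.e i).symm w)) z :=
    ContinuousAt.comp (g := S.σ i) ((S.cont i).continuousAt ((A.e i).open_source.mem_nhds hys)) hct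
  filter_upwards [hcs.eventually_mem ((B.e j0).open_source.mem_nhds hj0s)] with w hw
  simp only [Function.comp]
  rw [(B.e j0).left_inv hw]

include S in
/-- the projection, read in the charts, is holomorphic -/
theorem diffAt_p {i : A.ι} {j : B.ι} {x : X} (hx : x ∈ (B.e j).source) (hi : p x ∈ (A.e i).source) :
    DifferentiableAt ℂ (fun w => A.e i (p ((B.e j).symm w))) (B.e j x) := by
  have h1 := (S.frF.comp h.holC_p).diffAt (i := j) (j := i) ((B.e j).map_source hx)
    (by rw [(B.e j).left_inv hx]; exact hi)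
  exact h1

theorem contAt {i : A.ι} {y : M} (hy : y ∈ (A.e i).source) : ContinuousAt (S.σ i) y :=
  (S.cont i).continuousAt ((A.e i).open_source.mem_nhds hy)

theorem contAt' {i : A.ι} {z : Cn n} (hz : z ∈ (A.e i).target) :
    ContinuousAt (fun w => S.σ i ((A.e i).symm w)) z :=
  ContinuousAt.comp (g := S.σ i) (S.contAt ((A.e i).map_target hz)) ((A.e i).continuousAt_symm hz)

/-- analyticity of the section -/
theorem analyticAt {i : A.ι} {j : B.ι} {z : Cn n} (hz : z ∈ (A.e i).target)
    (hj : S.σ i ((A.e i).symm z) ∈ (B.e j).source) :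
    AnalyticAt ℂ (fun w => B.e j (S.σ i ((A.e i).symm w))) z := by
  have h1 : ∀ᶠ w in 𝓝 z, DifferentiableAt ℂ (fun w => B.e j (S.σ i ((A.e i).symm w))) w := by
    filter_upwards [(A.e i).open_target.mem_nhds hz,
      (S.contAt' hz).eventually_mem ((B.e j).open_source.mem_nhds hj)] with w hw hw'
    exact S.diffAt hw hw'
  obtain ⟨U, hU, hUo, hzU⟩ := eventually_nhds_iff.1 h1
  exact Crest.Agent.R266.SCV.analyticOnNhd_of_differentiableOn hUo
    (fun w hw => (hU w hw).differentiableWithinAt) z hzU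

/-- the differential of the section is injective -/
theorem fderiv_inj {i : A.ι} {j : B.ι} {z : Cn n} (hz : z ∈ (A.e i).target)
    (hj : S.σ i ((A.e i).symm z) ∈ (B.e j).source) :
    Function.Injective (fderiv ℂ (fun w => B.e j (S.σ i ((A.e i).symm w))) z) := by
  set y := (A.e i).symm z with hy
  have hys : y ∈ (A.e i).source := (A.e i).map_target hz
  have hpu : p (S.σ i y) = y := S.sec i y hys
  have h1 := S.diffAt hz hj
  have h2 := S.diffAt_p (i := i) hj (by rw [hpu]; exact hys)
  have h3 : (fun w => A.e i (p ((B.e j).symm (B.e j (S.σ i ((A.e i).symm w)))))) =ᶠ[𝓝 z] id := by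
    filter_upwards [(A.e i).open_target.mem_nhds hz,
      (S.contAt' hz).eventually_mem ((B.e j).open_source.mem_nhds hj)] with w hw hw'
    rw [(B.e j).left_inv hw', S.sec i _ ((A.e i).map_target hw), (A.e i).right_inv hw, id]
  have h4 : HasFDerivAt (fun w => A.e i (p ((B.e j).symm (B.e j (S.σ i ((A.e i).symm w))))))
      ((fderiv ℂ (fun w => A.e i (p ((B.e j).symm w))) (B.e j (S.σ i y))).comp
        (fderiv ℂ (fun w => B.e j (S.σ i ((A.e i).symm w))) z)) z :=
    HasFDerivAt.comp z (g := fun w => A.e i (p ((B.e j).symm w))) h2.hasFDerivAt h1.hasFDerivAt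
  have h5 := h4.congr_of_eventuallyEq h3.symm
  have h6 := h5.unique (hasFDerivAt_id z)
  intro v w hvw
  have h7 := congrArg (fun T : Cn n →L[ℂ] Cn n => T v) h6
  have h8 := congrArg (fun T : Cn n →L[ℂ] Cn n => T w) h6
  simp only [ContinuousLinearMap.comp_apply, ContinuousLinearMap.id_apply] at h7 h8
  rw [← h7, ← h8, hvw]

/-- pull-back of holomorphic functions along the sections -/
theorem holAt_comp {U : Set X} (hU : IsOpen U) {F : X → ℂ} (hF : HolF B U F) (i : A.ι) {V : Set M}
    (hV : ∀ y ∈ V, y ∈ (A.e i).source → S.σ i y ∈ U) : HolAt A i V (fun y => F (S.σ i y)) := by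
  intro z hz
  set y := (A.e i).symm z with hy
  have hys : y ∈ (A.e i).source := (A.e i).map_target hz.1
  obtain ⟨j, hj⟩ := B.cover (S.σ i y)
  have h1 := HolF.diffAt hU hF hj (hV y hz.2 hys)
  have h2 := S.diffAt hz.1 hj
  have h3 := DifferentiableAt.comp z (g := fun w => F ((B.e j).symm w))
    (f := fun w => B.e j (S.σ i ((A.e i).symm w))) h1 h2
  refine (h3.congr_of_eventuallyEq ?_).differentiableWithinAt
  filter_upwards [(S.contAt' hz.1).eventually_mem ((B.e j).open_source.mem_nhds hj)] with w hw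
  simp only [Function.comp]
  rw [(B.e j).left_inv hw]

/-! ### the deck elements -/

open Classical in
/-- the element of `G` with `dk • σ j y = σ i y` -/
def dk (i j : A.ι) (y : M) : G :=
  if hy : y ∈ (A.e i).source ∩ (A.e j).source then
    ((h.orb (S.σ j y) (S.σ i y)).1 (by rw [S.sec j y hy.2, S.sec i y hy.1])).choose
  else 1

theorem dk_smul {i j : A.ι} {y : M} (hy : y ∈ (A.e i).source ∩ (A.e j).source) :
    S.dk i j y • S.σ j y = S.σ i y := by
  rw [dk, dif_pos hy]
  exact ((h.orb (S.σ j y) (S.σ i y)).1 (by rw [S.sec j y hy.2, S.sec i y hy.1])).choose_spec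

variable (hfree : ∀ (g : G) (x : X), g • x = x → g = 1)

include hfree

omit h A S in
theorem smul_left_inj {g g' : G} {x : X} (hx : g • x = g' • x) : g = g' := by
  have h1 : (g'⁻¹ * g) • x = x := by rw [mul_smul, hx, inv_smul_smul]
  have h2 := hfree _ _ h1
  rw [inv_mul_eq_one] at h2
  exact h2.symm

theorem dk_unique {i j : A.ι} {y : M} (hy : y ∈ (A.e i).source ∩ (A.e j).source) {g : G}
    (hg : g • S.σ j y = S.σ i y) : S.dk i j y = g :=
  smul_left_inj hfree ((S.dk_smul hy).trans hg.symm)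

theorem dk_self {i : A.ι} {y : M} (hy : y ∈ (A.e i).source) : S.dk i i y = 1 :=
  S.dk_unique hfree ⟨hy, hy⟩ (one_smul _ _)

theorem dk_mul {i j k : A.ι} {y : M}
    (hy : y ∈ (A.e i).source ∩ (A.e j).source ∩ (A.e k).source) :
    S.dk i j y * S.dk j k y = S.dk i k y := by
  refine (S.dk_unique hfree ⟨hy.1.1, hy.2⟩ ?_).symm
  rw [mul_smul, S.dk_smul ⟨hy.1.2, hy.2⟩, S.dk_smul ⟨hy.1.1, hy.1.2⟩]

theorem dk_loc {i j : A.ι} {y : M} (hy : y ∈ (A.e i).source ∩ (A.e j).source) :
    ∀ᶠ y' in 𝓝 y, S.dk i j y' = S.dk i j y := by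
  have h1 := h.local_smul (A.e i).open_source (S.cont i) (S.sec i) (u := S.σ j y)
    (g := S.dk i j y) (by rw [S.sec j y hy.2]; exact hy.1)
    (by rw [S.sec j y hy.2]; exact S.dk_smul hy)
  have h2 := (S.contAt hy.2).eventually h1
  filter_upwards [h2, ((A.e i).open_source.inter (A.e j).open_source).mem_nhds hy] with y' h3 h4
  rw [S.sec j y' h4.2] at h3
  exact S.dk_unique hfree h4 h3

end Sheets

/-! ### automorphy factors -/

/-- holomorphic automorphy factor -/
structure AutF (B : Fam n X) (G : Type*) [Group G] [MulAction G X] where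
  J : G → X → ℂ
  hol : ∀ g, HolF B univ (J g)
  ne : ∀ g x, J g x ≠ 0
  mul : ∀ g g' x, J (g * g') x = J g (g' • x) * J g' x

namespace AutF

theorem one (J : AutF B G) (x : X) : J.J 1 x = 1 := by
  have h1 := J.mul 1 1 x
  rw [one_mul, one_smul] at h1
  exact (mul_eq_left₀ (J.ne 1 x)).1 h1.symm

/-- product -/
def prod (J J' : AutF B G) : AutF B G where
  J g x := J.J g x * J'.J g x
  hol g j := (J.hol g j).mul (J'.hol g j)
  ne g x := mul_ne_zero (J.ne g x) (J'.ne g x)
  mul g g' x := by rw [J.mul, J'.mul]; ring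

/-- inverse -/
def inv (J : AutF B G) : AutF B G where
  J g x := (J.J g x)⁻¹
  hol g j := (J.hol g j).inv fun z _ => J.ne g _
  ne g x := inv_ne_zero (J.ne g x)
  mul g g' x := by rw [J.mul, mul_inv]

/-- power -/
def pow (J : AutF B G) (k : ℕ) : AutF B G where
  J g x := J.J g x ^ k
  hol g j := (J.hol g j).pow k
  ne g x := pow_ne_zero _ (J.ne g x)
  mul g g' x := by rw [J.mul, mul_pow]

end AutF

namespace Sheets

variable (S : Sheets h A) (hfree : ∀ (g : G) (x : X), g • x = x → g = 1)

open Classical in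
/-- the line bundle on the quotient with automorphy factor `J` -/
def lb (J : AutF B G) : LB A where
  g i j y := if y ∈ (A.e i).source ∩ (A.e j).source then J.J (S.dk i j y) (S.σ j y) else 1
  hol i j := by
    refine holAt_of_local fun y hy hyj => ?_
    have hyy : y ∈ (A.e i).source ∩ (A.e j).source := ⟨hy, hyj⟩
    obtain ⟨U, hU, hUo, hyU⟩ := eventually_nhds_iff.1 (S.dk_loc hfree hyy)
    refine ⟨U ∩ (A.e j).source, hUo.inter (A.e j).open_source, ⟨hyU, hyj⟩, ?_⟩
    have h1 : HolAt A j (U ∩ (A.e j).source) (fun y' => J.J (S.dk i j y) (S.σ j y')) :=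
      S.holAt_comp isOpen_univ (J.hol _) j fun _ _ _ => mem_univ _
    have h2 := h1.chg (hUo.inter (A.e j).open_source) i
    have h3 : HolAt A i (U ∩ (A.e j).source) (fun y' => J.J (S.dk i j y) (S.σ j y')) :=
      h2.mono fun y' hy' => ⟨hy', hy'.2⟩
    refine h3.congr fun y' hy' hyU' => ?_
    rw [if_pos ⟨hy', hyU'.2⟩, hU y' hyU'.1]
  off i j y hy := if_neg hy
  self i y := by
    split_ifs with hy
    · rw [S.dk_self hfree hy.1, J.one]
    · rfl
  mul i j k y hy := by
    rw [if_pos hy.1, if_pos ⟨hy.1.2, hy.2⟩, if_pos ⟨hy.1.1, hy.2⟩, ← S.dk_mul hfree hy, J.mul,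
      S.dk_smul ⟨hy.1.2, hy.2⟩]

theorem lb_g (J : AutF B G) {i j : A.ι} {y : M} (hy : y ∈ (A.e i).source ∩ (A.e j).source) :
    (S.lb hfree J).g i j y = J.J (S.dk i j y) (S.σ j y) := if_pos hy

theorem lb_prod (J J' : AutF B G) : S.lb hfree (J.prod J') = S.lb hfree J * S.lb hfree J' := by
  ext i j y
  by_cases hy : y ∈ (A.e i).source ∩ (A.e j).source
  · rw [LB.mul_g, S.lb_g hfree _ hy, S.lb_g hfree _ hy, S.lb_g hfree _ hy]; rfl
  · rw [LB.mul_g, (S.lb hfree _).off i j y hy, (S.lb hfree _).off i j y hy,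
      (S.lb hfree _).off i j y hy, one_mul]

theorem lb_inv (J : AutF B G) : S.lb hfree J.inv = (S.lb hfree J)⁻¹ := by
  ext i j y
  by_cases hy : y ∈ (A.e i).source ∩ (A.e j).source
  · rw [LB.inv_g, S.lb_g hfree _ hy, S.lb_g hfree _ hy]; rfl
  · rw [LB.inv_g, (S.lb hfree _).off i j y hy, (S.lb hfree _).off i j y hy, inv_one]

theorem lb_pow (J : AutF B G) (k : ℕ) : S.lb hfree (J.pow k) = (S.lb hfree J) ^ k := by
  ext i j y
  rw [Crest.Agent.R273.HM_333.LB_pow_g]
  by_cases hy : y ∈ (A.e i).source ∩ (A.e j).source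
  · rw [S.lb_g hfree _ hy, S.lb_g hfree _ hy]; rfl
  · rw [(S.lb hfree _).off i j y hy, (S.lb hfree _).off i j y hy, one_pow]

open Classical in
/-- the section of an equivariant function -/
def secF (F : X → ℂ) : A.ι → M → ℂ := fun i y =>
  if y ∈ (A.e i).source then F (S.σ i y) else 0

theorem secF_apply (F : X → ℂ) {i : A.ι} {y : M} (hy : y ∈ (A.e i).source) :
    S.secF F i y = F (S.σ i y) := if_pos hy

/-- equivariant holomorphic functions are holomorphic sections -/
theorem isHS_secF (J : AutF B G) {U : Set M} (hU : IsOpen U) {F : X → ℂ}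
    (hF : HolF B (p ⁻¹' U) F) (hJ : ∀ g x, p x ∈ U → F (g • x) = J.J g x * F x) :
    IsHS (S.lb hfree J) U (S.secF F) := by
  refine ⟨fun i => ?_, fun i y hy => if_neg hy, fun i j y hy hyU => ?_⟩
  · have h1 : HolAt A i U (fun y => F (S.σ i y)) :=
      S.holAt_comp (hU.preimage h.cont) hF i fun y hy hys => by
        rw [mem_preimage, S.sec i y hys]; exact hy
    exact h1.congr fun y hy _ => (S.secF_apply F hy).symm
  · rw [S.secF_apply F hy.1, S.secF_apply F hy.2, S.lb_g hfree J hy, ← hJ _ _ (by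
      rw [S.sec j y hy.2]; exact hyU), S.dk_smul hy]

/-- the metric of an equivariant weight -/
def hm (J : AutF B G) {W : X → ℝ} (hW : ∀ x, 0 < W x) (hs : SmF B W)
    (hJ : ∀ g x, W (g • x) * ‖J.J g x‖ ^ 2 = W x) : HM (S.lb hfree J) where
  w i y := W (S.σ i y)
  pos i y _ := hW _
  sm i := by
    intro z hz
    obtain ⟨j, hj⟩ := B.cover (S.σ i ((A.e i).symm z))
    have h1 : ContDiffAt ℝ ∞ (fun w => B.e j (S.σ i ((A.e i).symm w))) z :=
      (S.analyticAt hz hj).contDiffAt.restrict_scalars ℝ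
    have h2 : ContDiffAt ℝ ∞ (fun w => W ((B.e j).symm w)) (B.e j (S.σ i ((A.e i).symm z))) :=
      (hs j).contDiffAt ((B.e j).open_target.mem_nhds ((B.e j).map_source hj))
    refine ((h2.comp z h1).congr_of_eventuallyEq ?_).contDiffWithinAt
    filter_upwards [(S.contAt' hz).eventually_mem ((B.e j).open_source.mem_nhds hj)] with w hw
    simp only [Function.comp]
    rw [(B.e j).left_inv hw]
  tr i j y hy := by
    rw [S.lb_g hfree J hy, ← S.dk_smul hy, mul_comm, hJ]

/-- the weight of the metric in terms of the weight upstairs -/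
theorem hm_lev (J : AutF B G) {W : X → ℝ} (hW : ∀ x, 0 < W x) (hs : SmF B W)
    (hJ : ∀ g x, W (g • x) * ‖J.J g x‖ ^ 2 = W x) {i : A.ι} {j : B.ι} {z : Cn n}
    (hz : z ∈ (A.e i).target) (hj : S.σ i ((A.e i).symm z) ∈ (B.e j).source) (v : Cn n) :
    lev ((S.hm hfree J hW hs hJ).wt i) z v =
      lev (fun w => - Real.log (W ((B.e j).symm w))) (B.e j (S.σ i ((A.e i).symm z)))
        (fderiv ℂ (fun w => B.e j (S.σ i ((A.e i).symm w))) z v) := by
  have he : (S.hm hfree J hW hs hJ).wt i =ᶠ[𝓝 z]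
      fun w => - Real.log (W ((B.e j).symm (B.e j (S.σ i ((A.e i).symm w))))) := by
    filter_upwards [(S.contAt' hz).eventually_mem ((B.e j).open_source.mem_nhds hj)] with w hw
    rw [(B.e j).left_inv hw]
    rfl
  have hu : ContDiffAt ℝ 2 (fun w => - Real.log (W ((B.e j).symm w)))
      (B.e j (S.σ i ((A.e i).symm z))) := by
    have h2 : ContDiffAt ℝ 2 (fun w => W ((B.e j).symm w)) (B.e j (S.σ i ((A.e i).symm z))) :=
      ((hs j).contDiffAt ((B.e j).open_target.mem_nhds ((B.e j).map_source hj))).of_le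
        (by norm_cast)
    exact (h2.log (hW _).ne').neg
  rw [lev_congr' he, lev_bridge, Crest.Agent.R273.Levi_145.lev_comp (S.analyticAt hz hj) hu,
    ← lev_bridge]

theorem hm_pos (J : AutF B G) {W : X → ℝ} (hW : ∀ x, 0 < W x) (hs : SmF B W)
    (hJ : ∀ g x, W (g • x) * ‖J.J g x‖ ^ 2 = W x)
    (hpos : ∀ j, ∀ z ∈ (B.e j).target, ∀ v : Cn n, v ≠ 0 →
      0 < lev (fun w => - Real.log (W ((B.e j).symm w))) z v) :
    (S.hm hfree J hW hs hJ).Pos := by
  intro i z hz v hv
  obtain ⟨j, hj⟩ := B.cover (S.σ i ((A.e i).symm z))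
  rw [S.hm_lev hfree J hW hs hJ hz hj]
  refine hpos j _ ((B.e j).map_source hj) _ fun h0 => hv ?_
  exact S.fderiv_inj hz hj (by rw [h0, map_zero])

theorem hm_semipos (J : AutF B G) {W : X → ℝ} (hW : ∀ x, 0 < W x) (hs : SmF B W)
    (hJ : ∀ g x, W (g • x) * ‖J.J g x‖ ^ 2 = W x)
    (hpos : ∀ j, ∀ z ∈ (B.e j).target, ∀ v : Cn n,
      0 ≤ lev (fun w => - Real.log (W ((B.e j).symm w))) z v) :
    (S.hm hfree J hW hs hJ).Semipos := by
  intro i z hz v
  obtain ⟨j, hj⟩ := B.cover (S.σ i ((A.e i).symm z))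
  rw [S.hm_lev hfree J hW hs hJ hz hj]
  exact hpos j _ ((B.e j).map_source hj) _

end Sheets

end

end Crest.Agent.R272.Quot_783
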