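import Crest.Agent.R272.GrP1_559
import Crest.Agent.R272.Quot2_783

/-!
# R272 (S0415), MOD-GRAPH (helper559), file 1: the data `GData` and the space `X1`

`(N, F : Fam 3 N)` is the base (instance: the ball), `f0 = F_0`, `x i = F_{i0}`,
`P i = F_{i1} F_{i2} F_{i5} E_1 E_2`, `Q i = F_{i3} F_{i4} F_{i0} E_4`.

* `SNC F q h`  : the functions of the list `h` vanishing at `q` have independent differentials;
* `Pen`        : normal form at a flat (`f0 = a s0`, `x = b (s1 - c5 s0)`, `P`, `Q` = unit times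
                 three linear factors, six distinct slopes);
* `GData.Y i`  : closure of `{(z,t,k) | t = [x i : f0], n k ^ 2 Q i = d k ^ 2 P i}`;
* `GData.X1`   : `{(z, t 0, t 1, v, k 0, k 1)}`, a closed subset of `N × P1^5`.
-/

set_option autoImplicit false
set_option linter.unusedSectionVars false

open Set Filter Topology Complex

namespace Crest.Agent.R272.Gr_559

open Crest.Agent.R275.Geo Crest.Agent.R273.Fam_835 Crest.Agent.R272.Quot_783

noncomputable section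

variable {m : ℕ} {N : Type} [TopologicalSpace N]

/-- differential of `h` at `q`, read in the chart `i` -/
def dd (F : Fam m N) (i : F.ι) (h : N → ℂ) (q : N) : Cn m →L[ℂ] ℂ :=
  fderiv ℂ (fun z => h ((F.e i).symm z)) (F.e i q)

/-- the functions of the list which vanish at `q` have independent differentials at `q` -/
def SNC (F : Fam m N) (q : N) {ρ : Type} (h : ρ → N → ℂ) : Prop :=
  ∀ i, q ∈ (F.e i).source → ∀ w : ρ → ℂ, ∃ v : Cn m, ∀ a, h a q = 0 → dd F i (h a) q v = w a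

/-- normal form of `(f0, x, P, Q)` near a point `q` of a flat -/
structure Pen (F : Fam m N) (f0 x P Q : N → ℂ) (q : N) where
  /-- the neighbourhood -/
  U : Set N
  U_open : IsOpen U
  mem : q ∈ U
  s0 : N → ℂ
  s1 : N → ℂ
  a : N → ℂ
  b : N → ℂ
  u : N → ℂ
  w : N → ℂ
  c : Fin 6 → ℂ
  c_inj : Function.Injective c
  s0_hol : HolF F U s0
  s1_hol : HolF F U s1
  a_hol : HolF F U a
  b_hol : HolF F U b
  u_hol : HolF F U u
  w_hol : HolF F U w
  a_ne : ∀ z ∈ U, a z ≠ 0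
  b_ne : ∀ z ∈ U, b z ≠ 0
  u_ne : ∀ z ∈ U, u z ≠ 0
  w_ne : ∀ z ∈ U, w z ≠ 0
  ef : ∀ z ∈ U, f0 z = a z * s0 z
  ex : ∀ z ∈ U, x z = b z * (s1 z - c 5 * s0 z)
  eP : ∀ z ∈ U, P z =
    u z * ((s1 z - c 0 * s0 z) * (s1 z - c 1 * s0 z) * (s1 z - c 2 * s0 z))
  eQ : ∀ z ∈ U, Q z =
    w z * ((s1 z - c 3 * s0 z) * (s1 z - c 4 * s0 z) * (s1 z - c 5 * s0 z))

/-- the data of the graph model -/
structure GData (F : Fam 3 N) where
  f0 : N → ℂ
  x : Fin 2 → N → ℂ
  P : Fin 2 → N → ℂ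
  Q : Fin 2 → N → ℂ
  f0_hol : HolF F univ f0
  x_hol : ∀ i, HolF F univ (x i)
  P_hol : ∀ i, HolF F univ (P i)
  Q_hol : ∀ i, HolF F univ (Q i)
  /-- off all flats: normal crossings -/
  rr : ∀ q, (∀ i, ¬ (f0 q = 0 ∧ x i q = 0)) → SNC F q ![P 0, Q 0, P 1, Q 1]
  /-- on a flat of colour `i`, off the flats of the other colour `j` -/
  fr : ∀ q i j, i ≠ j → f0 q = 0 → x i q = 0 → x j q ≠ 0 →
    ∃ p : Pen F f0 (x i) (P i) (Q i) q, SNC F q ![p.s0, p.s1, P j, Q j]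
  /-- cluster points -/
  ff : ∀ q, f0 q = 0 → x 0 q = 0 → x 1 q = 0 →
    ∃ p : Pen F f0 (x 0) (P 0) (Q 0) q, ∃ p' : Pen F f0 (x 1) (P 1) (Q 1) q,
      p'.s0 = p.s0 ∧ SNC F q ![p.s0, p.s1, p'.s1]

namespace GData

variable {F : Fam 3 N} (D : GData F)

/-- the graph of colour `i` over the complement of the flats of colour `i` -/
def G (i : Fin 2) : Set (N × P1 × P1) :=
  {p | ¬ (D.f0 p.1 = 0 ∧ D.x i p.1 = 0) ∧ D.x i p.1 * p.2.1.d = D.f0 p.1 * p.2.1.n ∧
    p.2.2.n ^ 2 * D.Q i p.1 = p.2.2.d ^ 2 * D.P i p.1}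

/-- the double cover of colour `i` (over the blow up of the flats of colour `i`) -/
def Y (i : Fin 2) : Set (N × P1 × P1) := closure (D.G i)

/-- the ambient space: `(z, t, v, k)` -/
abbrev Amb (N : Type) : Type := N × (Fin 2 → P1) × P1 × (Fin 2 → P1)

/-- the smooth model -/
def X1 : Set (Amb N) :=
  {p | (∀ i, (p.1, p.2.1 i, p.2.2.2 i) ∈ D.Y i) ∧
    p.2.2.1.n * (p.2.1 0).d = p.2.2.1.d * (p.2.1 0).n * D.x 1 p.1 ∧
    p.2.2.1.n * (p.2.1 1).d = p.2.2.1.d * (p.2.1 1).n * D.x 0 p.1}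

/-- projection to the base and the five coordinates -/
def pz (p : D.X1) : N := p.1.1
def t (i : Fin 2) (p : D.X1) : P1 := p.1.2.1 i
def v (p : D.X1) : P1 := p.1.2.2.1
def k (i : Fin 2) (p : D.X1) : P1 := p.1.2.2.2 i

theorem ext_iff {p q : D.X1} : p = q ↔
    D.pz p = D.pz q ∧ (∀ i, D.t i p = D.t i q) ∧ D.v p = D.v q ∧ ∀ i, D.k i p = D.k i q := by
  constructor
  · rintro rfl
    exact ⟨rfl, fun _ => rfl, rfl, fun _ => rfl⟩
  · rintro ⟨h1, h2, h3, h4⟩
    exact Subtype.ext (Prod.ext h1 (Prod.ext (funext h2) (Prod.ext h3 (funext h4))))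

end GData

end

end Crest.Agent.R272.Gr_559
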