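import Crest.Agent.R272.UB3_20
import Crest.Agent.R272.GrDefs_559

/-!
# R272, leaf UB-DISC (helper20), part 4: the discs in 559's model `X1`

`D : GData F` on a base `N`. Over a square `z : [0,1]² → N` with `f0 z = σ A0`, `x_i z = σ A_i`,
`P_1 z = σ³ BP`, `Q_1 z = σ³ BQ` (colour `1`), and for colour `0`: `P_0 z = σ³ t(1-t) AP`,
`Q_0 z = σ³ (1-σ) AQ` (`sw = false`) or `P_0 z = σ³ (1-σ) AP`, `Q_0 z = σ³ t(1-t) AQ` (`sw = true`),
the two arcs over `σ = 0` are homotopic rel end points in `X1`.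
-/

set_option autoImplicit false

open Set Filter Topology OnePoint

namespace Crest.Agent.R272.UB_20

open Crest.Agent.R272.Gr_559 Crest.Agent.R273.Fam_835 Crest.Agent.R272.Gr_559.GData

noncomputable section

local notation "I" => unitInterval

universe u

/-- the point `[a : b]` of the projective line -/
def br (p : ℂ × ℂ) : P1 := if p.2 = 0 then ∞ else ((p.1 / p.2 : ℂ) : OnePoint ℂ)

theorem br_of_ne {a b : ℂ} (h : b ≠ 0) : br (a, b) = ((a / b : ℂ) : OnePoint ℂ) := if_neg h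

theorem br_zero (a : ℂ) : br (a, 0) = ∞ := if_pos rfl

theorem br_scale (c : ℂ) (hc : c ≠ 0) (p : ℂ × ℂ) : br (c • p) = br p := by
  obtain ⟨a, b⟩ := p
  have e : c • ((a, b) : ℂ × ℂ) = (c * a, c * b) := rfl
  rw [e]
  rcases eq_or_ne b 0 with rfl | hb
  · rw [mul_zero, br_zero, br_zero]
  · rw [br_of_ne (mul_ne_zero hc hb), br_of_ne hb, mul_div_mul_left _ _ hc]

theorem br_cont : ContinuousOn br {0}ᶜ := by
  rintro ⟨a, b⟩ hp
  refine ContinuousAt.continuousWithinAt ?_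
  rcases eq_or_ne b 0 with rfl | hb
  · -- at infinity
    have ha : a ≠ 0 := by
      rintro rfl
      exact hp rfl
    rw [ContinuousAt, br_zero]
    intro s hs
    rw [OnePoint.nhds_infty_eq] at hs
    obtain ⟨hs1, hs2⟩ := hs
    have hs1' : (↑) ⁻¹' s ∈ coclosedCompact ℂ := hs1
    have hs2' : (∞ : OnePoint ℂ) ∈ s := hs2
    rw [coclosedCompact_eq_cocompact, ← Metric.cobounded_eq_cocompact] at hs1'
    have ht : Tendsto (fun p : ℂ × ℂ => p.1 / p.2) (𝓝[{p | p.2 ≠ 0}] (a, 0))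
        (Bornology.cobounded ℂ) := by
      have h1 : Tendsto (fun p : ℂ × ℂ => p.2⁻¹) (𝓝[{p | p.2 ≠ 0}] (a, 0))
          (Bornology.cobounded ℂ) := by
        refine Filter.tendsto_inv₀_nhdsNE_zero.comp ?_
        refine tendsto_nhdsWithin_iff.2 ⟨?_, ?_⟩
        · exact (continuous_snd.tendsto ((a, 0) : ℂ × ℂ)).mono_left nhdsWithin_le_nhds
        · exact eventually_mem_nhdsWithin
      have h2 : Tendsto (fun p : ℂ × ℂ => p.1) (𝓝[{p | p.2 ≠ 0}] (a, 0)) (𝓝 a) :=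
        (continuous_fst.tendsto ((a, 0) : ℂ × ℂ)).mono_left nhdsWithin_le_nhds
      have h3 : Tendsto (fun p : ℂ × ℂ => ‖p.1 / p.2‖) (𝓝[{p | p.2 ≠ 0}] (a, 0)) atTop := by
        have h4 : Tendsto (fun p : ℂ × ℂ => ‖p.1‖ * ‖p.2⁻¹‖) (𝓝[{p | p.2 ≠ 0}] (a, 0)) atTop :=
          Tendsto.pos_mul_atTop (norm_pos_iff.2 ha) h2.norm (tendsto_norm_cobounded_atTop.comp h1)
        refine h4.congr (fun p => ?_)
        rw [div_eq_mul_inv, norm_mul]
      exact tendsto_norm_atTop_iff_cobounded.1 h3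
    have h5 : ∀ᶠ p in 𝓝[{p : ℂ × ℂ | p.2 ≠ 0}] (a, 0), ((p.1 / p.2 : ℂ) : OnePoint ℂ) ∈ s :=
      ht hs1'
    rw [eventually_nhdsWithin_iff] at h5
    show ∀ᶠ p in 𝓝 (a, 0), br p ∈ s
    filter_upwards [h5] with p hp5
    by_cases h0 : p.2 = 0
    · have : br p = ∞ := if_pos h0
      rw [this]
      exact hs2'
    · have : br p = ((p.1 / p.2 : ℂ) : OnePoint ℂ) := if_neg h0
      rw [this]
      exact hp5 h0
  · have h1 : ∀ᶠ p : ℂ × ℂ in 𝓝 (a, b), br p = ((p.1 / p.2 : ℂ) : OnePoint ℂ) := by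
      have : ∀ᶠ p : ℂ × ℂ in 𝓝 (a, b), p.2 ≠ 0 := continuous_snd.continuousAt.eventually_ne hb
      filter_upwards [this] with p h0
      exact if_neg h0
    have h2 : ContinuousAt (fun p : ℂ × ℂ => ((p.1 / p.2 : ℂ) : OnePoint ℂ)) (a, b) := by
      refine OnePoint.continuous_coe.continuousAt.comp ?_
      exact continuousAt_fst.div continuousAt_snd hb
    exact h2.congr (h1.mono fun p hp => hp.symm)


theorem br_eq_mk (p : ℂ × ℂ) : br p = P1.mk p.1 p.2 := rfl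

theorem br_rel {p : ℂ × ℂ} (hp : p ≠ 0) : p.1 * P1.d (br p) = p.2 * P1.n (br p) := by
  rw [br_eq_mk]
  refine P1.rel_mk ?_
  rintro ⟨h1, h2⟩
  exact hp (Prod.ext h1 h2)

/-- the last coordinate, with the roles of `P` and `Q` exchanged if `sw` -/
def brs (sw : Bool) (p : ℂ × ℂ) : P1 := if sw then br (p.2, p.1) else br p

theorem brs_scale (sw : Bool) (c : ℂ) (hc : c ≠ 0) (p : ℂ × ℂ) : brs sw (c • p) = brs sw p := by
  cases sw
  · exact br_scale c hc p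
  · exact br_scale c hc (p.2, p.1)

theorem brs_cont (sw : Bool) : ContinuousOn (brs sw) {0}ᶜ := by
  cases sw
  · exact br_cont
  · have h : ContinuousOn (fun p : ℂ × ℂ => br (p.2, p.1)) {0}ᶜ := by
      refine br_cont.comp (by fun_prop) ?_
      rintro ⟨a, b⟩ hp h0
      apply hp
      have h1 : (b, a) = ((0 : ℂ), (0 : ℂ)) := h0
      have h2 : b = 0 := congrArg Prod.fst h1
      have h3 : a = 0 := congrArg Prod.snd h1
      rw [h2, h3]
      rfl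
    exact h

variable {m : ℕ} {N : Type} [TopologicalSpace N] {F : Fam 3 N}

/-- a square over the base adapted to a pair of planes and a bridge -/
structure SqD (D : GData F) (sw : Bool) where
  z : ℝ × ℝ → N
  hz : ContinuousOn z sqr
  A0 : ℝ × ℝ → ℂ
  A : Fin 2 → ℝ × ℝ → ℂ
  AP : ℝ × ℝ → ℂ
  AQ : ℝ × ℝ → ℂ
  /-- root of `AP / AQ` (or its inverse) -/
  r : ℝ × ℝ → ℂ
  /-- root of `P_1 / Q_1` -/
  rB : ℝ × ℝ → ℂ
  BQ : ℝ × ℝ → ℂ
  cA0 : ContinuousOn A0 sqr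
  cA : ∀ i, ContinuousOn (A i) sqr
  cr : ContinuousOn r sqr
  crB : ContinuousOn rB sqr
  nA0 : ∀ p ∈ sqr, A0 p ≠ 0
  nr : ∀ p ∈ sqr, r p ≠ 0
  ef : ∀ p ∈ sqr, D.f0 (z p) = p.1 * A0 p
  ex : ∀ i, ∀ p ∈ sqr, D.x i (z p) = p.1 * A i p
  eP : ∀ p ∈ sqr, (if sw then D.Q else D.P) 0 (z p) = p.1 ^ 3 * (p.2 * (1 - p.2)) * AP p
  eQ : ∀ p ∈ sqr, (if sw then D.P else D.Q) 0 (z p) = p.1 ^ 3 * (1 - p.1) * AQ p
  er : ∀ p ∈ sqr, r p ^ 2 * AQ p = AP p
  eQ1 : ∀ p ∈ sqr, D.Q 1 (z p) = p.1 ^ 3 * BQ p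
  eP1 : ∀ p ∈ sqr, D.P 1 (z p) = p.1 ^ 3 * (rB p ^ 2 * BQ p)

namespace SqD

variable {D : GData F} {sw : Bool} (S : SqD D sw)

/-- the coordinates `t` -/
def tc (p : ℝ × ℝ) : Fin 2 → P1 := fun i => ((S.A i p / S.A0 p : ℂ) : P1)

/-- the coordinate `v` -/
def vc (p : ℝ × ℝ) : P1 := ((p.1 * S.A 0 p * S.A 1 p / S.A0 p : ℂ) : P1)

/-- all coordinates -/
def pt (p : ℝ × ℝ) (k0 : P1) : Amb N :=
  (S.z p, S.tc p, S.vc p, ![k0, ((S.rB p : ℂ) : P1)])

theorem tc_cont : ContinuousOn S.tc sqr := by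
  rw [continuousOn_pi]
  intro i
  exact OnePoint.continuous_coe.comp_continuousOn ((S.cA i).div S.cA0 S.nA0)

theorem vc_cont : ContinuousOn S.vc sqr := by
  refine OnePoint.continuous_coe.comp_continuousOn ?_
  refine ContinuousOn.div ?_ S.cA0 S.nA0
  refine ContinuousOn.mul (ContinuousOn.mul ?_ (S.cA 0)) (S.cA 1)
  exact (Complex.continuous_ofReal.comp continuous_fst).continuousOn

theorem ofReal_ne {x : ℝ} (h : 0 < x) : (x : ℂ) ≠ 0 := Complex.ofReal_ne_zero.2 h.ne'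

/-- the relation for the last coordinate -/
theorem rel_k {p : ℝ × ℝ} (hp : p ∈ sqr) {k : ℂ × ℂ} (hk : k ≠ 0)
    (hk2 : k.1 ^ 2 * (1 - p.1 : ℝ) = k.2 ^ 2 * ((p.2 * (1 - p.2) : ℝ) * S.r p ^ 2)) :
    P1.n (brs sw k) ^ 2 * D.Q 0 (S.z p) = P1.d (brs sw k) ^ 2 * D.P 0 (S.z p) := by
  have eP := S.eP p hp
  have eQ := S.eQ p hp
  have er := S.er p hp
  cases sw
  · have eP' : D.P 0 (S.z p) = p.1 ^ 3 * (p.2 * (1 - p.2)) * S.AP p := eP
    have eQ' : D.Q 0 (S.z p) = p.1 ^ 3 * (1 - p.1) * S.AQ p := eQ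
    have h1 := br_rel hk
    show P1.n (br k) ^ 2 * D.Q 0 (S.z p) = P1.d (br k) ^ 2 * D.P 0 (S.z p)
    rw [eP', eQ', ← er]
    push_cast at hk2
    rcases eq_or_ne k.2 0 with h2 | h2
    · have h3 : k.1 ≠ 0 := fun h => hk (Prod.ext h h2)
      rw [h2, zero_mul] at h1
      have h4 : P1.d (br k) = 0 := (mul_eq_zero.1 h1).resolve_left h3
      have h5 : (1 - (p.1 : ℂ)) = 0 := by
        rw [h2] at hk2
        have : k.1 ^ 2 * (1 - (p.1 : ℂ)) = 0 := by rw [hk2]; ring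
        exact (mul_eq_zero.1 this).resolve_left (pow_ne_zero 2 h3)
      rw [h4, h5]
      ring
    · have h6 : P1.n (br k) = k.1 / k.2 * P1.d (br k) := by
        field_simp
        linear_combination -h1
      rw [h6]
      field_simp
      linear_combination (P1.d (br k) ^ 2 * (p.1 : ℂ) ^ 3 * S.AQ p) * hk2
  · have eP' : D.Q 0 (S.z p) = p.1 ^ 3 * (p.2 * (1 - p.2)) * S.AP p := eP
    have eQ' : D.P 0 (S.z p) = p.1 ^ 3 * (1 - p.1) * S.AQ p := eQ
    have hk' : ((k.2, k.1) : ℂ × ℂ) ≠ 0 := by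
      intro h
      have g1 : k.2 = 0 := congrArg Prod.fst h
      have g2 : k.1 = 0 := congrArg Prod.snd h
      exact hk (Prod.ext g2 g1)
    have h1 := br_rel hk'
    show P1.n (br (k.2, k.1)) ^ 2 * D.Q 0 (S.z p) = P1.d (br (k.2, k.1)) ^ 2 * D.P 0 (S.z p)
    rw [eP', eQ', ← er]
    simp only at h1
    push_cast at hk2
    rcases eq_or_ne k.2 0 with h2 | h2
    · have h3 : k.1 ≠ 0 := fun h => hk (Prod.ext h h2)
      rw [h2, zero_mul] at h1
      have h4 : P1.n (br (k.2, k.1)) = 0 := by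
        rw [h2]
        exact (mul_eq_zero.1 h1.symm).resolve_left h3
      have h5 : (1 - (p.1 : ℂ)) = 0 := by
        rw [h2] at hk2
        have : k.1 ^ 2 * (1 - (p.1 : ℂ)) = 0 := by rw [hk2]; ring
        exact (mul_eq_zero.1 this).resolve_left (pow_ne_zero 2 h3)
      rw [h4, h5]
      ring
    · have h6 : P1.d (br (k.2, k.1)) = k.1 / k.2 * P1.n (br (k.2, k.1)) := by
        field_simp
        linear_combination h1
      rw [h6]
      field_simp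
      linear_combination (-P1.n (br (k.2, k.1)) ^ 2 * (p.1 : ℂ) ^ 3 * S.AQ p) * hk2

/-- membership in the graphs for `σ > 0` -/
theorem mem_pos {p : ℝ × ℝ} (hp : p ∈ sqr) (h0 : 0 < p.1) {k : ℂ × ℂ} (hk : k ≠ 0)
    (hk2 : k.1 ^ 2 * (1 - p.1 : ℝ) = k.2 ^ 2 * ((p.2 * (1 - p.2) : ℝ) * S.r p ^ 2)) :
    ∀ i, ((S.pt p (brs sw k)).1, (S.pt p (brs sw k)).2.1 i, (S.pt p (brs sw k)).2.2.2 i) ∈
      D.G i := by
  have hf : D.f0 (S.z p) ≠ 0 := by
    rw [S.ef p hp]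
    exact mul_ne_zero (ofReal_ne h0) (S.nA0 p hp)
  intro i
  refine ⟨fun h => hf h.1, ?_, ?_⟩
  · show D.x i (S.z p) * P1.d (((S.A i p / S.A0 p : ℂ) : P1)) =
      D.f0 (S.z p) * P1.n (((S.A i p / S.A0 p : ℂ) : P1))
    rw [P1.d_coe, P1.n_coe, S.ef p hp, S.ex i p hp]
    have := S.nA0 p hp
    field_simp
  · fin_cases i
    · exact S.rel_k hp hk hk2
    · show P1.n (((S.rB p : ℂ) : P1)) ^ 2 * D.Q 1 (S.z p) =
        P1.d (((S.rB p : ℂ) : P1)) ^ 2 * D.P 1 (S.z p)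
      rw [P1.d_coe, P1.n_coe, S.eQ1 p hp, S.eP1 p hp]
      ring

/-- the relations with `v` -/
theorem rel_v {p : ℝ × ℝ} (hp : p ∈ sqr) :
    P1.n (S.vc p) * P1.d (S.tc p 0) = P1.d (S.vc p) * P1.n (S.tc p 0) * D.x 1 (S.z p) ∧
    P1.n (S.vc p) * P1.d (S.tc p 1) = P1.d (S.vc p) * P1.n (S.tc p 1) * D.x 0 (S.z p) := by
  have h0 := S.nA0 p hp
  constructor
  · show P1.n (((p.1 * S.A 0 p * S.A 1 p / S.A0 p : ℂ) : P1)) * P1.d (((S.A 0 p / S.A0 p : ℂ) : P1)) =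
      P1.d (((p.1 * S.A 0 p * S.A 1 p / S.A0 p : ℂ) : P1)) * P1.n (((S.A 0 p / S.A0 p : ℂ) : P1)) *
        D.x 1 (S.z p)
    rw [P1.n_coe, P1.d_coe, P1.d_coe, P1.n_coe, S.ex 1 p hp]
    field_simp
  · show P1.n (((p.1 * S.A 0 p * S.A 1 p / S.A0 p : ℂ) : P1)) * P1.d (((S.A 1 p / S.A0 p : ℂ) : P1)) =
      P1.d (((p.1 * S.A 0 p * S.A 1 p / S.A0 p : ℂ) : P1)) * P1.n (((S.A 1 p / S.A0 p : ℂ) : P1)) *
        D.x 0 (S.z p)
    rw [P1.n_coe, P1.d_coe, P1.d_coe, P1.n_coe, S.ex 0 p hp]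
    field_simp

theorem hom_sq {r : ℝ × ℝ → ℂ} {b : ℂ} (hb : b = 1 ∨ b = -1) {p : ℝ × ℝ} (hp : p ∈ sqr) :
    (hom r b p).1 ^ 2 * (1 - p.1 : ℝ) =
      (hom r b p).2 ^ 2 * ((p.2 * (1 - p.2) : ℝ) * r p ^ 2) := by
  have hb2 : b ^ 2 = 1 := by
    rcases hb with rfl | rfl <;> norm_num
  have h1 : ((√(p.2 * (1 - p.2)) : ℝ) : ℂ) ^ 2 = ((p.2 * (1 - p.2) : ℝ) : ℂ) := by
    rw [← Complex.ofReal_pow, Real.sq_sqrt (mul_nonneg hp.2.1 (by linarith [hp.2.2]))]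
  have h2 : ((√(1 - p.1) : ℝ) : ℂ) ^ 2 = ((1 - p.1 : ℝ) : ℂ) := by
    rw [← Complex.ofReal_pow, Real.sq_sqrt (by linarith [hp.1.2])]
  show (b * (√(p.2 * (1 - p.2)) : ℝ) * r p) ^ 2 * _ = ((√(1 - p.1) : ℝ) : ℂ) ^ 2 * _
  rw [h2, mul_pow, mul_pow, hb2, h1]
  ring

/-- the coordinate `k_0` over `starSet` -/
def kc (b : ℂ) (p : ℝ × ℝ) : P1 := brs sw (hom S.r b p)

theorem kc_cont {b : ℂ} (hb : b = 1 ∨ b = -1) : ContinuousOn (S.kc b) starSet := by
  have hb0 : b ≠ 0 := by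
    rcases hb with rfl | rfl
    · exact one_ne_zero
    · exact neg_ne_zero.2 one_ne_zero
  exact (brs_cont sw).comp ((hom_cont S.cr b).mono starSet_sub)
    (fun p hp => hom_ne S.nr hb0 hp)

/-- membership over `starSet` -/
theorem mem_star {b : ℂ} (hb : b = 1 ∨ b = -1) {p : ℝ × ℝ} (hp : p ∈ starSet) :
    S.pt p (S.kc b p) ∈ D.X1 := by
  have hb0 : b ≠ 0 := by
    rcases hb with rfl | rfl
    · exact one_ne_zero
    · exact neg_ne_zero.2 one_ne_zero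
  refine ⟨?_, S.rel_v (starSet_sub hp)⟩
  intro i
  rcases eq_or_lt_of_le hp.1.1 with h0 | h0
  · -- limit `σ → 0`
    obtain ⟨σ, t⟩ := p
    simp only at h0
    subst h0
    have hmem : ∀ s ∈ Ioo (0 : ℝ) 1, (s, t) ∈ starSet := by
      intro s hs
      exact ⟨⟨hs.1.le, hs.2.le⟩, hp.2.1, fun h => absurd h hs.2.ne⟩
    have hc : ContinuousWithinAt (fun q : ℝ × ℝ => ((S.pt q (S.kc b q)).1,
        (S.pt q (S.kc b q)).2.1 i, (S.pt q (S.kc b q)).2.2.2 i)) starSet (0, t) := by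
      refine ContinuousWithinAt.prodMk ((S.hz.mono starSet_sub) _ hp)
        (ContinuousWithinAt.prodMk ?_ ?_)
      · exact (continuousWithinAt_pi.1 ((S.tc_cont.mono starSet_sub) _ hp)) i
      · fin_cases i
        · exact S.kc_cont hb _ hp
        · exact ((OnePoint.continuous_coe.comp_continuousOn S.crB).mono starSet_sub) _ hp
    have ht : Tendsto (fun s : ℝ => (s, t)) (𝓝[Ioo 0 1] 0) (𝓝[starSet] (0, t)) := by
      refine tendsto_nhdsWithin_iff.2 ⟨?_, ?_⟩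
      · have : Continuous fun s : ℝ => (s, t) := by fun_prop
        exact (this.tendsto 0).mono_left nhdsWithin_le_nhds
      · filter_upwards [self_mem_nhdsWithin] with s hs
        exact hmem s hs
    have h1 := hc.tendsto.comp ht
    have : (𝓝[Ioo (0 : ℝ) 1] 0).NeBot := left_nhdsWithin_Ioo_neBot one_pos
    refine mem_closure_of_tendsto h1 ?_
    filter_upwards [self_mem_nhdsWithin] with s hs
    exact S.mem_pos (starSet_sub (hmem s hs)) hs.1 (hom_ne S.nr hb0 (hmem s hs))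
      (hom_sq hb (starSet_sub (hmem s hs))) i
  · exact subset_closure (S.mem_pos (starSet_sub hp) h0 (hom_ne S.nr hb0 hp)
      (hom_sq hb (starSet_sub hp)) i)

/-- membership over the two corners -/
theorem mem_corner {t : ℝ} (ht : t = 0 ∨ t = 1) {k : ℂ × ℂ} (hk : k ≠ 0) :
    S.pt (1, t) (brs sw k) ∈ D.X1 := by
  have hp : ((1 : ℝ), t) ∈ sqr := by
    rcases ht with rfl | rfl <;> exact ⟨⟨by norm_num, by norm_num⟩, by norm_num, by norm_num⟩
  refine ⟨fun i => subset_closure (S.mem_pos hp one_pos hk ?_ i), S.rel_v hp⟩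
  simp only
  rcases ht with rfl | rfl <;> simp

/-- `X1` restricted by a condition on `(z, t)` -/
abbrev XW (D : GData F) (W : N × (Fin 2 → P1) → Prop) : Type :=
  {y : D.X1 // W (y.1.1, y.1.2.1)}

/-- the data of the pillow theorem -/
def pil (W : N × (Fin 2 → P1) → Prop) (hW : ∀ p ∈ sqr, W (S.z p, S.tc p)) :
    Pil (N × (Fin 2 → P1) × P1 × P1) P1 where
  br := brs sw
  cont_br := brs_cont sw
  scale := fun c hc p _ => brs_scale sw c hc p
  S := {q | ((q.1.1, q.1.2.1, q.1.2.2.1, ![q.2, q.1.2.2.2]) : Amb N) ∈ D.X1 ∧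
    W (q.1.1, q.1.2.1)}
  g := fun p => (S.z p, S.tc p, S.vc p, ((S.rB p : ℂ) : P1))
  hg := S.hz.prodMk (S.tc_cont.prodMk (S.vc_cont.prodMk
    (OnePoint.continuous_coe.comp_continuousOn S.crB)))
  r := S.r
  hr := S.cr
  hr0 := S.nr
  mem := fun b hb p hp => ⟨S.mem_star hb hp, hW p (starSet_sub hp)⟩
  mem0 := fun k hk => ⟨S.mem_corner (Or.inl rfl) hk, hW _ ⟨⟨by norm_num, by norm_num⟩,
    by norm_num, by norm_num⟩⟩
  mem1 := fun k hk => ⟨S.mem_corner (Or.inr rfl) hk, hW _ ⟨⟨by norm_num, by norm_num⟩,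
    by norm_num, by norm_num⟩⟩

/-- back to `X1` -/
def back (W : N × (Fin 2 → P1) → Prop) (hW : ∀ p ∈ sqr, W (S.z p, S.tc p)) :
    C((S.pil W hW).S, XW D W) where
  toFun q := ⟨⟨(q.1.1.1, q.1.1.2.1, q.1.1.2.2.1, ![q.1.2, q.1.1.2.2.2]), q.2.1⟩, q.2.2⟩
  continuous_toFun := by
    refine Continuous.subtype_mk (Continuous.subtype_mk ?_ _) _
    refine Continuous.prodMk (by fun_prop) (Continuous.prodMk (by fun_prop)
      (Continuous.prodMk (by fun_prop) ?_))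
    refine continuous_pi (fun i => ?_)
    fin_cases i
    · show Continuous fun q : (S.pil W hW).S => q.1.2
      fun_prop
    · show Continuous fun q : (S.pil W hW).S => q.1.1.2.2.2
      fun_prop

theorem star0 (t : I) : ((0 : ℝ), (t : ℝ)) ∈ starSet :=
  ⟨⟨le_refl _, zero_le_one⟩, ⟨t.2.1, t.2.2⟩, fun h => absurd h zero_ne_one⟩

/-- the arc over `σ = 0` in the sheet `b` -/
def arc (W : N × (Fin 2 → P1) → Prop) (hW : ∀ p ∈ sqr, W (S.z p, S.tc p)) (b : ℂ)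
    (hb : b = 1 ∨ b = -1) (t : I) : XW D W :=
  ⟨⟨S.pt (0, (t : ℝ)) (S.kc b (0, (t : ℝ))), S.mem_star hb (star0 t)⟩,
    hW _ (starSet_sub (star0 t))⟩

/-- **the two arcs over `σ = 0` are homotopic rel end points** in `X1` (restricted by `W`) -/
theorem arcs (W : N × (Fin 2 → P1) → Prop) (hW : ∀ p ∈ sqr, W (S.z p, S.tc p))
    {a b a' b' : XW D W} (p : Path a b) (p' : Path a' b')
    (hp : ∀ t, p t = S.arc W hW 1 (Or.inl rfl) t)
    (hp' : ∀ t, p' t = S.arc W hW (-1) (Or.inr rfl) t) : HR p p' := by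
  have h := HR_map (S.pil W hW).pillowP (S.back W hW)
  refine HR.trans (HR_of_eq (fun t => ?_)) (h.trans (HR_of_eq (fun t => ?_)))
  · rw [hp]
    apply Subtype.ext
    apply Subtype.ext
    have e := sideA_apply t
    show S.pt (0, (t : ℝ)) (S.kc 1 (0, (t : ℝ))) =
      (S.z (sideA t).1, S.tc (sideA t).1, S.vc (sideA t).1,
        ![brs sw (hom S.r 1 (sideA t).1), ((S.rB (sideA t).1 : ℂ) : P1)])
    rw [e]
    rfl
  · rw [hp']
    apply Subtype.ext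
    apply Subtype.ext
    have e := sideA_apply t
    show (S.z (sideA t).1, S.tc (sideA t).1, S.vc (sideA t).1,
        ![brs sw (hom S.r (-1) (sideA t).1), ((S.rB (sideA t).1 : ℂ) : P1)]) =
      S.pt (0, (t : ℝ)) (S.kc (-1) (0, (t : ℝ)))
    rw [e]
    rfl

theorem arc_cont (W : N × (Fin 2 → P1) → Prop) (hW : ∀ p ∈ sqr, W (S.z p, S.tc p)) (b : ℂ)
    (hb : b = 1 ∨ b = -1) : Continuous (S.arc W hW b hb) := by
  have h := ((S.pil W hW).Psi b hb).continuous.comp sideA.continuous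
  have h2 := (S.back W hW).continuous.comp h
  refine h2.congr (fun t => ?_)
  apply Subtype.ext
  apply Subtype.ext
  have e := sideA_apply t
  show (S.z (sideA t).1, S.tc (sideA t).1, S.vc (sideA t).1,
      ![brs sw (hom S.r b (sideA t).1), ((S.rB (sideA t).1 : ℂ) : P1)]) =
    S.pt (0, (t : ℝ)) (S.kc b (0, (t : ℝ)))
  rw [e]
  rfl

end SqD

end

end Crest.Agent.R272.UB_20
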