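import Crest.Agent.R272.As158_338
import Crest.Agent.R272.UB4_20
import Crest.Agent.R272.Act1_302

/-!
# R272, leaf S15-ASM (helper338), part 9: the dying arcs, in the language of `s15_q`

* `diesQ_of_map` : an arc dies if the two lifts are images of the two sides of a square `SqD` (20);
* `diesQ_of_sq` : the same for the surgery `S : Sur (Orb G A.X) A1 B1` (342), `A : GAct D G` (302) and
  `q = iota ∘ pr ∘ j` off `Γ`, `j` the zero section.
-/

set_option autoImplicit false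
set_option linter.unusedSectionVars false

open scoped Topology
open Set Filter
open Crest.Agent.R275.Geo Crest.Agent.R273.Fam_835
open Crest.Agent.R272.Per_939
open Crest.Agent.R272.CovOrd_463 Crest.Agent.R272.LbExt_259 Crest.Agent.R272.TLoop_463
open Crest.Agent.R272.UB_20 Crest.Agent.R272.MQ_783 Crest.Agent.R272.Refl_246
open Crest.Agent.R272.AJ_956 Crest.Agent.R272.Sur_342
open Crest.Agent.R272.Ax_834 Crest.Agent.R272.Gr_559 Crest.Agent.R272.Act_302
open Crest.Agent.R272.P1A_54 Crest.Agent.R272.Quot_783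

namespace Crest.Agent.R272.As15_338

noncomputable section

local notation "I" => unitInterval

variable {N : Type} [TopologicalSpace N] {F : Fam 3 N} {D : GData F} {sw : Bool}
variable {C : Type} [TopologicalSpace C] {𝒞 : Cur C}

/-- the two lifts are images of the two sides of a square -/
theorem diesQ_of_map (Sq : SqD D sw) (W : N × (Fin 2 → P1) → Prop)
    (hW : ∀ p ∈ sqr, W (Sq.z p, Sq.tc p)) {X : Type} [TopologicalSpace X]
    {m : SqD.XW D W → X} (hm : Continuous m) {q : C × C → X} {γ : C(I, C)} (c' : C)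
    (h1 : ∀ t, m (Sq.arc W hW 1 (Or.inl rfl) t) = q (γ t, c'))
    (h2 : ∀ t, m (Sq.arc W hW (-1) (Or.inr rfl) t) = q (𝒞.iv (γ t), c')) : DiesQ 𝒞 q γ := by
  let p : Path (Sq.arc W hW 1 (Or.inl rfl) 0) (Sq.arc W hW 1 (Or.inl rfl) 1) :=
    ⟨⟨Sq.arc W hW 1 (Or.inl rfl), Sq.arc_cont W hW 1 (Or.inl rfl)⟩, rfl, rfl⟩
  let p' : Path (Sq.arc W hW (-1) (Or.inr rfl) 0) (Sq.arc W hW (-1) (Or.inr rfl) 1) :=
    ⟨⟨Sq.arc W hW (-1) (Or.inr rfl), Sq.arc_cont W hW (-1) (Or.inr rfl)⟩, rfl, rfl⟩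
  have h : HR p p' := Sq.arcs W hW p p' (fun _ => rfl) (fun _ => rfl)
  exact diesQ_of c' (p.map hm) (p'.map hm) h1 h2 (HR_map h ⟨m, hm⟩)

/-- **the dying arcs** -/
theorem diesQ_of_sq {G : Type} [Group G] [MulAction G N] (A : GAct D G)
    {A1 B1 : Type} [TopologicalSpace A1] [TopologicalSpace B1] [T2Space (Orb G A.X)]
    (S : Sur (Orb G A.X) A1 B1) {j : C × C → A.X} {q : C × C → S.XP}
    (hq : ∀ x : C × C, x ∉ 𝒞.Gam → q x = S.iota (pr G (j x)))
    (Sq : SqD D sw) (W : N × (Fin 2 → P1) → Prop) (hW : ∀ p ∈ sqr, W (Sq.z p, Sq.tc p))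
    (hWK : ∀ y : A.X, W ((A.val y).1, (A.val y).2.1) → pr G y ∉ S.K)
    {γ : C(I, C)} (c' : C) (hc : ∀ t, γ t ≠ c' ∧ γ t ≠ 𝒞.iv c')
    (h1 : ∀ t, A.val (j (γ t, c')) = (Sq.arc W hW 1 (Or.inl rfl) t).1.1)
    (h2 : ∀ t, A.val (j (𝒞.iv (γ t), c')) = (Sq.arc W hW (-1) (Or.inr rfl) t).1.1) :
    DiesQ 𝒞 q γ := by
  let tX : D.X1 → A.X := fun y => y
  let m : SqD.XW D W → S.XP := fun y => S.iota (pr G (tX y.1))
  have hm : Continuous m := by
    have h3 : Continuous fun y : SqD.XW D W => tX y.1 := continuous_subtype_val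
    have h4 : Continuous fun y : SqD.XW D W => pr G (tX y.1) :=
      continuous_quotient_mk'.comp h3
    exact S.iota.continuousOn.comp_continuous h4 fun y => S.mem_iota_source.2 (hWK y.1 y.2)
  refine diesQ_of_map Sq W hW hm c' (fun t => ?_) (fun t => ?_)
  · have hG : ((γ t, c') : C × C) ∉ 𝒞.Gam := by
      intro h
      have h5 : c' = 𝒞.iv (γ t) := h
      exact (hc t).2 (by rw [h5, 𝒞.iv_iv])
    rw [hq _ hG]
    show S.iota (pr G (tX (Sq.arc W hW 1 (Or.inl rfl) t).1)) = _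
    have h6 : tX (Sq.arc W hW 1 (Or.inl rfl) t).1 = j (γ t, c') := Subtype.ext (h1 t).symm
    rw [h6]
  · have hG : ((𝒞.iv (γ t), c') : C × C) ∉ 𝒞.Gam := by
      intro h
      have h5 : c' = 𝒞.iv (𝒞.iv (γ t)) := h
      exact (hc t).1 (by rw [h5, 𝒞.iv_iv])
    rw [hq _ hG]
    show S.iota (pr G (tX (Sq.arc W hW (-1) (Or.inr rfl) t).1)) = _
    have h6 : tX (Sq.arc W hW (-1) (Or.inr rfl) t).1 = j (𝒞.iv (γ t), c') :=
      Subtype.ext (h2 t).symm
    rw [h6]

end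

end Crest.Agent.R272.As15_338
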