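import Crest.Agent.R272.Blup2_102

/-!
# R272, BLUP (helper102), topology of the blow-up: properness, compactness, connectedness,
the fibre over a centre
-/

set_option autoImplicit false
set_option linter.unusedSectionVars false

open Set Filter Topology Complex
open scoped ContDiff Matrix ComplexConjugate Manifold

namespace Crest.Agent.R272.Blup1_102

open Crest.Agent.R275.Geo Crest.Agent.R275.Core144

noncomputable section

variable {n : ℕ} {M : Type} [TopologicalSpace M]

namespace Ctr

variable {A : Atl n M} (C : Ctr A)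

theorem norm_snd_le (y : C.X) : ‖y.1.2‖ ≤ 1 := by
  rcases y.2 with ⟨s, -, w, -, h2⟩ | ⟨-, h2⟩
  · rw [h2, norm_smul, Complex.norm_real, Real.norm_of_nonneg (C.r_pos s).le]
    have h1 := norm_prj_le w
    have h3 := C.r_le s
    have h4 := (C.r_pos s).le
    nlinarith [norm_nonneg (prj w)]
  · rw [h2]
    exact C.norm_q_le

/-- `pi` is proper -/
theorem isProperMap_pi [T2Space M] : IsProperMap C.pi := by
  let K : Set (MM n) := Metric.closedBall 0 1
  have : CompactSpace K := isCompact_iff_compactSpace.1 (isCompact_closedBall _ _)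
  let f : C.X → M × K := fun y => (y.1.1, ⟨y.1.2, by
    rw [Metric.mem_closedBall, dist_zero_right]
    exact C.norm_snd_le y⟩)
  have hg : IsClosedEmbedding (Prod.map id Subtype.val : M × K → M × MM n) :=
    IsClosedEmbedding.id.prodMap (Metric.isClosed_closedBall.isClosedEmbedding_subtypeVal)
  have hf : IsClosedEmbedding f := by
    rw [← hg.of_comp_iff]
    exact C.isClosed_XS.isClosedEmbedding_subtypeVal
  have h1 : IsProperMap (Prod.fst : M × K → M) := isProperMap_fst_of_compactSpace
  exact h1.comp hf.isProperMap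

theorem isClosedMap_pi [T2Space M] : IsClosedMap C.pi := C.isProperMap_pi.isClosedMap

instance compactSpace_X [T2Space M] [CompactSpace M] : CompactSpace C.X :=
  ⟨by simpa using C.isProperMap_pi.isCompact_preimage isCompact_univ⟩

/-- a point of the exceptional divisor -/
def ep (s : C.S) (P : Pr n) : C.X := ⟨(C.p s, (C.r s : ℂ) • P.1), by
  obtain ⟨w, hw, h⟩ := P.2
  exact Or.inl ⟨s, rfl, w, hw, by rw [← h]⟩⟩

@[simp] theorem pi_ep (s : C.S) (P : Pr n) : C.pi (C.ep s P) = C.p s := rfl

theorem continuous_ep (s : C.S) : Continuous (C.ep s) := by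
  refine Continuous.subtype_mk ?_ _
  have h : Continuous fun P : Pr n => (C.r s : ℂ) • P.1 :=
    (continuous_const_smul (C.r s : ℂ)).comp continuous_subtype_val
  exact continuous_const.prodMk h

theorem ep_inj (s : C.S) : Function.Injective (C.ep s) := by
  intro P P' h
  have h1 := congrArg (fun y : C.X => y.1.2) h
  simp only [ep] at h1
  have h0 : (C.r s : ℂ) ≠ 0 := by exact_mod_cast (C.r_pos s).ne'
  exact Subtype.ext (smul_right_injective _ h0 h1)

theorem exists_ep {s : C.S} {y : C.X} (hy : C.pi y = C.p s) : ∃ P, y = C.ep s P := by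
  obtain ⟨w, c, hw, -, h2⟩ := C.exists_coord (y := y) (by rw [hy]; exact C.p_mem s)
  refine ⟨⟨prj w, w, hw, rfl⟩, Subtype.ext (Prod.ext hy ?_)⟩
  rw [h2, hy]
  simp [ep, amp, z_p]

theorem fib_eq (s : C.S) : C.pi ⁻¹' {C.p s} = range (C.ep s) := by
  ext y
  constructor
  · intro hy
    obtain ⟨P, hP⟩ := C.exists_ep hy
    exact ⟨P, hP.symm⟩
  · rintro ⟨P, rfl⟩
    rfl

variable [NeZero n]

instance : Nonempty (Pr n) := ⟨⟨_, _, single_ne 0, rfl⟩⟩

instance connectedSpace_Pr : ConnectedSpace (Pr n) := isConnected_iff_connectedSpace.1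
  ⟨⟨_, _, single_ne 0, rfl⟩, isPreconnected_Pr⟩

theorem isQuotientMap_pi [T2Space M] : IsQuotientMap C.pi :=
  C.isClosedMap_pi.isQuotientMap C.continuous_pi C.pi_surjective

theorem isConnected_fib [T2Space M] (x : M) : IsConnected (C.pi ⁻¹' {x}) := by
  by_cases hx : x ∈ C.Z
  · obtain ⟨s, rfl⟩ := hx
    rw [C.fib_eq]
    exact isConnected_range (C.continuous_ep s)
  · have h : C.pi ⁻¹' {x} = {C.lift x} := by
      ext y
      constructor
      · intro hy
        have hy' : C.pi y = x := hy
        have : C.pi y ∉ C.Z := by rw [hy']; exact hx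
        rw [mem_singleton_iff, ← C.lift_pi this, hy']
      · rintro rfl
        exact C.pi_lift x
    rw [h]
    exact isConnected_singleton

instance connectedSpace_X [T2Space M] [ConnectedSpace M] : ConnectedSpace C.X := by
  have h := C.isQuotientMap_pi.isCoinducing.isConnected_preimage_of_isClosed C.isConnected_fib
    isClosed_univ isConnected_univ
  rw [preimage_univ] at h
  exact connectedSpace_iff_univ.2 h

end Ctr

end

end Crest.Agent.R272.Blup1_102
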