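import Crest.Agent.R272.PosGlue1_232

/-!
# R272, model division (helper232), POS-GLUE, file 2: from positivity along `p` to positivity

`P : LB A`, `h : HM P` positive on the kernel of `dp` at the points of a compact set `K`,
`H : LB B` with a positive metric `hH`, `T : PB p H' H`.

* `lev_chg`     : the curvature of a metric in two charts
* `PosAt h x`   : positive curvature at the point `x` (chart independent: `posAt_iff`)
* `pos_iff`     : `h.Pos ↔ ∀ x, PosAt h x`
* `pos_of_ker_compact` : `∃ m₀, ∀ m ≥ m₀, ∀ x ∈ K, PosAt (h * (p^*hH)^m) x`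
* `pos_of_ker`  : `M` compact: `∃ m₀, ∀ m ≥ m₀, (h * (p^*hH)^m).Pos`
* `glue_pos`    : local metrics over the base ⟹ `P * (p^*H)^m` has a positive metric, `m ≥ m₀`.
-/

set_option autoImplicit false
set_option linter.unusedSectionVars false

open Set Filter Topology Complex
open scoped ContDiff Matrix ComplexConjugate Manifold

namespace Crest.Agent.R272.PosGlue_232

open Crest.Agent.R275.Geo Crest.Agent.R275.Core144 Crest.Agent.R273.Defs_333
open Crest.Agent.R273.Map_835 Crest.Agent.R273 Crest.Agent.R275.QN2b734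

noncomputable section

variable {n m : ℕ} {M N : Type} [TopologicalSpace M] [TopologicalSpace N]
  {A : Atl n M} {B : Atl m N} {p : M → N}

/-! ### change of chart -/

theorem pull_refl_w {L : LB A} (h : HM L) {i : A.ι} {x : M} (hx : x ∈ (A.e i).source) :
    ((PB_835.PB.refl L).pullHM (holMap_id A) h).w i x = h.w i x := by
  rw [PB_835.PB.pullHM_w (PB_835.PB.refl L) (holMap_id A) h hx (j := i) hx]
  simp [PB_835.PB.refl, L.self]

/-- the curvature in two charts -/
theorem lev_chg {L : LB A} (h : HM L) {i j : A.ι} {z : Cn n} (hz : z ∈ A.ov i j) (v : Cn n) :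
    lev (h.wt i) z v = lev (h.wt j) (A.e j ((A.e i).symm z))
      (fderiv ℂ (fun y => A.e j ((A.e i).symm y)) z v) := by
  have h1 := PB_835.PB.pullHM_lev (PB_835.PB.refl L) (holMap_id A) h (i := i) (j := j)
    (z := z) ⟨hz.1, hz.2⟩ v
  have h2 : ((PB_835.PB.refl L).pullHM (holMap_id A) h).wt i =ᶠ[𝓝 z] h.wt i := by
    filter_upwards [(A.e i).open_target.mem_nhds hz.1] with y hy
    simp only [HM.wt]
    rw [pull_refl_w h ((A.e i).map_target hy)]
  rw [PB_835.lev_congr' h2] at h1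
  exact h1

/-- positive curvature at a point -/
def PosAt {L : LB A} (h : HM L) (x : M) : Prop :=
  ∀ i, x ∈ (A.e i).source → ∀ v : Cn n, v ≠ 0 → 0 < lev (h.wt i) (A.e i x) v

/-- the derivative of a change of charts is injective -/
theorem chg_inj {i j : A.ι} {z : Cn n} (hz : z ∈ A.ov i j) {v : Cn n}
    (h : fderiv ℂ (fun y => A.e j ((A.e i).symm y)) z v = 0) : v = 0 := by
  have hx : (A.e i).symm z ∈ (A.e i).source := (A.e i).map_target hz.1
  have hz' : A.e j ((A.e i).symm z) ∈ A.ov j i :=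
    ⟨(A.e j).map_source hz.2, by rwa [(A.e j).left_inv hz.2]⟩
  have ho : IsOpen (A.ov i j) := isOpen_ov i j
  have ho' : IsOpen (A.ov j i) := isOpen_ov j i
  have d1 : HasFDerivAt (fun y => A.e j ((A.e i).symm y)) _ z :=
    ((A.holo i j).differentiableAt (ho.mem_nhds hz)).hasFDerivAt
  have d2 : HasFDerivAt (fun y => A.e i ((A.e j).symm y)) _ (A.e j ((A.e i).symm z)) :=
    ((A.holo j i).differentiableAt (ho'.mem_nhds hz')).hasFDerivAt
  have d3 := d2.comp z d1
  have e : (fun y => (fun y => A.e i ((A.e j).symm y)) (A.e j ((A.e i).symm y))) =ᶠ[𝓝 z] id := by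
    filter_upwards [ho.mem_nhds hz] with y hy
    simp only [id]
    rw [(A.e j).left_inv hy.2, (A.e i).right_inv hy.1]
  have d4 : HasFDerivAt (id : Cn n → Cn n) (ContinuousLinearMap.id ℂ (Cn n)) z := hasFDerivAt_id z
  have d5 := (d3.congr_of_eventuallyEq e.symm).unique d4
  have := congrArg (fun T : Cn n →L[ℂ] Cn n => T v) d5
  simp only [ContinuousLinearMap.coe_comp, Function.comp_apply] at this
  rw [h, map_zero] at this
  exact this.symm

theorem posAt_of {L : LB A} {h : HM L} {x : M} {i : A.ι} (hx : x ∈ (A.e i).source)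
    (hi : ∀ v : Cn n, v ≠ 0 → 0 < lev (h.wt i) (A.e i x) v) : PosAt h x := by
  intro j hj v hv
  have hz : A.e j x ∈ A.ov j i := ⟨(A.e j).map_source hj, by rwa [(A.e j).left_inv hj]⟩
  rw [lev_chg h hz v, (A.e j).left_inv hj]
  refine hi _ fun h0 => hv (chg_inj hz h0)

theorem pos_iff {L : LB A} {h : HM L} : h.Pos ↔ ∀ x, PosAt h x := by
  constructor
  · intro H x i hx v hv
    exact H i _ ((A.e i).map_source hx) v hv
  · intro H i z hz v hv
    have := H ((A.e i).symm z) i ((A.e i).map_target hz) v hv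
    rwa [(A.e i).right_inv hz] at this

/-! ### continuity of the Levi form -/

theorem lev_continuousOn {u : Cn n → ℝ} {U : Set (Cn n)} (hU : IsOpen U)
    (hu : ContDiffOn ℝ ∞ u U) :
    ContinuousOn (fun q : Cn n × Cn n => lev u q.1 q.2) (U ×ˢ univ) := by
  have h1 : ContDiffOn ℝ 1 (fderiv ℝ u) U :=
    hu.fderiv_of_isOpen hU (by norm_cast)
  have h2 : ContinuousOn (fderiv ℝ (fderiv ℝ u)) U :=
    h1.continuousOn_fderiv_of_isOpen hU le_rfl
  have h3 : ContinuousOn (fun q : Cn n × Cn n => fderiv ℝ (fderiv ℝ u) q.1) (U ×ˢ univ) :=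
    h2.comp continuous_fst.continuousOn fun q hq => hq.1
  have h4 : ContinuousOn (fun q : Cn n × Cn n => 
      4 * ((fderiv ℝ (fderiv ℝ u) q.1 q.2 q.2 +
        fderiv ℝ (fderiv ℝ u) q.1 (I • q.2) (I • q.2)) / 4)) (U ×ˢ univ) := by
    have h5 : ContinuousOn (fun q : Cn n × Cn n => q.2) (U ×ˢ univ) := continuous_snd.continuousOn
    have h6 : ContinuousOn (fun q : Cn n × Cn n => I • q.2) (U ×ˢ univ) :=
      (continuous_snd.const_smul I).continuousOn
    exact continuousOn_const.mul ((((h3.clm_apply h5).clm_apply h5).add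
      ((h3.clm_apply h6).clm_apply h6)).div_const 4)
  refine h4.congr fun q _ => ?_
  simp only [PB_835.lev_bridge, Levi_145.lev]

/-! ### the compactness lemma -/

/-- `a > 0` on the zero set of `b ≥ 0` on a compact set ⟹ `a + k b > 0` for large `k` -/
theorem exists_large {X : Type*} [TopologicalSpace X] {K : Set X} (hK : IsCompact K)
    {a b : X → ℝ} (ha : ContinuousOn a K) (hb : ContinuousOn b K) (hb0 : ∀ x ∈ K, 0 ≤ b x)
    (hab : ∀ x ∈ K, b x = 0 → 0 < a x) :
    ∃ k₀ : ℕ, ∀ k : ℕ, k₀ ≤ k → ∀ x ∈ K, 0 < a x + k * b x := by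
  have h1 : ∀ x ∈ K, ∃ k : ℕ, ∀ᶠ y in 𝓝[K] x, 0 < a y + k * b y := by
    intro x hx
    have h2 : ∃ k : ℕ, 0 < a x + k * b x := by
      rcases (hb0 x hx).eq_or_lt with h0 | h0
      · exact ⟨0, by simpa using hab x hx h0.symm⟩
      · obtain ⟨k, hk⟩ := exists_nat_gt (-(a x) / b x)
        refine ⟨k, ?_⟩
        rw [div_lt_iff₀ h0] at hk
        linarith
    obtain ⟨k, hk⟩ := h2
    exact ⟨k, ((ha x hx).add ((hb x hx).const_mul (k : ℝ))).eventually (lt_mem_nhds hk)⟩
  choose! k hk using h1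
  obtain ⟨t, ht, htK⟩ := hK.elim_nhdsWithin_subcover (fun x => {y | 0 < a y + k x * b y})
    (fun x hx => hk x hx)
  refine ⟨t.sup k, fun l hl x hx => ?_⟩
  obtain ⟨y, hy, hxy⟩ := mem_iUnion₂.1 (htK hx)
  have h3 : (k y : ℝ) ≤ l := by exact_mod_cast (Finset.le_sup hy).trans hl
  have h4 := mul_le_mul_of_nonneg_right h3 (hb0 x hx)
  have h5 : 0 < a x + k y * b x := hxy
  linarith

/-- homogeneity of the Levi form -/
theorem lev_real_smul {u : Cn n → ℝ} {z : Cn n} (c : ℝ) (v : Cn n) :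
    lev u z ((c : ℂ) • v) = c ^ 2 * lev u z v := by
  simp only [PB_835.lev_bridge, Levi_145.lev]
  have h1 : ((c : ℂ) • v : Cn n) = c • v := by
    ext a
    simp
  have h2 : (I • ((c : ℂ) • v) : Cn n) = c • (I • v) := by
    rw [h1, smul_comm]
  rw [h2, h1]
  simp only [map_smul, _root_.smul_apply, smul_eq_mul]
  ring

section Main

variable {L H' : LB A} {H : LB B}

theorem lev_mul_pow {L₁ L₂ : LB A} (h : HM L₁) (g : HM L₂) (k : ℕ) (i : A.ι) {z : Cn n}
    (hz : z ∈ (A.e i).target) (v : Cn n) :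
    lev ((HM_333.mul h (HM_333.pow g k)).wt i) z v =
      lev (h.wt i) z v + k * lev (g.wt i) z v := by
  have e : (HM_333.mul h (HM_333.pow g k)).wt i =ᶠ[𝓝 z] fun y => h.wt i y + k * g.wt i y := by
    filter_upwards [(A.e i).open_target.mem_nhds hz] with y hy
    rw [HM_333.wt_mul h _ i hy, HM_333.wt_pow]
  have c1 : ContDiffAt ℝ 2 (h.wt i) z := ((HM_333.wt_smooth h i).contDiffAt
    ((A.e i).open_target.mem_nhds hz)).of_le (by norm_cast)
  have c2 : ContDiffAt ℝ 2 (g.wt i) z := ((HM_333.wt_smooth g i).contDiffAt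
    ((A.e i).open_target.mem_nhds hz)).of_le (by norm_cast)
  rw [PB_835.lev_congr' e, PB_835.lev_bridge, Levi_145.lev_add c1 (contDiffAt_const.mul c2),
    Levi_145.lev_const_mul (k : ℝ) c2, PB_835.lev_bridge, PB_835.lev_bridge]
  ring

/-- **positivity along `p` + a positive bundle on the base**, at the points of a compact set -/
theorem pos_of_ker_compact [T2Space M] (hp : HolMap A B p) (T : PB_835.PB p H' H) (h : HM L)
    {hH : HM H} (hpos : hH.Pos) {K : Set M} (hK : IsCompact K) (hk : PosKOn B p h K) :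
    ∃ m₀ : ℕ, ∀ k : ℕ, m₀ ≤ k → ∀ x ∈ K,
      PosAt (HM_333.mul h (HM_333.pow (T.pullHM hp hH) k)) x := by
  classical
  have hsemi : hH.Semipos := by
    intro i z hz v
    rcases eq_or_ne v 0 with rfl | hv
    · rw [PB_835.lev_bridge, Levi_145.lev_zero, mul_zero]
    · exact (hpos i z hz v hv).le
  -- local statement
  have hloc : ∀ x ∈ K, ∃ m₀ : ℕ, ∀ᶠ y in 𝓝[K] x, ∀ k : ℕ, m₀ ≤ k →
      PosAt (HM_333.mul h (HM_333.pow (T.pullHM hp hH) k)) y := by
    intro x hx
    obtain ⟨i, hi⟩ := A.cover x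
    have hz0 : A.e i x ∈ (A.e i).target := (A.e i).map_source hi
    obtain ⟨r, hr, hball⟩ := Metric.nhds_basis_closedBall.mem_iff.1
      ((A.e i).open_target.mem_nhds hz0)
    set C : Set (Cn n) := Metric.closedBall (A.e i x) r ∩ (A.e i).symm ⁻¹' K with hC
    have hCc : IsCompact C := by
      have h1 : ContinuousOn (A.e i).symm (Metric.closedBall (A.e i x) r) :=
        (A.e i).continuousOn_symm.mono hball
      exact (isCompact_closedBall (A.e i x) r).of_isClosed_subset
        (h1.preimage_isClosed_of_isClosed Metric.isClosed_closedBall hK.isClosed) inter_subset_left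
    have hCt : C ⊆ (A.e i).target := fun z hz => hball hz.1
    set S : Set (Cn n) := Metric.sphere 0 1 with hS
    have hSc : IsCompact S := isCompact_sphere 0 1
    have ho := (A.e i).open_target
    have ca := lev_continuousOn ho (HM_333.wt_smooth h i)
    have cb := lev_continuousOn ho (HM_333.wt_smooth (T.pullHM hp hH) i)
    have hsub : C ×ˢ S ⊆ (A.e i).target ×ˢ (univ : Set (Cn n)) :=
      fun q hq => ⟨hCt hq.1, mem_univ _⟩
    obtain ⟨m₀, hm₀⟩ := exists_large (hCc.prod hSc) (ca.mono hsub) (cb.mono hsub)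
      (fun q hq => T.pullHM_semipos hp hsemi i q.1 (hCt hq.1) q.2)
      (by
        intro q hq h0
        have hv : q.2 ≠ 0 := by
          intro h1
          have h2 : ‖q.2‖ = 1 := by simpa [hS] using hq.2
          rw [h1, norm_zero] at h2
          exact zero_ne_one h2
        refine hk i q.1 (hCt hq.1) hq.1.2 q.2 hv fun j hj => ?_
        by_contra hne
        have h3 := T.pullHM_lev hp hH hj q.2
        rw [h0] at h3
        have h4 := hpos j _ ((B.e j).map_source hj.2) _ hne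
        simp only [rd] at h3
        exact absurd h3 h4.ne)
    refine ⟨m₀, ?_⟩
    have hev : ∀ᶠ y in 𝓝[K] x, y ∈ (A.e i).source ∧ A.e i y ∈ Metric.closedBall (A.e i x) r := by
      refine nhdsWithin_le_nhds ?_
      filter_upwards [(A.e i).open_source.mem_nhds hi,
        (A.e i).continuousAt hi (Metric.closedBall_mem_nhds _ hr)] with y h1 h2 using ⟨h1, h2⟩
    filter_upwards [hev, self_mem_nhdsWithin] with y hy hyK
    intro k hk'
    refine posAt_of hy.1 fun v hv => ?_
    have hyt : A.e i y ∈ (A.e i).target := (A.e i).map_source hy.1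
    rw [lev_mul_pow h _ k i hyt v]
    have hvn : (0 : ℝ) < ‖v‖ := norm_pos_iff.2 hv
    have hmem : ((A.e i y, ((‖v‖⁻¹ : ℝ) : ℂ) • v) : Cn n × Cn n) ∈ C ×ˢ S := by
      refine ⟨⟨hy.2, ?_⟩, ?_⟩
      · show (A.e i).symm (A.e i y) ∈ K
        rw [(A.e i).left_inv hy.1]
        exact hyK
      · show _ ∈ Metric.sphere (0 : Cn n) 1
        rw [mem_sphere_zero_iff_norm, norm_smul, Complex.norm_real, norm_inv, norm_norm,
          inv_mul_cancel₀ hvn.ne']
    have h5 := hm₀ k hk' _ hmem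
    simp only [lev_real_smul] at h5
    have h6 : (0 : ℝ) < (‖v‖⁻¹) ^ 2 := by positivity
    have h7 : ‖v‖⁻¹ ^ 2 * lev (h.wt i) (A.e i y) v +
        k * (‖v‖⁻¹ ^ 2 * lev ((T.pullHM hp hH).wt i) (A.e i y) v) =
        ‖v‖⁻¹ ^ 2 * (lev (h.wt i) (A.e i y) v +
          k * lev ((T.pullHM hp hH).wt i) (A.e i y) v) := by ring
    rw [h7] at h5
    exact (mul_pos_iff_of_pos_left h6).1 h5
  choose! k₀ hk₀ using hloc
  obtain ⟨t, ht, htK⟩ := hK.elim_nhdsWithin_subcover
    (fun x => {y | ∀ k : ℕ, k₀ x ≤ k → PosAt (HM_333.mul h (HM_333.pow (T.pullHM hp hH) k)) y})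
    (fun x hx => hk₀ x hx)
  refine ⟨t.sup k₀, fun l hl x hx => ?_⟩
  obtain ⟨y, hy, hxy⟩ := mem_iUnion₂.1 (htK hx)
  exact hxy l ((Finset.le_sup hy).trans hl)

/-- **positivity along `p` + a positive bundle on the base**, `M` compact -/
theorem pos_of_ker [T2Space M] [CompactSpace M] (hp : HolMap A B p) (T : PB_835.PB p H' H)
    (h : HM L) {hH : HM H} (hpos : hH.Pos) (hk : PosKOn B p h univ) :
    ∃ m₀ : ℕ, ∀ k : ℕ, m₀ ≤ k → (HM_333.mul h (HM_333.pow (T.pullHM hp hH) k)).Pos := by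
  obtain ⟨m₀, hm⟩ := pos_of_ker_compact hp T h hpos isCompact_univ hk
  exact ⟨m₀, fun k hk => pos_iff.2 fun x => hm k hk x (mem_univ x)⟩

/-- **POS-GLUE**: local metrics over the base, positive along `p`, and a positive bundle on the
base ⟹ all `P * (p^* H)^k`, `k ≥ m₀`, are positive -/
theorem glue_pos [T2Space M] [CompactSpace M] [T2Space N] [CompactSpace N] (hp : HolMap A B p)
    (T : PB_835.PB p H' H) {hH : HM H} (hpos : hH.Pos) {ι : Type*} (V : ι → Set N)
    (hVo : ∀ a, IsOpen (V a)) (hVc : ∀ y, ∃ a, y ∈ V a)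
    (h : ∀ a, HMo L (p ⁻¹' V a)) (hk : ∀ a, (h a).PosK B p) :
    ∃ m₀ : ℕ, ∀ k : ℕ, m₀ ≤ k → ∃ g : HM (L * H' ^ k), g.Pos := by
  obtain ⟨h₀, hh₀⟩ := glue hp V hVo hVc h hk
  obtain ⟨m₀, hm⟩ := pos_of_ker hp T h₀ hpos hh₀
  exact ⟨m₀, fun k hk => ⟨_, hm k hk⟩⟩

end Main

end

end Crest.Agent.R272.PosGlue_232
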