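import Crest.Agent.R272.Blup6_102
import Crest.Agent.R272.BlupTop_102
import Crest.Agent.R272.PosGlue2_232

/-!
# R272, BLUP (helper102), part 7: existence of centres; positivity

* `exists_radii`, `ctr`: a finite family of distinct points, arbitrary charts, small radii;
* `vk_inl`, `vk_inr`: the kernel of `dπ`; `HMo`s of `O(-E)`;
* `blup_pos`: `O(-E) * (π^* H)^m` is positive for `m ≥ m₀` (`M` compact).
-/

set_option autoImplicit false
set_option linter.unusedSectionVars false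

open Set Filter Topology Complex Asymptotics
open scoped ContDiff Matrix ComplexConjugate Manifold

namespace Crest.Agent.R272.Blup1_102

open Crest.Agent.R275.Geo Crest.Agent.R275.Core144 Crest.Agent.R273.Defs_333
open Crest.Agent.R273.Map_835 Crest.Agent.R273.PB_835
open Crest.Agent.R272.PosGlue_232
open Crest.Agent.R273

noncomputable section

variable {n : ℕ} {M : Type} [TopologicalSpace M] [T2Space M] {A : Atl n M}

/-! ### existence of centres -/

section Radii

variable {S : Type} [Finite S] (i : S → A.ι) (p : S → M) (hinj : Function.Injective p)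
  (hp : ∀ s, p s ∈ (A.e (i s)).source) (N : S → Set M) (hN : ∀ s, N s ∈ 𝓝 (p s))
  {ρ : ℝ} (hρ : 0 < ρ)

include hinj hp hN hρ

theorem exists_radii : ∃ r : S → ℝ, (∀ s, 0 < r s) ∧ (∀ s, r s ≤ 1) ∧ (∀ s, r s ≤ ρ) ∧
    (∀ s, Metric.closedBall (A.e (i s) (p s)) (r s) ⊆ (A.e (i s)).target) ∧
    (∀ s t, s ≠ t → Disjoint ((A.e (i s)).symm '' Metric.closedBall (A.e (i s) (p s)) (r s))
      ((A.e (i t)).symm '' Metric.closedBall (A.e (i t) (p t)) (r t))) ∧
    (∀ s, (A.e (i s)).symm '' Metric.closedBall (A.e (i s) (p s)) (r s) ⊆ N s) := by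
  obtain ⟨U, hU, hdisj⟩ := (Set.finite_range p).t2_separation
  have h1 : ∀ s, ∃ r : ℝ, 0 < r ∧ r ≤ 1 ∧ r ≤ ρ ∧
      Metric.closedBall (A.e (i s) (p s)) r ⊆
        (A.e (i s)).target ∩ (A.e (i s)).symm ⁻¹' (U (p s) ∩ N s) := by
    intro s
    have h2 : (A.e (i s)).target ∩ (A.e (i s)).symm ⁻¹' (U (p s) ∩ N s) ∈ 𝓝 (A.e (i s) (p s)) := by
      refine inter_mem ((A.e (i s)).open_target.mem_nhds ((A.e (i s)).map_source (hp s))) ?_
      have h3 := (A.e (i s)).continuousAt_symm ((A.e (i s)).map_source (hp s))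
      refine h3.preimage_mem_nhds ?_
      rw [(A.e (i s)).left_inv (hp s)]
      exact inter_mem ((hU (p s)).2.mem_nhds (hU (p s)).1) (hN s)
    obtain ⟨r, hr, hr2⟩ := Metric.nhds_basis_closedBall.mem_iff.1 h2
    refine ⟨min r (min 1 ρ), lt_min hr (lt_min one_pos hρ),
      (min_le_right _ _).trans (min_le_left _ _), (min_le_right _ _).trans (min_le_right _ _),
      (Metric.closedBall_subset_closedBall (min_le_left _ _)).trans hr2⟩
  choose r hr using h1
  refine ⟨r, fun s => (hr s).1, fun s => (hr s).2.1, fun s => (hr s).2.2.1,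
    fun s z hz => ((hr s).2.2.2 hz).1, fun s t hst => ?_, fun s => ?_⟩
  · have h2 : Disjoint (U (p s)) (U (p t)) := hdisj (mem_range_self s) (mem_range_self t)
      (hinj.ne hst)
    refine h2.mono ?_ ?_
    · rintro _ ⟨z, hz, rfl⟩
      exact ((hr s).2.2.2 hz).2.1
    · rintro _ ⟨z, hz, rfl⟩
      exact ((hr t).2.2.2 hz).2.1
  · rintro _ ⟨z, hz, rfl⟩
    exact ((hr s).2.2.2 hz).2.2

/-- a finite family of centres -/
def ctr : Ctr A where
  S := S
  i := i
  p := p
  r := (exists_radii i p hinj hp N hN hρ).choose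
  hp := hp
  r_pos := (exists_radii i p hinj hp N hN hρ).choose_spec.1
  r_le := (exists_radii i p hinj hp N hN hρ).choose_spec.2.1
  sub := (exists_radii i p hinj hp N hN hρ).choose_spec.2.2.2.1
  disj := (exists_radii i p hinj hp N hN hρ).choose_spec.2.2.2.2.1
  lf := locallyFinite_of_finite _

theorem ctr_r_le (s : S) : (ctr i p hinj hp N hN hρ).r s ≤ ρ :=
  (exists_radii i p hinj hp N hN hρ).choose_spec.2.2.1 s

theorem ctr_K_sub (s : S) : (ctr i p hinj hp N hN hρ).K s ⊆ N s :=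
  (exists_radii i p hinj hp N hN hρ).choose_spec.2.2.2.2.2 s

end Radii

namespace Ctr

variable (C : Ctr A) [NeZero n]

/-! ### the kernel of `dπ` -/

theorem sc_symm_apply (v : Cn n) (b : Fin n) : (sc n).symm v b = 5 * (v b - (1 + I) / 2) := rfl

theorem fderiv_sc_symm (b : Fin n) (z v : Cn n) :
    fderiv ℂ (fun w : Cn n => (sc n).symm w b) z v = 5 * v b := by
  have h : HasFDerivAt (fun w : Cn n => (sc n).symm w b)
      ((5 : ℂ) • (EuclideanSpace.proj b : Cn n →L[ℂ] ℂ)) z := by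
    have h1 : HasFDerivAt (fun w : Cn n => w b) (EuclideanSpace.proj b : Cn n →L[ℂ] ℂ) z :=
      (EuclideanSpace.proj b : Cn n →L[ℂ] ℂ).hasFDerivAt
    exact (h1.sub_const _).const_mul 5
  rw [h.fderiv]
  rfl

/-- the derivative of `π` in the chart `inr (s,a)`, component `b`, in the coordinates of `C.i s` -/
theorem vk_inr {s : C.S} {a : Fin n} {z v : Cn n} (hz : z ∈ (C.atl.e (Sum.inr (s, a))).target)
    (hv : VK C.atl A C.pi (Sum.inr (s, a)) z v) :
    v a = 0 ∧ ((sc n).symm z a ≠ 0 → v = 0) := by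
  have hT := C.mem_ec_inr_target.1 hz
  have hdm : z ∈ dm C.atl A C.pi (Sum.inr (s, a)) (C.i s) := by
    refine ⟨hz, ?_⟩
    show C.pi ((C.ec (Sum.inr (s, a))).symm z) ∈ (A.e (C.i s)).source
    rw [ec_inr_symm]
    exact (C.mem_U.1 (C.ci_mem hT).1).1
  have h1 := hv (C.i s) hdm
  have h2 : ∀ b, fderiv ℂ (fun w : Cn n => ((sc n).symm w a) * W a ((sc n).symm w) b) z v = 0 := by
    intro b
    have e1 : (fun w : Cn n => ((sc n).symm w a) * W a ((sc n).symm w) b) =ᶠ[𝓝 z]
        fun w => (rd C.atl A C.pi (Sum.inr (s, a)) (C.i s) w) b - (A.e (C.i s) (C.p s)) b := by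
      filter_upwards [(C.atl.e (Sum.inr (s, a))).open_target.mem_nhds hz] with w hw
      have hw' := C.mem_ec_inr_target.1 hw
      have h3 := C.z_ci hw'
      have h4 : (rd C.atl A C.pi (Sum.inr (s, a)) (C.i s) w) - (A.e (C.i s) (C.p s)) =
          C.z s (C.pi (C.ci s a ((sc n).symm w))) := rfl
      rw [← PiLp.sub_apply, h4, h3, PiLp.smul_apply, smul_eq_mul]
    rw [e1.fderiv_eq]
    have hd := C.holMap_pi.diffAt hdm
    have h5 : HasFDerivAt (fun w => (rd C.atl A C.pi (Sum.inr (s, a)) (C.i s) w) b -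
        (A.e (C.i s) (C.p s)) b) ((EuclideanSpace.proj b : Cn n →L[ℂ] ℂ).comp
          (fderiv ℂ (rd C.atl A C.pi (Sum.inr (s, a)) (C.i s)) z)) z :=
      (((EuclideanSpace.proj b : Cn n →L[ℂ] ℂ).hasFDerivAt).comp z hd.hasFDerivAt).sub_const _
    rw [h5.fderiv]
    simp [h1]
  have hda : DifferentiableAt ℂ (fun w : Cn n => (sc n).symm w a) z :=
    (differentiableAt_euclidean.1 (differentiable_sc_symm z)) a
  have hva : v a = 0 := by
    have h3 := h2 a
    simp only [W_apply, if_true, mul_one] at h3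
    rw [fderiv_sc_symm] at h3
    simpa using h3
  refine ⟨hva, fun h0 => ?_⟩
  ext b
  by_cases hb : b = a
  · rw [hb]
    simpa using hva
  · have h3 := h2 b
    simp only [W_apply, if_neg hb] at h3
    have hdb : DifferentiableAt ℂ (fun w : Cn n => (sc n).symm w b) z :=
      (differentiableAt_euclidean.1 (differentiable_sc_symm z)) b
    rw [fderiv_fun_mul hda hdb] at h3
    simp only [_root_.add_apply, _root_.smul_apply, smul_eq_mul] at h3
    rw [fderiv_sc_symm, fderiv_sc_symm, hva] at h3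
    have h4 : (sc n).symm z a * v b = 0 := by
      linear_combination h3 / 5
    simpa [h0] using h4

theorem vk_inl {i : A.ι} {z v : Cn n} (hz : z ∈ (C.atl.e (Sum.inl i)).target)
    (hv : VK C.atl A C.pi (Sum.inl i) z v) : v = 0 := by
  have hT := C.mem_ec_inl_target.1 hz
  have hdm : z ∈ dm C.atl A C.pi (Sum.inl i) i := by
    refine ⟨hz, ?_⟩
    show C.pi ((C.ec (Sum.inl i)).symm z) ∈ (A.e i).source
    rw [ec_inl_symm, C.pi_lift]
    exact (A.e i).map_target hT.1
  have h1 := hv i hdm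
  have e1 : rd C.atl A C.pi (Sum.inl i) i =ᶠ[𝓝 z] id := by
    filter_upwards [(C.atl.e (Sum.inl i)).open_target.mem_nhds hz] with w hw
    show A.e i (C.pi ((C.ec (Sum.inl i)).symm w)) = w
    rw [ec_inl_symm, C.pi_lift, (A.e i).right_inv (C.mem_ec_inl_target.1 hw).1]
  rw [e1.fderiv_eq, fderiv_id] at h1
  exact h1

/-! ### local metrics of `O(-E)` -/

/-- the bundle `O(-E)`, all multiplicities one -/
abbrev Om : LB C.atl := C.OE (fun _ => -1)

theorem fr_one_eq (i : C.atl.ι) (y : C.X) :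
    C.fr (fun _ => -1) i y = (C.fr (fun _ => 1) i y)⁻¹ := by
  rcases i with i | ⟨s, a⟩
  · simp
  · simp [zpow_neg]

theorem fr_one_ne {i : A.ι ⊕ (C.S × Fin n)} {y : C.X} (hy : y ∈ (C.ec i).source) :
    C.fr (fun _ => 1) i y ≠ 0 := C.fr_ne _ hy

theorem Om_g {i j : C.atl.ι} {y : C.X} (hy : y ∈ (C.atl.e i).source ∩ (C.atl.e j).source) :
    C.Om.g i j y = C.fr (fun _ => 1) j y / C.fr (fun _ => 1) i y := by
  rw [C.OE_g _ hy, C.fr_one_eq, C.fr_one_eq, inv_div_inv]

/-- the metric of `O(-E)` over the complement of the centres -/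
def hmC : HMo C.Om (C.pi ⁻¹' C.Zᶜ) where
  w i y := ‖C.fr (fun _ => 1) i y‖ ^ 2
  pos i y hy _ := by
    have := C.fr_one_ne hy
    positivity
  sm i := by
    rcases i with i | ⟨s, a⟩
    · simp only [fr_inl, norm_one]
      exact contDiffOn_const
    · have h1 : ContDiff ℝ ∞ fun v : Cn n => ‖(sc n).symm v a‖ ^ 2 := by
        refine ContDiff.norm_sq ℂ ?_
        have h2 : ContDiff ℝ ∞ fun v : Cn n => (5 : ℂ) * (v a - (1 + I) / 2) := by fun_prop
        exact h2
      refine h1.contDiffOn.congr ?_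
      rintro v ⟨hv1, hv2⟩
      have hT := C.mem_ec_inr_target.1 hv1
      have hE : C.pi (C.ci s a ((sc n).symm v)) ∉ C.Z := hv2
      show ‖C.fr (fun _ => 1) (Sum.inr (s, a)) (C.ci s a ((sc n).symm v))‖ ^ 2 = _
      rw [fr_inr, zpow_one, C.dv_off hE, C.z_ci hT]
      simp
  tr i j y hy _ := by
    have h1 := C.fr_one_ne hy.1
    have h2 := C.fr_one_ne hy.2
    rw [C.Om_g hy, norm_div]
    have h3 : ‖C.fr (fun _ => 1) i y‖ ≠ 0 := norm_ne_zero_iff.2 h1
    rw [div_pow, div_mul_cancel₀ _ (pow_ne_zero 2 h3)]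

theorem hmC_posK : C.hmC.PosK A C.pi := by
  intro i z hz hzU v hv hvk
  exfalso
  apply hv
  rcases i with i | ⟨s, a⟩
  · exact C.vk_inl hz hvk
  · refine (C.vk_inr hz hvk).2 fun h0 => ?_
    have hT := C.mem_ec_inr_target.1 hz
    have hE : C.ci s a ((sc n).symm z) ∉ C.E := hzU
    rw [C.mem_E_iff (C.ci_mem hT), C.co_ci hT] at hE
    exact hE h0

theorem dv_W {s : C.S} {a : Fin n} {y : C.X} (hy : y ∈ C.V s a) :
    C.dv s y = C.dv s y a • W a (C.co s a y) := by
  ext b
  rw [PiLp.smul_apply, smul_eq_mul, ← C.dv_div hy b, mul_div_cancel₀ _ (C.dv_ne hy)]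

theorem norm_sq_eq_sumSq {X : Type*} (G : X → Cn n) (x : X) : ‖G x‖ ^ 2 = ∑ b, ‖G x b‖ ^ 2 :=
  EuclideanSpace.norm_sq_eq _

/-- the functions `W a u` in the chart `inr (s,a)` -/
def FW (a b : Fin n) (v : Cn n) : ℂ := W a ((sc n).symm v) b

theorem FW_self (a : Fin n) (v : Cn n) : FW a a v = 1 := by simp [FW]

theorem FW_ne {a b : Fin n} (hb : b ≠ a) : FW a b = fun v : Cn n => (sc n).symm v b := by
  funext v
  simp [FW, hb]

theorem FW_diff (a b : Fin n) : Differentiable ℂ (FW a b : Cn n → ℂ) := fun v =>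
  (differentiableAt_euclidean.1 (DifferentiableAt.comp v (g := W a) (differentiable_W a _)
    (differentiable_sc_symm v))) b

theorem FW_analytic (a b : Fin n) (v : Cn n) : AnalyticAt ℂ (FW a b) v :=
  Crest.Agent.R266.SCV.analyticOnNhd_of_differentiableOn isOpen_univ
    (FW_diff a b).differentiableOn v (mem_univ v)

/-- the functions `z` in the chart `inl i` -/
def FZ (s : C.S) (i : A.ι) (b : Fin n) (v : Cn n) : ℂ := C.z s ((A.e i).symm v) b

theorem FZ_analytic {s : C.S} {i : A.ι} (b : Fin n) {v : Cn n} (hv : v ∈ (A.e i).target)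
    (hs : (A.e i).symm v ∈ (A.e (C.i s)).source) : AnalyticAt ℂ (C.FZ s i b) v := by
  refine Crest.Agent.R266.SCV.analyticOnNhd_of_differentiableOn (isOpen_ov (A := A) i (C.i s))
    (fun w hw => ?_) v ⟨hv, hs⟩
  exact ((differentiableAt_euclidean.1 (C.diffAt_z hw.1 hw.2)) b).differentiableWithinAt

/-- the metric of `O(-E)` near the centre `s` -/
def hmS (s : C.S) : HMo C.Om (C.pi ⁻¹' C.U s) where
  w i y := ‖C.fr (fun _ => 1) i y‖ ^ 2 / ‖C.dv s y‖ ^ 2
  pos i y hy hU := by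
    have h1 := C.fr_one_ne hy
    have h2 := (C.dv_spec hU).1
    positivity
  sm i := by
    rcases i with i | ⟨t, a⟩
    · intro v hv
      obtain ⟨hv1, hv2⟩ := hv
      have hT := C.mem_ec_inl_target.1 hv1
      have hU : (A.e i).symm v ∈ C.U s := by
        have h : C.pi (C.lift ((A.e i).symm v)) ∈ C.U s := hv2
        rwa [C.pi_lift] at h
      have hne : C.z s ((A.e i).symm v) ≠ 0 := fun h0 =>
        hT.2 ((C.mem_Z_iff hU).2 ((C.z_eq_zero hU).1 h0))
      have h1 : ContDiffAt ℝ ∞ (Levi_145.sumSq (C.FZ s i)) v :=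
        Levi_145.c2_sumSq (fun b => C.FZ_analytic b hT.1 (C.mem_U.1 hU).1) ∞
      have h2 : Levi_145.sumSq (C.FZ s i) v ≠ 0 := by
        have h3 : Levi_145.sumSq (C.FZ s i) v = ‖C.z s ((A.e i).symm v)‖ ^ 2 :=
          (norm_sq_eq_sumSq (fun v => C.z s ((A.e i).symm v)) v).symm
        rw [h3]
        positivity
      refine (h1.inv h2).contDiffWithinAt.congr (fun w hw => ?_) ?_
      · have hw2 := (C.mem_ec_inl_target.1 hw.1).2
        show ‖C.fr (fun _ => 1) (Sum.inl i) _‖ ^ 2 / ‖C.dv s (C.lift ((A.e i).symm w))‖ ^ 2 = _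
        rw [fr_inl, C.dv_off (by rwa [C.pi_lift]), C.pi_lift, norm_one, one_pow, one_div]
        congr 1
        exact norm_sq_eq_sumSq (fun v => C.z s ((A.e i).symm v)) w
      · show ‖C.fr (fun _ => 1) (Sum.inl i) _‖ ^ 2 / ‖C.dv s (C.lift ((A.e i).symm v))‖ ^ 2 = _
        rw [fr_inl, C.dv_off (by rw [C.pi_lift]; exact hT.2), C.pi_lift, norm_one, one_pow, one_div]
        congr 1
        exact norm_sq_eq_sumSq (fun v => C.z s ((A.e i).symm v)) v
    · intro v hv
      obtain ⟨hv1, hv2⟩ := hv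
      have hT := C.mem_ec_inr_target.1 hv1
      have hst : s = t := C.U_unique hv2 (C.ci_mem hT).1
      subst hst
      have h1 : ContDiffAt ℝ ∞ (Levi_145.sumSq (FW a)) v :=
        Levi_145.c2_sumSq (fun b => FW_analytic a b v) ∞
      have h2 : Levi_145.sumSq (FW a) v ≠ 0 := by
        have h3 : Levi_145.sumSq (FW a) v = ‖W a ((sc n).symm v)‖ ^ 2 :=
          (norm_sq_eq_sumSq (fun v => W a ((sc n).symm v)) v).symm
        rw [h3]
        have := W_ne a ((sc n).symm v)
        positivity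
      have key : ∀ w, (sc n).symm w ∈ C.T s a → ‖C.fr (fun _ => 1) (Sum.inr (s, a))
          (C.ci s a ((sc n).symm w))‖ ^ 2 / ‖C.dv s (C.ci s a ((sc n).symm w))‖ ^ 2 =
            (Levi_145.sumSq (FW a) w)⁻¹ := by
        intro w hw
        have hV := C.ci_mem hw
        have h4 : ‖C.dv s (C.ci s a ((sc n).symm w)) a‖ ≠ 0 := norm_ne_zero_iff.2 (C.dv_ne hV)
        have h5 : ‖C.dv s (C.ci s a ((sc n).symm w))‖ =
            ‖C.dv s (C.ci s a ((sc n).symm w)) a‖ * ‖W a ((sc n).symm w)‖ := by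
          conv_lhs => rw [C.dv_W hV, norm_smul, C.co_ci hw]
        have h6 : Levi_145.sumSq (FW a) w = ‖W a ((sc n).symm w)‖ ^ 2 :=
          (norm_sq_eq_sumSq (fun v => W a ((sc n).symm v)) w).symm
        rw [fr_inr, zpow_one, h5, h6, mul_pow, div_mul_eq_div_div, div_self (pow_ne_zero 2 h4),
          one_div]
      refine (h1.inv h2).contDiffWithinAt.congr (fun w hw => ?_) ?_
      · exact key w (C.mem_ec_inr_target.1 hw.1)
      · exact key v hT
  tr i j y hy _ := by
    have h1 := C.fr_one_ne hy.1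
    rw [C.Om_g hy, norm_div]
    have h3 : ‖C.fr (fun _ => 1) i y‖ ≠ 0 := norm_ne_zero_iff.2 h1
    rw [← mul_div_assoc, div_pow, div_mul_cancel₀ _ (pow_ne_zero 2 h3)]

theorem hmS_wt (s : C.S) {a : Fin n} {z : Cn n} (hz : z ∈ (C.atl.e (Sum.inr (s, a))).target) :
    (C.hmS s).wt (Sum.inr (s, a)) =ᶠ[𝓝 z] fun w => Real.log (Levi_145.sumSq (FW a) w) := by
  filter_upwards [(C.atl.e (Sum.inr (s, a))).open_target.mem_nhds hz] with w hw
  have hT := C.mem_ec_inr_target.1 hw
  have hV := C.ci_mem hT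
  have h4 : ‖C.dv s (C.ci s a ((sc n).symm w)) a‖ ≠ 0 := norm_ne_zero_iff.2 (C.dv_ne hV)
  have h5 : ‖C.dv s (C.ci s a ((sc n).symm w))‖ =
      ‖C.dv s (C.ci s a ((sc n).symm w)) a‖ * ‖W a ((sc n).symm w)‖ := by
    conv_lhs => rw [C.dv_W hV, norm_smul, C.co_ci hT]
  have h6 : Levi_145.sumSq (FW a) w = ‖W a ((sc n).symm w)‖ ^ 2 :=
    (norm_sq_eq_sumSq (fun v => W a ((sc n).symm v)) w).symm
  show - Real.log (‖C.fr (fun _ => 1) (Sum.inr (s, a)) (C.ci s a ((sc n).symm w))‖ ^ 2 /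
    ‖C.dv s (C.ci s a ((sc n).symm w))‖ ^ 2) = _
  rw [fr_inr, zpow_one, h5, h6, mul_pow, div_mul_eq_div_div, div_self (pow_ne_zero 2 h4), one_div,
    Real.log_inv, neg_neg]

theorem hmS_posK (s : C.S) : (C.hmS s).PosK A C.pi := by
  intro i z hz hzU v hv hvk
  rcases i with i | ⟨t, a⟩
  · exact absurd (C.vk_inl hz hvk) hv
  · have hT := C.mem_ec_inr_target.1 hz
    have hst : s = t := C.U_unique hzU (C.ci_mem hT).1
    subst hst
    have hva := (C.vk_inr hz hvk).1
    have h0 : ∃ b, FW a b z ≠ 0 := ⟨a, by rw [FW_self]; exact one_ne_zero⟩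
    have h1 := Levi_145.lev_log_sumSq_nonneg (F := FW a) (z := z)
      (fun b => FW_analytic a b z) h0 v
    rw [lev_congr' (C.hmS_wt s hz), lev_bridge]
    rcases h1.lt_or_eq with h2 | h2
    · linarith
    · exfalso
      apply hv
      obtain ⟨c, hc⟩ := Levi_145.lev_log_sumSq_eq_zero (F := FW a) (z := z)
        (fun b => FW_analytic a b z) h0 h2.symm
      have hc0 : c = 0 := by
        have h3 := hc a
        have h4 : (FW a a : Cn n → ℂ) = fun _ => 1 := funext fun v => FW_self a v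
        rw [h4] at h3
        simpa using h3.symm
      ext b
      by_cases hb : b = a
      · rw [hb]
        simpa using hva
      · have h3 := hc b
        rw [hc0, zero_mul, FW_ne hb, fderiv_sc_symm] at h3
        simpa using h3

/-- **positivity**: `O(-E) * (π^* H)^m` is positive for `m ≥ m₀` -/
theorem blup_pos [CompactSpace M] {H : LB A} {h : HM H} (hpos : h.Pos) :
    ∃ m₀ : ℕ, ∀ k : ℕ, m₀ ≤ k →
      ∃ g : HM (C.Om * (pullLB C.holMap_pi C.refPi H) ^ k), g.Pos := by
  let V : Option C.S → Set M := fun o => o.elim C.Zᶜ C.U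
  let hh : ∀ o : Option C.S, HMo C.Om (C.pi ⁻¹' V o) := fun o =>
    match o with
    | none => C.hmC
    | some s => C.hmS s
  refine glue_pos C.holMap_pi (PB.ref C.holMap_pi C.refPi H) hpos V ?_ ?_ hh ?_
  · rintro (_ | s)
    · exact C.isClosed_Z.isOpen_compl
    · exact C.isOpen_U s
  · intro y
    by_cases hy : y ∈ C.Z
    · obtain ⟨s, rfl⟩ := hy
      exact ⟨some s, C.p_mem s⟩
    · exact ⟨none, hy⟩
  · rintro (_ | s)
    · exact C.hmC_posK
    · exact C.hmS_posK s

end Ctr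

end

end Crest.Agent.R272.Blup1_102
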