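import Crest.Agent.R272.Pr1_414
import Crest.Agent.R273.Kah_333

/-!
# R272, leaf S14-PROD (helper414), part 2: metrics and the Segre embedding of a product

* `extHM h h'` : metric of `L ⊠ L'`, `extHM_pos` : positive if both are;
* `segre P Q : ProjD (A.prod B)`.
-/

set_option autoImplicit false
set_option linter.unusedSectionVars false

open Set Filter Topology Complex
open scoped ContDiff Matrix ComplexConjugate Manifold

namespace Crest.Agent.R272.Pr_414

open Crest.Agent.R275.Geo Crest.Agent.R275.Core144 Crest.Agent.R275.GC293 Crest.Agent.R275.Prod363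
open Crest.Agent.R273.Defs_333 Crest.Agent.R273.Map_835 Crest.Agent.R273.PB_835
open Crest.Agent.R273.HM_333 Crest.Agent.R273.Kah_333

noncomputable section

variable {n m : ℕ} {M N : Type} [TopologicalSpace M] [TopologicalSpace N]
  {A : Atl n M} {B : Atl m N}

/-- the metric of `L ⊠ L'` -/
def extHM {L : LB A} {L' : LB B} (h : HM L) (h' : HM L') : HM (ext L L') :=
  mul ((PB.ref (fst A B) (rfst A B) L).pullHM (fst A B) h)
    ((PB.ref (snd A B) (rsnd A B) L').pullHM (snd A B) h')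

theorem extHM_w {L : LB A} {L' : LB B} (h : HM L) (h' : HM L') {i : A.ι} {j : B.ι} {x : M} {y : N}
    (hx : x ∈ (A.e i).source) (hy : y ∈ (B.e j).source) :
    (extHM h h').w (i, j) (x, y) = h.w i x * h'.w j y := by
  have h1 := (PB.ref (fst A B) (rfst A B) L).pullHM_w (fst A B) h (i := (i, j)) (j := i)
    (x := (x, y)) ⟨hx, hy⟩ hx
  have h2 := (PB.ref (snd A B) (rsnd A B) L').pullHM_w (snd A B) h' (i := (i, j)) (j := j)
    (x := (x, y)) ⟨hx, hy⟩ hy
  have e1 : (PB.ref (fst A B) (rfst A B) L).c (i, j) i (x, y) = 1 := L.self i x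
  have e2 : (PB.ref (snd A B) (rsnd A B) L').c (i, j) j (x, y) = 1 := L'.self j y
  rw [e1] at h1
  rw [e2] at h2
  show _ * _ = _
  rw [h1, h2]
  simp

theorem rd_fst (i : A.ι) (j : B.ι) {z : Cn (n + m)} (hz : z ∈ ((A.prod B).e (i, j)).target) :
    rd (A.prod B) A Prod.fst (i, j) i z = fstL n m z := (A.e i).right_inv hz.1

theorem rd_snd (i : A.ι) (j : B.ι) {z : Cn (n + m)} (hz : z ∈ ((A.prod B).e (i, j)).target) :
    rd (A.prod B) B Prod.snd (i, j) j z = sndL n m z := (B.e j).right_inv hz.2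

theorem fderiv_rd_fst (i : A.ι) (j : B.ι) {z : Cn (n + m)}
    (hz : z ∈ ((A.prod B).e (i, j)).target) :
    fderiv ℂ (rd (A.prod B) A Prod.fst (i, j) i) z = fstL n m := by
  have h1 : rd (A.prod B) A Prod.fst (i, j) i =ᶠ[𝓝 z] fstL n m := by
    filter_upwards [((A.prod B).e (i, j)).open_target.mem_nhds hz] with w hw
    exact rd_fst i j hw
  rw [h1.fderiv_eq, ContinuousLinearMap.fderiv]

theorem fderiv_rd_snd (i : A.ι) (j : B.ι) {z : Cn (n + m)}
    (hz : z ∈ ((A.prod B).e (i, j)).target) :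
    fderiv ℂ (rd (A.prod B) B Prod.snd (i, j) j) z = sndL n m := by
  have h1 : rd (A.prod B) B Prod.snd (i, j) j =ᶠ[𝓝 z] sndL n m := by
    filter_upwards [((A.prod B).e (i, j)).open_target.mem_nhds hz] with w hw
    exact rd_snd i j hw
  rw [h1.fderiv_eq, ContinuousLinearMap.fderiv]

theorem lev_zero' (u : Cn n → ℝ) (z : Cn n) : Crest.Agent.R273.Defs_333.lev u z 0 = 0 := by
  rw [lev_bridge, Crest.Agent.R273.Levi_145.lev_zero, mul_zero]

theorem lev_extHM {L : LB A} {L' : LB B} (h : HM L) (h' : HM L') (i : A.ι) (j : B.ι)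
    {z : Cn (n + m)} (hz : z ∈ ((A.prod B).e (i, j)).target) (v : Cn (n + m)) :
    Crest.Agent.R273.Defs_333.lev ((extHM h h').wt (i, j)) z v =
      Crest.Agent.R273.Defs_333.lev (h.wt i) (fstL n m z) (fstL n m v) +
        Crest.Agent.R273.Defs_333.lev (h'.wt j) (sndL n m z) (sndL n m v) := by
  set h1 := (PB.ref (fst A B) (rfst A B) L).pullHM (fst A B) h with hh1
  set h2 := (PB.ref (snd A B) (rsnd A B) L').pullHM (snd A B) h' with hh2
  have e : (extHM h h').wt (i, j) =ᶠ[𝓝 z] fun y => h1.wt (i, j) y + h2.wt (i, j) y := by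
    filter_upwards [((A.prod B).e (i, j)).open_target.mem_nhds hz] with y hy
    exact wt_mul h1 h2 (i, j) hy
  have c1 : ContDiffAt ℝ 2 (h1.wt (i, j)) z := (wt_contDiffAt h1 (i, j) hz).of_le (by norm_cast)
  have c2 : ContDiffAt ℝ 2 (h2.wt (i, j)) z := (wt_contDiffAt h2 (i, j) hz).of_le (by norm_cast)
  rw [lev_congr' e, lev_bridge, Crest.Agent.R273.Levi_145.lev_add c1 c2, mul_add, ← lev_bridge,
    ← lev_bridge, hh1, hh2,
    (PB.ref (fst A B) (rfst A B) L).pullHM_lev (fst A B) h (i := (i, j)) (j := i)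
      ⟨hz, (A.e i).map_target hz.1⟩,
    (PB.ref (snd A B) (rsnd A B) L').pullHM_lev (snd A B) h' (i := (i, j)) (j := j)
      ⟨hz, (B.e j).map_target hz.2⟩, rd_fst i j hz, rd_snd i j hz, fderiv_rd_fst i j hz,
    fderiv_rd_snd i j hz]

/-- **`L ⊠ L'` is positive if `L` and `L'` are** -/
theorem extHM_pos {L : LB A} {L' : LB B} {h : HM L} {h' : HM L'} (hp : h.Pos) (hp' : h'.Pos) :
    (extHM h h').Pos := by
  rintro ⟨i, j⟩ z hz v hv
  rw [lev_extHM h h' i j hz]
  have p1 := hp i (fstL n m z) hz.1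
  have p2 := hp' j (sndL n m z) hz.2
  have q1 : 0 ≤ Crest.Agent.R273.Defs_333.lev (h.wt i) (fstL n m z) (fstL n m v) := by
    by_cases h0 : fstL n m v = 0
    · rw [h0, lev_zero']
    · exact (p1 _ h0).le
  have q2 : 0 ≤ Crest.Agent.R273.Defs_333.lev (h'.wt j) (sndL n m z) (sndL n m v) := by
    by_cases h0 : sndL n m v = 0
    · rw [h0, lev_zero']
    · exact (p2 _ h0).le
  by_cases h0 : fstL n m v = 0
  · have h1 : sndL n m v ≠ 0 := fun h1 => hv (by rw [eq_app v, h0, h1]; exact app_eq_zero.2 ⟨rfl, rfl⟩)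
    linarith [p2 _ h1]
  · linarith [p1 _ h0]

/-! ### the Segre embedding -/

/-- index set of the Segre embedding -/
def sgE (a b : ℕ) : Fin (a * b + a + b + 1) ≃ Fin (a + 1) × Fin (b + 1) :=
  (finCongr (by ring)).trans finProdFinEquiv.symm

/-- tensor product of vectors -/
def sg {a b : ℕ} (u : Fin (a + 1) → ℂ) (v : Fin (b + 1) → ℂ) : Fin (a * b + a + b + 1) → ℂ :=
  fun k => u (sgE a b k).1 * v (sgE a b k).2

theorem sg_apply {a b : ℕ} (u : Fin (a + 1) → ℂ) (v : Fin (b + 1) → ℂ) (i : Fin (a + 1))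
    (j : Fin (b + 1)) : sg u v ((sgE a b).symm (i, j)) = u i * v j := by
  simp [sg]

theorem sg_smul {a b : ℕ} (c d : ℂ) (u : Fin (a + 1) → ℂ) (v : Fin (b + 1) → ℂ) :
    sg (c • u) (d • v) = (c * d) • sg u v := by
  funext k
  simp only [sg, Pi.smul_apply, smul_eq_mul]
  ring

theorem exists_ne {a : ℕ} {u : Fin (a + 1) → ℂ} (h : u ≠ 0) : ∃ i, u i ≠ 0 := by
  by_contra hc
  push Not at hc
  exact h (funext hc)

theorem sg_ne {a b : ℕ} {u : Fin (a + 1) → ℂ} {v : Fin (b + 1) → ℂ} (hu : u ≠ 0) (hv : v ≠ 0) :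
    sg u v ≠ 0 := by
  obtain ⟨i, hi⟩ := exists_ne hu
  obtain ⟨j, hj⟩ := exists_ne hv
  intro h
  have := congrFun h ((sgE a b).symm (i, j))
  rw [sg_apply] at this
  exact mul_ne_zero hi hj this

theorem sg_inj {a b : ℕ} {u u' : Fin (a + 1) → ℂ} {v v' : Fin (b + 1) → ℂ} (hu : u ≠ 0)
    (hv : v ≠ 0) {c : ℂ} (h : sg u v = c • sg u' v') : (∃ d : ℂ, u = d • u') ∧ ∃ d : ℂ, v = d • v' := by
  obtain ⟨i, hi⟩ := exists_ne hu
  obtain ⟨j, hj⟩ := exists_ne hv
  have h1 : ∀ i j, u i * v j = c * (u' i * v' j) := fun i j => by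
    have := congrFun h ((sgE a b).symm (i, j))
    rwa [Pi.smul_apply, sg_apply, sg_apply, smul_eq_mul] at this
  refine ⟨⟨c * v' j / v j, ?_⟩, ⟨c * u' i / u i, ?_⟩⟩
  · funext k
    have := h1 k j
    rw [Pi.smul_apply, smul_eq_mul]
    field_simp
    rw [this]
    ring
  · funext k
    have := h1 i k
    rw [Pi.smul_apply, smul_eq_mul]
    field_simp
    rw [mul_comm, this]
    ring

theorem segre_imm {a b : ℕ} {u du : Fin (a + 1) → ℂ} {v dv : Fin (b + 1) → ℂ} (hu : u ≠ 0)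
    (hv : v ≠ 0) {c : ℂ} (h : sg du v + sg u dv = c • sg u v) :
    (∃ d : ℂ, du = d • u) ∧ ∃ d : ℂ, dv = d • v := by
  obtain ⟨i, hi⟩ := exists_ne hu
  obtain ⟨j, hj⟩ := exists_ne hv
  have h1 : ∀ i j, du i * v j + u i * dv j = c * (u i * v j) := fun i j => by
    have := congrFun h ((sgE a b).symm (i, j))
    rwa [Pi.add_apply, Pi.smul_apply, sg_apply, sg_apply, sg_apply, smul_eq_mul] at this
  refine ⟨⟨c - dv j / v j, ?_⟩, ⟨c - du i / u i, ?_⟩⟩
  · funext k
    have := h1 k j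
    rw [Pi.smul_apply, smul_eq_mul]
    field_simp
    linear_combination this
  · funext k
    have := h1 i k
    rw [Pi.smul_apply, smul_eq_mul]
    field_simp
    linear_combination this

theorem fderiv_F (P : ProjD A) {i : A.ι} {z : Cn n} (hz : z ∈ (A.e i).target) :
    DifferentiableAt ℂ (fun w => P.F i ((A.e i).symm w)) z := by
  rw [differentiableAt_pi]
  intro k
  have h2 := HolAt.diffAt (P.hol i k) isOpen_univ ((A.e i).map_target hz) (mem_univ _)
  rwa [(A.e i).right_inv hz] at h2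

/-- **the Segre embedding of a product** -/
def segre (P : ProjD A) (Q : ProjD B) : ProjD (A.prod B) where
  N := P.N * Q.N + P.N + Q.N
  F i x := sg (P.F i.1 x.1) (Q.F i.2 x.2)
  hol i k := by
    have h1 := holAt_fst (B := B) (P.hol i.1 (sgE P.N Q.N k).1) i.2
    have h2 := holAt_snd (A := A) (Q.hol i.2 (sgE P.N Q.N k).2) i.1
    exact h1.mul h2
  ne i x hx := sg_ne (P.ne i.1 x.1 hx.1) (Q.ne i.2 x.2 hx.2)
  tr i j x hx := by
    obtain ⟨c, hc⟩ := P.tr i.1 j.1 x.1 ⟨hx.1.1, hx.2.1⟩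
    obtain ⟨d, hd⟩ := Q.tr i.2 j.2 x.2 ⟨hx.1.2, hx.2.2⟩
    exact ⟨c * d, by rw [hc, hd, sg_smul]⟩
  inj i j x hx y hy := by
    rintro ⟨c, hc⟩
    obtain ⟨h1, h2⟩ := sg_inj (P.ne i.1 x.1 hx.1) (Q.ne i.2 x.2 hx.2) hc
    exact Prod.ext (P.inj _ _ _ hx.1 _ hy.1 h1) (Q.inj _ _ _ hx.2 _ hy.2 h2)
  imm := by
    rintro ⟨i, j⟩ z hz v ⟨c, hc⟩
    have hP := fderiv_F P hz.1
    have hQ := fderiv_F Q hz.2
    have hP' : HasFDerivAt (fun w => P.F i ((A.e i).symm (fstL n m w)))
        ((fderiv ℂ (fun w => P.F i ((A.e i).symm w)) (fstL n m z)).comp (fstL n m)) z :=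
      HasFDerivAt.comp z (g := fun w => P.F i ((A.e i).symm w)) (f := fun w => fstL n m w)
        hP.hasFDerivAt (fstL n m).hasFDerivAt
    have hQ' : HasFDerivAt (fun w => Q.F j ((B.e j).symm (sndL n m w)))
        ((fderiv ℂ (fun w => Q.F j ((B.e j).symm w)) (sndL n m z)).comp (sndL n m)) z :=
      HasFDerivAt.comp z (g := fun w => Q.F j ((B.e j).symm w)) (f := fun w => sndL n m w)
        hQ.hasFDerivAt (sndL n m).hasFDerivAt
    have hd : fderiv ℂ (fun w => sg (P.F i ((A.e i).symm (fstL n m w)))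
        (Q.F j ((B.e j).symm (sndL n m w)))) z v =
        sg (fderiv ℂ (fun w => P.F i ((A.e i).symm w)) (fstL n m z) (fstL n m v))
          (Q.F j ((B.e j).symm (sndL n m z))) +
        sg (P.F i ((A.e i).symm (fstL n m z)))
          (fderiv ℂ (fun w => Q.F j ((B.e j).symm w)) (sndL n m z) (sndL n m v)) := by
      funext k
      have h1 := hasFDerivAt_pi'.1 hP' (sgE P.N Q.N k).1
      have h2 := hasFDerivAt_pi'.1 hQ' (sgE P.N Q.N k).2
      have h3 := h1.mul h2
      have h4 : HasFDerivAt (fun w => sg (P.F i ((A.e i).symm (fstL n m w)))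
        (Q.F j ((B.e j).symm (sndL n m w))))
          (fderiv ℂ (fun w => sg (P.F i ((A.e i).symm (fstL n m w)))
        (Q.F j ((B.e j).symm (sndL n m w)))) z) z := by
        refine DifferentiableAt.hasFDerivAt ?_
        rw [differentiableAt_pi]
        intro k
        exact ((differentiableAt_pi.1 hP'.differentiableAt _).mul
          (differentiableAt_pi.1 hQ'.differentiableAt _))
      have h5 := (hasFDerivAt_pi'.1 h4 k).unique h3
      have h6 := congrArg (fun L => L v) h5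
      simp only [ContinuousLinearMap.proj_apply, ContinuousLinearMap.comp_apply,
        _root_.add_apply, _root_.smul_apply, smul_eq_mul] at h6
      simp only [Pi.add_apply, sg]
      rw [h6]
      ring
    have hc' : fderiv ℂ (fun w => sg (P.F i ((A.e i).symm (fstL n m w)))
        (Q.F j ((B.e j).symm (sndL n m w)))) z v =
        c • sg (P.F i ((A.e i).symm (fstL n m z))) (Q.F j ((B.e j).symm (sndL n m z))) := hc
    rw [hd] at hc'
    obtain ⟨h1, h2⟩ := segre_imm (P.ne i _ ((A.e i).map_target hz.1))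
      (Q.ne j _ ((B.e j).map_target hz.2)) hc'
    have e1 := P.imm i _ hz.1 _ h1
    have e2 := Q.imm j _ hz.2 _ h2
    rw [eq_app v, e1, e2]
    exact app_eq_zero.2 ⟨rfl, rfl⟩

end

end Crest.Agent.R272.Pr_414
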