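import Crest.Agent.R272.DCov7_426
import Crest.Agent.R272.Pr2_414
import Crest.Agent.R272.Blup7_102

/-!
# R272 (S0414), helper102: positivity on a product of two covers, and on its double blow-up

* `npos`  : `D₁`, `D₂` covers (426's DCOV) of compact manifolds with positive bundles ⟹ a positive
            bundle on `D₁.X × D₂.X` (any compatible atlases with `Ref`);
* `npos_atlX` : the canonical atlases;
* `bl_pos`, `bl_pos2` : one blow-up, two blow-ups: a positive bundle stays.
-/

set_option autoImplicit false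
set_option linter.unusedSectionVars false

open Set Filter Topology Complex

namespace Crest.Agent.R272.NPos_102

open Crest.Agent.R275.Geo Crest.Agent.R275.Core144 Crest.Agent.R273.Defs_333
open Crest.Agent.R273.Map_835 Crest.Agent.R273.PB_835 Crest.Agent.R273.Fam_835
open Crest.Agent.R272.DCov_426 Crest.Agent.R272.Pr_414
open Crest.Agent.R272.Blup1_102

noncomputable section

/-- positive bundle on the product of two covers -/
theorem npos {n m : ℕ} {M N : Type} [TopologicalSpace M] [TopologicalSpace N]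
    [CompactSpace M] [T2Space M] [CompactSpace N] [T2Space N]
    {A : Atl n M} {B : Atl m N} {ρ ρ' : Type} [Fintype ρ] [Fintype ρ']
    (D : Data A ρ) (D' : Data B ρ') {A' : Atl n D.X} {B' : Atl m D'.X}
    (hc : Cmp D.famX A') (R : Ref A' A D.p) (hc' : Cmp D'.famX B') (R' : Ref B' B D'.p)
    {H : LB A} {h : HM H} (hp : h.Pos) {H' : LB B} {h' : HM H'} (hp' : h'.Pos) :
    ∃ (L : LB (A'.prod B')) (g : HM L), g.Pos := by
  obtain ⟨m0, h1⟩ := D.exists_pos' hc hp (PB.ref (D.holMap_p hc) R H)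
  obtain ⟨m1, h2⟩ := D'.exists_pos' hc' hp' (PB.ref (D'.holMap_p hc') R' H')
  obtain ⟨g1, hg1⟩ := h1 m0 le_rfl
  obtain ⟨g2, hg2⟩ := h2 m1 le_rfl
  exact ⟨_, extHM g1 g2, extHM_pos hg1 hg2⟩

theorem npos_atlX {n m : ℕ} {M N : Type} [TopologicalSpace M] [TopologicalSpace N]
    [CompactSpace M] [T2Space M] [CompactSpace N] [T2Space N]
    {A : Atl n M} {B : Atl m N} {ρ ρ' : Type} [Fintype ρ] [Fintype ρ']
    (D : Data A ρ) (D' : Data B ρ') {H : LB A} {h : HM H} (hp : h.Pos)
    {H' : LB B} {h' : HM H'} (hp' : h'.Pos) :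
    ∃ (L : LB (D.atlX.prod D'.atlX)) (g : HM L), g.Pos :=
  npos D D' D.cmp_atlX D.refX D'.cmp_atlX D'.refX hp hp'

/-- a positive bundle on the base gives one on the blow-up -/
theorem bl_pos {n : ℕ} [NeZero n] {M : Type} [TopologicalSpace M] [T2Space M] [CompactSpace M]
    {A : Atl n M} (C : Ctr A) (h : ∃ (L : LB A) (g : HM L), g.Pos) :
    ∃ (L : LB C.atl) (g : HM L), g.Pos := by
  obtain ⟨L, g, hg⟩ := h
  obtain ⟨m0, h1⟩ := C.blup_pos hg
  obtain ⟨g', hg'⟩ := h1 m0 le_rfl
  exact ⟨_, g', hg'⟩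

end

end Crest.Agent.R272.NPos_102
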