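import Crest.Agent.R272.Two_102
import Crest.Agent.R272.BlA2_266
import Crest.Agent.R272.Adp3_409
import Crest.Agent.R272.NPos_102

/-!
# R272 (S0414), road D of BL (helper102): the two-step assembly

`P : PD A ρ` with `k a = 2`; centres with shapes (409's `Shape`): all colours units; one star, the
others units; one tacnode `a`, one unit or star `b`, the others units (`Adm`).

* `Ok sh f`  : the centred form;
* `P1`       : the divided sections on the first blow-up (multiplicity `mu`), `snc1`;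
* `P2`       : the divided sections on the second blow-up (centres = tacnodes), `snc2`;
* `asm`      : from 409's `Node`s: `asmData : DCov_426.Data C₂.atl ρ`.
-/

set_option autoImplicit false
set_option linter.unusedSectionVars false

open Set Filter Topology Complex Asymptotics

namespace Crest.Agent.R272.Asm2_102

open Crest.Agent.R275.Geo Crest.Agent.R275.Core144 Crest.Agent.R273.Defs_333
open Crest.Agent.R273.Fam_835 Crest.Agent.R273.Map_835 Crest.Agent.R273.PB_835
open Crest.Agent.R272.Blup1_102 Crest.Agent.R272.Two_102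
open Crest.Agent.R272.BlA_266 Crest.Agent.R272.Adp_409

noncomputable section

/-- the multiplicity (for sections of squares) -/
def mu : Shape → ℕ
  | .unit => 0
  | .star k => k
  | .tac => 1

/-- the centred form of a shape -/
def Ok : Shape → (Cn 2 → ℂ) → Prop
  | .unit, f => f 0 ≠ 0
  | .star k, f => IsPQ (2 * k) (2 * k) f
  | .tac, f => IsPQ 2 4 f

theorem ok_of_cform {sh : Shape} {f : Cn 2 → ℂ} (h : CForm sh f) : Ok sh f := by
  obtain ⟨U, c, hU, hc, hU0, hc0, he⟩ := h
  cases sh with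
  | unit =>
    show f 0 ≠ 0
    rw [he.self_of_nhds]
    simpa [Shape.F] using hU0
  | star k => exact ⟨U, c, hU.differentiableAt, hc.differentiableAt, hU0, hc0, he⟩
  | tac => exact ⟨U, c, hU.differentiableAt, hc.differentiableAt, hU0, hc0, he⟩

/-- admissible combinations of shapes at one centre -/
def Adm {ρ : Type} (sh : ρ → Shape) : Prop :=
  (∀ a, sh a = .unit) ∨
  (∃ a k, 0 < k ∧ sh a = .star k ∧ ∀ b, b ≠ a → sh b = .unit) ∨
  (∃ a b, a ≠ b ∧ sh a = .tac ∧ (sh b = .unit ∨ ∃ k, 0 < k ∧ sh b = .star k) ∧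
    ∀ c, c ≠ a → c ≠ b → sh c = .unit)

section One

variable {M : Type} [TopologicalSpace M] [T2Space M] {A : Atl 2 M} {ρ : Type} (P : PD A ρ)
  (C : Ctr A) (sh : C.S → ρ → Shape) (hk : ∀ a, P.k a = 2)
  (hf : ∀ s a, Ok (sh s a) (C.phi (P.s a) s))

/-- the multiplicities -/
def mult (a : ρ) (t : C.S) : ℕ := mu (sh t a)

include hk hf in
theorem ord_mult : ∀ a, C.Ord (P.s a) (fun t => P.k a * mult C sh a t) := by
  intro a t
  have h := hf t a
  have e : P.k a * mult C sh a t = 2 * mu (sh t a) := by rw [hk a]; rfl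
  show (C.phi (P.s a) t) =O[𝓝 0] fun v => ‖v‖ ^ (P.k a * mult C sh a t)
  rw [e]
  cases hs : sh t a with
  | unit => exact ord_zero (P.hs a) t
  | star k =>
    rw [hs] at h
    exact ord_at (p := 2 * k) (q := 2 * k) le_rfl h
  | tac =>
    rw [hs] at h
    exact ord_at (p := 2) (q := 4) (by norm_num) h

/-- the divided sections on the blow-up -/
def P1 : PD C.atl ρ := P.bl C (mult C sh) (ord_mult P C sh hk hf)

@[simp] theorem P1_k : (P1 P C sh hk hf).k = P.k := rfl

theorem km_unit {t : C.S} {a : ρ} (h : sh t a = .unit) : P.k a * mult C sh a t = 0 := by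
  rw [mult, h, mu, mul_zero]

include hf in
theorem unit_ne' {t : C.S} {a : ρ} (h : sh t a = .unit) : C.phi (P.s a) t 0 ≠ 0 := by
  have h1 := hf t a
  rw [h] at h1
  exact h1

include hk in
theorem km_star {t : C.S} {a : ρ} {k : ℕ} (h : sh t a = .star k) :
    P.k a * mult C sh a t = 2 * k := by
  rw [mult, h, mu, hk]

include hf in
theorem star_pq {t : C.S} {a : ρ} {k : ℕ} (h : sh t a = .star k) :
    IsPQ (2 * k) (2 * k) (C.phi (P.s a) t) := by
  have h1 := hf t a
  rw [h] at h1
  exact h1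

include hk in
theorem km_tac {t : C.S} {a : ρ} (h : sh t a = .tac) : P.k a * mult C sh a t = 2 := by
  rw [mult, h, mu, hk]

include hf in
theorem tac_pq {t : C.S} {a : ρ} (h : sh t a = .tac) : IsPQ 2 4 (C.phi (P.s a) t) := by
  have h1 := hf t a
  rw [h] at h1
  exact h1

/-- normal crossings over a centre -/
theorem snc1 {t : C.S} (h : Adm (sh t)) {y : C.X} (hy : C.pi y = C.p t)
    (hy0 : (∃ a, sh t a = .tac) → y ≠ C.ci t 0 0) : (P1 P C sh hk hf).Snc y := by
  rcases h with h | ⟨a, k, hk0, ha, hb⟩ | ⟨a, b, hab, ha, hb, hc⟩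
  · exact PD.snc_unit P _ (fun b => ⟨km_unit P C sh (h b), unit_ne' P C sh hf (h b)⟩) hy
  · exact PD.snc_star P _ (by omega : 0 < 2 * k) (km_star P C sh hk ha) (star_pq P C sh hf ha)
      (fun b hba => ⟨km_unit P C sh (hb b hba), unit_ne' P C sh hf (hb b hba)⟩) hy
  · refine PD.snc_tac P _ (by norm_num : 2 < 4) (km_tac P C sh hk ha) (tac_pq P C sh hf ha)
      (b := b) ?_ (fun c hca hcb => ⟨km_unit P C sh (hc c hca hcb), unit_ne' P C sh hf (hc c hca hcb)⟩)
      hy (hy0 ⟨a, ha⟩)
    rcases hb with hb | ⟨k, hk0, hb⟩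
    · exact Or.inr ⟨km_unit P C sh hb, unit_ne' P C sh hf hb⟩
    · exact Or.inl ⟨2 * k, by omega, km_star P C sh hk hb, star_pq P C sh hf hb⟩

/-! ### the second step -/

/-- the tacnode centres -/
def tau : Set C.S := {t | ∃ a, sh t a = .tac}

variable [Finite C.S]

/-- the second centres -/
abbrev C2 : Ctr C.atl := c2 C (tau C sh)

open Classical in
/-- the shapes at the second centres -/
def sh2 (t : (C2 C sh).S) (a : ρ) : Shape := if sh t.1 a = .tac then .star 1 else .unit

variable (hadm : ∀ t, Adm (sh t))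

include hadm in
theorem ok2 : ∀ t a, Ok (sh2 C sh t a) ((C2 C sh).phi ((P1 P C sh hk hf).s a) t) := by
  intro t a
  unfold sh2
  split_ifs with hta
  · have h2 : IsPQ 2 (4 - 2) ((C2 C sh).phi ((P1 P C sh hk hf).s a) t) :=
      PD.pq_second P (ord_mult P C sh hk hf) (C₂ := C2 C sh) (t₂ := t) (t := t.1) rfl rfl
        (by norm_num : 2 ≤ 4) (km_tac P C sh hk hta) (tac_pq P C sh hf hta)
    exact h2
  · have key : sh t.1 a = .unit ∨ ∃ k, 0 < k ∧ sh t.1 a = .star k := by
      obtain ⟨a', ha'⟩ := t.2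
      rcases hadm t.1 with h | ⟨b, k, hk0, hb, hc⟩ | ⟨b, b', hbb, hb, hb', hc⟩
      · exact Or.inl (h a)
      · by_cases h : a = b
        · rw [h]
          exact Or.inr ⟨k, hk0, hb⟩
        · exact Or.inl (hc a h)
      · by_cases h : a = b'
        · rw [h]
          exact hb'
        · refine Or.inl (hc a (fun h' => hta ?_) h)
          rw [h', hb]
    show (C2 C sh).phi ((P1 P C sh hk hf).s a) t 0 ≠ 0
    rcases key with h | ⟨k, hk0, h⟩
    · exact PD.unit_second P (ord_mult P C sh hk hf) (C₂ := C2 C sh) (t₂ := t) (t := t.1) rfl rfl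
        (km_unit P C sh h) (unit_ne' P C sh hf h)
    · exact PD.star_second P (ord_mult P C sh hk hf) (C₂ := C2 C sh) (t₂ := t) (t := t.1) rfl rfl
        (by omega : 0 < 2 * k) (km_star P C sh hk h) (star_pq P C sh hf h)

include hadm in
theorem adm2 (t : (C2 C sh).S) : Adm (sh2 C sh t) := by
  obtain ⟨a, ha⟩ := t.2
  refine Or.inr (Or.inl ⟨a, 1, one_pos, ?_, fun b hb => ?_⟩)
  · rw [sh2, if_pos ha]
  · rw [sh2, if_neg]
    intro hbt
    rcases hadm t.1 with h | ⟨b', k, hk0, hb', hc⟩ | ⟨b', b'', hbb, hb', hb'', hc⟩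
    · have h1 := h a
      rw [ha] at h1
      cases h1
    · by_cases h : a = b'
      · rw [h, hb'] at ha
        cases ha
      · have h1 := hc a h
        rw [ha] at h1
        cases h1
    · have h1 : ∀ c, sh t.1 c = .tac → c = b' := by
        intro c hct
        by_contra hne
        by_cases h2 : c = b''
        · rw [h2] at hct
          rcases hb'' with h3 | ⟨k, -, h3⟩ <;> · rw [hct] at h3; cases h3
        · have h3 := hc c hne h2
          rw [hct] at h3
          cases h3
      exact hb ((h1 b hbt).trans (h1 a ha).symm)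

/-- the divided sections on the second blow-up -/
def P2 : PD (C2 C sh).atl ρ :=
  P1 (P1 P C sh hk hf) (C2 C sh) (sh2 C sh) hk (ok2 P C sh hk hf hadm)

@[simp] theorem P2_k : (P2 P C sh hk hf hadm).k = P.k := rfl

/-- **normal crossings everywhere on the second blow-up** -/
theorem snc2 (hoff : ∀ x, x ∉ C.Z → P.Snc x) : ∀ y, (P2 P C sh hk hf hadm).Snc y := by
  refine two_step C (tau C sh) (Q₀ := P.Snc) (Q₁ := (P1 P C sh hk hf).Snc) hoff ?_ ?_ ?_ ?_
  · intro y hy h
    exact P.bl_snc_off _ hy h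
  · intro t y hy hne
    exact snc1 P C sh hk hf (hadm t) hy fun h => hne h
  · intro y hy h
    exact (P1 P C sh hk hf).bl_snc_off _ hy h
  · intro t y hy
    refine snc1 (P1 P C sh hk hf) (C2 C sh) (sh2 C sh) hk (ok2 P C sh hk hf hadm)
      (t := t) (adm2 C sh hadm t) hy ?_
    rintro ⟨a, ha⟩
    exfalso
    unfold sh2 at ha
    split_ifs at ha

/-- **the data of the cover** -/
def data2 (hoff : ∀ x, x ∉ C.Z → P.Snc x) : DCov_426.Data (C2 C sh).atl ρ :=
  (P2 P C sh hk hf hadm).toData (snc2 P C sh hk hf hadm hoff)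

@[simp] theorem data2_k (hoff : ∀ x, x ∉ C.Z → P.Snc x) (a : ρ) :
    (data2 P C sh hk hf hadm hoff).k a = 2 := hk a

end One

/-! ### from the nodes -/

section Nodes

variable {M : Type} [TopologicalSpace M] [T2Space M] {A : Atl 2 M} {ρ : Type} (P : PD A ρ)
  (hk : ∀ a, P.k a = 2) {Z : Set M} (hZ : Z.Finite) (N : ∀ x : Z, Node P (x : M))
  (hadm : ∀ x, Adm (N x).sh) (hoff : ∀ x, x ∉ Z → P.Snc x)

include hZ in
theorem finite_nodes : Finite (nodeCen N).S := hZ.to_subtype

/-- the first centres -/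
def D1 : Ctr (nodeCen N).adp :=
  haveI := finite_nodes P hZ N
  (nodeCen N).ctr (nodeCen_inj N) one_pos le_rfl

theorem D1_Z : (D1 P hZ N).Z = Z := by
  have h : (D1 P hZ N).Z = range (Subtype.val : Z → M) := rfl
  rw [h, Subtype.range_val]

instance finite_D1 : Finite (D1 P hZ N).S := finite_nodes P hZ N

/-- the shapes -/
def sh1 (s : (D1 P hZ N).S) : ρ → Shape := (N s).sh

theorem ok1 : ∀ s a, Ok (sh1 P hZ N s a) ((D1 P hZ N).phi (((nodeCen N).pd P).s a) s) := by
  have := finite_nodes P hZ N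
  intro s a
  exact ok_of_cform (nodeCen_form N one_pos le_rfl s a)

/-- the second centres -/
abbrev D2 : Ctr (D1 P hZ N).atl := C2 (D1 P hZ N) (sh1 P hZ N)

/-- **the data of the cover over the double blow-up** -/
def asm : DCov_426.Data (D2 P hZ N).atl ρ :=
  data2 ((nodeCen N).pd P) (D1 P hZ N) (sh1 P hZ N) hk (ok1 P hZ N) hadm
    fun x hx => (nodeCen N).pd_snc P |>.2 (hoff x (by rwa [D1_Z] at hx))

@[simp] theorem asm_k (a : ρ) : (asm P hk hZ N hadm hoff).k a = 2 := hk a

/-- the composed projection -/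
def piN (y : (D2 P hZ N).X) : M := (D1 P hZ N).pi ((D2 P hZ N).pi y)

theorem continuous_piN : Continuous (piN P hZ N) :=
  (D1 P hZ N).continuous_pi.comp (D2 P hZ N).continuous_pi

theorem holMap_piN : HolMap (D2 P hZ N).atl A (piN P hZ N) :=
  (nodeCen N).hol.comp ((D1 P hZ N).holMap_pi.comp (D2 P hZ N).holMap_pi)

/-- **positivity** -/
theorem pos_asm [CompactSpace M] (h : ∃ (L : LB A) (g : HM L), g.Pos) :
    ∃ (L : LB (D2 P hZ N).atl) (g : HM L), g.Pos := by
  refine NPos_102.bl_pos _ (NPos_102.bl_pos _ ?_)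
  obtain ⟨L, g, hg⟩ := h
  exact ⟨_, (nodeCen N).hmUp g, (nodeCen N).hmUp_pos hg⟩

end Nodes

end

end Crest.Agent.R272.Asm2_102
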