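import Crest.Agent.R272.Cv14_414
import Crest.Agent.R272.Asm2_102

/-!
# R272, S14-ASM (helper414): S0414 from the surface `N`

`s14_asm` : `N` compact T2 with a positive bundle, `P : PD A ρ` (`k = 2`), nodes and normal crossings elsewhere;
`D := asm ..` (102), discs `S`, square classes `s`, curves, `Loc`, roots and paths ⟹ S0414.
-/

set_option autoImplicit false
set_option linter.unusedSectionVars false

open Set Filter Topology
open scoped unitInterval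

namespace Crest.Agent.R272.Asm14_414

open Crest.Agent.R275.Geo Crest.Agent.R275.Core144 Crest.Agent.R273.Fam_835 Crest.Agent.R273.Map_835
open Crest.Agent.R273.Defs_333 Crest.Agent.R273.HM_333
open Root_83 UnB_894 LbExt_259 Gm2_235 Top14_414 Wall4_275 DCov_426 Blup1_102 G14a_414 Dt14_414
open BlA_266 Adp_409 Asm2_102 CpRat423

noncomputable section

section

variable {N B C : Type} [TopologicalSpace N] [T2Space N] [TopologicalSpace B] [TopologicalSpace C]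
  {A : Atl 2 N} {AB : Atl 1 B} {AC : Atl 1 C} {ρ : Type} [Fintype ρ] (P : PD A ρ)
  (hk : ∀ a, P.k a = 2)
  {Z : Set N} (hZ : Z.Finite) (Nd : ∀ x : Z, Node P (x : N)) (hadm : ∀ x, Adm (Nd x).sh)
  (hoff : ∀ x, x ∉ Z → P.Snc x)

/-- the projection of the surface to `N` -/
def prX (x : (asm P hk hZ Nd hadm hoff).X) : N := piN P hZ Nd ((asm P hk hZ Nd hadm hoff).p x)

theorem holC_prX : HolC (asm P hk hZ Nd hadm hoff).famX (fam A) (prX P hk hZ Nd hadm hoff) :=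
  (holC_iff.2 (holMap_piN P hZ Nd)).comp (asm P hk hZ Nd hadm hoff).holC_p

theorem holC_comp_prX {K : Type} [TopologicalSpace K] {m : ℕ} {AK : Atl m K} {f : N → K}
    (hf : HolMap A AK f) : HolC (asm P hk hZ Nd hadm hoff).famX (fam AK)
      (fun x => f (prX P hk hZ Nd hadm hoff x)) :=
  (holC_iff.2 hf).comp (holC_prX P hk hZ Nd hadm hoff)

/-- **S0414 from the surface `N`** -/
theorem s14_asm [CompactSpace N] (hpos : ∃ (L : LB A) (g : HM L), g.Pos)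
    {h g : B → C} {z0 : B} {w0 : C} (S : Discs AB AC h g z0 w0)
    {π1 : (asm P hk hZ Nd hadm hoff).X → B} {π2 : (asm P hk hZ Nd hadm hoff).X → C}
    (s : Sq14 (asm P hk hZ Nd hadm hoff).famX AB AC h g z0 w0 π1 π2)
    {Zc : Set (asm P hk hZ Nd hadm hoff).X} (hcv : CurvesOn (asm P hk hZ Nd hadm hoff).famX Zc)
    (hloc : Loc ((S.dat s).bd S.hS) ((S.dat s).rsB S.hS)) {Zh : Set (S.dat s).Xh}
    (hZh : ∀ y ∈ Zh, ((S.dat s).T y : ℂ) = 0 ∧ ((S.dat s).W y : ℂ) = 0)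
    (hZγ : ∀ y ∈ Zh, pbFst (S.dat s).qp (S.dat s).π y ∈ Zc)
    (R : Zh → Fin 4 → (S.dat s).Xh → ℂ)
    (hR : ∀ (y : Zh) (a : Fin 4), HRt (S.dat s).CXh ((S.dat s).gg a) (R y a) (y : (S.dat s).Xh))
    (hRc : ∀ y : Zh, ∀ᶠ y' : Zh in 𝓝 y, ∀ a, R y' a =ᶠ[𝓝 (y' : (S.dat s).Xh)] R y a)
    {z₀ z₁ z₂ z₃ : Zh} (k₁ : Path z₀ z₁) (r₁ : Path z₁ z₂) (k₂ : Path z₂ z₃) (r₂ : Path z₃ z₀)
    (hk₁ : Arc R k₁) (hk₂ : Arc R k₂) (hr₁ : ∀ t, SlR (R (r₁ t)) (r₁ t : (S.dat s).Xh) 0)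
    (hr₂ : ∀ t, SlR (R (r₂ t)) (r₂ t : (S.dat s).Xh) 0) : S14 := by
  refine s14_towerG (A := (nodeCen Nd).adp) ?_ (D1 P hZ Nd) (D2 P hZ Nd)
    (asm P hk hZ Nd hadm hoff) hcv (S.dat s).cov_fst ((S.dat s).bd S.hS) ((S.dat s).rsB S.hS)
    hloc hZh hZγ R hR hRc k₁ r₁ k₂ r₂ hk₁ hk₂ hr₁ hr₂
  obtain ⟨L, g, hg⟩ := hpos
  exact ⟨_, (nodeCen Nd).hmUp g, (nodeCen Nd).hmUp_pos hg⟩

end

end

end Crest.Agent.R272.Asm14_414
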