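import Crest.Agent.R272.Refl2_246

/-!
# R272, leaf IDENT-E (helper834): even functions of two variables descend
-/

set_option autoImplicit false
set_option linter.unusedSectionVars false

open Set Filter Topology
open scoped ContDiff

namespace Crest.Agent.R272.Idn_834

open Crest.Agent.R275.Geo Crest.Agent.R272.Refl_246

noncomputable section

/-- a square root -/
def rt (t : ℂ) : ℂ := t ^ (1 / 2 : ℂ)

theorem rt_sq (t : ℂ) : rt t ^ 2 = t := by
  unfold rt
  rw [← Complex.cpow_nat_mul]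
  norm_num

theorem norm_rt (t : ℂ) : ‖rt t‖ ^ 2 = ‖t‖ := by
  rw [← norm_pow, rt_sq]

theorem rt_zero : rt 0 = 0 := by
  have := rt_sq 0
  exact pow_eq_zero_iff (two_ne_zero) |>.1 this

theorem continuousAt_rt_zero : ContinuousAt rt 0 := by
  rw [Metric.continuousAt_iff]
  intro ε hε
  refine ⟨ε ^ 2, by positivity, fun {t} ht => ?_⟩
  rw [dist_zero_right] at ht
  rw [rt_zero, dist_zero_right]
  have h1 := norm_rt t
  have h2 : ‖rt t‖ ^ 2 < ε ^ 2 := by rw [h1]; exact ht
  exact lt_of_pow_lt_pow_left₀ 2 hε.le h2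

/-- **descent of even functions** -/
theorem even_desc {f : ℂ × ℂ → ℂ} (hf : AnalyticAt ℂ f 0)
    (he : ∀ᶠ p in 𝓝 (0 : ℂ × ℂ), f (p.1, -p.2) = f p) :
    ∃ h : ℂ × ℂ → ℂ, AnalyticAt ℂ h 0 ∧ ∀ᶠ p in 𝓝 (0 : ℂ × ℂ), f p = h (p.1, p.2 ^ 2) := by
  obtain ⟨r, hr, hball⟩ := Metric.eventually_nhds_iff_ball.1 (hf.eventually_analyticAt.and he)
  have hmem : ∀ a b : ℂ, ‖a‖ < r → ‖b‖ < r → (a, b) ∈ Metric.ball (0 : ℂ × ℂ) r := by
    intro a b ha hb
    rw [mem_ball_zero_iff, Prod.norm_def]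
    exact max_lt ha hb
  let H : Cn 2 → ℂ := fun w => f (w 0, rt (w 1))
  let O : Set (Cn 2) := {w | ‖w 0‖ < r ∧ ‖w 1‖ < r ^ 2}
  have hO : IsOpen O := by
    have h1 : Continuous fun w : Cn 2 => ‖w 0‖ := by fun_prop
    have h2 : Continuous fun w : Cn 2 => ‖w 1‖ := by fun_prop
    exact (isOpen_lt h1 continuous_const).inter (isOpen_lt h2 continuous_const)
  have hrt : ∀ t : ℂ, ‖t‖ < r ^ 2 → ‖rt t‖ < r := by
    intro t ht
    have h1 := norm_rt t
    exact lt_of_pow_lt_pow_left₀ 2 hr.le (by rw [h1]; exact ht)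
  have hD : ∀ z ∈ O, z 1 ≠ 0 → DifferentiableAt ℂ H z := by
    intro z hz hz1
    let c : ℂ → ℂ := fun t => rt (z 1) * (t / z 1) ^ (1 / 2 : ℂ)
    have hc1 : c (z 1) = rt (z 1) := by simp [c, div_self hz1]
    have hc2 : ∀ t, c t ^ 2 = t := by
      intro t
      simp only [c, mul_pow, rt_sq]
      have : ((t / z 1) ^ (1 / 2 : ℂ)) ^ 2 = t / z 1 := by
        rw [← Complex.cpow_nat_mul]
        norm_num
      rw [this, mul_div_cancel₀ _ hz1]
    have hc3 : DifferentiableAt ℂ c (z 1) := by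
      refine DifferentiableAt.const_mul ?_ _
      refine DifferentiableAt.cpow (by fun_prop) (by fun_prop) ?_
      rw [div_self hz1]
      exact Complex.one_mem_slitPlane
    have h1 : DifferentiableAt ℂ (fun w : Cn 2 => c (w 1)) z :=
      DifferentiableAt.comp z (g := c) (f := fun w : Cn 2 => w 1) hc3 (by fun_prop)
    have h2 : DifferentiableAt ℂ (fun w : Cn 2 => (w 0, c (w 1))) z :=
      DifferentiableAt.prodMk (by fun_prop) h1
    have h3 : DifferentiableAt ℂ f (z 0, c (z 1)) := by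
      rw [hc1]
      exact (hball _ (hmem _ _ hz.1 (hrt _ hz.2))).1.differentiableAt
    have h4 := DifferentiableAt.comp z (g := f) (f := fun w : Cn 2 => (w 0, c (w 1))) h3 h2
    refine h4.congr_of_eventuallyEq ?_
    filter_upwards [hO.mem_nhds hz] with w hw
    change f (w 0, rt (w 1)) = f (w 0, c (w 1))
    have h5 : rt (w 1) ^ 2 = c (w 1) ^ 2 := by rw [rt_sq, hc2]
    rcases sq_eq_sq_iff_eq_or_eq_neg.1 h5 with h6 | h6
    · rw [h6]
    · have h7 := (hball _ (hmem _ _ hw.1 (hrt _ hw.2))).2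
      simp only at h7
      rw [← h7, h6, neg_neg]
  have hC : ∀ z ∈ O, ContinuousAt H z := by
    intro z hz
    by_cases hz1 : z 1 = 0
    · have h1 : ContinuousAt (fun w : Cn 2 => rt (w 1)) z := by
        refine ContinuousAt.comp (g := rt) (f := fun w : Cn 2 => w 1) ?_ (by fun_prop)
        rw [hz1]
        exact continuousAt_rt_zero
      have h2 : ContinuousAt (fun w : Cn 2 => (w 0, rt (w 1))) z :=
        ContinuousAt.prodMk (by fun_prop) h1
      refine ContinuousAt.comp (g := f) (f := fun w : Cn 2 => (w 0, rt (w 1))) ?_ h2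
      exact (hball _ (hmem _ _ hz.1 (hrt _ hz.2))).1.continuousAt
    · exact (hD z hz hz1).continuousAt
  have hA : ∀ z ∈ O, DifferentiableAt ℂ H z := by
    intro z hz
    refine differentiableAt_of_coord 1 ?_ ?_
    · filter_upwards [hO.mem_nhds hz] with w hw using hC w hw
    · filter_upwards [hO.mem_nhds hz] with w hw hw1 using hD w hw hw1
  have h0 : (0 : Cn 2) ∈ O := by
    refine ⟨?_, ?_⟩
    · simpa using hr
    · have : 0 < r ^ 2 := by positivity
      simpa using this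
  have hAn : AnalyticAt ℂ H 0 := by
    have h1 : ContDiffAt ℂ ω H 0 :=
      (Crest.Agent.R266.SCV.contDiffOn_omega_of_differentiableOn hO
        (fun z hz => (hA z hz).differentiableWithinAt)).contDiffAt (hO.mem_nhds h0)
    exact h1.analyticAt
  let m : ℂ × ℂ →L[ℂ] Cn 2 :=
    (ContinuousLinearMap.fst ℂ ℂ ℂ).smulRight (EuclideanSpace.single 0 (1 : ℂ)) +
      (ContinuousLinearMap.snd ℂ ℂ ℂ).smulRight (EuclideanSpace.single 1 (1 : ℂ))
  have hm0 : ∀ p : ℂ × ℂ, m p 0 = p.1 := by intro p; simp [m]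
  have hm1 : ∀ p : ℂ × ℂ, m p 1 = p.2 := by intro p; simp [m]
  refine ⟨fun q => H (m q), ?_, ?_⟩
  · refine AnalyticAt.comp (g := H) (f := m) ?_ (m.analyticAt 0)
    rw [map_zero]
    exact hAn
  · filter_upwards [Metric.ball_mem_nhds (0 : ℂ × ℂ) hr] with p hp
    change f p = f (m (p.1, p.2 ^ 2) 0, rt (m (p.1, p.2 ^ 2) 1))
    rw [hm0, hm1]
    simp only
    have h5 : rt (p.2 ^ 2) ^ 2 = p.2 ^ 2 := rt_sq _
    rcases sq_eq_sq_iff_eq_or_eq_neg.1 h5 with h6 | h6
    · rw [h6]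
    · rw [h6]
      exact ((hball p hp).2).symm

end

end Crest.Agent.R272.Idn_834
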