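import Crest.Agent.R272.Idn2_834
import Crest.Agent.R272.IdnE_834

/-!
# R272, leaf D4 (helper834), part 1: from the Abel-Jacobi description to a holomorphic immersion
`f : ℂ² → M`

`QHol 𝒞 FM q` : `q : C × C → M` is continuous, its fibres are the orbits of the swap and `Γ`, and it
is holomorphic and immersive in the natural coordinates (product coordinates off the diagonal,
`(z + z', (z - z')²)` on the diagonal, `U` near `Γ`).

`QHol.hol` : if `q` is presented by `π : ℂ² → range q` (956's `IsJac`), then `f = val ∘ π` is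
holomorphic and immersive in the charts of `M`.
-/

set_option autoImplicit false
set_option linter.unusedSectionVars false

open Set Filter Topology
open scoped ContDiff

namespace Crest.Agent.R272.Ax_834

open Crest.Agent.R275.Geo Crest.Agent.R273.Fam_835 Crest.Agent.R272.Refl_246
open Crest.Agent.R272.AJ_956 Crest.Agent.R272.Idn_834

noncomputable section

/-- analytic at `z₀` with injective derivative -/
def Imm {E F : Type*} [NormedAddCommGroup E] [NormedSpace ℂ E] [NormedAddCommGroup F]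
    [NormedSpace ℂ F] (Q : E → F) (z₀ : E) : Prop :=
  AnalyticAt ℂ Q z₀ ∧ ∀ v, fderiv ℂ Q z₀ v = 0 → v = 0

variable {C : Type} [TopologicalSpace C] (𝒞 : Cur C) {m : ℕ} {M : Type} [TopologicalSpace M]

/-- holomorphic immersive parametrisation of a surface by `C × C` -/
structure QHol (FM : Fam m M) (q : C × C → M) : Prop where
  cont : Continuous q
  fib : ∀ x x', q x = q x' ↔ x' = x ∨ x' = x.swap ∨ (x ∈ 𝒞.Gam ∧ x' ∈ 𝒞.Gam)
  off : ∀ x : C × C, x ∉ 𝒞.Gam → x.1 ≠ x.2 → ∃ j, q x ∈ (FM.e j).source ∧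
    ∃ Q : ℂ × ℂ → Cn m, Imm Q 0 ∧ ∀ᶠ y in 𝓝 x, FM.e j (q y) = Q (𝒞.k x.1 y.1, 𝒞.k x.2 y.2)
  diag : ∀ c : C, 𝒞.iv c ≠ c → ∃ j, q (c, c) ∈ (FM.e j).source ∧
    ∃ Q : ℂ × ℂ → Cn m, Imm Q 0 ∧ ∀ᶠ y in 𝓝 ((c, c) : C × C), FM.e j (q y) =
      Q (𝒞.k c y.1 + 𝒞.k c y.2, (𝒞.k c y.1 - 𝒞.k c y.2) ^ 2)
  gam : ∀ (N : Set (C × C)) (U : C × C → E2), 𝒞.NearE N U → ∃ j, (∀ c, q (c, 𝒞.iv c) ∈
    (FM.e j).source) ∧ ∃ κ : E2 → Cn m, Imm κ 0 ∧ ∀ᶠ y in 𝓝ˢ 𝒞.Gam, FM.e j (q y) = κ (U y)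

variable {𝒞} {FM : Fam m M} {q : C × C → M}

/-- the map onto the image -/
def rq (q : C × C → M) : C × C → range q := fun x => ⟨q x, mem_range_self x⟩

theorem QHol.isQ (h : QHol 𝒞 FM q) : 𝒞.IsQ (rq q) where
  cont := h.cont.subtype_mk _
  surj := by
    rintro ⟨_, x, rfl⟩
    exact ⟨x, rfl⟩
  fib x x' := by
    rw [← h.fib x x']
    exact Subtype.ext_iff

/-- conclusion at one point -/
def GoodF (FM : Fam m M) (f : E2 → M) (z : E2) : Prop :=
  ∃ j, f z ∈ (FM.e j).source ∧ Imm (fun w => FM.e j (f w)) z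

theorem imm_comp {E F G : Type*} [NormedAddCommGroup E] [NormedSpace ℂ E] [NormedAddCommGroup F]
    [NormedSpace ℂ F] [NormedAddCommGroup G] [NormedSpace ℂ G] {Q : F → G} {B : E → F} {z : E}
    (hQ : Imm Q (B z)) (hB : Imm B z) : Imm (fun w => Q (B w)) z := by
  refine ⟨hQ.1.comp hB.1, fun v hv => ?_⟩
  have h1 : fderiv ℂ (fun w => Q (B w)) z = (fderiv ℂ Q (B z)).comp (fderiv ℂ B z) :=
    fderiv_comp z hQ.1.differentiableAt hB.1.differentiableAt
  rw [h1] at hv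
  exact hB.2 v (hQ.2 _ hv)

theorem imm_congr {E F : Type*} [NormedAddCommGroup E] [NormedSpace ℂ E] [NormedAddCommGroup F]
    [NormedSpace ℂ F] {Q R : E → F} {z : E} (h : Imm Q z) (he : ∀ᶠ w in 𝓝 z, Q w = R w) :
    Imm R z := by
  refine ⟨h.1.congr he, fun v hv => h.2 v ?_⟩
  rw [Filter.EventuallyEq.fderiv_eq he]
  exact hv

theorem imm_of_equiv {E F : Type*} [NormedAddCommGroup E] [NormedSpace ℂ E]
    [NormedAddCommGroup F] [NormedSpace ℂ F] {Q : E → F} {z : E} (h : AnalyticAt ℂ Q z)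
    {Q' : E ≃L[ℂ] F} (hQ : HasFDerivAt Q (Q' : E →L[ℂ] F) z) : Imm Q z := by
  refine ⟨h, fun v hv => ?_⟩
  rw [hQ.fderiv] at hv
  exact Q'.injective (by rw [map_zero]; exact hv)

/-- local inverse of an analytic map with invertible derivative -/
theorem exists_loc_inv {E F : Type*} [NormedAddCommGroup E] [NormedSpace ℂ E] [CompleteSpace E]
    [NormedAddCommGroup F] [NormedSpace ℂ F] [CompleteSpace F] {A : E → F} {z₀ : E}
    (hA : AnalyticAt ℂ A z₀) {A' : E ≃L[ℂ] F} (hA' : HasFDerivAt A (A' : E →L[ℂ] F) z₀) :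
    ∃ B : F → E, B (A z₀) = z₀ ∧ Imm B (A z₀) ∧ ∀ᶠ v in 𝓝 (A z₀), A (B v) = v := by
  have hc : ContDiffAt ℂ ω A z₀ := hA.contDiffAt
  have hs : HasStrictFDerivAt A (A' : E →L[ℂ] F) z₀ := by
    have := hA.hasStrictFDerivAt
    rwa [hA'.fderiv] at this
  let e := hc.toOpenPartialHomeomorph A hA' (by simp)
  refine ⟨hc.localInverse hA' (by simp), hc.localInverse_apply_image hA' (by simp), ?_, ?_⟩
  · have h1 : ContDiffAt ℂ ω (hc.localInverse hA' (by simp)) (A z₀) :=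
      hc.to_localInverse hA' (by simp)
    have h2 : HasStrictFDerivAt (hs.localInverse A A' z₀) (A'.symm : F →L[ℂ] E) (A z₀) :=
      hs.to_localInverse
    refine imm_of_equiv (Q' := A'.symm) h1.analyticAt ?_
    exact h2.hasFDerivAt
  · exact hs.eventually_right_inverse

end

end Crest.Agent.R272.Ax_834
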