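import Crest.Agent.R272.Ax2_834
import Crest.Agent.R272.HFam_342

/-!
# R272, leaf D4 (helper834), part 3: immersions read in given coordinates, and the quotient by a
reflection

`ImmW F q x κ` : near `x` the map `q` is `Q ∘ κ` in a chart of `F`, `Q` analytic and immersive at
`0` (`κ x = 0`);
`ImmW.comp_LC` : composition with local biholomorphisms;
`lC_pr` : the projection to the orbit space is a local biholomorphism at points with trivial
stabiliser; `immW_pr_diag` : symmetric coordinates on the diagonal.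
-/

set_option autoImplicit false
set_option linter.unusedSectionVars false

open Set Filter Topology
open scoped ContDiff

namespace Crest.Agent.R272.Ax_834

open Crest.Agent.R275.Geo Crest.Agent.R273.Fam_835 Crest.Agent.R272.Refl_246
open Crest.Agent.R272.AJ_956 Crest.Agent.R272.Idn_834 Crest.Agent.R272.HFam_342

noncomputable section

variable {n : ℕ} {M M' X : Type} [TopologicalSpace M] [TopologicalSpace M'] [TopologicalSpace X]

/-- immersion read in the coordinates `κ` -/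
def ImmW (F : Fam n M) (q : X → M) (x : X) (κ : X → ℂ × ℂ) : Prop :=
  ∃ j, q x ∈ (F.e j).source ∧ ∃ Q : ℂ × ℂ → Cn n, Imm Q 0 ∧ ∀ᶠ y in 𝓝 x, F.e j (q y) = Q (κ y)

/-- holomorphy near a point gives analyticity in charts -/
theorem an_rc {m : ℕ} {F : Fam n M} {F' : Fam m M'} {h : M → M'} {u : M}
    (hev : ∀ᶠ y in 𝓝 u, HC F F' h y) {i : F.ι} {j : F'.ι} (hi : u ∈ (F.e i).source)
    (hj : h u ∈ (F'.e j).source) : AnalyticAt ℂ (rc F F' h i j) (F.e i u) := by
  have hc : ContinuousAt h u := hev.self_of_nhds.1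
  have h1 : ∀ᶠ y in 𝓝 u, HC F F' h y ∧ h y ∈ (F'.e j).source :=
    hev.and (hc.eventually ((F'.e j).open_source.mem_nhds hj))
  have h2 := eventually_chartC hi h1
  have h3 : ∀ᶠ z in 𝓝 (F.e i u), DifferentiableAt ℂ (rc F F' h i j) z := by
    filter_upwards [h2] with z hz
    have h4 := hz.2.1.2 i j ((F.e i).map_target hz.1) hz.2.2
    rwa [(F.e i).right_inv hz.1] at h4
  obtain ⟨V, hV, hVo, hzV⟩ := eventually_nhds_iff.1 h3
  have h5 : ContDiffAt ℂ ω (rc F F' h i j) (F.e i u) :=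
    (Crest.Agent.R266.SCV.contDiffOn_omega_of_differentiableOn hVo
      (fun z hz => (hV z hz).differentiableWithinAt)).contDiffAt (hVo.mem_nhds hzV)
  exact h5.analyticAt

theorem ImmW.comp_LC {F : Fam n M} {F' : Fam n M'} {q : X → M} {x : X} {κ : X → ℂ × ℂ}
    (hq : ImmW F q x κ) (hκ : κ x = 0) (hc : ContinuousAt q x) {h : M → M'}
    (hev : ∀ᶠ y in 𝓝 (q x), HC F F' h y) (hl : LC F F' h (q x)) :
    ImmW F' (fun y => h (q y)) x κ := by
  obtain ⟨j, hj, Q, hQ, hQe⟩ := hq
  obtain ⟨j', hj'⟩ := F'.cover (h (q x))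
  refine ⟨j', hj', fun z => rc F F' h j j' (Q z), ?_, ?_⟩
  · have h0 : Q 0 = F.e j (q x) := by
      have := hQe.self_of_nhds
      rw [hκ] at this
      exact this.symm
    refine imm_comp (Q := rc F F' h j j') (B := Q) ?_ hQ
    rw [h0]
    refine ⟨an_rc hev hj hj', fun v hv => ?_⟩
    refine hl.2 j j' hj hj' ?_
    rw [hv, map_zero]
  · filter_upwards [hQe, hc.eventually ((F.e j).open_source.mem_nhds hj)] with y hy hy2
    rw [← hy]
    unfold Crest.Agent.R272.HFam_342.rc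
    rw [(F.e j).left_inv hy2]

/-! ### the projection to the orbit space -/

variable {Y : Type} [TopologicalSpace Y] {C : Fam n Y} {G : Type} [Group G] [MulAction G Y]
  [ContinuousConstSMul G Y] [Nonempty Y]

/-- the derivative of `sq a` is injective off the hyperplane -/
theorem inj_sq (a : Fin n) {w : Cn n} (hw : w a ≠ 0) :
    Function.Injective (fderiv ℂ (sq a) w) := by
  obtain ⟨r, hr1, hr2, hr3⟩ := exists_sqrt a hw
  have h1 : HasFDerivAt (sq a) (fderiv ℂ (sq a) w) (r (sq a w)) := by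
    rw [hr1]
    exact (differentiable_sq a w).hasFDerivAt
  have h2 := HasFDerivAt.comp (sq a w) h1 hr2.hasFDerivAt
  have h3 : HasFDerivAt (sq a ∘ r) (ContinuousLinearMap.id ℂ (Cn n)) (sq a w) :=
    (hasFDerivAt_id _).congr_of_eventuallyEq (hr3.mono fun z hz => hz)
  have h4 := h2.unique h3
  have hsurj : Function.Surjective (fderiv ℂ (sq a) w) := fun v => by
    refine ⟨fderiv ℂ r (sq a w) v, ?_⟩
    exact congrArg (fun T => T v) h4
  have := (LinearMap.injective_iff_surjective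
    (f := (fderiv ℂ (sq a) w : Cn n →ₗ[ℂ] Cn n))).2 hsurj
  exact this

/-- a chart with trivial reflection does not exist -/
theorem rc_ne_one (c : RC G C) {s : G} {a : Fin n} (hk : c.k = some (s, a)) {u : Y}
    (hu : u ∈ c.e.source) : s ≠ 1 := by
  intro hs
  have h1 : ∀ z ∈ c.e.target, z a = 0 := by
    intro z hz
    have h2 := c.ref s a hk _ (c.e.map_target hz)
    rw [hs, one_smul, c.e.right_inv hz] at h2
    have h3 := congrArg (fun v : Cn n => v a) h2
    simp only [rf_same] at h3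
    have h4 : (2 : ℂ) * z a = 0 := by linear_combination h3
    simpa using h4
  have h5 : c.e.target ∈ 𝓝 (c.e u) := c.e.open_target.mem_nhds (c.e.map_source hu)
  have hc : Continuous fun t : ℂ => c.e u + t • EuclideanSpace.single a (1 : ℂ) := by fun_prop
  have h6 : ∀ᶠ t in 𝓝 (0 : ℂ), c.e u + t • EuclideanSpace.single a (1 : ℂ) ∈ c.e.target := by
    have := hc.tendsto 0
    rw [zero_smul, add_zero] at this
    exact this h5
  have h7 : ∀ᶠ t in 𝓝[≠] (0 : ℂ), c.e u + t • EuclideanSpace.single a (1 : ℂ) ∈ c.e.target ∧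
      t ≠ 0 := (h6.filter_mono nhdsWithin_le_nhds).and self_mem_nhdsWithin
  obtain ⟨t, ht, ht0⟩ := h7.exists
  have h8 := h1 _ ht
  have h9 := h1 _ (c.e.map_source hu)
  simp only [PiLp.add_apply, PiLp.smul_apply, PiLp.single_apply, if_true, h9,
    zero_add, smul_eq_mul, mul_one] at h8
  exact ht0 h8

theorem rc_coord_ne (c : RC G C) {s : G} {a : Fin n} (hk : c.k = some (s, a)) {u : Y}
    (hu : u ∈ c.e.source) (hs : s • u ≠ u) : c.e u a ≠ 0 := by
  intro h0
  apply hs
  refine c.e.injOn (c.inv s a hk u hu) hu ?_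
  rw [c.ref s a hk u hu, rf, h0, neg_zero, ← h0, up_self]

/-- the projection is a local biholomorphism at points with trivial stabiliser -/
theorem lC_pr (hG : ∀ g : G, HolC C C (fun y => g • y))
    (hcov : ∀ y : Y, ∃ c : RC G C, y ∈ c.e.source) {u : Y} (hst : ∀ g : G, g • u = u → g = 1) :
    LC C (qFam hG hcov) (pr G) u := by
  obtain ⟨c, hc⟩ := hcov u
  obtain ⟨i, hi⟩ := C.cover u
  refine LC.of (B := qFam hG hcov) ((holC_pi hG hcov).hC u) i c hi (c.mem_eM_source hc) ?_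
  -- the chart change `c.e ∘ (C.e i).symm`
  have hd : DifferentiableAt ℂ (fun z => c.e ((C.e i).symm z)) (C.e i u) :=
    (c.holi i).differentiableAt (((C.e i).isOpen_inter_preimage_symm c.e.open_source).mem_nhds
      ⟨(C.e i).map_source hi, by rw [mem_preimage, (C.e i).left_inv hi]; exact hc⟩)
  have hd' : DifferentiableAt ℂ (fun z => C.e i (c.e.symm z)) (c.e u) :=
    (c.hol i).differentiableAt ((c.e.isOpen_inter_preimage_symm (C.e i).open_source).mem_nhds
      ⟨c.e.map_source hc, by rw [mem_preimage, c.e.left_inv hc]; exact hi⟩)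
  have hinj : Function.Injective (fderiv ℂ (fun z => c.e ((C.e i).symm z)) (C.e i u)) := by
    have e1 : c.e ((C.e i).symm (C.e i u)) = c.e u := by rw [(C.e i).left_inv hi]
    have h1 := HasFDerivAt.comp (C.e i u) (g := fun z => C.e i (c.e.symm z))
      (f := fun z => c.e ((C.e i).symm z)) (by rw [e1]; exact hd'.hasFDerivAt) hd.hasFDerivAt
    have h2 : HasFDerivAt ((fun z => C.e i (c.e.symm z)) ∘ (fun z => c.e ((C.e i).symm z)))
        (ContinuousLinearMap.id ℂ (Cn n)) (C.e i u) := by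
      refine (hasFDerivAt_id _).congr_of_eventuallyEq ?_
      filter_upwards [eventually_chartC hi (c.e.open_source.mem_nhds hc)] with z hz
      simp only [Function.comp, id]
      rw [c.e.left_inv hz.2, (C.e i).right_inv hz.1]
    have h3 := h1.unique h2
    intro v w hvw
    have h5 := congrArg (fun T => T v) h3
    have h6 := congrArg (fun T => T w) h3
    simp only [ContinuousLinearMap.comp_apply, ContinuousLinearMap.id_apply] at h5 h6
    rw [← h5, ← h6, hvw]
  have hq : Function.Injective (fderiv ℂ (qk c.k) (c.e u)) := by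
    rcases hk : c.k with _ | ⟨s, a⟩
    · simp only [qk_none, fderiv_id]
      exact fun v w h => h
    · simp only [qk_some]
      refine inj_sq a (rc_coord_ne c hk hc ?_)
      intro hs
      exact rc_ne_one c hk hc (hst s hs)
  have e2 : c.e ((C.e i).symm (C.e i u)) = c.e u := by rw [(C.e i).left_inv hi]
  have h7 : fderiv ℂ (rc C (qFam hG hcov) (pr G) i c) (C.e i u) =
      (fderiv ℂ (qk c.k) (c.e u)).comp (fderiv ℂ (fun z => c.e ((C.e i).symm z)) (C.e i u)) := by
    have h8 := fderiv_comp (C.e i u) (g := qk c.k) (f := fun z => c.e ((C.e i).symm z))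
      (differentiable_qk c.k _) hd
    rw [e2] at h8
    rw [← h8]
    refine Filter.EventuallyEq.fderiv_eq ?_
    filter_upwards [eventually_chartC hi (c.e.open_source.mem_nhds hc)] with z hz
    exact c.eM_apply hz.2
  rw [h7]
  exact hq.comp hinj

/-- antisymmetric / symmetric coordinates on the diagonal: analytic part -/
theorem sym_quot {a : Fin n} {g : ℂ × ℂ → Cn n} (hg : Imm g 0) (hg0 : g 0 a = 0)
    (hs : ∀ᶠ p in 𝓝 (0 : ℂ × ℂ), g (p.2, p.1) = rf a (g p)) :
    ∃ h : ℂ × ℂ → Cn n, Imm h 0 ∧ ∀ᶠ p in 𝓝 (0 : ℂ × ℂ), sq a (g p) =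
      h (p.1 + p.2, (p.1 - p.2) ^ 2) := by
  classical
  let L : ℂ × ℂ → ℂ × ℂ := fun p => ((p.1 + p.2) / 2, (p.1 - p.2) / 2)
  let Lc : (ℂ × ℂ) →L[ℂ] (ℂ × ℂ) :=
    ((1 / 2 : ℂ) • (ContinuousLinearMap.fst ℂ ℂ ℂ + ContinuousLinearMap.snd ℂ ℂ ℂ)).prod
      ((1 / 2 : ℂ) • (ContinuousLinearMap.fst ℂ ℂ ℂ - ContinuousLinearMap.snd ℂ ℂ ℂ))
  have hL : ∀ p, Lc p = L p := by
    intro p
    simp only [Lc, L]
    refine Prod.ext ?_ ?_
    · simp; ring
    · simp; ring
  have hLe : (fun p => Lc p) = L := funext hL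
  have hLan : AnalyticAt ℂ L 0 := by rw [← hLe]; exact Lc.analyticAt 0
  have hL0 : L 0 = 0 := by simp [L]
  -- `G = g ∘ L`
  set G' : ℂ × ℂ → Cn n := fun p => g (L p) with hG'
  have hG'an : AnalyticAt ℂ G' 0 := by
    refine AnalyticAt.comp (g := g) (f := L) ?_ hLan
    rw [hL0]; exact hg.1
  have hG'imm : Imm G' 0 := by
    refine imm_comp (Q := g) (B := L) (by rw [hL0]; exact hg) ⟨hLan, fun v hv => ?_⟩
    rw [← hLe, Lc.fderiv] at hv
    rw [hL] at hv
    simp only [L, Prod.mk_eq_zero] at hv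
    obtain ⟨h1, h2⟩ := hv
    have h3 : v.1 + v.2 = 0 := by simpa using h1
    have h4 : v.1 - v.2 = 0 := by simpa using h2
    refine Prod.ext ?_ ?_
    · simp only [Prod.fst_zero]; linear_combination (h3 + h4) / 2
    · simp only [Prod.snd_zero]; linear_combination (h3 - h4) / 2
  have hsG : ∀ᶠ p in 𝓝 (0 : ℂ × ℂ), G' (p.1, -p.2) = rf a (G' p) := by
    have hLt : Tendsto L (𝓝 0) (𝓝 0) := by
      have := hLan.continuousAt.tendsto
      rwa [hL0] at this
    filter_upwards [hLt.eventually hs] with p hp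
    simp only [hG']
    rw [← hp]
    simp only [L]
    congr 2 <;> ring
  -- coordinates
  have hGb : ∀ b, AnalyticAt ℂ (fun p => G' p b) 0 := fun b =>
    ((EuclideanSpace.proj b : Cn n →L[ℂ] ℂ).analyticAt _).comp hG'an
  have hSb : ∀ b, AnalyticAt ℂ (fun p => sq a (G' p) b) 0 := by
    intro b
    by_cases hb : b = a
    · subst hb
      simp only [sq_same]
      exact (hGb b).pow 2
    · simp only [sq_ne hb]
      exact hGb b
  have hSe : ∀ b, ∀ᶠ p in 𝓝 (0 : ℂ × ℂ), sq a (G' (p.1, -p.2)) b = sq a (G' p) b := by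
    intro b
    filter_upwards [hsG] with p hp
    rw [hp, sq_rf]
  choose h hh1 hh2 using fun b => even_desc (hSb b) (hSe b)
  -- derivative data of `G'`
  have hD : HasFDerivAt G' (fderiv ℂ G' 0) 0 := hG'an.differentiableAt.hasFDerivAt
  have hDb : ∀ b, HasFDerivAt (fun p => G' p b)
      ((EuclideanSpace.proj b : Cn n →L[ℂ] ℂ).comp (fderiv ℂ G' 0)) 0 := fun b =>
    (EuclideanSpace.proj b : Cn n →L[ℂ] ℂ).hasFDerivAt.comp (0 : ℂ × ℂ) hD
  have hG'0a : G' 0 a = 0 := by simp only [hG', hL0]; exact hg0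
  -- restriction to the axes
  have hax1 : ∀ b, HasDerivAt (fun t : ℂ => G' (t, 0) b) (fderiv ℂ G' 0 (1, 0) b) 0 := by
    intro b
    have g1 : HasDerivAt (fun σ : ℂ => ((σ, 0) : ℂ × ℂ)) (1, 0) 0 :=
      (hasDerivAt_id (0 : ℂ)).prodMk (hasDerivAt_const (0 : ℂ) (0 : ℂ))
    exact HasFDerivAt.comp_hasDerivAt (0 : ℂ) (l := fun p => G' p b)
      (f := fun σ : ℂ => ((σ, 0) : ℂ × ℂ)) (hDb b) g1
  have hax2 : ∀ b, HasDerivAt (fun t : ℂ => G' (0, t) b) (fderiv ℂ G' 0 (0, 1) b) 0 := by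
    intro b
    have g1 : HasDerivAt (fun σ : ℂ => ((0, σ) : ℂ × ℂ)) (0, 1) 0 :=
      (hasDerivAt_const (0 : ℂ) (0 : ℂ)).prodMk (hasDerivAt_id (0 : ℂ))
    exact HasFDerivAt.comp_hasDerivAt (0 : ℂ) (l := fun p => G' p b)
      (f := fun σ : ℂ => ((0, σ) : ℂ × ℂ)) (hDb b) g1
  have t1 : ContinuousAt (fun t : ℂ => ((t, 0) : ℂ × ℂ)) 0 := by fun_prop
  have t2 : ContinuousAt (fun t : ℂ => ((0, t) : ℂ × ℂ)) 0 := by fun_prop
  -- `∂_σ G'_a = 0`
  have k1 : fderiv ℂ G' 0 (1, 0) a = 0 := by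
    have e1 : ∀ᶠ t in 𝓝 (0 : ℂ), G' (t, 0) a = 0 := by
      filter_upwards [t1.eventually hsG] with t ht
      have h2 := congrArg (fun v : Cn n => v a) ht
      simp only [neg_zero, rf_same] at h2
      have h4 : (2 : ℂ) * G' (t, 0) a = 0 := by linear_combination h2
      simpa using h4
    exact (hax1 a).unique ((hasDerivAt_const (0 : ℂ) (0 : ℂ)).congr_of_eventuallyEq
      (e1.mono fun t ht => ht))
  -- `∂_d G'_b = 0` for `b ≠ a`
  have k2 : ∀ b, b ≠ a → fderiv ℂ G' 0 (0, 1) b = 0 := by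
    intro b hb
    have e1 : ∀ᶠ t in 𝓝 (0 : ℂ), G' (0, -t) b = G' (0, t) b := by
      filter_upwards [t2.eventually hsG] with t ht
      have h2 := congrArg (fun v : Cn n => v b) ht
      simp only [rf_ne hb] at h2
      exact h2
    have e2 : HasDerivAt (fun t : ℂ => G' (0, -t) b) (-(fderiv ℂ G' 0 (0, 1) b)) 0 := by
      have b1 : HasDerivAt (fun t : ℂ => G' (0, t) b) (fderiv ℂ G' 0 (0, 1) b) (-0) := by
        rw [neg_zero]; exact hax2 b
      have b2 : HasDerivAt (fun t : ℂ => -t) (-1) (0 : ℂ) := (hasDerivAt_id (0 : ℂ)).neg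
      have b3 := HasDerivAt.comp (0 : ℂ) (h₂ := fun t : ℂ => G' (0, t) b)
        (h := fun t : ℂ => -t) b1 b2
      refine b3.congr_deriv ?_
      ring
    have e3 := (e2.congr_of_eventuallyEq (e1.mono fun t ht => ht.symm)).unique (hax2 b)
    have h4 : (2 : ℂ) * fderiv ℂ G' 0 (0, 1) b = 0 := by linear_combination -e3
    simpa using h4
  have k3 : fderiv ℂ G' 0 (0, 1) a ≠ 0 := by
    intro h0
    have h1 : fderiv ℂ G' 0 (0, 1) = 0 := by
      ext b
      by_cases hb : b = a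
      · subst hb; exact h0
      · exact k2 b hb
    have h2 := hG'imm.2 _ h1
    simp at h2
  have k4 : ∃ b, b ≠ a ∧ fderiv ℂ G' 0 (1, 0) b ≠ 0 := by
    by_contra hno
    push Not at hno
    have h1 : fderiv ℂ G' 0 (1, 0) = 0 := by
      ext b
      by_cases hb : b = a
      · subst hb; exact k1
      · exact hno b hb
    have h2 := hG'imm.2 _ h1
    simp at h2
  -- derivatives of `h`
  have hhd : ∀ b, HasFDerivAt (h b) (fderiv ℂ (h b) 0) 0 := fun b =>
    (hh1 b).differentiableAt.hasFDerivAt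
  have m1 : ∀ b, HasDerivAt (fun t : ℂ => h b (t, 0)) (fderiv ℂ (h b) 0 (1, 0)) 0 := by
    intro b
    have g1 : HasDerivAt (fun σ : ℂ => ((σ, 0) : ℂ × ℂ)) (1, 0) 0 :=
      (hasDerivAt_id (0 : ℂ)).prodMk (hasDerivAt_const (0 : ℂ) (0 : ℂ))
    exact HasFDerivAt.comp_hasDerivAt (0 : ℂ) (l := h b)
      (f := fun σ : ℂ => ((σ, 0) : ℂ × ℂ)) (hhd b) g1
  have m2 : ∀ b, HasDerivAt (fun t : ℂ => h b (0, t)) (fderiv ℂ (h b) 0 (0, 1)) 0 := by
    intro b
    have g1 : HasDerivAt (fun σ : ℂ => ((0, σ) : ℂ × ℂ)) (0, 1) 0 :=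
      (hasDerivAt_const (0 : ℂ) (0 : ℂ)).prodMk (hasDerivAt_id (0 : ℂ))
    exact HasFDerivAt.comp_hasDerivAt (0 : ℂ) (l := h b)
      (f := fun σ : ℂ => ((0, σ) : ℂ × ℂ)) (hhd b) g1
  have m3 : ∀ b, b ≠ a → fderiv ℂ (h b) 0 (1, 0) = fderiv ℂ G' 0 (1, 0) b := by
    intro b hb
    have e1 : ∀ᶠ t in 𝓝 (0 : ℂ), G' (t, 0) b = h b (t, 0) := by
      filter_upwards [t1.eventually (hh2 b)] with t ht
      simp only [sq_ne hb] at ht
      rw [zero_pow two_ne_zero] at ht
      exact ht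
    exact ((m1 b).congr_of_eventuallyEq (e1.mono fun t ht => ht)).unique (hax1 b)
  have m4 : fderiv ℂ (h a) 0 (1, 0) = 0 := by
    have e1 : ∀ᶠ t in 𝓝 (0 : ℂ), (0 : ℂ) = h a (t, 0) := by
      have e0 : ∀ᶠ t in 𝓝 (0 : ℂ), G' (t, 0) a = 0 := by
        filter_upwards [t1.eventually hsG] with t ht
        have h2 := congrArg (fun v : Cn n => v a) ht
        simp only [neg_zero, rf_same] at h2
        have h4 : (2 : ℂ) * G' (t, 0) a = 0 := by linear_combination h2
        simpa using h4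
      filter_upwards [t1.eventually (hh2 a), e0] with t ht ht0
      simp only [sq_same, ht0] at ht
      rw [zero_pow two_ne_zero] at ht
      exact ht
    exact ((m1 a).congr_of_eventuallyEq (e1.mono fun t ht => ht)).unique
      (hasDerivAt_const (0 : ℂ) (0 : ℂ))
  have m5 : fderiv ℂ (h a) 0 (0, 1) = (fderiv ℂ G' 0 (0, 1) a) ^ 2 := by
    have hh0 : h a (0, 0) = 0 := by
      have := (hh2 a).self_of_nhds
      simp only [sq_same, hG'0a, Prod.fst_zero, Prod.snd_zero] at this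
      rw [zero_pow two_ne_zero] at this
      exact this.symm
    have e1 : ∀ᶠ t in 𝓝 (0 : ℂ), (G' (0, t) a) ^ 2 = h a (0, t ^ 2) := by
      filter_upwards [t2.eventually (hh2 a)] with t ht
      simpa only [sq_same] using ht
    -- limits of difference quotients
    have l1 : Tendsto (fun t : ℂ => t⁻¹ * G' (0, t) a) (𝓝[≠] 0) (𝓝 (fderiv ℂ G' 0 (0, 1) a)) := by
      have := (hasDerivAt_iff_tendsto_slope_zero.1 (hax2 a))
      refine this.congr fun t => ?_
      simp only [zero_add, smul_eq_mul]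
      have h0 : G' (0, 0) a = 0 := hG'0a
      rw [h0, sub_zero]
    have l2 : Tendsto (fun t : ℂ => (t ^ 2)⁻¹ * h a (0, t ^ 2)) (𝓝[≠] 0)
        (𝓝 (fderiv ℂ (h a) 0 (0, 1))) := by
      have h3 := (hasDerivAt_iff_tendsto_slope_zero.1 (m2 a))
      have h4 : Tendsto (fun t : ℂ => t ^ 2) (𝓝[≠] 0) (𝓝[≠] 0) := by
        refine tendsto_nhdsWithin_iff.2 ⟨?_, ?_⟩
        · have : ContinuousAt (fun t : ℂ => t ^ 2) 0 := by fun_prop
          have h5 := this.tendsto
          rw [zero_pow two_ne_zero] at h5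
          exact h5.mono_left nhdsWithin_le_nhds
        · filter_upwards [self_mem_nhdsWithin] with t ht
          exact pow_ne_zero 2 ht
      refine (h3.comp h4).congr fun t => ?_
      simp only [Function.comp, zero_add, smul_eq_mul, hh0, sub_zero]
    have l3 : Tendsto (fun t : ℂ => (t ^ 2)⁻¹ * h a (0, t ^ 2)) (𝓝[≠] 0)
        (𝓝 ((fderiv ℂ G' 0 (0, 1) a) ^ 2)) := by
      refine (l1.pow 2).congr' ?_
      filter_upwards [e1.filter_mono nhdsWithin_le_nhds] with t ht
      rw [← ht, mul_pow, inv_pow]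
    exact tendsto_nhds_unique l2 l3
  refine ⟨fun p => WithLp.toLp 2 fun b => h b p, ⟨?_, ?_⟩, ?_⟩
  · have h1 : AnalyticAt ℂ (fun p : ℂ × ℂ => fun b => h b p) 0 := by
      rw [analyticAt_pi_iff]; exact hh1
    exact (((PiLp.continuousLinearEquiv 2 ℂ (fun _ : Fin n => ℂ)).symm :
      (Fin n → ℂ) →L[ℂ] Cn n).analyticAt _).comp h1
  · intro v hv
    have hH : HasFDerivAt (fun p : ℂ × ℂ => (WithLp.toLp 2 fun b => h b p : Cn n))
        (((PiLp.continuousLinearEquiv 2 ℂ (fun _ : Fin n => ℂ)).symm :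
          (Fin n → ℂ) →L[ℂ] Cn n).comp (ContinuousLinearMap.pi fun b => fderiv ℂ (h b) 0)) 0 :=
      (((PiLp.continuousLinearEquiv 2 ℂ (fun _ : Fin n => ℂ)).symm :
        (Fin n → ℂ) →L[ℂ] Cn n).hasFDerivAt).comp (0 : ℂ × ℂ) (hasFDerivAt_pi.2 hhd)
    rw [hH.fderiv] at hv
    have hvb : ∀ b, fderiv ℂ (h b) 0 v = 0 := fun b => congrArg (fun w : Cn n => w b) hv
    have hlin : ∀ b, fderiv ℂ (h b) 0 v =
        v.1 * fderiv ℂ (h b) 0 (1, 0) + v.2 * fderiv ℂ (h b) 0 (0, 1) := by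
      intro b
      have hv' : v = v.1 • ((1, 0) : ℂ × ℂ) + v.2 • ((0, 1) : ℂ × ℂ) := by
        ext <;> simp
      conv_lhs => rw [hv']
      rw [map_add, map_smul, map_smul, smul_eq_mul, smul_eq_mul]
    have h2 : v.2 = 0 := by
      have := hvb a
      rw [hlin, m4, m5, mul_zero, zero_add] at this
      rcases mul_eq_zero.1 this with h | h
      · exact h
      · exact absurd (pow_eq_zero_iff (two_ne_zero) |>.1 h) k3
    have h1 : v.1 = 0 := by
      obtain ⟨b, hb, hbne⟩ := k4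
      have := hvb b
      rw [hlin, h2, zero_mul, add_zero, m3 b hb] at this
      exact (mul_eq_zero.1 this).resolve_right hbne
    exact Prod.ext h1 h2
  · -- the formula
    have hLinv : ∀ p : ℂ × ℂ, L (p.1 + p.2, p.1 - p.2) = p := by
      intro p
      simp only [L]
      refine Prod.ext ?_ ?_
      · change (p.1 + p.2 + (p.1 - p.2)) / 2 = p.1
        ring
      · change (p.1 + p.2 - (p.1 - p.2)) / 2 = p.2
        ring
    have hT : Tendsto (fun p : ℂ × ℂ => ((p.1 + p.2, p.1 - p.2) : ℂ × ℂ)) (𝓝 0) (𝓝 0) := by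
      have hc : Continuous (fun p : ℂ × ℂ => ((p.1 + p.2, p.1 - p.2) : ℂ × ℂ)) := by fun_prop
      have := hc.tendsto 0
      simp only [Prod.fst_zero, Prod.snd_zero, add_zero, sub_self] at this
      exact this
    have hall : ∀ᶠ p in 𝓝 (0 : ℂ × ℂ), ∀ b, sq a (G' p) b = h b (p.1, p.2 ^ 2) :=
      eventually_all.2 hh2
    filter_upwards [hT.eventually hall] with p hp
    ext b
    have := hp b
    simp only [hG', hLinv] at this
    exact this

end

end Crest.Agent.R272.Ax_834
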