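import Crest.Agent.R272.Idn4_834
import Crest.Agent.R272.HFam_342

/-!
# R272, leaf IDENT-E (helper834), part 5: the theorem `ident`
-/

set_option autoImplicit false
set_option linter.unusedSectionVars false

open Set Filter Topology
open scoped ContDiff

namespace Crest.Agent.R272.Idn_834

open Crest.Agent.R275.Geo Crest.Agent.R273.Fam_835 Crest.Agent.R272.Refl_246
open Crest.Agent.R272.AJ_956 Crest.Agent.R272.HFam_342

noncomputable section

/-- chartwise holomorphy on the source of a partial homeomorphism -/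
theorem hC_of_on {n : ℕ} {M N : Type} [TopologicalSpace M] [TopologicalSpace N] {A : Fam n M}
    {B : Fam n N} {f : M → N} {W : Set M} (hW : IsOpen W) (hc : ContinuousOn f W)
    (h : ∀ i j, DifferentiableOn ℂ (fun z => B.e j (f ((A.e i).symm z)))
      ((A.e i).target ∩ (A.e i).symm ⁻¹' (W ∩ f ⁻¹' (B.e j).source))) {x : M} (hx : x ∈ W) :
    HC A B f x := by
  have hcx : ContinuousAt f x := hc.continuousAt (hW.mem_nhds hx)
  refine ⟨hcx, fun i j hi hj => ?_⟩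
  have ho : IsOpen (W ∩ f ⁻¹' (B.e j).source) := hc.isOpen_inter_preimage hW (B.e j).open_source
  refine (h i j).differentiableAt (((A.e i).isOpen_inter_preimage_symm ho).mem_nhds
    ⟨(A.e i).map_source hi, ?_⟩)
  rw [mem_preimage, (A.e i).left_inv hi]
  exact ⟨hx, hj⟩

variable {C : Type} [TopologicalSpace C] {𝒞 : Cur C} {N : Set (C × C)} {U : C × C → E2}
  {Y : Type} [TopologicalSpace Y] {CY : Fam 3 Y} {G : Type} [Group G] [MulAction G Y] {s : G}
  {V : Type} [TopologicalSpace V] {D : Fam 3 V}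

namespace Inp

variable (I : Inp 𝒞 N U CY G s D)

theorem psi_zero {i : Fin 2} {c : C} (hc : c ∈ Ci 𝒞 i) :
    I.psi i ((c, 𝒞.iv c), 0) = (D.e (I.S.d i)).symm (h3 ((tv 𝒞 i c, 0), 0)) := by
  have hg : ((c, 𝒞.iv c) : C × C) ∈ 𝒞.Gam := rfl
  simp only [psi, co, TT_gam hg, U_gam I.hN hg, zero_mul]
  rfl

theorem mem_Dm_zero {i : Fin 2} {c : C} (hc : c ∈ Ci 𝒞 i) :
    (((c, 𝒞.iv c), 0) : (C × C) × ℂ) ∈ I.Dm i :=
  ⟨I.Ge.mem i c hc, I.hN.sub rfl, I.K.sub i c hc⟩

/-- **IDENT-E** : near `e` the quotient `G \ Y` is the standard germ -/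
theorem ident [ContinuousConstSMul G Y] [Nonempty Y] [Nonempty V]
    (hG : ∀ g : G, HolC CY CY (fun y => g • y)) (hcov : ∀ y : Y, ∃ c : RC G CY, y ∈ c.e.source) :
    ∃ e : OpenPartialHomeomorph (Orb G Y) V,
      e.source = pr G '' I.OO ∧
      (∀ i, ∀ p ∈ I.Dm i, I.Ge.E i p ∈ I.OO →
        e (pr G (I.Ge.E i p)) = (D.e (I.S.d i)).symm (h3 (I.co I i p))) ∧
      (∀ i, ∀ c ∈ Ci 𝒞 i, pr G (I.Ge.E i ((c, 𝒞.iv c), 0)) ∈ e.source) ∧
      (∀ x ∈ e.source, HC (qFam hG hcov) D e x) ∧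
      (∀ u ∈ e.target, HC D (qFam hG hcov) e.symm u) ∧
      (∀ i, ∀ u ∈ (D.e (I.S.d i)).source, D.e (I.S.d i) u 1 = 0 → D.e (I.S.d i) u 2 = 0 →
        u ∈ e.target ∧ ∃ c ∈ Ci 𝒞 i, u = e (pr G (I.Ge.E i ((c, 𝒞.iv c), 0)))) := by
  obtain ⟨e, he1, he2, he3, he4, he5⟩ := exists_ident (C := CY) (D := D) hG hcov
    (O := I.OO) I.isOpen_OO (s := s)
    (fun g u hu hgu => I.grp (I.OO_sub hu).1 g (I.OO_sub hgu).1)
    (Psi := I.Psi)
    (fun u hu => (I.OO_sub hu).2.1.continuousWithinAt)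
    (fun u hu v hv => I.Psi_fib (I.OO_sub hu).1 (I.OO_sub hv).1)
    (fun u hu => (I.OO_sub hu).2.2)
  refine ⟨e, he1, ?_, ?_, ?_, ?_, ?_⟩
  · intro i p hp hpO
    rw [he3 _ hpO, I.Psi_E hp]
    rfl
  · intro i c hc
    rw [he1]
    exact mem_image_of_mem _ (I.y0_OO hc)
  · intro x hx
    exact hC_of_on (A := qFam hG hcov) (B := D) e.open_source e.continuousOn
      (fun c k => he4 c k) hx
  · intro u hu
    exact hC_of_on (A := D) (B := qFam hG hcov) e.open_target e.symm.continuousOn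
      (fun k c => he5 k c) hu
  · intro i u hu h1 h2
    obtain ⟨c, hc, hT⟩ := slope_surj I.hN i (D.e (I.S.d i) u 0)
    have h4 : I.Psi (I.Ge.E i ((c, 𝒞.iv c), 0)) = u := by
      rw [I.Psi_E (I.mem_Dm_zero hc), I.psi_zero hc]
      have h5 : h3 ((tv 𝒞 i c, 0), 0) = D.e (I.S.d i) u := by
        rw [hT]
        ext j
        fin_cases j
        · rfl
        · exact h1.symm
        · exact h2.symm
      rw [h5, (D.e (I.S.d i)).left_inv hu]
    refine ⟨?_, c, hc, ?_⟩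
    · rw [he2]
      exact ⟨_, I.y0_OO hc, h4⟩
    · have h6 := he3 _ (I.y0_OO hc)
      rw [y0] at h6
      rw [h6, h4]

end Inp

end

end Crest.Agent.R272.Idn_834
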