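import Crest.Agent.R272.Ax3_834
import Crest.Agent.R272.Idn5_834

/-!
# R272, leaf D4 (helper834), part 4: the zero section and its image in the orbit space

`ZSec Ge z` : the zero section `z : C × C → Y` of the cover `Y`;
`immW_of_frame` : immersivity of `y ↦ E (y, 0)`, `E` a biholomorphic frame;
`ZSec.off`, `ZSec.diag` : the image in the orbit space `G \ Y`, in natural coordinates.
-/

set_option autoImplicit false
set_option linter.unusedSectionVars false

open Set Filter Topology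
open scoped ContDiff

namespace Crest.Agent.R272.Ax_834

open Crest.Agent.R275.Geo Crest.Agent.R273.Fam_835 Crest.Agent.R272.Refl_246
open Crest.Agent.R272.AJ_956 Crest.Agent.R272.Idn_834 Crest.Agent.R272.HFam_342

noncomputable section

variable {C : Type} [TopologicalSpace C] {𝒞 : Cur C} {Y : Type} [TopologicalSpace Y]
  {CY : Fam 3 Y} {G : Type} [Group G] [MulAction G Y] {s : G}

/-- the zero section -/
structure ZSec (Ge : Germ 𝒞 CY G s) (z : C × C → Y) : Prop where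
  cont : Continuous z
  inj : Function.Injective z
  imm : ∀ x : C × C, ImmW CY z x (fun y => (𝒞.k x.1 y.1, 𝒞.k x.2 y.2))
  swap : ∀ x, s • z x = z x.swap
  grp : ∀ (g : G) (x x' : C × C), g • z x = z x' → g = 1 ∨ g = s
  germ : ∀ i x, ((x, 0) : (C × C) × ℂ) ∈ (Ge.E i).source → Ge.E i (x, 0) = z x

/-- `y ↦ E (y, 0)` is immersive for a biholomorphic frame `E` -/
theorem immW_of_frame {E : OpenPartialHomeomorph ((C × C) × ℂ) Y}
    (hE : ∀ c c', Cpt CY (E.symm.trans (pc 𝒞 c c'))) {z : C × C → Y}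
    (hz : ∀ y, ((y, 0) : (C × C) × ℂ) ∈ E.source → z y = E (y, 0)) {x : C × C}
    (hx : ((x, 0) : (C × C) × ℂ) ∈ E.source) :
    ImmW CY z x (fun y => (𝒞.k x.1 y.1, 𝒞.k x.2 y.2)) := by
  obtain ⟨j, hj⟩ := CY.cover (z x)
  have hc := hE x.1 x.2
  set e' := E.symm.trans (pc 𝒞 x.1 x.2) with he'
  have hpx : ((x, 0) : (C × C) × ℂ) ∈ (pc 𝒞 x.1 x.2).source := by
    rw [mem_pc]; exact ⟨𝒞.k_mem _, 𝒞.k_mem _⟩
  have hzx : z x = E (x, 0) := hz x hx
  have hmem : z x ∈ e'.source := by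
    rw [he', OpenPartialHomeomorph.trans_source, OpenPartialHomeomorph.symm_source, hzx]
    refine ⟨E.map_source hx, ?_⟩
    rw [mem_preimage, E.left_inv hx]
    exact hpx
  have he0 : ∀ y : C × C, ((y, 0) : (C × C) × ℂ) ∈ E.source → e' (z y) =
      h3 ((𝒞.k x.1 y.1, 𝒞.k x.2 y.2), 0) := by
    intro y hy
    rw [he', OpenPartialHomeomorph.trans_apply, hz y hy, E.left_inv hy, pc_apply]
  have he1 : e' (z x) = 0 := by
    rw [he0 x hx, 𝒞.k_zero, 𝒞.k_zero]
    ext i
    fin_cases i <;> rfl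
  -- the chart change
  set τ : Cn 3 → Cn 3 := fun v => CY.e j (e'.symm v) with hτ
  have ho : IsOpen (e'.target ∩ e'.symm ⁻¹' (CY.e j).source) :=
    e'.isOpen_inter_preimage_symm (CY.e j).open_source
  have h0 : (0 : Cn 3) ∈ e'.target ∩ e'.symm ⁻¹' (CY.e j).source := by
    rw [← he1]
    refine ⟨e'.map_source hmem, ?_⟩
    rw [mem_preimage, e'.left_inv hmem]
    exact hj
  have hτan : AnalyticAt ℂ τ 0 :=
    ((Crest.Agent.R266.SCV.contDiffOn_omega_of_differentiableOn ho (hc.hol j)).contDiffAt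
      (ho.mem_nhds h0)).analyticAt
  have hτi : ∀ v, fderiv ℂ τ 0 v = 0 → v = 0 := by
    have hz0 : e'.symm 0 = z x := by rw [← he1, e'.left_inv hmem]
    have hτ0 : τ 0 = CY.e j (z x) := by rw [hτ]; simp only [hz0]
    have hd : DifferentiableAt ℂ (fun w => e' ((CY.e j).symm w)) (τ 0) := by
      rw [hτ0]
      refine (hc.holi j).differentiableAt
        (((CY.e j).isOpen_inter_preimage_symm e'.open_source).mem_nhds
          ⟨(CY.e j).map_source hj, ?_⟩)
      rw [mem_preimage, (CY.e j).left_inv hj]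
      exact hmem
    have h1 := HasFDerivAt.comp (0 : Cn 3) hd.hasFDerivAt hτan.differentiableAt.hasFDerivAt
    have h2 : HasFDerivAt ((fun w => e' ((CY.e j).symm w)) ∘ τ)
        (ContinuousLinearMap.id ℂ (Cn 3)) 0 := by
      refine (hasFDerivAt_id _).congr_of_eventuallyEq ?_
      filter_upwards [ho.mem_nhds h0] with v hv
      simp only [Function.comp, id, hτ]
      rw [(CY.e j).left_inv hv.2, e'.right_inv hv.1]
    have h3 := h1.unique h2
    intro v hv
    have h4 := congrArg (fun T => T v) h3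
    simp only [ContinuousLinearMap.comp_apply, ContinuousLinearMap.id_apply, hv, map_zero] at h4
    exact h4.symm
  -- the linear part
  let Lc : (ℂ × ℂ) →L[ℂ] Cn 3 := (h3 : ((ℂ × ℂ) × ℂ) →L[ℂ] Cn 3).comp
    (ContinuousLinearMap.inl ℂ (ℂ × ℂ) ℂ)
  have hL : ∀ p, Lc p = h3 (p, 0) := fun p => rfl
  have hLi : Imm (fun p => Lc p) 0 := by
    refine ⟨Lc.analyticAt 0, fun v hv => ?_⟩
    rw [Lc.fderiv, hL] at hv
    have := h3.injective (hv.trans (map_zero h3).symm)
    exact (Prod.mk.inj this).1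
  refine ⟨j, hj, fun p => τ (Lc p), ?_, ?_⟩
  · refine imm_comp (Q := τ) (B := fun p => Lc p) ?_ hLi
    rw [map_zero]
    exact ⟨hτan, hτi⟩
  · have hcy : ContinuousAt (fun y : C × C => ((y, 0) : (C × C) × ℂ)) x := by fun_prop
    filter_upwards [hcy.eventually (E.open_source.mem_nhds hx),
      ((𝒞.k x.1).open_source.prod (𝒞.k x.2).open_source).mem_nhds
        (show x ∈ (𝒞.k x.1).source ×ˢ (𝒞.k x.2).source from ⟨𝒞.k_mem _, 𝒞.k_mem _⟩)] with y hy hy2
    have hmy : z y ∈ e'.source := by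
      rw [he', OpenPartialHomeomorph.trans_source, OpenPartialHomeomorph.symm_source, hz y hy]
      refine ⟨E.map_source hy, ?_⟩
      rw [mem_preimage, E.left_inv hy, mem_pc]
      exact hy2
    simp only [hL, hτ]
    rw [← he0 y hy, e'.left_inv hmy]

/-- immersions read in an arbitrary compatible chart -/
theorem ImmW.in_chart {n : ℕ} {X : Type} [TopologicalSpace X] {F : Fam n Y} {q : X → Y} {x : X}
    {κ : X → ℂ × ℂ} (hq : ImmW F q x κ) (hκ : κ x = 0) (hc : ContinuousAt q x)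
    {e : OpenPartialHomeomorph Y (Cn n)} (he : Cpt F e) (hx : q x ∈ e.source) :
    ∃ Q : ℂ × ℂ → Cn n, Imm Q 0 ∧ ∀ᶠ y in 𝓝 x, e (q y) = Q (κ y) := by
  obtain ⟨j, hj, Q, hQ, hQe⟩ := hq
  have h0 : Q 0 = F.e j (q x) := by
    have := hQe.self_of_nhds
    rw [hκ] at this
    exact this.symm
  set τ : Cn n → Cn n := fun v => e ((F.e j).symm v) with hτ
  have ho : IsOpen ((F.e j).target ∩ (F.e j).symm ⁻¹' e.source) :=
    (F.e j).isOpen_inter_preimage_symm e.open_source
  have hm : F.e j (q x) ∈ (F.e j).target ∩ (F.e j).symm ⁻¹' e.source :=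
    ⟨(F.e j).map_source hj, by rw [mem_preimage, (F.e j).left_inv hj]; exact hx⟩
  have hτan : AnalyticAt ℂ τ (F.e j (q x)) :=
    ((Crest.Agent.R266.SCV.contDiffOn_omega_of_differentiableOn ho (he.holi j)).contDiffAt
      (ho.mem_nhds hm)).analyticAt
  have hτi : ∀ v, fderiv ℂ τ (F.e j (q x)) v = 0 → v = 0 := by
    have hτ0 : τ (F.e j (q x)) = e (q x) := by rw [hτ]; simp only [(F.e j).left_inv hj]
    have hd : DifferentiableAt ℂ (fun w => F.e j (e.symm w)) (τ (F.e j (q x))) := by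
      rw [hτ0]
      refine (he.hol j).differentiableAt
        ((e.isOpen_inter_preimage_symm (F.e j).open_source).mem_nhds ⟨e.map_source hx, ?_⟩)
      rw [mem_preimage, e.left_inv hx]
      exact hj
    have h1 := HasFDerivAt.comp (F.e j (q x)) hd.hasFDerivAt hτan.differentiableAt.hasFDerivAt
    have h2 : HasFDerivAt ((fun w => F.e j (e.symm w)) ∘ τ)
        (ContinuousLinearMap.id ℂ (Cn n)) (F.e j (q x)) := by
      refine (hasFDerivAt_id _).congr_of_eventuallyEq ?_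
      filter_upwards [ho.mem_nhds hm] with v hv
      simp only [Function.comp, id, hτ]
      rw [e.left_inv hv.2, (F.e j).right_inv hv.1]
    have h3 := h1.unique h2
    intro v hv
    have h4 := congrArg (fun T => T v) h3
    simp only [ContinuousLinearMap.comp_apply, ContinuousLinearMap.id_apply, hv, map_zero] at h4
    exact h4.symm
  refine ⟨fun p => τ (Q p), imm_comp (Q := τ) (B := Q) (by rw [h0]; exact ⟨hτan, hτi⟩) hQ, ?_⟩
  filter_upwards [hQe, hc.eventually ((F.e j).open_source.mem_nhds hj)] with y hy hy2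
  simp only [hτ]
  rw [← hy, (F.e j).left_inv hy2]

/-- charts of 246 are compatible -/
theorem cpt_rc {n : ℕ} {F : Fam n Y} (c : RC G F) : Cpt F c.e := ⟨c.hol, c.holi⟩

namespace ZSec

variable {Ge : Germ 𝒞 CY G s} {z : C × C → Y} (Z : ZSec Ge z)

include Z in
theorem s_ne {c : C} (hc : 𝒞.iv c ≠ c) : s ≠ 1 := by
  intro hs
  have h1 := Z.swap (c, 𝒞.iv c)
  rw [hs, one_smul] at h1
  have h2 := Z.inj h1
  exact hc (congrArg Prod.fst h2).symm

include Z in
theorem stab {x : C × C} (hx : x.1 ≠ x.2) (g : G) (hg : g • z x = z x) : g = 1 := by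
  rcases Z.grp g x x hg with h | h
  · exact h
  · exfalso
    rw [h, Z.swap] at hg
    exact hx (congrArg Prod.snd (Z.inj hg))

include Z in
theorem pr_eq {x x' : C × C} : pr G (z x) = pr G (z x') ↔ (x' = x ∨ x' = x.swap) := by
  rw [pr_eq_iff]
  constructor
  · rintro ⟨g, hg⟩
    rcases Z.grp g x x' hg with h | h
    · left
      rw [h, one_smul] at hg
      exact (Z.inj hg).symm
    · right
      rw [h, Z.swap] at hg
      exact (Z.inj hg).symm
  · rintro (h | h)
    · exact ⟨1, by rw [one_smul, h]⟩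
    · exact ⟨s, by rw [Z.swap, h]⟩

variable [ContinuousConstSMul G Y] [Nonempty Y]

include Z in
/-- off the diagonal -/
theorem off (hG : ∀ g : G, HolC CY CY (fun y => g • y))
    (hcov : ∀ y : Y, ∃ c : RC G CY, y ∈ c.e.source) {x : C × C} (hx : x.1 ≠ x.2) :
    ImmW (qFam hG hcov) (fun y => pr G (z y)) x (fun y => (𝒞.k x.1 y.1, 𝒞.k x.2 y.2)) := by
  refine (Z.imm x).comp_LC (F' := qFam hG hcov) ?_ Z.cont.continuousAt
    (h := pr G) (Eventually.of_forall fun y => (holC_pi hG hcov).hC y)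
    (lC_pr hG hcov (Z.stab hx))
  simp only [𝒞.k_zero]
  rfl

include Z in
/-- on the diagonal -/
theorem diag (hG : ∀ g : G, HolC CY CY (fun y => g • y))
    (hcov : ∀ y : Y, ∃ c : RC G CY, y ∈ c.e.source) {c : C} (hc : 𝒞.iv c ≠ c) :
    ImmW (qFam hG hcov) (fun y => pr G (z y)) (c, c)
      (fun y => (𝒞.k c y.1 + 𝒞.k c y.2, (𝒞.k c y.1 - 𝒞.k c y.2) ^ 2)) := by
  have hs1 := Z.s_ne hc
  have hsu : s • z (c, c) = z (c, c) := Z.swap (c, c)
  obtain ⟨r, hr⟩ := hcov (z (c, c))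
  have hkr : ∃ a, r.k = some (s, a) := by
    rcases hk : r.k with _ | ⟨s', a⟩
    · exact absurd (r.free hk s _ hr (by rw [hsu]; exact hr)) hs1
    · rcases r.two s' a hk s _ hr (by rw [hsu]; exact hr) with h | h
      · exact absurd h hs1
      · exact ⟨a, by rw [h]⟩
  obtain ⟨a, ha⟩ := hkr
  obtain ⟨g, hg, hge⟩ := (Z.imm (c, c)).in_chart (by simp only [𝒞.k_zero]; rfl)
    Z.cont.continuousAt (cpt_rc r) hr
  simp only at hge
  -- transport to `ℂ × ℂ`
  have hpt : Tendsto (pt 𝒞 c c) (𝓝 0) (𝓝 ((c, c) : C × C)) := by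
    have h3 := (pt_cont (𝒞 := 𝒞) c c).tendsto
    rwa [pt_zero] at h3
  have hpts : Tendsto (fun p : ℂ × ℂ => pt 𝒞 c c p.swap) (𝓝 0) (𝓝 ((c, c) : C × C)) := by
    have h1 : Tendsto (Prod.swap : ℂ × ℂ → ℂ × ℂ) (𝓝 0) (𝓝 0) := continuous_swap.tendsto 0
    exact hpt.comp h1
  have hpe : ∀ᶠ p in 𝓝 (0 : ℂ × ℂ), r.e (z (pt 𝒞 c c p)) = g p := by
    filter_upwards [hpt.eventually hge, ev_tgt (𝒞 := 𝒞) c c] with p hp hp2
    have e1 : 𝒞.k c (pt 𝒞 c c p).1 = p.1 := (𝒞.k c).right_inv hp2.1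
    have e2 : 𝒞.k c (pt 𝒞 c c p).2 = p.2 := (𝒞.k c).right_inv hp2.2
    rw [e1, e2] at hp
    exact hp
  have hpe' : ∀ᶠ p in 𝓝 (0 : ℂ × ℂ), r.e (z (pt 𝒞 c c p.swap)) = g p.swap :=
    (continuous_swap.tendsto (0 : ℂ × ℂ)).eventually hpe
  have hsrc : ∀ᶠ p in 𝓝 (0 : ℂ × ℂ), z (pt 𝒞 c c p) ∈ r.e.source :=
    (Z.cont.continuousAt.tendsto.comp hpt).eventually (r.e.open_source.mem_nhds hr)
  have hsym : ∀ᶠ p in 𝓝 (0 : ℂ × ℂ), g (p.2, p.1) = rf a (g p) := by
    filter_upwards [hpe, hpe', hsrc] with p h1 h2 h3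
    have h4 : z (pt 𝒞 c c p.swap) = s • z (pt 𝒞 c c p) := by
      rw [Z.swap]; rfl
    rw [h4, r.ref s a ha _ h3, h1] at h2
    exact h2.symm
  have hg0 : g 0 a = 0 := by
    have h1 := hsym.self_of_nhds
    have h2 : g 0 = rf a (g 0) := h1
    have h3 := congrArg (fun v : Cn 3 => v a) h2
    simp only [rf_same] at h3
    have h4 : (2 : ℂ) * g 0 a = 0 := by linear_combination h3
    simpa using h4
  obtain ⟨h, hh1, hh2⟩ := sym_quot hg hg0 hsym
  refine ⟨r, r.mem_eM_source hr, h, hh1, ?_⟩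
  have hkk : Tendsto (fun y : C × C => (𝒞.k c y.1, 𝒞.k c y.2)) (𝓝 (c, c)) (𝓝 0) := by
    have h1 : ContinuousAt (fun y : C × C => (𝒞.k c y.1, 𝒞.k c y.2)) (c, c) :=
      ContinuousAt.prodMk
        (ContinuousAt.comp (f := Prod.fst) (g := 𝒞.k c) ((𝒞.k c).continuousAt (𝒞.k_mem c))
          continuousAt_fst)
        (ContinuousAt.comp (f := Prod.snd) (g := 𝒞.k c) ((𝒞.k c).continuousAt (𝒞.k_mem c))
          continuousAt_snd)
    have h2 := h1.tendsto
    simp only [𝒞.k_zero] at h2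
    exact h2
  filter_upwards [hkk.eventually hh2, hge,
    (Z.cont.continuousAt).eventually (r.e.open_source.mem_nhds hr)] with y h1 h2 h3
  have h4 : (qFam hG hcov).e r (pr G (z y)) = qk r.k (r.e (z y)) := r.eM_apply h3
  rw [h4, ha, qk_some, h2]
  exact h1

end ZSec

end

end Crest.Agent.R272.Ax_834
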