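import Crest.Agent.R272.HFam_342

/-!
# R272 (helper342): a `Fam` from two pieces

`g : Z ⇀ M`, `g' : Z ⇀ N` open partial homeomorphisms covering `Z`, with holomorphic transition
maps between the families `C` on `M`, `D` on `N`.  Then `h.fam : Fam n Z` with charts
`g.trans (C.e i)`, `g'.trans (D.e j)`; `g`, `g'` and their inverses are holomorphic;
holomorphy of a map out of `Z` or into `Z` is tested on the pieces.
-/

set_option autoImplicit false
set_option linter.unusedSectionVars false
set_option linter.style.haveILetI false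

open Set Filter Topology

namespace Crest.Agent.R272.Two_342

open Crest.Agent.R275.Geo Crest.Agent.R273.Fam_835 Crest.Agent.R272.HFam_342

noncomputable section

variable {n m k : ℕ} {Z M N P : Type} [TopologicalSpace Z] [TopologicalSpace M]
  [TopologicalSpace N] [TopologicalSpace P]

/-- compatible pieces -/
structure Two (C : Fam n M) (D : Fam n N) (g : OpenPartialHomeomorph Z M)
    (g' : OpenPartialHomeomorph Z N) : Prop where
  cover : ∀ z, z ∈ g.source ∨ z ∈ g'.source
  h01 : ∀ z, z ∈ g.source → z ∈ g'.source → HC C D (fun m => g' (g.symm m)) (g z)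
  h10 : ∀ z, z ∈ g.source → z ∈ g'.source → HC D C (fun m => g (g'.symm m)) (g' z)

namespace Two

variable {C : Fam n M} {D : Fam n N} {g : OpenPartialHomeomorph Z M}
  {g' : OpenPartialHomeomorph Z N}

/-- the family of charts of the union of the two pieces -/
def fam (h : Two C D g g') : Fam n Z where
  ι := C.ι ⊕ D.ι
  e := Sum.elim (fun i => g.trans (C.e i)) (fun j => g'.trans (D.e j))
  cover z := by
    rcases h.cover z with hz | hz
    · obtain ⟨i, hi⟩ := C.cover (g z)
      exact ⟨Sum.inl i, hz, hi⟩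
    · obtain ⟨i, hi⟩ := D.cover (g' z)
      exact ⟨Sum.inr i, hz, hi⟩
  holo := by
    rintro (i | i) (j | j)
    · refine (C.holo i j).congr_mono ?_ ?_
      · rintro z ⟨hz, hz'⟩
        show C.e j (g (g.symm ((C.e i).symm z))) = C.e j ((C.e i).symm z)
        rw [g.right_inv hz.2]
      · rintro z ⟨hz, hz'⟩
        have h1 : g (g.symm ((C.e i).symm z)) ∈ (C.e j).source := hz'.2
        rw [g.right_inv hz.2] at h1
        exact ⟨hz.1, h1⟩
    · rintro z ⟨hz, hz'⟩
      have h1 : (C.e i).symm z ∈ g.target := hz.2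
      have h2 : g.symm ((C.e i).symm z) ∈ g'.source := hz'.1
      have h3 := h.h01 _ (g.map_target h1) h2
      rw [g.right_inv h1] at h3
      have h4 := h3.2 i j ((C.e i).map_target hz.1) hz'.2
      rw [(C.e i).right_inv hz.1] at h4
      exact h4.differentiableWithinAt
    · rintro z ⟨hz, hz'⟩
      have h1 : (D.e i).symm z ∈ g'.target := hz.2
      have h2 : g'.symm ((D.e i).symm z) ∈ g.source := hz'.1
      have h3 := h.h10 _ h2 (g'.map_target h1)
      rw [g'.right_inv h1] at h3
      have h4 := h3.2 i j ((D.e i).map_target hz.1) hz'.2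
      rw [(D.e i).right_inv hz.1] at h4
      exact h4.differentiableWithinAt
    · refine (D.holo i j).congr_mono ?_ ?_
      · rintro z ⟨hz, hz'⟩
        show D.e j (g' (g'.symm ((D.e i).symm z))) = D.e j ((D.e i).symm z)
        rw [g'.right_inv hz.2]
      · rintro z ⟨hz, hz'⟩
        have h1 : g' (g'.symm ((D.e i).symm z)) ∈ (D.e j).source := hz'.2
        rw [g'.right_inv hz.2] at h1
        exact ⟨hz.1, h1⟩

variable (h : Two C D g g')

/-- chart index of the first piece -/
def il (i : C.ι) : h.fam.ι := Sum.inl i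

/-- chart index of the second piece -/
def ir (i : D.ι) : h.fam.ι := Sum.inr i

@[elab_as_elim]
theorem ind {P : h.fam.ι → Prop} (h0 : ∀ i, P (h.il i)) (h1 : ∀ i, P (h.ir i)) : ∀ i, P i := by
  rintro (i | i)
  · exact h0 i
  · exact h1 i

theorem e_il (i : C.ι) : h.fam.e (h.il i) = g.trans (C.e i) := rfl

theorem e_ir (i : D.ι) : h.fam.e (h.ir i) = g'.trans (D.e i) := rfl

theorem mem_il {i : C.ι} {z : Z} :
    z ∈ (h.fam.e (h.il i)).source ↔ z ∈ g.source ∧ g z ∈ (C.e i).source := Iff.rfl

theorem mem_ir {i : D.ι} {z : Z} :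
    z ∈ (h.fam.e (h.ir i)).source ↔ z ∈ g'.source ∧ g' z ∈ (D.e i).source := Iff.rfl

theorem hC_g {z : Z} (hz : z ∈ g.source) : HC h.fam C g z := by
  obtain ⟨i, hi⟩ := C.cover (g z)
  refine HC.of (g.continuousAt hz) (h.il i) i (h.mem_il.2 ⟨hz, hi⟩) hi ?_
  refine (differentiableAt_id (𝕜 := ℂ)).congr_of_eventuallyEq ?_
  have h1 : h.fam.e (h.il i) z ∈ (h.fam.e (h.il i)).target :=
    (h.fam.e (h.il i)).map_source (h.mem_il.2 ⟨hz, hi⟩)
  filter_upwards [(h.fam.e (h.il i)).open_target.mem_nhds h1] with w hw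
  show C.e i (g (g.symm ((C.e i).symm w))) = w
  rw [g.right_inv hw.2, (C.e i).right_inv hw.1]

theorem hC_g' {z : Z} (hz : z ∈ g'.source) : HC h.fam D g' z := by
  obtain ⟨i, hi⟩ := D.cover (g' z)
  refine HC.of (g'.continuousAt hz) (h.ir i) i (h.mem_ir.2 ⟨hz, hi⟩) hi ?_
  refine (differentiableAt_id (𝕜 := ℂ)).congr_of_eventuallyEq ?_
  have h1 : h.fam.e (h.ir i) z ∈ (h.fam.e (h.ir i)).target :=
    (h.fam.e (h.ir i)).map_source (h.mem_ir.2 ⟨hz, hi⟩)
  filter_upwards [(h.fam.e (h.ir i)).open_target.mem_nhds h1] with w hw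
  show D.e i (g' (g'.symm ((D.e i).symm w))) = w
  rw [g'.right_inv hw.2, (D.e i).right_inv hw.1]

theorem hC_symm {m : M} (hm : m ∈ g.target) : HC C h.fam g.symm m := by
  obtain ⟨i, hi⟩ := C.cover m
  have h0 : g.symm m ∈ (h.fam.e (h.il i)).source :=
    h.mem_il.2 ⟨g.map_target hm, by rw [g.right_inv hm]; exact hi⟩
  refine HC.of (g.continuousAt_symm hm) i (h.il i) hi h0 ?_
  refine (differentiableAt_id (𝕜 := ℂ)).congr_of_eventuallyEq ?_
  have h2 : ∀ᶠ y in 𝓝 m, y ∈ g.target := g.open_target.mem_nhds hm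
  filter_upwards [eventually_chartC hi h2] with w hw
  show C.e i (g (g.symm ((C.e i).symm w))) = w
  rw [g.right_inv hw.2, (C.e i).right_inv hw.1]

theorem hC_symm' {m : N} (hm : m ∈ g'.target) : HC D h.fam g'.symm m := by
  obtain ⟨i, hi⟩ := D.cover m
  have h0 : g'.symm m ∈ (h.fam.e (h.ir i)).source :=
    h.mem_ir.2 ⟨g'.map_target hm, by rw [g'.right_inv hm]; exact hi⟩
  refine HC.of (g'.continuousAt_symm hm) i (h.ir i) hi h0 ?_
  refine (differentiableAt_id (𝕜 := ℂ)).congr_of_eventuallyEq ?_
  have h2 : ∀ᶠ y in 𝓝 m, y ∈ g'.target := g'.open_target.mem_nhds hm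
  filter_upwards [eventually_chartC hi h2] with w hw
  show D.e i (g' (g'.symm ((D.e i).symm w))) = w
  rw [g'.right_inv hw.2, (D.e i).right_inv hw.1]

theorem lC_g {z : Z} (hz : z ∈ g.source) : LC h.fam C g z :=
  LC.of_left_inverse (h.hC_g hz) (h.hC_symm (g.map_source hz))
    (by filter_upwards [g.open_source.mem_nhds hz] with y hy using g.left_inv hy)

theorem lC_g' {z : Z} (hz : z ∈ g'.source) : LC h.fam D g' z :=
  LC.of_left_inverse (h.hC_g' hz) (h.hC_symm' (g'.map_source hz))
    (by filter_upwards [g'.open_source.mem_nhds hz] with y hy using g'.left_inv hy)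

theorem lC_symm {m : M} (hm : m ∈ g.target) : LC C h.fam g.symm m :=
  LC.of_left_inverse (h.hC_symm hm) (h.hC_g (g.map_target hm))
    (by filter_upwards [g.open_target.mem_nhds hm] with y hy using g.right_inv hy)

theorem lC_symm' {m : N} (hm : m ∈ g'.target) : LC D h.fam g'.symm m :=
  LC.of_left_inverse (h.hC_symm' hm) (h.hC_g' (g'.map_target hm))
    (by filter_upwards [g'.open_target.mem_nhds hm] with y hy using g'.right_inv hy)

/-! ### maps out of `Z` -/

theorem hC_iff {E : Fam k P} {f : Z → P} {z : Z} (hz : z ∈ g.source) :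
    HC h.fam E f z ↔ HC C E (fun m => f (g.symm m)) (g z) := by
  constructor
  · intro hf
    have h1 := h.hC_symm (g.map_source hz)
    refine HC.comp (p := g.symm) ?_ h1
    rw [g.left_inv hz]
    exact hf
  · intro hf
    have h1 := HC.comp (p := g) hf (h.hC_g hz)
    refine h1.congr ?_
    filter_upwards [g.open_source.mem_nhds hz] with y hy
    rw [g.left_inv hy]

theorem hC_iff' {E : Fam k P} {f : Z → P} {z : Z} (hz : z ∈ g'.source) :
    HC h.fam E f z ↔ HC D E (fun m => f (g'.symm m)) (g' z) := by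
  constructor
  · intro hf
    have h1 := h.hC_symm' (g'.map_source hz)
    refine HC.comp (p := g'.symm) ?_ h1
    rw [g'.left_inv hz]
    exact hf
  · intro hf
    have h1 := HC.comp (p := g') hf (h.hC_g' hz)
    refine h1.congr ?_
    filter_upwards [g'.open_source.mem_nhds hz] with y hy
    rw [g'.left_inv hy]

theorem fC_iff {W : Type*} [NormedAddCommGroup W] [NormedSpace ℂ W] {f : Z → W} {z : Z}
    (hz : z ∈ g.source) : FC h.fam f z ↔ FC C (fun m => f (g.symm m)) (g z) := by
  constructor
  · intro hf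
    have h1 := h.hC_symm (g.map_source hz)
    refine FC.comp (p := g.symm) ?_ h1
    rw [g.left_inv hz]
    exact hf
  · intro hf
    have h1 := FC.comp (p := g) hf (h.hC_g hz)
    refine h1.congr ?_
    filter_upwards [g.open_source.mem_nhds hz] with y hy
    rw [g.left_inv hy]

theorem fC_iff' {W : Type*} [NormedAddCommGroup W] [NormedSpace ℂ W] {f : Z → W} {z : Z}
    (hz : z ∈ g'.source) : FC h.fam f z ↔ FC D (fun m => f (g'.symm m)) (g' z) := by
  constructor
  · intro hf
    have h1 := h.hC_symm' (g'.map_source hz)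
    refine FC.comp (p := g'.symm) ?_ h1
    rw [g'.left_inv hz]
    exact hf
  · intro hf
    have h1 := FC.comp (p := g') hf (h.hC_g' hz)
    refine h1.congr ?_
    filter_upwards [g'.open_source.mem_nhds hz] with y hy
    rw [g'.left_inv hy]

theorem lC_iff {E : Fam n P} {f : Z → P} {z : Z} (hz : z ∈ g.source) :
    LC h.fam E f z ↔ LC C E (fun m => f (g.symm m)) (g z) := by
  constructor
  · intro hf
    have h1 := h.lC_symm (g.map_source hz)
    refine LC.comp (p := g.symm) ?_ h1
    rw [g.left_inv hz]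
    exact hf
  · intro hf
    have h1 := LC.comp (p := g) hf (h.lC_g hz)
    refine h1.congr ?_
    filter_upwards [g.open_source.mem_nhds hz] with y hy
    rw [g.left_inv hy]

theorem lC_iff' {E : Fam n P} {f : Z → P} {z : Z} (hz : z ∈ g'.source) :
    LC h.fam E f z ↔ LC D E (fun m => f (g'.symm m)) (g' z) := by
  constructor
  · intro hf
    have h1 := h.lC_symm' (g'.map_source hz)
    refine LC.comp (p := g'.symm) ?_ h1
    rw [g'.left_inv hz]
    exact hf
  · intro hf
    have h1 := LC.comp (p := g') hf (h.lC_g' hz)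
    refine h1.congr ?_
    filter_upwards [g'.open_source.mem_nhds hz] with y hy
    rw [g'.left_inv hy]

/-! ### maps into `Z` -/

theorem hC_into_iff {E : Fam k P} {f : P → Z} {x : P} (hf : ContinuousAt f x)
    (hz : f x ∈ g.source) : HC E h.fam f x ↔ HC E C (fun y => g (f y)) x := by
  constructor
  · intro h1
    exact HC.comp (h.hC_g hz) h1
  · intro h1
    have h2 : HC C h.fam g.symm (g (f x)) := h.hC_symm (g.map_source hz)
    have h3 := HC.comp (p := fun y => g (f y)) h2 h1
    refine h3.congr ?_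
    filter_upwards [hf.eventually (g.open_source.mem_nhds hz)] with y hy
    exact g.left_inv hy

theorem hC_into_iff' {E : Fam k P} {f : P → Z} {x : P} (hf : ContinuousAt f x)
    (hz : f x ∈ g'.source) : HC E h.fam f x ↔ HC E D (fun y => g' (f y)) x := by
  constructor
  · intro h1
    exact HC.comp (h.hC_g' hz) h1
  · intro h1
    have h2 : HC D h.fam g'.symm (g' (f x)) := h.hC_symm' (g'.map_source hz)
    have h3 := HC.comp (p := fun y => g' (f y)) h2 h1
    refine h3.congr ?_
    filter_upwards [hf.eventually (g'.open_source.mem_nhds hz)] with y hy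
    exact g'.left_inv hy

end Two

end

end Crest.Agent.R272.Two_342
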