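import Crest.Agent.R272.Sur1_342
import Crest.Agent.R272.Two_342

/-!
# R272 (helper342): surgery at one centre, holomorphic part

`S.Hol C DA DB` : `e` and `φ` are holomorphic both ways;
`S.fam h : Fam n S.XP` with charts `iota.symm.trans (C.e i)`, `ep.trans (DB.e j)`;
`iota`, `ep` are holomorphic both ways (`hC_iota` ...) and locally biholomorphic (`lC_...`);
`hC_iff_off`, `hC_iff_on` : maps out of `S.XP`; `holC_desc`, `holC_push`.
-/

set_option autoImplicit false
set_option linter.unusedSectionVars false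
set_option linter.style.haveILetI false

open Set Filter Topology

namespace Crest.Agent.R272.Sur_342

open Crest.Agent.R275.Geo Crest.Agent.R273.Fam_835 Crest.Agent.R272.HFam_342
  Crest.Agent.R272.Two_342

noncomputable section

namespace Sur

variable {n m : ℕ} {X A B P : Type} [TopologicalSpace X] [TopologicalSpace A]
  [TopologicalSpace B] [TopologicalSpace P] (S : Sur X A B)

/-- `e` and `φ` are holomorphic both ways -/
structure Hol (C : Fam n X) (DA : Fam n A) (DB : Fam n B) : Prop where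
  he : ∀ x ∈ S.e.source, HC C DA S.e x
  he' : ∀ a ∈ S.e.target, HC DA C S.e.symm a
  hφ : ∀ a, S.NA a ≠ 0 → HC DA DB S.φ a
  hφ' : ∀ b, S.NB b ≠ 0 → HC DB DA S.φ.symm b

variable {S} {C : Fam n X} {DA : Fam n A} {DB : Fam n B} (h : S.Hol C DA DB)

include h in
theorem Hol.hC_φe {x : X} (hx : x ∉ S.K) (h1 : x ∈ S.e.source) :
    HC C DB (fun x => S.φ (S.e x)) x :=
  HC.comp (p := S.e) (h.hφ _ (S.ne_zero_of hx h1)) (h.he x h1)

include h in
theorem Hol.hC_bx {b : B} (h0 : S.NB b ≠ 0) (h1 : S.NB b ≤ S.ε) : HC DB C S.bx b :=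
  HC.comp (p := S.φ.symm) (h.he' _ (S.symm_target h0 h1)) (h.hφ' b h0)

variable [T2Space X]

include h in
/-- the two parts are compatible -/
theorem Hol.two : Two C DB S.iota.symm S.ep where
  cover := S.cover
  h01 := by
    intro z hz hz'
    have hz0 : S.nf z ≠ 0 := S.mem_iota_target.1 hz
    have hz1 : S.nf z < S.ε := S.mem_ep_source.1 hz'
    have h1 := S.iota_symm_not_mem hz0
    have h2 : S.nX (S.iota.symm z) < S.ε := by rw [S.nX_iota_symm hz0]; exact hz1
    refine (h.hC_φe h1 (S.e_iota_symm hz0 hz1).1).congr ?_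
    have h3 : ∀ᶠ x in 𝓝 (S.iota.symm z), x ∉ S.K := S.isClosed_K.isOpen_compl.mem_nhds h1
    have h4 : ∀ᶠ x in 𝓝 (S.iota.symm z), S.nX x < S.ε :=
      (isOpen_lt S.continuous_nX continuous_const).mem_nhds h2
    filter_upwards [h3, h4] with x hx hx'
    exact (S.ep_iota hx hx').symm
  h10 := by
    intro z hz hz'
    have hz0 : S.nf z ≠ 0 := S.mem_iota_target.1 hz
    have hz1 : S.nf z < S.ε := S.mem_ep_source.1 hz'
    have h1 : S.NB (S.ep z) ≠ 0 := by rw [S.NB_ep hz1]; exact hz0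
    have h2 : S.NB (S.ep z) < S.ε := by rw [S.NB_ep hz1]; exact hz1
    refine (h.hC_bx h1 h2.le).congr ?_
    have h3 : ∀ᶠ b in 𝓝 (S.ep z), S.NB b ≠ 0 := (isOpen_ne_fun S.cB continuous_const).mem_nhds h1
    have h4 : ∀ᶠ b in 𝓝 (S.ep z), S.NB b < S.ε := (isOpen_lt S.cB continuous_const).mem_nhds h2
    filter_upwards [h3, h4] with b hb hb'
    exact (S.iota_symm_ep_symm hb hb').symm

/-- **the family of charts of the new space** -/
def fam : Fam n S.XP := h.two.fam

/-- chart index of the old part -/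
def cl (i : C.ι) : (fam h).ι := h.two.il i

/-- chart index of the new part -/
def cr (j : DB.ι) : (fam h).ι := h.two.ir j

@[elab_as_elim]
theorem ind {P : (fam h).ι → Prop} (h0 : ∀ i, P (cl h i)) (h1 : ∀ i, P (cr h i)) : ∀ i, P i :=
  h.two.ind h0 h1

theorem e_cl (i : C.ι) : (fam h).e (cl h i) = S.iota.symm.trans (C.e i) := rfl

theorem e_cr (j : DB.ι) : (fam h).e (cr h j) = S.ep.trans (DB.e j) := rfl

theorem mem_cl {i : C.ι} {z : S.XP} : z ∈ ((fam h).e (cl h i)).source ↔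
    S.nf z ≠ 0 ∧ S.iota.symm z ∈ (C.e i).source := by
  rw [← S.mem_iota_target]
  exact h.two.mem_il

theorem mem_cr {i : DB.ι} {z : S.XP} : z ∈ ((fam h).e (cr h i)).source ↔
    S.nf z < S.ε ∧ S.ep z ∈ (DB.e i).source := by
  rw [← S.mem_ep_source]
  exact h.two.mem_ir

theorem hC_iota {x : X} (hx : x ∉ S.K) : HC C (fam h) S.iota x :=
  h.two.hC_symm (m := x) (S.mem_iota_source.2 hx)

theorem hC_iota_symm {z : S.XP} (hz : S.nf z ≠ 0) : HC (fam h) C S.iota.symm z :=
  h.two.hC_g (S.mem_iota_target.2 hz)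

theorem hC_ep {z : S.XP} (hz : S.nf z < S.ε) : HC (fam h) DB S.ep z :=
  h.two.hC_g' (S.mem_ep_source.2 hz)

theorem hC_ep_symm {b : B} (hb : S.NB b < S.ε) : HC DB (fam h) S.ep.symm b :=
  h.two.hC_symm' (S.mem_ep_target.2 hb)

theorem lC_iota {x : X} (hx : x ∉ S.K) : LC C (fam h) S.iota x :=
  h.two.lC_symm (m := x) (S.mem_iota_source.2 hx)

theorem lC_iota_symm {z : S.XP} (hz : S.nf z ≠ 0) : LC (fam h) C S.iota.symm z :=
  h.two.lC_g (S.mem_iota_target.2 hz)

theorem lC_ep {z : S.XP} (hz : S.nf z < S.ε) : LC (fam h) DB S.ep z :=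
  h.two.lC_g' (S.mem_ep_source.2 hz)

theorem lC_ep_symm {b : B} (hb : S.NB b < S.ε) : LC DB (fam h) S.ep.symm b :=
  h.two.lC_symm' (S.mem_ep_target.2 hb)

/-! ### maps out of the new space -/

section out

variable {E : Fam m P} {f : S.XP → P} {z : S.XP}

theorem hC_iff_off (hz : S.nf z ≠ 0) :
    HC (fam h) E f z ↔ HC C E (fun x => f (S.iota x)) (S.iota.symm z) :=
  h.two.hC_iff (S.mem_iota_target.2 hz)

theorem hC_iff_on (hz : S.nf z < S.ε) :
    HC (fam h) E f z ↔ HC DB E (fun b => f (S.ep.symm b)) (S.ep z) :=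
  h.two.hC_iff' (S.mem_ep_source.2 hz)

theorem hC_at_iota {x : X} (hx : x ∉ S.K) :
    HC (fam h) E f (S.iota x) ↔ HC C E (fun x => f (S.iota x)) x := by
  rw [hC_iff_off h (by rw [S.nf_iota hx]; exact S.nX_ne_zero.2 hx),
    S.iota.left_inv (S.mem_iota_source.2 hx)]

theorem hC_at_ep_symm {b : B} (hb : S.NB b < S.ε) :
    HC (fam h) E f (S.ep.symm b) ↔ HC DB E (fun b => f (S.ep.symm b)) b := by
  rw [hC_iff_on h (by rw [S.nf_ep_symm hb]; exact hb),
    S.ep.right_inv (S.mem_ep_target.2 hb)]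

/-- holomorphic on the new space iff holomorphic on both parts -/
theorem holC_iff' : HolC (fam h) E f ↔
    (∀ x, x ∉ S.K → HC C E (fun x => f (S.iota x)) x) ∧
      ∀ b, S.NB b < S.ε → HC DB E (fun b => f (S.ep.symm b)) b := by
  rw [holC_iff_hC]
  refine ⟨fun hf => ⟨fun x hx => (hC_at_iota h hx).1 (hf _),
    fun b hb => (hC_at_ep_symm h hb).1 (hf _)⟩, fun hf z => ?_⟩
  rcases S.cover z with hz | hz
  · have h1 := S.mem_iota_target.1 hz
    exact (hC_iff_off h h1).2 (hf.1 _ (S.iota_symm_not_mem h1))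
  · have h1 := S.mem_ep_source.1 hz
    exact (hC_iff_on h h1).2 (hf.2 _ (by rw [S.NB_ep h1]; exact h1))

theorem fC_iff_off {W : Type*} [NormedAddCommGroup W] [NormedSpace ℂ W] {f : S.XP → W}
    (hz : S.nf z ≠ 0) : FC (fam h) f z ↔ FC C (fun x => f (S.iota x)) (S.iota.symm z) :=
  h.two.fC_iff (S.mem_iota_target.2 hz)

theorem fC_iff_on {W : Type*} [NormedAddCommGroup W] [NormedSpace ℂ W] {f : S.XP → W}
    (hz : S.nf z < S.ε) : FC (fam h) f z ↔ FC DB (fun b => f (S.ep.symm b)) (S.ep z) :=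
  h.two.fC_iff' (S.mem_ep_source.2 hz)

theorem holC_desc {f0 : X → P} {f1 : B → P} (hc : S.Cp f0 f1)
    (h0 : ∀ x, x ∉ S.K → HC C E f0 x) (h1 : ∀ b, S.NB b < S.ε → HC DB E f1 b) :
    HolC (fam h) E (S.desc f0 f1) := by
  rw [holC_iff' h]
  constructor
  · intro x hx
    refine (h0 x hx).congr ?_
    filter_upwards [S.isClosed_K.isOpen_compl.mem_nhds hx] with y hy
    exact (S.desc_iota f0 f1 hy).symm
  · intro b hb
    refine (h1 b hb).congr ?_
    filter_upwards [(isOpen_lt S.cB continuous_const).mem_nhds hb] with y hy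
    exact (S.desc_ep_symm hc hy).symm

/-- `push` off the new centre -/
theorem hC_push {f : X → P} {y₀ : P} (hz : S.nf z ≠ 0) (hf : HC C E f (S.iota.symm z)) :
    HC (fam h) E (S.push f y₀) z := by
  rw [hC_iff_off h hz]
  refine hf.congr ?_
  filter_upwards [S.isClosed_K.isOpen_compl.mem_nhds (S.iota_symm_not_mem hz)] with y hy
  exact (S.push_iota f y₀ hy).symm

omit h in
theorem push_eq_desc {Y : Type*} {f : X → Y} {y₀ : Y} {f1 : B → Y} (hc : S.Cp f f1)
    (h1 : ∀ b, S.NB b = 0 → f1 b = y₀) (z : S.XP) : S.push f y₀ z = S.desc f f1 z := by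
  by_cases hz : S.nf z = 0
  · have h2 : S.nf z < S.ε := by rw [hz]; exact S.ε0
    rw [S.push_K' f y₀ hz, S.desc_ep hc h2, h1 _ (by rw [S.NB_ep h2, hz])]
  · rw [S.push_of f y₀ hz, S.desc_of f f1 hz]

theorem holC_push {f : X → P} {y₀ : P} {f1 : B → P} (hc : S.Cp f f1)
    (h0 : ∀ x, x ∉ S.K → HC C E f x) (h1 : ∀ b, S.NB b < S.ε → HC DB E f1 b)
    (h2 : ∀ b, S.NB b = 0 → f1 b = y₀) : HolC (fam h) E (S.push f y₀) := by
  have h3 : S.push f y₀ = S.desc f f1 := funext (push_eq_desc hc h2)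
  rw [h3]
  exact holC_desc h hc h0 h1

end out

/-! ### maps into the new space -/

section into

variable {E : Fam m P} {f : P → X} {x : P}

/-- a holomorphic map into `X` off the centre -/
theorem hC_iota_comp (hx : f x ∉ S.K) (hf : HC E C f x) :
    HC E (fam h) (fun y => S.iota (f y)) x :=
  HC.comp (p := f) (hC_iota h hx) hf

theorem hC_ep_symm_comp {f : P → B} (hx : S.NB (f x) < S.ε) (hf : HC E DB f x) :
    HC E (fam h) (fun y => S.ep.symm (f y)) x :=
  HC.comp (p := f) (hC_ep_symm h hx) hf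

end into

end Sur

end

end Crest.Agent.R272.Sur_342
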