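import Crest.Agent.R272.Flop9_66
import Crest.Agent.R272.Sur2_342
import Crest.Agent.R272.Sur3_342

/-!
# R272, FLOP-SURG (helper66), part 10: the surgery `X^- ⇝ XP`

`sur e ε ε0 sub : Sur X Um Up` (342's abstract surgery with `phi`), `surHol`;
`exists_eps_sur` : the choice of `ε`;
`hC_of_cont`, `fC_of_cont` : the new centre is removable in `XP`;
`holC_push` : a holomorphic map on `X^-` which is constant on `K` is holomorphic on `XP`;
`iota_eq_sig` : the zero section near `o`.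
-/

set_option autoImplicit false
set_option linter.unusedSectionVars false
set_option linter.style.haveILetI false

open Set Filter Topology Complex
open scoped ComplexConjugate

namespace Crest.Agent.R272.Flop_66

open Crest.Agent.R275.Geo Crest.Agent.R273.Fam_835 Crest.Agent.R272.HFam_342
open Crest.Agent.R272.Sur_342 Crest.Agent.R272.LbExt_259

noncomputable section

section Gen

variable {n m : ℕ} {X A B P : Type} [TopologicalSpace X] [TopologicalSpace A]
  [TopologicalSpace B] [TopologicalSpace P] {S : Sur X A B} {C : Fam n X} {DA : Fam n A}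
  {DB : Fam n B} [T2Space X] (H : S.Hol C DA DB) {D : Fam m P}

/-- the new centre is removable if `{NB = 0}` is removable -/
theorem hC_of_cont_gen (hr : ∀ (g : B → P) (b : B), (∀ᶠ y in 𝓝 b, ContinuousAt g y) →
    (∀ᶠ y in 𝓝 b, S.NB y ≠ 0 → HC DB D g y) → HC DB D g b)
    {f : S.XP → P} {z : S.XP} (hc : ∀ᶠ y in 𝓝 z, ContinuousAt f y)
    (hd : ∀ᶠ y in 𝓝 z, S.nf y ≠ 0 → HC (Sur.fam H) D f y) :
    HC (Sur.fam H) D f z := by
  by_cases hz : S.nf z = 0
  · have hz1 : S.nf z < S.ε := by rw [hz]; exact S.ε0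
    have hzs : z ∈ S.ep.source := S.mem_ep_source.2 hz1
    rw [Sur.hC_iff_on H hz1]
    have hcs : ContinuousAt S.ep.symm (S.ep z) := S.ep.continuousAt_symm (S.ep.map_source hzs)
    have e1 : S.ep.symm (S.ep z) = z := S.ep.left_inv hzs
    have t1 : Tendsto S.ep.symm (𝓝 (S.ep z)) (𝓝 z) := by
      have := hcs.tendsto
      rwa [e1] at this
    have h3 : ∀ᶠ b in 𝓝 (S.ep z), S.NB b < S.ε :=
      (isOpen_lt S.cB continuous_const).mem_nhds (by
        show S.NB (S.ep z) < S.ε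
        rw [S.NB_ep hz1]; exact hz1)
    refine hr _ _ ?_ ?_
    · filter_upwards [t1.eventually hc, h3] with b hb hb'
      exact ContinuousAt.comp (g := f) hb (S.ep.continuousAt_symm (S.mem_ep_target.2 hb'))
    · filter_upwards [t1.eventually hd, h3] with b hb hb' hN
      refine (Sur.hC_at_ep_symm H hb').1 (hb ?_)
      rw [S.nf_ep_symm hb']
      exact hN
  · exact hd.self_of_nhds hz

theorem fC_of_cont_gen {F : Type} [NormedAddCommGroup F] [NormedSpace ℂ F]
    (hr : ∀ (g : B → F) (b : B), (∀ᶠ y in 𝓝 b, ContinuousAt g y) →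
    (∀ᶠ y in 𝓝 b, S.NB y ≠ 0 → FC DB g y) → FC DB g b)
    {f : S.XP → F} {z : S.XP} (hc : ∀ᶠ y in 𝓝 z, ContinuousAt f y)
    (hd : ∀ᶠ y in 𝓝 z, S.nf y ≠ 0 → FC (Sur.fam H) f y) :
    FC (Sur.fam H) f z := by
  by_cases hz : S.nf z = 0
  · have hz1 : S.nf z < S.ε := by rw [hz]; exact S.ε0
    have hzs : z ∈ S.ep.source := S.mem_ep_source.2 hz1
    rw [Sur.fC_iff_on H hz1]
    have hcs : ContinuousAt S.ep.symm (S.ep z) := S.ep.continuousAt_symm (S.ep.map_source hzs)
    have e1 : S.ep.symm (S.ep z) = z := S.ep.left_inv hzs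
    have t1 : Tendsto S.ep.symm (𝓝 (S.ep z)) (𝓝 z) := by
      have := hcs.tendsto
      rwa [e1] at this
    have h3 : ∀ᶠ b in 𝓝 (S.ep z), S.NB b < S.ε :=
      (isOpen_lt S.cB continuous_const).mem_nhds (by
        show S.NB (S.ep z) < S.ε
        rw [S.NB_ep hz1]; exact hz1)
    refine hr _ _ ?_ ?_
    · filter_upwards [t1.eventually hc, h3] with b hb hb'
      exact ContinuousAt.comp (g := f) hb (S.ep.continuousAt_symm (S.mem_ep_target.2 hb'))
    · filter_upwards [t1.eventually hd, h3] with b hb hb' hN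
      have hbn : S.nf (S.ep.symm b) ≠ 0 := by
        rw [S.nf_ep_symm hb']
        exact hN
      have h4 := (Sur.fC_iff_on H (by rw [S.nf_ep_symm hb']; exact hb')).1 (hb hbn)
      rwa [S.ep.right_inv (S.mem_ep_target.2 hb')] at h4
  · exact hd.self_of_nhds hz

end Gen

theorem exists_small {ε : ℝ} (h : 0 < ε) : ∃ a : Um, a.N ≠ 0 ∧ a.N < ε := by
  have h1 : IsOpen {a : Um | a.N < ε} := isOpen_lt Um.c_N continuous_const
  have h2 : (Um.mk0 0 0 0) ∈ {a : Um | a.N < ε} := by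
    show (Um.mk0 0 0 0).N < ε
    rw [Um.N_mk0.2 ⟨rfl, rfl⟩]
    exact h
  obtain ⟨a, ha, ha'⟩ := Um.dense_N.inter_open_nonempty _ h1 ⟨_, h2⟩
  exact ⟨a, ha', ha⟩

/-- **the surgery at `{N = 0}`** -/
def sur {X : Type*} [TopologicalSpace X] (e : OpenPartialHomeomorph X Um) (ε : ℝ) (ε0 : 0 < ε)
    (sub : ∀ a : Um, a.N ≤ ε → a ∈ e.target) : Sur X Um Up where
  e := e
  φ := phi
  NA := Um.N
  NB := Up.N
  cA := Um.c_N
  cB := Up.c_N
  nA := Um.N_nonneg
  nB := Up.N_nonneg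
  kA := Um.isCompact_le
  kB := Up.isCompact_le
  φs _ := Iff.rfl
  φt _ := Iff.rfl
  φN _ h := N_pu h
  ε := ε
  ε0 := ε0
  sub := sub
  ne := exists_small ε0

/-- the choice of `ε` -/
theorem exists_eps_sur {X : Type*} [TopologicalSpace X] (e : OpenPartialHomeomorph X Um)
    (h : ∀ a : Um, a.N = 0 → a ∈ e.target) {V : Set Um} (hV : IsOpen V)
    (h0 : ∀ a : Um, a.N = 0 → a ∈ V) {δ : ℝ} (hδ : 0 < δ) :
    ∃ ε, 0 < ε ∧ ε ≤ δ ∧ (∀ a : Um, a.N ≤ ε → a ∈ e.target) ∧ ∀ a : Um, a.N ≤ ε → a ∈ V := by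
  obtain ⟨ε, h1, h2⟩ := Um.exists_eps (e.open_target.inter hV) fun a ha => ⟨h a ha, h0 a ha⟩
  exact ⟨min ε δ, lt_min h1 hδ, min_le_right _ _, fun a ha => (h2 a (ha.trans (min_le_left _ _))).1,
    fun a ha => (h2 a (ha.trans (min_le_left _ _))).2⟩

variable {X : Type} [TopologicalSpace X] {e : OpenPartialHomeomorph X Um} {ε : ℝ} {ε0 : 0 < ε}
  {sub : ∀ a : Um, a.N ≤ ε → a ∈ e.target} {C : Fam 3 X}

/-- **holomorphy of the surgery data** -/
theorem surHol (he : ∀ x ∈ e.source, HC C Um.fam e x) (he' : ∀ a ∈ e.target, HC Um.fam C e.symm a) :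
    (sur e ε ε0 sub).Hol C Um.fam Up.fam where
  he := he
  he' := he'
  hφ _ h := hC_phi h
  hφ' _ h := hC_phi_symm h

section XP

variable [T2Space X] (H : (sur e ε ε0 sub).Hol C Um.fam Up.fam)

/-- **the new centre is removable** -/
theorem hC_of_cont {m : ℕ} {P : Type} [TopologicalSpace P] {D : Fam m P}
    {f : (sur e ε ε0 sub).XP → P} {z : (sur e ε ε0 sub).XP}
    (hc : ∀ᶠ y in 𝓝 z, ContinuousAt f y)
    (hd : ∀ᶠ y in 𝓝 z, (sur e ε ε0 sub).nf y ≠ 0 → HC (Sur.fam H) D f y) :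
    HC (Sur.fam H) D f z :=
  hC_of_cont_gen H (fun _ _ h1 h2 => Up.hC_of_cont h1 h2) hc hd

theorem fC_of_cont {F : Type} [NormedAddCommGroup F] [NormedSpace ℂ F] [CompleteSpace F]
    {f : (sur e ε ε0 sub).XP → F} {z : (sur e ε ε0 sub).XP}
    (hc : ∀ᶠ y in 𝓝 z, ContinuousAt f y)
    (hd : ∀ᶠ y in 𝓝 z, (sur e ε ε0 sub).nf y ≠ 0 → FC (Sur.fam H) f y) :
    FC (Sur.fam H) f z :=
  fC_of_cont_gen H (fun _ _ h1 h2 => Up.fC_of_cont h1 h2) hc hd

/-- **a holomorphic map which is constant on the centre is holomorphic on the new space** -/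
theorem holC_push {m : ℕ} {P : Type} [TopologicalSpace P] {D : Fam m P} {f : X → P} {y₀ : P}
    (hf : HolC C D f) (h0 : ∀ x ∈ (sur e ε ε0 sub).K, f x = y₀) :
    HolC (Sur.fam H) D ((sur e ε ε0 sub).push f y₀) := by
  rw [holC_iff_hC]
  intro z
  have hc := (sur e ε ε0 sub).continuous_push hf.cont h0
  refine hC_of_cont H (Eventually.of_forall fun y => hc.continuousAt)
    (Eventually.of_forall fun y hy => ?_)
  exact Sur.hC_push H hy (hf.hC _)

/-- the same, with `f` holomorphic off the centre and continuous -/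
theorem holC_push' {m : ℕ} {P : Type} [TopologicalSpace P] {D : Fam m P} {f : X → P} {y₀ : P}
    (hf : Continuous f) (hf' : ∀ x ∉ (sur e ε ε0 sub).K, HC C D f x)
    (h0 : ∀ x ∈ (sur e ε ε0 sub).K, f x = y₀) :
    HolC (Sur.fam H) D ((sur e ε ε0 sub).push f y₀) := by
  rw [holC_iff_hC]
  intro z
  have hc := (sur e ε ε0 sub).continuous_push hf h0
  refine hC_of_cont H (Eventually.of_forall fun y => hc.continuousAt)
    (Eventually.of_forall fun y hy => ?_)
  exact Sur.hC_push H hy (hf' _ ((sur e ε ε0 sub).iota_symm_not_mem hy))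

end XP

section XP2

variable [T2Space X]

/-- **the zero section near `o`** -/
theorem iota_eq_sig {x : X} (hx : x ∈ e.source) (h0 : (e x).N ≠ 0) (h1 : (e x).N < ε)
    (hm : (e x).m = 0) :
    (sur e ε ε0 sub).iota x = (sur e ε ε0 sub).ep.symm (Up.sig (e x).z) := by
  have h2 : (sur e ε ε0 sub).ep ((sur e ε ε0 sub).iota x) = phi (e x) :=
    (sur e ε ε0 sub).ep_iota' hx h0 h1
  rw [phi_of_m h0 hm] at h2
  rw [← h2, (sur e ε ε0 sub).ep.left_inv]
  rw [(sur e ε ε0 sub).mem_ep_source, (sur e ε ε0 sub).nf_iota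
    ((sur e ε ε0 sub).not_mem_K_of hx h0), (sur e ε ε0 sub).nX_eq hx h1.le]
  exact h1

instance XP_t2 : T2Space (sur e ε ε0 sub).XP := (sur e ε ε0 sub).t2

instance XP_compact [CompactSpace X] : CompactSpace (sur e ε ε0 sub).XP :=
  (sur e ε ε0 sub).compact

theorem dense_iota : Dense (sur e ε ε0 sub).iota.target :=
  (sur e ε ε0 sub).denseRange_il Up.dense_N

theorem mem_K_iff {x : X} : x ∈ (sur e ε ε0 sub).K ↔ x ∈ e.source ∧ (e x).N = 0 :=
  (sur e ε ε0 sub).mem_K

end XP2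

end

end Crest.Agent.R272.Flop_66
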