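import Crest.Agent.R272.Refl3_246
import Crest.Agent.R272.AJDefs_956

/-!
# R272, leaf IDENT-E (helper834): interfaces

`h3`, `pc`   : `(ℂ × ℂ) × ℂ ≃L Cn 3` and the product charts `((x, x'), ξ) ↦ (k c x, k c' x', ξ)` of
               `(C × C) × ℂ`;
`StdU D`     : a manifold with the two charts `(T, a, μ)`, `(1/T, a T, μ T²)` (even standard germ
               `Tot (O(-1) ⊕ O(-2))` over `ℙ¹`);
`Germ`       : the cover `Y` near the fibre over the cluster point: `E 0 (c, c', x)` (where `t` is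
               finite), `E 1 (c, c', v)`, `v = x t t'` (where `t ≠ 0`); consumed from MOD-TP (60);
`K3`         : the line bundle `O(-1,-1)` is `T^* O(-2)` near `Γ`; consumed from 977 / 227.
-/

set_option autoImplicit false
set_option linter.unusedSectionVars false

open Set Filter Topology
open scoped ContDiff

namespace Crest.Agent.R272.Idn_834

open Crest.Agent.R275.Geo Crest.Agent.R273.Fam_835 Crest.Agent.R272.Refl_246
open Crest.Agent.R272.AJ_956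

noncomputable section

/-- `(ℂ × ℂ) × ℂ ≃ ℂ³` -/
def h3 : ((ℂ × ℂ) × ℂ) ≃L[ℂ] Cn 3 :=
  LinearEquiv.toContinuousLinearEquiv
    { toFun := fun p => WithLp.toLp 2 ![p.1.1, p.1.2, p.2]
      invFun := fun z => ((z 0, z 1), z 2)
      map_add' := by
        intro p q
        ext i
        fin_cases i <;> simp
      map_smul' := by
        intro r p
        ext i
        fin_cases i <;> simp
      left_inv := by
        intro p
        simp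
      right_inv := by
        intro z
        ext i
        fin_cases i <;> simp }

@[simp] theorem h3_0 (p : (ℂ × ℂ) × ℂ) : h3 p 0 = p.1.1 := rfl
@[simp] theorem h3_1 (p : (ℂ × ℂ) × ℂ) : h3 p 1 = p.1.2 := rfl
@[simp] theorem h3_2 (p : (ℂ × ℂ) × ℂ) : h3 p 2 = p.2 := rfl
@[simp] theorem h3_symm (z : Cn 3) : h3.symm z = ((z 0, z 1), z 2) := rfl

/-- standard germ (even): charts `(T, a, μ)` and `(1/T, a T, μ T²)` -/
structure StdU {U : Type} [TopologicalSpace U] (D : Fam 3 U) where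
  /-- the two charts -/
  d : Fin 2 → D.ι
  tgt : ∀ i, (D.e (d i)).target = univ
  cov : ∀ u, ∃ i, u ∈ (D.e (d i)).source
  ov : ∀ i, ∀ u ∈ (D.e (d i)).source, (u ∈ (D.e (d (1 - i))).source ↔ D.e (d i) u 0 ≠ 0)
  tr : ∀ i, ∀ u ∈ (D.e (d i)).source, u ∈ (D.e (d (1 - i))).source →
    D.e (d (1 - i)) u = h3 (((D.e (d i) u 0)⁻¹, D.e (d i) u 0 * D.e (d i) u 1),
      (D.e (d i) u 0) ^ 2 * D.e (d i) u 2)

variable {C : Type} [TopologicalSpace C] (𝒞 : Cur C)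

/-- product charts of `(C × C) × ℂ` -/
def pc (c c' : C) : OpenPartialHomeomorph ((C × C) × ℂ) (Cn 3) :=
  (((𝒞.k c).prod (𝒞.k c')).prod (OpenPartialHomeomorph.refl ℂ)).transHomeomorph h3.toHomeomorph

/-- the points where the coordinate `w i` of `ω` does not vanish (`i = 0`: `t` finite,
`i = 1`: `t ≠ 0`) -/
def Ci (i : Fin 2) : Set C := {c | 𝒞.w c i ≠ 0}

/-- the slope `w (1-i) / w i` (`i = 0`: `t`, `i = 1`: `1/t`) -/
def tv (i : Fin 2) (c : C) : ℂ := 𝒞.w c (1 - i) / 𝒞.w c i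

/-- swap on `(C × C) × ℂ` -/
def sw (p : (C × C) × ℂ) : (C × C) × ℂ := (p.1.swap, p.2)

/-- the cover `Y` near the fibre over the base cluster point; `s` = the swap in `G` -/
structure Germ {Y : Type} [TopologicalSpace Y] (CY : Fam 3 Y) (G : Type) [Group G]
    [MulAction G Y] (s : G) where
  /-- `E 0 (c, c', x)`, `E 1 (c, c', v)` -/
  E : Fin 2 → OpenPartialHomeomorph ((C × C) × ℂ) Y
  /-- biholomorphic -/
  cpt : ∀ i c c', Cpt CY ((E i).symm.trans (pc 𝒞 c c'))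
  dom : ∀ i, ∀ p ∈ (E i).source, p.1.1 ∈ Ci 𝒞 i ∧ p.1.2 ∈ Ci 𝒞 i
  /-- the antidiagonal of the zero section -/
  mem : ∀ i, ∀ c ∈ Ci 𝒞 i, ((c, 𝒞.iv c), (0 : ℂ)) ∈ (E i).source
  /-- `v = x t t'` -/
  ov : ∀ p ∈ (E 0).source, ∀ q ∈ (E 1).source, E 0 p = E 1 q ↔
    (q.1 = p.1 ∧ q.2 = p.2 * (tv 𝒞 0 p.1.1 * tv 𝒞 0 p.1.2))
  swap_mem : ∀ i, ∀ p ∈ (E i).source, sw p ∈ (E i).source
  swap : ∀ i, ∀ p ∈ (E i).source, s • E i p = E i (sw p)
  two : s * s = 1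
  grp : ∀ (g : G) (i j : Fin 2), ∀ p ∈ (E i).source, ∀ q ∈ (E j).source, g • E i p = E j q →
    g = 1 ∨ g = s

/-- `O(-1,-1) = T^* O(-2)` near `Γ` : `g 1 · t t' = g 0 · T²` (shape of 227's #6685) -/
structure K3 (U : C × C → E2) where
  g : Fin 2 → C × C → ℂ
  N : Fin 2 → Set (C × C)
  open_N : ∀ i, IsOpen (N i)
  sub : ∀ i, ∀ c ∈ Ci 𝒞 i, ((c, 𝒞.iv c) : C × C) ∈ N i
  dom : ∀ i, ∀ x ∈ N i, x.1 ∈ Ci 𝒞 i ∧ x.2 ∈ Ci 𝒞 i ∧ (x ∈ 𝒞.Gam ∨ U x i ≠ 0)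
  an : ∀ i, ∀ c ∈ Ci 𝒞 i, ∃ γ : ℂ × ℂ → ℂ, AnalyticAt ℂ γ 0 ∧
    ∀ᶠ x in 𝓝 ((c, 𝒞.iv c) : C × C), g i x = γ (𝒞.k c x.1, 𝒞.k (𝒞.iv c) x.2)
  ne : ∀ i, ∀ x ∈ N i, g i x ≠ 0
  swap_mem : ∀ i, ∀ x ∈ N i, x.swap ∈ N i
  symm : ∀ i, ∀ x ∈ N i, g i x.swap = g i x
  rel : ∀ x ∈ N 0, x ∈ N 1 →
    g 1 x * (tv 𝒞 0 x.1 * tv 𝒞 0 x.2) = g 0 x * 𝒞.TT U 0 x ^ 2

end

end Crest.Agent.R272.Idn_834
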