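import Crest.Agent.R272.Flop7_66
import Crest.Agent.R272.IdnDefs_834

/-!
# R272, FLOP-SURG (helper66), part 7b: `Um` is the standard germ of helper834 (`StdU`)
-/

set_option autoImplicit false
set_option linter.unusedSectionVars false
set_option linter.style.haveILetI false

open Set Filter Topology Complex
open scoped ComplexConjugate

namespace Crest.Agent.R272.Flop_66

open Crest.Agent.R275.Geo Crest.Agent.R273.Fam_835 Crest.Agent.R272.HFam_342
open Crest.Agent.R272.Idn_834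

noncomputable section

/-- the index of the chart -/
def Um.dix (i : Fin 2) : Um.fam.ι := ![false, true] i

theorem Um.fam_e0 : Um.fam.e (Um.dix 0) = Um.ch0 := rfl
theorem Um.fam_e1 : Um.fam.e (Um.dix 1) = Um.ch1 := rfl

theorem Um.ch0_mk0 (T a μ : ℂ) : Um.ch0 (Um.mk0 T a μ) = !₂[T, a, μ] := by
  exact Um.ch0.right_inv (x := !₂[T, a, μ]) (mem_univ _)

theorem Um.ch1_mk1 (T a μ : ℂ) : Um.ch1 (Um.mk1 T a μ) = !₂[T, a, μ] := by
  exact Um.ch1.right_inv (x := !₂[T, a, μ]) (mem_univ _)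

theorem Um.ch1_mk0 {T a μ : ℂ} : Um.ch1 (Um.mk0 T a μ) = !₂[T⁻¹, T * a, T ^ 2 * μ] := by
  rw [Um.ch1_apply]
  ext k
  fin_cases k
  · simp [Um.mk0]
  · simp [Um.mk0]; ring
  · simp [Um.mk0]; ring

theorem Um.ch0_mk1 {T a μ : ℂ} : Um.ch0 (Um.mk1 T a μ) = !₂[T⁻¹, T * a, T ^ 2 * μ] := by
  rw [Um.ch0_apply]
  ext k
  fin_cases k
  · simp [Um.mk1]
  · simp [Um.mk1]; ring
  · simp [Um.mk1]; ring

/-- **`Um` is the standard germ** -/
def Um.stdU : StdU Um.fam where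
  d := Um.dix
  tgt i := by fin_cases i <;> rfl
  cov u := by
    rcases Um.cover u with h | h
    · exact ⟨0, h⟩
    · exact ⟨1, h⟩
  ov i u hu := by
    fin_cases i
    · have hu' : u ∈ Um.ch0.source := hu
      show u ∈ Um.ch1.source ↔ Um.ch0 u 0 ≠ 0
      have e : u = Um.mk0 (u.L.rat 1 0) (u.z 0) (u.m 0) := (Um.eq_mk0 hu').symm
      have e2 : Um.ch0 u 0 = u.L.rat 1 0 := rfl
      rw [e2]
      conv_lhs => rw [e]
      exact Um.mk0_mem1
    · have hu' : u ∈ Um.ch1.source := hu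
      show u ∈ Um.ch0.source ↔ Um.ch1 u 0 ≠ 0
      have e : u = Um.mk1 (u.L.rat 0 1) (u.z 1) (u.m 2) := (Um.eq_mk1 hu').symm
      have e2 : Um.ch1 u 0 = u.L.rat 0 1 := rfl
      rw [e2]
      conv_lhs => rw [e]
      exact Um.mk1_mem0
  tr i u hu _ := by
    fin_cases i
    · have hu' : u ∈ Um.ch0.source := hu
      show Um.ch1 u = h3 (((Um.ch0 u 0)⁻¹, Um.ch0 u 0 * Um.ch0 u 1), (Um.ch0 u 0) ^ 2 * Um.ch0 u 2)
      have e : u = Um.mk0 (u.L.rat 1 0) (u.z 0) (u.m 0) := (Um.eq_mk0 hu').symm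
      have e0 : Um.ch0 u 0 = u.L.rat 1 0 := rfl
      have e1 : Um.ch0 u 1 = u.z 0 := rfl
      have e2 : Um.ch0 u 2 = u.m 0 := rfl
      rw [e0, e1, e2]
      conv_lhs => rw [e]
      rw [Um.ch1_mk0]
      rfl
    · have hu' : u ∈ Um.ch1.source := hu
      show Um.ch0 u = h3 (((Um.ch1 u 0)⁻¹, Um.ch1 u 0 * Um.ch1 u 1), (Um.ch1 u 0) ^ 2 * Um.ch1 u 2)
      have e : u = Um.mk1 (u.L.rat 0 1) (u.z 1) (u.m 2) := (Um.eq_mk1 hu').symm
      have e0 : Um.ch1 u 0 = u.L.rat 0 1 := rfl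
      have e1 : Um.ch1 u 1 = u.z 1 := rfl
      have e2 : Um.ch1 u 2 = u.m 2 := rfl
      rw [e0, e1, e2]
      conv_lhs => rw [e]
      rw [Um.ch0_mk1]
      rfl

end

end Crest.Agent.R272.Flop_66
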