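import Crest.Agent.R272.Ax4_834
import Crest.Agent.R272.AJd_956
import Crest.Agent.R272.Flop7b_66
import Crest.Agent.R272.Flop10_66

/-!
# R272, leaf D4 (helper834), part 5: the surface after the surgery

`IsId I e` : the conclusion of `Inp.ident`;
`near_sig` : the zero section near `Γ` in the coordinates of `Um`
`not_zero` : off `Γ` it misses the centre
-/

set_option autoImplicit false
set_option linter.unusedSectionVars false

open Set Filter Topology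
open scoped ContDiff

namespace Crest.Agent.R272.Ax_834

open Crest.Agent.R275.Geo Crest.Agent.R273.Fam_835 Crest.Agent.R272.Refl_246
open Crest.Agent.R272.AJ_956 Crest.Agent.R272.Idn_834 Crest.Agent.R272.HFam_342
open Crest.Agent.R272.Flop_66 Crest.Agent.R272.Sur_342

noncomputable section

variable {C : Type} [TopologicalSpace C] {𝒞 : Cur C} {N : Set (C × C)} {U : C × C → E2}
  {Y : Type} [TopologicalSpace Y] {CY : Fam 3 Y} {G : Type} [Group G] [MulAction G Y] {s : G}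

/-- the conclusion of `Inp.ident` -/
structure IsId (I : Inp 𝒞 N U CY G s Um.fam) (e : OpenPartialHomeomorph (Orb G Y) Um) : Prop where
  src : e.source = pr G '' I.OO
  form : ∀ i, ∀ p ∈ I.Dm i, I.Ge.E i p ∈ I.OO →
    e (pr G (I.Ge.E i p)) = (Um.fam.e (I.S.d i)).symm (h3 (I.co I i p))
  zero : ∀ i, ∀ u ∈ (Um.fam.e (I.S.d i)).source, Um.fam.e (I.S.d i) u 1 = 0 →
    Um.fam.e (I.S.d i) u 2 = 0 →
      u ∈ e.target ∧ ∃ c ∈ Ci 𝒞 i, u = e (pr G (I.Ge.E i ((c, 𝒞.iv c), 0)))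

theorem exists_isId (I : Inp 𝒞 N U CY G s Um.fam) [ContinuousConstSMul G Y] [Nonempty Y]
    (hG : ∀ g : G, HolC CY CY (fun y => g • y)) (hcov : ∀ y : Y, ∃ c : RC G CY, y ∈ c.e.source) :
    ∃ e : OpenPartialHomeomorph (Orb G Y) Um, IsId I e ∧
      (∀ x ∈ e.source, HC (qFam hG hcov) Um.fam e x) ∧
      (∀ u ∈ e.target, HC Um.fam (qFam hG hcov) e.symm u) := by
  have : Nonempty Um := ⟨Um.mk0 0 0 0⟩
  obtain ⟨e, h1, h2, -, h4, h5, h6⟩ := I.ident hG hcov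
  exact ⟨e, ⟨h1, h2, h6⟩, h4, h5⟩

/-- the whole zero fibre is in the target -/
theorem IsId.sub_target {I : Inp 𝒞 N U CY G s Um.fam} {e : OpenPartialHomeomorph (Orb G Y) Um}
    (h : IsId I e) (hd : ∀ i, I.S.d i = Um.dix i) (u : Um) (hu : u.N = 0) : u ∈ e.target := by
  obtain ⟨h1, h2⟩ := Um.N_eq_zero.1 hu
  obtain ⟨i, hi⟩ := I.S.cov u
  refine (h.zero i u hi ?_ ?_).1
  · rw [hd]
    fin_cases i
    · exact congrFun h1 0
    · exact congrFun h1 1
  · rw [hd]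
    fin_cases i
    · exact congrFun h2 0
    · exact congrFun h2 2

section zero

variable {I : Inp 𝒞 N U CY G s Um.fam} {e : OpenPartialHomeomorph (Orb G Y) Um} (hI : IsId I e)
  (hd : ∀ i, I.S.d i = Um.dix i) {z : C × C → Y} (Z : ZSec I.Ge z)

include hI hd in
/-- points over the centre come from `Γ` -/
theorem IsId.exists_c {y : Orb G Y} (hy : y ∈ e.source) (hN : (e y).N = 0) :
    ∃ i, ∃ c ∈ Ci 𝒞 i, y = pr G (I.Ge.E i ((c, 𝒞.iv c), 0)) := by
  obtain ⟨h1, h2⟩ := Um.N_eq_zero.1 hN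
  obtain ⟨i, hi⟩ := I.S.cov (e y)
  have h3 := hI.zero i (e y) hi (by
    rw [hd]
    fin_cases i
    · exact congrFun h1 0
    · exact congrFun h1 1) (by
    rw [hd]
    fin_cases i
    · exact congrFun h2 0
    · exact congrFun h2 2)
  obtain ⟨-, c, hc, h4⟩ := h3
  refine ⟨i, c, hc, ?_⟩
  have h5 : pr G (I.Ge.E i ((c, 𝒞.iv c), 0)) ∈ e.source := by
    rw [hI.src]
    exact mem_image_of_mem _ (I.y0_OO hc)
  exact e.injOn hy h5 h4

include Z in
theorem z_gam {i : Fin 2} {c : C} (hc : c ∈ Ci 𝒞 i) :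
    I.Ge.E i ((c, 𝒞.iv c), 0) = z (c, 𝒞.iv c) := Z.germ i _ (I.Ge.mem i c hc)

include hI hd Z in
/-- off `Γ` the zero section misses the centre -/
theorem not_zero {x : C × C} (hx : x ∉ 𝒞.Gam) (h : pr G (z x) ∈ e.source) :
    (e (pr G (z x))).N ≠ 0 := by
  intro h0
  obtain ⟨i, c, hc, h1⟩ := hI.exists_c hd h h0
  rw [z_gam Z hc, Z.pr_eq] at h1
  have hg : ((c, 𝒞.iv c) : C × C) ∈ 𝒞.Gam := rfl
  rcases h1 with h1 | h1
  · rw [h1] at hg
    exact hx hg
  · rw [h1] at hg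
    exact hx (mem_Gam_swap.1 hg)

include hI hd Z in
/-- the zero section near `Γ` -/
theorem near_sig (c : C) : ∀ᶠ x in 𝓝 ((c, 𝒞.iv c) : C × C), x ∈ N ∧
    pr G (z x) ∈ e.source ∧ (e (pr G (z x))).z = U x ∧ (e (pr G (z x))).m = 0 := by
  obtain ⟨i, hc⟩ := exists_Ci (𝒞 := 𝒞) c
  have hg : ((c, 𝒞.iv c) : C × C) ∈ 𝒞.Gam := rfl
  have hcy : ContinuousAt (fun y : C × C => ((y, 0) : (C × C) × ℂ)) (c, 𝒞.iv c) := by fun_prop
  have h1 : ∀ᶠ x in 𝓝 ((c, 𝒞.iv c) : C × C), ((x, 0) : (C × C) × ℂ) ∈ (I.Ge.E i).source :=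
    hcy.eventually ((I.Ge.E i).open_source.mem_nhds (I.Ge.mem i c hc))
  have h2 : ∀ᶠ x in 𝓝 ((c, 𝒞.iv c) : C × C), x ∈ N ∧ x ∈ I.K.N i :=
    inter_mem (I.hN.open_N.mem_nhds (I.hN.sub hg)) ((I.K.open_N i).mem_nhds (I.K.sub i c hc))
  have h3 : ∀ᶠ x in 𝓝 ((c, 𝒞.iv c) : C × C), I.Ge.E i (x, 0) ∈ I.OO := by
    have h4 : ContinuousAt (fun x : C × C => I.Ge.E i (x, 0)) (c, 𝒞.iv c) :=
      ContinuousAt.comp (f := fun y : C × C => ((y, 0) : (C × C) × ℂ)) (g := I.Ge.E i)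
        ((I.Ge.E i).continuousAt (I.Ge.mem i c hc)) hcy
    exact h4.eventually (I.isOpen_OO.mem_nhds (I.y0_OO hc))
  filter_upwards [h1, h2, h3] with x hx1 hx2 hx3
  have hz : I.Ge.E i (x, 0) = z x := Z.germ i x hx1
  have hD : ((x, 0) : (C × C) × ℂ) ∈ I.Dm i := ⟨hx1, hx2.1, hx2.2⟩
  have hf := hI.form i _ hD hx3
  rw [hz] at hf
  refine ⟨hx2.1, ?_, ?_⟩
  · rw [hI.src, ← hz]
    exact mem_image_of_mem _ hx3
  rw [hf, hd]
  have hT : ∀ i, x ∈ I.K.N i → U x i * 𝒞.TT U i x = U x (1 - i) := by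
    intro i hi
    by_cases hg : x ∈ 𝒞.Gam
    · rw [U_gam I.hN hg]
      simp
    · have h5 : U x i ≠ 0 := (I.K.dom i x hi).2.2.resolve_left hg
      rw [TT_off hg]
      field_simp
  fin_cases i
  · have h6 := hT 0 hx2.2
    constructor
    · funext k
      fin_cases k
      · rfl
      · exact h6
    · funext k
      fin_cases k
      · exact zero_mul _
      · show (0 * I.K.g 0 x) * 𝒞.TT U 0 x = 0
        ring
      · show (0 * I.K.g 0 x) * 𝒞.TT U 0 x ^ 2 = 0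
        ring
  · have h6 := hT 1 hx2.2
    constructor
    · funext k
      fin_cases k
      · exact h6
      · rfl
    · funext k
      fin_cases k
      · show (0 * I.K.g 1 x) * 𝒞.TT U 1 x ^ 2 = 0
        ring
      · show (0 * I.K.g 1 x) * 𝒞.TT U 1 x = 0
        ring
      · exact zero_mul _

end zero

end

end Crest.Agent.R272.Ax_834
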