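import Crest.Agent.R272.Ax5_834

/-!
# R272, leaf D4 (helper834), part 6: `QHol` for the surface after the surgery

`qP` : the map `C × C → XP`, `iota ∘ pr ∘ z` off `Γ`, the point `o` on `Γ`;
`qHol` : `QHol 𝒞 (Sur.fam H) qP`.
-/

set_option autoImplicit false
set_option linter.unusedSectionVars false

open Set Filter Topology
open scoped ContDiff

namespace Crest.Agent.R272.Ax_834

open Crest.Agent.R275.Geo Crest.Agent.R273.Fam_835 Crest.Agent.R272.Refl_246
open Crest.Agent.R272.AJ_956 Crest.Agent.R272.Idn_834 Crest.Agent.R272.HFam_342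
open Crest.Agent.R272.Flop_66 Crest.Agent.R272.Sur_342

noncomputable section

variable {C : Type} [TopologicalSpace C] {𝒞 : Cur C} {N : Set (C × C)} {U : C × C → E2}
  {Y : Type} [TopologicalSpace Y] {CY : Fam 3 Y} {G : Type} [Group G] [MulAction G Y] {s : G}
  {e : OpenPartialHomeomorph (Orb G Y) Um} {ε : ℝ} {ε0 : 0 < ε}
  {sub : ∀ a : Um, a.N ≤ ε → a ∈ e.target}

variable (𝒞) [T2Space (Orb G Y)]

open Classical in
/-- the map `C × C → XP` -/
def qP (e : OpenPartialHomeomorph (Orb G Y) Um) (ε : ℝ) (ε0 : 0 < ε)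
    (sub : ∀ a : Um, a.N ≤ ε → a ∈ e.target) (z : C × C → Y) (x : C × C) :
    (sur e ε ε0 sub).XP :=
  if x ∈ 𝒞.Gam then (sur e ε ε0 sub).ep.symm Up.o else (sur e ε ε0 sub).iota (pr G (z x))

variable {𝒞}

theorem qP_gam {z : C × C → Y} {x : C × C} (hx : x ∈ 𝒞.Gam) :
    qP 𝒞 e ε ε0 sub z x = (sur e ε ε0 sub).ep.symm Up.o := if_pos hx

theorem qP_off {z : C × C → Y} {x : C × C} (hx : x ∉ 𝒞.Gam) :
    qP 𝒞 e ε ε0 sub z x = (sur e ε ε0 sub).iota (pr G (z x)) := if_neg hx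

/-- the index of the fourth chart -/
def ix4 : Up.fam.ι := (3 : Fin 4)

theorem fam_ix4 : Up.fam.e ix4 = Up.ch4 := rfl

theorem N_o : Up.o.N = 0 := by
  rw [← Up.sig_zero, Up.N_sig, nsq_eq_zero]

theorem nf_gam {z : C × C → Y} {x : C × C} (hx : x ∈ 𝒞.Gam) :
    (sur e ε ε0 sub).nf (qP 𝒞 e ε ε0 sub z x) = 0 := by
  rw [qP_gam hx, (sur e ε ε0 sub).nf_ep_symm (by
    show Up.o.N < ε
    rw [N_o]; exact ε0)]
  exact N_o

section

variable {I : Inp 𝒞 N U CY G s Um.fam} (hI : IsId I e) (hd : ∀ i, I.S.d i = Um.dix i)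
  {z : C × C → Y} (Z : ZSec I.Ge z)

include hI hd Z

theorem not_mem_K {x : C × C} (hx : x ∉ 𝒞.Gam) : pr G (z x) ∉ (sur e ε ε0 sub).K := by
  intro h
  rw [mem_K_iff] at h
  exact not_zero hI hd Z hx h.1 h.2

theorem nf_off {x : C × C} (hx : x ∉ 𝒞.Gam) :
    (sur e ε ε0 sub).nf (qP 𝒞 e ε ε0 sub z x) ≠ 0 := by
  rw [qP_off hx, (sur e ε ε0 sub).nf_iota (not_mem_K hI hd Z hx)]
  exact (sur e ε ε0 sub).nX_ne_zero.2 (not_mem_K hI hd Z hx)

theorem qP_fib (x x' : C × C) : qP 𝒞 e ε ε0 sub z x = qP 𝒞 e ε ε0 sub z x' ↔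
    x' = x ∨ x' = x.swap ∨ (x ∈ 𝒞.Gam ∧ x' ∈ 𝒞.Gam) := by
  by_cases hx : x ∈ 𝒞.Gam
  · by_cases hx' : x' ∈ 𝒞.Gam
    · simp only [qP_gam hx, qP_gam hx', hx, hx', and_self, or_true]
    · constructor
      · intro h
        exfalso
        have h1 := nf_off (ε0 := ε0) (sub := sub) hI hd Z hx'
        rw [← h, nf_gam hx] at h1
        exact h1 rfl
      · rintro (h | h | h)
        · rw [h] at hx'; exact absurd hx hx'
        · rw [h] at hx'; exact absurd (mem_Gam_swap.2 hx) hx'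
        · exact absurd h.2 hx'
  · by_cases hx' : x' ∈ 𝒞.Gam
    · constructor
      · intro h
        exfalso
        have h1 := nf_off (ε0 := ε0) (sub := sub) hI hd Z hx
        rw [h, nf_gam hx'] at h1
        exact h1 rfl
      · rintro (h | h | h)
        · rw [h] at hx'; exact absurd hx' hx
        · rw [h] at hx'; exact absurd (mem_Gam_swap.1 hx') hx
        · exact absurd h.1 hx
    · rw [qP_off hx, qP_off hx']
      constructor
      · intro h
        have h1 := (sur e ε ε0 sub).iota.injOn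
          ((sur e ε ε0 sub).mem_iota_source.2 (not_mem_K hI hd Z hx))
          ((sur e ε ε0 sub).mem_iota_source.2 (not_mem_K hI hd Z hx')) h
        rcases Z.pr_eq.1 h1 with h2 | h2
        · exact Or.inl h2
        · exact Or.inr (Or.inl h2)
      · rintro (h | h | h)
        · rw [h]
        · rw [Z.pr_eq.2 (Or.inr h)]
        · exact absurd h.1 hx

/-- near `Γ` the map is `sig ∘ U` -/
theorem qP_near (c : C) : ∀ᶠ x in 𝓝 ((c, 𝒞.iv c) : C × C),
    nsq (U x) < ε ∧ qP 𝒞 e ε ε0 sub z x = (sur e ε ε0 sub).ep.symm (Up.sig (U x)) := by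
  have hg : ((c, 𝒞.iv c) : C × C) ∈ 𝒞.Gam := rfl
  have hUc : ContinuousAt U (c, 𝒞.iv c) :=
    Crest.Agent.R272.AJd_956.Basic.LP.continuousAt 𝒞 I.hN.lp (I.hN.sub hg)
  have h1 : ∀ᶠ x in 𝓝 ((c, 𝒞.iv c) : C × C), nsq (U x) < ε := by
    have h2 : ContinuousAt (fun x => nsq (U x)) (c, 𝒞.iv c) :=
      ContinuousAt.comp (f := U) (g := nsq) continuous_nsq.continuousAt hUc
    refine h2.eventually_lt continuousAt_const ?_
    rw [U_gam I.hN hg, nsq_eq_zero.2 rfl]
    exact ε0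
  filter_upwards [h1, near_sig hI hd Z c] with x hx hx2
  refine ⟨hx, ?_⟩
  obtain ⟨hxN, he, h3, h4⟩ := hx2
  by_cases hgx : x ∈ 𝒞.Gam
  · rw [qP_gam hgx, U_gam I.hN hgx, Up.sig_zero]
  · have hU : U x ≠ 0 := fun h => hgx ((I.hN.zero x hxN).1 h)
    have hNn : (e (pr G (z x))).N = nsq (U x) := by
      rw [Um.N, h3, h4, nsq_eq_zero.2 rfl, add_zero]
    rw [qP_off hgx, iota_eq_sig he (not_zero hI hd Z hgx he) (by rw [hNn]; exact hx) h4, h3]

theorem qP_cont [T2Space C] : Continuous (qP 𝒞 e ε ε0 sub z) := by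
  rw [continuous_iff_continuousAt]
  intro x
  by_cases hx : x ∈ 𝒞.Gam
  · obtain ⟨c, c'⟩ := x
    have hc' : c' = 𝒞.iv c := hx
    subst hc'
    have h1 := qP_near (ε0 := ε0) (sub := sub) hI hd Z c
    have hUc : ContinuousAt U (c, 𝒞.iv c) :=
      Crest.Agent.R272.AJd_956.Basic.LP.continuousAt 𝒞 I.hN.lp (I.hN.sub hx)
    have h2 : ContinuousAt (fun x => (sur e ε ε0 sub).ep.symm (Up.sig (U x))) (c, 𝒞.iv c) := by
      have h3 : ContinuousAt (fun x => Up.sig (U x)) (c, 𝒞.iv c) :=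
        ContinuousAt.comp (f := U) (g := Up.sig) Up.c_sig.continuousAt hUc
      refine ContinuousAt.comp (f := fun x => Up.sig (U x))
        (g := (sur e ε ε0 sub).ep.symm) ?_ h3
      refine (sur e ε ε0 sub).ep.continuousAt_symm ((sur e ε ε0 sub).mem_ep_target.2 ?_)
      show (Up.sig (U (c, 𝒞.iv c))).N < ε
      rw [Up.N_sig]
      exact h1.self_of_nhds.1
    exact h2.congr (h1.mono fun y hy => hy.2.symm)
  · have hcl : ∀ᶠ y in 𝓝 x, y ∉ 𝒞.Gam := by
      exact (Crest.Agent.R272.AJd_956.Basic.isClosed_Gam 𝒞).isOpen_compl.mem_nhds hx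
    have h2 : ContinuousAt (fun x => (sur e ε ε0 sub).iota (pr G (z x))) x := by
      have h3 : ContinuousAt (fun x => pr G (z x)) x :=
        (continuous_quotient_mk'.comp Z.cont).continuousAt
      refine ContinuousAt.comp (f := fun x => pr G (z x)) (g := (sur e ε ε0 sub).iota) ?_ h3
      exact (sur e ε ε0 sub).iota.continuousAt
        ((sur e ε ε0 sub).mem_iota_source.2 (not_mem_K hI hd Z hx))
    exact h2.congr (hcl.mono fun y hy => (qP_off hy).symm)

/-- **the surface after the surgery is holomorphically parametrised by `C × C`** -/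
theorem qHol [T2Space C] [ContinuousConstSMul G Y] [Nonempty Y]
    (hG : ∀ g : G, HolC CY CY (fun y => g • y))
    (hcov : ∀ y : Y, ∃ c : RC G CY, y ∈ c.e.source)
    (H : (sur e ε ε0 sub).Hol (qFam hG hcov) Um.fam Up.fam) :
    QHol 𝒞 (Sur.fam H) (qP 𝒞 e ε ε0 sub z) := by
  have hcont := qP_cont (ε0 := ε0) (sub := sub) hI hd Z
  have hK : ∀ {x : C × C}, x ∉ 𝒞.Gam → pr G (z x) ∉ (sur e ε ε0 sub).K := fun hx =>
    not_mem_K hI hd Z hx
  have hpz : Continuous fun x => pr G (z x) := continuous_quotient_mk'.comp Z.cont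
  have hev : ∀ {x : C × C}, x ∉ 𝒞.Gam → ∀ᶠ y in 𝓝 x,
      qP 𝒞 e ε ε0 sub z y = (sur e ε ε0 sub).iota (pr G (z y)) := by
    intro x hx
    filter_upwards [(Crest.Agent.R272.AJd_956.Basic.isClosed_Gam 𝒞).isOpen_compl.mem_nhds hx]
      with y hy
    exact qP_off hy
  have hKev : ∀ {x : C × C}, x ∉ 𝒞.Gam →
      ∀ᶠ y in 𝓝 (pr G (z x)), HC (qFam hG hcov) (Sur.fam H) (sur e ε ε0 sub).iota y := by
    intro x hx
    filter_upwards [(sur e ε ε0 sub).isClosed_K.isOpen_compl.mem_nhds (hK hx)] with y hy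
    exact Sur.hC_iota H hy
  refine ⟨hcont, qP_fib hI hd Z, ?_, ?_, ?_⟩
  · intro x hx hxd
    obtain ⟨j, hj, Q, hQ, hQe⟩ := (Z.off hG hcov hxd).comp_LC (F' := Sur.fam H)
      (by simp only [𝒞.k_zero]; rfl) hpz.continuousAt (hKev hx) (Sur.lC_iota H (hK hx))
    refine ⟨j, by rw [qP_off hx]; exact hj, Q, hQ, ?_⟩
    filter_upwards [hQe, hev hx] with y h1 h2
    rw [h2]
    exact h1
  · intro c hc
    have hx : ((c, c) : C × C) ∉ 𝒞.Gam := fun h => hc (show c = 𝒞.iv c from h).symm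
    obtain ⟨j, hj, Q, hQ, hQe⟩ := (Z.diag hG hcov hc).comp_LC (F' := Sur.fam H)
      (by simp only [𝒞.k_zero]; ext <;> simp) hpz.continuousAt (hKev hx)
      (Sur.lC_iota H (hK hx))
    refine ⟨j, by rw [qP_off hx]; exact hj, Q, hQ, ?_⟩
    filter_upwards [hQe, hev hx] with y h1 h2
    rw [h2]
    exact h1
  · intro N' U' hN'
    have hcs : ∀ v : E2, nsq v < ε → (sur e ε ε0 sub).ep.symm (Up.sig v) ∈
        ((Sur.fam H).e (Sur.cr H ix4)).source ∧
        (Sur.fam H).e (Sur.cr H ix4) ((sur e ε ε0 sub).ep.symm (Up.sig v)) =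
          !₂[v 0, v 1, 0] := by
      intro v hv
      have h1 : Up.sig v ∈ (sur e ε ε0 sub).ep.target := by
        rw [(sur e ε ε0 sub).mem_ep_target]
        show (Up.sig v).N < ε
        rw [Up.N_sig]; exact hv
      have h2 : (sur e ε ε0 sub).ep ((sur e ε ε0 sub).ep.symm (Up.sig v)) = Up.sig v :=
        (sur e ε ε0 sub).ep.right_inv h1
      constructor
      · rw [Sur.mem_cr, h2, fam_ix4]
        refine ⟨?_, Up.mk4_mem4' _ _ _⟩
        have h3 := (sur e ε ε0 sub).ep.map_target h1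
        rwa [(sur e ε ε0 sub).mem_ep_source] at h3
      · rw [Sur.e_cr, OpenPartialHomeomorph.trans_apply, h2, fam_ix4]
        exact Up.ch4_mk4 _ _ _
    refine ⟨Sur.cr H ix4, fun c => ?_, fun v => !₂[v 0, v 1, 0], ?_, ?_⟩
    · have hg : ((c, 𝒞.iv c) : C × C) ∈ 𝒞.Gam := rfl
      rw [qP_gam hg, ← Up.sig_zero]
      exact (hcs 0 (by rw [nsq_eq_zero.2 rfl]; exact ε0)).1
    · -- the linear map
      let Lc : E2 →L[ℂ] Cn 3 := (h3 : ((ℂ × ℂ) × ℂ) →L[ℂ] Cn 3).comp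
        (((ContinuousLinearMap.proj (R := ℂ) (φ := fun _ : Fin 2 => ℂ) 0).prod
          (ContinuousLinearMap.proj (R := ℂ) (φ := fun _ : Fin 2 => ℂ) 1)).prod 0)
      have hL : (fun v : E2 => (!₂[v 0, v 1, 0] : Cn 3)) = fun v => Lc v := by
        funext v
        rfl
      rw [hL]
      refine ⟨Lc.analyticAt 0, fun v hv => ?_⟩
      rw [Lc.fderiv] at hv
      have h0 : Lc v 0 = 0 := by rw [hv]; rfl
      have h1 : Lc v 1 = 0 := by rw [hv]; rfl
      funext k
      fin_cases k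
      · exact h0
      · exact h1
    · rw [eventually_nhdsSet_iff_forall]
      rintro ⟨c, c'⟩ hg
      have hc' : c' = 𝒞.iv c := hg
      subst hc'
      filter_upwards [qP_near (ε0 := ε0) (sub := sub) hI hd Z c, I.hN.near c, hN'.near c]
        with x h1 h2 h3
      rw [h1.2, h3, ← h2]
      exact (hcs _ h1.1).2

end

end

end Crest.Agent.R272.Ax_834
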