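import Crest.Agent.R272.Ax6_834
import Crest.Agent.R272.As152_338

/-!
# R272, leaf D4 (helper834), part 7: output in the language of 338's `s15_model`

`FF J : C(E2, M)`, `FF J z = (π z).1`; `immF : ImmF FM (FF J)`; `per : Per (FF J) Λ`;
`val_injective`; `qP_mem`, `qP_psi` : off `Γ` the point `qP x` is `iota (pr (z x))`.
-/

set_option autoImplicit false
set_option linter.unusedSectionVars false

open Set Filter Topology
open scoped ContDiff

namespace Crest.Agent.R272.Ax_834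

open Crest.Agent.R275.Geo Crest.Agent.R273.Fam_835 Crest.Agent.R272.Refl_246
open Crest.Agent.R272.AJ_956 Crest.Agent.R272.Idn_834 Crest.Agent.R272.HFam_342
open Crest.Agent.R272.Flop_66 Crest.Agent.R272.Sur_342
open Crest.Agent.R272.As15_338 TLoop_463

noncomputable section

section gen

variable {C : Type} [TopologicalSpace C] {𝒞 : Cur C} {m : ℕ} {M : Type} [TopologicalSpace M]
  {FM : Fam m M} {q : C × C → M} {Λ : AddSubgroup E2} {π : E2 → range q}

/-- the map `ℂ² → M` -/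
def FF (J : 𝒞.IsJac (rq q) Λ π) : C(E2, M) :=
  ⟨fun z => (π z).1, continuous_subtype_val.comp J.cont⟩

theorem FF_eq (J : 𝒞.IsJac (rq q) Λ π) (z : E2) : FF J z = Subtype.val (π z) := rfl

/-- **`FF` is an immersion** -/
theorem immF (h : QHol 𝒞 FM q) (J : 𝒞.IsJac (rq q) Λ π) {N : Set (C × C)} {U : C × C → E2}
    (hN : 𝒞.NearE N U) : ImmF FM (FF J) := by
  intro z
  obtain ⟨j, hj, h1, h2⟩ := h.good J hN z
  exact ⟨j, hj, h1.differentiableAt, h2⟩

/-- **`FF` is `Λ`-periodic** -/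
theorem per (J : 𝒞.IsJac (rq q) Λ π) : Per (FF J) Λ := by
  intro v l hl
  show (π (v + l)).1 = (π v).1
  rw [(J.eq_iff (v + l) v).2 (by rw [add_sub_cancel_left]; exact hl)]

end gen

variable {C : Type} [TopologicalSpace C] {𝒞 : Cur C} {N : Set (C × C)} {U : C × C → E2}
  {Y : Type} [TopologicalSpace Y] {CY : Fam 3 Y} {G : Type} [Group G] [MulAction G Y] {s : G}
  {e : OpenPartialHomeomorph (Orb G Y) Um} {ε : ℝ} {ε0 : 0 < ε}
  {sub : ∀ a : Um, a.N ≤ ε → a ∈ e.target} [T2Space (Orb G Y)]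
  {I : Inp 𝒞 N U CY G s Um.fam} (hI : IsId I e) (hd : ∀ i, I.S.d i = Um.dix i)
  {z : C × C → Y} (Z : ZSec I.Ge z)

include hI hd Z

/-- off `Γ` : the point is in the old part and comes from the zero section -/
theorem qP_psi (x : C × C) (hx : x ∉ 𝒞.Gam) :
    qP 𝒞 e ε ε0 sub z x ∈ {y : (sur e ε ε0 sub).XP | (sur e ε ε0 sub).nf y ≠ 0} ∧
      (sur e ε ε0 sub).iota.symm (qP 𝒞 e ε ε0 sub z x) = pr G (z x) := by
  refine ⟨nf_off hI hd Z hx, ?_⟩
  rw [qP_off hx]
  exact (sur e ε ε0 sub).iota.left_inv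
    ((sur e ε ε0 sub).mem_iota_source.2 (not_mem_K hI hd Z hx))

/-- **everything together** -/
theorem d4_out [T2Space C] [ContinuousConstSMul G Y] [Nonempty Y]
    (hG : ∀ g : G, HolC CY CY (fun y => g • y))
    (hcov : ∀ y : Y, ∃ c : RC G CY, y ∈ c.e.source)
    (H : (sur e ε ε0 sub).Hol (qFam hG hcov) Um.fam Up.fam) :
    ∃ (T : Type) (_ : TopologicalSpace T) (_ : T2Space T) (q : C × C → T)
      (inc : T → (sur e ε ε0 sub).XP), 𝒞.IsQ q ∧ Function.Injective inc ∧ Continuous inc ∧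
      (∀ x ∉ 𝒞.Gam, inc (q x) ∈ {y : (sur e ε ε0 sub).XP | (sur e ε ε0 sub).nf y ≠ 0} ∧
        (sur e ε ε0 sub).iota.symm (inc (q x)) = pr G (z x)) ∧
      ∀ (Λ : AddSubgroup E2) (π : E2 → T), 𝒞.IsJac q Λ π →
        ∃ F : C(E2, (sur e ε ε0 sub).XP), (∀ v, F v = inc (π v)) ∧ ImmF (Sur.fam H) F ∧ Per F Λ := by
  have hQ := qHol hI hd Z hG hcov H
  refine ⟨range (qP 𝒞 e ε ε0 sub z), inferInstance, inferInstance, rq _, Subtype.val, hQ.isQ,
    Subtype.val_injective, continuous_subtype_val, fun x hx => qP_psi hI hd Z x hx, ?_⟩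
  intro Λ π J
  exact ⟨FF J, fun _ => rfl, immF hQ J I.hN, per J⟩

end

end Crest.Agent.R272.Ax_834
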