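import Crest.Agent.R272.Refl11_246
import Crest.Agent.R272.MQ2_783

/-!
# R272, leaf B-BASE (helper246), part 1: quotients by an involution, `Fam` language

`exists_atl_projD` : `Y` (T2) with an atlas `A` and `P : ProjD A`, `σ` a holomorphic involution with
`ReflAt` at every fixed point, `(Z, CZ, q)` any quotient of `Y` by `σ` with the universal property,
`Z` compact T2 ⟹ a finite good atlas `B` of `Z`, compatible with `CZ`, with `ProjD B`.
-/

set_option autoImplicit false
set_option linter.unusedSectionVars false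

open Set Filter Topology
open scoped ContDiff

namespace Crest.Agent.R272.BBase_246

open Crest.Agent.R275.Geo Crest.Agent.R275.GC293 Crest.Agent.R275.Core144
open Crest.Agent.R273.Fam_835 Crest.Agent.R273.Map_835 Crest.Agent.R273.Defs_333
open Crest.Agent.R272.Refl_246 Crest.Agent.R272.MQ_783

noncomputable section

variable {n : ℕ}

section cpt

variable {M : Type} [TopologicalSpace M] {C D : Fam n M}

/-- compatible charts depend only on the complex structure -/
theorem cpt_of_id (h : HolC C D id) (h' : HolC D C id)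
    {φ : OpenPartialHomeomorph M (Cn n)} (hφ : Cpt C φ) : Cpt D φ := by
  constructor
  · intro j z hz
    have hz1 : φ.symm z ∈ φ.source := φ.map_target hz.1
    have h1 := hφ.diffAt (cpt_e (C := D) j) h hz1 hz.2
    rw [φ.right_inv hz.1] at h1
    exact h1.differentiableWithinAt
  · intro j z hz
    have hz1 : (D.e j).symm z ∈ (D.e j).source := (D.e j).map_target hz.1
    have h1 := (cpt_e (C := D) j).diffAt hφ h' hz1 hz.2
    rw [(D.e j).right_inv hz.1] at h1
    exact h1.differentiableWithinAt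

theorem reflAt_of_id (h : HolC C D id) (h' : HolC D C id) {S : M → M} {x : M}
    (hS : ReflAt C S x) : ReflAt D S x := by
  obtain ⟨φ, hφ, hx, hr⟩ := hS
  exact ⟨φ, cpt_of_id h h' hφ, hx, hr⟩

end cpt

/-- the group of order two generated by an involution -/
theorem exists_group' {Y : Type} [TopologicalSpace Y] [T2Space Y] [Nonempty Y] {C : Fam n Y}
    {σ : Y → Y} (hσ : HolC C C σ) (hσσ : ∀ y, σ (σ y) = y) (hne : ∃ y, σ y ≠ y)
    (hfix : ∀ y, σ y = y → ReflAt C σ y) :
    ∃ (G : Type) (_ : Group G) (_ : MulAction G Y) (_ : ContinuousConstSMul G Y) (s : G), s ≠ 1 ∧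
      s * s = 1 ∧ (∀ g : G, g = 1 ∨ g = s) ∧ (∀ y : Y, s • y = σ y) ∧
      (∀ g : G, HolC C C (fun y => g • y)) ∧ ∀ y : Y, ∃ c : RC G C, y ∈ c.e.source := by
  classical
  let τ : Equiv.Perm Y := ⟨σ, σ, hσσ, hσσ⟩
  have hτ : τ ^ (2 : ℤ) = 1 := by
    ext y
    rw [zpow_ofNat, pow_two]
    exact hσσ y
  let G := Subgroup.zpowers τ
  let s : G := ⟨τ, Subgroup.mem_zpowers τ⟩
  have hsm : ∀ y : Y, s • y = σ y := fun y => rfl
  have hs : ∀ g : G, g = 1 ∨ g = s := by
    rintro ⟨g, hg⟩
    obtain ⟨k, rfl⟩ := Subgroup.mem_zpowers_iff.1 hg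
    rcases Int.even_or_odd' k with ⟨j, rfl | rfl⟩
    · left
      apply Subtype.ext
      change τ ^ (2 * j) = 1
      rw [zpow_mul, hτ, one_zpow]
    · right
      apply Subtype.ext
      change τ ^ (2 * j + 1) = τ
      rw [zpow_add, zpow_mul, hτ, one_zpow, one_mul, zpow_one]
  have hs1 : s ≠ 1 := by
    intro h
    obtain ⟨y, hy⟩ := hne
    exact hy (by rw [← hsm, h, one_smul])
  have hss : s * s = 1 := by
    rcases hs (s * s) with h | h
    · exact h
    · exact absurd (mul_eq_left.1 h) hs1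
  have _ := finite_of_two hs
  have hcc : ContinuousConstSMul G Y := ⟨fun g => by
    rcases hs g with h | h
    · rw [h]
      simp only [one_smul]
      exact continuous_id
    · rw [h]
      exact hσ.cont⟩
  have hG : ∀ g : G, HolC C C (fun y => g • y) := by
    intro g
    rcases hs g with h | h
    · rw [h]
      simp only [one_smul]
      exact HolC.id _
    · rw [h]
      exact hσ
  refine ⟨G, inferInstance, inferInstance, hcc, s, hs1, hss, hs, hsm, hG, fun y => ?_⟩
  have hpd : PD G y := pd_of_finite y univ_mem (Set.toFinite _)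
  by_cases hy : σ y = y
  · obtain ⟨φ, hφ, hi, ℓ, v, hv, hd⟩ := hfix y hy
    exact exists_RC_deriv hpd hss (fun g _ => hs g) hy (hG s) hφ hi ℓ v hv hd
  · refine exists_RC_free hpd fun g hg => ?_
    rcases hs g with h | h
    · exact h
    · exact absurd (by rw [h] at hg; exact hg) hy

/-- **quotient by an involution** -/
theorem exists_atl_projD {Y Z : Type} [TopologicalSpace Y] [T2Space Y] [Nonempty Y]
    [TopologicalSpace Z] [T2Space Z] [CompactSpace Z] {A : Atl n Y} (P : ProjD A) {σ : Y → Y}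
    (hσ : HolC (fam A) (fam A) σ) (hσσ : ∀ y, σ (σ y) = y) (hne : ∃ y, σ y ≠ y)
    (hfix : ∀ y, σ y = y → ReflAt (fam A) σ y)
    {q : Y → Z} (hq : IsOpenQuotientMap q) (hfib : ∀ y y', q y = q y' ↔ y = y' ∨ σ y = y')
    {CZ : Fam n Z} (hqh : HolC (fam A) CZ q)
    (huniv : ∀ {m : ℕ} {N : Type} [TopologicalSpace N] {D : Fam m N} {f : Z → N},
      HolC (fam A) D (fun y => f (q y)) → HolC CZ D f) :
    ∃ B : Atl n Z, Finite B.ι ∧ GoodA B ∧ Nonempty (Part B) ∧ HolC (fam B) CZ id ∧
      HolC CZ (fam B) id ∧ Nonempty (ProjD B) := by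
  classical
  obtain ⟨G, _, _, _, s, hs1, hss, hs, hsm, hG, hcov⟩ := exists_group' hσ hσσ hne hfix
  have hss' : ∀ u : Y, s • s • u = u := fun u => by rw [smul_smul, hss, one_smul]
  have hqs : ∀ u : Y, q (s • u) = q u := fun u => ((hfib u (s • u)).2 (Or.inr (hsm u).symm)).symm
  have hpr : ∀ y y' : Y, pr G y = pr G y' ↔ q y = q y' := by
    intro y y'
    rw [pr_eq_iff, hfib]
    constructor
    · rintro ⟨g, hg⟩
      rcases hs g with h | h
      · left
        rw [← hg, h, one_smul]
      · right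
        rw [← hg, h, hsm]
    · rintro (h | h)
      · exact ⟨1, by rw [one_smul, h]⟩
      · exact ⟨s, by rw [hsm, h]⟩
  let κ : Z → Orb G Y := fun m => pr G (Function.surjInv hq.surjective m)
  have hκq : ∀ y, κ (q y) = pr G y := fun y =>
    (hpr _ _).2 (Function.surjInv_eq hq.surjective (q y))
  let h : Orb G Y → Z := fun m => q (Quotient.out m)
  have hhpr : ∀ y, h (pr G y) = q y := fun y => by
    have : pr G (Quotient.out (pr G y)) = pr G y := Quotient.out_eq (pr G y)
    exact (hpr _ _).1 this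
  have hhκ : ∀ m, h (κ m) = m := by
    intro m
    obtain ⟨y, rfl⟩ := hq.surjective m
    rw [hκq, hhpr]
  have hκC : HolC CZ (qFam hG hcov) κ := by
    refine huniv ?_
    have : (fun y => κ (q y)) = pr G := funext hκq
    rw [this]
    exact holC_pi hG hcov
  have hhC : HolC (qFam hG hcov) CZ h := by
    refine holC_desc hG hcov ?_
    have : (fun y => h (pr G y)) = q := funext hhpr
    rw [this]
    exact hqh
  choose D hD using fun y : Y => exists_LD A hss y
  obtain ⟨B, hfin, hgood, hpart, hsub, h5, h6⟩ := CZ.exists_atl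
    (fun y => q '' (D y).U) (fun y => hq.isOpenMap _ (D y).hU)
    (fun m => by
      obtain ⟨y, rfl⟩ := hq.surjective m
      exact ⟨y, mem_image_of_mem _ (hD y)⟩)
  choose k hk using hsub
  refine ⟨B, hfin, hgood, hpart, h5, h6, ⟨?_⟩⟩
  have hκB : HolC (fam B) (qFam hG hcov) κ := hκC.comp h5
  have hhB : HolC (qFam hG hcov) (fam B) h := h6.comp hhC
  have hd0 : ∀ b, ∀ m ∈ (B.e b).source, ∀ c : RC G (fam A), κ m ∈ c.eM.source →
      DifferentiableAt ℂ (fun z => (D (k b)).S P (c.eM.symm z)) (c.eM (κ m)) := by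
    intro b m hm c hc
    refine (D (k b)).diff_S P hss hs hG hcov c (c.eM.map_source hc) ?_
    rw [c.eM.left_inv hc]
    obtain ⟨u, hu, rfl⟩ := hk b hm
    rw [hκq]
    exact mem_image_of_mem _ hu
  have hdB : ∀ b, ∀ m ∈ (B.e b).source,
      DifferentiableAt ℂ (fun z => (D (k b)).S P (κ ((B.e b).symm z))) (B.e b m) := by
    intro b m hm
    obtain ⟨c, hc⟩ := (qFam hG hcov).cover (κ m)
    exact diffAt_pull (B := fam B) (D := qFam hG hcov) (b := b) (c := c) hκB hm hc
      (hd0 b m hm c hc)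
  have hinj : ∀ {κ κ' : Type} (e : κ' ≃ κ) (f g : κ → ℂ) (c : ℂ),
      (fun a => f (e a)) = c • (fun a => g (e a)) → f = c • g := by
    intro κ κ' e f g c h
    funext a
    have := congrFun h (e.symm a)
    simpa using this
  refine ⟨P.N * (P.N + 2), fun b m a => (D (k b)).S P (κ m) (idx P.N a), ?_, ?_, ?_, ?_, ?_⟩
  · intro b a z hz
    have h1 := hdB b _ ((B.e b).map_target hz.1)
    rw [(B.e b).right_inv hz.1] at h1
    exact (differentiableAt_pi.1 h1 (idx P.N a)).differentiableWithinAt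
  · intro b m hm
    obtain ⟨u, hu, rfl⟩ := hk b hm
    intro h0
    have h1 : (D (k b)).S P (κ (q u)) = 0 := by
      have := hinj (idx P.N) ((D (k b)).S P (κ (q u))) 0 0 (by rw [zero_smul]; exact h0)
      rw [zero_smul] at this
      exact this
    rw [hκq, (D (k b)).S_pr P hss hs hu] at h1
    exact sm_ne_zero (P.ne _ u ((D (k b)).hi u hu)) (P.ne _ _ ((D (k b)).hj u hu)) h1
  · intro b b' m hm
    obtain ⟨u, hu, hum⟩ := hk b hm.1
    obtain ⟨u', hu', hum'⟩ := hk b' hm.2
    have h1 : ∃ c : ℂ, (D (k b)).S P (κ m) = c • (D (k b')).S P (κ m) := by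
      rw [← hum, hκq, (D (k b)).S_pr P hss hs hu, ← hκq, hum, ← hum', hκq,
        (D (k b')).S_pr P hss hs hu']
      have hsc : ∀ (v w v' w' : Fin (P.N + 1) → ℂ), (∃ c : ℂ, v = c • v') → (∃ c : ℂ, w = c • w') →
          ∃ c : ℂ, sm v w = c • sm v' w' := by
        rintro v w v' w' ⟨c, rfl⟩ ⟨c', rfl⟩
        refine ⟨c * c', funext fun p => ?_⟩
        simp only [sm, Pi.smul_apply, smul_eq_mul]
        ring
      rcases (hfib u u').1 (hum.trans hum'.symm) with hg | hg
      · subst hg
        exact hsc _ _ _ _ (P.tr _ _ _ ⟨(D (k b)).hi _ hu, (D (k b')).hi _ hu'⟩)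
          (P.tr _ _ _ ⟨(D (k b)).hj _ hu, (D (k b')).hj _ hu'⟩)
      · rw [← hsm] at hg
        subst hg
        have h2 := (D (k b')).hj _ hu'
        rw [hss'] at h2
        unfold LD.M
        rw [hss', sm_comm (P.F (D (k b')).i (s • u))]
        exact hsc _ _ _ _ (P.tr _ _ _ ⟨(D (k b)).hi _ hu, h2⟩)
          (P.tr _ _ _ ⟨(D (k b)).hj _ hu, (D (k b')).hi _ hu'⟩)
    obtain ⟨c, hc⟩ := h1
    exact ⟨c, funext fun a => congrFun hc (idx P.N a)⟩
  · rintro b b' m hm m' hm' ⟨c, hc⟩
    obtain ⟨u, hu, rfl⟩ := hk b hm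
    obtain ⟨u', hu', rfl⟩ := hk b' hm'
    have h1 := hinj (idx P.N) _ _ c hc
    rw [hκq, hκq, (D (k b)).S_pr P hss hs hu, (D (k b')).S_pr P hss hs hu'] at h1
    rcases prop_of_sm (P.ne _ _ ((D (k b')).hi _ hu')) h1 with h2 | h2
    · rw [P.inj _ _ _ ((D (k b)).hi _ hu) _ ((D (k b')).hi _ hu') h2]
    · rw [← P.inj _ _ _ ((D (k b)).hj _ hu) _ ((D (k b')).hi _ hu') h2, hqs]
  · intro b z hz
    have hm := (B.e b).map_target hz
    set m := (B.e b).symm z with hmz
    have hz' : B.e b m = z := (B.e b).right_inv hz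
    obtain ⟨u0, hu0, hum⟩ := hk b hm
    obtain ⟨c, hc⟩ := hcov u0
    have hκm : κ m = pr G u0 := by rw [← hum, hκq]
    have hmc : κ m ∈ c.eM.source := by rw [hκm]; exact c.mem_eM_source hc
    have hi : ImmAt (fun z => (D (k b)).S P (c.eM.symm z)) (c.eM (κ m)) := by
      rw [hκm]
      exact (D (k b)).imm_S P hs1 hss hs hG hcov c hu0 hc
    have h7 := immAt_pull (B := fam B) (D := qFam hG hcov) (b := b) (c := c) hκB hhB hhκ hm
      hmc (hd0 b m hm c hmc) hi
    have h8 := ImmAt.reindex (idx P.N) (hdB b m hm) h7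
    have h9 : ImmAt (fun w a => (D (k b)).S P (κ ((B.e b).symm w)) (idx P.N a)) z := by
      rw [← hz']; exact h8
    exact h9

end

end Crest.Agent.R272.BBase_246
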