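import Crest.Agent.R272.Blup3_102

/-!
# R272, BLUP (helper102), part 4: holomorphic functions on the blow-up, the bundles `O(k E)`

* `holAt_inl`, `holAt_inr`; `holMap_pi`, `refPi`, `rd_inj` (pi is locally biholomorphic off `E`);
* `OE k : LB C.atl`, `k : C.S → ℤ`; `OE_add`; the section `ese k`, `k : C.S → ℕ`;
* `frequently_off`: the complement of `E` is dense.
-/

set_option autoImplicit false
set_option linter.unusedSectionVars false

open Set Filter Topology Complex
open scoped ContDiff Matrix ComplexConjugate Manifold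

namespace Crest.Agent.R272.Blup1_102

open Crest.Agent.R275.Geo Crest.Agent.R275.Core144
open Crest.Agent.R273.Map_835 Crest.Agent.R273.PB_835

noncomputable section

variable {n : ℕ} [NeZero n] {M : Type} [TopologicalSpace M] [T2Space M] {A : Atl n M}

namespace Ctr

variable (C : Ctr A)

/-! ### holomorphic functions -/

theorem holAt_inl {i : A.ι} {U : Set C.X} {f : C.X → ℂ} :
    HolAt C.atl (Sum.inl i) U f ↔ DifferentiableOn ℂ (fun v => f (C.lift ((A.e i).symm v)))
      {v | v ∈ (A.e i).target ∧ (A.e i).symm v ∉ C.Z ∧ C.lift ((A.e i).symm v) ∈ U} := by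
  have h : (C.atl.e (Sum.inl i)).target ∩ (C.atl.e (Sum.inl i)).symm ⁻¹' U =
      {v | v ∈ (A.e i).target ∧ (A.e i).symm v ∉ C.Z ∧ C.lift ((A.e i).symm v) ∈ U} := by
    ext v
    constructor
    · rintro ⟨h1, h2⟩
      have h3 := C.mem_ec_inl_target.1 h1
      exact ⟨h3.1, h3.2, h2⟩
    · rintro ⟨h1, h2, h3⟩
      exact ⟨C.mem_ec_inl_target.2 ⟨h1, h2⟩, h3⟩
  unfold HolAt
  rw [h]
  rfl

theorem holAt_inr {s : C.S} {a : Fin n} {U : Set C.X} {f : C.X → ℂ} :
    HolAt C.atl (Sum.inr (s, a)) U f ↔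
      DifferentiableOn ℂ (fun u => f (C.ci s a u)) (C.T s a ∩ C.ci s a ⁻¹' U) := by
  constructor
  · intro h
    have h1 : DifferentiableOn ℂ ((fun v => f ((C.atl.e (Sum.inr (s, a))).symm v)) ∘ (sc n))
        (C.T s a ∩ C.ci s a ⁻¹' U) := by
      refine DifferentiableOn.comp h differentiable_sc.differentiableOn ?_
      rintro u ⟨h1, h2⟩
      refine ⟨C.mem_ec_inr_target.2 ?_, ?_⟩
      · rw [Homeomorph.symm_apply_apply]
        exact h1
      · show (C.ec (Sum.inr (s, a))).symm (sc n u) ∈ U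
        rw [ec_inr_symm, Homeomorph.symm_apply_apply]
        exact h2
    refine h1.congr fun u hu => ?_
    show _ = f ((C.ec (Sum.inr (s, a))).symm (sc n u))
    rw [ec_inr_symm, Homeomorph.symm_apply_apply]
  · intro h
    have h1 : DifferentiableOn ℂ ((fun u => f (C.ci s a u)) ∘ (sc n).symm)
        ((C.atl.e (Sum.inr (s, a))).target ∩ (C.atl.e (Sum.inr (s, a))).symm ⁻¹' U) := by
      refine DifferentiableOn.comp h differentiable_sc_symm.differentiableOn ?_
      rintro v ⟨h1, h2⟩
      exact ⟨C.mem_ec_inr_target.1 h1, h2⟩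
    exact h1

/-- the basic functions are holomorphic -/
theorem holAt_zpi {i : C.atl.ι} {s : C.S} (b : Fin n) :
    HolAt C.atl i (C.pi ⁻¹' C.U s) (fun y => C.z s (C.pi y) b) := by
  rcases i with i | ⟨t, a⟩
  · rw [holAt_inl]
    intro v hv
    refine DifferentiableAt.differentiableWithinAt ?_
    have h2 : (A.e i).symm v ∈ C.U s := by
      have := hv.2.2
      rwa [mem_preimage, C.pi_lift] at this
    have h1 := (differentiableAt_euclidean.1 (C.diffAt_z (s := s) hv.1 (C.mem_U.1 h2).1)) b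
    simpa only [C.pi_lift] using h1
  · rw [holAt_inr]
    intro u hu
    have hst : s = t := C.U_unique hu.2 (C.ci_mem hu.1).1
    subst hst
    have h1 : DifferentiableOn ℂ (fun u : Cn n => (u a • W a u) b) (C.T s a ∩ C.ci s a ⁻¹' (C.pi ⁻¹' C.U s)) :=
      fun u _ => ((differentiableAt_euclidean.1 (differentiable_blow a u)) b).differentiableWithinAt
    refine (h1 u hu).congr (fun u hu => ?_) ?_
    · rw [C.z_ci hu.1]
    · rw [C.z_ci hu.1]

theorem holMap_pi : HolMap C.atl A C.pi := by
  refine ⟨C.continuous_pi, fun i j => ?_⟩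
  intro v hv
  have hop : (C.atl.e i).target ∩ (C.atl.e i).symm ⁻¹' (C.pi ⁻¹' (A.e j).source) ∈ 𝓝 v :=
    ((C.atl.e i).isOpen_inter_preimage_symm ((A.e j).open_source.preimage C.continuous_pi)).mem_nhds hv
  refine DifferentiableAt.differentiableWithinAt ?_
  rcases i with i | ⟨s, a⟩
  · have h1 := C.mem_ec_inl_target.1 hv.1
    have h2 : (A.e i).symm v ∈ (A.e j).source := by
      have h3 : C.pi ((C.ec (Sum.inl i)).symm v) ∈ (A.e j).source := hv.2
      rwa [ec_inl_symm, C.pi_lift] at h3
    have h := (A.holo i j).differentiableAt ((isOpen_ov (A := A) i j).mem_nhds ⟨h1.1, h2⟩)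
    refine h.congr_of_eventuallyEq ?_
    filter_upwards with w
    show A.e j (C.pi ((C.ec (Sum.inl i)).symm w)) = _
    rw [ec_inl_symm, C.pi_lift]
  · have hv1 := C.mem_ec_inr_target.1 hv.1
    have hv2 : C.pi ((C.ec (Sum.inr (s, a))).symm v) ∈ (A.e j).source := hv.2
    rw [ec_inr_symm, C.pi_ci hv1] at hv2
    have h1 := C.diffAt_pt (j := j) hv1.1 hv2
    have h2 : DifferentiableAt ℂ (fun v => (sc n).symm v a • W a ((sc n).symm v)) v :=
      DifferentiableAt.comp v (g := fun u : Cn n => u a • W a u) (differentiable_blow a _)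
        (differentiable_sc_symm v)
    have h3 : DifferentiableAt ℂ (fun v => A.e j (C.pt s ((sc n).symm v a • W a ((sc n).symm v)))) v :=
      DifferentiableAt.comp v (g := fun w => A.e j (C.pt s w)) h1 h2
    refine h3.congr_of_eventuallyEq ?_
    filter_upwards [hop] with w hw
    show A.e j (C.pi ((C.ec (Sum.inr (s, a))).symm w)) = _
    rw [ec_inr_symm, C.pi_ci (C.mem_ec_inr_target.1 hw.1)]

/-- `pi` maps charts into charts -/
def refPi : Ref C.atl A C.pi where
  r := Sum.elim id fun sa => C.i sa.1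
  sub := by
    rintro (i | ⟨s, a⟩) y hy
    · exact (C.mem_ec_inl.1 hy).2
    · exact (C.mem_U.1 (C.mem_ec_inr.1 hy).1).1

/-- `E` as a closed set -/
theorem isClosed_E : IsClosed C.E := C.isClosed_Z.preimage C.continuous_pi

theorem mem_E_iff {s : C.S} {a : Fin n} {y : C.X} (hy : y ∈ C.V s a) :
    y ∈ C.E ↔ C.co s a y a = 0 := by
  rw [co_apply, if_pos rfl]
  constructor
  · intro h
    rw [(C.z_eq_zero hy.1).2 ((C.mem_Z_iff hy.1).1 h)]
    rfl
  · intro h
    by_contra h1
    exact C.z_ne_of_V hy h1 h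

/-- the complement of `E` is dense -/
theorem frequently_off (y : C.X) : ∃ᶠ y' in 𝓝 y, y' ∉ C.E := by
  by_cases hy : y ∈ C.E
  · obtain ⟨i, hi⟩ := C.atl.cover y
    rcases i with i | ⟨s, a⟩
    · exact absurd hy (C.mem_ec_inl.1 hi).1
    · have hV := C.mem_ec_inr.1 hi
      have h0 := (C.mem_E_iff hV).1 hy
      have hT := C.co_mem hV
      have hc : ContinuousAt (C.ci s a) (C.co s a y) :=
        (C.continuousOn_ci s a).continuousAt ((C.isOpen_T s a).mem_nhds hT)
      have hcurve : ContinuousAt (fun t : ℂ => C.co s a y + t • (EuclideanSpace.single a 1 : Cn n)) 0 := by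
        fun_prop
      have hz : C.co s a y + (0 : ℂ) • (EuclideanSpace.single a 1 : Cn n) = C.co s a y := by
        rw [zero_smul, add_zero]
      have hcur : Tendsto (fun t : ℂ => C.co s a y + t • (EuclideanSpace.single a 1 : Cn n))
          (𝓝 0) (𝓝 (C.co s a y)) := by
        have h1 := hcurve.tendsto
        simp only [hz] at h1
        exact h1
      have ht : Tendsto (fun t : ℂ => C.ci s a (C.co s a y + t • (EuclideanSpace.single a 1 : Cn n)))
          (𝓝 0) (𝓝 y) := by
        have h2 := hc.tendsto.comp hcur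
        rw [C.ci_co hV] at h2
        exact h2
      have hfr : ∃ᶠ t : ℂ in 𝓝 0, t ≠ 0 := by
        have : (𝓝[≠] (0 : ℂ)).NeBot := inferInstance
        rw [Filter.frequently_iff]
        intro U hU
        obtain ⟨t, ht1, ht2⟩ := this.nonempty_of_mem (inter_mem_nhdsWithin {0}ᶜ hU)
        exact ⟨t, ht2, ht1⟩
      have hev : ∀ᶠ t : ℂ in 𝓝 0, C.co s a y + t • (EuclideanSpace.single a 1 : Cn n) ∈ C.T s a :=
        hcur.eventually ((C.isOpen_T s a).mem_nhds hT)
      refine ht.frequently ((hfr.and_eventually hev).mono ?_)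
      rintro t ⟨ht0, htT⟩ hE
      rw [C.mem_E_iff (C.ci_mem htT), C.co_ci htT] at hE
      apply ht0
      simpa [h0] using hE
  · have h : ∀ᶠ y' in 𝓝 y, y' ∉ C.E := C.isClosed_E.isOpen_compl.mem_nhds hy
    exact h.frequently

/-- two continuous functions which agree off `E` agree -/
theorem eq_of_off {Y : Type*} [TopologicalSpace Y] [T2Space Y] {f g : C.X → Y} {y : C.X}
    (hf : ContinuousAt f y) (hg : ContinuousAt g y) (h : ∀ᶠ y' in 𝓝 y, y' ∉ C.E → f y' = g y') :
    f y = g y := by
  by_contra hne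
  have h1 : ∀ᶠ y' in 𝓝 y, f y' ≠ g y' :=
    (hf.prodMk hg).eventually (isClosed_diagonal.isOpen_compl.mem_nhds hne)
  obtain ⟨y', h2, h3, h4⟩ := ((C.frequently_off y).and_eventually (h.and h1)).exists
  exact h4 (h3 h2)

end Ctr

end

end Crest.Agent.R272.Blup1_102
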