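import Crest.Agent.R272.Root5_83
import Crest.Agent.R272.Blup4_102

/-!
# R272 (S0414), leaf S14-BL (helper366), part 1: square classes, good points, the blow-down map

`Sq C x φ h`  : `φ` (an arbitrary function, junk at its poles) equals `h` times the square of a
                meromorphic germ near `x`;
`Good C φ x`  : near `x` the square classes of the `φ a` are represented by holomorphic functions
                whose zero divisors are smooth with independent differentials at `x`;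
`dom_pi`      : the blow-down map is dominant in the sense of `Root5_83`;
`good_off`    : a good point off the centres stays good on the blow-up.
-/

set_option autoImplicit false
set_option linter.unusedSectionVars false

open Set Filter Topology Complex

namespace Crest.Agent.R272.BL_366

open Crest.Agent.R275.Geo Crest.Agent.R275.Core144
open Crest.Agent.R273.Fam_835 Crest.Agent.R273.Map_835
open Crest.Agent.R272.Quot_783 Crest.Agent.R272.Root_83 Crest.Agent.R272.Blup1_102

noncomputable section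

variable {n : ℕ} {X : Type} [TopologicalSpace X] {ρ : Type}

/-- `φ = h * (p / q) ^ 2` near `x` with holomorphic germs `p`, `q` which are not locally zero -/
def Sq (C : Fam n X) (x : X) (φ h : X → ℂ) : Prop :=
  ∃ p q : X → ℂ, NZ C x p ∧ NZ C x q ∧
    ∀ᶠ y in 𝓝 x, p y ≠ 0 → q y ≠ 0 → φ y * q y ^ 2 = h y * p y ^ 2

/-- the differentials of those `h a` which vanish at `x` are independent (in the chart `i`) -/
def Snc (C : Fam n X) (h : ρ → X → ℂ) (i : C.ι) (x : X) : Prop :=
  ∀ w : ρ → ℂ, ∃ v : Cn n, ∀ a, h a x = 0 →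
    fderiv ℂ (fun z => h a ((C.e i).symm z)) (C.e i x) v = w a

/-- a good point of the family of square classes `φ` -/
def Good (C : Fam n X) (φ : ρ → X → ℂ) (x : X) : Prop :=
  ∃ h : ρ → X → ℂ, (∀ a, HG C x (h a)) ∧ (∀ a, Sq C x (φ a) (h a)) ∧
    ∃ i, x ∈ (C.e i).source ∧ Snc C h i x

variable {C : Fam n X} {x : X} {φ h h' r : X → ℂ}

theorem NZ.hg (h : NZ C x r) : HG C x r := h.hol

theorem NZ.mul {r' : X → ℂ} (h1 : NZ C x r) (h2 : NZ C x r') : NZ C x (fun z => r z * r' z) :=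
  ⟨HG.mul h1.hol h2.hol, freq_mul h1.hol h2.hol h1.ne h2.ne⟩

theorem NZ.pow (h1 : NZ C x r) (k : ℕ) : NZ C x (fun z => r z ^ k) := by
  induction k with
  | zero => exact ⟨(HG.const 1).congr (by simp [EventuallyEq]), by simp⟩
  | succ k ih =>
    have := NZ.mul ih h1
    simpa only [pow_succ] using this

theorem NZ.const {c : ℂ} (hc : c ≠ 0) : NZ C x (fun _ => c) :=
  ⟨HG.const c, (Filter.Eventually.of_forall fun _ => hc).frequently⟩

theorem NZ.of_ne (h1 : HG C x r) (h2 : r x ≠ 0) : NZ C x r := ⟨h1, freq_of_ne h1 h2⟩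

theorem Sq.refl (φ : X → ℂ) : Sq C x φ φ :=
  ⟨fun _ => 1, fun _ => 1, NZ.const one_ne_zero, NZ.const one_ne_zero,
    Filter.Eventually.of_forall fun _ _ _ => rfl⟩

theorem Sq.congr (h1 : Sq C x φ h) (h2 : h =ᶠ[𝓝 x] h') : Sq C x φ h' := by
  obtain ⟨p, q, hp, hq, he⟩ := h1
  refine ⟨p, q, hp, hq, ?_⟩
  filter_upwards [he, h2] with y h3 h4 h5 h6
  rw [← h4]
  exact h3 h5 h6

theorem Sq.congr_left {φ' : X → ℂ} (h1 : Sq C x φ h) (h2 : φ =ᶠ[𝓝 x] φ') : Sq C x φ' h := by
  obtain ⟨p, q, hp, hq, he⟩ := h1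
  refine ⟨p, q, hp, hq, ?_⟩
  filter_upwards [he, h2] with y h3 h4 h5 h6
  rw [← h4]
  exact h3 h5 h6

/-- squares are absorbed -/
theorem Sq.mul_sq (h1 : Sq C x φ h) (hr : NZ C x r) (h2 : ∀ᶠ y in 𝓝 x, h y = r y ^ 2 * h' y) :
    Sq C x φ h' := by
  obtain ⟨p, q, hp, hq, he⟩ := h1
  refine ⟨fun y => p y * r y, q, NZ.mul hp hr, hq, ?_⟩
  filter_upwards [he, h2] with y h3 h4 h5 h6
  rw [h3 (left_ne_zero_of_mul h5) h6, h4]
  ring

/-- squares are absorbed -/
theorem Sq.of_mul_sq (h1 : Sq C x φ h) (hr : NZ C x r) (h2 : ∀ᶠ y in 𝓝 x, h' y = r y ^ 2 * h y) :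
    Sq C x φ h' := by
  obtain ⟨p, q, hp, hq, he⟩ := h1
  refine ⟨p, fun y => q y * r y, hp, NZ.mul hq hr, ?_⟩
  filter_upwards [he, h2] with y h3 h4 h5 h6
  rw [h4, mul_pow, ← mul_assoc, h3 h5 (left_ne_zero_of_mul h6)]
  ring

/-! ### pull back -/

variable {m : ℕ} {Y : Type} [TopologicalSpace Y] {D : Fam m Y} {π : Y → X} {y : Y}

theorem NZ.comp (h : NZ C (π y) r) (hp : HolC D C π) (hd : Dom D C π y) :
    NZ D y (fun z => r (π z)) := ⟨HG.comp h.hol hp, hd _ h.hol h.ne⟩

theorem Sq.comp (h1 : Sq C (π y) φ h) (hp : HolC D C π) (hd : Dom D C π y) :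
    Sq D y (fun z => φ (π z)) (fun z => h (π z)) := by
  obtain ⟨p, q, hp', hq, he⟩ := h1
  exact ⟨fun z => p (π z), fun z => q (π z), NZ.comp hp' hp hd, NZ.comp hq hp hd,
    hp.cont.continuousAt.eventually he⟩

/-! ### one colour -/

/-- if at most the function of the colour `a` vanishes at `x`, one derivative is enough -/
theorem snc_single {h : ρ → X → ℂ} {i : C.ι} {a : ρ} (h1 : ∀ b, b ≠ a → h b x ≠ 0)
    (h2 : h a x = 0 → ∃ v : Cn n, fderiv ℂ (fun z => h a ((C.e i).symm z)) (C.e i x) v ≠ 0) :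
    Snc C h i x := by
  intro w
  by_cases h0 : h a x = 0
  · obtain ⟨v, hv⟩ := h2 h0
    refine ⟨(w a / fderiv ℂ (fun z => h a ((C.e i).symm z)) (C.e i x) v) • v, fun b hb => ?_⟩
    have hba : b = a := by
      by_contra hne
      exact h1 b hne hb
    subst hba
    rw [map_smul, smul_eq_mul, div_mul_cancel₀ _ hv]
  · exact ⟨0, fun b hb => absurd hb (by
      by_cases hba : b = a
      · rw [hba]; exact h0
      · exact h1 b hba)⟩

/-! ### the blow-down map -/

section Blow

variable {n : ℕ} [NeZero n] {M : Type} [TopologicalSpace M] [T2Space M] {A : Atl n M} (K : Ctr A)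

theorem holC_pi : HolC (fam K.atl) (fam A) K.pi := holC_iff.2 K.holMap_pi

/-- the blow-down map is open off `E` -/
theorem nhds_pi {y : K.X} (hy : y ∉ K.E) : 𝓝 (K.pi y) ≤ Filter.map K.pi (𝓝 y) := by
  have hZ : K.pi y ∉ K.Z := hy
  have h1 : ContinuousAt K.lift (K.pi y) :=
    K.continuousOn_lift.continuousAt (K.isClosed_Z.isOpen_compl.mem_nhds hZ)
  intro S hS
  have h2 : K.pi ⁻¹' S ∈ 𝓝 (K.lift (K.pi y)) := by rw [K.lift_pi hZ]; exact hS
  filter_upwards [h1 h2] with x hx
  have hx' : K.pi (K.lift x) ∈ S := hx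
  rwa [K.pi_lift] at hx'

theorem dom_pi (y : K.X) : Dom (fam K.atl) (fam A) K.pi y :=
  dom_of_freq_open K.continuous_pi ((K.frequently_off y).mono fun _ h => nhds_pi K h)

/-- a good point off the centres stays good -/
theorem good_off {φ : ρ → M → ℂ} {y : K.X} (hy : K.pi y ∉ K.Z) (h : Good (fam A) φ (K.pi y)) :
    Good (fam K.atl) (fun a y => φ a (K.pi y)) y := by
  obtain ⟨g, h1, h2, i, hi, h3⟩ := h
  refine ⟨fun a y => g a (K.pi y), fun a => (h1 a).comp (holC_pi K),
    fun a => (h2 a).comp (holC_pi K) (dom_pi K y), Sum.inl i, ⟨K.mem_ec_inl.2 ⟨hy, hi⟩, ?_⟩⟩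
  intro w
  obtain ⟨v, hv⟩ := h3 w
  refine ⟨v, fun a ha => ?_⟩
  have h4 := hv a ha
  have h5 : (fun z => g a (K.pi (((fam K.atl).e (Sum.inl i)).symm z))) =
      fun z => g a (((fam A).e i).symm z) := by
    funext z
    exact congrArg (g a) (K.pi_lift _)
  rw [h5]
  exact h4

end Blow

end

end Crest.Agent.R272.BL_366
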