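import Crest.Agent.R272.BL1_366

/-!
# R272 (S0414), leaf S14-BL (helper366), part 2: one blow-up of a surface, local forms on `E`

For a centre `s` with coordinates `z = K.z s x`, `p = K.p s`:

* `NodeF K s h k u` : `h = z1^(2k) - z0^(2k) u`, `TacF K s h u` : `h = z1^2 - z0^4 u` near `p`;
* `lift_unit`, `lift_node`, `lift_tac` : the square class of `h ∘ pi` at a point of `E` is
  represented by a function which is non zero or has a non zero derivative along `E`.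
-/

set_option autoImplicit false
set_option linter.unusedSectionVars false

open Set Filter Topology Complex

namespace Crest.Agent.R272.BL_366

open Crest.Agent.R275.Geo Crest.Agent.R275.Core144
open Crest.Agent.R273.Fam_835 Crest.Agent.R273.Map_835
open Crest.Agent.R272.Quot_783 Crest.Agent.R272.Root_83 Crest.Agent.R272.Blup1_102

noncomputable section

section Chart

variable {n : ℕ} [NeZero n] {M : Type} [TopologicalSpace M] [T2Space M] {A : Atl n M} (K : Ctr A)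

/-- the unscaled coordinates are holomorphic -/
theorem hg_co {s : K.S} {a : Fin n} {y : K.X} (hy : y ∈ K.V s a) (b : Fin n) :
    HG (fam K.atl) y (fun y => K.co s a y b) := by
  have h1 : DifferentiableOn ℂ (fun v : Cn n => (sc n).symm v b)
      ((fam K.atl).e (Sum.inr (s, a))).target :=
    fun v _ => (differentiableAt_euclidean.1 (differentiable_sc_symm v) b).differentiableWithinAt
  refine ⟨K.V s a, K.isOpen_V s a, hy, ?_⟩
  have h2 := holF_of_chart (fam K.atl) (Sum.inr (s, a)) (V := (K.atl.e (Sum.inr (s, a))).target)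
    (r := fun v => (sc n).symm v b) h1 (U := K.V s a)
    (fun x hx => ⟨hx, (K.atl.e (Sum.inr (s, a))).map_source hx⟩)
  intro j
  refine (h2 j).congr fun z _ => ?_
  show K.co s a _ b = (sc n).symm (sc n (K.co s a _)) b
  rw [Homeomorph.symm_apply_apply]

/-- the equation of `E` is not locally zero -/
theorem nz_co {s : K.S} {a : Fin n} {y : K.X} (hy : y ∈ K.V s a) :
    NZ (fam K.atl) y (fun y => K.co s a y a) := by
  refine ⟨hg_co K hy a, ?_⟩
  refine ((K.frequently_off y).and_eventually ((K.isOpen_V s a).mem_nhds hy)).mono ?_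
  rintro y' ⟨h1, h2⟩ h3
  exact h1 ((K.mem_E_iff h2).2 h3)

/-- derivatives along `E` -/
theorem fderiv_line {s : K.S} {a b : Fin n} {y : K.X} (hy : y ∈ K.V s a) {f : K.X → ℂ}
    (hf : HG (fam K.atl) y f) {g : ℂ → ℂ} {g' : ℂ} (hg : HasDerivAt g g' 0)
    (he : ∀ᶠ t : ℂ in 𝓝 0, f (K.ci s a (K.co s a y + t • EuclideanSpace.single b 1)) = g t) :
    fderiv ℂ (fun z => f (((fam K.atl).e (Sum.inr (s, a))).symm z))
      ((fam K.atl).e (Sum.inr (s, a)) y) ((1 / 5 : ℂ) • EuclideanSpace.single b 1) = g' := by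
  obtain ⟨U, hU, hyU, hf⟩ := hf
  have h1 := hf.diffAt hU (j := Sum.inr (s, a)) (x := y) hy hyU
  set e := (fam K.atl).e (Sum.inr (s, a)) with he'
  set v : Cn n := (1 / 5 : ℂ) • EuclideanSpace.single b 1 with hv
  have h2 : HasDerivAt (fun t : ℂ => e y + t • v) v 0 := by
    have := ((hasDerivAt_id (0 : ℂ)).smul_const v).const_add (e y)
    simpa using this
  have h3 : HasFDerivAt (fun z => f (e.symm z)) (fderiv ℂ (fun z => f (e.symm z)) (e y))
      (e y + (0 : ℂ) • v) := by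
    rw [zero_smul, add_zero]
    exact h1.hasFDerivAt
  have h4 := h3.comp_hasDerivAt (0 : ℂ) h2
  refine h4.unique (hg.congr_of_eventuallyEq ?_)
  filter_upwards [he] with t ht
  rw [← ht]
  show f (K.ci s a ((sc n).symm (sc n (K.co s a y) + t • v))) = _
  congr 2
  rw [Homeomorph.symm_apply_eq]
  show (1 / 5 : ℂ) • K.co s a y + kap n + t • v =
    (1 / 5 : ℂ) • (K.co s a y + t • EuclideanSpace.single b 1) + kap n
  rw [hv, smul_add, smul_comm t]
  abel

/-- the line along `E` stays in the chart -/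
theorem line_mem {s : K.S} {a b : Fin n} {y : K.X} (hy : y ∈ K.V s a) :
    ∀ᶠ t : ℂ in 𝓝 0, K.co s a y + t • EuclideanSpace.single b 1 ∈ K.T s a := by
  have h : ContinuousAt (fun t : ℂ => K.co s a y + t • (EuclideanSpace.single b 1 : Cn n)) 0 := by
    fun_prop
  refine h.eventually ((K.isOpen_T s a).mem_nhds ?_)
  simp only [zero_smul, add_zero]
  exact K.co_mem hy

/-- values along the line -/
theorem line_val {s : K.S} {a b : Fin n} (hab : b ≠ a) {y : K.X}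
    (hyE : K.co s a y a = 0) {t : ℂ}
    (ht : K.co s a y + t • EuclideanSpace.single b 1 ∈ K.T s a) :
    K.pi (K.ci s a (K.co s a y + t • EuclideanSpace.single b 1)) = K.p s ∧
    K.co s a (K.ci s a (K.co s a y + t • EuclideanSpace.single b 1)) a = 0 ∧
    K.co s a (K.ci s a (K.co s a y + t • EuclideanSpace.single b 1)) b = K.co s a y b + t := by
  have h1 : (K.co s a y + t • (EuclideanSpace.single b 1 : Cn n)) a = 0 := by
    simp [hyE, hab.symm]
  refine ⟨?_, ?_, ?_⟩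
  · rw [K.pi_ci ht, h1, zero_smul]
    have := K.pt_z (K.p_mem s)
    rwa [K.z_p] at this
  · rw [K.co_ci ht, h1]
  · rw [K.co_ci ht]
    simp

end Chart

section Two

variable {M : Type} [TopologicalSpace M] [T2Space M] {A : Atl 2 M} (K : Ctr A)

/-- ordinary point of order `2 k` (node for `k = 1`) -/
def NodeF (s : K.S) (h : M → ℂ) (k : ℕ) (u : M → ℂ) : Prop :=
  HG (fam A) (K.p s) u ∧ u (K.p s) ≠ 0 ∧
    ∀ᶠ x in 𝓝 (K.p s), h x = K.z s x 1 ^ (2 * k) - K.z s x 0 ^ (2 * k) * u x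

/-- tacnode: two branches with contact two -/
def TacF (s : K.S) (h : M → ℂ) (u : M → ℂ) : Prop :=
  HG (fam A) (K.p s) u ∧ u (K.p s) ≠ 0 ∧
    ∀ᶠ x in 𝓝 (K.p s), h x = K.z s x 1 ^ 2 - K.z s x 0 ^ 4 * u x

variable {K}

theorem z_eq {s : K.S} {a : Fin 2} {y : K.X} (hy : y ∈ K.V s a) :
    K.z s (K.pi y) = K.co s a y a • Ctr.W a (K.co s a y) := (K.exists_W hy.1 hy.2.1).1

theorem z_chart0 {s : K.S} {y : K.X} (hy : y ∈ K.V s 0) :
    K.z s (K.pi y) 0 = K.co s 0 y 0 ∧ K.z s (K.pi y) 1 = K.co s 0 y 0 * K.co s 0 y 1 := by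
  rw [z_eq hy]
  constructor <;> simp

theorem z_chart1 {s : K.S} {y : K.X} (hy : y ∈ K.V s 1) :
    K.z s (K.pi y) 1 = K.co s 1 y 1 ∧ K.z s (K.pi y) 0 = K.co s 1 y 1 * K.co s 1 y 0 := by
  rw [z_eq hy]
  constructor <;> simp

theorem mem_E_of {s : K.S} {y : K.X} (hy : K.pi y = K.p s) : y ∈ K.E := ⟨s, hy.symm⟩

/-- the charts over a centre -/
theorem exists_chart {s : K.S} {y : K.X} (hy : K.pi y = K.p s) : ∃ a : Fin 2, y ∈ K.V s a := by
  obtain ⟨i, hi⟩ := K.atl.cover y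
  rcases i with i | ⟨t, a⟩
  · exact absurd (mem_E_of hy) (K.mem_ec_inl.1 hi).1
  · have h1 : y ∈ K.V t a := hi
    have h2 : t = s := K.U_unique h1.1 (by rw [hy]; exact K.p_mem s)
    exact ⟨a, h2 ▸ h1⟩

theorem co_zero {s : K.S} {a : Fin 2} {y : K.X} (hy : K.pi y = K.p s) (hV : y ∈ K.V s a) :
    K.co s a y a = 0 := (K.mem_E_iff hV).1 (mem_E_of hy)

/-- the point of `E` where the strict transforms of a tacnode still meet -/
theorem eq_ci_zero {s : K.S} {y : K.X} (hy : K.pi y = K.p s) (hV : y ∈ K.V s 0)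
    (h1 : K.co s 0 y 1 = 0) : y = K.ci s 0 0 := by
  have h2 : K.co s 0 y = 0 := by
    ext b
    fin_cases b
    · exact co_zero hy hV
    · exact h1
  rw [← K.ci_co hV, h2]

theorem zero_mem_T (s : K.S) (a : Fin 2) : (0 : Cn 2) ∈ K.T s a := by
  refine ⟨?_, fun b _ => ?_⟩
  · simpa using K.r_pos s
  · simp

theorem pi_ci_zero (s : K.S) (a : Fin 2) : K.pi (K.ci s a 0) = K.p s := by
  rw [K.pi_ci (zero_mem_T s a)]
  simp only [PiLp.zero_apply, zero_smul]
  have := K.pt_z (K.p_mem s)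
  rwa [K.z_p] at this

/-- the special point is not in the second chart -/
theorem ci_zero_notMem (s : K.S) : K.ci s 0 0 ∉ K.V s 1 := by
  intro h
  apply h.2.1
  rw [K.snd_ci (zero_mem_T s 0), Pi.smul_apply, Pi.smul_apply, smul_eq_mul]
  have h1 : prj (Ctr.W (0 : Fin 2) (0 : Cn 2)) 1 1 = 0 := by
    by_contra h2
    have h3 := (prj_diag_ne (Ctr.W_ne (0 : Fin 2) (0 : Cn 2)) (a := 1)).1 h2
    simp at h3
  rw [h1, mul_zero]

/-! ### nodes -/

theorem lift_node0 {s : K.S} {φ h u : M → ℂ} {k : ℕ} (hk : 0 < k) (hN : NodeF K s h k u)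
    (hS : Sq (fam A) (K.p s) φ h) {y : K.X} (hy : K.pi y = K.p s) (hV : y ∈ K.V s 0) :
    HG (fam K.atl) y (fun y => K.co s 0 y 1 ^ (2 * k) - u (K.pi y)) ∧
    Sq (fam K.atl) y (fun y => φ (K.pi y)) (fun y => K.co s 0 y 1 ^ (2 * k) - u (K.pi y)) ∧
    (K.co s 0 y 1 ^ (2 * k) - u (K.pi y) = 0 →
      fderiv ℂ (fun z => K.co s 0 (((fam K.atl).e (Sum.inr (s, 0))).symm z) 1 ^ (2 * k) -
        u (K.pi (((fam K.atl).e (Sum.inr (s, 0))).symm z)))
        ((fam K.atl).e (Sum.inr (s, 0)) y) ((1 / 5 : ℂ) • EuclideanSpace.single 1 1) ≠ 0) := by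
  obtain ⟨hu, hu0, he⟩ := hN
  have hHG : HG (fam K.atl) y (fun y => K.co s 0 y 1 ^ (2 * k) - u (K.pi y)) :=
    HG.sub (HG.pow (hg_co K hV 1) _) (HG.comp (by rw [hy]; exact hu) (holC_pi K))
  refine ⟨hHG, ?_, ?_⟩
  · have h1 : Sq (fam K.atl) y (fun y => φ (K.pi y)) (fun y => h (K.pi y)) :=
      Sq.comp (by rw [hy]; exact hS) (holC_pi K) (dom_pi K y)
    refine h1.mul_sq (r := fun y => K.co s 0 y 0 ^ k) (NZ.pow (nz_co K hV) k) ?_
    have h2 : ∀ᶠ y' in 𝓝 y, h (K.pi y') = K.z s (K.pi y') 1 ^ (2 * k) -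
        K.z s (K.pi y') 0 ^ (2 * k) * u (K.pi y') :=
      K.continuous_pi.continuousAt.eventually (by rw [hy]; exact he)
    filter_upwards [h2, (K.isOpen_V s 0).mem_nhds hV] with y' h3 h4
    rw [h3, (z_chart0 h4).1, (z_chart0 h4).2]
    ring
  · intro h0
    have hc : K.co s 0 y 1 ≠ 0 := by
      intro h1
      rw [h1, hy, zero_pow (by omega), zero_sub, neg_eq_zero] at h0
      exact hu0 h0
    have hg : HasDerivAt (fun t : ℂ => (K.co s 0 y 1 + t) ^ (2 * k) - u (K.p s))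
        ((2 * k : ℕ) * (K.co s 0 y 1) ^ (2 * k - 1)) 0 := by
      have h1 : HasDerivAt (fun t : ℂ => K.co s 0 y 1 + t) 1 0 := (hasDerivAt_id (0 : ℂ)).const_add _
      have h2 := (h1.pow (2 * k)).sub_const (u (K.p s))
      simpa using h2
    rw [fderiv_line K hV (b := 1) hHG hg ?_]
    · refine mul_ne_zero ?_ (pow_ne_zero _ hc)
      exact Nat.cast_ne_zero.2 (by omega)
    · filter_upwards [line_mem K hV (b := 1)] with t ht
      obtain ⟨h1, -, h3⟩ := line_val K (b := 1) (by decide) (co_zero hy hV) ht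
      rw [h1, h3]

theorem lift_node1 {s : K.S} {φ h u : M → ℂ} {k : ℕ} (hk : 0 < k) (hN : NodeF K s h k u)
    (hS : Sq (fam A) (K.p s) φ h) {y : K.X} (hy : K.pi y = K.p s) (hV : y ∈ K.V s 1) :
    HG (fam K.atl) y (fun y => 1 - K.co s 1 y 0 ^ (2 * k) * u (K.pi y)) ∧
    Sq (fam K.atl) y (fun y => φ (K.pi y)) (fun y => 1 - K.co s 1 y 0 ^ (2 * k) * u (K.pi y)) ∧
    (1 - K.co s 1 y 0 ^ (2 * k) * u (K.pi y) = 0 →
      fderiv ℂ (fun z => 1 - K.co s 1 (((fam K.atl).e (Sum.inr (s, 1))).symm z) 0 ^ (2 * k) *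
        u (K.pi (((fam K.atl).e (Sum.inr (s, 1))).symm z)))
        ((fam K.atl).e (Sum.inr (s, 1)) y) ((1 / 5 : ℂ) • EuclideanSpace.single 0 1) ≠ 0) := by
  obtain ⟨hu, hu0, he⟩ := hN
  have hHG : HG (fam K.atl) y (fun y => 1 - K.co s 1 y 0 ^ (2 * k) * u (K.pi y)) :=
    HG.sub (HG.const 1) (HG.mul (HG.pow (hg_co K hV 0) _)
      (HG.comp (by rw [hy]; exact hu) (holC_pi K)))
  refine ⟨hHG, ?_, ?_⟩
  · have h1 : Sq (fam K.atl) y (fun y => φ (K.pi y)) (fun y => h (K.pi y)) :=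
      Sq.comp (by rw [hy]; exact hS) (holC_pi K) (dom_pi K y)
    refine h1.mul_sq (r := fun y => K.co s 1 y 1 ^ k) (NZ.pow (nz_co K hV) k) ?_
    have h2 : ∀ᶠ y' in 𝓝 y, h (K.pi y') = K.z s (K.pi y') 1 ^ (2 * k) -
        K.z s (K.pi y') 0 ^ (2 * k) * u (K.pi y') :=
      K.continuous_pi.continuousAt.eventually (by rw [hy]; exact he)
    filter_upwards [h2, (K.isOpen_V s 1).mem_nhds hV] with y' h3 h4
    rw [h3, (z_chart1 h4).1, (z_chart1 h4).2]
    ring
  · intro h0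
    have hc : K.co s 1 y 0 ≠ 0 := by
      intro h1
      rw [h1, zero_pow (by omega), zero_mul, sub_zero] at h0
      exact one_ne_zero h0
    have hg : HasDerivAt (fun t : ℂ => 1 - (K.co s 1 y 0 + t) ^ (2 * k) * u (K.p s))
        (-((2 * k : ℕ) * (K.co s 1 y 0) ^ (2 * k - 1) * u (K.p s))) 0 := by
      have h1 : HasDerivAt (fun t : ℂ => K.co s 1 y 0 + t) 1 0 := (hasDerivAt_id (0 : ℂ)).const_add _
      have h2 := ((h1.pow (2 * k)).mul_const (u (K.p s))).const_sub 1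
      simpa using h2
    rw [fderiv_line K hV (b := 0) hHG hg ?_]
    · refine neg_ne_zero.2 (mul_ne_zero (mul_ne_zero ?_ (pow_ne_zero _ hc)) hu0)
      exact Nat.cast_ne_zero.2 (by omega)
    · filter_upwards [line_mem K hV (b := 0)] with t ht
      obtain ⟨h1, -, h3⟩ := line_val K (b := 0) (by decide) (co_zero hy hV) ht
      rw [h1, h3]

/-! ### tacnodes -/

theorem lift_tac0 {s : K.S} {φ h u : M → ℂ} (hN : TacF K s h u)
    (hS : Sq (fam A) (K.p s) φ h) {y : K.X} (hy : K.pi y = K.p s) (hV : y ∈ K.V s 0) :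
    HG (fam K.atl) y (fun y => K.co s 0 y 1 ^ 2 - K.co s 0 y 0 ^ 2 * u (K.pi y)) ∧
    Sq (fam K.atl) y (fun y => φ (K.pi y))
      (fun y => K.co s 0 y 1 ^ 2 - K.co s 0 y 0 ^ 2 * u (K.pi y)) := by
  obtain ⟨hu, hu0, he⟩ := hN
  refine ⟨HG.sub (HG.pow (hg_co K hV 1) _) (HG.mul (HG.pow (hg_co K hV 0) _)
    (HG.comp (by rw [hy]; exact hu) (holC_pi K))), ?_⟩
  have h1 : Sq (fam K.atl) y (fun y => φ (K.pi y)) (fun y => h (K.pi y)) :=
    Sq.comp (by rw [hy]; exact hS) (holC_pi K) (dom_pi K y)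
  refine h1.mul_sq (r := fun y => K.co s 0 y 0) (nz_co K hV) ?_
  have h2 : ∀ᶠ y' in 𝓝 y, h (K.pi y') = K.z s (K.pi y') 1 ^ 2 -
      K.z s (K.pi y') 0 ^ 4 * u (K.pi y') :=
    K.continuous_pi.continuousAt.eventually (by rw [hy]; exact he)
  filter_upwards [h2, (K.isOpen_V s 0).mem_nhds hV] with y' h3 h4
  rw [h3, (z_chart0 h4).1, (z_chart0 h4).2]
  ring

theorem lift_tac1 {s : K.S} {φ h u : M → ℂ} (hN : TacF K s h u)
    (hS : Sq (fam A) (K.p s) φ h) {y : K.X} (hy : K.pi y = K.p s) (hV : y ∈ K.V s 1) :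
    HG (fam K.atl) y (fun y => 1 - K.co s 1 y 1 ^ 2 * K.co s 1 y 0 ^ 4 * u (K.pi y)) ∧
    Sq (fam K.atl) y (fun y => φ (K.pi y))
      (fun y => 1 - K.co s 1 y 1 ^ 2 * K.co s 1 y 0 ^ 4 * u (K.pi y)) := by
  obtain ⟨hu, hu0, he⟩ := hN
  refine ⟨HG.sub (HG.const 1) (HG.mul (HG.mul (HG.pow (hg_co K hV 1) _)
    (HG.pow (hg_co K hV 0) _)) (HG.comp (by rw [hy]; exact hu) (holC_pi K))), ?_⟩
  have h1 : Sq (fam K.atl) y (fun y => φ (K.pi y)) (fun y => h (K.pi y)) :=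
    Sq.comp (by rw [hy]; exact hS) (holC_pi K) (dom_pi K y)
  refine h1.mul_sq (r := fun y => K.co s 1 y 1) (nz_co K hV) ?_
  have h2 : ∀ᶠ y' in 𝓝 y, h (K.pi y') = K.z s (K.pi y') 1 ^ 2 -
      K.z s (K.pi y') 0 ^ 4 * u (K.pi y') :=
    K.continuous_pi.continuousAt.eventually (by rw [hy]; exact he)
  filter_upwards [h2, (K.isOpen_V s 1).mem_nhds hV] with y' h3 h4
  rw [h3, (z_chart1 h4).1, (z_chart1 h4).2]
  ring

end Two

end

end Crest.Agent.R272.BL_366
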