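import Crest.Agent.R272.BL2_366

/-!
# R272 (S0414), leaf S14-BL (helper366), part 3: one blow-up step

`Star K φ s a k` : at the centre `s` the colour `a` has `2 k` distinct smooth branches
                   (`z1^(2k) - z0^(2k) u`), the other colours are units;
`Tac K φ s a b`  : the colour `a` has a tacnode `z1^2 - z0^4 u`, the colour `b` is a unit or has
                   a node `z1^2 - z0^2 u'`, the other colours are units.

`good_of_star`, `good_of_tac`, `star_of_tac`.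
-/

set_option autoImplicit false
set_option linter.unusedSectionVars false

open Set Filter Topology Complex

namespace Crest.Agent.R272.BL_366

open Crest.Agent.R275.Geo Crest.Agent.R275.Core144
open Crest.Agent.R273.Fam_835 Crest.Agent.R273.Map_835
open Crest.Agent.R272.Quot_783 Crest.Agent.R272.Root_83 Crest.Agent.R272.Blup1_102

noncomputable section

/-! ### units -/

theorem Sq.mul_unit {n : ℕ} {X : Type} [TopologicalSpace X] {C : Fam n X} {x : X}
    {φ h h' u : X → ℂ} (h1 : Sq C x φ h) (hu : HG C x u) (hu0 : u x ≠ 0)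
    (h2 : ∀ᶠ y in 𝓝 x, h y = u y * h' y) : Sq C x φ h' := by
  obtain ⟨U, hU, hxU, hu⟩ := hu
  obtain ⟨V, hV, hxV, -, r, hr, hr2, hr0⟩ := exists_root_unit_fam C hU hu hxU hu0
  refine h1.mul_sq (r := r) (NZ.of_ne ⟨V, hV, hxV, hr⟩ (hr0 x hxV)) ?_
  filter_upwards [h2, hV.mem_nhds hxV] with y h3 h4
  rw [h3, hr2 y h4]

variable {M : Type} [TopologicalSpace M] [T2Space M] {A : Atl 2 M} {ρ : Type}

/-- the colour `a` has an ordinary point of order `2 k`, the other colours are units -/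
def Star (K : Ctr A) (φ : ρ → M → ℂ) (s : K.S) (a : ρ) (k : ℕ) : Prop :=
  0 < k ∧ ∃ (h : ρ → M → ℂ) (u : M → ℂ), (∀ b, HG (fam A) (K.p s) (h b)) ∧
    (∀ b, Sq (fam A) (K.p s) (φ b) (h b)) ∧ (∀ b, b ≠ a → h b (K.p s) ≠ 0) ∧
    NodeF K s (h a) k u

/-- the colour `a` has a tacnode, the colour `b` is a unit or has a node in the same coordinates,
the other colours are units -/
def Tac (K : Ctr A) (φ : ρ → M → ℂ) (s : K.S) (a b : ρ) : Prop :=
  a ≠ b ∧ ∃ (h : ρ → M → ℂ) (u u' : M → ℂ), (∀ c, HG (fam A) (K.p s) (h c)) ∧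
    (∀ c, Sq (fam A) (K.p s) (φ c) (h c)) ∧ (∀ c, c ≠ a → c ≠ b → h c (K.p s) ≠ 0) ∧
    TacF K s (h a) u ∧ (h b (K.p s) ≠ 0 ∨ NodeF K s (h b) 1 u')

variable {K : Ctr A}

theorem good_of_ex {φ : ρ → M → ℂ} {s : K.S} {j : Fin 2} {y : K.X} (hV : y ∈ K.V s j) (a : ρ)
    (h1 : ∀ b, b ≠ a → ∃ g : K.X → ℂ, HG (fam K.atl) y g ∧
      Sq (fam K.atl) y (fun y => φ b (K.pi y)) g ∧ g y ≠ 0)
    (h2 : ∃ g : K.X → ℂ, HG (fam K.atl) y g ∧
      Sq (fam K.atl) y (fun y => φ a (K.pi y)) g ∧ (g y = 0 → ∃ v : Cn 2,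
        fderiv ℂ (fun z => g (((fam K.atl).e (Sum.inr (s, j))).symm z))
          ((fam K.atl).e (Sum.inr (s, j)) y) v ≠ 0)) :
    Good (fam K.atl) (fun b y => φ b (K.pi y)) y := by
  classical
  obtain ⟨g0, h3, h4, h5⟩ := h2
  choose! g hg using h1
  have hself : Function.update g a g0 a = g0 := Function.update_self _ _ _
  refine ⟨Function.update g a g0, fun b => ?_, fun b => ?_, Sum.inr (s, j), hV, ?_⟩
  · by_cases hb : b = a
    · rw [hb, hself]; exact h3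
    · rw [Function.update_of_ne hb]; exact (hg b hb).1
  · by_cases hb : b = a
    · rw [hb, hself]; exact h4
    · rw [Function.update_of_ne hb]; exact (hg b hb).2.1
  · refine snc_single (a := a) (fun b hb => ?_) (fun h0 => ?_)
    · rw [Function.update_of_ne hb]; exact (hg b hb).2.2
    · rw [hself] at h0 ⊢
      exact h5 h0

theorem ex_unit {φ h : M → ℂ} {s : K.S} {y : K.X} (hy : K.pi y = K.p s)
    (h1 : HG (fam A) (K.p s) h) (h2 : Sq (fam A) (K.p s) φ h) (h3 : h (K.p s) ≠ 0) :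
    ∃ g : K.X → ℂ, HG (fam K.atl) y g ∧ Sq (fam K.atl) y (fun y => φ (K.pi y)) g ∧ g y ≠ 0 :=
  ⟨fun y => h (K.pi y), HG.comp (by rw [hy]; exact h1) (holC_pi K),
    Sq.comp (by rw [hy]; exact h2) (holC_pi K) (dom_pi K y), by
      show h (K.pi y) ≠ 0
      rw [hy]; exact h3⟩

theorem ex_tac {φ h u : M → ℂ} {s : K.S} {y : K.X} (hy : K.pi y = K.p s)
    (hne : y ≠ K.ci s 0 0) (hN : TacF K s h u) (h2 : Sq (fam A) (K.p s) φ h) :
    ∃ g : K.X → ℂ, HG (fam K.atl) y g ∧ Sq (fam K.atl) y (fun y => φ (K.pi y)) g ∧ g y ≠ 0 := by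
  obtain ⟨j, hV⟩ := exists_chart hy
  fin_cases j
  · have hV' : y ∈ K.V s 0 := hV
    obtain ⟨h3, h4⟩ := lift_tac0 hN h2 hy hV'
    refine ⟨_, h3, h4, ?_⟩
    have h5 : K.co s 0 y 1 ≠ 0 := fun h0 => hne (eq_ci_zero hy hV' h0)
    rw [co_zero hy hV', zero_pow two_ne_zero, zero_mul, sub_zero]
    exact pow_ne_zero 2 h5
  · have hV' : y ∈ K.V s 1 := hV
    obtain ⟨h3, h4⟩ := lift_tac1 hN h2 hy hV'
    refine ⟨_, h3, h4, ?_⟩
    rw [co_zero hy hV', zero_pow two_ne_zero, zero_mul, zero_mul, sub_zero]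
    exact one_ne_zero

theorem ex_node {φ h u : M → ℂ} {k : ℕ} {s : K.S} {y : K.X} (hk : 0 < k) (hy : K.pi y = K.p s)
    (hN : NodeF K s h k u) (h2 : Sq (fam A) (K.p s) φ h) {j : Fin 2} (hV : y ∈ K.V s j) :
    ∃ g : K.X → ℂ, HG (fam K.atl) y g ∧
      Sq (fam K.atl) y (fun y => φ (K.pi y)) g ∧ (g y = 0 → ∃ v : Cn 2,
        fderiv ℂ (fun z => g (((fam K.atl).e (Sum.inr (s, j))).symm z))
          ((fam K.atl).e (Sum.inr (s, j)) y) v ≠ 0) := by
  fin_cases j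
  · obtain ⟨h3, h4, h5⟩ := lift_node0 hk hN h2 hy hV
    exact ⟨_, h3, h4, fun h0 => ⟨_, h5 h0⟩⟩
  · obtain ⟨h3, h4, h5⟩ := lift_node1 hk hN h2 hy hV
    exact ⟨_, h3, h4, fun h0 => ⟨_, h5 h0⟩⟩

/-- at the special point a node is a unit upstairs -/
theorem ex_node_ci {φ h u : M → ℂ} {k : ℕ} {s : K.S} (hk : 0 < k)
    (hN : NodeF K s h k u) (h2 : Sq (fam A) (K.p s) φ h) :
    ∃ g : K.X → ℂ, HG (fam K.atl) (K.ci s 0 0) g ∧
      Sq (fam K.atl) (K.ci s 0 0) (fun y => φ (K.pi y)) g ∧ g (K.ci s 0 0) ≠ 0 := by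
  obtain ⟨h3, h4, -⟩ := lift_node0 hk hN h2 (pi_ci_zero s 0) (K.ci_mem (zero_mem_T s 0))
  refine ⟨_, h3, h4, ?_⟩
  rw [K.co_ci (zero_mem_T s 0), pi_ci_zero]
  rw [PiLp.zero_apply, zero_pow (by omega), zero_sub, neg_ne_zero]
  exact hN.2.1

/-- **all points over an ordinary point are good** -/
theorem good_of_star {φ : ρ → M → ℂ} {s : K.S} {a : ρ} {k : ℕ} (h : Star K φ s a k) {y : K.X}
    (hy : K.pi y = K.p s) : Good (fam K.atl) (fun b y => φ b (K.pi y)) y := by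
  obtain ⟨hk, g, u, h1, h2, h3, h4⟩ := h
  obtain ⟨j, hV⟩ := exists_chart hy
  exact good_of_ex hV a (fun b hb => ex_unit hy (h1 b) (h2 b) (h3 b hb)) (ex_node hk hy h4 (h2 a) hV)

/-- **all points over a tacnode are good, with one exception** -/
theorem good_of_tac {φ : ρ → M → ℂ} {s : K.S} {a b : ρ} (h : Tac K φ s a b) {y : K.X}
    (hy : K.pi y = K.p s) (hne : y ≠ K.ci s 0 0) :
    Good (fam K.atl) (fun b y => φ b (K.pi y)) y := by
  obtain ⟨hab, g, u, u', h1, h2, h3, h4, h5⟩ := h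
  obtain ⟨j, hV⟩ := exists_chart hy
  refine good_of_ex hV b (fun c hc => ?_) ?_
  · by_cases hca : c = a
    · rw [hca]; exact ex_tac hy hne h4 (h2 a)
    · exact ex_unit hy (h1 c) (h2 c) (h3 c hca hc)
  · rcases h5 with h5 | h5
    · obtain ⟨g', h6, h7, h8⟩ := ex_unit hy (h1 b) (h2 b) h5
      exact ⟨g', h6, h7, fun h0 => absurd h0 h8⟩
    · exact ex_node one_pos hy h5 (h2 b) hV

/-- **over the exceptional point the tacnode becomes a node** -/
theorem star_of_tac {φ : ρ → M → ℂ} {s : K.S} {a b : ρ} (h : Tac K φ s a b) (K' : Ctr K.atl)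
    (s' : K'.S) (hp : K'.p s' = K.ci s 0 0) (hi : K'.i s' = Sum.inr (s, 0)) :
    Star K' (fun c y => φ c (K.pi y)) s' a 1 := by
  classical
  obtain ⟨hab, g, u, u', h1, h2, h3, h4, h5⟩ := h
  have hV : K.ci s 0 0 ∈ K.V s 0 := K.ci_mem (zero_mem_T s 0)
  have hpi := pi_ci_zero s (0 : Fin 2)
  have hex : ∀ c, c ≠ a → ∃ g : K.X → ℂ, HG (fam K.atl) (K.ci s 0 0) g ∧
      Sq (fam K.atl) (K.ci s 0 0) (fun y => φ c (K.pi y)) g ∧ g (K.ci s 0 0) ≠ 0 := by
    intro c hc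
    by_cases hcb : c = b
    · rw [hcb]
      rcases h5 with h5 | h5
      · exact ex_unit hpi (h1 b) (h2 b) h5
      · exact ex_node_ci one_pos h5 (h2 b)
    · exact ex_unit hpi (h1 c) (h2 c) (h3 c hc hcb)
  choose! G hG using hex
  obtain ⟨h6, h7⟩ := lift_tac0 h4 (h2 a) hpi hV
  set g0 : K.X → ℂ := fun y => (1 / 25 : ℂ) *
    (K.co s 0 y 1 ^ 2 - K.co s 0 y 0 ^ 2 * u (K.pi y)) with hg0
  have hself : Function.update G a g0 a = g0 := Function.update_self _ _ _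
  refine ⟨one_pos, Function.update G a g0, fun y => u (K.pi y), fun c => ?_, fun c => ?_,
    fun c hc => ?_, ?_, ?_, ?_⟩
  · rw [hp]
    by_cases hc : c = a
    · rw [hc, hself]; exact HG.mul (HG.const _) h6
    · rw [Function.update_of_ne hc]; exact (hG c hc).1
  · rw [hp]
    by_cases hc : c = a
    · rw [hc, hself]
      refine h7.mul_sq (r := fun _ => (5 : ℂ)) (NZ.const (by norm_num)) ?_
      filter_upwards with y
      rw [hg0]
      ring
    · rw [Function.update_of_ne hc]; exact (hG c hc).2.1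
  · rw [hp, Function.update_of_ne hc]
    exact (hG c hc).2.2
  · rw [hp]
    exact HG.comp (by rw [hpi]; exact h4.1) (holC_pi K)
  · show u (K.pi (K'.p s')) ≠ 0
    rw [hp, hpi]
    exact h4.2.1
  · rw [hp, hself]
    filter_upwards [(K.isOpen_V s 0).mem_nhds hV] with y hy
    have hz : ∀ c, K'.z s' y c = (1 / 5 : ℂ) * K.co s 0 y c := by
      intro c
      have h8 : K'.z s' y = (1 / 5 : ℂ) • K.co s 0 y := by
        show K.atl.e (K'.i s') y - K.atl.e (K'.i s') (K'.p s') = _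
        rw [hi, hp]
        show sc 2 (K.co s 0 y) - sc 2 (K.co s 0 (K.ci s 0 0)) = _
        rw [K.co_ci (zero_mem_T s 0)]
        show (1 / 5 : ℂ) • K.co s 0 y + kap 2 - ((1 / 5 : ℂ) • (0 : Cn 2) + kap 2) = _
        rw [smul_zero, zero_add, add_sub_cancel_right]
      rw [h8, PiLp.smul_apply, smul_eq_mul]
    rw [hz, hz, hg0]
    ring

end

end Crest.Agent.R272.BL_366
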