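import Crest.Agent.R272.BL3_366
import Crest.Agent.R272.Blup7_102

/-!
# R272 (S0414), leaf S14-BL (helper366), part 4: the two blow-ups

`Cen2 K φ` : every centre of `K` is a `Star` or a `Tac`, every other point is good;
`K2 h`     : the second centres (the points `ci s 0 0` over the tacnodes);
`good_all` : every point of the second blow-up is good.
-/

set_option autoImplicit false
set_option linter.unusedSectionVars false

open Set Filter Topology Complex

namespace Crest.Agent.R272.BL_366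

open Crest.Agent.R275.Geo Crest.Agent.R275.Core144
open Crest.Agent.R273.Fam_835 Crest.Agent.R273.Map_835
open Crest.Agent.R272.Quot_783 Crest.Agent.R272.Root_83 Crest.Agent.R272.Blup1_102

noncomputable section

variable {M : Type} [TopologicalSpace M] [T2Space M] {A : Atl 2 M} {ρ : Type}

/-- the hypothesis of the two-step assembly -/
structure Cen2 (K : Ctr A) (φ : ρ → M → ℂ) : Prop where
  cen : ∀ s : K.S, (∃ a k, Star K φ s a k) ∨ ∃ a b, Tac K φ s a b
  off : ∀ x, x ∉ K.Z → Good (fam A) φ x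

/-- the tacnodes -/
def TS (K : Ctr A) (φ : ρ → M → ℂ) : Type := {s : K.S // ∃ a b, Tac K φ s a b}

instance (K : Ctr A) (φ : ρ → M → ℂ) [Finite K.S] : Finite (TS K φ) :=
  inferInstanceAs (Finite {s : K.S // ∃ a b, Tac K φ s a b})

theorem ci_inj {K : Ctr A} {s t : K.S} (h : K.ci s 0 0 = K.ci t 0 0) : s = t :=
  K.p_inj (by rw [← pi_ci_zero s 0, ← pi_ci_zero t 0, h])

/-- the second centres -/
def K2 (K : Ctr A) (φ : ρ → M → ℂ) [Finite K.S] : Ctr K.atl :=
  ctr (S := TS K φ) (fun s => Sum.inr (s.1, 0)) (fun s => K.ci s.1 0 0)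
    (fun _ _ h => Subtype.ext (ci_inj h)) (fun s => K.ci_mem (zero_mem_T s.1 0))
    (fun _ => univ) (fun _ => univ_mem) one_pos

theorem K2_p (K : Ctr A) (φ : ρ → M → ℂ) [Finite K.S] (s : TS K φ) :
    (K2 K φ).p s = K.ci s.1 0 0 := rfl

theorem K2_i (K : Ctr A) (φ : ρ → M → ℂ) [Finite K.S] (s : TS K φ) :
    (K2 K φ).i s = Sum.inr (s.1, 0) := rfl

/-- **every point of the second blow-up is good** -/
theorem good_all {K : Ctr A} {φ : ρ → M → ℂ} [Finite K.S] (h : Cen2 K φ) (y : (K2 K φ).X) :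
    Good (fam (K2 K φ).atl) (fun a y => φ a (K.pi ((K2 K φ).pi y))) y := by
  by_cases hy : (K2 K φ).pi y ∈ (K2 K φ).Z
  · obtain ⟨s, hs⟩ := hy
    obtain ⟨a, b, hT⟩ := s.2
    exact good_of_star (star_of_tac hT (K2 K φ) s rfl rfl) hs.symm
  · refine good_off (K2 K φ) (φ := fun a y => φ a (K.pi y)) hy ?_
    by_cases hx : K.pi ((K2 K φ).pi y) ∈ K.Z
    · obtain ⟨s, hs⟩ := hx
      rcases h.cen s with ⟨a, k, hS⟩ | ⟨a, b, hT⟩
      · exact good_of_star hS hs.symm
      · refine good_of_tac hT hs.symm fun h0 => hy ⟨⟨s, a, b, hT⟩, ?_⟩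
        rw [h0]; rfl
    · exact good_off K hx (h.off _ hx)

end

end Crest.Agent.R272.BL_366
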