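import Mathlib

/-! Row 272 (helper916): a uniform Minkowski lemma: a lattice moved by a volume preserving map and
with systole bounded below is spanned by short vectors. -/

set_option autoImplicit false

namespace Crest.Agent.R272.Ball1_916

open MeasureTheory Module Set Metric
open scoped ENNReal Pointwise

variable {V : Type*} [NormedAddCommGroup V] [NormedSpace ℝ V]

/-- segment plus ball -/
def body (u : V) (b a : ℝ) : Set V := ((fun s : ℝ => s • u) '' Icc (-b) b) + ball (0 : V) a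

theorem body_convex (u : V) (b a : ℝ) : Convex ℝ (body u b a) := by
  refine Convex.add ?_ (convex_ball _ _)
  exact (convex_Icc (-b) b).linear_image (LinearMap.toSpanSingleton ℝ V u)

theorem mem_body {u : V} {b a : ℝ} {x : V} :
    x ∈ body u b a ↔ ∃ s : ℝ, -b ≤ s ∧ s ≤ b ∧ ‖x - s • u‖ < a := by
  constructor
  · rintro ⟨_, ⟨s, hs, rfl⟩, y, hy, rfl⟩
    refine ⟨s, hs.1, hs.2, ?_⟩
    simpa using hy
  · rintro ⟨s, h1, h2, h3⟩
    refine ⟨s • u, ⟨s, ⟨h1, h2⟩, rfl⟩, x - s • u, ?_, by simp⟩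
    simpa using h3

theorem body_symm {u : V} {b a : ℝ} : ∀ x ∈ body u b a, -x ∈ body u b a := by
  intro x hx
  obtain ⟨s, h1, h2, h3⟩ := mem_body.1 hx
  refine mem_body.2 ⟨-s, by linarith, by linarith, ?_⟩
  have : -x - (-s) • u = -(x - s • u) := by simp [sub_eq_add_neg, add_comm]
  rw [this, norm_neg]; exact h3

theorem body_ball {u : V} {a : ℝ} (J k : ℕ) (hk : k ≤ J) :
    ball (((2 * a * k : ℝ)) • u) a ⊆ body u (2 * a * J) a := by
  intro x hx
  have ha : 0 < a := by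
    by_contra h
    rw [ball_eq_empty.2 (not_lt.1 h)] at hx
    exact hx
  refine mem_body.2 ⟨2 * a * k, ?_, ?_, ?_⟩
  · have : (0:ℝ) ≤ 2 * a * k := by positivity
    have : (0:ℝ) ≤ 2 * a * J := by positivity
    linarith
  · have : (k : ℝ) ≤ J := by exact_mod_cast hk
    gcongr
  · simpa [mem_ball, dist_eq_norm] using hx

variable [FiniteDimensional ℝ V] [MeasurableSpace V] [BorelSpace V]

omit [FiniteDimensional ℝ V] in
theorem body_measure (μ : Measure V) [μ.IsAddHaarMeasure] {u : V} (hu : 1 ≤ ‖u‖) {a : ℝ}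
    (ha : 0 < a) (J : ℕ) : (J : ℝ≥0∞) * μ (ball (0 : V) a) ≤ μ (body u (2 * a * J) a) := by
  have h1 : (⋃ k ∈ Finset.range J, ball (((2 * a * (k : ℕ) : ℝ)) • u) a) ⊆ body u (2 * a * J) a := by
    intro x hx
    simp only [mem_iUnion] at hx
    obtain ⟨k, hk, hx⟩ := hx
    exact body_ball J k (Finset.mem_range.1 hk).le hx
  refine le_trans ?_ (measure_mono h1)
  rw [measure_biUnion_finset]
  · have : ∀ k ∈ Finset.range J, μ (ball (((2 * a * (k : ℕ) : ℝ)) • u) a) = μ (ball (0 : V) a) := by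
      intro k _
      exact Measure.addHaar_ball_center μ _ a
    rw [Finset.sum_congr rfl this]
    simp
  · intro k _ l _ hkl
    refine ball_disjoint_ball ?_
    rw [dist_eq_norm, ← sub_smul, norm_smul]
    have h2 : (1 : ℝ) ≤ |(k : ℝ) - l| := by
      have : (1 : ℤ) ≤ |(k : ℤ) - l| := by
        refine Int.one_le_abs ?_
        intro h
        apply hkl
        exact_mod_cast sub_eq_zero.1 h
      exact_mod_cast this
    have h3 : ‖(2 * a * (k:ℝ) - 2 * a * (l:ℝ))‖ = 2 * a * |(k : ℝ) - l| := by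
      rw [← mul_sub, norm_mul, Real.norm_eq_abs, Real.norm_eq_abs, abs_of_pos (by positivity)]
    rw [h3]
    nlinarith [norm_nonneg u, mul_pos ha (by linarith : (0:ℝ) < |(k : ℝ) - l|)]
  · intro k _
    exact measurableSet_ball

/-- **Uniform Minkowski lemma.** -/
theorem short_span (L : Submodule ℤ V) [DiscreteTopology L] [IsZLattice ℝ L] {κ : ℝ} (hκ : 0 < κ) :
    ∃ R : ℝ, ∀ Φ : V ≃ₗ[ℝ] V, |LinearMap.det (Φ : V →ₗ[ℝ] V)| = 1 →
      (∀ x ∈ L, x ≠ 0 → κ ≤ ‖Φ x‖) →
      Submodule.span ℝ (Φ '' {x | x ∈ L ∧ ‖Φ x‖ ≤ R}) = ⊤ := by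
  classical
  let μ : Measure V := Measure.addHaar
  let b := Module.Free.chooseBasis ℤ L
  let F := ZSpan.fundamentalDomain (b.ofZLatticeBasis ℝ)
  have hF : IsAddFundamentalDomain L F μ := ZLattice.isAddFundamentalDomain b μ
  have hFfin : μ F < ∞ := (ZSpan.fundamentalDomain_isBounded _).measure_lt_top
  -- radius
  set a : ℝ := κ / 4 with ha_def
  have ha : 0 < a := by positivity
  have hball : μ (ball (0 : V) a) ≠ 0 := (measure_ball_pos μ _ ha).ne'
  obtain ⟨J, hJ⟩ : ∃ J : ℕ, μ F * 2 ^ finrank ℝ V < J * μ (ball (0 : V) a) := by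
    have hne : μ F * 2 ^ finrank ℝ V ≠ ∞ := by
      refine ENNReal.mul_ne_top hFfin.ne ?_
      simp
    obtain ⟨J, hJ⟩ := ENNReal.exists_nat_mul_gt hball hne
    exact ⟨J, hJ⟩
  refine ⟨3 * (2 * a * J) + a + κ, ?_⟩
  intro Φ hdet hsys
  by_contra hne
  set R : ℝ := 3 * (2 * a * J) + a + κ with hR
  set W : Submodule ℝ V := Submodule.span ℝ (Φ '' {x | x ∈ L ∧ ‖Φ x‖ ≤ R}) with hW
  -- functional vanishing on W
  obtain ⟨f, hf0, hfW⟩ : ∃ f : V →L[ℝ] ℝ, f ≠ 0 ∧ ∀ x ∈ W, f x = 0 := by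
    obtain ⟨g, hg0, hg⟩ := Submodule.exists_le_ker_of_lt_top W (lt_top_iff_ne_top.2 hne)
    refine ⟨LinearMap.toContinuousLinearMap g, ?_, ?_⟩
    · intro h
      apply hg0
      ext x
      have := congrArg (fun k : V →L[ℝ] ℝ => k x) h
      simpa using this
    · intro x hx
      exact hg hx
  -- a vector of norm between 1 and 3 at which f is at least the norm of f
  have hfpos : 0 < ‖f‖ := norm_pos_iff.2 hf0
  obtain ⟨u, hu1, hu2, hu3⟩ : ∃ u : V, 1 ≤ ‖u‖ ∧ ‖u‖ ≤ 3 ∧ ‖f‖ ≤ f u := by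
    obtain ⟨y, hy⟩ : ∃ y : V, ‖f‖ / 2 * ‖y‖ < ‖f y‖ := by
      by_contra h
      push Not at h
      have := f.opNorm_le_bound (by positivity) h
      linarith
    have hy0 : y ≠ 0 := by
      rintro rfl
      simp at hy
    have hyn : 0 < ‖y‖ := norm_pos_iff.2 hy0
    have hfy : 0 < ‖f y‖ := lt_of_le_of_lt (by positivity) hy
    have hfy0 : f y ≠ 0 := norm_pos_iff.1 hfy
    refine ⟨(‖f‖ / f y) • y, ?_, ?_, ?_⟩
    · rw [norm_smul, norm_div, norm_norm]
      rw [div_mul_eq_mul_div, le_div_iff₀ hfy, one_mul]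
      exact f.le_opNorm y
    · rw [norm_smul, norm_div, norm_norm]
      rw [div_mul_eq_mul_div, div_le_iff₀ hfy]
      linarith
    · rw [map_smul, smul_eq_mul, div_mul_cancel₀ _ hfy0]
  set K : Set V := body u (2 * a * J) a with hK
  -- Minkowski for the preimage of K
  have hmeas : μ (Φ ⁻¹' K) = μ K := by
    rw [Measure.addHaar_preimage_linearEquiv]
    rw [LinearEquiv.det_coe_symm, abs_inv, hdet]
    simp
  have hconv : Convex ℝ (Φ ⁻¹' K) := (body_convex u _ a).linear_preimage (Φ : V →ₗ[ℝ] V)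
  have hsymm : ∀ x ∈ Φ ⁻¹' K, -x ∈ Φ ⁻¹' K := by
    intro x hx
    simp only [mem_preimage, map_neg] at *
    exact body_symm _ hx
  have hvol : μ F * 2 ^ finrank ℝ V < μ (Φ ⁻¹' K) := by
    rw [hmeas]
    exact lt_of_lt_of_le hJ (body_measure μ hu1 ha J)
  have : Countable L := inferInstance
  obtain ⟨x, hx0, hxK⟩ :=
    exists_ne_zero_mem_lattice_of_measure_mul_two_pow_lt_measure (L := L.toAddSubgroup) hF hsymm
      hconv hvol
  have hxL : (x : V) ∈ L := x.2
  have hx0' : (x : V) ≠ 0 := by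
    intro h
    apply hx0
    exact Subtype.ext h
  obtain ⟨s, hs1, hs2, hs3⟩ := mem_body.1 hxK
  set v : V := Φ x with hv
  have hsn : ‖s • u‖ ≤ 3 * (2 * a * J) := by
    rw [norm_smul]
    have : ‖s‖ ≤ 2 * a * J := by rw [Real.norm_eq_abs]; exact abs_le.2 ⟨hs1, hs2⟩
    have h0 : (0:ℝ) ≤ 2 * a * J := by positivity
    nlinarith [norm_nonneg s, norm_nonneg u]
  have hvR : ‖v‖ ≤ R := by
    have h1 : v = (v - s • u) + s • u := by abel
    have h2 : ‖v‖ ≤ ‖v - s • u‖ + ‖s • u‖ := by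
      conv_lhs => rw [h1]
      exact norm_add_le _ _
    rw [hR]
    linarith
  have hvW : v ∈ W := Submodule.subset_span ⟨x, ⟨hxL, hvR⟩, rfl⟩
  have hfv : f v = 0 := hfW v hvW
  have hsmall : |s| ≤ a := by
    have h1 : f v = f (v - s • u) + s * f u := by
      rw [map_sub, map_smul, smul_eq_mul]; ring
    have h2 : |s * f u| ≤ ‖f‖ * a := by
      have h3 : s * f u = - f (v - s • u) := by linarith
      rw [h3, abs_neg]
      calc |f (v - s • u)| ≤ ‖f‖ * ‖v - s • u‖ := f.le_opNorm _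
        _ ≤ ‖f‖ * a := by gcongr
    rw [abs_mul, abs_of_pos (lt_of_lt_of_le hfpos hu3)] at h2
    have h3 : |s| * ‖f‖ ≤ ‖f‖ * a := by
      refine le_trans ?_ h2
      gcongr
    have := (mul_le_mul_iff_right₀ hfpos).1 (by rw [mul_comm] at h3; exact h3 : ‖f‖ * |s| ≤ ‖f‖ * a)
    exact this
  have hfin : ‖v‖ < κ := by
    have h1 : v = (v - s • u) + s • u := by abel
    have h2 : ‖v‖ ≤ ‖v - s • u‖ + ‖s • u‖ := by
      conv_lhs => rw [h1]
      exact norm_add_le _ _
    have h3 : ‖s • u‖ ≤ a * 3 := by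
      rw [norm_smul, Real.norm_eq_abs]
      gcongr
    have : κ = 4 * a := by rw [ha_def]; ring
    rw [this]
    linarith
  exact absurd (hsys x hxL hx0') (not_le.2 hfin)

end Crest.Agent.R272.Ball1_916
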