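import Mathlib

/-! Row 272 (helper916): arithmetic Hermitian form of signature (n,1) at one place and definite at the
other places; definitions and elementary linear algebra. No number field theory: `O` is a subring of
`T → ℂ` (`T` = the places). -/

set_option autoImplicit false
set_option linter.unusedSectionVars false

namespace Crest.Agent.R272.BallDefs_916

open Matrix Finset
open scoped ComplexConjugate

/-- An order of "CM type" inside `T → ℂ`. -/
structure OrdT (T : Type) [Fintype T] where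
  O : Subring (T → ℂ)
  star_mem : ∀ x ∈ O, star x ∈ O
  disc : ∀ R : ℝ, {x : T → ℂ | x ∈ O ∧ ∀ t, ‖x t‖ ≤ R}.Finite
  span : Submodule.span ℝ (O : Set (T → ℂ)) = ⊤
  norm : ∀ x ∈ O, x ≠ 0 → 1 ≤ ∏ t, ‖x t‖

/-- Arithmetic datum: the diagonal form `∑ a i t * |v i|^2`, negative exactly at the coordinate `o`
and the place `t0`; there is a second place. -/
structure AD (T : Type) [Fintype T] (ι : Type) [Fintype ι] extends OrdT T where
  a : ι → T → ℝ
  a_mem : ∀ i, (fun t => (a i t : ℂ)) ∈ O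
  t0 : T
  t1 : T
  ht : t1 ≠ t0
  o : ι
  neg : a o t0 < 0
  pos0 : ∀ i, i ≠ o → 0 < a i t0
  pos : ∀ t, t ≠ t0 → ∀ i, 0 < a i t

variable {T : Type} [Fintype T] {ι : Type} [Fintype ι]

namespace AD

variable (D : AD T ι)

/-- the Hermitian form at the place `t` (linear in the first variable) -/
def h (t : T) (v w : ι → ℂ) : ℂ := ∑ i, (D.a i t : ℂ) * (v i * conj (w i))

/-- the quadratic form at the place `t` -/
noncomputable def q (t : T) (v : ι → ℂ) : ℝ := ∑ i, D.a i t * ‖v i‖ ^ 2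

/-- the fixed positive form -/
noncomputable def N (t : T) (v : ι → ℂ) : ℝ := ∑ i, |D.a i t| * ‖v i‖ ^ 2

/-- negative vectors (at `t0`) -/
def Neg (z : ι → ℂ) : Prop := D.q D.t0 z < 0

/-- `z` is negative and `C`-bounded: it represents a point of a fixed compact subset of the ball -/
def Bdd (C : ℝ) (z : ι → ℂ) : Prop := D.Neg z ∧ ∀ i, ‖z i‖ ^ 2 ≤ C * (- D.q D.t0 z)

/-- evaluation of `O` at a place -/
def ev (t : T) : D.O →+* ℂ := (Pi.evalRingHom (fun _ : T => ℂ) t).comp D.O.subtype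

theorem ev_apply (t : T) (x : D.O) : D.ev t x = (x : T → ℂ) t := rfl

end AD

variable (D : AD T ι)

theorem h_self (t : T) (v : ι → ℂ) : D.h t v v = (D.q t v : ℂ) := by
  unfold AD.h AD.q
  push_cast
  refine Finset.sum_congr rfl fun i _ => ?_
  rw [Complex.mul_conj, Complex.normSq_eq_norm_sq]
  push_cast
  ring

theorem h_add_left (t : T) (v v' w : ι → ℂ) : D.h t (v + v') w = D.h t v w + D.h t v' w := by
  unfold AD.h
  rw [← Finset.sum_add_distrib]
  refine Finset.sum_congr rfl fun i _ => ?_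
  simp only [Pi.add_apply]; ring

theorem h_smul_left (t : T) (c : ℂ) (v w : ι → ℂ) : D.h t (c • v) w = c * D.h t v w := by
  unfold AD.h
  rw [Finset.mul_sum]
  refine Finset.sum_congr rfl fun i _ => ?_
  simp only [Pi.smul_apply, smul_eq_mul]; ring

theorem h_conj (t : T) (v w : ι → ℂ) : conj (D.h t v w) = D.h t w v := by
  unfold AD.h
  rw [map_sum]
  refine Finset.sum_congr rfl fun i _ => ?_
  simp only [map_mul, Complex.conj_conj, Complex.conj_ofReal]; ring

theorem h_add_right (t : T) (v w w' : ι → ℂ) : D.h t v (w + w') = D.h t v w + D.h t v w' := by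
  rw [← h_conj, h_add_left, map_add, h_conj, h_conj]

theorem h_smul_right (t : T) (c : ℂ) (v w : ι → ℂ) : D.h t v (c • w) = conj c * D.h t v w := by
  rw [← h_conj, h_smul_left, map_mul, h_conj]

theorem h_sub_left (t : T) (v v' w : ι → ℂ) : D.h t (v - v') w = D.h t v w - D.h t v' w := by
  have : v - v' = v + (-1 : ℂ) • v' := by simp [sub_eq_add_neg]
  rw [this, h_add_left, h_smul_left]; ring

theorem h_sub_right (t : T) (v w w' : ι → ℂ) : D.h t v (w - w') = D.h t v w - D.h t v w' := by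
  have : w - w' = w + (-1 : ℂ) • w' := by simp [sub_eq_add_neg]
  rw [this, h_add_right, h_smul_right]; simp; ring

theorem q_smul (t : T) (c : ℂ) (v : ι → ℂ) : D.q t (c • v) = ‖c‖ ^ 2 * D.q t v := by
  unfold AD.q
  rw [Finset.mul_sum]
  refine Finset.sum_congr rfl fun i _ => ?_
  simp only [Pi.smul_apply, smul_eq_mul, norm_mul]; ring

theorem abs_q_le (t : T) (v : ι → ℂ) : |D.q t v| ≤ D.N t v := by
  unfold AD.q AD.N
  refine (Finset.abs_sum_le_sum_abs _ _).trans (le_of_eq ?_)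
  refine Finset.sum_congr rfl fun i _ => ?_
  rw [abs_mul, abs_of_nonneg (by positivity : (0:ℝ) ≤ ‖v i‖ ^ 2)]

theorem N_nonneg (t : T) (v : ι → ℂ) : 0 ≤ D.N t v := by
  unfold AD.N
  positivity

theorem a_ne (t : T) (i : ι) : D.a i t ≠ 0 := by
  classical
  by_cases h : t = D.t0
  · subst h
    by_cases hi : i = D.o
    · subst hi; exact D.neg.ne
    · exact (D.pos0 i hi).ne'
  · exact (D.pos t h i).ne'

theorem q_eq_N {t : T} (ht : t ≠ D.t0) (v : ι → ℂ) : D.q t v = D.N t v := by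
  unfold AD.q AD.N
  refine Finset.sum_congr rfl fun i _ => ?_
  rw [abs_of_pos (D.pos t ht i)]

/-- the negative coordinate vector -/
noncomputable def eo [DecidableEq ι] : ι → ℂ := Pi.single D.o 1

variable [DecidableEq ι]

theorem q_eo (t : T) : D.q t (eo D) = D.a D.o t := by
  unfold AD.q eo
  rw [Finset.sum_eq_single D.o]
  · simp
  · intro i _ hi
    simp [Pi.single_eq_of_ne hi]
  · simp

theorem h_eo (t : T) (v : ι → ℂ) : D.h t v (eo D) = (D.a D.o t : ℂ) * v D.o := by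
  unfold AD.h eo
  rw [Finset.sum_eq_single D.o]
  · simp
  · intro i _ hi
    simp [Pi.single_eq_of_ne hi]
  · simp

/-- reflection in `u` -/
noncomputable def refl (t : T) (u v : ι → ℂ) : ι → ℂ := v - (2 * D.h t v u / D.q t u) • u

theorem refl_isom {t : T} {u : ι → ℂ} (hu : D.q t u ≠ 0) (v w : ι → ℂ) :
    D.h t (refl D t u v) (refl D t u w) = D.h t v w := by
  unfold refl
  rw [h_sub_left, h_sub_right, h_sub_right, h_smul_left, h_smul_left, h_smul_right, h_smul_right,
    h_self]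
  have hq : ((D.q t u : ℝ) : ℂ) ≠ 0 := by exact_mod_cast hu
  rw [map_div₀, map_mul, Complex.conj_ofReal, h_conj, map_ofNat]
  field_simp
  ring

theorem refl_refl {t : T} {u : ι → ℂ} (hu : D.q t u ≠ 0) (v : ι → ℂ) :
    refl D t u (refl D t u v) = v := by
  unfold refl
  have hq : ((D.q t u : ℝ) : ℂ) ≠ 0 := by exact_mod_cast hu
  rw [h_sub_left, h_smul_left, h_self]
  have : (2 * (D.h t v u - 2 * D.h t v u / (D.q t u : ℂ) * (D.q t u : ℂ)) / (D.q t u : ℂ)) =
      - (2 * D.h t v u / (D.q t u : ℂ)) := by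
    field_simp
    ring
  rw [this, neg_smul]
  abel

/-- reflection as a linear equivalence -/
noncomputable def reflL (t : T) (u : ι → ℂ) (hu : D.q t u ≠ 0) : (ι → ℂ) ≃ₗ[ℂ] (ι → ℂ) where
  toFun := refl D t u
  invFun := refl D t u
  left_inv := refl_refl D hu
  right_inv := refl_refl D hu
  map_add' v w := by
    unfold refl
    rw [h_add_left]
    ext i
    simp only [Pi.sub_apply, Pi.add_apply, Pi.smul_apply, smul_eq_mul]
    ring
  map_smul' c v := by
    unfold refl
    rw [h_smul_left]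
    ext i
    simp only [Pi.sub_apply, Pi.smul_apply, smul_eq_mul, RingHom.id_apply]
    ring

theorem neg_o_ne {z : ι → ℂ} (hz : D.Neg z) : z D.o ≠ 0 := by
  intro h
  have : 0 ≤ D.q D.t0 z := by
    unfold AD.q
    refine Finset.sum_nonneg fun i _ => ?_
    by_cases hi : i = D.o
    · subst hi
      rw [h]; simp
    · have := D.pos0 i hi
      positivity
  exact absurd hz (not_lt.2 this)

/-- For every negative `z` there is `u` with `q u < 0`, reflection in `u` maps `z` to a multiple of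
the coordinate vector `eo`, and `u` is controlled by `z`. -/
theorem exists_u {z : ι → ℂ} (hz : D.Neg z) : ∃ u : ι → ℂ, D.q D.t0 u ≤ D.a D.o D.t0 ∧
    (∃ μ : ℂ, refl D D.t0 u z = μ • eo D) ∧
    (∀ C : ℝ, D.Bdd C z → ∀ i, ‖u i‖ ≤ Real.sqrt (C * |D.a D.o D.t0|) + 1) := by
  have hzo : z D.o ≠ 0 := neg_o_ne D hz
  have hn : (0:ℝ) < ‖z D.o‖ := norm_pos_iff.2 hzo
  have hq : 0 < - D.q D.t0 z := by unfold AD.Neg at hz; linarith
  have ha : D.a D.o D.t0 < 0 := D.neg
  set r : ℝ := Real.sqrt (- D.a D.o D.t0 / (- D.q D.t0 z)) with hr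
  have hr0 : 0 < r := Real.sqrt_pos.2 (div_pos (by linarith) hq)
  have hr2 : r ^ 2 * (- D.q D.t0 z) = - D.a D.o D.t0 := by
    rw [hr, Real.sq_sqrt (div_pos (by linarith) hq).le, div_mul_cancel₀ _ hq.ne']
  set ν : ℂ := (r : ℂ) * (conj (z D.o) / ‖z D.o‖) with hν
  have hνn : ‖ν‖ = r := by
    rw [hν, norm_mul, norm_div, Complex.norm_real, Complex.norm_real, RCLike.norm_conj,
      Real.norm_eq_abs, abs_of_pos hr0, norm_norm, div_self hn.ne', mul_one]
  have hν0 : ν ≠ 0 := by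
    rw [← norm_pos_iff, hνn]; exact hr0
  have hz1o : ν * z D.o = ((r * ‖z D.o‖ : ℝ) : ℂ) := by
    have h1 : conj (z D.o) * z D.o = ((‖z D.o‖ ^ 2 : ℝ) : ℂ) := by
      rw [mul_comm, Complex.mul_conj, Complex.normSq_eq_norm_sq]
    have h2 : ((‖z D.o‖ : ℝ) : ℂ) ≠ 0 := by exact_mod_cast hn.ne'
    rw [hν]
    calc (r : ℂ) * (conj (z D.o) / ‖z D.o‖) * z D.o
        = (r : ℂ) * ((conj (z D.o) * z D.o) / ‖z D.o‖) := by ring
      _ = _ := by
        rw [h1]; push_cast; field_simp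
  set z1 : ι → ℂ := ν • z with hz1
  have hqz1 : D.q D.t0 z1 = D.a D.o D.t0 := by
    rw [hz1, q_smul, hνn]; linarith
  set s : ℝ := r * ‖z D.o‖ with hs
  have hs0 : 0 < s := mul_pos hr0 hn
  have hh : D.h D.t0 z1 (eo D) = ((D.a D.o D.t0 * s : ℝ) : ℂ) := by
    rw [h_eo, hz1]
    simp only [Pi.smul_apply, smul_eq_mul]
    rw [hz1o]; push_cast; ring
  have hh' : D.h D.t0 (eo D) z1 = ((D.a D.o D.t0 * s : ℝ) : ℂ) := by
    rw [← h_conj, hh, Complex.conj_ofReal]
  set u : ι → ℂ := z1 + eo D with hu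
  have hqu : D.q D.t0 u = 2 * D.a D.o D.t0 * (1 + s) := by
    have h1 : ((D.q D.t0 u : ℝ) : ℂ) = ((2 * D.a D.o D.t0 * (1 + s) : ℝ) : ℂ) := by
      rw [← h_self, hu, h_add_left, h_add_right, h_add_right, hh, hh', h_self, h_self, hqz1, q_eo]
      push_cast; ring
    exact_mod_cast h1
  have hqu0 : D.q D.t0 u ≠ 0 := by
    rw [hqu]
    have : 2 * D.a D.o D.t0 * (1 + s) < 0 := by nlinarith
    exact this.ne
  refine ⟨u, ?_, ⟨-ν⁻¹, ?_⟩, ?_⟩
  · rw [hqu]; nlinarith
  · -- reflection maps z1 to - eo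
    have h1 : refl D D.t0 u z1 = - eo D := by
      unfold refl
      have h2 : D.h D.t0 z1 u = ((D.a D.o D.t0 * (1 + s) : ℝ) : ℂ) := by
        rw [hu, h_add_right, hh, h_self, hqz1]; push_cast; ring
      rw [h2, hqu]
      have h3 : (2 * ((D.a D.o D.t0 * (1 + s) : ℝ) : ℂ) / ((2 * D.a D.o D.t0 * (1 + s) : ℝ) : ℂ)) = 1 := by
        have h4 : ((2 * D.a D.o D.t0 * (1 + s) : ℝ) : ℂ) ≠ 0 := by
          rw [← hqu]; exact_mod_cast hqu0
        rw [div_eq_one_iff_eq h4]
        push_cast; ring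
      rw [h3, one_smul, hu]
      abel
    have h5 : z = ν⁻¹ • z1 := by
      rw [hz1, smul_smul, inv_mul_cancel₀ hν0, one_smul]
    have h6 : refl D D.t0 u z = ν⁻¹ • refl D D.t0 u z1 := by
      conv_lhs => rw [h5]
      exact (reflL D D.t0 u hqu0).map_smul ν⁻¹ z1
    rw [h6, h1]
    simp
  · intro C hC i
    have h1 : ‖u i‖ ≤ ‖z1 i‖ + 1 := by
      rw [hu, Pi.add_apply]
      refine (norm_add_le _ _).trans ?_
      gcongr
      unfold eo
      by_cases hi : i = D.o
      · subst hi; simp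
      · simp [Pi.single_eq_of_ne hi]
    refine h1.trans ?_
    gcongr
    refine Real.le_sqrt_of_sq_le ?_
    have h2 : ‖z1 i‖ ^ 2 = r ^ 2 * ‖z i‖ ^ 2 := by
      rw [hz1, Pi.smul_apply, norm_smul, hνn]; ring
    rw [h2]
    have h3 := hC.2 i
    have h4 : r ^ 2 * ‖z i‖ ^ 2 ≤ r ^ 2 * (C * (- D.q D.t0 z)) := by gcongr
    refine h4.trans (le_of_eq ?_)
    rw [abs_of_neg ha]
    calc r ^ 2 * (C * (- D.q D.t0 z)) = C * (r ^ 2 * (- D.q D.t0 z)) := by ring
      _ = _ := by rw [hr2]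

end Crest.Agent.R272.BallDefs_916
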