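import Crest.Agent.R272.Ball1_916
import Crest.Agent.R272.BallDefs_916

/-! Row 272 (helper916): the lattice `O^ι`, its systole in the metric of `z`, cocompactness of `O`. -/

set_option autoImplicit false
set_option linter.unusedSectionVars false

namespace Crest.Agent.R272.Ball2_916

open Matrix Finset Module
open scoped ComplexConjugate
open Crest.Agent.R272.BallDefs_916 Crest.Agent.R272.Ball1_916

variable {T : Type} [Fintype T]

/-! ### the order -/

theorem ne_zero_of_mem (A : OrdT T) {x : T → ℂ} (hx : x ∈ A.O) (h0 : x ≠ 0) (t : T) : x t ≠ 0 := by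
  intro h
  have h1 := A.norm x hx h0
  rw [Finset.prod_eq_zero (Finset.mem_univ t) (by rw [h, norm_zero])] at h1
  linarith

theorem exists_one_le (A : OrdT T) [Nonempty T] {x : T → ℂ} (hx : x ∈ A.O) (h0 : x ≠ 0) :
    ∃ t, 1 ≤ ‖x t‖ := by
  by_contra h
  push Not at h
  obtain ⟨t⟩ := ‹Nonempty T›
  have h1 := A.norm x hx h0
  have h2 : ∏ t, ‖x t‖ < 1 := by
    classical
    rw [← Finset.mul_prod_erase _ _ (Finset.mem_univ t)]
    have h3 : ∏ s ∈ Finset.univ.erase t, ‖x s‖ ≤ 1 :=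
      Finset.prod_le_one (fun s _ => norm_nonneg _) fun s _ => (h s).le
    have h4 : 0 ≤ ∏ s ∈ Finset.univ.erase t, ‖x s‖ := Finset.prod_nonneg fun s _ => norm_nonneg _
    nlinarith [h t, norm_nonneg (x t)]
  linarith

/-- the order as a `ℤ`-lattice -/
def OL (A : OrdT T) : Submodule ℤ (T → ℂ) := AddSubgroup.toIntSubmodule A.O.toAddSubgroup

theorem mem_OL (A : OrdT T) {x : T → ℂ} : x ∈ OL A ↔ x ∈ A.O := Iff.rfl

instance OL_discrete (A : OrdT T) [Nonempty T] : DiscreteTopology (OL A) := by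
  refine DiscreteTopology.of_forall_le_dist (r := 1) one_pos ?_
  intro x y hxy
  have h1 : (x : T → ℂ) - (y : T → ℂ) ∈ A.O := A.O.sub_mem x.2 y.2
  have h2 : (x : T → ℂ) - (y : T → ℂ) ≠ 0 := by
    intro h
    exact hxy (Subtype.ext (sub_eq_zero.1 h))
  obtain ⟨t, ht⟩ := exists_one_le A h1 h2
  rw [Subtype.dist_eq, dist_eq_norm]
  exact ht.trans (norm_le_pi_norm ((x : T → ℂ) - (y : T → ℂ)) t)

instance OL_lattice (A : OrdT T) [Nonempty T] : IsZLattice ℝ (OL A) where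
  span_top := A.span

/-- `O` is cocompact. -/
theorem exists_approx (A : OrdT T) [Nonempty T] :
    ∃ R : ℝ, 0 ≤ R ∧ ∀ y : T → ℂ, ∃ x ∈ A.O, ∀ t, ‖y t - x t‖ ≤ R := by
  classical
  let b := Module.Free.chooseBasis ℤ (OL A)
  let b' := b.ofZLatticeBasis ℝ
  refine ⟨∑ i, ‖b' i‖, by positivity, fun y => ⟨ZSpan.floor b' y, ?_, ?_⟩⟩
  · have h1 : ((ZSpan.floor b' y : Submodule.span ℤ (Set.range b')) : T → ℂ) ∈
        Submodule.span ℤ (Set.range b') := (ZSpan.floor b' y).2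
    have h2 : Submodule.span ℤ (Set.range b') = OL A := b.ofZLatticeBasis_span ℝ
    exact h2.le h1
  · intro t
    have h1 : ‖ZSpan.fract b' y‖ ≤ ∑ i, ‖b' i‖ := ZSpan.norm_fract_le b' y
    have h2 : ZSpan.fract b' y = y - ZSpan.floor b' y := rfl
    rw [h2] at h1
    exact (norm_le_pi_norm _ t).trans h1

/-- bounded elements of `O` are finitely many -/
theorem finite_bdd (A : OrdT T) (R : ℝ) : {x : A.O | ∀ t, ‖(x : T → ℂ) t‖ ≤ R}.Finite := by
  refine Set.Finite.of_finite_image (f := fun x : A.O => (x : T → ℂ)) ?_ Subtype.val_injective.injOn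
  refine (A.disc R).subset ?_
  rintro _ ⟨x, hx, rfl⟩
  exact ⟨x.2, hx⟩

theorem finite_bdd_mat (A : OrdT T) {ι : Type} [Fintype ι] (R : ℝ) :
    {M : Matrix ι ι A.O | ∀ i j t, ‖(M i j : T → ℂ) t‖ ≤ R}.Finite := by
  have h := Set.Finite.pi' (ι := ι) (κ := fun _ => ι → A.O)
    (t := fun _ => {f : ι → A.O | ∀ j, f j ∈ {x : A.O | ∀ t, ‖(x : T → ℂ) t‖ ≤ R}})
    (fun _ => Set.Finite.pi' (fun _ => finite_bdd A R))
  exact h

/-! ### the lattice -/

variable {ι : Type} [Fintype ι] [DecidableEq ι]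

/-- the lattice `O^ι` -/
def Lam (A : OrdT T) (ι : Type) : Submodule ℤ (ι → T → ℂ) where
  carrier := {v | ∀ i, v i ∈ A.O}
  add_mem' := fun hv hw i => A.O.add_mem (hv i) (hw i)
  zero_mem' := fun _ => A.O.zero_mem
  smul_mem' := fun n v hv i => by
    have : (n • v) i = n • v i := rfl
    rw [this]
    exact A.O.toAddSubgroup.zsmul_mem (hv i) n

theorem mem_Lam (A : OrdT T) {v : ι → T → ℂ} : v ∈ Lam A ι ↔ ∀ i, v i ∈ A.O := Iff.rfl

instance Lam_discrete (A : OrdT T) [Nonempty T] : DiscreteTopology (Lam A ι) := by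
  refine DiscreteTopology.of_forall_le_dist (r := 1) one_pos ?_
  intro x y hxy
  obtain ⟨i, hi⟩ : ∃ i, (x : ι → T → ℂ) i ≠ (y : ι → T → ℂ) i := by
    by_contra h
    push Not at h
    exact hxy (Subtype.ext (funext h))
  have h1 : (x : ι → T → ℂ) i - (y : ι → T → ℂ) i ∈ A.O := A.O.sub_mem (x.2 i) (y.2 i)
  obtain ⟨t, ht⟩ := exists_one_le A h1 (sub_ne_zero.2 hi)
  rw [Subtype.dist_eq, dist_eq_norm]
  refine ht.trans ((norm_le_pi_norm _ t).trans ?_)
  exact norm_le_pi_norm ((x : ι → T → ℂ) - (y : ι → T → ℂ)) i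

instance Lam_lattice (A : OrdT T) [Nonempty T] : IsZLattice ℝ (Lam A ι) where
  span_top := by
    rw [eq_top_iff]
    intro v _
    have h1 : v = ∑ i, Pi.single i (v i) := (Finset.univ_sum_single v).symm
    rw [h1]
    refine Submodule.sum_mem _ fun i _ => ?_
    have h2 : v i ∈ Submodule.span ℝ (A.O : Set (T → ℂ)) := by rw [A.span]; trivial
    have h3 : LinearMap.single ℝ (fun _ : ι => T → ℂ) i (v i) ∈
        Submodule.map (LinearMap.single ℝ (fun _ : ι => T → ℂ) i)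
          (Submodule.span ℝ (A.O : Set (T → ℂ))) := ⟨_, h2, rfl⟩
    rw [Submodule.map_span] at h3
    refine Submodule.span_mono ?_ h3
    rintro _ ⟨x, hx, rfl⟩
    intro j
    by_cases hj : j = i
    · subst hj; simpa using hx
    · have : LinearMap.single ℝ (fun _ : ι => T → ℂ) i x j = 0 := by
        simp [Pi.single_eq_of_ne hj]
      rw [this]
      exact A.O.zero_mem

/-! ### the moving frame -/

variable (D : AD T ι)

/-- component of a vector at a place -/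
def at' (v : ι → T → ℂ) (t : T) : ι → ℂ := fun i => v i t

open Classical in
/-- the reflection in `u` at the place `t0`, identity elsewhere -/
noncomputable def Phi0 (u : ι → ℂ) (v : ι → T → ℂ) : ι → T → ℂ := fun i t =>
  if t = D.t0 then refl D D.t0 u (at' v D.t0) i else v i t

theorem Phi0_t0 (u : ι → ℂ) (v : ι → T → ℂ) :
    at' (Phi0 D u v) D.t0 = refl D D.t0 u (at' v D.t0) := by
  funext i
  simp [at', Phi0]

theorem Phi0_ne (u : ι → ℂ) (v : ι → T → ℂ) {t : T} (ht : t ≠ D.t0) :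
    at' (Phi0 D u v) t = at' v t := by
  funext i
  simp [at', Phi0, ht]

theorem at_inj {v w : ι → T → ℂ} (h : ∀ t, at' v t = at' w t) : v = w := by
  funext i t
  exact congrFun (h t) i

theorem Phi0_Phi0 {u : ι → ℂ} (hu : D.q D.t0 u ≠ 0) (v : ι → T → ℂ) :
    Phi0 D u (Phi0 D u v) = v := by
  refine at_inj fun t => ?_
  by_cases ht : t = D.t0
  · subst ht
    rw [Phi0_t0, Phi0_t0, refl_refl D hu]
  · rw [Phi0_ne D u _ ht, Phi0_ne D u _ ht]

/-- the real linear automorphism of `ι → T → ℂ` given by the reflection at `t0` -/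
noncomputable def Phi (u : ι → ℂ) (hu : D.q D.t0 u ≠ 0) : (ι → T → ℂ) ≃ₗ[ℝ] (ι → T → ℂ) where
  toFun := Phi0 D u
  invFun := Phi0 D u
  left_inv := Phi0_Phi0 D hu
  right_inv := Phi0_Phi0 D hu
  map_add' v w := by
    refine at_inj fun t => ?_
    by_cases ht : t = D.t0
    · subst ht
      have h1 : at' (v + w) D.t0 = at' v D.t0 + at' w D.t0 := rfl
      have h2 : at' (Phi0 D u v + Phi0 D u w) D.t0 =
        at' (Phi0 D u v) D.t0 + at' (Phi0 D u w) D.t0 := rfl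
      rw [Phi0_t0, h1, h2, Phi0_t0, Phi0_t0]
      exact (reflL D D.t0 u hu).map_add _ _
    · have h2 : at' (Phi0 D u v + Phi0 D u w) t =
        at' (Phi0 D u v) t + at' (Phi0 D u w) t := rfl
      rw [Phi0_ne D u _ ht, h2, Phi0_ne D u _ ht, Phi0_ne D u _ ht]
      rfl
  map_smul' c v := by
    refine at_inj fun t => ?_
    simp only [RingHom.id_apply]
    by_cases ht : t = D.t0
    · subst ht
      have h1 : at' (c • v) D.t0 = (c : ℂ) • at' v D.t0 := by
        funext i; simp [at']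
      have h2 : at' (c • Phi0 D u v) D.t0 = (c : ℂ) • at' (Phi0 D u v) D.t0 := by
        funext i; simp [at']
      rw [Phi0_t0, h1, h2, Phi0_t0]
      exact (reflL D D.t0 u hu).map_smul _ _
    · have h2 : at' (c • Phi0 D u v) t = c • at' (Phi0 D u v) t := rfl
      rw [Phi0_ne D u _ ht, h2, Phi0_ne D u _ ht]
      rfl

theorem Phi_apply (u : ι → ℂ) (hu : D.q D.t0 u ≠ 0) (v : ι → T → ℂ) :
    Phi D u hu v = Phi0 D u v := rfl

theorem Phi_det (u : ι → ℂ) (hu : D.q D.t0 u ≠ 0) :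
    |LinearMap.det (Phi D u hu : (ι → T → ℂ) →ₗ[ℝ] (ι → T → ℂ))| = 1 := by
  have h1 : (Phi D u hu : (ι → T → ℂ) →ₗ[ℝ] (ι → T → ℂ)) ∘ₗ
      (Phi D u hu : (ι → T → ℂ) →ₗ[ℝ] (ι → T → ℂ)) = LinearMap.id := by
    refine LinearMap.ext fun v => ?_
    exact Phi0_Phi0 D hu v
  have h2 := congrArg LinearMap.det h1
  rw [LinearMap.det_comp, LinearMap.det_id] at h2
  have h3 : |LinearMap.det (Phi D u hu : (ι → T → ℂ) →ₗ[ℝ] (ι → T → ℂ))| ^ 2 = 1 := by
    rw [sq_abs, sq, h2]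
  nlinarith [abs_nonneg (LinearMap.det (Phi D u hu : (ι → T → ℂ) →ₗ[ℝ] (ι → T → ℂ)))]

/-! ### Gram entries -/

/-- the `O`-valued form -/
def hO (v w : ι → D.O) : D.O :=
  ∑ i, (⟨fun t => (D.a i t : ℂ), D.a_mem i⟩ : D.O) *
    (v i * ⟨star ((w i : D.O) : T → ℂ), D.star_mem _ (w i).2⟩)

theorem hO_apply (v w : ι → D.O) (t : T) :
    ((hO D v w : D.O) : T → ℂ) t =
      D.h t (fun i => ((v i : D.O) : T → ℂ) t) (fun i => ((w i : D.O) : T → ℂ) t) := by
  unfold hO AD.h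
  rw [← AD.ev_apply, map_sum]
  refine Finset.sum_congr rfl fun i _ => ?_
  rw [map_mul, map_mul]
  rfl

/-- total weight -/
noncomputable def wt : ℝ := 1 + ∑ t, ∑ i, |D.a i t|

theorem wt_one_le : 1 ≤ wt D := by
  unfold wt
  have : 0 ≤ ∑ t, ∑ i, |D.a i t| := by positivity
  linarith

theorem wt_place (t : T) : ∑ i, |D.a i t| ≤ wt D := by
  unfold wt
  have h1 : ∑ i, |D.a i t| ≤ ∑ t, ∑ i, |D.a i t| :=
    Finset.single_le_sum (f := fun t => ∑ i, |D.a i t|) (fun s _ => by positivity)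
      (Finset.mem_univ t)
  linarith

theorem abs_h_le (t : T) {v w : ι → ℂ} {R : ℝ} (hR : 0 ≤ R) (hv : ∀ i, ‖v i‖ ≤ R)
    (hw : ∀ i, ‖w i‖ ≤ R) : ‖D.h t v w‖ ≤ wt D * R ^ 2 := by
  unfold AD.h
  refine (norm_sum_le _ _).trans ?_
  have h1 : ∀ i ∈ Finset.univ, ‖(D.a i t : ℂ) * (v i * conj (w i))‖ ≤ |D.a i t| * R ^ 2 := by
    intro i _
    rw [norm_mul, norm_mul, Complex.norm_real, Real.norm_eq_abs, RCLike.norm_conj, sq]
    gcongr
    · exact hv i
    · exact hw i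
  refine (Finset.sum_le_sum h1).trans ?_
  rw [← Finset.sum_mul]
  gcongr
  exact wt_place D t

theorem Nbound (t : T) {v : ι → ℂ} {R : ℝ} (hv : ∀ i, ‖v i‖ ≤ R) :
    D.N t v ≤ wt D * R ^ 2 := by
  unfold AD.N
  have h1 : ∀ i ∈ Finset.univ, |D.a i t| * ‖v i‖ ^ 2 ≤ |D.a i t| * R ^ 2 := by
    intro i _
    gcongr
    exact hv i
  refine (Finset.sum_le_sum h1).trans ?_
  rw [← Finset.sum_mul]
  gcongr
  exact wt_place D t


/-- the isometry property: at every place the form is preserved by `Phi0` -/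
theorem h_Phi {u : ι → ℂ} (hu : D.q D.t0 u ≠ 0) (t : T) (v w : ι → T → ℂ) :
    D.h t (at' (Phi0 D u v) t) (at' (Phi0 D u w) t) = D.h t (at' v t) (at' w t) := by
  by_cases ht : t = D.t0
  · subst ht
    rw [Phi0_t0, Phi0_t0, refl_isom D hu]
  · rw [Phi0_ne D u _ ht, Phi0_ne D u _ ht]

/-- **systole** -/
theorem systole {u : ι → ℂ} (hu : D.q D.t0 u ≠ 0) {v : ι → T → ℂ} (hv : v ∈ Lam D.toOrdT ι)
    (h0 : v ≠ 0) : (wt D)⁻¹ ≤ ‖Phi D u hu v‖ := by
  have : Nonempty T := ⟨D.t0⟩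
  have hv' : ∀ i, v i ∈ D.O := hv
  let vO : ι → D.O := fun i => ⟨v i, hv' i⟩
  have hne : ((hO D vO vO : D.O) : T → ℂ) ≠ 0 := by
    intro h
    obtain ⟨i, hi⟩ : ∃ i, v i ≠ 0 := by
      by_contra h'
      push Not at h'
      exact h0 (funext h')
    have h1 : v i D.t1 ≠ 0 := ne_zero_of_mem D.toOrdT (hv' i) hi D.t1
    have h2 := congrFun h D.t1
    rw [hO_apply, h_self, Pi.zero_apply] at h2
    have h3 : D.q D.t1 (fun i => ((vO i : D.O) : T → ℂ) D.t1) = 0 := by exact_mod_cast h2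
    have h4 : 0 < D.q D.t1 (fun i => ((vO i : D.O) : T → ℂ) D.t1) := by
      unfold AD.q
      refine Finset.sum_pos' (fun j _ => ?_) ⟨i, Finset.mem_univ i, ?_⟩
      · have := D.pos D.t1 D.ht j
        positivity
      · have := D.pos D.t1 D.ht i
        have h5 : 0 < ‖v i D.t1‖ := norm_pos_iff.2 h1
        show 0 < D.a i D.t1 * ‖v i D.t1‖ ^ 2
        positivity
    linarith
  obtain ⟨t, ht⟩ := exists_one_le D.toOrdT (hO D vO vO).2 hne
  rw [hO_apply] at ht
  have ht' : 1 ≤ ‖D.h t (at' v t) (at' v t)‖ := ht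
  rw [← h_Phi D hu] at ht'
  rw [h_self, Complex.norm_real, Real.norm_eq_abs] at ht'
  have h1 : D.N t (at' (Phi0 D u v) t) ≤ wt D * ‖Phi D u hu v‖ ^ 2 := by
    refine Nbound D t fun i => ?_
    exact (norm_le_pi_norm (Phi0 D u v i) t).trans (norm_le_pi_norm (Phi0 D u v) i)
  have h2 : 1 ≤ wt D * ‖Phi D u hu v‖ ^ 2 := (ht'.trans (abs_q_le D t _)).trans h1
  have hw := wt_one_le D
  by_contra hlt
  push Not at hlt
  have h3 : ‖Phi D u hu v‖ ^ 2 < ((wt D)⁻¹) ^ 2 := by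
    have := norm_nonneg (Phi D u hu v)
    gcongr
  have h4 : wt D * ‖Phi D u hu v‖ ^ 2 < wt D * ((wt D)⁻¹) ^ 2 := by
    gcongr
  have h5 : wt D * ((wt D)⁻¹) ^ 2 = (wt D)⁻¹ := by
    field_simp
  have h6 : (wt D)⁻¹ ≤ 1 := inv_le_one_of_one_le₀ hw
  linarith

end Crest.Agent.R272.Ball2_916
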