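import Crest.Agent.R272.Ball2_916

/-! Row 272 (helper916): **compactness**: every negative vector is `SU(h;O)`-equivalent to a bounded
one. -/

set_option autoImplicit false
set_option linter.unusedSectionVars false

namespace Crest.Agent.R272.Ball3_916

open Matrix Finset Module
open scoped ComplexConjugate
open Crest.Agent.R272.BallDefs_916 Crest.Agent.R272.Ball1_916 Crest.Agent.R272.Ball2_916

variable {T : Type} [Fintype T] {ι : Type} [Fintype ι] [DecidableEq ι] (D : AD T ι)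

/-- the matrix at a place -/
def gm (g : Matrix ι ι D.O) (t : T) : Matrix ι ι ℂ := g.map (D.ev t)

theorem gm_apply (g : Matrix ι ι D.O) (t : T) (i j : ι) : gm D g t i j = (g i j : T → ℂ) t := rfl

theorem gm_mul (g g' : Matrix ι ι D.O) (t : T) : gm D (g * g') t = gm D g t * gm D g' t :=
  Matrix.map_mul

theorem gm_one (t : T) : gm D 1 t = 1 := by
  unfold gm
  exact Matrix.map_one _ (map_zero _) (map_one _)

theorem gm_det (g : Matrix ι ι D.O) (t : T) : (gm D g t).det = D.ev t g.det :=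
  (RingHom.map_det (D.ev t) g).symm

/-- unitary matrices over `O` -/
def Uni (g : Matrix ι ι D.O) : Prop :=
  ∀ t v w, D.h t (gm D g t *ᵥ v) (gm D g t *ᵥ w) = D.h t v w

/-- column of a matrix over `O` -/
def col (W : Matrix ι ι D.O) (i : ι) : ι → D.O := fun j => W j i

/-- Gram matrix of the columns -/
def gram (W : Matrix ι ι D.O) : Matrix ι ι D.O := Matrix.of fun i j => hO D (col D W i) (col D W j)

theorem gm_col (W : Matrix ι ι D.O) (t : T) (i : ι) :
    gm D W t *ᵥ Pi.single i 1 = fun j => ((col D W i j : D.O) : T → ℂ) t := by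
  funext j
  simp [gm, col, AD.ev_apply]

theorem gram_apply (W : Matrix ι ι D.O) (i j : ι) (t : T) :
    ((gram D W i j : D.O) : T → ℂ) t =
      D.h t (gm D W t *ᵥ Pi.single i 1) (gm D W t *ᵥ Pi.single j 1) := by
  rw [gm_col, gm_col]
  exact hO_apply D _ _ t

theorem h_sum_left (t : T) (c : ι → ℂ) (f : ι → ι → ℂ) (w : ι → ℂ) :
    D.h t (∑ i, c i • f i) w = ∑ i, c i * D.h t (f i) w := by
  have : ∀ s : Finset ι, D.h t (∑ i ∈ s, c i • f i) w = ∑ i ∈ s, c i * D.h t (f i) w := by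
    intro s
    induction s using Finset.induction_on with
    | empty => simp [AD.h]
    | insert a s ha ih => rw [Finset.sum_insert ha, Finset.sum_insert ha, h_add_left, h_smul_left, ih]
  exact this _

theorem h_sum_right (t : T) (c : ι → ℂ) (f : ι → ι → ℂ) (w : ι → ℂ) :
    D.h t w (∑ i, c i • f i) = ∑ i, conj (c i) * D.h t w (f i) := by
  rw [← h_conj, h_sum_left, map_sum]
  refine Finset.sum_congr rfl fun i _ => ?_
  rw [map_mul, h_conj]

theorem vec_eq (c : ι → ℂ) : c = ∑ i, c i • (Pi.single i (1 : ℂ) : ι → ℂ) := by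
  conv_lhs => rw [← Finset.univ_sum_single c]
  refine Finset.sum_congr rfl fun i _ => ?_
  rw [← Pi.single_smul, smul_eq_mul, mul_one]

theorem mulVec_eq (M : Matrix ι ι ℂ) (c : ι → ℂ) :
    M *ᵥ c = ∑ i, c i • (M *ᵥ (Pi.single i (1 : ℂ) : ι → ℂ)) := by
  conv_lhs => rw [vec_eq c]
  rw [Matrix.mulVec_sum]
  refine Finset.sum_congr rfl fun i _ => ?_
  rw [Matrix.mulVec_smul]

/-- the form in terms of the Gram matrix -/
theorem h_gram (W : Matrix ι ι D.O) (t : T) (v w : ι → ℂ) :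
    D.h t (gm D W t *ᵥ v) (gm D W t *ᵥ w) =
      ∑ i, ∑ j, v i * conj (w j) * ((gram D W i j : D.O) : T → ℂ) t := by
  rw [mulVec_eq (gm D W t) v, mulVec_eq (gm D W t) w, h_sum_left]
  refine Finset.sum_congr rfl fun i _ => ?_
  rw [h_sum_right, Finset.mul_sum]
  refine Finset.sum_congr rfl fun j _ => ?_
  rw [gram_apply]; ring

/-- two frames with the same Gram matrix and `W' = g W`, `det W ≠ 0` at all places: `g` unitary -/
theorem uni_of_gram {W W' g : Matrix ι ι D.O} (hW : W.det ≠ 0) (hG : gram D W = gram D W')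
    (hg : g * W = W') : Uni D g := by
  intro t v w
  have hd : (gm D W t).det ≠ 0 := by
    rw [gm_det]
    have h1 : ((W.det : D.O) : T → ℂ) ≠ 0 := by
      intro h; exact hW (Subtype.ext h)
    exact ne_zero_of_mem D.toOrdT W.det.2 h1 t
  have hu : IsUnit (gm D W t).det := isUnit_iff_ne_zero.2 hd
  have hinv : gm D W t * (gm D W t)⁻¹ = 1 := Matrix.mul_nonsing_inv _ hu
  have hv : ∀ v : ι → ℂ, v = gm D W t *ᵥ ((gm D W t)⁻¹ *ᵥ v) := by
    intro v
    rw [Matrix.mulVec_mulVec, hinv, Matrix.one_mulVec]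
  have hgv : ∀ v : ι → ℂ, gm D g t *ᵥ v = gm D W' t *ᵥ ((gm D W t)⁻¹ *ᵥ v) := by
    intro v
    conv_lhs => rw [hv v]
    rw [Matrix.mulVec_mulVec, ← gm_mul, hg]
  rw [hgv v, hgv w, h_gram, ← hG, ← h_gram, ← hv v, ← hv w]

/-! ### frames of bounded vectors -/

/-- a spanning set of `ι → ℂ` contains a basis -/
theorem exists_frame {S : Set (ι → ℂ)} (hS : Submodule.span ℂ S = ⊤) :
    ∃ w : ι → (ι → ℂ), (∀ i, w i ∈ S) ∧ LinearIndependent ℂ w := by
  obtain ⟨b, hbS, hb, hli⟩ := exists_linearIndependent ℂ S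
  rw [hS] at hb
  have hbas : Basis b ℂ (ι → ℂ) := Basis.mk hli (by rw [Subtype.range_coe]; exact hb.ge)
  have hfin : Fintype b := FiniteDimensional.fintypeBasisIndex hbas
  have hcard : Fintype.card b = Fintype.card ι := by
    rw [← Module.finrank_eq_card_basis hbas, Module.finrank_fintype_fun_eq_card]
  let e : ι ≃ b := (Fintype.equivOfCardEq hcard).symm
  refine ⟨fun i => (e i : ι → ℂ), fun i => hbS (e i).2, ?_⟩
  exact hli.comp e e.injective

/-- **bounded frame** -/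
theorem bounded_frame : ∃ R : ℝ, 0 ≤ R ∧ ∀ (u : ι → ℂ) (hu : D.q D.t0 u ≠ 0),
    ∃ W : Matrix ι ι D.O, W.det ≠ 0 ∧
      ∀ i, ‖Phi D u hu (fun j => ((W j i : D.O) : T → ℂ))‖ ≤ R := by
  have : Nonempty T := ⟨D.t0⟩
  have hw := wt_one_le D
  obtain ⟨R, hR⟩ := short_span (Lam D.toOrdT ι) (κ := (wt D)⁻¹) (by positivity)
  refine ⟨max R 0, le_max_right _ _, fun u hu => ?_⟩
  have h1 := hR (Phi D u hu) (Phi_det D u hu) (fun x hx hx0 => systole D hu hx hx0)
  -- go to the place t0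
  set S : Set (ι → ℂ) := {w | ∃ v : ι → T → ℂ, v ∈ Lam D.toOrdT ι ∧ ‖Phi D u hu v‖ ≤ R ∧
    w = at' v D.t0} with hS
  have h2 : Submodule.span ℂ S = ⊤ := by
    rw [eq_top_iff]
    intro y _
    -- lift y
    classical
    let Y : ι → T → ℂ := fun i t => if t = D.t0 then y i else 0
    have hY : Phi D u hu Y ∈ (⊤ : Submodule ℝ (ι → T → ℂ)) := trivial
    rw [← h1] at hY
    have key : ∀ x ∈ Submodule.span ℝ (Phi D u hu '' {x | x ∈ Lam D.toOrdT ι ∧ ‖Phi D u hu x‖ ≤ R}),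
        at' ((Phi D u hu).symm x) D.t0 ∈ Submodule.span ℂ S := by
      intro x hx
      induction hx using Submodule.span_induction with
      | mem x hx =>
        obtain ⟨v, ⟨hv1, hv2⟩, rfl⟩ := hx
        rw [LinearEquiv.symm_apply_apply]
        exact Submodule.subset_span ⟨v, hv1, hv2, rfl⟩
      | zero =>
        rw [map_zero]
        exact Submodule.zero_mem _
      | add x y _ _ hx hy =>
        rw [map_add]
        exact Submodule.add_mem _ hx hy
      | smul c x _ hx =>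
        rw [map_smul]
        have : at' (c • (Phi D u hu).symm x) D.t0 = (c : ℂ) • at' ((Phi D u hu).symm x) D.t0 := by
          funext i; simp [at']
        rw [this]
        exact Submodule.smul_mem _ _ hx
    have h3 := key _ hY
    rw [LinearEquiv.symm_apply_apply] at h3
    have h4 : at' Y D.t0 = y := by
      funext i; simp [at', Y]
    rwa [h4] at h3
  obtain ⟨w, hwS, hli⟩ := exists_frame h2
  choose v hv1 hv2 hv3 using hwS
  have hmem : ∀ i j, v i j ∈ D.O := fun i j => hv1 i j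
  let W : Matrix ι ι D.O := Matrix.of fun j i => (⟨v i j, hmem i j⟩ : D.O)
  refine ⟨W, ?_, ?_⟩
  · intro h
    have h5 : (gm D W D.t0).det = 0 := by
      rw [gm_det, h, map_zero]
    have h6 : LinearIndependent ℂ (fun i => (gm D W D.t0)ᵀ i) := by
      have : (fun i => (gm D W D.t0)ᵀ i) = w := by
        funext i j
        rw [hv3 i]
        rfl
      rw [this]; exact hli
    have h7 : IsUnit (gm D W D.t0)ᵀ := Matrix.linearIndependent_rows_iff_isUnit.1 h6
    rw [Matrix.isUnit_iff_isUnit_det, Matrix.det_transpose, h5] at h7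
    exact not_isUnit_zero h7
  · intro i
    exact (hv2 i).trans (le_max_left _ _)

/-- control of `y` by its products with a frame -/
theorem control (W : Matrix ι ι D.O) (hW : W.det ≠ 0) (B : ℝ) (hB : 0 ≤ B) :
    ∃ C : ℝ, ∀ y : ι → ℂ, D.Neg y →
      (∀ i, ‖D.h D.t0 (gm D W D.t0 *ᵥ Pi.single i 1) y‖ ^ 2 ≤ B * (- D.q D.t0 y)) →
      ∀ j, ‖y j‖ ^ 2 ≤ C * (- D.q D.t0 y) := by
  have hd : (gm D W D.t0).det ≠ 0 := by
    rw [gm_det]
    have h1 : ((W.det : D.O) : T → ℂ) ≠ 0 := by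
      intro h; exact hW (Subtype.ext h)
    exact ne_zero_of_mem D.toOrdT W.det.2 h1 D.t0
  set M : Matrix ι ι ℂ := gm D W D.t0 with hM
  have hinv : M * M⁻¹ = 1 := Matrix.mul_nonsing_inv _ (isUnit_iff_ne_zero.2 hd)
  -- the constant
  set A : ι → ℝ := fun j => (∑ i, ‖M⁻¹ i j‖) / |D.a j D.t0| with hA
  refine ⟨(∑ j, (A j) ^ 2) * B, fun y hy hyb j => ?_⟩
  have hq : 0 < - D.q D.t0 y := by unfold AD.Neg at hy; linarith
  -- a_j conj y_j = h(e_j, y) = ∑ i, Minv i j * h(M e_i, y)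
  have h1 : (D.a j D.t0 : ℂ) * conj (y j) = ∑ i, M⁻¹ i j * D.h D.t0 (M *ᵥ Pi.single i 1) y := by
    have h2 : (Pi.single j (1 : ℂ) : ι → ℂ) = M *ᵥ (M⁻¹ *ᵥ Pi.single j 1) := by
      rw [Matrix.mulVec_mulVec, hinv, Matrix.one_mulVec]
    have h3 : D.h D.t0 (Pi.single j (1 : ℂ) : ι → ℂ) y = (D.a j D.t0 : ℂ) * conj (y j) := by
      unfold AD.h
      rw [Finset.sum_eq_single j]
      · simp
      · intro i _ hi
        simp [Pi.single_eq_of_ne hi]
      · simp
    rw [← h3]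
    conv_lhs => rw [h2]
    rw [mulVec_eq M, h_sum_left]
    refine Finset.sum_congr rfl fun i _ => ?_
    congr 1
    simp
  have hs : ∀ i, ‖D.h D.t0 (M *ᵥ Pi.single i 1) y‖ ≤ Real.sqrt (B * (- D.q D.t0 y)) := by
    intro i
    exact Real.le_sqrt_of_sq_le (hyb i)
  have h4 : |D.a j D.t0| * ‖y j‖ ≤ (∑ i, ‖M⁻¹ i j‖) * Real.sqrt (B * (- D.q D.t0 y)) := by
    have h5 : ‖(D.a j D.t0 : ℂ) * conj (y j)‖ = |D.a j D.t0| * ‖y j‖ := by
      rw [norm_mul, Complex.norm_real, Real.norm_eq_abs, RCLike.norm_conj]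
    rw [← h5, h1, Finset.sum_mul]
    refine (norm_sum_le _ _).trans (Finset.sum_le_sum fun i _ => ?_)
    rw [norm_mul]
    gcongr
    exact hs i
  have haj : 0 < |D.a j D.t0| := abs_pos.2 (a_ne D D.t0 j)
  have h6 : ‖y j‖ ≤ A j * Real.sqrt (B * (- D.q D.t0 y)) := by
    rw [hA]
    simp only
    rw [div_mul_eq_mul_div, le_div_iff₀ haj]
    linarith
  have hA0 : 0 ≤ A j := by rw [hA]; positivity
  have h7 : ‖y j‖ ^ 2 ≤ (A j) ^ 2 * (B * (- D.q D.t0 y)) := by
    calc ‖y j‖ ^ 2 ≤ (A j * Real.sqrt (B * (- D.q D.t0 y))) ^ 2 := by gcongr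
      _ = (A j) ^ 2 * (B * (- D.q D.t0 y)) := by
        rw [mul_pow, Real.sq_sqrt (by positivity)]
  have h8 : (A j) ^ 2 ≤ ∑ j, (A j) ^ 2 :=
    Finset.single_le_sum (f := fun j => (A j) ^ 2) (fun i _ => by positivity) (Finset.mem_univ j)
  calc ‖y j‖ ^ 2 ≤ (A j) ^ 2 * (B * (- D.q D.t0 y)) := h7
    _ ≤ (∑ j, (A j) ^ 2) * (B * (- D.q D.t0 y)) := by gcongr
    _ = _ := by ring

end Crest.Agent.R272.Ball3_916
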