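import Crest.Agent.R272.Ball3_916

/-! Row 272 (helper916): **compactness theorem (B1)**. -/

set_option autoImplicit false
set_option linter.unusedSectionVars false

namespace Crest.Agent.R272.Ball4_916

open Matrix Finset Module
open scoped ComplexConjugate
open Crest.Agent.R272.BallDefs_916 Crest.Agent.R272.Ball1_916 Crest.Agent.R272.Ball2_916
open Crest.Agent.R272.Ball3_916

variable {T : Type} [Fintype T] {ι : Type} [Fintype ι] [DecidableEq ι] (D : AD T ι)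

theorem q_refl {t : T} {u : ι → ℂ} (hu : D.q t u ≠ 0) (v : ι → ℂ) :
    D.q t (refl D t u v) = D.q t v := by
  have h1 : ((D.q t (refl D t u v) : ℝ) : ℂ) = ((D.q t v : ℝ) : ℂ) := by
    rw [← h_self, refl_isom D hu, h_self]
  exact_mod_cast h1

/-- `|h(v,z)|^2 ≤ (-q z) |a_o| |(J v)_o|^2` where `J z = μ eo` -/
theorem h_z_eq {u z : ι → ℂ} (hu : D.q D.t0 u ≠ 0) {μ : ℂ} (hz : refl D D.t0 u z = μ • eo D)
    (v : ι → ℂ) : ‖D.h D.t0 v z‖ ^ 2 =
      (- D.q D.t0 z) * (|D.a D.o D.t0| * ‖refl D D.t0 u v D.o‖ ^ 2) := by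
  have h1 : D.h D.t0 v z = conj μ * ((D.a D.o D.t0 : ℂ) * refl D D.t0 u v D.o) := by
    rw [← refl_isom D hu, hz, h_smul_right, h_eo]
  have h2 : D.q D.t0 z = ‖μ‖ ^ 2 * D.a D.o D.t0 := by
    rw [← q_refl D hu, hz, q_smul, q_eo]
  have h3 : |D.a D.o D.t0| = - D.a D.o D.t0 := abs_of_neg D.neg
  rw [h1, h2, norm_mul, norm_mul, RCLike.norm_conj, Complex.norm_real, Real.norm_eq_abs, h3]
  ring

/-- everything we need about a frame adapted to `z` -/
theorem frame_of_z : ∃ B : ℝ, 0 ≤ B ∧ ∀ z : ι → ℂ, D.Neg z → ∃ W : Matrix ι ι D.O, W.det ≠ 0 ∧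
    (∀ i j t, ‖((Ball3_916.gram D W i j : D.O) : T → ℂ) t‖ ≤ B) ∧
    (∀ t, ‖((W.det : D.O) : T → ℂ) t‖ ≤ B) ∧
    (∀ i, ‖D.h D.t0 (gm D W D.t0 *ᵥ Pi.single i 1) z‖ ^ 2 ≤ B * (- D.q D.t0 z)) := by
  obtain ⟨R, hR0, hR⟩ := bounded_frame D
  have hw := wt_one_le D
  set B1 : ℝ := wt D * R ^ 2 with hB1
  set B2 : ℝ := (Nat.factorial (Fintype.card ι) : ℝ) * R ^ Fintype.card ι with hB2
  have hB1' : 0 ≤ B1 := by positivity
  have hB2' : 0 ≤ B2 := by positivity
  refine ⟨B1 + B2, by positivity, fun z hz => ?_⟩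
  obtain ⟨u, hu1, ⟨μ, hμ⟩, -⟩ := exists_u D hz
  have hu : D.q D.t0 u ≠ 0 := (lt_of_le_of_lt hu1 D.neg).ne
  obtain ⟨W, hWd, hW⟩ := hR u hu
  set c : ι → (ι → T → ℂ) := fun i => (fun j => ((W j i : D.O) : T → ℂ)) with hc
  have hcol : ∀ i t, gm D W t *ᵥ Pi.single i 1 = at' (c i) t := by
    intro i t
    rw [gm_col]
    rfl
  have hent : ∀ i t j, ‖at' (Phi0 D u (c i)) t j‖ ≤ R := by
    intro i t j
    have h1 := hW i
    rw [Phi_apply] at h1
    exact ((norm_le_pi_norm (Phi0 D u (c i) j) t).trans (norm_le_pi_norm (Phi0 D u (c i)) j)).trans h1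
  refine ⟨W, hWd, ?_, ?_, ?_⟩
  · intro i j t
    rw [Ball3_916.gram_apply, hcol, hcol, ← h_Phi D hu]
    refine (abs_h_le D t hR0 (hent i t) (hent j t)).trans ?_
    linarith
  · intro t
    have hdet : ‖(gm D W t).det‖ ≤ B2 := by
      set M : Matrix ι ι ℂ := Matrix.of fun j i => at' (Phi0 D u (c i)) t j with hM
      have hMb : ‖M.det‖ ≤ B2 := by
        have h1 := Matrix.det_le (A := M) (abv := NormedField.toAbsoluteValue ℂ) (x := R)
          (fun j i => hent i t j)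
        rw [nsmul_eq_mul] at h1
        exact h1
      by_cases ht : t = D.t0
      · subst ht
        set J : Matrix ι ι ℂ := LinearMap.toMatrix' (reflL D D.t0 u hu : (ι → ℂ) →ₗ[ℂ] (ι → ℂ)) with hJ
        have hJM : J * gm D W D.t0 = M := by
          ext j i
          have h2 : (J * gm D W D.t0) *ᵥ Pi.single i 1 = M *ᵥ Pi.single i 1 := by
            rw [← Matrix.mulVec_mulVec, hcol, hJ, LinearMap.toMatrix'_mulVec]
            have h3 : M *ᵥ Pi.single i 1 = at' (Phi0 D u (c i)) D.t0 := by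
              funext j
              simp [hM]
            rw [h3, Phi0_t0]
            rfl
          have h4 := congrFun h2 j
          simpa using h4
        have hJJ : J * J = 1 := by
          rw [hJ, ← LinearMap.toMatrix'_comp]
          have : (reflL D D.t0 u hu : (ι → ℂ) →ₗ[ℂ] (ι → ℂ)) ∘ₗ
              (reflL D D.t0 u hu : (ι → ℂ) →ₗ[ℂ] (ι → ℂ)) = LinearMap.id := by
            refine LinearMap.ext fun v => ?_
            exact refl_refl D hu v
          rw [this, LinearMap.toMatrix'_id]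
        have hJd : ‖J.det‖ = 1 := by
          have h5 := congrArg Matrix.det hJJ
          rw [Matrix.det_mul, Matrix.det_one] at h5
          have h6 : ‖J.det‖ ^ 2 = 1 := by rw [sq, ← norm_mul, h5, norm_one]
          nlinarith [norm_nonneg J.det]
        have h7 : ‖M.det‖ = ‖(gm D W D.t0).det‖ := by
          rw [← hJM, Matrix.det_mul, norm_mul, hJd, one_mul]
        rw [← h7]; exact hMb
      · have : M = gm D W t := by
          ext j i
          rw [hM]
          simp only [Matrix.of_apply]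
          rw [Phi0_ne D u _ ht]
          rfl
        rw [← this]; exact hMb
    rw [gm_det] at hdet
    have h8 : ‖((W.det : D.O) : T → ℂ) t‖ ≤ B2 := hdet
    linarith
  · intro i
    rw [hcol, h_z_eq D hu hμ]
    have hq : 0 < - D.q D.t0 z := by unfold AD.Neg at hz; linarith
    have h1 : |D.a D.o D.t0| * ‖refl D D.t0 u (at' (c i) D.t0) D.o‖ ^ 2 ≤ B1 := by
      have h2 : |D.a D.o D.t0| ≤ wt D :=
        (Finset.single_le_sum (f := fun i => |D.a i D.t0|) (fun i _ => abs_nonneg _)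
          (Finset.mem_univ D.o)).trans (wt_place D D.t0)
      have h3 : ‖refl D D.t0 u (at' (c i) D.t0) D.o‖ ≤ R := by
        rw [← Phi0_t0]; exact hent i D.t0 D.o
      rw [hB1]
      gcongr
    have h4 : |D.a D.o D.t0| * ‖refl D D.t0 u (at' (c i) D.t0) D.o‖ ^ 2 ≤ B1 + B2 := by linarith
    calc (- D.q D.t0 z) * (|D.a D.o D.t0| * ‖refl D D.t0 u (at' (c i) D.t0) D.o‖ ^ 2)
        ≤ (- D.q D.t0 z) * (B1 + B2) := by gcongr
      _ = _ := by ring

/-- **(B1) Compactness.** Every negative vector is `SU(h;O)`-equivalent to a `C`-bounded one. -/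
theorem compactness : ∃ C : ℝ, ∀ z : ι → ℂ, D.Neg z → ∃ g : Matrix ι ι D.O,
    g.det = 1 ∧ Uni D g ∧ D.Bdd C (gm D g D.t0 *ᵥ z) := by
  classical
  have : Nonempty T := ⟨D.t0⟩
  obtain ⟨B, hB0, hB⟩ := frame_of_z D
  obtain ⟨R0, hR00, hR0⟩ := exists_approx D.toOrdT
  -- the finite set of classes
  set 𝒮 : Set ((Matrix ι ι D.O) × D.O × (Matrix ι ι D.O)) :=
    {M : Matrix ι ι D.O | ∀ i j t, ‖((M i j : D.O) : T → ℂ) t‖ ≤ B} ×ˢ
      ({x : D.O | ∀ t, ‖(x : T → ℂ) t‖ ≤ B} ×ˢ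
        {M : Matrix ι ι D.O | ∀ i j t, ‖((M i j : D.O) : T → ℂ) t‖ ≤ R0 * B}) with h𝒮
  have hfin : 𝒮.Finite :=
    (finite_bdd_mat D.toOrdT B).prod ((finite_bdd D.toOrdT B).prod (finite_bdd_mat D.toOrdT (R0 * B)))
  -- representatives and constants
  have hrep : ∀ s : (Matrix ι ι D.O) × D.O × (Matrix ι ι D.O), ∃ C : ℝ,
      ∀ W Q : Matrix ι ι D.O, W.det ≠ 0 → Ball3_916.gram D W = s.1 → W.det = s.2.1 →
        W - W.det • Q = s.2.2 → ∀ z : ι → ℂ, D.Neg z →
        (∀ i, ‖D.h D.t0 (gm D W D.t0 *ᵥ Pi.single i 1) z‖ ^ 2 ≤ B * (- D.q D.t0 z)) →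
        ∃ g : Matrix ι ι D.O, g.det = 1 ∧ Uni D g ∧ D.Bdd C (gm D g D.t0 *ᵥ z) := by
    intro s
    by_cases hs : ∃ W Q : Matrix ι ι D.O, W.det ≠ 0 ∧ Ball3_916.gram D W = s.1 ∧ W.det = s.2.1 ∧
        W - W.det • Q = s.2.2
    swap
    · exact ⟨0, fun W Q h1 h2 h3 h4 => absurd ⟨W, Q, h1, h2, h3, h4⟩ hs⟩
    obtain ⟨W', Q', h1', h2', h3', h4'⟩ := hs
    obtain ⟨C, hC⟩ := control D W' h1' B hB0
    refine ⟨C, fun W Q h1 h2 h3 h4 z hz hzb => ?_⟩
    set g : Matrix ι ι D.O := 1 + (Q' - Q) * W.adjugate with hg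
    have hδ : W.det = W'.det := h3.trans h3'.symm
    have hgW : g * W = W' := by
      rw [hg, add_mul, one_mul, Matrix.mul_assoc, Matrix.adjugate_mul, Matrix.mul_smul,
        Matrix.mul_one]
      have h5 : W - W.det • Q = W' - W.det • Q' := by rw [h4, ← h4', hδ]
      rw [smul_sub]
      have h6 : W' = W - W.det • Q + W.det • Q' := by rw [h5]; abel
      rw [h6]; abel
    have hdet : g.det = 1 := by
      have h5 := congrArg Matrix.det hgW
      rw [Matrix.det_mul, ← hδ] at h5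
      have h6 : (g.det - 1) * W.det = 0 := by rw [sub_mul, h5, one_mul, sub_self]
      have h7 : ((W.det : D.O) : T → ℂ) ≠ 0 := by
        intro h; exact h1 (Subtype.ext h)
      have h8 : g.det - 1 = 0 := by
        apply Subtype.ext
        funext t
        have h9 : ((W.det : D.O) : T → ℂ) t ≠ 0 := ne_zero_of_mem D.toOrdT W.det.2 h7 t
        have h10 := congrFun (congrArg (fun x : D.O => (x : T → ℂ)) h6) t
        have h11 : (((g.det - 1 : D.O) : T → ℂ) t) * (((W.det : D.O) : T → ℂ) t) = 0 := h10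
        rcases mul_eq_zero.1 h11 with h | h
        · exact h
        · exact absurd h h9
      exact sub_eq_zero.1 h8
    have huni : Uni D g := uni_of_gram D h1 (h2.trans h2'.symm) hgW
    refine ⟨g, hdet, huni, ?_⟩
    have hq : D.q D.t0 (gm D g D.t0 *ᵥ z) = D.q D.t0 z := by
      have h5 : ((D.q D.t0 (gm D g D.t0 *ᵥ z) : ℝ) : ℂ) = ((D.q D.t0 z : ℝ) : ℂ) := by
        rw [← h_self, huni, h_self]
      exact_mod_cast h5
    have hneg : D.Neg (gm D g D.t0 *ᵥ z) := by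
      unfold AD.Neg
      rw [hq]; exact hz
    refine ⟨hneg, hC _ hneg fun i => ?_⟩
    have h5 : gm D W' D.t0 *ᵥ Pi.single i 1 = gm D g D.t0 *ᵥ (gm D W D.t0 *ᵥ Pi.single i 1) := by
      rw [Matrix.mulVec_mulVec, ← gm_mul, hgW]
    rw [h5, huni, hq]
    exact hzb i
  choose Cf hCf using hrep
  refine ⟨∑ s ∈ hfin.toFinset, |Cf s|, fun z hz => ?_⟩
  obtain ⟨W, hW1, hW2, hW3, hW4⟩ := hB z hz
  -- approximate W / det
  have hdne : ∀ t, ((W.det : D.O) : T → ℂ) t ≠ 0 := by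
    intro t
    have h7 : ((W.det : D.O) : T → ℂ) ≠ 0 := by
      intro h; exact hW1 (Subtype.ext h)
    exact ne_zero_of_mem D.toOrdT W.det.2 h7 t
  have happ : ∀ i j, ∃ x : D.O, ∀ t,
      ‖((W i j : D.O) : T → ℂ) t / ((W.det : D.O) : T → ℂ) t - (x : T → ℂ) t‖ ≤ R0 := by
    intro i j
    obtain ⟨x, hx, hxb⟩ := hR0 (fun t => ((W i j : D.O) : T → ℂ) t / ((W.det : D.O) : T → ℂ) t)
    exact ⟨⟨x, hx⟩, hxb⟩
  choose Qf hQf using happ
  let Q : Matrix ι ι D.O := Matrix.of Qf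
  set s : (Matrix ι ι D.O) × D.O × (Matrix ι ι D.O) := (Ball3_916.gram D W, W.det, W - W.det • Q) with hs
  have hmem : s ∈ 𝒮 := by
    refine ⟨fun i j t => hW2 i j t, fun t => hW3 t, fun i j t => ?_⟩
    have h1 : (((W - W.det • Q) i j : D.O) : T → ℂ) t =
        ((W.det : D.O) : T → ℂ) t * (((W i j : D.O) : T → ℂ) t / ((W.det : D.O) : T → ℂ) t -
          ((Qf i j : D.O) : T → ℂ) t) := by
      have h2 : (((W - W.det • Q) i j : D.O) : T → ℂ) t =
        ((W i j : D.O) : T → ℂ) t - ((W.det : D.O) : T → ℂ) t * ((Qf i j : D.O) : T → ℂ) t := rfl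
      rw [h2]
      have := hdne t
      field_simp
    show ‖(((W - W.det • Q) i j : D.O) : T → ℂ) t‖ ≤ R0 * B
    rw [h1, norm_mul, mul_comm]
    gcongr
    · exact hQf i j t
    · exact hW3 t
  obtain ⟨g, hg1, hg2, hg3⟩ := hCf s W Q hW1 rfl rfl rfl z hz hW4
  refine ⟨g, hg1, hg2, hg3.1, fun i => (hg3.2 i).trans ?_⟩
  have h5 : |Cf s| ≤ ∑ s ∈ hfin.toFinset, |Cf s| :=
    Finset.single_le_sum (f := fun s => |Cf s|) (fun s _ => abs_nonneg _)
      (hfin.mem_toFinset.2 hmem)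
  have h6 : 0 < - D.q D.t0 (gm D g D.t0 *ᵥ z) := by
    have := hg3.1
    unfold AD.Neg at this
    linarith
  have h7 : Cf s ≤ |Cf s| := le_abs_self _
  gcongr
  exact h7.trans h5

end Crest.Agent.R272.Ball4_916
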