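import Crest.Agent.R272.Ball4_916

/-! Row 272 (helper916): **compactness for principal congruence subgroups** of `SU(h;O)`. -/

set_option autoImplicit false
set_option linter.unusedSectionVars false

namespace Crest.Agent.R272.Ball5_916

open Matrix Finset Module
open scoped ComplexConjugate
open Crest.Agent.R272.BallDefs_916 Crest.Agent.R272.Ball1_916 Crest.Agent.R272.Ball2_916
open Crest.Agent.R272.Ball3_916 Crest.Agent.R272.Ball4_916

variable {T : Type} [Fintype T] {ι : Type} [Fintype ι] [DecidableEq ι] (D : AD T ι)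

theorem uni_q {g : Matrix ι ι D.O} (hg : Uni D g) (t : T) (v : ι → ℂ) :
    D.q t (gm D g t *ᵥ v) = D.q t v := by
  have h5 : ((D.q t (gm D g t *ᵥ v) : ℝ) : ℂ) = ((D.q t v : ℝ) : ℂ) := by
    rw [← h_self, hg, h_self]
  exact_mod_cast h5

theorem uni_mul {g g' : Matrix ι ι D.O} (hg : Uni D g) (hg' : Uni D g') : Uni D (g * g') := by
  intro t v w
  rw [gm_mul, ← Matrix.mulVec_mulVec, ← Matrix.mulVec_mulVec, hg, hg']

theorem uni_inv {g g' : Matrix ι ι D.O} (hg : Uni D g) (h : g * g' = 1) : Uni D g' := by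
  intro t v w
  have h1 : ∀ v : ι → ℂ, gm D g t *ᵥ (gm D g' t *ᵥ v) = v := by
    intro v
    rw [Matrix.mulVec_mulVec, ← gm_mul, h, gm_one, Matrix.one_mulVec]
  rw [← hg t (gm D g' t *ᵥ v) (gm D g' t *ᵥ w), h1, h1]

theorem uni_one : Uni D 1 := by
  intro t v w
  rw [gm_one, Matrix.one_mulVec, Matrix.one_mulVec]

/-- a unitary matrix moves bounded vectors to bounded vectors -/
theorem bdd_move {g : Matrix ι ι D.O} (hg : Uni D g) (C : ℝ) :
    ∃ C' : ℝ, ∀ z, D.Bdd C z → D.Bdd C' (gm D g D.t0 *ᵥ z) := by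
  set A : ℝ := ∑ i, ∑ j, ‖gm D g D.t0 i j‖ with hA
  refine ⟨A ^ 2 * |C|, fun z hz => ⟨?_, fun i => ?_⟩⟩
  · unfold AD.Neg
    rw [uni_q D hg]; exact hz.1
  · rw [uni_q D hg]
    have hq : 0 < - D.q D.t0 z := by
      have := hz.1
      unfold AD.Neg at this
      linarith
    have h1 : ∀ j, ‖z j‖ ≤ Real.sqrt (|C| * (- D.q D.t0 z)) := by
      intro j
      refine Real.le_sqrt_of_sq_le ((hz.2 j).trans ?_)
      gcongr
      exact le_abs_self C
    have h2 : ‖(gm D g D.t0 *ᵥ z) i‖ ≤ A * Real.sqrt (|C| * (- D.q D.t0 z)) := by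
      have h3 : (gm D g D.t0 *ᵥ z) i = ∑ j, gm D g D.t0 i j * z j := rfl
      rw [h3]
      refine (norm_sum_le _ _).trans ?_
      have h4 : ∀ j ∈ Finset.univ, ‖gm D g D.t0 i j * z j‖ ≤
          ‖gm D g D.t0 i j‖ * Real.sqrt (|C| * (- D.q D.t0 z)) := by
        intro j _
        rw [norm_mul]
        gcongr
        exact h1 j
      refine (Finset.sum_le_sum h4).trans ?_
      rw [← Finset.sum_mul]
      gcongr
      rw [hA]
      exact Finset.single_le_sum (f := fun i => ∑ j, ‖gm D g D.t0 i j‖) (fun i _ => by positivity)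
        (Finset.mem_univ i)
    have hA0 : 0 ≤ A := by rw [hA]; positivity
    calc ‖(gm D g D.t0 *ᵥ z) i‖ ^ 2 ≤ (A * Real.sqrt (|C| * (- D.q D.t0 z))) ^ 2 := by gcongr
      _ = A ^ 2 * |C| * (- D.q D.t0 z) := by
        rw [mul_pow, Real.sq_sqrt (by positivity)]; ring

/-- bounded residues modulo `μ` -/
theorem exists_residue (μ : D.O) (hμ : μ ≠ 0) : ∃ B : ℝ, ∀ x : D.O, ∃ u : D.O,
    ∀ t, ‖(((x - μ * u : D.O)) : T → ℂ) t‖ ≤ B := by
  have : Nonempty T := ⟨D.t0⟩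
  obtain ⟨R0, hR00, hR0⟩ := exists_approx D.toOrdT
  refine ⟨R0 * ∑ t, ‖(μ : T → ℂ) t‖, fun x => ?_⟩
  have hμ' : ((μ : D.O) : T → ℂ) ≠ 0 := by
    intro h; exact hμ (Subtype.ext h)
  obtain ⟨u, hu, hub⟩ := hR0 (fun t => (x : T → ℂ) t / (μ : T → ℂ) t)
  refine ⟨⟨u, hu⟩, fun t => ?_⟩
  have hμt : (μ : T → ℂ) t ≠ 0 := ne_zero_of_mem D.toOrdT μ.2 hμ' t
  have h1 : (((x - μ * ⟨u, hu⟩ : D.O)) : T → ℂ) t =
      (μ : T → ℂ) t * ((x : T → ℂ) t / (μ : T → ℂ) t - u t) := by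
    have h2 : (((x - μ * ⟨u, hu⟩ : D.O)) : T → ℂ) t = (x : T → ℂ) t - (μ : T → ℂ) t * u t := rfl
    rw [h2]
    field_simp
  rw [h1, norm_mul, mul_comm]
  have h3 : ‖(μ : T → ℂ) t‖ ≤ ∑ t, ‖(μ : T → ℂ) t‖ :=
    Finset.single_le_sum (f := fun t => ‖(μ : T → ℂ) t‖) (fun t _ => norm_nonneg _)
      (Finset.mem_univ t)
  gcongr
  exact hub t

/-- **Compactness for the principal congruence subgroup of level `μ`.** -/
theorem compactness_cong (μ : D.O) (hμ : μ ≠ 0) : ∃ C : ℝ, ∀ z : ι → ℂ, D.Neg z →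
    ∃ g g' U : Matrix ι ι D.O, g * g' = 1 ∧ g' * g = 1 ∧ g.det = 1 ∧ Uni D g ∧ g = 1 + μ • U ∧
      D.Bdd C (gm D g D.t0 *ᵥ z) := by
  classical
  obtain ⟨C0, hC0⟩ := compactness D
  obtain ⟨B, hB⟩ := exists_residue D μ hμ
  choose uf huf using hB
  -- reduced matrix
  let red : Matrix ι ι D.O → Matrix ι ι D.O := fun g => Matrix.of fun i j => g i j - μ * uf (g i j)
  have hfin : {M : Matrix ι ι D.O | ∀ i j t, ‖((M i j : D.O) : T → ℂ) t‖ ≤ B}.Finite :=
    finite_bdd_mat D.toOrdT B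
  have hrep : ∀ f : Matrix ι ι D.O, ∃ C : ℝ, ∀ g : Matrix ι ι D.O, red g = f → g.det = 1 →
      Uni D g → ∀ z, D.Bdd C0 (gm D g D.t0 *ᵥ z) →
      ∃ g1 g1' U : Matrix ι ι D.O, g1 * g1' = 1 ∧ g1' * g1 = 1 ∧ g1.det = 1 ∧ Uni D g1 ∧
        g1 = 1 + μ • U ∧ D.Bdd C (gm D g1 D.t0 *ᵥ z) := by
    intro f
    by_cases hf : ∃ g : Matrix ι ι D.O, red g = f ∧ g.det = 1 ∧ Uni D g
    swap
    · exact ⟨0, fun g h1 h2 h3 => absurd ⟨g, h1, h2, h3⟩ hf⟩
    obtain ⟨gf, hf1, hf2, hf3⟩ := hf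
    have hmul : gf * gf.adjugate = 1 := by rw [Matrix.mul_adjugate, hf2, one_smul]
    have hmul' : gf.adjugate * gf = 1 := by rw [Matrix.adjugate_mul, hf2, one_smul]
    have huni' : Uni D gf.adjugate := uni_inv D hf3 hmul
    obtain ⟨C, hC⟩ := bdd_move D huni' C0
    refine ⟨C, fun g h1 h2 h3 z hz => ?_⟩
    have hg : g * g.adjugate = 1 := by rw [Matrix.mul_adjugate, h2, one_smul]
    have hg' : g.adjugate * g = 1 := by rw [Matrix.adjugate_mul, h2, one_smul]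
    let Q : Matrix ι ι D.O := Matrix.of fun i j => uf (g i j) - uf (gf i j)
    have hgQ : g = gf + μ • Q := by
      ext1 i j
      have h4 : red g i j = red gf i j := by rw [h1, hf1]
      have h5 : g i j - μ * uf (g i j) = gf i j - μ * uf (gf i j) := h4
      show g i j = gf i j + μ * (uf (g i j) - uf (gf i j))
      linear_combination h5
    refine ⟨gf.adjugate * g, g.adjugate * gf, gf.adjugate * Q, ?_, ?_, ?_, uni_mul D huni' h3, ?_, ?_⟩
    · rw [Matrix.mul_assoc, ← Matrix.mul_assoc g, hg, Matrix.one_mul, hmul']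
    · rw [Matrix.mul_assoc, ← Matrix.mul_assoc gf, hmul, Matrix.one_mul, hg']
    · rw [Matrix.det_mul, h2, mul_one]
      have := congrArg Matrix.det hmul
      rw [Matrix.det_mul, hf2, one_mul, Matrix.det_one] at this
      exact this
    · conv_lhs => rw [hgQ]
      rw [mul_add, hmul', Matrix.mul_smul]
    · rw [gm_mul, ← Matrix.mulVec_mulVec]
      exact hC _ hz
  choose Cf hCf using hrep
  refine ⟨∑ f ∈ hfin.toFinset, |Cf f|, fun z hz => ?_⟩
  obtain ⟨g, hg1, hg2, hg3⟩ := hC0 z hz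
  have hmem : red g ∈ {M : Matrix ι ι D.O | ∀ i j t, ‖((M i j : D.O) : T → ℂ) t‖ ≤ B} := by
    intro i j t
    exact huf (g i j) t
  obtain ⟨g1, g1', U, h1, h2, h3, h4, h5, h6⟩ := hCf (red g) g rfl hg1 hg2 z hg3
  refine ⟨g1, g1', U, h1, h2, h3, h4, h5, h6.1, fun i => (h6.2 i).trans ?_⟩
  have h7 : |Cf (red g)| ≤ ∑ f ∈ hfin.toFinset, |Cf f| :=
    Finset.single_le_sum (f := fun s => |Cf s|) (fun s _ => abs_nonneg _)
      (hfin.mem_toFinset.2 hmem)
  have h8 : 0 < - D.q D.t0 (gm D g1 D.t0 *ᵥ z) := by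
    have := h6.1
    unfold AD.Neg at this
    linarith
  have h9 : Cf (red g) ≤ |Cf (red g)| := le_abs_self _
  gcongr
  exact h9.trans h7

end Crest.Agent.R272.Ball5_916
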