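/-
helper833, row 272, division E, task EA3-SYMPQ: a lattice on which an alternating nondegenerate real
form is rational is commensurable with a self-dual one.  (For an alternating form a maximal integral
subgroup is self-dual: no symplectic basis is needed.)
-/
import Crest.Agent.R272.EBase_641

set_option autoImplicit false

open scoped ComplexConjugate

namespace Crest.Agent.R272.SympQ_833

section General

variable {W : Type*} [AddCommGroup W] [Module ℝ W]

/-- the form is integral on `L` -/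
def Integral (e : W →ₗ[ℝ] W →ₗ[ℝ] ℝ) (L : AddSubgroup W) : Prop :=
  ∀ x ∈ L, ∀ y ∈ L, ∃ k : ℤ, e x y = k

/-- a maximal integral subgroup is self-dual (alternating form) -/
theorem exists_max (e : W →ₗ[ℝ] W →ₗ[ℝ] ℝ) (alt : ∀ x, e x x = 0)
    (L1 : AddSubgroup W) (h1 : Integral e L1) :
    ∃ L0 : AddSubgroup W, L1 ≤ L0 ∧ Integral e L0 ∧
      ∀ x, (∀ y ∈ L0, ∃ k : ℤ, e x y = k) → x ∈ L0 := by
  have skew : ∀ x y, e x y = - e y x := by
    intro x y
    have h := alt (x + y)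
    simp only [map_add, LinearMap.add_apply, alt x, alt y] at h
    linarith
  obtain ⟨L0, hL0, hmax⟩ := zorn_le_nonempty₀ {L : AddSubgroup W | Integral e L} (by
    intro c hc hchain y hy
    refine ⟨sSup c, ?_, fun z hz => le_sSup hz⟩
    have hne : c.Nonempty := ⟨y, hy⟩
    intro x hx z hz
    rw [AddSubgroup.mem_sSup_of_directedOn hne hchain.directedOn] at hx hz
    obtain ⟨a, ha, hxa⟩ := hx
    obtain ⟨b, hb, hzb⟩ := hz
    rcases hchain.total ha hb with hab | hab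
    · exact hc hb x (hab hxa) z hzb
    · exact hc ha x hxa z (hab hzb)) L1 h1
  refine ⟨L0, hL0, hmax.prop, ?_⟩
  intro x hx
  have hint : Integral e (L0 ⊔ AddSubgroup.zmultiples x) := by
    intro u hu v hv
    obtain ⟨u0, hu0, u1, hu1, rfl⟩ := AddSubgroup.mem_sup.1 hu
    obtain ⟨v0, hv0, v1, hv1, rfl⟩ := AddSubgroup.mem_sup.1 hv
    obtain ⟨a, rfl⟩ := AddSubgroup.mem_zmultiples_iff.1 hu1
    obtain ⟨b, rfl⟩ := AddSubgroup.mem_zmultiples_iff.1 hv1
    obtain ⟨k1, hk1⟩ := hmax.prop u0 hu0 v0 hv0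
    obtain ⟨k2, hk2⟩ := hx v0 hv0
    obtain ⟨k3, hk3⟩ := hx u0 hu0
    refine ⟨k1 - b * k3 + a * k2, ?_⟩
    have e3 : e u0 x = -(k3 : ℝ) := by rw [skew, hk3]
    simp only [map_add, LinearMap.add_apply, map_zsmul, LinearMap.smul_apply, alt, smul_zero,
      add_zero, zsmul_eq_mul, hk1, hk2, e3]
    push_cast
    ring
  have hle : L0 ⊔ AddSubgroup.zmultiples x ≤ L0 := hmax.le_of_ge hint le_sup_left
  exact hle (AddSubgroup.mem_sup_right (AddSubgroup.mem_zmultiples x))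

/-- Cramer's rule over the integers -/
theorem cramer_int {ι : Type*} [Fintype ι] [DecidableEq ι] (G : Matrix ι ι ℤ) (x : ι → ℝ)
    (k : ι → ℤ) (h : Matrix.vecMul x (G.map (Int.cast : ℤ → ℝ)) = fun j => ((k j : ℤ) : ℝ)) (i : ι) :
    (G.det : ℝ) * x i = ((Matrix.vecMul k G.adjugate i : ℤ) : ℝ) := by
  have h1 : Matrix.vecMul (Matrix.vecMul x (G.map (Int.cast : ℤ → ℝ)))
      (G.adjugate.map (Int.cast : ℤ → ℝ)) = (G.det : ℝ) • x := by
    rw [Matrix.vecMul_vecMul]
    have h2 : G.map (Int.cast : ℤ → ℝ) * G.adjugate.map (Int.cast : ℤ → ℝ) =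
        (G.det : ℝ) • (1 : Matrix ι ι ℝ) := by
      have h3 := congrArg (fun M : Matrix ι ι ℤ => M.map (Int.castRingHom ℝ)) (Matrix.mul_adjugate G)
      simp only [Matrix.map_mul] at h3
      have h4 : (G.det • (1 : Matrix ι ι ℤ)).map (Int.castRingHom ℝ) =
          (G.det : ℝ) • (1 : Matrix ι ι ℝ) := by
        ext i j
        simp only [Matrix.map_apply, Matrix.smul_apply, smul_eq_mul, Matrix.one_apply]
        split_ifs <;> simp
      rw [h4] at h3
      exact h3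
    rw [h2, Matrix.vecMul_smul, Matrix.vecMul_one]
  have h5 := congrFun h1 i
  rw [h] at h5
  rw [Pi.smul_apply, smul_eq_mul] at h5
  rw [← h5]
  simp only [Matrix.vecMul, dotProduct, Matrix.map_apply]
  push_cast
  rfl

/-- uniform denominators of the dual group -/
theorem exists_denom [FiniteDimensional ℝ W] (e : W →ₗ[ℝ] W →ₗ[ℝ] ℝ)
    (nd : ∀ x, (∀ y, e x y = 0) → x = 0)
    (L : AddSubgroup W) (span : Submodule.span ℝ (L : Set W) = ⊤)
    (c : ℕ) (hc : 0 < c) (hL : ∀ x ∈ L, ∀ y ∈ L, ∃ k : ℤ, (c : ℝ) * e x y = k) :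
    ∃ n : ℕ, 0 < n ∧ ∀ x, (∀ y ∈ L, ∃ k : ℤ, (c : ℝ) * e x y = k) → n • x ∈ L := by
  classical
  let b := Module.Basis.ofSpan (K := ℝ) (s := (L : Set W)) (by rw [span])
  have hb : ∀ i, b i ∈ L := fun i => Module.Basis.ofSpan_subset (by rw [span]) ⟨i, rfl⟩
  have : Finite _ := Module.Finite.finite_basis b
  have := Fintype.ofFinite ((linearIndepOn_empty ℝ (id : W → W)).extend
      (Set.empty_subset (L : Set W)))
  choose g hg using fun i j => hL (b i) (hb i) (b j) (hb j)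
  let G : Matrix _ _ ℤ := Matrix.of g
  have hdet : G.det ≠ 0 := by
    intro h0
    have h0' : (G.map (Int.cast : ℤ → ℝ)).det = 0 := by
      have := Int.cast_det (R := ℝ) G
      rw [← this, h0]; simp
    obtain ⟨v, hv, hv0⟩ := Matrix.exists_vecMul_eq_zero_iff.2 h0'
    apply hv
    have hx : (∑ i, v i • b i) = 0 := by
      apply nd
      intro y
      have hc' : (c : ℝ) ≠ 0 := by positivity
      have key : ∀ j, e (∑ i, v i • b i) (b j) = 0 := by
        intro j
        have h1 := congrFun hv0 j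
        simp only [Matrix.vecMul, dotProduct, Matrix.map_apply, Pi.zero_apply] at h1
        have h2 : (c : ℝ) * e (∑ i, v i • b i) (b j) = ∑ i, v i * (G i j : ℝ) := by
          rw [map_sum, LinearMap.sum_apply, Finset.mul_sum]
          refine Finset.sum_congr rfl fun i _ => ?_
          rw [map_smul, LinearMap.smul_apply, smul_eq_mul]
          have := hg i j
          show _ = v i * ((g i j : ℤ) : ℝ)
          rw [← this]; ring
        rw [h1] at h2
        exact (mul_eq_zero.1 h2).resolve_left hc'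
      rw [← b.sum_repr y, map_sum]
      refine Finset.sum_eq_zero fun j _ => ?_
      rw [map_smul, key j, smul_zero]
    funext i
    have := Fintype.linearIndependent_iff.1 b.linearIndependent v hx i
    simpa using this
  refine ⟨G.det.natAbs, Int.natAbs_pos.2 hdet, ?_⟩
  intro x hx
  choose k hk using fun j => hx (b j) (hb j)
  -- coordinates
  have hcoord : ∀ j, (∑ i, b.repr x i * (G i j : ℝ)) = k j := by
    intro j
    rw [← hk j]
    conv_rhs => rw [← b.sum_repr x]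
    rw [map_sum, LinearMap.sum_apply, Finset.mul_sum]
    refine Finset.sum_congr rfl fun i _ => ?_
    rw [map_smul, LinearMap.smul_apply, smul_eq_mul]
    have := hg i j
    show _ * ((g i j : ℤ) : ℝ) = _
    rw [← this]; ring
  have hvec : Matrix.vecMul (fun i => b.repr x i) (G.map (Int.cast : ℤ → ℝ)) =
      fun j => ((k j : ℤ) : ℝ) := by
    funext j
    simp only [Matrix.vecMul, dotProduct, Matrix.map_apply]
    exact hcoord j
  have hadj : ∀ i, (G.det : ℝ) * b.repr x i = ((Matrix.vecMul k G.adjugate i : ℤ) : ℝ) :=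
    fun i => cramer_int G (fun i => b.repr x i) k hvec i
  -- conclusion
  have hmem : G.det • x ∈ L := by
    have h6 : G.det • x = ∑ i, (Matrix.vecMul k G.adjugate i) • b i := by
      conv_lhs => rw [← b.sum_repr x]
      rw [Finset.smul_sum]
      refine Finset.sum_congr rfl fun i _ => ?_
      rw [← Int.cast_smul_eq_zsmul ℝ, ← Int.cast_smul_eq_zsmul ℝ, smul_smul, hadj i]
    rw [h6]
    exact AddSubgroup.sum_mem _ fun i _ => AddSubgroup.zsmul_mem _ (hb i) _
  rcases Int.natAbs_eq G.det with h | h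
  · rw [← natCast_zsmul, ← h]; exact hmem
  · have : ((G.det.natAbs : ℤ)) • x = -(G.det • x) := by
      conv_rhs => rw [h]
      simp
    rw [← natCast_zsmul, this]
    exact AddSubgroup.neg_mem _ hmem

end General

section Normed

variable {W : Type*} [NormedAddCommGroup W] [NormedSpace ℝ W] [FiniteDimensional ℝ W]

/-- MAIN THEOREM: self-dual lattice commensurable with a rational one, with an explicit index `n`
and the stability of `L0` under all maps congruent to 1 modulo `n^2`. -/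
theorem exists_selfdual (e : W →ₗ[ℝ] W →ₗ[ℝ] ℝ) (alt : ∀ x, e x x = 0)
    (nd : ∀ x, (∀ y, e x y = 0) → x = 0)
    (L : AddSubgroup W) (disc : ∀ r : ℝ, {v : W | v ∈ L ∧ ‖v‖ ≤ r}.Finite)
    (span : Submodule.span ℝ (L : Set W) = ⊤)
    (c : ℕ) (hc : 0 < c) (hL : ∀ x ∈ L, ∀ y ∈ L, ∃ k : ℤ, (c : ℝ) * e x y = k) :
    ∃ (L0 : AddSubgroup W) (n : ℕ), 0 < n ∧ (∀ x ∈ L, n • x ∈ L0) ∧ (∀ x ∈ L0, n • x ∈ L) ∧
      (∀ r : ℝ, {v : W | v ∈ L0 ∧ ‖v‖ ≤ r}.Finite) ∧
      Submodule.span ℝ (L0 : Set W) = ⊤ ∧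
      (∀ v ∈ L0, ∀ w ∈ L0, ∃ k : ℤ, e v w = k) ∧
      (∀ v, (∀ w ∈ L0, ∃ k : ℤ, e v w = k) → v ∈ L0) ∧
      (∀ g : W →+ W, (∀ x ∈ L, ∃ y ∈ L, g x = x + (n ^ 2) • y) → ∀ x ∈ L0, g x ∈ L0) := by
  classical
  -- the integral sublattice c L
  let L1 : AddSubgroup W := L.map (nsmulAddMonoidHom c)
  have hL1 : ∀ x ∈ L, c • x ∈ L1 := fun x hx => AddSubgroup.mem_map.2 ⟨x, hx, rfl⟩
  have hint1 : Integral e L1 := by
    intro x hx y hy
    obtain ⟨x', hx', rfl⟩ := AddSubgroup.mem_map.1 hx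
    obtain ⟨y', hy', rfl⟩ := AddSubgroup.mem_map.1 hy
    obtain ⟨k, hk⟩ := hL x' hx' y' hy'
    refine ⟨c * k, ?_⟩
    simp only [nsmulAddMonoidHom_apply]
    rw [← Nat.cast_smul_eq_nsmul ℝ, ← Nat.cast_smul_eq_nsmul ℝ, map_smul, map_smul,
      LinearMap.smul_apply, smul_eq_mul, smul_eq_mul, Int.cast_mul, ← hk]
    push_cast
    ring
  obtain ⟨L0, hle, hint, hdual⟩ := exists_max e alt L1 hint1
  obtain ⟨d, hd, hden⟩ := exists_denom e nd L span c hc hL
  have hdL : ∀ x ∈ L0, d • x ∈ L := by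
    intro x hx
    apply hden
    intro y hy
    obtain ⟨k, hk⟩ := hint x hx (c • y) (hle (hL1 y hy))
    refine ⟨k, ?_⟩
    rw [← hk, ← Nat.cast_smul_eq_nsmul ℝ, map_smul, smul_eq_mul]
  have hn : 0 < c * d := Nat.mul_pos hc hd
  have hA : ∀ x ∈ L, (c * d) • x ∈ L0 := by
    intro x hx
    rw [mul_comm, mul_smul]
    exact AddSubgroup.nsmul_mem _ (hle (hL1 x hx)) _
  have hB : ∀ x ∈ L0, (c * d) • x ∈ L := by
    intro x hx
    rw [mul_smul]
    exact AddSubgroup.nsmul_mem _ (hdL x hx) _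
  have hinj : ∀ {n : ℕ}, 0 < n → Function.Injective (fun x : W => n • x) := by
    intro n hn x y hxy
    have hxy' : n • x = n • y := hxy
    rw [← Nat.cast_smul_eq_nsmul ℝ, ← Nat.cast_smul_eq_nsmul ℝ] at hxy'
    exact smul_right_injective W (by positivity : (n : ℝ) ≠ 0) hxy'
  refine ⟨L0, c * d, hn, hA, hB, ?_, ?_, hint, hdual, ?_⟩
  · intro r
    refine Set.Finite.of_finite_image (f := fun x : W => (c * d) • x)
      ((disc ((c * d : ℕ) * r)).subset ?_) ((hinj hn).injOn)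
    rintro _ ⟨x, ⟨hx, hxr⟩, rfl⟩
    refine ⟨hB x hx, ?_⟩
    show ‖(c * d) • x‖ ≤ _
    rw [← Nat.cast_smul_eq_nsmul ℝ, norm_smul]
    have : ‖((c * d : ℕ) : ℝ)‖ = ((c * d : ℕ) : ℝ) := by
      rw [Real.norm_of_nonneg (by positivity)]
    rw [this]
    gcongr
  · rw [eq_top_iff, ← span, Submodule.span_le]
    intro x hx
    have h1 : ((c * d : ℕ) : ℝ) • x ∈ Submodule.span ℝ (L0 : Set W) := by
      rw [Nat.cast_smul_eq_nsmul ℝ]
      exact Submodule.subset_span (hA x hx)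
    have h2 := Submodule.smul_mem _ (((c * d : ℕ) : ℝ)⁻¹) h1
    rwa [smul_smul, inv_mul_cancel₀ (by positivity), one_smul] at h2
  · intro g hg x hx
    obtain ⟨y, hy, hgy⟩ := hg _ (hB x hx)
    have h1 : g x = x + (c * d) • y := by
      apply hinj hn
      show (c * d) • g x = (c * d) • (x + (c * d) • y)
      rw [← map_nsmul, hgy, smul_add, smul_smul, sq]
    rw [h1]
    exact AddSubgroup.add_mem _ hx (hA y hy)

end Normed

/-! ### The form `ee` of `EBase_641` -/

section Ee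

open Crest.Agent.R272.EBase_641

variable {n m : ℕ}

theorem ee_add_left (u v w : V1 n × W m) : ee (u + v) w = ee u w + ee v w := by
  simp only [ee, Prod.fst_add, Prod.snd_add, hh_add_left, inner_add_right, Complex.add_im]
  ring

theorem ee_add_right (u v w : V1 n × W m) : ee u (v + w) = ee u v + ee u w := by
  simp only [ee, Prod.fst_add, Prod.snd_add, hh_add_right, inner_add_left, Complex.add_im]
  ring

theorem ee_smul_left (c : ℝ) (v w : V1 n × W m) : ee (c • v) w = c * ee v w := by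
  simp only [ee, Prod.smul_fst, Prod.smul_snd]
  rw [← Complex.coe_smul c v.1, ← Complex.coe_smul c v.2, hh_smul_left, inner_smul_right,
    Complex.im_ofReal_mul, Complex.im_ofReal_mul]
  ring

theorem ee_smul_right (c : ℝ) (v w : V1 n × W m) : ee v (c • w) = c * ee v w := by
  simp only [ee, Prod.smul_fst, Prod.smul_snd]
  rw [← Complex.coe_smul c w.1, ← Complex.coe_smul c w.2, hh_smul_right, inner_smul_left,
    Complex.conj_ofReal, Complex.im_ofReal_mul, Complex.im_ofReal_mul]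
  ring

/-- `ee` as a real bilinear map -/
noncomputable def eeL (n m : ℕ) : (V1 n × W m) →ₗ[ℝ] (V1 n × W m) →ₗ[ℝ] ℝ :=
  LinearMap.mk₂ ℝ ee ee_add_left (fun c v w => by rw [ee_smul_left, smul_eq_mul])
    ee_add_right (fun c v w => by rw [ee_smul_right, smul_eq_mul])

@[simp] theorem eeL_apply (v w : V1 n × W m) : eeL n m v w = ee v w := rfl

theorem ee_self (v : V1 n × W m) : ee v v = 0 := by
  simp only [ee]
  rw [hh_self, Complex.ofReal_im, zero_add]
  exact inner_self_im (𝕜 := ℂ) v.2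

/-- the dual vector for nondegeneracy -/
noncomputable def star (v : V1 n × W m) : V1 n × W m :=
  ((Complex.I • v.1.1, -(Complex.I * v.1.2)), Complex.I • v.2)

theorem ee_star (v : V1 n × W m) :
    ee v (star v) = -(‖v.1.1‖ ^ 2 + ‖v.1.2‖ ^ 2 + ‖v.2‖ ^ 2) := by
  have h1 : (inner ℂ (Complex.I • v.1.1) v.1.1 : ℂ) = -Complex.I * ((‖v.1.1‖ ^ 2 : ℝ) : ℂ) := by
    rw [inner_smul_left, Complex.conj_I, inner_self_eq_norm_sq_to_K]
    push_cast
    simp
  have h2 : (inner ℂ (Complex.I • v.2) v.2 : ℂ) = -Complex.I * ((‖v.2‖ ^ 2 : ℝ) : ℂ) := by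
    rw [inner_smul_left, Complex.conj_I, inner_self_eq_norm_sq_to_K]
    push_cast
    simp
  have h3 : v.1.2 * conj (-(Complex.I * v.1.2)) = Complex.I * ((‖v.1.2‖ ^ 2 : ℝ) : ℂ) := by
    rw [map_neg, map_mul, Complex.conj_I]
    have : v.1.2 * conj v.1.2 = ((‖v.1.2‖ ^ 2 : ℝ) : ℂ) := by
      rw [Complex.mul_conj, Complex.normSq_eq_norm_sq]
    calc v.1.2 * -(-Complex.I * conj v.1.2) = Complex.I * (v.1.2 * conj v.1.2) := by ring
      _ = _ := by rw [this]
  simp only [ee, star, hh]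
  rw [h1, h2, h3]
  simp only [Complex.sub_im, Complex.mul_im, Complex.neg_im, Complex.neg_re, Complex.I_im,
    Complex.I_re, Complex.ofReal_re, Complex.ofReal_im]
  ring

theorem ee_nondeg (v : V1 n × W m) (h : ∀ w, ee v w = 0) : v = 0 := by
  have h1 := h (star v)
  rw [ee_star] at h1
  have a1 : 0 ≤ ‖v.1.1‖ ^ 2 := by positivity
  have a2 : 0 ≤ ‖v.1.2‖ ^ 2 := by positivity
  have a3 : 0 ≤ ‖v.2‖ ^ 2 := by positivity
  have b1 : ‖v.1.1‖ ^ 2 = 0 := by linarith
  have b2 : ‖v.1.2‖ ^ 2 = 0 := by linarith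
  have b3 : ‖v.2‖ ^ 2 = 0 := by linarith
  have c1 : v.1.1 = 0 := by simpa using b1
  have c2 : v.1.2 = 0 := by simpa using b2
  have c3 : v.2 = 0 := by simpa using b3
  exact Prod.ext (Prod.ext c1 c2) c3

theorem ee_inv (g : UG n) (s : W m ≃ₗᵢ[ℂ] W m) (v w : V1 n × W m) :
    ee ((g.1 v.1, s v.2) : V1 n × W m) (g.1 w.1, s w.2) = ee v w := by
  simp only [ee]
  rw [UG_hh, LinearIsometryEquiv.inner_map_map]

theorem ee_skew (v w : V1 n × W m) : ee v w = - ee w v := by
  have h := ee_self (v + w)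
  rw [ee_add_left, ee_add_right, ee_add_right, ee_self, ee_self] at h
  linarith

/-- Literal form for `EDat`: a lattice of `V1 n × W m` on which `c • ee` is integral is
commensurable with a self-dual lattice `L0`, stable under every pair `(g, s)` congruent to `1`
modulo `N^2`. -/
theorem exists_selfdual_ee (L : AddSubgroup (V1 n × W m))
    (disc : ∀ r : ℝ, {v : V1 n × W m | v ∈ L ∧ ‖v‖ ≤ r}.Finite)
    (span : Submodule.span ℝ (L : Set (V1 n × W m)) = ⊤)
    (c : ℕ) (hc : 0 < c) (hL : ∀ x ∈ L, ∀ y ∈ L, ∃ k : ℤ, (c : ℝ) * ee x y = k) :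
    ∃ (L0 : AddSubgroup (V1 n × W m)) (N : ℕ), 0 < N ∧ (∀ x ∈ L, N • x ∈ L0) ∧
      (∀ x ∈ L0, N • x ∈ L) ∧
      (∀ r : ℝ, {v : V1 n × W m | v ∈ L0 ∧ ‖v‖ ≤ r}.Finite) ∧
      Submodule.span ℝ (L0 : Set (V1 n × W m)) = ⊤ ∧
      (∀ v ∈ L0, ∀ w ∈ L0, ∃ k : ℤ, ee v w = k) ∧
      (∀ v, (∀ w ∈ L0, ∃ k : ℤ, ee v w = k) → v ∈ L0) ∧
      (∀ (g : V1 n ≃ₗ[ℂ] V1 n) (s : W m ≃ₗᵢ[ℂ] W m),
        (∀ x ∈ L, ∃ y ∈ L, ((g x.1, s x.2) : V1 n × W m) = x + (N ^ 2) • y) →
        ∀ x ∈ L0, ((g x.1, s x.2) : V1 n × W m) ∈ L0) := by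
  obtain ⟨L0, N, hN, h1, h2, h3, h4, h5, h6, h7⟩ :=
    exists_selfdual (eeL n m) ee_self ee_nondeg L disc span c hc hL
  refine ⟨L0, N, hN, h1, h2, h3, h4, h5, h6, ?_⟩
  intro g s hg x hx
  exact h7 (AddMonoidHom.mk' (fun x : V1 n × W m => ((g x.1, s x.2) : V1 n × W m)) (by
    intro a b
    simp)) hg x hx

end Ee

end Crest.Agent.R272.SympQ_833
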