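import Crest.Agent.R272.Cls3_620
import Crest.Agent.R272.SympQ_833

/-!
Row 272, division E, arithmetic instance (I1) (helper68), part 1: the ring `ℤ[ζ₅]` in its two
places, the embedding `io : O^4 → V1 3 × W 4`, the form `ee`.
-/

set_option autoImplicit false
set_option linter.unusedSectionVars false

open scoped ComplexConjugate

namespace Crest.Agent.R272.In_68

open Crest.Agent.R272.EBase_641

noncomputable section

/-- `ℤ[ζ₅]` in its two complex places, with an integral basis. -/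
structure Z5r (O : Subring (Fin 2 → ℂ)) (z : Fin 2 → ℂ) : Prop extends Cls_620.Z5 O z where
  rep : ∀ x ∈ O, ∃ a b c d : ℤ, x = (a : Fin 2 → ℂ) + b * z + c * z ^ 2 + d * z ^ 3
  im0 : 0 < (z 0).im
  im1 : 0 < (z 1).im

variable {O : Subring (Fin 2 → ℂ)} {z : Fin 2 → ℂ}

section ring

variable (h : Z5r O z)
include h

lemma conj_z (t : Fin 2) : conj (z t) = z t ^ 4 := by
  have := congrFun h.sz t
  simpa using this

lemma z5t (t : Fin 2) : z t ^ 5 = 1 := by
  have := congrFun h.toZ5.z5 t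
  simpa using this

lemma im_pos (t : Fin 2) : 0 < (z t).im := by
  fin_cases t
  · exact h.im0
  · exact h.im1

/-- `z + z⁴` at the two places -/
lemma sum_ne : z 0 + z 0 ^ 4 ≠ z 1 + z 1 ^ 4 := by
  rw [h.at0, h.at1]
  intro he
  have := Complex.ofReal_injective he
  have h5 := Cls_620.sqrt5_bd
  linarith

lemma sum2_ne : z 0 ^ 2 + z 0 ^ 3 ≠ z 1 ^ 2 + z 1 ^ 3 := by
  rw [h.toZ5.at0', h.toZ5.at1']
  intro he
  have := Complex.ofReal_injective he
  have h5 := Cls_620.sqrt5_bd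
  linarith

end ring

variable (z) in
/-- `a ↦ a₀ + a₁ z + a₂ z² + a₃ z³` -/
def lam : (Fin 4 → ℝ) →ₗ[ℝ] (Fin 2 → ℂ) where
  toFun a := fun t => (a 0 : ℂ) + (a 1 : ℂ) * z t + (a 2 : ℂ) * z t ^ 2 + (a 3 : ℂ) * z t ^ 3
  map_add' a b := by
    funext t
    simp only [Pi.add_apply, Complex.ofReal_add]
    ring
  map_smul' c a := by
    funext t
    simp only [Pi.smul_apply, smul_eq_mul, Complex.ofReal_mul, RingHom.id_apply,
      Complex.real_smul]
    ring

lemma lam_apply (a : Fin 4 → ℝ) (t : Fin 2) :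
    lam z a t = (a 0 : ℂ) + (a 1 : ℂ) * z t + (a 2 : ℂ) * z t ^ 2 + (a 3 : ℂ) * z t ^ 3 := rfl

lemma lam_inj (h : Z5r O z) : Function.Injective (lam z) := by
  rw [injective_iff_map_eq_zero]
  intro a ha
  have e : ∀ t, (a 0 : ℂ) + (a 1 : ℂ) * z t + (a 2 : ℂ) * z t ^ 2 + (a 3 : ℂ) * z t ^ 3 = 0 :=
    fun t => congrFun ha t
  have e' : ∀ t, (a 0 : ℂ) + (a 1 : ℂ) * z t ^ 4 + (a 2 : ℂ) * z t ^ 3 + (a 3 : ℂ) * z t ^ 2 = 0 := by
    intro t
    have h1 := congrArg conj (e t)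
    simp only [map_add, map_mul, map_pow, Complex.conj_ofReal, map_zero, conj_z h] at h1
    have h5 := z5t h t
    have h8 : (z t ^ 4) ^ 2 = z t ^ 3 := by
      linear_combination z t ^ 3 * h5
    have h12 : (z t ^ 4) ^ 3 = z t ^ 2 := by
      linear_combination (z t ^ 7 + z t ^ 2) * h5
    rw [h8, h12] at h1
    exact h1
  have k : ∀ t, (a 1 : ℂ) + ((a 2 : ℂ) - a 3) * (z t + z t ^ 4) = 0 := by
    intro t
    have hne : z t - z t ^ 4 ≠ 0 := by
      rw [← conj_z h t]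
      intro h0
      have h1 : z t = conj (z t) := sub_eq_zero.1 h0
      have := Complex.conj_eq_iff_im.1 h1.symm
      exact (im_pos h t).ne' this
    have h5 := z5t h t
    have h6 : (z t - z t ^ 4) * ((a 1 : ℂ) + ((a 2 : ℂ) - a 3) * (z t + z t ^ 4)) = 0 := by
      linear_combination e t - e' t - ((a 2 : ℂ) - a 3) * z t ^ 3 * h5
    exact (mul_eq_zero.1 h6).resolve_left hne
  have h23 : (a 2 : ℂ) - a 3 = 0 := by
    have h1 : ((a 2 : ℂ) - a 3) * ((z 0 + z 0 ^ 4) - (z 1 + z 1 ^ 4)) = 0 := by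
      linear_combination k 0 - k 1
    exact (mul_eq_zero.1 h1).resolve_right (sub_ne_zero.2 (sum_ne h))
  have h1 : (a 1 : ℂ) = 0 := by
    have := k 0
    rw [h23, zero_mul, add_zero] at this
    exact this
  have h2 : (a 2 : ℂ) * ((z 0 ^ 2 + z 0 ^ 3) - (z 1 ^ 2 + z 1 ^ 3)) = 0 := by
    linear_combination e 0 - e 1 - (z 0 - z 1) * h1 + (z 0 ^ 3 - z 1 ^ 3) * h23
  have h2' : (a 2 : ℂ) = 0 := (mul_eq_zero.1 h2).resolve_right (sub_ne_zero.2 (sum2_ne h))
  have h3 : (a 3 : ℂ) = 0 := by rw [h2', zero_sub, neg_eq_zero] at h23; exact h23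
  have h0 : (a 0 : ℂ) = 0 := by
    have := e 0
    rw [h1, h2', h3] at this
    simpa using this
  funext i
  fin_cases i
  · exact_mod_cast h0
  · exact_mod_cast h1
  · exact_mod_cast h2'
  · exact_mod_cast h3

lemma finrank_A : Module.finrank ℝ (Fin 2 → ℂ) = 4 := by
  rw [Module.finrank_pi_fintype]
  simp [Complex.finrank_real_complex]

/-- the real basis `1, z, z², z³` -/
def lamE (h : Z5r O z) : (Fin 4 → ℝ) ≃ₗ[ℝ] (Fin 2 → ℂ) :=
  LinearMap.linearEquivOfInjective (lam z) (lam_inj h) (by rw [finrank_A]; simp)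

lemma lamE_apply (h : Z5r O z) (a : Fin 4 → ℝ) : lamE h a = lam z a := rfl

/-- integral coordinates -/
lemma mem_lam (h : Z5r O z) {x : Fin 2 → ℂ} (hx : x ∈ O) :
    ∃ a : Fin 4 → ℤ, x = lam z (fun i => (a i : ℝ)) := by
  obtain ⟨a, b, c, d, e⟩ := h.rep x hx
  refine ⟨![a, b, c, d], ?_⟩
  rw [e]
  funext t
  rw [lam_apply]
  simp

/-- powers of `z` are integral -/
lemma pow_mem (h : Z5r O z) (k : ℕ) : z ^ k ∈ O := O.pow_mem h.zmem k

/-- bounded integral elements are finite in number -/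
lemma finite_O (h : Z5r O z) (R : ℝ) : {x : Fin 2 → ℂ | x ∈ O ∧ ∀ t, ‖x t‖ ≤ R}.Finite := by
  let L := (lamE h).symm.toLinearMap.toContinuousLinearMap
  let K : ℤ := ⌈‖L‖ * |R|⌉
  have hfin : ((fun a : Fin 4 → ℤ => lam z (fun i => (a i : ℝ))) ''
      (Set.Icc (fun _ => -K) (fun _ => K))).Finite := (Set.finite_Icc _ _).image _
  refine hfin.subset ?_
  rintro x ⟨hx, hR⟩
  obtain ⟨a, ha⟩ := mem_lam h hx
  refine ⟨a, ?_, ha.symm⟩
  have h1 : L x = fun i => (a i : ℝ) := by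
    show (lamE h).symm x = _
    rw [ha, ← lamE_apply h, LinearEquiv.symm_apply_apply]
  have h2 : ‖x‖ ≤ |R| := by
    refine (pi_norm_le_iff_of_nonneg (abs_nonneg R)).2 fun t => (hR t).trans (le_abs_self _)
  have h3 : ‖L x‖ ≤ ‖L‖ * |R| := (L.le_opNorm x).trans (mul_le_mul_of_nonneg_left h2 (norm_nonneg _))
  have h4 : ∀ i, |(a i : ℝ)| ≤ K := by
    intro i
    have h5 := norm_le_pi_norm (L x) i
    rw [h1] at h5 h3
    have : |(a i : ℝ)| ≤ ‖L‖ * |R| := h5.trans h3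
    exact this.trans (Int.le_ceil _)
  constructor
  · intro i
    have := (abs_le.1 (h4 i)).1
    exact_mod_cast this
  · intro i
    have := (abs_le.1 (h4 i)).2
    exact_mod_cast this

/-- the trace is integral -/
lemma trace_int (h : Z5r O z) {x : Fin 2 → ℂ} (hx : x ∈ O) :
    ∃ k : ℤ, 2 * (x 0).re + 2 * (x 1).re = k := by
  obtain ⟨a, b, c, d, e⟩ := h.rep x hx
  refine ⟨4 * a - b - c - d, ?_⟩
  have h5 : ∀ t, x t + conj (x t) = 2 * a + b * (z t + z t ^ 4) + (c + d) * (z t ^ 2 + z t ^ 3) := by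
    intro t
    have e1 : x t = (a : ℂ) + b * z t + c * z t ^ 2 + d * z t ^ 3 := by rw [e]; simp
    have z5 := z5t h t
    rw [e1]
    simp only [map_add, map_mul, map_pow, map_intCast, conj_z h]
    linear_combination (c * z t ^ 3 + d * (z t ^ 7 + z t ^ 2)) * z5
  have h0 := h5 0
  have h1 := h5 1
  rw [Complex.add_conj, h.at0, h.toZ5.at0'] at h0
  rw [Complex.add_conj, h.at1, h.toZ5.at1'] at h1
  have h2 : ((2 * (x 0).re + 2 * (x 1).re : ℝ) : ℂ) = ((4 * a - b - c - d : ℤ) : ℂ) := by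
    push_cast at h0 h1 ⊢
    linear_combination h0 + h1
  have h3 : ((2 * (x 0).re + 2 * (x 1).re : ℝ) : ℂ) = (((4 * a - b - c - d : ℤ) : ℝ) : ℂ) := by
    rw [h2]; push_cast; ring
  exact Complex.ofReal_injective h3

/-! ### weights -/

variable (z) in
/-- `d_t = 2 Im z_t` -/
def dd (t : Fin 2) : ℝ := 2 * (z t).im

lemma dd_pos (h : Z5r O z) (t : Fin 2) : 0 < dd z t := by
  have := im_pos h t
  unfold dd; linarith

variable (z) in
/-- the real form at the places -/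
def rr (i : Fin 4) (t : Fin 2) : ℝ := (Cls_620.HH z i t).re

lemma HH_eq (h : Z5r O z) (i : Fin 4) (t : Fin 2) : Cls_620.HH z i t = (rr z i t : ℂ) := by
  have h1 := congrFun (h.toZ5.frm.real i) t
  simp only [Pi.star_apply] at h1
  exact (Complex.conj_eq_iff_re.mp h1).symm

variable (z) in
/-- the scaling factors -/
def ww (i : Fin 4) (t : Fin 2) : ℝ := Real.sqrt (dd z t * |rr z i t|)

lemma rr1_pos (h : Z5r O z) (i : Fin 4) : 0 < rr z i 1 := h.toZ5.frm.pos i 1 (by decide)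

lemma rr0_pos (h : Z5r O z) (i : Fin 4) (hi : i ≠ 3) : 0 < rr z i 0 := h.toZ5.sgn.pos i hi

lemma rr0_neg (h : Z5r O z) : rr z 3 0 < 0 := h.toZ5.sgn.neg

lemma rr_ne (h : Z5r O z) (i : Fin 4) (t : Fin 2) : rr z i t ≠ 0 := by
  fin_cases t
  · by_cases hi : i = 3
    · subst hi; exact (rr0_neg h).ne
    · exact (rr0_pos h i hi).ne'
  · exact (rr1_pos h i).ne'

lemma ww_pos (h : Z5r O z) (i : Fin 4) (t : Fin 2) : 0 < ww z i t :=
  Real.sqrt_pos.2 (mul_pos (dd_pos h t) (abs_pos.2 (rr_ne h i t)))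

lemma ww_sq (h : Z5r O z) (i : Fin 4) (t : Fin 2) : ww z i t ^ 2 = dd z t * |rr z i t| :=
  Real.sq_sqrt (mul_nonneg (dd_pos h t).le (abs_nonneg _))

/-! ### the place maps -/

/-- the definite place -/
def P1 (h : Z5r O z) : (Fin 4 → ℂ) ≃ₗ[ℂ] W 4 where
  toFun x := WithLp.toLp 2 fun i => (ww z i 1 : ℂ) * x i
  invFun v := fun i => (ww z i 1 : ℂ)⁻¹ * v i
  left_inv x := by
    funext i
    have : (ww z i 1 : ℂ) ≠ 0 := by exact_mod_cast (ww_pos h i 1).ne'
    simp only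
    rw [inv_mul_cancel_left₀ this]
  right_inv v := by
    ext i
    have : (ww z i 1 : ℂ) ≠ 0 := by exact_mod_cast (ww_pos h i 1).ne'
    simp only
    rw [mul_inv_cancel_left₀ this]
  map_add' x y := by
    ext i
    simp only [Pi.add_apply, PiLp.add_apply]
    ring
  map_smul' c x := by
    ext i
    simp only [Pi.smul_apply, PiLp.smul_apply, smul_eq_mul, RingHom.id_apply]
    ring

lemma P1_apply (h : Z5r O z) (x : Fin 4 → ℂ) (i : Fin 4) : P1 h x i = (ww z i 1 : ℂ) * x i := rfl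

/-- the ball place -/
def P0 (h : Z5r O z) : (Fin 4 → ℂ) ≃ₗ[ℂ] V1 3 where
  toFun x := (WithLp.toLp 2 fun i : Fin 3 => (ww z i.castSucc 0 : ℂ) * x i.castSucc,
    (ww z 3 0 : ℂ) * x 3)
  invFun v := Fin.snoc (α := fun _ => ℂ) (fun i : Fin 3 => (ww z i.castSucc 0 : ℂ)⁻¹ * v.1 i)
    ((ww z 3 0 : ℂ)⁻¹ * v.2)
  left_inv x := by
    funext i
    refine Fin.lastCases ?_ (fun j => ?_) i
    · have : (ww z 3 0 : ℂ) ≠ 0 := by exact_mod_cast (ww_pos h 3 0).ne'
      simp only [Fin.snoc_last]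
      show (ww z 3 0 : ℂ)⁻¹ * ((ww z 3 0 : ℂ) * x 3) = x 3
      rw [inv_mul_cancel_left₀ this]
    · have : (ww z j.castSucc 0 : ℂ) ≠ 0 := by exact_mod_cast (ww_pos h j.castSucc 0).ne'
      simp only [Fin.snoc_castSucc]
      rw [inv_mul_cancel_left₀ this]
  right_inv v := by
    refine Prod.ext ?_ ?_
    · ext j
      have : (ww z j.castSucc 0 : ℂ) ≠ 0 := by exact_mod_cast (ww_pos h j.castSucc 0).ne'
      simp only [Fin.snoc_castSucc]
      rw [mul_inv_cancel_left₀ this]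
    · have : (ww z 3 0 : ℂ) ≠ 0 := by exact_mod_cast (ww_pos h 3 0).ne'
      have h3 : (3 : Fin 4) = Fin.last 3 := rfl
      simp only
      rw [h3, Fin.snoc_last, ← h3]
      rw [mul_inv_cancel_left₀ this]
  map_add' x y := by
    refine Prod.ext ?_ ?_
    · ext j
      simp only [Pi.add_apply, Prod.fst_add, PiLp.add_apply]
      ring
    · simp only [Pi.add_apply, Prod.snd_add]
      ring
  map_smul' c x := by
    refine Prod.ext ?_ ?_
    · ext j
      simp only [Pi.smul_apply, Prod.smul_fst, PiLp.smul_apply, smul_eq_mul, RingHom.id_apply]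
      ring
    · simp only [Pi.smul_apply, Prod.smul_snd, smul_eq_mul, RingHom.id_apply]
      ring

lemma P0_fst (h : Z5r O z) (x : Fin 4 → ℂ) (i : Fin 3) :
    (P0 h x).1 i = (ww z i.castSucc 0 : ℂ) * x i.castSucc := rfl

lemma P0_snd (h : Z5r O z) (x : Fin 4 → ℂ) : (P0 h x).2 = (ww z 3 0 : ℂ) * x 3 := rfl

/-- the form at a place -/
def ht (z : Fin 2 → ℂ) (t : Fin 2) (x y : Fin 4 → ℂ) : ℂ :=
  ∑ i, (rr z i t : ℂ) * x i * conj (y i)

lemma inner_P1 (h : Z5r O z) (x y : Fin 4 → ℂ) :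
    inner ℂ (P1 h y) (P1 h x) = (dd z 1 : ℂ) * ht z 1 x y := by
  rw [PiLp.inner_apply, ht, Finset.mul_sum]
  refine Finset.sum_congr rfl fun i _ => ?_
  rw [P1_apply, P1_apply]
  have h1 : ((ww z i 1 : ℝ) : ℂ) ^ 2 = (dd z 1 : ℂ) * (rr z i 1 : ℂ) := by
    rw [← Complex.ofReal_pow, ww_sq h, abs_of_pos (rr1_pos h i), Complex.ofReal_mul]
  simp only [RCLike.inner_apply, map_mul, Complex.conj_ofReal]
  linear_combination x i * conj (y i) * h1

lemma hh_P0 (h : Z5r O z) (x y : Fin 4 → ℂ) :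
    hh (P0 h x) (P0 h y) = (dd z 0 : ℂ) * ht z 0 x y := by
  rw [hh, PiLp.inner_apply, ht, Fin.sum_univ_castSucc (n := 3), mul_add, Finset.mul_sum,
    sub_eq_add_neg]
  refine congrArg₂ (· + ·) (Finset.sum_congr rfl fun i _ => ?_) ?_
  · rw [P0_fst, P0_fst]
    have hi : i.castSucc ≠ (3 : Fin 4) := by
      have : (3 : Fin 4) = Fin.last 3 := rfl
      rw [this]
      exact (Fin.castSucc_lt_last i).ne
    have h1 : ((ww z i.castSucc 0 : ℝ) : ℂ) ^ 2 = (dd z 0 : ℂ) * (rr z i.castSucc 0 : ℂ) := by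
      rw [← Complex.ofReal_pow, ww_sq h, abs_of_pos (rr0_pos h _ hi), Complex.ofReal_mul]
    simp only [RCLike.inner_apply, map_mul, Complex.conj_ofReal]
    linear_combination x i.castSucc * conj (y i.castSucc) * h1
  · rw [P0_snd, P0_snd]
    have h1 : ((ww z 3 0 : ℝ) : ℂ) ^ 2 = -((dd z 0 : ℂ) * (rr z 3 0 : ℂ)) := by
      rw [← Complex.ofReal_pow, ww_sq h, abs_of_neg (rr0_neg h)]
      push_cast
      ring
    have h3 : (Fin.last 3 : Fin 4) = 3 := rfl
    rw [h3]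
    simp only [map_mul, Complex.conj_ofReal]
    linear_combination -(x 3 * conj (y 3)) * h1

/-! ### the embedding -/

/-- coordinates at a place -/
def at' (v : Fin 4 → Fin 2 → ℂ) (t : Fin 2) : Fin 4 → ℂ := fun i => v i t

lemma hh_at (h : Z5r O z) (v w : Fin 4 → Fin 2 → ℂ) (t : Fin 2) :
    Cls_620.hh (Cls_620.HH z) v w t = ht z t (at' v t) (at' w t) := by
  rw [Cls_620.hh_apply, ht]
  refine Finset.sum_congr rfl fun i _ => ?_
  rw [HH_eq h]
  rfl

/-- **the embedding** -/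
def io (h : Z5r O z) : (Fin 4 → Fin 2 → ℂ) ≃ₗ[ℝ] V1 3 × W 4 where
  toFun v := (P0 h (at' v 0), P1 h (at' v 1))
  invFun p := fun i => ![(P0 h).symm p.1 i, (P1 h).symm p.2 i]
  left_inv v := by
    funext i t
    fin_cases t
    · simp [at']
    · simp [at']
  right_inv p := by
    refine Prod.ext ?_ ?_
    · show P0 h (fun i => (P0 h).symm p.1 i) = p.1
      exact (P0 h).apply_symm_apply p.1
    · show P1 h (fun i => (P1 h).symm p.2 i) = p.2
      exact (P1 h).apply_symm_apply p.2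
  map_add' v w := by
    refine Prod.ext ?_ ?_
    · show P0 h (at' v 0 + at' w 0) = _
      rw [map_add]; rfl
    · show P1 h (at' v 1 + at' w 1) = _
      rw [map_add]; rfl
  map_smul' c v := by
    refine Prod.ext ?_ ?_
    · show P0 h ((c : ℂ) • at' v 0) = (c : ℝ) • P0 h (at' v 0)
      rw [map_smul, Complex.coe_smul]
    · show P1 h ((c : ℂ) • at' v 1) = (c : ℝ) • P1 h (at' v 1)
      rw [map_smul, Complex.coe_smul]

lemma io_apply (h : Z5r O z) (v : Fin 4 → Fin 2 → ℂ) :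
    io h v = (P0 h (at' v 0), P1 h (at' v 1)) := rfl

lemma io_fst (h : Z5r O z) (v : Fin 4 → Fin 2 → ℂ) : (io h v).1 = P0 h (at' v 0) := rfl

lemma io_snd (h : Z5r O z) (v : Fin 4 → Fin 2 → ℂ) : (io h v).2 = P1 h (at' v 1) := rfl

lemma hh_io (h : Z5r O z) (v w : Fin 4 → Fin 2 → ℂ) :
    hh (io h v).1 (io h w).1 = (dd z 0 : ℂ) * Cls_620.hh (Cls_620.HH z) v w 0 := by
  rw [io_fst, io_fst, hh_P0, hh_at h]

lemma inner_io (h : Z5r O z) (v w : Fin 4 → Fin 2 → ℂ) :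
    inner ℂ (io h w).2 (io h v).2 = (dd z 1 : ℂ) * Cls_620.hh (Cls_620.HH z) v w 1 := by
  rw [io_snd, io_snd, inner_P1, hh_at h]

/-- `ee` on the image -/
lemma ee_io (h : Z5r O z) (v w : Fin 4 → Fin 2 → ℂ) :
    ee (io h v) (io h w) = dd z 0 * (Cls_620.hh (Cls_620.HH z) v w 0).im +
      dd z 1 * (Cls_620.hh (Cls_620.HH z) v w 1).im := by
  rw [ee, hh_io, inner_io, Complex.im_ofReal_mul, Complex.im_ofReal_mul]

/-- `2 ee` is integral on integral vectors -/
lemma ee_int (h : Z5r O z) {v w : Fin 4 → Fin 2 → ℂ} (hv : Cls_620.Int' O v)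
    (hw : Cls_620.Int' O w) : ∃ k : ℤ, ((2 : ℕ) : ℝ) * ee (io h v) (io h w) = k := by
  set x := Cls_620.hh (Cls_620.HH z) v w with hx
  have hxO : x ∈ O := Cls_620.hh_mem h.ord h.toZ5.frm hv hw
  have hδ : (z ^ 4 - z) * x ∈ O := O.mul_mem (O.sub_mem (pow_mem h 4) h.zmem) hxO
  obtain ⟨k, hk⟩ := trace_int h hδ
  refine ⟨k, ?_⟩
  rw [← hk, ee_io, ← hx]
  have key : ∀ t, (((z ^ 4 - z) * x) t).re = dd z t * (x t).im := by
    intro t
    have e1 : ((z ^ 4 - z) * x) t = (conj (z t) - z t) * x t := by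
      rw [conj_z h]; simp
    have e2 : conj (z t) - z t = ((-(dd z t) : ℝ) : ℂ) * Complex.I := by
      apply Complex.ext
      · simp
      · simp [dd]; ring
    rw [e1, e2, mul_assoc, Complex.re_ofReal_mul, Complex.I_mul_re]
    ring
  rw [key 0, key 1]
  push_cast
  ring

end

end Crest.Agent.R272.In_68
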