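import Crest.Agent.R272.Ball5_916
import Crest.Agent.R272.In1_68

/-! Row 272 (helper916): **cocompactness for `ℤ[ζ₅]` in the language of `In_68`** (before `GU`, `GC`). -/

set_option autoImplicit false
set_option linter.unusedSectionVars false

namespace Crest.Agent.R272.Ball6_916

open Matrix Module
open scoped ComplexConjugate
open Crest.Agent.R272.BallDefs_916 Crest.Agent.R272.Ball2_916
open Crest.Agent.R272.Ball3_916 Crest.Agent.R272.Ball5_916
open Crest.Agent.R272.EBase_641 Crest.Agent.R272.In_68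

noncomputable section

variable {O : Subring (Fin 2 → ℂ)} {z : Fin 2 → ℂ}

theorem span_O (h : Z5r O z) : Submodule.span ℝ (O : Set (Fin 2 → ℂ)) = ⊤ := by
  rw [eq_top_iff]
  intro x _
  have h1 : x = lam z ((lamE h).symm x) := by
    rw [← lamE_apply h, LinearEquiv.apply_symm_apply]
  set a := (lamE h).symm x
  have h2 : x = a 0 • (1 : Fin 2 → ℂ) + a 1 • z + a 2 • z ^ 2 + a 3 • z ^ 3 := by
    rw [h1]
    funext t
    rw [lam_apply]
    simp
  rw [h2]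
  refine Submodule.add_mem _ (Submodule.add_mem _ (Submodule.add_mem _ ?_ ?_) ?_) ?_
  · exact Submodule.smul_mem _ _ (Submodule.subset_span O.one_mem)
  · exact Submodule.smul_mem _ _ (Submodule.subset_span h.zmem)
  · exact Submodule.smul_mem _ _ (Submodule.subset_span (In_68.pow_mem h 2))
  · exact Submodule.smul_mem _ _ (Submodule.subset_span (In_68.pow_mem h 3))

/-- the arithmetic datum -/
def adat (h : Z5r O z) : AD (Fin 2) (Fin 4) where
  O := O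
  star_mem := h.ord.star_mem
  disc := fun R => finite_O h R
  span := span_O h
  norm := h.ord.norm_ge
  a := fun i t => rr z i t
  a_mem := fun i => by
    have h1 : (fun t => (rr z i t : ℂ)) = Cls_620.HH z i := by
      funext t; exact (HH_eq h i t).symm
    rw [h1]
    exact h.toZ5.frm.mem i
  t0 := 0
  t1 := 1
  ht := by decide
  o := 3
  neg := rr0_neg h
  pos0 := fun i hi => rr0_pos h i hi
  pos := fun t ht i => by
    have : t = 1 := by
      fin_cases t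
      · exact absurd rfl ht
      · rfl
    subst this
    exact rr1_pos h i

theorem adat_h (h : Z5r O z) (t : Fin 2) (x y : Fin 4 → ℂ) : (adat h).h t x y = ht z t x y := by
  unfold AD.h ht
  refine Finset.sum_congr rfl fun i _ => ?_
  show (rr z i t : ℂ) * (x i * conj (y i)) = _
  ring

/-- matrices over `T → ℂ` -/
abbrev Mt := Matrix (Fin 4) (Fin 4) (Fin 2 → ℂ)

/-- matrix of a matrix over `O` -/
def up (h : Z5r O z) (g : Matrix (Fin 4) (Fin 4) (adat h).O) : Mt := g.map ((adat h).O.subtype)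

theorem up_mul (h : Z5r O z) (g g' : Matrix (Fin 4) (Fin 4) (adat h).O) :
    up h (g * g') = up h g * up h g' := Matrix.map_mul

theorem up_one (h : Z5r O z) : up h 1 = 1 := Matrix.map_one _ (map_zero _) (map_one _)

theorem up_at (h : Z5r O z) (g : Matrix (Fin 4) (Fin 4) (adat h).O) (v : Fin 4 → Fin 2 → ℂ)
    (t : Fin 2) : In_68.at' (up h g *ᵥ v) t = gm (adat h) g t *ᵥ In_68.at' v t := by
  funext i
  simp only [In_68.at', Matrix.mulVec, dotProduct, Finset.sum_apply, Pi.mul_apply]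
  rfl

/-- **cocompactness, raw form** -/
theorem cocpt_raw (h : Z5r O z) {μ : Fin 2 → ℂ} (hμ : μ ∈ O) (hμ0 : μ ≠ 0) :
    ∃ C : ℝ, ∀ x : Fin 4 → ℂ, (ht z 0 x x).re < 0 →
      ∃ g g' : Mt, g * g' = 1 ∧ g' * g = 1 ∧ g.det = 1 ∧ (∀ i j, g i j ∈ O) ∧ (∀ i j, g' i j ∈ O) ∧
        (∀ v w, Cls_620.hh (Cls_620.HH z) (g *ᵥ v) (g *ᵥ w) = Cls_620.hh (Cls_620.HH z) v w) ∧
        (∀ i j, ∃ u ∈ O, (g - 1) i j = μ * u) ∧
        ∀ i, ‖((g.map (fun f => f 0)) *ᵥ x) i‖ ^ 2 ≤ C * (- (ht z 0 x x).re) := by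
  have hμ' : (⟨μ, hμ⟩ : (adat h).O) ≠ 0 := by
    intro h0
    exact hμ0 (congrArg Subtype.val h0)
  obtain ⟨C, hC⟩ := compactness_cong (adat h) ⟨μ, hμ⟩ hμ'
  have hq : ∀ x : Fin 4 → ℂ, (adat h).q (adat h).t0 x = (ht z 0 x x).re := by
    intro x
    have h1 := h_self (adat h) (adat h).t0 x
    rw [adat_h] at h1
    have h2 := congrArg Complex.re h1
    rw [Complex.ofReal_re] at h2
    exact h2.symm
  refine ⟨C, fun x hx => ?_⟩
  have hneg : (adat h).Neg x := by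
    unfold AD.Neg
    rw [hq]; exact hx
  obtain ⟨g, g', U, h1, h2, h3, h4, h5, h6⟩ := hC x hneg
  refine ⟨up h g, up h g', ?_, ?_, ?_, fun i j => (g i j).2, fun i j => (g' i j).2, ?_, ?_, ?_⟩
  · rw [← up_mul, h1, up_one]
  · rw [← up_mul, h2, up_one]
  · have h7 : (up h g).det = ((g.det : (adat h).O) : Fin 2 → ℂ) :=
      (RingHom.map_det (adat h).O.subtype g).symm
    rw [h7, h3]; rfl
  · intro v w
    funext t
    rw [hh_at h, hh_at h, up_at, up_at, ← adat_h h, ← adat_h h]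
    exact h4 t _ _
  · intro i j
    refine ⟨((U i j : (adat h).O) : Fin 2 → ℂ), (U i j).2, ?_⟩
    have h7 : up h g - 1 = up h (g - 1) := by
      ext i j t
      rw [← up_one h]
      rfl
    rw [h7, h5, add_sub_cancel_left]
    rfl
  · intro i
    have h7 := h6.2 i
    have h8 := uni_q (adat h) h4 (adat h).t0 x
    rw [h8, hq] at h7
    exact h7

/-- from the raw bound to the ball -/
theorem act_bound (h : Z5r O z) (C : ℝ) : ∃ r : ℝ, r < 1 ∧ ∀ (G : UG 3) (A : Matrix (Fin 4) (Fin 4) ℂ),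
    (∀ x, G.1 (P0 h x) = P0 h (A *ᵥ x)) → ∀ ζ ∈ Ball 3,
    (‖(A *ᵥ (P0 h).symm (ζ, 1)) 3‖ ^ 2 ≤
      C * (- (ht z 0 ((P0 h).symm (ζ, 1)) ((P0 h).symm (ζ, 1))).re)) → ‖act G ζ‖ ≤ r := by
  have hd := dd_pos h 0
  have hw := ww_pos h 3 0
  set K : ℝ := (ww z 3 0) ^ 2 * (|C| + 1) / dd z 0 with hK
  have hK0 : 0 < K := by positivity
  refine ⟨Real.sqrt (1 - (max K 1)⁻¹), ?_, ?_⟩
  · rw [Real.sqrt_lt' one_pos]
    have : 0 < (max K 1)⁻¹ := by positivity
    linarith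
  · intro G A hG ζ hζ hb
    have h1 : ‖ζ‖ < 1 := mem_Ball.1 hζ
    have h2 : 0 < 1 - ‖ζ‖ ^ 2 := by nlinarith [norm_nonneg ζ]
    set x := (P0 h).symm (ζ, 1) with hx
    have hPx : P0 h x = (ζ, 1) := (P0 h).apply_symm_apply _
    -- q(x)
    have h3 : dd z 0 * (ht z 0 x x).re = ‖ζ‖ ^ 2 - 1 := by
      have h4 := hh_P0 h x x
      rw [hPx, hh_self] at h4
      have h5 := congrArg Complex.re h4
      rw [Complex.ofReal_re, Complex.re_ofReal_mul] at h5
      rw [← h5]; simp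
    -- jj
    have h6 : jj G ζ = (ww z 3 0 : ℂ) * (A *ᵥ x) 3 := by
      unfold jj
      rw [← hPx, hG, P0_snd]
    have h7 : ‖jj G ζ‖ ^ 2 ≤ K * (1 - ‖ζ‖ ^ 2) := by
      rw [h6, norm_mul, Complex.norm_real, Real.norm_eq_abs, mul_pow, sq_abs]
      have h8 : - (ht z 0 x x).re = (1 - ‖ζ‖ ^ 2) / dd z 0 := by
        rw [eq_div_iff hd.ne']
        linarith
      rw [h8] at hb
      have h9 : C * ((1 - ‖ζ‖ ^ 2) / dd z 0) ≤ (|C| + 1) * ((1 - ‖ζ‖ ^ 2) / dd z 0) := by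
        have : C ≤ |C| + 1 := by linarith [le_abs_self C]
        gcongr
      calc (ww z 3 0) ^ 2 * ‖(A *ᵥ x) 3‖ ^ 2
          ≤ (ww z 3 0) ^ 2 * ((|C| + 1) * ((1 - ‖ζ‖ ^ 2) / dd z 0)) := by
            gcongr
            exact hb.trans h9
        _ = K * (1 - ‖ζ‖ ^ 2) := by rw [hK]; ring
    have hj := jj_ne_zero G hζ
    have hj' : 0 < ‖jj G ζ‖ ^ 2 := by positivity
    have h10 := one_sub_norm_act G hζ
    have h11 : (max K 1)⁻¹ ≤ 1 - ‖act G ζ‖ ^ 2 := by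
      rw [h10, le_div_iff₀ hj', inv_mul_le_iff₀ (by positivity)]
      refine h7.trans ?_
      gcongr
      exact le_max_left _ _
    refine Real.le_sqrt_of_sq_le ?_
    linarith

/-- **cocompactness of the congruence subgroup**, in terms of matrices -/
theorem cocpt_mat (h : Z5r O z) {μ : Fin 2 → ℂ} (hμ : μ ∈ O) (hμ0 : μ ≠ 0) :
    ∃ r : ℝ, r < 1 ∧ ∀ ζ ∈ Ball 3, ∃ g g' : Mt, g * g' = 1 ∧ g' * g = 1 ∧ g.det = 1 ∧
      (∀ i j, g i j ∈ O) ∧ (∀ i j, g' i j ∈ O) ∧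
      (∀ v w, Cls_620.hh (Cls_620.HH z) (g *ᵥ v) (g *ᵥ w) = Cls_620.hh (Cls_620.HH z) v w) ∧
      (∀ i j, ∃ u ∈ O, (g - 1) i j = μ * u) ∧
      ∀ G : UG 3, (∀ v : Fin 4 → Fin 2 → ℂ, G.1 (P0 h (In_68.at' v 0)) =
        P0 h (In_68.at' (g *ᵥ v) 0)) → ‖act G ζ‖ ≤ r := by
  obtain ⟨C, hC⟩ := cocpt_raw h hμ hμ0
  obtain ⟨r, hr, hr'⟩ := act_bound h C
  refine ⟨r, hr, fun ζ hζ => ?_⟩
  have h1 : ‖ζ‖ < 1 := mem_Ball.1 hζ
  have h2 : 0 < 1 - ‖ζ‖ ^ 2 := by nlinarith [norm_nonneg ζ]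
  have hd := dd_pos h 0
  set x := (P0 h).symm (ζ, 1) with hx
  have hPx : P0 h x = (ζ, 1) := (P0 h).apply_symm_apply _
  have h3 : dd z 0 * (ht z 0 x x).re = ‖ζ‖ ^ 2 - 1 := by
    have h4 := hh_P0 h x x
    rw [hPx, hh_self] at h4
    have h5 := congrArg Complex.re h4
    rw [Complex.ofReal_re, Complex.re_ofReal_mul] at h5
    rw [← h5]; simp
  have hneg : (ht z 0 x x).re < 0 := by
    by_contra h5
    push Not at h5
    have : 0 ≤ dd z 0 * (ht z 0 x x).re := by positivity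
    linarith
  obtain ⟨g, g', a1, a2, a3, a4, a5, a6, a7, a8⟩ := hC x hneg
  refine ⟨g, g', a1, a2, a3, a4, a5, a6, a7, fun G hG => ?_⟩
  refine hr' G (g.map (fun f => f 0)) ?_ ζ hζ (a8 3)
  intro y
  have h6 := hG (fun i _ => y i)
  have h7 : In_68.at' (fun i (_ : Fin 2) => y i) 0 = y := rfl
  rw [h7] at h6
  rw [h6]
  congr 1

end

end Crest.Agent.R272.Ball6_916
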