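import Crest.Agent.R272.Adp3_409
import Crest.Agent.R272.Root5_83

/-!
# R272 (S0414), BL (a) (helper266), part 3: coherent roots of the sections on the cover

* `RtS P CX f`: for `P : PD A ρ` on `M` and `f : X → M`, holomorphic functions `R a i` on
  `f⁻¹ (source i)` with `R a i ^ k a = s a i ∘ f` and `R a i = g i j * R a j` (`mm` of 828's plan);
* `RtS.ofData`: the tautological coordinates of DCOV;
* `RtS.up`: from the blow-up down to the manifold (multiplication by the powers of `e`);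
* `RtS.ofPd`: from the enlarged atlas of 409 to the old one.
-/

set_option autoImplicit false
set_option linter.unusedSectionVars false

open Set Filter Topology Complex
open scoped ContDiff Matrix ComplexConjugate Manifold

namespace Crest.Agent.R272.BlA_266

open Crest.Agent.R275.Geo Crest.Agent.R275.Core144
open Crest.Agent.R273.Map_835 Crest.Agent.R273.PB_835 Crest.Agent.R273.Fam_835
open Crest.Agent.R272.Blup1_102 Crest.Agent.R272.Blup1_102.Ctr
open Crest.Agent.R272.Quot_783 Crest.Agent.R272.Root_83 Crest.Agent.R272.Adp_409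

noncomputable section

variable {n l : ℕ} {M X : Type} [TopologicalSpace M] [TopologicalSpace X]

/-- coherent roots of the sections along `f : X → M` -/
structure RtS {A : Atl n M} {ρ : Type} (P : PD A ρ) (CX : Fam l X) (f : X → M) where
  R : ρ → A.ι → X → ℂ
  tr : ∀ a i j x, f x ∈ (A.e i).source → f x ∈ (A.e j).source →
    R a i x = (P.L a).g i j (f x) * R a j x
  pow : ∀ a i x, f x ∈ (A.e i).source → R a i x ^ P.k a = P.s a i (f x)
  hg : ∀ a i x, f x ∈ (A.e i).source → HG CX x (R a i)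

theorem hg_of_holAt {A : Atl n M} {i : A.ι} {U : Set M} {f : M → ℂ} (h : HolAt A i U f)
    (hU : IsOpen U) {x : M} (hx : x ∈ U) (hxi : x ∈ (A.e i).source) : HG (fam A) x f :=
  ⟨U ∩ (A.e i).source, hU.inter (A.e i).open_source, ⟨hx, hxi⟩, fun j => h.chg hU j⟩

namespace RtS

variable {A : Atl n M} {ρ : Type} {P : PD A ρ} {CX : Fam l X} {f : X → M}

theorem R_eq_zero (S : RtS P CX f) {a : ρ} {i : A.ι} {x : X} (hi : f x ∈ (A.e i).source) :
    S.R a i x = 0 ↔ P.s a i (f x) = 0 := by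
  rw [← S.pow a i x hi]
  exact (pow_eq_zero_iff (P.kpos a).ne').symm

/-- the tautological coordinates of the cover -/
def ofData [Fintype ρ] (P : PD A ρ) (h : ∀ x, P.Snc x) :
    RtS P (P.toData h).famX (P.toData h).p where
  R a i q := (P.toData h).y a i q
  tr a _ _ _ hi hj := (P.toData h).y_tr a hi hj
  pow a _ _ hi := (P.toData h).y_pow a hi
  hg a i x hi := by
    refine ⟨(P.toData h).p ⁻¹' (A.e i).source, (A.e i).open_source.preimage (P.toData h).continuous_p,
      hi, fun c => ?_⟩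
    intro z hz
    exact ((P.toData h).y_diffAt a (c := c) hz.1 hz.2).differentiableWithinAt

section Up

variable [NeZero n] [T2Space M] {C : Ctr A} {m : ρ → C.S → ℕ}
  {hm : ∀ a, C.Ord (P.s a) (fun t => P.k a * m a t)} {f : X → C.X}

/-- the section is the divided section times the power of the equation of `E` -/
theorem ese_mul_st (a : ρ) {j : C.atl.ι} {y : C.X} (hy : y ∈ (C.atl.e j).source) :
    C.ese (m a) j y ^ P.k a * (P.bl C m hm).s a j y = P.s a (C.refPi.r j) (C.pi y) := by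
  rcases j with i | ⟨t, b⟩
  · rw [C.ese_inl _ hy, P.bl_s_inl hm a hy, one_pow, one_mul]
    rfl
  · have hV := C.mem_ec_inr.1 hy
    rw [C.ese_inr _ hV, P.bl_s_inr hm a hV, ← pow_mul]
    have h1 := C.Psi_eq (P.hs a) (hm a) t b (C.co_mem hV)
    rw [C.phi_co hV] at h1
    rw [mul_comm (m a t)]
    exact h1.symm

/-- the index chosen at a point -/
def ix (A : Atl n M) (x : M) : A.ι := (A.cover x).choose

theorem ix_mem (A : Atl n M) (x : M) : x ∈ (A.e (ix A x)).source := (A.cover x).choose_spec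

/-- the root downstairs, in terms of a frame upstairs -/
def upR (S : RtS (P.bl C m hm) CX f) (a : ρ) (i : A.ι) (j : C.atl.ι) (x : X) : ℂ :=
  (P.L a).g i (C.refPi.r j) (C.pi (f x)) * C.ese (m a) j (f x) * S.R a j x

theorem upR_indep (S : RtS (P.bl C m hm) CX f) (a : ρ) {i : A.ι} {j j' : C.atl.ι} {x : X}
    (hi : C.pi (f x) ∈ (A.e i).source) (hj : f x ∈ (C.atl.e j).source)
    (hj' : f x ∈ (C.atl.e j').source) : S.upR a i j x = S.upR a i j' x := by
  have h1 := S.tr a j j' x hj hj'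
  have h2 := (C.isHS_ese (m a)).tr j j' (f x) ⟨hj, hj'⟩ (mem_univ _)
  have h3 : ((P.bl C m hm).L a).g j j' (f x) =
      (P.L a).g (C.refPi.r j) (C.refPi.r j') (C.pi (f x)) * (C.OE (-C.kz (m a))).g j j' (f x) := by
    rw [P.bl_L, PD.bL, LB.mul_g, pullLB_g _ _ _ ⟨hj, hj'⟩]
  have h4 : (C.OE (-C.kz (m a))).g j j' (f x) * (C.OE (C.kz (m a))).g j j' (f x) = 1 := by
    rw [C.OE_neg, LB.inv_g]
    exact inv_mul_cancel₀ ((C.OE (C.kz (m a))).ne_zero _ _ _)
  have h5 := (P.L a).mul i (C.refPi.r j) (C.refPi.r j') (C.pi (f x))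
    ⟨⟨hi, C.refPi.sub j _ hj⟩, C.refPi.sub j' _ hj'⟩
  rw [upR, upR, h1, h2, h3, ← h5]
  linear_combination (P.L a).g i (C.refPi.r j) (C.pi (f x)) * C.ese (m a) j' (f x) *
    (P.L a).g (C.refPi.r j) (C.refPi.r j') (C.pi (f x)) * S.R a j' x * h4

/-- the roots downstairs -/
def up (S : RtS (P.bl C m hm) CX f) (hf : HolC CX (fam C.atl) f) :
    RtS P CX (fun x => C.pi (f x)) where
  R a i x := S.upR a i (ix C.atl (f x)) x
  tr a i j x hi hj := by
    have h1 := C.refPi.sub (ix C.atl (f x)) _ (ix_mem C.atl (f x))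
    have h2 := (P.L a).mul i j (C.refPi.r (ix C.atl (f x))) (C.pi (f x)) ⟨⟨hi, hj⟩, h1⟩
    rw [upR, upR, ← h2]
    ring
  pow a i x hi := by
    have hy := ix_mem C.atl (f x)
    have h1 := C.refPi.sub (ix C.atl (f x)) _ hy
    have h2 := (P.hs a).tr i (C.refPi.r (ix C.atl (f x))) (C.pi (f x)) ⟨hi, h1⟩ (mem_univ _)
    have h3 : (P.L a ^ P.k a).g i (C.refPi.r (ix C.atl (f x))) (C.pi (f x)) =
        (P.L a).g i (C.refPi.r (ix C.atl (f x))) (C.pi (f x)) ^ P.k a :=
      DCov_426.LB_pow_g _ _ _ _ _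
    have h4 := S.pow a _ x hy
    have h5 : (P.bl C m hm).k a = P.k a := rfl
    rw [h5] at h4
    rw [upR, mul_pow, mul_pow, h4, h2, h3, ← ese_mul_st (hm := hm) a hy, mul_assoc]
  hg a i x hi := by
    set j := ix C.atl (f x) with hj
    have hy : f x ∈ (C.atl.e j).source := ix_mem C.atl (f x)
    have hpi : HolC (fam C.atl) (fam A) C.pi := holC_iff.2 C.holMap_pi
    have h1 : HG CX x (fun x => (P.L a).g i (C.refPi.r j) (C.pi (f x))) :=
      HG.comp (f := (P.L a).g i (C.refPi.r j)) (p := fun x => C.pi (f x))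
        (hg_g (P.L a) hi (C.refPi.sub j _ hy)) (hpi.comp hf)
    have h2 : HG CX x (fun x => C.ese (m a) j (f x)) :=
      HG.comp (f := C.ese (m a) j) (p := f)
        (hg_of_holAt ((C.isHS_ese (m a)).hol j) isOpen_univ (mem_univ _) hy) hf
    refine ((h1.mul h2).mul (S.hg a j x hy)).congr ?_
    have h3 : ∀ᶠ x' in 𝓝 x, f x' ∈ (C.atl.e j).source :=
      hf.cont.continuousAt.eventually ((C.atl.e j).open_source.mem_nhds hy)
    have h4 : ∀ᶠ x' in 𝓝 x, C.pi (f x') ∈ (A.e i).source :=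
      (C.continuous_pi.comp hf.cont).continuousAt.eventually ((A.e i).open_source.mem_nhds hi)
    filter_upwards [h3, h4] with x' h5 h6
    exact S.upR_indep a h6 h5 (ix_mem C.atl (f x'))

/-- the roots downstairs in any frame upstairs -/
theorem up_R (S : RtS (P.bl C m hm) CX f) (hf : HolC CX (fam C.atl) f) (a : ρ) {i : A.ι}
    {j : C.atl.ι} {x : X} (hi : C.pi (f x) ∈ (A.e i).source) (hj : f x ∈ (C.atl.e j).source) :
    (S.up hf).R a i x =
      (P.L a).g i (C.refPi.r j) (C.pi (f x)) * C.ese (m a) j (f x) * S.R a j x :=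
  S.upR_indep a hi (ix_mem C.atl (f x)) hj

end Up

/-! ### from the enlarged atlas to the old one -/

/-- the roots for the data on the enlarged atlas are roots for the old data -/
def ofPd {K : Cen A} (S : RtS (K.pd P) CX f) : RtS P CX f where
  R a i x := S.R a (Sum.inl i) x
  tr a i j x hi hj := by
    have h1 := S.tr a (Sum.inl i) (Sum.inl j) x hi hj
    have h2 : ((K.pd P).L a).g (Sum.inl i : K.adp.ι) (Sum.inl j : K.adp.ι) (f x) =
        (P.L a).g i j (f x) :=
      pullLB_g K.hol K.ref (P.L a) (i := (Sum.inl i : K.adp.ι)) (j := (Sum.inl j : K.adp.ι)) ⟨hi, hj⟩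
    exact h1.trans (congrArg (· * S.R a (Sum.inl j) x) h2)
  pow a i x hi := by
    have h1 := S.pow a (Sum.inl i) x hi
    have h2 : (K.pd P).s a (Sum.inl i : K.adp.ι) (f x) = P.s a i (f x) :=
      K.pd_s_mem P a (i := (Sum.inl i : K.adp.ι)) hi
    exact h1.trans h2
  hg a i x hi := S.hg a (Sum.inl i) x hi

theorem ofPd_R {K : Cen A} (S : RtS (K.pd P) CX f) (a : ρ) (i : A.ι) :
    S.ofPd.R a i = S.R a (Sum.inl i) := rfl

end RtS

end

end Crest.Agent.R272.BlA_266
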