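import Crest.Agent.R272.Cyc2_760
import Crest.Agent.R272.BlA2_266

/-!
# R272 (S0414), S14-SHEET (helper266), part 1: frames along homogeneous rational curves

* `LocFr L Γ m`: local frames of `Γ^* L`, homogeneous of degree `-m`, in some charts of a cover;
  `LocFr.r_eq` (values in all charts), `LocFr.toFrm : Frm L Γ m`;
* `preFrm`: linear change of the parameter;
* `LocFr.val`: `σ i (Γ w) = r i w ^ 2 * h w` everywhere follows from one chart at each point
  of `{w 0 ≠ 0, w 1 ≠ 0}` (continuity).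
-/

set_option autoImplicit false
set_option linter.unusedSectionVars false

open Set Filter Topology

namespace Crest.Agent.R272.BlS_266

open Crest.Agent.R275.Geo Crest.Agent.R275.Core144
open Crest.Agent.R273.Map_835 Crest.Agent.R273.Fam_835 Crest.Agent.R273.PB_835
open Crest.Agent.R272.CpRat423 Crest.Agent.R272.DCov_426 Crest.Agent.R272.Cyc_760

noncomputable section

variable {n : ℕ} {M : Type} [TopologicalSpace M] {A : Atl n M} {L : LB A} {Γ : HCur (fam A)}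
  {m : ℕ}

/-- holomorphic functions along the curve -/
theorem hol_curve {f : M → ℂ} {i : A.ι} {U : Set M} (hU : IsOpen U) (h : HolAt A i U f) {w : V2}
    (hw : w ≠ 0) (hi : Γ.G w ∈ (A.e i).source) (hwU : Γ.G w ∈ U) :
    DifferentiableAt ℂ (fun w => f (Γ.G w)) w :=
  HA.fun_diff (C := fam A) (F := Γ.G) (g := f) (i := i) (Γ.ha w hw) hi (h.diffAt hU hi hwU)

theorem frequently_H (w : V2) : ∃ᶠ w' : V2 in 𝓝 w, w' 0 ≠ 0 ∧ w' 1 ≠ 0 := by
  have h1 : ContinuousAt (fun s : ℂ => (fun j => w j + s : V2)) 0 := by fun_prop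
  have h2 : Tendsto (fun s : ℂ => (fun j => w j + s : V2)) (𝓝[≠] 0) (𝓝 w) := by
    have h3 := h1.tendsto
    simp only [add_zero] at h3
    exact h3.mono_left nhdsWithin_le_nhds
  refine h2.frequently (Eventually.frequently ?_)
  have key : ∀ c : ℂ, ∀ᶠ s : ℂ in 𝓝[≠] 0, c + s ≠ 0 := by
    intro c
    by_cases hc : c = 0
    · filter_upwards [self_mem_nhdsWithin] with s hs
      rw [hc, zero_add]
      exact hs
    · have h3 : ContinuousAt (fun s : ℂ => c + s) 0 := by fun_prop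
      exact (h3.eventually_ne (by simpa using hc)).filter_mono nhdsWithin_le_nhds
  filter_upwards [key (w 0), key (w 1)] with s h3 h4
  exact ⟨h3, h4⟩

/-- local frames in charts -/
structure LocFr (L : LB A) (Γ : HCur (fam A)) (m : ℕ) where
  κ : Type
  j : κ → A.ι
  O : κ → Set V2
  f : κ → V2 → ℂ
  hO : ∀ a, IsOpen (O a)
  cover : ∀ w : V2, w ≠ 0 → ∃ a, w ∈ O a
  src : ∀ a, ∀ w ∈ O a, Γ.G w ∈ (A.e (j a)).source
  tr : ∀ a b, ∀ w, w ∈ O a → w ∈ O b → f a w = L.g (j a) (j b) (Γ.G w) * f b w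
  ne : ∀ a, ∀ w ∈ O a, f a w ≠ 0
  hol : ∀ a, ∀ w ∈ O a, DifferentiableAt ℂ (f a) w
  hom : ∀ a, ∀ c : ℂ, c ≠ 0 → ∀ w ∈ O a, c • w ∈ O a ∧ c ^ m * f a (c • w) = f a w

namespace LocFr

variable (F : LocFr L Γ m)

open Classical in
/-- the frame in all charts -/
def r (i : A.ι) (w : V2) : ℂ :=
  if h : w ≠ 0 then L.g i (F.j (F.cover w h).choose) (Γ.G w) * F.f (F.cover w h).choose w else 1

theorem r_eq {w : V2} (hw : w ≠ 0) {a : F.κ} (ha : w ∈ F.O a) {i : A.ι}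
    (hi : Γ.G w ∈ (A.e i).source) : F.r i w = L.g i (F.j a) (Γ.G w) * F.f a w := by
  have hb := (F.cover w hw).choose_spec
  have h1 : F.r i w = L.g i (F.j (F.cover w hw).choose) (Γ.G w) * F.f (F.cover w hw).choose w := by
    rw [r, dif_pos hw]
  rw [h1, F.tr _ a w hb ha, ← mul_assoc, L.mul _ _ _ _ ⟨⟨hi, F.src _ w hb⟩, F.src _ w ha⟩]

theorem r_self {w : V2} (hw : w ≠ 0) {a : F.κ} (ha : w ∈ F.O a) : F.r (F.j a) w = F.f a w := by
  rw [F.r_eq hw ha (F.src a w ha), L.self, one_mul]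

/-- the frame -/
def toFrm : Frm L Γ m where
  r := F.r
  tr w hw i j hi hj := by
    obtain ⟨a, ha⟩ := F.cover w hw
    rw [F.r_eq hw ha hi, F.r_eq hw ha hj, ← mul_assoc, L.mul _ _ _ _ ⟨⟨hi, hj⟩, F.src _ w ha⟩]
  ne w hw i hi := by
    obtain ⟨a, ha⟩ := F.cover w hw
    rw [F.r_eq hw ha hi]
    exact mul_ne_zero (L.ne_zero _ _ _) (F.ne a w ha)
  hol w hw i hi := by
    obtain ⟨a, ha⟩ := F.cover w hw
    have h1 : DifferentiableAt ℂ (fun w => L.g i (F.j a) (Γ.G w)) w :=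
      hol_curve (A.e (F.j a)).open_source (L.hol i (F.j a)) hw hi (F.src a w ha)
    refine (h1.mul (F.hol a w ha)).congr_of_eventuallyEq ?_
    have h2 : ∀ᶠ w' in 𝓝 w, Γ.G w' ∈ (A.e i).source :=
      (Γ.ha w hw).cont.eventually ((A.e i).open_source.mem_nhds hi)
    filter_upwards [h2, (F.hO a).mem_nhds ha, isOpen_ne.mem_nhds hw] with w' h3 h4 h5
    exact F.r_eq h5 h4 h3
  hom c hc w hw i hi := by
    obtain ⟨a, ha⟩ := F.cover w hw
    obtain ⟨h1, h2⟩ := F.hom a c hc w ha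
    have h3 : Γ.G (c • w) = Γ.G w := Γ.smul c hc w hw
    rw [F.r_eq (smul_ne_zero hc hw) h1 (by rw [h3]; exact hi), F.r_eq hw ha hi, h3, ← h2]
    ring

@[simp] theorem toFrm_r : F.toFrm.r = F.r := rfl

/-- the values of a section from the values in one chart at each general point -/
theorem val {σ : A.ι → M → ℂ} (hσ : IsHS (L ^ 2) univ σ) {h : V2 → ℂ}
    (hh : Continuous h) (hv : ∀ w : V2, w 0 ≠ 0 → w 1 ≠ 0 → ∃ a, w ∈ F.O a ∧
      σ (F.j a) (Γ.G w) = F.f a w ^ 2 * h w) {w : V2} (hw : w ≠ 0)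
    {i : A.ι} (hi : Γ.G w ∈ (A.e i).source) : σ i (Γ.G w) = F.r i w ^ 2 * h w := by
  have h1 : Tendsto (fun w => σ i (Γ.G w)) (𝓝 w) (𝓝 (σ i (Γ.G w))) :=
    (hol_curve isOpen_univ (hσ.hol i) hw hi (mem_univ _)).continuousAt
  have h2 : Tendsto (fun w => F.r i w ^ 2 * h w) (𝓝 w) (𝓝 (F.r i w ^ 2 * h w)) :=
    (((F.toFrm.hol w hw i hi).continuousAt.pow 2).mul hh.continuousAt)
  refine tendsto_nhds_unique_of_frequently_eq h1 h2 ?_
  have h3 : ∀ᶠ w' in 𝓝 w, Γ.G w' ∈ (A.e i).source :=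
    (Γ.ha w hw).cont.eventually ((A.e i).open_source.mem_nhds hi)
  refine ((frequently_H w).and_eventually (h3.and (isOpen_ne.mem_nhds hw))).mono ?_
  rintro w' ⟨⟨h4, h5⟩, h6, h7⟩
  obtain ⟨a, ha, h8⟩ := hv w' h4 h5
  have h9 := hσ.tr i (F.j a) _ ⟨h6, F.src a w' ha⟩ (mem_univ _)
  show σ i (Γ.G w') = F.r i w' ^ 2 * h w'
  rw [h9, h8, F.r_eq h7 ha h6, pow_two, LB.mul_g]
  ring

end LocFr

/-- linear change of the parameter -/
def preFrm (F : Frm L Γ m) (B : V2 ≃L[ℂ] V2) : Frm L (Γ.pre B) m where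
  r i w := F.r i (B w)
  tr w hw i j hi hj := F.tr (B w) ((map_ne_zero_iff _ B.injective).2 hw) i j hi hj
  ne w hw i hi := F.ne (B w) ((map_ne_zero_iff _ B.injective).2 hw) i hi
  hol w hw i hi := DifferentiableAt.comp w (g := F.r i)
    (F.hol (B w) ((map_ne_zero_iff _ B.injective).2 hw) i hi) B.differentiableAt
  hom c hc w hw i hi := by
    rw [map_smul]
    exact F.hom c hc (B w) ((map_ne_zero_iff _ B.injective).2 hw) i hi

@[simp] theorem preFrm_r (F : Frm L Γ m) (B : V2 ≃L[ℂ] V2) (i : A.ι) (w : V2) :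
    (preFrm F B).r i w = F.r i (B w) := rfl

/-- the sheet from local frames and a linear change of the parameter -/
def mkSheet {D : Data A (Fin 2)} {a b : Fin 2} (hab : a ≠ b) (ka : D.k a = 2) (kb : D.k b = 2)
    (F : LocFr (D.L a) Γ 0) (F' : LocFr (D.L b) Γ 1) (B : V2 ≃L[ℂ] V2) {q : V2 → ℂ}
    (hq : Continuous q) (hB : ∀ x : V2, q (B x) = x 0 * x 1)
    (hva : ∀ w : V2, w 0 ≠ 0 → w 1 ≠ 0 → ∃ c, w ∈ F.O c ∧ D.s a (F.j c) (Γ.G w) = F.f c w ^ 2)
    (hvb : ∀ w : V2, w 0 ≠ 0 → w 1 ≠ 0 → ∃ c, w ∈ F'.O c ∧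
      D.s b (F'.j c) (Γ.G w) = F'.f c w ^ 2 * q w) : Sheet D a b (Γ.pre B) where
  hab := hab
  ka := ka
  kb := kb
  fa := preFrm F.toFrm B
  fb := preFrm F'.toFrm B
  sa w hw i hi := by
    have hs : IsHS (D.L a ^ 2) univ (D.s a) := by
      have := D.hs a
      rwa [ka] at this
    have h1 := F.val hs (h := fun _ => 1) continuous_const (fun w h0 h1 => by
      obtain ⟨c, hc, h2⟩ := hva w h0 h1
      exact ⟨c, hc, by rw [h2, mul_one]⟩) ((map_ne_zero_iff _ B.injective).2 hw) hi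
    rw [mul_one] at h1
    exact h1
  sb w hw i hi := by
    have hs : IsHS (D.L b ^ 2) univ (D.s b) := by
      have := D.hs b
      rwa [kb] at this
    have h1 := F'.val hs hq hvb ((map_ne_zero_iff _ B.injective).2 hw) hi
    rw [hB] at h1
    exact h1

/-! ### the linear change of the parameter -/

/-- `x ↦ ((x₀ - x₁) / 2γ, (x₀ + x₁) / 2)` -/
def Bg (γ : ℂ) (hγ : γ ≠ 0) : V2 ≃L[ℂ] V2 :=
  LinearEquiv.toContinuousLinearEquiv
    { toFun := fun x => ![(x 0 - x 1) / (2 * γ), (x 0 + x 1) / 2]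
      map_add' := fun x y => v2_ext (by simp; ring) (by simp; ring)
      map_smul' := fun c x => v2_ext (by simp; ring) (by simp; ring)
      invFun := fun w => ![w 1 + γ * w 0, w 1 - γ * w 0]
      left_inv := fun x => v2_ext (by simp; field_simp; ring) (by simp; field_simp; ring)
      right_inv := fun w => v2_ext (by simp; field_simp; ring) (by simp) }

@[simp] theorem Bg_zero (γ : ℂ) (hγ : γ ≠ 0) (x : V2) : Bg γ hγ x 0 = (x 0 - x 1) / (2 * γ) := rfl
@[simp] theorem Bg_one (γ : ℂ) (hγ : γ ≠ 0) (x : V2) : Bg γ hγ x 1 = (x 0 + x 1) / 2 := rfl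

theorem Bg_form (γ : ℂ) (hγ : γ ≠ 0) (x : V2) :
    Bg γ hγ x 1 ^ 2 - γ ^ 2 * Bg γ hγ x 0 ^ 2 = x 0 * x 1 := by
  rw [Bg_zero, Bg_one]
  field_simp
  ring

/-- a square root -/
theorem exists_sq (z : ℂ) : ∃ y : ℂ, y ^ 2 = z := IsAlgClosed.exists_pow_nat_eq z (by norm_num)

end

end Crest.Agent.R272.BlS_266
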