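import Crest.Agent.R272.CpRat1_423
import Crest.Agent.R273.Defs_333

/-!
# R272 / CpRat2 (helper423): rational curves of an abstract projective manifold as `RatCurve` data

* `P1C A`       : holomorphic injective immersion of the projective line (two charts `z`, `1/z`);
* `Trans γ δ`   : transversality of two such curves at common points;
* `Rep T γ φ`   : the rational curve `φ` represents `T ∘ γ`;
* `exists_rep`, `Rep.smooth`, `Rep.tangent_ne`, `Rep.carrier_eq`, `exists_nodal`.
-/

set_option autoImplicit false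
set_option maxHeartbeats 400000

open Set Filter Topology
open Crest.AlgGeometry
open Crest.Agent.R275.Geo Crest.Agent.R275.Core144 Crest.Agent.R273.Defs_333

namespace Crest.Agent.R272.CpRat423

noncomputable section

variable {n : ℕ} {M : Type} [TopologicalSpace M] {A : Atl n M}

/-- holomorphic injective immersion of the projective line into `M`, in the charts `z` (`false`)
and `1/z` (`true`); at every point ONE chart of `M` is enough -/
structure P1C (A : Atl n M) where
  g : Bool → ℂ → M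
  glue : ∀ z : ℂ, z ≠ 0 → g true z⁻¹ = g false z
  cont : ∀ b, Continuous (g b)
  hol : ∀ b z, ∃ i, g b z ∈ (A.e i).source ∧ DifferentiableAt ℂ (fun w => A.e i (g b w)) z ∧
    deriv (fun w => A.e i (g b w)) z ≠ 0
  inj : Function.Injective (g false)
  ninf : g true 0 ∉ range (g false)

/-- the image of the curve -/
def P1C.img (γ : P1C A) : Set M := range (γ.g false) ∪ range (γ.g true)

/-- transversality at all common points (ONE chart at each common point is enough) -/
def Trans (γ δ : P1C A) : Prop :=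
  ∀ b z b' z', γ.g b z = δ.g b' z' → ∃ i, γ.g b z ∈ (A.e i).source ∧
    ¬ ∃ c : ℂ, deriv (fun w => A.e i (δ.g b' w)) z' = c • deriv (fun w => A.e i (γ.g b w)) z

/-! ### change of chart for curves -/

theorem diff_chart {γ : ℂ → M} {z : ℂ} (hc : ContinuousAt γ z) {i j : A.ι}
    (hi : γ z ∈ (A.e i).source) (hj : γ z ∈ (A.e j).source)
    (hd : DifferentiableAt ℂ (fun w => A.e i (γ w)) z) :
    DifferentiableAt ℂ (fun w => A.e j (γ w)) z := by
  have ho : IsOpen {w | w ∈ (A.e i).target ∧ (A.e i).symm w ∈ (A.e j).source} :=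
    isOpen_ov (A := A) i j
  have hm : A.e i (γ z) ∈ {w | w ∈ (A.e i).target ∧ (A.e i).symm w ∈ (A.e j).source} :=
    ⟨(A.e i).map_source hi, by rw [(A.e i).left_inv hi]; exact hj⟩
  have h2 : DifferentiableAt ℂ (fun w => A.e j ((A.e i).symm w)) (A.e i (γ z)) :=
    (A.holo i j).differentiableAt (ho.mem_nhds hm)
  have h3 := DifferentiableAt.comp z (f := fun w => A.e i (γ w)) h2 hd
  refine h3.congr_of_eventuallyEq ?_
  filter_upwards [hc.eventually ((A.e i).open_source.mem_nhds hi)] with w hw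
  simp [Function.comp, (A.e i).left_inv hw]

/-- the derivative in one chart is the image of the derivative in the other one -/
theorem deriv_chart {γ : ℂ → M} {z : ℂ} (hc : ContinuousAt γ z) {i j : A.ι}
    (hi : γ z ∈ (A.e i).source) (hj : γ z ∈ (A.e j).source)
    (hd : DifferentiableAt ℂ (fun w => A.e i (γ w)) z) :
    deriv (fun w => A.e j (γ w)) z =
      fderiv ℂ (fun w => A.e j ((A.e i).symm w)) (A.e i (γ z)) (deriv (fun w => A.e i (γ w)) z) := by
  have ho : IsOpen {w | w ∈ (A.e i).target ∧ (A.e i).symm w ∈ (A.e j).source} :=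
    isOpen_ov (A := A) i j
  have hm : A.e i (γ z) ∈ {w | w ∈ (A.e i).target ∧ (A.e i).symm w ∈ (A.e j).source} :=
    ⟨(A.e i).map_source hi, by rw [(A.e i).left_inv hi]; exact hj⟩
  have h2 : DifferentiableAt ℂ (fun w => A.e j ((A.e i).symm w)) (A.e i (γ z)) :=
    (A.holo i j).differentiableAt (ho.mem_nhds hm)
  have h3 := h2.hasFDerivAt.comp_hasDerivAt z hd.hasDerivAt
  have h4 : HasDerivAt (fun w => A.e j (γ w))
      (fderiv ℂ (fun w => A.e j ((A.e i).symm w)) (A.e i (γ z))
        (deriv (fun w => A.e i (γ w)) z)) z := by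
    refine h3.congr_of_eventuallyEq ?_
    filter_upwards [hc.eventually ((A.e i).open_source.mem_nhds hi)] with w hw
    simp [Function.comp, (A.e i).left_inv hw]
  exact h4.deriv

namespace P1C

variable (γ δ : P1C A)

theorem diffAt {b : Bool} {z : ℂ} {i : A.ι} (hi : γ.g b z ∈ (A.e i).source) :
    DifferentiableAt ℂ (fun w => A.e i (γ.g b w)) z := by
  obtain ⟨j, hj, hd, -⟩ := γ.hol b z
  exact diff_chart (γ.cont b).continuousAt hj hi hd

theorem deriv_ne {b : Bool} {z : ℂ} {i : A.ι} (hi : γ.g b z ∈ (A.e i).source) :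
    deriv (fun w => A.e i (γ.g b w)) z ≠ 0 := by
  obtain ⟨j, hj, hd, h0⟩ := γ.hol b z
  intro h
  apply h0
  rw [deriv_chart (γ.cont b).continuousAt hi hj (γ.diffAt hi), h, map_zero]

theorem mem_img {b : Bool} {z : ℂ} : γ.g b z ∈ γ.img := by
  cases b
  · exact Or.inl ⟨z, rfl⟩
  · exact Or.inr ⟨z, rfl⟩

theorem mem_img_iff {x : M} : x ∈ γ.img ↔ ∃ b z, γ.g b z = x := by
  constructor
  · rintro (⟨z, h⟩ | ⟨z, h⟩)
    · exact ⟨_, _, h⟩
    · exact ⟨_, _, h⟩
  · rintro ⟨b, z, rfl⟩
    exact γ.mem_img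

theorem glue' {z : ℂ} (hz : z ≠ 0) : γ.g true z = γ.g false z⁻¹ := by
  rw [← γ.glue z⁻¹ (inv_ne_zero hz), inv_inv]

/-- equal values only at the same point of the projective line -/
theorem pt_of_eq {b b' : Bool} {z z' : ℂ} (h : γ.g b z = γ.g b' z') :
    ∃ a : ℂ, pt b' z' = a • pt b z := by
  have key : ∀ {z w : ℂ}, γ.g false z = γ.g true w → w ≠ 0 ∧ z = w⁻¹ := by
    intro z w h
    have hw : w ≠ 0 := by
      rintro rfl
      exact γ.ninf ⟨z, h⟩
    refine ⟨hw, ?_⟩
    rw [γ.glue' hw] at h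
    exact γ.inj h
  cases b <;> cases b'
  · exact ⟨1, by rw [one_smul, γ.inj h]⟩
  · obtain ⟨hw, hz⟩ := key h
    exact ⟨z', by rw [hz, pt_true_eq hw]⟩
  · obtain ⟨hw, hz⟩ := key h.symm
    refine ⟨z⁻¹, ?_⟩
    rw [hz, pt_true_eq hw, inv_smul_smul₀ hw]
  · by_cases hz : z = 0
    · by_cases hz' : z' = 0
      · exact ⟨1, by rw [hz, hz', one_smul]⟩
      · exfalso
        subst hz
        rw [γ.glue' hz'] at h
        exact γ.ninf ⟨_, h.symm⟩
    · rw [γ.glue' hz] at h
      obtain ⟨hw, hzz⟩ := key h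
      have : z = z' := inv_injective hzz
      exact ⟨1, by rw [this, one_smul]⟩

end P1C

/-! ### homogeneous coordinates -/

section Proj

variable (P : ProjD A)

theorem diffF {i : A.ι} {x : M} (hx : x ∈ (A.e i).source) :
    DifferentiableAt ℂ (fun w => P.F i ((A.e i).symm w)) (A.e i x) := by
  rw [differentiableAt_pi]
  intro k
  exact (P.hol i k).diffAt isOpen_univ hx (mem_univ x)

variable {P}

/-- `T` is the map to the frozen projective space given by the homogeneous coordinates of `P` -/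
def IsCP (P : ProjD A) (T : M → CPn P.N) : Prop :=
  ∀ i x (hx : x ∈ (A.e i).source), T x = CPn.mk (P.F i x) (P.ne i x hx)

variable {T : M → CPn P.N} (hT : IsCP P T)

include hT

theorem IsCP.injective : Function.Injective T := by
  intro x y hxy
  obtain ⟨i, hi⟩ := A.cover x
  obtain ⟨j, hj⟩ := A.cover y
  rw [hT i x hi, hT j y hj] at hxy
  obtain ⟨a, ha⟩ := (Projectivization.mk_eq_mk_iff' ℂ _ _ _ _).1 hxy
  exact P.inj i j x hi y hj ⟨a, ha.symm⟩

/-- the derivative of the homogeneous coordinates along the curve -/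
theorem hasDerivAt_F (γ : P1C A) {b : Bool} {z : ℂ} {i : A.ι} (hi : γ.g b z ∈ (A.e i).source) :
    HasDerivAt (fun w => P.F i (γ.g b w))
      (fderiv ℂ (fun w => P.F i ((A.e i).symm w)) (A.e i (γ.g b z))
        (deriv (fun w => A.e i (γ.g b w)) z)) z := by
  have h3 := (diffF P hi).hasFDerivAt.comp_hasDerivAt z (γ.diffAt hi).hasDerivAt
  refine h3.congr_of_eventuallyEq ?_
  filter_upwards [(γ.cont b).continuousAt.eventually ((A.e i).open_source.mem_nhds hi)] with w hw
  simp [Function.comp, (A.e i).left_inv hw]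

theorem isLift_F (γ : P1C A) {b : Bool} {z : ℂ} {i : A.ι} (hi : γ.g b z ∈ (A.e i).source) :
    IsLift (fun w => T (γ.g b w)) (fun w => P.F i (γ.g b w)) z := by
  have hev : ∀ᶠ w in 𝓝 z, γ.g b w ∈ (A.e i).source :=
    (γ.cont b).continuousAt.eventually ((A.e i).open_source.mem_nhds hi)
  refine ⟨?_, ?_⟩
  · rw [Complex.analyticAt_iff_eventually_differentiableAt]
    filter_upwards [hev] with w hw
    exact (hasDerivAt_F hT γ hw).differentiableAt
  · filter_upwards [hev] with w hw
    exact ⟨P.ne i _ hw, hT i _ hw⟩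

omit hT in
/-- the rational curve `φ` represents the curve `T ∘ γ` -/
def Rep {N : ℕ} (T : M → CPn N) (γ : P1C A) (φ : RatCurve N) : Prop :=
  ∀ b z, T (γ.g b z) = CPn.mk (φ.vec (pt b z)) (φ.noBase _ (pt_ne b z))

omit hT in
theorem Rep.mk_eq {N : ℕ} {T : M → CPn N} {γ : P1C A} {φ : RatCurve N} (h : Rep T γ φ)
    {b : Bool} {z c : ℂ} (hst : c • pt b z ≠ 0) :
    CPn.mk (φ.vec (c • pt b z)) (φ.noBase _ hst) = T (γ.g b z) := by
  rw [h b z]
  exact mk_eq_of_smul (φ.noBase _ hst) (φ.noBase _ (pt_ne b z)) (vec_smul φ c _)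

/-- every `P1C` is given by binary forms -/
theorem exists_rep (γ : P1C A) : ∃ φ : RatCurve P.N, Rep T γ φ := by
  refine exists_ratCurve (fun b z => T (γ.g b z)) (fun b z => ?_) (fun z hz => ?_) ⟨0, 1, ?_⟩
  · obtain ⟨i, hi⟩ := A.cover (γ.g b z)
    exact ⟨_, isLift_F hT γ hi⟩
  · show T _ = T _
    rw [γ.glue z hz]
  · intro h
    exact zero_ne_one (γ.inj (hT.injective h))

omit hT in
theorem Rep.isLift {N : ℕ} {T : M → CPn N} {γ : P1C A} {φ : RatCurve N} (h : Rep T γ φ)
    (b : Bool) (z : ℂ) : IsLift (fun w => T (γ.g b w)) (fun w => φ.vec (pt b w)) z := by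
  refine ⟨?_, Eventually.of_forall fun w => ⟨φ.noBase _ (pt_ne b w), h b w⟩⟩
  have hd : Differentiable ℂ (fun w => φ.vec (pt b w)) := fun w =>
    (hasDerivAt_vec φ b w).differentiableAt
  exact hd.analyticAt z

theorem Rep.tangent_eq {γ : P1C A} {φ : RatCurve P.N} (h : Rep T γ φ) {b : Bool} {z : ℂ}
    {i : A.ι} (hi : γ.g b z ∈ (A.e i).source) :
    φ.tangentPlane (pt b z) = Submodule.span ℂ {P.F i (γ.g b z),
      fderiv ℂ (fun w => P.F i ((A.e i).symm w)) (A.e i (γ.g b z))
        (deriv (fun w => A.e i (γ.g b w)) z)} := by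
  have e1 : deriv (fun w => φ.vec (pt b w)) z = φ.deriv (mi b) (pt b z) :=
    (hasDerivAt_vec φ b z).deriv
  have e2 := (hasDerivAt_F hT γ hi).deriv
  have k1 : IsLift (fun w => T (γ.g b w)) (fun w => φ.vec (pt b w)) z := h.isLift b z
  have k2 : IsLift (fun w => T (γ.g b w)) (fun w => P.F i (γ.g b w)) z := isLift_F hT γ hi
  have h1 := span_lift k1 k2
  have h2 := span_lift k2 k1
  beta_reduce at h1 h2
  rw [e1, e2] at h1 h2
  rw [tangentPlane_pt]
  exact le_antisymm h1 h2

omit hT in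
theorem range_pair {V : Type*} (a b : V) : Set.range ![a, b] = {a, b} := by
  ext v
  simp only [Set.mem_range, Set.mem_insert_iff, Set.mem_singleton_iff, Fin.exists_fin_two,
    Matrix.cons_val_zero, Matrix.cons_val_one]
  constructor
  · rintro (h | h)
    · exact Or.inl h.symm
    · exact Or.inr h.symm
  · rintro (h | h)
    · exact Or.inl h.symm
    · exact Or.inr h.symm

/-- `φ` is immersive -/
theorem Rep.linInd {γ : P1C A} {φ : RatCurve P.N} (h : Rep T γ φ) (b : Bool) (z : ℂ) :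
    LinearIndependent ℂ (fun i : Fin 2 => φ.deriv i (pt b z)) := by
  obtain ⟨i, hi⟩ := A.cover (γ.g b z)
  have h1 : LinearIndependent ℂ ![P.F i (γ.g b z),
      fderiv ℂ (fun w => P.F i ((A.e i).symm w)) (A.e i (γ.g b z))
        (deriv (fun w => A.e i (γ.g b w)) z)] := by
    rw [LinearIndependent.pair_iff]
    intro s t hst
    have ht : t = 0 := by
      by_contra ht
      have h2 : fderiv ℂ (fun w => P.F i ((A.e i).symm w)) (A.e i (γ.g b z))
          (deriv (fun w => A.e i (γ.g b w)) z) =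
          (-(s / t)) • P.F i ((A.e i).symm (A.e i (γ.g b z))) := by
        rw [(A.e i).left_inv hi]
        have h3 : t • fderiv ℂ (fun w => P.F i ((A.e i).symm w)) (A.e i (γ.g b z))
          (deriv (fun w => A.e i (γ.g b w)) z) = -(s • P.F i (γ.g b z)) := by
          rw [eq_neg_iff_add_eq_zero, ← hst]
          exact add_comm _ _
        calc _ = t⁻¹ • (t • fderiv ℂ (fun w => P.F i ((A.e i).symm w)) (A.e i (γ.g b z))
              (deriv (fun w => A.e i (γ.g b w)) z)) := (inv_smul_smul₀ ht _).symm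
          _ = _ := by
            rw [h3, smul_neg, smul_smul, neg_smul]
            congr 2
            field_simp
      exact γ.deriv_ne hi (P.imm i _ ((A.e i).map_source hi) _ ⟨_, h2⟩)
    refine ⟨?_, ht⟩
    rw [ht, zero_smul, add_zero] at hst
    exact (smul_eq_zero.1 hst).resolve_right (P.ne i _ hi)
  rw [linearIndependent_iff_card_eq_finrank_span, range_pair] at h1
  apply linInd_pt
  rw [linearIndependent_iff_card_eq_finrank_span, range_pair]
  have h2 := h.tangent_eq hT hi
  rw [tangentPlane_pt] at h2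
  unfold Set.finrank at h1 ⊢
  rw [h2]
  exact h1

/-- `φ` is smoothly embedded -/
theorem Rep.smooth {γ : P1C A} {φ : RatCurve P.N} (h : Rep T γ φ) : φ.IsSmoothEmbedded := by
  constructor
  · intro st uv hst huv heq
    obtain ⟨b, z, c, hc, rfl⟩ := exists_pt hst
    obtain ⟨b', z', c', hc', rfl⟩ := exists_pt huv
    rw [h.mk_eq hst, h.mk_eq huv] at heq
    obtain ⟨a, ha⟩ := γ.pt_of_eq (hT.injective heq)
    refine ⟨c' * a * c⁻¹, ?_⟩
    rw [ha, smul_smul, smul_smul, mul_assoc, inv_mul_cancel₀ hc, mul_one]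
  · intro st hst
    obtain ⟨b, z, c, hc, rfl⟩ := exists_pt hst
    exact linInd_smul φ hc _ (h.linInd hT b z)

/-- transversal curves have different tangent planes at common points -/
theorem Rep.tangent_ne {γ δ : P1C A} {φ ψ : RatCurve P.N} (h : Rep T γ φ) (k : Rep T δ ψ)
    (ht : Trans γ δ) (st uv : Fin 2 → ℂ) (hst : st ≠ 0) (huv : uv ≠ 0)
    (heq : CPn.mk (φ.vec st) (φ.noBase st hst) = CPn.mk (ψ.vec uv) (ψ.noBase uv huv)) :
    φ.tangentPlane st ≠ ψ.tangentPlane uv := by
  obtain ⟨b, z, c, hc, rfl⟩ := exists_pt hst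
  obtain ⟨b', z', c', hc', rfl⟩ := exists_pt huv
  rw [h.mk_eq hst, k.mk_eq huv] at heq
  have hx := hT.injective heq
  obtain ⟨i, hi, hnp⟩ := ht b z b' z' hx
  have hi' : δ.g b' z' ∈ (A.e i).source := hx ▸ hi
  rw [tangentPlane_smul φ hc, tangentPlane_smul ψ hc', h.tangent_eq hT hi, k.tangent_eq hT hi',
    ← hx]
  intro hsp
  have hmem : fderiv ℂ (fun w => P.F i ((A.e i).symm w)) (A.e i (γ.g b z))
      (deriv (fun w => A.e i (δ.g b' w)) z') ∈ Submodule.span ℂ {P.F i (γ.g b z),
      fderiv ℂ (fun w => P.F i ((A.e i).symm w)) (A.e i (γ.g b z))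
        (deriv (fun w => A.e i (γ.g b w)) z)} := by
    rw [hsp]
    exact Submodule.subset_span (by simp)
  rw [Submodule.mem_span_pair] at hmem
  obtain ⟨s, t, hst'⟩ := hmem
  have h0 : deriv (fun w => A.e i (δ.g b' w)) z' - t • deriv (fun w => A.e i (γ.g b w)) z = 0 := by
    refine P.imm i _ ((A.e i).map_source hi) _ ⟨s, ?_⟩
    rw [map_sub, map_smul, ← hst', (A.e i).left_inv hi]
    exact add_sub_cancel_right _ _
  exact hnp ⟨t, sub_eq_zero.1 h0⟩

omit hT in
theorem Rep.carrier_eq {N : ℕ} {T : M → CPn N} {γ : P1C A} {φ : RatCurve N} (h : Rep T γ φ) :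
    φ.carrier = T '' γ.img := by
  ext x
  constructor
  · rintro ⟨st, hst, rfl⟩
    obtain ⟨b, z, c, hc, rfl⟩ := exists_pt hst
    refine ⟨γ.g b z, γ.mem_img, ?_⟩
    exact (h.mk_eq hst).symm
  · rintro ⟨y, hy, rfl⟩
    obtain ⟨b, z, rfl⟩ := γ.mem_img_iff.1 hy
    exact ⟨pt b z, pt_ne b z, h b z⟩

/-- a transversal family of `P1C`s without triple points is a nodal union -/
theorem exists_nodal {k : ℕ} (γ : Fin k → P1C A) (ht : ∀ i j, i ≠ j → Trans (γ i) (γ j))
    (h3 : ∀ i j l, i ≠ j → j ≠ l → i ≠ l → (γ i).img ∩ (γ j).img ∩ (γ l).img = ∅) :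
    ∃ φ : Fin k → RatCurve P.N, RatCurve.IsNodalUnion φ ∧
      RatCurve.union φ = T '' ⋃ i, (γ i).img := by
  choose φ hφ using fun i => exists_rep hT (γ i)
  refine ⟨φ, ⟨fun i => (hφ i).smooth hT, fun i j hij => (hφ i).tangent_ne hT (hφ j) (ht i j hij),
    fun i j l h1 h2 h4 => ?_⟩, ?_⟩
  · rw [(hφ i).carrier_eq, (hφ j).carrier_eq, (hφ l).carrier_eq, ← image_inter hT.injective,
      ← image_inter hT.injective, h3 i j l h1 h2 h4, image_empty]
  · unfold RatCurve.union
    rw [image_iUnion]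
    exact iUnion_congr fun i => (hφ i).carrier_eq

end Proj

end

end Crest.Agent.R272.CpRat423
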