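import Crest.Agent.R272.SubF_54
import Crest.Agent.R275.ProdAtl_363

/-!
# R272 (S0415), MODEL tools (helper54): products of families, scalar holomorphic functions

`prodFam F G : Fam (n + m) (X × Y)` : charts `(x, y) ↦ app (F.e i x) (G.e j y)`;
`prod_fst`, `prod_snd`, `HolC.prodMk`, `holC_prod_iff`;
`HF F U f` : the function `f : X → ℂ` is holomorphic on the open set `U` (in the charts of `F`);
`HFA F f x`: the same at the point `x` (differentiable in the charts at `x`).
-/

set_option autoImplicit false
set_option linter.unusedSectionVars false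

open Set Filter Topology Complex
open scoped ContDiff Matrix ComplexConjugate Manifold

namespace Crest.Agent.R272.FamP_54

open Crest.Agent.R275.Geo Crest.Agent.R273.Fam_835 Crest.Agent.R275.Prod363

noncomputable section

variable {n N k m l : ℕ} {X Y P Q : Type} [TopologicalSpace X] [TopologicalSpace P]
  [TopologicalSpace Q] [TopologicalSpace Y] {F : Fam N X} {G : Fam m Y} {E : Fam k P}
  {H : Fam l Q}

/-! ### products -/

/-- chart of a product -/
def prodE (e : OpenPartialHomeomorph X (Cn N)) (e' : OpenPartialHomeomorph Y (Cn m)) :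
    OpenPartialHomeomorph (X × Y) (Cn (N + m)) :=
  (e.prod e').transHomeomorph (appH N m).toHomeomorph

@[simp] theorem prodE_apply (e : OpenPartialHomeomorph X (Cn N))
    (e' : OpenPartialHomeomorph Y (Cn m)) (p : X × Y) : prodE e e' p = app (e p.1) (e' p.2) := rfl

@[simp] theorem prodE_symm (e : OpenPartialHomeomorph X (Cn N))
    (e' : OpenPartialHomeomorph Y (Cn m)) (z : Cn (N + m)) :
    (prodE e e').symm z = (e.symm (fstL N m z), e'.symm (sndL N m z)) := rfl

@[simp] theorem prodE_source (e : OpenPartialHomeomorph X (Cn N))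
    (e' : OpenPartialHomeomorph Y (Cn m)) : (prodE e e').source = e.source ×ˢ e'.source := rfl

theorem mem_prodE_target {e : OpenPartialHomeomorph X (Cn N)}
    {e' : OpenPartialHomeomorph Y (Cn m)} {z : Cn (N + m)} :
    z ∈ (prodE e e').target ↔ fstL N m z ∈ e.target ∧ sndL N m z ∈ e'.target := Iff.rfl

/-- the product family -/
def prodFam (F : Fam N X) (G : Fam m Y) : Fam (N + m) (X × Y) where
  ι := F.ι × G.ι
  e i := prodE (F.e i.1) (G.e i.2)
  cover x := by
    obtain ⟨i, hi⟩ := F.cover x.1
    obtain ⟨j, hj⟩ := G.cover x.2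
    exact ⟨(i, j), hi, hj⟩
  holo i j := by
    rintro z ⟨hz1, hz2⟩
    refine DifferentiableAt.differentiableWithinAt ?_
    have h1 : DifferentiableAt ℂ (fun w => F.e j.1 ((F.e i.1).symm w)) (fstL N m z) :=
      (F.holo i.1 j.1).differentiableAt (((F.e i.1).isOpen_inter_preimage_symm
        (F.e j.1).open_source).mem_nhds ⟨hz1.1, hz2.1⟩)
    have h2 : DifferentiableAt ℂ (fun w => G.e j.2 ((G.e i.2).symm w)) (sndL N m z) :=
      (G.holo i.2 j.2).differentiableAt (((G.e i.2).isOpen_inter_preimage_symm
        (G.e j.2).open_source).mem_nhds ⟨hz1.2, hz2.2⟩)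
    have h3 : DifferentiableAt ℂ (fun z => F.e j.1 ((F.e i.1).symm (fstL N m z))) z :=
      DifferentiableAt.comp z (g := fun w => F.e j.1 ((F.e i.1).symm w)) h1
        (fstL N m).differentiableAt
    have h4 : DifferentiableAt ℂ (fun z => G.e j.2 ((G.e i.2).symm (sndL N m z))) z :=
      DifferentiableAt.comp z (g := fun w => G.e j.2 ((G.e i.2).symm w)) h2
        (sndL N m).differentiableAt
    exact DifferentiableAt.comp z (g := appL N m) (appL N m).differentiableAt (h3.prodMk h4)

theorem prodFam_e (i : F.ι) (j : G.ι) : (prodFam F G).e (i, j) = prodE (F.e i) (G.e j) := rfl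

theorem prod_fst : HolC (prodFam F G) F Prod.fst := by
  refine holC_of_local continuous_fst fun x => ?_
  obtain ⟨i, hi⟩ := F.cover x.1
  obtain ⟨j, hj⟩ := G.cover x.2
  refine ⟨(i, j), i, ⟨hi, hj⟩, hi, ?_⟩
  have h1 : DifferentiableAt ℂ (fun z => fstL N m z) (prodE (F.e i) (G.e j) x) :=
    (fstL N m).differentiableAt
  refine h1.congr_of_eventuallyEq ?_
  filter_upwards [(prodE (F.e i) (G.e j)).open_target.mem_nhds
    ((prodE (F.e i) (G.e j)).map_source ⟨hi, hj⟩)] with z hz
  exact (F.e i).right_inv hz.1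

theorem prod_snd : HolC (prodFam F G) G Prod.snd := by
  refine holC_of_local continuous_snd fun x => ?_
  obtain ⟨i, hi⟩ := F.cover x.1
  obtain ⟨j, hj⟩ := G.cover x.2
  refine ⟨(i, j), j, ⟨hi, hj⟩, hj, ?_⟩
  have h1 : DifferentiableAt ℂ (fun z => sndL N m z) (prodE (F.e i) (G.e j) x) :=
    (sndL N m).differentiableAt
  refine h1.congr_of_eventuallyEq ?_
  filter_upwards [(prodE (F.e i) (G.e j)).open_target.mem_nhds
    ((prodE (F.e i) (G.e j)).map_source ⟨hi, hj⟩)] with z hz
  exact (G.e j).right_inv hz.2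

theorem prodMk {f : P → X} {g : P → Y} (hf : HolC E F f) (hg : HolC E G g) :
    HolC E (prodFam F G) (fun x => (f x, g x)) := by
  refine ⟨hf.cont.prodMk hg.cont, fun i j => ?_⟩
  rintro z ⟨hz, hz2⟩
  refine DifferentiableAt.differentiableWithinAt ?_
  have h3 : DifferentiableAt ℂ (fun z => F.e j.1 (f ((E.e i).symm z))) z := hf.diffAt hz hz2.1
  have h4 : DifferentiableAt ℂ (fun z => G.e j.2 (g ((E.e i).symm z))) z := hg.diffAt hz hz2.2
  exact DifferentiableAt.comp z (g := appL N m) (appL N m).differentiableAt (h3.prodMk h4)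

theorem holC_prod_iff {f : P → X × Y} :
    HolC E (prodFam F G) f ↔ HolC E F (fun x => (f x).1) ∧ HolC E G (fun x => (f x).2) :=
  ⟨fun h => ⟨prod_fst.comp h, prod_snd.comp h⟩, fun h => prodMk h.1 h.2⟩

/-- product of maps -/
theorem prodMap {f : P → X} {g : Q → Y} (hf : HolC E F f) (hg : HolC H G g) :
    HolC (prodFam E H) (prodFam F G) (fun x => (f x.1, g x.2)) :=
  prodMk (hf.comp prod_fst) (hg.comp prod_snd)

theorem holC_const (y : Y) : HolC E G (fun _ => y) :=
  ⟨continuous_const, fun _ _ => differentiableOn_const _⟩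

/-! ### the model families -/

/-- `Cn n` as a manifold -/
def cnFam (n : ℕ) : Fam n (Cn n) where
  ι := Unit
  e _ := OpenPartialHomeomorph.refl _
  cover _ := ⟨(), mem_univ _⟩
  holo _ _ := differentiableOn_id

/-- the coordinate -/
def oneL : ℂ ≃L[ℂ] Cn 1 :=
  ContinuousLinearEquiv.equivOfInverse
    (LinearMap.toContinuousLinearMap
      { toFun := fun z => WithLp.toLp 2 (fun _ => z)
        map_add' := fun _ _ => rfl
        map_smul' := fun _ _ => rfl })
    (LinearMap.toContinuousLinearMap
      { toFun := fun z => z 0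
        map_add' := fun _ _ => rfl
        map_smul' := fun _ _ => rfl })
    (fun _ => rfl) (fun z => by ext a; fin_cases a; rfl)

@[simp] theorem oneL_apply (c : ℂ) (a : Fin 1) : oneL c a = c := rfl

@[simp] theorem oneL_symm_apply (z : Cn 1) : oneL.symm z = z 0 := rfl

/-- `ℂ` as a manifold -/
def cFam : Fam 1 ℂ where
  ι := Unit
  e _ := oneL.toHomeomorph.toOpenPartialHomeomorph
  cover _ := ⟨(), mem_univ _⟩
  holo _ _ := by
    have h : (fun z : Cn 1 => oneL (oneL.symm z)) = id := by
      funext z; exact oneL.apply_symm_apply z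
    show DifferentiableOn ℂ (fun z : Cn 1 => oneL (oneL.symm z)) _
    rw [h]
    exact differentiableOn_id

@[simp] theorem cFam_apply (i : cFam.ι) (c : ℂ) : cFam.e i c = oneL c := rfl

@[simp] theorem cFam_symm (i : cFam.ι) (z : Cn 1) : (cFam.e i).symm z = z 0 := rfl

@[simp] theorem cFam_source (i : cFam.ι) : (cFam.e i).source = univ := rfl

@[simp] theorem cFam_target (i : cFam.ι) : (cFam.e i).target = univ := rfl

/-! ### scalar functions -/

section scalar

variable {W : Type*} [NormedAddCommGroup W] [NormedSpace ℂ W]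

/-- `f` is complex differentiable at `x` in the charts -/
def HFA (F : Fam N X) (f : X → W) (x : X) : Prop :=
  ∀ i, x ∈ (F.e i).source → DifferentiableAt ℂ (fun z => f ((F.e i).symm z)) (F.e i x)

/-- `f` is holomorphic on the (open) set `U` -/
def HF (F : Fam N X) (U : Set X) (f : X → W) : Prop := ∀ x ∈ U, HFA F f x

theorem HFA.of {f : X → W} {x : X} (i : F.ι) (hi : x ∈ (F.e i).source)
    (h : DifferentiableAt ℂ (fun z => f ((F.e i).symm z)) (F.e i x)) : HFA F f x := by
  intro j hj
  have h1 : DifferentiableAt ℂ (fun z => F.e i ((F.e j).symm z)) (F.e j x) :=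
    (F.holo j i).differentiableAt (((F.e j).isOpen_inter_preimage_symm
      (F.e i).open_source).mem_nhds ⟨(F.e j).map_source hj, by
        rw [mem_preimage, (F.e j).left_inv hj]; exact hi⟩)
  have e1 : F.e i ((F.e j).symm (F.e j x)) = F.e i x := by rw [(F.e j).left_inv hj]
  have h2 : DifferentiableAt ℂ (fun z => f ((F.e i).symm (F.e i ((F.e j).symm z)))) (F.e j x) :=
    DifferentiableAt.comp (F.e j x) (g := fun z => f ((F.e i).symm z)) (by rw [e1]; exact h) h1
  refine h2.congr_of_eventuallyEq ?_
  have h3 : ContinuousAt (F.e j).symm (F.e j x) := (F.e j).continuousAt_symm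
    ((F.e j).map_source hj)
  have h4 : ∀ᶠ z in 𝓝 (F.e j x), (F.e j).symm z ∈ (F.e i).source :=
    h3.preimage_mem_nhds (by rw [(F.e j).left_inv hj]; exact (F.e i).open_source.mem_nhds hi)
  filter_upwards [h4] with z hz
  rw [(F.e i).left_inv hz]

theorem HFA.continuousAt {f : X → W} {x : X} (h : HFA F f x) : ContinuousAt f x := by
  obtain ⟨i, hi⟩ := F.cover x
  have h1 : ContinuousAt (fun y => f ((F.e i).symm (F.e i y))) x :=
    ContinuousAt.comp (g := fun z => f ((F.e i).symm z)) (h i hi).continuousAt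
      ((F.e i).continuousAt hi)
  refine h1.congr ?_
  filter_upwards [(F.e i).open_source.mem_nhds hi] with y hy
  rw [(F.e i).left_inv hy]

theorem HF.continuousOn {f : X → W} {U : Set X} (h : HF F U f) : ContinuousOn f U :=
  fun x hx => (h x hx).continuousAt.continuousWithinAt

theorem HF.continuous {f : X → W} (h : HF F univ f) : Continuous f :=
  continuous_iff_continuousAt.2 fun x => (h x trivial).continuousAt

theorem HF.mono {f : X → W} {U V : Set X} (h : HF F U f) (hVU : V ⊆ U) : HF F V f :=
  fun x hx => h x (hVU hx)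

/-- near `x`, in the chart `i` -/
theorem eventually_chart {i : F.ι} {x : X} (hx : x ∈ (F.e i).source) {T : X → Prop}
    (hT : ∀ᶠ y in 𝓝 x, T y) : ∀ᶠ z in 𝓝 (F.e i x), T ((F.e i).symm z) := by
  have h1 : ContinuousAt (F.e i).symm (F.e i x) :=
    (F.e i).continuousAt_symm ((F.e i).map_source hx)
  refine h1.eventually ?_
  rw [(F.e i).left_inv hx]
  exact hT

theorem HFA.congr {f g : X → W} {x : X} (h : HFA F f x) (he : ∀ᶠ y in 𝓝 x, g y = f y) :
    HFA F g x := fun i hi => (h i hi).congr_of_eventuallyEq (eventually_chart hi he)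

theorem HF.congr {f g : X → W} {U : Set X} (hU : IsOpen U) (h : HF F U f)
    (he : ∀ x ∈ U, g x = f x) : HF F U g :=
  fun x hx => (h x hx).congr (by filter_upwards [hU.mem_nhds hx] with y hy using he y hy)

theorem HFA.const (c : W) (x : X) : HFA F (fun _ => c) x := fun _ _ => differentiableAt_const _

theorem HFA.add {f g : X → W} {x : X} (hf : HFA F f x) (hg : HFA F g x) :
    HFA F (fun y => f y + g y) x := fun i hi => (hf i hi).add (hg i hi)

theorem HFA.sub {f g : X → W} {x : X} (hf : HFA F f x) (hg : HFA F g x) :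
    HFA F (fun y => f y - g y) x := fun i hi => (hf i hi).sub (hg i hi)

theorem HFA.neg {f : X → W} {x : X} (hf : HFA F f x) : HFA F (fun y => - f y) x :=
  fun i hi => (hf i hi).neg

theorem HFA.mul {f g : X → ℂ} {x : X} (hf : HFA F f x) (hg : HFA F g x) :
    HFA F (fun y => f y * g y) x := fun i hi => (hf i hi).mul (hg i hi)

theorem HFA.smul {f : X → ℂ} {g : X → W} {x : X} (hf : HFA F f x) (hg : HFA F g x) :
    HFA F (fun y => f y • g y) x := fun i hi => (hf i hi).smul (hg i hi)

theorem HFA.pow {f : X → ℂ} {x : X} (hf : HFA F f x) (r : ℕ) : HFA F (fun y => f y ^ r) x :=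
  fun i hi => (hf i hi).pow r

theorem HFA.inv {f : X → ℂ} {x : X} (hf : HFA F f x) (h0 : f x ≠ 0) :
    HFA F (fun y => (f y)⁻¹) x :=
  fun i hi => (hf i hi).fun_inv (by rw [(F.e i).left_inv hi]; exact h0)

theorem HFA.div {f g : X → ℂ} {x : X} (hf : HFA F f x) (hg : HFA F g x) (h0 : g x ≠ 0) :
    HFA F (fun y => f y / g y) x := by
  simpa only [div_eq_mul_inv] using hf.mul (hg.inv h0)

theorem HFA.prod {ι : Type*} (s : Finset ι) {f : ι → X → ℂ} {x : X}
    (h : ∀ i ∈ s, HFA F (f i) x) : HFA F (fun y => ∏ i ∈ s, f i y) x := by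
  classical
  induction s using Finset.induction_on with
  | empty => simpa using HFA.const (F := F) (1 : ℂ) x
  | insert a s ha ih =>
    have h1 := (h a (Finset.mem_insert_self _ _)).mul
      (ih fun i hi => h i (Finset.mem_insert_of_mem hi))
    refine h1.congr (Eventually.of_forall fun y => ?_)
    rw [Finset.prod_insert ha]

theorem HFA.sum {ι : Type*} (s : Finset ι) {f : ι → X → W} {x : X}
    (h : ∀ i ∈ s, HFA F (f i) x) : HFA F (fun y => ∑ i ∈ s, f i y) x := by
  classical
  induction s using Finset.induction_on with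
  | empty => simpa using HFA.const (F := F) (0 : W) x
  | insert a s ha ih =>
    have h1 := (h a (Finset.mem_insert_self _ _)).add
      (ih fun i hi => h i (Finset.mem_insert_of_mem hi))
    refine h1.congr (Eventually.of_forall fun y => ?_)
    rw [Finset.sum_insert ha]

/-- composition with a differentiable map of normed spaces -/
theorem HFA.comp_left {W' : Type*} [NormedAddCommGroup W'] [NormedSpace ℂ W'] {f : X → W}
    {g : W → W'} {x : X} (hg : DifferentiableAt ℂ g (f x)) (hf : HFA F f x) :
    HFA F (fun y => g (f y)) x := fun i hi =>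
  DifferentiableAt.comp (F.e i x) (g := g) (f := fun z => f ((F.e i).symm z))
    (by simp only [(F.e i).left_inv hi]; exact hg) (hf i hi)

/-- composition with a holomorphic map of manifolds -/
theorem HFA.comp_right {f : X → W} {p : P → X} {x : P} (hf : HFA F f (p x)) (hp : HolC E F p) :
    HFA E (fun y => f (p y)) x := by
  intro i hi
  obtain ⟨j, hj⟩ := F.cover (p x)
  have h1 : DifferentiableAt ℂ (fun z => F.e j (p ((E.e i).symm z))) (E.e i x) :=
    hp.diffAt ((E.e i).map_source hi) (by rw [(E.e i).left_inv hi]; exact hj)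
  have e1 : F.e j (p ((E.e i).symm (E.e i x))) = F.e j (p x) := by rw [(E.e i).left_inv hi]
  have h2 : DifferentiableAt ℂ (fun z => f ((F.e j).symm (F.e j (p ((E.e i).symm z)))))
      (E.e i x) :=
    DifferentiableAt.comp (E.e i x) (g := fun z => f ((F.e j).symm z))
      (by rw [e1]; exact hf j hj) h1
  refine h2.congr_of_eventuallyEq ?_
  have h4 : ∀ᶠ z in 𝓝 (E.e i x), p ((E.e i).symm z) ∈ (F.e j).source :=
    eventually_chart hi (hp.cont.continuousAt.preimage_mem_nhds
      ((F.e j).open_source.mem_nhds hj))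
  filter_upwards [h4] with z hz
  rw [(F.e j).left_inv hz]

theorem HF.comp_right {f : X → W} {U : Set X} {p : P → X} (hf : HF F U f) (hp : HolC E F p) :
    HF E (p ⁻¹' U) (fun y => f (p y)) := fun x hx => HFA.comp_right (hf (p x) hx) hp

/-- the coordinates of a chart are holomorphic -/
theorem hfa_chart {i : F.ι} {x : X} (hi : x ∈ (F.e i).source) : HFA F (fun y => F.e i y) x := by
  refine HFA.of i hi ?_
  have h1 : DifferentiableAt ℂ (fun z : Cn N => z) (F.e i x) := differentiableAt_id
  refine h1.congr_of_eventuallyEq ?_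
  filter_upwards [(F.e i).open_target.mem_nhds ((F.e i).map_source hi)] with z hz
  exact (F.e i).right_inv hz

/-- maps into a manifold are holomorphic iff they are continuous and their coordinates are -/
theorem holC_iff_hfa {p : P → X} (hc : Continuous p) :
    HolC E F p ↔ ∀ x, ∃ j, p x ∈ (F.e j).source ∧ HFA E (fun y => F.e j (p y)) x := by
  constructor
  · intro h x
    obtain ⟨j, hj⟩ := F.cover (p x)
    exact ⟨j, hj, HFA.comp_right (hfa_chart hj) h⟩
  · intro h
    refine holC_of_local hc fun x => ?_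
    obtain ⟨i, hi⟩ := E.cover x
    obtain ⟨j, hj, h1⟩ := h x
    exact ⟨i, j, hi, hj, h1 i hi⟩

theorem hf_iff_holC {f : X → ℂ} : HF F univ f ↔ HolC F cFam f := by
  constructor
  · intro h
    refine (holC_iff_hfa h.continuous).2 fun x => ⟨(), trivial, ?_⟩
    exact HFA.comp_left (g := oneL) oneL.differentiableAt (h x trivial)
  · intro h x _
    have h1 : HFA cFam (fun c : ℂ => c) (f x) := by
      intro i hi
      exact (oneL.symm : Cn 1 ≃L[ℂ] ℂ).differentiableAt
    exact HFA.comp_right (f := fun c : ℂ => c) (p := f) h1 h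

/-- in `Cn n` : plain differentiability -/
theorem hfa_cn {f : Cn n → W} {x : Cn n} : HFA (cnFam n) f x ↔ DifferentiableAt ℂ f x :=
  ⟨fun h => h () trivial, fun h _ _ => h⟩

theorem hfa_c {f : ℂ → W} {x : ℂ} : HFA cFam f x ↔ DifferentiableAt ℂ f x := by
  constructor
  · intro h
    have h1 := h () trivial
    have h2 : DifferentiableAt ℂ (fun c : ℂ => f ((cFam.e ()).symm (oneL c))) x :=
      DifferentiableAt.comp x (g := fun z => f ((cFam.e ()).symm z)) h1 oneL.differentiableAt
    exact h2
  · intro h i hi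
    refine DifferentiableAt.comp (cFam.e i x) (g := f) (f := fun z : Cn 1 => z 0) ?_ ?_
    · simpa using h
    · exact (oneL.symm : Cn 1 ≃L[ℂ] ℂ).differentiableAt

end scalar

/-! ### functions on submanifolds given by slices -/

open Crest.Agent.R272.SubF_54

theorem hfa_sub {S : Set X} (h : IsSl F S n) {W : Type*} [NormedAddCommGroup W]
    [NormedSpace ℂ W] {f : X → W} {x : S} (hf : HFA F f x.1) :
    HFA (slFam h) (fun y : S => f y.1) x := HFA.comp_right hf (slFam_hol h)

/-- a function of the slice coordinates -/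
theorem hfa_sub_of {S : Set X} (h : IsSl F S n) {W : Type*} [NormedAddCommGroup W]
    [NormedSpace ℂ W] {f : S → W} {x : S} (c : Slice F S n) (hx : x.1 ∈ c.dom)
    (g : Cn n → W) (hg : DifferentiableAt ℂ g (c.co x.1)) (he : ∀ᶠ y in 𝓝 x, f y = g (c.co y.1)) :
    HFA (slFam h) f x := by
  have h1 : HFA (slFam h) (fun y : S => c.co y.1) x := by
    obtain ⟨i, hi⟩ := F.cover x.1
    have h2 : HFA F c.co x.1 := HFA.of i hi (c.diffAt_co i hx hi)
    exact hfa_sub h h2
  exact (HFA.comp_left (f := fun y : S => c.co y.1) (g := g) hg h1).congr he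

end

end Crest.Agent.R272.FamP_54
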