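import Crest.Agent.R272.Root5_83
import Crest.Agent.R272.FamP_54
import Crest.Agent.R272.CpRat2_423
import Crest.Agent.R272.DCov4_426

/-!
# R272, S14-ASM (helper414): rational curves (`P1C` of 423) by functions

`CurveAt C g z` : `g : ℂ → X` is continuous and complex differentiable at `z` in the charts of the family `C`;
`P1F C` : parametrised curve `g false`, `g true` (= `g false (1/z)`) such that at every point ONE function, complex
differentiable in the charts, has nonzero derivative along the curve;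
`P1F.cv` : the `P1C A'` for every atlas `A'` compatible with `C` (`Cmp C A'`), with the same image;
`trans_of` : transversality from two functions; `isConnected_img`, `isCompact_img`.
-/

set_option autoImplicit false
set_option linter.unusedSectionVars false

open Set Filter Topology

namespace Crest.Agent.R272.P1F_414

open Crest.Agent.R275.Geo Crest.Agent.R273.Fam_835
open Crest.Agent.R272.CpRat423 Crest.Agent.R272.DCov_426 Crest.Agent.R272.FamP_54

noncomputable section

variable {n m : ℕ} {X Y : Type} [TopologicalSpace X] [TopologicalSpace Y] {C : Fam n X}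
  {D : Fam m Y}

/-- `g` is continuous and complex differentiable at `z`, read in the charts of `C` -/
def CurveAt (C : Fam n X) (g : ℂ → X) (z : ℂ) : Prop :=
  ContinuousAt g z ∧ ∀ i, g z ∈ (C.e i).source → DifferentiableAt ℂ (fun w => C.e i (g w)) z

theorem comp_chart {g : ℂ → X} {z : ℂ} (hc : ContinuousAt g z) {i : C.ι}
    (hi : g z ∈ (C.e i).source) (hd : DifferentiableAt ℂ (fun w => C.e i (g w)) z)
    {W : Type*} [NormedAddCommGroup W] [NormedSpace ℂ W] {f : X → W}
    (hf : DifferentiableAt ℂ (fun w => f ((C.e i).symm w)) (C.e i (g z))) :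
    HasDerivAt (fun w => f (g w)) (fderiv ℂ (fun w => f ((C.e i).symm w)) (C.e i (g z))
      (deriv (fun w => C.e i (g w)) z)) z := by
  have h3 := hf.hasFDerivAt.comp_hasDerivAt z hd.hasDerivAt
  refine h3.congr_of_eventuallyEq ?_
  filter_upwards [hc.eventually ((C.e i).open_source.mem_nhds hi)] with w hw
  simp only [Function.comp, (C.e i).left_inv hw]

/-- one chart is enough -/
theorem CurveAt.of {g : ℂ → X} {z : ℂ} (hc : ContinuousAt g z) (i : C.ι)
    (hi : g z ∈ (C.e i).source) (hd : DifferentiableAt ℂ (fun w => C.e i (g w)) z) :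
    CurveAt C g z := by
  refine ⟨hc, fun j hj => ?_⟩
  have ho : IsOpen ((C.e i).target ∩ (C.e i).symm ⁻¹' (C.e j).source) :=
    (C.e i).isOpen_inter_preimage_symm (C.e j).open_source
  have h2 : DifferentiableAt ℂ (fun w => C.e j ((C.e i).symm w)) (C.e i (g z)) :=
    (C.holo i j).differentiableAt (ho.mem_nhds ⟨(C.e i).map_source hi, by
      rw [mem_preimage, (C.e i).left_inv hi]; exact hj⟩)
  exact (comp_chart hc hi hd h2).differentiableAt

/-- a holomorphic map from `ℂ` is a curve -/
theorem CurveAt.of_holC {g : ℂ → X} (hg : HolC cFam C g) (z : ℂ) : CurveAt C g z := by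
  obtain ⟨i, hi⟩ := C.cover (g z)
  refine CurveAt.of hg.cont.continuousAt i hi ?_
  have h1 := hg.diffAt (i := ()) (j := i) (z := oneL z) (mem_univ _) (by
    show g ((oneL z) 0) ∈ _
    exact hi)
  have h2 : DifferentiableAt ℂ (fun w : ℂ => (oneL w : Cn 1)) z := by
    exact (oneL : ℂ ≃L[ℂ] Cn 1).differentiableAt
  have h3 := DifferentiableAt.comp z
    (g := fun w : Cn 1 => C.e i (g ((cFam.e ()).symm w))) (f := fun w : ℂ => (oneL w : Cn 1)) h1 h2
  exact h3

/-- curves are mapped to curves -/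
theorem CurveAt.map {g : ℂ → X} {z : ℂ} (h : CurveAt C g z) {p : X → Y} (hp : HolC C D p) :
    CurveAt D (fun w => p (g w)) z := by
  obtain ⟨i, hi⟩ := C.cover (g z)
  obtain ⟨j, hj⟩ := D.cover (p (g z))
  refine CurveAt.of (ContinuousAt.comp (f := g) hp.cont.continuousAt h.1) j hj ?_
  have h2 := hp.diffAt (i := i) (j := j) ((C.e i).map_source hi)
    (by rw [(C.e i).left_inv hi]; exact hj)
  exact (comp_chart h.1 hi (h.2 i hi) (f := fun x => D.e j (p x)) h2).differentiableAt

theorem hfa_of_HG {f : X → ℂ} {x : X} (hf : Root_83.HG C x f) : HFA C f x := by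
  obtain ⟨U, hU, hx, h⟩ := hf
  exact fun i hi => h.diffAt hU hi hx

/-- a function along a curve -/
theorem CurveAt.deriv_comp {g : ℂ → X} {z : ℂ} (h : CurveAt C g z) {f : X → ℂ}
    (hf : HFA C f (g z)) {i : C.ι} (hi : g z ∈ (C.e i).source) :
    deriv (fun w => f (g w)) z = fderiv ℂ (fun w => f ((C.e i).symm w)) (C.e i (g z))
      (deriv (fun w => C.e i (g w)) z) :=
  (comp_chart h.1 hi (h.2 i hi) (hf i hi)).deriv

theorem CurveAt.diff_comp {g : ℂ → X} {z : ℂ} (h : CurveAt C g z) {f : X → ℂ}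
    (hf : HFA C f (g z)) : DifferentiableAt ℂ (fun w => f (g w)) z := by
  obtain ⟨i, hi⟩ := C.cover (g z)
  exact (comp_chart h.1 hi (h.2 i hi) (hf i hi)).differentiableAt

theorem CurveAt.deriv_ne {g : ℂ → X} {z : ℂ} (h : CurveAt C g z) {f : X → ℂ}
    (hf : HFA C f (g z)) (h0 : deriv (fun w => f (g w)) z ≠ 0) {i : C.ι}
    (hi : g z ∈ (C.e i).source) : deriv (fun w => C.e i (g w)) z ≠ 0 := by
  intro h1
  rw [h.deriv_comp hf hi, h1, map_zero] at h0
  exact h0 rfl

/-- transport of differentiability to a compatible atlas -/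
theorem hfa_to {A' : Atl n X} (hc : Cmp C A') {f : X → ℂ} {x : X} (hf : HFA C f x) :
    HFA (fam A') f x := by
  intro i hi
  obtain ⟨j, hj⟩ := C.cover x
  have h1 : DifferentiableAt ℂ (fun z => C.e j (((fam A').e i).symm z)) ((fam A').e i x) :=
    hc.fwd.diffAt (((fam A').e i).map_source hi) (by
      show ((fam A').e i).symm ((fam A').e i x) ∈ (C.e j).source
      rw [((fam A').e i).left_inv hi]; exact hj)
  have e1 : C.e j (((fam A').e i).symm ((fam A').e i x)) = C.e j x := by
    rw [((fam A').e i).left_inv hi]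
  have h2 : DifferentiableAt ℂ (fun z => f ((C.e j).symm (C.e j (((fam A').e i).symm z))))
      ((fam A').e i x) :=
    DifferentiableAt.comp ((fam A').e i x) (g := fun z => f ((C.e j).symm z))
      (by rw [e1]; exact hf j hj) h1
  refine h2.congr_of_eventuallyEq ?_
  have h3 : ContinuousAt ((fam A').e i).symm ((fam A').e i x) :=
    ((fam A').e i).continuousAt_symm (((fam A').e i).map_source hi)
  have h4 : ∀ᶠ z in 𝓝 ((fam A').e i x), ((fam A').e i).symm z ∈ (C.e j).source :=
    h3.preimage_mem_nhds (by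
      rw [((fam A').e i).left_inv hi]; exact (C.e j).open_source.mem_nhds hj)
  filter_upwards [h4] with z hz
  rw [(C.e j).left_inv hz]

/-! ### the curves -/

/-- holomorphic injective immersion of the projective line, by functions -/
structure P1F (C : Fam n X) where
  g : Bool → ℂ → X
  glue : ∀ z : ℂ, z ≠ 0 → g true z⁻¹ = g false z
  cont : ∀ b, Continuous (g b)
  hol : ∀ b z, CurveAt C (g b) z
  imm : ∀ b z, ∃ f : X → ℂ, HFA C f (g b z) ∧ deriv (fun w => f (g b w)) z ≠ 0
  inj : Function.Injective (g false)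
  ninf : g true 0 ∉ range (g false)

namespace P1F

variable (γ δ : P1F C)

def img : Set X := range (γ.g false) ∪ range (γ.g true)

variable {A' : Atl n X} (hc : Cmp C A')

/-- the curve in a compatible atlas -/
def cv : P1C A' where
  g := γ.g
  glue := γ.glue
  cont := γ.cont
  hol b z := by
    obtain ⟨i, hi⟩ := A'.cover (γ.g b z)
    have h1 : CurveAt (fam A') (fun w => id (γ.g b w)) z := (γ.hol b z).map hc.bwd
    obtain ⟨f, hf, h0⟩ := γ.imm b z
    exact ⟨i, hi, h1.2 i hi, CurveAt.deriv_ne (C := fam A') h1 (hfa_to hc hf) h0 hi⟩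
  inj := γ.inj
  ninf := γ.ninf

theorem cv_img : (γ.cv hc).img = γ.img := rfl

theorem cv_g : (γ.cv hc).g = γ.g := rfl

/-- transversality by two functions -/
def Tr : Prop := ∀ b z b' z', γ.g b z = δ.g b' z' → ∃ f₁ f₂ : X → ℂ,
  HFA C f₁ (γ.g b z) ∧ HFA C f₂ (γ.g b z) ∧
    deriv (fun w => f₁ (γ.g b w)) z * deriv (fun w => f₂ (δ.g b' w)) z' ≠
      deriv (fun w => f₂ (γ.g b w)) z * deriv (fun w => f₁ (δ.g b' w)) z'

variable {γ δ}

theorem Tr.trans (h : γ.Tr δ) : Trans (γ.cv hc) (δ.cv hc) := by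
  intro b z b' z' he
  obtain ⟨f₁, f₂, h1, h2, h3⟩ := h b z b' z' he
  obtain ⟨i, hi⟩ := A'.cover (γ.g b z)
  have hi' : δ.g b' z' ∈ (A'.e i).source := by
    have he' : γ.g b z = δ.g b' z' := he
    rw [← he']; exact hi
  refine ⟨i, hi, ?_⟩
  rintro ⟨c, hcc⟩
  have hγ : CurveAt (fam A') (γ.g b) z := (γ.hol b z).map hc.bwd
  have hδ : CurveAt (fam A') (δ.g b') z' := (δ.hol b' z').map hc.bwd
  have he' : γ.g b z = δ.g b' z' := he
  have key : ∀ f : X → ℂ, HFA C f (γ.g b z) →
      deriv (fun w => f (δ.g b' w)) z' = c * deriv (fun w => f (γ.g b w)) z := by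
    intro f hf
    have hf1 := hfa_to hc hf
    rw [hγ.deriv_comp hf1 (i := i) hi, hδ.deriv_comp (by rw [← he']; exact hf1) (i := i) hi']
    have h5 : deriv (fun w => (fam A').e i (δ.g b' w)) z' =
      c • deriv (fun w => (fam A').e i (γ.g b w)) z := hcc
    rw [h5, map_smul, smul_eq_mul, ← he']
  apply h3
  rw [key f₁ h1, key f₂ h2]
  ring

theorem isCompact_img : IsCompact γ.img := by
  have h1 : γ.img = γ.g false '' Metric.closedBall 0 1 ∪ γ.g true '' Metric.closedBall 0 1 := by
    refine Subset.antisymm ?_ (union_subset ?_ ?_)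
    · rintro x (⟨z, rfl⟩ | ⟨z, rfl⟩)
      · by_cases hz : ‖z‖ ≤ 1
        · exact Or.inl ⟨z, mem_closedBall_zero_iff.2 hz, rfl⟩
        · have hz0 : z ≠ 0 := by
            rintro rfl
            rw [norm_zero] at hz
            exact hz zero_le_one
          refine Or.inr ⟨z⁻¹, ?_, γ.glue z hz0⟩
          rw [mem_closedBall_zero_iff, norm_inv]
          exact inv_le_one_of_one_le₀ (le_of_not_ge hz)
      · by_cases hz : ‖z‖ ≤ 1
        · exact Or.inr ⟨z, mem_closedBall_zero_iff.2 hz, rfl⟩
        · have hz0 : z ≠ 0 := by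
            rintro rfl
            rw [norm_zero] at hz
            exact hz zero_le_one
          refine Or.inl ⟨z⁻¹, ?_, ?_⟩
          · rw [mem_closedBall_zero_iff, norm_inv]
            exact inv_le_one_of_one_le₀ (le_of_not_ge hz)
          · rw [← γ.glue z⁻¹ (inv_ne_zero hz0), inv_inv]
    · rintro _ ⟨z, -, rfl⟩
      exact Or.inl ⟨z, rfl⟩
    · rintro _ ⟨z, -, rfl⟩
      exact Or.inr ⟨z, rfl⟩
  rw [h1]
  exact ((isCompact_closedBall 0 1).image (γ.cont false)).union
    ((isCompact_closedBall 0 1).image (γ.cont true))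

theorem isConnected_img : IsConnected γ.img := by
  refine IsConnected.union ⟨γ.g false 1, ⟨1, rfl⟩, ⟨1, ?_⟩⟩ (isConnected_range (γ.cont false))
    (isConnected_range (γ.cont true))
  have := γ.glue 1 one_ne_zero
  rwa [inv_one] at this

end P1F

/-- a finite chain of connected sets is connected -/
theorem isConnected_iUnion_chain {k : ℕ} (hk : 0 < k) {S : Fin k → Set X}
    (hS : ∀ i, IsConnected (S i))
    (hn : ∀ i : Fin k, ∀ h : (i : ℕ) + 1 < k, (S i ∩ S ⟨i + 1, h⟩).Nonempty) :
    IsConnected (⋃ i, S i) := by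
  refine ⟨?_, ?_⟩
  · obtain ⟨x, hx⟩ := (hS ⟨0, hk⟩).1
    exact ⟨x, mem_iUnion.2 ⟨_, hx⟩⟩
  · have key : ∀ j : ℕ, ∀ hj : j < k, IsPreconnected (⋃ i : {i : Fin k // (i : ℕ) ≤ j}, S i) := by
      intro j
      induction j with
      | zero =>
        intro hj
        have : (⋃ i : {i : Fin k // (i : ℕ) ≤ 0}, S i) = S ⟨0, hk⟩ := by
          ext x
          simp only [mem_iUnion, Subtype.exists]
          constructor
          · rintro ⟨i, hi, hx⟩
            have : i = ⟨0, hk⟩ := Fin.ext (Nat.le_zero.1 hi)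
            rwa [this] at hx
          · intro hx
            exact ⟨⟨0, hk⟩, le_rfl, hx⟩
        rw [this]
        exact (hS _).2
      | succ j ih =>
        intro hj
        have h1 := ih (Nat.lt_of_succ_lt hj)
        have h2 : (⋃ i : {i : Fin k // (i : ℕ) ≤ j + 1}, S i) =
            (⋃ i : {i : Fin k // (i : ℕ) ≤ j}, S i) ∪ S ⟨j + 1, hj⟩ := by
          ext x
          simp only [mem_iUnion, Subtype.exists, mem_union]
          constructor
          · rintro ⟨i, hi, hx⟩
            rcases Nat.lt_or_ge (i : ℕ) (j + 1) with h | h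
            · exact Or.inl ⟨i, Nat.lt_succ_iff.1 h, hx⟩
            · right
              have : i = ⟨j + 1, hj⟩ := Fin.ext (le_antisymm hi h)
              rwa [this] at hx
          · rintro (⟨i, hi, hx⟩ | hx)
            · exact ⟨i, hi.trans (Nat.le_succ j), hx⟩
            · exact ⟨⟨j + 1, hj⟩, le_rfl, hx⟩
        rw [h2]
        obtain ⟨y, hy1, hy2⟩ := hn ⟨j, Nat.lt_of_succ_lt hj⟩ hj
        refine IsPreconnected.union y ?_ hy2 h1 (hS _).2
        exact mem_iUnion.2 ⟨⟨⟨j, Nat.lt_of_succ_lt hj⟩, le_rfl⟩, hy1⟩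
    have h3 := key (k - 1) (Nat.sub_lt hk Nat.one_pos)
    have h4 : (⋃ i : {i : Fin k // (i : ℕ) ≤ k - 1}, S i) = ⋃ i, S i := by
      ext x
      simp only [mem_iUnion, Subtype.exists]
      constructor
      · rintro ⟨i, -, hx⟩
        exact ⟨i, hx⟩
      · rintro ⟨i, hx⟩
        exact ⟨i, Nat.le_sub_one_of_lt i.2, hx⟩
    rwa [h4] at h3

end

end Crest.Agent.R272.P1F_414
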