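import Crest.Agent.R272.Cyc2_760
import Crest.Agent.R272.P1F_414

/-!
# R272 (S0414), leaf S14-CYC (helper760), part 3: the cycle of four rational curves

`CycD D` : two homogeneous curves `α`, `β` of the base which meet transversally in exactly one point, `s_0` a square
and `s_1` branched at two points along `α`, and vice versa along `β`;
`CycD.γ : Fin 4 → HCur D.famX` = `α⁺, β⁺, α⁻, β⁻`: pairwise transversal, no triple points, connected union;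
`CycD.cF : Fin 4 → P1F D.famX` (414's form), `CycD.cP hc : Fin 4 → P1C A'`.
-/

set_option autoImplicit false
set_option linter.unusedSectionVars false

open Set Filter Topology

namespace Crest.Agent.R272.Cyc_760

open Crest.Agent.R275.Geo Crest.Agent.R275.Core144
open Crest.Agent.R273.Map_835 Crest.Agent.R273.Fam_835
open Crest.Agent.R272.CpRat423 Crest.Agent.R272.DCov_426 Crest.Agent.R272.P1F_414

noncomputable section

variable {n : ℕ} {M : Type} [TopologicalSpace M] {A : Atl n M}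

/-! ### disjoint sheets, meeting points -/

namespace Sheet

variable {D : Data A (Fin 2)} {a b : Fin 2} {Γ : HCur (fam A)} (S : Sheet D a b Γ)

theorem sheet_eq {ε δ : ℂ} (hε : ε ^ 2 = 1) (hδ : δ ^ 2 = 1) {ζ ζ' : V2} (h : ζ ≠ 0) (h' : ζ' ≠ 0)
    (he : S.F hε ζ = S.F hδ ζ') : ε = δ := by
  obtain ⟨i, hi⟩ := A.cover (Γ.G (sqv ζ))
  have e1 : Γ.G (sqv ζ) = Γ.G (sqv ζ') := by
    rw [← S.p_F hε h, ← S.p_F hδ h', he]
  have hi' : Γ.G (sqv ζ') ∈ (A.e i).source := by rw [← e1]; exact hi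
  obtain ⟨c, hc⟩ := Γ.inj _ _ (sqv_ne h) (sqv_ne h') e1
  have hc0 : c ≠ 0 := by
    rintro rfl
    rw [zero_smul] at hc
    exact sqv_ne h' hc
  have e2 : S.t ε a i ζ = S.t δ a i ζ' := by
    rw [← S.y_F hε h hi, ← S.y_F hδ h' hi', he]
  have e3 := S.fa.hom c hc0 _ (sqv_ne h) i hi
  rw [pow_zero, one_mul] at e3
  rw [S.t_a, S.t_a, hc, e3] at e2
  exact mul_right_cancel₀ (S.fa.ne _ (sqv_ne h) i hi) e2

theorem flip {ζ : V2} (h : ζ ≠ 0) {r x : ℂ} (hx : x ^ 2 = (r * (ζ 0 * ζ 1)) ^ 2) :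
    ∃ ζ' : V2, ζ' ≠ 0 ∧ sqv ζ' = sqv ζ ∧ r * (ζ' 0 * ζ' 1) = x := by
  rcases sq_eq_sq_iff_eq_or_eq_neg.1 hx with h1 | h1
  · exact ⟨ζ, h, rfl, h1.symm⟩
  · have e : sqv ![-ζ 0, ζ 1] = sqv ζ := v2_ext (by simp) (by simp)
    refine ⟨![-ζ 0, ζ 1], fun h0 => ?_, e, ?_⟩
    · apply sqv_ne h
      rw [← e, h0]
      exact v2_ext (by simp) (by simp)
    · rw [h1]
      simp

end Sheet

/-- the data in the base -/
structure CycD (D : Data A (Fin 2)) where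
  α : HCur (fam A)
  β : HCur (fam A)
  w₁ : V2
  w₂ : V2
  hw₁ : w₁ ≠ 0
  hw₂ : w₂ ≠ 0
  meet : α.G w₁ = β.G w₂
  only : ∀ w w' : V2, w ≠ 0 → w' ≠ 0 → α.G w = β.G w' → ∃ c : ℂ, w = c • w₁
  tr : HTrans α β
  Sα : Sheet D 0 1 α
  Sβ : Sheet D 1 0 β

namespace CycD

variable {D : Data A (Fin 2)} (K : CycD D)

theorem mul_ne {ζ ζ' : V2} (h : ζ ≠ 0) (h' : ζ' ≠ 0)
    (he : K.α.G (sqv ζ) = K.β.G (sqv ζ')) : ζ 0 ≠ 0 ∧ ζ 1 ≠ 0 ∧ ζ' 0 ≠ 0 ∧ ζ' 1 ≠ 0 := by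
  obtain ⟨i, hi⟩ := A.cover (K.α.G (sqv ζ))
  have hi' : K.β.G (sqv ζ') ∈ (A.e i).source := he ▸ hi
  have h1 := K.Sα.sb _ (sqv_ne h) i hi
  have h2 := K.Sβ.sa _ (sqv_ne h') i hi'
  have h3 := K.Sβ.sb _ (sqv_ne h') i hi'
  have h4 := K.Sα.sa _ (sqv_ne h) i hi
  rw [he, h2] at h1
  rw [← he, h4] at h3
  have h5 : K.Sβ.fa.r i (sqv ζ') ^ 2 ≠ 0 := pow_ne_zero 2 (K.Sβ.fa.ne _ (sqv_ne h') i hi')
  have h6 : K.Sα.fa.r i (sqv ζ) ^ 2 ≠ 0 := pow_ne_zero 2 (K.Sα.fa.ne _ (sqv_ne h) i hi)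
  rw [h1] at h5
  rw [h3] at h6
  simp only [sqv_zero, sqv_one, ne_eq, mul_eq_zero, not_or, pow_eq_zero_iff, OfNat.ofNat_ne_zero,
    not_false_eq_true] at h5 h6
  exact ⟨h5.2.1, h5.2.2, h6.2.1, h6.2.2⟩

/-- the common point with given signs -/
theorem exists_node {ε δ : ℂ} (hε : ε ^ 2 = 1) (hδ : δ ^ 2 = 1) :
    ∃ ζ ζ' : V2, ζ ≠ 0 ∧ ζ' ≠ 0 ∧ sqv ζ = K.w₁ ∧ sqv ζ' = K.w₂ ∧
      K.Sα.F hε ζ = K.Sβ.F hδ ζ' := by
  obtain ⟨ζ, hζ, e1⟩ := exists_sqv K.hw₁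
  obtain ⟨ζ', hζ', e2⟩ := exists_sqv K.hw₂
  obtain ⟨i, hi⟩ := A.cover (K.α.G K.w₁)
  have hi' : K.β.G K.w₂ ∈ (A.e i).source := K.meet ▸ hi
  have h1 := K.Sα.sb _ K.hw₁ i hi
  have h2 := K.Sβ.sa _ K.hw₂ i hi'
  have h3 := K.Sβ.sb _ K.hw₂ i hi'
  have h4 := K.Sα.sa _ K.hw₁ i hi
  obtain ⟨η, hη, k1, k2⟩ := Sheet.flip hζ (r := K.Sα.fb.r i K.w₁) (x := δ * K.Sβ.fa.r i K.w₂) (by
    rw [mul_pow, hδ, one_mul, ← h2, ← K.meet, h1, mul_pow, ← e1]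
    simp only [sqv_zero, sqv_one]
    ring)
  obtain ⟨η', hη', k1', k2'⟩ := Sheet.flip hζ' (r := K.Sβ.fb.r i K.w₂)
    (x := ε * K.Sα.fa.r i K.w₁) (by
    rw [mul_pow, hε, one_mul, ← h4, K.meet, h3, mul_pow, ← e2]
    simp only [sqv_zero, sqv_one]
    ring)
  have f1 : sqv η = K.w₁ := k1.trans e1
  have f2 : sqv η' = K.w₂ := k1'.trans e2
  refine ⟨η, η', hη, hη', f1, f2, ?_⟩
  have hi1 : K.α.G (sqv η) ∈ (A.e i).source := by rw [f1]; exact hi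
  have hi2 : K.β.G (sqv η') ∈ (A.e i).source := by rw [f2]; exact hi'
  refine D.ext_X (i := i) (by rw [K.Sα.p_F hε hη, K.Sβ.p_F hδ hη', f1, f2, K.meet])
    (by rw [K.Sα.p_F hε hη]; exact hi1) fun c => ?_
  rw [K.Sα.y_F hε hη hi1, K.Sβ.y_F hδ hη' hi2]
  rcases K.Sα.eq_ab c with rfl | rfl
  · rw [K.Sα.t_a, K.Sβ.t_b, f1, f2, k2']
  · rw [K.Sα.t_b, K.Sβ.t_a, f1, f2, k2]

theorem htrans {ε δ : ℂ} (hε : ε ^ 2 = 1) (hδ : δ ^ 2 = 1) :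
    HTrans (K.Sα.up hε) (K.Sβ.up hδ) := by
  intro ζ ζ' h h' he
  have he0 : K.Sα.F hε ζ = K.Sβ.F hδ ζ' := he
  have he' : K.α.G (sqv ζ) = K.β.G (sqv ζ') := by
    rw [← K.Sα.p_F hε h, ← K.Sβ.p_F hδ h', he0]
  obtain ⟨n0, n1, -, -⟩ := K.mul_ne h h' he'
  obtain ⟨c, hc⟩ := D.famX.cover (K.Sα.F hε ζ)
  refine ⟨c, hc, fun v v' hv => ?_⟩
  obtain ⟨i, hi⟩ := A.cover (K.α.G (sqv ζ))
  have hi' : K.β.G (sqv ζ') ∈ (A.e i).source := he' ▸ hi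
  have hip : D.p (K.Sα.F hε ζ) ∈ (A.e i).source := by rw [K.Sα.p_F hε h]; exact hi
  have h1 : fderiv ℂ (fun ζ => A.e i (D.p (K.Sα.F hε ζ))) ζ v =
      fderiv ℂ (fun ζ => A.e i (D.p (K.Sβ.F hδ ζ))) ζ' v' :=
    (K.Sα.ha_F hε h).fun_eq (g := fun q => A.e i (D.p q)) (K.Sβ.ha_F hδ h') he0 hc
      (Sheet.p_hol hc hip) hv
  have e1 : (fun ζ => A.e i (D.p (K.Sα.F hε ζ))) =ᶠ[𝓝 ζ] fun ζ => (fam A).e i (K.α.G (sqv ζ)) := by
    filter_upwards [K.Sα.ev_p hε h] with ζ' h'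
    show A.e i (D.p (K.Sα.F hε ζ')) = A.e i (K.α.G (sqv ζ'))
    rw [h']
  have e2 : (fun ζ => A.e i (D.p (K.Sβ.F hδ ζ))) =ᶠ[𝓝 ζ'] fun ζ => (fam A).e i (K.β.G (sqv ζ)) := by
    filter_upwards [K.Sβ.ev_p hδ h'] with ζ' h'
    show A.e i (D.p (K.Sβ.F hδ ζ')) = A.e i (K.β.G (sqv ζ'))
    rw [h']
  rw [e1.fderiv_eq, e2.fderiv_eq,
    (K.α.ha _ (sqv_ne h)).pre_fderiv (hasFDerivAt_sqv ζ).differentiableAt hi,
    (K.β.ha _ (sqv_ne h')).pre_fderiv (hasFDerivAt_sqv ζ').differentiableAt hi',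
    (hasFDerivAt_sqv ζ).fderiv, (hasFDerivAt_sqv ζ').fderiv] at h1
  have h2 := K.tr.all (sqv_ne h) (sqv_ne h') he' hi h1
  obtain ⟨k, hk⟩ := K.α.imm' (sqv_ne h) hi h2
  have k0 : 2 * ζ 0 * v 0 = k * ζ 0 ^ 2 := congrFun hk 0
  have k1 : 2 * ζ 1 * v 1 = k * ζ 1 ^ 2 := congrFun hk 1
  have hv' : v = (k / 2) • ζ := by
    refine v2_ext ?_ ?_
    · have : v 0 = k / 2 * ζ 0 := by
        apply mul_left_cancel₀ (mul_ne_zero two_ne_zero n0)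
        rw [k0]
        ring
      simpa using this
    · have : v 1 = k / 2 * ζ 1 := by
        apply mul_left_cancel₀ (mul_ne_zero two_ne_zero n1)
        rw [k1]
        ring
      simpa using this
  have h5 := (K.Sα.up hε).euler h hc
  show fderiv ℂ (fun ζ => D.famX.e c (K.Sα.F hε ζ)) ζ v = 0
  rw [hv', map_smul]
  have h6 : fderiv ℂ (fun ζ => D.famX.e c (K.Sα.F hε ζ)) ζ ζ = 0 := h5
  rw [h6, smul_zero]

theorem one_sq : (1 : ℂ) ^ 2 = 1 := one_pow 2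
theorem neg_sq' : (-1 : ℂ) ^ 2 = 1 := by norm_num

/-- **the four curves** -/
def γ : Fin 4 → HCur D.famX :=
  ![K.Sα.up one_sq, K.Sβ.up one_sq, K.Sα.up neg_sq', K.Sβ.up neg_sq']

theorem disj {a b : Fin 2} {Γ : HCur (fam A)} (S : Sheet D a b Γ) {x : D.X}
    (h1 : x ∈ (S.up one_sq).img) (h2 : x ∈ (S.up neg_sq').img) : False := by
  obtain ⟨ζ, hζ, e⟩ := h1
  obtain ⟨ζ', hζ', e'⟩ := h2
  have h := S.sheet_eq one_sq neg_sq' hζ hζ' (e.trans e'.symm)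
  norm_num at h

theorem htrans_disj {Γ Δ : HCur D.famX} (h : ∀ x, x ∈ Γ.img → x ∈ Δ.img → False) : HTrans Γ Δ :=
  fun w w' hw hw' he => (h _ ⟨w, hw, rfl⟩ ⟨w', hw', he.symm⟩).elim

theorem ht : ∀ i j, i ≠ j → HTrans (K.γ i) (K.γ j) := by
  have t01 := K.htrans one_sq one_sq
  have t03 := K.htrans one_sq neg_sq'
  have t21 := K.htrans neg_sq' one_sq
  have t23 := K.htrans neg_sq' neg_sq'
  have t02 : HTrans (K.Sα.up one_sq) (K.Sα.up neg_sq') := htrans_disj fun x => disj K.Sα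
  have t13 : HTrans (K.Sβ.up one_sq) (K.Sβ.up neg_sq') := htrans_disj fun x => disj K.Sβ
  intro i j hij
  fin_cases i <;> fin_cases j
  · exact absurd rfl hij
  · exact t01
  · exact t02
  · exact t03
  · exact t01.symm
  · exact absurd rfl hij
  · exact t21.symm
  · exact t13
  · exact t02.symm
  · exact t21
  · exact absurd rfl hij
  · exact t23
  · exact t03.symm
  · exact t13.symm
  · exact t23.symm
  · exact absurd rfl hij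

theorem key : ∀ i j l : Fin 4, i ≠ j → j ≠ l → i ≠ l →
    ((i = 0 ∨ j = 0 ∨ l = 0) ∧ (i = 2 ∨ j = 2 ∨ l = 2)) ∨
    ((i = 1 ∨ j = 1 ∨ l = 1) ∧ (i = 3 ∨ j = 3 ∨ l = 3)) := by decide

theorem h3 : ∀ i j l, i ≠ j → j ≠ l → i ≠ l → (K.γ i).img ∩ (K.γ j).img ∩ (K.γ l).img = ∅ := by
  intro i j l h1 h2 h3
  rw [Set.eq_empty_iff_forall_notMem]
  rintro x ⟨⟨hi, hj⟩, hl⟩
  have hm : ∀ k, i = k ∨ j = k ∨ l = k → x ∈ (K.γ k).img := by
    rintro k (rfl | rfl | rfl)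
    · exact hi
    · exact hj
    · exact hl
  rcases key i j l h1 h2 h3 with ⟨a1, a2⟩ | ⟨a1, a2⟩
  · exact disj K.Sα (hm 0 a1) (hm 2 a2)
  · exact disj K.Sβ (hm 1 a1) (hm 3 a2)

theorem node_mem {ε δ : ℂ} (hε : ε ^ 2 = 1) (hδ : δ ^ 2 = 1) :
    ((K.Sα.up hε).img ∩ (K.Sβ.up hδ).img).Nonempty := by
  obtain ⟨ζ, ζ', h, h', -, -, he⟩ := K.exists_node hε hδ
  exact ⟨K.Sα.F hε ζ, ⟨ζ, h, rfl⟩, ⟨ζ', h', he.symm⟩⟩

theorem isConnected_union : IsConnected (⋃ i, (K.γ i).img) := by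
  have c0 : IsConnected (K.γ 0).img := (K.γ 0).isConnected_img
  have c1 : IsConnected (K.γ 1).img := (K.γ 1).isConnected_img
  have c2 : IsConnected (K.γ 2).img := (K.γ 2).isConnected_img
  have c3 : IsConnected (K.γ 3).img := (K.γ 3).isConnected_img
  have n01 : ((K.γ 0).img ∩ (K.γ 1).img).Nonempty := K.node_mem one_sq one_sq
  have n21 : ((K.γ 1).img ∩ (K.γ 2).img).Nonempty := by
    rw [inter_comm]
    exact K.node_mem neg_sq' one_sq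
  have n23 : ((K.γ 2).img ∩ (K.γ 3).img).Nonempty := K.node_mem neg_sq' neg_sq'
  have e : (⋃ i, (K.γ i).img) =
      (((K.γ 0).img ∪ (K.γ 1).img) ∪ (K.γ 2).img) ∪ (K.γ 3).img := by
    ext x
    simp only [mem_iUnion, mem_union]
    constructor
    · rintro ⟨i, hi⟩
      fin_cases i
      · exact Or.inl (Or.inl (Or.inl hi))
      · exact Or.inl (Or.inl (Or.inr hi))
      · exact Or.inl (Or.inr hi)
      · exact Or.inr hi
    · rintro (((h | h) | h) | h)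
      · exact ⟨0, h⟩
      · exact ⟨1, h⟩
      · exact ⟨2, h⟩
      · exact ⟨3, h⟩
  rw [e]
  refine IsConnected.union ?_ (IsConnected.union ?_ (IsConnected.union n01 c0 c1) c2) c3
  · obtain ⟨x, hx, hx'⟩ := n23
    exact ⟨x, Or.inr hx, hx'⟩
  · obtain ⟨x, hx, hx'⟩ := n21
    exact ⟨x, Or.inr hx, hx'⟩

/-! ### conversion to `P1C` of any compatible atlas -/

variable {A' : Atl n D.X} (hc : Cmp D.famX A')

/-- the four curves in an atlas compatible with `D.famX` -/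
def cP (i : Fin 4) : P1C A' := ((K.γ i).map hc.bwd hc.fwd).toP1C

theorem cP_img (i : Fin 4) : (K.cP hc i).img = (K.γ i).img := by
  rw [cP, HCur.toP1C_img]
  rfl

end CycD

/-- transversality in a compatible family -/
theorem HTrans.map {X : Type} [TopologicalSpace X] {C C' : Fam n X} {Γ Δ : HCur C}
    (h : HTrans Γ Δ) (h1 : HolC C C' id) (h2 : HolC C' C id) :
    HTrans (Γ.map h1 h2) (Δ.map h1 h2) := by
  intro w w' hw hw' he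
  obtain ⟨j, hj⟩ := C'.cover (Γ.G w)
  refine ⟨j, hj, fun v v' hv => ?_⟩
  obtain ⟨i, hi⟩ := C.cover (Γ.G w)
  have g1 : HA C' Γ.G w := HA.comp (p := id) h1 (Γ.ha w hw)
  have g2 : HA C' Δ.G w' := HA.comp (p := id) h1 (Δ.ha w' hw')
  have e1 : fderiv ℂ (fun w => C.e i (Γ.G w)) w v = fderiv ℂ (fun w => C.e i (Δ.G w)) w' v' :=
    g1.fun_eq (g := fun x => C.e i x) g2 he hj (hol_diff (p := id) h2 hj hi) hv
  have e2 := h.all hw hw' he hi e1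
  exact (Γ.ha w hw).fun_zero (g := fun x => C'.e j x) hi (hol_diff (p := id) h1 hi hj) e2

namespace CycD

variable {D : Data A (Fin 2)} (K : CycD D) {A' : Atl n D.X} (hc : Cmp D.famX A')

theorem cP_ht : ∀ i j, i ≠ j → Trans (K.cP hc i) (K.cP hc j) := fun i j hij =>
  ((K.ht i j hij).map hc.bwd hc.fwd).toP1C

theorem cP_h3 : ∀ i j l, i ≠ j → j ≠ l → i ≠ l →
    (K.cP hc i).img ∩ (K.cP hc j).img ∩ (K.cP hc l).img = ∅ := by
  intro i j l h1 h2 h3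
  rw [K.cP_img, K.cP_img, K.cP_img]
  exact K.h3 i j l h1 h2 h3

theorem cP_hc : IsConnected (⋃ i, (K.cP hc i).img) := by
  have : (⋃ i, (K.cP hc i).img) = ⋃ i, (K.γ i).img := iUnion_congr fun i => K.cP_img hc i
  rw [this]
  exact K.isConnected_union

end CycD

end

end Crest.Agent.R272.Cyc_760
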