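import Crest.Agent.R272.Blup7_102
import Crest.Agent.R272.BL3_366

/-!
# R272 (S0414), helper102: two blow-ups

* `c2 C₁ τ` : the second centres: the points `C₁.ci t 0 0` (origin of the chart `(t, 0)`), `t ∈ τ`;
* `two_step` : how a property of all points of the second blow-up is assembled;
* `good_two` : road E (366's `Good`), from `Star` / `Tac` at the first centres.
-/

set_option autoImplicit false
set_option linter.unusedSectionVars false

open Set Filter Topology Complex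

namespace Crest.Agent.R272.Two_102

open Crest.Agent.R275.Geo Crest.Agent.R275.Core144
open Crest.Agent.R273.Fam_835 Crest.Agent.R273.Map_835
open Crest.Agent.R272.Blup1_102

noncomputable section

variable {M : Type} [TopologicalSpace M] [T2Space M] {A : Atl 2 M} (C₁ : Ctr A)

theorem zero_mem_T (t : C₁.S) (a : Fin 2) : (0 : Cn 2) ∈ C₁.T t a := by
  refine ⟨?_, fun b _ => ?_⟩
  · rw [PiLp.zero_apply, zero_smul, norm_zero]
    exact C₁.r_pos t
  · rw [PiLp.zero_apply, norm_zero]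
    exact two_pos

theorem pi_ci_zero (t : C₁.S) (a : Fin 2) : C₁.pi (C₁.ci t a 0) = C₁.p t := by
  rw [C₁.pi_ci (zero_mem_T C₁ t a), PiLp.zero_apply, zero_smul, Ctr.pt, add_zero,
    (A.e (C₁.i t)).left_inv (C₁.hp t)]

variable (τ : Set C₁.S) [Finite C₁.S]

/-- the second centres -/
def c2 : Ctr C₁.atl :=
  ctr (S := τ) (fun t => Sum.inr (t.1, 0)) (fun t => C₁.ci t.1 0 0)
    (fun t t' h => Subtype.ext (C₁.p_inj (by
      have h1 := congrArg C₁.pi h
      rwa [pi_ci_zero, pi_ci_zero] at h1)))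
    (fun t => C₁.mem_ec_inr.2 (C₁.ci_mem (zero_mem_T C₁ t.1 0)))
    (fun _ => univ) (fun _ => univ_mem) one_pos

@[simp] theorem c2_p (t : τ) : (c2 C₁ τ).p t = C₁.ci t.1 0 0 := rfl

@[simp] theorem c2_i (t : τ) : (c2 C₁ τ).i t = Sum.inr (t.1, 0) := rfl

instance : Finite (c2 C₁ τ).S := inferInstanceAs (Finite τ)

/-- assembly of a property of all points of the second blow-up -/
theorem two_step {Q₀ : M → Prop} {Q₁ : C₁.X → Prop} {Q₂ : (c2 C₁ τ).X → Prop}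
    (h0 : ∀ x, x ∉ C₁.Z → Q₀ x)
    (off1 : ∀ y, C₁.pi y ∉ C₁.Z → Q₀ (C₁.pi y) → Q₁ y)
    (on1 : ∀ t : C₁.S, ∀ y, C₁.pi y = C₁.p t → (t ∈ τ → y ≠ C₁.ci t 0 0) → Q₁ y)
    (off2 : ∀ y, (c2 C₁ τ).pi y ∉ (c2 C₁ τ).Z → Q₁ ((c2 C₁ τ).pi y) → Q₂ y)
    (on2 : ∀ t : τ, ∀ y, (c2 C₁ τ).pi y = C₁.ci t.1 0 0 → Q₂ y) : ∀ y, Q₂ y := by
  intro y
  by_cases hy : (c2 C₁ τ).pi y ∈ (c2 C₁ τ).Z
  · obtain ⟨t, ht⟩ := hy
    exact on2 t y ht.symm
  · refine off2 y hy ?_
    by_cases hx : C₁.pi ((c2 C₁ τ).pi y) ∈ C₁.Z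
    · obtain ⟨t, ht⟩ := hx
      refine on1 t _ ht.symm fun htτ h => hy ⟨⟨t, htτ⟩, ?_⟩
      exact h.symm
    · exact off1 _ hx (h0 _ hx)

open Crest.Agent.R272.BL_366 in
/-- **road E**: all points of the second blow-up are good -/
theorem good_two {ρ : Type} {φ : ρ → M → ℂ} (hoff : ∀ x, x ∉ C₁.Z → Good (fam A) φ x)
    (hstar : ∀ t, t ∉ τ → ∃ a k, Star C₁ φ t a k) (htac : ∀ t, t ∈ τ → ∃ a b, Tac C₁ φ t a b) :
    ∀ y : (c2 C₁ τ).X, Good (fam (c2 C₁ τ).atl) (fun b y => φ b (C₁.pi ((c2 C₁ τ).pi y))) y := by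
  refine two_step C₁ τ (Q₀ := Good (fam A) φ) (Q₁ := Good (fam C₁.atl) fun b y => φ b (C₁.pi y))
    hoff ?_ ?_ ?_ ?_
  · intro y hy h
    exact good_off C₁ hy h
  · intro t y hy hne
    by_cases ht : t ∈ τ
    · obtain ⟨a, b, h⟩ := htac t ht
      exact good_of_tac h hy (hne ht)
    · obtain ⟨a, k, h⟩ := hstar t ht
      exact good_of_star h hy
  · intro y hy h
    exact good_off (c2 C₁ τ) (φ := fun b y => φ b (C₁.pi y)) hy h
  · intro t y hy
    obtain ⟨a, b, h⟩ := htac t.1 t.2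
    have h1 := star_of_tac h (c2 C₁ τ) t rfl rfl
    exact good_of_star h1 hy

end

end Crest.Agent.R272.Two_102
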