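import Crest.Agent.R272.CyB2_894
import Crest.Agent.R272.Cyc3_760
import Crest.Agent.R272.Two_102

/-!
# R272 (S0414), S14-CYC, Cyc-BL (helper894 for helper760), part 3

* `HTrans.pre` : transversality after linear changes of the parameters;
* `Two.meet_pre`, `Two.only_pre`, `Two.tr_pre` : the fields of `CycD` for `str.pre B`, `exc.pre B'`;
* `Two.ofC2` : 102's second blow-up `c2 C₁ τ` at `t ∈ τ`.
-/

set_option autoImplicit false
set_option linter.unusedSectionVars false

open Set Filter Topology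

namespace Crest.Agent.R272.CyB_894

open Crest.Agent.R275.Geo Crest.Agent.R275.Core144
open Crest.Agent.R273.Map_835 Crest.Agent.R273.Fam_835
open Crest.Agent.R272.Cyc_760 Crest.Agent.R272.Blup1_102 Crest.Agent.R272.Blup1_102.Ctr
open Crest.Agent.R272.Two_102

noncomputable section

theorem pre_ne {B : V2 ≃L[ℂ] V2} {w : V2} (hw : w ≠ 0) : B w ≠ 0 :=
  (map_ne_zero_iff _ B.injective).2 hw

theorem htrans_pre {n : ℕ} {X : Type} [TopologicalSpace X] {C : Fam n X} {Γ Δ : HCur C}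
    (h : HTrans Γ Δ) (B B' : V2 ≃L[ℂ] V2) : HTrans (Γ.pre B) (Δ.pre B') := by
  intro w w' hw hw' he
  obtain ⟨i, hi, h1⟩ := h (B w) (B' w') (pre_ne hw) (pre_ne hw') he
  refine ⟨i, hi, fun v v' hv => ?_⟩
  have hi' : Δ.G (B' w') ∈ (C.e i).source := by
    have he' : Γ.G (B w) = Δ.G (B' w') := he
    rw [← he']
    exact hi
  have e1 := (Γ.ha (B w) (pre_ne hw)).pre_fderiv B.differentiableAt hi v
  have e2 := (Δ.ha (B' w') (pre_ne hw')).pre_fderiv B'.differentiableAt hi' v'
  have hv' : fderiv ℂ (fun w => C.e i (Γ.G (B w))) w v =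
      fderiv ℂ (fun w => C.e i (Δ.G (B' w))) w' v' := hv
  show fderiv ℂ (fun w => C.e i (Γ.G (B w))) w v = 0
  rw [e1]
  rw [e1, e2] at hv'
  exact h1 _ _ hv'

variable {M : Type} [TopologicalSpace M] [T2Space M] {A : Atl 2 M}

namespace Two

variable {C1 : Ctr A} {C2 : Ctr C1.atl} (τ : Two C1 C2) (B B' : V2 ≃L[ℂ] V2)

theorem meet_pre : (τ.str.pre B).G (B.symm e0) = ((exc C2 τ.s2).pre B').G (B'.symm e1) := by
  show τ.sG (B (B.symm e0)) = eG C2 τ.s2 (B' (B'.symm e1))
  rw [B.apply_symm_apply, B'.apply_symm_apply, τ.sG_of_eq e0_one]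

theorem symm_e0_ne : B.symm e0 ≠ 0 := pre_ne (B := B.symm) e0_ne
theorem symm_e1_ne : B.symm e1 ≠ 0 := pre_ne (B := B.symm) e1_ne

theorem only_pre (w w' : V2) (hw : w ≠ 0) (hw' : w' ≠ 0)
    (h : (τ.str.pre B).G w = ((exc C2 τ.s2).pre B').G w') : ∃ c : ℂ, w = c • B.symm e0 := by
  obtain ⟨h1, -⟩ := (τ.meet_iff (pre_ne (B := B) hw) (pre_ne (B := B') hw')).1 h
  refine ⟨B w 0, B.injective ?_⟩
  rw [map_smul, B.apply_symm_apply]
  exact smul_e0 h1

theorem only_pre' (w w' : V2) (hw : w ≠ 0) (hw' : w' ≠ 0)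
    (h : (τ.str.pre B).G w = ((exc C2 τ.s2).pre B').G w') : ∃ c : ℂ, w' = c • B'.symm e1 := by
  obtain ⟨-, h1⟩ := (τ.meet_iff (pre_ne (B := B) hw) (pre_ne (B := B') hw')).1 h
  refine ⟨B' w' 1, B'.injective ?_⟩
  rw [map_smul, B'.apply_symm_apply]
  exact smul_e1 h1

theorem tr_pre : HTrans (τ.str.pre B) ((exc C2 τ.s2).pre B') := htrans_pre τ.trans_str_exc B B'

/-- the data of 760's `CycD` from the two sheets -/
def cycD {D : DCov_426.Data C2.atl (Fin 2)} (Sα : Sheet D 0 1 (τ.str.pre B))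
    (Sβ : Sheet D 1 0 ((exc C2 τ.s2).pre B')) : CycD D where
  α := τ.str.pre B
  β := (exc C2 τ.s2).pre B'
  w₁ := B.symm e0
  w₂ := B'.symm e1
  hw₁ := symm_e0_ne B
  hw₂ := symm_e1_ne B'
  meet := τ.meet_pre B B'
  only := τ.only_pre B B'
  tr := τ.tr_pre B B'
  Sα := Sα
  Sβ := Sβ

end Two

/-- 102's second blow-up -/
def Two.ofC2 (C₁ : Ctr A) [Finite C₁.S] (τ : Set C₁.S) (t : C₁.S) (ht : t ∈ τ) :
    Two C₁ (c2 C₁ τ) where
  s1 := t
  s2 := ⟨t, ht⟩
  hi := rfl
  hp := rfl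
  hno := by
    intro u hu
    have h1 : C₁.pi (C₁.ci u.1 0 0) = C₁.p t := hu
    rw [ci_zero, pi_eG] at h1
    exact Subtype.ext (C₁.p_inj h1)

/-! ### 760's parameters -/

/-- `(x0, x1) ↦ ((x1 - x0)/(2 g), (x0 + x1)/2)` -/
def Bg (g : ℂ) (hg : g ≠ 0) : V2 ≃L[ℂ] V2 :=
  LinearEquiv.toContinuousLinearEquiv
    { toFun := fun x => ![(x 1 - x 0) / (2 * g), (x 0 + x 1) / 2]
      map_add' := fun x y => by
        funext i
        fin_cases i
        · show (x 1 + y 1 - (x 0 + y 0)) / (2 * g) =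
            (x 1 - x 0) / (2 * g) + (y 1 - y 0) / (2 * g)
          ring
        · show (x 0 + y 0 + (x 1 + y 1)) / 2 = (x 0 + x 1) / 2 + (y 0 + y 1) / 2
          ring
      map_smul' := fun c x => by
        funext i
        fin_cases i
        · show (c * x 1 - c * x 0) / (2 * g) = c * ((x 1 - x 0) / (2 * g))
          ring
        · show (c * x 0 + c * x 1) / 2 = c * ((x 0 + x 1) / 2)
          ring
      invFun := fun w => ![w 1 - g * w 0, w 1 + g * w 0]
      left_inv := fun x => by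
        funext i
        fin_cases i
        · simp only [Fin.zero_eta, Matrix.cons_val_zero, Matrix.cons_val_one]
          field_simp
          ring
        · simp only [Fin.mk_one, Matrix.cons_val_zero, Matrix.cons_val_one]
          field_simp
          ring
      right_inv := fun w => by
        funext i
        fin_cases i
        · simp only [Fin.zero_eta, Matrix.cons_val_zero, Matrix.cons_val_one]
          field_simp
          ring
        · simp only [Fin.mk_one, Matrix.cons_val_zero, Matrix.cons_val_one]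
          ring }

variable {g : ℂ} {hg : g ≠ 0}

theorem Bg_apply (x : V2) : Bg g hg x = ![(x 1 - x 0) / (2 * g), (x 0 + x 1) / 2] := rfl
@[simp] theorem Bg_zero (x : V2) : Bg g hg x 0 = (x 1 - x 0) / (2 * g) := rfl
@[simp] theorem Bg_one (x : V2) : Bg g hg x 1 = (x 0 + x 1) / 2 := rfl
theorem Bg_symm_apply (w : V2) : (Bg g hg).symm w = ![w 1 - g * w 0, w 1 + g * w 0] := rfl

/-- the product of the parameters is the quadratic form -/
theorem Bg_mul (x : V2) : (Bg g hg x) 1 ^ 2 - g ^ 2 * (Bg g hg x) 0 ^ 2 = x 0 * x 1 := by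
  simp only [Bg_zero, Bg_one]
  field_simp
  ring

theorem Bg_symm_e0 : (Bg g hg).symm Two.e0 = ![-g, g] := by
  rw [Bg_symm_apply]
  funext i
  fin_cases i <;> simp

theorem Bg_symm_e1 : (Bg g hg).symm Two.e1 = ![1, 1] := by
  rw [Bg_symm_apply]
  funext i
  fin_cases i <;> simp

end

end Crest.Agent.R272.CyB_894
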