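import Crest.Agent.R272.BlS1_266
import Crest.Agent.R272.CyB3_894

/-!
# R272 (S0414), S14-SHEET (helper266), part 2: frames on the exceptional curve and on its strict
transform

* `excFr`: frame of `bL C L m` along `exc C s`: `κ / (w b) ^ m` in the chart `inr (s, b)`;
* `strFr`: frame of `bL C₂ (bL C₁ L m₁) m₂` along the strict transform:
  `κ (w 1) ^ m₂ / (w b) ^ m₁` in the chart `inl (inr (s₁, b))`, `κ 5 ^ m₂ / (w 0) ^ (m₁ - m₂)` in the
  chart `inr (s₂, 1)`;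
* `val_star`, `val_tac`, `val_unit`: the divided sections along `exc C s`.
-/

set_option autoImplicit false
set_option linter.unusedSectionVars false

open Set Filter Topology

namespace Crest.Agent.R272.BlS_266

open Crest.Agent.R275.Geo Crest.Agent.R275.Core144
open Crest.Agent.R273.Map_835 Crest.Agent.R273.Fam_835 Crest.Agent.R273.PB_835
open Crest.Agent.R272.CpRat423 Crest.Agent.R272.DCov_426 Crest.Agent.R272.Cyc_760
open Crest.Agent.R272.Blup1_102 Crest.Agent.R272.Blup1_102.Ctr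
open Crest.Agent.R272.BlA_266 Crest.Agent.R272.BlA_266.PD Crest.Agent.R272.CyB_894
open Crest.Agent.R272.CyB_894.Two

noncomputable section

/-- where the exceptional curve is in the chart `(s, a)` -/
def Dm (a : Fin 2) : Set V2 := {w | w a ≠ 0 ∧ ∀ b, b ≠ a → ‖w b‖ < 2 * ‖w a‖}

theorem isOpen_Dm (a : Fin 2) : IsOpen (Dm a) := by
  have h1 : IsOpen {w : V2 | w a ≠ 0} := isOpen_ne_fun (continuous_apply a) continuous_const
  have h2 : IsOpen (⋂ b : Fin 2, {w : V2 | b ≠ a → ‖w b‖ < 2 * ‖w a‖}) := by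
    refine isOpen_iInter_of_finite fun b => ?_
    by_cases hb : b = a
    · have : {w : V2 | b ≠ a → ‖w b‖ < 2 * ‖w a‖} = univ := by
        ext w
        simp [hb]
      rw [this]
      exact isOpen_univ
    · have : {w : V2 | b ≠ a → ‖w b‖ < 2 * ‖w a‖} = {w : V2 | ‖w b‖ < 2 * ‖w a‖} := by
        ext w
        simp [hb]
      rw [this]
      exact isOpen_lt (continuous_apply b).norm (continuous_const.mul (continuous_apply a).norm)
  have h3 : Dm a = {w : V2 | w a ≠ 0} ∩ ⋂ b : Fin 2, {w : V2 | b ≠ a → ‖w b‖ < 2 * ‖w a‖} := by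
    ext w
    simp [Dm]
  rw [h3]
  exact h1.inter h2

theorem Dm_smul {a : Fin 2} {c : ℂ} (hc : c ≠ 0) {w : V2} (hw : w ∈ Dm a) : c • w ∈ Dm a := by
  refine ⟨mul_ne_zero hc hw.1, fun b hb => ?_⟩
  have h1 := hw.2 b hb
  have h2 : 0 < ‖c‖ := norm_pos_iff.2 hc
  simp only [Pi.smul_apply, smul_eq_mul, norm_mul]
  nlinarith

theorem Dm_ne {a : Fin 2} {w : V2} (hw : w ∈ Dm a) : w ≠ 0 := by
  rintro rfl
  exact hw.1 rfl

theorem Dm_cover {w : V2} (hw : w ≠ 0) : ∃ a, w ∈ Dm a := by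
  obtain ⟨a, ha, hm⟩ := exists_max (L2_ne hw)
  refine ⟨a, ha, fun b _ => ?_⟩
  have h1 : 0 < ‖w a‖ := norm_pos_iff.2 ha
  have h2 : ‖w b‖ ≤ ‖w a‖ := hm b
  linarith

variable {M : Type} [TopologicalSpace M] [T2Space M] {A : Atl 2 M}

section Exc

variable (C : Ctr A) (s : C.S)

theorem exc_mem {a : Fin 2} {w : V2} (hw : w ∈ Dm a) : eG C s w ∈ C.V s a :=
  (eG_mem_V C s (Dm_ne hw)).2 ⟨rfl, hw.1, hw.2⟩

theorem dv_ratio {a b : Fin 2} {w : V2} (ha : w ∈ Dm a) (hb : w ∈ Dm b) :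
    C.dv s (eG C s w) b / C.dv s (eG C s w) a = w b / w a := by
  rw [C.dv_div (exc_mem C s ha) b, co_eG C s (Dm_ne ha) ha.1, W_apply]
  by_cases h : b = a
  · subst h
    simp [hb.1]
  · simp [h]

theorem bL_g_gen (L : LB A) (m : C.S → ℕ) {i j : C.atl.ι} {y : C.X}
    (h : y ∈ (C.atl.e i).source ∩ (C.atl.e j).source) :
    (bL C L m).g i j y = L.g (C.refPi.r i) (C.refPi.r j) (C.pi y) *
      (C.fr (-C.kz m) i y / C.fr (-C.kz m) j y) := by
  show (pullLB C.holMap_pi C.refPi L).g i j y * (C.OE (-C.kz m)).g i j y = _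
  rw [pullLB_g _ _ _ h, C.OE_g _ h]

theorem fr_inr' (m : C.S → ℕ) (s : C.S) (a : Fin 2) (y : C.X) :
    C.fr (-C.kz m) (Sum.inr (s, a)) y = ((C.dv s y a) ^ m s)⁻¹ := by
  rw [fr_inr, Pi.neg_apply, kz, zpow_neg, zpow_natCast]

theorem bL_g_exc (L : LB A) (m : C.S → ℕ) {a b : Fin 2} {w : V2} (ha : w ∈ Dm a) (hb : w ∈ Dm b) :
    (bL C L m).g (Sum.inr (s, a)) (Sum.inr (s, b)) (eG C s w) = (w b / w a) ^ m s := by
  have h1 : eG C s w ∈ (C.atl.e (Sum.inr (s, a))).source ∩ (C.atl.e (Sum.inr (s, b))).source :=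
    ⟨exc_mem C s ha, exc_mem C s hb⟩
  refine (bL_g_gen C L m h1).trans ?_
  show L.g (C.i s) (C.i s) _ * _ = _
  rw [L.self, one_mul, fr_inr', fr_inr', ← dv_ratio C s ha hb, div_pow]
  have h4 := pow_ne_zero (m s) (C.dv_ne (exc_mem C s ha))
  have h5 := pow_ne_zero (m s) (C.dv_ne (exc_mem C s hb))
  field_simp

variable (L : LB A) (m : C.S → ℕ) (d : ℕ) (hd : m s = d) (κ₀ : ℂ) (hκ : κ₀ ≠ 0)

/-- the frame on the exceptional curve -/
def excFr : LocFr (bL C L m) (exc C s) d where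
  κ := Fin 2
  j b := Sum.inr (s, b)
  O b := Dm b
  f b w := κ₀ * ((w b) ^ d)⁻¹
  hO := isOpen_Dm
  cover w hw := Dm_cover hw
  src b w hw := exc_mem C s hw
  tr a b w ha hb := by
    rw [exc_G, bL_g_exc C s L m ha hb, hd, div_pow]
    have h4 := pow_ne_zero d ha.1
    have h5 := pow_ne_zero d hb.1
    field_simp
  ne b w hw := mul_ne_zero hκ (inv_ne_zero (pow_ne_zero _ hw.1))
  hol b w hw := by
    have h1 : DifferentiableAt ℂ (fun w : V2 => (w b) ^ d) w := by fun_prop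
    exact (h1.fun_inv (pow_ne_zero _ hw.1)).const_mul κ₀
  hom b c hc w hw := by
    refine ⟨Dm_smul hc hw, ?_⟩
    have h4 := pow_ne_zero d hw.1
    have h5 := pow_ne_zero d hc
    rw [Pi.smul_apply, smul_eq_mul, mul_pow]
    field_simp

end Exc

/-! ### the strict transform -/

section Str

variable {C1 : Ctr A} {C2 : Ctr C1.atl} (t : Two C1 C2)

/-- where the strict transform is in the chart `(s₂, 1)` -/
def Dn : Set V2 := {w | w 0 ≠ 0 ∧ ‖x w‖ < C2.r t.s2}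

theorem isOpen_Dn : IsOpen (Dn t) := by
  rw [isOpen_iff_mem_nhds]
  intro w hw
  have h1 : ContinuousAt (fun w : V2 => w 0) w := (continuous_apply 0).continuousAt
  have h2 : ContinuousAt (fun w : V2 => ‖x w‖) w := (differentiableAt_x hw.1).continuousAt.norm
  filter_upwards [h1.eventually_ne hw.1, h2.eventually (gt_mem_nhds hw.2)] with v h3 h4
  exact ⟨h3, h4⟩

theorem x_smul {c : ℂ} (hc : c ≠ 0) (w : V2) : x (c • w) = x w := by
  rw [x, x, Pi.smul_apply, Pi.smul_apply, smul_eq_mul, smul_eq_mul, mul_div_mul_left _ _ hc]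

theorem Dn_smul {c : ℂ} (hc : c ≠ 0) {w : V2} (hw : w ∈ Dn t) : c • w ∈ Dn t := by
  refine ⟨mul_ne_zero hc hw.1, ?_⟩
  rw [x_smul hc]
  exact hw.2

/-- over the second centre's neighbourhood we are in the chart `(s₁, 0)` -/
theorem Dn_sub {w : V2} (hw : w ∈ Dn t) : w ∈ Dm 0 := by
  have h1 := t.mem_T1 hw.2
  have h2 : ‖w 1 / w 0‖ < 2 := by
    have h3 := h1.2 1 (by decide)
    rw [PiLp.smul_apply, vx_one, smul_eq_mul, x, mul_div_cancel₀ _ (by norm_num : (5 : ℂ) ≠ 0)] at h3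
    exact h3
  refine ⟨hw.1, fun b hb => ?_⟩
  have : b = 1 := by
    fin_cases b
    · exact absurd rfl hb
    · rfl
  rw [this]
  rwa [norm_div, div_lt_iff₀ (norm_pos_iff.2 hw.1)] at h2

theorem str_mem_inl {a : Fin 2} {w : V2} (ha : w ∈ Dm a) (h1 : w 1 ≠ 0) :
    t.sG w ∈ (C2.atl.e (Sum.inl (Sum.inr (t.s1, a)))).source :=
  (t.mem_inl (Dm_ne ha)).2 ⟨h1, exc_mem C1 t.s1 ha⟩

theorem str_mem_inr {w : V2} (hw : w ∈ Dn t) :
    t.sG w ∈ (C2.atl.e (Sum.inr (t.s2, 1))).source := t.sG_mem_V hw.1 hw.2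

/-- the coordinate at the second centre -/
theorem z2_eq {w : V2} (hw : w ∈ Dn t) : C2.z t.s2 (eG C1 t.s1 w) 1 = x w := by
  have hwn : w ≠ 0 := Dm_ne (Dn_sub t hw)
  have h1 := co_apply C2 t.s2 1 (t.sG w) 1
  rw [if_pos rfl, t.co_sG hw.1 hw.2, vx_one, t.pi_sG hwn] at h1
  exact h1.symm

variable (L : LB A) (m₁ : C1.S → ℕ) (m₂ : C2.S → ℕ)

theorem bL2_g_inl {a b : Fin 2} {w : V2} (ha : w ∈ Dm a) (hb : w ∈ Dm b) (h1 : w 1 ≠ 0) :
    (bL C2 (bL C1 L m₁) m₂).g (Sum.inl (Sum.inr (t.s1, a))) (Sum.inl (Sum.inr (t.s1, b)))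
      (t.sG w) = (w b / w a) ^ m₁ t.s1 := by
  have h2 : t.sG w ∈ (C2.atl.e (Sum.inl (Sum.inr (t.s1, a)))).source ∩
      (C2.atl.e (Sum.inl (Sum.inr (t.s1, b)))).source :=
    ⟨str_mem_inl t ha h1, str_mem_inl t hb h1⟩
  refine (bL_g_gen C2 (bL C1 L m₁) m₂ h2).trans ?_
  show (bL C1 L m₁).g (Sum.inr (t.s1, a)) (Sum.inr (t.s1, b)) (C2.pi (t.sG w)) * (1 / 1) = _
  rw [t.pi_sG (Dm_ne ha), bL_g_exc C1 t.s1 L m₁ ha hb, div_one, mul_one]

theorem bL2_g_inr {a : Fin 2} {w : V2} (ha : w ∈ Dm a) (h1 : w 1 ≠ 0) (hw : w ∈ Dn t) :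
    (bL C2 (bL C1 L m₁) m₂).g (Sum.inl (Sum.inr (t.s1, a))) (Sum.inr (t.s2, 1)) (t.sG w) =
      (w 0 / w a) ^ m₁ t.s1 * (x w) ^ m₂ t.s2 := by
  have h2 : t.sG w ∈ (C2.atl.e (Sum.inl (Sum.inr (t.s1, a)))).source ∩
      (C2.atl.e (Sum.inr (t.s2, 1))).source := ⟨str_mem_inl t ha h1, str_mem_inr t hw⟩
  have hZ : C2.pi (t.sG w) ∉ C2.Z := fun h => h1 ((t.mem_Z_iff (Dm_ne ha)).1 h)
  refine (bL_g_gen C2 (bL C1 L m₁) m₂ h2).trans ?_
  show (bL C1 L m₁).g (Sum.inr (t.s1, a)) (C2.i t.s2) (C2.pi (t.sG w)) *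
    (1 / C2.fr (-C2.kz m₂) (Sum.inr (t.s2, 1)) (t.sG w)) = _
  have h3 := bL_g_exc C1 t.s1 L m₁ ha (Dn_sub t hw)
  rw [fr_inr', C2.dv_off hZ, t.pi_sG (Dm_ne ha), z2_eq t hw, one_div, inv_inv, t.hi]
  rw [h3]

theorem tr_symm {n : ℕ} {N : Type} [TopologicalSpace N] {B : Atl n N} (L : LB B) {i j : B.ι}
    {y : N} {u v : ℂ} (h : u = L.g i j y * v) : v = L.g j i y * u := by
  rw [h, ← mul_assoc, L.mul_symm, one_mul]

variable (d : ℕ) (hd : m₁ t.s1 = m₂ t.s2 + d) (κ₀ : ℂ) (hκ : κ₀ ≠ 0)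

include hd in
theorem tr_inr {a : Fin 2} {w : V2} (ha : w ∈ Dm a) (h1 : w 1 ≠ 0) (hw : w ∈ Dn t) :
    κ₀ * (w 1) ^ m₂ t.s2 * ((w a) ^ m₁ t.s1)⁻¹ =
      (bL C2 (bL C1 L m₁) m₂).g (Sum.inl (Sum.inr (t.s1, a))) (Sum.inr (t.s2, 1)) (t.sG w) *
        (κ₀ * 5 ^ m₂ t.s2 * ((w 0) ^ d)⁻¹) := by
  rw [bL2_g_inr t L m₁ m₂ ha h1 hw, x, div_pow, div_pow, div_pow]
  have h2 : (w 0) ^ m₁ t.s1 = (w 0) ^ m₂ t.s2 * (w 0) ^ d := by rw [hd, pow_add]
  rw [h2]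
  have h3 := pow_ne_zero (m₂ t.s2) hw.1
  have h4 := pow_ne_zero d hw.1
  have h5 := pow_ne_zero (m₁ t.s1) ha.1
  have h6 : (5 : ℂ) ^ m₂ t.s2 ≠ 0 := pow_ne_zero _ (by norm_num)
  field_simp

/-- the frame on the strict transform -/
def strFr : LocFr (bL C2 (bL C1 L m₁) m₂) t.str d where
  κ := Option (Fin 2)
  j a := a.elim (Sum.inr (t.s2, 1)) fun a => Sum.inl (Sum.inr (t.s1, a))
  O a := a.elim (Dn t) fun a => Dm a ∩ {w | w 1 ≠ 0}
  f a w := a.elim (κ₀ * 5 ^ m₂ t.s2 * ((w 0) ^ d)⁻¹) fun a =>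
    κ₀ * (w 1) ^ m₂ t.s2 * ((w a) ^ m₁ t.s1)⁻¹
  hO a := by
    cases a with
    | none => exact isOpen_Dn t
    | some a => exact (isOpen_Dm a).inter (isOpen_ne_fun (continuous_apply 1) continuous_const)
  cover w hw := by
    by_cases h1 : w 1 = 0
    · refine ⟨none, ne_zero_of_one hw h1, ?_⟩
      rw [x, h1, zero_div, zero_div, norm_zero]
      exact C2.r_pos _
    · obtain ⟨a, ha⟩ := Dm_cover hw
      exact ⟨some a, ha, h1⟩
  src a w hw := by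
    cases a with
    | none => exact str_mem_inr t hw
    | some a => exact str_mem_inl t hw.1 hw.2
  tr a b w ha hb := by
    cases a with
    | none =>
      cases b with
      | none =>
        show _ = _ * _
        rw [LB.self, one_mul]
      | some b => exact tr_symm _ (tr_inr t L m₁ m₂ d hd κ₀ hb.1 hb.2 ha)
    | some a =>
      cases b with
      | none => exact tr_inr t L m₁ m₂ d hd κ₀ ha.1 ha.2 hb
      | some b =>
        show κ₀ * (w 1) ^ m₂ t.s2 * ((w a) ^ m₁ t.s1)⁻¹ =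
          (bL C2 (bL C1 L m₁) m₂).g (Sum.inl (Sum.inr (t.s1, a))) (Sum.inl (Sum.inr (t.s1, b)))
            (t.sG w) * (κ₀ * (w 1) ^ m₂ t.s2 * ((w b) ^ m₁ t.s1)⁻¹)
        rw [bL2_g_inl t L m₁ m₂ ha.1 hb.1 ha.2, div_pow]
        have h4 := pow_ne_zero (m₁ t.s1) ha.1.1
        have h5 := pow_ne_zero (m₁ t.s1) hb.1.1
        field_simp
  ne a w hw := by
    cases a with
    | none =>
      exact mul_ne_zero (mul_ne_zero hκ (pow_ne_zero _ (by norm_num)))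
        (inv_ne_zero (pow_ne_zero _ hw.1))
    | some a =>
      exact mul_ne_zero (mul_ne_zero hκ (pow_ne_zero _ hw.2)) (inv_ne_zero (pow_ne_zero _ hw.1.1))
  hol a w hw := by
    cases a with
    | none =>
      have h1 : DifferentiableAt ℂ (fun w : V2 => (w 0) ^ d) w := by fun_prop
      exact (h1.fun_inv (pow_ne_zero _ hw.1)).const_mul _
    | some a =>
      have h1 : DifferentiableAt ℂ (fun w : V2 => (w a) ^ m₁ t.s1) w := by fun_prop
      have h2 : DifferentiableAt ℂ (fun w : V2 => κ₀ * (w 1) ^ m₂ t.s2) w := by fun_prop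
      exact h2.mul (h1.fun_inv (pow_ne_zero _ hw.1.1))
  hom a c hc w hw := by
    cases a with
    | none =>
      refine ⟨Dn_smul t hc hw, ?_⟩
      show c ^ d * (κ₀ * 5 ^ m₂ t.s2 * ((c * w 0) ^ d)⁻¹) = κ₀ * 5 ^ m₂ t.s2 * ((w 0) ^ d)⁻¹
      have h4 := pow_ne_zero d hw.1
      have h5 := pow_ne_zero d hc
      rw [mul_pow]
      field_simp
    | some a =>
      refine ⟨⟨Dm_smul hc hw.1, mul_ne_zero hc hw.2⟩, ?_⟩
      show c ^ d * (κ₀ * (c * w 1) ^ m₂ t.s2 * ((c * w a) ^ m₁ t.s1)⁻¹) =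
        κ₀ * (w 1) ^ m₂ t.s2 * ((w a) ^ m₁ t.s1)⁻¹
      have h4 := pow_ne_zero (m₁ t.s1) hw.1.1
      have h5 := pow_ne_zero d hc
      have h6 := pow_ne_zero (m₂ t.s2) hc
      have h7 : c ^ m₁ t.s1 = c ^ m₂ t.s2 * c ^ d := by rw [hd, pow_add]
      rw [mul_pow, mul_pow, h7]
      field_simp

end Str

end

end Crest.Agent.R272.BlS_266
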