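import Crest.Agent.R272.BlS2_266

/-!
# R272 (S0414), S14-SHEET (helper266), part 3: the two sheets

* `val_star`, `val_tac`, `val_unit`: the divided sections along `exc C s`;
* `second_form`: the explicit local form at the second centre;
* `Lf`: the local forms of the two sections at the first centre (with explicit units);
* `Lf.Sa : Sheet D 0 1 (t.str.pre (Bg g hg))`, `Lf.Sb : Sheet D 1 0 ((exc C2 t.s2).pre (Bg g' hg'))`,
  `g ^ 2 = cN 0`, `g' ^ 2 = cM 0`, frames with constants `κM ^ 2 = UM 0`, `κN ^ 2 = UN 0`.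
-/

set_option autoImplicit false
set_option linter.unusedSectionVars false

open Set Filter Topology

namespace Crest.Agent.R272.BlS_266

open Crest.Agent.R275.Geo Crest.Agent.R275.Core144
open Crest.Agent.R273.Map_835 Crest.Agent.R273.Fam_835 Crest.Agent.R273.PB_835
open Crest.Agent.R272.CpRat423 Crest.Agent.R272.DCov_426 Crest.Agent.R272.Cyc_760
open Crest.Agent.R272.Blup1_102 Crest.Agent.R272.Blup1_102.Ctr
open Crest.Agent.R272.BlA_266 Crest.Agent.R272.CyB_894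
open Crest.Agent.R272.CyB_894.Two

noncomputable section

variable {M : Type} [TopologicalSpace M] [T2Space M] {A : Atl 2 M}

section Val

variable {C : Ctr A} {s : C.S} {ρ : Type} (P : PD A ρ) {m : ρ → C.S → ℕ}
  (hm : ∀ a, C.Ord (P.s a) (fun t => P.k a * m a t))

theorem two_cases (b : Fin 2) : b = 0 ∨ b = 1 := by fin_cases b <;> simp

theorem co_self {b : Fin 2} {w : V2} (hw : w ∈ Dm b) : C.co s b (eG C s w) b = 0 := by
  rw [co_eG C s (Dm_ne hw) hw.1]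
  simp

theorem co_oth {a b : Fin 2} (hab : a ≠ b) {w : V2} (hw : w ∈ Dm b) :
    C.co s b (eG C s w) a = w a / w b := by
  rw [co_eG C s (Dm_ne hw) hw.1]
  simp [hab]

theorem val_Psi (a : ρ) {b : Fin 2} {w : V2} (hw : w ∈ Dm b) :
    (P.bl C m hm).s a (Sum.inr (s, b)) (eG C s w) =
      C.Psi (P.hs a) (hm a) s b (C.co s b (eG C s w)) :=
  P.bl_s_inr hm a (exc_mem C s hw)

/-- star form -/
theorem val_star {a : ρ} {p : ℕ} (hma : P.k a * m a s = p) {U c : Cn 2 → ℂ}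
    (hU : ContinuousAt U 0) (hc : ContinuousAt c 0)
    (he : ∀ᶠ v in 𝓝 0, C.phi (P.s a) s v = U v * (v 1 ^ p - v 0 ^ p * c v)) {b : Fin 2} {w : V2}
    (hw : w ∈ Dm b) : (P.bl C m hm).s a (Sum.inr (s, b)) (eG C s w) =
      U 0 * (w 1 ^ p - c 0 * w 0 ^ p) * ((w b) ^ p)⁻¹ := by
  have hu : C.co s b (eG C s w) ∈ C.T s b := C.co_mem (exc_mem C s hw)
  have hub := co_self (C := C) (s := s) hw
  refine (val_Psi P hm a hw).trans ?_
  have hb0 := pow_ne_zero p hw.1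
  rcases two_cases b with rfl | rfl
  · have h := (Psi_E0 (P.hs a) (hm a) le_rfl hma hU hc he hu hub).1
    refine h.trans ?_
    rw [co_oth (C := C) (s := s) (a := 1) (b := 0) (by decide) hw, Nat.sub_self, pow_zero, one_mul,
      div_pow]
    have hb0' : (w 0) ^ p ≠ 0 := hb0
    show _ = _ * (w 0 ^ p)⁻¹
    field_simp
  · have h := (Psi_E1 (P.hs a) (hm a) le_rfl hma hU hc he hu hub).1
    refine h.trans ?_
    rw [co_oth (C := C) (s := s) (a := 0) (b := 1) (by decide) hw, Nat.sub_self, pow_zero, mul_one,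
      div_pow]
    have hb0' : (w 1) ^ p ≠ 0 := hb0
    show _ = _ * (w 1 ^ p)⁻¹
    field_simp

/-- tacnode form -/
theorem val_tac {a : ρ} {p q : ℕ} (hpq : p < q) (hma : P.k a * m a s = p) {U c : Cn 2 → ℂ}
    (hU : ContinuousAt U 0) (hc : ContinuousAt c 0)
    (he : ∀ᶠ v in 𝓝 0, C.phi (P.s a) s v = U v * (v 1 ^ p - v 0 ^ q * c v)) {b : Fin 2} {w : V2}
    (hw : w ∈ Dm b) : (P.bl C m hm).s a (Sum.inr (s, b)) (eG C s w) =
      U 0 * w 1 ^ p * ((w b) ^ p)⁻¹ := by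
  have hu : C.co s b (eG C s w) ∈ C.T s b := C.co_mem (exc_mem C s hw)
  have hub := co_self (C := C) (s := s) hw
  have hs : q - p ≠ 0 := Nat.sub_ne_zero_of_lt hpq
  refine (val_Psi P hm a hw).trans ?_
  have hb0 := pow_ne_zero p hw.1
  rcases two_cases b with rfl | rfl
  · have h := (Psi_E0 (P.hs a) (hm a) hpq.le hma hU hc he hu hub).1
    refine h.trans ?_
    rw [co_oth (C := C) (s := s) (a := 1) (b := 0) (by decide) hw, zero_pow hs, zero_mul, sub_zero,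
      div_pow]
    show _ = _ * (w 0 ^ p)⁻¹
    ring
  · have h := (Psi_E1 (P.hs a) (hm a) hpq.le hma hU hc he hu hub).1
    refine h.trans ?_
    rw [zero_pow hs, mul_zero, zero_mul, sub_zero, mul_one]
    have hb0' : (w 1) ^ p ≠ 0 := hb0
    show _ = _ * (w 1 ^ p)⁻¹
    field_simp

/-- unit form -/
theorem val_unit {a : ρ} (hma : P.k a * m a s = 0) {b : Fin 2} {w : V2} (hw : w ∈ Dm b) :
    (P.bl C m hm).s a (Sum.inr (s, b)) (eG C s w) = C.phi (P.s a) s 0 :=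
  (val_Psi P hm a hw).trans (Psi_unit (P.hs a) (hm a) (C.co_mem (exc_mem C s hw))
    (co_self (C := C) (s := s) hw) hma)

end Val

/-! ### the second centre, explicitly -/

section Second

variable {C : Ctr A} {t : C.S} {ρ : Type} (P : PD A ρ) {m : ρ → C.S → ℕ}
  (hm : ∀ a, C.Ord (P.s a) (fun t => P.k a * m a t))

/-- the point of `A` -/
def bd (v : Cn 2) : Cn 2 := ((5 : ℂ) • v : Cn 2) 0 • W 0 ((5 : ℂ) • v)

theorem bd_zero : bd 0 = 0 := by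
  rw [bd, smul_zero, PiLp.zero_apply, zero_smul]

theorem cont_bd {f : Cn 2 → ℂ} (hf : ContinuousAt f 0) : ContinuousAt (fun v => f (bd v)) 0 := by
  have h1 : Continuous bd := by
    have h2 : Continuous fun v : Cn 2 => (5 : ℂ) • v := by fun_prop
    exact (differentiable_blow (0 : Fin 2)).continuous.comp h2
  have h3 : ContinuousAt f (bd 0) := by rw [bd_zero]; exact hf
  exact ContinuousAt.comp (g := f) (f := bd) h3 h1.continuousAt

theorem second_form {C₂ : Ctr C.atl} {t₂ : C₂.S} (hi : C₂.i t₂ = Sum.inr (t, 0))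
    (hp₂ : C₂.p t₂ = C.ci t 0 0) {a : ρ} {p q : ℕ} (hpq : p ≤ q) (hma : P.k a * m a t = p)
    {U c : Cn 2 → ℂ} (hU : ContinuousAt U 0) (hc : ContinuousAt c 0)
    (he : ∀ᶠ v in 𝓝 0, C.phi (P.s a) t v = U v * (v 1 ^ p - v 0 ^ q * c v)) :
    ∀ᶠ v in 𝓝 0, C₂.phi ((P.bl C m hm).s a) t₂ v = (5 ^ p * U (bd v)) *
      (v 1 ^ p - v 0 ^ (q - p) * (5 ^ (q - p) / 5 ^ p * c (bd v))) := by
  have h5 : (5 : ℂ) ^ p ≠ 0 := pow_ne_zero _ (by norm_num)
  have hg := Psi_germ0 (P.hs a) (hm a) hpq hma hU hc he (PD.zero_mem_T t 0) rfl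
  have h1 : Tendsto (fun v : Cn 2 => (5 : ℂ) • v) (𝓝 0) (𝓝 0) := by
    have h : ContinuousAt (fun v : Cn 2 => (5 : ℂ) • v) 0 := by fun_prop
    have h2 := h.tendsto
    simp only [smul_zero] at h2
    exact h2
  filter_upwards [P.phi_second hm hi hp₂ a, h1.eventually hg] with v h2 h3
  rw [h2, h3]
  have h4 : ∀ j, ((5 : ℂ) • v : Cn 2) j = 5 * v j := fun j => rfl
  rw [h4 1, h4 0, mul_pow, mul_pow]
  show U (bd v) * (5 ^ p * v 1 ^ p - 5 ^ (q - p) * v 0 ^ (q - p) * c (bd v)) = _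
  field_simp

end Second

/-! ### the two sheets -/

/-- the local forms of the two sections at the centre `s` -/
structure Lf (P : PD A (Fin 2)) (C : Ctr A) (s : C.S) (UM cM UN cN : Cn 2 → ℂ) : Prop where
  cUM : ContinuousAt UM 0
  ccM : ContinuousAt cM 0
  cUN : ContinuousAt UN 0
  ccN : ContinuousAt cN 0
  hM : ∀ᶠ v in 𝓝 0, C.phi (P.s 0) s v = UM v * (v 1 ^ 2 - v 0 ^ 4 * cM v)
  hN : ∀ᶠ v in 𝓝 0, C.phi (P.s 1) s v = UN v * (v 1 ^ 2 - v 0 ^ 2 * cN v)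

namespace Lf

variable {C1 : Ctr A} {C2 : Ctr C1.atl} {t : Two C1 C2} {P : PD A (Fin 2)}
  {m : Fin 2 → C1.S → ℕ} {hm : ∀ a, C1.Ord (P.s a) (fun t => P.k a * m a t)}
  {m' : Fin 2 → C2.S → ℕ}
  {hm' : ∀ a, C2.Ord ((P.bl C1 m hm).s a) (fun t => (P.bl C1 m hm).k a * m' a t)}
  {UM cM UN cN : Cn 2 → ℂ} (F : Lf P C1 t.s1 UM cM UN cN)
  (hsnc : ∀ y, ((P.bl C1 m hm).bl C2 m' hm').Snc y)
  (hk : ∀ a, P.k a = 2) (m0 : m 0 t.s1 = 1) (m1 : m 1 t.s1 = 1) (m0' : m' 0 t.s2 = 1)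
  (m1' : m' 1 t.s2 = 0) {κM κN g g' : ℂ} (hκM : κM ^ 2 = UM 0) (hκM0 : κM ≠ 0)
  (hκN : κN ^ 2 = UN 0) (hκN0 : κN ≠ 0) (hg : g ^ 2 = cN 0) (hg0 : g ≠ 0)
  (hg' : g' ^ 2 = cM 0) (hg0' : g' ≠ 0)

/-- the divided section on the second blow-up, along the strict transform, off the second centre -/
theorem s_str (a : Fin 2) {b : Fin 2} {w : V2} (hb : w ∈ Dm b) (h1 : w 1 ≠ 0) :
    ((P.bl C1 m hm).bl C2 m' hm').s a (Sum.inl (Sum.inr (t.s1, b))) (t.sG w) =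
      (P.bl C1 m hm).s a (Sum.inr (t.s1, b)) (eG C1 t.s1 w) := by
  refine ((P.bl C1 m hm).bl_s_inl hm' a (str_mem_inl t hb h1)).trans ?_
  rw [t.pi_sG (Dm_ne hb)]

include F hk m0 m0' hκM in
theorem sa_val {b : Fin 2} {w : V2} (hb : w ∈ Dm b) (h1 : w 1 ≠ 0) :
    ((P.bl C1 m hm).bl C2 m' hm').s 0 (Sum.inl (Sum.inr (t.s1, b))) (t.sG w) =
      (κM * (w 1) ^ m' 0 t.s2 * ((w b) ^ m 0 t.s1)⁻¹) ^ 2 := by
  rw [s_str 0 hb h1, m0, m0', pow_one, pow_one]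
  refine (val_tac P hm (by norm_num : 2 < 4) (by rw [hk, m0]) F.cUM F.ccM F.hM hb).trans ?_
  rw [← hκM]
  ring

include F hk m1 m1' hκN hg in
theorem sb_val {b : Fin 2} {w : V2} (hb : w ∈ Dm b) (h1 : w 1 ≠ 0) :
    ((P.bl C1 m hm).bl C2 m' hm').s 1 (Sum.inl (Sum.inr (t.s1, b))) (t.sG w) =
      (κN * (w 1) ^ m' 1 t.s2 * ((w b) ^ m 1 t.s1)⁻¹) ^ 2 * (w 1 ^ 2 - g ^ 2 * w 0 ^ 2) := by
  rw [s_str 1 hb h1, m1, m1', pow_one, pow_zero]
  refine (val_star P hm (by rw [hk, m1]) F.cUN F.ccN F.hN hb).trans ?_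
  rw [← hκN, hg]
  ring

/-- **the sheet over the strict transform of the first exceptional curve** -/
def Sa : Sheet (((P.bl C1 m hm).bl C2 m' hm').toData hsnc) 0 1 (t.str.pre (BlS_266.Bg g hg0)) :=
  mkSheet (D := ((P.bl C1 m hm).bl C2 m' hm').toData hsnc) (Γ := t.str) (by decide) (hk 0) (hk 1)
    (strFr t (P.L 0) (m 0) (m' 0) 0 (by rw [m0, m0']) κM hκM0)
    (strFr t (P.L 1) (m 1) (m' 1) 1 (by rw [m1, m1']) κN hκN0) (BlS_266.Bg g hg0)
    (q := fun w => w 1 ^ 2 - g ^ 2 * w 0 ^ 2) (by fun_prop) (fun x => Bg_form g hg0 x)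
    (fun w h0 h1 => by
      obtain ⟨b, hb⟩ := Dm_cover (w := w) (fun h => h0 (by rw [h]; rfl))
      exact ⟨some b, ⟨hb, h1⟩, sa_val F hk m0 m0' hκM hb h1⟩)
    (fun w h0 h1 => by
      obtain ⟨b, hb⟩ := Dm_cover (w := w) (fun h => h0 (by rw [h]; rfl))
      exact ⟨some b, ⟨hb, h1⟩, sb_val F hk m1 m1' hκN hg hb h1⟩)

include F hk m1 in
theorem phi2_N : C2.phi ((P.bl C1 m hm).s 1) t.s2 0 = - (UN 0 * cN 0) := by
  rw [(P.phi_second hm t.hi t.hp 1).self_of_nhds, smul_zero]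
  refine (Psi_E0 (P.hs 1) (hm 1) le_rfl (by rw [hk, m1]) F.cUN F.ccN F.hN
    (PD.zero_mem_T t.s1 0) rfl).1.trans ?_
  have h2 : ((0 : Cn 2) 1 : ℂ) = 0 := rfl
  rw [h2]
  norm_num

include F hk m1 m1' hκN hg in
theorem ta_val {b : Fin 2} {w : V2} (hb : w ∈ Dm b) :
    ((P.bl C1 m hm).bl C2 m' hm').s 1 (Sum.inr (t.s2, b)) (eG C2 t.s2 w) =
      (Complex.I * κN * g * ((w b) ^ 0)⁻¹) ^ 2 := by
  refine (val_unit (P.bl C1 m hm) hm' (by rw [m1', mul_zero]) hb).trans ?_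
  rw [phi2_N F hk m1, ← hκN, ← hg, pow_zero, inv_one, mul_one, mul_pow, mul_pow, Complex.I_sq]
  ring

include F hk m0 m0' hκM hg' in
theorem tb_val {b : Fin 2} {w : V2} (hb : w ∈ Dm b) :
    ((P.bl C1 m hm).bl C2 m' hm').s 0 (Sum.inr (t.s2, b)) (eG C2 t.s2 w) =
      (5 * κM * ((w b) ^ 1)⁻¹) ^ 2 * (w 1 ^ 2 - g' ^ 2 * w 0 ^ 2) := by
  have h2 := second_form P hm t.hi t.hp (by norm_num : 2 ≤ 4) (by rw [hk, m0]) F.cUM F.ccM F.hM
  refine (val_star (P.bl C1 m hm) hm' (p := 2) (by rw [PD.bl_k, hk, m0'])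
    ((cont_bd F.cUM).const_mul _) ((cont_bd F.ccM).const_mul _) h2 hb).trans ?_
  rw [bd_zero, ← hκM, ← hg']
  norm_num
  ring

/-- **the sheet over the second exceptional curve** -/
def Sb : Sheet (((P.bl C1 m hm).bl C2 m' hm').toData hsnc) 1 0
    ((exc C2 t.s2).pre (BlS_266.Bg g' hg0')) :=
  mkSheet (D := ((P.bl C1 m hm).bl C2 m' hm').toData hsnc) (Γ := exc C2 t.s2) (by decide) (hk 1)
    (hk 0)
    (excFr C2 t.s2 (PD.bL C1 (P.L 1) (m 1)) (m' 1) 0 m1' (Complex.I * κN * g)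
      (mul_ne_zero (mul_ne_zero Complex.I_ne_zero hκN0) hg0))
    (excFr C2 t.s2 (PD.bL C1 (P.L 0) (m 0)) (m' 0) 1 m0' (5 * κM)
      (mul_ne_zero (by norm_num) hκM0)) (BlS_266.Bg g' hg0')
    (q := fun w => w 1 ^ 2 - g' ^ 2 * w 0 ^ 2) (by fun_prop) (fun x => Bg_form g' hg0' x)
    (fun w h0 _ => by
      obtain ⟨b, hb⟩ := Dm_cover (w := w) (fun h => h0 (by rw [h]; rfl))
      exact ⟨b, hb, ta_val F hk m1 m1' hκN hg hb⟩)
    (fun w h0 _ => by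
      obtain ⟨b, hb⟩ := Dm_cover (w := w) (fun h => h0 (by rw [h]; rfl))
      exact ⟨b, hb, tb_val F hk m0 m0' hκM hg' hb⟩)

/-- **760's data of the cycle** -/
def cyc : CycD (((P.bl C1 m hm).bl C2 m' hm').toData hsnc) :=
  t.cycD (BlS_266.Bg g hg0) (BlS_266.Bg g' hg0') (F.Sa hsnc hk m0 m1 m0' m1' hκM hκM0 hκN hκN0 hg hg0)
    (F.Sb hsnc hk m0 m1 m0' m1' hκM hκM0 hκN hκN0 hg hg0 hg' hg0')

end Lf

end

end Crest.Agent.R272.BlS_266
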