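import Crest.Agent.R272.Root5_83

/-!
# R272, leaf S14-GERMS (helper235), part 1: the slope dichotomy gives the local data of the wall

`Y` a complex manifold (`Fam`), `T W : Y → ℂ`, `r0² = W`, `r1² = W - F T`, `r2² = T`, `r3² = W - T`
holomorphic root germs at `y`, and `W = T g` or `T = W g`, `g y = 0` near `y`.  Then `r0 = r2 u`, `r3 = r2 κ`,
`r1 = r0 λ` (where `u y ≠ 0`) resp. `r2 = r0 v`, `v y = 0`, with holomorphic `u, κ, λ, v`.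
-/

set_option autoImplicit false

open Set Topology Filter

namespace Crest.Agent.R272.Gm1_235

open Crest.Agent.R275.Geo Crest.Agent.R273.Fam_835 Crest.Agent.R272.Quot_783
open Crest.Agent.R272.Root_83

noncomputable section

variable {n : ℕ} {Y : Type} [TopologicalSpace Y] {C : Fam n Y} {y : Y}

/-- germ form of `exists_root_frac` -/
theorem root_germ {f a b : Y → ℂ} (hf : HG C y f) (ha : HG C y a) (hb : HG C y b)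
    (h : ∀ᶠ z in 𝓝 y, f z * a z ^ 2 = b z ^ 2) (hne : ∃ᶠ z in 𝓝 y, a z ≠ 0) :
    ∃ r, HG C y r ∧ (∀ᶠ z in 𝓝 y, r z ^ 2 = f z) ∧ ∀ᶠ z in 𝓝 y, b z = a z * r z := by
  obtain ⟨U1, hU1, hx1, hf⟩ := hf
  obtain ⟨U2, hU2, hx2, ha⟩ := ha
  obtain ⟨U3, hU3, hx3, hb⟩ := hb
  obtain ⟨U4, hU4, hU4o, hx4⟩ := _root_.eventually_nhds_iff.1 h
  obtain ⟨V, hV, hyV, -, r, hr, hr2, hra⟩ := exists_root_frac C
    (((hU1.inter hU2).inter hU3).inter hU4o) (f := f) (a := a) (b := b)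
    (HolF.mono hf fun z hz => hz.1.1.1) (HolF.mono ha fun z hz => hz.1.1.2)
    (HolF.mono hb fun z hz => hz.1.2) (fun z hz => hU4 z hz.2) (x := y)
    ⟨⟨⟨hx1, hx2⟩, hx3⟩, hx4⟩ hne
  refine ⟨r, ⟨V, hV, hyV, hr⟩, ?_, ?_⟩
  · filter_upwards [hV.mem_nhds hyV] with z hz using hr2 z hz
  · filter_upwards [hV.mem_nhds hyV] with z hz
    rw [← hra z hz, mul_comm]

/-- a root of a germ which is not locally zero is not locally zero -/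
theorem freq_root {f r : Y → ℂ} (hne : ∃ᶠ z in 𝓝 y, f z ≠ 0) (h : ∀ᶠ z in 𝓝 y, r z ^ 2 = f z) :
    ∃ᶠ z in 𝓝 y, r z ≠ 0 := by
  refine (hne.and_eventually h).mono ?_
  rintro z ⟨hz, h2⟩ h0
  apply hz
  rw [← h2, h0]
  simp

theorem hrt_hg {f r : Y → ℂ} (h : HRt C f r y) : HG C y r := by
  obtain ⟨U, hU, hy, h1, -⟩ := h
  exact ⟨U, hU, hy, h1⟩

theorem hrt_sq {f r : Y → ℂ} (h : HRt C f r y) : ∀ᶠ z in 𝓝 y, r z ^ 2 = f z := by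
  obtain ⟨U, hU, hy, -, h2⟩ := h
  filter_upwards [hU.mem_nhds hy] with z hz using h2 z hz

theorem hrt_of {f r : Y → ℂ} (h1 : HG C y r) (h2 : ∀ᶠ z in 𝓝 y, r z ^ 2 = f z) : HRt C f r y := by
  obtain ⟨U, hU, hy, h1⟩ := h1
  obtain ⟨V, hV, hVo, hyV⟩ := _root_.eventually_nhds_iff.1 h2
  exact ⟨U ∩ V, hU.inter hVo, ⟨hy, hyV⟩, HolF.mono h1 inter_subset_left, fun z hz => hV z hz.2⟩

/-- **finite slope** -/
theorem fin_slope {T W FT K g r0 r1 r2 r3 : Y → ℂ} (hT : HG C y T) (hTn : ∃ᶠ z in 𝓝 y, T z ≠ 0)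
    (hWn : ∃ᶠ z in 𝓝 y, W z ≠ 0) (hK : HG C y K) (hFK : ∀ᶠ z in 𝓝 y, FT z = T z ^ 2 * K z)
    (hg : HG C y g) (hWg : ∀ᶠ z in 𝓝 y, W z = T z * g z)
    (h0 : HRt C W r0 y) (h1 : HRt C (fun z => W z - FT z) r1 y) (h2 : HRt C T r2 y)
    (h3 : HRt C (fun z => W z - T z) r3 y) :
    ∃ u κ : Y → ℂ, HG C y u ∧ HG C y κ ∧ (∀ᶠ z in 𝓝 y, u z ^ 2 = g z) ∧
      (∀ᶠ z in 𝓝 y, κ z ^ 2 = g z - 1) ∧ (∀ᶠ z in 𝓝 y, r0 z = r2 z * u z) ∧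
      (∀ᶠ z in 𝓝 y, r3 z = r2 z * κ z) ∧
      (u y ≠ 0 → ∃ lam : Y → ℂ, HG C y lam ∧ (∀ᶠ z in 𝓝 y, lam z ^ 2 = 1 - T z * K z / g z) ∧
        ∀ᶠ z in 𝓝 y, r1 z = r0 z * lam z) := by
  have hr2 := freq_root hTn (hrt_sq h2)
  have hr0 := freq_root hWn (hrt_sq h0)
  obtain ⟨u, hu, hu2, hur⟩ := root_germ hg (hrt_hg h2) (hrt_hg h0) (by
    filter_upwards [(hrt_sq h2), (hrt_sq h0), hWg] with z e1 e2 e3
    rw [e1, e2, e3]; ring) hr2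
  obtain ⟨κ, hκ, hκ2, hκr⟩ := root_germ (hg.sub (HG.const 1)) (hrt_hg h2) (hrt_hg h3) (by
    filter_upwards [(hrt_sq h2), (hrt_sq h3), hWg] with z e1 e2 e3
    rw [e1, e2, e3]; ring) hr2
  refine ⟨u, κ, hu, hκ, hu2, hκ2, hur, hκr, fun huy => ?_⟩
  have hgy : g y ≠ 0 := by
    rw [← hu2.self_of_nhds]
    exact pow_ne_zero 2 huy
  obtain ⟨lam, hl, hl2, hlr⟩ := root_germ ((HG.const (C := C) (x := y) 1).sub
    ((hT.mul hK).mul (hg.inv hgy))) (hrt_hg h0) (hrt_hg h1) (by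
    filter_upwards [(hrt_sq h0), (hrt_sq h1), hWg, hFK, hg.continuousAt.eventually_ne hgy] with z e1 e2 e3 e4 e5
    rw [e1, e2, e4, e3]
    field_simp) hr0
  refine ⟨lam, hl, ?_, hlr⟩
  filter_upwards [hl2] with z hz
  rw [hz, div_eq_mul_inv]

/-- **infinite slope** -/
theorem inf_slope {T W g r0 r2 : Y → ℂ} (hWn : ∃ᶠ z in 𝓝 y, W z ≠ 0)
    (hg : HG C y g) (hgy : g y = 0) (hTg : ∀ᶠ z in 𝓝 y, T z = W z * g z)
    (h0 : HRt C W r0 y) (h2 : HRt C T r2 y) :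
    ∃ v : Y → ℂ, HG C y v ∧ v y = 0 ∧ (∀ᶠ z in 𝓝 y, v z ^ 2 = g z) ∧
      ∀ᶠ z in 𝓝 y, r2 z = r0 z * v z := by
  obtain ⟨v, hv, hv2, hvr⟩ := root_germ hg (hrt_hg h0) (hrt_hg h2) (by
    filter_upwards [(hrt_sq h2), (hrt_sq h0), hTg] with z e1 e2 e3
    rw [e1, e2, e3]; ring) (freq_root hWn (hrt_sq h0))
  refine ⟨v, hv, ?_, hv2, hvr⟩
  have := hv2.self_of_nhds
  rw [hgy] at this
  exact pow_eq_zero_iff two_ne_zero |>.1 this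

end

end Crest.Agent.R272.Gm1_235
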