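import Mathlib

/-!
# R272, leaf ROOTCOV (helper83): covering spaces from local square roots

`RS Y ι g`: a system of admissible local square roots of the functions `g a : Y → ℂ` (`a : ι`).
`RS.E` is the total space of a fibre bundle with fibre `ι → Bool` (so a covering space of `Y` when `ι`
is finite), `RS.ρ a : E → ℂ` are continuous and `(ρ a e)^2 = g a (p e)`.  Over an open set on which
admissible roots are given there is a continuous section with `ρ a (s x) = r a x`.
-/

set_option autoImplicit false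

open Set Topology Filter

namespace Crest.Agent.R272.Root_83

noncomputable section

universe u v

/-- the sign of a boolean -/
def sg (b : Bool) : ℂ := if b then -1 else 1

@[simp] theorem sg_true : sg true = -1 := by simp [sg]
@[simp] theorem sg_false : sg false = 1 := by simp [sg]

theorem sg_mul_self (b : Bool) : sg b * sg b = 1 := by cases b <;> simp
theorem sg_sq (b : Bool) : sg b ^ 2 = 1 := by cases b <;> simp
theorem sg_ne (b : Bool) : sg b ≠ 0 := by cases b <;> simp
theorem sg_xor (b c : Bool) : sg (xor b c) = sg b * sg c := by cases b <;> cases c <;> simp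

theorem sg_inj {b c : Bool} (h : sg b = sg c) : b = c := by
  cases b <;> cases c <;> simp at h ⊢
  · norm_num [Complex.ext_iff] at h
  · norm_num [Complex.ext_iff] at h

/-- **Root system**: admissible local square roots of a family of functions. -/
structure RS (Y : Type u) [TopologicalSpace Y] (ι : Type v) (g : ι → Y → ℂ) where
  /-- `r` is an admissible root of `g a` near `x` -/
  Rt : ι → (Y → ℂ) → Y → Prop
  opn : ∀ {a : ι} {r : Y → ℂ} {x : Y}, Rt a r x → ∀ᶠ z in 𝓝 x, Rt a r z
  sq : ∀ {a : ι} {r : Y → ℂ} {x : Y}, Rt a r x → r x ^ 2 = g a x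
  cont : ∀ {a : ι} {r : Y → ℂ} {x : Y}, Rt a r x → ContinuousAt r x
  ex : ∀ (a : ι) (x : Y), ∃ r : Y → ℂ, Rt a r x
  ne : ∀ (a : ι) (x : Y), ∃ᶠ z in 𝓝 x, g a z ≠ 0
  dich : ∀ {a : ι} {r r' : Y → ℂ} {x : Y}, Rt a r x → Rt a r' x → r' =ᶠ[𝓝 x] r ∨ r' =ᶠ[𝓝 x] -r

/-- the sign of `r'` with respect to `r` at `x` -/
def sn {Y : Type u} [TopologicalSpace Y] (r r' : Y → ℂ) (x : Y) : Bool :=
  open Classical in decide (¬ r' =ᶠ[𝓝 x] r)

namespace RS

variable {Y : Type u} [TopologicalSpace Y] {ι : Type v} {g : ι → Y → ℂ} (H : RS Y ι g)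

section sign

variable {H} {a : ι} {r r' r'' : Y → ℂ} {x : Y}

theorem sn_spec (h : H.Rt a r x) (h' : H.Rt a r' x) : r' =ᶠ[𝓝 x] fun z => sg (sn r r' x) * r z := by
  classical
  by_cases h1 : r' =ᶠ[𝓝 x] r
  · have h2 : sn r r' x = false := by simp [sn, h1]
    rw [h2]
    filter_upwards [h1] with z hz
    rw [hz, sg_false, one_mul]
  · have h2 : sn r r' x = true := by simp [sn, h1]
    rw [h2]
    have h3 := (H.dich h h').resolve_left h1
    filter_upwards [h3] with z hz
    rw [hz, sg_true, Pi.neg_apply, neg_one_mul]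

theorem freq_ne (h : H.Rt a r x) : ∃ᶠ z in 𝓝 x, r z ≠ 0 := by
  have h1 := H.ne a x
  refine (h1.and_eventually (H.opn h)).mono ?_
  rintro z ⟨hz, hz2⟩ h0
  apply hz
  rw [← H.sq hz2, h0]; simp

theorem sn_unique (h : H.Rt a r x) (h' : H.Rt a r' x) {b : Bool}
    (hb : r' =ᶠ[𝓝 x] fun z => sg b * r z) : sn r r' x = b := by
  have h1 := sn_spec h h'
  obtain ⟨z, hz, h2, h3⟩ := ((freq_ne h).and_eventually (h1.and hb)).exists
  apply sg_inj
  have h4 : sg (sn r r' x) * r z = sg b * r z := h2.symm.trans h3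
  exact mul_right_cancel₀ hz h4

theorem sn_loc (h : H.Rt a r x) (h' : H.Rt a r' x) : ∀ᶠ z in 𝓝 x, sn r r' z = sn r r' x := by
  have h1 := sn_spec h h'
  filter_upwards [h1.eventually_nhds, H.opn h, H.opn h'] with z hz hr hr'
  exact sn_unique hr hr' hz

theorem sn_self (h : H.Rt a r x) : sn r r x = false :=
  sn_unique h h (by filter_upwards with z; rw [sg_false, one_mul])

theorem sn_comp (h : H.Rt a r x) (h' : H.Rt a r' x) (h'' : H.Rt a r'' x) :
    sn r r'' x = xor (sn r r' x) (sn r' r'' x) := by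
  refine sn_unique h h'' ?_
  filter_upwards [sn_spec h h', sn_spec h' h''] with z h1 h2
  rw [h2, h1, sg_xor]; ring

theorem sn_val (h : H.Rt a r x) (h' : H.Rt a r' x) : r' x = sg (sn r r' x) * r x :=
  (sn_spec h h').self_of_nhds

end sign

/-- an open set with admissible roots of all the functions -/
structure Idx where
  U : Set Y
  hU : IsOpen U
  r : ι → Y → ℂ
  h : ∀ a, ∀ x ∈ U, H.Rt a (r a) x

theorem exists_idx [Finite ι] (x : Y) : ∃ i : H.Idx, x ∈ i.U := by
  choose r hr using fun a => H.ex a x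
  have h1 : ∀ᶠ z in 𝓝 x, ∀ a, H.Rt a (r a) z := by
    rw [Filter.eventually_all]
    exact fun a => H.opn (hr a)
  obtain ⟨U, hU, hUo, hx⟩ := _root_.eventually_nhds_iff.1 h1
  exact ⟨⟨U, hUo, r, fun a z hz => hU z hz a⟩, hx⟩

variable [Finite ι]

/-- the chosen chart at a point -/
def at' (x : Y) : H.Idx := (H.exists_idx x).choose

theorem mem_at' (x : Y) : x ∈ (H.at' x).U := (H.exists_idx x).choose_spec

/-- the coordinate change -/
def cc (i j : H.Idx) (x : Y) (v : ι → Bool) : ι → Bool := fun a => xor (v a) (sn (i.r a) (j.r a) x)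

/-- the fibre bundle -/
def core : FiberBundleCore H.Idx Y (ι → Bool) where
  baseSet i := i.U
  isOpen_baseSet i := i.hU
  indexAt := H.at'
  mem_baseSet_at := H.mem_at'
  coordChange := H.cc
  coordChange_self i x hx v := by
    funext a
    show xor (v a) (sn (i.r a) (i.r a) x) = v a
    rw [sn_self (i.h a x hx), Bool.xor_false]
  continuousOn_coordChange i j := by
    rintro ⟨x, v⟩ ⟨⟨hi, hj⟩, -⟩
    have h1 : ∀ᶠ q : Y × (ι → Bool) in 𝓝 (x, v), H.cc i j q.1 q.2 = H.cc i j x v := by
      have h2 : ∀ᶠ z in 𝓝 x, ∀ a, sn (i.r a) (j.r a) z = sn (i.r a) (j.r a) x := by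
        rw [Filter.eventually_all]
        exact fun a => sn_loc (i.h a x hi) (j.h a x hj)
      have h3 : ∀ᶠ w in 𝓝 v, w = v := by
        rw [nhds_discrete, Filter.eventually_pure]
      rw [nhds_prod_eq]
      filter_upwards [h2.prod_mk h3] with q hq
      funext a
      show xor (q.2 a) (sn (i.r a) (j.r a) q.1) = xor (v a) (sn (i.r a) (j.r a) x)
      rw [hq.1 a, hq.2]
    exact (continuousAt_const.congr (h1.mono fun q hq => hq.symm)).continuousWithinAt
  coordChange_comp i j k x hx v := by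
    funext a
    show xor (xor (v a) (sn (i.r a) (j.r a) x)) (sn (j.r a) (k.r a) x) = xor (v a) (sn (i.r a) (k.r a) x)
    rw [sn_comp (i.h a x hx.1.1) (j.h a x hx.1.2) (k.h a x hx.2), Bool.xor_assoc]

/-- the covering space -/
abbrev E : Type _ := H.core.TotalSpace

/-- the projection -/
def p : H.E → Y := H.core.proj

theorem cov : IsCoveringMap H.p :=
  FiberBundle.isCoveringMap (F := ι → Bool) (E := H.core.Fiber)

theorem continuous_p : Continuous H.p := H.cov.continuous

/-- the point over `x` with the coordinate `v` in the chart at `x` -/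
def pt (x : Y) (v : ι → Bool) : H.E := ⟨x, v⟩

@[simp] theorem p_pt (x : Y) (v : ι → Bool) : H.p (H.pt x v) = x := rfl

theorem p_surjective : Function.Surjective H.p := fun x => ⟨H.pt x (fun _ => false), rfl⟩

/-- the coordinate of a point of `E` in a chart -/
def crd (i : H.Idx) (e : H.E) : ι → Bool := (H.core.localTriv i e).2

theorem crd_eq (i : H.Idx) (e : H.E) (a : ι) :
    H.crd i e a = xor (e.2 a) (sn ((H.at' e.1).r a) (i.r a) e.1) := rfl

theorem continuousAt_crd (i : H.Idx) {e : H.E} (he : H.p e ∈ i.U) : ContinuousAt (H.crd i) e := by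
  have h1 : ContinuousAt (H.core.localTriv i) e := by
    refine (H.core.localTriv i).continuousAt ?_
    rw [FiberBundleCore.mem_localTriv_source]
    exact he
  exact continuousAt_snd.comp h1

/-- the root functions -/
def ρ (a : ι) (e : H.E) : ℂ := sg (e.2 a) * (H.at' e.1).r a e.1

theorem ρ_eq (i : H.Idx) {e : H.E} (he : H.p e ∈ i.U) (a : ι) :
    H.ρ a e = sg (H.crd i e a) * i.r a (H.p e) := by
  have h1 := sn_val ((H.at' e.1).h a e.1 (H.mem_at' e.1)) (i.h a e.1 he)
  rw [H.crd_eq, sg_xor]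
  show sg (e.2 a) * (H.at' e.1).r a e.1 = _ * i.r a e.1
  rw [h1]
  have h2 := sg_mul_self (sn ((H.at' e.1).r a) (i.r a) e.1)
  linear_combination (- sg (e.2 a) * (H.at' e.1).r a e.1) * h2

theorem ρ_sq (a : ι) (e : H.E) : H.ρ a e ^ 2 = g a (H.p e) := by
  have h1 := H.sq ((H.at' e.1).h a e.1 (H.mem_at' e.1))
  show (sg (e.2 a) * (H.at' e.1).r a e.1) ^ 2 = g a e.1
  rw [mul_pow, sg_sq, one_mul, h1]

theorem continuous_ρ (a : ι) : Continuous (H.ρ a) := by
  rw [continuous_iff_continuousAt]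
  intro e
  set i := H.at' e.1 with hi
  have he : H.p e ∈ i.U := H.mem_at' e.1
  have h1 : ContinuousAt (fun e' => sg (H.crd i e' a) * i.r a (H.p e')) e := by
    refine ContinuousAt.mul ?_ ?_
    · have h2 : Continuous (fun v : ι → Bool => sg (v a)) := by fun_prop
      exact h2.continuousAt.comp (H.continuousAt_crd i he)
    · exact ContinuousAt.comp (H.cont (i.h a _ he)) H.continuous_p.continuousAt
  refine h1.congr ?_
  have h2 : ∀ᶠ e' in 𝓝 e, H.p e' ∈ i.U :=
    H.continuous_p.continuousAt.preimage_mem_nhds (i.hU.mem_nhds he)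
  filter_upwards [h2] with e' he'
  rw [H.ρ_eq i he']

/-- the section over a chart -/
def sec (i : H.Idx) (x : Y) : H.E := H.pt x (fun a => sn (i.r a) ((H.at' x).r a) x)

@[simp] theorem p_sec (i : H.Idx) (x : Y) : H.p (H.sec i x) = x := rfl

theorem sec_eq (i : H.Idx) (x : Y) :
    H.sec i x = (H.core.localTriv i).toOpenPartialHomeomorph.symm (x, fun _ => false) := by
  have h := H.core.localTriv_symm_apply i (x, fun _ => false)
  rw [h]
  show (⟨x, _⟩ : H.core.TotalSpace) = ⟨x, _⟩
  congr 1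
  funext a
  show _ = xor false _
  rw [Bool.false_xor]
  rfl

theorem continuousOn_sec (i : H.Idx) : ContinuousOn (H.sec i) i.U := by
  have h1 : H.sec i = fun x => (H.core.localTriv i).toOpenPartialHomeomorph.symm (x, fun _ => false) := by
    funext x; exact H.sec_eq i x
  rw [h1]
  refine (H.core.localTriv i).toOpenPartialHomeomorph.continuousOn_symm.comp
    (Continuous.continuousOn (by fun_prop)) ?_
  intro x hx
  rw [FiberBundleCore.mem_localTriv_target]
  exact hx

theorem crd_sec (i : H.Idx) {x : Y} (hx : x ∈ i.U) : H.crd i (H.sec i x) = fun _ => false := by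
  funext a
  rw [H.crd_eq]
  show xor (sn (i.r a) ((H.at' x).r a) x) (sn ((H.at' x).r a) (i.r a) x) = false
  rw [← sn_comp (i.h a x hx) ((H.at' x).h a x (H.mem_at' x)) (i.h a x hx), sn_self (i.h a x hx)]

theorem ρ_sec (i : H.Idx) {x : Y} (hx : x ∈ i.U) (a : ι) : H.ρ a (H.sec i x) = i.r a x := by
  rw [H.ρ_eq i (e := H.sec i x) hx a, H.crd_sec i hx, sg_false, one_mul]; rfl

/-- two charts with the same roots near `x` give the same point -/
theorem sec_congr {i j : H.Idx} {x : Y} (h : ∀ a, i.r a =ᶠ[𝓝 x] j.r a) :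
    H.sec i x = H.sec j x := by
  unfold sec
  congr 1
  funext a
  unfold sn
  have h1 : ((H.at' x).r a =ᶠ[𝓝 x] i.r a) ↔ ((H.at' x).r a =ᶠ[𝓝 x] j.r a) :=
    ⟨fun h2 => h2.trans (h a), fun h2 => h2.trans (h a).symm⟩
  rw [decide_eq_decide, h1]

/-- **Section over an open set on which admissible roots are given.** -/
theorem exists_section {U : Set Y} (hU : IsOpen U) (r : ι → Y → ℂ)
    (hr : ∀ a, ∀ x ∈ U, H.Rt a (r a) x) :
    ∃ s : Y → H.E, ContinuousOn s U ∧ (∀ x, H.p (s x) = x) ∧ ∀ a, ∀ x ∈ U, H.ρ a (s x) = r a x :=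
  ⟨H.sec ⟨U, hU, r, hr⟩, H.continuousOn_sec _, fun _ => rfl, fun a x hx =>
    H.ρ_sec ⟨U, hU, r, hr⟩ hx a⟩

/-- **Lifting**: a continuous map `j : T → Y` together with a locally constant choice of germs of
admissible roots along `j` lifts to `E`. -/
theorem exists_lift {T : Type*} [TopologicalSpace T] {j : T → Y} (hj : Continuous j)
    (R : T → ι → Y → ℂ) (hR : ∀ t a, H.Rt a (R t a) (j t))
    (hc : ∀ t, ∀ᶠ t' in 𝓝 t, ∀ a, R t' a =ᶠ[𝓝 (j t')] R t a) :
    ∃ J : T → H.E, Continuous J ∧ (∀ t, H.p (J t) = j t) ∧ ∀ a t, H.ρ a (J t) = R t a (j t) := by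
  have hex : ∀ t, ∃ i : H.Idx, j t ∈ i.U ∧ i.r = R t := by
    intro t
    have h1 : ∀ᶠ z in 𝓝 (j t), ∀ a, H.Rt a (R t a) z := by
      rw [Filter.eventually_all]
      exact fun a => H.opn (hR t a)
    obtain ⟨U, hU, hUo, hx⟩ := _root_.eventually_nhds_iff.1 h1
    exact ⟨⟨U, hUo, R t, fun a z hz => hU z hz a⟩, hx, rfl⟩
  choose i hi hir using hex
  refine ⟨fun t => H.sec (i t) (j t), ?_, fun _ => rfl, ?_⟩
  · rw [continuous_iff_continuousAt]
    intro t
    have h1 : ContinuousAt (fun t' => H.sec (i t) (j t')) t := by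
      have h2 : ContinuousAt (H.sec (i t)) (j t) :=
        (H.continuousOn_sec (i t)).continuousAt ((i t).hU.mem_nhds (hi t))
      exact ContinuousAt.comp (f := j) h2 hj.continuousAt
    refine h1.congr ?_
    filter_upwards [hc t] with t' ht'
    refine (H.sec_congr ?_).symm
    intro a
    rw [hir, hir]
    exact ht' a
  · intro a t
    rw [H.ρ_sec (i t) (hi t), hir]

/-- the sign action of `ι → Bool` -/
def tw (b : ι → Bool) (e : H.E) : H.E := H.pt e.1 (fun a => xor (e.2 a) (b a))

@[simp] theorem p_tw (b : ι → Bool) (e : H.E) : H.p (H.tw b e) = H.p e := rfl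

theorem ρ_tw (b : ι → Bool) (e : H.E) (a : ι) : H.ρ a (H.tw b e) = sg (b a) * H.ρ a e := by
  show sg (xor (e.2 a) (b a)) * (H.at' e.1).r a e.1 = sg (b a) * (sg (e.2 a) * (H.at' e.1).r a e.1)
  rw [sg_xor]; ring

theorem exists_tw {e e' : H.E} (h : H.p e = H.p e') : ∃ b, e' = H.tw b e := by
  obtain ⟨x, v⟩ := e
  obtain ⟨y, w⟩ := e'
  have hxy : x = y := h
  subst hxy
  refine ⟨fun a => xor (v a) (w a), ?_⟩
  show H.pt x w = H.pt x _
  congr 1
  funext a
  show w a = xor (v a) (xor (v a) (w a))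
  rw [← Bool.xor_assoc, Bool.xor_self, Bool.false_xor]

theorem crd_tw (b : ι → Bool) (e : H.E) (i : H.Idx) :
    H.crd i (H.tw b e) = fun a => xor (H.crd i e a) (b a) := by
  funext a
  rw [H.crd_eq, H.crd_eq]
  show xor (xor (e.2 a) (b a)) _ = xor (xor (e.2 a) _) (b a)
  cases e.2 a <;> cases b a <;> simp [tw, pt]

end RS

end

end Crest.Agent.R272.Root_83
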