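/-
# Row 272 (S0414): LB414, the lower bound over the root cover (helper275)

`Y` = the pulled back surface (`T, W : Y → ℂ` the bidisc coordinates), `H : RS Y (Fin 4) (gg F T W)` the root system
of helper83 for `W, W - F T, T, W - T`.  Local data at the points of the special fibre `{T = W = 0}` and a closed
4-gon of paths in it give a circle valued function on `H.E` and a loop on which its degree is not zero.
-/
import Mathlib
import Crest.Agent.R272.Wall3_275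
import Crest.Agent.R272.Root1_83

noncomputable section

open Topology Filter Set Metric
open scoped unitInterval

open Crest.Agent.R272.Th_275 Crest.Agent.R272.Wall_275

namespace Crest.Agent.R272.Wall4_275

open Crest.Agent.R272.Wall2_275 Crest.Agent.R272.Wall3_275 Crest.Agent.R272.Root_83

universe u

variable {Y : Type u} [TopologicalSpace Y]

/-- the four functions whose roots are taken -/
def gg (F : ℂ → ℂ) (T W : Y → ℂ) : Fin 4 → Y → ℂ :=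
  ![W, fun y => W y - F (T y), T, fun y => W y - T y]

/-- finite slope at `y`: `r 0 = r 2 * u`, value `m` -/
def SlR (r : Fin 4 → Y → ℂ) (y : Y) (m : ℂ) : Prop :=
  ∃ u : Y → ℂ, ContinuousAt u y ∧ u y = m ∧ ∀ᶠ x in 𝓝 y, r 0 x = r 2 x * u x

/-- infinite slope at `y` : `r 2 = r 0 * v`, `v y = 0` -/
def InfR (r : Fin 4 → Y → ℂ) (y : Y) : Prop :=
  ∃ v : Y → ℂ, ContinuousAt v y ∧ v y = 0 ∧ ∀ᶠ x in 𝓝 y, r 2 x = r 0 x * v x

/-- `r 3 = r 2 * κ`, value `k` -/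
def KpR (r : Fin 4 → Y → ℂ) (y : Y) (k : ℂ) : Prop :=
  ∃ κ : Y → ℂ, ContinuousAt κ y ∧ κ y = k ∧ ∀ᶠ x in 𝓝 y, r 3 x = r 2 x * κ x

/-- `r 1 = r 0 * λ`, value `l` -/
def LmR (r : Fin 4 → Y → ℂ) (y : Y) (l : ℂ) : Prop :=
  ∃ lam : Y → ℂ, ContinuousAt lam y ∧ lam y = l ∧ ∀ᶠ x in 𝓝 y, r 1 x = r 0 x * lam x

/-- the data over the bidisc -/
structure BD (Y : Type u) [TopologicalSpace Y] where
  F : ℂ → ℂ
  T : Y → ℂ
  W : Y → ℂ
  cT : Continuous T
  cW : Continuous W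
  cF : ContinuousOn F (ball 0 1)
  hT : ∀ y, ‖T y‖ < 1
  hF : ∀ z : ℂ, ‖z‖ < 1 → ‖F z‖ ≤ ‖z‖ ^ 2

variable (B : BD Y) (H : RS Y (Fin 4) (gg B.F B.T B.W))

theorem rho0 (e : H.E) : H.ρ 0 e ^ 2 = B.W (H.p e) := H.ρ_sq 0 e
theorem rho1 (e : H.E) : H.ρ 1 e ^ 2 = B.W (H.p e) - B.F (B.T (H.p e)) := H.ρ_sq 1 e
theorem rho2 (e : H.E) : H.ρ 2 e ^ 2 = B.T (H.p e) := H.ρ_sq 2 e
theorem rho3 (e : H.E) : H.ρ 3 e ^ 2 = B.W (H.p e) - B.T (H.p e) := H.ρ_sq 3 e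

/-- the wall data on the root cover -/
def wd : WD H.E where
  F := B.F
  z := fun e => B.T (H.p e)
  w := fun e => B.W (H.p e)
  a := fun e => H.ρ 0 e * H.ρ 1 e
  b := fun e => H.ρ 2 e * H.ρ 3 e
  cz := B.cT.comp H.continuous_p
  cw := B.cW.comp H.continuous_p
  ca := (H.continuous_ρ 0).mul (H.continuous_ρ 1)
  cb := (H.continuous_ρ 2).mul (H.continuous_ρ 3)
  cF := B.cF
  hz := fun e => B.hT _
  hF := B.hF
  sa := fun e => by rw [mul_pow, rho0, rho1]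
  sb := fun e => by rw [mul_pow, rho2, rho3]

variable {B H}

/-- near `e` the root functions are `±` the given local roots -/
theorem exists_sign {r : Fin 4 → Y → ℂ} {e : H.E} (hr : ∀ a, H.Rt a (r a) (H.p e)) :
    ∃ s : Fin 4 → Bool, (∀ᶠ e' in 𝓝 e, ∀ a, H.ρ a e' = sg (s a) * r a (H.p e')) := by
  have h1 : ∀ᶠ z in 𝓝 (H.p e), ∀ a, H.Rt a (r a) z := by
    rw [Filter.eventually_all]
    exact fun a => H.opn (hr a)
  obtain ⟨U, hU, hUo, hx⟩ := _root_.eventually_nhds_iff.1 h1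
  let i : H.Idx := ⟨U, hUo, r, fun a z hz => hU z hz a⟩
  refine ⟨H.crd i e, ?_⟩
  have h2 : ∀ᶠ e' in 𝓝 e, H.crd i e' = H.crd i e := by
    have h3 := H.continuousAt_crd i (e := e) hx
    have h4 : ∀ᶠ v in 𝓝 (H.crd i e), v = H.crd i e := by
      rw [nhds_discrete]; exact Filter.eventually_pure.mpr rfl
    exact h3.eventually h4
  filter_upwards [h2, H.continuous_p.continuousAt.preimage_mem_nhds (hUo.mem_nhds hx)] with e' h3 h4 a
  rw [H.ρ_eq i h4 a, h3]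

theorem not_mem_A {e : H.E} : e ∉ (wd B H).A ↔ B.T (H.p e) = 0 ∧ B.W (H.p e) = 0 := by
  show ¬ (_ ∨ _) ↔ _
  rw [not_or, not_not, not_not]
  rfl

theorem slopeAt {r : Fin 4 → Y → ℂ} {e : H.E} (hr : ∀ a, H.Rt a (r a) (H.p e)) {m : ℂ}
    (h : SlR r (H.p e) m) : (wd B H).SlopeAt e (m ^ 2) := by
  obtain ⟨s, hs⟩ := exists_sign hr
  obtain ⟨u, hu, hum, h1⟩ := h
  refine ⟨fun e' => u (H.p e') ^ 2, ?_, by show u (H.p e) ^ 2 = _; rw [hum], ?_⟩
  · exact (ContinuousAt.comp (f := H.p) hu H.continuous_p.continuousAt).pow 2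
  · filter_upwards [hs, H.continuous_p.continuousAt.eventually h1] with e' h2 h3
    show B.W (H.p e') = B.T (H.p e') * u (H.p e') ^ 2
    have e0 := rho0 B H e'
    have e2 := rho2 B H e'
    rw [h2 0, mul_pow, sg_sq, one_mul] at e0
    rw [h2 2, mul_pow, sg_sq, one_mul] at e2
    rw [← e0, ← e2, h3]
    ring

theorem slopeInf {r : Fin 4 → Y → ℂ} {e : H.E} (hr : ∀ a, H.Rt a (r a) (H.p e))
    (h : InfR r (H.p e)) : (wd B H).SlopeInf e := by
  obtain ⟨s, hs⟩ := exists_sign hr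
  obtain ⟨u, hu, hum, h1⟩ := h
  refine ⟨fun e' => u (H.p e') ^ 2, ?_, by show u (H.p e) ^ 2 = _; rw [hum]; ring, ?_⟩
  · exact (ContinuousAt.comp (f := H.p) hu H.continuous_p.continuousAt).pow 2
  · filter_upwards [hs, H.continuous_p.continuousAt.eventually h1] with e' h2 h3
    show B.T (H.p e') = B.W (H.p e') * u (H.p e') ^ 2
    have e0 := rho0 B H e'
    have e2 := rho2 B H e'
    rw [h2 0, mul_pow, sg_sq, one_mul] at e0
    rw [h2 2, mul_pow, sg_sq, one_mul] at e2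
    rw [← e0, ← e2, h3]
    ring

theorem kapAt {r : Fin 4 → Y → ℂ} {e : H.E} {s : Fin 4 → Bool}
    (hs : ∀ᶠ e' in 𝓝 e, ∀ a, H.ρ a e' = sg (s a) * r a (H.p e')) {k : ℂ}
    (h : KpR r (H.p e) k) : (wd B H).KapAt e (sg (s 2) * sg (s 3) * k) := by
  obtain ⟨u, hu, hum, h1⟩ := h
  refine ⟨fun e' => sg (s 2) * sg (s 3) * u (H.p e'), ?_,
    by show sg (s 2) * sg (s 3) * u (H.p e) = _; rw [hum], ?_⟩
  · exact continuousAt_const.mul (ContinuousAt.comp (f := H.p) hu H.continuous_p.continuousAt)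
  · filter_upwards [hs, H.continuous_p.continuousAt.eventually h1] with e' h2 h3
    show H.ρ 2 e' * H.ρ 3 e' = B.T (H.p e') * _
    have e2 := rho2 B H e'
    rw [h2 2, mul_pow, sg_sq, one_mul] at e2
    rw [← e2, h2 2, h2 3, h3]
    ring

theorem lamAt {r : Fin 4 → Y → ℂ} {e : H.E} {s : Fin 4 → Bool}
    (hs : ∀ᶠ e' in 𝓝 e, ∀ a, H.ρ a e' = sg (s a) * r a (H.p e')) {l : ℂ}
    (h : LmR r (H.p e) l) : (wd B H).LamAt e (sg (s 0) * sg (s 1) * l) := by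
  obtain ⟨u, hu, hum, h1⟩ := h
  refine ⟨fun e' => sg (s 0) * sg (s 1) * u (H.p e'), ?_,
    by show sg (s 0) * sg (s 1) * u (H.p e) = _; rw [hum], ?_⟩
  · exact continuousAt_const.mul (ContinuousAt.comp (f := H.p) hu H.continuous_p.continuousAt)
  · filter_upwards [hs, H.continuous_p.continuousAt.eventually h1] with e' h2 h3
    show H.ρ 0 e' * H.ρ 1 e' = B.W (H.p e') * _
    have e2 := rho0 B H e'
    rw [h2 0, mul_pow, sg_sq, one_mul] at e2
    rw [← e2, h2 0, h2 1, h3]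
    ring

variable (B H)

/-- **the local hypotheses at the special fibre** -/
def Loc : Prop :=
  ∀ y, B.T y = 0 → B.W y = 0 → ∃ r : Fin 4 → Y → ℂ, (∀ a, H.Rt a (r a) y) ∧
    ((∃ m, SlR r y m ∧ (m ≠ 0 → (∃ k, KpR r y k) ∧ ∃ l, LmR r y l)) ∨ InfR r y)

variable {B H}

theorem neBot (e : H.E) : (𝓝[(wd B H).A] e).NeBot := by
  rw [← mem_closure_iff_nhdsWithin_neBot, mem_closure_iff_frequently]
  have h1 := H.ne 2 (H.p e)
  have h2 : 𝓝 (H.p e) = Filter.map H.p (𝓝 e) := (H.cov.isLocalHomeomorph.map_nhds_eq e).symm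
  rw [h2, Filter.frequently_map] at h1
  refine h1.mono ?_
  intro e' he'
  exact Or.inl he'

theorem loc_kl (h : Loc B H) {e : H.E} (he : e ∉ (wd B H).A) {μ : ℂ} (hμ : (wd B H).SlopeAt e μ)
    (h1 : 1 / 3 < ‖μ‖) (h2 : ‖μ‖ < 2 / 3) :
    (∃ k, (wd B H).KapAt e k) ∧ ∃ l, (wd B H).LamAt e l := by
  obtain ⟨h3, h4⟩ := not_mem_A.mp he
  obtain ⟨r, hr, h5⟩ := h _ h3 h4
  have hnb := neBot e
  have hlim := (wd B H).tendsto_t0_slope he hμ
  rcases h5 with ⟨m, hm, h6⟩ | h6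
  · have hm0 : m ≠ 0 := by
      rintro rfl
      have h7 := (wd B H).tendsto_t0_slope he (slopeAt hr hm)
      have h8 := tendsto_nhds_unique hlim h7
      have h9 : Tw 0 1 ‖(0 : ℂ) ^ 2‖ = 0 := by
        by_contra h10
        have h11 := (WD.tw_ne (norm_nonneg _)).1.mp h10
        norm_num at h11
      rw [h9] at h8
      exact (WD.tw_ne (norm_nonneg _)).1.mpr h1 h8
    obtain ⟨⟨k, hk⟩, l, hl⟩ := h6 hm0
    obtain ⟨s, hs⟩ := exists_sign hr
    exact ⟨⟨_, kapAt hs hk⟩, _, lamAt hs hl⟩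
  · have h7 := (wd B H).tendsto_t0_inf he (slopeInf hr h6)
    exact absurd (tendsto_nhds_unique hlim h7) ((WD.tw_ne (norm_nonneg _)).2.mpr h2)

/-- the hypotheses of Wall2 hold on the root cover -/
theorem ext (h : Loc B H) : (wd B H).Ext where
  nb := fun e _ => neBot e
  slope := by
    intro e he
    obtain ⟨h1, h2⟩ := not_mem_A.mp he
    obtain ⟨r, hr, h3⟩ := h _ h1 h2
    rcases h3 with ⟨m, hm, -⟩ | h3
    · exact Or.inl ⟨_, slopeAt hr hm⟩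
    · exact Or.inr (slopeInf hr h3)
  kap := fun e he μ hμ h1 h2 => (loc_kl h he hμ h1 h2).1
  lam := fun e he μ hμ h1 h2 => (loc_kl h he hμ h1 h2).2

/-! ### the loop -/

/-- lifting along a locally constant choice of germs of roots, with control of the germs of `ρ` -/
theorem exists_lift_germ {Z : Type*} [TopologicalSpace Z] {j : Z → Y} (hj : Continuous j)
    (R : Z → Fin 4 → Y → ℂ) (hR : ∀ t a, H.Rt a (R t a) (j t))
    (hc : ∀ t, ∀ᶠ t' in 𝓝 t, ∀ a, R t' a =ᶠ[𝓝 (j t')] R t a) :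
    ∃ J : Z → H.E, Continuous J ∧ (∀ t, H.p (J t) = j t) ∧
      ∀ t, ∀ᶠ e' in 𝓝 (J t), ∀ a, H.ρ a e' = R t a (H.p e') := by
  have hex : ∀ t, ∃ i : H.Idx, j t ∈ i.U ∧ i.r = R t := by
    intro t
    have h1 : ∀ᶠ z in 𝓝 (j t), ∀ a, H.Rt a (R t a) z := by
      rw [Filter.eventually_all]
      exact fun a => H.opn (hR t a)
    obtain ⟨U, hU, hUo, hx⟩ := _root_.eventually_nhds_iff.1 h1
    exact ⟨⟨U, hUo, R t, fun a z hz => hU z hz a⟩, hx, rfl⟩
  choose i hi hir using hex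
  refine ⟨fun t => H.sec (i t) (j t), ?_, fun _ => rfl, ?_⟩
  · rw [continuous_iff_continuousAt]
    intro t
    have h1 : ContinuousAt (fun t' => H.sec (i t) (j t')) t := by
      have h2 : ContinuousAt (H.sec (i t)) (j t) :=
        (H.continuousOn_sec (i t)).continuousAt ((i t).hU.mem_nhds (hi t))
      exact ContinuousAt.comp (f := j) h2 hj.continuousAt
    refine h1.congr ?_
    filter_upwards [hc t] with t' ht'
    refine (H.sec_congr ?_).symm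
    intro a
    rw [hir, hir]
    exact ht' a
  · intro t
    have h1 : H.crd (i t) (H.sec (i t) (j t)) = fun _ => false := H.crd_sec (i t) (hi t)
    have h3 := H.continuousAt_crd (i t) (e := H.sec (i t) (j t)) (hi t)
    have h4 : ∀ᶠ v in 𝓝 (H.crd (i t) (H.sec (i t) (j t))), v = fun _ => false := by
      rw [nhds_discrete]; exact Filter.eventually_pure.mpr h1
    have h5 : ∀ᶠ e' in 𝓝 (H.sec (i t) (j t)), H.p e' ∈ (i t).U :=
      H.continuous_p.continuousAt.preimage_mem_nhds ((i t).hU.mem_nhds (hi t))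
    filter_upwards [h3.eventually h4, h5] with e' h6 h7 a
    rw [H.ρ_eq (i t) h7 a, h6, hir]
    simp

/-- an arc of the special fibre crossing the wall twice: `u² = 1 - s²`, `λ κ = i s`, `s` from `1` to `-1` -/
def Arc {Zh : Set Y} (R : Zh → Fin 4 → Y → ℂ) (γ : I → Zh) : Prop :=
  ∃ s : I → ℝ, ∃ c : I, s 0 = 1 ∧ s 1 = -1 ∧ s c = 0 ∧ (∀ t, |s t| ≤ 1) ∧
    (∀ t ≤ c, 0 ≤ s t) ∧ (∀ t, c ≤ t → s t ≤ 0) ∧
    (∀ t, ∃ m : ℂ, SlR (R (γ t)) (γ t : Y) m ∧ m ^ 2 = ((1 - s t ^ 2 : ℝ) : ℂ)) ∧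
    ∀ t, s t ≠ 0 → |s t| < 1 → ∃ k l : ℂ, KpR (R (γ t)) (γ t : Y) k ∧ LmR (R (γ t)) (γ t : Y) l ∧
      l * k = Complex.I * (s t : ℂ)

/-- **LB414**, the lower bound of S0414 over the root cover -/
theorem lb414 (hloc : Loc B H) {Zh : Set Y} (hZ : ∀ y ∈ Zh, B.T y = 0 ∧ B.W y = 0)
    (R : Zh → Fin 4 → Y → ℂ) (hR : ∀ (y : Zh) (a : Fin 4), H.Rt a (R y a) (y : Y))
    (hc : ∀ y : Zh, ∀ᶠ y' : Zh in 𝓝 y, ∀ a, R y' a =ᶠ[𝓝 (y' : Y)] R y a)
    {z₀ z₁ z₂ z₃ : Zh} (k₁ : Path z₀ z₁) (r₁ : Path z₁ z₂) (k₂ : Path z₂ z₃) (r₂ : Path z₃ z₀)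
    (hk₁ : Arc R k₁) (hk₂ : Arc R k₂) (hr₁ : ∀ t, SlR (R (r₁ t)) (r₁ t : Y) 0)
    (hr₂ : ∀ t, SlR (R (r₂ t)) (r₂ t : Y) 0) :
    ∃ (θ : C(H.E, AddCircle (1 : ℝ))) (e : H.E) (c : Path e e) (l : C(I, ℝ)),
      (∀ t, H.p (c t) ∈ Zh) ∧ (∀ t, ((l t : ℝ) : AddCircle (1 : ℝ)) = θ (c t)) ∧ l 1 ≠ l 0 := by
  obtain ⟨J, hJ, hp, hJρ⟩ := exists_lift_germ (H := H) (j := fun y : Zh => (y : Y))
    continuous_subtype_val R hR hc
  have hs : ∀ y : Zh, ∀ᶠ e' in 𝓝 (J y), ∀ a, H.ρ a e' = sg ((fun _ => false : Fin 4 → Bool) a) *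
      R y a (H.p e') := by
    intro y
    filter_upwards [hJρ y] with e' he a
    rw [he a, sg_false, one_mul]
  have hA : ∀ y : Zh, J y ∉ (wd B H).A := by
    intro y
    rw [not_mem_A, hp]
    exact hZ _ y.2
  have hsl : ∀ (y : Zh) (m : ℂ), SlR (R y) (y : Y) m → (wd B H).SlopeAt (J y) (m ^ 2) := by
    intro y m hm
    refine slopeAt (r := R y) ?_ ?_
    · intro a; rw [hp]; exact hR y a
    · rw [hp]; exact hm
  have hkp : ∀ (y : Zh) (k : ℂ), KpR (R y) (y : Y) k → (wd B H).KapAt (J y) k := by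
    intro y k hk
    have h1 := kapAt (hs y) (k := k) (by rw [hp]; exact hk)
    rwa [sg_false, one_mul, one_mul] at h1
  have hlm : ∀ (y : Zh) (k : ℂ), LmR (R y) (y : Y) k → (wd B H).LamAt (J y) k := by
    intro y k hk
    have h1 := lamAt (hs y) (l := k) (by rw [hp]; exact hk)
    rwa [sg_false, one_mul, one_mul] at h1
  have hcr : ∀ {x y : Zh} (k : Path x y), Arc R k → Cross (wd B H) (k.map hJ) := by
    intro x y k hk
    refine ⟨fun t => hA _, ?_⟩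
    obtain ⟨s, c, h1, h2, h3, h4, h5, h6, h7, h8⟩ := hk
    refine ⟨s, c, h1, h2, h3, h4, h5, h6, ?_, ?_⟩
    · intro t
      obtain ⟨m, hm, hm2⟩ := h7 t
      rw [← hm2]
      exact hsl _ m hm
    · intro t h9 h10
      obtain ⟨k', l, hk', hl, hkl⟩ := h8 t h9 h10
      exact ⟨k', l, hkp _ _ hk', hlm _ _ hl, hkl⟩
  have hz : ∀ {x y : Zh} (k : Path x y), (∀ t, SlR (R (k t)) (k t : Y) 0) →
      ∀ t, (k.map hJ) t ∉ (wd B H).A ∧ (wd B H).SlopeAt ((k.map hJ) t) 0 := by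
    intro x y k hk t
    refine ⟨hA _, ?_⟩
    have := hsl _ _ (hk t)
    rw [zero_pow two_ne_zero] at this
    exact this
  obtain ⟨c, l, h1, h2, h3⟩ := exists_loop (ext hloc) (S := {e | H.p e ∈ Zh}) (k₁.map hJ)
    (r₁.map hJ) (k₂.map hJ) (r₂.map hJ) (hcr k₁ hk₁) (hcr k₂ hk₂) (hz r₁ hr₁) (hz r₂ hr₂)
    (fun t => by show H.p (J _) ∈ Zh; rw [hp]; exact Subtype.coe_prop _)
    (fun t => by show H.p (J _) ∈ Zh; rw [hp]; exact Subtype.coe_prop _)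
    (fun t => by show H.p (J _) ∈ Zh; rw [hp]; exact Subtype.coe_prop _)
    (fun t => by show H.p (J _) ∈ Zh; rw [hp]; exact Subtype.coe_prop _)
  exact ⟨(ext hloc).θ, _, c, l, h1, h2, h3⟩

end Crest.Agent.R272.Wall4_275
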