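import Crest.Agent.R272.UnB8_894
import Crest.Agent.R272.Wall4_275
import Crest.Agent.R272.Gm1_235

/-!
# R272, S14-GERMS / S14-ASM end game (helper235), part 2: the root system on `X̂` and the local data

`DiscD`  : the two universal covers and the lifts (output of 894's `discs_ram`);
`XMap`   : the holomorphic map `π : X → CC × BB`;
`SqD`    : the square classes on `X` (H1)-(H4);
`bd`, `rs` : 275's data and 83's root system on `X̂ = PB (q × p) π`, in 275's order;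
`SlD`    : the slope dichotomy on `X`;  `loc_xhat` : 275's `Loc`.
-/

set_option autoImplicit false
set_option linter.unusedSectionVars false

open Metric Set Filter Topology Function
open scoped Classical

namespace Crest.Agent.R272.Gm2_235

open Crest.Agent.R275.Geo Crest.Agent.R275.Core144 Crest.Agent.R273.Map_835
open Crest.Agent.R273.Fam_835 Crest.Agent.R272.Quot_783 Crest.Agent.R272.Root_83
open Crest.Agent.R272.LbExt_259 Crest.Agent.R272.K3E_227 Crest.Agent.R272.UnB_894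
open Crest.Agent.R272.Wall4_275 Crest.Agent.R272.Gm1_235

noncomputable section

variable {X CC BB : Type} [TopologicalSpace X] [TopologicalSpace CC] [TopologicalSpace BB]
  {AC : Atl 1 CC} {AB : Atl 1 BB} {n : ℕ} {C : Fam n X} {q : DD → CC} {p : DD → BB}
  {π : X → CC × BB} {φ f : CC → BB} {F : DD → DD}

/-- the discs -/
structure DiscD (AC : Atl 1 CC) (AB : Atl 1 BB) (q : DD → CC) (p : DD → BB) (φ f : CC → BB)
    (F : DD → DD) : Prop where
  hqc : IsCoveringMap q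
  hpc : IsCoveringMap p
  hql : LBD AC q
  hpl : LBD AB p
  hF : Hol F
  hFo : F o = o
  hφ : ∀ t, p (F t) = φ (q t)
  hf : ∀ t, p t = f (q t)
  hle : ∀ t : DD, ‖(F t : ℂ)‖ ≤ ‖(t : ℂ)‖ ^ 2
  hK : ∃ K : ℂ → ℂ, AnalyticAt ℂ K 0 ∧ ∀ᶠ z in 𝓝 (0 : ℂ), ex F z = z ^ 2 * K z

/-- the map to the two curves -/
structure XMap (C : Fam n X) (AC : Atl 1 CC) (AB : Atl 1 BB) (π : X → CC × BB) : Prop where
  hπ : Continuous π
  h1 : HolC C (fam AC) fun x => (π x).1
  h2 : HolC C (fam AB) fun x => (π x).2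

/-- the square classes on `X` -/
structure SqD (C : Fam n X) (AC : Atl 1 CC) (AB : Atl 1 BB) (π : X → CC × BB) (φ f : CC → BB)
    (z0 : CC) (w0 : BB) : Prop where
  rW : ∀ x, (π x).2 = w0 → ∃ g, LC AB w0 g ∧
    SqE C x (fun x' => g (π x').2 - g w0) (fun _ => 1)
  rT : ∀ x, (π x).1 = z0 → ∃ g, LC AC z0 g ∧
    SqE C x (fun x' => g (π x').1 - g z0) (fun _ => 1)
  rF : ∀ x, (π x).2 = φ (π x).1 → ∃ g, LC AB (π x).2 g ∧
    SqE C x (fun x' => g (π x').2 - g (φ (π x').1)) (fun _ => 1)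
  rG : ∀ x, (π x).2 = f (π x).1 → ∃ g, LC AB (π x).2 g ∧
    SqE C x (fun x' => g (π x').2 - g (f (π x').1)) (fun _ => 1)

/-- the slope dichotomy on `X` over `(z0, w0)` -/
structure SlD (C : Fam n X) (AC : Atl 1 CC) (AB : Atl 1 BB) (π : X → CC × BB) (z0 : CC) (w0 : BB)
    (f1 : CC → ℂ) (f2 : BB → ℂ) : Prop where
  lc1 : LC AC z0 f1
  lc2 : LC AB w0 f2
  f1z : f1 z0 = 0
  f2w : f2 w0 = 0
  dich : ∀ x, π x = (z0, w0) →
    (∃ g, HG C x g ∧ ∀ᶠ x' in 𝓝 x, f2 (π x').2 = f1 (π x').1 * g x') ∨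
    ∃ g, HG C x g ∧ g x = 0 ∧ ∀ᶠ x' in 𝓝 x, f1 (π x').1 = f2 (π x').2 * g x'

theorem ex_coe (F : DD → DD) (t : DD) : ex F (t : ℂ) = (F t : ℂ) := exw_coe _ t

/-- 275's data over the bidisc -/
def bd (D : DiscD AC AB q p φ f F) (π : X → CC × BB) : BD (PB (Prod.map q p) π) where
  F := ex F
  T := fun z => (Tc q p π z : ℂ)
  W := fun z => (Wc q p π z : ℂ)
  cT := continuous_subtype_val.comp continuous_Tc
  cW := continuous_subtype_val.comp continuous_Wc
  cF := DifferentiableOn.continuousOn D.hF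
  hT := fun y => mem_ball_zero_iff.1 (Tc q p π y).2
  hF := fun z hz => by
    have hz' : z ∈ ball (0 : ℂ) 1 := mem_ball_zero_iff.2 hz
    have := D.hle ⟨z, hz'⟩
    rwa [← ex_coe] at this

theorem bd_F (D : DiscD AC AB q p φ f F) (z : PB (Prod.map q p) π) :
    (bd D π).F ((bd D π).T z) = (F (Tc q p π z) : ℂ) := ex_coe F _

section rs

variable (D : DiscD AC AB q p φ f F) (M : XMap C AC AB π)

/-- the complex structure of `X̂` -/
abbrev CX : Fam n (PB (Prod.map q p) π) := Cx C D.hqc D.hpc M.hπ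

theorem hgT (z : PB (Prod.map q p) π) : HG (CX D M) z (bd D π).T :=
  hg_T D.hqc D.hpc D.hql D.hpl M.h1 M.h2 M.hπ Hol.id z

theorem hgW (z : PB (Prod.map q p) π) : HG (CX D M) z (bd D π).W :=
  hg_W D.hqc D.hpc D.hql D.hpl M.h1 M.h2 M.hπ z

theorem hgF (z : PB (Prod.map q p) π) : HG (CX D M) z fun z' => (bd D π).F ((bd D π).T z') := by
  have h := hg_T D.hqc D.hpc D.hql D.hpl M.h1 M.h2 M.hπ D.hF z
  refine h.congr (Eventually.of_forall fun z' => ?_)
  exact (bd_F D z').symm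

theorem hg_gg (a : Fin 4) (z : PB (Prod.map q p) π) :
    HG (CX D M) z (gg (bd D π).F (bd D π).T (bd D π).W a) := by
  fin_cases a
  · exact hgW D M z
  · exact (hgW D M z).sub (hgF D M z)
  · exact hgT D M z
  · exact (hgW D M z).sub (hgT D M z)

theorem sq_gg (S : SqD C AC AB π φ f (q o) (p o)) (a : Fin 4) (z : PB (Prod.map q p) π) :
    SqE (CX D M) z (gg (bd D π).F (bd D π).T (bd D π).W a) (fun _ => 1) := by
  fin_cases a
  · exact sqE_W D.hqc D.hpc D.hql D.hpl M.h1 M.h2 M.hπ S.rW z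
  · refine SqE.trans (SqE.of_eq (Eventually.of_forall fun z' => ?_))
      (sqE_WF D.hqc D.hpc D.hql D.hpl M.h1 M.h2 M.hπ D.hF D.hφ S.rF z)
    show (Wc q p π z' : ℂ) - (bd D π).F ((bd D π).T z') = _
    rw [bd_F]
  · exact sqE_T D.hqc D.hpc D.hql D.hpl M.h1 M.h2 M.hπ S.rT z
  · exact sqE_WF D.hqc D.hpc D.hql D.hpl M.h1 M.h2 M.hπ (F := id) Hol.id D.hf S.rG z

/-- **the root system** -/
def rs (S : SqD C AC AB π φ f (q o) (p o)) :
    RS (PB (Prod.map q p) π) (Fin 4) (gg (bd D π).F (bd D π).T (bd D π).W) :=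
  RS.ofSqE (CX D M) _ (hg_gg D M) (fun a z => SqE.freq (sq_gg D M S a z)) (sq_gg D M S)

theorem rs_Rt (S : SqD C AC AB π φ f (q o) (p o)) (a : Fin 4) (r : PB (Prod.map q p) π → ℂ)
    (z : PB (Prod.map q p) π) :
    (rs D M S).Rt a r z ↔ HRt (CX D M) (gg (bd D π).F (bd D π).T (bd D π).W a) r z := Iff.rfl

end rs

/-! ### the disc coordinates and the coordinates of the curves -/

/-- `f2 ∘ p` read on the disc -/
def Gd (p : DD → BB) (f2 : BB → ℂ) : ℂ → ℂ := exw fun t => f2 (p t)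

theorem Gd_coe (p : DD → BB) (f2 : BB → ℂ) (t : DD) : Gd p f2 (t : ℂ) = f2 (p t) := exw_coe _ t

theorem Gd_an {p : DD → BB} (hpl : LBD AB p) {f2 : BB → ℂ} (h : LC AB (p o) f2) :
    AnalyticAt ℂ (Gd p f2) 0 := analyticAt_lift (w := o) hpl.toHolD h.hol

theorem Gd_ne {p : DD → BB} (hpc : IsCoveringMap p) (hpl : LBD AB p) {f2 : BB → ℂ}
    (h : LC AB (p o) f2) : deriv (Gd p f2) 0 ≠ 0 :=
  deriv_lift_ne (w := o) hpl.toHolD hpc.isLocalHomeomorph h

theorem dd_an {G : ℂ → ℂ} (h : AnalyticAt ℂ G 0) : AnalyticAt ℂ (dd G) ((0 : ℂ), (0 : ℂ)) :=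
  dd_analyticAt h h

section near

variable (D : DiscD AC AB q p φ f F) (M : XMap C AC AB π)

/-- a function of `(W, S)` analytic at `(0,0)` is holomorphic near the special fibre -/
theorem hg_comp {g : ℂ × ℂ → ℂ} (hg : AnalyticAt ℂ g (0, 0)) {z : PB (Prod.map q p) π}
    {a b : PB (Prod.map q p) π → ℂ} (ha : HG (CX D M) z a) (hb : HG (CX D M) z b)
    (ha0 : a z = 0) (hb0 : b z = 0) : HG (CX D M) z fun z' => g (a z', b z') :=
  HG.comp2 ha hb (by rw [ha0, hb0]; exact hg)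

/-- `f2 (π2 x) = W * dd G (W, 0)` -/
theorem f2_eq {f2 : BB → ℂ} (h0 : f2 (p o) = 0) (z : PB (Prod.map q p) π) :
    f2 (π (pbFst _ π z)).2 = (bd D π).W z * dd (Gd p f2) ((bd D π).W z, 0) := by
  have h1 := dd_mul (Gd p f2) ((bd D π).W z) 0
  have h2 : Gd p f2 0 = 0 := by
    have := Gd_coe p f2 o
    rwa [coe_o, h0] at this
  have h3 : Gd p f2 ((bd D π).W z) = f2 (π (pbFst _ π z)).2 :=
    (Gd_coe p f2 (Wc q p π z)).trans (congrArg f2 (p_Wc z))
  rw [sub_zero, h2, h3, sub_zero] at h1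
  exact h1.symm

theorem f1_eq {f1 : CC → ℂ} (h0 : f1 (q o) = 0) (z : PB (Prod.map q p) π) :
    f1 (π (pbFst _ π z)).1 = (bd D π).T z * dd (Gd q f1) ((bd D π).T z, 0) := by
  have h1 := dd_mul (Gd q f1) ((bd D π).T z) 0
  have h2 : Gd q f1 0 = 0 := by
    have := Gd_coe q f1 o
    rwa [coe_o, h0] at this
  have h3 : Gd q f1 ((bd D π).T z) = f1 (π (pbFst _ π z)).1 :=
    (Gd_coe q f1 (Tc q p π z)).trans (congrArg f1 (q_Tc z))
  rw [sub_zero, h2, h3, sub_zero] at h1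
  exact h1.symm

/-- **275's `Loc`** from the slope dichotomy -/
theorem loc_xhat (S : SqD C AC AB π φ f (q o) (p o)) {f1 : CC → ℂ} {f2 : BB → ℂ}
    (L : SlD C AC AB π (q o) (p o) f1 f2) : Loc (bd D π) (rs D M S) := by
  intro z hT hW
  have hTo : Tc q p π z = o := Subtype.ext hT
  have hWo : Wc q p π z = o := Subtype.ext hW
  have hx : π (pbFst _ π z) = (q o, p o) := by
    refine Prod.ext ?_ ?_
    · rw [← q_Tc, hTo]
    · rw [← p_Wc, hWo]
  choose r hr using fun a => (rs D M S).ex a z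
  have h0 : HRt (CX D M) (bd D π).W (r 0) z := hr 0
  have h1 : HRt (CX D M) (fun z => (bd D π).W z - (bd D π).F ((bd D π).T z)) (r 1) z := hr 1
  have h2 : HRt (CX D M) (bd D π).T (r 2) z := hr 2
  have h3 : HRt (CX D M) (fun z => (bd D π).W z - (bd D π).T z) (r 3) z := hr 3
  have hWn : ∃ᶠ z' in 𝓝 z, (bd D π).W z' ≠ 0 := (rs D M S).ne 0 z
  have hTn : ∃ᶠ z' in 𝓝 z, (bd D π).T z' ≠ 0 := (rs D M S).ne 2 z
  have hgT0 := hgT D M z
  have hgW0 := hgW D M z
  have c0 : HG (CX D M) z fun _ => (0 : ℂ) := HG.const 0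
  -- the factor of `F`
  obtain ⟨K, hK, hK2⟩ := D.hK
  have hKz : HG (CX D M) z fun z' => K ((bd D π).T z') :=
    HG.comp1 hgT0 (by rw [hT]; exact hK)
  have hFK : ∀ᶠ z' in 𝓝 z, (bd D π).F ((bd D π).T z') =
      (bd D π).T z' ^ 2 * K ((bd D π).T z') := by
    have := hgT0.continuousAt
    rw [ContinuousAt, hT] at this
    exact this.eventually hK2
  -- the units
  have eG := Gd_an (p := p) D.hpl L.lc2
  have eA := Gd_an (p := q) D.hql L.lc1
  have uG : HG (CX D M) z fun z' => dd (Gd p f2) ((bd D π).W z', 0) :=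
    hg_comp D M (dd_an eG) hgW0 c0 hW rfl
  have uA : HG (CX D M) z fun z' => dd (Gd q f1) ((bd D π).T z', 0) :=
    hg_comp D M (dd_an eA) hgT0 c0 hT rfl
  have uGne : dd (Gd p f2) ((bd D π).W z, 0) ≠ 0 := by
    rw [hW, dd_self]; exact Gd_ne D.hpc D.hpl L.lc2
  have uAne : dd (Gd q f1) ((bd D π).T z, 0) ≠ 0 := by
    rw [hT, dd_self]; exact Gd_ne D.hqc D.hql L.lc1
  have hloc := isLocalHomeomorph_pbFst (prod_covering D.hqc D.hpc) M.hπ
  have hcont : ContinuousAt (pbFst (Prod.map q p) π) z := continuous_pbFst.continuousAt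
  refine ⟨r, hr, ?_⟩
  rcases L.dich _ hx with ⟨g, hg, hgf⟩ | ⟨g, hg, hg0, hgf⟩
  · left
    have hg' : HG (CX D M) z fun z' => g (pbFst _ π z') := hg.comp (holC_pull hloc)
    obtain ⟨u, κ, hu, hκ, -, -, hur, hκr, hlam⟩ := fin_slope (C := CX D M) (y := z)
      (T := (bd D π).T) (W := (bd D π).W) (FT := fun z => (bd D π).F ((bd D π).T z))
      (K := fun z' => K ((bd D π).T z'))
      (g := fun z' => dd (Gd q f1) ((bd D π).T z', 0) * g (pbFst _ π z') *
        (dd (Gd p f2) ((bd D π).W z', 0))⁻¹)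
      hgT0 hTn hWn hKz hFK ((uA.mul hg').mul (uG.inv uGne)) (by
        filter_upwards [hcont.eventually hgf, uG.continuousAt.eventually_ne uGne] with z' e1 e2
        rw [f2_eq D L.f2w, f1_eq D L.f1z] at e1
        field_simp
        linear_combination e1) h0 h1 h2 h3
    refine ⟨u z, ⟨u, hu.continuousAt, rfl, hur⟩, fun hne => ⟨⟨κ z, κ, hκ.continuousAt, rfl, hκr⟩, ?_⟩⟩
    obtain ⟨lam, hl, -, hlr⟩ := hlam hne
    exact ⟨lam z, lam, hl.continuousAt, rfl, hlr⟩
  · right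
    have hg' : HG (CX D M) z fun z' => g (pbFst _ π z') := hg.comp (holC_pull hloc)
    obtain ⟨v, hv, hv0, -, hvr⟩ := inf_slope (C := CX D M) (y := z)
      (T := (bd D π).T) (W := (bd D π).W)
      (g := fun z' => dd (Gd p f2) ((bd D π).W z', 0) * g (pbFst _ π z') *
        (dd (Gd q f1) ((bd D π).T z', 0))⁻¹)
      hWn ((uG.mul hg').mul (uA.inv uAne)) (by
        show _ * g (pbFst _ π z) * _ = 0
        rw [hg0]; ring) (by
        filter_upwards [hcont.eventually hgf, uA.continuousAt.eventually_ne uAne] with z' e1 e2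
        rw [f2_eq D L.f2w, f1_eq D L.f1z] at e1
        field_simp
        linear_combination e1) h0 h2
    exact ⟨v, hv.continuousAt, hv0, hvr⟩

end near

end

end Crest.Agent.R272.Gm2_235
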