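import Crest.Agent.R272.Root7_83
import Crest.Agent.R272.Gm2_235

/-!
# R272, S14-GERMS / end game (helper235), part 3: the root functions near the special fibre

Over 83's `Dat14`: `loc14` = 275's `Loc`; and from four holomorphic functions `S, T0, RM, RN` on the surface near
a connected union `Z` of curves in the fibre over `(q o, p o)` and paths in `Z` with the right ratios: 275's germs
`R` (locally constant along the lift of `Z`), `Arc`, and slope `0`.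
-/

set_option autoImplicit false
set_option linter.unusedSectionVars false
set_option linter.unusedVariables false

open Metric Set Filter Topology Function
open scoped Classical unitInterval

namespace Crest.Agent.R272.Gm3_235

open Crest.Agent.R275.Geo Crest.Agent.R275.Core144 Crest.Agent.R273.Map_835
open Crest.Agent.R273.Fam_835 Crest.Agent.R272.Quot_783 Crest.Agent.R272.Root_83
open Crest.Agent.R272.LbExt_259 Crest.Agent.R272.K3E_227 Crest.Agent.R272.UnB_894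
open Crest.Agent.R272.Wall4_275 Crest.Agent.R272.Gm1_235 Crest.Agent.R272.Gm2_235

noncomputable section

/-- an analytic square root with given value -/
theorem root_an {E : Type} [NormedAddCommGroup E] [NormedSpace ℂ E] {h : E → ℂ} {x : E}
    (ha : AnalyticAt ℂ h x) (hne : h x ≠ 0) {b : ℂ} (hb : b ^ 2 = h x) :
    ∃ r : E → ℂ, AnalyticAt ℂ r x ∧ r x = b ∧ ∀ᶠ z in 𝓝 x, r z ^ 2 = h z := by
  have h1 : AnalyticAt ℂ (fun z => h z / h x) x := ha.div analyticAt_const hne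
  have h2 : h x / h x = 1 := div_self hne
  refine ⟨fun z => b * (h z / h x) ^ (1 / 2 : ℂ), ?_, ?_, ?_⟩
  · refine analyticAt_const.mul (h1.cpow analyticAt_const ?_)
    rw [h2]
    exact Complex.one_mem_slitPlane
  · show b * (h x / h x) ^ (1 / 2 : ℂ) = b
    rw [h2, Complex.one_cpow, mul_one]
  · refine Eventually.of_forall fun z => ?_
    show (b * (h z / h x) ^ (1 / 2 : ℂ)) ^ 2 = h z
    have h3 : ((h z / h x) ^ (1 / 2 : ℂ)) ^ 2 = h z / h x := by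
      have := Complex.cpow_nat_inv_pow (h z / h x) (n := 2) two_ne_zero
      rwa [show ((2 : ℕ) : ℂ)⁻¹ = (1 / 2 : ℂ) by norm_num] at this
    rw [mul_pow, h3, hb]
    field_simp

section ratio

variable {X : Type} [TopologicalSpace X]

/-- `b / a` has the value `m` at `x` -/
def Rat (a b : X → ℂ) (x : X) (m : ℂ) : Prop :=
  ∃ u : X → ℂ, ContinuousAt u x ∧ u x = m ∧ ∀ᶠ z in 𝓝 x, b z = a z * u z

theorem Rat.up {Y : Type} [TopologicalSpace Y] {a b : X → ℂ} {π : Y → X} {y : Y} {m : ℂ}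
    (h : Rat a b (π y) m) (hπ : ContinuousAt π y) :
    Rat (fun z => a (π z)) (fun z => b (π z)) y m := by
  obtain ⟨u, hu, hm, he⟩ := h
  exact ⟨fun z => u (π z), ContinuousAt.comp (f := π) hu hπ, hm, hπ.eventually he⟩

/-- multiply by units -/
theorem Rat.unit {a b v w : X → ℂ} {x : X} {m : ℂ} (h : Rat a b x m) (hv : ContinuousAt v x)
    (hw : ContinuousAt w x) (hv0 : v x ≠ 0) :
    Rat (fun z => a z * v z) (fun z => b z * w z) x (m * (w x / v x)) := by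
  obtain ⟨u, hu, hm, he⟩ := h
  refine ⟨fun z => u z * (w z / v z), hu.mul (hw.div hv hv0), by show u x * _ = _; rw [hm], ?_⟩
  filter_upwards [he, hv.eventually_ne hv0] with z h1 h2
  rw [h1]
  field_simp

end ratio

section main

variable {X B C : Type} [TopologicalSpace X] [TopologicalSpace B] [TopologicalSpace C] {n : ℕ}
  {CX : Fam n X} {AB : Atl 1 B} {AC : Atl 1 C}

theorem xmap (d : Dat14 CX AB AC) : XMap CX AB AC d.π := ⟨d.continuous_π, d.h1, d.h2⟩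

theorem sqd (d : Dat14 CX AB AC) : SqD CX AB AC d.π d.h d.g (d.q o) (d.p o) where
  rW := fun x hx => by
    obtain ⟨g, h1, h2⟩ := d.sq1 x hx
    have h3 : d.π2 x = d.p o := hx
    rw [h3] at h1
    exact ⟨g, ⟨h1.1, h1.2⟩, h2⟩
  rT := fun x hx => by
    obtain ⟨g, h1, h2⟩ := d.sq3 x hx
    have h3 : d.π1 x = d.q o := hx
    rw [h3] at h1
    exact ⟨g, ⟨h1.1, h1.2⟩, h2⟩
  rF := fun x hx => by
    obtain ⟨g, h1, h2⟩ := d.sq2 x hx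
    exact ⟨g, ⟨h1.1, h1.2⟩, h2⟩
  rG := fun x hx => by
    obtain ⟨g, h1, h2⟩ := d.sq4 x hx
    exact ⟨g, ⟨h1.1, h1.2⟩, h2⟩

theorem rsB_iff (d : Dat14 CX AB AC) (D : DiscD AB AC d.q d.p d.h d.g d.F) {a : Fin 4}
    {r : d.Xh → ℂ} {y : d.Xh} :
    (d.rsB D.hle).Rt a r y ↔ (rs D (xmap d) (sqd d)).Rt a r y := by
  rw [Dat14.rsB_Rt, d.gg_bd D.hle]
  exact Iff.rfl

/-- **275's `Loc` over 83's data** -/
theorem loc14 (d : Dat14 CX AB AC) (D : DiscD AB AC d.q d.p d.h d.g d.F) {f1 : B → ℂ} {f2 : C → ℂ}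
    (L : SlD CX AB AC d.π (d.q o) (d.p o) f1 f2) : Loc (d.bd D.hle) (d.rsB D.hle) := by
  intro y hT hW
  obtain ⟨r, hr, h⟩ := loc_xhat D (xmap d) (sqd d) L y hT hW
  exact ⟨r, fun a => (rsB_iff d D).2 (hr a), h⟩

/-- the four functions near `Z` -/
structure NearD (d : Dat14 CX AB AC) (f1 : B → ℂ) (f2 : C → ℂ) (γ0 : ℂ) (Z : Set X)
    (S T0 RM RN : X → ℂ) : Prop where
  lc1 : UnB_894.LC AB (d.q o) f1
  lc2 : UnB_894.LC AC (d.p o) f2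
  f1z : f1 (d.q o) = 0
  f2w : f2 (d.p o) = 0
  ne : γ0 ≠ 0
  he : ∃ e : B → ℂ, HG (fam AB) (d.q o) e ∧ e (d.q o) = γ0 ^ 2 ∧
    ∀ᶠ z in 𝓝 (d.q o), f2 (d.g z) = f1 z * e z
  hZ : ∀ x ∈ Z, d.π x = (d.q o, d.p o)
  hS : ∀ x ∈ Z, HG CX x S
  hT : ∀ x ∈ Z, HG CX x T0
  hM : ∀ x ∈ Z, HG CX x RM
  hN : ∀ x ∈ Z, HG CX x RN
  sS : ∀ x ∈ Z, ∀ᶠ z in 𝓝 x, S z ^ 2 = f2 (d.π2 z)
  sT : ∀ x ∈ Z, ∀ᶠ z in 𝓝 x, T0 z ^ 2 = f1 (d.π1 z)
  sM : ∀ x ∈ Z, ∀ᶠ z in 𝓝 x, RM z ^ 2 = f2 (d.π2 z) - f2 (d.h (d.π1 z))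
  sN : ∀ x ∈ Z, ∀ᶠ z in 𝓝 x, RN z ^ 2 = f2 (d.π2 z) - f2 (d.g (d.π1 z))

/-- the arcs on the surface -/
def ArcX (γ0 : ℂ) (S T0 RM RN : X → ℂ) {Z : Set X} {z₀ z₁ : Z} (γ : Path z₀ z₁) : Prop :=
  ∃ s : I → ℝ, ∃ c : I, s 0 = 1 ∧ s 1 = -1 ∧ s c = 0 ∧ (∀ t, |s t| ≤ 1) ∧
    (∀ t ≤ c, 0 ≤ s t) ∧ (∀ t, c ≤ t → s t ≤ 0) ∧
    (∀ t, ∃ m, Rat T0 S (γ t : X) m ∧ m ^ 2 = γ0 ^ 2 * ((1 - s t ^ 2 : ℝ) : ℂ)) ∧
    ∀ t, s t ≠ 0 → |s t| < 1 → ∃ k l, Rat T0 RN (γ t : X) k ∧ Rat S RM (γ t : X) l ∧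
      l * k = Complex.I * γ0 * (s t : ℂ)

/-- the lift of `Z` -/
def Zh (d : Dat14 CX AB AC) (Z : Set X) : Set d.Xh :=
  {y | pbFst d.qp d.π y ∈ Z ∧ pbSnd d.qp d.π y = (o, o)}

theorem Zh_T {d : Dat14 CX AB AC} {Z : Set X} {y : d.Xh} (hy : y ∈ Zh d Z) : d.T y = o :=
  congrArg Prod.fst hy.2

theorem Zh_W {d : Dat14 CX AB AC} {Z : Set X} {y : d.Xh} (hy : y ∈ Zh d Z) : d.W y = o :=
  congrArg Prod.snd hy.2

/-- the lift of a point of `Z` -/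
def up (d : Dat14 CX AB AC) {Z : Set X} (hZ : ∀ x ∈ Z, d.π x = (d.q o, d.p o)) (x : Z) :
    Zh d Z :=
  ⟨⟨((x : X), (o, o)), hZ x x.2⟩, x.2, rfl⟩

theorem continuous_up (d : Dat14 CX AB AC) {Z : Set X}
    (hZ : ∀ x ∈ Z, d.π x = (d.q o, d.p o)) : Continuous (up d hZ) := by
  refine Continuous.subtype_mk ?_ _
  refine Continuous.subtype_mk ?_ _
  exact continuous_subtype_val.prodMk continuous_const

theorem pbFst_up (d : Dat14 CX AB AC) {Z : Set X} (hZ : ∀ x ∈ Z, d.π x = (d.q o, d.p o)) (x : Z) :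
    pbFst d.qp d.π (up d hZ x : d.Xh) = x := rfl

/-- the roots of the disc coordinates -/
structure Un (d : Dat14 CX AB AC) (f1 : B → ℂ) (f2 : C → ℂ) (γ0 : ℂ) (ρ1 : ℂ × ℂ → ℂ)
    (ρ2 : ℂ × ℂ → ℂ) : Prop where
  a1 : AnalyticAt ℂ ρ1 (0, 0)
  a2 : AnalyticAt ℂ ρ2 (0, 0)
  n1 : ρ1 (0, 0) ≠ 0
  v : ρ2 (0, 0) = ρ1 (0, 0) * γ0
  s1 : ∀ᶠ z in 𝓝 ((0 : ℂ), (0 : ℂ)), ρ1 z ^ 2 * dd (Gd d.p f2) z = 1
  s2 : ∀ᶠ z in 𝓝 ((0 : ℂ), (0 : ℂ)), ρ2 z ^ 2 * dd (Gd d.q f1) z = 1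


variable {d : Dat14 CX AB AC} {f1 : B → ℂ} {f2 : C → ℂ} {γ0 : ℂ} {Z : Set X} {S T0 RM RN : X → ℂ}

theorem deriv_rel (D : DiscD AB AC d.q d.p d.h d.g d.F) (N : NearD d f1 f2 γ0 Z S T0 RM RN) :
    deriv (Gd d.p f2) 0 = deriv (Gd d.q f1) 0 * γ0 ^ 2 := by
  obtain ⟨e, he, he0, hee⟩ := N.he
  have hE : AnalyticAt ℂ (exw fun t => e (d.q t)) ((o : DD) : ℂ) :=
    analyticAt_lift (w := o) D.hql.toHolD he
  rw [coe_o] at hE
  have hA : AnalyticAt ℂ (Gd d.q f1) 0 := Gd_an D.hql N.lc1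
  have h1 : ∀ᶠ t : DD in 𝓝 o, f2 (d.p t) = f1 (d.q t) * e (d.q t) := by
    have h2 := D.hqc.continuous.continuousAt (x := o) |>.eventually hee
    filter_upwards [h2] with t ht
    rw [D.hf, ht]
  have h2 : Gd d.p f2 =ᶠ[𝓝 (0 : ℂ)] fun z => Gd d.q f1 z * exw (fun t => e (d.q t)) z := by
    have h3 : ∀ᶠ s : DD in 𝓝 o, Gd d.p f2 (s : ℂ) = Gd d.q f1 (s : ℂ) *
        exw (fun t => e (d.q t)) (s : ℂ) := by
      filter_upwards [h1] with t ht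
      rw [Gd_coe, Gd_coe, exw_coe, ht]
    have h4 := (eventually_coe (P := fun z => Gd d.p f2 z = Gd d.q f1 z *
        exw (fun t => e (d.q t)) z)).1 h3
    rwa [coe_o] at h4
  have hA0 : Gd d.q f1 0 = 0 := by
    have := Gd_coe d.q f1 o
    rwa [coe_o, N.f1z] at this
  have hE0 : (exw fun t => e (d.q t)) 0 = γ0 ^ 2 := by
    have := exw_coe (fun t => e (d.q t)) o
    rwa [coe_o, he0] at this
  rw [h2.deriv_eq, deriv_fun_mul hA.differentiableAt hE.differentiableAt, hA0, hE0, zero_mul,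
    add_zero]

theorem exists_un (D : DiscD AB AC d.q d.p d.h d.g d.F) (N : NearD d f1 f2 γ0 Z S T0 RM RN) :
    ∃ ρ1 ρ2 : ℂ × ℂ → ℂ, Un d f1 f2 γ0 ρ1 ρ2 := by
  have hG : AnalyticAt ℂ (Gd d.p f2) 0 := Gd_an D.hpl N.lc2
  have hA : AnalyticAt ℂ (Gd d.q f1) 0 := Gd_an D.hql N.lc1
  have hG' := Gd_ne D.hpc D.hpl N.lc2
  have hA' := Gd_ne D.hqc D.hql N.lc1
  have hrel := deriv_rel D N
  have gG : AnalyticAt ℂ (fun z => (dd (Gd d.p f2) z)⁻¹) ((0 : ℂ), (0 : ℂ)) :=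
    (dd_an hG).inv (by rwa [dd_self])
  have gA : AnalyticAt ℂ (fun z => (dd (Gd d.q f1) z)⁻¹) ((0 : ℂ), (0 : ℂ)) :=
    (dd_an hA).inv (by rwa [dd_self])
  obtain ⟨b, hb⟩ := IsAlgClosed.exists_pow_nat_eq (deriv (Gd d.p f2) 0)⁻¹ (n := 2) two_pos
  obtain ⟨ρ1, h1, h2, h3⟩ := root_an gG (inv_ne_zero (by rwa [dd_self])) (b := b)
    (by rw [dd_self]; exact hb)
  obtain ⟨ρ2, k1, k2, k3⟩ := root_an gA (inv_ne_zero (by rwa [dd_self])) (b := b * γ0) (by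
    rw [dd_self, mul_pow, hb, hrel]
    have := N.ne
    field_simp)
  have hb0 : b ≠ 0 := by
    intro h
    rw [h] at hb
    exact inv_ne_zero hG' (by rw [← hb]; simp)
  refine ⟨ρ1, ρ2, h1, k1, by rwa [h2], by rw [k2, h2], ?_, ?_⟩
  · filter_upwards [h3, (dd_an hG).continuousAt.eventually_ne (by rwa [dd_self])] with z e1 e2
    rw [e1, inv_mul_cancel₀ e2]
  · filter_upwards [k3, (dd_an hA).continuousAt.eventually_ne (by rwa [dd_self])] with z e1 e2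
    rw [e1, inv_mul_cancel₀ e2]

/-- the root functions -/
def Rf (d : Dat14 CX AB AC) (S T0 RM RN : X → ℂ) (ρ1 ρ2 : ℂ × ℂ → ℂ) : Fin 4 → d.Xh → ℂ :=
  ![fun y => S (pbFst d.qp d.π y) * ρ1 ((d.W y : ℂ), 0),
    fun y => RM (pbFst d.qp d.π y) * ρ1 ((d.W y : ℂ), (d.F (d.T y) : ℂ)),
    fun y => T0 (pbFst d.qp d.π y) * ρ2 ((d.T y : ℂ), 0),
    fun y => RN (pbFst d.qp d.π y) * ρ1 ((d.W y : ℂ), (d.T y : ℂ))]

theorem hgF14 (D : DiscD AB AC d.q d.p d.h d.g d.F) (y : d.Xh) :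
    HG d.CXh y fun z => (d.F (d.T z) : ℂ) := by
  have h := (d.hg_W y).sub (d.hg_WF y)
  refine h.congr (Eventually.of_forall fun z => ?_)
  show (d.W z : ℂ) - ((d.W z : ℂ) - d.F (d.T z)) = _
  ring

section pt

variable {ρ1 ρ2 : ℂ × ℂ → ℂ} (D : DiscD AB AC d.q d.p d.h d.g d.F)
  (N : NearD d f1 f2 γ0 Z S T0 RM RN) (U : Un d f1 f2 γ0 ρ1 ρ2) {y : d.Xh} (hy : y ∈ Zh d Z)

include D in
theorem F0 (hy : y ∈ Zh d Z) : d.F (d.T y) = o := by rw [Zh_T hy, D.hFo]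

include D hy in
theorem rf_hg (N : NearD d f1 f2 γ0 Z S T0 RM RN) (U : Un d f1 f2 γ0 ρ1 ρ2) (a : Fin 4) :
    HG d.CXh y (Rf d S T0 RM RN ρ1 ρ2 a) := by
  have hT := d.hg_T y
  have hW := d.hg_W y
  have hF := hgF14 D y
  have c0 : HG d.CXh y fun _ => (0 : ℂ) := HG.const 0
  have eT : (d.T y : ℂ) = 0 := by rw [Zh_T hy]; rfl
  have eW : (d.W y : ℂ) = 0 := by rw [Zh_W hy]; rfl
  have eF : (d.F (d.T y) : ℂ) = 0 := by rw [F0 D hy]; rfl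
  fin_cases a
  · exact ((N.hS _ hy.1).comp d.holC_fst).mul (HG.comp2 hW c0 (by rw [eW]; exact U.a1))
  · exact ((N.hM _ hy.1).comp d.holC_fst).mul (HG.comp2 hW hF (by rw [eW, eF]; exact U.a1))
  · exact ((N.hT _ hy.1).comp d.holC_fst).mul (HG.comp2 hT c0 (by rw [eT]; exact U.a2))
  · exact ((N.hN _ hy.1).comp d.holC_fst).mul (HG.comp2 hW hT (by rw [eW, eT]; exact U.a1))

theorem sq_un {G : ℂ → ℂ} {ρ : ℂ × ℂ → ℂ} {r w v : ℂ} (h : ρ (w, v) ^ 2 * dd G (w, v) = 1)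
    (hr : r ^ 2 = G w - G v) : (r * ρ (w, v)) ^ 2 = w - v := by
  rw [mul_pow, hr, ← dd_mul G w v, mul_assoc, mul_comm (dd G _), h, mul_one]

include D hy in
theorem rf_sq (N : NearD d f1 f2 γ0 Z S T0 RM RN) (U : Un d f1 f2 γ0 ρ1 ρ2) (a : Fin 4) :
    ∀ᶠ z in 𝓝 y, Rf d S T0 RM RN ρ1 ρ2 a z ^ 2 = d.gg a z := by
  have hT := (d.hg_T y).continuousAt
  have hW := (d.hg_W y).continuousAt
  have hF := (hgF14 D y).continuousAt
  have c0 : ContinuousAt (fun _ : d.Xh => (0 : ℂ)) y := continuousAt_const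
  have eT : (d.T y : ℂ) = 0 := by rw [Zh_T hy]; rfl
  have eW : (d.W y : ℂ) = 0 := by rw [Zh_W hy]; rfl
  have eF : (d.F (d.T y) : ℂ) = 0 := by rw [F0 D hy]; rfl
  have hπ : ContinuousAt (pbFst d.qp d.π) y := continuous_pbFst.continuousAt
  have g0 : Gd d.p f2 0 = 0 := by
    have := Gd_coe d.p f2 o
    rwa [coe_o, N.f2w] at this
  have a0 : Gd d.q f1 0 = 0 := by
    have := Gd_coe d.q f1 o
    rwa [coe_o, N.f1z] at this
  have key : ∀ {ρ : ℂ × ℂ → ℂ} {G : ℂ → ℂ} {a b : d.Xh → ℂ}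
      (_ : ∀ᶠ z in 𝓝 ((0 : ℂ), (0 : ℂ)), ρ z ^ 2 * dd G z = 1)
      (_ : ContinuousAt a y) (_ : ContinuousAt b y) (_ : a y = 0) (_ : b y = 0),
      ∀ᶠ z in 𝓝 y, ρ (a z, b z) ^ 2 * dd G (a z, b z) = 1 := by
    intro ρ G a b h ha hb ea eb
    have := ha.prodMk hb
    rw [ContinuousAt, ea, eb] at this
    exact this.eventually h
  fin_cases a
  · filter_upwards [key U.s1 hW c0 eW rfl, hπ.eventually (N.sS _ hy.1)] with z h1 h2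
    have h3 : S (pbFst d.qp d.π z) ^ 2 = Gd d.p f2 (d.W z) - Gd d.p f2 0 := by
      rw [h2, Gd_coe, d.p_W, g0, sub_zero]
    have h4 := sq_un h1 h3
    rw [sub_zero] at h4
    exact h4
  · filter_upwards [key U.s1 hW hF eW eF, hπ.eventually (N.sM _ hy.1)] with z h1 h2
    have h3 : RM (pbFst d.qp d.π z) ^ 2 = Gd d.p f2 (d.W z) - Gd d.p f2 (d.F (d.T z)) := by
      rw [h2, Gd_coe, d.p_W, Gd_coe, d.pF, d.q_T]
    exact sq_un h1 h3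
  · filter_upwards [key U.s2 hT c0 eT rfl, hπ.eventually (N.sT _ hy.1)] with z h1 h2
    have h3 : T0 (pbFst d.qp d.π z) ^ 2 = Gd d.q f1 (d.T z) - Gd d.q f1 0 := by
      rw [h2, Gd_coe, d.q_T, a0, sub_zero]
    have h4 := sq_un h1 h3
    rw [sub_zero] at h4
    exact h4
  · filter_upwards [key U.s1 hW hT eW eT, hπ.eventually (N.sN _ hy.1)] with z h1 h2
    have h3 : RN (pbFst d.qp d.π z) ^ 2 = Gd d.p f2 (d.W z) - Gd d.p f2 (d.T z) := by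
      rw [h2, Gd_coe, d.p_W, Gd_coe, ← d.pg, d.q_T]
    exact sq_un h1 h3

include D hy in
theorem rf_rt (N : NearD d f1 f2 γ0 Z S T0 RM RN) (U : Un d f1 f2 γ0 ρ1 ρ2) (a : Fin 4) :
    (d.rsB D.hle).Rt a (Rf d S T0 RM RN ρ1 ρ2 a) y :=
  hrt_of (rf_hg D hy N U a) (rf_sq D hy N U a)

include D hy in
theorem rf_sl (N : NearD d f1 f2 γ0 Z S T0 RM RN) (U : Un d f1 f2 γ0 ρ1 ρ2) {m : ℂ}
    (h : Rat T0 S (pbFst d.qp d.π y) m) : SlR (Rf d S T0 RM RN ρ1 ρ2) y (m / γ0) := by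
  have hT := (d.hg_T y)
  have hW := (d.hg_W y)
  have c0 : HG d.CXh y fun _ => (0 : ℂ) := HG.const 0
  have eT : (d.T y : ℂ) = 0 := by rw [Zh_T hy]; rfl
  have eW : (d.W y : ℂ) = 0 := by rw [Zh_W hy]; rfl
  have h1 : HG d.CXh y fun z => ρ1 ((d.W z : ℂ), 0) := HG.comp2 hW c0 (by rw [eW]; exact U.a1)
  have h2 : HG d.CXh y fun z => ρ2 ((d.T z : ℂ), 0) := HG.comp2 hT c0 (by rw [eT]; exact U.a2)
  have hπ : ContinuousAt (pbFst d.qp d.π) y := continuous_pbFst.continuousAt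
  have hn := U.n1
  have hne := N.ne
  have h3 := (h.up hπ).unit h2.continuousAt h1.continuousAt
    (by show ρ2 ((d.T y : ℂ), 0) ≠ 0; rw [eT, U.v]; exact mul_ne_zero hn hne)
  have h4 : m * (ρ1 ((d.W y : ℂ), 0) / ρ2 ((d.T y : ℂ), 0)) = m / γ0 := by
    rw [eW, eT, U.v]; field_simp
  rw [h4] at h3
  exact h3

include D hy in
theorem rf_kp (N : NearD d f1 f2 γ0 Z S T0 RM RN) (U : Un d f1 f2 γ0 ρ1 ρ2) {m : ℂ}
    (h : Rat T0 RN (pbFst d.qp d.π y) m) : KpR (Rf d S T0 RM RN ρ1 ρ2) y (m / γ0) := by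
  have hT := (d.hg_T y)
  have hW := (d.hg_W y)
  have c0 : HG d.CXh y fun _ => (0 : ℂ) := HG.const 0
  have eT : (d.T y : ℂ) = 0 := by rw [Zh_T hy]; rfl
  have eW : (d.W y : ℂ) = 0 := by rw [Zh_W hy]; rfl
  have h1 : HG d.CXh y fun z => ρ1 ((d.W z : ℂ), (d.T z : ℂ)) :=
    HG.comp2 hW hT (by rw [eW, eT]; exact U.a1)
  have h2 : HG d.CXh y fun z => ρ2 ((d.T z : ℂ), 0) := HG.comp2 hT c0 (by rw [eT]; exact U.a2)
  have hπ : ContinuousAt (pbFst d.qp d.π) y := continuous_pbFst.continuousAt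
  have hn := U.n1
  have hne := N.ne
  have h3 := (h.up hπ).unit h2.continuousAt h1.continuousAt
    (by show ρ2 ((d.T y : ℂ), 0) ≠ 0; rw [eT, U.v]; exact mul_ne_zero hn hne)
  have h4 : m * (ρ1 ((d.W y : ℂ), (d.T y : ℂ)) / ρ2 ((d.T y : ℂ), 0)) = m / γ0 := by
    rw [eW, eT, U.v]; field_simp
  rw [h4] at h3
  exact h3

include D hy in
theorem rf_lm (U : Un d f1 f2 γ0 ρ1 ρ2) {m : ℂ}
    (h : Rat S RM (pbFst d.qp d.π y) m) : LmR (Rf d S T0 RM RN ρ1 ρ2) y m := by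
  have hT := (d.hg_T y)
  have hW := (d.hg_W y)
  have hF := hgF14 D y
  have c0 : HG d.CXh y fun _ => (0 : ℂ) := HG.const 0
  have eT : (d.T y : ℂ) = 0 := by rw [Zh_T hy]; rfl
  have eW : (d.W y : ℂ) = 0 := by rw [Zh_W hy]; rfl
  have eF : (d.F (d.T y) : ℂ) = 0 := by rw [F0 D hy]; rfl
  have h1 : HG d.CXh y fun z => ρ1 ((d.W z : ℂ), (d.F (d.T z) : ℂ)) :=
    HG.comp2 hW hF (by rw [eW, eF]; exact U.a1)
  have h2 : HG d.CXh y fun z => ρ1 ((d.W z : ℂ), 0) := HG.comp2 hW c0 (by rw [eW]; exact U.a1)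
  have hπ : ContinuousAt (pbFst d.qp d.π) y := continuous_pbFst.continuousAt
  have hn := U.n1
  have h3 := (h.up hπ).unit h2.continuousAt h1.continuousAt
    (by show ρ1 ((d.W y : ℂ), 0) ≠ 0; rw [eW]; exact hn)
  have h4 : m * (ρ1 ((d.W y : ℂ), (d.F (d.T y) : ℂ)) / ρ1 ((d.W y : ℂ), 0)) = m := by
    rw [eW, eF]; field_simp
  rw [h4] at h3
  exact h3

end pt

theorem arc_up {ρ1 ρ2 : ℂ × ℂ → ℂ} (D : DiscD AB AC d.q d.p d.h d.g d.F)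
    (N : NearD d f1 f2 γ0 Z S T0 RM RN) (U : Un d f1 f2 γ0 ρ1 ρ2) {z₀ z₁ : Z} (k : Path z₀ z₁)
    (hk : ArcX γ0 S T0 RM RN k) :
    Arc (Zh := Zh d Z) (fun _ => Rf d S T0 RM RN ρ1 ρ2) (k.map (continuous_up d N.hZ)) := by
  obtain ⟨s, c, h0, h1, hc, hs, hs1, hs2, hm, hkl⟩ := hk
  have hne := N.ne
  refine ⟨s, c, h0, h1, hc, hs, hs1, hs2, fun t => ?_, fun t ht0 ht1 => ?_⟩
  · obtain ⟨m, hm1, hm2⟩ := hm t
    have hy : (up d N.hZ (k t) : d.Xh) ∈ Zh d Z := (up d N.hZ (k t)).2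
    refine ⟨m / γ0, rf_sl D hy N U (y := (up d N.hZ (k t) : d.Xh)) hm1, ?_⟩
    rw [div_pow, hm2]
    field_simp
  · obtain ⟨κ, l, h2, h3, h4⟩ := hkl t ht0 ht1
    have hy : (up d N.hZ (k t) : d.Xh) ∈ Zh d Z := (up d N.hZ (k t)).2
    refine ⟨κ / γ0, l, rf_kp D hy N U (y := (up d N.hZ (k t) : d.Xh)) h2,
      rf_lm D hy U (y := (up d N.hZ (k t) : d.Xh)) h3, ?_⟩
    rw [← mul_div_assoc, h4]
    field_simp

theorem zero_up {ρ1 ρ2 : ℂ × ℂ → ℂ} (D : DiscD AB AC d.q d.p d.h d.g d.F)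
    (N : NearD d f1 f2 γ0 Z S T0 RM RN) (U : Un d f1 f2 γ0 ρ1 ρ2) {z₀ z₁ : Z} (k : Path z₀ z₁)
    (hk : ∀ t, Rat T0 S (k t : X) 0) (t : I) :
    SlR (Rf d S T0 RM RN ρ1 ρ2) ((k.map (continuous_up d N.hZ)) t : d.Xh) 0 := by
  have hy : (up d N.hZ (k t) : d.Xh) ∈ Zh d Z := (up d N.hZ (k t)).2
  have h := rf_sl D hy N U (y := (up d N.hZ (k t) : d.Xh)) (hk t)
  rw [zero_div] at h
  exact h

/-- **the germs and the four paths on `X̂`** = the last hypotheses of `lb414` -/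
theorem wall_paths (D : DiscD AB AC d.q d.p d.h d.g d.F) (N : NearD d f1 f2 γ0 Z S T0 RM RN)
    {z₀ z₁ z₂ z₃ : Z} (k₁ : Path z₀ z₁) (r₁ : Path z₁ z₂) (k₂ : Path z₂ z₃) (r₂ : Path z₃ z₀)
    (hk₁ : ArcX γ0 S T0 RM RN k₁) (hk₂ : ArcX γ0 S T0 RM RN k₂)
    (hr₁ : ∀ t, Rat T0 S (r₁ t : X) 0) (hr₂ : ∀ t, Rat T0 S (r₂ t : X) 0) :
    ∃ R : Zh d Z → Fin 4 → d.Xh → ℂ, (∀ (y : Zh d Z) (a : Fin 4), (d.rsB D.hle).Rt a (R y a) y) ∧
      (∀ y : Zh d Z, ∀ᶠ y' : Zh d Z in 𝓝 y, ∀ a, R y' a =ᶠ[𝓝 (y' : d.Xh)] R y a) ∧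
      ∃ (w₀ w₁ w₂ w₃ : Zh d Z) (k₁' : Path w₀ w₁) (r₁' : Path w₁ w₂) (k₂' : Path w₂ w₃)
        (r₂' : Path w₃ w₀), Arc R k₁' ∧ Arc R k₂' ∧
        (∀ t, SlR (R (r₁' t)) (r₁' t : d.Xh) 0) ∧ ∀ t, SlR (R (r₂' t)) (r₂' t : d.Xh) 0 := by
  obtain ⟨ρ1, ρ2, U⟩ := exists_un D N
  refine ⟨fun _ => Rf d S T0 RM RN ρ1 ρ2, fun y a => rf_rt D y.2 N U a,
    fun y => Eventually.of_forall fun y' a => EventuallyEq.rfl, up d N.hZ z₀, up d N.hZ z₁,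
    up d N.hZ z₂, up d N.hZ z₃, k₁.map (continuous_up d N.hZ), r₁.map (continuous_up d N.hZ),
    k₂.map (continuous_up d N.hZ), r₂.map (continuous_up d N.hZ), arc_up D N U k₁ hk₁,
    arc_up D N U k₂ hk₂, zero_up D N U r₁ hr₁, zero_up D N U r₂ hr₂⟩

theorem Zh_bd (D : DiscD AB AC d.q d.p d.h d.g d.F) {y : d.Xh} (hy : y ∈ Zh d Z) :
    (d.bd D.hle).T y = 0 ∧ (d.bd D.hle).W y = 0 := by
  constructor
  · show (d.T y : ℂ) = 0
    rw [Zh_T hy]; rfl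
  · show (d.W y : ℂ) = 0
    rw [Zh_W hy]; rfl

end main

end

end Crest.Agent.R272.Gm3_235
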