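import Crest.Agent.R272.CyB3_894
import Crest.Agent.R272.Asm2_102
import Crest.Agent.R272.Gm3_235

/-!
# R272 (S0414), S14-CYC, Cyc-BL (helper894), part 4: the slope along the two base curves

`Rat a b x m` (235): `b / a` has the value `m` at `x`.

* `rat_eG`            : at the point of direction `w` over a centre, `z 1 / z 0` has the value `w 1 / w 0`;
* `Two.rat_str`, `Two.rat_exc` : along the strict transform (`w 1 / w 0`), along the second
  exceptional curve (`0`);
* `rat_str14`, `rat_exc14`, `rat_strB`  : the same for `T`, `S` of 409's `Node` on 102's tower, and with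
  760's parameters.
-/

set_option autoImplicit false
set_option linter.unusedSectionVars false

open Set Filter Topology

namespace Crest.Agent.R272.CyB_894

open Crest.Agent.R275.Geo Crest.Agent.R275.Core144
open Crest.Agent.R273.Map_835 Crest.Agent.R273.Fam_835
open Crest.Agent.R272.Cyc_760 Crest.Agent.R272.Blup1_102 Crest.Agent.R272.Blup1_102.Ctr
open Crest.Agent.R272.Two_102 Crest.Agent.R272.BlA_266 Crest.Agent.R272.Adp_409
open Crest.Agent.R272.Asm2_102 Crest.Agent.R272.Gm3_235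

noncomputable section

section one

variable {M : Type} [TopologicalSpace M] [T2Space M] {A : Atl 2 M} (C : Ctr A) (s : C.S)

/-- **the slope at the point of direction `w`** -/
theorem rat_eG {w : V2} (hw : w 0 ≠ 0) :
    Rat (fun y => C.z s (C.pi y) 0) (fun y => C.z s (C.pi y) 1) (eG C s w) (w 1 / w 0) := by
  have h : w ≠ 0 := fun h0 => hw (by rw [h0]; rfl)
  have _hc : ∀ b c, Continuous fun y : C.X => y.1.2 b c := fun b c =>
    (continuous_apply c).comp ((continuous_apply b).comp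
      (continuous_snd.comp continuous_subtype_val))
  have h0 : (eG C s w).1.2 0 0 ≠ 0 := (snd_ne C s h).2 hw
  refine ⟨fun y => y.1.2 1 0 / y.1.2 0 0, ?_, snd_div C s h hw 1, ?_⟩
  · exact (_hc 1 0).continuousAt.div (_hc 0 0).continuousAt h0
  · have hU : ∀ᶠ y in 𝓝 (eG C s w), C.pi y ∈ C.U s := by
      refine C.continuous_pi.continuousAt.eventually ((C.isOpen_U s).mem_nhds ?_)
      rw [pi_eG]
      exact C.p_mem s
    filter_upwards [hU, (_hc 0 0).continuousAt.eventually_ne h0] with y h1 h2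
    have h3 := (C.exists_W h1 h2).1
    have e0 : C.z s (C.pi y) 0 = C.co s 0 y 0 * 1 := by
      rw [h3, PiLp.smul_apply, smul_eq_mul, W_apply, if_pos rfl]
    have e1 : C.z s (C.pi y) 1 = C.co s 0 y 0 * (y.1.2 1 0 / y.1.2 0 0) := by
      rw [h3, PiLp.smul_apply, smul_eq_mul, W_apply, if_neg (by decide : (1 : Fin 2) ≠ 0),
        co_apply, co_apply, if_pos rfl, if_neg (by decide : (1 : Fin 2) ≠ 0)]
    rw [e0, e1, mul_one]

/-- functions equal to the coordinates up to one constant -/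
theorem rat_scale {T S : M → ℂ} {c : ℂ} (hc : c ≠ 0)
    (hT : ∀ᶠ x in 𝓝 (C.p s), T x = c * C.z s x 0)
    (hS : ∀ᶠ x in 𝓝 (C.p s), S x = c * C.z s x 1) {Y : Type} [TopologicalSpace Y] {f : Y → M}
    {y : Y} (hf : ContinuousAt f y) (hy : f y = C.p s) {m : ℂ}
    (h : Rat (fun y => C.z s (f y) 0) (fun y => C.z s (f y) 1) y m) :
    Rat (fun y => T (f y)) (fun y => S (f y)) y m := by
  obtain ⟨u, hu, hm, he⟩ := h
  have hf' : Tendsto f (𝓝 y) (𝓝 (C.p s)) := hy ▸ hf
  refine ⟨u, hu, hm, ?_⟩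
  filter_upwards [he, hf'.eventually hT, hf'.eventually hS] with z h1 h2 h3
  rw [h3, h2, h1]
  ring

end one

section two

variable {M : Type} [TopologicalSpace M] [T2Space M] {A : Atl 2 M}

namespace Two

variable {C1 : Ctr A} {C2 : Ctr C1.atl} (τ : Two C1 C2)

/-- the strict transform lies over the centre -/
theorem base_str {w : V2} (hw : w ≠ 0) : C1.pi (C2.pi (τ.str.G w)) = C1.p τ.s1 := by
  show C1.pi (C2.pi (τ.sG w)) = _
  rw [τ.pi_sG hw, pi_eG]

/-- the second exceptional curve lies over the centre -/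
theorem base_exc (w : V2) : C1.pi (C2.pi ((exc C2 τ.s2).G w)) = C1.p τ.s1 := by
  rw [exc_G, pi_eG, τ.p_eq, pi_eG]

/-- **the slope along the strict transform** -/
theorem rat_str {w : V2} (hw : w 0 ≠ 0) :
    Rat (fun y => C1.z τ.s1 (C1.pi (C2.pi y)) 0) (fun y => C1.z τ.s1 (C1.pi (C2.pi y)) 1)
      (τ.str.G w) (w 1 / w 0) := by
  have h : w ≠ 0 := fun h0 => hw (by rw [h0]; rfl)
  have h1 : C2.pi (τ.str.G w) = eG C1 τ.s1 w := τ.pi_sG h
  have h2 := rat_eG C1 τ.s1 hw
  rw [← h1] at h2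
  exact h2.up C2.continuous_pi.continuousAt

/-- **the slope along the second exceptional curve** -/
theorem rat_exc (w : V2) :
    Rat (fun y => C1.z τ.s1 (C1.pi (C2.pi y)) 0) (fun y => C1.z τ.s1 (C1.pi (C2.pi y)) 1)
      ((exc C2 τ.s2).G w) 0 := by
  have h1 : C2.pi ((exc C2 τ.s2).G w) = eG C1 τ.s1 e0 := by
    rw [exc_G, pi_eG, τ.p_eq]
  have h0 : (e0 : V2) 0 ≠ 0 := one_ne_zero
  have h2 := rat_eG C1 τ.s1 h0
  rw [← h1] at h2
  have h3 : (e0 : V2) 1 / (e0 : V2) 0 = 0 := by rw [e0_one, zero_div]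
  rw [h3] at h2
  exact h2.up C2.continuous_pi.continuousAt

end Two

end two

/-! ### 102's tower -/

section tower

variable {M : Type} [TopologicalSpace M] [T2Space M] {A : Atl 2 M} {ρ : Type} (P : PD A ρ)
  {Z : Set M} (hZ : Z.Finite) (N : ∀ x : Z, Node P (x : M))

/-- the tower at a tacnode -/
def two14 (t : (D1 P hZ N).S) (ht : t ∈ tau (D1 P hZ N) (sh1 P hZ N)) :
    Two (D1 P hZ N) (D2 P hZ N) :=
  Two.ofC2 (D1 P hZ N) (tau (D1 P hZ N) (sh1 P hZ N)) t ht

variable (t : (D1 P hZ N).S) (ht : t ∈ tau (D1 P hZ N) (sh1 P hZ N))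

theorem ev_T : ∀ᶠ x in 𝓝 ((D1 P hZ N).p t), (N t).T x = nodeR N t * (D1 P hZ N).z t x 0 := by
  have hc : ((D1 P hZ N).p t) ∈ ((nodeCen N).c t).source := (nodeCen N).p_mem t
  filter_upwards [((nodeCen N).c t).open_source.mem_nhds hc] with x hx
  exact nodeCen_T N t hx

theorem ev_S : ∀ᶠ x in 𝓝 ((D1 P hZ N).p t), (N t).S x = nodeR N t * (D1 P hZ N).z t x 1 := by
  have hc : ((D1 P hZ N).p t) ∈ ((nodeCen N).c t).source := (nodeCen N).p_mem t
  filter_upwards [((nodeCen N).c t).open_source.mem_nhds hc] with x hx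
  exact nodeCen_S' N t hx

theorem base_str14 {w : V2} (hw : w ≠ 0) : piN P hZ N ((two14 P hZ N t ht).str.G w) = t.1 :=
  (two14 P hZ N t ht).base_str hw

theorem base_exc14 (w : V2) :
    piN P hZ N ((exc (D2 P hZ N) (two14 P hZ N t ht).s2).G w) = t.1 :=
  (two14 P hZ N t ht).base_exc w

/-- **`S / T` along the strict transform** -/
theorem rat_str14 {w : V2} (hw : w 0 ≠ 0) :
    Rat (fun y => (N t).T (piN P hZ N y)) (fun y => (N t).S (piN P hZ N y))
      ((two14 P hZ N t ht).str.G w) (w 1 / w 0) := by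
  have h : w ≠ 0 := fun h0 => hw (by rw [h0]; rfl)
  exact rat_scale (D1 P hZ N) t (nodeR_ne N t) (ev_T P hZ N t) (ev_S P hZ N t)
    (continuous_piN P hZ N).continuousAt (base_str14 P hZ N t ht h)
    ((two14 P hZ N t ht).rat_str hw)

/-- **`S / T = 0` along the second exceptional curve** -/
theorem rat_exc14 (w : V2) :
    Rat (fun y => (N t).T (piN P hZ N y)) (fun y => (N t).S (piN P hZ N y))
      ((exc (D2 P hZ N) (two14 P hZ N t ht).s2).G w) 0 :=
  rat_scale (D1 P hZ N) t (nodeR_ne N t) (ev_T P hZ N t) (ev_S P hZ N t)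
    (continuous_piN P hZ N).continuousAt (base_exc14 P hZ N t ht w)
    ((two14 P hZ N t ht).rat_exc w)

/-- with 760's parameters -/
theorem rat_strB {g : ℂ} {hg : g ≠ 0} {x : V2} (hx : x 1 ≠ x 0) :
    Rat (fun y => (N t).T (piN P hZ N y)) (fun y => (N t).S (piN P hZ N y))
      (((two14 P hZ N t ht).str.pre (Bg g hg)).G x) (g * (x 0 + x 1) / (x 1 - x 0)) := by
  have h0 : x 1 - x 0 ≠ 0 := sub_ne_zero.2 hx
  have h1 : (Bg g hg x) 0 ≠ 0 := by
    rw [Bg_zero]
    exact div_ne_zero h0 (mul_ne_zero two_ne_zero hg)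
  have h2 := rat_str14 P hZ N t ht h1
  have h3 : (Bg g hg x) 1 / (Bg g hg x) 0 = g * (x 0 + x 1) / (x 1 - x 0) := by
    rw [Bg_zero, Bg_one]
    field_simp
  rw [h3] at h2
  exact h2

theorem rat_excB (B : V2 ≃L[ℂ] V2) (x : V2) :
    Rat (fun y => (N t).T (piN P hZ N y)) (fun y => (N t).S (piN P hZ N y))
      (((exc (D2 P hZ N) (two14 P hZ N t ht).s2).pre B).G x) 0 :=
  rat_exc14 P hZ N t ht (B x)

end tower

end

end Crest.Agent.R272.CyB_894
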