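import Crest.Agent.R272.BlS3_266
import Crest.Agent.R272.CyB4_894

/-!
# R272 (S0414), S14-SHEET (helper266), part 4: the two sheets on helper102's tower

`P : PD A (Fin 2)`, `N : ∀ x : Z, Node P x`, `t` a centre with `(N t).sh 0 = .tac`,
`(N t).sh 1 = .star 1`:
* `sheetA : Nonempty (Sheet (asm ..) 0 1 ((two14 P hZ N t ht).str.pre (Bg γ hγ)))` if the second
  section is `U (v₁² - v₀² c)` with `c 0 = γ²` in the centred chart;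
* `sheetB : ∃ γ' hγ', Nonempty (Sheet (asm ..) 1 0 ((exc _ (two14 P hZ N t ht).s2).pre (Bg γ' hγ')))`;
* `exists_cyc : ∃ K : CycD (asm ..), K.α = .. ∧ K.β = ..`.
-/

set_option autoImplicit false
set_option linter.unusedSectionVars false

open Set Filter Topology

namespace Crest.Agent.R272.BlS_266

open Crest.Agent.R275.Geo Crest.Agent.R275.Core144 Crest.Agent.R273.Defs_333
open Crest.Agent.R273.Fam_835 Crest.Agent.R273.Map_835 Crest.Agent.R273.PB_835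
open Crest.Agent.R272.Blup1_102 Crest.Agent.R272.Two_102 Crest.Agent.R272.Cyc_760
open Crest.Agent.R272.BlA_266 Crest.Agent.R272.Adp_409 Crest.Agent.R272.Asm2_102
open Crest.Agent.R272.CyB_894

noncomputable section

variable {M : Type} [TopologicalSpace M] [T2Space M] {A : Atl 2 M} (P : PD A (Fin 2))
  (hk : ∀ a, P.k a = 2) {Z : Set M} (hZ : Z.Finite) (N : ∀ x : Z, Node P (x : M))
  (hadm : ∀ x, Adm (N x).sh) (hoff : ∀ x, x ∉ Z → P.Snc x)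

theorem sqrt_ne {z : ℂ} (hz : z ≠ 0) : ∃ y : ℂ, y ^ 2 = z ∧ y ≠ 0 := by
  obtain ⟨y, hy⟩ := exists_sq z
  refine ⟨y, hy, ?_⟩
  rintro rfl
  exact hz (by rw [← hy]; ring)

section centre

variable (t : (D1 P hZ N).S) (ht : t ∈ tau (D1 P hZ N) (sh1 P hZ N))
  (h0 : (N t).sh 0 = .tac) (h1 : (N t).sh 1 = .star 1)

include h0 in
theorem mult0 : mult (D1 P hZ N) (sh1 P hZ N) 0 t = 1 := by
  show mu ((N t).sh 0) = 1
  rw [h0, mu]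

include h1 in
theorem mult1 : mult (D1 P hZ N) (sh1 P hZ N) 1 t = 1 := by
  show mu ((N t).sh 1) = 1
  rw [h1, mu]

include h0 in
theorem mult0' : mult (D2 P hZ N) (sh2 (D1 P hZ N) (sh1 P hZ N)) 0 (two14 P hZ N t ht).s2 = 1 := by
  have h2 : sh1 P hZ N t 0 = .tac := h0
  have h3 : sh2 (D1 P hZ N) (sh1 P hZ N) ⟨t, ht⟩ 0 = .star 1 := if_pos h2
  show mu (sh2 (D1 P hZ N) (sh1 P hZ N) ⟨t, ht⟩ 0) = 1
  rw [h3, mu]

include h1 in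
theorem mult1' : mult (D2 P hZ N) (sh2 (D1 P hZ N) (sh1 P hZ N)) 1 (two14 P hZ N t ht).s2 = 0 := by
  have h2 : sh1 P hZ N t 1 ≠ .tac := by
    show (N t).sh 1 ≠ .tac
    rw [h1]
    exact fun h => by cases h
  have h3 : sh2 (D1 P hZ N) (sh1 P hZ N) ⟨t, ht⟩ 1 = .unit := if_neg h2
  show mu (sh2 (D1 P hZ N) (sh1 P hZ N) ⟨t, ht⟩ 1) = 0
  rw [h3, mu]

include h0 in
theorem formM : IsPQ 2 4 ((D1 P hZ N).phi (((nodeCen N).pd P).s 0) t) := by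
  have h := ok1 P hZ N t 0
  have e : sh1 P hZ N t 0 = .tac := h0
  rw [e] at h
  exact h

include h1 in
theorem formN : IsPQ 2 2 ((D1 P hZ N).phi (((nodeCen N).pd P).s 1) t) := by
  have h := ok1 P hZ N t 1
  have e : sh1 P hZ N t 1 = .star 1 := h1
  rw [e] at h
  exact h

include h0 h1 in
/-- **the data of the cycle over a (P) centre**, with a given value `γ²` of the second section -/
theorem exists_cyc {γ : ℂ} (hγ : γ ≠ 0)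
    (hN : ∃ U c : Cn 2 → ℂ, DifferentiableAt ℂ U 0 ∧ DifferentiableAt ℂ c 0 ∧ U 0 ≠ 0 ∧
      c 0 = γ ^ 2 ∧ ∀ᶠ v in 𝓝 0, (D1 P hZ N).phi (((nodeCen N).pd P).s 1) t v =
        U v * (v 1 ^ 2 - v 0 ^ 2 * c v)) :
    ∃ (γ' : ℂ) (hγ' : γ' ≠ 0), Nonempty (Sheet (asm P hk hZ N hadm hoff) 0 1
        ((two14 P hZ N t ht).str.pre (BlS_266.Bg γ hγ))) ∧
      Nonempty (Sheet (asm P hk hZ N hadm hoff) 1 0
        ((exc (D2 P hZ N) (two14 P hZ N t ht).s2).pre (BlS_266.Bg γ' hγ'))) := by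
  obtain ⟨UM, cM, dUM, dcM, UM0, cM0, hM⟩ := formM P hZ N t h0
  obtain ⟨UN, cN, dUN, dcN, UN0, hc, hN'⟩ := hN
  obtain ⟨κM, hκM, hκM0⟩ := sqrt_ne UM0
  obtain ⟨κN, hκN, hκN0⟩ := sqrt_ne UN0
  obtain ⟨γ', hγ', hγ0'⟩ := sqrt_ne cM0
  have F : Lf ((nodeCen N).pd P) (D1 P hZ N) (two14 P hZ N t ht).s1 UM cM UN cN :=
    ⟨dUM.continuousAt, dcM.continuousAt, dUN.continuousAt, dcN.continuousAt, hM, hN'⟩
  have h2 : ∀ y, (P2 ((nodeCen N).pd P) (D1 P hZ N) (sh1 P hZ N) hk (ok1 P hZ N) hadm).Snc y :=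
    snc2 ((nodeCen N).pd P) (D1 P hZ N) (sh1 P hZ N) hk (ok1 P hZ N) hadm
      fun x hx => (nodeCen N).pd_snc P |>.2 (hoff x (by rwa [D1_Z] at hx))
  exact ⟨γ', hγ0',
    ⟨F.Sa h2 hk (mult0 P hZ N t h0) (mult1 P hZ N t h1) (mult0' P hZ N t ht h0)
      (mult1' P hZ N t ht h1) hκM hκM0 hκN hκN0 hc.symm hγ⟩,
    ⟨F.Sb h2 hk (mult0 P hZ N t h0) (mult1 P hZ N t h1) (mult0' P hZ N t ht h0)
      (mult1' P hZ N t ht h1) hκM hκM0 hκN hκN0 hc.symm hγ hγ' hγ0'⟩⟩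

include h0 h1 in
/-- **the sheet over the strict transform of the first exceptional curve** -/
theorem sheetA {γ : ℂ} (hγ : γ ≠ 0)
    (hN : ∃ U c : Cn 2 → ℂ, DifferentiableAt ℂ U 0 ∧ DifferentiableAt ℂ c 0 ∧ U 0 ≠ 0 ∧
      c 0 = γ ^ 2 ∧ ∀ᶠ v in 𝓝 0, (D1 P hZ N).phi (((nodeCen N).pd P).s 1) t v =
        U v * (v 1 ^ 2 - v 0 ^ 2 * c v)) :
    Nonempty (Sheet (asm P hk hZ N hadm hoff) 0 1
      ((two14 P hZ N t ht).str.pre (BlS_266.Bg γ hγ))) := by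
  obtain ⟨_, _, h, -⟩ := exists_cyc P hk hZ N hadm hoff t ht h0 h1 hγ hN
  exact h

include h0 h1 in
/-- **the sheet over the second exceptional curve** -/
theorem sheetB : ∃ (γ' : ℂ) (hγ' : γ' ≠ 0), Nonempty (Sheet (asm P hk hZ N hadm hoff) 1 0
    ((exc (D2 P hZ N) (two14 P hZ N t ht).s2).pre (BlS_266.Bg γ' hγ'))) := by
  obtain ⟨UN, cN, dUN, dcN, UN0, cN0, hN'⟩ := formN P hZ N t h1
  obtain ⟨γ, hγ, hγ0⟩ := sqrt_ne cN0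
  obtain ⟨γ', hγ', -, h⟩ := exists_cyc P hk hZ N hadm hoff t ht h0 h1 hγ0
    ⟨UN, cN, dUN, dcN, UN0, hγ.symm, hN'⟩
  exact ⟨γ', hγ', h⟩

/-- **760's `CycD` of the tower** -/
theorem exists_cycD (h0 : (N t).sh 0 = .tac) (h1 : (N t).sh 1 = .star 1) {γ : ℂ} (hγ : γ ≠ 0)
    (hN : ∃ U c : Cn 2 → ℂ, DifferentiableAt ℂ U 0 ∧ DifferentiableAt ℂ c 0 ∧ U 0 ≠ 0 ∧
      c 0 = γ ^ 2 ∧ ∀ᶠ v in 𝓝 0, (D1 P hZ N).phi (((nodeCen N).pd P).s 1) t v =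
        U v * (v 1 ^ 2 - v 0 ^ 2 * c v)) :
    ∃ (K : CycD (asm P hk hZ N hadm hoff)) (γ' : ℂ) (hγ' : γ' ≠ 0),
      K.α = (two14 P hZ N t ht).str.pre (BlS_266.Bg γ hγ) ∧
      K.β = (exc (D2 P hZ N) (two14 P hZ N t ht).s2).pre (BlS_266.Bg γ' hγ') ∧
      K.w₁ = (BlS_266.Bg γ hγ).symm Two.e0 ∧ K.w₂ = (BlS_266.Bg γ' hγ').symm Two.e1 := by
  obtain ⟨γ', hγ', ⟨Sα⟩, ⟨Sβ⟩⟩ := exists_cyc P hk hZ N hadm hoff t ht h0 h1 hγ hN
  exact ⟨(two14 P hZ N t ht).cycD (BlS_266.Bg γ hγ) (BlS_266.Bg γ' hγ') Sα Sβ, γ', hγ', rfl, rfl,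
    rfl, rfl⟩

end centre

end

end Crest.Agent.R272.BlS_266
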