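import Crest.Agent.R273.PB_835

/-!
# R272, BLUP (helper102), part 1: the blow-up of a manifold at a family of centres

* `prj w = w w* / |w|²`; `Ctr A`: a locally finite family of centres with disjoint closed chart
  balls; `C.X` : the blow-up, a closed subset of `M × (n × n matrices)`;
* `C.pi`, `C.lift`, `C.el s a` (the charts at the exceptional divisor).
-/

set_option autoImplicit false
set_option linter.unusedSectionVars false

open Set Filter Topology Complex
open scoped ContDiff Matrix ComplexConjugate Manifold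

namespace Crest.Agent.R272.Blup1_102

open Crest.Agent.R275.Geo Crest.Agent.R275.Core144

noncomputable section

variable {n : ℕ}

/-! ### rank one projectors -/

abbrev MM (n : ℕ) : Type := Fin n → Fin n → ℂ

/-- the orthogonal projector on the line of `w` -/
def prj (w : Cn n) : MM n := fun b c => w b * conj (w c) / ((‖w‖ ^ 2 : ℝ) : ℂ)

theorem sq_ne {w : Cn n} (hw : w ≠ 0) : ((‖w‖ ^ 2 : ℝ) : ℂ) ≠ 0 := by
  rw [Ne, Complex.ofReal_eq_zero]
  exact pow_ne_zero 2 (norm_ne_zero_iff.2 hw)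

theorem prj_smul {c : ℂ} (hc : c ≠ 0) (w : Cn n) : prj (c • w) = prj w := by
  funext a b
  have h : ((‖c‖ ^ 2 : ℝ) : ℂ) = c * conj c := by
    rw [Complex.mul_conj, Complex.normSq_eq_norm_sq]
  have h0 : c * conj c ≠ 0 := mul_ne_zero hc (by simpa using hc)
  simp only [prj, PiLp.smul_apply, smul_eq_mul, map_mul, norm_smul, mul_pow, Complex.ofReal_mul, h]
  rw [show c * w a * (conj c * conj (w b)) = (c * conj c) * (w a * conj (w b)) by ring]
  exact mul_div_mul_left _ _ h0

theorem prj_diag (w : Cn n) (a : Fin n) :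
    prj w a a = ((‖w a‖ ^ 2 / ‖w‖ ^ 2 : ℝ) : ℂ) := by
  simp only [prj]
  rw [Complex.mul_conj, Complex.normSq_eq_norm_sq]
  push_cast
  rfl

theorem prj_div {w : Cn n} {a : Fin n} (ha : w a ≠ 0) (b : Fin n) :
    prj w b a / prj w a a = w b / w a := by
  have hw : w ≠ 0 := fun h => ha (by rw [h]; rfl)
  have h1 := sq_ne hw
  have h2 : conj (w a) ≠ 0 := by simpa using ha
  simp only [prj]
  field_simp

theorem prj_diag_ne {w : Cn n} {a : Fin n} (hw : w ≠ 0) : prj w a a ≠ 0 ↔ w a ≠ 0 := by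
  have h1 := sq_ne hw
  simp only [prj]
  rw [div_ne_zero_iff, mul_ne_zero_iff]
  refine ⟨fun h => h.1.1, fun h => ⟨⟨h, ?_⟩, h1⟩⟩
  simpa using h

theorem norm_prj_div {w : Cn n} {a : Fin n} (ha : w a ≠ 0) (b : Fin n) :
    ‖prj w b a‖ = ‖w b / w a‖ * ‖prj w a a‖ := by
  have hw : w ≠ 0 := fun h => ha (by rw [h]; rfl)
  rw [← prj_div ha b, norm_div, div_mul_cancel₀]
  rw [norm_ne_zero_iff, prj_diag_ne hw]
  exact ha

theorem norm_coord_le (w : Cn n) (a : Fin n) : ‖w a‖ ≤ ‖w‖ := PiLp.norm_apply_le w a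

theorem norm_prj_le (w : Cn n) : ‖prj w‖ ≤ 1 := by
  rw [pi_norm_le_iff_of_nonneg zero_le_one]
  intro a
  rw [pi_norm_le_iff_of_nonneg zero_le_one]
  intro b
  simp only [prj]
  rw [norm_div, norm_mul, RCLike.norm_conj, Complex.norm_real, Real.norm_of_nonneg (by positivity)]
  refine div_le_one_of_le₀ ?_ (by positivity)
  nlinarith [norm_coord_le w a, norm_coord_le w b, norm_nonneg (w a), norm_nonneg (w b)]

theorem continuousAt_prj {w : Cn n} (hw : w ≠ 0) : ContinuousAt (prj (n := n)) w := by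
  rw [continuousAt_pi]
  intro a
  rw [continuousAt_pi]
  intro b
  refine ContinuousAt.div ?_ ?_ (sq_ne hw)
  · have h : Continuous fun w : Cn n => w a * conj (w b) := by fun_prop
    exact h.continuousAt
  · have h : Continuous fun w : Cn n => ((‖w‖ ^ 2 : ℝ) : ℂ) := by fun_prop
    exact h.continuousAt

/-- some coordinate is maximal -/
theorem exists_max {w : Cn n} (hw : w ≠ 0) : ∃ a, w a ≠ 0 ∧ ∀ b, ‖w b‖ ≤ ‖w a‖ := by
  have hne : Nonempty (Fin n) := by
    by_contra h
    rw [not_nonempty_iff] at h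
    exact hw (by ext a; exact h.elim a)
  obtain ⟨a, ha⟩ := Finite.exists_max fun b => ‖w b‖
  refine ⟨a, fun h0 => hw ?_, ha⟩
  ext b
  have := ha b
  rw [h0, norm_zero, norm_le_zero_iff] at this
  simpa using this

theorem prj_inj {w w' : Cn n} (hw : w ≠ 0) (hw' : w' ≠ 0) (h : prj w = prj w') :
    ∃ c : ℂ, c ≠ 0 ∧ w' = c • w := by
  obtain ⟨a, ha, -⟩ := exists_max hw
  have ha' : w' a ≠ 0 := by
    rw [← prj_diag_ne hw', ← h, prj_diag_ne hw]
    exact ha
  refine ⟨w' a / w a, div_ne_zero ha' ha, ?_⟩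
  ext b
  have h1 := prj_div ha b
  rw [h, prj_div ha' b] at h1
  rw [div_eq_div_iff ha' ha] at h1
  rw [PiLp.smul_apply, smul_eq_mul, div_mul_eq_mul_div, eq_div_iff ha, h1]
  ring

/-- the set of rank one projectors -/
def Pr (n : ℕ) : Set (MM n) := {P | ∃ w : Cn n, w ≠ 0 ∧ P = prj w}

theorem Pr_eq : Pr n = prj '' Metric.sphere (0 : Cn n) 1 := by
  ext P
  constructor
  · rintro ⟨w, hw, rfl⟩
    have h0 : ‖w‖ ≠ 0 := norm_ne_zero_iff.2 hw
    refine ⟨((‖w‖ : ℂ))⁻¹ • w, ?_, prj_smul (inv_ne_zero (by exact_mod_cast h0)) w⟩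
    rw [mem_sphere_zero_iff_norm, norm_smul, norm_inv, Complex.norm_real, norm_norm,
      inv_mul_cancel₀ h0]
  · rintro ⟨w, hw, rfl⟩
    refine ⟨w, fun h => ?_, rfl⟩
    rw [mem_sphere_zero_iff_norm, h, norm_zero] at hw
    exact zero_ne_one hw

theorem isCompact_Pr : IsCompact (Pr n) := by
  rw [Pr_eq]
  refine (isCompact_sphere _ _).image_of_continuousOn fun w hw => ?_
  refine (continuousAt_prj ?_).continuousWithinAt
  rintro rfl
  simp at hw

/-! ### centres -/

variable {M : Type} [TopologicalSpace M]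

/-- a locally finite family of centres, with disjoint closed chart balls -/
structure Ctr (A : Atl n M) where
  S : Type
  i : S → A.ι
  p : S → M
  r : S → ℝ
  hp : ∀ s, p s ∈ (A.e (i s)).source
  r_pos : ∀ s, 0 < r s
  r_le : ∀ s, r s ≤ 1
  sub : ∀ s, Metric.closedBall (A.e (i s) (p s)) (r s) ⊆ (A.e (i s)).target
  disj : ∀ s t, s ≠ t → Disjoint ((A.e (i s)).symm '' Metric.closedBall (A.e (i s) (p s)) (r s))
    ((A.e (i t)).symm '' Metric.closedBall (A.e (i t) (p t)) (r t))
  lf : LocallyFinite fun s => (A.e (i s)).symm '' Metric.closedBall (A.e (i s) (p s)) (r s)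

namespace Ctr

variable {A : Atl n M} (C : Ctr A)

/-- the closed ball -/
def K (s : C.S) : Set M :=
  (A.e (C.i s)).symm '' Metric.closedBall (A.e (C.i s) (C.p s)) (C.r s)

/-- the open ball -/
def U (s : C.S) : Set M :=
  (A.e (C.i s)).source ∩ (A.e (C.i s)) ⁻¹' Metric.ball (A.e (C.i s) (C.p s)) (C.r s)

/-- the coordinates centred at `p s` -/
def z (s : C.S) (x : M) : Cn n := A.e (C.i s) x - A.e (C.i s) (C.p s)

/-- the amplitude -/
def amp (s : C.S) (x : M) : ℂ := ((C.r s - ‖C.z s x‖ : ℝ) : ℂ)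

/-- the point with coordinates `v` -/
def pt (s : C.S) (v : Cn n) : M := (A.e (C.i s)).symm (A.e (C.i s) (C.p s) + v)

/-- the centres -/
def Z : Set M := range C.p

theorem mem_U {s : C.S} {x : M} : x ∈ C.U s ↔ x ∈ (A.e (C.i s)).source ∧ ‖C.z s x‖ < C.r s := by
  rw [U, mem_inter_iff, mem_preimage, Metric.mem_ball, dist_eq_norm]
  rfl

theorem isOpen_U (s : C.S) : IsOpen (C.U s) := (A.e (C.i s)).isOpen_inter_preimage Metric.isOpen_ball

theorem z_p (s : C.S) : C.z s (C.p s) = 0 := sub_self _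

theorem p_mem (s : C.S) : C.p s ∈ C.U s := by
  rw [mem_U, z_p, norm_zero]
  exact ⟨C.hp s, C.r_pos s⟩

theorem mem_K {s : C.S} {x : M} : x ∈ C.K s ↔ x ∈ (A.e (C.i s)).source ∧ ‖C.z s x‖ ≤ C.r s := by
  constructor
  · rintro ⟨v, hv, rfl⟩
    refine ⟨(A.e (C.i s)).map_target (C.sub s hv), ?_⟩
    rw [z, (A.e (C.i s)).right_inv (C.sub s hv), ← dist_eq_norm]
    exact hv
  · rintro ⟨h1, h2⟩
    refine ⟨A.e (C.i s) x, ?_, (A.e (C.i s)).left_inv h1⟩
    rw [Metric.mem_closedBall, dist_eq_norm]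
    exact h2

theorem U_sub_K (s : C.S) : C.U s ⊆ C.K s := fun x hx => by
  rw [mem_U] at hx
  rw [mem_K]
  exact ⟨hx.1, hx.2.le⟩

theorem isCompact_K (s : C.S) : IsCompact (C.K s) :=
  (isCompact_closedBall _ _).image_of_continuousOn ((A.e (C.i s)).continuousOn_symm.mono (C.sub s))

theorem isClosed_K [T2Space M] (s : C.S) : IsClosed (C.K s) := (C.isCompact_K s).isClosed

theorem U_unique {s t : C.S} {x : M} (hs : x ∈ C.U s) (ht : x ∈ C.U t) : s = t := by
  by_contra h
  exact Set.disjoint_left.1 (C.disj s t h) (C.U_sub_K s hs) (C.U_sub_K t ht)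

theorem p_inj : Function.Injective C.p := fun s t h =>
  C.U_unique (C.p_mem s) (h ▸ C.p_mem t)

theorem z_eq_zero {s : C.S} {x : M} (hx : x ∈ C.U s) : C.z s x = 0 ↔ x = C.p s := by
  constructor
  · intro h
    rw [z, sub_eq_zero] at h
    exact (A.e (C.i s)).injOn ((C.mem_U.1 hx).1) (C.hp s) h
  · rintro rfl
    exact C.z_p s

theorem mem_Z_iff {s : C.S} {x : M} (hx : x ∈ C.U s) : x ∈ C.Z ↔ x = C.p s := by
  constructor
  · rintro ⟨t, rfl⟩
    rw [C.U_unique hx (C.p_mem t)]
  · rintro rfl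
    exact ⟨s, rfl⟩

theorem isClosed_Z [T2Space M] : IsClosed C.Z := by
  have h : C.Z = ⋃ s, {C.p s} := by
    ext x
    simp [Z, eq_comm]
  rw [h]
  refine LocallyFinite.isClosed_iUnion (C.lf.subset fun s => ?_) fun s => isClosed_singleton
  rw [singleton_subset_iff]
  exact C.U_sub_K s (C.p_mem s)

theorem sub_ball {s : C.S} {v : Cn n} (hv : ‖v‖ < C.r s) :
    A.e (C.i s) (C.p s) + v ∈ (A.e (C.i s)).target := by
  refine C.sub s ?_
  rw [Metric.mem_closedBall, dist_eq_norm, add_sub_cancel_left]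
  exact hv.le

theorem z_pt {s : C.S} {v : Cn n} (hv : ‖v‖ < C.r s) : C.z s (C.pt s v) = v := by
  rw [z, pt, (A.e (C.i s)).right_inv (C.sub_ball hv), add_sub_cancel_left]

theorem pt_mem {s : C.S} {v : Cn n} (hv : ‖v‖ < C.r s) : C.pt s v ∈ C.U s := by
  rw [mem_U, C.z_pt hv]
  exact ⟨(A.e (C.i s)).map_target (C.sub_ball hv), hv⟩

theorem pt_z {s : C.S} {x : M} (hx : x ∈ C.U s) : C.pt s (C.z s x) = x := by
  rw [pt, z, add_sub_cancel, (A.e (C.i s)).left_inv (C.mem_U.1 hx).1]

theorem amp_ne {s : C.S} {x : M} (hx : x ∈ C.U s) : C.amp s x ≠ 0 := by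
  rw [amp, Ne, Complex.ofReal_eq_zero]
  have := (C.mem_U.1 hx).2
  linarith

theorem norm_amp {s : C.S} {x : M} (hx : x ∈ C.U s) : ‖C.amp s x‖ = C.r s - ‖C.z s x‖ := by
  rw [amp, Complex.norm_real, Real.norm_of_nonneg]
  have := (C.mem_U.1 hx).2
  linarith

theorem continuousAt_z {s : C.S} {x : M} (hx : x ∈ (A.e (C.i s)).source) :
    ContinuousAt (C.z s) x :=
  ((A.e (C.i s)).continuousAt hx).sub continuousAt_const

theorem continuousAt_amp {s : C.S} {x : M} (hx : x ∈ (A.e (C.i s)).source) :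
    ContinuousAt (C.amp s) x :=
  Complex.continuous_ofReal.continuousAt.comp
    (continuousAt_const.sub (C.continuousAt_z hx).norm :
      ContinuousAt (fun y => C.r s - ‖C.z s y‖) x)

open Classical in
/-- the second component over the complement of the centres -/
def q (x : M) : MM n :=
  if h : ∃ s, x ∈ C.U s then C.amp h.choose x • prj (C.z h.choose x) else 0

theorem q_eq {s : C.S} {x : M} (hx : x ∈ C.U s) : C.q x = C.amp s x • prj (C.z s x) := by
  have h : ∃ s, x ∈ C.U s := ⟨s, hx⟩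
  have h1 : h.choose = s := C.U_unique h.choose_spec hx
  rw [q, dif_pos h, h1]

theorem q_out {x : M} (hx : ∀ s, x ∉ C.U s) : C.q x = 0 := by
  rw [q, dif_neg]
  push Not
  exact hx

theorem norm_q_le {x : M} : ‖C.q x‖ ≤ 1 := by
  by_cases h : ∃ s, x ∈ C.U s
  · obtain ⟨s, hs⟩ := h
    rw [C.q_eq hs, norm_smul, C.norm_amp hs]
    have h1 := norm_prj_le (C.z s x)
    have h2 := C.r_le s
    have h3 := (C.mem_U.1 hs).2
    have h4 := norm_nonneg (C.z s x)
    have h5 := norm_nonneg (prj (C.z s x))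
    nlinarith
  · push Not at h
    rw [C.q_out h, norm_zero]
    exact zero_le_one

theorem continuousAt_q [T2Space M] {x : M} (hx : x ∉ C.Z) : ContinuousAt C.q x := by
  by_cases h : ∃ s, x ∈ C.U s
  · obtain ⟨s, hs⟩ := h
    have hz : C.z s x ≠ 0 := fun h0 => hx ((C.mem_Z_iff hs).2 ((C.z_eq_zero hs).1 h0))
    have h1 := C.continuousAt_z (C.mem_U.1 hs).1
    have h2 : ContinuousAt (fun y => C.amp s y • prj (C.z s y)) x :=
      (C.continuousAt_amp (C.mem_U.1 hs).1).smul
        (ContinuousAt.comp (g := prj) (continuousAt_prj hz) h1)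
    refine h2.congr ?_
    filter_upwards [(C.isOpen_U s).mem_nhds hs] with y hy
    exact (C.q_eq hy).symm
  · push Not at h
    rw [ContinuousAt, C.q_out h]
    rw [Metric.tendsto_nhds]
    intro ε hε
    obtain ⟨N, hN, hfin⟩ := C.lf x
    have hx2 : ∀ s ∈ {s | (C.K s ∩ N).Nonempty}, ∀ᶠ y in 𝓝 x, y ∈ C.U s →
        C.r s - ‖C.z s y‖ < ε := by
      intro s _
      by_cases hK : x ∈ C.K s
      · have h2 := C.mem_K.1 hK
        have h3 : ‖C.z s x‖ = C.r s := by
          refine le_antisymm h2.2 (not_lt.1 fun hlt => h s ?_)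
          exact C.mem_U.2 ⟨h2.1, hlt⟩
        have h4 := (C.continuousAt_z h2.1).norm
        have h5 : ∀ᶠ y in 𝓝 x, C.r s - ε < ‖C.z s y‖ := by
          refine h4.eventually (lt_mem_nhds ?_)
          show C.r s - ε < ‖C.z s x‖
          rw [h3]
          linarith
        filter_upwards [h5] with y hy _
        linarith
      · have h5 : ∀ᶠ y in 𝓝 x, y ∉ C.K s := (C.isClosed_K s).isOpen_compl.mem_nhds hK
        filter_upwards [h5] with y hy hU
        exact absurd (C.U_sub_K s hU) hy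
    have h3 := (hfin.eventually_all (l := 𝓝 x)).2 hx2
    filter_upwards [h3, hN] with y hy hyN
    rw [dist_zero_right]
    by_cases hy2 : ∃ s, y ∈ C.U s
    · obtain ⟨s, hs⟩ := hy2
      have h6 := hy s ⟨y, C.U_sub_K s hs, hyN⟩ hs
      rw [C.q_eq hs, norm_smul, C.norm_amp hs]
      have h7 := norm_prj_le (C.z s y)
      have h8 := (C.mem_U.1 hs).2
      have h9 := norm_nonneg (prj (C.z s y))
      nlinarith
    · push Not at hy2
      rw [C.q_out hy2, norm_zero]
      exact hε

/-! ### the blow-up -/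

/-- the blow-up as a set of pairs -/
def XS : Set (M × MM n) :=
  {y | (∃ s, y.1 = C.p s ∧ ∃ w : Cn n, w ≠ 0 ∧ y.2 = (C.r s : ℂ) • prj w) ∨
    (y.1 ∉ C.Z ∧ y.2 = C.q y.1)}

/-- the blow-up -/
abbrev X : Type := ↥C.XS

/-- the projection -/
def pi (y : C.X) : M := y.1.1

theorem continuous_pi : Continuous C.pi := continuous_fst.comp continuous_subtype_val

theorem mem_XS_iff {s : C.S} {x : M} (hx : x ∈ C.U s) {Q : MM n} :
    (x, Q) ∈ C.XS ↔ ∃ (w : Cn n) (c : ℂ), w ≠ 0 ∧ C.z s x = c • w ∧ Q = C.amp s x • prj w := by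
  constructor
  · rintro (⟨t, h1, w, hw, h2⟩ | ⟨h1, h2⟩)
    · simp only at h1 h2
      have ht : t = s := C.U_unique (by rw [h1]; exact C.p_mem t) hx
      subst ht
      refine ⟨w, 0, hw, by rw [h1, z_p, zero_smul], ?_⟩
      rw [h2, amp, h1, z_p, norm_zero, sub_zero]
    · simp only at h1 h2
      refine ⟨C.z s x, 1, fun h0 => h1 ((C.mem_Z_iff hx).2 ((C.z_eq_zero hx).1 h0)),
        (one_smul _ _).symm, ?_⟩
      rw [h2, C.q_eq hx]
  · rintro ⟨w, c, hw, hz, rfl⟩
    by_cases hc : c = 0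
    · left
      rw [hc, zero_smul, C.z_eq_zero hx] at hz
      refine ⟨s, hz, w, hw, ?_⟩
      simp only
      rw [amp, hz, z_p, norm_zero, sub_zero]
    · right
      refine ⟨fun h0 => ?_, ?_⟩
      · rw [C.mem_Z_iff hx, ← C.z_eq_zero hx, hz] at h0
        exact (smul_ne_zero hc hw) h0
      · simp only
        rw [C.q_eq hx, hz, prj_smul hc]

theorem exists_coord {s : C.S} {y : C.X} (hy : C.pi y ∈ C.U s) :
    ∃ (w : Cn n) (c : ℂ), w ≠ 0 ∧ C.z s (C.pi y) = c • w ∧ y.1.2 = C.amp s (C.pi y) • prj w :=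
  (C.mem_XS_iff hy).1 y.2

theorem snd_eq {y : C.X} (hy : C.pi y ∉ C.Z) : y.1.2 = C.q (C.pi y) := by
  rcases y.2 with ⟨s, h1, -⟩ | ⟨-, h2⟩
  · exact absurd ⟨s, h1.symm⟩ hy
  · exact h2

/-- points off the exceptional divisor are determined by their image -/
theorem ext_off {y y' : C.X} (h : C.pi y = C.pi y') (hy : C.pi y ∉ C.Z) : y = y' := by
  refine Subtype.ext (Prod.ext h ?_)
  rw [C.snd_eq hy, C.snd_eq (h ▸ hy), h]

variable [NeZero n]

theorem single_ne (a : Fin n) : (EuclideanSpace.single a 1 : Cn n) ≠ 0 := by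
  intro h
  have := congrArg (fun v : Cn n => v a) h
  simp at this

open Classical in
/-- a (discontinuous) section of `pi`, continuous off the centres -/
def lift (x : M) : C.X :=
  if h : x ∈ C.Z then ⟨(C.p h.choose, (C.r h.choose : ℂ) • prj (EuclideanSpace.single 0 1)),
    Or.inl ⟨h.choose, rfl, _, single_ne 0, rfl⟩⟩
  else ⟨(x, C.q x), Or.inr ⟨h, rfl⟩⟩

theorem lift_off {x : M} (h : x ∉ C.Z) : (C.lift x).1 = (x, C.q x) := by
  rw [lift, dif_neg h]

@[simp] theorem pi_lift (x : M) : C.pi (C.lift x) = x := by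
  by_cases h : x ∈ C.Z
  · rw [pi, lift, dif_pos h]
    exact h.choose_spec
  · rw [pi, C.lift_off h]

theorem pi_surjective : Function.Surjective C.pi := fun x => ⟨_, C.pi_lift x⟩

theorem lift_pi {y : C.X} (h : C.pi y ∉ C.Z) : C.lift (C.pi y) = y :=
  C.ext_off (C.pi_lift _) (by rwa [C.pi_lift])

/-- the exceptional divisor -/
def E : Set C.X := C.pi ⁻¹' C.Z

theorem continuousOn_lift [T2Space M] : ContinuousOn C.lift C.Zᶜ := by
  rw [Topology.IsInducing.subtypeVal.continuousOn_iff]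
  have h : ContinuousOn (fun x => (x, C.q x)) C.Zᶜ :=
    continuousOn_id.prodMk fun x hx => (C.continuousAt_q hx).continuousWithinAt
  exact h.congr fun x hx => C.lift_off hx

/-- `pi` off the exceptional divisor -/
def sg [T2Space M] : OpenPartialHomeomorph C.X M where
  toFun := C.pi
  invFun := C.lift
  source := C.pi ⁻¹' C.Zᶜ
  target := C.Zᶜ
  map_source' _ hy := hy
  map_target' x hx := by rw [mem_preimage, C.pi_lift]; exact hx
  left_inv' _ hy := C.lift_pi hy
  right_inv' _ _ := C.pi_lift _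
  open_source := C.isClosed_Z.isOpen_compl.preimage C.continuous_pi
  open_target := C.isClosed_Z.isOpen_compl
  continuousOn_toFun := C.continuous_pi.continuousOn
  continuousOn_invFun := C.continuousOn_lift

/-! ### charts at the exceptional divisor -/

/-- the normalised direction -/
def W (a : Fin n) (u : Cn n) : Cn n := WithLp.toLp 2 fun b => if b = a then 1 else u b

@[simp] theorem W_apply (a : Fin n) (u : Cn n) (b : Fin n) : W a u b = if b = a then 1 else u b := rfl

theorem W_ne (a : Fin n) (u : Cn n) : W a u ≠ 0 := fun h => by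
  have := congrArg (fun v : Cn n => v a) h
  simp at this

theorem differentiable_W (a : Fin n) : Differentiable ℂ (W a : Cn n → Cn n) := by
  rw [differentiable_euclidean]
  intro b
  simp only [W_apply]
  split_ifs
  · exact differentiable_const _
  · fun_prop

theorem differentiable_blow (a : Fin n) : Differentiable ℂ (fun u : Cn n => u a • W a u) := by
  have h : Differentiable ℂ (fun u : Cn n => u a) := by fun_prop
  exact h.smul (differentiable_W a)

/-- the target of the unscaled chart -/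
def T (s : C.S) (a : Fin n) : Set (Cn n) :=
  {u | ‖u a • W a u‖ < C.r s ∧ ∀ b, b ≠ a → ‖u b‖ < 2}

theorem isOpen_T (s : C.S) (a : Fin n) : IsOpen (C.T s a) := by
  have h1 : IsOpen {u : Cn n | ‖u a • W a u‖ < C.r s} :=
    isOpen_lt (differentiable_blow a).continuous.norm continuous_const
  have h2 : IsOpen {u : Cn n | ∀ b, b ≠ a → ‖u b‖ < 2} := by
    simp only [Set.ofPred_forall]
    refine isOpen_iInter_of_finite fun b => isOpen_iInter_of_finite fun _ => ?_
    exact isOpen_lt (by fun_prop) continuous_const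
  exact h1.inter h2

/-- the source of the chart `s, a` -/
def V (s : C.S) (a : Fin n) : Set C.X :=
  {y | C.pi y ∈ C.U s ∧ y.1.2 a a ≠ 0 ∧ ∀ b, b ≠ a → ‖y.1.2 b a‖ < 2 * ‖y.1.2 a a‖}

theorem isOpen_V (s : C.S) (a : Fin n) : IsOpen (C.V s a) := by
  have h1 : IsOpen (C.pi ⁻¹' C.U s) := (C.isOpen_U s).preimage C.continuous_pi
  have hc : ∀ b c, Continuous fun y : C.X => y.1.2 b c := fun b c =>
    (continuous_apply c).comp ((continuous_apply b).comp (continuous_snd.comp continuous_subtype_val))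
  have h2 : IsOpen {y : C.X | y.1.2 a a ≠ 0} := isOpen_ne_fun (hc a a) continuous_const
  have h3 : IsOpen {y : C.X | ∀ b, b ≠ a → ‖y.1.2 b a‖ < 2 * ‖y.1.2 a a‖} := by
    simp only [Set.ofPred_forall]
    refine isOpen_iInter_of_finite fun b => isOpen_iInter_of_finite fun _ => ?_
    exact isOpen_lt (hc b a).norm (continuous_const.mul (hc a a).norm)
  exact h1.inter (h2.inter h3)

/-- the coordinates in the chart `s, a` -/
def co (s : C.S) (a : Fin n) (y : C.X) : Cn n :=
  WithLp.toLp 2 fun b => if b = a then C.z s (C.pi y) a else y.1.2 b a / y.1.2 a a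

theorem co_apply (s : C.S) (a : Fin n) (y : C.X) (b : Fin n) :
    C.co s a y b = if b = a then C.z s (C.pi y) a else y.1.2 b a / y.1.2 a a := rfl

/-- the point with given coordinates -/
def cp (s : C.S) (a : Fin n) (u : Cn n) : M × MM n :=
  (C.pt s (u a • W a u), C.amp s (C.pt s (u a • W a u)) • prj (W a u))

theorem cp_mem {s : C.S} {a : Fin n} {u : Cn n} (hu : u ∈ C.T s a) : C.cp s a u ∈ C.XS :=
  (C.mem_XS_iff (C.pt_mem hu.1)).2 ⟨W a u, u a, W_ne a u, C.z_pt hu.1, rfl⟩

open Classical in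
/-- the inverse of the chart -/
def ci (s : C.S) (a : Fin n) (u : Cn n) : C.X :=
  if h : u ∈ C.T s a then ⟨C.cp s a u, C.cp_mem h⟩ else C.lift (C.p s)

theorem ci_val {s : C.S} {a : Fin n} {u : Cn n} (hu : u ∈ C.T s a) : (C.ci s a u).1 = C.cp s a u := by
  rw [ci, dif_pos hu]

theorem pi_ci {s : C.S} {a : Fin n} {u : Cn n} (hu : u ∈ C.T s a) :
    C.pi (C.ci s a u) = C.pt s (u a • W a u) := by
  rw [pi, C.ci_val hu, cp]

theorem z_ci {s : C.S} {a : Fin n} {u : Cn n} (hu : u ∈ C.T s a) :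
    C.z s (C.pi (C.ci s a u)) = u a • W a u := by
  rw [C.pi_ci hu, C.z_pt hu.1]

theorem snd_ci {s : C.S} {a : Fin n} {u : Cn n} (hu : u ∈ C.T s a) :
    (C.ci s a u).1.2 = C.amp s (C.pi (C.ci s a u)) • prj (W a u) := by
  rw [C.pi_ci hu, C.ci_val hu, cp]

/-- in the chart domain the direction can be normalised -/
theorem exists_W {s : C.S} {a : Fin n} {y : C.X} (hy : C.pi y ∈ C.U s) (h0 : y.1.2 a a ≠ 0) :
    C.z s (C.pi y) = C.co s a y a • W a (C.co s a y) ∧
      y.1.2 = C.amp s (C.pi y) • prj (W a (C.co s a y)) := by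
  obtain ⟨w, c, hw, hz, hq⟩ := C.exists_coord hy
  have hwa : w a ≠ 0 := by
    rw [hq, Pi.smul_apply, Pi.smul_apply, smul_eq_mul, mul_ne_zero_iff, prj_diag_ne hw] at h0
    exact h0.2
  have hW : W a (C.co s a y) = (w a)⁻¹ • w := by
    ext b
    rw [W_apply, co_apply, PiLp.smul_apply, smul_eq_mul]
    split_ifs with hb
    · rw [hb, inv_mul_cancel₀ hwa]
    · rw [hq]
      simp only [Pi.smul_apply, smul_eq_mul]
      rw [mul_div_mul_left _ _ (C.amp_ne hy), prj_div hwa, div_eq_inv_mul]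
  constructor
  · rw [hW, co_apply, if_pos rfl, hz, smul_smul, PiLp.smul_apply, smul_eq_mul, mul_assoc,
      mul_inv_cancel₀ hwa, mul_one]
  · rw [hW, prj_smul (inv_ne_zero hwa), hq]

theorem co_mem {s : C.S} {a : Fin n} {y : C.X} (hy : y ∈ C.V s a) : C.co s a y ∈ C.T s a := by
  obtain ⟨h1, h2, h3⟩ := hy
  refine ⟨?_, fun b hb => ?_⟩
  · rw [← (C.exists_W h1 h2).1]
    exact (C.mem_U.1 h1).2
  · rw [co_apply, if_neg hb, norm_div, div_lt_iff₀ (norm_pos_iff.2 h2)]
    exact h3 b hb

theorem ci_mem {s : C.S} {a : Fin n} {u : Cn n} (hu : u ∈ C.T s a) : C.ci s a u ∈ C.V s a := by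
  have hU : C.pi (C.ci s a u) ∈ C.U s := by
    rw [C.pi_ci hu]
    exact C.pt_mem hu.1
  have hWa : W a u a ≠ 0 := by simp
  have hne : (C.ci s a u).1.2 a a ≠ 0 := by
    rw [C.snd_ci hu, Pi.smul_apply, Pi.smul_apply, smul_eq_mul]
    exact mul_ne_zero (C.amp_ne hU) ((prj_diag_ne (W_ne a u)).2 hWa)
  refine ⟨hU, hne, fun b hb => ?_⟩
  have h1 : (C.ci s a u).1.2 b a = u b * (C.ci s a u).1.2 a a := by
    rw [C.snd_ci hu]
    simp only [Pi.smul_apply, smul_eq_mul]
    have h2 := prj_div hWa b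
    rw [div_eq_iff ((prj_diag_ne (W_ne a u)).2 hWa)] at h2
    rw [h2, W_apply, W_apply, if_neg hb, if_pos rfl, div_one]
    ring
  rw [h1, norm_mul]
  exact mul_lt_mul_of_pos_right (hu.2 b hb) (norm_pos_iff.2 hne)

theorem ci_co {s : C.S} {a : Fin n} {y : C.X} (hy : y ∈ C.V s a) : C.ci s a (C.co s a y) = y := by
  have hu := C.co_mem hy
  obtain ⟨h1, h2⟩ := C.exists_W hy.1 hy.2.1
  have h3 : C.pt s (C.co s a y a • W a (C.co s a y)) = C.pi y := by
    rw [← h1, C.pt_z hy.1]
  refine Subtype.ext ?_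
  rw [C.ci_val hu, cp, h3, ← h2]
  rfl

theorem co_ci {s : C.S} {a : Fin n} {u : Cn n} (hu : u ∈ C.T s a) : C.co s a (C.ci s a u) = u := by
  have hy := C.ci_mem hu
  ext b
  rw [co_apply, C.z_ci hu, C.snd_ci hu]
  split_ifs with hb
  · rw [hb]
    simp
  · simp only [Pi.smul_apply, smul_eq_mul]
    rw [mul_div_mul_left _ _ (C.amp_ne hy.1), prj_div (by simp), W_apply, W_apply, if_neg hb,
      if_pos rfl, div_one]

theorem continuousOn_co (s : C.S) (a : Fin n) : ContinuousOn (C.co s a) (C.V s a) := by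
  intro y hy
  refine ContinuousAt.continuousWithinAt ?_
  have hc : ∀ b c, Continuous fun y : C.X => y.1.2 b c := fun b c =>
    (continuous_apply c).comp ((continuous_apply b).comp (continuous_snd.comp continuous_subtype_val))
  have h : ContinuousAt (fun y : C.X => fun b => if b = a then C.z s (C.pi y) a
      else y.1.2 b a / y.1.2 a a) y := by
    rw [continuousAt_pi]
    intro b
    split_ifs with hb
    · have h1 : ContinuousAt (fun y : C.X => C.z s (C.pi y)) y :=
        ContinuousAt.comp (g := C.z s) (C.continuousAt_z (C.mem_U.1 hy.1).1)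
          C.continuous_pi.continuousAt
      exact ContinuousAt.comp (g := fun v : Cn n => v a) (by fun_prop) h1
    · exact (hc b a).continuousAt.div (hc a a).continuousAt hy.2.1
  exact ContinuousAt.comp (g := WithLp.toLp 2) (PiLp.continuous_toLp 2 _).continuousAt h

theorem continuousOn_ci (s : C.S) (a : Fin n) : ContinuousOn (C.ci s a) (C.T s a) := by
  rw [Topology.IsInducing.subtypeVal.continuousOn_iff]
  have h0 : ContinuousOn (fun u : Cn n => C.pt s (u a • W a u)) (C.T s a) := by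
    refine ContinuousOn.comp (t := (A.e (C.i s)).target) (g := (A.e (C.i s)).symm)
      (A.e (C.i s)).continuousOn_symm ?_ ?_
    · exact (continuous_const.add (differentiable_blow a).continuous).continuousOn
    · intro u hu
      exact C.sub_ball hu.1
  have h1 : ContinuousOn (C.cp s a) (C.T s a) := by
    have h2 : ContinuousOn (fun u : Cn n => C.amp s (C.pt s (u a • W a u))) (C.T s a) := by
      intro u hu
      refine ContinuousAt.comp_continuousWithinAt (g := C.amp s) (f := fun u : Cn n =>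
        C.pt s (u a • W a u)) ?_ (h0 u hu)
      exact C.continuousAt_amp (C.mem_U.1 (C.pt_mem hu.1)).1
    have h3 : ContinuousOn (fun u : Cn n => prj (W a u)) (C.T s a) := by
      intro u _
      exact (ContinuousAt.comp (g := prj) (continuousAt_prj (W_ne a u))
        (differentiable_W a).continuous.continuousAt).continuousWithinAt
    exact h0.prodMk (h2.smul h3)
  exact h1.congr fun u hu => C.ci_val hu

/-- the unscaled chart `s, a` -/
def el (s : C.S) (a : Fin n) : OpenPartialHomeomorph C.X (Cn n) where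
  toFun := C.co s a
  invFun := C.ci s a
  source := C.V s a
  target := C.T s a
  map_source' _ hy := C.co_mem hy
  map_target' _ hu := C.ci_mem hu
  left_inv' _ hy := C.ci_co hy
  right_inv' _ hu := C.co_ci hu
  open_source := C.isOpen_V s a
  open_target := C.isOpen_T s a
  continuousOn_toFun := C.continuousOn_co s a
  continuousOn_invFun := C.continuousOn_ci s a

end Ctr

end

end Crest.Agent.R272.Blup1_102
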