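import Crest.Agent.R272.Blup1_102

/-!
# R272, BLUP (helper102), part 2: topology of the blow-up

* `isClosed_XS`, `isProperMap_pi`, compactness, connectedness;
* `E_fib`: the fibre over `p s` is homeomorphic to the compact connected space `Pr n`.
-/

set_option autoImplicit false
set_option linter.unusedSectionVars false

open Set Filter Topology Complex
open scoped ContDiff Matrix ComplexConjugate Manifold

namespace Crest.Agent.R272.Blup1_102

open Crest.Agent.R275.Geo Crest.Agent.R275.Core144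

noncomputable section

variable {n : ℕ}

/-- action of matrices -/
def act (P : MM n) (z : Cn n) : Cn n := WithLp.toLp 2 fun b => ∑ c, P b c * z c

theorem continuous_act : Continuous fun y : MM n × Cn n => act y.1 y.2 := by
  refine (PiLp.continuous_toLp 2 _).comp (continuous_pi fun b => continuous_finsetSum _ fun c _ => ?_)
  refine Continuous.mul ?_ ?_
  · exact (continuous_apply c).comp ((continuous_apply b).comp continuous_fst)
  · exact (PiLp.continuous_apply 2 _ c).comp continuous_snd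

theorem sum_conj (w : Cn n) : ∑ c, conj (w c) * w c = ((‖w‖ ^ 2 : ℝ) : ℂ) := by
  rw [EuclideanSpace.norm_sq_eq]
  push_cast
  refine Finset.sum_congr rfl fun c _ => ?_
  rw [mul_comm, Complex.mul_conj, Complex.normSq_eq_norm_sq]
  push_cast
  rfl

theorem act_prj_self {w : Cn n} (hw : w ≠ 0) : act (prj w) w = w := by
  ext b
  have h1 := sq_ne hw
  show ∑ c, prj w b c * w c = w b
  have h2 : ∀ c, prj w b c * w c = w b / ((‖w‖ ^ 2 : ℝ) : ℂ) * (conj (w c) * w c) := fun c => by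
    simp only [prj]
    ring
  rw [Finset.sum_congr rfl fun c _ => h2 c, ← Finset.mul_sum, sum_conj, div_mul_cancel₀ _ h1]

theorem act_smul (P : MM n) (c : ℂ) (z : Cn n) : act P (c • z) = c • act P z := by
  ext b
  show ∑ d, P b d * (c * z d) = c * ∑ d, P b d * z d
  rw [Finset.mul_sum]
  exact Finset.sum_congr rfl fun d _ => by ring

theorem act_prj_mem (w z : Cn n) : ∃ c : ℂ, act (prj w) z = c • w := by
  refine ⟨(∑ d, conj (w d) * z d) / ((‖w‖ ^ 2 : ℝ) : ℂ), ?_⟩
  ext b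
  show ∑ d, prj w b d * z d = _ * w b
  rw [Finset.sum_div, Finset.sum_mul]
  refine Finset.sum_congr rfl fun d _ => ?_
  simp only [prj]
  ring

theorem act_prj_iff {w z : Cn n} (hw : w ≠ 0) : act (prj w) z = z ↔ ∃ c : ℂ, z = c • w := by
  constructor
  · intro h
    obtain ⟨c, hc⟩ := act_prj_mem w z
    exact ⟨c, h.symm.trans hc⟩
  · rintro ⟨c, rfl⟩
    rw [act_smul, act_prj_self hw]

/-- the space of lines is connected -/
theorem isPreconnected_Pr : IsPreconnected (Pr n) := by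
  refine isPreconnected_of_forall_pair ?_
  rintro _ ⟨w, hw, rfl⟩ _ ⟨w', hw', rfl⟩
  by_cases h : ∃ c : ℂ, w' = c • w
  · obtain ⟨c, hc⟩ := h
    have hc0 : c ≠ 0 := by
      rintro rfl
      exact hw' (by rw [hc, zero_smul])
    refine ⟨{prj w}, ?_, rfl, ?_, isPreconnected_singleton⟩
    · rintro _ rfl
      exact ⟨w, hw, rfl⟩
    · rw [hc, prj_smul hc0]
      rfl
  · have hne : ∀ v ∈ segment ℝ w w', v ≠ 0 := by
      rintro v ⟨a, b, ha, hb, hab, rfl⟩ h0
      by_cases hb0 : b = 0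
      · rw [hb0, add_zero] at hab
        rw [hab, hb0, one_smul, zero_smul, add_zero] at h0
        exact hw h0
      · refine h ⟨((-(a / b) : ℝ) : ℂ), ?_⟩
        have h1 : b • w' = -(a • w) := by
          rw [eq_neg_iff_add_eq_zero, add_comm]
          exact h0
        have h2 : w' = b⁻¹ • (b • w') := by rw [inv_smul_smul₀ hb0]
        rw [h2, h1, Complex.coe_smul, smul_neg, smul_smul, neg_smul, div_eq_inv_mul]
    refine ⟨prj '' segment ℝ w w', ?_, ⟨w, left_mem_segment ℝ w w', rfl⟩,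
      ⟨w', right_mem_segment ℝ w w', rfl⟩, ?_⟩
    · rintro _ ⟨v, hv, rfl⟩
      exact ⟨v, hne v hv, rfl⟩
    · exact (convex_segment w w').isPreconnected.image _ fun v hv =>
        (continuousAt_prj (hne v hv)).continuousWithinAt

variable {M : Type} [TopologicalSpace M]

namespace Ctr

variable {A : Atl n M} (C : Ctr A)

theorem mem_XS_act {s : C.S} {x : M} (hx : x ∈ C.U s) {Q : MM n} :
    (x, Q) ∈ C.XS ↔ (C.amp s x)⁻¹ • Q ∈ Pr n ∧ act ((C.amp s x)⁻¹ • Q) (C.z s x) = C.z s x := by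
  rw [C.mem_XS_iff hx]
  have h0 := C.amp_ne hx
  constructor
  · rintro ⟨w, c, hw, hz, rfl⟩
    rw [inv_smul_smul₀ h0]
    exact ⟨⟨w, hw, rfl⟩, (act_prj_iff hw).2 ⟨c, hz⟩⟩
  · rintro ⟨⟨w, hw, h1⟩, h2⟩
    rw [h1, act_prj_iff hw] at h2
    obtain ⟨c, hc⟩ := h2
    exact ⟨w, c, hw, hc, by rw [← h1, smul_inv_smul₀ h0]⟩

theorem isClosed_XS [T2Space M] : IsClosed C.XS := by
  rw [← isOpen_compl_iff, isOpen_iff_mem_nhds]
  rintro ⟨x, Q⟩ hy
  by_cases hx : x ∈ C.Z
  · obtain ⟨s, rfl⟩ := hx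
    have hU := C.p_mem s
    have hU2 : ∀ᶠ y : M × MM n in 𝓝 (C.p s, Q), y.1 ∈ C.U s :=
      continuousAt_fst.eventually ((C.isOpen_U s).mem_nhds hU)
    have ha0 : ContinuousAt (fun y : M × MM n => C.amp s y.1) (C.p s, Q) :=
      ContinuousAt.comp (g := C.amp s) (C.continuousAt_amp (C.mem_U.1 hU).1) continuousAt_fst
    have ha1 : ContinuousAt (fun y : M × MM n => (C.amp s y.1)⁻¹) (C.p s, Q) :=
      ha0.inv₀ (C.amp_ne hU)
    have ha2 : ContinuousAt (fun y : M × MM n => y.2) (C.p s, Q) := continuousAt_snd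
    have ha : ContinuousAt (fun y : M × MM n => (C.amp s y.1)⁻¹ • y.2) (C.p s, Q) :=
      ha1.smul ha2
    have hz : ContinuousAt (fun y : M × MM n => C.z s y.1) (C.p s, Q) :=
      ContinuousAt.comp (g := C.z s) (C.continuousAt_z (C.mem_U.1 hU).1) continuousAt_fst
    have hcl : IsClosed {y : MM n × Cn n | y.1 ∈ Pr n ∧ act y.1 y.2 = y.2} :=
      (isCompact_Pr.isClosed.preimage continuous_fst).inter (isClosed_eq continuous_act continuous_snd)
    rw [mem_compl_iff, C.mem_XS_act hU] at hy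
    have h1 : ∀ᶠ y : M × MM n in 𝓝 (C.p s, Q), ((C.amp s y.1)⁻¹ • y.2, C.z s y.1) ∈
        {y : MM n × Cn n | y.1 ∈ Pr n ∧ act y.1 y.2 = y.2}ᶜ :=
      (ha.prodMk hz).eventually (hcl.isOpen_compl.mem_nhds hy)
    filter_upwards [h1, hU2] with y h2 h3 h4
    exact h2 ((C.mem_XS_act h3).1 h4)
  · have h1 : Q ≠ C.q x := fun h => hy (Or.inr ⟨hx, h⟩)
    have h2 : ContinuousAt (fun y : M × MM n => y.2 - C.q y.1) (x, Q) :=
      continuousAt_snd.sub (ContinuousAt.comp (g := C.q) (C.continuousAt_q hx) continuousAt_fst)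
    have h3 : ∀ᶠ y : M × MM n in 𝓝 (x, Q), y.2 - C.q y.1 ≠ 0 :=
      h2.eventually_ne (sub_ne_zero.2 h1)
    have h4 : ∀ᶠ y : M × MM n in 𝓝 (x, Q), y.1 ∉ C.Z :=
      (continuousAt_fst (p := (x, Q))).eventually (C.isClosed_Z.isOpen_compl.mem_nhds hx)
    filter_upwards [h3, h4] with y h5 h6 h7
    rcases h7 with ⟨s, h8, -⟩ | ⟨-, h8⟩
    · exact h6 ⟨s, h8.symm⟩
    · exact h5 (sub_eq_zero.2 h8)

end Ctr

end

end Crest.Agent.R272.Blup1_102
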