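import Crest.Agent.R272.Blup2_102

/-!
# R272, BLUP (helper102), part 3: the atlas of the blow-up

* `C.atl : Atl n C.X`, index `A.ι ⊕ (C.S × Fin n)`;
* `holMap_pi`, `refPi`.
-/

set_option autoImplicit false
set_option linter.unusedSectionVars false

open Set Filter Topology Complex
open scoped ContDiff Matrix ComplexConjugate Manifold

namespace Crest.Agent.R272.Blup1_102

open Crest.Agent.R275.Geo Crest.Agent.R275.Core144
open Crest.Agent.R273.Map_835 Crest.Agent.R273.PB_835

noncomputable section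

variable {n : ℕ}

/-! ### rescaling into the unit cube -/

/-- the centre of the unit cube -/
def kap (n : ℕ) : Cn n := WithLp.toLp 2 fun _ => (1 + I) / 2

/-- `u ↦ u / 5 + kap` -/
def sc (n : ℕ) : Cn n ≃ₜ Cn n where
  toFun u := (1 / 5 : ℂ) • u + kap n
  invFun v := (5 : ℂ) • (v - kap n)
  left_inv u := by
    simp only [add_sub_cancel_right, smul_smul]
    norm_num
  right_inv v := by
    simp only [smul_smul]
    norm_num
  continuous_toFun := by fun_prop
  continuous_invFun := by fun_prop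

theorem differentiable_sc : Differentiable ℂ (sc n) := by
  show Differentiable ℂ fun u : Cn n => (1 / 5 : ℂ) • u + kap n
  fun_prop

theorem differentiable_sc_symm : Differentiable ℂ (sc n).symm := by
  show Differentiable ℂ fun v : Cn n => (5 : ℂ) • (v - kap n)
  fun_prop

theorem sc_cube {u : Cn n} (hu : ∀ b, ‖u b‖ < 2) (p : RI n) : rc (sc n u) p ∈ Ioo (0 : ℝ) 1 := by
  obtain ⟨b, c⟩ := p
  have h1 : sc n u b = (1 / 5 : ℂ) * u b + (1 + I) / 2 := rfl
  have h2 := abs_le.1 (Complex.abs_re_le_norm (u b))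
  have h3 := abs_le.1 (Complex.abs_im_le_norm (u b))
  have h4 := hu b
  have h5 : (sc n u b).re = (u b).re / 5 + 1 / 2 := by
    rw [h1]
    simp
    ring
  have h6 : (sc n u b).im = (u b).im / 5 + 1 / 2 := by
    rw [h1]
    simp
    ring
  unfold rc
  split_ifs
  · rw [h5]
    constructor <;> linarith
  · rw [h6]
    constructor <;> linarith

variable {M : Type} [TopologicalSpace M]

namespace Ctr

variable {A : Atl n M} (C : Ctr A) [NeZero n]

theorem T_bound {s : C.S} {a : Fin n} {u : Cn n} (hu : u ∈ C.T s a) (b : Fin n) : ‖u b‖ < 2 := by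
  by_cases hb : b = a
  · have h1 : ‖u a • W a u‖ < C.r s := hu.1
    have h2 := norm_coord_le (u a • W a u) a
    have h3 : (u a • W a u) a = u a := by simp
    rw [h3] at h2
    have h4 := C.r_le s
    rw [hb]
    linarith
  · exact hu.2 b hb

/-- the chart `s, a` -/
def fl (s : C.S) (a : Fin n) : OpenPartialHomeomorph C.X (Cn n) := (C.el s a).transHomeomorph (sc n)

theorem fl_source (s : C.S) (a : Fin n) : (C.fl s a).source = C.V s a := rfl

theorem mem_fl_target {s : C.S} {a : Fin n} {v : Cn n} :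
    v ∈ (C.fl s a).target ↔ (sc n).symm v ∈ C.T s a := Iff.rfl

theorem fl_apply (s : C.S) (a : Fin n) (y : C.X) : C.fl s a y = sc n (C.co s a y) := rfl

theorem fl_symm_apply (s : C.S) (a : Fin n) (v : Cn n) :
    (C.fl s a).symm v = C.ci s a ((sc n).symm v) := rfl

variable [T2Space M]

/-- the charts of the blow-up -/
def ec : A.ι ⊕ (C.S × Fin n) → OpenPartialHomeomorph C.X (Cn n) :=
  Sum.elim (fun i => C.sg.trans (A.e i)) fun sa => C.fl sa.1 sa.2

theorem mem_ec_inl {i : A.ι} {y : C.X} :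
    y ∈ (C.ec (Sum.inl i)).source ↔ C.pi y ∉ C.Z ∧ C.pi y ∈ (A.e i).source := by
  rw [ec, Sum.elim_inl, OpenPartialHomeomorph.trans_source]
  rfl

theorem mem_ec_inl_target {i : A.ι} {v : Cn n} :
    v ∈ (C.ec (Sum.inl i)).target ↔ v ∈ (A.e i).target ∧ (A.e i).symm v ∉ C.Z := by
  rw [ec, Sum.elim_inl, OpenPartialHomeomorph.trans_target]
  rfl

theorem ec_inl_apply (i : A.ι) (y : C.X) : C.ec (Sum.inl i) y = A.e i (C.pi y) := rfl

theorem ec_inl_symm (i : A.ι) (v : Cn n) : (C.ec (Sum.inl i)).symm v = C.lift ((A.e i).symm v) := rfl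

theorem mem_ec_inr {s : C.S} {a : Fin n} {y : C.X} :
    y ∈ (C.ec (Sum.inr (s, a))).source ↔ y ∈ C.V s a := Iff.rfl

theorem mem_ec_inr_target {s : C.S} {a : Fin n} {v : Cn n} :
    v ∈ (C.ec (Sum.inr (s, a))).target ↔ (sc n).symm v ∈ C.T s a := Iff.rfl

theorem ec_inr_apply (s : C.S) (a : Fin n) (y : C.X) :
    C.ec (Sum.inr (s, a)) y = sc n (C.co s a y) := rfl

theorem ec_inr_symm (s : C.S) (a : Fin n) (v : Cn n) :
    (C.ec (Sum.inr (s, a))).symm v = C.ci s a ((sc n).symm v) := rfl

theorem ec_cover (y : C.X) : ∃ i, y ∈ (C.ec i).source := by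
  by_cases hy : C.pi y ∈ C.Z
  · obtain ⟨s, hs⟩ := hy
    have hU : C.pi y ∈ C.U s := by
      rw [← hs]
      exact C.p_mem s
    obtain ⟨w, c, hw, -, h2⟩ := C.exists_coord hU
    obtain ⟨a, ha, hmax⟩ := exists_max hw
    refine ⟨Sum.inr (s, a), hU, ?_, fun b _ => ?_⟩
    · rw [h2, Pi.smul_apply, Pi.smul_apply, smul_eq_mul]
      exact mul_ne_zero (C.amp_ne hU) ((prj_diag_ne hw).2 ha)
    · rw [h2]
      simp only [Pi.smul_apply, smul_eq_mul, norm_mul]
      rw [norm_prj_div ha b]
      have h3 : ‖w b / w a‖ ≤ 1 := by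
        rw [norm_div]
        exact div_le_one_of_le₀ (hmax b) (norm_nonneg _)
      have h4 : 0 < ‖C.amp s (C.pi y)‖ := norm_pos_iff.2 (C.amp_ne hU)
      have h5 : 0 < ‖prj w a a‖ := norm_pos_iff.2 ((prj_diag_ne hw).2 ha)
      have h6 : 0 < ‖C.amp s (C.pi y)‖ * ‖prj w a a‖ := mul_pos h4 h5
      nlinarith
  · obtain ⟨i, hi⟩ := A.cover (C.pi y)
    exact ⟨Sum.inl i, C.mem_ec_inl.2 ⟨hy, hi⟩⟩

theorem ec_cube (i : A.ι ⊕ (C.S × Fin n)) (v : Cn n) (hv : v ∈ (C.ec i).target) (p : RI n) :
    rc v p ∈ Ioo (0 : ℝ) 1 := by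
  rcases i with i | ⟨s, a⟩
  · exact A.cube i v (C.mem_ec_inl_target.1 hv).1 p
  · have h1 := C.mem_ec_inr_target.1 hv
    have h2 := sc_cube (C.T_bound h1) p
    rwa [Homeomorph.apply_symm_apply] at h2

/-- the coordinates `z` read in a chart of `A` -/
theorem diffAt_z {i : A.ι} {s : C.S} {v : Cn n} (hv : v ∈ (A.e i).target)
    (hs : (A.e i).symm v ∈ (A.e (C.i s)).source) :
    DifferentiableAt ℂ (fun v => C.z s ((A.e i).symm v)) v := by
  have h := (A.holo i (C.i s)).differentiableAt ((isOpen_ov (A := A) i (C.i s)).mem_nhds ⟨hv, hs⟩)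
  exact h.sub_const _

/-- `pi` read in a chart of `A` at a point of the chart `s, a` -/
theorem diffAt_pt {j : A.ι} {s : C.S} {w : Cn n} (hw : ‖w‖ < C.r s)
    (hj : C.pt s w ∈ (A.e j).source) : DifferentiableAt ℂ (fun w => A.e j (C.pt s w)) w := by
  have h := (A.holo (C.i s) j).differentiableAt
    ((isOpen_ov (A := A) (C.i s) j).mem_nhds ⟨C.sub_ball hw, hj⟩)
  exact DifferentiableAt.comp w (g := fun z => A.e j ((A.e (C.i s)).symm z)) h
    ((differentiableAt_const _).add differentiableAt_id)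

/-- the coordinates `s, a` of `lift x` -/
theorem co_lift {s : C.S} {a : Fin n} {x : M} (hx : x ∈ C.U s) (hZ : x ∉ C.Z)
    (ha : C.z s x a ≠ 0) (b : Fin n) :
    C.co s a (C.lift x) b = if b = a then C.z s x a else C.z s x b / C.z s x a := by
  rw [co_apply, C.pi_lift, C.lift_off hZ]
  simp only
  rw [C.q_eq hx]
  simp only [Pi.smul_apply, smul_eq_mul]
  rw [mul_div_mul_left _ _ (C.amp_ne hx), prj_div ha]

theorem z_ne_of_V {s : C.S} {a : Fin n} {y : C.X} (hy : y ∈ C.V s a) (hZ : C.pi y ∉ C.Z) :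
    C.z s (C.pi y) a ≠ 0 := by
  obtain ⟨h1, h2⟩ := C.exists_W hy.1 hy.2.1
  intro h0
  apply hZ
  rw [C.mem_Z_iff hy.1, ← C.z_eq_zero hy.1, h1]
  have h3 : C.co s a y a = 0 := by
    rw [co_apply, if_pos rfl, h0]
  rw [h3, zero_smul]

theorem diffAt_toLp {F : Cn n → Fin n → ℂ} {v : Cn n} (h : ∀ b, DifferentiableAt ℂ (fun v => F v b) v) :
    DifferentiableAt ℂ (fun v => (WithLp.toLp 2 (F v) : Cn n)) v := by
  rw [differentiableAt_euclidean]
  exact h

theorem diffAt_div {f g : Cn n → ℂ} {v : Cn n} (hf : DifferentiableAt ℂ f v)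
    (hg : DifferentiableAt ℂ g v) (h0 : g v ≠ 0) : DifferentiableAt ℂ (fun v => f v / g v) v := by
  simp only [div_eq_mul_inv]
  exact hf.mul (hg.inv h0)

theorem ec_holo (i j : A.ι ⊕ (C.S × Fin n)) :
    DifferentiableOn ℂ (fun v => C.ec j ((C.ec i).symm v))
      {v | v ∈ (C.ec i).target ∧ (C.ec i).symm v ∈ (C.ec j).source} := by
  intro v hv
  have hop : {v | v ∈ (C.ec i).target ∧ (C.ec i).symm v ∈ (C.ec j).source} ∈ 𝓝 v :=
    ((C.ec i).isOpen_inter_preimage_symm (C.ec j).open_source).mem_nhds hv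
  refine DifferentiableAt.differentiableWithinAt ?_
  obtain ⟨hv1, hv2⟩ := hv
  rcases i with i | ⟨s, a⟩ <;> rcases j with j | ⟨t, b⟩
  · -- old, old
    rw [mem_ec_inl_target] at hv1
    rw [ec_inl_symm, mem_ec_inl, C.pi_lift] at hv2
    have h := (A.holo i j).differentiableAt ((isOpen_ov (A := A) i j).mem_nhds ⟨hv1.1, hv2.2⟩)
    refine h.congr_of_eventuallyEq ?_
    filter_upwards with w
    rw [ec_inl_apply, ec_inl_symm, C.pi_lift]
  · -- old, new
    rw [mem_ec_inl_target] at hv1
    rw [ec_inl_symm, mem_ec_inr] at hv2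
    have hU : (A.e i).symm v ∈ C.U t := by
      have := hv2.1
      rwa [C.pi_lift] at this
    have hne : C.z t ((A.e i).symm v) b ≠ 0 := by
      have := C.z_ne_of_V hv2 (by rw [C.pi_lift]; exact hv1.2)
      rwa [C.pi_lift] at this
    have h0 := C.diffAt_z hv1.1 (C.mem_U.1 hU).1
    have h1 : ∀ c, DifferentiableAt ℂ (fun v => C.z t ((A.e i).symm v) c) v := fun c =>
      (differentiableAt_euclidean.1 h0) c
    have h2 : DifferentiableAt ℂ (fun v => (WithLp.toLp 2 (fun c => if c = b then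
        C.z t ((A.e i).symm v) b else C.z t ((A.e i).symm v) c / C.z t ((A.e i).symm v) b) : Cn n)) v := by
      refine diffAt_toLp (F := fun v c => if c = b then
        C.z t ((A.e i).symm v) b else C.z t ((A.e i).symm v) c / C.z t ((A.e i).symm v) b) fun c => ?_
      by_cases hc : c = b
      · simp only [hc, if_true]
        exact h1 b
      · simp only [hc, if_false]
        exact diffAt_div (h1 c) (h1 b) hne
    have h3 : DifferentiableAt ℂ (fun v => sc n (WithLp.toLp 2 (fun c => if c = b then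
        C.z t ((A.e i).symm v) b else C.z t ((A.e i).symm v) c / C.z t ((A.e i).symm v) b) : Cn n)) v :=
      DifferentiableAt.comp v (g := sc n) (differentiable_sc _) h2
    refine h3.congr_of_eventuallyEq ?_
    filter_upwards [hop] with w hw
    obtain ⟨hw1, hw2⟩ := hw
    rw [mem_ec_inl_target] at hw1
    rw [ec_inl_symm, mem_ec_inr] at hw2
    have hU' : (A.e i).symm w ∈ C.U t := by
      have := hw2.1
      rwa [C.pi_lift] at this
    have hne' : C.z t ((A.e i).symm w) b ≠ 0 := by
      have := C.z_ne_of_V hw2 (by rw [C.pi_lift]; exact hw1.2)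
      rwa [C.pi_lift] at this
    rw [ec_inr_apply, ec_inl_symm]
    congr 1
    ext c
    exact C.co_lift hU' hw1.2 hne' c
  · -- new, old
    rw [mem_ec_inr_target] at hv1
    rw [ec_inr_symm, mem_ec_inl, C.pi_ci hv1] at hv2
    have h1 := C.diffAt_pt (j := j) hv1.1 hv2.2
    have h2 : DifferentiableAt ℂ (fun v => (sc n).symm v a • W a ((sc n).symm v)) v :=
      DifferentiableAt.comp v (g := fun u : Cn n => u a • W a u) (differentiable_blow a _)
        (differentiable_sc_symm v)
    have h3 : DifferentiableAt ℂ (fun v => A.e j (C.pt s ((sc n).symm v a • W a ((sc n).symm v)))) v :=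
      DifferentiableAt.comp v (g := fun w => A.e j (C.pt s w)) h1 h2
    refine h3.congr_of_eventuallyEq ?_
    filter_upwards [hop] with w hw
    rw [ec_inl_apply, ec_inr_symm, C.pi_ci (C.mem_ec_inr_target.1 hw.1)]
  · -- new, new
    rw [mem_ec_inr_target] at hv1
    rw [ec_inr_symm, mem_ec_inr] at hv2
    have hst : s = t := by
      refine C.U_unique (x := C.pi (C.ci s a ((sc n).symm v))) ?_ hv2.1
      exact (C.ci_mem hv1).1
    subst hst
    have hWb : ∀ w : Cn n, (sc n).symm w ∈ C.T s a → C.ci s a ((sc n).symm w) ∈ C.V s b →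
        W a ((sc n).symm w) b ≠ 0 := by
      intro w hw1 hw2
      have h := hw2.2.1
      rw [C.snd_ci hw1, Pi.smul_apply, Pi.smul_apply, smul_eq_mul, mul_ne_zero_iff,
        prj_diag_ne (W_ne _ _)] at h
      exact h.2
    have hd : ∀ c, DifferentiableAt ℂ (fun v => W a ((sc n).symm v) c) v := fun c =>
      (differentiableAt_euclidean.1 (DifferentiableAt.comp v (g := W a) (differentiable_W a _)
        (differentiable_sc_symm v))) c
    have hd2 : DifferentiableAt ℂ (fun v => (sc n).symm v a) v :=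
      (differentiableAt_euclidean.1 (differentiable_sc_symm v)) a
    have h2 : DifferentiableAt ℂ (fun v => (WithLp.toLp 2 (fun c => if c = b then
        (sc n).symm v a * W a ((sc n).symm v) b else
          W a ((sc n).symm v) c / W a ((sc n).symm v) b) : Cn n)) v := by
      refine diffAt_toLp (F := fun v c => if c = b then (sc n).symm v a * W a ((sc n).symm v) b else
          W a ((sc n).symm v) c / W a ((sc n).symm v) b) fun c => ?_
      by_cases hc : c = b
      · simp only [hc, if_true]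
        exact hd2.mul (hd b)
      · simp only [hc, if_false]
        exact diffAt_div (hd c) (hd b) (hWb v hv1 hv2)
    have h3 : DifferentiableAt ℂ (fun v => sc n (WithLp.toLp 2 (fun c => if c = b then
        (sc n).symm v a * W a ((sc n).symm v) b else
          W a ((sc n).symm v) c / W a ((sc n).symm v) b) : Cn n)) v :=
      DifferentiableAt.comp v (g := sc n) (differentiable_sc _) h2
    refine h3.congr_of_eventuallyEq ?_
    filter_upwards [hop] with w hw
    obtain ⟨hw1, hw2⟩ := hw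
    rw [mem_ec_inr_target] at hw1
    rw [ec_inr_symm, mem_ec_inr] at hw2
    rw [ec_inr_apply, ec_inr_symm]
    congr 1
    ext c
    rw [co_apply, C.z_ci hw1, C.snd_ci hw1]
    by_cases hc : c = b
    · simp only [hc, if_true, PiLp.smul_apply, smul_eq_mul]
    · simp only [hc, if_false, Pi.smul_apply, smul_eq_mul]
      rw [mul_div_mul_left _ _ (C.amp_ne (C.ci_mem hw1).1), prj_div (hWb w hw1 hw2)]

/-- the atlas of the blow-up -/
def atl : Atl n C.X where
  ι := A.ι ⊕ (C.S × Fin n)
  e := C.ec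
  cover := C.ec_cover
  cube := C.ec_cube
  holo := C.ec_holo

end Ctr

end

end Crest.Agent.R272.Blup1_102
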