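import Crest.Agent.R272.Blup4_102

/-!
# R272, BLUP (helper102), part 5: the bundles `O(k E)` and their sections

* `OE k : LB C.atl`, `k : C.S → ℤ`, `OE_add`, `OE_neg`, `OE_zsmul`;
* `ese k`, `k : C.S → ℕ`: the section of `OE k` with divisor `k E`.
-/

set_option autoImplicit false
set_option linter.unusedSectionVars false

open Set Filter Topology Complex
open scoped ContDiff Matrix ComplexConjugate Manifold

namespace Crest.Agent.R272.Blup1_102

open Crest.Agent.R275.Geo Crest.Agent.R275.Core144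
open Crest.Agent.R273.Map_835 Crest.Agent.R273.PB_835

noncomputable section

variable {n : ℕ} [NeZero n] {M : Type} [TopologicalSpace M] [T2Space M] {A : Atl n M}

namespace Ctr

variable (C : Ctr A)

open Classical in
/-- a direction vector at `y` (`= z` off the exceptional divisor) -/
def dv (s : C.S) (y : C.X) : Cn n :=
  if C.pi y ∈ C.Z then
    if h : C.pi y ∈ C.U s then (C.exists_coord h).choose else 0
  else C.z s (C.pi y)

theorem dv_off {s : C.S} {y : C.X} (hy : C.pi y ∉ C.Z) : C.dv s y = C.z s (C.pi y) := by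
  rw [dv, if_neg hy]

theorem dv_spec {s : C.S} {y : C.X} (hy : C.pi y ∈ C.U s) :
    C.dv s y ≠ 0 ∧ (∃ c : ℂ, C.z s (C.pi y) = c • C.dv s y) ∧
      y.1.2 = C.amp s (C.pi y) • prj (C.dv s y) := by
  by_cases h : C.pi y ∈ C.Z
  · rw [dv, if_pos h, dif_pos hy]
    obtain ⟨c, h1, h2, h3⟩ := (C.exists_coord hy).choose_spec
    exact ⟨h1, ⟨c, h2⟩, h3⟩
  · rw [C.dv_off h]
    refine ⟨fun h0 => h ((C.mem_Z_iff hy).2 ((C.z_eq_zero hy).1 h0)), ⟨1, (one_smul _ _).symm⟩, ?_⟩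
    rw [C.snd_eq h, C.q_eq hy]

theorem dv_ne {s : C.S} {a : Fin n} {y : C.X} (hy : y ∈ C.V s a) : C.dv s y a ≠ 0 := by
  obtain ⟨h1, -, h3⟩ := C.dv_spec hy.1
  have h4 := hy.2.1
  rw [h3, Pi.smul_apply, Pi.smul_apply, smul_eq_mul, mul_ne_zero_iff, prj_diag_ne h1] at h4
  exact h4.2

/-- ratios of the direction vector -/
theorem dv_div {s : C.S} {a : Fin n} {y : C.X} (hy : y ∈ C.V s a) (b : Fin n) :
    C.dv s y b / C.dv s y a = W a (C.co s a y) b := by
  obtain ⟨h1, -, h3⟩ := C.dv_spec hy.1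
  rw [W_apply]
  split_ifs with hb
  · rw [hb, div_self (C.dv_ne hy)]
  · rw [co_apply, if_neg hb, h3]
    simp only [Pi.smul_apply, smul_eq_mul]
    rw [mul_div_mul_left _ _ (C.amp_ne hy.1), prj_div (C.dv_ne hy)]

/-- the frames -/
def fr (k : C.S → ℤ) (i : A.ι ⊕ (C.S × Fin n)) (y : C.X) : ℂ :=
  Sum.elim (fun _ => 1) (fun sa => (C.dv sa.1 y sa.2) ^ (k sa.1)) i

@[simp] theorem fr_inl (k : C.S → ℤ) (i : A.ι) (y : C.X) : C.fr k (Sum.inl i) y = 1 := rfl

@[simp] theorem fr_inr (k : C.S → ℤ) (s : C.S) (a : Fin n) (y : C.X) :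
    C.fr k (Sum.inr (s, a)) y = (C.dv s y a) ^ (k s) := rfl

theorem fr_ne (k : C.S → ℤ) {i : A.ι ⊕ (C.S × Fin n)} {y : C.X} (hy : y ∈ (C.ec i).source) :
    C.fr k i y ≠ 0 := by
  rcases i with i | ⟨s, a⟩
  · exact one_ne_zero
  · exact zpow_ne_zero _ (C.dv_ne (C.mem_ec_inr.1 hy))

theorem diffAt_zpow {f : Cn n → ℂ} {v : Cn n} (hf : DifferentiableAt ℂ f v) (h0 : f v ≠ 0)
    (k : ℤ) : DifferentiableAt ℂ (fun v => f v ^ k) v :=
  DifferentiableAt.comp v (g := fun w : ℂ => w ^ k) (differentiableAt_zpow.2 (Or.inl h0)) hf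

theorem hol_fr (k : C.S → ℤ) (i j : A.ι ⊕ (C.S × Fin n)) :
    HolAt C.atl i (C.atl.e j).source (fun y => C.fr k i y / C.fr k j y) := by
  rcases i with i | ⟨s, a⟩ <;> rcases j with j | ⟨t, b⟩
  · exact (holAt_const 1).congr fun x _ _ => by simp
  · rw [holAt_inl]
    intro v hv
    obtain ⟨h1, h2, h3⟩ := hv
    have hV : C.lift ((A.e i).symm v) ∈ C.V t b := C.mem_ec_inr.1 h3
    have hU : (A.e i).symm v ∈ C.U t := by
      have := hV.1
      rwa [C.pi_lift] at this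
    have h0 : C.z t ((A.e i).symm v) b ≠ 0 := by
      have := C.z_ne_of_V hV (by rwa [C.pi_lift])
      rwa [C.pi_lift] at this
    have h4 := (differentiableAt_euclidean.1 (C.diffAt_z (s := t) h1 (C.mem_U.1 hU).1)) b
    have h5 : DifferentiableAt ℂ (fun v => 1 / (C.z t ((A.e i).symm v) b) ^ (k t)) v :=
      diffAt_div (differentiableAt_const _) (diffAt_zpow h4 h0 _) (zpow_ne_zero _ h0)
    refine (h5.differentiableWithinAt (s := {v | v ∈ (A.e i).target ∧ (A.e i).symm v ∉ C.Z ∧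
      C.lift ((A.e i).symm v) ∈ (C.atl.e (Sum.inr (t, b))).source})).congr (fun w hw => ?_) ?_
    · rw [fr_inl, fr_inr, C.dv_off (by rw [C.pi_lift]; exact hw.2.1), C.pi_lift]
    · rw [fr_inl, fr_inr, C.dv_off (by rw [C.pi_lift]; exact h2), C.pi_lift]
  · rw [holAt_inr]
    intro u hu
    obtain ⟨h1, h2⟩ := hu
    have key : ∀ w ∈ C.T s a ∩ C.ci s a ⁻¹' (C.atl.e (Sum.inl j)).source, w a ≠ 0 ∧
        C.fr k (Sum.inr (s, a)) (C.ci s a w) / C.fr k (Sum.inl j) (C.ci s a w) = (w a) ^ (k s) := by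
      rintro w ⟨h3, h4⟩
      have h5 := (C.mem_ec_inl.1 h4).1
      have h6 : C.z s (C.pi (C.ci s a w)) a = w a := by
        rw [C.z_ci h3]
        simp
      refine ⟨?_, ?_⟩
      · rw [← h6]
        exact C.z_ne_of_V (C.ci_mem h3) h5
      · rw [fr_inl, fr_inr, C.dv_off h5, h6, div_one]
    have h7 : DifferentiableAt ℂ (fun u : Cn n => u a ^ (k s)) u :=
      diffAt_zpow (by fun_prop) (key u ⟨h1, h2⟩).1 _
    exact h7.differentiableWithinAt.congr (fun w hw => (key w hw).2) (key u ⟨h1, h2⟩).2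
  · rw [holAt_inr]
    intro u hu
    obtain ⟨h1, h2⟩ := hu
    have hst : s = t := C.U_unique (C.ci_mem h1).1 (C.mem_ec_inr.1 h2).1
    subst hst
    have key : ∀ w ∈ C.T s a ∩ C.ci s a ⁻¹' (C.atl.e (Sum.inr (s, b))).source, W a w b ≠ 0 ∧
        C.fr k (Sum.inr (s, a)) (C.ci s a w) / C.fr k (Sum.inr (s, b)) (C.ci s a w) =
          (W a w b) ^ (-(k s)) := by
      rintro w ⟨h3, h4⟩
      have h5 := C.dv_div (C.ci_mem h3) b
      rw [C.co_ci h3] at h5
      have h6 := C.dv_ne (C.ci_mem h3)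
      have h7 := C.dv_ne (C.mem_ec_inr.1 h4)
      refine ⟨?_, ?_⟩
      · rw [← h5]
        exact div_ne_zero h7 h6
      · rw [fr_inr, fr_inr, ← h5, ← div_zpow, zpow_neg, ← inv_zpow, inv_div]
    have h7 : DifferentiableAt ℂ (fun u : Cn n => (W a u b) ^ (-(k s))) u :=
      diffAt_zpow ((differentiableAt_euclidean.1 (differentiable_W a u)) b) (key u ⟨h1, h2⟩).1 _
    exact h7.differentiableWithinAt.congr (fun w hw => (key w hw).2) (key u ⟨h1, h2⟩).2

open Classical in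
/-- the bundle `O(∑ k s E s)` -/
def OE (k : C.S → ℤ) : LB C.atl where
  g i j y := if y ∈ (C.ec i).source ∩ (C.ec j).source then C.fr k i y / C.fr k j y else 1
  hol i j := (C.hol_fr k i j).congr fun y hy hy2 => by
    rw [if_pos]
    exact ⟨hy, hy2⟩
  off i j y hy := if_neg hy
  self i y := by
    split_ifs with h
    · exact div_self (C.fr_ne k h.1)
    · rfl
  mul i j l y hy := by
    have h1 := C.fr_ne k hy.1.1
    have h2 := C.fr_ne k hy.1.2
    have h3 := C.fr_ne k hy.2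
    rw [if_pos ⟨hy.1.1, hy.1.2⟩, if_pos ⟨hy.1.2, hy.2⟩, if_pos ⟨hy.1.1, hy.2⟩]
    field_simp

theorem OE_g (k : C.S → ℤ) {i j : C.atl.ι} {y : C.X}
    (hy : y ∈ (C.atl.e i).source ∩ (C.atl.e j).source) :
    (C.OE k).g i j y = C.fr k i y / C.fr k j y := if_pos hy

theorem fr_add (k l : C.S → ℤ) {i : A.ι ⊕ (C.S × Fin n)} {y : C.X} (hy : y ∈ (C.ec i).source) :
    C.fr (k + l) i y = C.fr k i y * C.fr l i y := by
  rcases i with i | ⟨s, a⟩
  · simp
  · rw [fr_inr, fr_inr, fr_inr, Pi.add_apply, zpow_add₀ (C.dv_ne (C.mem_ec_inr.1 hy))]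

theorem OE_add (k l : C.S → ℤ) : C.OE (k + l) = C.OE k * C.OE l := by
  ext i j y
  rw [LB.mul_g]
  by_cases hy : y ∈ (C.atl.e i).source ∩ (C.atl.e j).source
  · rw [C.OE_g _ hy, C.OE_g _ hy, C.OE_g _ hy, C.fr_add k l hy.1, C.fr_add k l hy.2, mul_div_mul_comm]
  · rw [(C.OE _).off _ _ _ hy, (C.OE _).off _ _ _ hy, (C.OE _).off _ _ _ hy, one_mul]

theorem OE_zero : C.OE 0 = 1 := by
  have h := C.OE_add 0 0
  rw [add_zero] at h
  exact (left_eq_mul.1 h)

/-- `OE` as a homomorphism -/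
def OEh : (C.S → ℤ) →+ Additive (LB C.atl) where
  toFun k := Additive.ofMul (C.OE k)
  map_zero' := by rw [C.OE_zero]; rfl
  map_add' k l := by rw [C.OE_add]; rfl

theorem OE_neg (k : C.S → ℤ) : C.OE (-k) = (C.OE k)⁻¹ := C.OEh.map_neg k

theorem OE_nsmul (m : ℕ) (k : C.S → ℤ) : C.OE (m • k) = C.OE k ^ m := C.OEh.map_nsmul m k

theorem OE_zsmul (m : ℤ) (k : C.S → ℤ) : C.OE (m • k) = C.OE k ^ m := C.OEh.map_zsmul m k

open Classical in
/-- the section with divisor `∑ k s E s` -/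
def ese (k : C.S → ℕ) (i : C.atl.ι) (y : C.X) : ℂ :=
  if y ∈ (C.atl.e i).source then
    Sum.elim (fun _ : A.ι => (1 : ℂ)) (fun sa => (C.z sa.1 (C.pi y) sa.2) ^ (k sa.1)) i
  else 0

theorem ese_inl (k : C.S → ℕ) {i : A.ι} {y : C.X} (hy : y ∈ (C.atl.e (Sum.inl i)).source) :
    C.ese k (Sum.inl i) y = 1 := if_pos hy

theorem ese_inr (k : C.S → ℕ) {s : C.S} {a : Fin n} {y : C.X} (hy : y ∈ C.V s a) :
    C.ese k (Sum.inr (s, a)) y = (C.co s a y a) ^ (k s) := by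
  have h : C.ese k (Sum.inr (s, a)) y = (C.z s (C.pi y) a) ^ (k s) := if_pos (C.mem_ec_inr.2 hy)
  rw [h, co_apply, if_pos rfl]

/-- cast of multiplicities -/
def kz (k : C.S → ℕ) : C.S → ℤ := fun s => (k s : ℤ)

theorem isHS_ese (k : C.S → ℕ) : IsHS (C.OE (C.kz k)) univ (C.ese k) := by
  refine ⟨fun i => ?_, fun i y hy => if_neg hy, fun i j y hy _ => ?_⟩
  · rcases i with i | ⟨s, a⟩
    · exact (holAt_const 1).congr fun y hy _ => (C.ese_inl k hy).symm
    · rw [holAt_inr]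
      have h1 : DifferentiableOn ℂ (fun u : Cn n => (u a) ^ (k s))
          (C.T s a ∩ C.ci s a ⁻¹' univ) := by
        have h2 : Differentiable ℂ (fun u : Cn n => (u a) ^ (k s)) := by fun_prop
        exact h2.differentiableOn
      refine h1.congr fun u hu => ?_
      rw [C.ese_inr k (C.ci_mem hu.1), C.co_ci hu.1]
  · rw [C.OE_g _ hy]
    rcases i with i | ⟨s, a⟩ <;> rcases j with j | ⟨t, b⟩
    · rw [C.ese_inl k hy.1, C.ese_inl k hy.2, fr_inl, fr_inl, div_one, one_mul]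
    · have hZ := (C.mem_ec_inl.1 hy.1).1
      have h0 := C.z_ne_of_V (C.mem_ec_inr.1 hy.2) hZ
      rw [C.ese_inl k hy.1, C.ese_inr k (C.mem_ec_inr.1 hy.2), fr_inl, fr_inr, C.dv_off hZ,
        co_apply, if_pos rfl, kz, zpow_natCast, one_div_mul_cancel (pow_ne_zero _ h0)]
    · have hZ := (C.mem_ec_inl.1 hy.2).1
      rw [C.ese_inl k hy.2, C.ese_inr k (C.mem_ec_inr.1 hy.1), fr_inl, fr_inr, C.dv_off hZ,
        co_apply, if_pos rfl, kz, zpow_natCast, div_one, mul_one]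
    · have h1 := C.mem_ec_inr.1 hy.1
      have h2 := C.mem_ec_inr.1 hy.2
      have hst : s = t := C.U_unique h1.1 h2.1
      subst hst
      obtain ⟨-, ⟨c, hc⟩, -⟩ := C.dv_spec h1.1
      have h3 := C.dv_ne h2
      rw [C.ese_inr k h1, C.ese_inr k h2, fr_inr, fr_inr, co_apply, if_pos rfl, co_apply,
        if_pos rfl, hc, kz, zpow_natCast, zpow_natCast, PiLp.smul_apply, PiLp.smul_apply,
        smul_eq_mul, smul_eq_mul, mul_pow, mul_pow, div_mul_eq_mul_div, eq_div_iff (pow_ne_zero _ h3)]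
      ring

/-- the zero set of the section -/
theorem ese_eq_zero (k : C.S → ℕ) {i : C.atl.ι} {y : C.X} (hy : y ∈ (C.atl.e i).source) :
    C.ese k i y = 0 ↔ ∃ s, C.pi y = C.p s ∧ k s ≠ 0 := by
  rcases i with i | ⟨s, a⟩
  · rw [C.ese_inl k hy]
    constructor
    · intro h
      exact absurd h one_ne_zero
    · rintro ⟨s, h1, -⟩
      exact absurd ⟨s, h1.symm⟩ (C.mem_ec_inl.1 hy).1
  · have h1 := C.mem_ec_inr.1 hy
    rw [C.ese_inr k h1]
    constructor
    · intro h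
      have h2 : k s ≠ 0 := by
        intro h0
        rw [h0, pow_zero] at h
        exact one_ne_zero h
      have h3 := pow_eq_zero_iff h2 |>.1 h
      exact ⟨s, (C.mem_Z_iff h1.1).1 ((C.mem_E_iff h1).2 h3), h2⟩
    · rintro ⟨t, h2, h3⟩
      have hst : s = t := C.U_unique h1.1 (by rw [h2]; exact C.p_mem t)
      subst hst
      rw [(C.mem_E_iff h1).1 ((C.mem_Z_iff h1.1).2 h2), zero_pow h3]

end Ctr

end

end Crest.Agent.R272.Blup1_102
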