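import Crest.Agent.R272.EBase_641

/-!
Row 272, COCPT (#6419), helper186: boosts, volumes, the majorant `Q z v = maj v.1 z + ‖v.2‖²`.

* `rfg r` reflection in an anisotropic vector (in `UG n`);
* `exists_boost` : `z ∈ Ball n → ∃ b : UG n, b * b = 1 ∧ act b z = 0 ∧ act b 0 = z`;
* `pr g g2` : the real linear automorphism `(g, g2)` of `V1 n × W m`; `abs_det_pr : |det| = 1`,
  `measure_image_pr`, `measure_preimage_pr`, `measurePreserving_pr` (any additive Haar measure);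
* `Q`, `Q_act`, `Q_zero`, `measure_Q_lt`, `measure_Q_le` (the balls of `Q z` have the volume of
  those of `Q 0`), `abs_le_maj`, `Q_pos`;
* `FF n m` (inner product space), `exists_iso` : `Q z v = ‖e v‖²`, `e` a real linear equivalence
  whose effect on volumes does not depend on `z`.
-/

set_option autoImplicit false

open scoped ComplexConjugate Topology

namespace Crest.Agent.R272.Bst_186

open Crest.Agent.R272.EBase_641

noncomputable section

variable {n m : ℕ}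

theorem hh_sub_left (u v w : V1 n) : hh (u - v) w = hh u w - hh v w := by
  rw [sub_eq_add_neg, hh_add_left, ← neg_one_smul ℂ v, hh_smul_left]; ring

theorem hh_sub_right (u v w : V1 n) : hh u (v - w) = hh u v - hh u w := by
  rw [sub_eq_add_neg, hh_add_right, ← neg_one_smul ℂ w, hh_smul_right, map_neg, map_one]; ring

/-- reflection, as a linear map -/
def rfl0 (r : V1 n) : V1 n →ₗ[ℂ] V1 n where
  toFun v := v - (2 * hh v r / hh r r) • r
  map_add' u v := by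
    rw [hh_add_left, mul_add, add_div, add_smul]; abel
  map_smul' c v := by
    rw [hh_smul_left, RingHom.id_apply, smul_sub, smul_smul]
    congr 2
    ring

theorem rfl0_apply (r v : V1 n) : rfl0 r v = v - (2 * hh v r / hh r r) • r := rfl

theorem hh_rfl0 (r v : V1 n) (hr : hh r r ≠ 0) : hh (rfl0 r v) r = - hh v r := by
  rw [rfl0_apply, hh_sub_left, hh_smul_left]
  field_simp
  ring

theorem rfl0_rfl0 (r : V1 n) (hr : hh r r ≠ 0) : Function.Involutive (rfl0 r) := by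
  intro v
  rw [rfl0_apply r (rfl0 r v), hh_rfl0 r v hr, rfl0_apply r v, sub_sub, ← add_smul]
  have : 2 * hh v r / hh r r + 2 * -hh v r / hh r r = 0 := by ring
  rw [this, zero_smul, sub_zero]

/-- reflection as an element of the unitary group -/
def rfg (r : V1 n) (hr : hh r r ≠ 0) : UG n :=
  ⟨LinearEquiv.ofInvolutive (rfl0 r) (rfl0_rfl0 r hr), by
    intro v w
    show hh (rfl0 r v) (rfl0 r w) = hh v w
    have hc : conj (hh r r) = hh r r := hh_conj r r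
    have e1 : hh (rfl0 r v) (rfl0 r w) =
        hh (rfl0 r v) w - conj (2 * hh w r / hh r r) * hh (rfl0 r v) r := by
      rw [rfl0_apply r w, hh_sub_right, hh_smul_right]
    rw [e1, hh_rfl0 r v hr, rfl0_apply, hh_sub_left, hh_smul_left, map_div₀, map_mul, hh_conj, hc]
    have h2 : conj (2 : ℂ) = 2 := map_ofNat _ 2
    rw [h2]
    ring⟩

theorem rfg_apply (r : V1 n) (hr : hh r r ≠ 0) (v : V1 n) :
    (rfg r hr).1 v = v - (2 * hh v r / hh r r) • r := rfl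

theorem rfg_mul_self (r : V1 n) (hr : hh r r ≠ 0) : rfg r hr * rfg r hr = 1 := by
  apply Subtype.ext
  apply LinearEquiv.ext
  intro v
  exact rfl0_rfl0 r hr v

/-- **boosts** -/
theorem exists_boost {z : E n} (hz : z ∈ Ball n) :
    ∃ b : UG n, b * b = 1 ∧ act b z = 0 ∧ act b 0 = z := by
  have hz1 : ‖z‖ < 1 := mem_Ball.1 hz
  suffices h : ∃ b : UG n, b * b = 1 ∧ act b z = 0 by
    obtain ⟨b, h1, h2⟩ := h
    refine ⟨b, h1, h2, ?_⟩
    rw [← h2, ← act_mul _ _ hz, h1, act_one]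
  by_cases hz0 : z = 0
  · exact ⟨1, mul_one _, by rw [act_one, hz0]⟩
  · have hp : 0 < ‖z‖ := norm_pos_iff.2 hz0
    have h1z : 0 < 1 - ‖z‖ ^ 2 := by nlinarith
    set s : ℝ := Real.sqrt (1 - ‖z‖ ^ 2) with hs
    have hs2 : s ^ 2 = 1 - ‖z‖ ^ 2 := Real.sq_sqrt h1z.le
    have hs0 : 0 < s := Real.sqrt_pos.2 h1z
    have hs1 : s < 1 := by nlinarith
    -- r = (z, 1 - s)
    have hrr : hh ((z, ((1 - s : ℝ) : ℂ)) : V1 n) (z, ((1 - s : ℝ) : ℂ)) =
        ((2 * s * (1 - s) : ℝ) : ℂ) := by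
      rw [hh_self]
      congr 1
      rw [Complex.norm_real, Real.norm_of_nonneg (by linarith)]
      show ‖z‖ ^ 2 - (1 - s) ^ 2 = 2 * s * (1 - s)
      nlinarith
    have hr : hh ((z, ((1 - s : ℝ) : ℂ)) : V1 n) (z, ((1 - s : ℝ) : ℂ)) ≠ 0 := by
      rw [hrr]
      have : 0 < 2 * s * (1 - s) := by
        have : 0 < 1 - s := by linarith
        positivity
      exact_mod_cast this.ne'
    refine ⟨rfg _ hr, rfg_mul_self _ hr, ?_⟩
    have hv : hh ((z, 1) : V1 n) (z, ((1 - s : ℝ) : ℂ)) = ((s * (1 - s) : ℝ) : ℂ) := by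
      simp only [hh]
      rw [inner_self_eq_norm_sq_to_K, Complex.conj_ofReal, one_mul]
      have : ((‖z‖ : ℝ) : ℂ) ^ 2 = ((1 - s ^ 2 : ℝ) : ℂ) := by
        rw [hs2]; push_cast; ring
      have h2 : ((‖z‖ : ℝ) : ℂ) = ((RCLike.ofReal ‖z‖ : ℂ)) := rfl
      rw [← h2, this]
      push_cast
      ring
    have hc : 2 * hh ((z, 1) : V1 n) (z, ((1 - s : ℝ) : ℂ)) /
        hh ((z, ((1 - s : ℝ) : ℂ)) : V1 n) (z, ((1 - s : ℝ) : ℂ)) = 1 := by
      rw [hv, hrr]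
      rw [div_eq_one_iff_eq (by
        have : 0 < 2 * s * (1 - s) := by
          have : 0 < 1 - s := by linarith
          positivity
        exact_mod_cast this.ne')]
      push_cast
      ring
    have h1 : (rfg _ hr).1 ((z, 1) : V1 n) = (0, ((s : ℝ) : ℂ)) := by
      rw [rfg_apply, hc, one_smul]
      ext1
      · simp
      · simp
    rw [act, h1]
    simp

/-! ### the real automorphism `(g, g2)` -/

/-- the real linear automorphism `(g, g2)` -/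
def pr (g : UG n) (g2 : W m ≃ₗᵢ[ℂ] W m) : (V1 n × W m) ≃ₗ[ℝ] (V1 n × W m) :=
  (g.1.restrictScalars ℝ).prodCongr (g2.toLinearEquiv.restrictScalars ℝ)

@[simp] theorem pr_apply (g : UG n) (g2 : W m ≃ₗᵢ[ℂ] W m) (v : V1 n × W m) :
    pr g g2 v = (g.1 v.1, g2 v.2) := rfl

/-- the real form `Re hh + Re inner` -/
def B : (V1 n × W m) →ₗ[ℝ] Module.Dual ℝ (V1 n × W m) :=
  LinearMap.mk₂ ℝ (fun v w => (hh v.1 w.1).re + (inner ℂ w.2 v.2 : ℂ).re)
    (fun u v w => by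
      simp only [Prod.fst_add, Prod.snd_add, hh_add_left, inner_add_right, Complex.add_re]; ring)
    (fun c v w => by
      have h1 : hh (c • v).1 w.1 = (c : ℂ) * hh v.1 w.1 := by
        rw [← hh_smul_left]; rfl
      have h2 : (inner ℂ w.2 (c • v).2 : ℂ) = (c : ℂ) * inner ℂ w.2 v.2 := by
        rw [← inner_smul_right]; rfl
      rw [h1, h2, Complex.re_ofReal_mul, Complex.re_ofReal_mul, smul_eq_mul]; ring)
    (fun u v w => by
      simp only [Prod.fst_add, Prod.snd_add, hh_add_right, inner_add_left, Complex.add_re]; ring)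
    (fun c v w => by
      have h1 : hh v.1 (c • w).1 = (c : ℂ) * hh v.1 w.1 := by
        rw [← Complex.conj_ofReal c, ← hh_smul_right]
        rfl
      have h2 : (inner ℂ (c • w).2 v.2 : ℂ) = (c : ℂ) * inner ℂ w.2 v.2 := by
        rw [← Complex.conj_ofReal c, ← inner_smul_left]; rfl
      rw [h1, h2, Complex.re_ofReal_mul, Complex.re_ofReal_mul, smul_eq_mul]; ring)

theorem B_apply (v w : V1 n × W m) :
    B v w = (hh v.1 w.1).re + (inner ℂ w.2 v.2 : ℂ).re := rfl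

theorem B_inj : Function.Injective (B : (V1 n × W m) →ₗ[ℝ] _) := by
  rw [injective_iff_map_eq_zero]
  intro v hv
  have h := congrArg (fun f => f ((v.1.1, -v.1.2), v.2)) hv
  simp only [LinearMap.zero_apply] at h
  rw [B_apply] at h
  have e1 : (hh v.1 ((v.1.1, -v.1.2) : V1 n)).re = ‖v.1.1‖ ^ 2 + ‖v.1.2‖ ^ 2 := by
    simp only [hh]
    rw [inner_self_eq_norm_sq_to_K, map_neg, mul_neg, sub_neg_eq_add, Complex.mul_conj,
      Complex.normSq_eq_norm_sq, Complex.add_re, Complex.ofReal_re]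
    congr 1
    have : ((RCLike.ofReal ‖v.1.1‖ : ℂ)) ^ 2 = ((‖v.1.1‖ ^ 2 : ℝ) : ℂ) := by
      push_cast; rfl
    rw [this, Complex.ofReal_re]
  have e2 : (inner ℂ v.2 v.2 : ℂ).re = ‖v.2‖ ^ 2 := by
    rw [inner_self_eq_norm_sq_to_K]
    have : ((RCLike.ofReal ‖v.2‖ : ℂ)) ^ 2 = ((‖v.2‖ ^ 2 : ℝ) : ℂ) := by
      push_cast; rfl
    rw [this, Complex.ofReal_re]
  have h' : ‖v.1.1‖ ^ 2 + ‖v.1.2‖ ^ 2 + ‖v.2‖ ^ 2 = 0 := by
    rw [← e1, ← e2]; exact h
  have p1 : 0 ≤ ‖v.1.1‖ ^ 2 := by positivity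
  have p2 : 0 ≤ ‖v.1.2‖ ^ 2 := by positivity
  have p3 : 0 ≤ ‖v.2‖ ^ 2 := by positivity
  have q1 : ‖v.1.1‖ ^ 2 = 0 := by linarith
  have q2 : ‖v.1.2‖ ^ 2 = 0 := by linarith
  have q3 : ‖v.2‖ ^ 2 = 0 := by linarith
  rw [sq_eq_zero_iff, norm_eq_zero] at q1 q2 q3
  exact Prod.ext (Prod.ext q1 q2) q3

/-- a linear map preserving a nondegenerate bilinear form has determinant `± 1` -/
theorem abs_det_of_form {V : Type*} [AddCommGroup V] [Module ℝ V] [FiniteDimensional ℝ V]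
    (B : V →ₗ[ℝ] Module.Dual ℝ V) (hB : Function.Injective B) (f : V →ₗ[ℝ] V)
    (h : ∀ v w, B (f v) (f w) = B v w) : |LinearMap.det f| = 1 := by
  let e : V ≃ₗ[ℝ] Module.Dual ℝ V :=
    LinearEquiv.ofInjectiveOfFinrankEq B hB (Subspace.dual_finrank_eq).symm
  have he : ∀ v, e v = B v := fun v => rfl
  have key : f.dualMap ∘ₗ (e : V →ₗ[ℝ] _) ∘ₗ f = (e : V →ₗ[ℝ] Module.Dual ℝ V) := by
    refine LinearMap.ext fun v => LinearMap.ext fun w => ?_
    show e (f v) (f w) = e v w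
    rw [he, he, h]
  have k2 : (e.symm : Module.Dual ℝ V →ₗ[ℝ] V) ∘ₗ f.dualMap ∘ₗ
      (e : V →ₗ[ℝ] _) ∘ₗ f = LinearMap.id := by
    rw [key]
    refine LinearMap.ext fun v => ?_
    simp
  have k3 : LinearMap.det ((e.symm : Module.Dual ℝ V →ₗ[ℝ] V) ∘ₗ
      f.dualMap ∘ₗ (e : V →ₗ[ℝ] _)) * LinearMap.det f = 1 := by
    rw [← LinearMap.det_comp]
    have : (((e.symm : Module.Dual ℝ V →ₗ[ℝ] V) ∘ₗ
      f.dualMap ∘ₗ (e : V →ₗ[ℝ] _)) ∘ₗ f) = LinearMap.id := k2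
    rw [this, LinearMap.det_id]
  have k4 : LinearMap.det ((e.symm : Module.Dual ℝ V →ₗ[ℝ] V) ∘ₗ
      f.dualMap ∘ₗ (e : V →ₗ[ℝ] _)) = LinearMap.det f := by
    have h1 := LinearMap.det_conj (f.dualMap) e.symm
    rw [LinearEquiv.symm_symm] at h1
    have h2 : LinearMap.det f.dualMap = LinearMap.det f := LinearMap.det_dualMap f
    rw [← h2, ← h1]
  rw [k4] at k3
  rcases mul_self_eq_one_iff.1 k3 with h | h
  · rw [h, abs_one]
  · rw [h, abs_neg, abs_one]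

/-- **`|det_ℝ (g, g2)| = 1`** -/
theorem abs_det_pr (g : UG n) (g2 : W m ≃ₗᵢ[ℂ] W m) :
    |LinearMap.det ((pr g g2 : (V1 n × W m) ≃ₗ[ℝ] (V1 n × W m)) :
      (V1 n × W m) →ₗ[ℝ] (V1 n × W m))| = 1 := by
  refine abs_det_of_form B B_inj _ fun v w => ?_
  rw [B_apply, B_apply]
  show (hh (g.1 v.1) (g.1 w.1)).re + (inner ℂ (g2 w.2) (g2 v.2) : ℂ).re = _
  rw [UG_hh, LinearIsometryEquiv.inner_map_map]

/-- the real form `Re hh` on `V1 n` -/
def B1 : V1 n →ₗ[ℝ] Module.Dual ℝ (V1 n) :=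
  LinearMap.mk₂ ℝ (fun v w => (hh v w).re)
    (fun u v w => by rw [hh_add_left, Complex.add_re])
    (fun c v w => by
      have h1 : hh (c • v) w = (c : ℂ) * hh v w := by
        rw [← hh_smul_left]; rfl
      rw [h1, Complex.re_ofReal_mul, smul_eq_mul])
    (fun u v w => by rw [hh_add_right, Complex.add_re])
    (fun c v w => by
      have h1 : hh v (c • w) = (c : ℂ) * hh v w := by
        rw [← Complex.conj_ofReal c, ← hh_smul_right]
        rfl
      rw [h1, Complex.re_ofReal_mul, smul_eq_mul])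

theorem B1_inj : Function.Injective (B1 : V1 n →ₗ[ℝ] _) := by
  rw [injective_iff_map_eq_zero]
  intro v hv
  have h : B ((v, 0) : V1 n × W 0) = 0 := by
    refine LinearMap.ext fun w => ?_
    have h1 := congrArg (fun f => f w.1) hv
    have h2 : (hh v w.1).re = 0 := h1
    rw [B_apply]
    show (hh v w.1).re + (inner ℂ w.2 0 : ℂ).re = 0
    rw [h2, inner_zero_right, Complex.zero_re, add_zero]
  have h3 := B_inj (h.trans (map_zero B).symm)
  exact congrArg Prod.fst h3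

/-- **`|det_ℝ g| = 1`** on `V1 n` -/
theorem abs_det (g : UG n) :
    |LinearMap.det ((g.1.restrictScalars ℝ : V1 n ≃ₗ[ℝ] V1 n) : V1 n →ₗ[ℝ] V1 n)| = 1 := by
  refine abs_det_of_form B1 B1_inj _ fun v w => ?_
  show (hh (g.1 v) (g.1 w)).re = (hh v w).re
  rw [UG_hh]

theorem abs_det' (g : UG n) :
    |LinearMap.det ((g.1 : V1 n →ₗ[ℂ] V1 n).restrictScalars ℝ)| = 1 := abs_det g

open MeasureTheory

theorem measure_image_pr (μ : Measure (V1 n × W m)) [μ.IsAddHaarMeasure] (g : UG n)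
    (g2 : W m ≃ₗᵢ[ℂ] W m) (S : Set (V1 n × W m)) : μ (pr g g2 '' S) = μ S := by
  have h := Measure.addHaar_image_linearMap μ
    ((pr g g2 : (V1 n × W m) ≃ₗ[ℝ] (V1 n × W m)) : (V1 n × W m) →ₗ[ℝ] (V1 n × W m)) S
  rw [abs_det_pr, ENNReal.ofReal_one, one_mul] at h
  exact h

theorem measure_preimage_pr (μ : Measure (V1 n × W m)) [μ.IsAddHaarMeasure] (g : UG n)
    (g2 : W m ≃ₗᵢ[ℂ] W m) (S : Set (V1 n × W m)) : μ (pr g g2 ⁻¹' S) = μ S := by
  have h := measure_image_pr μ g g2 (pr g g2 ⁻¹' S)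
  rw [Set.image_preimage_eq S (pr g g2).surjective] at h
  exact h.symm

theorem continuous_pr (g : UG n) (g2 : W m ≃ₗᵢ[ℂ] W m) : Continuous (pr g g2) :=
  ((pr g g2 : (V1 n × W m) ≃ₗ[ℝ] (V1 n × W m)) :
    (V1 n × W m) →ₗ[ℝ] (V1 n × W m)).continuous_of_finiteDimensional

theorem measurePreserving_pr (μ : Measure (V1 n × W m)) [μ.IsAddHaarMeasure] (g : UG n)
    (g2 : W m ≃ₗᵢ[ℂ] W m) : MeasurePreserving (pr g g2) μ μ := by
  refine ⟨(continuous_pr g g2).measurable, ?_⟩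
  ext S hS
  rw [Measure.map_apply (continuous_pr g g2).measurable hS]
  exact measure_preimage_pr μ g g2 S

/-! ### the majorant -/

/-- `Q z v = maj v.1 z + ‖v.2‖²` -/
def Q (z : E n) (v : V1 n × W m) : ℝ := maj v.1 z + ‖v.2‖ ^ 2

theorem hre_act (g : UG n) (v : V1 n) :
    ‖(g.1 v).1‖ ^ 2 - ‖(g.1 v).2‖ ^ 2 = ‖v.1‖ ^ 2 - ‖v.2‖ ^ 2 := by
  have h := UG_hh g v v
  rw [hh_self, hh_self] at h
  exact Complex.ofReal_injective h

theorem maj_act (g : UG n) (v : V1 n) {z : E n} (hz : z ∈ Ball n) :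
    maj (g.1 v) (act g z) = maj v z := by
  rw [maj, maj, R_act g v hz, hre_act]

theorem maj_zero (v : V1 n) : maj v 0 = ‖v.1‖ ^ 2 + ‖v.2‖ ^ 2 := by
  have h1 : lin v 0 = - conj v.2 := by simp [lin]
  rw [maj, R, h1, norm_neg, RCLike.norm_conj]
  simp
  ring

theorem Q_act (g : UG n) (g2 : W m ≃ₗᵢ[ℂ] W m) (v : V1 n × W m) {z : E n} (hz : z ∈ Ball n) :
    Q (act g z) (pr g g2 v) = Q z v := by
  rw [Q, Q, pr_apply]
  show maj (g.1 v.1) (act g z) + ‖g2 v.2‖ ^ 2 = _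
  rw [maj_act g v.1 hz, LinearIsometryEquiv.norm_map]

theorem Q_zero (v : V1 n × W m) : Q 0 v = ‖v.1.1‖ ^ 2 + ‖v.1.2‖ ^ 2 + ‖v.2‖ ^ 2 := by
  rw [Q, maj_zero]

theorem Q_nonneg (v : V1 n × W m) {z : E n} (hz : z ∈ Ball n) : 0 ≤ Q z v := by
  obtain ⟨b, -, hb, -⟩ := exists_boost hz
  rw [← Q_act b 1 v hz, hb, Q_zero]
  positivity

theorem Q_eq_zero (v : V1 n × W m) {z : E n} (hz : z ∈ Ball n) : Q z v = 0 ↔ v = 0 := by
  obtain ⟨b, -, hb, -⟩ := exists_boost hz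
  rw [← Q_act b 1 v hz, hb, Q_zero]
  constructor
  · intro h
    have p1 : 0 ≤ ‖(pr b 1 v).1.1‖ ^ 2 := by positivity
    have p2 : 0 ≤ ‖(pr b 1 v).1.2‖ ^ 2 := by positivity
    have p3 : 0 ≤ ‖(pr b 1 v).2‖ ^ 2 := by positivity
    have q1 : ‖(pr b 1 v).1.1‖ ^ 2 = 0 := by linarith
    have q2 : ‖(pr b 1 v).1.2‖ ^ 2 = 0 := by linarith
    have q3 : ‖(pr b 1 v).2‖ ^ 2 = 0 := by linarith
    rw [sq_eq_zero_iff, norm_eq_zero] at q1 q2 q3
    have h0 : pr b 1 v = 0 := Prod.ext (Prod.ext q1 q2) q3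
    exact (pr b (1 : W m ≃ₗᵢ[ℂ] W m)).map_eq_zero_iff.1 h0
  · rintro rfl
    simp

theorem Q_pos {v : V1 n × W m} (hv : v ≠ 0) {z : E n} (hz : z ∈ Ball n) : 0 < Q z v :=
  lt_of_le_of_ne (Q_nonneg v hz) fun h => hv ((Q_eq_zero v hz).1 h.symm)

theorem measure_Q_lt (μ : Measure (V1 n × W m)) [μ.IsAddHaarMeasure] {z : E n} (hz : z ∈ Ball n)
    (r : ℝ) : μ {v | Q z v < r} = μ {v | Q 0 v < r} := by
  obtain ⟨b, -, hb, -⟩ := exists_boost hz
  rw [← measure_preimage_pr μ b 1 {v | Q 0 v < r}]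
  congr 1
  ext v
  rw [Set.mem_preimage, Set.mem_ofPred_eq, Set.mem_ofPred_eq, ← hb, Q_act b 1 v hz]

theorem measure_Q_le (μ : Measure (V1 n × W m)) [μ.IsAddHaarMeasure] {z : E n} (hz : z ∈ Ball n)
    (r : ℝ) : μ {v | Q z v ≤ r} = μ {v | Q 0 v ≤ r} := by
  obtain ⟨b, -, hb, -⟩ := exists_boost hz
  rw [← measure_preimage_pr μ b 1 {v | Q 0 v ≤ r}]
  congr 1
  ext v
  rw [Set.mem_preimage, Set.mem_ofPred_eq, Set.mem_ofPred_eq, ← hb, Q_act b 1 v hz]

/-- the majorant dominates the form -/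
theorem abs_le_maj (v : V1 n) {z : E n} (hz : z ∈ Ball n) :
    |‖v.1‖ ^ 2 - ‖v.2‖ ^ 2| ≤ maj v z := by
  obtain ⟨b, -, hb, -⟩ := exists_boost hz
  rw [← maj_act b v hz, hb, maj_zero, ← hre_act b v, abs_le]
  constructor <;> nlinarith [sq_nonneg ‖(b.1 v).1‖, sq_nonneg ‖(b.1 v).2‖]

/-! ### the inner product space -/

/-- the standard inner product space on `V1 n × W m` -/
abbrev FF (n m : ℕ) := WithLp 2 (WithLp 2 (E n × ℂ) × W m)

/-- the identity -/
def idF (n m : ℕ) : (V1 n × W m) ≃ₗ[ℝ] FF n m :=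
  (((WithLp.linearEquiv 2 ℝ (E n × ℂ)).symm.prodCongr (LinearEquiv.refl ℝ (W m)))).trans
    (WithLp.linearEquiv 2 ℝ (WithLp 2 (E n × ℂ) × W m)).symm

theorem norm_idF (v : V1 n × W m) : ‖idF n m v‖ ^ 2 = Q 0 v := by
  rw [Q_zero, WithLp.prod_norm_sq_eq_of_L2]
  have h1 : (idF n m v).fst = (WithLp.linearEquiv 2 ℝ (E n × ℂ)).symm v.1 := rfl
  have h2 : (idF n m v).snd = v.2 := rfl
  rw [h1, h2, WithLp.prod_norm_sq_eq_of_L2]
  rfl

/-- `Q z` is the square of a Euclidean norm -/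
theorem exists_iso {z : E n} (hz : z ∈ Ball n) :
    ∃ b : UG n, act b z = 0 ∧ ∀ v : V1 n × W m, Q z v = ‖idF n m (pr b 1 v)‖ ^ 2 := by
  obtain ⟨b, -, hb, -⟩ := exists_boost hz
  refine ⟨b, hb, fun v => ?_⟩
  rw [norm_idF, ← hb, Q_act b 1 v hz]

end

end Crest.Agent.R272.Bst_186
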