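import Crest.Agent.R272.Quot2_783
import Crest.Agent.R272.PosGlue2_232

/-!
# R272, task CB (helper232), part 1: line bundles given by open covers

`C : Fam n X` (835), `HolF C U F` (783).
`SmOn C U f`   : smooth function on the open set `U`;
`CBo C U`      : holomorphic line bundle over `U`, given by an open cover `V a`, `a : α`, and a cocycle
                 (`CB C = CBo C univ`); `one`, `mul`, `zpow`, `pull`, `restr`, `glue`;
`Sec L W`      : holomorphic section over `W`;  `Met L W` : smooth metric over `W`;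
`CBo.ofEq`     : the bundle of a divisor given by local equations `f a` (`f a = unit * f b`), with its section.
-/

set_option autoImplicit false
set_option linter.unusedSectionVars false

open Set Filter Topology Complex
open scoped ContDiff Matrix ComplexConjugate Manifold

namespace Crest.Agent.R272.CB_232

open Crest.Agent.R275.Geo Crest.Agent.R275.Core144 Crest.Agent.R275.GC293
open Crest.Agent.R273.Defs_333 Crest.Agent.R273.Map_835 Crest.Agent.R273.PB_835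
open Crest.Agent.R273.Fam_835
open Crest.Agent.R272.Quot_783

noncomputable section

variable {n m : ℕ} {X N : Type} [TopologicalSpace X] [TopologicalSpace N]
  {C : Fam n X} {D : Fam m N} {p : X → N} {U V W : Set X} {F G : X → ℂ}

/-! ### holomorphic functions on open sets -/

theorem holF_mono (h : HolF C U F) (hV : V ⊆ U) : HolF C V F := fun j =>
  (h j).mono (inter_subset_inter_right _ (preimage_mono hV))

theorem holF_congr (h : HolF C U F) (hFG : ∀ x ∈ U, G x = F x) : HolF C U G := fun j =>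
  (h j).congr fun _ hz => hFG _ hz.2

theorem holF_const (c : ℂ) : HolF C U fun _ => c := fun _ => differentiableOn_const _

theorem holF_mul (hF : HolF C U F) (hG : HolF C U G) : HolF C U fun x => F x * G x := fun j =>
  (hF j).mul (hG j)

theorem holF_add (hF : HolF C U F) (hG : HolF C U G) : HolF C U fun x => F x + G x := fun j =>
  (hF j).add (hG j)

theorem holF_inv (hF : HolF C U F) (h0 : ∀ x ∈ U, F x ≠ 0) : HolF C U fun x => (F x)⁻¹ := fun j =>
  (hF j).inv fun _ hz => h0 _ hz.2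

theorem holF_pow (hF : HolF C U F) (k : ℕ) : HolF C U fun x => F x ^ k := fun j => (hF j).pow k

theorem holF_zpow (hF : HolF C U F) (h0 : ∀ x ∈ U, F x ≠ 0) (k : ℤ) : HolF C U fun x => F x ^ k :=
  fun j => (hF j).zpow (Or.inl fun _ hz => h0 _ hz.2)

/-- reading near a point -/
theorem holF_of_local (h : ∀ x ∈ U, ∃ W, IsOpen W ∧ x ∈ W ∧ HolF C W F) : HolF C U F := by
  intro j z hz
  obtain ⟨W, hW, hxW, hF⟩ := h _ hz.2
  exact ((hF j).differentiableAt (((C.e j).isOpen_inter_preimage_symm hW).mem_nhds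
    ⟨hz.1, hxW⟩)).differentiableWithinAt

theorem holF_comp {U : Set N} {F : N → ℂ} (hp : HolC C D p) (hU : IsOpen U) (hF : HolF D U F) :
    HolF C (p ⁻¹' U) fun x => F (p x) := by
  intro j z hz
  set x := (C.e j).symm z with hx
  obtain ⟨l, hl⟩ := D.cover (p x)
  have h1 : DifferentiableAt ℂ (fun y => F ((D.e l).symm y)) (D.e l (p x)) :=
    hF.diffAt hU hl hz.2
  have h2 := hp.diffAt (i := j) (j := l) hz.1 hl
  have h3 := DifferentiableAt.comp z (g := fun y => F ((D.e l).symm y))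
    (f := fun z => D.e l (p ((C.e j).symm z))) h1 h2
  refine (h3.congr_of_eventuallyEq ?_).differentiableWithinAt
  have ho : IsOpen ((C.e j).target ∩ (C.e j).symm ⁻¹' (p ⁻¹' (D.e l).source)) := hp.isOpen_dm j l
  filter_upwards [ho.mem_nhds ⟨hz.1, hl⟩] with w hw
  simp only [Function.comp]
  rw [(D.e l).left_inv hw.2]

theorem holF_contAt (hU : IsOpen U) (hF : HolF C U F) {x : X} (hx : x ∈ U) : ContinuousAt F x := by
  obtain ⟨j, hj⟩ := C.cover x
  have h1 := (hF.diffAt hU hj hx).continuousAt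
  have h2 : ContinuousAt (C.e j) x := (C.e j).continuousAt hj
  have h3 : ContinuousAt (fun y => F ((C.e j).symm (C.e j y))) x :=
    ContinuousAt.comp (g := fun z => F ((C.e j).symm z)) h1 h2
  refine h3.congr ?_
  filter_upwards [(C.e j).open_source.mem_nhds hj] with y hy
  rw [(C.e j).left_inv hy]

/-- smooth function on the open set `U` -/
def SmOn (C : Fam n X) (U : Set X) (f : X → ℝ) : Prop :=
  ∀ j, ContDiffOn ℝ ∞ (fun z => f ((C.e j).symm z)) ((C.e j).target ∩ (C.e j).symm ⁻¹' U)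

theorem SmOn.mono {f : X → ℝ} (h : SmOn C U f) (hV : V ⊆ U) : SmOn C V f := fun j =>
  (h j).mono (inter_subset_inter_right _ (preimage_mono hV))

theorem SmOn.mul {f g : X → ℝ} (hf : SmOn C U f) (hg : SmOn C U g) :
    SmOn C U fun x => f x * g x := fun j => (hf j).mul (hg j)

theorem holF_smOn_normSq (hU : IsOpen U) (hF : HolF C U F) : SmOn C U fun x => ‖F x‖ ^ 2 := by
  intro j z hz
  have ho := (C.e j).isOpen_inter_preimage_symm hU
  have h1 : AnalyticAt ℂ (fun z => F ((C.e j).symm z)) z :=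
    Crest.Agent.R266.SCV.analyticOnNhd_of_differentiableOn ho (hF j) z hz
  have h2 : ContDiffAt ℝ ∞ (fun z => F ((C.e j).symm z)) z :=
    h1.contDiffAt.restrict_scalars ℝ
  exact (h2.norm_sq ℝ).contDiffWithinAt

/-! ### bundles -/

/-- holomorphic line bundle over `U` given by an open cover and a cocycle -/
structure CBo (C : Fam n X) (U : Set X) where
  α : Type
  V : α → Set X
  op : ∀ a, IsOpen (V a)
  cov : ∀ x ∈ U, ∃ a, x ∈ V a
  g : α → α → X → ℂ
  hol : ∀ a b, HolF C (V a ∩ V b) (g a b)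
  ne : ∀ a b, ∀ x ∈ V a ∩ V b, g a b x ≠ 0
  mul : ∀ a b c, ∀ x ∈ V a ∩ V b ∩ V c, g a b x * g b c x = g a c x

/-- line bundle on all of `X` -/
abbrev CB (C : Fam n X) := CBo C univ

namespace CBo

variable (L : CBo C U) (L' : CBo C U)

theorem self {a : L.α} {x : X} (hx : x ∈ L.V a) : L.g a a x = 1 := by
  have h1 := L.mul a a a x ⟨⟨hx, hx⟩, hx⟩
  have h2 := L.ne a a x ⟨hx, hx⟩
  exact mul_right_cancel₀ h2 (by rw [h1, one_mul])

theorem symm {a b : L.α} {x : X} (ha : x ∈ L.V a) (hb : x ∈ L.V b) :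
    L.g a b x * L.g b a x = 1 := by
  rw [L.mul a b a x ⟨⟨ha, hb⟩, ha⟩, L.self ha]

/-- the trivial bundle -/
def one (C : Fam n X) (U : Set X) : CBo C U where
  α := Unit
  V _ := univ
  op _ := isOpen_univ
  cov _ _ := ⟨(), mem_univ _⟩
  g _ _ _ := 1
  hol _ _ := holF_const 1
  ne _ _ _ _ := one_ne_zero
  mul _ _ _ _ _ := one_mul 1

/-- tensor product (index set = product) -/
def tens : CBo C U where
  α := L.α × L'.α
  V a := L.V a.1 ∩ L'.V a.2
  op a := (L.op a.1).inter (L'.op a.2)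
  cov x hx := by
    obtain ⟨a, ha⟩ := L.cov x hx
    obtain ⟨b, hb⟩ := L'.cov x hx
    exact ⟨(a, b), ha, hb⟩
  g a b x := L.g a.1 b.1 x * L'.g a.2 b.2 x
  hol a b := holF_mul (holF_mono (L.hol a.1 b.1) fun x hx => ⟨hx.1.1, hx.2.1⟩)
    (holF_mono (L'.hol a.2 b.2) fun x hx => ⟨hx.1.2, hx.2.2⟩)
  ne a b x hx := mul_ne_zero (L.ne _ _ x ⟨hx.1.1, hx.2.1⟩) (L'.ne _ _ x ⟨hx.1.2, hx.2.2⟩)
  mul a b c x hx := by
    rw [← L.mul a.1 b.1 c.1 x ⟨⟨hx.1.1.1, hx.1.2.1⟩, hx.2.1⟩,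
      ← L'.mul a.2 b.2 c.2 x ⟨⟨hx.1.1.2, hx.1.2.2⟩, hx.2.2⟩]
    ring

/-- integral powers (same cover) -/
def zpow (k : ℤ) : CBo C U where
  α := L.α
  V := L.V
  op := L.op
  cov := L.cov
  g a b x := L.g a b x ^ k
  hol a b := holF_zpow (L.hol a b) (L.ne a b) k
  ne a b x hx := zpow_ne_zero _ (L.ne a b x hx)
  mul a b c x hx := by rw [← mul_zpow, L.mul a b c x hx]

/-- restriction -/
def restr (L : CBo C U) {V : Set X} (hV : V ⊆ U) : CBo C V where
  α := L.α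
  V := L.V
  op := L.op
  cov x hx := L.cov x (hV hx)
  g := L.g
  hol := L.hol
  ne := L.ne
  mul := L.mul

/-- pull back -/
def pull {U : Set N} (L : CBo D U) (hp : HolC C D p) : CBo C (p ⁻¹' U) where
  α := L.α
  V a := p ⁻¹' (L.V a)
  op a := (L.op a).preimage hp.cont
  cov x hx := L.cov (p x) hx
  g a b x := L.g a b (p x)
  hol a b := holF_comp (U := L.V a ∩ L.V b) hp ((L.op a).inter (L.op b)) (L.hol a b)
  ne a b x hx := L.ne a b (p x) hx
  mul a b c x hx := L.mul a b c (p x) hx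

/-- gluing of two bundles by transition functions `h a b` -/
def glue {U₀ U₁ : Set X} (L₀ : CBo C U₀) (L₁ : CBo C U₁) (h : L₀.α → L₁.α → X → ℂ)
    (hol : ∀ a b, HolF C (L₀.V a ∩ L₁.V b) (h a b))
    (ne : ∀ a b, ∀ x ∈ L₀.V a ∩ L₁.V b, h a b x ≠ 0)
    (left : ∀ a a' b, ∀ x ∈ L₀.V a ∩ L₀.V a' ∩ L₁.V b, L₀.g a a' x * h a' b x = h a b x)
    (right : ∀ a b b', ∀ x ∈ L₀.V a ∩ L₁.V b ∩ L₁.V b', h a b x * L₁.g b b' x = h a b' x) :
    CBo C (U₀ ∪ U₁) where
  α := L₀.α ⊕ L₁.α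
  V := Sum.elim L₀.V L₁.V
  op := by rintro (a | a); exacts [L₀.op a, L₁.op a]
  cov := by
    rintro x (hx | hx)
    · obtain ⟨a, ha⟩ := L₀.cov x hx
      exact ⟨Sum.inl a, ha⟩
    · obtain ⟨a, ha⟩ := L₁.cov x hx
      exact ⟨Sum.inr a, ha⟩
  g a b x := match a, b with
    | Sum.inl a, Sum.inl b => L₀.g a b x
    | Sum.inl a, Sum.inr b => h a b x
    | Sum.inr a, Sum.inl b => (h b a x)⁻¹
    | Sum.inr a, Sum.inr b => L₁.g a b x
  hol := by
    rintro (a | a) (b | b)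
    · exact L₀.hol a b
    · exact hol a b
    · exact holF_inv (holF_mono (hol b a) fun x hx => ⟨hx.2, hx.1⟩)
        fun x hx => ne b a x ⟨hx.2, hx.1⟩
    · exact L₁.hol a b
  ne := by
    rintro (a | a) (b | b) x hx
    · exact L₀.ne a b x hx
    · exact ne a b x hx
    · exact inv_ne_zero (ne b a x ⟨hx.2, hx.1⟩)
    · exact L₁.ne a b x hx
  mul := by
    rintro (a | a) (b | b) (c | c) x ⟨⟨ha, hb⟩, hc⟩
    · exact L₀.mul a b c x ⟨⟨ha, hb⟩, hc⟩
    · exact left a b c x ⟨⟨ha, hb⟩, hc⟩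
    · show h a b x * (h c b x)⁻¹ = L₀.g a c x
      rw [← left a c b x ⟨⟨ha, hc⟩, hb⟩, mul_assoc, mul_inv_cancel₀ (ne c b x ⟨hc, hb⟩), mul_one]
    · exact right a b c x ⟨⟨ha, hb⟩, hc⟩
    · show (h b a x)⁻¹ * L₀.g b c x = (h c a x)⁻¹
      have h1 := left b c a x ⟨⟨hb, hc⟩, ha⟩
      have h2 := ne b a x ⟨hb, ha⟩
      have h3 := ne c a x ⟨hc, ha⟩
      field_simp
      rw [← h1]
    · show (h b a x)⁻¹ * h b c x = L₁.g a c x
      rw [← right b a c x ⟨⟨hb, ha⟩, hc⟩, ← mul_assoc, inv_mul_cancel₀ (ne b a x ⟨hb, ha⟩), one_mul]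
    · show L₁.g a b x * (h c b x)⁻¹ = (h c a x)⁻¹
      have h1 := right c a b x ⟨⟨hc, ha⟩, hb⟩
      have h2 := ne c a x ⟨hc, ha⟩
      have h3 := ne c b x ⟨hc, hb⟩
      field_simp
      rw [← h1]; ring
    · exact L₁.mul a b c x ⟨⟨ha, hb⟩, hc⟩

end CBo

/-! ### sections and metrics -/

/-- holomorphic section over `W` -/
structure Sec (L : CBo C U) (W : Set X) where
  s : L.α → X → ℂ
  hol : ∀ a, HolF C (L.V a ∩ W) (s a)
  tr : ∀ a b, ∀ x ∈ L.V a ∩ L.V b ∩ W, s a x = L.g a b x * s b x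

/-- smooth metric over `W` -/
structure Met (L : CBo C U) (W : Set X) where
  w : L.α → X → ℝ
  pos : ∀ a, ∀ x ∈ L.V a ∩ W, 0 < w a x
  sm : ∀ a, SmOn C (L.V a ∩ W) (w a)
  tr : ∀ a b, ∀ x ∈ L.V a ∩ L.V b ∩ W, w b x = ‖L.g a b x‖ ^ 2 * w a x

namespace Sec

variable {L L' : CBo C U}

def mono (y : Sec L W) (hV : V ⊆ W) : Sec L V where
  s := y.s
  hol a := holF_mono (y.hol a) (inter_subset_inter_right _ hV)
  tr a b x hx := y.tr a b x ⟨hx.1, hV hx.2⟩

/-- product of sections -/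
def tens (y : Sec L W) (y' : Sec L' W) : Sec (L.tens L') W where
  s a x := y.s a.1 x * y'.s a.2 x
  hol a := holF_mul (holF_mono (y.hol a.1) fun x hx => ⟨hx.1.1, hx.2⟩)
    (holF_mono (y'.hol a.2) fun x hx => ⟨hx.1.2, hx.2⟩)
  tr a b x hx := by
    rw [y.tr a.1 b.1 x ⟨⟨hx.1.1.1, hx.1.2.1⟩, hx.2⟩, y'.tr a.2 b.2 x ⟨⟨hx.1.1.2, hx.1.2.2⟩, hx.2⟩]
    show _ = L.g a.1 b.1 x * L'.g a.2 b.2 x * _
    ring

/-- powers of a section -/
def pow (y : Sec L W) (k : ℕ) : Sec (L.zpow k) W where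
  s a x := y.s a x ^ k
  hol a := holF_pow (y.hol a) k
  tr a b x hx := by
    rw [y.tr a b x hx, mul_pow]
    show _ = L.g a b x ^ (k : ℤ) * _
    rw [zpow_natCast]

/-- powers of a section without zeros -/
def zpow (y : Sec L W) (h0 : ∀ a, ∀ x ∈ L.V a ∩ W, y.s a x ≠ 0) (k : ℤ) : Sec (L.zpow k) W where
  s a x := y.s a x ^ k
  hol a := holF_zpow (y.hol a) (h0 a) k
  tr a b x hx := by
    rw [y.tr a b x hx, mul_zpow]
    rfl

/-- the section `1` of the trivial bundle -/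
def one (U W : Set X) : Sec (CBo.one C U) W where
  s _ _ := 1
  hol _ := holF_const 1
  tr _ _ _ _ := (one_mul _).symm

/-- multiplication by a function -/
def smul (y : Sec L W) (hF : HolF C W F) : Sec L W where
  s a x := F x * y.s a x
  hol a := holF_mul (holF_mono hF inter_subset_right) (y.hol a)
  tr a b x hx := by rw [y.tr a b x hx]; ring

def add (y y' : Sec L W) : Sec L W where
  s a x := y.s a x + y'.s a x
  hol a := holF_add (y.hol a) (y'.hol a)
  tr a b x hx := by rw [y.tr a b x hx, y'.tr a b x hx]; ring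

/-- pull back of a section -/
def pull {U W : Set N} {L : CBo D U} (hp : HolC C D p) (hW : IsOpen W) (y : Sec L W) :
    Sec (L.pull hp) (p ⁻¹' W) where
  s a x := y.s a (p x)
  hol a := holF_comp (U := L.V a ∩ W) hp (IsOpen.inter (L.op a) hW) (y.hol a)
  tr a b x hx := y.tr a b (p x) hx

/-- a section does not vanish at `x`: independent of the frame -/
theorem ne_iff (y : Sec L W) {a b : L.α} {x : X} (ha : x ∈ L.V a) (hb : x ∈ L.V b) (hW : x ∈ W) :
    y.s a x ≠ 0 ↔ y.s b x ≠ 0 := by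
  rw [y.tr a b x ⟨⟨ha, hb⟩, hW⟩, mul_ne_zero_iff, and_iff_right (L.ne a b x ⟨ha, hb⟩)]

end Sec

namespace Met

variable {L L' : CBo C U}

def mono (h : Met L W) (hV : V ⊆ W) : Met L V where
  w := h.w
  pos a x hx := h.pos a x ⟨hx.1, hV hx.2⟩
  sm a := (h.sm a).mono (inter_subset_inter_right _ hV)
  tr a b x hx := h.tr a b x ⟨hx.1, hV hx.2⟩

def tens (h : Met L W) (h' : Met L' W) : Met (L.tens L') W where
  w a x := h.w a.1 x * h'.w a.2 x
  pos a x hx := mul_pos (h.pos a.1 x ⟨hx.1.1, hx.2⟩) (h'.pos a.2 x ⟨hx.1.2, hx.2⟩)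
  sm a := ((h.sm a.1).mono fun x hx => ⟨hx.1.1, hx.2⟩).mul
    ((h'.sm a.2).mono fun x hx => ⟨hx.1.2, hx.2⟩)
  tr a b x hx := by
    rw [h.tr a.1 b.1 x ⟨⟨hx.1.1.1, hx.1.2.1⟩, hx.2⟩, h'.tr a.2 b.2 x ⟨⟨hx.1.1.2, hx.1.2.2⟩, hx.2⟩]
    show _ = ‖L.g a.1 b.1 x * L'.g a.2 b.2 x‖ ^ 2 * _
    rw [norm_mul]
    ring

end Met

/-! ### divisors -/

/-- the limit of `f / g` at `x` -/
def quo (f g : X → ℂ) (x : X) : ℂ := limUnder (𝓝[{y | g y ≠ 0}] x) fun y => f y / g y

theorem quo_eq {f g u : X → ℂ} {x : X} (hd : x ∈ closure {y | g y ≠ 0}) (hu : ContinuousAt u x)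
    (he : ∀ᶠ y in 𝓝 x, f y = u y * g y) : quo f g x = u x := by
  have hne : (𝓝[{y | g y ≠ 0}] x).NeBot := mem_closure_iff_nhdsWithin_neBot.1 hd
  refine Tendsto.limUnder_eq ?_
  have h1 : Tendsto u (𝓝[{y | g y ≠ 0}] x) (𝓝 (u x)) := hu.tendsto.mono_left nhdsWithin_le_nhds
  refine h1.congr' ?_
  filter_upwards [he.filter_mono nhdsWithin_le_nhds, self_mem_nhdsWithin] with y hy hy'
  rw [hy, mul_div_cancel_right₀ _ hy']

/-- **the line bundle of a divisor given by local equations** `f a` on `V a` -/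
def CBo.ofEq {U : Set X} (α : Type) (V : α → Set X) (op : ∀ a, IsOpen (V a))
    (cov : ∀ x ∈ U, ∃ a, x ∈ V a) (f : α → X → ℂ)
    (dense : ∀ a, V a ⊆ closure {x | f a x ≠ 0})
    (loc : ∀ a b, ∀ x ∈ V a ∩ V b, ∃ W, IsOpen W ∧ x ∈ W ∧ ∃ u, HolF C W u ∧ (∀ y ∈ W, u y ≠ 0) ∧
      ∀ y ∈ W, f a y = u y * f b y) : CBo C U where
  α := α
  V := V
  op := op
  cov := cov
  g a b := quo (f a) (f b)
  hol a b := by
    refine holF_of_local fun x hx => ?_
    obtain ⟨W, hW, hxW, u, hu, hu0, he⟩ := loc a b x hx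
    refine ⟨W ∩ V b, hW.inter (op b), ⟨hxW, hx.2⟩, holF_congr (holF_mono hu inter_subset_left) ?_⟩
    intro y hy
    exact quo_eq (dense b hy.2) (holF_contAt hW hu hy.1) (by
      filter_upwards [hW.mem_nhds hy.1] with z hz using he z hz)
  ne a b x hx := by
    obtain ⟨W, hW, hxW, u, hu, hu0, he⟩ := loc a b x hx
    rw [quo_eq (dense b hx.2) (holF_contAt hW hu hxW) (by
      filter_upwards [hW.mem_nhds hxW] with z hz using he z hz)]
    exact hu0 x hxW
  mul a b c x hx := by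
    obtain ⟨W₁, hW₁, hx₁, u₁, hu₁, -, he₁⟩ := loc a b x ⟨hx.1.1, hx.1.2⟩
    obtain ⟨W₂, hW₂, hx₂, u₂, hu₂, -, he₂⟩ := loc b c x ⟨hx.1.2, hx.2⟩
    rw [quo_eq (dense b hx.1.2) (holF_contAt hW₁ hu₁ hx₁) (by
        filter_upwards [hW₁.mem_nhds hx₁] with z hz using he₁ z hz),
      quo_eq (dense c hx.2) (holF_contAt hW₂ hu₂ hx₂) (by
        filter_upwards [hW₂.mem_nhds hx₂] with z hz using he₂ z hz)]
    refine (quo_eq (u := fun y => u₁ y * u₂ y) (dense c hx.2)
      ((holF_contAt hW₁ hu₁ hx₁).mul (holF_contAt hW₂ hu₂ hx₂)) ?_).symm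
    filter_upwards [hW₁.mem_nhds hx₁, hW₂.mem_nhds hx₂] with z hz₁ hz₂
    rw [he₁ z hz₁, he₂ z hz₂, mul_assoc]

/-- the canonical section of the bundle of a divisor -/
def Sec.ofEq {U : Set X} {α : Type} {V : α → Set X} {op : ∀ a, IsOpen (V a)}
    {cov : ∀ x ∈ U, ∃ a, x ∈ V a} {f : α → X → ℂ}
    {dense : ∀ a, V a ⊆ closure {x | f a x ≠ 0}}
    {loc : ∀ a b, ∀ x ∈ V a ∩ V b, ∃ W, IsOpen W ∧ x ∈ W ∧ ∃ u, HolF C W u ∧ (∀ y ∈ W, u y ≠ 0) ∧
      ∀ y ∈ W, f a y = u y * f b y} (hf : ∀ a, HolF C (V a) (f a)) (W : Set X) :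
    Sec (CBo.ofEq α V op cov f dense loc) W where
  s := f
  hol a := holF_mono (hf a) inter_subset_left
  tr a b x hx := by
    obtain ⟨W, hW, hxW, u, hu, hu0, he⟩ := loc a b x hx.1
    show f a x = quo (f a) (f b) x * f b x
    rw [quo_eq (dense b hx.1.2) (holF_contAt hW hu hxW) (by
      filter_upwards [hW.mem_nhds hxW] with z hz using he z hz)]
    exact he x hxW

end

end Crest.Agent.R272.CB_232
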