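import Crest.Agent.R272.CB1_232

/-!
# R272, task CB (helper232), part 2: from open covers to atlases

`CB.lb`        : the line bundle on an atlas subordinate to the cover of a `CB`;
`isHS_lb`      : sections;  `hmo_lb`, `hm_lb` : metrics;
`Tan C y K x j`: the condition (TAN) of POS-FIB (220) in the chart `j`; `tan_chg`, `tan_frame` : it does not
                 depend on the chart or on the frame.
-/

set_option autoImplicit false
set_option linter.unusedSectionVars false

open Set Filter Topology Complex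
open scoped ContDiff Matrix ComplexConjugate Manifold

namespace Crest.Agent.R272.CB_232

open Crest.Agent.R275.Geo Crest.Agent.R275.Core144 Crest.Agent.R275.GC293
open Crest.Agent.R273.Defs_333 Crest.Agent.R273.Map_835 Crest.Agent.R273.PB_835
open Crest.Agent.R273.Fam_835
open Crest.Agent.R272.Quot_783 Crest.Agent.R272.PosGlue_232

noncomputable section

variable {n m : ℕ} {X N : Type} [TopologicalSpace X] [TopologicalSpace N]
  {C C' : Fam n X} {D : Fam m N} {p : X → N} {U V W : Set X} {F G : X → ℂ}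

theorem HolC.anAt (h : HolC C D p) {i : C.ι} {j : D.ι} {z : Cn n} (hz : z ∈ (C.e i).target)
    (hj : p ((C.e i).symm z) ∈ (D.e j).source) :
    AnalyticAt ℂ (fun z => D.e j (p ((C.e i).symm z))) z :=
  Crest.Agent.R266.SCV.analyticOnNhd_of_differentiableOn (h.isOpen_dm i j) (h.hol i j) z ⟨hz, hj⟩

theorem smOn_comp {U : Set N} {f : N → ℝ} (hp : HolC C D p) (hU : IsOpen U) (hf : SmOn D U f) :
    SmOn C (p ⁻¹' U) fun x => f (p x) := by
  intro j z hz
  set x := (C.e j).symm z with hx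
  obtain ⟨l, hl⟩ := D.cover (p x)
  have h1 : ContDiffAt ℝ ∞ (fun y => f ((D.e l).symm y)) (D.e l (p x)) :=
    (hf l).contDiffAt (((D.e l).isOpen_inter_preimage_symm hU).mem_nhds
      ⟨(D.e l).map_source hl, by rw [mem_preimage, (D.e l).left_inv hl]; exact hz.2⟩)
  have h2 : ContDiffAt ℝ ∞ (fun z => D.e l (p ((C.e j).symm z))) z :=
    (HolC.anAt hp (i := j) (j := l) hz.1 hl).contDiffAt.restrict_scalars ℝ
  have h3 := ContDiffAt.comp z (g := fun y => f ((D.e l).symm y))
    (f := fun z => D.e l (p ((C.e j).symm z))) h1 h2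
  refine (h3.congr_of_eventuallyEq ?_).contDiffWithinAt
  filter_upwards [(hp.isOpen_dm j l).mem_nhds ⟨hz.1, hl⟩] with w hw
  simp only [Function.comp]
  rw [(D.e l).left_inv hw.2]

section Bridge

variable (L : CB C) (A : Atl n X) (hA : HolC (fam A) C id) (c : A.ι → L.α)
  (hc : ∀ i, (A.e i).source ⊆ L.V (c i))

open Classical in
/-- the line bundle on a subordinate atlas -/
def CB.lb : LB A where
  g i j x := if x ∈ (A.e i).source ∩ (A.e j).source then L.g (c i) (c j) x else 1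
  hol i j := by
    have h1 : HolF (fam A) (id ⁻¹' (L.V (c i) ∩ L.V (c j))) fun x => L.g (c i) (c j) (id x) :=
      holF_comp hA ((L.op _).inter (L.op _)) (L.hol _ _)
    refine ((h1 i).mono ?_).congr ?_
    · rintro z ⟨hz, hz'⟩
      exact ⟨hz, hc i ((A.e i).map_target hz), hc j hz'⟩
    · rintro z ⟨hz, hz'⟩
      exact if_pos ⟨(A.e i).map_target hz, hz'⟩
  off i j x hx := if_neg hx
  self i x := by
    by_cases hx : x ∈ (A.e i).source
    · rw [if_pos ⟨hx, hx⟩, L.self (hc i hx)]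
    · rw [if_neg fun h => hx h.1]
  mul i j k x hx := by
    rw [if_pos hx.1, if_pos ⟨hx.1.2, hx.2⟩, if_pos ⟨hx.1.1, hx.2⟩,
      L.mul _ _ _ x ⟨⟨hc i hx.1.1, hc j hx.1.2⟩, hc k hx.2⟩]

theorem CB.lb_g {i j : A.ι} {x : X} (hi : x ∈ (A.e i).source) (hj : x ∈ (A.e j).source) :
    (CB.lb L A hA c hc).g i j x = L.g (c i) (c j) x := if_pos ⟨hi, hj⟩

open Classical in
/-- a section on the subordinate atlas -/
def Sec.on (y : Sec L W) (i : A.ι) (x : X) : ℂ :=
  if x ∈ (A.e i).source ∩ W then y.s (c i) x else 0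

variable {L} in
theorem Sec.on_eq (y : Sec L W) {i : A.ι} {x : X} (hi : x ∈ (A.e i).source) (hx : x ∈ W) :
    Sec.on L A c y i x = y.s (c i) x := if_pos ⟨hi, hx⟩

theorem isHS_lb (hW : IsOpen W) (y : Sec L W) :
    IsHS (CB.lb L A hA c hc) W (Sec.on L A c y) where
  hol i := by
    have h1 : HolF (fam A) (id ⁻¹' (L.V (c i) ∩ W)) fun x => y.s (c i) (id x) :=
      holF_comp hA ((L.op _).inter hW) (y.hol _)
    refine ((h1 i).mono ?_).congr ?_
    · rintro z ⟨hz, hz'⟩
      exact ⟨hz, hc i ((A.e i).map_target hz), hz'⟩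
    · rintro z ⟨hz, hz'⟩
      exact if_pos ⟨(A.e i).map_target hz, hz'⟩
  off i x hx := if_neg fun h => hx h.1
  tr i j x hx hxW := by
    rw [Sec.on_eq A c y hx.1 hxW, Sec.on_eq A c y hx.2 hxW, CB.lb_g L A hA c hc hx.1 hx.2,
      y.tr _ _ x ⟨⟨hc i hx.1, hc j hx.2⟩, hxW⟩]

/-- a local metric on the subordinate atlas -/
def hmo_lb (hW : IsOpen W) (h : Met L W) : HMo (CB.lb L A hA c hc) W where
  w i x := h.w (c i) x
  pos i x hx hxW := h.pos _ x ⟨hc i hx, hxW⟩
  sm i := by
    have h1 : SmOn (fam A) (id ⁻¹' (L.V (c i) ∩ W)) fun x => h.w (c i) (id x) :=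
      smOn_comp hA ((L.op _).inter hW) (h.sm _)
    exact (h1 i).mono fun z hz => ⟨hz.1, hc i ((A.e i).map_target hz.1), hz.2⟩
  tr i j x hx hxW := by
    rw [CB.lb_g L A hA c hc hx.1 hx.2]
    exact h.tr _ _ x ⟨⟨hc i hx.1, hc j hx.2⟩, hxW⟩

/-- a global metric on the subordinate atlas -/
def hm_lb (h : Met L univ) : HM (CB.lb L A hA c hc) where
  w i x := h.w (c i) x
  pos i x hx := h.pos _ x ⟨hc i hx, mem_univ _⟩
  sm i := by
    have h1 : SmOn (fam A) (id ⁻¹' (L.V (c i) ∩ univ)) fun x => h.w (c i) (id x) :=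
      smOn_comp hA ((L.op _).inter isOpen_univ) (h.sm _)
    exact (h1 i).mono fun z hz => ⟨hz, hc i ((A.e i).map_target hz), mem_univ _⟩
  tr i j x hx := by
    rw [CB.lb_g L A hA c hc hx.1 hx.2]
    exact h.tr _ _ x ⟨⟨hc i hx.1, hc j hx.2⟩, mem_univ _⟩

end Bridge

/-! ### change of chart -/

/-- the coordinate change, its derivative is injective -/
theorem chg_ne (h₁ : HolC C' C id) (h₂ : HolC C C' id) {j : C.ι} {j' : C'.ι} {x : X}
    (hj : x ∈ (C.e j).source) (hj' : x ∈ (C'.e j').source) {v : Cn n} (hv : v ≠ 0) :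
    fderiv ℂ (fun z => C.e j ((C'.e j').symm z)) (C'.e j' x) v ≠ 0 := by
  intro h0
  have d1 : DifferentiableAt ℂ (fun z => C.e j (id ((C'.e j').symm z))) (C'.e j' x) :=
    h₁.diffAt (i := j') (j := j) ((C'.e j').map_source hj')
      (by rw [(C'.e j').left_inv hj']; exact hj)
  have d2 : DifferentiableAt ℂ (fun z => C'.e j' (id ((C.e j).symm z))) (C.e j x) :=
    h₂.diffAt (i := j) (j := j') ((C.e j).map_source hj) (by rw [(C.e j).left_inv hj]; exact hj')
  have e1 : C.e j (id ((C'.e j').symm (C'.e j' x))) = C.e j x := by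
    rw [(C'.e j').left_inv hj', id]
  have d2' : DifferentiableAt ℂ (fun z => C'.e j' (id ((C.e j).symm z)))
      (C.e j (id ((C'.e j').symm (C'.e j' x)))) := by rw [e1]; exact d2
  have h3 : HasFDerivAt (fun z => C'.e j' (id ((C.e j).symm (C.e j (id ((C'.e j').symm z))))))
      ((fderiv ℂ (fun z => C'.e j' (id ((C.e j).symm z)))
        (C.e j (id ((C'.e j').symm (C'.e j' x))))).comp
        (fderiv ℂ (fun z => C.e j (id ((C'.e j').symm z))) (C'.e j' x))) (C'.e j' x) :=
    HasFDerivAt.comp (C'.e j' x) (g := fun z => C'.e j' (id ((C.e j).symm z)))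
      (f := fun z => C.e j (id ((C'.e j').symm z))) d2'.hasFDerivAt d1.hasFDerivAt
  have ho : IsOpen ((C'.e j').target ∩ (C'.e j').symm ⁻¹' (C.e j).source) :=
    (C'.e j').isOpen_inter_preimage_symm (C.e j).open_source
  have h4 : HasFDerivAt (fun z => C'.e j' (id ((C.e j).symm (C.e j (id ((C'.e j').symm z))))))
      (ContinuousLinearMap.id ℂ (Cn n)) (C'.e j' x) := by
    refine (hasFDerivAt_id _).congr_of_eventuallyEq ?_
    filter_upwards [ho.mem_nhds ⟨(C'.e j').map_source hj', by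
      rw [mem_preimage, (C'.e j').left_inv hj']; exact hj⟩] with w hw
    simp only [id]
    rw [(C.e j).left_inv hw.2, (C'.e j').right_inv hw.1]
  have h5 := h3.unique h4
  have h6 := congrArg (fun T : Cn n →L[ℂ] Cn n => T v) h5
  simp only [ContinuousLinearMap.comp_apply, ContinuousLinearMap.id_apply] at h6
  have h0' : fderiv ℂ (fun z => C.e j (id ((C'.e j').symm z))) (C'.e j' x) v = 0 := h0
  rw [h0', map_zero] at h6
  exact hv h6.symm

/-- chain rule for functions -/
theorem fderiv_chg (h₁ : HolC C' C id) (hU : IsOpen U) (hF : HolF C U F) {j : C.ι} {j' : C'.ι}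
    {x : X} (hj : x ∈ (C.e j).source) (hj' : x ∈ (C'.e j').source) (hx : x ∈ U) (v : Cn n) :
    fderiv ℂ (fun z => F ((C'.e j').symm z)) (C'.e j' x) v =
      fderiv ℂ (fun z => F ((C.e j).symm z)) (C.e j x)
        (fderiv ℂ (fun z => C.e j ((C'.e j').symm z)) (C'.e j' x) v) := by
  have d1 : DifferentiableAt ℂ (fun z => C.e j (id ((C'.e j').symm z))) (C'.e j' x) :=
    h₁.diffAt (i := j') (j := j) ((C'.e j').map_source hj')
      (by rw [(C'.e j').left_inv hj']; exact hj)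
  have d2 : DifferentiableAt ℂ (fun z => F ((C.e j).symm z)) (C.e j x) := hF.diffAt hU hj hx
  have e1 : C.e j (id ((C'.e j').symm (C'.e j' x))) = C.e j x := by
    rw [(C'.e j').left_inv hj', id]
  have d2' : DifferentiableAt ℂ (fun z => F ((C.e j).symm z))
      (C.e j (id ((C'.e j').symm (C'.e j' x)))) := by rw [e1]; exact d2
  have h3 : HasFDerivAt (fun z => F ((C.e j).symm (C.e j (id ((C'.e j').symm z)))))
      ((fderiv ℂ (fun z => F ((C.e j).symm z))
        (C.e j (id ((C'.e j').symm (C'.e j' x))))).comp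
        (fderiv ℂ (fun z => C.e j (id ((C'.e j').symm z))) (C'.e j' x))) (C'.e j' x) :=
    HasFDerivAt.comp (C'.e j' x) (g := fun z => F ((C.e j).symm z))
      (f := fun z => C.e j (id ((C'.e j').symm z))) d2'.hasFDerivAt d1.hasFDerivAt
  have ho : IsOpen ((C'.e j').target ∩ (C'.e j').symm ⁻¹' (C.e j).source) :=
    (C'.e j').isOpen_inter_preimage_symm (C.e j).open_source
  have h4 : (fun z => F ((C'.e j').symm z)) =ᶠ[𝓝 (C'.e j' x)]
      fun z => F ((C.e j).symm (C.e j (id ((C'.e j').symm z)))) := by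
    filter_upwards [ho.mem_nhds ⟨(C'.e j').map_source hj', by
      rw [mem_preimage, (C'.e j').left_inv hj']; exact hj⟩] with w hw
    simp only [id]
    rw [(C.e j).left_inv hw.2]
  rw [h4.fderiv_eq, h3.fderiv, e1]
  rfl

/-- condition (TAN) at `x` in the chart `j`, for the functions `y k` and the set `K` -/
def Tan {κ : Type*} (C : Fam n X) (y : κ → X → ℂ) (K : Set X) (x : X) (j : C.ι) : Prop :=
  ∀ v : Cn n, v ≠ 0 →
    (∃ c : ℂ, ∀ k, fderiv ℂ (fun z => y k ((C.e j).symm z)) (C.e j x) v = c * y k x) →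
    ∃ (G : X → ℂ) (W : Set X), IsOpen W ∧ x ∈ W ∧ HolF C W G ∧ (∀ y ∈ K ∩ W, G y = 0) ∧
      fderiv ℂ (fun z => G ((C.e j).symm z)) (C.e j x) v ≠ 0

theorem tan_chg {κ : Type*} (h₁ : HolC C' C id) (h₂ : HolC C C' id) {y : κ → X → ℂ} {K : Set X}
    {j : C.ι} {j' : C'.ι} {x : X} (hU : IsOpen U) (hy : ∀ k, HolF C U (y k))
    (hj : x ∈ (C.e j).source) (hj' : x ∈ (C'.e j').source) (hx : x ∈ U) (h : Tan C y K x j) :
    Tan C' y K x j' := by
  rintro v hv ⟨c, hcv⟩
  obtain ⟨G, W, hW, hxW, hG, hG0, hGv⟩ := h _ (chg_ne h₁ h₂ hj hj' hv)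
    ⟨c, fun k => by rw [← fderiv_chg h₁ hU (hy k) hj hj' hx, hcv k]⟩
  refine ⟨G, W, hW, hxW, ?_, hG0, ?_⟩
  · exact holF_comp h₁ hW hG
  · rw [fderiv_chg h₁ hW hG hj hj' hxW]
    exact hGv

/-- change of frame -/
theorem tan_frame {κ : Type*} {y y' : κ → X → ℂ} {u : X → ℂ} {K : Set X} {j : C.ι} {x : X}
    (hU : IsOpen U) (hy : ∀ k, HolF C U (y k)) (hu : HolF C U u) (hu0 : u x ≠ 0)
    (he : ∀ k, ∀ z ∈ U, y' k z = u z * y k z) (hj : x ∈ (C.e j).source) (hx : x ∈ U)
    (h : Tan C y K x j) : Tan C y' K x j := by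
  rintro v hv ⟨c, hcv⟩
  refine h v hv ⟨c - fderiv ℂ (fun z => u ((C.e j).symm z)) (C.e j x) v / u x, fun k => ?_⟩
  have h1 := hcv k
  have ho : IsOpen ((C.e j).target ∩ (C.e j).symm ⁻¹' U) := (C.e j).isOpen_inter_preimage_symm hU
  have hm : C.e j x ∈ (C.e j).target ∩ (C.e j).symm ⁻¹' U :=
    ⟨(C.e j).map_source hj, by rw [mem_preimage, (C.e j).left_inv hj]; exact hx⟩
  have h2 : (fun z => y' k ((C.e j).symm z)) =ᶠ[𝓝 (C.e j x)]
      fun z => u ((C.e j).symm z) * y k ((C.e j).symm z) := by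
    filter_upwards [ho.mem_nhds hm] with w hw
    exact he k _ hw.2
  have du := hu.diffAt hU hj hx
  have dy := (hy k).diffAt hU hj hx
  rw [h2.fderiv_eq, fderiv_fun_mul du dy, he k x hx] at h1
  simp only [_root_.add_apply, _root_.smul_apply, smul_eq_mul, (C.e j).left_inv hj] at h1
  rw [sub_mul, div_mul_eq_mul_div, eq_sub_iff_add_eq]
  field_simp
  linear_combination h1

end

end Crest.Agent.R272.CB_232
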