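import Crest.Agent.R272.CB2_232

/-!
# R272, task CB (helper232), part 3: positivity

`lv C w j x v`  : the Levi form of `-log w` at `x` in the chart `j`; `lv_chg`, `lv_unit`, `lv_mul`;
`PosAtC h x`    : positive curvature of `h : Met L W` at `x`; `posAtC_of` : one frame and one chart suffice;
`PosNear L K`   : `L` has a metric of positive curvature near `K`; `PosNear.of_zpow` (roots), `PosNear.zpow`,
                  `PosNear.tens`;
`pos_end`       : **`PosNear L (p⁻¹{q})` for all `q` + a positive bundle on the base ⟹ a positive bundle on `X`.**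
-/

set_option autoImplicit false
set_option linter.unusedSectionVars false

open Set Filter Topology Complex
open scoped ContDiff Matrix ComplexConjugate Manifold

namespace Crest.Agent.R272.CB_232

open Crest.Agent.R275.Geo Crest.Agent.R275.Core144 Crest.Agent.R275.GC293
open Crest.Agent.R273 Crest.Agent.R273.Defs_333 Crest.Agent.R273.Map_835
open Crest.Agent.R273.Fam_835
open Crest.Agent.R272.Quot_783 Crest.Agent.R272.PosGlue_232

noncomputable section

variable {n m : ℕ} {X N : Type} [TopologicalSpace X] [TopologicalSpace N]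
  {C C' : Fam n X} {D : Fam m N} {p : X → N} {U V W : Set X} {w w' : X → ℝ}

theorem SmOn.contDiffAt (h : SmOn C U w) (hU : IsOpen U) {j : C.ι} {x : X}
    (hj : x ∈ (C.e j).source) (hx : x ∈ U) :
    ContDiffAt ℝ ∞ (fun z => w ((C.e j).symm z)) (C.e j x) :=
  (h j).contDiffAt (((C.e j).isOpen_inter_preimage_symm hU).mem_nhds
    ⟨(C.e j).map_source hj, by rw [mem_preimage, (C.e j).left_inv hj]; exact hx⟩)

/-- Levi form of `-log w` at `x`, in the chart `j` -/
def lv (C : Fam n X) (w : X → ℝ) (j : C.ι) (x : X) (v : Cn n) : ℝ :=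
  lev (fun z => - Real.log (w ((C.e j).symm z))) (C.e j x) v

theorem log_c2 (h : SmOn C U w) (hU : IsOpen U) (hpos : ∀ x ∈ U, 0 < w x) {j : C.ι} {x : X}
    (hj : x ∈ (C.e j).source) (hx : x ∈ U) :
    ContDiffAt ℝ ∞ (fun z => - Real.log (w ((C.e j).symm z))) (C.e j x) := by
  have h1 := h.contDiffAt hU hj hx
  exact (h1.log (by rw [(C.e j).left_inv hj]; exact (hpos x hx).ne')).neg

theorem lv_congr {j : C.ι} {x : X} (hj : x ∈ (C.e j).source) (he : ∀ᶠ y in 𝓝 x, w' y = w y)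
    (v : Cn n) : lv C w' j x v = lv C w j x v := by
  refine PB_835.lev_congr' ?_ v
  have h1 : Tendsto (C.e j).symm (𝓝 (C.e j x)) (𝓝 x) := by
    have := (C.e j).continuousAt_symm ((C.e j).map_source hj)
    rwa [ContinuousAt, (C.e j).left_inv hj] at this
  filter_upwards [h1.eventually he] with z hz
  rw [hz]

/-- change of chart -/
theorem lv_chg (h₁ : HolC C' C id) (hU : IsOpen U) (hw : SmOn C U w) (hpos : ∀ x ∈ U, 0 < w x)
    {j : C.ι} {j' : C'.ι} {x : X} (hj : x ∈ (C.e j).source) (hj' : x ∈ (C'.e j').source)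
    (hx : x ∈ U) (v : Cn n) :
    lv C' w j' x v = lv C w j x (fderiv ℂ (fun z => C.e j ((C'.e j').symm z)) (C'.e j' x) v) := by
  have e1 : C.e j (id ((C'.e j').symm (C'.e j' x))) = C.e j x := by
    rw [(C'.e j').left_inv hj', id]
  have ha : AnalyticAt ℂ (fun z => C.e j (id ((C'.e j').symm z))) (C'.e j' x) :=
    HolC.anAt h₁ (i := j') (j := j) ((C'.e j').map_source hj')
      (by rw [(C'.e j').left_inv hj']; exact hj)
  have hu : ContDiffAt ℝ 2 (fun z => - Real.log (w ((C.e j).symm z)))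
      (C.e j (id ((C'.e j').symm (C'.e j' x)))) := by
    rw [e1]
    exact (log_c2 hw hU hpos hj hx).of_le (by norm_cast)
  have h2 := Levi_145.lev_comp (z := C'.e j' x) ha hu v
  have ho : IsOpen ((C'.e j').target ∩ (C'.e j').symm ⁻¹' (C.e j).source) :=
    (C'.e j').isOpen_inter_preimage_symm (C.e j).open_source
  have h4 : (fun z => - Real.log (w ((C'.e j').symm z))) =ᶠ[𝓝 (C'.e j' x)]
      fun z => - Real.log (w ((C.e j).symm (C.e j (id ((C'.e j').symm z))))) := by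
    filter_upwards [ho.mem_nhds ⟨(C'.e j').map_source hj', by
      rw [mem_preimage, (C'.e j').left_inv hj']; exact hj⟩] with y hy
    simp only [id]
    rw [(C.e j).left_inv hy.2]
  unfold lv
  rw [PB_835.lev_congr' h4, PB_835.lev_bridge, h2, ← PB_835.lev_bridge, e1]
  rfl

/-- products -/
theorem lv_mul (hU : IsOpen U) (hw : SmOn C U w) (hpos : ∀ x ∈ U, 0 < w x) (hw' : SmOn C U w')
    (hpos' : ∀ x ∈ U, 0 < w' x) {j : C.ι} {x : X} (hj : x ∈ (C.e j).source) (hx : x ∈ U)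
    (v : Cn n) : lv C (fun y => w y * w' y) j x v = lv C w j x v + lv C w' j x v := by
  have h1 := (log_c2 hw hU hpos hj hx).of_le (show (2 : WithTop ℕ∞) ≤ ∞ by norm_cast)
  have h2 := (log_c2 hw' hU hpos' hj hx).of_le (show (2 : WithTop ℕ∞) ≤ ∞ by norm_cast)
  have ho : IsOpen ((C.e j).target ∩ (C.e j).symm ⁻¹' U) := (C.e j).isOpen_inter_preimage_symm hU
  have hm : C.e j x ∈ (C.e j).target ∩ (C.e j).symm ⁻¹' U :=
    ⟨(C.e j).map_source hj, by rw [mem_preimage, (C.e j).left_inv hj]; exact hx⟩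
  have h3 : (fun z => - Real.log (w ((C.e j).symm z) * w' ((C.e j).symm z))) =ᶠ[𝓝 (C.e j x)]
      fun z => - Real.log (w ((C.e j).symm z)) + - Real.log (w' ((C.e j).symm z)) := by
    filter_upwards [ho.mem_nhds hm] with z hz
    rw [Real.log_mul (hpos _ hz.2).ne' (hpos' _ hz.2).ne']
    ring
  unfold lv
  rw [PB_835.lev_congr' h3, PB_835.lev_bridge, Levi_145.lev_add h1 h2, mul_add,
    ← PB_835.lev_bridge, ← PB_835.lev_bridge]

/-- multiplication by `‖u‖²`, `u` holomorphic without zeros -/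
theorem lv_unit {u : X → ℂ} (hU : IsOpen U) (hw : SmOn C U w) (hpos : ∀ x ∈ U, 0 < w x)
    (hu : HolF C U u) (hu0 : ∀ x ∈ U, u x ≠ 0) {j : C.ι} {x : X} (hj : x ∈ (C.e j).source)
    (hx : x ∈ U) (v : Cn n) : lv C (fun y => ‖u y‖ ^ 2 * w y) j x v = lv C w j x v := by
  have ho : IsOpen ((C.e j).target ∩ (C.e j).symm ⁻¹' U) := (C.e j).isOpen_inter_preimage_symm hU
  have hm : C.e j x ∈ (C.e j).target ∩ (C.e j).symm ⁻¹' U :=
    ⟨(C.e j).map_source hj, by rw [mem_preimage, (C.e j).left_inv hj]; exact hx⟩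
  have h0 : u ((C.e j).symm (C.e j x)) ≠ 0 := by rw [(C.e j).left_inv hj]; exact hu0 x hx
  have ha : AnalyticAt ℂ (fun z => u ((C.e j).symm z)) (C.e j x) :=
    Crest.Agent.R266.SCV.analyticOnNhd_of_differentiableOn ho (hu j) _ hm
  rw [lv_mul hU (holF_smOn_normSq hU hu) (fun y hy => by have := hu0 y hy; positivity) hw hpos
    hj hx v]
  have h1 : lv C (fun y => ‖u y‖ ^ 2) j x v = 0 := by
    unfold lv
    have h2 : (fun z => - Real.log (‖u ((C.e j).symm z)‖ ^ 2)) =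
        fun z => (-1 : ℝ) * Real.log (‖u ((C.e j).symm z)‖ ^ 2) := by
      funext z; ring
    rw [PB_835.lev_bridge, h2, Levi_145.lev_const_mul (-1) (Levi_145.c2_log_normSq ha h0 2),
      Levi_145.lev_log_normSq ha h0]
    ring
  rw [h1, zero_add]

/-- scaling of the weight -/
theorem lv_scale (hU : IsOpen U) (hw : SmOn C U w) (hpos : ∀ x ∈ U, 0 < w x) (c : ℝ)
    {j : C.ι} {x : X} (hj : x ∈ (C.e j).source) (hx : x ∈ U) (v : Cn n) :
    lv C (fun y => Real.exp (c * Real.log (w y))) j x v = c * lv C w j x v := by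
  have h1 := (log_c2 hw hU hpos hj hx).of_le (show (2 : WithTop ℕ∞) ≤ ∞ by norm_cast)
  unfold lv
  have h2 : (fun z => - Real.log (Real.exp (c * Real.log (w ((C.e j).symm z))))) =
      fun z => c * - Real.log (w ((C.e j).symm z)) := by
    funext z
    rw [Real.log_exp]
    ring
  rw [h2, PB_835.lev_bridge, Levi_145.lev_const_mul c h1, PB_835.lev_bridge]
  ring

/-! ### positivity at a point -/

variable {L L' : CBo C V}

/-- positive curvature at `x` -/
def PosAtC (h : Met L W) (x : X) : Prop :=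
  ∀ a j, x ∈ L.V a → x ∈ (C.e j).source → ∀ v : Cn n, v ≠ 0 → 0 < lv C (h.w a) j x v

/-- change of frame -/
theorem lv_frame (hW : IsOpen W) (h : Met L W) {a b : L.α} {j : C.ι} {x : X} (ha : x ∈ L.V a)
    (hb : x ∈ L.V b) (hj : x ∈ (C.e j).source) (hx : x ∈ W) (v : Cn n) :
    lv C (h.w b) j x v = lv C (h.w a) j x v := by
  have hU : IsOpen (L.V a ∩ L.V b ∩ W) := ((L.op a).inter (L.op b)).inter hW
  rw [← lv_unit (u := L.g a b) hU ((h.sm a).mono fun y hy => ⟨hy.1.1, hy.2⟩)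
    (fun y hy => h.pos a y ⟨hy.1.1, hy.2⟩) (holF_mono (L.hol a b) inter_subset_left)
    (fun y hy => L.ne a b y hy.1) hj ⟨⟨ha, hb⟩, hx⟩ v]
  refine lv_congr hj ?_ v
  filter_upwards [hU.mem_nhds ⟨⟨ha, hb⟩, hx⟩] with y hy
  exact h.tr a b y hy

theorem holC_id (C : Fam n X) : HolC C C id := HolC.id C

theorem posAtC_of (hW : IsOpen W) {h : Met L W} {a : L.α} {j : C.ι} {x : X} (ha : x ∈ L.V a)
    (hj : x ∈ (C.e j).source) (hx : x ∈ W) (H : ∀ v : Cn n, v ≠ 0 → 0 < lv C (h.w a) j x v) :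
    PosAtC h x := by
  intro b l hb hl v hv
  rw [lv_frame hW h ha hb hl hx v]
  have hU : IsOpen (L.V a ∩ W) := (L.op a).inter hW
  rw [lv_chg (holC_id C) hU (h.sm a) (fun y hy => h.pos a y hy) hj hl ⟨ha, hx⟩ v]
  exact H _ (chg_ne (holC_id C) (holC_id C) hj hl hv)

/-- `L` has a metric with positive curvature near `K` -/
def PosNear (L : CBo C V) (K : Set X) : Prop :=
  ∃ W, IsOpen W ∧ K ⊆ W ∧ ∃ h : Met L W, ∀ x ∈ W, PosAtC h x

theorem PosNear.mono {K K' : Set X} (h : PosNear L K) (hK : K' ⊆ K) : PosNear L K' := by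
  obtain ⟨W, h1, h2, h3⟩ := h
  exact ⟨W, h1, hK.trans h2, h3⟩

theorem smOn_exp_log (hU : IsOpen U) (hw : SmOn C U w) (hpos : ∀ x ∈ U, 0 < w x) (c : ℝ) :
    SmOn C U fun y => Real.exp (c * Real.log (w y)) := by
  intro j
  have h1 : ContDiffOn ℝ ∞ (fun z => Real.log (w ((C.e j).symm z)))
      ((C.e j).target ∩ (C.e j).symm ⁻¹' U) := (hw j).log fun z hz => (hpos _ hz.2).ne'
  exact Real.contDiff_exp.comp_contDiffOn (contDiffOn_const.mul h1)

/-- metrics of powers: `c * k = 1` gives roots -/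
def Met.root (hW : IsOpen W) {k : ℕ} (hk : k ≠ 0) (h : Met (L.zpow k) W) : Met L W where
  w a x := Real.exp ((k : ℝ)⁻¹ * Real.log (h.w a x))
  pos _ _ _ := Real.exp_pos _
  sm a := smOn_exp_log ((L.op a).inter hW) (h.sm a) (fun x hx => h.pos a x hx) _
  tr a b x hx := by
    have h1 : h.w b x = ‖L.g a b x ^ (k : ℤ)‖ ^ 2 * h.w a x := h.tr a b x hx
    have h2 := L.ne a b x hx.1
    have h3 : 0 < ‖L.g a b x‖ := norm_pos_iff.2 h2
    have h4 : 0 < h.w a x := h.pos a x ⟨hx.1.1, hx.2⟩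
    have hk' : (k : ℝ) ≠ 0 := by exact_mod_cast hk
    rw [h1, zpow_natCast, norm_pow, ← pow_mul, Real.log_mul (by positivity) h4.ne', Real.log_pow,
      mul_add, Real.exp_add]
    congr 1
    rw [show (k : ℝ)⁻¹ * (((k * 2 : ℕ) : ℝ) * Real.log ‖L.g a b x‖) = 2 * Real.log ‖L.g a b x‖ by
      push_cast; field_simp]
    rw [show (2 : ℝ) * Real.log ‖L.g a b x‖ = Real.log (‖L.g a b x‖ ^ 2) by
      rw [Real.log_pow]; norm_cast]
    exact Real.exp_log (by positivity)

/-- natural powers of a metric -/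
def Met.npow (h : Met L W) (k : ℕ) : Met (L.zpow k) W where
  w a x := h.w a x ^ k
  pos a x hx := pow_pos (h.pos a x hx) k
  sm a := fun j => (h.sm a j).pow k
  tr a b x hx := by
    rw [h.tr a b x hx, mul_pow]
    show _ = ‖L.g a b x ^ (k : ℤ)‖ ^ 2 * _
    rw [zpow_natCast, norm_pow]
    ring

theorem PosNear.of_zpow {K : Set X} {k : ℕ} (hk : k ≠ 0) (h : PosNear (L.zpow k) K) :
    PosNear L K := by
  obtain ⟨W, hW, hK, h, hp⟩ := h
  refine ⟨W, hW, hK, Met.root hW hk h, fun x hx a j ha hj v hv => ?_⟩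
  have h1 := lv_scale (C := C) (U := L.V a ∩ W) ((L.op a).inter hW) (h.sm a)
    (fun y hy => h.pos a y hy) (k : ℝ)⁻¹ hj ⟨ha, hx⟩ v
  have h2 := hp x hx a j ha hj v hv
  have h3 : (0 : ℝ) < (k : ℝ)⁻¹ := by positivity
  show 0 < lv C (fun y => Real.exp ((k : ℝ)⁻¹ * Real.log (h.w a y))) j x v
  rw [h1]
  exact mul_pos h3 h2

theorem posAtC_npow (hW : IsOpen W) {h : Met L W} {k : ℕ} (hk : k ≠ 0) {x : X} (hx : x ∈ W)
    (hp : PosAtC h x) : PosAtC (h.npow k) x := by
  intro a j ha hj v hv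
  have hU : IsOpen (L.V a ∩ W) := (L.op a).inter hW
  have h1 := lv_scale (C := C) (U := L.V a ∩ W) hU (h.sm a)
    (fun y hy => h.pos a y hy) (k : ℝ) hj ⟨ha, hx⟩ v
  have h2 := hp a j ha hj v hv
  have h3 : lv C ((h.npow k).w a) j x v =
      lv C (fun y => Real.exp ((k : ℝ) * Real.log (h.w a y))) j x v := by
    refine lv_congr hj ?_ v
    filter_upwards [hU.mem_nhds ⟨ha, hx⟩] with y hy
    show h.w a y ^ k = _
    rw [← Real.log_pow, Real.exp_log (pow_pos (h.pos a y hy) k)]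
  rw [h3, h1]
  exact mul_pos (by positivity) h2

theorem lv_tens (hW : IsOpen W) (h : Met L W) (h' : Met L' W) {a : (L.tens L').α} {j : C.ι} {x : X}
    (ha : x ∈ (L.tens L').V a) (hj : x ∈ (C.e j).source) (hx : x ∈ W) (v : Cn n) :
    lv C ((h.tens h').w a) j x v = lv C (h.w a.1) j x v + lv C (h'.w a.2) j x v :=
  lv_mul (U := (L.V a.1 ∩ L'.V a.2) ∩ W) (((L.op _).inter (L'.op _)).inter hW)
    ((h.sm a.1).mono fun y hy => ⟨hy.1.1, hy.2⟩) (fun y hy => h.pos _ y ⟨hy.1.1, hy.2⟩)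
    ((h'.sm a.2).mono fun y hy => ⟨hy.1.2, hy.2⟩) (fun y hy => h'.pos _ y ⟨hy.1.2, hy.2⟩)
    hj ⟨ha, hx⟩ v

end

end Crest.Agent.R272.CB_232
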