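import Crest.Agent.R272.CB3_232

/-!
# R272, task CB (helper232), part 4: the end theorem of positivity

`exists_posAtC` : `Q` positive on the open `W ⊇ K` compact, `D` any metric ⟹ `Q^k ⊗ D` positive on `K`, `k ≥ k₀`;
`pos_end`       : `PosNear L (p⁻¹{q})` for all `q` + a positive bundle on the base ⟹ a positive bundle on `X`.
-/

set_option autoImplicit false
set_option linter.unusedSectionVars false
set_option linter.unusedVariables false

open Set Filter Topology Complex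
open scoped ContDiff Matrix ComplexConjugate Manifold

namespace Crest.Agent.R272.CB_232

open Crest.Agent.R275.Geo Crest.Agent.R275.Core144 Crest.Agent.R275.GC293
open Crest.Agent.R273 Crest.Agent.R273.Defs_333 Crest.Agent.R273.Map_835
open Crest.Agent.R273.Fam_835
open Crest.Agent.R272.Quot_783 Crest.Agent.R272.PosGlue_232

noncomputable section

variable {n m : ℕ} {X N : Type} [TopologicalSpace X] [TopologicalSpace N]
  {C C' : Fam n X} {D : Fam m N} {p : X → N} {U V W : Set X}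

theorem lv_npow {L : CBo C V} (hW : IsOpen W) (h : Met L W) (k : ℕ) {a : L.α} {j : C.ι} {x : X}
    (ha : x ∈ L.V a) (hj : x ∈ (C.e j).source) (hx : x ∈ W) (v : Cn n) :
    lv C ((h.npow k).w a) j x v = k * lv C (h.w a) j x v := by
  have hU : IsOpen (L.V a ∩ W) := (L.op a).inter hW
  rw [← lv_scale (C := C) (U := L.V a ∩ W) hU (h.sm a) (fun y hy => h.pos a y hy) (k : ℝ) hj
    ⟨ha, hx⟩ v]
  refine lv_congr hj ?_ v
  filter_upwards [hU.mem_nhds ⟨ha, hx⟩] with y hy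
  show h.w a y ^ k = _
  rw [← Real.log_pow, Real.exp_log (pow_pos (h.pos a y hy) k)]

/-- local form of `exists_posAtC` -/
theorem exists_posAtC_local {Q D : CBo C V} (hW : IsOpen W) (hQ : Met Q W) (hD : Met D W)
    (hpos : ∀ x ∈ W, PosAtC hQ x) {x : X} (hx : x ∈ W) (hxV : x ∈ V) :
    ∃ k₀ : ℕ, ∀ᶠ y in 𝓝 x, ∀ k : ℕ, k₀ ≤ k → PosAtC ((hQ.npow k).tens hD) y := by
  obtain ⟨j, hj⟩ := C.cover x
  obtain ⟨a, ha⟩ := Q.cov x hxV
  obtain ⟨b, hb⟩ := D.cov x hxV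
  have hU : IsOpen (Q.V a ∩ D.V b ∩ W) := ((Q.op a).inter (D.op b)).inter hW
  have ho : IsOpen ((C.e j).target ∩ (C.e j).symm ⁻¹' (Q.V a ∩ D.V b ∩ W)) :=
    (C.e j).isOpen_inter_preimage_symm hU
  have hm : C.e j x ∈ (C.e j).target ∩ (C.e j).symm ⁻¹' (Q.V a ∩ D.V b ∩ W) :=
    ⟨(C.e j).map_source hj, by rw [mem_preimage, (C.e j).left_inv hj]; exact ⟨⟨ha, hb⟩, hx⟩⟩
  obtain ⟨r, hr, hball⟩ := Metric.isOpen_iff.1 ho _ hm
  have hcb : Metric.closedBall (C.e j x) (r / 2) ⊆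
      (C.e j).target ∩ (C.e j).symm ⁻¹' (Q.V a ∩ D.V b ∩ W) :=
    (Metric.closedBall_subset_ball (by linarith)).trans hball
  have hK : IsCompact (Metric.closedBall (C.e j x) (r / 2) ×ˢ Metric.sphere (0 : Cn n) 1) :=
    (isCompact_closedBall _ _).prod (isCompact_sphere _ _)
  have cQ : ContDiffOn ℝ ∞ (fun z => - Real.log (hQ.w a ((C.e j).symm z)))
      ((C.e j).target ∩ (C.e j).symm ⁻¹' (Q.V a ∩ D.V b ∩ W)) := by
    have h1 := ((hQ.sm a).mono (show Q.V a ∩ D.V b ∩ W ⊆ Q.V a ∩ W from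
      fun y hy => ⟨hy.1.1, hy.2⟩)) j
    exact (h1.log fun z hz => (hQ.pos a _ ⟨hz.2.1.1, hz.2.2⟩).ne').neg
  have cD : ContDiffOn ℝ ∞ (fun z => - Real.log (hD.w b ((C.e j).symm z)))
      ((C.e j).target ∩ (C.e j).symm ⁻¹' (Q.V a ∩ D.V b ∩ W)) := by
    have h1 := ((hD.sm b).mono (show Q.V a ∩ D.V b ∩ W ⊆ D.V b ∩ W from
      fun y hy => ⟨hy.1.2, hy.2⟩)) j
    exact (h1.log fun z hz => (hD.pos b _ ⟨hz.2.1.2, hz.2.2⟩).ne').neg
  have hsub : Metric.closedBall (C.e j x) (r / 2) ×ˢ Metric.sphere (0 : Cn n) 1 ⊆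
      ((C.e j).target ∩ (C.e j).symm ⁻¹' (Q.V a ∩ D.V b ∩ W)) ×ˢ univ :=
    fun q hq => ⟨hcb hq.1, mem_univ _⟩
  have hposK : ∀ q ∈ Metric.closedBall (C.e j x) (r / 2) ×ˢ Metric.sphere (0 : Cn n) 1,
      0 < lev (fun z => - Real.log (hQ.w a ((C.e j).symm z))) q.1 q.2 := by
    rintro ⟨z, v⟩ ⟨hz, hv⟩
    have hz' := hcb hz
    have h1 := hpos _ hz'.2.2 a j hz'.2.1.1 ((C.e j).map_target hz'.1) v (by
      rintro rfl
      simp at hv)
    unfold lv at h1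
    rwa [(C.e j).right_inv hz'.1] at h1
  obtain ⟨k₀, hk₀⟩ := exists_large hK
    (a := fun q => lev (fun z => - Real.log (hD.w b ((C.e j).symm z))) q.1 q.2)
    (b := fun q => lev (fun z => - Real.log (hQ.w a ((C.e j).symm z))) q.1 q.2)
    ((lev_continuousOn ho cD).mono hsub) ((lev_continuousOn ho cQ).mono hsub)
    (fun q hq => (hposK q hq).le) (fun q hq h0 => absurd h0 (hposK q hq).ne')
  refine ⟨k₀, ?_⟩
  have hev : ∀ᶠ y in 𝓝 x, C.e j y ∈ Metric.closedBall (C.e j x) (r / 2) :=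
    ((C.e j).continuousAt hj).eventually_mem (Metric.closedBall_mem_nhds _ (by linarith))
  filter_upwards [hev, (C.e j).open_source.mem_nhds hj] with y hy hys k hk
  have hyU : y ∈ Q.V a ∩ D.V b ∩ W := by
    have := (hcb hy).2
    rwa [mem_preimage, (C.e j).left_inv hys] at this
  let ab : ((Q.zpow (k : ℤ)).tens D).α := (a, b)
  have hab : y ∈ ((Q.zpow (k : ℤ)).tens D).V ab := hyU.1
  refine posAtC_of hW (a := ab) (j := j) hab hys hyU.2 fun v hv => ?_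
  rw [lv_tens hW (hQ.npow k) hD (a := ab) hab hys hyU.2 v]
  show 0 < lv C ((hQ.npow k).w a) j y v + lv C (hD.w b) j y v
  rw [lv_npow hW hQ k hyU.1.1 hys hyU.2 v]
  have hv' : ‖v‖ ≠ 0 := norm_ne_zero_iff.2 hv
  set u : Cn n := ((‖v‖⁻¹ : ℝ) : ℂ) • v with hu
  have hun : ‖u‖ = 1 := by
    rw [hu, norm_smul, Complex.norm_real, norm_inv, norm_norm, inv_mul_cancel₀ hv']
  have hvu : v = ((‖v‖ : ℝ) : ℂ) • u := by
    rw [hu, smul_smul, ← Complex.ofReal_mul, mul_inv_cancel₀ hv', Complex.ofReal_one, one_smul]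
  have h1 := hk₀ k hk (C.e j y, u) ⟨hy, by simp [hun]⟩
  simp only at h1
  have h2 : ∀ w : X → ℝ, lv C w j y v = ‖v‖ ^ 2 * lev (fun z => - Real.log (w ((C.e j).symm z)))
      (C.e j y) u := by
    intro w
    unfold lv
    conv_lhs => rw [hvu]
    rw [lev_real_smul]
  rw [h2, h2]
  have h3 : 0 < ‖v‖ ^ 2 := by positivity
  nlinarith [mul_pos h3 h1]

/-- `Q` positive near the compact `K` ⟹ `Q^k ⊗ D` positive on `K` for large `k` -/
theorem exists_posAtC {Q D : CBo C V} (hW : IsOpen W) (hQ : Met Q W) (hD : Met D W)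
    (hpos : ∀ x ∈ W, PosAtC hQ x) {K : Set X} (hK : IsCompact K) (hKW : K ⊆ W) (hKV : K ⊆ V) :
    ∃ k₀ : ℕ, ∀ k : ℕ, k₀ ≤ k → ∀ x ∈ K, PosAtC ((hQ.npow k).tens hD) x := by
  have h1 : ∀ x ∈ K, ∃ k₀ : ℕ, ∀ᶠ y in 𝓝 x, ∀ k : ℕ, k₀ ≤ k →
      PosAtC ((hQ.npow k).tens hD) y := fun x hx =>
    exists_posAtC_local hW hQ hD hpos (hKW hx) (hKV hx)
  choose! k₀ hk₀ using h1
  obtain ⟨t, ht, htK⟩ := hK.elim_nhds_subcover
    (fun x => {y | ∀ k : ℕ, k₀ x ≤ k → PosAtC ((hQ.npow k).tens hD) y}) (fun x hx => hk₀ x hx)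
  refine ⟨t.sup k₀, fun k hk x hx => ?_⟩
  obtain ⟨y, hy, hxy⟩ := mem_iUnion₂.1 (htK hx)
  exact hxy k ((Finset.le_sup hy).trans hk)

/-- positivity of the metric transported to a subordinate atlas -/
theorem hmo_lb_pos (L : CB C) (A : Atl n X) (hA : HolC (fam A) C id) (hA' : HolC C (fam A) id)
    (c : A.ι → L.α) (hc : ∀ i, (A.e i).source ⊆ L.V (c i)) (hW : IsOpen W) (h : Met L W)
    (hpos : ∀ x ∈ W, PosAtC h x) (i : A.ι) {z : Cn n} (hz : z ∈ (A.e i).target)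
    (hzW : (A.e i).symm z ∈ W) {v : Cn n} (hv : v ≠ 0) :
    0 < lev ((hmo_lb L A hA c hc hW h).wt i) z v := by
  have hx := (A.e i).map_target hz
  set x := (A.e i).symm z with hxz
  obtain ⟨j, hj⟩ := C.cover x
  have hzx : A.e i x = z := (A.e i).right_inv hz
  have h1 := lv_chg (C := C) (C' := fam A) (j := j) (j' := i) hA
    (U := L.V (c i) ∩ W) ((L.op _).inter hW) (h.sm (c i)) (fun y hy => h.pos _ y hy) hj hx
    ⟨hc i hx, hzW⟩ v
  have h2 := hpos x hzW (c i) j (hc i hx) hj _ (chg_ne (C := C) (C' := fam A) hA hA' hj hx hv)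
  rw [← h1] at h2
  unfold lv at h2
  have h3 : (fam A).e i x = z := hzx
  rw [h3] at h2
  exact h2

/-- **the end theorem of positivity** -/
theorem pos_end [CompactSpace X] [T2Space X] [CompactSpace N] [T2Space N] (C : Fam n X)
    (B : Atl m N) {H : LB B} {hH : HM H} (hpos : hH.Pos) {p : X → N} (hp : HolC C (fam B) p)
    (L : CB C) (hloc : ∀ q, PosNear L (p ⁻¹' {q})) :
    ∃ A : Atl n X, Finite A.ι ∧ GoodA A ∧ Nonempty (Part A) ∧ HolC (fam A) C id ∧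
      HolC C (fam A) id ∧ ∃ (P : LB A) (g : HM P), g.Pos := by
  obtain ⟨A, h1, h2, h3, h4, h5, h6⟩ := C.exists_atl
    (fun q : L.α × B.ι => L.V q.1 ∩ p ⁻¹' (B.e q.2).source)
    (fun q => (L.op q.1).inter ((B.e q.2).open_source.preimage hp.cont))
    (fun x => by
      obtain ⟨a, ha⟩ := L.cov x (mem_univ x)
      obtain ⟨j, hj⟩ := B.cover (p x)
      exact ⟨(a, j), ha, hj⟩)
  choose c hc using h4
  have hpA : HolMap A B p := holC_iff.1 (hp.comp h5)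
  let R : PB_835.Ref A B p := ⟨fun i => (c i).2, fun i x hx => (hc i hx).2⟩
  let T : PB_835.PB p (PB_835.pullLB hpA R H) H := PB_835.PB.ref hpA R H
  have hcl : ∀ i, (A.e i).source ⊆ L.V (c i).1 := fun i x hx => (hc i hx).1
  choose W hW hqW h hh using hloc
  let U : N → Set N := fun q => (p '' (W q)ᶜ)ᶜ
  have hU : ∀ q, IsOpen (U q) := fun q =>
    (((hW q).isClosed_compl.isCompact).image hp.cont).isClosed.isOpen_compl
  have hqU : ∀ q, q ∈ U q := by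
    rintro q ⟨x, hx, rfl⟩
    exact hx (hqW (p x) rfl)
  have hUW : ∀ q, p ⁻¹' (U q) ⊆ W q := by
    intro q x hx
    by_contra hxW
    exact hx ⟨x, hxW, rfl⟩
  obtain ⟨m₀, hm⟩ := glue_pos hpA T hpos U hU (fun q => ⟨q, hqU q⟩)
    (fun q => (hmo_lb L A h5 (fun i => (c i).1) hcl (hW q) (h q)).mono (hUW q))
    (fun q i z hz hzU v hv _ =>
      hmo_lb_pos L A h5 h6 (fun i => (c i).1) hcl (hW q) (h q) (hh q) i hz (hUW q hzU) hv)
  obtain ⟨g, hg⟩ := hm m₀ le_rfl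
  exact ⟨A, h1, h2, h3, h5, h6, _, g, hg⟩

end

end Crest.Agent.R272.CB_232
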