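import Crest.Agent.R272.PosFib2_220

/-!
# R272, POS-FIB (helper220), file 3: the theorem

`posfib` : positivity near a compact set from a few sections, finitely many bad points.
`posfib_map` : the same over a neighbourhood of a point of the base, as an `HMo L (p ⁻¹' V)` with `PosK`.
-/

set_option autoImplicit false
set_option linter.unusedSectionVars false
set_option linter.unusedVariables false

open Set Filter Topology Complex
open scoped ContDiff Matrix ComplexConjugate Manifold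

namespace Crest.Agent.R272.PosFib_220

open Crest.Agent.R275.Geo Crest.Agent.R275.Core144 Crest.Agent.R273.Defs_333
open Crest.Agent.R273.Map_835 Crest.Agent.R273 Crest.Agent.R275.QN2b734
open Crest.Agent.R272.PosGlue_232

noncomputable section

variable {n : ℕ} {M : Type} [TopologicalSpace M] {A : Atl n M} {L : LB A}
  {α : Type} [Fintype α]

/-- a pair of nested bumps at `s` -/
theorem exists_bumps [T2Space M] (A : Atl n M) {s : M} {U : Set M} (hU : U ∈ 𝓝 s) :
    ∃ θ χ : M → ℝ, (∀ p, SmP A θ p) ∧ (∀ p, SmP A χ p) ∧ tsupport θ ⊆ U ∧ tsupport χ ⊆ U ∧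
      (∀ p ∈ tsupport χ, ∀ᶠ q in 𝓝 p, θ q = 1) ∧ (∀ᶠ q in 𝓝 s, χ q = 1) ∧
      (∀ p, 0 ≤ χ p) := by
  obtain ⟨θ, a1, a2, a3, a4, a5⟩ := exists_bump_point A hU
  obtain ⟨χ, b1, b2, b3, b4, b5⟩ := exists_bump_point A (inter_mem hU (eventually_eventually_nhds.2 a3))
  exact ⟨θ, χ, a1, b1, a5, fun p hp => (b5 hp).1, fun p hp => (b5 hp).2, b3, fun p => (b2 p).1⟩

/-- the function `θ ‖z - z_s‖²` -/
def rad (A : Atl n M) (i : A.ι) (s : M) (θ : M → ℝ) (p : M) : ℝ :=
  θ p * ‖A.e i p - A.e i s‖ ^ 2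

theorem rad_smooth {i : A.ι} {s : M} {θ : M → ℝ} (hθ : ∀ p, SmP A θ p)
    (hs : tsupport θ ⊆ (A.e i).source) (p : M) : SmP A (rad A i s θ) p := by
  by_cases hp : p ∈ tsupport θ
  · refine smP_of (hs hp) ?_
    have h1 : (fun z => rad A i s θ ((A.e i).symm z)) =ᶠ[𝓝 (A.e i p)]
        fun z => θ ((A.e i).symm z) * ‖z - A.e i s‖ ^ 2 := by
      filter_upwards [(A.e i).open_target.mem_nhds ((A.e i).map_source (hs hp))] with z hz
      simp only [rad]
      rw [(A.e i).right_inv hz]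
    refine ContDiffAt.congr_of_eventuallyEq ?_ h1
    exact (hθ p i (hs hp)).mul ((contDiffAt_id.sub contDiffAt_const).norm_sq ℝ)
  · have h1 : ∀ᶠ q in 𝓝 p, θ q = 0 := notMem_tsupport_iff_eventuallyEq.1 hp
    intro j hj
    have h2 : (fun z => rad A i s θ ((A.e j).symm z)) =ᶠ[𝓝 (A.e j p)] fun _ => (0 : ℝ) := by
      filter_upwards [tendsto_symm hj h1] with z hz
      simp only [rad]
      rw [hz, zero_mul]
    exact contDiffAt_const.congr_of_eventuallyEq h2

theorem lev_norm_sq (z0 z v : Cn n) :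
    lev (fun w : Cn n => ‖w - z0‖ ^ 2) z v = 4 * ‖v‖ ^ 2 := by
  have h1 : (fun w : Cn n => ‖w - z0‖ ^ 2) =
      Levi_145.sumSq (fun (a : Fin n) (w : Cn n) => w a - z0 a) := by
    funext w
    rw [EuclideanSpace.norm_sq_eq]
    rfl
  have h2 : ∀ a : Fin n, HasFDerivAt (fun w : Cn n => w a - z0 a)
      (EuclideanSpace.proj (𝕜 := ℂ) a : Cn n →L[ℂ] ℂ) z := fun a =>
    ((EuclideanSpace.proj (𝕜 := ℂ) a : Cn n →L[ℂ] ℂ).hasFDerivAt).sub_const _
  have h3 : ∀ a : Fin n, AnalyticAt ℂ (fun w : Cn n => w a - z0 a) z := fun a =>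
    ((EuclideanSpace.proj (𝕜 := ℂ) a : Cn n →L[ℂ] ℂ).analyticAt z).sub analyticAt_const
  rw [PB_835.lev_bridge, h1, Levi_145.lev_sumSq h3, EuclideanSpace.norm_sq_eq]
  congr 1
  refine Finset.sum_congr rfl fun a _ => ?_
  rw [(h2 a).fderiv]
  rfl

theorem posfib [T2Space M] {W : Set M} (hW : IsOpen W) {K : Set M} (hK : IsCompact K)
    (hKW : K ⊆ W) {S : Set M} (hS : S.Finite) {y : α → A.ι → M → ℂ} (hy : ∀ a, IsHS L W (y a))
    (hgood : ∀ x ∈ K, x ∉ S → Good K y x) :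
    ∃ W' : Set M, IsOpen W' ∧ K ⊆ W' ∧ W' ⊆ W ∧ ∃ h : HMo L W', ∀ x ∈ W', PosO h x := by
  classical
  -- the bad points in `K`
  have hT' : (S ∩ K).Finite := hS.subset inter_subset_left
  obtain ⟨T, hT⟩ : ∃ T : Finset M, (T : Set M) = S ∩ K := ⟨hT'.toFinset, hT'.coe_toFinset⟩
  obtain ⟨V, hV1, hV2⟩ := hT'.t2_separation
  choose c hc using A.cover
  have hNb : ∀ s : M, V s ∩ (A.e (c s)).source ∈ 𝓝 s := fun s =>
    inter_mem ((hV1 s).2.mem_nhds (hV1 s).1) ((A.e (c s)).open_source.mem_nhds (hc s))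
  choose θ χ t1 t2 t3 t4 t5 t6 t7 using fun s => exists_bumps A (hNb s)
  have hχs : ∀ s ∈ T, tsupport (χ s) ⊆ (A.e (c s)).source := fun s _ p hp => (t4 s hp).2
  -- the open sets where `χ s = 1`
  let N : M → Set M := fun s => interior {q | χ s q = 1}
  have hNo : ∀ s, IsOpen (N s) := fun s => isOpen_interior
  have hNs : ∀ s, s ∈ N s := fun s => mem_interior_iff_mem_nhds.2 (t6 s)
  have hN1 : ∀ s, ∀ p ∈ N s, ∀ᶠ q in 𝓝 p, χ s q = 1 := fun s p hp =>
    mem_interior_iff_mem_nhds.1 hp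
  have hNt : ∀ s, ∀ p ∈ N s, p ∈ tsupport (χ s) := by
    intro s p hp
    refine subset_tsupport _ ?_
    rw [Function.mem_support, (hN1 s p hp).self_of_nhds]
    exact one_ne_zero
  let K1 : Set M := K \ ⋃ s ∈ T, N s
  have hK1 : IsCompact K1 := hK.diff (isOpen_biUnion fun s _ => hNo s)
  have hK1S : ∀ x ∈ K1, x ∉ S := by
    rintro x ⟨hx, hx2⟩ hxS
    refine hx2 (mem_iUnion₂.2 ⟨x, ?_, hNs x⟩)
    have : x ∈ (T : Set M) := by rw [hT]; exact ⟨hxS, hx⟩
    exact this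
  -- the metric at `ε = 0`
  let U0 : Set M := FU L W y T c χ 0
  let h0 : HMo L U0 := hF hW hy t2 hχs 0
  have hU0 : IsOpen U0 := isOpen_FU hW hy t2 hχs 0
  -- the functions `u x`
  have hu : ∀ x : M, ∃ u : M → ℝ, (∀ p, SmP A u p) ∧ (∀ k ∈ K, NN A u k) ∧
      (x ∈ K1 → x ∈ U0 ∧ ∀ (hu : ∀ p ∈ U0, SmP A u p), PosO (mulExp h0 hU0 u hu) x) := by
    intro x
    by_cases hx : x ∈ K1
    · obtain ⟨u, u1, u2, i, hi, u3, u4⟩ := exists_u hW hy (hKW hx.1) (hgood x hx.1 (hK1S x hx))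
      have hxU : x ∈ U0 := mem_FU hy hχs hi (hKW hx.1) (by rw [FF_zero]; exact u3)
      refine ⟨u, u1, u2, fun _ => ⟨hxU, fun hu' => posO_of _ hU0 hi hxU fun v hv => ?_⟩⟩
      rw [mulExp_lev h0 hU0 u hu' hi hxU]
      have h1 : h0.wt i = fun z => Real.log (∑ a, ‖y a i ((A.e i).symm z)‖ ^ 2) := by
        funext z
        rw [hF_wt, FF_zero]
      rw [h1]
      exact u4 v hv
    · refine ⟨fun _ => 0, fun p j hj => contDiffAt_const, fun k _ =>
        nn_zero (Eventually.of_forall fun _ => rfl), fun h => absurd h hx⟩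
  choose u hu1 hu2 hu3 using hu
  have huS : ∀ x, ∀ p ∈ U0, SmP A (u x) p := fun x p _ => hu1 x p
  obtain ⟨t, ht⟩ := hK1.elim_nhds_subcover
    (fun x => if x ∈ K1 then {p | p ∈ U0 ∧ PosO (mulExp h0 hU0 (u x) (huS x)) p} else univ)
    (fun x hx => by
      simp only [hx, if_true]
      exact (isOpen_posO _ hU0).mem_nhds ⟨(hu3 x hx).1, (hu3 x hx).2 (huS x)⟩)
  let u1 : M → ℝ := fun p => ∑ x ∈ t, u x p
  have hu1s : ∀ p, SmP A u1 p := fun p => smP_sum t fun x _ => hu1 x p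
  have hu1n : ∀ k ∈ K, NN A u1 k := fun k hk => nn_sum t (fun x _ => hu1 x k) fun x _ => hu2 x k hk
  -- positivity on `K1` for `ε = 0`
  have hpos0 : ∀ k ∈ K1, k ∈ U0 ∧ ∀ j, k ∈ (A.e j).source → ∀ v : Cn n, v ≠ 0 →
      0 < lev (h0.wt j) (A.e j k) v + lev (fun z => u1 ((A.e j).symm z)) (A.e j k) v := by
    intro k hk
    obtain ⟨x, hxt, hkx⟩ := mem_iUnion₂.1 (ht.2 hk)
    have hxK := ht.1 x hxt
    simp only [hxK, if_true] at hkx
    refine ⟨hkx.1, fun j hj v hv => ?_⟩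
    have h1 := hkx.2 j hj v hv
    rw [mulExp_lev h0 hU0 (u x) (huS x) hj hkx.1] at h1
    have h2 : lev (fun z => u1 ((A.e j).symm z)) (A.e j k) v =
        ∑ x ∈ t, lev (fun z => u x ((A.e j).symm z)) (A.e j k) v := by
      have := Levi_145.lev_sum t (f := fun a z => u a ((A.e j).symm z)) (z := A.e j k)
        (fun a _ => (hu1 a k j hj).of_le (by norm_cast)) v
      rw [PB_835.lev_bridge]
      simp only [PB_835.lev_bridge]
      rw [← Finset.mul_sum, ← this]
    rw [h2]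
    have h3 : lev (fun z => u x ((A.e j).symm z)) (A.e j k) v ≤
        ∑ x ∈ t, lev (fun z => u x ((A.e j).symm z)) (A.e j k) v :=
      Finset.single_le_sum (f := fun x => lev (fun z => u x ((A.e j).symm z)) (A.e j k) v)
        (fun a _ => hu2 a k hk.1 j hj v) hxt
    linarith
  -- the function near the bad points
  let u2 : M → ℝ := fun p => ∑ s ∈ T, rad A (c s) s (θ s) p
  have hu2s : ∀ p, SmP A u2 p := fun p => smP_sum T fun s _ =>
    rad_smooth (t1 s) (fun q hq => (t3 s hq).2) p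
  let uu : ℝ → M → ℝ := fun ε p => u1 p + ε * u2 p
  have huus : ∀ ε p, SmP A (uu ε) p := fun ε p j hj =>
    (hu1s p j hj).add (contDiffAt_const.mul (hu2s p j hj))
  have hUo : ∀ ε, IsOpen (FU L W y T c χ ε) := fun ε => isOpen_FU hW hy t2 hχs ε
  let hh : ∀ ε, HMo L (FU L W y T c χ ε) := fun ε =>
    mulExp (hF hW hy t2 hχs ε) (hUo ε) (uu ε) (fun p _ => huus ε p)
  -- small `ε`: positivity on `K1`
  have hev : ∀ᶠ ε in 𝓝 (0 : ℝ), ∀ x ∈ K1, x ∈ FU L W y T c χ ε ∧ PosO (hh ε) x := by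
    refine hK1.eventually_forall_of_forall_eventually fun k hk => ?_
    obtain ⟨hkU, hkp⟩ := hpos0 k hk
    obtain ⟨j, hj⟩ := A.cover k
    have s1 := FF_smooth (c := c) (T := T) (χ := χ) hW hy t2 hχs hj (hKW hk.1) 0
    have s2 : (0 : ℝ) < FF L y T c χ ((0 : ℝ), A.e j k).1 j
        ((A.e j).symm ((0 : ℝ), A.e j k).2) := by
      simp only
      rw [(A.e j).left_inv hj]
      exact hkU.2 j hj
    have hcomp : ∀ f : Cn n → ℝ, ContDiffAt ℝ ∞ f (A.e j k) →
        ContDiffAt ℝ ∞ (fun p : ℝ × Cn n => f p.2) ((0 : ℝ), A.e j k) := fun f hf =>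
      ContDiffAt.comp (g := f) (f := fun p : ℝ × Cn n => p.2) ((0 : ℝ), A.e j k) hf contDiffAt_snd
    have s3 : ContDiffAt ℝ ∞ (fun p : ℝ × Cn n =>
        Real.log (FF L y T c χ p.1 j ((A.e j).symm p.2)) + uu p.1 ((A.e j).symm p.2))
        ((0 : ℝ), A.e j k) := by
      refine (s1.log s2.ne').add ((hcomp _ (hu1s k j hj)).add (contDiffAt_fst.mul ?_))
      exact hcomp (fun z => u2 ((A.e j).symm z)) (hu2s k j hj)
    have s4 : ∀ v : Cn n, v ≠ 0 → 0 < lev (fun z => (fun p : ℝ × Cn n =>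
        Real.log (FF L y T c χ p.1 j ((A.e j).symm p.2)) + uu p.1 ((A.e j).symm p.2))
        ((0 : ℝ), z)) (A.e j k) v := by
      intro v hv
      have h1 := hkp j hj v hv
      have h2 : (fun z => (fun p : ℝ × Cn n =>
        Real.log (FF L y T c χ p.1 j ((A.e j).symm p.2)) + uu p.1 ((A.e j).symm p.2))
        ((0 : ℝ), z)) = fun z => h0.wt j z + u1 ((A.e j).symm z) := by
        funext z
        simp only [uu, zero_mul, add_zero]
        rw [hF_wt]
      rw [h2, PB_835.lev_bridge, Levi_145.lev_add ((wt_contDiffAt h0 hU0 hj hkU).of_le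
        (by norm_cast)) ((hu1s k j hj).of_le (by norm_cast))]
      rw [PB_835.lev_bridge, PB_835.lev_bridge] at h1
      linarith
    have s5 := perturb s3 s4
    have s6 : Tendsto (fun p : ℝ × M => (p.1, A.e j p.2)) (𝓝 ((0 : ℝ), k))
        (𝓝 ((0 : ℝ), A.e j k)) := by
      have : ContinuousAt (fun p : ℝ × M => (p.1, A.e j p.2)) ((0 : ℝ), k) := by
        refine continuousAt_fst.prodMk ?_
        exact ContinuousAt.comp (f := fun p : ℝ × M => p.2) (g := A.e j)
          ((A.e j).continuousAt hj) continuousAt_snd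
      exact this
    have s7 : Tendsto (fun p : ℝ × M => p.2) (𝓝 ((0 : ℝ), k)) (𝓝 k) := continuousAt_snd
    have s8 : ∀ᶠ p in 𝓝 ((0 : ℝ), A.e j k), 0 < FF L y T c χ p.1 j ((A.e j).symm p.2) :=
      s1.continuousAt.eventually (lt_mem_nhds s2)
    filter_upwards [s6.eventually s5, s7.eventually ((A.e j).open_source.mem_nhds hj),
      s7.eventually (hW.mem_nhds (hKW hk.1)), s6.eventually s8] with p p1 p2 p3 p4
    obtain ⟨ε, x⟩ := p
    simp only at p1 p2 p3 p4
    have p2' : x ∈ (A.e j).source := p2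
    rw [(A.e j).left_inv p2'] at p4
    have hxU : x ∈ FU L W y T c χ ε := mem_FU hy hχs p2' p3 p4
    refine ⟨hxU, posO_of _ (hUo ε) p2' hxU fun v hv => ?_⟩
    have h1 := p1 v hv
    have h2 : (fun z => Real.log (FF L y T c χ ε j ((A.e j).symm z)) + uu ε ((A.e j).symm z)) =
        fun z => (hF hW hy t2 hχs ε).wt j z + uu ε ((A.e j).symm z) := by
      funext z
      rw [hF_wt]
    rw [h2, PB_835.lev_bridge, Levi_145.lev_add ((wt_contDiffAt _ (hUo ε) p2' hxU).of_le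
      (by norm_cast)) ((huus ε x j p2').of_le (by norm_cast))] at h1
    rw [mulExp_lev _ (hUo ε) (uu ε) (fun p _ => huus ε p) p2' hxU, PB_835.lev_bridge,
      PB_835.lev_bridge]
    linarith
  obtain ⟨ε, hε0, hε⟩ : ∃ ε : ℝ, 0 < ε ∧ ∀ x ∈ K1, x ∈ FU L W y T c χ ε ∧ PosO (hh ε) x := by
    obtain ⟨d, hd, hd2⟩ := Metric.eventually_nhds_iff.1 hev
    refine ⟨d / 2, by positivity, hd2 ?_⟩
    rw [Real.dist_eq, sub_zero, abs_of_pos (by positivity)]
    linarith
  -- near the bad points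
  have hbad : ∀ s ∈ T, ∀ k ∈ K, k ∈ N s → k ∈ FU L W y T c χ ε ∧ PosO (hh ε) k := by
    intro s hs k hk hkN
    have hkt := hNt s k hkN
    have hki : k ∈ (A.e (c s)).source := hχs s hs hkt
    have hkV : k ∈ V s := (t4 s hkt).1
    have hoth : ∀ s' ∈ T, s' ≠ s → ∀ᶠ q in 𝓝 k, χ s' q = 0 ∧ θ s' q = 0 := by
      intro s' hs' hne
      have hd : Disjoint (V s') (V s) := by
        refine hV2 ?_ ?_ hne
        · have : s' ∈ (T : Set M) := hs'
          rwa [hT] at this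
        · have : s ∈ (T : Set M) := hs
          rwa [hT] at this
      filter_upwards [(hV1 s).2.mem_nhds hkV] with q hq
      have hq' : q ∉ V s' := fun h => (Set.disjoint_left.1 hd h hq)
      exact ⟨image_eq_zero_of_notMem_tsupport fun h => hq' (t4 s' h).1,
        image_eq_zero_of_notMem_tsupport fun h => hq' (t3 s' h).1⟩
    have hoth' : ∀ᶠ q in 𝓝 k, ∀ s' ∈ T, s' ≠ s → χ s' q = 0 ∧ θ s' q = 0 := by
      rw [Filter.eventually_all_finset]
      intro s' hs'
      by_cases hne : s' = s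
      · exact Eventually.of_forall fun q h => absurd hne h
      · exact (hoth s' hs' hne).mono fun q hq _ => hq
    -- the local expression
    have hFe : ∀ᶠ q in 𝓝 k, q ∈ (A.e (c s)).source ∧ FF L y T c χ ε (c s) q =
        (∑ a, ‖y a (c s) q‖ ^ 2) + ε := by
      filter_upwards [hoth', hN1 s k hkN, (A.e (c s)).open_source.mem_nhds hki] with q q1 q2 q3
      refine ⟨q3, ?_⟩
      unfold FF
      rw [Finset.sum_eq_single s (fun s' hs' hne => by rw [(q1 s' hs' hne).1, zero_mul])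
        (fun h => absurd hs h), q2, L.self]
      simp
    have hu2e : ∀ᶠ q in 𝓝 k, q ∈ (A.e (c s)).source ∧ u2 q =
        ‖A.e (c s) q - A.e (c s) s‖ ^ 2 := by
      filter_upwards [hoth', t5 s k hkt, (A.e (c s)).open_source.mem_nhds hki] with q q1 q2 q3
      refine ⟨q3, ?_⟩
      show ∑ s' ∈ T, rad A (c s') s' (θ s') q = _
      rw [Finset.sum_eq_single s (fun s' hs' hne => by rw [rad, (q1 s' hs' hne).2, zero_mul])
        (fun h => absurd hs h), rad, q2, one_mul]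
    have hkU : k ∈ FU L W y T c χ ε := by
      refine mem_FU hy hχs hki (hKW hk) ?_
      rw [hFe.self_of_nhds.2]
      have : 0 ≤ ∑ a, ‖y a (c s) k‖ ^ 2 := Finset.sum_nonneg fun _ _ => by positivity
      linarith
    refine ⟨hkU, posO_of _ (hUo ε) hki hkU fun v hv => ?_⟩
    rw [mulExp_lev _ (hUo ε) (uu ε) (fun p _ => huus ε p) hki hkU]
    -- first term
    let F : Option α → Cn n → ℂ := fun a z =>
      match a with
      | some a => y a (c s) ((A.e (c s)).symm z)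
      | none => ((Real.sqrt ε : ℝ) : ℂ)
    have hFa : ∀ a, AnalyticAt ℂ (F a) (A.e (c s) k) := by
      intro a
      cases a with
      | none => exact analyticAt_const
      | some a => exact sec_anal hW (hy a) hki (hKW hk)
    have hF0 : ∃ a, F a (A.e (c s) k) ≠ 0 := by
      refine ⟨none, ?_⟩
      show ((Real.sqrt ε : ℝ) : ℂ) ≠ 0
      exact_mod_cast (Real.sqrt_pos.2 hε0).ne'
    have e1 : (hF hW hy t2 hχs ε).wt (c s) =ᶠ[𝓝 (A.e (c s) k)]
        fun z => Real.log (Levi_145.sumSq F z) := by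
      filter_upwards [tendsto_symm hki hFe] with z hz
      rw [hF_wt, hz.2]
      congr 1
      unfold Levi_145.sumSq
      rw [Fintype.sum_option, add_comm]
      congr 1
      show ε = ‖((Real.sqrt ε : ℝ) : ℂ)‖ ^ 2
      rw [Complex.norm_real, Real.norm_eq_abs, sq_abs, Real.sq_sqrt hε0.le]
    have e2 : 0 ≤ lev ((hF hW hy t2 hχs ε).wt (c s)) (A.e (c s) k) v := by
      rw [PB_835.lev_congr' e1, PB_835.lev_bridge]
      have := Levi_145.lev_log_sumSq_nonneg hFa hF0 v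
      linarith
    -- second term
    have e3 : (fun z => uu ε ((A.e (c s)).symm z)) =ᶠ[𝓝 (A.e (c s) k)]
        fun z => u1 ((A.e (c s)).symm z) + ε * ‖z - A.e (c s) s‖ ^ 2 := by
      filter_upwards [tendsto_symm hki hu2e,
        (A.e (c s)).open_target.mem_nhds ((A.e (c s)).map_source hki)] with z hz hzt
      show u1 _ + ε * u2 _ = _
      rw [hz.2, (A.e (c s)).right_inv hzt]
    have c1 : ContDiffAt ℝ 2 (fun z => u1 ((A.e (c s)).symm z)) (A.e (c s) k) :=
      (hu1s k (c s) hki).of_le (by norm_cast)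
    have c2 : ContDiffAt ℝ 2 (fun z : Cn n => ‖z - A.e (c s) s‖ ^ 2) (A.e (c s) k) :=
      (contDiffAt_id.sub contDiffAt_const).norm_sq ℝ
    have e4 : lev (fun z => uu ε ((A.e (c s)).symm z)) (A.e (c s) k) v =
        lev (fun z => u1 ((A.e (c s)).symm z)) (A.e (c s) k) v + ε * (4 * ‖v‖ ^ 2) := by
      rw [PB_835.lev_congr' e3, PB_835.lev_bridge, Levi_145.lev_add c1 (contDiffAt_const.mul c2),
        Levi_145.lev_const_mul ε c2, ← lev_norm_sq (A.e (c s) s) (A.e (c s) k) v,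
        PB_835.lev_bridge, PB_835.lev_bridge]
      ring
    have e5 := hu1n k hk (c s) hki v
    have hn : 0 < ‖v‖ := norm_pos_iff.2 hv
    rw [e4]
    have : 0 < ε * (4 * ‖v‖ ^ 2) := by positivity
    linarith
  -- conclusion
  refine ⟨{x | x ∈ FU L W y T c χ ε ∧ PosO (hh ε) x}, isOpen_posO _ (hUo ε), ?_, ?_, ?_⟩
  · intro k hk
    by_cases h : k ∈ ⋃ s ∈ T, N s
    · obtain ⟨s, hs, hkN⟩ := mem_iUnion₂.1 h
      exact hbad s hs k hk hkN
    · exact hε k ⟨hk, h⟩
  · exact fun x hx => hx.1.1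
  · exact ⟨(hh ε).mono fun x hx => hx.1, fun x hx => hx.2⟩

/-! ### over the base -/

section Base

variable {m : ℕ} {N : Type} [TopologicalSpace N] {B : Atl m N} {p : M → N}

/-- **POS-FIB over the base**: `p : M → N` with closed image map (e.g. `M` compact, `N` Hausdorff) -/
theorem posfib_map [T2Space M] (hp : IsClosedMap p) (B : Atl m N) {q : N}
    (hK : IsCompact (p ⁻¹' {q})) {W : Set M} (hW : IsOpen W) (hKW : p ⁻¹' {q} ⊆ W) {S : Set M}
    (hS : S.Finite) {y : α → A.ι → M → ℂ} (hy : ∀ a, IsHS L W (y a))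
    (hgood : ∀ x, p x = q → x ∉ S → Good (p ⁻¹' {q}) y x) :
    ∃ V : Set N, IsOpen V ∧ q ∈ V ∧ p ⁻¹' V ⊆ W ∧ ∃ h : HMo L (p ⁻¹' V), h.PosK B p := by
  obtain ⟨W', h1, h2, h3, h, h4⟩ := posfib hW hK hKW hS hy fun x hx hxS => hgood x hx hxS
  let V : Set N := (p '' W'ᶜ)ᶜ
  have hV : p ⁻¹' V ⊆ W' := by
    intro x hx
    by_contra hxW
    exact hx ⟨x, hxW, rfl⟩
  refine ⟨V, (hp _ h1.isClosed_compl).isOpen_compl, ?_, hV.trans h3, h.mono hV, ?_⟩
  · rintro ⟨x, hx, hxq⟩
    exact hx (h2 hxq)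
  · intro i z hz hzV v hv _
    have h5 := h4 _ (hV hzV) i ((A.e i).map_target hz) v hv
    rw [(A.e i).right_inv hz] at h5
    exact h5

end Base

end

end Crest.Agent.R272.PosFib_220
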