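import Crest.Agent.R272.CB4_232
import Crest.Agent.R272.PosFib3_220

/-!
# R272, task CB (helper232), part 5: from metrics on an atlas to metrics on the cover; POS-FIB for `CB`

`Met.ofHMo`          : a metric over `W` of the bundle on a subordinate atlas gives one of the `CB`;
`PosNear.of_hmo`     : positivity is preserved;
`PosNear.of_posfib`  : 220's POS-FIB for sections of a `CB`;
`PosNear.of_finite`  : finite sets.
-/

set_option autoImplicit false
set_option linter.unusedSectionVars false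
set_option linter.unusedVariables false

open Set Filter Topology Complex
open scoped ContDiff Matrix ComplexConjugate Manifold

namespace Crest.Agent.R272.CB_232

open Crest.Agent.R275.Geo Crest.Agent.R275.Core144 Crest.Agent.R275.GC293
open Crest.Agent.R273 Crest.Agent.R273.Defs_333 Crest.Agent.R273.Map_835
open Crest.Agent.R273.Fam_835
open Crest.Agent.R272.Quot_783 Crest.Agent.R272.PosGlue_232

noncomputable section

variable {n m : ℕ} {X N : Type} [TopologicalSpace X] [TopologicalSpace N]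
  {C C' : Fam n X} {D : Fam m N} {p : X → N} {U V W : Set X}

theorem smOn_of_chart (h : HolC C C' id) {f : X → ℝ} (H : ∀ x ∈ U, ∃ i : C'.ι,
    x ∈ (C'.e i).source ∧ ContDiffAt ℝ ∞ (fun z => f ((C'.e i).symm z)) (C'.e i x)) :
    SmOn C U f := by
  intro j z hz
  obtain ⟨i, hi, hf⟩ := H _ hz.2
  have h2 : ContDiffAt ℝ ∞ (fun z => C'.e i (id ((C.e j).symm z))) z :=
    (HolC.anAt h (i := j) (j := i) hz.1 hi).contDiffAt.restrict_scalars ℝ
  have h3 := ContDiffAt.comp z (g := fun y => f ((C'.e i).symm y))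
    (f := fun z => C'.e i (id ((C.e j).symm z))) hf h2
  refine (h3.congr_of_eventuallyEq ?_).contDiffWithinAt
  filter_upwards [(h.isOpen_dm j i).mem_nhds ⟨hz.1, hi⟩] with w hw
  simp only [Function.comp]
  rw [(C'.e i).left_inv hw.2]
  rfl

section OfHMo

variable (L : CB C) (A : Atl n X) (hA : HolC (fam A) C id) (hA' : HolC C (fam A) id)
  (c : A.ι → L.α) (hc : ∀ i, (A.e i).source ⊆ L.V (c i))

/-- the weight of the frame `a` from the weights of the atlas -/
def wOf {W : Set X} (h : HMo (CB.lb L A hA c hc) W) (a : L.α) (x : X) : ℝ :=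
  ‖L.g (c (PB_835.PB.ch A x)) a x‖ ^ 2 * h.w (PB_835.PB.ch A x) x

theorem wOf_eq {W : Set X} (h : HMo (CB.lb L A hA c hc) W) {a : L.α} {x : X} {i : A.ι}
    (hi : x ∈ (A.e i).source) (ha : x ∈ L.V a) (hx : x ∈ W) :
    wOf L A hA c hc h a x = ‖L.g (c i) a x‖ ^ 2 * h.w i x := by
  have hk : x ∈ (A.e (PB_835.PB.ch A x)).source := PB_835.PB.ch_mem A x
  have h1 := h.tr i (PB_835.PB.ch A x) x ⟨hi, hk⟩ hx
  rw [CB.lb_g L A hA c hc hi hk] at h1
  unfold wOf
  rw [h1, ← L.mul (c i) (c (PB_835.PB.ch A x)) a x ⟨⟨hc i hi, hc _ hk⟩, ha⟩, norm_mul]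
  ring

/-- **metrics on the atlas give metrics on the cover** -/
def Met.ofHMo (hW : IsOpen W) (h : HMo (CB.lb L A hA c hc) W) : Met L W where
  w := wOf L A hA c hc h
  pos a x hx := by
    have hk : x ∈ (A.e (PB_835.PB.ch A x)).source := PB_835.PB.ch_mem A x
    have h1 := h.pos _ x hk hx.2
    have h2 := L.ne (c (PB_835.PB.ch A x)) a x ⟨hc _ hk, hx.1⟩
    unfold wOf
    positivity
  sm a := by
    refine smOn_of_chart hA' fun x hx => ?_
    obtain ⟨i, hi⟩ := A.cover x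
    refine ⟨i, hi, ?_⟩
    have hU : IsOpen ((A.e i).source ∩ (L.V a ∩ W)) :=
      (A.e i).open_source.inter ((L.op a).inter hW)
    have hm : A.e i x ∈ (A.e i).target ∩ (A.e i).symm ⁻¹' ((A.e i).source ∩ (L.V a ∩ W)) :=
      ⟨(A.e i).map_source hi, by rw [mem_preimage, (A.e i).left_inv hi]; exact ⟨hi, hx⟩⟩
    have h1 : HolF (fam A) (id ⁻¹' (L.V (c i) ∩ L.V a)) fun x => L.g (c i) a (id x) :=
      holF_comp hA ((L.op _).inter (L.op _)) (L.hol _ _)
    have h2 : AnalyticAt ℂ (fun z => L.g (c i) a ((A.e i).symm z)) (A.e i x) := by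
      refine Crest.Agent.R266.SCV.analyticOnNhd_of_differentiableOn
        ((A.e i).isOpen_inter_preimage_symm ((L.op (c i)).inter (L.op a))) (h1 i) _
        ⟨(A.e i).map_source hi, ?_⟩
      rw [mem_preimage, (A.e i).left_inv hi]
      exact ⟨hc i hi, hx.1⟩
    have h3 : ContDiffAt ℝ ∞ (fun z => ‖L.g (c i) a ((A.e i).symm z)‖ ^ 2) (A.e i x) :=
      (h2.contDiffAt.restrict_scalars ℝ).norm_sq ℝ
    have h4 : ContDiffAt ℝ ∞ (fun z => h.w i ((A.e i).symm z)) (A.e i x) :=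
      (h.sm i).contDiffAt (((A.e i).isOpen_inter_preimage_symm hW).mem_nhds
        ⟨(A.e i).map_source hi, by rw [mem_preimage, (A.e i).left_inv hi]; exact hx.2⟩)
    refine (h3.mul h4).congr_of_eventuallyEq ?_
    filter_upwards [((A.e i).isOpen_inter_preimage_symm hU).mem_nhds hm] with z hz
    exact wOf_eq L A hA c hc h hz.2.1 hz.2.2.1 hz.2.2.2
  tr a b x hx := by
    have hk : x ∈ (A.e (PB_835.PB.ch A x)).source := PB_835.PB.ch_mem A x
    unfold wOf
    rw [← L.mul (c (PB_835.PB.ch A x)) a b x ⟨⟨hc _ hk, hx.1.1⟩, hx.1.2⟩, norm_mul]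
    ring

theorem posAtC_ofHMo (hW : IsOpen W) (h : HMo (CB.lb L A hA c hc) W) {x : X} (hx : x ∈ W)
    (hp : PosFib_220.PosO h x) : PosAtC (Met.ofHMo L A hA hA' c hc hW h) x := by
  obtain ⟨i, hi⟩ := A.cover x
  obtain ⟨j, hj⟩ := C.cover x
  refine posAtC_of hW (a := c i) (j := j) (hc i hi) hj hx fun v hv => ?_
  have hU : IsOpen (L.V (c i) ∩ W) := (L.op _).inter hW
  have hsmA : SmOn (fam A) (L.V (c i) ∩ W) ((Met.ofHMo L A hA hA' c hc hW h).w (c i)) :=
    smOn_comp hA hU ((Met.ofHMo L A hA hA' c hc hW h).sm (c i))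
  rw [lv_chg (C := fam A) (C' := C) (j := i) (j' := j) hA' hU hsmA
    (fun y hy => (Met.ofHMo L A hA hA' c hc hW h).pos _ y hy) hi hj ⟨hc i hi, hx⟩ v]
  have hne := chg_ne (C := fam A) (C' := C) (j := i) (j' := j) hA' hA hi hj hv
  set u := fderiv ℂ (fun z => (fam A).e i ((C.e j).symm z)) (C.e j x) v with hu
  have h1 := hp i hi u hne
  have h2 : lv (fam A) ((Met.ofHMo L A hA hA' c hc hW h).w (c i)) i x u =
      lv (fam A) (h.w i) i x u := by
    refine lv_congr (C := fam A) (j := i) hi ?_ u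
    filter_upwards [((A.e i).open_source.inter hW).mem_nhds ⟨hi, hx⟩] with y hy
    show wOf L A hA c hc h (c i) y = h.w i y
    rw [wOf_eq L A hA c hc h hy.1 (hc i hy.1) hy.2, L.self (hc i hy.1)]
    simp
  rw [h2]
  exact h1

include hA' in
theorem PosNear.of_hmo {K : Set X} (hW : IsOpen W) (hK : K ⊆ W)
    (h : HMo (CB.lb L A hA c hc) W) (hp : ∀ x ∈ W, PosFib_220.PosO h x) : PosNear L K :=
  ⟨W, hW, hK, Met.ofHMo L A hA hA' c hc hW h, fun x hx =>
    posAtC_ofHMo L A hA hA' c hc hW h hx (hp x hx)⟩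

end OfHMo

/-- **POS-FIB for `CB`** -/
theorem PosNear.of_posfib [CompactSpace X] [T2Space X] {κ : Type} [Fintype κ] {L : CB C}
    {K S : Set X} (hK : IsCompact K) (hW : IsOpen W) (hKW : K ⊆ W) (hS : S.Finite)
    (y : κ → Sec L W)
    (hnz : ∀ x ∈ K, x ∉ S → ∃ k, ∃ a, x ∈ L.V a ∧ (y k).s a x ≠ 0)
    (htan : ∀ x ∈ K, x ∉ S → ∃ a j, x ∈ L.V a ∧ x ∈ (C.e j).source ∧
      Tan C (fun k => (y k).s a) K x j) : PosNear L K := by
  obtain ⟨A, -, -, -, h4, hA, hA'⟩ := C.exists_atl L.V L.op (fun x => L.cov x (mem_univ x))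
  choose c hc using h4
  suffices hgood : ∀ x ∈ K, x ∉ S → PosFib_220.Good K (fun k => Sec.on L A c (y k)) x by
    obtain ⟨W', hW', hKW', -, h, hh⟩ := PosFib_220.posfib (L := CB.lb L A hA c hc) hW hK hKW hS
      (y := fun k => Sec.on L A c (y k)) (fun k => isHS_lb L A hA c hc hW (y k)) hgood
    exact PosNear.of_hmo L A hA hA' c hc hW' hKW' h hh
  intro x hx hxS
  obtain ⟨i, hi⟩ := A.cover x
  have hxW := hKW hx
  refine ⟨i, hi, ?_, ?_⟩
  · obtain ⟨k, a, ha, h0⟩ := hnz x hx hxS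
    refine ⟨k, ?_⟩
    show Sec.on L A c (y k) i x ≠ 0
    rw [Sec.on_eq A c (y k) hi hxW]
    exact ((y k).ne_iff ha (hc i hi) hxW).1 h0
  · obtain ⟨a, j, ha, hj, ht⟩ := htan x hx hxS
    have hU1 : IsOpen (L.V a ∩ L.V (c i) ∩ W) := ((L.op _).inter (L.op _)).inter hW
    have t1 : Tan C (fun k => (y k).s (c i)) K x j :=
      tan_frame (u := L.g (c i) a) hU1
        (fun k => holF_mono ((y k).hol a) fun z hz => ⟨hz.1.1, hz.2⟩)
        (holF_mono (L.hol (c i) a) fun z hz => ⟨hz.1.2, hz.1.1⟩)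
        (L.ne (c i) a x ⟨hc i hi, ha⟩)
        (fun k z hz => (y k).tr (c i) a z ⟨⟨hz.1.2, hz.1.1⟩, hz.2⟩) hj ⟨⟨ha, hc i hi⟩, hxW⟩ ht
    have hU2 : IsOpen (L.V (c i) ∩ W) := (L.op _).inter hW
    have t2 : Tan (fam A) (fun k => (y k).s (c i)) K x i :=
      tan_chg hA hA' hU2 (fun k => (y k).hol (c i)) hj hi ⟨hc i hi, hxW⟩ t1
    rintro v hv ⟨e, he⟩
    obtain ⟨G, W₁, hW₁, hxW₁, hG, hG0, hGv⟩ := t2 v hv ⟨e, fun k => by
      have h1 : fderiv ℂ (fun z => Sec.on L A c (y k) i ((A.e i).symm z)) (A.e i x) v =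
        e * Sec.on L A c (y k) i x := he k
      have h2 : (fun z => Sec.on L A c (y k) i ((A.e i).symm z)) =ᶠ[𝓝 (A.e i x)]
          fun z => (y k).s (c i) ((A.e i).symm z) := by
        have ho : IsOpen ((A.e i).target ∩ (A.e i).symm ⁻¹' ((A.e i).source ∩ W)) :=
          (A.e i).isOpen_inter_preimage_symm ((A.e i).open_source.inter hW)
        filter_upwards [ho.mem_nhds ⟨(A.e i).map_source hi, by
          rw [mem_preimage, (A.e i).left_inv hi]; exact ⟨hi, hxW⟩⟩] with z hz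
        exact Sec.on_eq A c (y k) hz.2.1 hz.2.2
      rw [h2.fderiv_eq, Sec.on_eq A c (y k) hi hxW] at h1
      exact h1⟩
    refine ⟨fun z => G ((A.e i).symm z), ?_, ?_, hGv⟩
    · refine Crest.Agent.R266.SCV.analyticOnNhd_of_differentiableOn
        ((A.e i).isOpen_inter_preimage_symm hW₁) (hG i) _ ⟨(A.e i).map_source hi, ?_⟩
      rw [mem_preimage, (A.e i).left_inv hi]
      exact hxW₁
    · have ho : IsOpen ((A.e i).target ∩ (A.e i).symm ⁻¹' W₁) :=
        (A.e i).isOpen_inter_preimage_symm hW₁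
      filter_upwards [ho.mem_nhds ⟨(A.e i).map_source hi, by
        rw [mem_preimage, (A.e i).left_inv hi]; exact hxW₁⟩] with z hz hzK
      exact hG0 _ ⟨hzK, hz.2⟩

/-- finite fibres need no sections -/
theorem PosNear.of_finite [CompactSpace X] [T2Space X] {L : CB C} {K : Set X} (hK : K.Finite) :
    PosNear L K :=
  PosNear.of_posfib (κ := Empty) (S := K) hK.isCompact isOpen_univ (subset_univ _) hK
    (fun e => e.elim) (fun x hx hxS => absurd hx hxS) (fun x hx hxS => absurd hx hxS)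

end

end Crest.Agent.R272.CB_232
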