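import Crest.Agent.R272.CB5_232

/-!
# R272, task CB (helper232), part 6: isomorphisms, local equations (bundled), sections from functions, transport

`IsoOn L L' W`    : isomorphism over `W`; `Met.ofIso`, `PosNear.ofIso`; `IsoOn.ofSub` (same transition
                    functions under an index map);
`Eqs C U`         : local equations (bundled `CBo.ofEq`); `Eqs.cb`, `Eqs.idl k` = the `k`-th power of the
                    ideal generated by the equations; `Eqs.secFun` : a function divisible by `f a ^ k`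
                    near every point is a section of `idl k`;
`exists_met`      : every `CB` on a compact Hausdorff manifold has a metric;
`exists_posNear_tens` : `Q` positive near all fibres ⟹ `Q^k ⊗ D` positive near all fibres, `k ≥ k₀`;
`CBo.push`, `Met.push`, `PosNear.push` : transport by a biholomorphic `OpenPartialHomeomorph`.
-/

set_option autoImplicit false
set_option linter.unusedSectionVars false
set_option linter.unusedVariables false

open Set Filter Topology Complex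
open scoped ContDiff Matrix ComplexConjugate Manifold

namespace Crest.Agent.R272.CB_232

open Crest.Agent.R275.Geo Crest.Agent.R275.Core144 Crest.Agent.R275.GC293
open Crest.Agent.R273 Crest.Agent.R273.Defs_333 Crest.Agent.R273.Map_835
open Crest.Agent.R273.Fam_835
open Crest.Agent.R272.Quot_783 Crest.Agent.R272.PosGlue_232

noncomputable section

variable {n m : ℕ} {X Y N : Type} [TopologicalSpace X] [TopologicalSpace Y] [TopologicalSpace N]
  {C C' : Fam n X} {D : Fam m N} {p : X → N} {U U' V W : Set X}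

/-! ### isomorphisms -/

/-- isomorphism over `W` -/
structure IsoOn (L : CBo C U) (L' : CBo C U') (W : Set X) where
  h : L.α → L'.α → X → ℂ
  hol : ∀ a b, HolF C (L.V a ∩ L'.V b ∩ W) (h a b)
  ne : ∀ a b, ∀ x ∈ L.V a ∩ L'.V b ∩ W, h a b x ≠ 0
  left : ∀ a a' b, ∀ x ∈ L.V a ∩ L.V a' ∩ L'.V b ∩ W, L.g a a' x * h a' b x = h a b x
  right : ∀ a b b', ∀ x ∈ L.V a ∩ L'.V b ∩ L'.V b' ∩ W, h a b x * L'.g b b' x = h a b' x

/-- the same transition functions under an index map -/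
def IsoOn.ofSub {L : CBo C U} {L' : CBo C U'} (e : L.α → L'.α) (hV : ∀ a, L.V a ∩ W ⊆ L'.V (e a))
    (hg : ∀ a b, ∀ x ∈ L.V a ∩ L.V b ∩ W, L.g a b x = L'.g (e a) (e b) x) :
    IsoOn L L' W where
  h a b x := L'.g (e a) b x
  hol a b := holF_mono (L'.hol (e a) b) fun x hx => ⟨hV a ⟨hx.1.1, hx.2⟩, hx.1.2⟩
  ne a b x hx := L'.ne (e a) b x ⟨hV a ⟨hx.1.1, hx.2⟩, hx.1.2⟩
  left a a' b x hx := by
    rw [hg a a' x ⟨hx.1.1, hx.2⟩]
    exact L'.mul _ _ _ x ⟨⟨hV a ⟨hx.1.1.1, hx.2⟩, hV a' ⟨hx.1.1.2, hx.2⟩⟩, hx.1.2⟩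
  right a b b' x hx := L'.mul _ _ _ x ⟨⟨hV a ⟨hx.1.1.1, hx.2⟩, hx.1.1.2⟩, hx.1.2⟩

def IsoOn.symm {L : CBo C U} {L' : CBo C U'} (I : IsoOn L L' W) : IsoOn L' L W where
  h b a x := (I.h a b x)⁻¹
  hol b a := holF_inv (holF_mono (I.hol a b) fun x hx => ⟨⟨hx.1.2, hx.1.1⟩, hx.2⟩)
    fun x hx => I.ne a b x ⟨⟨hx.1.2, hx.1.1⟩, hx.2⟩
  ne b a x hx := inv_ne_zero (I.ne a b x ⟨⟨hx.1.2, hx.1.1⟩, hx.2⟩)
  left b b' a x hx := by
    have h1 := I.ne a b x ⟨⟨hx.1.2, hx.1.1.1⟩, hx.2⟩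
    have h2 := I.ne a b' x ⟨⟨hx.1.2, hx.1.1.2⟩, hx.2⟩
    have h3 := I.right a b b' x ⟨⟨⟨hx.1.2, hx.1.1.1⟩, hx.1.1.2⟩, hx.2⟩
    rw [← h3] at h2 ⊢
    field_simp [right_ne_zero_of_mul h2]
  right b a a' x hx := by
    have h1 := I.ne a b x ⟨⟨hx.1.1.2, hx.1.1.1⟩, hx.2⟩
    have h2 := I.ne a' b x ⟨⟨hx.1.2, hx.1.1.1⟩, hx.2⟩
    have h3 := I.left a a' b x ⟨⟨⟨hx.1.1.2, hx.1.2⟩, hx.1.1.1⟩, hx.2⟩
    rw [← h3] at h1 ⊢
    field_simp [left_ne_zero_of_mul h1]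

open Classical in
/-- an index `b` with `x ∈ V b` (if there is one) -/
def CBo.ix (L : CBo C U) (a₀ : L.α) (x : X) : L.α :=
  if h : ∃ b, x ∈ L.V b then h.choose else a₀

theorem CBo.mem_ix (L : CBo C U) (a₀ : L.α) {x : X} {b : L.α} (hb : x ∈ L.V b) :
    x ∈ L.V (L.ix a₀ x) := by
  have h : ∃ b, x ∈ L.V b := ⟨b, hb⟩
  unfold CBo.ix
  rw [dif_pos h]
  exact h.choose_spec

section OfIso

variable {L : CBo C U} {L' : CBo C U'} (I : IsoOn L L' W)

open Classical in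
/-- weights of `L` from weights of `L'` -/
def wIso (h : Met L' W) (a : L.α) (x : X) : ℝ :=
  if hb : ∃ b, x ∈ L'.V b then h.w hb.choose x * (‖I.h a hb.choose x‖ ^ 2)⁻¹ else 1

theorem wIso_eq (h : Met L' W) {a : L.α} {b : L'.α} {x : X} (ha : x ∈ L.V a) (hb : x ∈ L'.V b)
    (hx : x ∈ W) : wIso I h a x = h.w b x * (‖I.h a b x‖ ^ 2)⁻¹ := by
  have hex : ∃ b, x ∈ L'.V b := ⟨b, hb⟩
  unfold wIso
  rw [dif_pos hex]
  have hb' := hex.choose_spec
  rw [h.tr b hex.choose x ⟨⟨hb, hb'⟩, hx⟩,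
    ← I.right a b hex.choose x ⟨⟨⟨ha, hb⟩, hb'⟩, hx⟩, norm_mul]
  have h1 := L'.ne b hex.choose x ⟨hb, hb'⟩
  have h2 := I.ne a b x ⟨⟨ha, hb⟩, hx⟩
  have h3 : ‖L'.g b hex.choose x‖ ≠ 0 := norm_ne_zero_iff.2 h1
  have h4 : ‖I.h a b x‖ ≠ 0 := norm_ne_zero_iff.2 h2
  field_simp

/-- metrics along isomorphisms -/
def Met.ofIso (hW : IsOpen W) (hWU : W ⊆ U') (h : Met L' W) : Met L W where
  w := wIso I h
  pos a x hx := by
    obtain ⟨b, hb⟩ := L'.cov x (hWU hx.2)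
    rw [wIso_eq I h hx.1 hb hx.2]
    have h1 := h.pos b x ⟨hb, hx.2⟩
    have h2 := norm_pos_iff.2 (I.ne a b x ⟨⟨hx.1, hb⟩, hx.2⟩)
    positivity
  sm a := by
    refine smOn_of_chart (holC_id C) fun x hx => ?_
    obtain ⟨b, hb⟩ := L'.cov x (hWU hx.2)
    obtain ⟨j, hj⟩ := C.cover x
    refine ⟨j, hj, ?_⟩
    have hO : IsOpen (L.V a ∩ L'.V b ∩ W) := ((L.op a).inter (L'.op b)).inter hW
    have hm : C.e j x ∈ (C.e j).target ∩ (C.e j).symm ⁻¹' (L.V a ∩ L'.V b ∩ W) :=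
      ⟨(C.e j).map_source hj, by rw [mem_preimage, (C.e j).left_inv hj]; exact ⟨⟨hx.1, hb⟩, hx.2⟩⟩
    have h1 : ContDiffAt ℝ ∞ (fun z => h.w b ((C.e j).symm z)) (C.e j x) :=
      (h.sm b).contDiffAt ((L'.op b).inter hW) hj ⟨hb, hx.2⟩
    have h2 : ContDiffAt ℝ ∞ (fun z => ‖I.h a b ((C.e j).symm z)‖ ^ 2) (C.e j x) :=
      (holF_smOn_normSq hO (I.hol a b)).contDiffAt hO hj ⟨⟨hx.1, hb⟩, hx.2⟩
    have h3 : ‖I.h a b ((C.e j).symm (C.e j x))‖ ^ 2 ≠ 0 := by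
      rw [(C.e j).left_inv hj]
      have := norm_pos_iff.2 (I.ne a b x ⟨⟨hx.1, hb⟩, hx.2⟩)
      positivity
    refine (h1.mul (h2.inv h3)).congr_of_eventuallyEq ?_
    filter_upwards [((C.e j).isOpen_inter_preimage_symm hO).mem_nhds hm] with z hz
    exact wIso_eq I h hz.2.1.1 hz.2.1.2 hz.2.2
  tr a a' x hx := by
    obtain ⟨b, hb⟩ := L'.cov x (hWU hx.2)
    rw [wIso_eq I h hx.1.1 hb hx.2, wIso_eq I h hx.1.2 hb hx.2,
      ← I.left a a' b x ⟨⟨hx.1, hb⟩, hx.2⟩, norm_mul]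
    have h1 := norm_ne_zero_iff.2 (L.ne a a' x hx.1)
    have h2 := norm_ne_zero_iff.2 (I.ne a' b x ⟨⟨hx.1.2, hb⟩, hx.2⟩)
    field_simp

theorem posAtC_ofIso (hW : IsOpen W) (hWU : W ⊆ U') (h : Met L' W) {x : X} (hx : x ∈ W)
    {a : L.α} (ha : x ∈ L.V a) (hp : PosAtC h x) : PosAtC (Met.ofIso I hW hWU h) x := by
  obtain ⟨b, hb⟩ := L'.cov x (hWU hx)
  obtain ⟨j, hj⟩ := C.cover x
  refine posAtC_of hW (a := a) (j := j) ha hj hx fun v hv => ?_
  have hO : IsOpen (L.V a ∩ L'.V b ∩ W) := ((L.op a).inter (L'.op b)).inter hW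
  have h1 : lv C ((Met.ofIso I hW hWU h).w a) j x v =
      lv C (fun y => ‖(I.h a b y)⁻¹‖ ^ 2 * h.w b y) j x v := by
    refine lv_congr hj ?_ v
    filter_upwards [hO.mem_nhds ⟨⟨ha, hb⟩, hx⟩] with y hy
    show wIso I h a y = _
    rw [wIso_eq I h hy.1.1 hy.1.2 hy.2, norm_inv, inv_pow, mul_comm]
  rw [h1, lv_unit hO ((h.sm b).mono fun y hy => ⟨hy.1.2, hy.2⟩)
    (fun y hy => h.pos b y ⟨hy.1.2, hy.2⟩) (holF_inv (I.hol a b) (I.ne a b))
    (fun y hy => inv_ne_zero (I.ne a b y hy)) hj ⟨⟨ha, hb⟩, hx⟩ v]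
  exact hp b j hb hj v hv

end OfIso

/-- positivity along isomorphisms -/
theorem PosNear.ofIso {L : CBo C U} {L' : CBo C U'} {K : Set X} (hW : IsOpen W) (hWU : W ⊆ U)
    (hWU' : W ⊆ U') (hK : K ⊆ W) (I : IsoOn L L' W) (h : PosNear L' K) : PosNear L K := by
  obtain ⟨W₁, h1, h2, h3, h4⟩ := h
  let I' : IsoOn L L' (W ∩ W₁) :=
    { h := I.h
      hol := fun a b => holF_mono (I.hol a b) fun x hx => ⟨hx.1, hx.2.1⟩
      ne := fun a b x hx => I.ne a b x ⟨hx.1, hx.2.1⟩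
      left := fun a a' b x hx => I.left a a' b x ⟨hx.1, hx.2.1⟩
      right := fun a b b' x hx => I.right a b b' x ⟨hx.1, hx.2.1⟩ }
  have hWW : IsOpen (W ∩ W₁) := hW.inter h1
  refine ⟨W ∩ W₁, hWW, subset_inter hK h2,
    Met.ofIso I' hWW (inter_subset_left.trans hWU') (h3.mono inter_subset_right), fun x hx => ?_⟩
  obtain ⟨a, ha⟩ := L.cov x (hWU hx.1)
  refine posAtC_ofIso I' hWW (inter_subset_left.trans hWU') _ hx ha ?_
  exact h4 x hx.2

/-! ### local equations -/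

/-- local equations of a divisor -/
structure Eqs (C : Fam n X) (U : Set X) where
  α : Type
  V : α → Set X
  op : ∀ a, IsOpen (V a)
  cov : ∀ x ∈ U, ∃ a, x ∈ V a
  f : α → X → ℂ
  dense : ∀ a, V a ⊆ closure {x | f a x ≠ 0}
  loc : ∀ a b, ∀ x ∈ V a ∩ V b, ∃ W, IsOpen W ∧ x ∈ W ∧ ∃ u, HolF C W u ∧ (∀ y ∈ W, u y ≠ 0) ∧
    ∀ y ∈ W, f a y = u y * f b y

namespace Eqs

variable (E : Eqs C U)

/-- the bundle with the canonical section `f` -/
def cb : CBo C U := CBo.ofEq E.α E.V E.op E.cov E.f E.dense E.loc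

/-- the `k`-th power of the ideal generated by the equations -/
def idl (k : ℕ) : CBo C U := E.cb.zpow (-(k : ℤ))

theorem dense_pow (k : ℕ) (a : E.α) : E.V a ⊆ closure {x | E.f a x ^ k ≠ 0} := by
  refine (E.dense a).trans (closure_mono fun x hx => ?_)
  exact pow_ne_zero k hx

theorem g_eq {a b : E.α} {x : X} (hx : x ∈ E.V a ∩ E.V b) {W : Set X} (hW : IsOpen W) (hxW : x ∈ W)
    {u : X → ℂ} (hu : HolF C W u) (he : ∀ y ∈ W, E.f a y = u y * E.f b y) : E.cb.g a b x = u x :=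
  quo_eq (E.dense b hx.2) (holF_contAt hW hu hxW) (by
    filter_upwards [hW.mem_nhds hxW] with z hz using he z hz)

/-- **a function divisible by `f a ^ k` near every point of `V a ∩ W` is a section of `idl k`** -/
def secFun (k : ℕ) {F : X → ℂ} {W : Set X}
    (hF : ∀ a, ∀ x ∈ E.V a ∩ W, ∃ W', IsOpen W' ∧ x ∈ W' ∧ ∃ u, HolF C W' u ∧
      ∀ y ∈ W', F y = u y * E.f a y ^ k) : Sec (E.idl k) W where
  s a := quo F fun y => E.f a y ^ k
  hol a := by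
    refine holF_of_local fun x hx => ?_
    obtain ⟨W', hW', hxW, u, hu, he⟩ := hF a x hx
    refine ⟨W' ∩ E.V a, hW'.inter (E.op a), ⟨hxW, hx.1⟩,
      holF_congr (holF_mono hu inter_subset_left) ?_⟩
    intro y hy
    exact quo_eq (E.dense_pow k a hy.2) (holF_contAt hW' hu hy.1) (by
      filter_upwards [hW'.mem_nhds hy.1] with z hz using he z hz)
  tr a b x hx := by
    obtain ⟨W₁, hW₁, hx₁, u, hu, he⟩ := hF a x ⟨hx.1.1, hx.2⟩
    obtain ⟨W₂, hW₂, hx₂, v, hv, hv0, hev⟩ := E.loc a b x hx.1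
    have h1 : quo F (fun y => E.f a y ^ k) x = u x :=
      quo_eq (E.dense_pow k a hx.1.1) (holF_contAt hW₁ hu hx₁) (by
        filter_upwards [hW₁.mem_nhds hx₁] with z hz using he z hz)
    have h2 : quo F (fun y => E.f b y ^ k) x = u x * v x ^ k :=
      quo_eq (u := fun y => u y * v y ^ k) (E.dense_pow k b hx.1.2)
        ((holF_contAt hW₁ hu hx₁).mul ((holF_contAt hW₂ hv hx₂).pow k)) (by
        filter_upwards [hW₁.mem_nhds hx₁, hW₂.mem_nhds hx₂] with z hz hz'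
        rw [he z hz, hev z hz']
        ring)
    have h3 : (E.idl k).g a b x = (v x) ^ (-(k : ℤ)) := by
      show E.cb.g a b x ^ (-(k : ℤ)) = _
      rw [E.g_eq hx.1 hW₂ hx₂ hv hev]
    have h4 := hv0 x hx₂
    show quo F (fun y => E.f a y ^ k) x = (E.idl k).g a b x * quo F (fun y => E.f b y ^ k) x
    rw [h1, h2, h3, zpow_neg, zpow_natCast]
    field_simp

theorem secFun_s (k : ℕ) {F : X → ℂ} {W : Set X}
    (hF : ∀ a, ∀ x ∈ E.V a ∩ W, ∃ W', IsOpen W' ∧ x ∈ W' ∧ ∃ u, HolF C W' u ∧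
      ∀ y ∈ W', F y = u y * E.f a y ^ k) {a : E.α} {x : X} (ha : x ∈ E.V a) {W' : Set X}
    (hW' : IsOpen W') (hx : x ∈ W') {u : X → ℂ} (hu : HolF C W' u)
    (he : ∀ y ∈ W', F y = u y * E.f a y ^ k) : (E.secFun k hF).s a x = u x :=
  quo_eq (E.dense_pow k a ha) (holF_contAt hW' hu hx) (by
    filter_upwards [hW'.mem_nhds hx] with z hz using he z hz)

end Eqs

/-! ### existence of metrics; twisting by a bundle -/

theorem exists_met [CompactSpace X] [T2Space X] (L : CB C) : Nonempty (Met L univ) := by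
  obtain ⟨A, hfin, -, ⟨P⟩, h4, hA, hA'⟩ := C.exists_atl L.V L.op (fun x => L.cov x (mem_univ x))
  choose c hc using h4
  have := hfin
  obtain ⟨h⟩ := HM_333.exists_hm P (CB.lb L A hA c hc)
  exact ⟨Met.ofHMo L A hA hA' c hc isOpen_univ (HMo.ofHM h univ)⟩

/-- `Q` positive near all fibres ⟹ `Q^k ⊗ D` positive near all fibres for `k ≥ k₀` -/
theorem exists_posNear_tens [CompactSpace X] [T2Space X] [CompactSpace N] [T2Space N]
    (hp : Continuous p) {Q D : CB C} (hQ : ∀ q, PosNear Q (p ⁻¹' {q})) :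
    ∃ k₀ : ℕ, ∀ k : ℕ, k₀ ≤ k → ∀ q, PosNear ((Q.zpow k).tens D) (p ⁻¹' {q}) := by
  obtain ⟨hD⟩ := exists_met D
  have h1 : ∀ q : N, ∃ B : Set N, IsOpen B ∧ q ∈ B ∧ ∃ k₀ : ℕ, ∀ k : ℕ, k₀ ≤ k → ∀ q' ∈ B,
      PosNear ((Q.zpow k).tens D) (p ⁻¹' {q'}) := by
    intro q
    obtain ⟨W, hW, hqW, h, hh⟩ := hQ q
    have hcl : IsClosed (p '' Wᶜ) := (hW.isClosed_compl.isCompact.image hp).isClosed
    have hq : q ∈ (p '' Wᶜ)ᶜ := by
      rintro ⟨x, hx, hxq⟩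
      exact hx (hqW hxq)
    obtain ⟨B, hB1, hB2, hB3⟩ := exists_compact_subset hcl.isOpen_compl hq
    have hKW : p ⁻¹' B ⊆ W := by
      intro x hx
      by_contra hxW
      exact hB3 hx ⟨x, hxW, rfl⟩
    have hKc : IsCompact (p ⁻¹' B) := (hB1.isClosed.preimage hp).isCompact
    obtain ⟨k₀, hk₀⟩ := exists_posAtC hW h (hD.mono (subset_univ W)) hh hKc hKW (subset_univ _)
    refine ⟨interior B, isOpen_interior, hB2, k₀, fun k hk q' hq' => ?_⟩
    refine ⟨p ⁻¹' (interior B), isOpen_interior.preimage hp, ?_,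
      ((h.npow k).tens (hD.mono (subset_univ W))).mono
        ((preimage_mono interior_subset).trans hKW), ?_⟩
    · rintro x rfl
      exact hq'
    · intro x hx
      exact hk₀ k hk x (show p x ∈ B from interior_subset hx)
  choose B hB1 hB2 k₀ hk₀ using h1
  obtain ⟨t, ht⟩ := isCompact_univ.elim_finite_subcover B hB1
    (fun q _ => mem_iUnion.2 ⟨q, hB2 q⟩)
  refine ⟨t.sup k₀, fun k hk q => ?_⟩
  obtain ⟨q', hq', hqq⟩ := mem_iUnion₂.1 (ht (mem_univ q))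
  exact hk₀ q' k ((Finset.le_sup hq').trans hk) q hqq

end

end Crest.Agent.R272.CB_232
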