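import Crest.Agent.R272.CB6_232
import Crest.Agent.R272.HFam_342

/-!
# R272, task CB (helper232), part 7: transport by locally biholomorphic `OpenPartialHomeomorph`s, gluing of
local equations, generators

`φ : OpenPartialHomeomorph X Y`, `hφ : ∀ x ∈ φ.source, LC C D φ x` (342).
`CBo.push`, `Sec.push`, `Met.push`, `PosNear.push`, `Eqs.push` : from `Y` to `X` (use `φ.symm` for the other direction);
`Eqs.join`   : local equations over `U₀` and over `U₁` which differ by units ⟹ over `U₀ ∪ U₁`;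
`joinL`, `joinR`, `PosNear.join_left`, `PosNear.join_right` : comparison of all powers;
`Eqs.ofGen`  : functions `Φ k` such that near every point one of them divides all others.
-/

set_option autoImplicit false
set_option linter.unusedSectionVars false
set_option linter.unusedVariables false

open Set Filter Topology Complex
open scoped ContDiff Matrix ComplexConjugate Manifold

namespace Crest.Agent.R272.CB_232

open Crest.Agent.R275.Geo Crest.Agent.R275.Core144 Crest.Agent.R275.GC293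
open Crest.Agent.R273 Crest.Agent.R273.Defs_333 Crest.Agent.R273.Map_835
open Crest.Agent.R273.Fam_835
open Crest.Agent.R272.Quot_783 Crest.Agent.R272.PosGlue_232 Crest.Agent.R272.HFam_342

noncomputable section

variable {n m : ℕ} {X Y N : Type} [TopologicalSpace X] [TopologicalSpace Y] [TopologicalSpace N]
  {C : Fam n X} {D : Fam n Y} {p : X → Y} {U U' V W : Set X}

/-! ### pull back by maps which are holomorphic on an open set -/

theorem hC_diffOn {S : Set X} (hS : IsOpen S) (h : ∀ x ∈ S, HC C D p x) (i : C.ι) (j : D.ι)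
    {T : Set Y} (hT : IsOpen T) (hTj : T ⊆ (D.e j).source) :
    IsOpen ((C.e i).target ∩ (C.e i).symm ⁻¹' (S ∩ p ⁻¹' T)) ∧
      DifferentiableOn ℂ (rc C D p i j) ((C.e i).target ∩ (C.e i).symm ⁻¹' (S ∩ p ⁻¹' T)) := by
  have hc : ContinuousOn p S := fun x hx => (h x hx).1.continuousWithinAt
  have hO : IsOpen (S ∩ p ⁻¹' T) := hc.isOpen_inter_preimage hS hT
  refine ⟨(C.e i).isOpen_inter_preimage_symm hO, fun z hz => ?_⟩
  have h1 := (h _ hz.2.1).2 i j ((C.e i).map_target hz.1) (hTj hz.2.2)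
  rw [(C.e i).right_inv hz.1] at h1
  exact h1.differentiableWithinAt

theorem hC_anAt {S : Set X} (hS : IsOpen S) (h : ∀ x ∈ S, HC C D p x) {i : C.ι} {j : D.ι} {x : X}
    (hx : x ∈ S) (hi : x ∈ (C.e i).source) (hj : p x ∈ (D.e j).source) :
    AnalyticAt ℂ (rc C D p i j) (C.e i x) := by
  obtain ⟨h1, h2⟩ := hC_diffOn hS h i j (D.e j).open_source Subset.rfl
  refine Crest.Agent.R266.SCV.analyticOnNhd_of_differentiableOn h1 h2 _
    ⟨(C.e i).map_source hi, ?_⟩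
  rw [mem_preimage, (C.e i).left_inv hi]
  exact ⟨hx, hj⟩

theorem holF_compHC {S : Set X} (hS : IsOpen S) (h : ∀ x ∈ S, HC C D p x) {T : Set Y}
    (hT : IsOpen T) (hST : ∀ x ∈ S, p x ∈ T) {F : Y → ℂ} (hF : HolF D T F) :
    HolF C S fun x => F (p x) := by
  intro j z hz
  set x := (C.e j).symm z with hx
  have hxs : x ∈ (C.e j).source := (C.e j).map_target hz.1
  have hzx : C.e j x = z := (C.e j).right_inv hz.1
  obtain ⟨l, hl⟩ := D.cover (p x)
  have h1 : DifferentiableAt ℂ (fun y => F ((D.e l).symm y)) (D.e l (p x)) :=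
    hF.diffAt hT hl (hST x hz.2)
  have h2 := (h x hz.2).2 j l hxs hl
  have h3 : DifferentiableAt ℂ (fun z => F ((D.e l).symm (rc C D p j l z))) (C.e j x) :=
    DifferentiableAt.comp (C.e j x) (g := fun y => F ((D.e l).symm y))
      (by rw [rc_apply C D p l hxs]; exact h1) h2
  rw [hzx] at h3
  refine (h3.congr_of_eventuallyEq ?_).differentiableWithinAt
  have h5 : ∀ᶠ y in 𝓝 x, p y ∈ (D.e l).source :=
    (h x hz.2).1.eventually ((D.e l).open_source.mem_nhds hl)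
  have h6 := eventually_chartC hxs h5
  rw [hzx] at h6
  filter_upwards [h6] with w hw
  simp only [HFam_342.rc]
  rw [(D.e l).left_inv hw.2]

theorem smOn_compHC {S : Set X} (hS : IsOpen S) (h : ∀ x ∈ S, HC C D p x) {T : Set Y}
    (hT : IsOpen T) (hST : ∀ x ∈ S, p x ∈ T) {f : Y → ℝ} (hf : SmOn D T f) :
    SmOn C S fun x => f (p x) := by
  intro j z hz
  set x := (C.e j).symm z with hx
  have hxs : x ∈ (C.e j).source := (C.e j).map_target hz.1
  have hzx : C.e j x = z := (C.e j).right_inv hz.1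
  obtain ⟨l, hl⟩ := D.cover (p x)
  have h1 : ContDiffAt ℝ ∞ (fun y => f ((D.e l).symm y)) (D.e l (p x)) :=
    hf.contDiffAt hT hl (hST x hz.2)
  have h2 : ContDiffAt ℝ ∞ (rc C D p j l) (C.e j x) :=
    (hC_anAt hS h hz.2 hxs hl).contDiffAt.restrict_scalars ℝ
  have h3 : ContDiffAt ℝ ∞ (fun z => f ((D.e l).symm (rc C D p j l z))) (C.e j x) :=
    ContDiffAt.comp (C.e j x) (g := fun y => f ((D.e l).symm y))
      (by rw [rc_apply C D p l hxs]; exact h1) h2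
  rw [hzx] at h3
  refine (h3.congr_of_eventuallyEq ?_).contDiffWithinAt
  have h5 : ∀ᶠ y in 𝓝 x, p y ∈ (D.e l).source :=
    (h x hz.2).1.eventually ((D.e l).open_source.mem_nhds hl)
  have h6 := eventually_chartC hxs h5
  rw [hzx] at h6
  filter_upwards [h6] with w hw
  simp only [HFam_342.rc]
  rw [(D.e l).left_inv hw.2]

/-- the Levi form of a pull back -/
theorem lv_compHC {S : Set X} (hS : IsOpen S) (h : ∀ x ∈ S, HC C D p x) {T : Set Y}
    (hT : IsOpen T) (hST : ∀ x ∈ S, p x ∈ T) {w : Y → ℝ} (hw : SmOn D T w)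
    (hpos : ∀ y ∈ T, 0 < w y) {i : C.ι} {j : D.ι} {x : X} (hx : x ∈ S)
    (hi : x ∈ (C.e i).source) (hj : p x ∈ (D.e j).source) (v : Cn n) :
    lv C (fun y => w (p y)) i x v = lv D w j (p x) (fderiv ℂ (rc C D p i j) (C.e i x) v) := by
  have e1 : rc C D p i j (C.e i x) = D.e j (p x) := rc_apply C D p j hi
  have ha := hC_anAt hS h hx hi hj
  have hu : ContDiffAt ℝ 2 (fun z => - Real.log (w ((D.e j).symm z)))
      (rc C D p i j (C.e i x)) := by
    rw [e1]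
    exact (log_c2 hw hT hpos hj (hST x hx)).of_le (by norm_cast)
  have h2 := Levi_145.lev_comp (z := C.e i x) ha hu v
  have h4 : (fun z => - Real.log (w (p ((C.e i).symm z)))) =ᶠ[𝓝 (C.e i x)]
      fun z => - Real.log (w ((D.e j).symm (rc C D p i j z))) := by
    have h5 : ∀ᶠ y in 𝓝 x, p y ∈ (D.e j).source :=
      (h x hx).1.eventually ((D.e j).open_source.mem_nhds hj)
    filter_upwards [eventually_chartC hi h5] with y hy
    simp only [HFam_342.rc]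
    rw [(D.e j).left_inv hy.2]
  unfold lv
  rw [PB_835.lev_congr' h4, PB_835.lev_bridge, h2, ← PB_835.lev_bridge, e1]

/-! ### transport -/

section Tr

variable (φ : OpenPartialHomeomorph X Y) (hφ : ∀ x ∈ φ.source, LC C D φ x)

theorem isOpen_pre {T : Set Y} (hT : IsOpen T) : IsOpen (φ.source ∩ φ ⁻¹' T) :=
  φ.isOpen_inter_preimage hT

/-- transport of a bundle -/
def CBo.push {U : Set Y} (L : CBo D U) : CBo C (φ.source ∩ φ ⁻¹' U) where
  α := L.α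
  V a := φ.source ∩ φ ⁻¹' (L.V a)
  op a := isOpen_pre φ (L.op a)
  cov x hx := by
    obtain ⟨a, ha⟩ := L.cov _ hx.2
    exact ⟨a, hx.1, ha⟩
  g a b x := L.g a b (φ x)
  hol a b := by
    refine holF_mono (U := φ.source ∩ φ ⁻¹' (L.V a ∩ L.V b)) ?_
      (fun x hx => ⟨hx.1.1, hx.1.2, hx.2.2⟩)
    exact holF_compHC (isOpen_pre φ ((L.op a).inter (L.op b))) (fun x hx => (hφ x hx.1).1)
      ((L.op a).inter (L.op b)) (fun x hx => hx.2) (L.hol a b)
  ne a b x hx := L.ne a b (φ x) ⟨hx.1.2, hx.2.2⟩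
  mul a b c x hx := L.mul a b c (φ x) ⟨⟨hx.1.1.2, hx.1.2.2⟩, hx.2.2⟩

/-- transport of a section -/
def Sec.push {U T : Set Y} {L : CBo D U} (hT : IsOpen T) (y : Sec L T) :
    Sec (L.push φ hφ) (φ.source ∩ φ ⁻¹' T) where
  s a x := y.s a (φ x)
  hol a := by
    refine holF_mono (U := φ.source ∩ φ ⁻¹' (L.V a ∩ T)) ?_
      (fun x hx => ⟨hx.1.1, hx.1.2, hx.2.2⟩)
    exact holF_compHC (isOpen_pre φ (IsOpen.inter (L.op a) hT)) (fun x hx => (hφ x hx.1).1)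
      (IsOpen.inter (L.op a) hT) (fun x hx => hx.2) (y.hol a)
  tr a b x hx := y.tr a b (φ x) ⟨⟨hx.1.1.2, hx.1.2.2⟩, hx.2.2⟩

/-- transport of a metric -/
def Met.push {U T : Set Y} {L : CBo D U} (hT : IsOpen T) (h : Met L T) :
    Met (L.push φ hφ) (φ.source ∩ φ ⁻¹' T) where
  w a x := h.w a (φ x)
  pos a x hx := h.pos a (φ x) ⟨hx.1.2, hx.2.2⟩
  sm a := by
    refine SmOn.mono (U := φ.source ∩ φ ⁻¹' (L.V a ∩ T)) ?_
      (fun x hx => ⟨hx.1.1, hx.1.2, hx.2.2⟩)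
    exact smOn_compHC (isOpen_pre φ (IsOpen.inter (L.op a) hT)) (fun x hx => (hφ x hx.1).1)
      (IsOpen.inter (L.op a) hT) (fun x hx => hx.2) (h.sm a)
  tr a b x hx := h.tr a b (φ x) ⟨⟨hx.1.1.2, hx.1.2.2⟩, hx.2.2⟩

theorem posAtC_push {U T : Set Y} {L : CBo D U} (hT : IsOpen T) (h : Met L T) {x : X}
    (hx : x ∈ φ.source) (hxT : φ x ∈ T) (hp : PosAtC h (φ x)) {a : L.α} (ha : φ x ∈ L.V a) :
    PosAtC (Met.push φ hφ hT h) x := by
  obtain ⟨i, hi⟩ := C.cover x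
  obtain ⟨j, hj⟩ := D.cover (φ x)
  let a' : (L.push φ hφ).α := a
  have ha' : x ∈ (L.push φ hφ).V a' := ⟨hx, ha⟩
  refine posAtC_of (isOpen_pre φ hT) (a := a') (j := i) ha' hi ⟨hx, hxT⟩ fun v hv => ?_
  have hO : IsOpen (L.V a ∩ T) := IsOpen.inter (L.op a) hT
  have h1 := lv_compHC (C := C) (D := D) (p := φ) (isOpen_pre φ hO)
    (fun x hx => (hφ x hx.1).1) hO (fun x hx => hx.2) (h.sm a) (fun y hy => h.pos a y hy)
    (i := i) (j := j) (x := x) ⟨hx, ha, hxT⟩ hi hj v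
  show 0 < lv C (fun y => h.w a (φ y)) i x v
  rw [h1]
  refine hp a j ha hj _ fun h0 => hv ?_
  have h2 := (hφ x hx).2 i j hi hj
  exact h2 (by rw [h0, map_zero])

theorem PosNear.push {U : Set Y} {L : CBo D U} {K : Set Y} (hKU : IsOpen U) (h : PosNear L K) :
    PosNear (L.push φ hφ) (φ.source ∩ φ ⁻¹' (K ∩ U)) := by
  obtain ⟨T, hT, hKT, h, hh⟩ := h
  refine ⟨φ.source ∩ φ ⁻¹' (T ∩ U), isOpen_pre φ (hT.inter hKU),
    fun x hx => ⟨hx.1, hKT hx.2.1, hx.2.2⟩,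
    (Met.push φ hφ hT h).mono fun x hx => ⟨hx.1, hx.2.1⟩, fun x hx => ?_⟩
  obtain ⟨a, ha⟩ := L.cov _ hx.2.2
  exact posAtC_push φ hφ hT h hx.1 hx.2.1 (hh _ hx.2.1) ha

/-- transport of local equations -/
def Eqs.push {U : Set Y} (E : Eqs D U) : Eqs C (φ.source ∩ φ ⁻¹' U) where
  α := E.α
  V a := φ.source ∩ φ ⁻¹' (E.V a)
  op a := isOpen_pre φ (E.op a)
  cov x hx := by
    obtain ⟨a, ha⟩ := E.cov _ hx.2
    exact ⟨a, hx.1, ha⟩
  f a x := E.f a (φ x)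
  dense a x hx := by
    rw [mem_closure_iff]
    intro O hO hxO
    have h1 : IsOpen (φ.target ∩ φ.symm ⁻¹' (φ.source ∩ O)) :=
      φ.isOpen_inter_preimage_symm (φ.open_source.inter hO)
    have h2 : φ x ∈ φ.target ∩ φ.symm ⁻¹' (φ.source ∩ O) :=
      ⟨φ.map_source hx.1, by rw [mem_preimage, φ.left_inv hx.1]; exact ⟨hx.1, hxO⟩⟩
    obtain ⟨y, hy, hy0⟩ := mem_closure_iff.1 (E.dense a hx.2) _ h1 h2
    refine ⟨φ.symm y, hy.2.2, ?_⟩
    show E.f a (φ (φ.symm y)) ≠ 0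
    rw [φ.right_inv hy.1]
    exact hy0
  loc a b x hx := by
    obtain ⟨T, hT, hxT, u, hu, hu0, he⟩ := E.loc a b (φ x) ⟨hx.1.2, hx.2.2⟩
    refine ⟨φ.source ∩ φ ⁻¹' T, isOpen_pre φ hT, ⟨hx.1.1, hxT⟩, fun z => u (φ z), ?_,
      fun y hy => hu0 _ hy.2, fun y hy => he _ hy.2⟩
    exact holF_compHC (isOpen_pre φ hT) (fun x hx => (hφ x hx.1).1) hT (fun x hx => hx.2) hu

end Tr

/-! ### gluing of local equations -/

/-- a local unit between two functions -/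
def UnitAt (C : Fam n X) (f g : X → ℂ) (x : X) : Prop :=
  ∃ W, IsOpen W ∧ x ∈ W ∧ ∃ u, HolF C W u ∧ (∀ y ∈ W, u y ≠ 0) ∧ ∀ y ∈ W, f y = u y * g y

theorem UnitAt.symm {f g : X → ℂ} {x : X} (h : UnitAt C f g x) : UnitAt C g f x := by
  obtain ⟨W, hW, hx, u, hu, hu0, he⟩ := h
  refine ⟨W, hW, hx, fun y => (u y)⁻¹, holF_inv hu hu0, fun y hy => inv_ne_zero (hu0 y hy),
    fun y hy => ?_⟩
  rw [he y hy, ← mul_assoc, inv_mul_cancel₀ (hu0 y hy), one_mul]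

theorem UnitAt.trans {f g h : X → ℂ} {x : X} (h₁ : UnitAt C f g x) (h₂ : UnitAt C g h x) :
    UnitAt C f h x := by
  obtain ⟨W₁, hW₁, hx₁, u₁, hu₁, h01, he₁⟩ := h₁
  obtain ⟨W₂, hW₂, hx₂, u₂, hu₂, h02, he₂⟩ := h₂
  refine ⟨W₁ ∩ W₂, hW₁.inter hW₂, ⟨hx₁, hx₂⟩, fun y => u₁ y * u₂ y,
    holF_mul (holF_mono hu₁ inter_subset_left) (holF_mono hu₂ inter_subset_right),
    fun y hy => mul_ne_zero (h01 y hy.1) (h02 y hy.2), fun y hy => ?_⟩
  rw [he₁ y hy.1, he₂ y hy.2, mul_assoc]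

/-- **gluing of local equations** -/
def Eqs.join (E₀ : Eqs C U) (E₁ : Eqs C U')
    (h : ∀ a b, ∀ x ∈ E₀.V a ∩ E₁.V b, UnitAt C (E₀.f a) (E₁.f b) x) : Eqs C (U ∪ U') where
  α := E₀.α ⊕ E₁.α
  V := Sum.elim E₀.V E₁.V
  op := by rintro (a | a); exacts [E₀.op a, E₁.op a]
  cov := by
    rintro x (hx | hx)
    · obtain ⟨a, ha⟩ := E₀.cov x hx
      exact ⟨Sum.inl a, ha⟩
    · obtain ⟨a, ha⟩ := E₁.cov x hx
      exact ⟨Sum.inr a, ha⟩
  f := Sum.elim E₀.f E₁.f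
  dense := by rintro (a | a); exacts [E₀.dense a, E₁.dense a]
  loc := by
    rintro (a | a) (b | b) x hx
    · exact E₀.loc a b x hx
    · exact h a b x hx
    · exact (h b a x ⟨hx.2, hx.1⟩).symm
    · exact E₁.loc a b x hx

variable {E₀ : Eqs C U} {E₁ : Eqs C U'}
  {h : ∀ a b, ∀ x ∈ E₀.V a ∩ E₁.V b, UnitAt C (E₀.f a) (E₁.f b) x}

/-- comparison with the left piece -/
def joinL (k : ℤ) (W : Set X) :
    IsoOn ((E₀.join E₁ h).cb.zpow k) (E₀.cb.zpow k) W :=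
  (IsoOn.ofSub (L := E₀.cb.zpow k) (L' := (E₀.join E₁ h).cb.zpow k) (W := W)
    (fun a => Sum.inl a) (fun a x hx => hx.1) (fun a b x hx => rfl)).symm

/-- comparison with the right piece -/
def joinR (k : ℤ) (W : Set X) :
    IsoOn ((E₀.join E₁ h).cb.zpow k) (E₁.cb.zpow k) W :=
  (IsoOn.ofSub (L := E₁.cb.zpow k) (L' := (E₀.join E₁ h).cb.zpow k) (W := W)
    (fun a => Sum.inr a) (fun a x hx => hx.1) (fun a b x hx => rfl)).symm

theorem PosNear.join_left (k : ℤ) {K : Set X} (hU : IsOpen U) (hK : K ⊆ U)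
    (hp : PosNear (E₀.cb.zpow k) K) : PosNear ((E₀.join E₁ h).cb.zpow k) K :=
  PosNear.ofIso hU subset_union_left Subset.rfl hK (joinL k U) hp

theorem PosNear.join_right (k : ℤ) {K : Set X} (hU : IsOpen U') (hK : K ⊆ U')
    (hp : PosNear (E₁.cb.zpow k) K) : PosNear ((E₀.join E₁ h).cb.zpow k) K :=
  PosNear.ofIso hU subset_union_right Subset.rfl hK (joinR k U') hp

/-! ### generators -/

/-- `g` divides `f` near `x` -/
def DivAt (C : Fam n X) (f g : X → ℂ) (x : X) : Prop :=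
  ∃ W, IsOpen W ∧ x ∈ W ∧ ∃ u, HolF C W u ∧ ∀ y ∈ W, f y = u y * g y

theorem DivAt.unit {f g : X → ℂ} {x : X} (h₁ : DivAt C f g x) (h₂ : DivAt C g f x)
    (hd : ∀ᶠ y in 𝓝 x, y ∈ closure {z | f z ≠ 0}) : UnitAt C f g x := by
  obtain ⟨W₁, hW₁, hx₁, u, hu, he₁⟩ := h₁
  obtain ⟨W₂, hW₂, hx₂, v, hv, he₂⟩ := h₂
  obtain ⟨W₃, hW₃', hW₃, hx₃⟩ := eventually_nhds_iff.1 hd
  refine ⟨W₁ ∩ W₂ ∩ W₃, (hW₁.inter hW₂).inter hW₃, ⟨⟨hx₁, hx₂⟩, hx₃⟩, u,
    holF_mono hu fun y hy => hy.1.1, fun y hy h0 => ?_, fun y hy => he₁ y hy.1.1⟩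
  have h1 : (𝓝[{z | f z ≠ 0}] y).NeBot := mem_closure_iff_nhdsWithin_neBot.1 (hW₃' y hy.2)
  have h2 : Tendsto (fun z => u z * v z) (𝓝[{z | f z ≠ 0}] y) (𝓝 (u y * v y)) :=
    ((holF_contAt hW₁ hu hy.1.1).mul (holF_contAt hW₂ hv hy.1.2)).tendsto.mono_left
      nhdsWithin_le_nhds
  have h3 : Tendsto (fun z => u z * v z) (𝓝[{z | f z ≠ 0}] y) (𝓝 1) := by
    refine tendsto_const_nhds.congr' ?_
    filter_upwards [nhdsWithin_le_nhds (hW₁.mem_nhds hy.1.1),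
      nhdsWithin_le_nhds (hW₂.mem_nhds hy.1.2), self_mem_nhdsWithin] with z hz₁ hz₂ hz
    have h4 : f z = u z * (v z * f z) := by rw [← he₂ z hz₂, ← he₁ z hz₁]
    have h5 : f z ≠ 0 := hz
    have h6 : (u z * v z) * f z = 1 * f z := by rw [one_mul, mul_assoc, ← h4]
    exact (mul_right_cancel₀ h5 h6).symm
  have h4 := tendsto_nhds_unique h2 h3
  rw [h0, zero_mul] at h4
  exact zero_ne_one h4

/-- **the ideal generated by functions `Φ k`, if near every point one of them divides all others** -/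
def Eqs.ofGen {κ : Type} (Φ : κ → X → ℂ) (W : Set X) (hW : IsOpen W)
    (hgen : ∀ x ∈ W, ∃ k, ∀ᶠ y in 𝓝 x, ∀ j, DivAt C (Φ j) (Φ k) y)
    (hd : ∀ x ∈ W, ∃ j, x ∈ closure {y | Φ j y ≠ 0}) : Eqs C W where
  α := κ
  V k := W ∩ {x | ∀ᶠ y in 𝓝 x, ∀ j, DivAt C (Φ j) (Φ k) y}
  op k := hW.inter (by
    rw [isOpen_iff_mem_nhds]
    intro x hx
    exact eventually_eventually_nhds.2 hx)
  cov x hx := by
    obtain ⟨k, hk⟩ := hgen x hx
    exact ⟨k, hx, hk⟩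
  f := Φ
  dense k x hx := by
    obtain ⟨j, hj⟩ := hd x hx.1
    obtain ⟨W', hW', hxW', u, hu, he⟩ := (show ∀ᶠ y in 𝓝 x, ∀ j, DivAt C (Φ j) (Φ k) y from
      hx.2).self_of_nhds j
    rw [mem_closure_iff] at hj ⊢
    intro O hO hxO
    obtain ⟨y, hy, hy0⟩ := hj (O ∩ W') (hO.inter hW') ⟨hxO, hxW'⟩
    refine ⟨y, hy.1, fun h0 => hy0 ?_⟩
    rw [he y hy.2]
    have h0' : Φ k y = 0 := h0
    rw [h0', mul_zero]
  loc a b x hx := by
    have ha : ∀ᶠ y in 𝓝 x, ∀ j, DivAt C (Φ j) (Φ a) y := hx.1.2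
    have hb : ∀ᶠ y in 𝓝 x, ∀ j, DivAt C (Φ j) (Φ b) y := hx.2.2
    refine DivAt.unit (hb.self_of_nhds a) (ha.self_of_nhds b) ?_
    filter_upwards [hW.mem_nhds hx.1.1, eventually_eventually_nhds.2 ha] with y hyW hya
    obtain ⟨j, hj⟩ := hd y hyW
    obtain ⟨W', hW', hxW', u, hu, he⟩ := hya.self_of_nhds j
    rw [mem_closure_iff] at hj ⊢
    intro O hO hyO
    obtain ⟨z, hz, hz0⟩ := hj (O ∩ W') (hO.inter hW') ⟨hyO, hxW'⟩
    refine ⟨z, hz.1, fun h0 => hz0 ?_⟩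
    rw [he z hz.2]
    have h0' : Φ a z = 0 := h0
    rw [h0', mul_zero]

end

end Crest.Agent.R272.CB_232
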