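import Crest.Agent.R272.CB7_232

/-!
# R272, task CB (helper232), part 8: products and powers of local equations

`Eqs.mul`, `Eqs.npow`; `isoMul`, `isoPow`, `isoZpow`, `isoTens` : comparison with `tens` and `zpow`;
`PosNear.mul`, `PosNear.npow_iff`.
-/

set_option autoImplicit false
set_option linter.unusedSectionVars false
set_option linter.unusedVariables false

open Set Filter Topology Complex
open scoped ContDiff Matrix ComplexConjugate Manifold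

namespace Crest.Agent.R272.CB_232

open Crest.Agent.R275.Geo Crest.Agent.R275.Core144 Crest.Agent.R275.GC293
open Crest.Agent.R273 Crest.Agent.R273.Defs_333 Crest.Agent.R273.Map_835
open Crest.Agent.R273.Fam_835
open Crest.Agent.R272.Quot_783 Crest.Agent.R272.PosGlue_232

noncomputable section

variable {n m : ℕ} {X Y N : Type} [TopologicalSpace X] [TopologicalSpace Y] [TopologicalSpace N]
  {C : Fam n X} {U U' V W : Set X}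

namespace Eqs

/-- product of local equations (one of the two families continuous) -/
def mul (E E' : Eqs C U) (hf : ∀ a, HolF C (E.V a) (E.f a)) : Eqs C U where
  α := E.α × E'.α
  V a := E.V a.1 ∩ E'.V a.2
  op a := (E.op a.1).inter (E'.op a.2)
  cov x hx := by
    obtain ⟨a, ha⟩ := E.cov x hx
    obtain ⟨b, hb⟩ := E'.cov x hx
    exact ⟨(a, b), ha, hb⟩
  f a x := E.f a.1 x * E'.f a.2 x
  dense a x hx := by
    rw [mem_closure_iff]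
    intro O hO hxO
    obtain ⟨y, ⟨hyO, hyV⟩, hy0⟩ := mem_closure_iff.1 (E.dense a.1 hx.1) _
      (hO.inter ((E.op a.1).inter (E'.op a.2))) ⟨hxO, hx⟩
    have h1 : ∀ᶠ z in 𝓝 y, E.f a.1 z ≠ 0 :=
      (holF_contAt (E.op a.1) (hf a.1) hyV.1).eventually_ne hy0
    obtain ⟨O', hO', hO'o, hyO'⟩ := eventually_nhds_iff.1 h1
    obtain ⟨z, hz, hz0⟩ := mem_closure_iff.1 (E'.dense a.2 hyV.2) _ (hO.inter hO'o) ⟨hyO, hyO'⟩
    exact ⟨z, hz.1, mul_ne_zero (hO' z hz.2) hz0⟩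
  loc a b x hx := by
    obtain ⟨W₁, hW₁, hx₁, u, hu, hu0, he⟩ := E.loc a.1 b.1 x ⟨hx.1.1, hx.2.1⟩
    obtain ⟨W₂, hW₂, hx₂, v, hv, hv0, he'⟩ := E'.loc a.2 b.2 x ⟨hx.1.2, hx.2.2⟩
    refine ⟨W₁ ∩ W₂, hW₁.inter hW₂, ⟨hx₁, hx₂⟩, fun y => u y * v y,
      holF_mul (holF_mono hu inter_subset_left) (holF_mono hv inter_subset_right),
      fun y hy => mul_ne_zero (hu0 y hy.1) (hv0 y hy.2), fun y hy => ?_⟩
    rw [he y hy.1, he' y hy.2]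
    ring

/-- powers of local equations -/
def npow (E : Eqs C U) (k : ℕ) : Eqs C U where
  α := E.α
  V := E.V
  op := E.op
  cov := E.cov
  f a x := E.f a x ^ k
  dense := E.dense_pow k
  loc a b x hx := by
    obtain ⟨W₁, hW₁, hx₁, u, hu, hu0, he⟩ := E.loc a b x hx
    refine ⟨W₁, hW₁, hx₁, fun y => u y ^ k, holF_pow hu k, fun y hy => pow_ne_zero k (hu0 y hy),
      fun y hy => ?_⟩
    rw [he y hy]
    ring

theorem npow_hol {E : Eqs C U} (hf : ∀ a, HolF C (E.V a) (E.f a)) (k : ℕ) (a : E.α) :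
    HolF C ((E.npow k).V a) ((E.npow k).f a) := holF_pow (hf a) k

theorem mul_hol {E E' : Eqs C U} (hf : ∀ a, HolF C (E.V a) (E.f a))
    (hf' : ∀ a, HolF C (E'.V a) (E'.f a)) (a : (E.mul E' hf).α) :
    HolF C ((E.mul E' hf).V a) ((E.mul E' hf).f a) :=
  holF_mul (holF_mono (hf a.1) inter_subset_left) (holF_mono (hf' a.2) inter_subset_right)

theorem mul_g {E E' : Eqs C U} (hf : ∀ a, HolF C (E.V a) (E.f a)) (a b : E.α × E'.α) {x : X}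
    (hx : x ∈ (E.V a.1 ∩ E'.V a.2) ∩ (E.V b.1 ∩ E'.V b.2)) :
    (E.mul E' hf).cb.g a b x = E.cb.g a.1 b.1 x * E'.cb.g a.2 b.2 x := by
  obtain ⟨W₁, hW₁, hx₁, u, hu, hu0, he⟩ := E.loc a.1 b.1 x ⟨hx.1.1, hx.2.1⟩
  obtain ⟨W₂, hW₂, hx₂, v, hv, hv0, he'⟩ := E'.loc a.2 b.2 x ⟨hx.1.2, hx.2.2⟩
  rw [E.g_eq ⟨hx.1.1, hx.2.1⟩ hW₁ hx₁ hu he, E'.g_eq ⟨hx.1.2, hx.2.2⟩ hW₂ hx₂ hv he']
  refine (E.mul E' hf).g_eq (a := a) (b := b) hx (hW₁.inter hW₂) ⟨hx₁, hx₂⟩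
    (u := fun y => u y * v y)
    (holF_mul (holF_mono hu inter_subset_left) (holF_mono hv inter_subset_right)) ?_
  intro y hy
  show E.f a.1 y * E'.f a.2 y = u y * v y * (E.f b.1 y * E'.f b.2 y)
  rw [he y hy.1, he' y hy.2]
  ring

theorem npow_g {E : Eqs C U} (k : ℕ) {a b : E.α} {x : X} (hx : x ∈ E.V a ∩ E.V b) :
    (E.npow k).cb.g a b x = E.cb.g a b x ^ k := by
  obtain ⟨W₁, hW₁, hx₁, u, hu, hu0, he⟩ := E.loc a b x hx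
  rw [E.g_eq hx hW₁ hx₁ hu he]
  refine (E.npow k).g_eq (a := a) (b := b) hx hW₁ hx₁ (u := fun y => u y ^ k) (holF_pow hu k) ?_
  intro y hy
  show E.f a y ^ k = u y ^ k * E.f b y ^ k
  rw [he y hy]
  ring

end Eqs

/-- `(E E')^k ≅ E^k ⊗ E'^k` -/
def isoMul (E E' : Eqs C U) (hf : ∀ a, HolF C (E.V a) (E.f a)) (k : ℤ) (W : Set X) :
    IsoOn ((E.mul E' hf).cb.zpow k) ((E.cb.zpow k).tens (E'.cb.zpow k)) W :=
  IsoOn.ofSub (L := (E.mul E' hf).cb.zpow k) (L' := (E.cb.zpow k).tens (E'.cb.zpow k))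
    (fun a => a) (fun a x hx => hx.1) (fun a b x hx => by
      show (E.mul E' hf).cb.g a b x ^ k = E.cb.g a.1 b.1 x ^ k * E'.cb.g a.2 b.2 x ^ k
      rw [Eqs.mul_g hf a b hx.1, mul_zpow])

/-- `(E^j)^k ≅ E^(j k)` -/
def isoPow (E : Eqs C U) (j : ℕ) (k : ℤ) (W : Set X) :
    IsoOn ((E.npow j).cb.zpow k) (E.cb.zpow (j * k)) W :=
  IsoOn.ofSub (L := (E.npow j).cb.zpow k) (L' := E.cb.zpow (j * k))
    (fun a => a) (fun a x hx => hx.1) (fun a b x hx => by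
      show (E.npow j).cb.g a b x ^ k = E.cb.g a b x ^ ((j : ℤ) * k)
      rw [Eqs.npow_g j hx.1, zpow_mul, zpow_natCast])

/-- `(L^j)^k ≅ L^(j k)` -/
def isoZpow (L : CBo C U) (j k : ℤ) (W : Set X) :
    IsoOn ((L.zpow j).zpow k) (L.zpow (j * k)) W :=
  IsoOn.ofSub (L := (L.zpow j).zpow k) (L' := L.zpow (j * k))
    (fun a => a) (fun a x hx => hx.1) (fun a b x hx => by
      show (L.g a b x ^ j) ^ k = L.g a b x ^ (j * k)
      rw [zpow_mul])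

/-- tensor products of isomorphisms -/
def IsoOn.tens {L₁ L₂ : CBo C U} {L₁' L₂' : CBo C U'} (I₁ : IsoOn L₁ L₁' W) (I₂ : IsoOn L₂ L₂' W) :
    IsoOn (L₁.tens L₂) (L₁'.tens L₂') W where
  h a b x := I₁.h a.1 b.1 x * I₂.h a.2 b.2 x
  hol a b := holF_mul
    (holF_mono (I₁.hol a.1 b.1) fun x hx => ⟨⟨hx.1.1.1, hx.1.2.1⟩, hx.2⟩)
    (holF_mono (I₂.hol a.2 b.2) fun x hx => ⟨⟨hx.1.1.2, hx.1.2.2⟩, hx.2⟩)
  ne a b x hx := mul_ne_zero (I₁.ne a.1 b.1 x ⟨⟨hx.1.1.1, hx.1.2.1⟩, hx.2⟩)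
    (I₂.ne a.2 b.2 x ⟨⟨hx.1.1.2, hx.1.2.2⟩, hx.2⟩)
  left a a' b x hx := by
    rw [← I₁.left a.1 a'.1 b.1 x ⟨⟨⟨hx.1.1.1.1, hx.1.1.2.1⟩, hx.1.2.1⟩, hx.2⟩,
      ← I₂.left a.2 a'.2 b.2 x ⟨⟨⟨hx.1.1.1.2, hx.1.1.2.2⟩, hx.1.2.2⟩, hx.2⟩]
    show L₁.g a.1 a'.1 x * L₂.g a.2 a'.2 x * _ = _
    ring
  right a b b' x hx := by
    rw [← I₁.right a.1 b.1 b'.1 x ⟨⟨⟨hx.1.1.1.1, hx.1.1.2.1⟩, hx.1.2.1⟩, hx.2⟩,
      ← I₂.right a.2 b.2 b'.2 x ⟨⟨⟨hx.1.1.1.2, hx.1.1.2.2⟩, hx.1.2.2⟩, hx.2⟩]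
    show _ * (L₁'.g b.1 b'.1 x * L₂'.g b.2 b'.2 x) = _
    ring

/-- composition of isomorphisms (the middle bundle covers `W`) -/
def IsoOn.trans {U'' : Set X} {L : CBo C U} {L' : CBo C U'} {L'' : CBo C U''}
    (I : IsoOn L L' W) (J : IsoOn L' L'' W) (b₀ : L'.α) (hW : W ⊆ U')
    (hWo : IsOpen W) : IsoOn L L'' W where
  h a c x := I.h a (L'.ix b₀ x) x * J.h (L'.ix b₀ x) c x
  hol a c := by
    refine holF_of_local fun x hx => ?_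
    obtain ⟨b, hb⟩ := L'.cov x (hW hx.2)
    have hO : IsOpen (L.V a ∩ L''.V c ∩ W) := ((L.op a).inter (L''.op c)).inter hWo
    refine ⟨(L.V a ∩ L''.V c ∩ W) ∩ L'.V b, hO.inter (L'.op b), ⟨hx, hb⟩, ?_⟩
    refine holF_congr (F := fun y => I.h a b y * J.h b c y)
      (holF_mul (holF_mono (I.hol a b) fun y hy => ⟨⟨hy.1.1.1, hy.2⟩, hy.1.2⟩)
        (holF_mono (J.hol b c) fun y hy => ⟨⟨hy.2, hy.1.1.2⟩, hy.1.2⟩)) ?_
    intro y hy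
    have hix := L'.mem_ix b₀ hy.2
    have h1 := I.right a b (L'.ix b₀ y) y ⟨⟨⟨hy.1.1.1, hy.2⟩, hix⟩, hy.1.2⟩
    have h2 := J.left b (L'.ix b₀ y) c y ⟨⟨⟨hy.2, hix⟩, hy.1.1.2⟩, hy.1.2⟩
    rw [← h1, ← h2]
    ring
  ne a c x hx := by
    obtain ⟨b, hb⟩ := L'.cov x (hW hx.2)
    have hix := L'.mem_ix b₀ hb
    exact mul_ne_zero (I.ne a _ x ⟨⟨hx.1.1, hix⟩, hx.2⟩) (J.ne _ c x ⟨⟨hix, hx.1.2⟩, hx.2⟩)
  left a a' c x hx := by
    obtain ⟨b, hb⟩ := L'.cov x (hW hx.2)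
    have hix := L'.mem_ix b₀ hb
    rw [← mul_assoc, I.left a a' _ x ⟨⟨hx.1.1, hix⟩, hx.2⟩]
  right a c c' x hx := by
    obtain ⟨b, hb⟩ := L'.cov x (hW hx.2)
    have hix := L'.mem_ix b₀ hb
    rw [mul_assoc, J.right _ c c' x ⟨⟨⟨hix, hx.1.1.2⟩, hx.1.2⟩, hx.2⟩]

end

end Crest.Agent.R272.CB_232
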