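import Crest.Agent.R272.Lc1_220

/-!
# R272, LC-MINUS (helper220), part 2: descent of germs along `pr G : Y → Orb G Y` (783's `RA`)

* `exists_sat`  : small neighbourhoods of `y`, saturated inside an adapted chart;
* `holN_desc`   : `F ∘ pr` holomorphic at `y` ⟹ `F` holomorphic at `pr y`;
* `exists_dsc`  : a germ invariant under the stabiliser descends;
* `nz_pr`, `dvd_desc`, `asc_desc`, `qv_pr`.
-/

set_option autoImplicit false
set_option linter.unusedSectionVars false
set_option linter.unusedVariables false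

open Set Filter Topology

namespace Crest.Agent.R272.Lc_220

open Crest.Agent.R275.Geo Crest.Agent.R273.Fam_835 Crest.Agent.R272.Refl_246
open Crest.Agent.R272.MQ_783

noncomputable section

variable {n : ℕ} {Y : Type} [TopologicalSpace Y] {C : Fam n Y} {G : Type} [Group G]
  [MulAction G Y]

theorem RC.invol (c : RC G C) {s : G} {a : Fin n} (hk : c.k = some (s, a)) {u : Y}
    (hu : u ∈ c.e.source) : s • s • u = u := by
  have h1 := c.inv s a hk u hu
  have h2 := c.inv s a hk _ h1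
  refine c.e.injOn h2 hu ?_
  rw [c.ref s a hk _ h1, c.ref s a hk u hu, rf_rf]

/-- saturated neighbourhoods -/
theorem exists_sat [ContinuousConstSMul G Y] (c : RC G C) {y : Y} (hy : y ∈ c.e.source)
    (hfix : ∀ s a, c.k = some (s, a) → s • y = y) {P : Y → Prop} (hP : ∀ᶠ v in 𝓝 y, P v) :
    ∃ U : Set Y, IsOpen U ∧ y ∈ U ∧ U ⊆ c.e.source ∧ (∀ v ∈ U, P v) ∧
      ∀ g : G, ∀ v ∈ U, g • v ∈ c.e.source → g • v ∈ U ∧ g • y = y := by
  obtain ⟨U₀, h1, h2, h3⟩ := eventually_nhds_iff.1 hP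
  rcases hk : c.k with _ | ⟨s, a⟩
  · refine ⟨U₀ ∩ c.e.source, h2.inter c.e.open_source, ⟨h3, hy⟩, inter_subset_right,
      fun v hv => h1 v hv.1, fun g v hv hgv => ?_⟩
    have hg : g = 1 := c.free hk g v hv.2 hgv
    subst hg
    simp only [one_smul]
    exact ⟨hv, trivial⟩
  · have hs := hfix s a hk
    refine ⟨(U₀ ∩ c.e.source) ∩ (fun v => s • v) ⁻¹' (U₀ ∩ c.e.source), ?_, ?_, ?_, ?_, ?_⟩
    · exact (h2.inter c.e.open_source).inter
        ((h2.inter c.e.open_source).preimage (continuous_const_smul s))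
    · exact ⟨⟨h3, hy⟩, by rw [mem_preimage, hs]; exact ⟨h3, hy⟩⟩
    · exact fun v hv => hv.1.2
    · exact fun v hv => h1 v hv.1.1
    · intro g v hv hgv
      rcases c.two s a hk g v hv.1.2 hgv with hg | hg
      · subst hg
        simp only [one_smul]
        exact ⟨hv, trivial⟩
      · subst hg
        refine ⟨⟨hv.2, ?_⟩, hs⟩
        rw [mem_preimage, RC.invol c hk hv.1.2]
        exact hv.1

variable [ContinuousConstSMul G Y] [Nonempty Y]

theorem exists_chart (h : RA C G) (y : Y) :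
    ∃ c : RC G C, y ∈ c.e.source ∧ ∀ s a, c.k = some (s, a) → s • y = y := by
  obtain ⟨c, hc⟩ := h.cov y
  exact exists_RC_fix (h.pd y) c hc

/-- eventual statements on the orbit space -/
theorem ev_pr {y : Y} {P : Orb G Y → Prop} :
    (∀ᶠ q in 𝓝 (pr G y), P q) ↔ ∀ᶠ v in 𝓝 y, P (pr G v) := by
  have h1 : 𝓝 (pr G y) = (𝓝 y).map (pr G) :=
    (isOpenQuotientMap_pr.isOpenMap.map_nhds_eq isOpenQuotientMap_pr.continuous.continuousAt).symm
  rw [h1, Filter.eventually_map]

theorem holN_chart (c : RC G C) {y : Y} {f : Y → ℂ} (hy : y ∈ c.e.source) (hf : HolN C y f) :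
    DifferentiableAt ℂ (fun w => f (c.e.symm w)) (c.e y) := by
  obtain ⟨i, hi⟩ := C.cover y
  have h1 : DifferentiableAt ℂ (fun w => C.e i (c.e.symm w)) (c.e y) :=
    c.diffAt (HolC.id C) hy hi
  have h2 : DifferentiableAt ℂ (fun z => f ((C.e i).symm z)) (C.e i (c.e.symm (c.e y))) := by
    rw [c.e.left_inv hy]
    exact (hf i hi).differentiableAt
  have h3 := DifferentiableAt.comp (c.e y) (g := fun z => f ((C.e i).symm z)) h2 h1
  refine h3.congr_of_eventuallyEq ?_
  have h4 : ∀ᶠ w in 𝓝 (c.e y), c.e.symm w ∈ (C.e i).source := by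
    refine (c.e.continuousAt_symm (c.e.map_source hy)).preimage_mem_nhds ?_
    rw [c.e.left_inv hy]
    exact (C.e i).open_source.mem_nhds hi
  filter_upwards [h4] with w hw
  simp only [Function.comp]
  rw [(C.e i).left_inv hw]

/-- **descent of holomorphy** -/
theorem holN_desc (h : RA C G) {y : Y} {F : Orb G Y → ℂ} (hF : HolN C y fun v => F (pr G v)) :
    HolN h.fam (pr G y) F := by
  obtain ⟨c, hc, hfix⟩ := exists_chart h y
  obtain ⟨U, hU, hyU, hUc, hU1, hU2⟩ := exists_sat c hc hfix hF.eventually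
  have hV : IsOpen (pr G '' U) := isOpenQuotientMap_pr.isOpenMap _ hU
  have hcont : ContinuousOn F (pr G '' U) := by
    rintro _ ⟨v, hv, rfl⟩
    refine ContinuousAt.continuousWithinAt ?_
    have h1 : ContinuousAt (fun v => F (pr G v)) v := (hU1 v hv).continuousAt
    exact (isOpenQuotientMap_pr (G := G) (Y := Y)).continuousAt_comp_iff.1 h1
  have hd : ∀ u ∈ c.e.source, pr G u ∈ pr G '' U →
      DifferentiableAt ℂ (fun w => F (pr G (c.e.symm w))) (c.e u) := by
    rintro u hu ⟨v, hv, hvu⟩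
    obtain ⟨g, rfl⟩ := pr_eq_iff.1 hvu
    exact holN_chart c hu (hU1 _ (hU2 g v hv hu).1)
  have hsrc : pr G y ∈ (h.fam.e c).source := c.mem_eM_source hc
  refine holN_of (C := h.fam) (i := c) hsrc ?_
  refine Crest.Agent.R266.SCV.analyticAt_of_eventually_differentiableAt ?_
  have h3 : c.eM.target ∩ c.eM.symm ⁻¹' (pr G '' U) ∈ 𝓝 (c.eM (pr G y)) := by
    refine (c.eM.isOpen_inter_preimage_symm hV).mem_nhds ⟨c.eM.map_source hsrc, ?_⟩
    rw [mem_preimage, c.eM.left_inv hsrc]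
    exact mem_image_of_mem _ hyU
  filter_upwards [h3] with z hz
  exact c.desc hV hcont hd hz.1 hz.2

theorem holN_pr_iff (h : RA C G) {y : Y} {F : Orb G Y → ℂ} :
    HolN h.fam (pr G y) F ↔ HolN C y fun v => F (pr G v) :=
  ⟨fun hF => hF.comp h.holC_pr, holN_desc h⟩

/-- **descent of invariant germs** -/
theorem exists_dsc (h : RA C G) {y : Y} {u : Y → ℂ} (hu : HolN C y u)
    (hinv : ∀ g : G, g • y = y → ∀ᶠ v in 𝓝 y, u (g • v) = u v) :
    ∃ F : Orb G Y → ℂ, HolN h.fam (pr G y) F ∧ ∀ᶠ v in 𝓝 y, F (pr G v) = u v := by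
  classical
  obtain ⟨c, hc, hfix⟩ := exists_chart h y
  have hP : ∀ᶠ v in 𝓝 y, ∀ s a, c.k = some (s, a) → u (s • v) = u v := by
    rcases hk : c.k with _ | ⟨s, a⟩
    · exact Eventually.of_forall fun v s a h => absurd h (by simp)
    · filter_upwards [hinv s (hfix s a hk)] with v hv s' a' h'
      rw [Option.some.injEq, Prod.mk.injEq] at h'
      rw [← h'.1]
      exact hv
  obtain ⟨U, hU, hyU, hUc, hU1, hU2⟩ := exists_sat c hc hfix hP
  have key : ∀ v ∈ U, ∀ w ∈ U, pr G v = pr G w → u v = u w := by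
    intro v hv w hw hvw
    obtain ⟨g, rfl⟩ := pr_eq_iff.1 hvw
    rcases hk : c.k with _ | ⟨s, a⟩
    · have hg : g = 1 := c.free hk g v (hUc hv) (hUc hw)
      rw [hg, one_smul]
    · rcases c.two s a hk g v (hUc hv) (hUc hw) with hg | hg
      · rw [hg, one_smul]
      · rw [hg]
        exact (hU1 v hv s a hk).symm
  let F : Orb G Y → ℂ := fun q => if hq : ∃ v ∈ U, pr G v = q then u hq.choose else 0
  have hF : ∀ v ∈ U, F (pr G v) = u v := by
    intro v hv
    have hq : ∃ w ∈ U, pr G w = pr G v := ⟨v, hv, rfl⟩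
    have : F (pr G v) = u hq.choose := dif_pos hq
    rw [this]
    exact key _ hq.choose_spec.1 _ hv hq.choose_spec.2
  have hF' : ∀ᶠ v in 𝓝 y, F (pr G v) = u v := eventually_of_mem (hU.mem_nhds hyU) hF
  exact ⟨F, holN_desc h (holN_congr hu hF'), hF'⟩

theorem nz_pr {y : Y} {F : Orb G Y → ℂ} : NZ (pr G y) F ↔ NZ y fun v => F (pr G v) :=
  not_congr ev_pr

/-- quotients of descended germs are invariant -/
theorem inv_of_mul (h : RA C G) {y : Y} {F H : Orb G Y → ℂ} {u : Y → ℂ} (hu : HolN C y u)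
    (hH : HolN C y fun v => H (pr G v)) (h0 : NZ y fun v => H (pr G v))
    (he : ∀ᶠ v in 𝓝 y, F (pr G v) = u v * H (pr G v)) (g : G) (hg : g • y = y) :
    ∀ᶠ v in 𝓝 y, u (g • v) = u v := by
  have h1 : HolN C y fun v => u (g • v) := by
    refine HolN.comp (C := C) (D := C) (p := fun v => g • v) ?_ (h.hol g)
    rw [hg]; exact hu
  refine ev_eq_of_mul hH h1 hu h0 ?_
  have h2 : Tendsto (fun v : Y => g • v) (𝓝 y) (𝓝 y) := by
    have := (continuous_const_smul (T := Y) g).continuousAt (x := y)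
    rwa [ContinuousAt, hg] at this
  filter_upwards [he, h2.eventually he] with v h3 h4
  rw [pr_smul] at h4
  rw [← h3, ← h4]

theorem dvd_desc (h : RA C G) {y : Y} {F H : Orb G Y → ℂ} (hH : HolN C y fun v => H (pr G v))
    (h0 : NZ y fun v => H (pr G v)) :
    Dvd h.fam (pr G y) H F ↔ Dvd C y (fun v => H (pr G v)) fun v => F (pr G v) := by
  constructor
  · intro hd
    exact hd.comp h.holC_pr
  · rintro ⟨u, hu, hu2⟩
    obtain ⟨u', hu', hu''⟩ := exists_dsc h hu (inv_of_mul h hu hH h0 hu2)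
    refine ⟨u', hu', ev_pr.2 ?_⟩
    filter_upwards [hu2, hu''] with v h1 h2
    rw [h2, h1]

theorem asc_desc (h : RA C G) {y : Y} {F H : Orb G Y → ℂ} (hH : HolN C y fun v => H (pr G v))
    (h0 : NZ y fun v => H (pr G v)) :
    Asc h.fam (pr G y) F H ↔ Asc C y (fun v => F (pr G v)) fun v => H (pr G v) := by
  constructor
  · intro hd
    exact hd.comp h.holC_pr
  · rintro ⟨u, hu, hu0, hu2⟩
    obtain ⟨u', hu', hu''⟩ := exists_dsc h hu (inv_of_mul h hu hH h0 hu2)
    refine ⟨u', hu', ?_, ev_pr.2 ?_⟩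
    · rw [hu''.self_of_nhds]
      exact hu0
    · filter_upwards [hu2, hu''] with v h1 h2
      rw [h2, h1]

theorem qv_pr (h : RA C G) {y : Y} {F H : Orb G Y → ℂ} (hH : HolN C y fun v => H (pr G v))
    (h0 : NZ y fun v => H (pr G v)) :
    qv h.fam (pr G y) H F = qv C y (fun v => H (pr G v)) fun v => F (pr G v) := by
  by_cases hd : Dvd C y (fun v => H (pr G v)) fun v => F (pr G v)
  · obtain ⟨u', hu', hu''⟩ := (dvd_desc h hH h0).2 hd
    rw [qv_eq ((holN_pr_iff h).2 hH) (nz_pr.2 h0) hu' hu'']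
    exact (qv_eq (h := fun v => u' (pr G v)) hH h0 (hu'.comp h.holC_pr) (ev_pr.1 hu'')).symm
  · have hd' : ¬ Dvd h.fam (pr G y) H F := fun h1 => hd ((dvd_desc h hH h0).1 h1)
    unfold qv
    rw [dif_neg hd, dif_neg hd']

end

end Crest.Agent.R272.Lc_220
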