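import Crest.Agent.R272.MQ1_783
import Crest.Agent.R272.Quot2_783

/-!
# R272, LC-MINUS (helper220), part 1: germs of holomorphic functions on a manifold `(X, C : Fam n X)`

* `HolN C x f`   : `f : X → ℂ` is holomorphic at `x`
* `NZ x f`       : `f` is not identically zero near `x`
* `Dvd C x g f`  : `g` divides `f` at `x`;  `Asc C x f g` : `f = unit * g` at `x`
* `qv C x g f`   : the value at `x` of `f / g` (if `g` divides `f`)
-/

set_option autoImplicit false
set_option linter.unusedSectionVars false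
set_option linter.unusedVariables false

open Set Filter Topology

namespace Crest.Agent.R272.Lc_220

open Crest.Agent.R275.Geo Crest.Agent.R273.Fam_835

noncomputable section

variable {n m : ℕ} {X Y : Type} [TopologicalSpace X] [TopologicalSpace Y] {C : Fam n X}
  {D : Fam m Y} {x : X} {f g h u : X → ℂ}

/-- `f` is holomorphic at `x` -/
def HolN (C : Fam n X) (x : X) (f : X → ℂ) : Prop :=
  ∀ i, x ∈ (C.e i).source → AnalyticAt ℂ (fun z => f ((C.e i).symm z)) (C.e i x)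

/-- eventual statements may be read in a chart -/
theorem ev_chart {i : C.ι} (hx : x ∈ (C.e i).source) {P : X → Prop} :
    (∀ᶠ z in 𝓝 (C.e i x), P ((C.e i).symm z)) ↔ ∀ᶠ y in 𝓝 x, P y := by
  have h1 := (C.e i).symm_map_nhds_eq hx
  rw [← h1, Filter.eventually_map]

theorem tr_analytic {i j : C.ι} (hi : x ∈ (C.e i).source) (hj : x ∈ (C.e j).source) :
    AnalyticAt ℂ (fun z => C.e j ((C.e i).symm z)) (C.e i x) := by
  have ho : IsOpen ((C.e i).target ∩ (C.e i).symm ⁻¹' (C.e j).source) :=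
    (C.e i).isOpen_inter_preimage_symm (C.e j).open_source
  refine Crest.Agent.R266.SCV.analyticOnNhd_of_differentiableOn ho (C.holo i j) _
    ⟨(C.e i).map_source hi, ?_⟩
  rw [mem_preimage, (C.e i).left_inv hi]
  exact hj

/-- one chart suffices -/
theorem holN_of {i : C.ι} (hi : x ∈ (C.e i).source)
    (hf : AnalyticAt ℂ (fun z => f ((C.e i).symm z)) (C.e i x)) : HolN C x f := by
  intro j hj
  have h1 := tr_analytic hj hi
  have h2 : AnalyticAt ℂ (fun z => f ((C.e i).symm z)) (C.e i ((C.e j).symm (C.e j x))) := by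
    rw [(C.e j).left_inv hj]; exact hf
  have h3 := AnalyticAt.comp (g := fun z => f ((C.e i).symm z))
    (f := fun z => C.e i ((C.e j).symm z)) h2 h1
  refine h3.congr ?_
  have h4 : ∀ᶠ z in 𝓝 (C.e j x), (C.e j).symm z ∈ (C.e i).source :=
    (ev_chart hj).2 ((C.e i).open_source.mem_nhds hi)
  filter_upwards [h4] with z hz
  simp only [Function.comp]
  rw [(C.e i).left_inv hz]

theorem holN_congr (hf : HolN C x f) (h1 : ∀ᶠ y in 𝓝 x, g y = f y) : HolN C x g := by
  intro i hi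
  refine (hf i hi).congr ?_
  exact ((ev_chart hi (P := fun y => f y = g y)).2 (h1.mono fun _ h => h.symm))

theorem HolN.eventually (hf : HolN C x f) : ∀ᶠ y in 𝓝 x, HolN C y f := by
  obtain ⟨i, hi⟩ := C.cover x
  have h1 := (hf i hi).eventually_analyticAt
  have h2 : ∀ᶠ y in 𝓝 x, AnalyticAt ℂ (fun z => f ((C.e i).symm z)) (C.e i y) :=
    ((C.e i).continuousAt hi).eventually h1
  filter_upwards [h2, (C.e i).open_source.mem_nhds hi] with y h3 h4
  exact holN_of h4 h3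

theorem HolN.continuousAt (hf : HolN C x f) : ContinuousAt f x := by
  obtain ⟨i, hi⟩ := C.cover x
  have h1 : ContinuousAt (fun y => f ((C.e i).symm (C.e i y))) x :=
    ContinuousAt.comp (f := C.e i) (g := fun z => f ((C.e i).symm z)) (hf i hi).continuousAt
      ((C.e i).continuousAt hi)
  refine h1.congr ?_
  filter_upwards [(C.e i).open_source.mem_nhds hi] with y hy
  rw [(C.e i).left_inv hy]

theorem holN_const (c : ℂ) : HolN C x fun _ => c := fun _ _ => analyticAt_const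

theorem HolN.add (hf : HolN C x f) (hg : HolN C x g) : HolN C x fun y => f y + g y :=
  fun i hi => (hf i hi).add (hg i hi)

theorem HolN.sub (hf : HolN C x f) (hg : HolN C x g) : HolN C x fun y => f y - g y :=
  fun i hi => (hf i hi).sub (hg i hi)

theorem HolN.neg (hf : HolN C x f) : HolN C x fun y => -f y :=
  fun i hi => (hf i hi).neg

theorem HolN.mul (hf : HolN C x f) (hg : HolN C x g) : HolN C x fun y => f y * g y :=
  fun i hi => (hf i hi).mul (hg i hi)

theorem HolN.pow (hf : HolN C x f) (k : ℕ) : HolN C x fun y => f y ^ k :=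
  fun i hi => (hf i hi).pow k

theorem HolN.inv (hf : HolN C x f) (h0 : f x ≠ 0) : HolN C x fun y => (f y)⁻¹ := by
  intro i hi
  refine (hf i hi).inv ?_
  rw [(C.e i).left_inv hi]
  exact h0

theorem HolN.div (hf : HolN C x f) (hg : HolN C x g) (h0 : g x ≠ 0) :
    HolN C x fun y => f y / g y :=
  holN_congr (hf.mul (hg.inv h0)) (Eventually.of_forall fun _ => div_eq_mul_inv _ _)

theorem holN_sum {ι : Type*} (s : Finset ι) {F : ι → X → ℂ} (hF : ∀ a ∈ s, HolN C x (F a)) :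
    HolN C x fun y => ∑ a ∈ s, F a y :=
  fun i hi => Finset.analyticAt_fun_sum s fun a ha => hF a ha i hi

theorem holN_prod {ι : Type*} (s : Finset ι) {F : ι → X → ℂ} (hF : ∀ a ∈ s, HolN C x (F a)) :
    HolN C x fun y => ∏ a ∈ s, F a y :=
  fun i hi => Finset.analyticAt_fun_prod s fun a ha => hF a ha i hi

/-- composition with a holomorphic map -/
theorem HolN.comp {p : Y → X} {y : Y} (hf : HolN C (p y) f) (hp : HolC D C p) :
    HolN D y fun y => f (p y) := by
  obtain ⟨j, hj⟩ := D.cover y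
  obtain ⟨i, hi⟩ := C.cover (p y)
  have ho := hp.isOpen_dm j i
  have hz : D.e j y ∈ (D.e j).target ∩ (D.e j).symm ⁻¹' (p ⁻¹' (C.e i).source) :=
    ⟨(D.e j).map_source hj, by rw [mem_preimage, mem_preimage, (D.e j).left_inv hj]; exact hi⟩
  have h1 : AnalyticAt ℂ (fun z => C.e i (p ((D.e j).symm z))) (D.e j y) :=
    Crest.Agent.R266.SCV.analyticOnNhd_of_differentiableOn ho (hp.hol j i) _ hz
  have h2 : AnalyticAt ℂ (fun z => f ((C.e i).symm z)) (C.e i (p ((D.e j).symm (D.e j y)))) := by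
    rw [(D.e j).left_inv hj]; exact hf i hi
  refine holN_of hj ((AnalyticAt.comp (g := fun z => f ((C.e i).symm z))
    (f := fun z => C.e i (p ((D.e j).symm z))) h2 h1).congr ?_)
  filter_upwards [ho.mem_nhds hz] with z h3
  simp only [Function.comp]
  rw [(C.e i).left_inv h3.2]

theorem holF_iff {U : Set X} (hU : IsOpen U) :
    Crest.Agent.R272.Quot_783.HolF C U f ↔ ∀ x ∈ U, HolN C x f := by
  constructor
  · intro h x hx i hi
    refine Crest.Agent.R266.SCV.analyticOnNhd_of_differentiableOn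
      ((C.e i).isOpen_inter_preimage_symm hU) (h i) _ ⟨(C.e i).map_source hi, ?_⟩
    rw [mem_preimage, (C.e i).left_inv hi]
    exact hx
  · intro h i z hz
    have h1 := h _ hz.2 i ((C.e i).map_target hz.1)
    rw [(C.e i).right_inv hz.1] at h1
    exact h1.differentiableAt.differentiableWithinAt

/-! ### the identity theorem -/

/-- `f` is not identically zero near `x` -/
def NZ (x : X) (f : X → ℂ) : Prop := ¬ ∀ᶠ y in 𝓝 x, f y = 0

/-- on a small neighbourhood: a holomorphic function which vanishes near some point vanishes near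
`x` -/
theorem exists_idt (hf : HolN C x f) : ∃ U : Set X, IsOpen U ∧ x ∈ U ∧
    (∀ y ∈ U, HolN C y f) ∧ ∀ y ∈ U, (∀ᶠ w in 𝓝 y, f w = 0) → ∀ w ∈ U, f w = 0 := by
  obtain ⟨i, hi⟩ := C.cover x
  obtain ⟨r, hr, hr2⟩ := Metric.eventually_nhds_iff_ball.1 ((hf i hi).eventually_analyticAt.and
    ((C.e i).open_target.mem_nhds ((C.e i).map_source hi)))
  let U : Set X := (C.e i).source ∩ C.e i ⁻¹' Metric.ball (C.e i x) r
  have hU : IsOpen U := (C.e i).isOpen_inter_preimage Metric.isOpen_ball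
  refine ⟨U, hU, ⟨hi, Metric.mem_ball_self hr⟩, fun y hy => holN_of hy.1 (hr2 _ hy.2).1,
    fun y hy hy0 w hw => ?_⟩
  have h1 : AnalyticOnNhd ℂ (fun z => f ((C.e i).symm z)) (Metric.ball (C.e i x) r) :=
    fun z hz => (hr2 z hz).1
  have h2 : (fun z => f ((C.e i).symm z)) =ᶠ[𝓝 (C.e i y)] 0 := (ev_chart hy.1).2 hy0
  have h3 := h1.eqOn_zero_of_preconnected_of_eventuallyEq_zero
    (convex_ball _ _).isPreconnected hy.2 h2 hw.2
  simpa [(C.e i).left_inv hw.1] using h3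

theorem NZ.eventually (hf : HolN C x f) (h0 : NZ x f) : ∀ᶠ y in 𝓝 x, NZ y f := by
  obtain ⟨U, hU, hx, -, h1⟩ := exists_idt hf
  filter_upwards [hU.mem_nhds hx] with y hy hy0
  exact h0 (eventually_of_mem (hU.mem_nhds hx) fun w hw => h1 y hy hy0 w hw)

theorem NZ.congr (h0 : NZ x f) (h1 : ∀ᶠ y in 𝓝 x, g y = f y) : NZ x g := fun h =>
  h0 ((h.and h1).mono fun y hy => by rw [← hy.2]; exact hy.1)

theorem nz_of_ne (hc : ContinuousAt f x) (h0 : f x ≠ 0) : NZ x f := fun h =>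
  h0 h.self_of_nhds

/-- the germs form a domain -/
theorem ev_zero_of_mul (hf : HolN C x f) (hg : HolN C x g) (h0 : NZ x f)
    (h1 : ∀ᶠ y in 𝓝 x, f y * g y = 0) : ∀ᶠ y in 𝓝 x, g y = 0 := by
  obtain ⟨U, hU, hx, hU1, h2⟩ := exists_idt hg
  have hfy : ∀ᶠ y' in 𝓝 x, HolN C y' f := hf.eventually
  -- `f` is continuous near `x`: we may choose `y` there
  have h4 : ∃ y ∈ U, f y ≠ 0 ∧ (∀ᶠ w in 𝓝 y, f w * g w = 0) ∧ HolN C y f := by
    by_contra hcon
    apply h0
    filter_upwards [hU.mem_nhds hx, h1.eventually_nhds, hfy] with y hy hy1 hy2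
    by_contra hy0
    exact hcon ⟨y, hy, hy0, hy1, hy2⟩
  obtain ⟨y, hy, hy0, hy1, hy2⟩ := h4
  have h5 : ∀ᶠ w in 𝓝 y, g w = 0 := by
    filter_upwards [hy1, hy2.continuousAt.eventually_ne hy0] with w h6 h7
    exact (mul_eq_zero.1 h6).resolve_left h7
  exact eventually_of_mem (hU.mem_nhds hx) fun w hw => h2 y hy h5 w hw

theorem NZ.mul (hf : HolN C x f) (hg : HolN C x g) (h0 : NZ x f) (h1 : NZ x g) :
    NZ x fun y => f y * g y := fun h => h1 (ev_zero_of_mul hf hg h0 h)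

theorem NZ.pow (hf : HolN C x f) (h0 : NZ x f) (k : ℕ) : NZ x fun y => f y ^ k := by
  induction k with
  | zero =>
    intro h
    have := h.self_of_nhds
    simp at this
  | succ k ih =>
    have := NZ.mul (hf.pow k) hf ih h0
    simpa only [pow_succ] using this

theorem nz_prod {ι : Type*} (s : Finset ι) {F : ι → X → ℂ} (hF : ∀ a ∈ s, HolN C x (F a))
    (h0 : ∀ a ∈ s, NZ x (F a)) : NZ x fun y => ∏ a ∈ s, F a y := by
  classical
  induction s using Finset.induction_on with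
  | empty =>
    intro h
    have := h.self_of_nhds
    simp at this
  | insert a s ha ih =>
    have h1 := NZ.mul (hF a (Finset.mem_insert_self a s))
      (holN_prod s fun b hb => hF b (Finset.mem_insert_of_mem hb))
      (h0 a (Finset.mem_insert_self a s))
      (ih (fun b hb => hF b (Finset.mem_insert_of_mem hb))
        fun b hb => h0 b (Finset.mem_insert_of_mem hb))
    refine h1.congr (Eventually.of_forall fun y => ?_)
    rw [Finset.prod_insert ha]

/-- cancellation -/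
theorem ev_eq_of_mul (hf : HolN C x f) (hg : HolN C x g) (hh : HolN C x h) (h0 : NZ x f)
    (h1 : ∀ᶠ y in 𝓝 x, g y * f y = h y * f y) : ∀ᶠ y in 𝓝 x, g y = h y := by
  have h2 := ev_zero_of_mul hf (hg.sub hh) h0 (h1.mono fun y hy => by
    rw [mul_comm, sub_mul, hy, sub_self])
  exact h2.mono fun y hy => sub_eq_zero.1 hy

/-! ### divisibility -/

/-- `g` divides `f` at `x` -/
def Dvd (C : Fam n X) (x : X) (g f : X → ℂ) : Prop :=
  ∃ h, HolN C x h ∧ ∀ᶠ y in 𝓝 x, f y = h y * g y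

/-- `f = unit * g` at `x` -/
def Asc (C : Fam n X) (x : X) (f g : X → ℂ) : Prop :=
  ∃ u, HolN C x u ∧ u x ≠ 0 ∧ ∀ᶠ y in 𝓝 x, f y = u y * g y

variable {f' g' k : X → ℂ}

theorem Dvd.refl (f : X → ℂ) : Dvd C x f f :=
  ⟨fun _ => 1, holN_const 1, Eventually.of_forall fun y => (one_mul _).symm⟩

theorem Dvd.trans (h1 : Dvd C x g f) (h2 : Dvd C x k g) : Dvd C x k f := by
  obtain ⟨a, ha, ha2⟩ := h1
  obtain ⟨b, hb, hb2⟩ := h2
  exact ⟨_, ha.mul hb, (ha2.and hb2).mono fun y hy => by rw [hy.1, hy.2, mul_assoc]⟩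

theorem Dvd.mul (h1 : Dvd C x g f) (h2 : Dvd C x g' f') :
    Dvd C x (fun y => g y * g' y) fun y => f y * f' y := by
  obtain ⟨a, ha, ha2⟩ := h1
  obtain ⟨b, hb, hb2⟩ := h2
  exact ⟨_, ha.mul hb, (ha2.and hb2).mono fun y hy => by simp only [hy.1, hy.2]; ring⟩

theorem Dvd.add (h1 : Dvd C x g f) (h2 : Dvd C x g f') : Dvd C x g fun y => f y + f' y := by
  obtain ⟨a, ha, ha2⟩ := h1
  obtain ⟨b, hb, hb2⟩ := h2
  exact ⟨_, ha.add hb, (ha2.and hb2).mono fun y hy => by simp only [hy.1, hy.2]; ring⟩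

theorem Dvd.pow (h1 : Dvd C x g f) (j : ℕ) : Dvd C x (fun y => g y ^ j) fun y => f y ^ j := by
  obtain ⟨a, ha, ha2⟩ := h1
  exact ⟨_, ha.pow j, ha2.mono fun y hy => by simp only [hy]; ring⟩

theorem Dvd.congr (h1 : Dvd C x g f) (h2 : ∀ᶠ y in 𝓝 x, g' y = g y)
    (h3 : ∀ᶠ y in 𝓝 x, f' y = f y) : Dvd C x g' f' := by
  obtain ⟨a, ha, ha2⟩ := h1
  exact ⟨a, ha, (ha2.and (h2.and h3)).mono fun y hy => by rw [hy.2.2, hy.2.1, hy.1]⟩

theorem Dvd.eventually (h1 : Dvd C x g f) : ∀ᶠ y in 𝓝 x, Dvd C y g f := by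
  obtain ⟨a, ha, ha2⟩ := h1
  filter_upwards [ha.eventually, ha2.eventually_nhds] with y h3 h4
  exact ⟨a, h3, h4⟩

theorem Dvd.comp {p : Y → X} {y : Y} (h1 : Dvd C (p y) g f) (hp : HolC D C p) :
    Dvd D y (fun y => g (p y)) fun y => f (p y) := by
  obtain ⟨a, ha, ha2⟩ := h1
  exact ⟨_, ha.comp hp, hp.cont.continuousAt.eventually ha2⟩

theorem Asc.refl (f : X → ℂ) : Asc C x f f :=
  ⟨fun _ => 1, holN_const 1, one_ne_zero, Eventually.of_forall fun y => (one_mul _).symm⟩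

theorem Asc.dvd (h1 : Asc C x f g) : Dvd C x g f := by
  obtain ⟨u, hu, -, hu2⟩ := h1
  exact ⟨u, hu, hu2⟩

theorem Asc.symm (h1 : Asc C x f g) : Asc C x g f := by
  obtain ⟨u, hu, h0, hu2⟩ := h1
  refine ⟨_, hu.inv h0, inv_ne_zero h0, ?_⟩
  filter_upwards [hu2, hu.continuousAt.eventually_ne h0] with y h2 h3
  rw [h2, ← mul_assoc, inv_mul_cancel₀ h3, one_mul]

theorem Asc.trans (h1 : Asc C x f g) (h2 : Asc C x g h) : Asc C x f h := by
  obtain ⟨u, hu, hu0, hu2⟩ := h1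
  obtain ⟨v, hv, hv0, hv2⟩ := h2
  exact ⟨_, hu.mul hv, mul_ne_zero hu0 hv0, (hu2.and hv2).mono fun y hy => by
    rw [hy.1, hy.2, mul_assoc]⟩

theorem Asc.mul (h1 : Asc C x f g) (h2 : Asc C x f' g') :
    Asc C x (fun y => f y * f' y) fun y => g y * g' y := by
  obtain ⟨u, hu, hu0, hu2⟩ := h1
  obtain ⟨v, hv, hv0, hv2⟩ := h2
  exact ⟨_, hu.mul hv, mul_ne_zero hu0 hv0, (hu2.and hv2).mono fun y hy => by
    simp only [hy.1, hy.2]; ring⟩

theorem Asc.pow (h1 : Asc C x f g) (j : ℕ) : Asc C x (fun y => f y ^ j) fun y => g y ^ j := by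
  obtain ⟨u, hu, hu0, hu2⟩ := h1
  exact ⟨_, hu.pow j, pow_ne_zero j hu0, hu2.mono fun y hy => by simp only [hy]; ring⟩

theorem Asc.congr (h1 : Asc C x f g) (h2 : ∀ᶠ y in 𝓝 x, f' y = f y)
    (h3 : ∀ᶠ y in 𝓝 x, g' y = g y) : Asc C x f' g' := by
  obtain ⟨u, hu, h0, hu2⟩ := h1
  exact ⟨u, hu, h0, (hu2.and (h2.and h3)).mono fun y hy => by rw [hy.2.1, hy.2.2, hy.1]⟩

theorem Asc.eventually (h1 : Asc C x f g) : ∀ᶠ y in 𝓝 x, Asc C y f g := by
  obtain ⟨u, hu, h0, hu2⟩ := h1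
  filter_upwards [hu.eventually, hu2.eventually_nhds, hu.continuousAt.eventually_ne h0]
    with y h3 h4 h5
  exact ⟨u, h3, h5, h4⟩

theorem Asc.comp {p : Y → X} {y : Y} (h1 : Asc C (p y) f g) (hp : HolC D C p) :
    Asc D y (fun y => f (p y)) fun y => g (p y) := by
  obtain ⟨u, hu, h0, hu2⟩ := h1
  exact ⟨_, hu.comp hp, h0, hp.cont.continuousAt.eventually hu2⟩

theorem Asc.nz (h1 : Asc C x f g) (hg : HolN C x g) (h0 : NZ x g) : NZ x f := by
  obtain ⟨u, hu, hu0, hu2⟩ := h1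
  exact (NZ.mul hu hg (nz_of_ne hu.continuousAt hu0) h0).congr hu2

theorem Asc.hol (h1 : Asc C x f g) (hg : HolN C x g) : HolN C x f := by
  obtain ⟨u, hu, hu0, hu2⟩ := h1
  exact holN_congr (hu.mul hg) hu2

theorem Dvd.hol (h1 : Dvd C x g f) (hg : HolN C x g) : HolN C x f := by
  obtain ⟨u, hu, hu2⟩ := h1
  exact holN_congr (hu.mul hg) hu2

/-- mutual divisibility -/
theorem Asc.of_dvd (hf : HolN C x f) (h0 : NZ x f) (h1 : Dvd C x g f) (h2 : Dvd C x f g) :
    Asc C x f g := by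
  obtain ⟨a, ha, ha2⟩ := h1
  obtain ⟨b, hb, hb2⟩ := h2
  have h3 : ∀ᶠ y in 𝓝 x, (fun y => a y * b y) y = (fun _ => (1 : ℂ)) y := by
    refine ev_eq_of_mul hf (ha.mul hb) (holN_const 1) h0 ?_
    filter_upwards [ha2, hb2] with y h4 h5
    rw [one_mul]
    calc a y * b y * f y = a y * (b y * f y) := by ring
      _ = a y * g y := by rw [← h5]
      _ = f y := h4.symm
  refine ⟨a, ha, ?_, ha2⟩
  intro h4
  have h5 := h3.self_of_nhds
  simp only [h4, zero_mul] at h5
  exact zero_ne_one h5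

/-! ### the value of a quotient -/

/-- the value of `f / g` at `x` if `g` divides `f` -/
def qv (C : Fam n X) (x : X) (g f : X → ℂ) : ℂ :=
  open Classical in if h : Dvd C x g f then h.choose x else 0

theorem qv_eq (hg : HolN C x g) (h0 : NZ x g) (hh : HolN C x h)
    (h1 : ∀ᶠ y in 𝓝 x, f y = h y * g y) : qv C x g f = h x := by
  have hd : Dvd C x g f := ⟨h, hh, h1⟩
  unfold qv
  rw [dif_pos hd]
  have h2 := hd.choose_spec
  have h3 : ∀ᶠ y in 𝓝 x, hd.choose y = h y :=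
    ev_eq_of_mul hg h2.1 hh h0 ((h2.2.and h1).mono fun y hy => by rw [← hy.1, ← hy.2])
  exact h3.self_of_nhds

theorem qv_self (hg : HolN C x g) (h0 : NZ x g) : qv C x g g = 1 :=
  qv_eq hg h0 (h := fun _ => 1) (holN_const 1) (Eventually.of_forall fun y => (one_mul _).symm)

/-- `f` generates as soon as the value is not zero -/
theorem asc_of_qv (h1 : Dvd C x g f) (hg : HolN C x g) (h0 : NZ x g) (h2 : qv C x g f ≠ 0) :
    Asc C x f g := by
  obtain ⟨h, hh, hh2⟩ := h1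
  rw [qv_eq hg h0 hh hh2] at h2
  exact ⟨h, hh, h2, hh2⟩

theorem qv_mul (h1 : Dvd C x g f) (h2 : Dvd C x g' f') (hg : HolN C x g) (h0 : NZ x g)
    (hg' : HolN C x g') (h0' : NZ x g') :
    qv C x (fun y => g y * g' y) (fun y => f y * f' y) = qv C x g f * qv C x g' f' := by
  obtain ⟨a, ha, ha2⟩ := h1
  obtain ⟨b, hb, hb2⟩ := h2
  rw [qv_eq hg h0 ha ha2, qv_eq hg' h0' hb hb2]
  exact qv_eq (hg.mul hg') (NZ.mul hg hg' h0 h0') (ha.mul hb)
    ((ha2.and hb2).mono fun y hy => by rw [hy.1, hy.2]; ring)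

/-- change of the generator -/
theorem qv_asc (h1 : Asc C x g' g) (hg : HolN C x g) (h0 : NZ x g) (h2 : Dvd C x g f) :
    ∃ c : ℂ, c ≠ 0 ∧ qv C x g' g = c⁻¹ ∧ qv C x g' f = c⁻¹ * qv C x g f := by
  obtain ⟨a, ha, ha2⟩ := h2
  have hg' := h1.hol hg
  have h0' := h1.nz hg h0
  obtain ⟨v, hv, hv0, hv2⟩ := h1.symm
  refine ⟨(v x)⁻¹, inv_ne_zero hv0, ?_, ?_⟩
  · rw [inv_inv]
    exact qv_eq hg' h0' hv hv2
  · rw [inv_inv, qv_eq hg h0 ha ha2]
    have := qv_eq hg' h0' (h := fun y => v y * a y) (hv.mul ha) (f := f)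
      ((ha2.and hv2).mono fun y hy => by rw [hy.1, hy.2]; ring)
    exact this

end

end Crest.Agent.R272.Lc_220
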