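import Crest.Agent.R272.PEnd2_732
import Crest.Agent.R272.Lc1_220
import Crest.Agent.R272.HFam_342

/-!
# R272, task POS-END (helper732), part 3: germs

`GenAt C Φ x γ` : the germ `γ` generates the ideal of the functions `Φ i` at `x`; transport along
locally biholomorphic maps.
-/

set_option autoImplicit false
set_option linter.unusedSectionVars false
set_option linter.unusedVariables false

open Set Filter Topology Complex
open scoped ContDiff Matrix ComplexConjugate Manifold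

namespace Crest.Agent.R272.PEnd_732

open Crest.Agent.R275.Geo Crest.Agent.R275.Core144 Crest.Agent.R275.GC293
open Crest.Agent.R273 Crest.Agent.R273.Defs_333 Crest.Agent.R273.Map_835
open Crest.Agent.R273.Fam_835
open Crest.Agent.R272.Quot_783 Crest.Agent.R272.PosGlue_232 Crest.Agent.R272.CB_232
open Crest.Agent.R272.Lc_220 Crest.Agent.R272.HFam_342

noncomputable section

variable {n m : ℕ} {X Y N : Type} [TopologicalSpace X] [TopologicalSpace Y] [TopologicalSpace N]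
  {C : Fam n X} {C' : Fam n Y} {U V W : Set X} {x : X} {f g γ γ' : X → ℂ} {κ : Type}
  {Φ : κ → X → ℂ}

/-- the germ `γ` generates the ideal of the functions `Φ i` at `x` -/
structure GenAt (C : Fam n X) (Φ : κ → X → ℂ) (x : X) (γ : X → ℂ) : Prop where
  hol : HolN C x γ
  nz : NZ x γ
  dvd : ∀ i, Dvd C x γ (Φ i)
  gen : ∃ i, Asc C x (Φ i) γ

theorem GenAt.mk' {ψ : κ → X → ℂ} (hγ : HolN C x γ) (h0 : NZ x γ) (hψ : ∀ i, HolN C x (ψ i))
    (hne : ∃ i, ψ i x ≠ 0) (he : ∀ i, ∀ᶠ y in 𝓝 x, Φ i y = γ y * ψ i y) : GenAt C Φ x γ where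
  hol := hγ
  nz := h0
  dvd i := ⟨ψ i, hψ i, (he i).mono fun y hy => by rw [hy, mul_comm]⟩
  gen := by
    obtain ⟨i, hi⟩ := hne
    exact ⟨i, ψ i, hψ i, hi, (he i).mono fun y hy => by rw [hy, mul_comm]⟩

theorem GenAt.asc (h : GenAt C Φ x γ) (h' : GenAt C Φ x γ') : Asc C x γ γ' := by
  obtain ⟨i, hi⟩ := h.gen
  obtain ⟨k, hk⟩ := h'.gen
  -- `γ ~ Φ i`, divisible by `γ'`; `γ' ~ Φ k`, divisible by `γ`
  refine Asc.of_dvd h.hol h.nz ?_ ?_
  · exact (hi.symm.dvd).trans (h'.dvd i)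
  · exact (hk.symm.dvd).trans (h.dvd k)

theorem GenAt.congr_gen (h : GenAt C Φ x γ) (h' : Asc C x γ' γ) : GenAt C Φ x γ' where
  hol := h'.hol h.hol
  nz := h'.nz h.hol h.nz
  dvd i := (h.dvd i).trans (h'.symm.dvd)
  gen := by
    obtain ⟨i, hi⟩ := h.gen
    exact ⟨i, hi.trans h'.symm⟩

theorem GenAt.congr {Φ' : κ → X → ℂ} (h : GenAt C Φ x γ) (he : ∀ i, ∀ᶠ y in 𝓝 x, Φ' i y = Φ i y) :
    GenAt C Φ' x γ where
  hol := h.hol
  nz := h.nz
  dvd i := (h.dvd i).congr (Eventually.of_forall fun _ => rfl) (he i)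
  gen := by
    obtain ⟨i, hi⟩ := h.gen
    exact ⟨i, hi.congr (he i) (Eventually.of_forall fun _ => rfl)⟩

theorem mem_closure_of_nz (h : NZ x γ) : x ∈ closure {y | γ y ≠ 0} :=
  mem_closure_iff_frequently.2 fun h' => h (h'.mono fun _ hy => not_not.1 hy)

theorem GenAt.exists_gen [Finite κ] (h : GenAt C Φ x γ) :
    ∃ O ψ, x ∈ O ∧ Gen C Φ O γ ψ ∧ ∀ y ∈ O, GenAt C Φ y γ := by
  have h1 := h.dvd
  choose ψ hψ hψe using h1
  obtain ⟨i, u, hu, hu0, hue⟩ := h.gen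
  have h2 : ∀ᶠ y in 𝓝 x, ψ i y = u y := by
    refine ev_eq_of_mul h.hol (hψ i) hu h.nz ?_
    filter_upwards [hψe i, hue] with y h3 h4
    rw [← h3, h4]
  have h3 : ψ i x ≠ 0 := by rw [h2.self_of_nhds]; exact hu0
  have h4 : ∀ᶠ y in 𝓝 x, ∀ i, HolN C y (ψ i) := eventually_all.2 fun i => (hψ i).eventually
  have h5 : ∀ᶠ y in 𝓝 x, ∀ i, ∀ᶠ z in 𝓝 y, Φ i z = ψ i z * γ z :=
    eventually_all.2 fun i => (hψe i).eventually_nhds
  obtain ⟨O, hO1, hO, hxO⟩ := mem_nhds_iff.1 (h4.and (h5.and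
    (((hψ i).continuousAt.eventually_ne h3).and (h.hol.eventually.and (NZ.eventually h.hol h.nz)))))
  refine ⟨O, ψ, hxO, ⟨hO, fun k => (holF_iff hO).2 fun y hy => (hO1 hy).1 k,
    fun y hy => ⟨i, (hO1 hy).2.2.1⟩, fun k y hy => ?_, fun y hy =>
      mem_closure_of_nz (hO1 hy).2.2.2.2⟩, fun y hy => ?_⟩
  · rw [((hO1 hy).2.1 k).self_of_nhds, mul_comm]
  · refine GenAt.mk' (hO1 hy).2.2.2.1 (hO1 hy).2.2.2.2 (hO1 hy).1 ⟨i, (hO1 hy).2.2.1⟩ fun k => ?_
    filter_upwards [(hO1 hy).2.1 k] with z hz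
    rw [hz, mul_comm]

theorem GenAt.eventually [Finite κ] (h : GenAt C Φ x γ) : ∀ᶠ y in 𝓝 x, GenAt C Φ y γ := by
  obtain ⟨O, ψ, hx, hG, hO⟩ := h.exists_gen
  filter_upwards [hG.op.mem_nhds hx] with y hy using hO y hy

/-! ### transport along biholomorphic local homeomorphisms -/

section Transport

variable (e : OpenPartialHomeomorph X Y)

/-- holomorphic on the source -/
def HolP (C : Fam n X) (C' : Fam n Y) (e : OpenPartialHomeomorph X Y) : Prop :=
  ∀ x ∈ e.source, HC C C' e x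

variable {e}

theorem HolP.comp (he : HolP C C' e) (hx : x ∈ e.source) {g : Y → ℂ} (hg : HolN C' (e x) g) :
    HolN C x fun y => g (e y) := by
  obtain ⟨i, hi⟩ := C.cover x
  obtain ⟨j, hj⟩ := C'.cover (e x)
  have hO1 : IsOpen (e.source ∩ e ⁻¹' (C'.e j).source) := e.isOpen_inter_preimage (C'.e j).open_source
  have hO : IsOpen ((C.e i).target ∩ (C.e i).symm ⁻¹' (e.source ∩ e ⁻¹' (C'.e j).source)) :=
    (C.e i).isOpen_inter_preimage_symm hO1
  have h1 : DifferentiableOn ℂ (HFam_342.rc C C' e i j)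
      ((C.e i).target ∩ (C.e i).symm ⁻¹' (e.source ∩ e ⁻¹' (C'.e j).source)) := by
    intro z hz
    have h2 := (he _ hz.2.1).2 i j ((C.e i).map_target hz.1) hz.2.2
    rw [(C.e i).right_inv hz.1] at h2
    exact h2.differentiableWithinAt
  have h3 : AnalyticAt ℂ (HFam_342.rc C C' e i j) (C.e i x) := by
    refine Crest.Agent.R266.SCV.analyticOnNhd_of_differentiableOn hO h1 _
      ⟨(C.e i).map_source hi, ?_⟩
    rw [mem_preimage, (C.e i).left_inv hi]
    exact ⟨hx, hj⟩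
  refine holN_of hi ?_
  have h4 := hg j hj
  have h5 : AnalyticAt ℂ (fun z => g ((C'.e j).symm z)) (HFam_342.rc C C' e i j (C.e i x)) := by
    rw [HFam_342.rc_apply C C' e j hi]
    exact h4
  have h6 := AnalyticAt.comp (g := fun z => g ((C'.e j).symm z)) (f := HFam_342.rc C C' e i j) h5 h3
  refine h6.congr ?_
  have h7 : ∀ᶠ y in 𝓝 x, y ∈ e.source ∩ e ⁻¹' (C'.e j).source := hO1.mem_nhds ⟨hx, hj⟩
  filter_upwards [(ev_chart hi).2 h7] with z hz
  simp only [Function.comp, HFam_342.rc]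
  rw [(C'.e j).left_inv hz.2]

theorem ev_comp (hx : x ∈ e.source) {P : Y → Prop} (h : ∀ᶠ y in 𝓝 (e x), P y) :
    ∀ᶠ y in 𝓝 x, P (e y) := (e.continuousAt hx).eventually h

theorem HolP.nz (hx : x ∈ e.source) {g : Y → ℂ} (h0 : NZ (e x) g) : NZ x fun y => g (e y) := by
  intro h
  apply h0
  have h1 : ∀ᶠ z in 𝓝 (e x), g (e (e.symm z)) = 0 :=
    (e.symm.continuousAt (e.map_source hx)).eventually (by
      show ∀ᶠ y in 𝓝 (e.symm (e x)), g (e y) = 0
      rw [e.left_inv hx]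
      exact h)
  filter_upwards [h1, e.open_target.mem_nhds (e.map_source hx)] with z hz hz'
  rwa [e.right_inv hz'] at hz

theorem HolP.dvd (he : HolP C C' e) (hx : x ∈ e.source) {f g : Y → ℂ} (h : Dvd C' (e x) g f) :
    Dvd C x (fun y => g (e y)) fun y => f (e y) := by
  obtain ⟨a, ha, ha2⟩ := h
  exact ⟨_, he.comp hx ha, ev_comp hx ha2⟩

theorem HolP.asc (he : HolP C C' e) (hx : x ∈ e.source) {f g : Y → ℂ} (h : Asc C' (e x) f g) :
    Asc C x (fun y => f (e y)) fun y => g (e y) := by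
  obtain ⟨a, ha, h0, ha2⟩ := h
  exact ⟨_, he.comp hx ha, h0, ev_comp hx ha2⟩

theorem HolP.genAt (he : HolP C C' e) (hx : x ∈ e.source) {Φ : κ → Y → ℂ} {γ : Y → ℂ}
    (h : GenAt C' Φ (e x) γ) : GenAt C (fun i y => Φ i (e y)) x fun y => γ (e y) where
  hol := he.comp hx h.hol
  nz := HolP.nz hx h.nz
  dvd i := he.dvd hx (h.dvd i)
  gen := by
    obtain ⟨i, hi⟩ := h.gen
    exact ⟨i, he.asc hx hi⟩

end Transport

end

end Crest.Agent.R272.PEnd_732
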