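import Crest.Agent.R272.FinCB3_876
import Crest.Agent.R272.CB7_232
import Crest.Agent.R272.PEnd3_732
import Crest.Agent.R272.Lc2_220

/-!
# R272, bundles in charts (helper232), part 9: transport of `GenAt`, `ValC` (876's FinCB3)

* `genAt_iff`, `valC_iff` : descriptions by germs (220's `HolN`);
* `congr`, change of the generator, constructors `genAt_of_mul`, `valC_of_mul`, `valC_of_qv`;
* `genAt_pr_iff`, `valC_pr_iff` : along `pr G : Y → Orb G Y` (783's `RA`);
* `genAt_push_iff`, `valC_push_iff` : along a locally biholomorphic `OpenPartialHomeomorph`;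
* `valC_compHC` : pull back along a holomorphic map.
-/

set_option autoImplicit false
set_option linter.unusedSectionVars false
set_option linter.unusedVariables false

open Set Filter Topology Complex

namespace Crest.Agent.R272.CB9_232

open Crest.Agent.R275.Geo Crest.Agent.R273.Fam_835
open Crest.Agent.R272.Quot_783 Crest.Agent.R272.CB_232 Crest.Agent.R272.FinCB3_876
open Crest.Agent.R272.Lc_220 Crest.Agent.R272.HFam_342 Crest.Agent.R272.MQ_783
open Crest.Agent.R272.Refl_246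

noncomputable section

variable {n m : ℕ} {X Y N : Type} [TopologicalSpace X] [TopologicalSpace Y] [TopologicalSpace N]
  {C : Fam n X} {D : Fam n Y} {E : Fam m N} {κ : Type} {x : X} {f f' u : κ → X → ℂ}
  {e e' g : X → ℂ} {c : κ → ℂ}

/-! ### descriptions by germs -/

theorem holN_of_holF {W : Set X} (hW : IsOpen W) (h : HolF C W g) (hx : x ∈ W) : HolN C x g :=
  (holF_iff hW).1 h x hx

/-- finitely many germs live on one neighbourhood, where an eventual condition holds -/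
theorem exists_holF [Finite κ] (hu : ∀ j, HolN C x (u j)) {P : X → Prop}
    (hP : ∀ᶠ y in 𝓝 x, P y) : ∃ W, IsOpen W ∧ x ∈ W ∧ (∀ j, HolF C W (u j)) ∧ ∀ y ∈ W, P y := by
  have h4 : ∀ᶠ y in 𝓝 x, ∀ j, HolN C y (u j) := eventually_all.2 fun j => (hu j).eventually
  obtain ⟨W, hW1, hW, hx⟩ := mem_nhds_iff.1 (h4.and hP)
  exact ⟨W, hW, hx, fun j => (holF_iff hW).2 fun y hy => (hW1 hy).1 j, fun y hy => (hW1 hy).2⟩

theorem genAt_iff [Finite κ] : GenAt C f e x ↔ ∃ u : κ → X → ℂ, (∀ j, HolN C x (u j)) ∧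
    (∀ j, ∀ᶠ y in 𝓝 x, f j y = u j y * e y) ∧ ∃ j, u j x ≠ 0 := by
  constructor
  · rintro ⟨W, hW, hx, u, hu, hue, hj⟩
    exact ⟨u, fun j => holN_of_holF hW (hu j) hx,
      fun j => eventually_of_mem (hW.mem_nhds hx) fun y hy => hue y hy j, hj⟩
  · rintro ⟨u, hu, hue, hj⟩
    obtain ⟨W, hW, hx, hW1, hW2⟩ := exists_holF hu (eventually_all.2 hue)
    exact ⟨W, hW, hx, u, hW1, hW2, hj⟩

theorem valC_iff [Finite κ] : ValC C f x c ↔ c ≠ 0 ∧ ∃ e : X → ℂ,
    (∀ᶠ y in 𝓝 x, y ∈ closure {y | e y ≠ 0}) ∧ ∃ u : κ → X → ℂ, (∀ j, HolN C x (u j)) ∧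
    (∀ j, ∀ᶠ y in 𝓝 x, f j y = u j y * e y) ∧ ∀ j, u j x = c j := by
  constructor
  · rintro ⟨hc, W, hW, hx, e, he, u, hu, hue, hj⟩
    exact ⟨hc, e, eventually_of_mem (hW.mem_nhds hx) he, u, fun j => holN_of_holF hW (hu j) hx,
      fun j => eventually_of_mem (hW.mem_nhds hx) fun y hy => hue y hy j, hj⟩
  · rintro ⟨hc, e, he, u, hu, hue, hj⟩
    obtain ⟨W, hW, hx, hW1, hW2⟩ := exists_holF hu (he.and (eventually_all.2 hue))
    exact ⟨hc, W, hW, hx, e, fun y hy => (hW2 y hy).1, u, hW1, fun y hy => (hW2 y hy).2, hj⟩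

theorem ev_closure (he : HolN C x e) (h0 : NZ x e) : ∀ᶠ y in 𝓝 x, y ∈ closure {y | e y ≠ 0} := by
  filter_upwards [NZ.eventually he h0] with y hy
  exact mem_closure_iff_frequently.2 fun h' => hy (h'.mono fun _ hy => not_not.1 hy)

theorem nz_of_closure (h : x ∈ closure {y | e y ≠ 0}) : NZ x e := fun h' =>
  (mem_closure_iff_frequently.1 h) (h'.mono fun _ hy => not_not.2 hy)

/-! ### constructors -/

theorem genAt_of_mul [Finite κ] (hu : ∀ j, HolN C x (u j))
    (he : ∀ j, ∀ᶠ y in 𝓝 x, f j y = u j y * e y) (hj : ∃ j, u j x ≠ 0) : GenAt C f e x :=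
  genAt_iff.2 ⟨u, hu, he, hj⟩

theorem valC_of_mul [Finite κ] (hc : c ≠ 0) (hel : HolN C x e) (h0 : NZ x e)
    (hu : ∀ j, HolN C x (u j)) (he : ∀ j, ∀ᶠ y in 𝓝 x, f j y = u j y * e y)
    (hj : ∀ j, u j x = c j) : ValC C f x c :=
  valC_iff.2 ⟨hc, e, ev_closure hel h0, u, hu, he, hj⟩

/-- with 220's values -/
theorem valC_of_qv [Finite κ] (hel : HolN C x e) (h0 : NZ x e) (hd : ∀ j, Dvd C x e (f j))
    (hj : ∃ j, qv C x e (f j) ≠ 0) : ValC C f x fun j => qv C x e (f j) := by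
  choose w hw hwe using hd
  refine valC_of_mul (Function.ne_iff.2 hj) hel h0 hw hwe fun j => ?_
  exact (qv_eq hel h0 (hw j) (hwe j)).symm

theorem genAt_of_qv [Finite κ] (hel : HolN C x e) (h0 : NZ x e) (hd : ∀ j, Dvd C x e (f j))
    (hj : ∃ j, qv C x e (f j) ≠ 0) : GenAt C f e x := by
  choose w hw hwe using hd
  obtain ⟨j, hj⟩ := hj
  refine genAt_of_mul hw hwe ⟨j, ?_⟩
  rwa [qv_eq hel h0 (hw j) (hwe j)] at hj

/-- bridge to 732's `PEnd_732.GenAt` -/
theorem genAt_iff_732 [Finite κ] : Crest.Agent.R272.PEnd_732.GenAt C f x e ↔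
    HolN C x e ∧ NZ x e ∧ GenAt C f e x := by
  constructor
  · intro h
    refine ⟨h.hol, h.nz, ?_⟩
    have hd := h.dvd
    choose w hw hwe using hd
    obtain ⟨i, v, hv, hv0, hve⟩ := h.gen
    refine genAt_of_mul hw hwe ⟨i, ?_⟩
    have h2 : ∀ᶠ y in 𝓝 x, w i y = v y :=
      ev_eq_of_mul h.hol (hw i) hv h.nz (((hwe i).and hve).mono fun y hy => by rw [← hy.1, hy.2])
    rw [h2.self_of_nhds]
    exact hv0
  · rintro ⟨h1, h2, h3⟩
    obtain ⟨u, hu, hue, j, hj⟩ := genAt_iff.1 h3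
    exact ⟨h1, h2, fun i => ⟨u i, hu i, hue i⟩, j, u j, hu j, hj, hue j⟩

/-! ### congruence and change of the generator -/

theorem _root_.Crest.Agent.R272.FinCB3_876.GenAt.congr [Finite κ] (h : GenAt C f e x)
    (h1 : ∀ j, ∀ᶠ y in 𝓝 x, f' j y = f j y) (h2 : ∀ᶠ y in 𝓝 x, e' y = e y) :
    GenAt C f' e' x := by
  obtain ⟨u, hu, hue, hj⟩ := genAt_iff.1 h
  refine genAt_of_mul hu (fun j => ?_) hj
  filter_upwards [hue j, h1 j, h2] with y a b d
  rw [b, a, d]

theorem _root_.Crest.Agent.R272.FinCB3_876.ValC.congr [Finite κ] (h : ValC C f x c)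
    (h1 : ∀ j, ∀ᶠ y in 𝓝 x, f' j y = f j y) : ValC C f' x c := by
  obtain ⟨hc, e, he, u, hu, hue, hj⟩ := valC_iff.1 h
  refine valC_iff.2 ⟨hc, e, he, u, hu, fun j => ?_, hj⟩
  filter_upwards [hue j, h1 j] with y a b
  rw [b, a]

theorem _root_.Crest.Agent.R272.FinCB3_876.GenAt.asc [Finite κ] (h : GenAt C f e x)
    (h1 : Asc C x e e') : GenAt C f e' x := by
  obtain ⟨u, hu, hue, j, hj⟩ := genAt_iff.1 h
  obtain ⟨v, hv, hv0, hve⟩ := h1
  refine genAt_of_mul (u := fun j y => u j y * v y) (fun j => (hu j).mul hv) (fun j => ?_)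
    ⟨j, mul_ne_zero hj hv0⟩
  filter_upwards [hue j, hve] with y a b
  rw [a, b, mul_assoc]

theorem _root_.Crest.Agent.R272.FinCB3_876.ValC.smul [Finite κ] (h : ValC C f x c) {a : ℂ}
    (ha : a ≠ 0) : ValC C f x fun j => a * c j := by
  obtain ⟨hc, e, he, u, hu, hue, hj⟩ := valC_iff.1 h
  obtain ⟨j₁, hj₁⟩ := Function.ne_iff.1 hc
  refine valC_iff.2 ⟨Function.ne_iff.2 ⟨j₁, mul_ne_zero ha hj₁⟩, fun y => a⁻¹ * e y, ?_,
    fun j y => a * u j y, fun j => (holN_const a).mul (hu j), fun j => ?_, fun j => by simp only [hj j]⟩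
  · filter_upwards [he] with y hy
    refine closure_mono (fun z hz => ?_) hy
    exact mul_ne_zero (inv_ne_zero ha) hz
  · filter_upwards [hue j] with y hy
    rw [hy]
    field_simp

/-- `GenAt` for two generators: they are associated -/
theorem _root_.Crest.Agent.R272.FinCB3_876.GenAt.asc_of [Finite κ] (h : GenAt C f e x)
    (h' : GenAt C f e' x) (he : HolN C x e) (h0 : NZ x e) (he' : HolN C x e') (h0' : NZ x e') :
    Asc C x e e' :=
  (genAt_iff_732.2 ⟨he, h0, h⟩).asc (genAt_iff_732.2 ⟨he', h0', h'⟩)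

/-- the function `f i` with `c i ≠ 0` is a generator -/
theorem _root_.Crest.Agent.R272.FinCB3_876.ValC.exists_quot [Finite κ] (h : ValC C f x c) {i : κ}
    (hi : c i ≠ 0) : NZ x (f i) ∧ ∃ w : κ → X → ℂ, (∀ j, HolN C x (w j)) ∧
      (∀ j, ∀ᶠ y in 𝓝 x, f j y = w j y * f i y) ∧ ∀ j, w j x = c j * (c i)⁻¹ := by
  obtain ⟨hc, e, he, u, hu, hue, hj⟩ := valC_iff.1 h
  have hui : u i x ≠ 0 := by rw [hj]; exact hi
  have hne : ∀ᶠ y in 𝓝 x, u i y ≠ 0 := (hu i).continuousAt.eventually_ne hui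
  refine ⟨fun h0 => ?_, fun j y => u j y * (u i y)⁻¹, fun j => (hu j).mul ((hu i).inv hui),
    fun j => ?_, fun j => by simp only [hj]⟩
  · refine nz_of_closure he.self_of_nhds ?_
    filter_upwards [h0, hue i, hne] with y a b d
    rw [a] at b
    exact (mul_eq_zero.1 b.symm).resolve_left d
  · filter_upwards [hue j, hue i, hne] with y a b d
    rw [a, b, ← mul_assoc, mul_assoc (u j y), inv_mul_cancel₀ d, mul_one]

/-! ### descent to the orbit space -/

section Descent

variable {k : ℕ} {Z : Type} [TopologicalSpace Z] {CZ : Fam k Z} {G : Type} [Group G] [MulAction G Z]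
  [ContinuousConstSMul G Z] [Nonempty Z]

theorem genAt_pr_iff [Finite κ] (h : RA CZ G) {z : Z} {F : κ → Orb G Z → ℂ} {H : Orb G Z → ℂ}
    (hH : HolN CZ z fun v => H (pr G v)) (h0 : NZ z fun v => H (pr G v)) :
    GenAt h.fam F H (pr G z) ↔ GenAt CZ (fun j v => F j (pr G v)) (fun v => H (pr G v)) z := by
  constructor
  · intro hg
    obtain ⟨u, hu, hue, j, hj⟩ := genAt_iff.1 hg
    exact genAt_of_mul (u := fun j v => u j (pr G v)) (fun j => (hu j).comp h.holC_pr)
      (fun j => ev_pr.1 (hue j)) ⟨j, hj⟩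
  · intro hg
    obtain ⟨u, hu, hue, j, hj⟩ := genAt_iff.1 hg
    have hd : ∀ j, Dvd h.fam (pr G z) H (F j) := fun j =>
      (dvd_desc h hH h0).2 ⟨u j, hu j, hue j⟩
    choose w hw hwe using hd
    refine genAt_of_mul hw hwe ⟨j, ?_⟩
    have h1 : ∀ᶠ v in 𝓝 z, w j (pr G v) = u j v := by
      refine ev_eq_of_mul hH ((hw j).comp h.holC_pr) (hu j) h0 ?_
      filter_upwards [ev_pr.1 (hwe j), hue j] with v a b
      rw [← a, ← b]
    rw [h1.self_of_nhds]
    exact hj

theorem valC_pr_iff [Finite κ] (h : RA CZ G) {z : Z} {F : κ → Orb G Z → ℂ}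
    (hF : ∀ j, HolN CZ z fun v => F j (pr G v)) :
    ValC h.fam F (pr G z) c ↔ ValC CZ (fun j v => F j (pr G v)) z c := by
  constructor
  · intro hv
    obtain ⟨j₁, hj₁⟩ := Function.ne_iff.1 hv.1
    simp only [Pi.zero_apply] at hj₁
    obtain ⟨hnz, w, hw, hwe, hwx⟩ := hv.exists_quot hj₁
    refine valC_of_mul (e := fun v => F j₁ (pr G v) * (c j₁)⁻¹) (u := fun j v => c j₁ * w j (pr G v))
      hv.1 ((hF j₁).mul (holN_const _)) ?_ (fun j => (holN_const _).mul ((hw j).comp h.holC_pr))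
      (fun j => ?_) (fun j => ?_)
    · exact NZ.mul (hF j₁) (holN_const _) (nz_pr.1 hnz)
        (nz_of_ne continuousAt_const (inv_ne_zero hj₁))
    · filter_upwards [ev_pr.1 (hwe j)] with v hv
      rw [hv]
      field_simp
    · simp only [hwx]
      field_simp
  · intro hv
    obtain ⟨j₁, hj₁⟩ := Function.ne_iff.1 hv.1
    simp only [Pi.zero_apply] at hj₁
    obtain ⟨hnz, w, hw, hwe, hwx⟩ := hv.exists_quot hj₁
    have hd : ∀ j, Dvd h.fam (pr G z) (F j₁) (F j) := fun j =>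
      (dvd_desc h (hF j₁) hnz).2 ⟨w j, hw j, hwe j⟩
    choose W hW hWe using hd
    have hWx : ∀ j, W j (pr G z) = c j * (c j₁)⁻¹ := by
      intro j
      have h1 : ∀ᶠ v in 𝓝 z, W j (pr G v) = w j v := by
        refine ev_eq_of_mul (hF j₁) ((hW j).comp h.holC_pr) (hw j) hnz ?_
        filter_upwards [ev_pr.1 (hWe j), hwe j] with v a b
        rw [← a, ← b]
      rw [← hwx j]
      exact h1.self_of_nhds
    refine valC_of_mul (C := h.fam) (x := pr G z) (e := fun q => F j₁ q * (c j₁)⁻¹)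
      (u := fun j q => c j₁ * W j q)
      hv.1 (((holN_pr_iff h).2 (hF j₁)).mul (holN_const _)) ?_
      (fun j => (holN_const _).mul (hW j)) (fun j => ?_) (fun j => ?_)
    · exact NZ.mul ((holN_pr_iff h).2 (hF j₁)) (holN_const _) (nz_pr.2 hnz)
        (nz_of_ne continuousAt_const (inv_ne_zero hj₁))
    · filter_upwards [hWe j] with v hv
      rw [hv]
      field_simp
    · simp only [hWx]
      field_simp

end Descent

/-! ### holomorphic maps -/

theorem holN_compHC {p : X → N} (hp : ∀ᶠ y in 𝓝 x, HC C E p y) {F : N → ℂ}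
    (hF : HolN E (p x) F) : HolN C x fun y => F (p y) := by
  obtain ⟨i, hi⟩ := C.cover x
  obtain ⟨j, hj⟩ := E.cover (p x)
  have h0 : ∀ᶠ y in 𝓝 x, p y ∈ (E.e j).source :=
    hp.self_of_nhds.1.eventually ((E.e j).open_source.mem_nhds hj)
  have h3 : AnalyticAt ℂ (HFam_342.rc C E p i j) (C.e i x) := by
    refine Crest.Agent.R266.SCV.analyticAt_of_eventually_differentiableAt ?_
    filter_upwards [eventually_chartC hi (hp.and h0)] with z hz
    have h2 := hz.2.1.2 i j ((C.e i).map_target hz.1) hz.2.2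
    rwa [(C.e i).right_inv hz.1] at h2
  refine holN_of hi ?_
  have h5 : AnalyticAt ℂ (fun z => F ((E.e j).symm z)) (HFam_342.rc C E p i j (C.e i x)) := by
    rw [HFam_342.rc_apply C E p j hi]
    exact hF j hj
  have h6 := AnalyticAt.comp (g := fun z => F ((E.e j).symm z)) (f := HFam_342.rc C E p i j) h5 h3
  refine h6.congr ?_
  filter_upwards [eventually_chartC hi h0] with z hz
  simp only [Function.comp, HFam_342.rc]
  rw [(E.e j).left_inv hz.2]

theorem genAt_compHC [Finite κ] {p : X → N} (hp : ∀ᶠ y in 𝓝 x, HC C E p y) {F : κ → N → ℂ}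
    {H : N → ℂ} (h : GenAt E F H (p x)) :
    GenAt C (fun j y => F j (p y)) (fun y => H (p y)) x := by
  obtain ⟨u, hu, hue, j, hj⟩ := genAt_iff.1 h
  exact genAt_of_mul (u := fun j v => u j (p v)) (fun j => holN_compHC hp (hu j))
    (fun j => hp.self_of_nhds.1.eventually (hue j)) ⟨j, hj⟩

/-- pull back of values: one `F i` with `c i ≠ 0` must not vanish identically near `x` -/
theorem valC_compHC [Finite κ] {p : X → N} (hp : ∀ᶠ y in 𝓝 x, HC C E p y) {F : κ → N → ℂ}
    (h : ValC E F (p x) c) {i : κ} (hi : c i ≠ 0) (hF : HolN E (p x) (F i))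
    (h0 : NZ x fun y => F i (p y)) : ValC C (fun j y => F j (p y)) x c := by
  obtain ⟨hnz, w, hw, hwe, hwx⟩ := h.exists_quot hi
  refine valC_of_mul (e := fun v => F i (p v) * (c i)⁻¹) (u := fun j v => c i * w j (p v))
    h.1 ((holN_compHC hp hF).mul (holN_const _)) ?_
    (fun j => (holN_const _).mul (holN_compHC hp (hw j)))
    (fun j => ?_) (fun j => ?_)
  · exact NZ.mul (holN_compHC hp hF) (holN_const _) h0
      (nz_of_ne continuousAt_const (inv_ne_zero hi))
  · filter_upwards [hp.self_of_nhds.1.eventually (hwe j)] with v hv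
    rw [hv]
    field_simp
  · simp only [hwx]
    field_simp

/-! ### along a partial homeomorphism -/

section Push

variable (φ : OpenPartialHomeomorph X Y)

theorem ev_push {P : Y → Prop} (hx : x ∈ φ.source) :
    (∀ᶠ y in 𝓝 (φ x), P y) ↔ ∀ᶠ y in 𝓝 x, P (φ y) := by
  rw [← φ.map_nhds_eq hx, Filter.eventually_map]

theorem ev_hc (hφ : ∀ x ∈ φ.source, LC C D φ x) (hx : x ∈ φ.source) :
    ∀ᶠ y in 𝓝 x, HC C D φ y :=
  eventually_of_mem (φ.open_source.mem_nhds hx) fun y hy => (hφ y hy).1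

theorem lC_symm {φ : OpenPartialHomeomorph X Y} (hφ : ∀ x ∈ φ.source, LC C D φ x) :
    ∀ y ∈ φ.symm.source, LC D C φ.symm y := by
  intro y hy
  have hy' : y ∈ φ.target := hy
  have hx := φ.map_target hy'
  have h1 : HC D C φ.symm y := by
    have := LC.symm φ hx (hφ _ hx)
    rwa [φ.right_inv hy'] at this
  refine LC.of_left_inverse (q := φ) h1 (hφ _ hx).1 ?_
  filter_upwards [φ.open_target.mem_nhds hy'] with z hz
  exact φ.right_inv hz

theorem holN_push_iff (hφ : ∀ x ∈ φ.source, LC C D φ x) (hx : x ∈ φ.source) {F : Y → ℂ} :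
    HolN C x (fun y => F (φ y)) ↔ HolN D (φ x) F := by
  constructor
  · intro h
    have h1 : HolN D (φ x) fun y => (fun v => F (φ v)) (φ.symm y) := by
      refine holN_compHC (E := C) (p := φ.symm) (F := fun v => F (φ v))
        (ev_hc φ.symm (lC_symm hφ) (φ.map_source hx)) ?_
      rw [φ.left_inv hx]
      exact h
    refine holN_congr h1 ?_
    filter_upwards [φ.open_target.mem_nhds (φ.map_source hx)] with y hy
    simp only [φ.right_inv hy]
  · intro h
    exact holN_compHC (ev_hc φ hφ hx) h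

theorem nz_push_iff (hx : x ∈ φ.source) {F : Y → ℂ} :
    NZ x (fun y => F (φ y)) ↔ NZ (φ x) F :=
  not_congr (ev_push φ hx (P := fun y => F y = 0)).symm

theorem closure_push_iff (hx : x ∈ φ.source) {F : Y → ℂ} :
    x ∈ closure {y | F (φ y) ≠ 0} ↔ φ x ∈ closure {y | F y ≠ 0} := by
  rw [mem_closure_iff_frequently, mem_closure_iff_frequently]
  exact not_congr (ev_push φ hx (P := fun y => ¬ (y ∈ {y | F y ≠ 0}))).symm

theorem genAt_push_iff [Finite κ] (hφ : ∀ x ∈ φ.source, LC C D φ x) (hx : x ∈ φ.source)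
    {F : κ → Y → ℂ} {H : Y → ℂ} :
    GenAt C (fun j y => F j (φ y)) (fun y => H (φ y)) x ↔ GenAt D F H (φ x) := by
  constructor
  · intro h
    obtain ⟨u, hu, hue, j, hj⟩ := genAt_iff.1 h
    have h1 : ∀ j, HolN D (φ x) fun y => u j (φ.symm y) := fun j => by
      refine holN_compHC (E := C) (p := φ.symm) (F := u j)
        (ev_hc φ.symm (lC_symm hφ) (φ.map_source hx)) ?_
      rw [φ.left_inv hx]
      exact hu j
    refine genAt_of_mul h1 (fun j => ?_) ⟨j, ?_⟩
    · refine (ev_push φ hx).2 ?_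
      filter_upwards [hue j, φ.open_source.mem_nhds hx] with y a b
      rw [a, φ.left_inv b]
    · rw [φ.left_inv hx]
      exact hj
  · intro h
    exact genAt_compHC (ev_hc φ hφ hx) h

theorem valC_push_iff [Finite κ] (hφ : ∀ x ∈ φ.source, LC C D φ x) (hx : x ∈ φ.source)
    {F : κ → Y → ℂ} : ValC C (fun j y => F j (φ y)) x c ↔ ValC D F (φ x) c := by
  constructor
  · intro h
    obtain ⟨hc, e, he, u, hu, hue, hj⟩ := valC_iff.1 h
    refine valC_iff.2 ⟨hc, fun y => e (φ.symm y), ?_, fun j y => u j (φ.symm y), fun j => ?_,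
      fun j => ?_, fun j => ?_⟩
    · refine (ev_push φ hx).2 ?_
      filter_upwards [he, φ.open_source.mem_nhds hx] with y hy hy'
      have h2 := (closure_push_iff φ.symm (x := φ y) (φ.map_source hy') (F := e)).2
      rw [φ.left_inv hy'] at h2
      exact h2 hy
    · refine holN_compHC (E := C) (p := φ.symm) (F := u j)
        (ev_hc φ.symm (lC_symm hφ) (φ.map_source hx)) ?_
      rw [φ.left_inv hx]
      exact hu j
    · refine (ev_push φ hx).2 ?_
      filter_upwards [hue j, φ.open_source.mem_nhds hx] with y a b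
      rw [a, φ.left_inv b]
    · simp only [φ.left_inv hx, hj j]
  · intro h
    obtain ⟨hc, e, he, u, hu, hue, hj⟩ := valC_iff.1 h
    refine valC_iff.2 ⟨hc, fun y => e (φ y), ?_, fun j y => u j (φ y), fun j =>
      holN_compHC (ev_hc φ hφ hx) (hu j), fun j => (ev_push φ hx).1 (hue j), hj⟩
    filter_upwards [(ev_push φ hx).1 he, φ.open_source.mem_nhds hx] with y hy hy'
    exact (closure_push_iff φ hy').2 hy

/-- with functions agreeing only near the point -/
theorem valC_push_congr [Finite κ] (hφ : ∀ x ∈ φ.source, LC C D φ x) (hx : x ∈ φ.source)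
    {F : κ → Y → ℂ} (hf : ∀ j, ∀ᶠ y in 𝓝 x, f j y = F j (φ y)) :
    ValC C f x c ↔ ValC D F (φ x) c := by
  rw [← valC_push_iff φ hφ hx]
  exact ⟨fun h => h.congr fun j => (hf j).mono fun y hy => hy.symm, fun h => h.congr hf⟩

theorem genAt_push_congr [Finite κ] (hφ : ∀ x ∈ φ.source, LC C D φ x) (hx : x ∈ φ.source)
    {F : κ → Y → ℂ} {H : Y → ℂ} (hf : ∀ j, ∀ᶠ y in 𝓝 x, f j y = F j (φ y))
    (he : ∀ᶠ y in 𝓝 x, e y = H (φ y)) :
    GenAt C f e x ↔ GenAt D F H (φ x) := by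
  rw [← genAt_push_iff φ hφ hx]
  exact ⟨fun h => h.congr (fun j => (hf j).mono fun y hy => hy.symm) (he.mono fun y hy => hy.symm),
    fun h => h.congr hf he⟩

end Push

end

end Crest.Agent.R272.CB9_232
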