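import Crest.Agent.R272.Cls9_620
import Crest.Agent.R272.In1_68

/-!
Row 272, AR-CLS (helper620), part 10: near a point only the standard plane of every class; dictionary
with the ball (`io`, `lin` of EBase_641).
-/

set_option linter.unusedSectionVars false

namespace Crest.Agent.R272.Cls_620

open Finset

section gen

variable {ι : Type*} [Fintype ι]

/-- product of a vector orthogonal to a negative vector `p` with an arbitrary vector. -/
lemma perp_bound {c : ι → ℝ} {i0 : ι} (h0 : c i0 < 0) (hp : ∀ i, i ≠ i0 → 0 < c i)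
    {p x y : ι → ℂ} (hneg : (h1 c p p).re < 0) (hx : h1 c x p = 0) :
    ‖h1 c x y‖ ^ 2 ≤ (h1 c x x).re * ((h1 c y y).re + ‖h1 c y p‖ ^ 2 / (-(h1 c p p).re)) := by
  set P : ℝ := (h1 c p p).re with hP
  have hPp : h1 c p p = (P : ℂ) := h1_self_real c p
  have hP0 : (P : ℂ) ≠ 0 := by
    rw [Ne, Complex.ofReal_eq_zero]; exact hneg.ne
  set s : ℂ := h1 c y p with hs
  have hps : h1 c p y = star s := (h1_star c y p).symm
  set t : ℂ := s / (P : ℂ) with ht
  have htP : t * (P : ℂ) = s := div_mul_cancel₀ _ hP0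
  have hy' : h1 c (y + (-t) • p) p = 0 := by
    rw [h1_add_left, h1_smul_left, ← hs, hPp]
    linear_combination -htP
  have e1 : h1 c x (y + (-t) • p) = h1 c x y := by
    rw [h1_add_right, h1_smul_right, hx, mul_zero, add_zero]
  have e2 : (h1 c (y + (-t) • p) (y + (-t) • p)).re
      = (h1 c y y).re + ‖s‖ ^ 2 / (-P) := by
    have hss : s * star s = ((‖s‖ ^ 2 : ℝ) : ℂ) := by
      rw [Complex.star_def, Complex.mul_conj, Complex.normSq_eq_norm_sq]
    have htt : star t = star s / (P : ℂ) := by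
      rw [ht, star_div₀]
      congr 1
      rw [Complex.star_def, Complex.conj_ofReal]
    have e3 : h1 c (y + (-t) • p) (y + (-t) • p) = h1 c y y + ((‖s‖ ^ 2 / (-P) : ℝ) : ℂ) := by
      rw [h1_add_left, h1_add_right, h1_add_right, h1_smul_left, h1_smul_left, h1_smul_right,
        h1_smul_right, hPp, ← hs, hps]
      push_cast
      rw [star_neg, htt, ht]
      have hss' : s * star s = (‖s‖ : ℂ) ^ 2 := by rw [hss]; push_cast; rfl
      rw [← hss']
      field_simp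
      ring
    rw [e3, Complex.add_re, Complex.ofReal_re]
  have h2 := perp_cs h0 hp hneg hx hy'
  rw [e1, e2] at h2
  exact h2

end gen

section near

variable {O : Subring (Fin 2 → ℂ)} {z μ : Fin 2 → ℂ} {p : Fin 4 → ℂ}

/-- **near a point only the standard plane**. -/
theorem std_of_near (h : Z5 O z) {K : ℝ} (hK0 : 0 ≤ K) (hD : Deep O z μ K) {a : Lb}
    {v : Fin 4 → Fin 2 → ℂ} (hv : v ∈ VV O z μ a) (hp : Neg z p) (hvp : Perp z p v)
    (hb : 2 * (2 + ‖h1 (c0 0 (HH z)) (at0 0 (base z a)) p‖ ^ 2 /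
      (-(h1 (c0 0 (HH z)) p p).re)) ≤ K ^ 2) : v = base z a := by
  have hB := perp_bound (c := c0 0 (HH z)) (i0 := 3) h.sgn.neg h.sgn.pos (y := at0 0 (base z a))
    hp hvp
  rw [← hh_at0 h.frm.real, ← hh_at0 h.frm.real, ← hh_at0 h.frm.real] at hB
  have hvv : hh (HH z) v v = hh (HH z) (base z a) (base z a) := hv.2.2
  rw [hvv] at hB
  have hn := n_at0 h a
  set A := (hh (HH z) (base z a) (base z a) 0).re with hA
  set R := ‖h1 (c0 0 (HH z)) (at0 0 (base z a)) p‖ ^ 2 / (-(h1 (c0 0 (HH z)) p p).re) with hR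
  have hR0 : 0 ≤ R := div_nonneg (by positivity) (by have : _ < _ := hp; linarith)
  have h3 : A * (A + R) ≤ 2 * (2 + R) := by
    have : A * (A + R) ≤ 2 * (A + R) := mul_le_mul_of_nonneg_right hn.1 (by linarith [hn.2])
    linarith [hn.1]
  have h4 : ‖hh (HH z) v (base z a) 0‖ ≤ K := by
    by_contra hc
    push Not at hc
    have : K ^ 2 < ‖hh (HH z) v (base z a) 0‖ ^ 2 := by nlinarith
    linarith
  have hbm : base z a ∈ VV O z μ a := ⟨base_mem h a, Cg.refl _ _, rfl⟩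
  have h5 := hD a a v (VV.low h hv) (base z a) (VV.low h hbm) h4
  exact uniq h.ord h.frm (t := 1) (by decide) hv hbm h5

end near

/-! ### the ball -/

section ball

open Crest.Agent.R272.EBase_641 Crest.Agent.R272.In_68

variable {O : Subring (Fin 2 → ℂ)} {z μ : Fin 2 → ℂ}

/-- the vector of a point of the ball. -/
noncomputable def pt (h : Z5r O z) (q : E 3) : Fin 4 → ℂ := (P0 h).symm (q, 1)

lemma P0_pt (h : Z5r O z) (q : E 3) : P0 h (pt h q) = (q, 1) := (P0 h).apply_symm_apply _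

lemma ht_eq (x y : Fin 4 → ℂ) : ht z 0 x y = h1 (c0 0 (HH z)) x y := rfl

lemma dd_ne (h : Z5r O z) : (dd z 0 : ℂ) ≠ 0 := by exact_mod_cast (dd_pos h 0).ne'

/-- `lin` of an embedded vector. -/
lemma lin_io (h : Z5r O z) (v : Fin 4 → Fin 2 → ℂ) (q : E 3) :
    lin (io h v).1 q = (dd z 0 : ℂ) * h1 (c0 0 (HH z)) (pt h q) (at0 0 v) := by
  rw [lin_eq_hh, io_fst, ← P0_pt h q, hh_P0]
  rfl

lemma perp_iff (h : Z5r O z) (v : Fin 4 → Fin 2 → ℂ) (q : E 3) :
    Perp z (pt h q) v ↔ lin (io h v).1 q = 0 := by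
  rw [lin_io, mul_eq_zero, or_iff_right (dd_ne h), Perp, ← h1_star, star_eq_zero]

lemma h1_pt (h : Z5r O z) (q : E 3) :
    (dd z 0) * (h1 (c0 0 (HH z)) (pt h q) (pt h q)).re = ‖q‖ ^ 2 - 1 := by
  have h1' := hh_P0 h (pt h q) (pt h q)
  rw [P0_pt, hh_self, ht_eq] at h1'
  have := congrArg Complex.re h1'
  rw [Complex.ofReal_re, Complex.re_ofReal_mul] at this
  rw [← this]
  simp

lemma neg_pt (h : Z5r O z) {q : E 3} (hq : q ∈ Ball 3) : Neg z (pt h q) := by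
  have h1' := h1_pt h q
  have h2 : ‖q‖ < 1 := mem_Ball.1 hq
  have h3 := dd_pos h 0
  by_contra hc
  rw [Neg, not_lt] at hc
  nlinarith [norm_nonneg q, mul_nonneg h3.le hc]

/-- majorant of the base vectors. -/
lemma maj_base (h : Z5r O z) (a : Lb) :
    ‖(io h (base z a)).1.1‖ ^ 2 + ‖(io h (base z a)).1.2‖ ^ 2 ≤ 4 * dd z 0 := by
  have hd := dd_pos h 0
  have e : ‖(io h (base z a)).1.1‖ ^ 2 + ‖(io h (base z a)).1.2‖ ^ 2
      = dd z 0 * ∑ i, |rr z i 0| * ‖base z a i 0‖ ^ 2 := by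
    rw [Fin.sum_univ_castSucc (n := 3), mul_add, io_fst]
    congr 1
    · rw [EuclideanSpace.norm_sq_eq, Finset.mul_sum]
      refine Finset.sum_congr rfl fun i _ => ?_
      rw [P0_fst, norm_mul, mul_pow, Complex.norm_real, Real.norm_of_nonneg (ww_pos h _ _).le,
        ww_sq h]
      show dd z 0 * |rr z i.castSucc 0| * ‖base z a i.castSucc 0‖ ^ 2 = _
      ring
    · rw [P0_snd, norm_mul, mul_pow, Complex.norm_real, Real.norm_of_nonneg (ww_pos h _ _).le,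
        ww_sq h]
      show dd z 0 * |rr z 3 0| * ‖base z a 3 0‖ ^ 2 = _
      have h3 : (Fin.last 3 : Fin 4) = 3 := rfl
      rw [h3]; ring
  rw [e, mul_comm (4 : ℝ)]
  refine mul_le_mul_of_nonneg_left ?_ hd.le
  have hs := sqrt5_bd
  have r0 : |rr z 0 0| = 1 := by simp [rr, HH]
  have r1 : |rr z 1 0| = 1 := by simp [rr, HH]
  have r2 : |rr z 2 0| = 1 := by simp [rr, HH]
  have r3 : |rr z 3 0| ≤ 1.7 := by
    have : rr z 3 0 = -(Real.sqrt 5 + 1) / 2 := by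
      show ((z ^ 2 + z ^ 3) 0).re = _
      have e1 : (z ^ 2 + z ^ 3) 0 = z 0 ^ 2 + z 0 ^ 3 := rfl
      rw [e1, h.toZ5.at0', Complex.ofReal_re]
    rw [this, abs_of_neg (by linarith)]
    linarith
  have hz : ∀ k : ℕ, ‖z 0 ^ k‖ = 1 := fun k => (re_pow h.toZ5 k).2
  rw [Fin.sum_univ_four, r0, r1, r2]
  have hr3 : |rr z 3 0| * ‖base z a 3 0‖ ^ 2 ≤ 1.7 * ‖base z a 3 0‖ ^ 2 :=
    mul_le_mul_of_nonneg_right r3 (by positivity)
  refine le_trans (add_le_add_right hr3 _) ?_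
  cases a with
  | o => simp [base, e0]
  | n i => cases i <;> simp [base, ei, e1, e2]
  | v i j => cases i <;> simp [base, ei, e0, e1, e2, hz] <;> norm_num
  | b i k => cases i <;> simp [base, ei, e0, e1, e2, e3, hz] <;> norm_num

/-- **near the centre of the ball only the standard planes**. -/
theorem std_of_ball (h : Z5r O z) {K r : ℝ} (hK0 : 0 ≤ K) (hr : r < 1) (hD : Deep O z μ K)
    (hK : 2 * (2 + 8 / (1 - r)) ≤ K ^ 2) {a : Lb} {v : Fin 4 → Fin 2 → ℂ}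
    (hv : v ∈ VV O z μ a) {q : E 3} (hq : ‖q‖ ^ 2 ≤ r) (h0 : lin (io h v).1 q = 0) :
    v = base z a := by
  have hqB : q ∈ Ball 3 := by
    rw [mem_Ball]
    nlinarith [norm_nonneg q]
  refine std_of_near h.toZ5 hK0 hD hv (neg_pt h hqB) ((perp_iff h v q).mpr h0) (le_trans ?_ hK)
  have hd := dd_pos h 0
  set N := (h1 (c0 0 (HH z)) (pt h q) (pt h q)).re with hN
  have hN1 : dd z 0 * N = ‖q‖ ^ 2 - 1 := h1_pt h q
  have hN0 : N < 0 := neg_pt h hqB
  set b := (io h (base z a)).1 with hb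
  have hlin : ‖lin b q‖ = dd z 0 * ‖h1 (c0 0 (HH z)) (at0 0 (base z a)) (pt h q)‖ := by
    rw [hb, lin_io, norm_mul, Complex.norm_real, Real.norm_of_nonneg hd.le, ← h1_star, norm_star]
  have h2 : ‖lin b q‖ ≤ ‖b.1‖ * ‖q‖ + ‖b.2‖ := by
    rw [lin]
    refine (norm_sub_le _ _).trans ?_
    refine add_le_add (norm_inner_le_norm _ _) ?_
    rw [RCLike.norm_conj]
  have h3 : ‖lin b q‖ ^ 2 ≤ 8 * dd z 0 := by
    have hm := maj_base h a
    have hq1 : ‖q‖ ^ 2 ≤ 1 := hq.trans hr.le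
    have h4 : (‖b.1‖ * ‖q‖ + ‖b.2‖) ^ 2 ≤ (‖b.1‖ ^ 2 + ‖b.2‖ ^ 2) * (‖q‖ ^ 2 + 1) := by
      nlinarith [sq_nonneg (‖b.1‖ - ‖b.2‖ * ‖q‖)]
    have h5 : ‖lin b q‖ ^ 2 ≤ (‖b.1‖ * ‖q‖ + ‖b.2‖) ^ 2 :=
      pow_le_pow_left₀ (norm_nonneg _) h2 2
    have h6 : (‖b.1‖ ^ 2 + ‖b.2‖ ^ 2) * (‖q‖ ^ 2 + 1) ≤ (4 * dd z 0) * 2 :=
      mul_le_mul hm (by linarith) (by positivity) (by positivity)
    linarith
  have h7 : ‖h1 (c0 0 (HH z)) (at0 0 (base z a)) (pt h q)‖ ^ 2 / (-N) ≤ 8 / (1 - r) := by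
    rw [div_le_div_iff₀ (by linarith) (by linarith)]
    have h8 : dd z 0 ^ 2 * ‖h1 (c0 0 (HH z)) (at0 0 (base z a)) (pt h q)‖ ^ 2 ≤ 8 * dd z 0 := by
      rw [← mul_pow, ← hlin]; exact h3
    have h9 : dd z 0 * ‖h1 (c0 0 (HH z)) (at0 0 (base z a)) (pt h q)‖ ^ 2 ≤ 8 := by
      have : dd z 0 * (dd z 0 * ‖h1 (c0 0 (HH z)) (at0 0 (base z a)) (pt h q)‖ ^ 2)
          ≤ dd z 0 * 8 := by nlinarith
      exact le_of_mul_le_mul_left this hd
    have h10 : dd z 0 * (-N) ≥ 1 - r := by nlinarith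
    have h11 : dd z 0 * (‖h1 (c0 0 (HH z)) (at0 0 (base z a)) (pt h q)‖ ^ 2 * (1 - r))
        ≤ dd z 0 * (8 * -N) := by
      calc dd z 0 * (‖h1 (c0 0 (HH z)) (at0 0 (base z a)) (pt h q)‖ ^ 2 * (1 - r))
          = (dd z 0 * ‖h1 (c0 0 (HH z)) (at0 0 (base z a)) (pt h q)‖ ^ 2) * (1 - r) := by ring
        _ ≤ 8 * (1 - r) := mul_le_mul_of_nonneg_right h9 (by linarith)
        _ ≤ 8 * (dd z 0 * (-N)) := by linarith
        _ = dd z 0 * (8 * -N) := by ring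
    exact le_of_mul_le_mul_left h11 hd
  linarith

end ball

end Crest.Agent.R272.Cls_620
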