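import Mathlib

/-!
Row 272, AR-CLS (helper620), part 1: arithmetic classes of vectors.

`T` = finite set of places, `O` a subring of `T → ℂ` stable under conjugation with
`1 ≤ ∏ ‖x t‖` for `x ≠ 0` in `O`. `H : ι → T → ℂ` real diagonal form, positive at all places
`t ≠ t0`. The class of `a : ι → T → ℂ` modulo `μ` is the set of `v ≡ a (mod μ)` of the same norm.
Dichotomy: two vectors of two classes have the standard product or a huge product at `t0`.
-/

set_option linter.unusedSectionVars false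

namespace Crest.Agent.R272.Cls_620

open Finset

variable {T : Type*} [Fintype T] {ι : Type*} [Fintype ι]

/-- an order given by its places. -/
structure Ord (O : Subring (T → ℂ)) : Prop where
  star_mem : ∀ x ∈ O, star x ∈ O
  norm_ge : ∀ x ∈ O, x ≠ 0 → 1 ≤ ∏ t, ‖x t‖

/-- the Hermitian form (linear in the first variable). -/
def hh (H : ι → T → ℂ) (v w : ι → T → ℂ) : T → ℂ := ∑ i, H i * v i * star (w i)

/-- integral vectors. -/
def Int' (O : Subring (T → ℂ)) (v : ι → T → ℂ) : Prop := ∀ i, v i ∈ O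

/-- congruence modulo `μ`. -/
def Cg (O : Subring (T → ℂ)) (μ : T → ℂ) (v w : ι → T → ℂ) : Prop :=
  ∀ i, ∃ u ∈ O, v i - w i = μ * u

/-- a real diagonal form with entries in `O`, positive at the places `t ≠ t0`. -/
structure Frm (O : Subring (T → ℂ)) (t0 : T) (H : ι → T → ℂ) : Prop where
  mem : ∀ i, H i ∈ O
  real : ∀ i, star (H i) = H i
  pos : ∀ i t, t ≠ t0 → 0 < (H i t).re

section basic

variable (H : ι → T → ℂ)

lemma hh_add_left (u v w : ι → T → ℂ) : hh H (u + v) w = hh H u w + hh H v w := by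
  simp only [hh, Pi.add_apply, mul_add, add_mul, sum_add_distrib]

lemma hh_sub_left (u v w : ι → T → ℂ) : hh H (u - v) w = hh H u w - hh H v w := by
  simp only [hh, Pi.sub_apply, mul_sub, sub_mul, sum_sub_distrib]

lemma hh_add_right (u v w : ι → T → ℂ) : hh H u (v + w) = hh H u v + hh H u w := by
  simp only [hh, Pi.add_apply, star_add, mul_add, sum_add_distrib]

lemma hh_sub_right (u v w : ι → T → ℂ) : hh H u (v - w) = hh H u v - hh H u w := by
  simp only [hh, Pi.sub_apply, star_sub, mul_sub, sum_sub_distrib]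

lemma hh_smul_left (x : T → ℂ) (v w : ι → T → ℂ) : hh H (x • v) w = x * hh H v w := by
  simp only [hh, Pi.smul_apply, smul_eq_mul, mul_sum]
  exact sum_congr rfl fun i _ => by ring

lemma hh_smul_right (x : T → ℂ) (v w : ι → T → ℂ) : hh H v (x • w) = star x * hh H v w := by
  simp only [hh, Pi.smul_apply, smul_eq_mul, mul_sum, star_mul']
  exact sum_congr rfl fun i _ => by ring

lemma hh_star (hr : ∀ i, star (H i) = H i) (v w : ι → T → ℂ) : star (hh H v w) = hh H w v := by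
  simp only [hh, star_sum, star_mul', star_star, hr]
  exact sum_congr rfl fun i _ => by ring

lemma hh_apply (v w : ι → T → ℂ) (t : T) :
    hh H v w t = ∑ i, H i t * v i t * star (w i t) := by
  simp [hh, Finset.sum_apply]

end basic

section mem

variable {O : Subring (T → ℂ)} {t0 : T} {H : ι → T → ℂ}

lemma hh_mem (hO : Ord O) (hF : Frm O t0 H) {v w : ι → T → ℂ} (hv : Int' O v) (hw : Int' O w) :
    hh H v w ∈ O :=
  Subring.sum_mem _ fun i _ => O.mul_mem (O.mul_mem (hF.mem i) (hv i)) (hO.star_mem _ (hw i))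

lemma Int'.add {v w : ι → T → ℂ} (hv : Int' O v) (hw : Int' O w) : Int' O (v + w) :=
  fun i => O.add_mem (hv i) (hw i)

lemma Int'.sub {v w : ι → T → ℂ} (hv : Int' O v) (hw : Int' O w) : Int' O (v - w) :=
  fun i => O.sub_mem (hv i) (hw i)

lemma Int'.smul {x : T → ℂ} {v : ι → T → ℂ} (hx : x ∈ O) (hv : Int' O v) : Int' O (x • v) :=
  fun i => O.mul_mem hx (hv i)

lemma Cg.refl (μ : T → ℂ) (v : ι → T → ℂ) : Cg O μ v v := fun i => ⟨0, O.zero_mem, by simp⟩

lemma Cg.symm {μ : T → ℂ} {v w : ι → T → ℂ} (h : Cg O μ v w) : Cg O μ w v := fun i => by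
  obtain ⟨u, hu, e⟩ := h i
  exact ⟨-u, O.neg_mem hu, by rw [mul_neg, ← e]; ring⟩

lemma Cg.trans {μ : T → ℂ} {v w z : ι → T → ℂ} (h : Cg O μ v w) (h' : Cg O μ w z) : Cg O μ v z :=
  fun i => by
    obtain ⟨u, hu, e⟩ := h i
    obtain ⟨u', hu', e'⟩ := h' i
    exact ⟨u + u', O.add_mem hu hu', by rw [mul_add, ← e, ← e']; ring⟩

lemma Cg.add {μ : T → ℂ} {v w v' w' : ι → T → ℂ} (h : Cg O μ v w) (h' : Cg O μ v' w') :
    Cg O μ (v + v') (w + w') := fun i => by
  obtain ⟨u, hu, e⟩ := h i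
  obtain ⟨u', hu', e'⟩ := h' i
  refine ⟨u + u', O.add_mem hu hu', ?_⟩
  simp only [Pi.add_apply]
  rw [mul_add, ← e, ← e']; ring

lemma Cg.sub {μ : T → ℂ} {v w v' w' : ι → T → ℂ} (h : Cg O μ v w) (h' : Cg O μ v' w') :
    Cg O μ (v - v') (w - w') := fun i => by
  obtain ⟨u, hu, e⟩ := h i
  obtain ⟨u', hu', e'⟩ := h' i
  refine ⟨u - u', O.sub_mem hu hu', ?_⟩
  simp only [Pi.sub_apply]
  rw [mul_sub, ← e, ← e']; ring

lemma Cg.smul {μ : T → ℂ} {x : T → ℂ} {v w : ι → T → ℂ} (hx : x ∈ O) (h : Cg O μ v w) :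
    Cg O μ (x • v) (x • w) := fun i => by
  obtain ⟨u, hu, e⟩ := h i
  refine ⟨x * u, O.mul_mem hx hu, ?_⟩
  simp only [Pi.smul_apply, smul_eq_mul]
  rw [← mul_sub, e]; ring

/-- scalar congruence. -/
def Cs (O : Subring (T → ℂ)) (μ : T → ℂ) (x y : T → ℂ) : Prop := ∃ u ∈ O, x - y = μ * u

lemma Cs.smul {μ : T → ℂ} {x y : T → ℂ} {v w : ι → T → ℂ} (hx : x ∈ O) (hw : Int' O w)
    (hxy : Cs O μ x y) (h : Cg O μ v w) : Cg O μ (x • v) (y • w) := fun i => by
  obtain ⟨u, hu, e⟩ := h i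
  obtain ⟨s, hs, es⟩ := hxy
  refine ⟨x * u + s * w i, O.add_mem (O.mul_mem hx hu) (O.mul_mem hs (hw i)), ?_⟩
  simp only [Pi.smul_apply, smul_eq_mul]
  have : x * v i - y * w i = x * (v i - w i) + (x - y) * w i := by ring
  rw [this, e, es]; ring

lemma hh_cg (hO : Ord O) (hF : Frm O t0 H) {μ ε : T → ℂ} (hε : ε ∈ O) (hμ : star μ = μ * ε)
    {v w v' w' : ι → T → ℂ} (hv : Int' O v)
    (hw' : Int' O w') (h : Cg O μ v v') (h' : Cg O μ w w') :
    Cs O μ (hh H v w) (hh H v' w') := by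
  choose u hu e using h
  choose s hs e' using h'
  refine ⟨∑ i, H i * (v i * (ε * star (s i)) + u i * star (w' i)), Subring.sum_mem _ fun i _ =>
    O.mul_mem (hF.mem i) (O.add_mem (O.mul_mem (hv i) (O.mul_mem hε (hO.star_mem _ (hs i))))
      (O.mul_mem (hu i) (hO.star_mem _ (hw' i)))), ?_⟩
  simp only [hh]
  rw [← sum_sub_distrib, mul_sum]
  refine sum_congr rfl fun i _ => ?_
  have e2 : star (w i) - star (w' i) = μ * (ε * star (s i)) := by
    rw [← star_sub, e' i, star_mul', hμ, mul_assoc]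
  have : H i * v i * star (w i) - H i * v' i * star (w' i)
      = H i * (v i * (star (w i) - star (w' i)) + (v i - v' i) * star (w' i)) := by ring
  rw [this, e2, e i]; ring

end mem

section definite

variable {O : Subring (T → ℂ)} {t0 : T} {H : ι → T → ℂ}

lemma re_diag (hr : ∀ i, star (H i) = H i) (x : ι → T → ℂ) (t : T) :
    (hh H x x t).re = ∑ i, (H i t).re * ‖x i t‖ ^ 2 := by
  have hre : ∀ i, H i t = ((H i t).re : ℂ) := fun i => by
    have := congrFun (hr i) t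
    simp only [Pi.star_apply] at this
    exact (Complex.conj_eq_iff_re.mp this).symm
  rw [hh_apply, Complex.re_sum]
  refine sum_congr rfl fun i _ => ?_
  rw [mul_assoc]
  have : x i t * star (x i t) = ((‖x i t‖ ^ 2 : ℝ) : ℂ) := by
    rw [Complex.star_def, Complex.mul_conj, Complex.normSq_eq_norm_sq]
  rw [this, hre i, ← Complex.ofReal_mul, Complex.ofReal_re, Complex.ofReal_re]

lemma re_nonneg (hF : Frm O t0 H) {t : T} (ht : t ≠ t0) (x : ι → T → ℂ) :
    0 ≤ (hh H x x t).re := by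
  rw [re_diag hF.real]
  exact sum_nonneg fun j _ => mul_nonneg (hF.pos j t ht).le (by positivity)

/-- Cauchy-Schwarz at a definite place. -/
lemma cs_def (hF : Frm O t0 H) {t : T} (ht : t ≠ t0) (v w : ι → T → ℂ) :
    ‖hh H v w t‖ ^ 2 ≤ (hh H v v t).re * (hh H w w t).re := by
  have hre : ∀ i, H i t = ((H i t).re : ℂ) := fun i => by
    have := congrFun (hF.real i) t
    simp only [Pi.star_apply] at this
    exact (Complex.conj_eq_iff_re.mp this).symm
  have hp : ∀ i, 0 < (H i t).re := fun i => hF.pos i t ht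
  have h1 : ‖hh H v w t‖ ≤ ∑ i, (Real.sqrt (H i t).re * ‖v i t‖) * (Real.sqrt (H i t).re * ‖w i t‖) := by
    rw [hh_apply]
    refine (norm_sum_le _ _).trans (sum_le_sum fun i _ => ?_)
    rw [norm_mul, norm_mul, norm_star]
    have : ‖H i t‖ = Real.sqrt (H i t).re * Real.sqrt (H i t).re := by
      rw [Real.mul_self_sqrt (hp i).le]
      conv_lhs => rw [hre i]
      rw [Complex.norm_real, Real.norm_of_nonneg (hp i).le]
    rw [this]
    exact le_of_eq (by ring)
  have h2 : ∀ x : ι → T → ℂ, (hh H x x t).re = ∑ i, (Real.sqrt (H i t).re * ‖x i t‖) ^ 2 := by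
    intro x
    rw [re_diag hF.real]
    refine sum_congr rfl fun i _ => ?_
    rw [mul_pow, Real.sq_sqrt (hp i).le]
  rw [h2 v, h2 w]
  refine le_trans (pow_le_pow_left₀ (norm_nonneg _) h1 2) ?_
  exact Finset.sum_mul_sq_le_sq_mul_sq _ _ _

/-- the form is anisotropic on integral vectors. -/
lemma aniso (hO : Ord O) (hF : Frm O t0 H) {t : T} (ht : t ≠ t0) {v : ι → T → ℂ}
    (hv : Int' O v) (h0 : (hh H v v t).re ≤ 0) : v = 0 := by
  have h2 := re_diag hF.real v t
  funext i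
  by_contra hne
  have h3 := hO.norm_ge (v i) (hv i) hne
  have h4 : v i t = 0 := by
    have hs : ∀ j ∈ (univ : Finset ι), 0 ≤ (H j t).re * ‖v j t‖ ^ 2 := fun j _ =>
      mul_nonneg (hF.pos j t ht).le (by positivity)
    have h5 : (H i t).re * ‖v i t‖ ^ 2 ≤ 0 :=
      (single_le_sum hs (mem_univ i)).trans (h2 ▸ h0)
    have h6 : ‖v i t‖ ^ 2 ≤ 0 := by
      by_contra hc
      push Not at hc
      exact absurd h5 (not_le.mpr (mul_pos (hF.pos i t ht) hc))
    have : ‖v i t‖ = 0 := by nlinarith [norm_nonneg (v i t)]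
    exact norm_eq_zero.mp this
  have h7 : ∏ s, ‖v i s‖ = 0 := prod_eq_zero (mem_univ t) (by rw [h4, norm_zero])
  rw [h7] at h3
  linarith

end definite

/-- the class of `a` modulo `μ`. -/
def Cl (O : Subring (T → ℂ)) (H : ι → T → ℂ) (μ : T → ℂ) (a : ι → T → ℂ) : Set (ι → T → ℂ) :=
  {v | Int' O v ∧ Cg O μ v a ∧ hh H v v = hh H a a}

section gap

variable {O : Subring (T → ℂ)} {t0 : T} {H : ι → T → ℂ}

/-- **dichotomy**: with `B` a bound of the norms of `a`, `b` at the definite places, the product of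
`v ∈ Cl a`, `w ∈ Cl b` is standard, or huge at `t0`. -/
lemma dich (hO : Ord O) (hF : Frm O t0 H) {μ ε : T → ℂ} (hε : ε ∈ O)
    (hμ : star μ = μ * ε) {a b v w : ι → T → ℂ}
    (hb : Int' O b) {B : ℝ} (hB : 0 < B)
    (hBa : ∀ t, t ≠ t0 → (hh H a a t).re ≤ B) (hBb : ∀ t, t ≠ t0 → (hh H b b t).re ≤ B)
    (hv : v ∈ Cl O H μ a) (hw : w ∈ Cl O H μ b) (hne : hh H v w ≠ hh H a b) :
    ∏ t, ‖μ t‖ ≤
      (2 * B) ^ (Fintype.card T - 1) * (‖hh H v w t0‖ + ‖hh H a b t0‖) := by
  classical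
  obtain ⟨hvI, hva, hvv⟩ := hv
  obtain ⟨hwI, hwb, hww⟩ := hw
  obtain ⟨u, hu, e⟩ := hh_cg hO hF hε hμ hvI hb hva hwb
  have hu0 : u ≠ 0 := by
    rintro rfl
    rw [mul_zero, sub_eq_zero] at e
    exact hne e
  have h1 := hO.norm_ge u hu hu0
  have hnn : ∀ {x : ι → T → ℂ}, ∀ t, t ≠ t0 → 0 ≤ (hh H x x t).re := fun {x} t ht =>
    re_nonneg hF ht x
  have hb1 : ∀ t, t ≠ t0 → ‖hh H a b t‖ ≤ B := by
    intro t ht
    have := cs_def hF ht a b
    have h3 : (hh H a a t).re * (hh H b b t).re ≤ B ^ 2 := by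
      rw [sq]
      exact mul_le_mul (hBa t ht) (hBb t ht) (hnn t ht) hB.le
    exact le_of_sq_le_sq' this h3 hB.le
  have hb2 : ∀ t, t ≠ t0 → ‖hh H v w t‖ ≤ B := by
    intro t ht
    have := cs_def hF ht v w
    rw [hvv, hww] at this
    have h3 : (hh H a a t).re * (hh H b b t).re ≤ B ^ 2 := by
      rw [sq]
      exact mul_le_mul (hBa t ht) (hBb t ht) (hnn t ht) hB.le
    exact le_of_sq_le_sq' this h3 hB.le
  have h2 : ∀ t, ‖μ t‖ * ‖u t‖ = ‖hh H v w t - hh H a b t‖ := by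
    intro t
    have := congrFun e t
    simp only [Pi.sub_apply, Pi.mul_apply] at this
    rw [this, norm_mul]
  have h3 : ∏ t, ‖μ t‖ ≤ ∏ t, (‖μ t‖ * ‖u t‖) := by
    rw [prod_mul_distrib]
    have : (0 : ℝ) ≤ ∏ t, ‖μ t‖ := prod_nonneg fun _ _ => norm_nonneg _
    nlinarith
  refine h3.trans ?_
  rw [← mul_prod_erase univ _ (mem_univ t0), mul_comm]
  refine mul_le_mul ?_ ?_ (by positivity) (by positivity)
  · have hc : (univ.erase t0).card = Fintype.card T - 1 := by
      rw [card_erase_of_mem (mem_univ t0), card_univ]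
    rw [← hc, ← prod_const]
    refine prod_le_prod (fun t _ => by positivity) fun t ht => ?_
    have ht' : t ≠ t0 := ne_of_mem_erase ht
    rw [h2 t]
    refine (norm_sub_le _ _).trans ?_
    linarith [hb1 t ht', hb2 t ht']
  · rw [h2 t0]
    exact norm_sub_le _ _
where
  le_of_sq_le_sq' {x y z : ℝ} (h : x ^ 2 ≤ y) (h' : y ≤ z ^ 2) (hz : 0 ≤ z) : x ≤ z := by
    by_contra hc
    push Not at hc
    nlinarith

end gap

end Crest.Agent.R272.Cls_620
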