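import Crest.Agent.R272.Cls3_620

/-!
Row 272, AR-CLS (helper620), part 4: the labels, Gram matrix, crossing table, complete clusters,
cluster points, mirrors.
-/

set_option linter.unusedSectionVars false

namespace Crest.Agent.R272.Cls_620

open Finset

/-- labels of the classes: `o` = `e0` (not a branch plane), `n i` = `e_i` (slope 0 of colour `i`),
`v i j` = the planes of slope `ζ^j` of colour `i`, `b i k` = bridges of colour `i`. -/
inductive Lb
  | o
  | n (i : Bool)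
  | v (i : Bool) (j : Fin 5)
  | b (i : Bool) (k : Fin 5)
  deriving DecidableEq

/-- the base vector of a class. -/
def base (z : Fin 2 → ℂ) : Lb → Fin 4 → Fin 2 → ℂ
  | .o => e0
  | .n i => ei i
  | .v i j => ei i - z ^ (j : ℕ) • e0
  | .b i k => ei i - z ^ (k : ℕ) • e0 + e3

/-- the level of a class: `μ` for `e0`, `e_i`, and `π μ` for the others. -/
def lev (z μ : Fin 2 → ℂ) : Lb → Fin 2 → ℂ
  | .o => μ
  | .n _ => μ
  | _ => pz z * μ

/-- the classes. -/
def VV (O : Subring (Fin 2 → ℂ)) (z μ : Fin 2 → ℂ) (a : Lb) : Set (Fin 4 → Fin 2 → ℂ) :=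
  Cl O (HH z) (lev z μ a) (base z a)

section gram

variable {O : Subring (Fin 2 → ℂ)} {z : Fin 2 → ℂ}

lemma hh_e00 : hh (HH z) e0 e0 = 1 := by
  simp [hh, Fin.sum_univ_four, HH, e0]

lemma hh_ei (i : Bool) : hh (HH z) (ei i) (ei i) = 1 := by
  cases i <;> simp [hh, Fin.sum_univ_four, HH, ei, e1, e2]

lemma hh_ei' {i i' : Bool} (h : i ≠ i') : hh (HH z) (ei i) (ei i') = 0 := by
  cases i <;> cases i' <;> first | exact absurd rfl h | simp [hh, Fin.sum_univ_four, HH, ei, e1, e2]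

lemma hh_eie0 (i : Bool) : hh (HH z) (ei i) e0 = 0 := by
  cases i <;> simp [hh, Fin.sum_univ_four, HH, ei, e1, e2, e0]

lemma hh_e0ei (i : Bool) : hh (HH z) e0 (ei i) = 0 := by
  cases i <;> simp [hh, Fin.sum_univ_four, HH, ei, e1, e2, e0]

lemma hh_e33 : hh (HH z) e3 e3 = z ^ 2 + z ^ 3 := by
  simp [hh, Fin.sum_univ_four, HH, e3]

lemma hh_e3ei (i : Bool) : hh (HH z) e3 (ei i) = 0 := by
  cases i <;> simp [hh, Fin.sum_univ_four, HH, ei, e1, e2, e3]

lemma hh_eie3 (i : Bool) : hh (HH z) (ei i) e3 = 0 := by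
  cases i <;> simp [hh, Fin.sum_univ_four, HH, ei, e1, e2, e3]

lemma hh_e3e0 : hh (HH z) e3 e0 = 0 := by simp [hh, Fin.sum_univ_four, HH, e0, e3]

lemma hh_e0e3 : hh (HH z) e0 e3 = 0 := by simp [hh, Fin.sum_univ_four, HH, e0, e3]

lemma hh_e11 : hh (HH z) e1 e1 = 1 := hh_ei false
lemma hh_e22 : hh (HH z) e2 e2 = 1 := hh_ei true
lemma hh_e12 : hh (HH z) e1 e2 = 0 := hh_ei' (i := false) (i' := true) (by decide)
lemma hh_e21 : hh (HH z) e2 e1 = 0 := hh_ei' (i := true) (i' := false) (by decide)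
lemma hh_e10 : hh (HH z) e1 e0 = 0 := hh_eie0 false
lemma hh_e20 : hh (HH z) e2 e0 = 0 := hh_eie0 true
lemma hh_e01 : hh (HH z) e0 e1 = 0 := hh_e0ei false
lemma hh_e02 : hh (HH z) e0 e2 = 0 := hh_e0ei true
lemma hh_e31 : hh (HH z) e3 e1 = 0 := hh_e3ei false
lemma hh_e32 : hh (HH z) e3 e2 = 0 := hh_e3ei true

/-- Kronecker symbol of the colours. -/
def dl (i i' : Bool) : Fin 2 → ℂ := if i = i' then 1 else 0

lemma hh_eiei (i i' : Bool) : hh (HH z) (ei i) (ei i') = dl i i' := by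
  unfold dl
  split_ifs with h
  · subst h; exact hh_ei i
  · exact hh_ei' h

lemma g_vo (i : Bool) (j : Fin 5) : hh (HH z) (base z (.v i j)) e0 = -z ^ (j : ℕ) := by
  simp only [base, hh_sub_left, hh_smul_left, hh_eie0, hh_e00]; ring

lemma g_vv (h : Z5 O z) (i i' : Bool) (j k : Fin 5) :
    hh (HH z) (base z (.v i j)) (base z (.v i' k)) = dl i i' + z ^ ((j : ℕ) + 4 * k) := by
  simp only [base, hh_sub_left, hh_sub_right, hh_smul_left, hh_smul_right, hh_eie0, hh_e0ei,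
    hh_e00, hh_eiei, h.spow]
  ring

lemma g_bo (i : Bool) (k : Fin 5) : hh (HH z) (base z (.b i k)) e0 = -z ^ (k : ℕ) := by
  simp only [base, hh_sub_left, hh_add_left, hh_smul_left, hh_eie0, hh_e00, hh_e3e0]; ring

lemma g_bv (h : Z5 O z) (i i' : Bool) (k j : Fin 5) :
    hh (HH z) (base z (.b i k)) (base z (.v i' j)) = dl i i' + z ^ ((k : ℕ) + 4 * j) := by
  simp only [base, hh_sub_left, hh_add_left, hh_sub_right, hh_smul_left, hh_smul_right, hh_eie0,
    hh_e0ei, hh_e00, hh_eiei, h.spow, hh_e3e0, hh_e3ei]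
  ring

lemma g_bb (h : Z5 O z) (i i' : Bool) (k l : Fin 5) :
    hh (HH z) (base z (.b i k)) (base z (.b i' l))
      = dl i i' + z ^ ((k : ℕ) + 4 * l) + (z ^ 2 + z ^ 3) := by
  simp only [base, hh_sub_left, hh_add_left, hh_sub_right, hh_add_right, hh_smul_left,
    hh_smul_right, hh_eie0, hh_e0ei, hh_e00, hh_eiei, h.spow, hh_e3e0, hh_e3ei, hh_e0e3, hh_eie3,
    hh_e33]
  ring

lemma g_vn (i i' : Bool) (j : Fin 5) : hh (HH z) (base z (.v i j)) (ei i') = dl i i' := by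
  simp only [base, hh_sub_left, hh_smul_left, hh_eiei, hh_e0ei]; ring

lemma g_bn (i i' : Bool) (k : Fin 5) : hh (HH z) (base z (.b i k)) (ei i') = dl i i' := by
  simp only [base, hh_sub_left, hh_add_left, hh_smul_left, hh_eiei, hh_e0ei, hh_e3ei]; ring

/-- the base mirror. -/
def mi : Fin 4 → Fin 2 → ℂ := e1 - e2

lemma g_mm : hh (HH z) mi mi = 2 := by
  simp only [mi, hh_sub_left, hh_sub_right, hh_e11, hh_e22, hh_e12, hh_e21]; norm_num

lemma dl_self (i : Bool) : dl i i = 1 := by simp [dl]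

lemma z5k (h : Z5 O z) (j : Fin 5) : z ^ ((j : ℕ) + 4 * j) = 1 := by
  have : (j : ℕ) + 4 * j = 5 * j := by ring
  rw [this, pow_mul, h.z5, one_pow]

/-- norms. -/
lemma n_v (h : Z5 O z) (i : Bool) (j : Fin 5) :
    hh (HH z) (base z (.v i j)) (base z (.v i j)) = 2 := by
  rw [g_vv h, dl_self, z5k h]; norm_num

lemma n_b (h : Z5 O z) (i : Bool) (k : Fin 5) :
    hh (HH z) (base z (.b i k)) (base z (.b i k)) = 2 + (z ^ 2 + z ^ 3) := by
  rw [g_bb h, dl_self, z5k h]; norm_num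

lemma base_mem (h : Z5 O z) (a : Lb) : Int' O (base z a) := by
  have h0 : Int' O e0 := by intro i; fin_cases i <;> simp [e0, O.one_mem, O.zero_mem]
  have h1 : Int' O e1 := by intro i; fin_cases i <;> simp [e1, O.one_mem, O.zero_mem]
  have h2 : Int' O e2 := by intro i; fin_cases i <;> simp [e2, O.one_mem, O.zero_mem]
  have h3 : Int' O e3 := by intro i; fin_cases i <;> simp [e3, O.one_mem, O.zero_mem]
  have hi : ∀ i, Int' O (ei i) := by intro i; cases i; exacts [h1, h2]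
  cases a with
  | o => exact h0
  | n i => exact hi i
  | v i j => exact (hi i).sub (h0.smul (h.pmem _))
  | b i k => exact ((hi i).sub (h0.smul (h.pmem _))).add h3

/-! ### values at the ball place -/

/-- real part of `z^n` at the ball place. -/
noncomputable def rn (n : ℕ) : ℝ :=
  if n % 5 = 0 then 1 else if n % 5 = 1 ∨ n % 5 = 4 then (Real.sqrt 5 - 1) / 4
    else -(Real.sqrt 5 + 1) / 4

lemma re_pow (h : Z5 O z) (n : ℕ) : (z 0 ^ n).re = rn n ∧ ‖z 0 ^ n‖ = 1 := by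
  have hz5 : z 0 ^ 5 = 1 := by
    have := congrFun h.z5 0
    simpa using this
  have hnorm : ‖z 0‖ = 1 := by
    have h1 : ‖z 0‖ ^ 5 = 1 := by rw [← norm_pow, hz5, norm_one]
    exact (pow_eq_one_iff_of_nonneg (norm_nonneg _) (by norm_num)).mp h1
  have hs : (starRingEnd ℂ) (z 0) = z 0 ^ 4 := by
    have := congrFun h.sz 0
    simpa using this
  have hconj : ∀ k : ℕ, (starRingEnd ℂ) (z 0 ^ k) = z 0 ^ (4 * k) := by
    intro k
    rw [map_pow, hs, ← pow_mul]
  have hre : ∀ k : ℕ, (z 0 ^ k + z 0 ^ (4 * k)).re = 2 * (z 0 ^ k).re := by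
    intro k
    rw [← hconj k, Complex.add_re, Complex.conj_re]; ring
  refine ⟨?_, by rw [norm_pow, hnorm, one_pow]⟩
  have hmod : z 0 ^ n = z 0 ^ (n % 5) := by
    conv_lhs => rw [← Nat.div_add_mod n 5, pow_add, pow_mul, hz5, one_pow, one_mul]
  rw [hmod, rn]
  have hlt := Nat.mod_lt n (show 0 < 5 by norm_num)
  have a0 := congrArg Complex.re h.at0
  have a1 := congrArg Complex.re h.at0'
  rw [Complex.ofReal_re] at a0 a1
  have e8 : z 0 ^ (4 * 2) = z 0 ^ 3 := by
    have : z 0 ^ (4 * 2) = z 0 ^ 5 * z 0 ^ 3 := by ring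
    rw [this, hz5, one_mul]
  have e12 : z 0 ^ (4 * 3) = z 0 ^ 2 := by
    have : z 0 ^ (4 * 3) = z 0 ^ 5 * z 0 ^ 5 * z 0 ^ 2 := by ring
    rw [this, hz5, one_mul, one_mul]
  have e16 : z 0 ^ (4 * 4) = z 0 := by
    have : z 0 ^ (4 * 4) = z 0 ^ 5 * z 0 ^ 5 * z 0 ^ 5 * z 0 := by ring
    rw [this, hz5, one_mul, one_mul, one_mul]
  generalize hm : n % 5 = r at hlt
  interval_cases r
  · simp
  · simp only [pow_one, one_ne_zero, if_false, true_or, if_true]
    have := hre 1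
    simp only [pow_one, mul_one] at this
    rw [a0] at this
    linarith
  · have := hre 2
    rw [e8, a1] at this
    norm_num
    linarith
  · have := hre 3
    rw [e12, add_comm, a1] at this
    norm_num
    linarith
  · have := hre 4
    rw [e16, add_comm, a0] at this
    norm_num
    linarith

lemma nsq_add (h : Z5 O z) (x : ℝ) (n : ℕ) :
    ‖(x : ℂ) + z 0 ^ n‖ ^ 2 = x ^ 2 + 1 + 2 * x * rn n := by
  obtain ⟨h1, h2⟩ := re_pow h n
  have h3 : (z 0 ^ n).re ^ 2 + (z 0 ^ n).im ^ 2 = 1 := by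
    have : ‖z 0 ^ n‖ ^ 2 = 1 := by rw [h2, one_pow]
    rw [← Complex.normSq_eq_norm_sq, Complex.normSq_apply] at this
    linarith
  rw [← Complex.normSq_eq_norm_sq, Complex.normSq_apply]
  simp only [Complex.add_re, Complex.ofReal_re, Complex.add_im, Complex.ofReal_im, zero_add]
  rw [← h1]
  linear_combination h3

lemma rn_ge (n : ℕ) : -(Real.sqrt 5 + 1) / 4 ≤ rn n ∧ rn n ≤ 1 := by
  have := sqrt5_bd
  unfold rn
  split_ifs <;> constructor <;> linarith

end gram

end Crest.Agent.R272.Cls_620
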