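import Crest.Agent.R272.Cls5_620

/-!
Row 272, AR-CLS (helper620), part 6: classification of the planes through a point of the ball.
-/

set_option linter.unusedSectionVars false

namespace Crest.Agent.R272.Cls_620

open Finset

/-- `p` is a negative vector of the ball place. -/
def Neg (z : Fin 2 → ℂ) (p : Fin 4 → ℂ) : Prop := (h1 (c0 0 (HH z)) p p).re < 0

/-- `v` is orthogonal to `p` at the ball place. -/
def Perp (z : Fin 2 → ℂ) (p : Fin 4 → ℂ) (v : Fin 4 → Fin 2 → ℂ) : Prop :=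
  h1 (c0 0 (HH z)) (at0 0 v) p = 0

/-- a plane of the class `a` passes through `p`. -/
def Occ (O : Subring (Fin 2 → ℂ)) (z μ : Fin 2 → ℂ) (a : Lb) (p : Fin 4 → ℂ) : Prop :=
  ∃ v ∈ VV O z μ a, Perp z p v

section

variable {O : Subring (Fin 2 → ℂ)} {z μ : Fin 2 → ℂ} {p : Fin 4 → ℂ}

lemma Perp.add {v w : Fin 4 → Fin 2 → ℂ} (hv : Perp z p v) (hw : Perp z p w) :
    Perp z p (v + w) := by
  unfold Perp at *
  have : at0 (0 : Fin 2) (v + w) = at0 0 v + at0 0 w := rfl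
  rw [this, h1_add_left, hv, hw, add_zero]

lemma Perp.smul {v : Fin 4 → Fin 2 → ℂ} (x : Fin 2 → ℂ) (hv : Perp z p v) :
    Perp z p (x • v) := by
  unfold Perp at *
  have : at0 (0 : Fin 2) (x • v) = x 0 • at0 0 v := rfl
  rw [this, h1_smul_left, hv, mul_zero]

lemma Perp.sub {v w : Fin 4 → Fin 2 → ℂ} (hv : Perp z p v) (hw : Perp z p w) :
    Perp z p (v - w) := by
  have : v - w = v + (-1 : Fin 2 → ℂ) • w := by
    funext i t
    simp only [Pi.sub_apply, Pi.add_apply, Pi.smul_apply, smul_eq_mul, Pi.mul_apply, Pi.neg_apply,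
      Pi.one_apply]
    ring
  rw [this]
  exact hv.add (hw.smul _)

lemma Perp.cancel {v : Fin 4 → Fin 2 → ℂ} {x : Fin 2 → ℂ} (hx : x 0 ≠ 0)
    (hv : Perp z p (x • v)) : Perp z p v := by
  unfold Perp at *
  have : at0 (0 : Fin 2) (x • v) = x 0 • at0 0 v := rfl
  rw [this, h1_smul_left] at hv
  exact (mul_eq_zero.mp hv).resolve_left hx

lemma meet_of (hp : Neg z p) {v w : Fin 4 → Fin 2 → ℂ} (hv : Perp z p v) (hw : Perp z p w) :
    Meet z v w := ⟨p, hp, hv, hw⟩

/-- the plane of a class through `p` is unique. -/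
lemma occ_unique (h : Z5 O z) (hD : Deep O z μ 2) (hp : Neg z p) {a : Lb}
    {v w : Fin 4 → Fin 2 → ℂ} (hv : v ∈ VV O z μ a) (hw : w ∈ VV O z μ a) (hv' : Perp z p v)
    (hw' : Perp z p w) : v = w := meet_same h hD hv hw (meet_of hp hv' hw')

/-- a complete flat of colour `i` with orthonormal frame `(f0, f1)`. -/
structure Flat (O : Subring (Fin 2 → ℂ)) (z μ : Fin 2 → ℂ) (i : Bool)
    (f0 f1 : Fin 4 → Fin 2 → ℂ) : Prop where
  m0 : f0 ∈ VV O z μ .o
  m1 : f1 ∈ VV O z μ (.n i)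
  orth : hh (HH z) f1 f0 = 0
  mv : ∀ j, f1 - z ^ (j : ℕ) • f0 ∈ VV O z μ (.v i j)

lemma zpow_ne (h : Z5 O z) (n : ℕ) (t : Fin 2) : (z ^ n) t ≠ 0 := by
  intro h0
  have h1 : z t = 0 := by
    by_contra hz
    exact pow_ne_zero n hz h0
  have h2 := congrFun h.cyc t
  simp only [Pi.add_apply, Pi.pow_apply, Pi.one_apply, Pi.zero_apply, h1] at h2
  norm_num at h2

/-- the frame of a flat from one member and `e0`-plane. -/
lemma flat_of (h : Z5 O z) {i : Bool} {j : Fin 5} {v f : Fin 4 → Fin 2 → ℂ}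
    (hv : v ∈ VV O z μ (.v i j)) (hf : f ∈ VV O z μ .o) (hst : hh (HH z) v f = -z ^ (j : ℕ)) :
    Flat O z μ i f (v + z ^ (j : ℕ) • f) := by
  have hvl := VV.low h hv
  have hst' : hh (HH z) v f = hh (HH z) (base z (.v i j)) e0 := by rw [hst, g_vo]
  have hff : hh (HH z) f f = 1 := hf.2.2.trans hh_e00
  refine ⟨hf, ?_, ?_, ?_⟩
  · have := comb h.frm hvl hf hst' O.one_mem (h.pmem j)
    simp only [one_smul] at this
    have e : base z (.v i j) + z ^ (j : ℕ) • base z .o = ei i := by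
      simp [base]
    rw [e] at this
    exact this
  · rw [hh_add_left, hh_smul_left, hst, hff]; ring
  · intro l
    have e : v + z ^ (j : ℕ) • f - z ^ (l : ℕ) • f = v + (z ^ (j : ℕ) - z ^ (l : ℕ)) • f := by
      rw [sub_smul]; abel
    rw [e]
    by_cases hjl : l = j
    · subst hjl
      rw [sub_self, zero_smul, add_zero]
      exact hv
    · obtain ⟨ε, hε, ε', hε', hu, hz⟩ := h.diff l j hjl
      rw [hz]
      exact complete_mem h.frm h.pz_mem hε hz (e := ei i) (f := e0) hv hf hst'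

/-- (T2a) two different members `v i j`, `v i k` through `p` give a complete flat. -/
theorem flat_vv (h : Z5 O z) (hμ : μ ∈ O) (hD : Deep O z μ 2) (hp : Neg z p) {i : Bool}
    {j k : Fin 5} (hjk : j ≠ k) {v w : Fin 4 → Fin 2 → ℂ} (hv : v ∈ VV O z μ (.v i j))
    (hw : w ∈ VV O z μ (.v i k)) (hv' : Perp z p v) (hw' : Perp z p w) :
    ∃ f0 f1, Flat O z μ i f0 f1 ∧ Perp z p f0 ∧ Perp z p f1 ∧ v = f1 - z ^ (j : ℕ) • f0 ∧
      w = f1 - z ^ (k : ℕ) • f0 := by
  have hst := meet_std h hD hv hw (meet_of hp hv' hw')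
  obtain ⟨ε, hε, ε', hε', hu, hz⟩ := h.diff j k hjk
  have hI : Int' O e0 := base_mem h .o
  obtain ⟨f, hf, e1, e2, e3⟩ := complete h.frm hμ hε' hu h.pz_ne hz (e := ei i) (f := e0) hI hv hw
    hst
  have hf' : f ∈ VV O z μ .o := hf
  have e2' : hh (HH z) v f = -z ^ (j : ℕ) := e2.trans (g_vo i j)
  have hpe : (pz z * ε) 0 ≠ 0 := by
    refine mul_ne_zero (h.pz_ne 0) fun h0 => ?_
    have := congrFun hu 0
    simp [h0] at this
  have hfp : Perp z p f := Perp.cancel hpe (e1 ▸ hv'.sub hw')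
  refine ⟨f, v + z ^ (j : ℕ) • f, flat_of h hv hf' e2', hfp, hv'.add (hfp.smul _), by abel, ?_⟩
  have : w = v - (pz z * ε) • f := by rw [← e1]; abel
  rw [this, ← hz, sub_smul]; abel

/-- (T2b) `v i j` and `o` through `p` give a complete flat. -/
theorem flat_vo (h : Z5 O z) (hD : Deep O z μ 2) (hp : Neg z p) {i : Bool}
    {j : Fin 5} {v f : Fin 4 → Fin 2 → ℂ} (hv : v ∈ VV O z μ (.v i j))
    (hf : f ∈ VV O z μ .o) (hv' : Perp z p v) (hf' : Perp z p f) :
    Flat O z μ i f (v + z ^ (j : ℕ) • f) ∧ Perp z p (v + z ^ (j : ℕ) • f) := by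
  have hst := meet_std h hD hv hf (meet_of hp hv' hf')
  exact ⟨flat_of h hv hf (hst.trans (g_vo i j)), hv'.add (hf'.smul _)⟩

/-- (T2c) `v i j` and `n i` through `p` give a complete flat. -/
theorem flat_vn (h : Z5 O z) (hD : Deep O z μ 2) (hp : Neg z p) {i : Bool}
    {j : Fin 5} {v w : Fin 4 → Fin 2 → ℂ} (hv : v ∈ VV O z μ (.v i j))
    (hw : w ∈ VV O z μ (.n i)) (hv' : Perp z p v) (hw' : Perp z p w) :
    ∃ f0, Flat O z μ i f0 w ∧ Perp z p f0 ∧ v = w - z ^ (j : ℕ) • f0 := by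
  have hst := meet_std h hD hv hw (meet_of hp hv' hw')
  have hst2 : hh (HH z) v w = 1 := by
    rw [hst]
    show hh (HH z) (base z (.v i j)) (ei i) = 1
    rw [g_vn, dl_self]
  have hww : hh (HH z) w w = 1 := hw.2.2.trans (hh_ei i)
  have hvv : hh (HH z) v v = 2 := hv.2.2.trans (n_v h i j)
  have hwv : hh (HH z) w v = 1 := by rw [← hh_star (HH z) h.frm.real v w, hst2, star_one]
  have hz : z ^ (j : ℕ) * z ^ (5 - (j : ℕ)) = 1 := by
    rw [← pow_add, show (j : ℕ) + (5 - (j : ℕ)) = 5 by omega, h.z5]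
  set f : Fin 4 → Fin 2 → ℂ := z ^ (5 - (j : ℕ)) • w + (-z ^ (5 - (j : ℕ))) • v with hf
  have hvw : v = w - z ^ (j : ℕ) • f := by
    funext i
    simp only [hf, Pi.sub_apply, Pi.smul_apply, Pi.add_apply, smul_eq_mul]
    linear_combination ((w i) - v i) * hz
  have hfm : f ∈ VV O z μ .o := by
    have := comb h.frm hw (VV.low h hv) (x := z ^ (5 - (j : ℕ))) (y := -z ^ (5 - (j : ℕ)))
      (by rw [← hh_star (HH z) h.frm.real v w, hst, hh_star (HH z) h.frm.real]) (h.pmem _)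
      (O.neg_mem (h.pmem _))
    have e : z ^ (5 - (j : ℕ)) • base z (.n i) + (-z ^ (5 - (j : ℕ))) • base z (.v i j)
        = base z .o := by
      simp only [base]
      funext l
      simp only [Pi.sub_apply, Pi.smul_apply, Pi.add_apply, smul_eq_mul]
      linear_combination (e0 l) * hz
    rw [e] at this
    exact this
  have hfp : Perp z p f := (hw'.smul _).add (hv'.smul _)
  have hvf : hh (HH z) v f = -z ^ (j : ℕ) := by
    have hs : star (z ^ (5 - (j : ℕ))) = z ^ (j : ℕ) := by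
      rw [h.spow]
      have hj := j.isLt
      have : z ^ (4 * (5 - (j : ℕ))) = z ^ (4 * (5 - (j : ℕ))) * 1 := by ring
      have e5 : (z ^ 5) ^ (4 - (j : ℕ)) = 1 := by rw [h.z5, one_pow]
      have e6 : z ^ (4 * (5 - (j : ℕ))) = (z ^ 5) ^ (4 - (j : ℕ)) * z ^ (j : ℕ) := by
        rw [← pow_mul, ← pow_add]
        congr 1
        omega
      rw [e6, e5, one_mul]
    simp only [hf, hh_add_right, hh_smul_right, star_neg, hs, hst2, hvv]; ring
  have hfl := flat_of h hv hfm hvf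
  have e : v + z ^ (j : ℕ) • f = w := by rw [hvw]; abel
  rw [e] at hfl
  exact ⟨f, hfl, hfp, hvw⟩

end

end Crest.Agent.R272.Cls_620
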