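import Crest.Agent.R272.Cls6_620

/-!
Row 272, AR-CLS (helper620), part 7: classification of the planes through a point of the ball
(bridges, flats, clusters, mirrors).
-/

set_option linter.unusedSectionVars false

namespace Crest.Agent.R272.Cls_620

open Finset

/-- the swap of the colours on labels. -/
def sw : Lb → Lb
  | .o => .o
  | .n i => .n (!i)
  | .v i j => .v (!i) j
  | .b i k => .b (!i) k

/-- the six branch labels of colour `i`. -/
def Brn (i : Bool) (a : Lb) : Prop := a = .n i ∨ ∃ j, a = .v i j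

/-- a complete flat of colour `i` passes through `p`. -/
def FlatAt (O : Subring (Fin 2 → ℂ)) (z μ : Fin 2 → ℂ) (i : Bool) (p : Fin 4 → ℂ) : Prop :=
  ∃ f0 f1, Flat O z μ i f0 f1 ∧ Perp z p f0 ∧ Perp z p f1

section

variable {O : Subring (Fin 2 → ℂ)} {z μ : Fin 2 → ℂ} {p : Fin 4 → ℂ}

lemma FlatAt.o {i : Bool} (hf : FlatAt O z μ i p) : Occ O z μ .o p := by
  obtain ⟨f0, f1, hF, h0, h1⟩ := hf
  exact ⟨f0, hF.m0, h0⟩

lemma FlatAt.n {i : Bool} (hf : FlatAt O z μ i p) : Occ O z μ (.n i) p := by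
  obtain ⟨f0, f1, hF, h0, h1⟩ := hf
  exact ⟨f1, hF.m1, h1⟩

lemma FlatAt.v {i : Bool} (hf : FlatAt O z μ i p) (j : Fin 5) : Occ O z μ (.v i j) p := by
  obtain ⟨f0, f1, hF, h0, h1⟩ := hf
  exact ⟨_, hF.mv j, h1.sub (h0.smul _)⟩

lemma FlatAt.brn {i : Bool} (hf : FlatAt O z μ i p) {a : Lb} (ha : Brn i a) : Occ O z μ a p := by
  rcases ha with rfl | ⟨j, rfl⟩
  · exact hf.n
  · exact hf.v j

/-- no bridge passes through a flat. -/
lemma FlatAt.no_b (h : Z5 O z) (hD : Deep O z μ 2) (hp : Neg z p) {i : Bool}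
    (hf : FlatAt O z μ i p) (i' : Bool) (k : Fin 5) : ¬ Occ O z μ (.b i' k) p := by
  rintro ⟨v, hv, hv'⟩
  obtain ⟨w, hw, hw'⟩ := hf.o
  exact not_meet_bo h hD hv hw (meet_of hp hv' hw')

/-- `v i j` and `o` at `p`: flat. -/
lemma flatAt_vo (h : Z5 O z) (hD : Deep O z μ 2) (hp : Neg z p) {i : Bool} {j : Fin 5}
    (hv : Occ O z μ (.v i j) p) (ho : Occ O z μ .o p) : FlatAt O z μ i p := by
  obtain ⟨v, hv, hv'⟩ := hv
  obtain ⟨w, hw, hw'⟩ := ho
  obtain ⟨h1, h2⟩ := flat_vo h hD hp hv hw hv' hw'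
  exact ⟨_, _, h1, hw', h2⟩

/-- `v i j` and `v i k`, `j ≠ k` at `p`: flat. -/
lemma flatAt_vv (h : Z5 O z) (hμ : μ ∈ O) (hD : Deep O z μ 2) (hp : Neg z p) {i : Bool}
    {j k : Fin 5} (hjk : j ≠ k)
    (hv : Occ O z μ (.v i j) p) (ho : Occ O z μ (.v i k) p) : FlatAt O z μ i p := by
  obtain ⟨v, hv, hv'⟩ := hv
  obtain ⟨w, hw, hw'⟩ := ho
  obtain ⟨f0, f1, h1, h2, h3, -, -⟩ := flat_vv h hμ hD hp hjk hv hw hv' hw'
  exact ⟨f0, f1, h1, h2, h3⟩

/-- `v i j` and `n i` at `p`: flat. -/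
lemma flatAt_vn (h : Z5 O z) (hD : Deep O z μ 2) (hp : Neg z p) {i : Bool} {j : Fin 5}
    (hv : Occ O z μ (.v i j) p) (ho : Occ O z μ (.n i) p) : FlatAt O z μ i p := by
  obtain ⟨v, hv, hv'⟩ := hv
  obtain ⟨w, hw, hw'⟩ := ho
  obtain ⟨f0, h1, h2, -⟩ := flat_vn h hD hp hv hw hv' hw'
  exact ⟨f0, w, h1, h2, hw'⟩

/-- (T2) two different branch planes of the same colour: complete flat. -/
theorem flatAt_of_two (h : Z5 O z) (hμ : μ ∈ O) (hD : Deep O z μ 2) (hp : Neg z p) {i : Bool}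
    {a b : Lb} (ha : Brn i a) (hb : Brn i b) (hab : a ≠ b) (hao : Occ O z μ a p)
    (hbo : Occ O z μ b p) : FlatAt O z μ i p := by
  rcases ha with rfl | ⟨j, rfl⟩ <;> rcases hb with rfl | ⟨k, rfl⟩
  · exact absurd rfl hab
  · exact flatAt_vn h hD hp hbo hao
  · exact flatAt_vn h hD hp hao hbo
  · exact flatAt_vv h hμ hD hp (fun e => hab (by rw [e])) hao hbo

/-- (T1) what can occur together with a bridge. -/
theorem bridge_at (h : Z5 O z) (hμ : μ ∈ O) (hD : Deep O z μ 2) (hp : Neg z p) {i : Bool}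
    {k : Fin 5} (hb : Occ O z μ (.b i k) p) :
    ¬ Occ O z μ .o p ∧ ¬ Occ O z μ (.n i) p ∧
    (∀ i' l, Occ O z μ (.b i' l) p → i' = i ∧ l = k) ∧
    (∀ i' j, Occ O z μ (.v i' j) p →
      i' = i ∧ (((k : ℕ) + 4 * j) % 5 = 2 ∨ ((k : ℕ) + 4 * j) % 5 = 3)) ∧
    (∀ j j', Occ O z μ (.v i j) p → Occ O z μ (.v i j') p → j = j') ∧
    (∀ i', ¬ FlatAt O z μ i' p) := by
  have hf : ∀ i', ¬ FlatAt O z μ i' p := fun i' hf => hf.no_b h hD hp i k hb
  obtain ⟨v, hv, hv'⟩ := hb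
  refine ⟨?_, ?_, ?_, ?_, ?_, hf⟩
  · rintro ⟨w, hw, hw'⟩
    exact not_meet_bo h hD hv hw (meet_of hp hv' hw')
  · rintro ⟨w, hw, hw'⟩
    exact not_meet_bn h hD hv hw (meet_of hp hv' hw')
  · rintro i' l ⟨w, hw, hw'⟩
    obtain ⟨h1, h2, -⟩ := meet_bb h hD hv hw (meet_of hp hv' hw')
    exact ⟨h1.symm, h2.symm⟩
  · rintro i' j ⟨w, hw, hw'⟩
    obtain ⟨h1, h2⟩ := meet_bv h hD hv hw (meet_of hp hv' hw')
    exact ⟨h1.symm, h2⟩
  · intro j j' h1 h2
    by_contra hne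
    exact hf i (flatAt_vv h hμ hD hp hne h1 h2)

/-- a branch plane `v (!i) k` through a flat of colour `i`: both flats. -/
theorem flatAt_other (h : Z5 O z) (hD : Deep O z μ 2) (hp : Neg z p) {i i' : Bool}
    (hf : FlatAt O z μ i p) {k : Fin 5} (hv : Occ O z μ (.v i' k) p) : FlatAt O z μ i' p :=
  flatAt_vo h hD hp hv hf.o

/-- planes `v false j`, `v true k` at `p` without flats: no `o`, no `n`, and they are the only
ones. -/
theorem two_colours (h : Z5 O z) (hμ : μ ∈ O) (hD : Deep O z μ 2) (hp : Neg z p) {i : Bool}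
    {j k : Fin 5} (hv : Occ O z μ (.v i j) p) (hw : Occ O z μ (.v (!i) k) p)
    (hf : ¬ FlatAt O z μ i p) (hf' : ¬ FlatAt O z μ (!i) p) :
    ¬ Occ O z μ .o p ∧ (∀ i', ¬ Occ O z μ (.n i') p) ∧ (∀ i' l, ¬ Occ O z μ (.b i' l) p) ∧
    (∀ l, Occ O z μ (.v i l) p → l = j) ∧ (∀ l, Occ O z μ (.v (!i) l) p → l = k) := by
  refine ⟨fun ho => hf (flatAt_vo h hD hp hv ho), ?_, ?_, ?_, ?_⟩
  · intro i' hn
    have : i' = i ∨ i' = !i := by cases i <;> cases i' <;> simp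
    rcases this with rfl | rfl
    · exact hf (flatAt_vn h hD hp hv hn)
    · exact hf' (flatAt_vn h hD hp hw hn)
  · intro i' l hb
    obtain ⟨-, -, -, h1, -, -⟩ := bridge_at h hμ hD hp hb
    have e1 := (h1 _ _ hv).1
    have e2 := (h1 _ _ hw).1
    rw [← e2] at e1
    cases i <;> simp at e1
  · intro l hl
    by_contra hne
    exact hf (flatAt_vv h hμ hD hp hne hl hv)
  · intro l hl
    by_contra hne
    exact hf' (flatAt_vv h hμ hD hp hne hl hw)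

/-- (T3) cluster points are orthonormal triples. -/
theorem cluster_at (h : Z5 O z) (hD : Deep O z μ 2) (hp : Neg z p) {f0 f1 g0 g1 : Fin 4 → Fin 2 → ℂ}
    (hf : Flat O z μ false f0 f1) (hg : Flat O z μ true g0 g1) (hf0 : Perp z p f0)
    (hf1 : Perp z p f1) (hg0 : Perp z p g0) (hg1 : Perp z p g1) :
    g0 = f0 ∧ hh (HH z) f1 f0 = 0 ∧ hh (HH z) g1 f0 = 0 ∧ hh (HH z) f1 g1 = 0 ∧
      hh (HH z) f0 f0 = 1 ∧ hh (HH z) f1 f1 = 1 ∧ hh (HH z) g1 g1 = 1 := by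
  have e0 : g0 = f0 := occ_unique h hD hp hg.m0 hf.m0 hg0 hf0
  subst e0
  refine ⟨rfl, hf.orth, hg.orth, ?_, hf.m0.2.2.trans hh_e00, hf.m1.2.2.trans (hh_ei false),
    hg.m1.2.2.trans (hh_ei true)⟩
  have := meet_std h hD hf.m1 hg.m1 (meet_of hp hf1 hg1)
  exact this.trans (hh_ei' (i := false) (i' := true) (by decide))

/-- (T4) `v false j`, `v true j` (same `j`) at `p`: their difference is in the class of the base
mirror. -/
theorem diff_mirror (h : Z5 O z) (hD : Deep O z μ 2) (hp : Neg z p) {j : Fin 5}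
    {v w : Fin 4 → Fin 2 → ℂ} (hv : v ∈ VV O z μ (.v false j)) (hw : w ∈ VV O z μ (.v true j))
    (hv' : Perp z p v) (hw' : Perp z p w) :
    v - w ∈ Cl O (HH z) (pz z * μ) mi ∧ hh (HH z) (v - w) (v - w) = 2 ∧ Perp z p (v - w) := by
  have hst := meet_std h hD hv hw (meet_of hp hv' hw')
  have h1 := comb h.frm (μ := pz z * μ) hv hw hst (x := 1) (y := -1) O.one_mem
    (O.neg_mem O.one_mem)
  have e1 : (1 : Fin 2 → ℂ) • v + (-1 : Fin 2 → ℂ) • w = v - w := by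
    rw [one_smul, neg_one_smul, sub_eq_add_neg]
  have e2 : (1 : Fin 2 → ℂ) • base z (.v false j) + (-1 : Fin 2 → ℂ) • base z (.v true j) = mi := by
    rw [one_smul, neg_one_smul]
    simp only [base, ei, mi]
    abel
  rw [e1, e2] at h1
  exact ⟨h1, h1.2.2.trans g_mm, hv'.sub hw'⟩

end

end Crest.Agent.R272.Cls_620
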