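import Crest.Agent.R272.Cls8_620

/-!
Row 272, AR-CLS (helper620), part 9: the gap hypothesis from `36 < ∏ ‖μ t‖`; linear independence of
the vectors through a point; summary.
-/

set_option linter.unusedSectionVars false

namespace Crest.Agent.R272.Cls_620

open Finset

section deep

variable {O : Subring (Fin 2 → ℂ)} {z μ : Fin 2 → ℂ}

lemma norm_z0 (h : Z5 O z) (n : ℕ) : ‖(z ^ n) 0‖ = 1 := (re_pow h n).2

lemma norm_dl (i i' : Bool) : ‖dl i i' 0‖ ≤ 1 := by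
  unfold dl
  split_ifs <;> simp

lemma norm_ph (h : Z5 O z) : ‖(z ^ 2 + z ^ 3) 0‖ ≤ 2 := by
  have : (z ^ 2 + z ^ 3) 0 = z 0 ^ 2 + z 0 ^ 3 := rfl
  rw [this]
  refine (norm_add_le _ _).trans ?_
  rw [(re_pow h 2).2, (re_pow h 3).2]
  norm_num

/-- products of base vectors at the ball place are `≤ 4`. -/
lemma gram_le (h : Z5 O z) (a b : Lb) : ‖hh (HH z) (base z a) (base z b) 0‖ ≤ 4 := by
  have hsym : ∀ x y : Fin 4 → Fin 2 → ℂ, ‖hh (HH z) x y 0‖ = ‖hh (HH z) y x 0‖ := by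
    intro x y
    rw [← hh_star (HH z) h.frm.real x y, Pi.star_apply, norm_star]
  have key : ∀ x y w : Fin 2 → ℂ, ‖x 0‖ ≤ 1 → ‖y 0‖ ≤ 1 → ‖w 0‖ ≤ 2 → ‖(x + y + w) 0‖ ≤ 4 := by
    intro x y w hx hy hw
    have : ‖(x + y + w) 0‖ ≤ ‖x 0‖ + ‖y 0‖ + ‖w 0‖ := norm_add₃_le
    linarith
  have k1 : ∀ x y : Fin 2 → ℂ, ‖x 0‖ ≤ 1 → ‖y 0‖ ≤ 1 → ‖(x + y) 0‖ ≤ 4 := by
    intro x y hx hy
    have : ‖(x + y) 0‖ ≤ ‖x 0‖ + ‖y 0‖ := norm_add_le _ _
    linarith
  have hoo : ‖hh (HH z) e0 e0 0‖ ≤ 4 := by rw [hh_e00]; simp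
  have hon : ∀ i, ‖hh (HH z) e0 (ei i) 0‖ ≤ 4 := by intro i; rw [hh_e0ei]; simp
  have hvo : ∀ i j, ‖hh (HH z) (base z (.v i j)) e0 0‖ ≤ 4 := by
    intro i j
    rw [g_vo, Pi.neg_apply, norm_neg, norm_z0 h]; norm_num
  have hbo : ∀ i j, ‖hh (HH z) (base z (.b i j)) e0 0‖ ≤ 4 := by
    intro i j
    rw [g_bo, Pi.neg_apply, norm_neg, norm_z0 h]; norm_num
  have hnn : ∀ i i', ‖hh (HH z) (ei i) (ei i') 0‖ ≤ 4 := by
    intro i i'
    rw [hh_eiei]
    exact (norm_dl i i').trans (by norm_num)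
  have hvn : ∀ i j i', ‖hh (HH z) (base z (.v i j)) (ei i') 0‖ ≤ 4 := by
    intro i j i'
    rw [g_vn]
    exact (norm_dl i i').trans (by norm_num)
  have hbn : ∀ i j i', ‖hh (HH z) (base z (.b i j)) (ei i') 0‖ ≤ 4 := by
    intro i j i'
    rw [g_bn]
    exact (norm_dl i i').trans (by norm_num)
  have hvv : ∀ i j i' k, ‖hh (HH z) (base z (.v i j)) (base z (.v i' k)) 0‖ ≤ 4 := by
    intro i j i' k
    rw [g_vv h]
    exact k1 _ _ (norm_dl i i') (norm_z0 h _).le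
  have hbv : ∀ i j i' k, ‖hh (HH z) (base z (.b i j)) (base z (.v i' k)) 0‖ ≤ 4 := by
    intro i j i' k
    rw [g_bv h]
    exact k1 _ _ (norm_dl i i') (norm_z0 h _).le
  have hbb : ∀ i j i' k, ‖hh (HH z) (base z (.b i j)) (base z (.b i' k)) 0‖ ≤ 4 := by
    intro i j i' k
    rw [g_bb h]
    exact key _ _ _ (norm_dl i i') (norm_z0 h _).le (norm_ph h)
  cases a with
  | o =>
    cases b with
    | o => exact hoo
    | n i => exact hon i
    | v i j => rw [hsym]; exact hvo i j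
    | b i j => rw [hsym]; exact hbo i j
  | n i =>
    cases b with
    | o => rw [hsym]; exact hon i
    | n i' => exact hnn i i'
    | v i' j => rw [hsym]; exact hvn i' j i
    | b i' j => rw [hsym]; exact hbn i' j i
  | v i j =>
    cases b with
    | o => exact hvo i j
    | n i' => exact hvn i j i'
    | v i' k => exact hvv i j i' k
    | b i' k => rw [hsym]; exact hbv i' k i j
  | b i j =>
    cases b with
    | o => exact hbo i j
    | n i' => exact hbn i j i'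
    | v i' k => exact hbv i j i' k
    | b i' k => exact hbb i j i' k

lemma n_at1 (h : Z5 O z) (a : Lb) : (hh (HH z) (base z a) (base z a) 1).re ≤ 3 := by
  have hs := sqrt5_bd
  cases a with
  | o => simp [base, hh_e00]
  | n i => simp [base, hh_ei]
  | v i j => rw [n_v h]; simp; norm_num
  | b i k =>
    rw [n_b h]
    have : ((2 : Fin 2 → ℂ) + (z ^ 2 + z ^ 3)) 1 = 2 + (z 1 ^ 2 + z 1 ^ 3) := rfl
    rw [this, h.at1', Complex.add_re, Complex.ofReal_re]
    norm_num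
    linarith

/-- **the gap hypothesis**. -/
theorem deep_of (h : Z5 O z) {ε : Fin 2 → ℂ} (hε : ε ∈ O) (hμ : star μ = μ * ε) {K : ℝ}
    (hK : 6 * (K + 4) < ∏ t, ‖μ t‖) : Deep O z μ K := by
  intro a b
  have ht : ∀ t : Fin 2, t ≠ 0 → t = 1 := by decide
  refine gap_of h.ord h.frm hε hμ (base_mem h b) (B := 3) (by norm_num) ?_ ?_ ?_
  · intro t h0
    rw [ht t h0]
    exact n_at1 h a
  · intro t h0
    rw [ht t h0]
    exact n_at1 h b
  · have := gram_le h a b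
    simp only [Fintype.card_fin]
    norm_num
    simp only [Fin.prod_univ_two] at hK
    linarith

end deep

section lin

variable {ι : Type*} [Fintype ι]

lemma h1_self_real (c : ι → ℝ) (x : ι → ℂ) : h1 c x x = ((h1 c x x).re : ℂ) := by
  have h1' : (h1 c x x).im = 0 := by
    have := congrArg Complex.im (h1_star c x x)
    simp only [Complex.star_def, Complex.conj_im] at this
    linarith
  apply Complex.ext <;> simp [h1']

/-- strict Cauchy-Schwarz gives independence. -/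
lemma lin2 {c : ι → ℝ} {x y : ι → ℂ} (hs : ‖h1 c x y‖ ^ 2 < (h1 c x x).re * (h1 c y y).re) :
    LinearIndependent ℂ ![x, y] := by
  rw [LinearIndependent.pair_iff]
  have hyx : h1 c y x = star (h1 c x y) := (h1_star c x y).symm
  have hn : h1 c x y * h1 c y x = ((‖h1 c x y‖ ^ 2 : ℝ) : ℂ) := by
    rw [hyx, Complex.star_def, Complex.mul_conj, Complex.normSq_eq_norm_sq]
  have hdet : h1 c x x * h1 c y y - h1 c x y * h1 c y x ≠ 0 := by
    rw [hn, h1_self_real c x, h1_self_real c y, ← Complex.ofReal_mul, ← Complex.ofReal_sub]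
    rw [Ne, Complex.ofReal_eq_zero]
    intro h0
    linarith
  intro s t hst
  have h0 : ∀ w, h1 c (0 : ι → ℂ) w = 0 := by intro w; simp [h1]
  have ex : s * h1 c x x + t * h1 c y x = 0 := by
    rw [← h1_smul_left, ← h1_smul_left, ← h1_add_left, hst, h0]
  have ey : s * h1 c x y + t * h1 c y y = 0 := by
    rw [← h1_smul_left, ← h1_smul_left, ← h1_add_left, hst, h0]
  constructor
  · have : s * (h1 c x x * h1 c y y - h1 c x y * h1 c y x) = 0 := by
      linear_combination (h1 c y y) * ex - (h1 c y x) * ey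
    exact (mul_eq_zero.mp this).resolve_right hdet
  · have : t * (h1 c x x * h1 c y y - h1 c x y * h1 c y x) = 0 := by
      linear_combination (h1 c x x) * ey - (h1 c x y) * ex
    exact (mul_eq_zero.mp this).resolve_right hdet

lemma lin3 {c : ι → ℝ} {x y w : ι → ℂ} (hs : ‖h1 c x y‖ ^ 2 < (h1 c x x).re * (h1 c y y).re)
    (hx : h1 c x w = 0) (hy : h1 c y w = 0) (hw : h1 c w w ≠ 0) :
    LinearIndependent ℂ ![x, y, w] := by
  rw [Fintype.linearIndependent_iff]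
  intro g hg
  simp only [Fin.sum_univ_three, Matrix.cons_val_zero, Matrix.cons_val_one, Matrix.cons_val] at hg
  have h0 : ∀ w, h1 c (0 : ι → ℂ) w = 0 := by intro w; simp [h1]
  have e2 : g 2 = 0 := by
    have := congrArg (fun v => h1 c v w) hg
    simp only [h1_add_left, h1_smul_left, hx, hy, h0, mul_zero, zero_add] at this
    exact (mul_eq_zero.mp this).resolve_right hw
  have h2 := LinearIndependent.pair_iff.mp (lin2 hs) (g 0) (g 1) (by
    rw [e2, zero_smul, add_zero] at hg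
    exact hg)
  intro i
  fin_cases i
  · exact h2.1
  · exact h2.2
  · exact e2

end lin

section occ

variable {O : Subring (Fin 2 → ℂ)} {z μ : Fin 2 → ℂ} {p : Fin 4 → ℂ}

lemma lin2' (h : Z5 O z) {x y : Fin 4 → Fin 2 → ℂ}
    (hs : ‖hh (HH z) x y 0‖ ^ 2 < (hh (HH z) x x 0).re * (hh (HH z) y y 0).re) :
    LinearIndependent ℂ ![at0 (0 : Fin 2) x, at0 0 y] := by
  apply lin2 (c := c0 0 (HH z))
  rw [← hh_at0 h.frm.real, ← hh_at0 h.frm.real, ← hh_at0 h.frm.real]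
  exact hs

lemma lin3' (h : Z5 O z) {x y w : Fin 4 → Fin 2 → ℂ}
    (hs : ‖hh (HH z) x y 0‖ ^ 2 < (hh (HH z) x x 0).re * (hh (HH z) y y 0).re)
    (hx : hh (HH z) x w 0 = 0) (hy : hh (HH z) y w 0 = 0) (hw : hh (HH z) w w 0 ≠ 0) :
    LinearIndependent ℂ ![at0 (0 : Fin 2) x, at0 0 y, at0 0 w] := by
  apply lin3 (c := c0 0 (HH z))
  · rw [← hh_at0 h.frm.real, ← hh_at0 h.frm.real, ← hh_at0 h.frm.real]
    exact hs
  · rw [← hh_at0 h.frm.real]; exact hx
  · rw [← hh_at0 h.frm.real]; exact hy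
  · rw [← hh_at0 h.frm.real]; exact hw

/-- two planes `v false j`, `v true k` are independent. -/
theorem lin_vv (h : Z5 O z) (hD : Deep O z μ 2) (hp : Neg z p) {j k : Fin 5}
    {v w : Fin 4 → Fin 2 → ℂ} (hv : v ∈ VV O z μ (.v false j)) (hw : w ∈ VV O z μ (.v true k))
    (hv' : Perp z p v) (hw' : Perp z p w) :
    LinearIndependent ℂ ![at0 (0 : Fin 2) v, at0 0 w] := by
  have hst := meet_std h hD hv hw (meet_of hp hv' hw')
  have hvv : hh (HH z) v v = 2 := hv.2.2.trans (n_v h _ _)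
  have hww : hh (HH z) w w = 2 := hw.2.2.trans (n_v h _ _)
  apply lin2' h
  rw [hst, hvv, hww, g_vv h]
  have e1 : (dl false true + z ^ ((j : ℕ) + 4 * k)) 0 = (z ^ ((j : ℕ) + 4 * k)) 0 := by
    simp [dl]
  rw [e1, norm_z0 h]
  norm_num

/-- a bridge, a plane `v i j` (with the same colour) and `n (!i)` are independent. -/
theorem lin_bv (h : Z5 O z) (hD : Deep O z μ 2) (hp : Neg z p) {i i' : Bool} {k j : Fin 5}
    {v w : Fin 4 → Fin 2 → ℂ} (hv : v ∈ VV O z μ (.b i k)) (hw : w ∈ VV O z μ (.v i' j))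
    (hv' : Perp z p v) (hw' : Perp z p w) :
    ‖hh (HH z) v w 0‖ ^ 2 < (hh (HH z) v v 0).re * (hh (HH z) w w 0).re := by
  obtain ⟨hi, hkj⟩ := meet_bv h hD hv hw (meet_of hp hv' hw')
  subst hi
  have hst := meet_std h hD hv hw (meet_of hp hv' hw')
  have hvv : hh (HH z) v v = _ := hv.2.2
  have hww : hh (HH z) w w = 2 := hw.2.2.trans (n_v h _ _)
  rw [hst, hvv, hww, g_bv h, nb_re h]
  have e1 : (dl i i + z ^ ((k : ℕ) + 4 * j)) 0 = ((1 : ℝ) : ℂ) + z 0 ^ ((k : ℕ) + 4 * j) := by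
    rw [dl_self]; simp
  rw [e1, nsq_add h]
  have hs := sqrt5_bd
  have e2 : ((2 : Fin 2 → ℂ) 0).re = 2 := by simp
  rw [e2]
  have e3 : rn ((k : ℕ) + 4 * j) = -(Real.sqrt 5 + 1) / 4 := by
    unfold rn
    rw [if_neg (by omega), if_neg (by omega)]
  rw [e3]
  linarith

/-- products with `n (!i)`. -/
theorem orth_bn (h : Z5 O z) (hD : Deep O z μ 2) (hp : Neg z p) {i i' : Bool} {k : Fin 5}
    {v w : Fin 4 → Fin 2 → ℂ} (hv : v ∈ VV O z μ (.b i k)) (hw : w ∈ VV O z μ (.n i'))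
    (hv' : Perp z p v) (hw' : Perp z p w) : i' = (!i) ∧ hh (HH z) v w = 0 := by
  have hi : i' = !i := by
    by_contra hne
    have : i' = i := by cases i <;> cases i' <;> simp_all
    subst this
    exact not_meet_bn h hD hv hw (meet_of hp hv' hw')
  subst hi
  refine ⟨rfl, ?_⟩
  rw [meet_std h hD hv hw (meet_of hp hv' hw')]
  show hh (HH z) (base z (.b i k)) (ei (!i)) = 0
  rw [g_bn]
  cases i <;> simp [dl]

theorem orth_vn (h : Z5 O z) (hD : Deep O z μ 2) (hp : Neg z p) {i i' : Bool} {k : Fin 5}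
    {v w : Fin 4 → Fin 2 → ℂ} (hv : v ∈ VV O z μ (.v i k)) (hw : w ∈ VV O z μ (.n i'))
    (hv' : Perp z p v) (hw' : Perp z p w) (hi : i ≠ i') : hh (HH z) v w = 0 := by
  rw [meet_std h hD hv hw (meet_of hp hv' hw')]
  show hh (HH z) (base z (.v i k)) (ei i') = 0
  rw [g_vn]
  simp [dl, hi]

theorem orth_nn (h : Z5 O z) (hD : Deep O z μ 2) (hp : Neg z p) {i i' : Bool}
    {v w : Fin 4 → Fin 2 → ℂ} (hv : v ∈ VV O z μ (.n i)) (hw : w ∈ VV O z μ (.n i'))
    (hv' : Perp z p v) (hw' : Perp z p w) (hi : i ≠ i') : hh (HH z) v w = 0 := by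
  rw [meet_std h hD hv hw (meet_of hp hv' hw')]
  exact hh_ei' hi

theorem orth_no (h : Z5 O z) (hD : Deep O z μ 2) (hp : Neg z p) {i : Bool}
    {v w : Fin 4 → Fin 2 → ℂ} (hv : v ∈ VV O z μ (.n i)) (hw : w ∈ VV O z μ .o)
    (hv' : Perp z p v) (hw' : Perp z p w) : hh (HH z) v w = 0 := by
  rw [meet_std h hD hv hw (meet_of hp hv' hw')]
  exact hh_eie0 i

lemma nrm_n {i : Bool} {v : Fin 4 → Fin 2 → ℂ} (hv : v ∈ VV O z μ (.n i)) :
    hh (HH z) v v = 1 := hv.2.2.trans (hh_ei i)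

lemma nrm_o {v : Fin 4 → Fin 2 → ℂ} (hv : v ∈ VV O z μ .o) :
    hh (HH z) v v = 1 := hv.2.2.trans hh_e00

lemma nrm_v (h : Z5 O z) {i : Bool} {j : Fin 5} {v : Fin 4 → Fin 2 → ℂ}
    (hv : v ∈ VV O z μ (.v i j)) : hh (HH z) v v = 2 := hv.2.2.trans (n_v h i j)

lemma nrm_b (h : Z5 O z) {i : Bool} {k : Fin 5} {v : Fin 4 → Fin 2 → ℂ}
    (hv : v ∈ VV O z μ (.b i k)) : (hh (HH z) v v 0).re = (3 - Real.sqrt 5) / 2 := by
  have : hh (HH z) v v = _ := hv.2.2
  rw [this]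
  exact nb_re h i k

/-- an orthogonal triple of positive vectors is independent. -/
lemma lin_orth (h : Z5 O z) {x y w : Fin 4 → Fin 2 → ℂ} (hxy : hh (HH z) x y = 0)
    (hx : hh (HH z) x w = 0) (hy : hh (HH z) y w = 0) (hxx : 0 < (hh (HH z) x x 0).re)
    (hyy : 0 < (hh (HH z) y y 0).re) (hww : 0 < (hh (HH z) w w 0).re) :
    LinearIndependent ℂ ![at0 (0 : Fin 2) x, at0 0 y, at0 0 w] := by
  apply lin3' h
  · rw [hxy]
    simpa using mul_pos hxx hyy
  · rw [hx]; rfl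
  · rw [hy]; rfl
  · intro h0
    rw [h0] at hww
    simp at hww

end occ

end Crest.Agent.R272.Cls_620
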