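import Crest.Agent.R272.FinCB2_876

/-!
# R272, model division (helper876): FIN-POS for ideals, in the form asked by helper848 (#7179)

`GenAt C f e x` : near `x` the functions `f j` are multiples of `e`, and `f j₀ = unit * e` for some `j₀`;
`ValC C f x c`  : `c ≠ 0` is a vector of values at `x` of `f j / e`, `e` nowhere dense zero;
`ValC.par`      : two such vectors are proportional;
`posNear_idl`   : **generators `f j`, finite fibres of `[c]` on `K` ⟹ `PosNear (E.idl 1) K`**;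
`ff_of_pieces`  : finite fibres from pieces.
-/

set_option autoImplicit false
set_option linter.unusedSectionVars false
set_option linter.unusedVariables false

open Set Filter Topology Complex
open scoped ContDiff Matrix ComplexConjugate Manifold

namespace Crest.Agent.R272.FinCB3_876

open Crest.Agent.R275.Geo Crest.Agent.R275.Core144 Crest.Agent.R275.GC293
open Crest.Agent.R273 Crest.Agent.R273.Defs_333 Crest.Agent.R273.Map_835
open Crest.Agent.R273.Fam_835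
open Crest.Agent.R272.Quot_783 Crest.Agent.R272.PosGlue_232 Crest.Agent.R272.CB_232
open Crest.Agent.R272.FinCB1_876 Crest.Agent.R272.FinCB2_876

noncomputable section

variable {n m : ℕ} {X N : Type} [TopologicalSpace X] [TopologicalSpace N]
  {C C' : Fam n X} {D : Fam m N} {p : X → N} {U V W : Set X} {κ : Type}

/-- near `x` all `f j` are multiples of `e`, one of them by a unit -/
def GenAt (C : Fam n X) (f : κ → X → ℂ) (e : X → ℂ) (x : X) : Prop :=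
  ∃ W, IsOpen W ∧ x ∈ W ∧ ∃ u : κ → X → ℂ, (∀ j, HolF C W (u j)) ∧
    (∀ y ∈ W, ∀ j, f j y = u j y * e y) ∧ ∃ j, u j x ≠ 0

/-- `c` = values at `x` of `f j / e` -/
def ValC (C : Fam n X) (f : κ → X → ℂ) (x : X) (c : κ → ℂ) : Prop :=
  c ≠ 0 ∧ ∃ W, IsOpen W ∧ x ∈ W ∧ ∃ e : X → ℂ, W ⊆ closure {y | e y ≠ 0} ∧
    ∃ u : κ → X → ℂ, (∀ j, HolF C W (u j)) ∧ (∀ y ∈ W, ∀ j, f j y = u j y * e y) ∧
      ∀ j, u j x = c j

/-- a function continuous at `x` and vanishing where `e ≠ 0` vanishes at `x` -/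
theorem eq_zero_of_dense {e h : X → ℂ} {x : X} {W : Set X} (hW : W ∈ 𝓝 x)
    (hd : x ∈ closure {y | e y ≠ 0}) (hc : ContinuousAt h x)
    (h0 : ∀ y ∈ W, h y * e y = 0) : h x = 0 := by
  by_contra hne
  have h1 : ∀ᶠ y in 𝓝 x, h y ≠ 0 := hc.eventually_ne hne
  obtain ⟨y, hy, hy'⟩ := mem_closure_iff_nhds.1 hd _ (Filter.inter_mem hW h1)
  exact (mul_ne_zero hy.2 hy') (h0 y hy.1)

theorem ValC.par {f : κ → X → ℂ} {x : X} {c c' : κ → ℂ} (h : ValC C f x c)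
    (h' : ValC C f x c') : ∀ i j, c i * c' j = c j * c' i := by
  obtain ⟨hc, W₁, hW₁, hx₁, e, he, u, hu, heu, hux⟩ := h
  obtain ⟨hc', W₂, hW₂, hx₂, d, hd, v, hv, hev, hvx⟩ := h'
  intro i j
  -- `u i * e = v i * d`, `u j * e = v j * d`
  have h1 : ∀ y ∈ W₁ ∩ W₂, (u i y * v j y - u j y * v i y) * d y = 0 := by
    intro y hy
    have a1 := heu y hy.1 i
    have a2 := heu y hy.1 j
    have b1 := hev y hy.2 i
    have b2 := hev y hy.2 j
    have c1 : u i y * e y = v i y * d y := by rw [← a1, b1]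
    have c2 : u j y * e y = v j y * d y := by rw [← a2, b2]
    linear_combination (-(u i y)) * c2 + (u j y) * c1
  have hcont : ContinuousAt (fun y => u i y * v j y - u j y * v i y) x :=
    ((holF_contAt hW₁ (hu i) hx₁).mul (holF_contAt hW₂ (hv j) hx₂)).sub
      ((holF_contAt hW₁ (hu j) hx₁).mul (holF_contAt hW₂ (hv i) hx₂))
  have h2 := eq_zero_of_dense (e := d) ((hW₁.inter hW₂).mem_nhds ⟨hx₁, hx₂⟩) (hd hx₂) hcont h1
  simp only [hux, hvx] at h2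
  exact sub_eq_zero.1 h2

/-- from values to the values with respect to the equations of `E` -/
theorem ValC.toVal {E : Eqs C U} {f : κ → X → ℂ} {x : X} {c : κ → ℂ} {a : E.α}
    (ha : x ∈ E.V a) (hg : GenAt C f (E.f a) x) (h : ValC C f x c) : Val E 1 f x c := by
  obtain ⟨W₁, hW₁, hx₁, u, hu, heu, j₀, hj₀⟩ := hg
  obtain ⟨hc, W₂, hW₂, hx₂, e, hed, v, hv, hev, hvx⟩ := h
  obtain ⟨j₁, hj₁⟩ := Function.ne_iff.1 hc
  simp only [Pi.zero_apply] at hj₁
  have hv1 : v j₁ x ≠ 0 := by rw [hvx]; exact hj₁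
  -- `u j₁ x ≠ 0`
  have hu1 : u j₁ x ≠ 0 := by
    intro h0
    have h1 : ∀ y ∈ W₁ ∩ W₂, (u j₀ y * v j₁ y - u j₁ y * v j₀ y) * E.f a y = 0 := by
      intro y hy
      have c1 : u j₀ y * E.f a y = v j₀ y * e y := by rw [← heu y hy.1 j₀, hev y hy.2 j₀]
      have c2 : u j₁ y * E.f a y = v j₁ y * e y := by rw [← heu y hy.1 j₁, hev y hy.2 j₁]
      linear_combination (v j₁ y) * c1 - (v j₀ y) * c2
    have hcont : ContinuousAt (fun y => u j₀ y * v j₁ y - u j₁ y * v j₀ y) x :=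
      ((holF_contAt hW₁ (hu j₀) hx₁).mul (holF_contAt hW₂ (hv j₁) hx₂)).sub
        ((holF_contAt hW₁ (hu j₁) hx₁).mul (holF_contAt hW₂ (hv j₀) hx₂))
    have h2 := eq_zero_of_dense (e := E.f a) ((hW₁.inter hW₂).mem_nhds ⟨hx₁, hx₂⟩) (E.dense a ha)
      hcont h1
    simp only [h0, zero_mul, sub_zero] at h2
    exact (mul_ne_zero hj₀ hv1) h2
  have hN1 : ∀ᶠ y in 𝓝 x, v j₁ y ≠ 0 := (holF_contAt hW₂ (hv j₁) hx₂).eventually_ne hv1
  have hN2 : ∀ᶠ y in 𝓝 x, u j₁ y ≠ 0 := (holF_contAt hW₁ (hu j₁) hx₁).eventually_ne hu1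
  obtain ⟨O, hO, hOo, hxO⟩ := mem_nhds_iff.1 (hN1.and hN2)
  have m1 : W₁ ∩ W₂ ∩ O ⊆ W₁ := fun y hy => hy.1.1
  have m2 : W₁ ∩ W₂ ∩ O ⊆ W₂ := fun y hy => hy.1.2
  have m3 : W₁ ∩ W₂ ∩ O ⊆ O := fun y hy => hy.2
  refine ⟨a, ha, W₁ ∩ W₂ ∩ O, (hW₁.inter hW₂).inter hOo, ⟨⟨hx₁, hx₂⟩, hxO⟩,
    fun y => u j₁ y * (v j₁ y)⁻¹, v,
    holF_mul (holF_mono (hu j₁) m1)
      (holF_inv (holF_mono (hv j₁) m2) fun y hy => (hO (m3 hy)).1),
    fun y hy => mul_ne_zero (hO (m3 hy)).2 (inv_ne_zero (hO (m3 hy)).1),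
    fun j => holF_mono (hv j) m2, ?_, hvx⟩
  intro j y hy
  have c2 : u j₁ y * E.f a y = v j₁ y * e y := by rw [← heu y (m1 hy) j₁, hev y (m2 hy) j₁]
  have h3 := (hO (m3 hy)).1
  rw [hev y (m2 hy) j, pow_one]
  field_simp
  linear_combination -(v j y) * c2

/-- a generator gives values -/
theorem GenAt.valC {f : κ → X → ℂ} {e : X → ℂ} {x : X} (h : GenAt C f e x)
    (hd : ∀ᶠ y in 𝓝 x, y ∈ closure {y | e y ≠ 0}) : ∃ c, ValC C f x c := by
  obtain ⟨W, hW, hx, u, hu, heu, j, hj⟩ := h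
  obtain ⟨O, hO, hOo, hxO⟩ := mem_nhds_iff.1 hd
  exact ⟨fun j => u j x, Function.ne_iff.2 ⟨j, hj⟩, W ∩ O, hW.inter hOo, ⟨hx, hxO⟩, e,
    fun y hy => hO hy.2, u, fun j => holF_mono (hu j) inter_subset_left,
    fun y hy => heu y hy.1, fun _ => rfl⟩

/-- **FIN-POS for the ideal generated by the functions `f j`** (form of helper848, #7179) -/
theorem posNear_idl [CompactSpace X] [T2Space X] [Fintype κ] (E : Eqs C univ) {K : Set X}
    (hK : IsCompact K) (f : κ → X → ℂ)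
    (hgen : ∀ x ∈ K, ∃ a, x ∈ E.V a ∧ GenAt C f (E.f a) x)
    (hff : ∀ q ∈ K, {x | x ∈ K ∧ ∃ c c', ValC C f q c ∧ ValC C f x c' ∧
      ∀ i j, c i * c' j = c j * c' i}.Finite) : PosNear (E.idl 1) K := by
  have h1 : ∀ x ∈ K, ∃ c, ValC C f x c := by
    intro x hx
    obtain ⟨a, ha, hg⟩ := hgen x hx
    refine hg.valC ?_
    filter_upwards [(E.op a).mem_nhds ha] with y hy using E.dense a hy
  choose! R hR using h1
  refine PosNear.of_val hK f R (fun x hx => ?_) (fun x hx => (hR x hx).1) (fun q hq => ?_)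
  · obtain ⟨a, ha, hg⟩ := hgen x hx
    exact (hR x hx).toVal ha hg
  · refine (hff q hq).subset ?_
    rintro x ⟨hx, hx'⟩
    exact ⟨hx, R q, R x, hR q hq, hR x hx, hx'⟩

/-- **(5F)** finite fibres on `K` from finite fibres on the pieces -/
theorem ff_of_pieces {ι : Type*} [Finite ι] {K : Set X} {f : κ → X → ℂ} (P : ι → Set X)
    (hP : K ⊆ ⋃ i, P i)
    (hff : ∀ i, ∀ q ∈ K ∩ P i, {x | x ∈ K ∩ P i ∧ ∃ c c', ValC C f q c ∧ ValC C f x c' ∧
      ∀ i j, c i * c' j = c j * c' i}.Finite) (q : X) (hq : q ∈ K) :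
    {x | x ∈ K ∧ ∃ c c', ValC C f q c ∧ ValC C f x c' ∧
      ∀ i j, c i * c' j = c j * c' i}.Finite := by
  have h1 : ∀ i, {x | x ∈ K ∩ P i ∧ ∃ c c', ValC C f q c ∧ ValC C f x c' ∧
      ∀ i j, c i * c' j = c j * c' i}.Finite := by
    intro i
    rcases Set.eq_empty_or_nonempty {x | x ∈ K ∩ P i ∧ ∃ c c', ValC C f q c ∧ ValC C f x c' ∧
      ∀ i j, c i * c' j = c j * c' i} with he | ⟨q', hq', c, c', hc, hc', hcc⟩
    · rw [he]; exact finite_empty
    · refine (hff i q' hq').subset ?_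
      rintro x ⟨hx, d, d', hd, hd', hdd⟩
      refine ⟨hx, c', d', hc', hd', ?_⟩
      have hp1 : Par c c' := hcc
      have hp2 : Par d d' := hdd
      have hp3 : Par c d := hc.par hd
      exact Par.trans (r := c) hc.1 (Par.symm hp1) (Par.trans hd.1 hp3 hp2)
  refine (Set.finite_iUnion h1).subset ?_
  rintro x ⟨hx, h⟩
  obtain ⟨i, hi⟩ := mem_iUnion.1 (hP hx)
  exact mem_iUnion.2 ⟨i, ⟨hx, hi⟩, h⟩

/-- finite fibres on a piece given by a parametrisation `φ : T → X` and values `R t` -/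
theorem ff_of_param {T : Type*} {P : Set X} {f : κ → X → ℂ} (φ : T → X)
    (hφ : ∀ x ∈ P, ∃ t, φ t = x) (R : T → κ → ℂ) (hR : ∀ t, φ t ∈ P → ValC C f (φ t) (R t))
    (hfin : ∀ t, φ t ∈ P → {s | φ s ∈ P ∧ ∀ i j, R t i * R s j = R t j * R s i}.Finite)
    (q : X) (hq : q ∈ P) :
    {x | x ∈ P ∧ ∃ c c', ValC C f q c ∧ ValC C f x c' ∧
      ∀ i j, c i * c' j = c j * c' i}.Finite := by
  obtain ⟨t, rfl⟩ := hφ q hq
  refine ((hfin t hq).image φ).subset ?_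
  rintro x ⟨hx, c, c', hc, hc', hcc⟩
  obtain ⟨s, rfl⟩ := hφ x hx
  refine ⟨s, ⟨hx, ?_⟩, rfl⟩
  have hp1 : Par (R t) c := (hR t hq).par hc
  have hp2 : Par c c' := hcc
  have hp3 : Par c' (R s) := hc'.par (hR s hx)
  exact Par.trans hc.1 hp1 (Par.trans hc'.1 hp2 hp3)

end

end Crest.Agent.R272.FinCB3_876
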