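/-
R272 (S0415), positivity at p0, piece (5A): THE KUMMER MAP, part 2: holomorphic frames on a manifold
`(X, C : Fam n X)` (language of Lc1_220: `HolN`, `Dvd`, `Asc`, `NZ`).

* `Fr C a x s r η`  : a holomorphic frame at `x` of the curve `η² = fh a s r`
* `holN_GG`         : off `Γ` the fourth Kummer coordinate is holomorphic
* `holN_GI`         : near `Γ` its inverse `GI` is holomorphic, `del² = rho * GI`

helper977
-/
import Crest.Agent.R272.Lc1_220
import Crest.Agent.R272.Kum1_977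

set_option autoImplicit false
set_option linter.unusedVariables false

open Filter Topology Set

noncomputable section

namespace Crest.Agent.R272.Kum_977

open Crest.Agent.R273.Fam_835 Crest.Agent.R272.Lc_220

variable {n : ℕ} {X : Type} [TopologicalSpace X] {C : Fam n X} {x : X} {a : Fin 7 → ℂ}
  {s r η s' r' η' : X → ℂ}

/-- a holomorphic frame -/
structure Fr (C : Fam n X) (a : Fin 7 → ℂ) (x : X) (s r η : X → ℂ) : Prop where
  hs : HolN C x s
  hr : HolN C x r
  he : HolN C x η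
  eq : ∀ᶠ y in 𝓝 x, η y ^ 2 = fh a (s y) (r y)
  ne : s x ≠ 0 ∨ r x ≠ 0

theorem Fr.eventually (h : Fr C a x s r η) : ∀ᶠ y in 𝓝 x, Fr C a y s r η := by
  have h1 : ∀ᶠ y in 𝓝 x, s y ≠ 0 ∨ r y ≠ 0 := by
    rcases h.ne with h2 | h2
    · exact (h.hs.continuousAt.eventually_ne h2).mono fun y hy => Or.inl hy
    · exact (h.hr.continuousAt.eventually_ne h2).mono fun y hy => Or.inr hy
  filter_upwards [h.hs.eventually, h.hr.eventually, h.he.eventually, h.eq.eventually_nhds, h1]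
    with y h2 h3 h4 h5 h6
  exact ⟨h2, h3, h4, h5, h6⟩

theorem Fr.self (h : Fr C a x s r η) : η x ^ 2 = fh a (s x) (r x) := h.eq.self_of_nhds

/-- change of frame -/
theorem Fr.smul (h : Fr C a x s r η) {l : X → ℂ} (hl : HolN C x l) (h0 : l x ≠ 0) :
    Fr C a x (fun y => l y * s y) (fun y => l y * r y) (fun y => l y ^ 3 * η y) where
  hs := hl.mul h.hs
  hr := hl.mul h.hr
  he := (hl.pow 3).mul h.he
  eq := by
    filter_upwards [h.eq] with y hy
    rw [fh_smul, ← hy]; ring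
  ne := by
    rcases h.ne with h1 | h1
    · exact Or.inl (mul_ne_zero h0 h1)
    · exact Or.inr (mul_ne_zero h0 h1)

section hol

/-- closes goals `HolN C x (polynomial in holomorphic functions)` -/
macro "holn" : tactic => `(tactic| repeat' (first
  | assumption
  | exact holN_const _
  | refine HolN.add ?_ ?_
  | refine HolN.sub ?_ ?_
  | refine HolN.mul ?_ ?_
  | refine HolN.pow ?_ _
  | refine HolN.neg ?_))

theorem holN_fh (hs : HolN C x s) (hr : HolN C x r) : HolN C x fun y => fh a (s y) (r y) := by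
  unfold fh
  holn

theorem holN_del (hs : HolN C x s) (hr : HolN C x r) (hs' : HolN C x s') (hr' : HolN C x r') :
    HolN C x fun y => del (s y) (r y) (s' y) (r' y) :=
  (hr.mul hs').sub (hs.mul hr')

theorem holN_Fh (hs : HolN C x s) (hr : HolN C x r) (hs' : HolN C x s') (hr' : HolN C x r') :
    HolN C x fun y => Fh a (s y) (r y) (s' y) (r' y) := by
  unfold Fh
  holn

theorem holN_K0 (hs : HolN C x s) (hr : HolN C x r) (hs' : HolN C x s') (hr' : HolN C x r') :
    HolN C x fun y => K0 a (s y) (r y) (s' y) (r' y) := by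
  unfold K0 Kq
  holn

theorem Fr.holN_rho (h : Fr C a x s r η) (h' : Fr C a x s' r' η') :
    HolN C x fun y => rho a (s y) (r y) (η y) (s' y) (r' y) (η' y) :=
  (holN_Fh h.hs h.hr h'.hs h'.hr).sub (((holN_const 2).mul h.he).mul h'.he)

theorem Fr.holN_rhob (h : Fr C a x s r η) (h' : Fr C a x s' r' η') :
    HolN C x fun y => rhob a (s y) (r y) (η y) (s' y) (r' y) (η' y) :=
  (holN_Fh h.hs h.hr h'.hs h'.hr).add (((holN_const 2).mul h.he).mul h'.he)

end hol

/-- `x` is not on `Γ` -/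
def Off (a : Fin 7 → ℂ) (x : X) (s r η s' r' η' : X → ℂ) : Prop :=
  del (s x) (r x) (s' x) (r' x) ≠ 0 ∨ rhob a (s x) (r x) (η x) (s' x) (r' x) (η' x) ≠ 0

theorem Fr.off_eventually (h : Fr C a x s r η) (h' : Fr C a x s' r' η')
    (h0 : Off a x s r η s' r' η') : ∀ᶠ y in 𝓝 x, Off a y s r η s' r' η' := by
  rcases h0 with h0 | h0
  · exact ((holN_del h.hs h.hr h'.hs h'.hr).continuousAt.eventually_ne h0).mono
      fun y hy => Or.inl hy
  · exact ((h.holN_rhob h').continuousAt.eventually_ne h0).mono fun y hy => Or.inr hy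

/-- **the fourth Kummer coordinate is holomorphic off `Γ`** -/
theorem Fr.holN_GG (h : Fr C a x s r η) (h' : Fr C a x s' r' η')
    (h0 : Off a x s r η s' r' η') :
    HolN C x fun y => GG a (s y) (r y) (η y) (s' y) (r' y) (η' y) := by
  have hd := holN_del h.hs h.hr h'.hs h'.hr
  rcases h0 with h0 | h0
  · refine holN_congr ((h.holN_rho h').div (hd.pow 2) (pow_ne_zero 2 h0)) ?_
    filter_upwards [hd.continuousAt.eventually_ne h0] with y hy
    exact GG_of_del a hy
  · refine holN_congr ((holN_K0 (a := a) h.hs h.hr h'.hs h'.hr).div (h.holN_rhob h') h0) ?_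
    filter_upwards [(h.holN_rhob h').continuousAt.eventually_ne h0, h.eq, h'.eq] with y hy h1 h2
    exact GG_of_rhob a h1 h2 hy

theorem Fr.GG_mul (h : Fr C a x s r η) (h' : Fr C a x s' r' η')
    (h0 : Off a x s r η s' r' η') :
    ∀ᶠ y in 𝓝 x, GG a (s y) (r y) (η y) (s' y) (r' y) (η' y) * del (s y) (r y) (s' y) (r' y) ^ 2
      = rho a (s y) (r y) (η y) (s' y) (r' y) (η' y) := by
  filter_upwards [h.off_eventually h' h0, h.eq, h'.eq] with y hy h1 h2
  exact Kum_977.GG_mul a h1 h2 hy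

/-! ### near `Γ` -/

/-- the inverse of the fourth Kummer coordinate -/
def GI (a : Fin 7 → ℂ) (s r η s' r' η' : ℂ) : ℂ :=
  open Classical in
  if rho a s r η s' r' η' = 0 then rhob a s r η s' r' η' / K0 a s r s' r'
  else del s r s' r' ^ 2 / rho a s r η s' r' η'

theorem GI_of_rho {s r η s' r' η' : ℂ} (h : rho a s r η s' r' η' ≠ 0) :
    GI a s r η s' r' η' = del s r s' r' ^ 2 / rho a s r η s' r' η' := if_neg h

theorem GI_of_K0 {s r η s' r' η' : ℂ} (h : η ^ 2 = fh a s r) (h' : η' ^ 2 = fh a s' r')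
    (h0 : K0 a s r s' r' ≠ 0) :
    GI a s r η s' r' η' = rhob a s r η s' r' η' / K0 a s r s' r' := by
  by_cases hd : rho a s r η s' r' η' = 0
  · exact if_pos hd
  · rw [GI_of_rho hd, div_eq_div_iff hd h0, ← rho_mul_rhob a h h']
    ring

theorem GI_mul_rho {s r η s' r' η' : ℂ} (h : η ^ 2 = fh a s r) (h' : η' ^ 2 = fh a s' r')
    (h0 : rho a s r η s' r' η' ≠ 0 ∨ K0 a s r s' r' ≠ 0) :
    GI a s r η s' r' η' * rho a s r η s' r' η' = del s r s' r' ^ 2 := by
  rcases h0 with h0 | h0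
  · rw [GI_of_rho h0, div_mul_cancel₀ _ h0]
  · rw [GI_of_K0 h h' h0, div_mul_eq_mul_div, div_eq_iff h0, ← rho_mul_rhob a h h']
    ring

theorem GI_symm (s r η s' r' η' : ℂ) : GI a s' r' η' s r η = GI a s r η s' r' η' := by
  unfold GI
  rw [del_symm, K0_symm, rhob_symm, rho_symm, neg_sq]

/-- `G * GI = 1` where both make sense -/
theorem GG_mul_GI {s r η s' r' η' : ℂ} (h : η ^ 2 = fh a s r) (h' : η' ^ 2 = fh a s' r')
    (h0 : del s r s' r' ≠ 0 ∨ rhob a s r η s' r' η' ≠ 0)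
    (h1 : rho a s r η s' r' η' ≠ 0 ∨ K0 a s r s' r' ≠ 0) :
    GG a s r η s' r' η' ≠ 0 → GI a s r η s' r' η' = (GG a s r η s' r' η')⁻¹ := by
  intro hG
  rcases h0 with h0 | h0
  · have h2 := GG_of_del a (η := η) (η' := η') h0
    have h3 : rho a s r η s' r' η' ≠ 0 := by
      intro h4
      rw [h4, zero_div] at h2
      exact hG h2
    rw [GI_of_rho h3, h2, inv_div]
  · have h2 := GG_of_rhob a h h' h0
    have h3 : K0 a s r s' r' ≠ 0 := by
      intro h4
      rw [h4, zero_div] at h2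
      exact hG h2
    rw [GI_of_K0 h h' h3, h2, inv_div]

/-- condition near `Γ` -/
def Near (a : Fin 7 → ℂ) (x : X) (s r η s' r' η' : X → ℂ) : Prop :=
  rho a (s x) (r x) (η x) (s' x) (r' x) (η' x) ≠ 0 ∨ K0 a (s x) (r x) (s' x) (r' x) ≠ 0

theorem Fr.near_eventually (h : Fr C a x s r η) (h' : Fr C a x s' r' η')
    (h0 : Near a x s r η s' r' η') : ∀ᶠ y in 𝓝 x, Near a y s r η s' r' η' := by
  rcases h0 with h0 | h0
  · exact ((h.holN_rho h').continuousAt.eventually_ne h0).mono fun y hy => Or.inl hy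
  · exact ((holN_K0 h.hs h.hr h'.hs h'.hr).continuousAt.eventually_ne h0).mono
      fun y hy => Or.inr hy

/-- **the inverse of the fourth Kummer coordinate is holomorphic near `Γ`** -/
theorem Fr.holN_GI (h : Fr C a x s r η) (h' : Fr C a x s' r' η')
    (h0 : Near a x s r η s' r' η') :
    HolN C x fun y => GI a (s y) (r y) (η y) (s' y) (r' y) (η' y) := by
  rcases h0 with h0 | h0
  · refine holN_congr (((holN_del h.hs h.hr h'.hs h'.hr).pow 2).div (h.holN_rho h') h0) ?_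
    filter_upwards [(h.holN_rho h').continuousAt.eventually_ne h0] with y hy
    exact GI_of_rho hy
  · have hk := holN_K0 (a := a) h.hs h.hr h'.hs h'.hr
    refine holN_congr ((h.holN_rhob h').div hk h0) ?_
    filter_upwards [hk.continuousAt.eventually_ne h0, h.eq, h'.eq] with y hy h1 h2
    exact GI_of_K0 h1 h2 hy

theorem Fr.GI_mul (h : Fr C a x s r η) (h' : Fr C a x s' r' η')
    (h0 : Near a x s r η s' r' η') :
    ∀ᶠ y in 𝓝 x, GI a (s y) (r y) (η y) (s' y) (r' y) (η' y)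
      * rho a (s y) (r y) (η y) (s' y) (r' y) (η' y) = del (s y) (r y) (s' y) (r' y) ^ 2 := by
  filter_upwards [h.near_eventually h' h0, h.eq, h'.eq] with y hy h1 h2
  exact GI_mul_rho h1 h2 hy

/-- the sextic has simple roots (`K0 = (f')²` at a root) -/
def Simple (a : Fin 7 → ℂ) : Prop :=
  ∀ s r : ℂ, (s ≠ 0 ∨ r ≠ 0) → fh a s r = 0 → K0 a s r s r ≠ 0

/-- `∂ fh / ∂ r` -/
def fhr (a : Fin 7 → ℂ) (s r : ℂ) : ℂ :=
  a 1 * s ^ 5 + 2 * a 2 * r * s ^ 4 + 3 * a 3 * r ^ 2 * s ^ 3 + 4 * a 4 * r ^ 3 * s ^ 2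
    + 5 * a 5 * r ^ 4 * s + 6 * a 6 * r ^ 5

theorem fhr_sq (s r : ℂ) : fhr a s r ^ 2 = s ^ 2 * K0 a s r s r
    + 4 * fh a s r * (a 2 * s ^ 4 + 2 * a 3 * r * s ^ 3 + 4 * a 4 * r ^ 2 * s ^ 2
      + 6 * a 5 * r ^ 3 * s + 9 * a 6 * r ^ 4) := by
  unfold fhr K0 Kq fh; ring

theorem hasDerivAt_fh (s r : ℂ) : HasDerivAt (fun t => fh a s t) (fhr a s r) r := by
  have hid := hasDerivAt_id r
  have h1 := ((((((((hasDerivAt_const r (a 0 * s ^ 6)).add
    ((hid.const_mul (a 1)).mul_const (s ^ 5))).add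
    (((hid.pow 2).const_mul (a 2)).mul_const (s ^ 4))).add
    (((hid.pow 3).const_mul (a 3)).mul_const (s ^ 3))).add
    (((hid.pow 4).const_mul (a 4)).mul_const (s ^ 2))).add
    (((hid.pow 5).const_mul (a 5)).mul_const s)).add
    ((hid.pow 6).const_mul (a 6))))
  refine (h1.congr_deriv ?_).congr_of_eventuallyEq (Eventually.of_forall fun t => ?_)
  · unfold fhr
    simp
    ring
  · unfold fh
    simp

theorem simple_of (h6 : a 6 ≠ 0) (h : ∀ t, fh a 1 t = 0 → deriv (fun t => fh a 1 t) t ≠ 0) :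
    Simple a := by
  intro s r hsr h0 hK
  have hs : s ≠ 0 := by
    rintro rfl
    have hr : r ≠ 0 := by simpa using hsr
    have : fh a 0 r = a 6 * r ^ 6 := by unfold fh; ring
    rw [this] at h0
    exact mul_ne_zero h6 (pow_ne_zero 6 hr) h0
  have e1 : fh a s r = s ^ 6 * fh a 1 (r / s) := by
    rw [← fh_smul, mul_one, mul_div_cancel₀ _ hs]
  have h1 : fh a 1 (r / s) = 0 := by
    rw [e1] at h0
    exact (mul_eq_zero.1 h0).resolve_left (pow_ne_zero 6 hs)
  have h2 := h _ h1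
  rw [(hasDerivAt_fh 1 (r / s)).deriv] at h2
  apply h2
  have e2 : fhr a s r = s ^ 5 * fhr a 1 (r / s) := by
    unfold fhr
    field_simp
  have h3 := fhr_sq (a := a) s r
  rw [hK, h0, e2] at h3
  have h4 : (s ^ 5 * fhr a 1 (r / s)) ^ 2 = 0 := by rw [h3]; ring
  have h5 := pow_eq_zero_iff (two_ne_zero) |>.1 h4
  exact (mul_eq_zero.1 h5).resolve_left (pow_ne_zero 5 hs)

/-- at a point of `Γ` -/
theorem near_of_gam (hS : Simple a) {s r η s' r' η' : ℂ} (hs : s ≠ 0 ∨ r ≠ 0)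
    (h : η ^ 2 = fh a s r) {l : ℂ} (hl : l ≠ 0) (e1 : s' = l * s) (e2 : r' = l * r)
    (e3 : η' = - (l ^ 3 * η)) :
    rho a s r η s' r' η' ≠ 0 ∨ K0 a s r s' r' ≠ 0 := by
  subst e1 e2 e3
  by_cases h0 : η = 0
  · right
    have h1 : fh a s r = 0 := by rw [← h, h0]; ring
    have h2 : K0 a s r (l * s) (l * r) = l ^ 4 * K0 a s r s r := by
      unfold K0 Kq; ring
    rw [h2]
    exact mul_ne_zero (pow_ne_zero 4 hl) (hS s r hs h1)
  · left
    have h2 := Fh_smul a 1 l s r s r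
    rw [one_mul, one_mul, Fh_diag, ← h] at h2
    unfold rho
    rw [h2]
    have : 1 ^ 3 * l ^ 3 * (2 * η ^ 2) - 2 * η * -(l ^ 3 * η) = 4 * l ^ 3 * η ^ 2 := by ring
    rw [this]
    exact mul_ne_zero (mul_ne_zero (by norm_num) (pow_ne_zero 3 hl)) (pow_ne_zero 2 h0)

/-- every point is `Off` or `Near` -/
theorem Fr.off_or_near (hS : Simple a) (h : Fr C a x s r η) (h' : Fr C a x s' r' η') :
    Off a x s r η s' r' η' ∨ Near a x s r η s' r' η' := by
  by_cases h0 : Off a x s r η s' r' η'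
  · exact Or.inl h0
  · right
    unfold Off at h0
    push Not at h0
    obtain ⟨l, hl, e1, e2, e3⟩ := (gam_iff a h.self h'.self h.ne h'.ne).1 h0
    exact near_of_gam hS h.ne h.self hl e1 e2 e3

end Crest.Agent.R272.Kum_977
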