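/-
R272 (S0415), positivity at p0, piece (5A)(ii): the list `Φ` of 848 in the `E`-charts.

`ECh C a x x0 E1 E2 N ξ s r η s' r' η'` : near `x` the base functions are
`x0 = ξ s s'`, `E1 = ξ (r s' + s r')`, `E2 = ξ² (s s') (r r')`, `N = ξ⁶ (s s')³ rho` with holomorphic
frames `(s, r, η)`, `(s', r', η')` of the curve (all four pairs of frames of `C × C`).

* `ECh.genS` : off `Γ`, `Φ i = gamS * psiS i` (848 `facS`);
* `ECh.genV` : near `Γ`, `ξ ≠ 0`, `Φ i = gamV * psiV i` (848 `facV`);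
* `psiS_ne`, `psiV_ne` : no common zero.

helper977
-/
import Crest.Agent.R272.Kum2_977
import Crest.Agent.R272.PosP1_848

set_option autoImplicit false
set_option linter.unusedVariables false
set_option linter.unusedSectionVars false

open Filter Topology Set

noncomputable section

namespace Crest.Agent.R272.Kum_977

open Crest.Agent.R273.Fam_835 Crest.Agent.R272.Lc_220 Crest.Agent.R272.PosP_848

variable {n : ℕ} {X : Type} [TopologicalSpace X] {C : Fam n X} {x : X} {a : Fin 7 → ℂ}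
  {x0 E1 E2 N ξ s r η s' r' η' : X → ℂ} {β : ℕ}

/-- an `E`-chart -/
structure ECh (C : Fam n X) (a : Fin 7 → ℂ) (x : X) (x0 E1 E2 N ξ s r η s' r' η' : X → ℂ) :
    Prop where
  F : Fr C a x s r η
  F' : Fr C a x s' r' η'
  hξ : HolN C x ξ
  e0 : ∀ᶠ y in 𝓝 x, x0 y = ξ y * (s y * s' y)
  e1 : ∀ᶠ y in 𝓝 x, E1 y = ξ y * (r y * s' y + s y * r' y)
  e2 : ∀ᶠ y in 𝓝 x, E2 y = ξ y ^ 2 * ((s y * s' y) * (r y * r' y))
  eN : ∀ᶠ y in 𝓝 x, N y
    = ξ y ^ 6 * (s y * s' y) ^ 3 * rho a (s y) (r y) (η y) (s' y) (r' y) (η' y)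

/-- the usual way to get an `E`-chart -/
theorem ECh.mk' {x1 x2 Y1 Y2 : X → ℂ} (F : Fr C a x s r η) (F' : Fr C a x s' r' η')
    (hξ : HolN C x ξ) (h0 : ∀ᶠ y in 𝓝 x, x0 y = ξ y * (s y * s' y))
    (h1 : ∀ᶠ y in 𝓝 x, x1 y = ξ y * (r y * s' y))
    (h2 : ∀ᶠ y in 𝓝 x, x2 y = ξ y * (s y * r' y))
    (hY1 : ∀ᶠ y in 𝓝 x, Y1 y = (ξ y * s' y) ^ 3 * η y)
    (hY2 : ∀ᶠ y in 𝓝 x, Y2 y = (ξ y * s y) ^ 3 * η' y)
    (hE1 : ∀ᶠ y in 𝓝 x, E1 y = x1 y + x2 y) (hE2 : ∀ᶠ y in 𝓝 x, E2 y = x1 y * x2 y)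
    (hN : ∀ᶠ y in 𝓝 x, N y = Fh a (x0 y) (x1 y) (x0 y) (x2 y) - 2 * Y1 y * Y2 y) :
    ECh C a x x0 E1 E2 N ξ s r η s' r' η' where
  F := F
  F' := F'
  hξ := hξ
  e0 := h0
  e1 := by
    filter_upwards [h1, h2, hE1] with y k1 k2 k3
    rw [k3, k1, k2]; ring
  e2 := by
    filter_upwards [h1, h2, hE2] with y k1 k2 k3
    rw [k3, k1, k2]; ring
  eN := by
    filter_upwards [h0, h1, h2, hY1, hY2, hN] with y k0 k1 k2 k3 k4 k5
    have e : Fh a (x0 y) (x1 y) (x0 y) (x2 y)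
        = (ξ y * s' y) ^ 3 * (ξ y * s y) ^ 3 * Fh a (s y) (r y) (s' y) (r' y) := by
      rw [← Fh_smul, k0, k1, k2]
      congr 1 <;> ring
    rw [k5, e, k3, k4]
    unfold rho
    ring

theorem ECh.eventually (h : ECh C a x x0 E1 E2 N ξ s r η s' r' η') :
    ∀ᶠ y in 𝓝 x, ECh C a y x0 E1 E2 N ξ s r η s' r' η' := by
  filter_upwards [h.F.eventually, h.F'.eventually, h.hξ.eventually, h.e0.eventually_nhds,
    h.e1.eventually_nhds, h.e2.eventually_nhds, h.eN.eventually_nhds] with y k1 k2 k3 k4 k5 k6 k7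
  exact ⟨k1, k2, k3, k4, k5, k6, k7⟩

/-- `s1² - 4 s0 s2 = del²` -/
theorem disc_eq (s r s' r' : ℂ) :
    (r * s' + s * r') ^ 2 - 4 * (s * s') * (r * r') = del s r s' r' ^ 2 := by
  unfold del; ring

/-! ### form `S` -/

/-- the reduced vector -/
def uS (β : ℕ) (a : Fin 7 → ℂ) (ξ s r η s' r' η' : X → ℂ) (i : Fin 16) (y : X) : ℂ :=
  psiS β (ξ y) (s y * s' y) (r y * s' y + s y * r' y) (r y * r' y)
    (GG a (s y) (r y) (η y) (s' y) (r' y) (η' y)) i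

/-- the common factor -/
def eS (β : ℕ) (ξ s r s' r' : X → ℂ) (y : X) : ℂ :=
  gamS β (ξ y) (s y * s' y) (r y * s' y + s y * r' y) (r y * r' y)

theorem eS_eq (y : X) : eS β ξ s r s' r' y
    = ξ y ^ (β + 24) * del (s y) (r y) (s' y) (r' y) ^ 8 * (s y * s' y) ^ (β + 15) := by
  unfold eS gamS
  rw [disc_eq]; ring

theorem ECh.facS (h : ECh C a x x0 E1 E2 N ξ s r η s' r' η') (h0 : Off a x s r η s' r' η') :
    ∀ᶠ y in 𝓝 x, ∀ i, Phi β (x0 y) (E1 y) (E2 y) (N y) i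
      = eS β ξ s r s' r' y * uS β a ξ s r η s' r' η' i y := by
  filter_upwards [h.e0, h.e1, h.e2, h.eN, h.F.GG_mul h.F' h0] with y k0 k1 k2 k3 k4 i
  refine PosP_848.facS β k0 k1 k2 ?_ i
  rw [k3, disc_eq, ← k4]; ring

theorem ECh.holN_uS (h : ECh C a x x0 E1 E2 N ξ s r η s' r' η')
    (h0 : Off a x s r η s' r' η') (i : Fin 16) : HolN C x (uS β a ξ s r η s' r' η' i) := by
  have hξ := h.hξ
  have hs := h.F.hs
  have hr := h.F.hr
  have hs' := h.F'.hs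
  have hr' := h.F'.hr
  have hG := h.F.holN_GG h.F' h0
  have k0 := hs.mul hs'
  have k1 := (hr.mul hs').add (hs.mul hr')
  have k2 := hr.mul hr'
  unfold uS psiS
  fin_cases i
  · exact k0
  · exact k1
  · exact k2
  · exact hG
  · exact hξ.mul (hG.pow 2)
  · exact ((hξ.pow 3).mul (hG.pow 3)).mul k0
  · exact ((hξ.pow 3).mul (hG.pow 3)).mul k1
  · exact ((hξ.pow 3).mul (hG.pow 3)).mul k2
  · exact ((hξ.pow 5).mul (hG.pow 4)).mul (k0.mul k0)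
  · exact ((hξ.pow 5).mul (hG.pow 4)).mul (k0.mul k1)
  · exact ((hξ.pow 5).mul (hG.pow 4)).mul (k0.mul k2)
  · exact ((hξ.pow 5).mul (hG.pow 4)).mul (k1.mul k1)
  · exact ((hξ.pow 5).mul (hG.pow 4)).mul (k1.mul k2)
  · exact ((hξ.pow 5).mul (hG.pow 4)).mul (k2.mul k2)
  · exact (hξ.pow _).mul (k2.pow _)
  · exact ((hξ.pow _).mul (k2.pow _)).mul (hG.pow 4)

/-- no common zero -/
theorem ECh.uS_ne (h : ECh C a x x0 E1 E2 N ξ s r η s' r' η') :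
    uS β a ξ s r η s' r' η' 0 x ≠ 0 ∨ uS β a ξ s r η s' r' η' 1 x ≠ 0 ∨
      uS β a ξ s r η s' r' η' 2 x ≠ 0 :=
  kap_ne h.F.ne h.F'.ne

/-- on the zero section the reduced vector is the Kummer map -/
theorem uS_zero (hξ : ξ x = 0) (i : Fin 16) : uS β a ξ s r η s' r' η' i x =
    (![s x * s' x, r x * s' x + s x * r' x, r x * r' x,
      GG a (s x) (r x) (η x) (s' x) (r' x) (η' x), 0, 0, 0, 0, 0, 0, 0, 0, 0, 0, 0, 0] :
      Fin 16 → ℂ) i := by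
  unfold uS psiS
  rw [hξ]
  fin_cases i <;> simp

/-! ### form `V` -/

/-- the reduced vector -/
def uV (β : ℕ) (a : Fin 7 → ℂ) (ξ s r η s' r' η' : X → ℂ) (i : Fin 16) (y : X) : ℂ :=
  psiV β (ξ y) (GI a (s y) (r y) (η y) (s' y) (r' y) (η' y) / ξ y ^ 2) (s y * s' y)
    (r y * s' y + s y * r' y) (r y * r' y) i

/-- the common factor -/
def eV (β : ℕ) (a : Fin 7 → ℂ) (ξ s r η s' r' η' : X → ℂ) (y : X) : ℂ :=
  gamV β (ξ y) (s y * s' y) (ξ y ^ 2 * rho a (s y) (r y) (η y) (s' y) (r' y) (η' y))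

theorem eV_eq (y : X) : eV β a ξ s r η s' r' η' y = ξ y ^ (β + 29) * (s y * s' y) ^ (β + 15)
    * rho a (s y) (r y) (η y) (s' y) (r' y) (η' y) ^ 4 := by
  unfold eV gamV
  ring

theorem ECh.facV (h : ECh C a x x0 E1 E2 N ξ s r η s' r' η') (h0 : Near a x s r η s' r' η')
    (hx : ξ x ≠ 0) :
    ∀ᶠ y in 𝓝 x, ∀ i, Phi β (x0 y) (E1 y) (E2 y) (N y) i
      = eV β a ξ s r η s' r' η' y * uV β a ξ s r η s' r' η' i y := by
  filter_upwards [h.e0, h.e1, h.e2, h.eN, h.F.GI_mul h.F' h0,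
    h.hξ.continuousAt.eventually_ne hx] with y k0 k1 k2 k3 k4 k5 i
  refine PosP_848.facV β k0 k1 k2 ?_ ?_ i
  · rw [disc_eq, ← k4]
    field_simp
  · rw [k3]; ring

theorem ECh.holN_uV (h : ECh C a x x0 E1 E2 N ξ s r η s' r' η')
    (h0 : Near a x s r η s' r' η') (hx : ξ x ≠ 0) (i : Fin 16) :
    HolN C x (uV β a ξ s r η s' r' η' i) := by
  have hξ := h.hξ
  have hs := h.F.hs
  have hr := h.F.hr
  have hs' := h.F'.hs
  have hr' := h.F'.hr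
  have hA := (h.F.holN_GI h.F' h0).div (hξ.pow 2) (pow_ne_zero 2 hx)
  have k0 := hs.mul hs'
  have k1 := (hr.mul hs').add (hs.mul hr')
  have k2 := hr.mul hr'
  unfold uV psiV
  fin_cases i
  · exact ((hξ.pow 3).mul (hA.pow 4)).mul k0
  · exact ((hξ.pow 3).mul (hA.pow 4)).mul k1
  · exact ((hξ.pow 3).mul (hA.pow 4)).mul k2
  · exact hξ.mul (hA.pow 3)
  · exact hA.pow 2
  · exact hA.mul k0
  · exact hA.mul k1
  · exact hA.mul k2
  · exact k0.mul k0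
  · exact k0.mul k1
  · exact k0.mul k2
  · exact k1.mul k1
  · exact k1.mul k2
  · exact k2.mul k2
  · exact ((hξ.pow _).mul (hA.pow 4)).mul (k2.pow _)
  · exact (hξ.pow _).mul (k2.pow _)

/-- no common zero -/
theorem ECh.uV_ne (h : ECh C a x x0 E1 E2 N ξ s r η s' r' η') :
    uV β a ξ s r η s' r' η' 8 x ≠ 0 ∨ uV β a ξ s r η s' r' η' 11 x ≠ 0 ∨
      uV β a ξ s r η s' r' η' 13 x ≠ 0 := by
  rcases kap_ne h.F.ne h.F'.ne with k | k | k
  · exact Or.inl (mul_ne_zero k k)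
  · exact Or.inr (Or.inl (mul_ne_zero k k))
  · exact Or.inr (Or.inr (mul_ne_zero k k))

end Crest.Agent.R272.Kum_977
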