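import Crest.Agent.R272.Lc2_220
import Crest.Agent.R272.CB6_232

/-!
# R272, LC-MINUS (helper220), part 3: from germs of local equations to 232's `Eqs`

* `asc_open`, `dvd_open` : `Asc`, `Dvd` on a neighbourhood;
* `LEq C`    : a predicate `LE z f` ("`f` is a local equation at `z`"), `LEq.eqs : Eqs C univ`;
* `LEq.sec`  : a function divisible by `f ^ k` (`f` local equations) is a section of `eqs.idl k`;
               its values are `qv`.
-/

set_option autoImplicit false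
set_option linter.unusedSectionVars false
set_option linter.unusedVariables false

open Set Filter Topology

namespace Crest.Agent.R272.Lc_220

open Crest.Agent.R275.Geo Crest.Agent.R273.Fam_835 Crest.Agent.R272.Quot_783
open Crest.Agent.R272.CB_232

noncomputable section

variable {n : ℕ} {Z : Type} [TopologicalSpace Z] {C : Fam n Z} {z : Z} {f g : Z → ℂ}

theorem holN_of_holF {U : Set Z} (hU : IsOpen U) (h : HolF C U f) (hz : z ∈ U) : HolN C z f :=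
  (holF_iff hU).1 h z hz

theorem exists_open_of (h1 : HolN C z f) {P : Z → Prop} (hP : ∀ᶠ y in 𝓝 z, P y) :
    ∃ W, IsOpen W ∧ z ∈ W ∧ HolF C W f ∧ ∀ y ∈ W, P y := by
  obtain ⟨W, h2, h3, h4⟩ := eventually_nhds_iff.1 (h1.eventually.and hP)
  exact ⟨W, h3, h4, (holF_iff h3).2 fun x hx => (h2 x hx).1, fun y hy => (h2 y hy).2⟩

theorem asc_open : Asc C z f g ↔ ∃ W, IsOpen W ∧ z ∈ W ∧ ∃ u, HolF C W u ∧ (∀ y ∈ W, u y ≠ 0) ∧
    ∀ y ∈ W, f y = u y * g y := by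
  constructor
  · rintro ⟨u, hu, hu0, hu2⟩
    obtain ⟨W, hW, hz, h1, h2⟩ := exists_open_of hu
      ((hu.continuousAt.eventually_ne hu0).and hu2)
    exact ⟨W, hW, hz, u, h1, fun y hy => (h2 y hy).1, fun y hy => (h2 y hy).2⟩
  · rintro ⟨W, hW, hz, u, h1, h2, h3⟩
    exact ⟨u, holN_of_holF hW h1 hz, h2 z hz, eventually_of_mem (hW.mem_nhds hz) h3⟩

theorem dvd_open : Dvd C z g f ↔ ∃ W, IsOpen W ∧ z ∈ W ∧ ∃ u, HolF C W u ∧
    ∀ y ∈ W, f y = u y * g y := by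
  constructor
  · rintro ⟨u, hu, hu2⟩
    obtain ⟨W, hW, hz, h1, h2⟩ := exists_open_of hu hu2
    exact ⟨W, hW, hz, u, h1, h2⟩
  · rintro ⟨W, hW, hz, u, h1, h3⟩
    exact ⟨u, holN_of_holF hW h1 hz, eventually_of_mem (hW.mem_nhds hz) h3⟩

theorem NZ.mem_closure (h : NZ z f) : z ∈ closure {x | f x ≠ 0} := by
  rw [mem_closure_iff_frequently]
  intro h1
  exact h (h1.mono fun y hy => not_not.1 hy)

theorem nz_of_mem_closure (h : z ∈ closure {x | f x ≠ 0}) : NZ z f := by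
  rw [mem_closure_iff_frequently] at h
  intro h1
  exact h (h1.mono fun y hy => not_not.2 hy)

/-- the notion of a local equation of a divisor -/
structure LEq (C : Fam n Z) where
  LE : Z → (Z → ℂ) → Prop
  hol : ∀ {z f}, LE z f → HolN C z f
  nz : ∀ {z f}, LE z f → NZ z f
  ev : ∀ {z f}, LE z f → ∀ᶠ w in 𝓝 z, LE w f
  asc : ∀ {z f g}, LE z f → LE z g → Asc C z f g
  ex : ∀ z, ∃ f, LE z f

namespace LEq

variable (A : LEq C)

/-- 232's local equations -/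
def eqs : Eqs C univ where
  α := {p : Set Z × (Z → ℂ) // IsOpen p.1 ∧ ∀ z ∈ p.1, A.LE z p.2}
  V a := a.1.1
  op a := a.2.1
  cov z _ := by
    obtain ⟨f, hf⟩ := A.ex z
    obtain ⟨W, h1, h2, h3⟩ := eventually_nhds_iff.1 (A.ev hf)
    exact ⟨⟨(W, f), h2, h1⟩, h3⟩
  f a := a.1.2
  dense a z hz := (A.nz (a.2.2 z hz)).mem_closure
  loc a b z hz := asc_open.1 (A.asc (a.2.2 z hz.1) (b.2.2 z hz.2))

theorem LE_eqs {a : A.eqs.α} {z : Z} (hz : z ∈ A.eqs.V a) : A.LE z (A.eqs.f a) := a.2.2 z hz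

/-- every local equation is one of the `eqs` near the point -/
theorem exists_idx {z : Z} {f : Z → ℂ} (hf : A.LE z f) :
    ∃ a : A.eqs.α, z ∈ A.eqs.V a ∧ A.eqs.f a = f := by
  obtain ⟨W, h1, h2, h3⟩ := eventually_nhds_iff.1 (A.ev hf)
  exact ⟨⟨(W, f), h2, h1⟩, h3, rfl⟩

theorem hol_pow {z : Z} {f : Z → ℂ} (hf : A.LE z f) (k : ℕ) : HolN C z fun y => f y ^ k :=
  (A.hol hf).pow k

theorem nz_pow {z : Z} {f : Z → ℂ} (hf : A.LE z f) (k : ℕ) : NZ z fun y => f y ^ k :=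
  NZ.pow (A.hol hf) (A.nz hf) k

variable {A} in
theorem dvd_all {k : ℕ} {F : Z → ℂ} {z : Z}
    (h : ∃ f, A.LE z f ∧ Dvd C z (fun y => f y ^ k) F) {f : Z → ℂ} (hf : A.LE z f) :
    Dvd C z (fun y => f y ^ k) F := by
  obtain ⟨f', hf', hd⟩ := h
  exact hd.trans ((A.asc hf' hf).pow k).dvd

/-- sections from functions -/
def sec (k : ℕ) {F : Z → ℂ} {W : Set Z}
    (hF : ∀ z ∈ W, ∃ f, A.LE z f ∧ Dvd C z (fun y => f y ^ k) F) : Sec (A.eqs.idl k) W :=
  A.eqs.secFun k (F := F) fun a z hz => dvd_open.1 (dvd_all (hF z hz.2) (a.2.2 z hz.1))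

theorem sec_s (k : ℕ) {F : Z → ℂ} {W : Set Z}
    (hF : ∀ z ∈ W, ∃ f, A.LE z f ∧ Dvd C z (fun y => f y ^ k) F) {a : A.eqs.α} {z : Z}
    (hz : z ∈ A.eqs.V a) (hW : z ∈ W) :
    (A.sec k hF).s a z = qv C z (fun y => A.eqs.f a y ^ k) F := by
  have h1 := A.LE_eqs hz
  obtain ⟨W', hW', hzW, u, hu, he⟩ := dvd_open.1 (dvd_all (hF z hW) h1)
  have h2 := A.eqs.secFun_s k (F := F)
    (fun a z hz => dvd_open.1 (dvd_all (hF z hz.2) (a.2.2 z hz.1))) hz hW' hzW hu he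
  refine h2.trans ?_
  exact (qv_eq (A.hol_pow h1 k) (A.nz_pow h1 k) (holN_of_holF hW' hu hzW)
    (eventually_of_mem (hW'.mem_nhds hzW) he)).symm

end LEq

end

end Crest.Agent.R272.Lc_220
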