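import Mathlib

/-!
# R272, positivity of `X⁺` at the surgered cluster (848 #6650 (5)): the list `Φ` (helper92)

Everywhere holomorphic arguments (977, 898): `x₀`, `E = x₁ + x₂`, `p = x₁ x₂`,
`S = x₀³ R = x₀⁶ (F(t,t') - 2 y y')`; `D = E² - 4 p = (x₁ - x₂)²`; `v = p / x₀`, `R = D W`.

`Phi b x₀ E p S : IPhi → ℂ` = `D⁴ · x₀^b · {x₀, E, v, W, W², W³ l, W⁴ l l'}`, `D⁴ p^b`,
`D⁴ p^(b-12) (x₀³ W)⁴`, written as polynomials (`b ≥ 15`).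

* `phi_eq` : `p = x₀ v`, `S = x₀³ R`: `Phi = PhiC` (the form with `x = (x₀, E, v)`);
* `phi_mu` : `x = μ y`, `R = μ³ β`, `D = α² μ⁴ β` (charts `W1`, `W2`, `W3` (`α = 1`));
* `phi_xi` : `x = ξ s`, `R = ξ³ δ G`, `D = ξ² δ` (charts `E0`, `Einf`, `W4` (`G = 1`)).
-/

set_option autoImplicit false

namespace Crest.Agent.R272.PW_92

/-- the index set of the list -/
inductive IPhi
  | l (j : Fin 3)
  | W
  | W2
  | W3 (j : Fin 3)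
  | W4 (j k : Fin 3)
  | v
  | last
  deriving DecidableEq, Fintype

noncomputable section

/-- `x₀ · (x₀, E, v)` -/
def XX (x₀ E p : ℂ) : Fin 3 → ℂ := ![x₀ ^ 2, x₀ * E, p]

/-- **the list `Φ`** -/
def Phi (b : ℕ) (x₀ E p S : ℂ) : IPhi → ℂ
  | .l j => (E ^ 2 - 4 * p) ^ 4 * x₀ ^ (b - 1) * XX x₀ E p j
  | .W => (E ^ 2 - 4 * p) ^ 3 * S * x₀ ^ (b - 3)
  | .W2 => (E ^ 2 - 4 * p) ^ 2 * S ^ 2 * x₀ ^ (b - 6)
  | .W3 j => (E ^ 2 - 4 * p) * S ^ 3 * x₀ ^ (b - 10) * XX x₀ E p j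
  | .W4 j k => S ^ 4 * x₀ ^ (b - 14) * XX x₀ E p j * XX x₀ E p k
  | .v => (E ^ 2 - 4 * p) ^ 4 * p ^ b
  | .last => S ^ 4 * p ^ (b - 12)

/-- `D = E² - 4 x₀ v` -/
def disc (x : Fin 3 → ℂ) : ℂ := x 1 ^ 2 - 4 * x 0 * x 2

/-- the list `Φ`, in terms of `x = (x₀, E, v)` and `R` -/
def PhiC (b : ℕ) (x : Fin 3 → ℂ) (R : ℂ) : IPhi → ℂ
  | .l j => disc x ^ 4 * x 0 ^ b * x j
  | .W => disc x ^ 3 * R * x 0 ^ b
  | .W2 => disc x ^ 2 * R ^ 2 * x 0 ^ b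
  | .W3 j => disc x * R ^ 3 * x 0 ^ b * x j
  | .W4 j k => R ^ 4 * x 0 ^ b * x j * x k
  | .v => disc x ^ 4 * (x 0 * x 2) ^ b
  | .last => R ^ 4 * x 0 ^ 12 * (x 0 * x 2) ^ (b - 12)

theorem XX_eq (x : Fin 3 → ℂ) (j : Fin 3) : XX (x 0) (x 1) (x 0 * x 2) j = x 0 * x j := by
  fin_cases j
  · simp [XX]; ring
  · simp [XX]
  · simp [XX]

theorem phi_eq {b : ℕ} (hb : 15 ≤ b) {x : Fin 3 → ℂ} {x₀ E p R S : ℂ} (h0 : x₀ = x 0)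
    (h1 : E = x 1) (h2 : p = x 0 * x 2) (hS : S = x 0 ^ 3 * R) (i : IPhi) :
    Phi b x₀ E p S i = PhiC b x R i := by
  obtain ⟨c, rfl⟩ := Nat.exists_eq_add_of_le hb
  subst h0 h1 h2 hS
  have e1 : 15 + c - 1 = c + 14 := by omega
  have e3 : 15 + c - 3 = c + 12 := by omega
  have e6 : 15 + c - 6 = c + 9 := by omega
  have e10 : 15 + c - 10 = c + 5 := by omega
  have e14 : 15 + c - 14 = c + 1 := by omega
  cases i <;> simp only [Phi, PhiC, XX_eq, disc, e1, e3, e6, e10, e14] <;> ring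

/-- the normalised vector, first shape -/
def Ymu (b : ℕ) (α μ : ℂ) (y : Fin 3 → ℂ) : IPhi → ℂ
  | .l j => α ^ 8 * μ ^ 3 * y j
  | .W => α ^ 6 * μ
  | .W2 => α ^ 4
  | .W3 j => α ^ 2 * y j
  | .W4 j k => y j * y k
  | .v => α ^ 8 * μ ^ (b + 2) * y 2 ^ b
  | .last => μ ^ (b - 14) * y 2 ^ (b - 12)

/-- the local generator, first shape -/
def gmu (b : ℕ) (μ β y₀ : ℂ) : ℂ := μ ^ (b + 14) * β ^ 4 * y₀ ^ b

theorem phi_mu {b : ℕ} (hb : 15 ≤ b) {x y : Fin 3 → ℂ} {R α μ β : ℂ} (hx : ∀ j, x j = μ * y j)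
    (hR : R = μ ^ 3 * β) (hD : disc x = α ^ 2 * μ ^ 4 * β) (i : IPhi) :
    PhiC b x R i = gmu b μ β (y 0) * Ymu b α μ y i := by
  obtain ⟨c, rfl⟩ := Nat.exists_eq_add_of_le hb
  have e12 : 15 + c - 12 = c + 3 := by omega
  have e14 : 15 + c - 14 = c + 1 := by omega
  cases i <;> simp only [PhiC, Ymu, gmu, hD, hR, hx, e12, e14] <;> ring

/-- the normalised vector, second shape -/
def Yxi (b : ℕ) (ξ G : ℂ) (s : Fin 3 → ℂ) : IPhi → ℂ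
  | .l j => s j
  | .W => G
  | .W2 => ξ * G ^ 2
  | .W3 j => ξ ^ 3 * G ^ 3 * s j
  | .W4 j k => ξ ^ 5 * G ^ 4 * s j * s k
  | .v => ξ ^ (b - 1) * s 2 ^ b
  | .last => ξ ^ (b - 9) * G ^ 4 * s 2 ^ (b - 12)

/-- the local generator, second shape -/
def gxi (b : ℕ) (ξ δ s₀ : ℂ) : ℂ := ξ ^ (b + 9) * δ ^ 4 * s₀ ^ b

theorem phi_xi {b : ℕ} (hb : 15 ≤ b) {x s : Fin 3 → ℂ} {R ξ δ G : ℂ} (hx : ∀ j, x j = ξ * s j)
    (hR : R = ξ ^ 3 * (δ * G)) (hD : disc x = ξ ^ 2 * δ) (i : IPhi) :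
    PhiC b x R i = gxi b ξ δ (s 0) * Yxi b ξ G s i := by
  obtain ⟨c, rfl⟩ := Nat.exists_eq_add_of_le hb
  have e12 : 15 + c - 12 = c + 3 := by omega
  have e1 : 15 + c - 1 = c + 14 := by omega
  have e9 : 15 + c - 9 = c + 6 := by omega
  cases i <;> simp only [PhiC, Yxi, gxi, hD, hR, hx, e12, e1, e9] <;> ring

end

end Crest.Agent.R272.PW_92
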