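/-
R272 (S0415), positivity at p0, piece (5A)(ii): the list `PW_92.Phi` in the `E`-charts, in the
language of `FinCB3_876` (`GenAt`, `ValC`).

`ECh` (Kum3): near `x` : `x0 = ξ s s'`, `E1 = ξ (r s' + s r')`, `p = E2 = ξ² (s s') (r r')`,
`S = N = ξ⁶ (s s')³ rho` with holomorphic frames `(s, r, η)`, `(s', r', η')`.

* `ECh.genX`, `ECh.valX` : off `Γ` (any `ξ`), generator `gX = ξ^(b+9) del^8 (s s')^b`,
  values `Yxi b ξ G (s s', r s' + s r', r r')`;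
* `ECh.genM` : near `Γ`, `ξ ≠ 0`, generator `gM = ξ^(b+14) rho⁴ (s s')^b`;

helper977
-/
import Crest.Agent.R272.Kum3_977
import Crest.Agent.R272.PhiDefs_92
import Crest.Agent.R272.FinCB3_876
import Crest.Agent.R272.Lc3_220

set_option autoImplicit false
set_option linter.unusedVariables false
set_option linter.unusedSectionVars false

open Filter Topology Set

noncomputable section

namespace Crest.Agent.R272.Kum_977

open Crest.Agent.R273.Fam_835 Crest.Agent.R272.Lc_220 Crest.Agent.R272.PW_92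
open Crest.Agent.R272.FinCB3_876 Crest.Agent.R272.Quot_783

variable {n : ℕ} {X : Type} [TopologicalSpace X] {C : Fam n X} {x : X} {a : Fin 7 → ℂ}
  {x0 E1 E2 N ξ s r η s' r' η' : X → ℂ} {b : ℕ}

/-! ### germs -/

theorem holF_of_ev {κ : Type*} [Finite κ] {u : κ → X → ℂ} (hu : ∀ j, HolN C x (u j))
    {P : X → Prop} (hP : ∀ᶠ y in 𝓝 x, P y) :
    ∃ W, IsOpen W ∧ x ∈ W ∧ (∀ j, HolF C W (u j)) ∧ ∀ y ∈ W, P y := by
  have h1 : ∀ᶠ y in 𝓝 x, (∀ j, HolN C y (u j)) ∧ P y :=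
    (eventually_all.2 fun j => (hu j).eventually).and hP
  obtain ⟨W, hW, hWo, hxW⟩ := mem_nhds_iff.1 h1
  exact ⟨W, hWo, hxW, fun j => (holF_iff hWo).2 fun y hy => (hW hy).1 j, fun y hy => (hW hy).2⟩

theorem genAt_of_ev {κ : Type} [Finite κ] {f u : κ → X → ℂ} {e : X → ℂ}
    (hu : ∀ j, HolN C x (u j)) (he : ∀ᶠ y in 𝓝 x, ∀ j, f j y = u j y * e y)
    (h0 : ∃ j, u j x ≠ 0) : GenAt C f e x := by
  obtain ⟨W, hW, hx, h1, h2⟩ := holF_of_ev hu he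
  exact ⟨W, hW, hx, u, h1, h2, h0⟩

theorem valC_of_ev {κ : Type} [Finite κ] {f u : κ → X → ℂ} {e : X → ℂ}
    (hu : ∀ j, HolN C x (u j)) (he : ∀ᶠ y in 𝓝 x, ∀ j, f j y = u j y * e y)
    (h0 : ∃ j, u j x ≠ 0) (heh : HolN C x e) (hnz : NZ x e) : ValC C f x fun j => u j x := by
  have h3 : ∀ᶠ y in 𝓝 x, y ∈ closure {y | e y ≠ 0} := by
    filter_upwards [NZ.eventually heh hnz] with y hy using hy.mem_closure
  obtain ⟨W, hW, hx, h1, h2⟩ := holF_of_ev hu (he.and h3)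
  exact ⟨Function.ne_iff.2 h0, W, hW, hx, e, fun y hy => (h2 y hy).2, u, h1,
    fun y hy => (h2 y hy).1, fun _ => rfl⟩

/-! ### the list as functions -/

/-- the list `Φ` -/
def Pf (b : ℕ) (x0 E1 E2 N : X → ℂ) (i : IPhi) (y : X) : ℂ :=
  Phi b (x0 y) (E1 y) (E2 y) (N y) i

/-- the symmetric product of two frames -/
def sym3 (s r s' r' : ℂ) : Fin 3 → ℂ := ![s * s', r * s' + s * r', r * r']

theorem disc_sym3 (ξ s r s' r' : ℂ) :
    disc (fun j => ξ * sym3 s r s' r' j) = ξ ^ 2 * del s r s' r' ^ 2 := by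
  unfold disc sym3 del
  simp
  ring

/-- reduced vector, form `xi` -/
def uX (b : ℕ) (a : Fin 7 → ℂ) (ξ s r η s' r' η' : X → ℂ) (i : IPhi) (y : X) : ℂ :=
  Yxi b (ξ y) (GG a (s y) (r y) (η y) (s' y) (r' y) (η' y)) (sym3 (s y) (r y) (s' y) (r' y)) i

/-- generator, form `xi` -/
def gX (b : ℕ) (ξ s r s' r' : X → ℂ) (y : X) : ℂ :=
  gxi b (ξ y) (del (s y) (r y) (s' y) (r' y) ^ 2) (s y * s' y)

theorem gX_eq (y : X) : gX b ξ s r s' r' y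
    = ξ y ^ (b + 9) * (del (s y) (r y) (s' y) (r' y) ^ 2) ^ 4 * (s y * s' y) ^ b := rfl

theorem ECh.xi (hb : 15 ≤ b) (h : ECh C a x x0 E1 E2 N ξ s r η s' r' η')
    (h0 : Off a x s r η s' r' η') :
    ∀ᶠ y in 𝓝 x, ∀ i, Pf b x0 E1 E2 N i y
      = uX b a ξ s r η s' r' η' i y * gX b ξ s r s' r' y := by
  filter_upwards [h.e0, h.e1, h.e2, h.eN, h.F.GG_mul h.F' h0] with y k0 k1 k2 k3 k4 i
  unfold Pf uX gX
  rw [phi_eq hb (x := fun j => ξ y * sym3 (s y) (r y) (s' y) (r' y) j)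
    (R := ξ y ^ 3 * rho a (s y) (r y) (η y) (s' y) (r' y) (η' y)),
    phi_xi hb (s := sym3 (s y) (r y) (s' y) (r' y)) (δ := del (s y) (r y) (s' y) (r' y) ^ 2)
      (G := GG a (s y) (r y) (η y) (s' y) (r' y) (η' y)) (fun j => rfl) (by rw [← k4]; ring)
      (disc_sym3 _ _ _ _ _)]
  · rw [mul_comm]; rfl
  · rw [k0]; rfl
  · rw [k1]; rfl
  · rw [k2]; simp [sym3]; ring
  · rw [k3]; simp [sym3]; ring

theorem holN_sym3 (hs : HolN C x s) (hr : HolN C x r) (hs' : HolN C x s') (hr' : HolN C x r')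
    (j : Fin 3) : HolN C x fun y => sym3 (s y) (r y) (s' y) (r' y) j := by
  unfold sym3
  fin_cases j
  · exact hs.mul hs'
  · exact (hr.mul hs').add (hs.mul hr')
  · exact hr.mul hr'

theorem ECh.holN_uX (h : ECh C a x x0 E1 E2 N ξ s r η s' r' η')
    (h0 : Off a x s r η s' r' η') (i : IPhi) : HolN C x (uX b a ξ s r η s' r' η' i) := by
  have hξ := h.hξ
  have hG := h.F.holN_GG h.F' h0
  have hk := holN_sym3 h.F.hs h.F.hr h.F'.hs h.F'.hr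
  unfold uX
  cases i with
  | l j => exact hk j
  | W => exact hG
  | W2 => exact hξ.mul (hG.pow 2)
  | W3 j => exact ((hξ.pow 3).mul (hG.pow 3)).mul (hk j)
  | W4 j k => exact (((hξ.pow 5).mul (hG.pow 4)).mul (hk j)).mul (hk k)
  | v => exact (hξ.pow _).mul ((hk 2).pow _)
  | last => exact ((hξ.pow _).mul (hG.pow 4)).mul ((hk 2).pow _)

theorem ECh.sym3_ne (h : ECh C a x x0 E1 E2 N ξ s r η s' r' η') :
    ∃ j, sym3 (s x) (r x) (s' x) (r' x) j ≠ 0 := by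
  rcases kap_ne h.F.ne h.F'.ne with k | k | k
  · exact ⟨0, k⟩
  · exact ⟨1, k⟩
  · exact ⟨2, k⟩

theorem ECh.uX_ne (h : ECh C a x x0 E1 E2 N ξ s r η s' r' η') :
    ∃ i, uX b a ξ s r η s' r' η' i x ≠ 0 := by
  obtain ⟨j, hj⟩ := h.sym3_ne
  exact ⟨.l j, hj⟩

/-- **generator off `Γ`** -/
theorem ECh.genX (hb : 15 ≤ b) (h : ECh C a x x0 E1 E2 N ξ s r η s' r' η')
    (h0 : Off a x s r η s' r' η') : GenAt C (Pf b x0 E1 E2 N) (gX b ξ s r s' r') x :=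
  genAt_of_ev (fun i => h.holN_uX h0 i) (h.xi hb h0) h.uX_ne

theorem ECh.holN_gX (h : ECh C a x x0 E1 E2 N ξ s r η s' r' η') :
    HolN C x (gX b ξ s r s' r') :=
  ((h.hξ.pow _).mul (((holN_del h.F.hs h.F.hr h.F'.hs h.F'.hr).pow 2).pow 4)).mul
    ((h.F.hs.mul h.F'.hs).pow b)

theorem ECh.nz_gX (h : ECh C a x x0 E1 E2 N ξ s r η s' r' η') (n1 : NZ x ξ) (n2 : NZ x s)
    (n3 : NZ x s') (n4 : NZ x fun y => del (s y) (r y) (s' y) (r' y)) :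
    NZ x (gX b ξ s r s' r') := by
  have hd := holN_del h.F.hs h.F.hr h.F'.hs h.F'.hr
  refine NZ.mul ((h.hξ.pow _).mul ((hd.pow 2).pow 4)) ((h.F.hs.mul h.F'.hs).pow b) ?_ ?_
  · exact NZ.mul (h.hξ.pow _) ((hd.pow 2).pow 4) (n1.pow h.hξ _) ((n4.pow hd 2).pow (hd.pow 2) 4)
  · exact (NZ.mul h.F.hs h.F'.hs n2 n3).pow (h.F.hs.mul h.F'.hs) b

/-- **values off `Γ`** -/
theorem ECh.valX (hb : 15 ≤ b) (h : ECh C a x x0 E1 E2 N ξ s r η s' r' η')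
    (h0 : Off a x s r η s' r' η') (n1 : NZ x ξ) (n2 : NZ x s)
    (n3 : NZ x s') (n4 : NZ x fun y => del (s y) (r y) (s' y) (r' y)) :
    ValC C (Pf b x0 E1 E2 N) x fun i => Yxi b (ξ x)
      (GG a (s x) (r x) (η x) (s' x) (r' x) (η' x)) (sym3 (s x) (r x) (s' x) (r' x)) i :=
  valC_of_ev (fun i => h.holN_uX h0 i) (h.xi hb h0) h.uX_ne h.holN_gX (h.nz_gX n1 n2 n3 n4)

/-- the values on the zero section: the Kummer map -/
def Kv (g : ℂ) (k : Fin 3 → ℂ) : IPhi → ℂ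
  | .l j => k j
  | .W => g
  | _ => 0

theorem Yxi_zero (hb : 15 ≤ b) (g : ℂ) (k : Fin 3 → ℂ) (i : IPhi) : Yxi b 0 g k i = Kv g k i := by
  have h1 : b - 1 ≠ 0 := by omega
  have h9 : b - 9 ≠ 0 := by omega
  cases i <;> simp [Yxi, Kv, h1, h9]

/-! ### near `Γ`, `ξ ≠ 0` -/

/-- the reduced vector of `phi_mu`, with `A = α²` -/
def YA (b : ℕ) (A μ : ℂ) (y : Fin 3 → ℂ) : IPhi → ℂ
  | .l j => A ^ 4 * μ ^ 3 * y j
  | .W => A ^ 3 * μ
  | .W2 => A ^ 2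
  | .W3 j => A * y j
  | .W4 j k => y j * y k
  | .v => A ^ 4 * μ ^ (b + 2) * y 2 ^ b
  | .last => μ ^ (b - 14) * y 2 ^ (b - 12)

theorem YA_sq (b : ℕ) (α μ : ℂ) (y : Fin 3 → ℂ) (i : IPhi) : YA b (α ^ 2) μ y i = Ymu b α μ y i := by
  cases i <;> simp only [YA, Ymu] <;> ring

theorem phi_A {b : ℕ} (hb : 15 ≤ b) {x y : Fin 3 → ℂ} {R A μ β : ℂ} (hx : ∀ j, x j = μ * y j)
    (hR : R = μ ^ 3 * β) (hD : disc x = A * μ ^ 4 * β) (i : IPhi) :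
    PhiC b x R i = gmu b μ β (y 0) * YA b A μ y i := by
  obtain ⟨α, hα⟩ : ∃ α : ℂ, α ^ 2 = A := ⟨A ^ (1 / 2 : ℂ), by
    rw [← Complex.cpow_nat_mul]; simp⟩
  subst hα
  rw [YA_sq]
  exact phi_mu hb hx hR hD i

/-- reduced vector, form `mu` -/
def uM (b : ℕ) (a : Fin 7 → ℂ) (ξ s r η s' r' η' : X → ℂ) (i : IPhi) (y : X) : ℂ :=
  YA b (GI a (s y) (r y) (η y) (s' y) (r' y) (η' y) / ξ y ^ 2) (ξ y)
    (sym3 (s y) (r y) (s' y) (r' y)) i

/-- generator, form `mu` -/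
def gM (b : ℕ) (a : Fin 7 → ℂ) (ξ s r η s' r' η' : X → ℂ) (y : X) : ℂ :=
  gmu b (ξ y) (rho a (s y) (r y) (η y) (s' y) (r' y) (η' y)) (s y * s' y)

theorem gM_eq (y : X) : gM b a ξ s r η s' r' η' y = ξ y ^ (b + 14)
    * rho a (s y) (r y) (η y) (s' y) (r' y) (η' y) ^ 4 * (s y * s' y) ^ b := rfl

theorem ECh.mu (hb : 15 ≤ b) (h : ECh C a x x0 E1 E2 N ξ s r η s' r' η')
    (h0 : Near a x s r η s' r' η') (hx : ξ x ≠ 0) :
    ∀ᶠ y in 𝓝 x, ∀ i, Pf b x0 E1 E2 N i y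
      = uM b a ξ s r η s' r' η' i y * gM b a ξ s r η s' r' η' y := by
  filter_upwards [h.e0, h.e1, h.e2, h.eN, h.F.GI_mul h.F' h0,
    h.hξ.continuousAt.eventually_ne hx] with y k0 k1 k2 k3 k4 k5 i
  unfold Pf uM gM
  rw [phi_eq hb (x := fun j => ξ y * sym3 (s y) (r y) (s' y) (r' y) j)
    (R := ξ y ^ 3 * rho a (s y) (r y) (η y) (s' y) (r' y) (η' y)),
    phi_A hb (y := sym3 (s y) (r y) (s' y) (r' y))
      (A := GI a (s y) (r y) (η y) (s' y) (r' y) (η' y) / ξ y ^ 2) (fun j => rfl) rfl]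
  · rw [mul_comm]; rfl
  · rw [disc_sym3, ← k4]
    field_simp
  · rw [k0]; rfl
  · rw [k1]; rfl
  · rw [k2]; simp [sym3]; ring
  · rw [k3]; simp [sym3]; ring

theorem ECh.holN_uM (h : ECh C a x x0 E1 E2 N ξ s r η s' r' η')
    (h0 : Near a x s r η s' r' η') (hx : ξ x ≠ 0) (i : IPhi) :
    HolN C x (uM b a ξ s r η s' r' η' i) := by
  have hξ := h.hξ
  have hA := (h.F.holN_GI h.F' h0).div (hξ.pow 2) (pow_ne_zero 2 hx)
  have hk := holN_sym3 h.F.hs h.F.hr h.F'.hs h.F'.hr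
  unfold uM
  cases i with
  | l j => exact ((hA.pow 4).mul (hξ.pow 3)).mul (hk j)
  | W => exact (hA.pow 3).mul hξ
  | W2 => exact hA.pow 2
  | W3 j => exact hA.mul (hk j)
  | W4 j k => exact (hk j).mul (hk k)
  | v => exact ((hA.pow 4).mul (hξ.pow _)).mul ((hk 2).pow _)
  | last => exact (hξ.pow _).mul ((hk 2).pow _)

/-- **generator near `Γ`** -/
theorem ECh.genM (hb : 15 ≤ b) (h : ECh C a x x0 E1 E2 N ξ s r η s' r' η')
    (h0 : Near a x s r η s' r' η') (hx : ξ x ≠ 0) :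
    GenAt C (Pf b x0 E1 E2 N) (gM b a ξ s r η s' r' η') x := by
  refine genAt_of_ev (fun i => h.holN_uM h0 hx i) (h.mu hb h0 hx) ?_
  obtain ⟨j, hj⟩ := h.sym3_ne
  exact ⟨.W4 j j, mul_ne_zero hj hj⟩

end Crest.Agent.R272.Kum_977
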