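import Crest.Agent.R272.Cur4_297

/-!
Row 272 (helper297): CUR-INST, part 5: `cur P : AJ_956.Cur (Cv P)`.
-/

set_option autoImplicit false
set_option linter.unusedSectionVars false

open Set Filter Topology Metric Complex OnePoint

noncomputable section

namespace Crest.Agent.R272.Cur_297

open Crest.Agent.R272.AJ_956 (E2 det2 Cur)

variable {P : Par}

/-! ### transition functions -/

theorem an_k (c : Cv P) {γ : ℂ → Cv P} {s : ℂ}
    (h0 : tt c ≠ ∞ → tt (γ s) ≠ ∞ ∧ (∀ᶠ z in 𝓝 s, tt (γ z) ≠ ∞) ∧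
      AnalyticAt ℂ (fun z => tv (γ z)) s ∧ AnalyticAt ℂ (fun z => yv (γ z)) s)
    (h1 : ¬ tt c ≠ ∞ → (∀ᶠ z in 𝓝 s, tt (γ z) ≠ ((0 : ℂ) : P1)) ∧
      AnalyticAt ℂ (fun z => sv (γ z)) s) : AnalyticAt ℂ (fun z => k c (γ z)) s := by
  by_cases h : tt c ≠ ∞
  · obtain ⟨-, h2, h3, h4⟩ := h0 h
    by_cases hy : yv c = 0
    · exact h4.congr (h2.mono fun z hz => (k_apply_y h hy hz).symm)
    · exact (h3.sub analyticAt_const).congr (h2.mono fun z hz => (k_apply_t h hy hz).symm)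
  · obtain ⟨h2, h3⟩ := h1 h
    exact h3.congr (h2.mono fun z hz => (k_apply_s h hz).symm)

theorem ev_source {c : Cv P} {s : ℂ} (hs : s ∈ (k c).target) {O : Set (Cv P)} (hO : IsOpen O)
    (h : (k c).symm s ∈ O) : ∀ᶠ z in 𝓝 s, (k c).symm z ∈ O :=
  (ev_open hs hO h).mono fun _ hz => hz.2

theorem k_an (c c' x : Cv P) (hx : x ∈ (k c).source) (hx' : x ∈ (k c').source) :
    AnalyticAt ℂ (fun z => k c' ((k c).symm z)) (k c x) := by
  have hs : k c x ∈ (k c).target := (k c).map_source hx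
  have hxs : (k c).symm (k c x) = x := (k c).left_inv hx
  refine an_k c' ?_ ?_
  · intro h
    have h0 : tt ((k c).symm (k c x)) ≠ ∞ := by rw [hxs]; exact k_source0 h hx'
    have hR := R0 c hs h0
    exact ⟨h0, ev_source hs isOpen_ne_inf h0, hR.f_an, hR.g_an⟩
  · intro h
    have h0 : tt ((k c).symm (k c x)) ≠ ((0 : ℂ) : P1) := by rw [hxs]; exact k_source1 h hx'
    exact ⟨ev_source hs isOpen_ne_zero h0, (R1 c hs h0).f_an⟩

theorem iv_an (c : Cv P) : AnalyticAt ℂ (fun z => k (iv c) (iv ((k c).symm z))) 0 := by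
  have hs := zero_mem c
  refine an_k (iv c) (γ := fun z => iv ((k c).symm z)) ?_ ?_
  · intro h
    have h0 : tt ((k c).symm 0) ≠ ∞ := by rw [symm_zero]; exact h
    have hR := R0 c hs h0
    refine ⟨h0, ev_source hs isOpen_ne_inf h0, hR.f_an, ?_⟩
    simp only [yv_iv]
    exact hR.g_an.neg
  · intro h
    have h0 : tt ((k c).symm 0) ≠ ((0 : ℂ) : P1) := by rw [symm_zero]; exact nz h
    exact ⟨ev_source hs isOpen_ne_zero h0, (R1 c hs h0).f_an⟩

/-! ### compatibility -/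

/-- the general comparison: a holomorphic map `σ` between charts with `α^*ω = ε ω` -/
theorem comp_const {c c' : Cv P} {σ : ℂ → ℂ} {s ε : ℂ} {α : Cv P → Cv P}
    (hσ : AnalyticAt ℂ σ s) (hs : s ∈ (k c).target) (hs' : σ s ∈ (k c').target)
    (hα : ∀ᶠ z in 𝓝 s, (k c').symm (σ z) = α ((k c).symm z))
    (h0 : ∀ y : Cv P, tt (α y) = tt y) (hy : ∀ y : Cv P, yv (α y) = ε * yv y)
    (hv : ∀ y : Cv P, vv (α y) = ε * vv y) :
    ∀ᶠ z in 𝓝 s, om c z - (ε * deriv σ z) • om c' (σ z) = 0 := by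
  have hα0 := hα.self_of_nhds
  by_cases h : tt ((k c).symm s) ≠ ∞
  · have h' : tt ((k c').symm (σ s)) ≠ ∞ := by rw [hα0, h0]; exact h
    refine transfer hσ (R0 c hs h) (R0 c' hs' h') ?_ ?_ (om_an c s hs) (om_an c' _ hs')
    · filter_upwards [hα] with z hz
      show tv ((k c').symm (σ z)) = tv ((k c).symm z)
      rw [hz]; unfold tv; rw [h0]
    · filter_upwards [hα] with z hz
      show yv ((k c').symm (σ z)) = ε * yv ((k c).symm z)
      rw [hz, hy]
  · have h1 : tt ((k c).symm s) ≠ ((0 : ℂ) : P1) := nz h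
    have h' : tt ((k c').symm (σ s)) ≠ ((0 : ℂ) : P1) := by rw [hα0, h0]; exact h1
    refine transfer hσ (R1 c hs h1) (R1 c' hs' h') ?_ ?_ (om_an c s hs) (om_an c' _ hs')
    · filter_upwards [hα] with z hz
      show sv ((k c').symm (σ z)) = sv ((k c).symm z)
      rw [hz]; unfold sv; rw [h0]
    · filter_upwards [hα] with z hz
      show vv ((k c').symm (σ z)) = ε * vv ((k c).symm z)
      rw [hz, hv]

theorem hasDerivAt_comp_G {c' : Cv P} {σ : ℂ → ℂ} {z : ℂ} (hσ : AnalyticAt ℂ σ z)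
    (hz : σ z ∈ (k c').target) : HasDerivAt (fun z => G c' (σ z)) (deriv σ z • om c' (σ z)) z :=
  HasDerivAt.scomp z (hasDerivAt_G c' hz) hσ.differentiableAt.hasDerivAt

theorem compat (c c' x : Cv P) (hx : x ∈ (k c).source) (hx' : x ∈ (k c').source) :
    ∀ᶠ y in 𝓝 x, G c' (k c' y) - G c (k c y) = G c' (k c' x) - G c (k c x) := by
  have hs : k c x ∈ (k c).target := (k c).map_source hx
  have hxs : (k c).symm (k c x) = x := (k c).left_inv hx
  set τ : ℂ → ℂ := fun z => k c' ((k c).symm z) with hτ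
  have hτs : τ (k c x) = k c' x := by simp only [hτ]; rw [hxs]
  have hs' : τ (k c x) ∈ (k c').target := by rw [hτs]; exact (k c').map_source hx'
  have hτa : AnalyticAt ℂ τ (k c x) := k_an c c' x hx hx'
  have hev : ∀ᶠ z in 𝓝 (k c x), (k c).symm z ∈ (k c').source :=
    ev_source hs (k c').open_source (by rw [hxs]; exact hx')
  have h1 := comp_const (c := c) (c' := c') (ε := 1) (α := fun y => y) hτa hs hs'
    (hev.mono fun z hz => (k c').left_inv hz) (fun _ => rfl) (fun _ => (one_mul _).symm)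
    (fun _ => (one_mul _).symm)
  have h2 : ∀ᶠ z in 𝓝 (k c x), HasDerivAt (fun z => G c' (τ z) - G c z) 0 z := by
    filter_upwards [h1, hτa.eventually_analyticAt, (k c).open_target.mem_nhds hs,
      hτa.continuousAt.preimage_mem_nhds ((k c').open_target.mem_nhds hs')] with z e1 e2 e3 e4
    have h3 := (hasDerivAt_comp_G e2 e4).fun_sub (hasDerivAt_G c e3)
    refine h3.congr_deriv ?_
    rw [one_mul] at e1
    rw [← neg_sub, e1, neg_zero]
  have h3 := const_of_deriv h2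
  have h4 := ((k c).continuousAt hx).eventually h3
  filter_upwards [h4, (k c).open_source.mem_nhds hx] with y e1 e2
  simp only [hτ] at e1
  rw [(k c).left_inv e2, hxs] at e1
  exact e1

theorem anti (c : Cv P) : ∀ᶠ y in 𝓝 c, G (iv c) (k (iv c) (iv y)) = -G c (k c y) := by
  have hs := zero_mem c
  set σ : ℂ → ℂ := fun z => k (iv c) (iv ((k c).symm z)) with hσ
  have hσ0 : σ 0 = 0 := by simp only [hσ]; rw [symm_zero, k_zero]
  have hσa : AnalyticAt ℂ σ 0 := iv_an c
  have hs' : σ 0 ∈ (k (iv c)).target := by rw [hσ0]; exact zero_mem _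
  have hev : ∀ᶠ z in 𝓝 (0 : ℂ), iv ((k c).symm z) ∈ (k (iv c)).source := by
    refine ev_source hs (O := iv ⁻¹' (k (iv c)).source)
      ((k (iv c)).open_source.preimage continuous_iv) ?_
    rw [mem_preimage, symm_zero]
    exact k_mem _
  have h1 := comp_const (c := c) (c' := iv c) (ε := -1) (α := iv) hσa hs hs'
    (hev.mono fun z hz => (k (iv c)).left_inv hz) (fun _ => rfl)
    (fun y => by rw [yv_iv]; ring) (fun y => by rw [vv_iv]; ring)
  have h2 : ∀ᶠ z in 𝓝 (0 : ℂ), HasDerivAt (fun z => G (iv c) (σ z) + G c z) 0 z := by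
    filter_upwards [h1, hσa.eventually_analyticAt, (k c).open_target.mem_nhds hs,
      hσa.continuousAt.preimage_mem_nhds ((k (iv c)).open_target.mem_nhds hs')] with z e1 e2 e3 e4
    have h3 := (hasDerivAt_comp_G e2 e4).fun_add (hasDerivAt_G c e3)
    refine h3.congr_deriv ?_
    rw [neg_one_mul, neg_smul, sub_neg_eq_add] at e1
    rw [add_comm]; exact e1
  have h3 := const_of_deriv h2
  have h3' : ∀ᶠ z in 𝓝 (k c c), G (iv c) (σ z) + G c z = G (iv c) (σ 0) + G c 0 := by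
    rw [k_zero]; exact h3
  have h4 := ((k c).continuousAt (k_mem c)).eventually h3'
  filter_upwards [h4, (k c).open_source.mem_nhds (k_mem c)] with y e1 e2
  simp only [hσ] at e1
  rw [(k c).left_inv e2, symm_zero, k_zero, G_zero, G_zero, add_zero] at e1
  exact eq_neg_of_add_eq_zero_left e1

/-! ### nondegeneracy -/

theorem det2_smul (a b : ℂ) (u v : E2) : det2 (a • u) (b • v) = a * b * det2 u v := by
  simp only [det2, Pi.smul_apply, smul_eq_mul]; ring

theorem X0 {c : Cv P} (h : tt c ≠ ∞) : (ch0 (aq c h)).X 0 = tv c := by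
  have := (symm0 h (mem_ball_self (rad_pos c))).2.1
  rw [← this, symm_zero]

theorem Y0 {c : Cv P} (h : tt c ≠ ∞) : (ch0 (aq c h)).Y 0 = yv c := by
  have := (symm0 h (mem_ball_self (rad_pos c))).2.2
  rw [← this, symm_zero]

theorem X1 {c : Cv P} (h : ¬ tt c ≠ ∞) : (ch1 (bq c (nz h))).X 0 = 0 := by
  have := (symm1 h (mem_ball_self (rad_pos c))).2.1
  exact this.symm.trans (by rw [symm_zero]; exact sv_inf h)

theorem Y1 {c : Cv P} (h : ¬ tt c ≠ ∞) : (ch1 (bq c (nz h))).Y 0 = vv c := by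
  have := (symm1 h (mem_ball_self (rad_pos c))).2.2
  rw [← this, symm_zero]

theorem m0_ne {p : ℂ → ℂ} {q : Aff p} (C : Ch p q) : C.m 0 ≠ 0 := C.m_ne 0 (mem_ball_self C.r_pos)

theorem om_zero0 {c : Cv P} (h : tt c ≠ ∞) : om c 0 = (ch0 (aq c h)).m 0 • la (tv c) := by
  rw [om_eq0 h]
  show (ch0 (aq c h)).m 0 • la ((ch0 (aq c h)).X 0) = _
  rw [X0]

theorem om_zero1 {c : Cv P} (h : ¬ tt c ≠ ∞) : om c 0 = (ch1 (bq c (nz h))).m 0 • lb 0 := by
  rw [om_eq1 h]
  show (ch1 (bq c (nz h))).m 0 • lb ((ch1 (bq c (nz h))).X 0) = _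
  rw [X1 h]

theorem nd2 (c c' : Cv P) (h1 : c' ≠ c) (h2 : c' ≠ iv c) :
    det2 (deriv (G c) 0) (deriv (G c') 0) ≠ 0 := by
  have ht : tt c ≠ tt c' := fun e => by
    rcases eq_or_eq_iv e with h | h
    · exact h1 h
    · exact h2 h
  rw [deriv_G c (zero_mem c), deriv_G c' (zero_mem c')]
  by_cases h : tt c ≠ ∞
  · by_cases h' : tt c' ≠ ∞
    · rw [om_zero0 h, om_zero0 h', det2_smul]
      refine mul_ne_zero (mul_ne_zero (m0_ne _) (m0_ne _)) ?_
      have e : det2 (la (tv c)) (la (tv c')) = tv c' - tv c := by simp [det2, la]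
      rw [e, sub_ne_zero]
      intro e2
      apply ht
      rw [tt_eq h, tt_eq h', e2]
    · rw [om_zero0 h, om_zero1 h', det2_smul]
      refine mul_ne_zero (mul_ne_zero (m0_ne _) (m0_ne _)) ?_
      simp [det2, la, lb]
  · by_cases h' : tt c' ≠ ∞
    · rw [om_zero1 h, om_zero0 h', det2_smul]
      refine mul_ne_zero (mul_ne_zero (m0_ne _) (m0_ne _)) ?_
      simp [det2, la, lb]
    · exact absurd ((not_not.1 h).trans (not_not.1 h').symm) ht

theorem dG_ev (c : Cv P) : deriv (G c) =ᶠ[𝓝 0] om c := by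
  filter_upwards [(k c).open_target.mem_nhds (zero_mem c)] with z hz
  exact deriv_G c hz

theorem ddG (c : Cv P) (i : Fin 2) : deriv (deriv (G c)) 0 i = deriv (fun z => om c z i) 0 := by
  rw [(dG_ev c).deriv_eq]
  have h := (om_an c 0 (zero_mem c)).differentiableAt
  rw [deriv_pi (fun i => (differentiableAt_pi.1 h) i)]

theorem dddG (c : Cv P) (i : Fin 2) :
    deriv (deriv (deriv (G c))) 0 i = deriv (deriv (fun z => om c z i)) 0 := by
  have h1 : deriv (deriv (G c)) =ᶠ[𝓝 0] fun z => fun i => deriv (fun z => om c z i) z := by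
    filter_upwards [(dG_ev c).eventually_nhds, (om_an c 0 (zero_mem c)).eventually_analyticAt]
      with z hz hz'
    rw [EventuallyEq.deriv_eq hz]
    have h := hz'.differentiableAt
    exact deriv_pi (fun i => (differentiableAt_pi.1 h) i)
  rw [h1.deriv_eq]
  have h2 : ∀ i, AnalyticAt ℂ (fun z => om c z i) 0 := fun i =>
    (analyticAt_pi_iff.1 (om_an c 0 (zero_mem c))) i
  rw [deriv_pi (fun i => (h2 i).deriv.differentiableAt)]

theorem det_a {m X : ℂ → ℂ} (hm : AnalyticAt ℂ m 0) (hX : AnalyticAt ℂ X 0) :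
    m 0 * deriv (fun z => m z * X z) 0 - m 0 * X 0 * deriv m 0 = m 0 ^ 2 * deriv X 0 := by
  rw [deriv_fun_mul hm.differentiableAt hX.differentiableAt]
  ring

theorem det_b {m X : ℂ → ℂ} (hm : AnalyticAt ℂ m 0) (hX : AnalyticAt ℂ X 0) :
    m 0 * deriv (deriv (fun z => m z * X z)) 0 - m 0 * X 0 * deriv (deriv m) 0 =
      2 * m 0 * deriv m 0 * deriv X 0 + m 0 ^ 2 * deriv (deriv X) 0 := by
  have h1 : deriv (fun z => m z * X z) =ᶠ[𝓝 0] fun z => deriv m z * X z + m z * deriv X z := by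
    filter_upwards [hm.eventually_analyticAt, hX.eventually_analyticAt] with z h2 h3
    rw [deriv_fun_mul h2.differentiableAt h3.differentiableAt]
  have e1 : DifferentiableAt ℂ (fun z => deriv m z * X z) 0 :=
    hm.deriv.differentiableAt.fun_mul hX.differentiableAt
  have e2 : DifferentiableAt ℂ (fun z => m z * deriv X z) 0 :=
    hm.differentiableAt.fun_mul hX.deriv.differentiableAt
  rw [h1.deriv_eq, deriv_fun_add e1 e2, deriv_fun_mul hm.deriv.differentiableAt hX.differentiableAt,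
    deriv_fun_mul hm.differentiableAt hX.deriv.differentiableAt]
  ring

theorem nd (c : Cv P) (hc : iv c ≠ c) :
    det2 (deriv (G c) 0) (deriv (deriv (G c)) 0) ≠ 0 := by
  unfold det2
  rw [ddG, ddG, deriv_G c (zero_mem c)]
  by_cases h : tt c ≠ ∞
  · set C := ch0 (aq c h) with hC
    have h00 : (0 : ℂ) ∈ ball (0 : ℂ) C.r := mem_ball_self C.r_pos
    have e0 : (fun z => om c z 0) = C.m := by rw [om_eq0 h]; funext z; simp [la, hC]
    have e1 : (fun z => om c z 1) = fun z => C.m z * C.X z := by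
      rw [om_eq0 h]; funext z; simp [la, hC]
    have e0' : om c 0 0 = C.m 0 := congrFun e0 0
    have e1' : om c 0 1 = C.m 0 * C.X 0 := congrFun e1 0
    rw [e0, e1, e0', e1', det_a (C.m_an 0 h00) (C.X_an 0 h00), ← C.m_eq 0 h00]
    refine mul_ne_zero (pow_ne_zero 2 (m0_ne C)) (mul_ne_zero (m0_ne C) ?_)
    rw [Y0 h]
    intro h0
    exact hc ((iv_eq_iff0 h).2 h0)
  · set C := ch1 (bq c (nz h)) with hC
    have h00 : (0 : ℂ) ∈ ball (0 : ℂ) C.r := mem_ball_self C.r_pos
    have e0 : (fun z => om c z 0) = fun z => -(C.m z * C.X z) := by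
      rw [om_eq1 h]; funext z; simp [lb, hC]
    have e1 : (fun z => om c z 1) = fun z => -C.m z := by
      rw [om_eq1 h]; funext z; simp [lb, hC]
    have e0' : om c 0 0 = -(C.m 0 * C.X 0) := congrFun e0 0
    have e1' : om c 0 1 = -C.m 0 := congrFun e1 0
    have h3 := det_a (C.m_an 0 h00) (C.X_an 0 h00)
    rw [e0, e1, e0', e1', deriv.fun_neg, deriv.fun_neg]
    have h4 : -(C.m 0 * C.X 0) * -deriv C.m 0 - -C.m 0 * -deriv (fun z => C.m z * C.X z) 0 =
        -(C.m 0 ^ 2 * deriv C.X 0) := by rw [← h3]; ring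
    rw [h4, ← C.m_eq 0 h00]
    refine neg_ne_zero.2 (mul_ne_zero (pow_ne_zero 2 (m0_ne C)) (mul_ne_zero (m0_ne C) ?_))
    rw [Y1 h]
    exact vv_inf h

theorem Y_eq_id {c : Cv P} (h : tt c ≠ ∞) (h0 : yv c = 0) {s : ℂ}
    (hs : s ∈ ball (0 : ℂ) (rad c)) : (ch0 (aq c h)).Y s = s := by
  obtain ⟨h1, -, h3⟩ := symm0 h hs
  rw [← h3, ← k_apply_y h h0 h1]
  exact (k c).right_inv (by rw [k_target]; exact hs)

theorem nd3 (c : Cv P) (hc : iv c = c) :
    det2 (deriv (G c) 0) (deriv (deriv (deriv (G c))) 0) ≠ 0 := by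
  have h : tt c ≠ ∞ := fun h => iv_ne_inf h hc
  have hy := (iv_eq_iff0 h).1 hc
  unfold det2
  rw [dddG, dddG, deriv_G c (zero_mem c)]
  set C := ch0 (aq c h) with hC
  have h00 : (0 : ℂ) ∈ ball (0 : ℂ) C.r := mem_ball_self C.r_pos
  have e0 : (fun z => om c z 0) = C.m := by rw [om_eq0 h]; funext z; simp [la, hC]
  have e1 : (fun z => om c z 1) = fun z => C.m z * C.X z := by
    rw [om_eq0 h]; funext z; simp [la, hC]
  have e0' : om c 0 0 = C.m 0 := congrFun e0 0
  have e1' : om c 0 1 = C.m 0 * C.X 0 := congrFun e1 0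
  have hX' : deriv C.X =ᶠ[𝓝 0] fun s => C.m s * s := by
    filter_upwards [isOpen_ball.mem_nhds h00] with s hs
    rw [← C.m_eq s hs]
    congr 1
    exact Y_eq_id h hy (by rw [rad_eq0 h]; exact hs)
  have h1 : deriv C.X 0 = 0 := by rw [hX'.eq_of_nhds]; exact mul_zero _
  have h2 : deriv (deriv C.X) 0 = C.m 0 := by
    have h3 : HasDerivAt (fun s => C.m s * s) (deriv C.m 0 * 0 + C.m 0 * 1) 0 :=
      (C.m_an 0 h00).differentiableAt.hasDerivAt.fun_mul (hasDerivAt_id' 0)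
    rw [hX'.deriv_eq, h3.deriv]
    ring
  rw [e0, e1, e0', e1', det_b (C.m_an 0 h00) (C.X_an 0 h00), h1, h2, mul_zero, zero_add]
  exact mul_ne_zero (pow_ne_zero 2 (m0_ne C)) (m0_ne C)

theorem odd (c : Cv P) (hc : iv c = c) : ∀ᶠ y in 𝓝 c, k c (iv y) = -k c y := by
  have h : tt c ≠ ∞ := fun h => iv_ne_inf h hc
  have hy := (iv_eq_iff0 h).1 hc
  filter_upwards [isOpen_ne_inf.mem_nhds (show c ∈ {c : Cv P | tt c ≠ ∞} from h)] with y hy'
  rw [k_apply_y h hy hy', k_apply_y h hy (by rw [tt_iv]; exact hy'), yv_iv]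

/-- **the instance** -/
def cur (P : Par) : Cur (Cv P) where
  iv := iv
  iv_cont := continuous_iv
  iv_iv := iv_iv
  k := k
  k_mem := k_mem
  k_zero := k_zero
  k_an := k_an
  iv_an := iv_an
  G := G
  G_an := G_an
  G_zero := G_zero
  compat := compat
  anti := anti
  nd2 := nd2
  nd := nd
  odd := odd
  nd3 := nd3

end Crest.Agent.R272.Cur_297
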