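import Crest.Agent.R272.Tp2_60

/-!
# R272 (S0415), MODEL, type tp (helper916, twin of helper60): the rest of the standard model

`Std T` of `Tp2_60` : all `((S₀,S₁,S₂), c, c', v)` with `S₁ = S₀ t`, `S₂ = S₀ t'`, `v = t S₂ = t' S₁`.

* `dl i t, nu i t`    : `(1, t)` for `i = 0`, `(1/t, 1)` for `i = 1`; `pole i` the excluded value;
* `fij`               : `(c, c', ξ) ↦ (ξ δ δ', ξ ν δ', ξ δ ν'; c, c'; ξ ν ν')` in the frames `i, j`;
* `eij`               : `Dij ≃ₜ Oij` for all four pairs of frames;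
* `Inf T`             : a chart of `K` at a point over `∞` with coordinate `1/T`;
* `fm a a'`           : `(m, S₁, S₂) ↦ (m S₁ S₂, S₁, S₂; a⁻¹(m S₂), a'⁻¹(m S₁); 1/m)`;
* `em`                : `Dm ≃ₜ Om`;
* `cover`, `fibre`, `swS` (the swap), and the overlaps.
-/

set_option autoImplicit false
set_option linter.unusedSectionVars false

open Set Filter Topology OnePoint

namespace Crest.Agent.R272.Tq1_916

open Crest.Agent.R272.Tp1_60 Crest.Agent.R272.Tp2_60

noncomputable section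

/-- the excluded value of the frame `i` -/
def pole (i : Fin 2) : P1 := if i = 0 then ∞ else ((0 : ℂ) : P1)

@[simp] theorem pole_zero : pole 0 = ∞ := rfl
@[simp] theorem pole_one : pole 1 = ((0 : ℂ) : P1) := rfl

/-- first frame coordinate -/
def dl (i : Fin 2) (t : P1) : ℂ := if i = 0 then 1 else iv t
/-- second frame coordinate -/
def nu (i : Fin 2) (t : P1) : ℂ := if i = 0 then nn t else 1

@[simp] theorem dl_zero (t : P1) : dl 0 t = 1 := rfl
@[simp] theorem dl_one (t : P1) : dl 1 t = iv t := rfl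
@[simp] theorem nu_zero (t : P1) : nu 0 t = nn t := rfl
@[simp] theorem nu_one (t : P1) : nu 1 t = 1 := rfl

theorem exists_frame (t : P1) : ∃ i, t ≠ pole i := by
  by_cases h : t = ∞
  · exact ⟨1, by rw [h, pole_one]; exact OnePoint.infty_ne_coe _⟩
  · exact ⟨0, h⟩

/-- the frame is a representative of `t` -/
theorem dl_nu {i : Fin 2} {t : P1} (h : t ≠ pole i) : dl i t * nn t = nu i t * dd t := by
  fin_cases i
  · show 1 * nn t = nn t * dd t
    rw [dd_of_ne h]; ring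
  · show iv t * nn t = 1 * dd t
    rw [mul_comm, nn_mul_iv h]; ring

theorem continuousAt_dl {i : Fin 2} {t : P1} (h : t ≠ pole i) : ContinuousAt (dl i) t := by
  fin_cases i
  · exact continuousAt_const
  · exact continuousAt_iv h

theorem continuousAt_nu {i : Fin 2} {t : P1} (h : t ≠ pole i) : ContinuousAt (nu i) t := by
  fin_cases i
  · exact continuousAt_nn h
  · exact continuousAt_const

/-- scalar relating two frames: `(dl j, nu j) = g (dl i, nu i)` -/
theorem frame_change {t : P1} (h0 : t ≠ pole 0) (h1 : t ≠ pole 1) :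
    dl 0 t = nn t * dl 1 t ∧ nu 0 t = nn t * nu 1 t := by
  refine ⟨?_, by simp⟩
  show 1 = nn t * iv t
  rw [nn_mul_iv h1, dd_of_ne h0]

variable {K : Type} [TopologicalSpace K] (T : K → P1)

/-- the chart `(i, j)` -/
def fij (i j : Fin 2) (p : K × K × ℂ) : Amb K :=
  ((p.2.2 * dl i (T p.1) * dl j (T p.2.1), p.2.2 * nu i (T p.1) * dl j (T p.2.1),
    p.2.2 * dl i (T p.1) * nu j (T p.2.1)), p.1, p.2.1,
    ((p.2.2 * nu i (T p.1) * nu j (T p.2.1) : ℂ) : P1))

/-- the fibre coordinate in the frames `i, j` -/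
def xi (i j : Fin 2) (y : Amb K) : ℂ :=
  if i = 0 then (if j = 0 then y.1.1 else y.1.2.2) else (if j = 0 then y.1.2.1 else nn y.2.2.2)

@[simp] theorem xi00 (y : Amb K) : xi 0 0 y = y.1.1 := rfl
@[simp] theorem xi01 (y : Amb K) : xi 0 1 y = y.1.2.2 := rfl
@[simp] theorem xi10 (y : Amb K) : xi 1 0 y = y.1.2.1 := rfl
@[simp] theorem xi11 (y : Amb K) : xi 1 1 y = nn y.2.2.2 := rfl

variable {T}

theorem fij_mem {i j : Fin 2} {p : K × K × ℂ} (h : T p.1 ≠ pole i) (h' : T p.2.1 ≠ pole j) :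
    fij T i j p ∈ Std T := by
  have e1 := dl_nu h
  have e2 := dl_nu h'
  constructor <;> simp only [fij, nn_coe, dd_coe]
  · linear_combination (-p.2.2 * dl j (T p.2.1)) * e1
  · linear_combination (-p.2.2 * dl i (T p.1)) * e2
  · linear_combination (-p.2.2 * nu j (T p.2.1)) * e1
  · linear_combination (-p.2.2 * nu i (T p.1)) * e2

theorem xi_fij {i j : Fin 2} (p : K × K × ℂ) : xi i j (fij T i j p) = p.2.2 := by
  fin_cases i <;> fin_cases j <;> simp [fij, xi]

theorem fij_eq {i j : Fin 2} {y : Amb K} (hy : y ∈ Std T) (h : T y.2.1 ≠ pole i)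
    (h' : T y.2.2.1 ≠ pole j) (hv : y.2.2.2 ≠ ∞) :
    fij T i j (y.2.1, y.2.2.1, xi i j y) = y := by
  have e3 := dd_of_ne hv
  have h3 := coe_nn hv
  have r1 := hy.r1
  have r2 := hy.r2
  have v1 := hy.v1
  have v2 := hy.v2
  rw [e3] at v1 v2
  have key : y.1.1 = xi i j y * dl i (T y.2.1) * dl j (T y.2.2.1) ∧
      y.1.2.1 = xi i j y * nu i (T y.2.1) * dl j (T y.2.2.1) ∧
      y.1.2.2 = xi i j y * dl i (T y.2.1) * nu j (T y.2.2.1) ∧
      nn y.2.2.2 = xi i j y * nu i (T y.2.1) * nu j (T y.2.2.1) := by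
    fin_cases i <;> fin_cases j
    · simp only [pole, Fin.zero_eta, if_true] at h h'
      have d1 := dd_of_ne h
      have d2 := dd_of_ne h'
      rw [d1] at r1 v1
      rw [d2] at r2 v2
      simp only [Fin.zero_eta, xi00, dl_zero, nu_zero]
      refine ⟨by ring, by linear_combination r1, by linear_combination r2, ?_⟩
      linear_combination v1 + nn (T y.2.1) * r2
    · simp only [pole, Fin.zero_eta, Fin.mk_one, if_true, Fin.isValue, one_ne_zero, if_false]
        at h h'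
      have d1 := dd_of_ne h
      have n2 := nn_ne h'
      have i2 := nn_mul_iv h'
      rw [d1] at r1 v1
      simp only [Fin.zero_eta, Fin.mk_one, xi01, dl_zero, nu_zero, dl_one, nu_one]
      have hS0 : y.1.1 = y.1.2.2 * iv (T y.2.2.1) := by
        refine mul_left_cancel₀ n2 ?_
        linear_combination -r2 - y.1.2.2 * i2
      refine ⟨by rw [hS0]; ring, ?_, by ring, by linear_combination v1⟩
      linear_combination r1 + nn (T y.2.1) * hS0
    · simp only [pole, Fin.zero_eta, Fin.mk_one, if_true, Fin.isValue, one_ne_zero, if_false]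
        at h h'
      have d2 := dd_of_ne h'
      have n1 := nn_ne h
      have i1 := nn_mul_iv h
      rw [d2] at r2 v2
      simp only [Fin.zero_eta, Fin.mk_one, xi10, dl_zero, nu_zero, dl_one, nu_one]
      have hS0 : y.1.1 = y.1.2.1 * iv (T y.2.1) := by
        refine mul_left_cancel₀ n1 ?_
        linear_combination -r1 - y.1.2.1 * i1
      refine ⟨by rw [hS0]; ring, by ring, ?_, by linear_combination v2⟩
      linear_combination r2 + nn (T y.2.2.1) * hS0
    · simp only [pole, Fin.mk_one, Fin.isValue, one_ne_zero, if_false] at h h'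
      have n1 := nn_ne h
      have i1 := nn_mul_iv h
      have n2 := nn_ne h'
      have i2 := nn_mul_iv h'
      simp only [Fin.mk_one, xi11, dl_one, nu_one]
      have hS2 : y.1.2.2 = nn y.2.2.2 * iv (T y.2.1) := by
        refine mul_left_cancel₀ n1 ?_
        linear_combination -v1 - nn y.2.2.2 * i1
      have hS1 : y.1.2.1 = nn y.2.2.2 * iv (T y.2.2.1) := by
        refine mul_left_cancel₀ n2 ?_
        linear_combination -v2 - nn y.2.2.2 * i2
      have hS0 : y.1.1 = nn y.2.2.2 * iv (T y.2.1) * iv (T y.2.2.1) := by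
        rw [hS1] at r1
        refine mul_left_cancel₀ n1 ?_
        linear_combination -r1 - nn y.2.2.2 * iv (T y.2.2.1) * i1
      exact ⟨hS0, by rw [hS1]; ring, by rw [hS2]; ring, by ring⟩
  obtain ⟨k0, k1, k2, k3⟩ := key
  refine Prod.ext (Prod.ext k0.symm (Prod.ext k1.symm k2.symm)) (Prod.ext rfl (Prod.ext rfl ?_))
  simp only [fij]
  rw [← k3, h3]

variable (T)

/-- domain of `eij` -/
def Dij (i j : Fin 2) (r : ℝ) : Set (K × K × ℂ) :=
  {p | T p.1 ≠ pole i ∧ T p.2.1 ≠ pole j ∧ ‖p.2.2‖ * (‖dl i (T p.1)‖ + ‖nu i (T p.1)‖) *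
    (‖dl j (T p.2.1)‖ + ‖nu j (T p.2.1)‖) < r}

/-- image of `eij` -/
def Oij (i j : Fin 2) (r : ℝ) : Set (Std T) :=
  {y | T y.1.2.1 ≠ pole i ∧ T y.1.2.2.1 ≠ pole j ∧ y.1.2.2.2 ≠ ∞ ∧
    ‖xi i j y.1‖ * (‖dl i (T y.1.2.1)‖ + ‖nu i (T y.1.2.1)‖) *
      (‖dl j (T y.1.2.2.1)‖ + ‖nu j (T y.1.2.2.1)‖) < r}

/-- the chart `(i, j)` as a homeomorphism -/
def eij (hT : Continuous T) (i j : Fin 2) (r : ℝ) : Dij T i j r ≃ₜ Oij T i j r where
  toFun p := ⟨⟨fij T i j p.1, fij_mem p.2.1 p.2.2.1⟩, p.2.1, p.2.2.1, by simp [fij], by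
    simp only [xi_fij]
    exact p.2.2.2⟩
  invFun y := ⟨(y.1.1.2.1, y.1.1.2.2.1, xi i j y.1.1), y.2.1, y.2.2.1, y.2.2.2.2⟩
  left_inv p := by
    refine Subtype.ext ?_
    simp only [xi_fij]
    rfl
  right_inv y := by
    refine Subtype.ext (Subtype.ext ?_)
    exact fij_eq y.1.2 y.2.1 y.2.2.1 y.2.2.2.1
  continuous_toFun := by
    refine Continuous.subtype_mk (Continuous.subtype_mk ?_ _) _
    rw [continuous_iff_continuousAt]
    intro p
    have c1 : ContinuousAt (fun p : Dij T i j r => dl i (T p.1.1)) p :=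
      ContinuousAt.comp (g := dl i) (continuousAt_dl p.2.1) (by fun_prop)
    have c2 : ContinuousAt (fun p : Dij T i j r => nu i (T p.1.1)) p :=
      ContinuousAt.comp (g := nu i) (continuousAt_nu p.2.1) (by fun_prop)
    have c3 : ContinuousAt (fun p : Dij T i j r => dl j (T p.1.2.1)) p :=
      ContinuousAt.comp (g := dl j) (continuousAt_dl p.2.2.1) (by fun_prop)
    have c4 : ContinuousAt (fun p : Dij T i j r => nu j (T p.1.2.1)) p :=
      ContinuousAt.comp (g := nu j) (continuousAt_nu p.2.2.1) (by fun_prop)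
    have c5 : ContinuousAt (fun p : Dij T i j r =>
        ((p.1.2.2 * nu i (T p.1.1) * nu j (T p.1.2.1) : ℂ) : P1)) p :=
      ContinuousAt.comp (g := ((↑) : ℂ → P1)) OnePoint.continuous_coe.continuousAt
        (by fun_prop)
    unfold fij
    fun_prop
  continuous_invFun := by
    refine Continuous.subtype_mk ?_ _
    rw [continuous_iff_continuousAt]
    intro y
    have c1 : ContinuousAt (fun y : Oij T i j r => nn y.1.1.2.2.2) y :=
      ContinuousAt.comp (g := nn) (continuousAt_nn y.2.2.2.1) (by fun_prop)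
    have c2 : ContinuousAt (fun y : Oij T i j r => xi i j y.1.1) y := by
      unfold xi
      split_ifs <;> fun_prop
    fun_prop

variable {T}

theorem isOpen_Dij (hT : Continuous T) (i j : Fin 2) (r : ℝ) : IsOpen (Dij T i j r) := by
  rw [isOpen_iff_mem_nhds]
  intro p hp
  have h1 : ∀ᶠ q : K × K × ℂ in 𝓝 p, T q.1 ≠ pole i :=
    (hT.comp continuous_fst).continuousAt.eventually_ne hp.1
  have h2 : ∀ᶠ q : K × K × ℂ in 𝓝 p, T q.2.1 ≠ pole j :=
    (hT.comp (continuous_fst.comp continuous_snd)).continuousAt.eventually_ne hp.2.1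
  have c1 : ContinuousAt (fun p : K × K × ℂ => dl i (T p.1)) p :=
    ContinuousAt.comp (g := dl i) (continuousAt_dl hp.1) (by fun_prop)
  have c2 : ContinuousAt (fun p : K × K × ℂ => nu i (T p.1)) p :=
    ContinuousAt.comp (g := nu i) (continuousAt_nu hp.1) (by fun_prop)
  have c3 : ContinuousAt (fun p : K × K × ℂ => dl j (T p.2.1)) p :=
    ContinuousAt.comp (g := dl j) (continuousAt_dl hp.2.1) (by fun_prop)
  have c4 : ContinuousAt (fun p : K × K × ℂ => nu j (T p.2.1)) p :=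
    ContinuousAt.comp (g := nu j) (continuousAt_nu hp.2.1) (by fun_prop)
  have h3 : ContinuousAt (fun p : K × K × ℂ => ‖p.2.2‖ * (‖dl i (T p.1)‖ + ‖nu i (T p.1)‖) *
    (‖dl j (T p.2.1)‖ + ‖nu j (T p.2.1)‖)) p := by fun_prop
  filter_upwards [h1, h2, h3.eventually_lt_const hp.2.2] with q a b c
  exact ⟨a, b, c⟩

theorem isOpen_Oij (hT : Continuous T) (i j : Fin 2) (r : ℝ) : IsOpen (Oij T i j r) := by
  rw [isOpen_iff_mem_nhds]
  intro p hp
  have h1 : ∀ᶠ q : Std T in 𝓝 p, T q.1.2.1 ≠ pole i :=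
    ContinuousAt.eventually_ne (by fun_prop) hp.1
  have h2 : ∀ᶠ q : Std T in 𝓝 p, T q.1.2.2.1 ≠ pole j :=
    ContinuousAt.eventually_ne (by fun_prop) hp.2.1
  have h2' : ∀ᶠ q : Std T in 𝓝 p, q.1.2.2.2 ≠ ∞ :=
    ContinuousAt.eventually_ne (by fun_prop) hp.2.2.1
  have c1 : ContinuousAt (fun p : Std T => dl i (T p.1.2.1)) p :=
    ContinuousAt.comp (g := dl i) (continuousAt_dl hp.1) (by fun_prop)
  have c2 : ContinuousAt (fun p : Std T => nu i (T p.1.2.1)) p :=
    ContinuousAt.comp (g := nu i) (continuousAt_nu hp.1) (by fun_prop)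
  have c3 : ContinuousAt (fun p : Std T => dl j (T p.1.2.2.1)) p :=
    ContinuousAt.comp (g := dl j) (continuousAt_dl hp.2.1) (by fun_prop)
  have c4 : ContinuousAt (fun p : Std T => nu j (T p.1.2.2.1)) p :=
    ContinuousAt.comp (g := nu j) (continuousAt_nu hp.2.1) (by fun_prop)
  have c5 : ContinuousAt (fun p : Std T => nn p.1.2.2.2) p :=
    ContinuousAt.comp (g := nn) (continuousAt_nn hp.2.2.1) (by fun_prop)
  have c6 : ContinuousAt (fun p : Std T => xi i j p.1) p := by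
    unfold xi
    split_ifs <;> fun_prop
  have h3 : ContinuousAt (fun p : Std T =>
    ‖xi i j p.1‖ * (‖dl i (T p.1.2.1)‖ + ‖nu i (T p.1.2.1)‖) *
      (‖dl j (T p.1.2.2.1)‖ + ‖nu j (T p.1.2.2.1)‖)) p := by fun_prop
  filter_upwards [h1, h2, h2', h3.eventually_lt_const hp.2.2.2] with q a b c d
  exact ⟨a, b, c, d⟩

/-! ### the charts along the lines `v ≠ 0` over the points `T = ∞` -/

variable (T) in
/-- a chart of `K` near a point over `∞`, with coordinate `1 / T` -/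
structure Inf where
  e : OpenPartialHomeomorph K ℂ
  r : ℝ
  r_pos : 0 < r
  tgt : e.target = Metric.ball 0 r
  ne : ∀ c ∈ e.source, T c ≠ ((0 : ℂ) : P1)
  val : ∀ c ∈ e.source, iv (T c) = e c

theorem Inf.mem (a : Inf T) {s : ℂ} (hs : ‖s‖ < a.r) : a.e.symm s ∈ a.e.source :=
  a.e.map_target (by rw [a.tgt]; simpa using hs)

theorem Inf.iv_symm (a : Inf T) {s : ℂ} (hs : ‖s‖ < a.r) : iv (T (a.e.symm s)) = s := by
  rw [a.val _ (a.mem hs), a.e.right_inv (by rw [a.tgt]; simpa using hs)]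

theorem Inf.norm_lt (a : Inf T) {c : K} (hc : c ∈ a.e.source) : ‖a.e c‖ < a.r := by
  have := a.e.map_source hc
  rw [a.tgt] at this
  simpa using this

/-- the `m`-chart -/
def fm (a a' : Inf T) (p : ℂ × ℂ × ℂ) : Amb K :=
  ((p.1 * p.2.1 * p.2.2, p.2.1, p.2.2), a.e.symm (p.1 * p.2.2), a'.e.symm (p.1 * p.2.1),
    rat 1 p.1)

/-- domain of the `m`-chart -/
def Dm (a a' : Inf T) : Set (ℂ × ℂ × ℂ) := {p | ‖p.1 * p.2.2‖ < a.r ∧ ‖p.1 * p.2.1‖ < a'.r}

/-- image of the `m`-chart -/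
def Om (a a' : Inf T) : Set (Std T) :=
  {y | y.1.2.2.2 ≠ ((0 : ℂ) : P1) ∧ y.1.2.1 ∈ a.e.source ∧ y.1.2.2.1 ∈ a'.e.source}

theorem nn_dd_rat (m : ℂ) : nn (rat 1 m) * m = dd (rat 1 m) := by
  obtain ⟨c, hc, h1, h2⟩ := exists_rat (a := 1) (b := m) (Or.inl one_ne_zero)
  refine mul_left_cancel₀ hc ?_
  linear_combination h2 - m * h1

theorem iv_rat (m : ℂ) : iv (rat 1 m) = m := by
  by_cases hm : m = 0
  · simp [hm, rat_zero]
  · rw [rat_ne hm, iv_coe]; simp

theorem rat_ne_zero (m : ℂ) : rat 1 m ≠ ((0 : ℂ) : P1) := by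
  by_cases hm : m = 0
  · rw [hm, rat_zero]; exact OnePoint.infty_ne_coe _
  · rw [rat_ne hm]
    intro h
    have := OnePoint.coe_injective h
    simp [hm] at this

theorem fm_mem (a a' : Inf T) {p : ℂ × ℂ × ℂ} (hp : p ∈ Dm a a') : fm a a' p ∈ Std T := by
  have h1 := a.iv_symm hp.1
  have h2 := a'.iv_symm hp.2
  have n1 := nn_mul_iv (a.ne _ (a.mem hp.1))
  have n2 := nn_mul_iv (a'.ne _ (a'.mem hp.2))
  rw [h1] at n1
  rw [h2] at n2
  have hm := nn_dd_rat p.1
  constructor <;> simp only [fm]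
  · linear_combination (-p.2.1) * n1
  · linear_combination (-p.2.2) * n2
  · linear_combination (-nn (rat 1 p.1)) * n1 + nn (T (a.e.symm (p.1 * p.2.2))) * p.2.2 * hm
  · linear_combination (-nn (rat 1 p.1)) * n2 + nn (T (a'.e.symm (p.1 * p.2.1))) * p.2.1 * hm

/-- `1/t = m S₂`, `1/t' = m S₁`, `S₀ = m S₁ S₂` where `v ≠ 0`, `m = 1/v` -/
theorem std_m {y : Amb K} (hy : y ∈ Std T) (hv : y.2.2.2 ≠ ((0 : ℂ) : P1)) :
    T y.2.1 ≠ ((0 : ℂ) : P1) ∧ T y.2.2.1 ≠ ((0 : ℂ) : P1) ∧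
    iv (T y.2.1) = iv y.2.2.2 * y.1.2.2 ∧ iv (T y.2.2.1) = iv y.2.2.2 * y.1.2.1 ∧
      y.1.1 = iv y.2.2.2 * y.1.2.1 * y.1.2.2 := by
  have nv := nn_ne hv
  have iv' := nn_mul_iv hv
  have v1 := hy.v1
  have v2 := hy.v2
  rw [← iv'] at v1 v2
  have w1 : dd (T y.2.1) = iv y.2.2.2 * (nn (T y.2.1) * y.1.2.2) := by
    refine mul_left_cancel₀ nv ?_
    linear_combination v1
  have w2 : dd (T y.2.2.1) = iv y.2.2.2 * (nn (T y.2.2.1) * y.1.2.1) := by
    refine mul_left_cancel₀ nv ?_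
    linear_combination v2
  have t1 : T y.2.1 ≠ ((0 : ℂ) : P1) := by
    intro h
    rw [h] at w1
    simp at w1
  have t2 : T y.2.2.1 ≠ ((0 : ℂ) : P1) := by
    intro h
    rw [h] at w2
    simp at w2
  have n1 := nn_ne t1
  have n2 := nn_ne t2
  have e1 : iv (T y.2.1) = iv y.2.2.2 * y.1.2.2 := by
    refine mul_left_cancel₀ n1 ?_
    rw [nn_mul_iv t1, w1]; ring
  have e2 : iv (T y.2.2.1) = iv y.2.2.2 * y.1.2.1 := by
    refine mul_left_cancel₀ n2 ?_
    rw [nn_mul_iv t2, w2]; ring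
  refine ⟨t1, t2, e1, e2, ?_⟩
  have r1 := hy.r1
  rw [w1] at r1
  refine mul_left_cancel₀ n1 ?_
  linear_combination -r1

theorem fm_eq (a a' : Inf T) {y : Amb K} (hy : y ∈ Std T) (hv : y.2.2.2 ≠ ((0 : ℂ) : P1))
    (h : y.2.1 ∈ a.e.source) (h' : y.2.2.1 ∈ a'.e.source) :
    fm a a' (iv y.2.2.2, y.1.2.1, y.1.2.2) = y := by
  obtain ⟨-, -, e1, e2, e0⟩ := std_m hy hv
  rw [a.val _ h] at e1
  rw [a'.val _ h'] at e2
  simp only [fm]
  refine Prod.ext (Prod.ext e0.symm (Prod.ext rfl rfl)) (Prod.ext ?_ (Prod.ext ?_ ?_))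
  · show a.e.symm (iv y.2.2.2 * y.1.2.2) = y.2.1
    rw [← e1, a.e.left_inv h]
  · show a'.e.symm (iv y.2.2.2 * y.1.2.1) = y.2.2.1
    rw [← e2, a'.e.left_inv h']
  · exact rat_iv hv

/-- the `m`-chart as a homeomorphism onto an open set -/
def em (a a' : Inf T) : Dm a a' ≃ₜ Om a a' where
  toFun p := ⟨⟨fm a a' p.1, fm_mem a a' p.2⟩, rat_ne_zero _, a.mem p.2.1, a'.mem p.2.2⟩
  invFun y := ⟨(iv y.1.1.2.2.2, y.1.1.1.2.1, y.1.1.1.2.2), by
    obtain ⟨-, -, e1, e2, -⟩ := std_m y.1.2 y.2.1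
    rw [a.val _ y.2.2.1] at e1
    rw [a'.val _ y.2.2.2] at e2
    refine ⟨?_, ?_⟩
    · show ‖iv y.1.1.2.2.2 * y.1.1.1.2.2‖ < a.r
      rw [← e1]; exact a.norm_lt y.2.2.1
    · show ‖iv y.1.1.2.2.2 * y.1.1.1.2.1‖ < a'.r
      rw [← e2]; exact a'.norm_lt y.2.2.2⟩
  left_inv p := by
    refine Subtype.ext ?_
    simp [fm, iv_rat]
  right_inv y := by
    refine Subtype.ext (Subtype.ext ?_)
    exact fm_eq a a' y.1.2 y.2.1 y.2.2.1 y.2.2.2
  continuous_toFun := by
    refine Continuous.subtype_mk (Continuous.subtype_mk ?_ _) _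
    rw [continuous_iff_continuousAt]
    intro p
    have c1 : ContinuousAt (fun p : Dm a a' => a.e.symm (p.1.1 * p.1.2.2)) p :=
      ContinuousAt.comp (g := a.e.symm)
        (a.e.continuousAt_symm (by rw [a.tgt]; simpa using p.2.1)) (by fun_prop)
    have c2 : ContinuousAt (fun p : Dm a a' => a'.e.symm (p.1.1 * p.1.2.1)) p :=
      ContinuousAt.comp (g := a'.e.symm)
        (a'.e.continuousAt_symm (by rw [a'.tgt]; simpa using p.2.2)) (by fun_prop)
    have c3 : ContinuousAt (fun p : Dm a a' => rat 1 p.1.1) p :=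
      ContinuousAt.rat60 continuousAt_const (by fun_prop) (Or.inl one_ne_zero)
    unfold fm
    fun_prop
  continuous_invFun := by
    refine Continuous.subtype_mk ?_ _
    rw [continuous_iff_continuousAt]
    intro y
    have c1 : ContinuousAt (fun y : Om a a' => iv y.1.1.2.2.2) y :=
      ContinuousAt.comp (g := iv) (continuousAt_iv y.2.1) (by fun_prop)
    fun_prop

theorem isOpen_Dm (a a' : Inf T) : IsOpen (Dm a a') := by
  have h1 : IsOpen {p : ℂ × ℂ × ℂ | ‖p.1 * p.2.2‖ < a.r} :=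
    isOpen_lt (by fun_prop) continuous_const
  have h2 : IsOpen {p : ℂ × ℂ × ℂ | ‖p.1 * p.2.1‖ < a'.r} :=
    isOpen_lt (by fun_prop) continuous_const
  exact h1.inter h2

theorem isOpen_Om (a a' : Inf T) : IsOpen (Om a a') := by
  have h1 : IsOpen {y : Std T | y.1.2.2.2 ≠ ((0 : ℂ) : P1)} :=
    isOpen_ne_zero.preimage (by fun_prop)
  have h2 : IsOpen {y : Std T | y.1.2.1 ∈ a.e.source} :=
    a.e.open_source.preimage (by fun_prop)
  have h3 : IsOpen {y : Std T | y.1.2.2.1 ∈ a'.e.source} :=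
    a'.e.open_source.preimage (by fun_prop)
  exact h1.inter (h2.inter h3)

/-! ### overlaps, cover, fibre, swap -/

/-- overlap of the `m`-chart with `Einf = e11` : `v = 1/m` -/
theorem fm_fij (a a' : Inf T) {p : ℂ × ℂ × ℂ} (hp : p ∈ Dm a a') (hm : p.1 ≠ 0) :
    fm a a' p = fij T 1 1 (a.e.symm (p.1 * p.2.2), a'.e.symm (p.1 * p.2.1), p.1⁻¹) := by
  have h1 := a.iv_symm hp.1
  have h2 := a'.iv_symm hp.2
  refine Prod.ext (Prod.ext ?_ (Prod.ext ?_ ?_)) (Prod.ext rfl (Prod.ext rfl ?_))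
  · simp only [fm, fij, dl_one, h1, h2]; field_simp
  · simp only [fm, fij, dl_one, nu_one, h2]; field_simp
  · simp only [fm, fij, dl_one, nu_one, h1]; field_simp
  · simp only [fm, fij, nu_one, rat_ne hm]; simp

/-- change of the first frame -/
theorem fij_first {c c' : K} {x : ℂ} (j : Fin 2) (h0 : T c ≠ pole 0) (h1 : T c ≠ pole 1) :
    fij T 1 j (c, c', x * nn (T c)) = fij T 0 j (c, c', x) := by
  obtain ⟨e1, e2⟩ := frame_change h0 h1
  simp only [fij]
  rw [e1, e2]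
  refine Prod.ext (Prod.ext ?_ (Prod.ext ?_ ?_)) (Prod.ext rfl (Prod.ext rfl ?_))
  · simp only; ring
  · simp only; ring
  · simp only; ring
  · simp only; congr 1; ring

/-- change of the second frame -/
theorem fij_second {c c' : K} {x : ℂ} (i : Fin 2) (h0 : T c' ≠ pole 0) (h1 : T c' ≠ pole 1) :
    fij T i 1 (c, c', x * nn (T c')) = fij T i 0 (c, c', x) := by
  obtain ⟨e1, e2⟩ := frame_change h0 h1
  simp only [fij]
  rw [e1, e2]
  refine Prod.ext (Prod.ext ?_ (Prod.ext ?_ ?_)) (Prod.ext rfl (Prod.ext rfl ?_))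
  · simp only; ring
  · simp only; ring
  · simp only; ring
  · simp only; congr 1; ring

/-- swap of the standard model -/
def swA (y : Amb K) : Amb K := ((y.1.1, y.1.2.2, y.1.2.1), y.2.2.1, y.2.1, y.2.2.2)

@[simp] theorem swA_swA (y : Amb K) : swA (swA y) = y := rfl

theorem swA_mem {y : Amb K} (hy : y ∈ Std T) : swA y ∈ Std T :=
  ⟨hy.r2, hy.r1, hy.v2, hy.v1⟩

theorem swA_fij (i j : Fin 2) (c c' : K) (x : ℂ) :
    swA (fij T i j (c, c', x)) = fij T j i (c', c, x) := by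
  simp only [swA, fij]
  refine Prod.ext (Prod.ext ?_ (Prod.ext ?_ ?_)) (Prod.ext rfl (Prod.ext rfl ?_))
  · simp only; ring
  · simp only; ring
  · simp only; ring
  · simp only; congr 1; ring

theorem swA_fm (a a' : Inf T) (m s s' : ℂ) : swA (fm a a' (m, s, s')) = fm a' a (m, s', s) := by
  simp only [swA, fm]
  refine Prod.ext (Prod.ext ?_ (Prod.ext rfl rfl)) (Prod.ext rfl (Prod.ext rfl rfl))
  simp only; ring

/-- the charts cover the standard model -/
theorem cover {I : Type*} (a : I → Inf T) (ha : ∀ c, T c = ∞ → ∃ i, c ∈ (a i).e.source)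
    (y : Std T) : (∃ i j, T y.1.2.1 ≠ pole i ∧ T y.1.2.2.1 ≠ pole j ∧ y.1.2.2.2 ≠ ∞) ∨
      ∃ i j, y ∈ Om (a i) (a j) := by
  by_cases hv : y.1.2.2.2 = ∞
  · right
    have v1 := y.2.v1
    have v2 := y.2.v2
    rw [hv] at v1 v2
    simp only [nn_inf, dd_inf, one_mul, zero_mul] at v1 v2
    obtain ⟨i, hi⟩ := ha _ (dd_eq_zero.1 v1)
    obtain ⟨j, hj⟩ := ha _ (dd_eq_zero.1 v2)
    exact ⟨i, j, by rw [hv]; exact OnePoint.infty_ne_coe _, hi, hj⟩
  · left
    obtain ⟨i, hi⟩ := exists_frame (T y.1.2.1)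
    obtain ⟨j, hj⟩ := exists_frame (T y.1.2.2.1)
    exact ⟨i, j, hi, hj, hv⟩

/-- the fibre over the origin: `K × K` and the lines over the pairs of points at infinity -/
theorem fibre {y : Amb K} (hS : y.1 = (0, 0, 0)) : y ∈ Std T ↔
    y.2.2.2 = ((0 : ℂ) : P1) ∨ (T y.2.1 = ∞ ∧ T y.2.2.1 = ∞) := by
  constructor
  · intro hy
    have v1 := hy.v1
    have v2 := hy.v2
    rw [hS] at v1 v2
    simp only [mul_zero] at v1 v2
    by_cases hv : y.2.2.2 = ((0 : ℂ) : P1)
    · exact Or.inl hv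
    · right
      have nv := nn_ne hv
      exact ⟨dd_eq_zero.1 ((mul_eq_zero.1 v1).resolve_left nv),
        dd_eq_zero.1 ((mul_eq_zero.1 v2).resolve_left nv)⟩
  · rintro (h | ⟨h1, h2⟩)
    · constructor <;> rw [hS] <;> simp [h]
    · constructor <;> rw [hS] <;> simp [h1, h2]

end

end Crest.Agent.R272.Tq1_916
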