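/-
R272 (S0415), positivity at p0, piece (5A)(ii): the frames of 297's curve `Cv P`
(`(dl i t, nu i t) = (1, t)` or `(1/t, 1)`, `t = tt c ≠ pole i`; third coordinate `eta i c` = `yv c`
resp. `vv c`).

* `cf P` : the coefficients of the sextic, `fh_cf : fh (cf P) s r = ∏ (r - c_j s)`, `simple_cf`;
* `eta_sq`, `eta_change`;
* `del_ne_iff`, `rhob_iff` : `Off` iff `c' ≠ iv c`;
* `kum_fin` : finite fibres of `(c, c') ↦ [s s' : r s' + s r' : r r']`.

helper977
-/
import Crest.Agent.R272.Kum2_977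
import Crest.Agent.R272.Tq1_916
import Crest.Agent.R272.Cur5_297

set_option autoImplicit false
set_option linter.unusedVariables false
set_option linter.unusedSectionVars false

open Filter Topology Set OnePoint

noncomputable section

namespace Crest.Agent.R272.Kum_977

open Crest.Agent.R272.Cur_297 Crest.Agent.R272.Tq1_916

variable {P : Par}

/-- the coefficients of the sextic `∏ (r - c_j s)` -/
def cfc (c : Fin 6 → ℂ) : Fin 7 → ℂ :=
  let p1 := c 0 + c 1 + c 2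
  let p2 := c 0 * c 1 + c 0 * c 2 + c 1 * c 2
  let p3 := c 0 * c 1 * c 2
  let q1 := c 3 + c 4 + c 5
  let q2 := c 3 * c 4 + c 3 * c 5 + c 4 * c 5
  let q3 := c 3 * c 4 * c 5
  ![p3 * q3, -(p2 * q3 + p3 * q2), p1 * q3 + p3 * q1 + p2 * q2, -(p3 + q3 + p1 * q2 + p2 * q1),
    p2 + q2 + p1 * q1, -(p1 + q1), 1]

/-- the coefficients of the sextic of the curve -/
def cf (P : Par) : Fin 7 → ℂ := cfc P.c

theorem fh_cfc (c : Fin 6 → ℂ) (s r : ℂ) : fh (cfc c) s r =
    (r - c 0 * s) * (r - c 1 * s) * (r - c 2 * s) * ((r - c 3 * s) * (r - c 4 * s) * (r - c 5 * s)) := by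
  unfold fh cfc
  simp only [Matrix.cons_val]
  ring

theorem fh_cf_one (t : ℂ) : fh (cf P) 1 t = P.p0 t := by
  unfold cf
  rw [fh_cfc]
  unfold Par.p0 Par.AA Par.BB
  ring

theorem fh_cf_inf (s : ℂ) : fh (cf P) s 1 = P.p1 s := by
  unfold cf
  rw [fh_cfc]
  unfold Par.p1 Par.At Par.Bt
  ring

theorem simple_cf (P : Par) : Simple (cf P) := by
  refine simple_of (by simp [cf, cfc]) fun t ht => ?_
  have h1 : (fun t => fh (cf P) 1 t) = P.p0 := funext fun t => fh_cf_one t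
  rw [h1]
  exact P.simple_p0 (by rw [← fh_cf_one]; exact ht)

/-- third coordinate of the frames -/
def eta (i : Fin 2) (c : Cv P) : ℂ := if i = 0 then yv c else vv c

@[simp] theorem eta_zero (c : Cv P) : eta 0 c = yv c := rfl
@[simp] theorem eta_one (c : Cv P) : eta 1 c = vv c := rfl

theorem iv_tt (c : Cv P) : Tp1_60.iv (tt c) = sv c := by
  unfold sv
  induction tt c using OnePoint.rec with
  | infty => simp
  | coe z => simp

theorem nn_tt {c : Cv P} (h : tt c ≠ ∞) : Tp1_60.nn (tt c) = tv c := by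
  rw [tt_eq h, Tp1_60.nn_coe]

theorem eta_sq {i : Fin 2} {c : Cv P} (h : tt c ≠ pole i) :
    eta i c ^ 2 = fh (cf P) (dl i (tt c)) (nu i (tt c)) := by
  fin_cases i
  · have h' : tt c ≠ ∞ := h
    show yv c ^ 2 = fh (cf P) 1 (Tp1_60.nn (tt c))
    rw [nn_tt h', fh_cf_one, yv_sq h']
  · have h' : tt c ≠ ((0 : ℂ) : P1) := h
    show vv c ^ 2 = fh (cf P) (Tp1_60.iv (tt c)) 1
    rw [iv_tt, fh_cf_inf, vv_sq h']

/-- the frames are not zero -/
theorem frame_ne (i : Fin 2) (c : Cv P) : dl i (tt c) ≠ 0 ∨ nu i (tt c) ≠ 0 := by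
  fin_cases i
  · exact Or.inl one_ne_zero
  · exact Or.inr one_ne_zero

/-- change of frame -/
theorem eta_change {c : Cv P} (h0 : tt c ≠ pole 0) (h1 : tt c ≠ pole 1) :
    dl 1 (tt c) = sv c * dl 0 (tt c) ∧ nu 1 (tt c) = sv c * nu 0 (tt c) ∧
      eta 1 c = sv c ^ 3 * eta 0 c ∧ sv c ≠ 0 := by
  have h0' : tt c ≠ ∞ := h0
  have h1' : tt c ≠ ((0 : ℂ) : P1) := h1
  have ht := tv_ne h0' h1'
  have hs : sv c = (tv c)⁻¹ := sv_eq h0'
  refine ⟨?_, ?_, ?_, ?_⟩
  · show Tp1_60.iv (tt c) = sv c * 1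
    rw [iv_tt, mul_one]
  · show (1 : ℂ) = sv c * Tp1_60.nn (tt c)
    rw [nn_tt h0', hs, inv_mul_cancel₀ ht]
  · show vv c = sv c ^ 3 * yv c
    rw [vv_eq h0' h1', hs]
    field_simp
  · rw [hs]; exact inv_ne_zero ht

/-- the frame is a multiple of `(dd t, nn t)` -/
theorem frame_rep {i : Fin 2} {t : P1} (h : t ≠ pole i) :
    ∃ g : ℂ, g ≠ 0 ∧ dl i t = g * Tp1_60.dd t ∧ nu i t = g * Tp1_60.nn t := by
  fin_cases i
  · have h' : t ≠ ∞ := h
    exact ⟨1, one_ne_zero, by simp [Tp1_60.dd_of_ne h'], by simp⟩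
  · have h' : t ≠ ((0 : ℂ) : P1) := h
    have hn := Tp1_60.nn_ne h'
    refine ⟨(Tp1_60.nn t)⁻¹, inv_ne_zero hn, ?_, ?_⟩
    · show Tp1_60.iv t = _
      unfold Tp1_60.iv
      rw [div_eq_inv_mul]
    · show (1 : ℂ) = _
      rw [inv_mul_cancel₀ hn]

theorem del_nn {t t' : P1} (h : Tp1_60.nn t * Tp1_60.dd t' - Tp1_60.dd t * Tp1_60.nn t' = 0) :
    t = t' := by
  have h1 := Tp1_60.rat_nn_dd t
  have h2 := Tp1_60.rat_nn_dd t'
  rw [← h1, ← h2]
  exact Tp1_60.rat_eq_rat (Tp1_60.nn_dd t) (Tp1_60.nn_dd t') (by linear_combination h)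

theorem del_frame {i j : Fin 2} {t t' : P1} (h : t ≠ pole i) (h' : t' ≠ pole j) :
    del (dl i t) (nu i t) (dl j t') (nu j t') = 0 ↔ t = t' := by
  obtain ⟨g, hg, e1, e2⟩ := frame_rep h
  obtain ⟨g', hg', e1', e2'⟩ := frame_rep h'
  rw [e1, e2, e1', e2']
  have : del (g * Tp1_60.dd t) (g * Tp1_60.nn t) (g' * Tp1_60.dd t') (g' * Tp1_60.nn t')
      = g * g' * (Tp1_60.nn t * Tp1_60.dd t' - Tp1_60.dd t * Tp1_60.nn t') := by
    unfold del; ring
  rw [this]
  constructor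
  · intro h2
    exact del_nn ((mul_eq_zero.1 h2).resolve_left (mul_ne_zero hg hg'))
  · rintro rfl
    ring

/-- scalar between two frames of the same point -/
theorem frame_two {i j : Fin 2} {c : Cv P} (hi : tt c ≠ pole i) (hj : tt c ≠ pole j) :
    ∃ l : ℂ, l ≠ 0 ∧ dl j (tt c) = l * dl i (tt c) ∧ nu j (tt c) = l * nu i (tt c) ∧
      eta j c = l ^ 3 * eta i c := by
  by_cases hij : i = j
  · subst hij
    exact ⟨1, one_ne_zero, by ring, by ring, by ring⟩
  · have h01 : (i = 0 ∧ j = 1) ∨ (i = 1 ∧ j = 0) := by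
      fin_cases i <;> fin_cases j <;> simp_all
    rcases h01 with ⟨rfl, rfl⟩ | ⟨rfl, rfl⟩
    · obtain ⟨a1, a2, a3, a4⟩ := eta_change hi hj
      exact ⟨sv c, a4, a1, a2, a3⟩
    · obtain ⟨a1, a2, a3, a4⟩ := eta_change hj hi
      refine ⟨(sv c)⁻¹, inv_ne_zero a4, ?_, ?_, ?_⟩
      · rw [a1]; field_simp
      · rw [a2]; field_simp
      · rw [a3]; field_simp

theorem eta_iv (i : Fin 2) (c : Cv P) : eta i (iv c) = - eta i c := by
  fin_cases i
  · exact yv_iv c
  · exact vv_iv c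

/-- a point with `eta = 0` is a Weierstrass point -/
theorem iv_of_eta {i : Fin 2} {c : Cv P} (h : tt c ≠ pole i) (h0 : eta i c = 0) : iv c = c := by
  fin_cases i
  · exact (iv_eq_iff0 h).2 h0
  · exact ext1 h rfl (by rw [vv_iv]; change vv c = 0 at h0; rw [h0, neg_zero])

/-- **the frames see `Γ`** -/
theorem gam_frame {i j : Fin 2} {c c' : Cv P} (h : tt c ≠ pole i) (h' : tt c' ≠ pole j) :
    (del (dl i (tt c)) (nu i (tt c)) (dl j (tt c')) (nu j (tt c')) = 0 ∧
      rhob (cf P) (dl i (tt c)) (nu i (tt c)) (eta i c) (dl j (tt c')) (nu j (tt c')) (eta j c') = 0)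
      ↔ c' = iv c := by
  rw [gam_iff (cf P) (eta_sq h) (eta_sq h') (frame_ne i c) (frame_ne j c')]
  constructor
  · rintro ⟨l, hl, e1, e2, e3⟩
    have ht : tt c = tt c' := by
      rw [← del_frame h h', e1, e2]
      unfold del; ring
    rcases eq_or_eq_iv ht with h1 | h1
    · subst h1
      obtain ⟨m, hm, f1, f2, f3⟩ := frame_two h h'
      -- `l = m`
      have hlm : l = m := by
        rcases frame_ne i c' with h2 | h2
        · rw [e1] at f1
          exact mul_right_cancel₀ h2 f1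
        · rw [e2] at f2
          exact mul_right_cancel₀ h2 f2
      rw [f3, hlm] at e3
      have h4 : eta i c' = 0 := by
        have : 2 * (m ^ 3 * eta i c') = 0 := by linear_combination e3
        have h5 := (mul_eq_zero.1 this).resolve_left two_ne_zero
        exact (mul_eq_zero.1 h5).resolve_left (pow_ne_zero 3 hm)
      exact (iv_of_eta h h4).symm
    · exact h1
  · rintro rfl
    have h'' : tt c ≠ pole j := by rw [← tt_iv c]; exact h'
    obtain ⟨m, hm, f1, f2, f3⟩ := frame_two h h''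
    refine ⟨m, hm, ?_, ?_, ?_⟩
    · rw [tt_iv]; exact f1
    · rw [tt_iv]; exact f2
    · rw [eta_iv, f3]

/-- `Off` in frames -/
theorem off_frame {i j : Fin 2} {c c' : Cv P} (h : tt c ≠ pole i) (h' : tt c' ≠ pole j)
    (hc : c' ≠ iv c) :
    del (dl i (tt c)) (nu i (tt c)) (dl j (tt c')) (nu j (tt c')) ≠ 0 ∨
      rhob (cf P) (dl i (tt c)) (nu i (tt c)) (eta i c) (dl j (tt c')) (nu j (tt c')) (eta j c')
        ≠ 0 := by
  by_contra hcon
  push Not at hcon
  exact hc ((gam_frame h h').1 hcon)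

/-! ### finite fibres -/

/-- homogeneous coordinates of the slope -/
def hs (c : Cv P) : ℂ := Tp1_60.dd (tt c)
def hr (c : Cv P) : ℂ := Tp1_60.nn (tt c)

theorem hsr_ne (c : Cv P) : hs c ≠ 0 ∨ hr c ≠ 0 := (Tp1_60.nn_dd (tt c)).symm

theorem del_hsr {c c' : Cv P} (h : del (hs c) (hr c) (hs c') (hr c') = 0) : tt c = tt c' :=
  del_nn h

/-- the Kummer map modulo `± 1` and the choice of the points on the fibres, homogeneous form -/
def q3 (x : Cv P × Cv P) : Fin 3 → ℂ :=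
  ![hs x.1 * hs x.2, hr x.1 * hs x.2 + hs x.1 * hr x.2, hr x.1 * hr x.2]

/-- **finite fibres** -/
theorem q3_fin (y : Cv P × Cv P) :
    {x : Cv P × Cv P | ∀ i j, q3 x i * q3 y j = q3 x j * q3 y i}.Finite := by
  have hF : ({y.1, iv y.1, y.2, iv y.2} : Set (Cv P)).Finite := by simp
  refine (hF.prod hF).subset ?_
  intro x hx
  have e1 := hx 0 1
  have e2 := hx 0 2
  have e3 := hx 1 2
  simp only [q3, Matrix.cons_val_zero, Matrix.cons_val_one, Matrix.cons_val] at e1 e2 e3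
  have h := kap_fib (hsr_ne y.1) (hsr_ne y.2) (hsr_ne x.1) (hsr_ne x.2)
    (by linear_combination - e1) (by linear_combination - e2) (by linear_combination - e3)
  have key : ∀ {c d : Cv P}, del (hs c) (hr c) (hs d) (hr d) = 0 → d = c ∨ d = iv c :=
    fun h => eq_or_eq_iv (del_hsr h)
  rcases h with ⟨h1, h2⟩ | ⟨h1, h2⟩
  · rcases key h1 with h3 | h3 <;> rcases key h2 with h4 | h4 <;> simp [mem_prod, h3, h4]
  · rcases key h1 with h3 | h3 <;> rcases key h2 with h4 | h4 <;> simp [mem_prod, h3, h4]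

/-- the frames give multiples of `q3` -/
theorem q3_frame {i j : Fin 2} {x : Cv P × Cv P} (h : tt x.1 ≠ pole i) (h' : tt x.2 ≠ pole j) :
    ∃ g : ℂ, g ≠ 0 ∧ ∀ k, (![dl i (tt x.1) * dl j (tt x.2),
      nu i (tt x.1) * dl j (tt x.2) + dl i (tt x.1) * nu j (tt x.2),
      nu i (tt x.1) * nu j (tt x.2)] : Fin 3 → ℂ) k = g * q3 x k := by
  obtain ⟨g, hg, e1, e2⟩ := frame_rep h
  obtain ⟨g', hg', e1', e2'⟩ := frame_rep h'
  refine ⟨g * g', mul_ne_zero hg hg', fun k => ?_⟩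
  rw [e1, e2, e1', e2']
  fin_cases k <;> simp [q3, hs, hr] <;> ring

end Crest.Agent.R272.Kum_977
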