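import Mathlib

/-!
# R272, leaf MOD-REFL (helper246), part 5: linear algebra of symmetric products

`sm v w` = the symmetric matrix `v wᵀ + w vᵀ`.
-/

set_option autoImplicit false
set_option linter.unusedSectionVars false

open Matrix

namespace Crest.Agent.R272.Refl_246

variable {ι : Type*} [Fintype ι]

/-- symmetric product -/
def sm (v w : ι → ℂ) : ι × ι → ℂ := fun p => v p.1 * w p.2 + v p.2 * w p.1

theorem sm_comm (v w : ι → ℂ) : sm v w = sm w v := by
  funext p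
  simp only [sm]
  ring

/-- the quadratic form -/
def qf (t : ι → ℂ) (m : ι × ι → ℂ) : ℂ := ∑ p : ι × ι, t p.1 * t p.2 * m p

theorem qf_sm (t v w : ι → ℂ) : qf t (sm v w) = 2 * ((v ⬝ᵥ t) * (w ⬝ᵥ t)) := by
  have h1 : ∀ v w : ι → ℂ, ∑ p : ι × ι, t p.1 * t p.2 * (v p.1 * w p.2) =
      (v ⬝ᵥ t) * (w ⬝ᵥ t) := by
    intro v w
    simp only [dotProduct]
    rw [Finset.sum_mul_sum, Fintype.sum_prod_type]
    refine Finset.sum_congr rfl fun i _ => Finset.sum_congr rfl fun j _ => ?_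
    ring
  have h2 : ∑ p : ι × ι, t p.1 * t p.2 * (v p.2 * w p.1) = (v ⬝ᵥ t) * (w ⬝ᵥ t) := by
    rw [← Equiv.sum_comp (Equiv.prodComm ι ι)]
    rw [← h1 v w]
    refine Finset.sum_congr rfl fun p _ => ?_
    simp only [Equiv.prodComm_apply, Prod.fst_swap, Prod.snd_swap]
    ring
  simp only [qf, sm, mul_add, Finset.sum_add_distrib]
  rw [h1, h2]
  ring

theorem qf_smul (t : ι → ℂ) (c : ℂ) (m : ι × ι → ℂ) : qf t (c • m) = c * qf t m := by
  simp only [qf, Pi.smul_apply, smul_eq_mul, Finset.mul_sum]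
  exact Finset.sum_congr rfl fun p _ => by ring

theorem qf_add (t : ι → ℂ) (m m' : ι × ι → ℂ) : qf t (m + m') = qf t m + qf t m' := by
  simp only [qf, Pi.add_apply, mul_add, Finset.sum_add_distrib]

variable [DecidableEq ι]

/-- a linear form which vanishes on `v^⊥` is a multiple of `v` -/
theorem prop_of_perp {v x : ι → ℂ} (hv : v ≠ 0) (h : ∀ t, v ⬝ᵥ t = 0 → x ⬝ᵥ t = 0) :
    ∃ a : ℂ, x = a • v := by
  obtain ⟨k, hk⟩ : ∃ k, v k ≠ 0 := by
    by_contra hcon
    push Not at hcon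
    exact hv (funext hcon)
  refine ⟨x k / v k, funext fun l => ?_⟩
  have h1 := h (Pi.single l (v k) - Pi.single k (v l)) (by
    rw [dotProduct_sub, dotProduct_single, dotProduct_single]
    ring)
  rw [dotProduct_sub, dotProduct_single, dotProduct_single] at h1
  rw [Pi.smul_apply, smul_eq_mul]
  field_simp
  linear_combination h1

/-- a product of two linear forms which vanishes on `v^⊥` -/
theorem prop_or_prop {v x y : ι → ℂ} (hv : v ≠ 0)
    (h : ∀ t, v ⬝ᵥ t = 0 → (x ⬝ᵥ t) * (y ⬝ᵥ t) = 0) : (∃ a : ℂ, x = a • v) ∨ ∃ a : ℂ, y = a • v := by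
  by_contra hcon
  rw [not_or] at hcon
  obtain ⟨hx, hy⟩ := hcon
  have h1 : ∃ t, v ⬝ᵥ t = 0 ∧ x ⬝ᵥ t ≠ 0 := by
    by_contra hc
    push Not at hc
    exact hx (prop_of_perp hv hc)
  have h2 : ∃ t, v ⬝ᵥ t = 0 ∧ y ⬝ᵥ t ≠ 0 := by
    by_contra hc
    push Not at hc
    exact hy (prop_of_perp hv hc)
  obtain ⟨t1, ht1, hx1⟩ := h1
  obtain ⟨t2, ht2, hy2⟩ := h2
  have h3 := (mul_eq_zero.1 (h t1 ht1)).resolve_left hx1
  have h4 := (mul_eq_zero.1 (h t2 ht2)).resolve_right hy2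
  have h5 := h (t1 + t2) (by rw [dotProduct_add, ht1, ht2, add_zero])
  rw [dotProduct_add, dotProduct_add, h3, h4, add_zero, zero_add] at h5
  rcases mul_eq_zero.1 h5 with h6 | h6
  · exact hx1 h6
  · exact hy2 h6

/-- a product of two linear forms which vanishes identically -/
theorem zero_or_zero {x y : ι → ℂ} (h : ∀ t, (x ⬝ᵥ t) * (y ⬝ᵥ t) = 0) : x = 0 ∨ y = 0 := by
  by_contra hcon
  rw [not_or] at hcon
  obtain ⟨hx, hy⟩ := hcon
  obtain ⟨k, hk⟩ : ∃ k, x k ≠ 0 := by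
    by_contra hc
    push Not at hc
    exact hx (funext hc)
  obtain ⟨l, hl⟩ : ∃ l, y l ≠ 0 := by
    by_contra hc
    push Not at hc
    exact hy (funext hc)
  have h1 := h (Pi.single k 1)
  have h2 := h (Pi.single l 1)
  have h3 := h (Pi.single k 1 + Pi.single l 1)
  simp only [dotProduct_single, dotProduct_add, mul_one] at h1 h2 h3
  have h4 := (mul_eq_zero.1 h1).resolve_left hk
  have h5 := (mul_eq_zero.1 h2).resolve_right hl
  rw [h4, h5, add_zero, zero_add] at h3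
  rcases mul_eq_zero.1 h3 with h6 | h6
  · exact hk h6
  · exact hl h6

theorem sm_ne_zero {v w : ι → ℂ} (hv : v ≠ 0) (hw : w ≠ 0) : sm v w ≠ 0 := by
  intro h
  have h1 : ∀ t, (v ⬝ᵥ t) * (w ⬝ᵥ t) = 0 := by
    intro t
    have h2 := qf_sm t v w
    rw [h] at h2
    simp only [qf, Pi.zero_apply, mul_zero, Finset.sum_const_zero] at h2
    have := h2.symm
    rcases mul_eq_zero.1 this with h3 | h3
    · norm_num at h3
    · exact h3
  rcases zero_or_zero h1 with h2 | h2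
  · exact hv h2
  · exact hw h2

/-- the symmetric product determines the factors -/
theorem prop_of_sm {v w x y : ι → ℂ} {c : ℂ} (hx : x ≠ 0) (h : sm v w = c • sm x y) :
    (∃ a : ℂ, v = a • x) ∨ ∃ a : ℂ, w = a • x := by
  refine prop_or_prop hx fun t ht => ?_
  have h1 := qf_sm t v w
  rw [h, qf_smul, qf_sm, ht] at h1
  have h2 : 2 * ((v ⬝ᵥ t) * (w ⬝ᵥ t)) = 0 := by rw [← h1]; ring
  rcases mul_eq_zero.1 h2 with h3 | h3
  · norm_num at h3
  · exact h3

end Crest.Agent.R272.Refl_246
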