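import Crest.Agent.R272.Lc3_220
import Crest.Agent.R272.Refl5_246

/-!
# R272, LC-MINUS (helper220), part 4: generator systems and the descended bundle `J2 = L²`

* `GS C E`      : functions `F e` such that at every point one of them divides all others;
* `GS.St G`     : stability under the group;
* `GS.leq h`    : the local equations on `Orb G Y` of the descended square; `GS.J2 := (leq h).eqs.idl 1`;
* `GS.vv y`     : the vector of values at `y`.
-/

set_option autoImplicit false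
set_option linter.unusedSectionVars false
set_option linter.unusedVariables false

open Set Filter Topology

namespace Crest.Agent.R272.Lc_220

open Crest.Agent.R275.Geo Crest.Agent.R273.Fam_835 Crest.Agent.R272.Refl_246
open Crest.Agent.R272.MQ_783 Crest.Agent.R272.CB_232

noncomputable section

variable {n : ℕ} {Y : Type} [TopologicalSpace Y] {C : Fam n Y} {E : Type}

/-- generator systems -/
structure GS (C : Fam n Y) (E : Type) where
  F : E → Y → ℂ
  hol : ∀ e y, HolN C y (F e)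
  nz : ∀ y, ∃ e, NZ y (F e)
  gen : ∀ y, ∃ a, ∀ e, Dvd C y (F a) (F e)

namespace GS

variable (S : GS C E)

/-- `F a` is a generator at `y` -/
def IsGen (y : Y) (a : E) : Prop := ∀ e, Dvd C y (S.F a) (S.F e)

variable {S}

theorem IsGen.eventually [Finite E] {y : Y} {a : E} (h : S.IsGen y a) :
    ∀ᶠ v in 𝓝 y, S.IsGen v a := by
  have h1 : ∀ᶠ v in 𝓝 y, ∀ e, Dvd C v (S.F a) (S.F e) :=
    eventually_all.2 fun e => (h e).eventually
  exact h1

/-- generators do not vanish identically -/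
theorem IsGen.nz {y : Y} {a : E} (ha : S.IsGen y a) : NZ y (S.F a) := by
  obtain ⟨e, he⟩ := S.nz y
  intro h0
  obtain ⟨u, hu, hu2⟩ := ha e
  exact he ((hu2.and h0).mono fun v hv => by rw [hv.1, hv.2, mul_zero])

theorem IsGen.asc {y : Y} {a b : E} (ha : S.IsGen y a) (hb : S.IsGen y b) :
    Asc C y (S.F a) (S.F b) :=
  Asc.of_dvd (S.hol a y) ha.nz (hb a) (ha b)

/-- the germ `g` is a generator of the ideal at `y` -/
def IsG (S : GS C E) (y : Y) (g : Y → ℂ) : Prop := ∃ a, S.IsGen y a ∧ Asc C y g (S.F a)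

theorem IsGen.isG {y : Y} {a : E} (h : S.IsGen y a) : S.IsG y (S.F a) := ⟨a, h, Asc.refl _⟩

theorem IsG.asc {y : Y} {g g' : Y → ℂ} (h : S.IsG y g) (h' : S.IsG y g') : Asc C y g g' := by
  obtain ⟨a, ha, ha'⟩ := h
  obtain ⟨b, hb, hb'⟩ := h'
  exact ha'.trans ((ha.asc hb).trans hb'.symm)

theorem IsG.of_asc {y : Y} {g g' : Y → ℂ} (h : S.IsG y g) (h' : Asc C y g' g) : S.IsG y g' := by
  obtain ⟨a, ha, ha'⟩ := h
  exact ⟨a, ha, h'.trans ha'⟩

theorem IsG.dvd {y : Y} {g : Y → ℂ} (h : S.IsG y g) (e : E) : Dvd C y g (S.F e) := by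
  obtain ⟨a, ha, ha'⟩ := h
  exact (ha e).trans ha'.symm.dvd

theorem IsG.hol {y : Y} {g : Y → ℂ} (h : S.IsG y g) : HolN C y g := by
  obtain ⟨a, ha, ha'⟩ := h
  exact ha'.hol (S.hol a y)

theorem IsG.nz {y : Y} {g : Y → ℂ} (h : S.IsG y g) : NZ y g := by
  obtain ⟨a, ha, ha'⟩ := h
  exact ha'.nz (S.hol a y) ha.nz

theorem IsG.eventually [Finite E] {y : Y} {g : Y → ℂ} (h : S.IsG y g) :
    ∀ᶠ v in 𝓝 y, S.IsG v g := by
  obtain ⟨a, ha, ha'⟩ := h
  filter_upwards [ha.eventually, ha'.eventually] with v h1 h2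
  exact ⟨a, h1, h2⟩

theorem exists_isG (S : GS C E) (y : Y) : ∃ g, S.IsG y g := by
  obtain ⟨a, ha⟩ := S.gen y
  exact ⟨_, IsGen.isG ha⟩

variable {G : Type} [Group G] [MulAction G Y]

/-- stability under the group -/
def St (S : GS C E) (G : Type) [Group G] [MulAction G Y] : Prop :=
  ∀ (g : G) (y : Y) (e : E), ∃ e', Asc C y (fun v => S.F e (g • v)) (S.F e')

/-- generators are moved to generators -/
theorem IsG.smul (hst : S.St G) (hol : ∀ g : G, HolC C C (fun y => g • y)) {y : Y} (g : G)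
    {f : Y → ℂ} (h : S.IsG (g • y) f) : S.IsG y fun v => f (g • v) := by
  obtain ⟨b, hb, hb'⟩ := h
  obtain ⟨b', hbb⟩ := hst g y b
  have h1 : Asc C y (fun v => f (g • v)) fun v => S.F b (g • v) :=
    Asc.comp (C := C) (D := C) (p := fun v => g • v) hb' (hol g)
  refine IsG.of_asc ⟨b', fun e => ?_, hbb⟩ h1
  -- `F e = (F e ∘ g⁻¹) ∘ g`
  obtain ⟨e', he'⟩ := hst g⁻¹ (g • y) e
  have h2 : Asc C y (fun v => S.F e (g⁻¹ • g • v)) fun v => S.F e' (g • v) :=
    Asc.comp (C := C) (D := C) (p := fun v => g • v)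
      (f := fun v => S.F e (g⁻¹ • v)) (g := S.F e') he' (hol g)
  have h3 : Dvd C y (fun v => S.F b (g • v)) fun v => S.F e' (g • v) :=
    Dvd.comp (C := C) (D := C) (p := fun v => g • v) (hb e') (hol g)
  have h4 : Dvd C y (fun v => S.F b (g • v)) fun v => S.F e (g⁻¹ • g • v) :=
    h2.dvd.trans h3
  exact (h4.congr (Eventually.of_forall fun _ => rfl)
    (f' := S.F e) (Eventually.of_forall fun v => by
      rw [inv_smul_smul])).trans hbb.dvd

section Quot

variable [ContinuousConstSMul G Y] [Nonempty Y]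

/-- local equations of the descended square -/
def LE (S : GS C E) (y : Y) (f : Orb G Y → ℂ) : Prop :=
  ∃ g, S.IsG y g ∧ Asc C y (fun v => f (pr G v)) fun v => g v * g v

theorem LE.all {y : Y} {f : Orb G Y → ℂ} (h : S.LE y f) {g : Y → ℂ} (hg : S.IsG y g) :
    Asc C y (fun v => f (pr G v)) fun v => g v * g v := by
  obtain ⟨g', hg', h1⟩ := h
  exact h1.trans ((hg'.asc hg).mul (hg'.asc hg))

theorem LE.hol {y : Y} {f : Orb G Y → ℂ} (h : S.LE y f) : HolN C y fun v => f (pr G v) := by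
  obtain ⟨g, hg, h1⟩ := h
  exact h1.hol (hg.hol.mul hg.hol)

theorem LE.nz {y : Y} {f : Orb G Y → ℂ} (h : S.LE y f) : NZ y fun v => f (pr G v) := by
  obtain ⟨g, hg, h1⟩ := h
  exact h1.nz (hg.hol.mul hg.hol) (NZ.mul hg.hol hg.hol hg.nz hg.nz)

theorem LE.eventually [Finite E] {y : Y} {f : Orb G Y → ℂ} (h : S.LE y f) :
    ∀ᶠ v in 𝓝 y, S.LE v f := by
  obtain ⟨g, hg, h1⟩ := h
  filter_upwards [hg.eventually, h1.eventually] with v h2 h3
  exact ⟨g, h2, h3⟩

theorem LE.smul_inv (hst : S.St G) (hol : ∀ g : G, HolC C C (fun y => g • y)) {y : Y} (g : G)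
    {f : Orb G Y → ℂ} (h : S.LE (g • y) f) : S.LE y f := by
  obtain ⟨k, hk, h1⟩ := h
  refine ⟨_, hk.smul hst hol g, ?_⟩
  have h2 := Asc.comp (C := C) (D := C) (p := fun v => g • v) h1 (hol g)
  refine h2.congr (Eventually.of_forall fun v => ?_) (Eventually.of_forall fun v => rfl)
  show f (pr G v) = f (pr G (g • v))
  rw [pr_smul]

theorem LE.smul (hst : S.St G) (hol : ∀ g : G, HolC C C (fun y => g • y)) {y : Y} (g : G)
    {f : Orb G Y → ℂ} (h : S.LE y f) : S.LE (g • y) f := by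
  refine LE.smul_inv hst hol g⁻¹ ?_
  rw [inv_smul_smul]
  exact h

theorem exists_LE (h : RA C G) (hst : S.St G) (y : Y) : ∃ f : Orb G Y → ℂ, S.LE y f := by
  obtain ⟨k, hk⟩ := S.exists_isG y
  rcases h.st y with h1 | ⟨s, hs2, hsy, hs, -⟩
  · obtain ⟨F, hF, hF2⟩ := exists_dsc h (y := y) (u := fun v => k v * k v) (hk.hol.mul hk.hol)
      (fun g hg => by
        rw [h1 g hg]
        exact Eventually.of_forall fun v => by rw [one_smul])
    exact ⟨F, k, hk, (Asc.refl _).congr hF2 (Eventually.of_forall fun _ => rfl)⟩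
  · have hk' : S.IsG y fun v => k (s • v) := IsG.smul hst h.hol s (by rw [hsy]; exact hk)
    obtain ⟨F, hF, hF2⟩ := exists_dsc h (y := y) (u := fun v => k v * k (s • v))
      (hk.hol.mul hk'.hol)
      (fun g hg => by
        rcases hs g hg with h3 | h3
        · rw [h3]
          exact Eventually.of_forall fun v => by rw [one_smul]
        · rw [h3]
          refine Eventually.of_forall fun v => ?_
          show k (s • v) * k (s • s • v) = _
          rw [← mul_smul, hs2, one_smul, mul_comm])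
    refine ⟨F, k, hk, ?_⟩
    have h4 : Asc C y (fun v => k v * k (s • v)) fun v => k v * k v :=
      (Asc.refl k).mul (hk'.asc hk)
    exact h4.congr hF2 (Eventually.of_forall fun _ => rfl)

theorem LE.asc (h : RA C G) {y : Y} {f f' : Orb G Y → ℂ} (hf : S.LE y f) (hf' : S.LE y f') :
    Asc h.fam (pr G y) f f' := by
  refine (asc_desc h hf'.hol hf'.nz).2 ?_
  obtain ⟨k, hk, h1⟩ := hf
  exact h1.trans (hf'.all hk).symm

/-- the local equations of the descended square -/
def leq [Finite E] (S : GS C E) (h : RA C G) (hst : S.St G) : LEq h.fam where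
  LE q f := ∃ y, pr G y = q ∧ S.LE y f
  hol := by
    rintro q f ⟨y, rfl, hf⟩
    exact holN_desc h hf.hol
  nz := by
    rintro q f ⟨y, rfl, hf⟩
    exact nz_pr.2 hf.nz
  ev := by
    rintro q f ⟨y, rfl, hf⟩
    rw [ev_pr]
    filter_upwards [hf.eventually] with v hv
    exact ⟨v, rfl, hv⟩
  asc := by
    rintro q f g ⟨y, rfl, hf⟩ ⟨y', hy', hg⟩
    obtain ⟨k, rfl⟩ := pr_eq_iff.1 hy'.symm
    exact LE.asc h hf (hg.smul_inv hst h.hol k)
  ex q := by
    obtain ⟨y, rfl⟩ := surjective_pr (G := G) q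
    obtain ⟨f, hf⟩ := exists_LE h hst y
    exact ⟨f, y, rfl, hf⟩

/-- **the descended bundle** `L²` (sections = functions divisible by the square of a generator) -/
def J2 [Finite E] (S : GS C E) (h : RA C G) (hst : S.St G) : CB h.fam := (S.leq h hst).eqs.idl 1

theorem leq_LE [Finite E] (h : RA C G) (hst : S.St G) {y : Y} {f : Orb G Y → ℂ} :
    (S.leq h hst).LE (pr G y) f ↔ S.LE y f := by
  constructor
  · rintro ⟨y', hy', hf⟩
    obtain ⟨k, rfl⟩ := pr_eq_iff.1 hy'.symm
    exact hf.smul_inv hst h.hol k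
  · intro hf
    exact ⟨y, rfl, hf⟩

end Quot

end GS

end

end Crest.Agent.R272.Lc_220
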