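import Crest.Agent.R272.LcR1_783
import Crest.Agent.R272.Lc4_220

/-!
# R272, LC-4 (helper783), part 2: the fixed divisor upstairs, `LEq` form of the branch divisor

`holN_iff_e`      : holomorphy read in an adapted chart;
`dvd_eqU`, `dvd_anti` : functions which vanish at the fixed points / anti-invariant functions are
                    divisible by `eqU c`;
`asc_eqU`;
`asc_eqB_of_pr`   : `F ∘ pr = unit * (eqU c)²` implies `F = unit * eqB c`;
`brLE h : LEq h.fam` : the notion of a local equation of the branch divisor (220's language);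
`brLE_pr`, `brLE_iff_all`, `RP h : CB h.fam` = O(-R₊), `exists_met_RP`.
-/

set_option autoImplicit false
set_option linter.unusedSectionVars false

open Set Filter Topology

namespace Crest.Agent.R272.LcR_783

open Crest.Agent.R275.Geo Crest.Agent.R273.Fam_835 Crest.Agent.R272.Refl_246
  Crest.Agent.R272.MQ_783 Crest.Agent.R272.Lc_220 Crest.Agent.R272.CB_232
  Crest.Agent.R272.Quot_783

noncomputable section

variable {n : ℕ} {X : Type} [TopologicalSpace X] {C : Fam n X} {G : Type} [Group G]
  [MulAction G X]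

/-! ### upstairs -/

section Up

theorem tr_e {φ : OpenPartialHomeomorph X (Cn n)} (hφ : Refl_246.Cpt C φ) {i : C.ι} {y : X}
    (hi : y ∈ (C.e i).source) (hy : y ∈ φ.source) :
    AnalyticAt ℂ (fun w => C.e i (φ.symm w)) (φ y) := by
  have ho : IsOpen (φ.target ∩ φ.symm ⁻¹' (C.e i).source) :=
    φ.isOpen_inter_preimage_symm (C.e i).open_source
  refine Crest.Agent.R266.SCV.analyticOnNhd_of_differentiableOn ho (hφ.hol i) _
    ⟨φ.map_source hy, ?_⟩
  rw [mem_preimage, φ.left_inv hy]
  exact hi

theorem tr_e' {φ : OpenPartialHomeomorph X (Cn n)} (hφ : Refl_246.Cpt C φ) {i : C.ι} {y : X}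
    (hi : y ∈ (C.e i).source) (hy : y ∈ φ.source) :
    AnalyticAt ℂ (fun z => φ ((C.e i).symm z)) (C.e i y) := by
  have ho : IsOpen ((C.e i).target ∩ (C.e i).symm ⁻¹' φ.source) :=
    (C.e i).isOpen_inter_preimage_symm φ.open_source
  refine Crest.Agent.R266.SCV.analyticOnNhd_of_differentiableOn ho (hφ.holi i) _
    ⟨(C.e i).map_source hi, ?_⟩
  rw [mem_preimage, (C.e i).left_inv hi]
  exact hy

/-- holomorphy may be read in any compatible chart -/
theorem holN_iff_cpt {φ : OpenPartialHomeomorph X (Cn n)} (hφ : Refl_246.Cpt C φ) {y : X}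
    (hy : y ∈ φ.source) {f : X → ℂ} :
    HolN C y f ↔ AnalyticAt ℂ (fun w => f (φ.symm w)) (φ y) := by
  obtain ⟨i, hi⟩ := C.cover y
  constructor
  · intro hf
    have h2 : AnalyticAt ℂ (fun z => f ((C.e i).symm z)) (C.e i (φ.symm (φ y))) := by
      rw [φ.left_inv hy]; exact hf i hi
    have h3 := AnalyticAt.comp (g := fun z => f ((C.e i).symm z))
      (f := fun w => C.e i (φ.symm w)) h2 (tr_e hφ hi hy)
    refine h3.congr ?_
    have h4 : ∀ᶠ w in 𝓝 (φ y), φ.symm w ∈ (C.e i).source := by
      refine (φ.continuousAt_symm (φ.map_source hy)).preimage_mem_nhds ?_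
      rw [φ.left_inv hy]
      exact (C.e i).open_source.mem_nhds hi
    filter_upwards [h4] with w hw
    simp only [Function.comp]
    rw [(C.e i).left_inv hw]
  · intro hf
    refine holN_of hi ?_
    have h2 : AnalyticAt ℂ (fun w => f (φ.symm w)) (φ ((C.e i).symm (C.e i y))) := by
      rw [(C.e i).left_inv hi]; exact hf
    have h3 := AnalyticAt.comp (g := fun w => f (φ.symm w))
      (f := fun z => φ ((C.e i).symm z)) h2 (tr_e' hφ hi hy)
    refine h3.congr ?_
    have h4 : ∀ᶠ z in 𝓝 (C.e i y), (C.e i).symm z ∈ φ.source := by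
      refine ((C.e i).continuousAt_symm ((C.e i).map_source hi)).preimage_mem_nhds ?_
      rw [(C.e i).left_inv hi]
      exact φ.open_source.mem_nhds hy
    filter_upwards [h4] with z hz
    simp only [Function.comp]
    rw [φ.left_inv hz]

variable {c c' : RC G C} {u : X} {F : X → ℂ}

theorem cpt_RC (c : RC G C) : Refl_246.Cpt C c.e := ⟨c.hol, c.holi⟩

theorem holN_eqU (hu : u ∈ c.e.source) : HolN C u (eqU c) := by
  rcases hk : c.k with _ | ⟨s, a⟩
  · exact holN_congr (holN_const 1) (Eventually.of_forall fun y => eqU_none hk y)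
  · rw [holN_iff_cpt (cpt_RC c) hu]
    have h2 : AnalyticAt ℂ (fun w : Cn n => w a) (c.e u) := by
      have h3 : Differentiable ℂ fun w : Cn n => w a := by fun_prop
      exact Crest.Agent.R266.SCV.analyticOnNhd_of_differentiableOn isOpen_univ
        h3.differentiableOn _ (mem_univ _)
    refine h2.congr ?_
    filter_upwards [c.e.open_target.mem_nhds (c.e.map_source hu)] with w hw
    rw [eqU_some hk, c.e.right_inv hw]

theorem nz_eqU (hu : u ∈ c.e.source) : NZ u (eqU c) := by
  intro h
  rcases hk : c.k with _ | ⟨s, a⟩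
  · have := h.self_of_nhds
    rw [eqU_none hk] at this
    exact one_ne_zero this
  · have h0 := h.self_of_nhds
    rw [eqU_some hk] at h0
    have h1 := (frequently_ne (c.e u) a h0).and_eventually
      (c.e.open_target.mem_nhds (c.e.map_source hu))
    have h2 : Tendsto c.e.symm (𝓝 (c.e u)) (𝓝 u) := by
      have h3 := (c.e.continuousAt_symm (c.e.map_source hu)).tendsto
      rwa [c.e.left_inv hu] at h3
    refine h2.frequently (p := fun y => eqU c y ≠ 0) (h1.mono fun z hz => ?_)
      (h.mono fun y hy hy2 => hy2 hy)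
    rw [eqU_some hk, c.e.right_inv hz.2]
    exact hz.1

/-- a holomorphic function which vanishes at all points with non trivial stabiliser is divisible -/
theorem dvd_eqU (hu : u ∈ c.e.source) (hF : HolN C u F)
    (hz : ∀ᶠ y in 𝓝 u, (∃ g : G, g ≠ 1 ∧ g • y = y) → F y = 0) : Dvd C u (eqU c) F := by
  by_cases h0 : eqU c u = 0
  · rcases hk : c.k with _ | ⟨s, a⟩
    · rw [eqU_none hk] at h0
      exact absurd h0 one_ne_zero
    · have h0' := h0
      rw [eqU_some hk] at h0'
      have hΦ : AnalyticAt ℂ (fun z => F (c.e.symm z)) (c.e u) :=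
        (holN_iff_cpt (cpt_RC c) hu).1 hF
      have h2 : Tendsto c.e.symm (𝓝 (c.e u)) (𝓝 u) := by
        have h3 := (c.e.continuousAt_symm (c.e.map_source hu)).tendsto
        rwa [c.e.left_inv hu] at h3
      obtain ⟨Ψ, hΨ, hΨ2⟩ := exists_div hΦ h0' (by
        filter_upwards [h2.eventually hz, c.e.open_target.mem_nhds (c.e.map_source hu)]
          with z h1 h2 h3
        refine h1 ((eqU_zero_iff (c := c) (c.e.map_target h2)).1 ?_)
        rw [eqU_some hk, c.e.right_inv h2]
        exact h3)
      refine ⟨fun y => Ψ (c.e y), ?_, ?_⟩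
      · rw [holN_iff_cpt (cpt_RC c) hu]
        refine hΨ.congr ?_
        filter_upwards [c.e.open_target.mem_nhds (c.e.map_source hu)] with z h2
        rw [c.e.right_inv h2]
      · filter_upwards [(c.e.continuousAt hu).eventually hΨ2, c.e.open_source.mem_nhds hu]
          with y h1 h2
        rw [c.e.left_inv h2] at h1
        rw [h1, eqU_some hk]
  · refine ⟨fun y => F y / eqU c y, hF.div (holN_eqU hu) h0, ?_⟩
    filter_upwards [(holN_eqU hu).continuousAt.eventually_ne h0] with y hy
    rw [div_mul_cancel₀ _ hy]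

/-- an anti-invariant holomorphic function is divisible -/
theorem dvd_anti (hu : u ∈ c.e.source) (hF : HolN C u F)
    (hz : ∀ s a, c.k = some (s, a) → ∀ᶠ y in 𝓝 u, F (s • y) = - F y) : Dvd C u (eqU c) F := by
  refine dvd_eqU hu hF ?_
  rcases hk : c.k with _ | ⟨s, a⟩
  · filter_upwards [c.e.open_source.mem_nhds hu] with y hy
    rintro ⟨g, hg1, hg2⟩
    exact absurd (c.free hk g y hy (by rw [hg2]; exact hy)) hg1
  · filter_upwards [c.e.open_source.mem_nhds hu, hz s a hk] with y hy hy2
    rintro ⟨g, hg1, hg2⟩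
    rcases c.two s a hk g y hy (by rw [hg2]; exact hy) with h | h
    · exact absurd h hg1
    · rw [h] at hg2
      rw [hg2] at hy2
      have h3 : 2 * F y = 0 := by linear_combination hy2
      simpa using h3

/-- two local equations of the fixed divisor differ by a unit -/
theorem asc_eqU (hu : u ∈ c.e.source) (hu' : u ∈ c'.e.source) : Asc C u (eqU c) (eqU c') := by
  refine Asc.of_dvd (holN_eqU hu) (nz_eqU hu) (dvd_eqU hu' (holN_eqU hu) ?_)
    (dvd_eqU hu (holN_eqU hu') ?_)
  · filter_upwards [c.e.open_source.mem_nhds hu] with y hy hB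
    exact (eqU_zero_iff hy).2 hB
  · filter_upwards [c'.e.open_source.mem_nhds hu'] with y hy hB
    exact (eqU_zero_iff hy).2 hB

end Up

/-! ### downstairs -/

section Down

variable [ContinuousConstSMul G X] [Nonempty X] {c : RC G C} {u : X} {F : Orb G X → ℂ}

theorem eqB_pr_ev (hu : u ∈ c.e.source) :
    ∀ᶠ v in 𝓝 u, eqB c (pr G v) = eqU c v ^ 2 := by
  filter_upwards [c.e.open_source.mem_nhds hu] with v hv
  exact eqB_pr hv

/-- local equations are recognised upstairs -/
theorem asc_eqB_iff (h : RA C G) (hu : u ∈ c.e.source) :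
    Asc h.fam (pr G u) F (eqB c) ↔ Asc C u (fun v => F (pr G v)) fun v => eqU c v ^ 2 := by
  have h1 : HolN C u fun v => eqB c (pr G v) := by
    exact holN_congr ((holN_eqU hu).pow 2) (eqB_pr_ev hu)
  have h2 : NZ u fun v => eqB c (pr G v) := by
    exact (NZ.pow (holN_eqU hu) (nz_eqU hu) 2).congr (eqB_pr_ev hu)
  rw [asc_desc h h1 h2]
  constructor
  · intro h3
    exact h3.congr (Eventually.of_forall fun _ => rfl)
      ((eqB_pr_ev hu).mono fun v hv => hv.symm)
  · intro h3
    exact h3.congr (Eventually.of_forall fun _ => rfl) (eqB_pr_ev hu)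

/-- divisibility by the equation of the branch divisor is recognised upstairs -/
theorem dvd_eqB_iff (h : RA C G) (hu : u ∈ c.e.source) :
    Dvd h.fam (pr G u) (eqB c) F ↔ Dvd C u (fun v => eqU c v ^ 2) fun v => F (pr G v) := by
  have h1 : HolN C u fun v => eqB c (pr G v) := by
    exact holN_congr ((holN_eqU hu).pow 2) (eqB_pr_ev hu)
  have h2 : NZ u fun v => eqB c (pr G v) := by
    exact (NZ.pow (holN_eqU hu) (nz_eqU hu) 2).congr (eqB_pr_ev hu)
  rw [dvd_desc h h1 h2]
  constructor
  · intro h3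
    exact h3.congr ((eqB_pr_ev hu).mono fun v hv => hv.symm) (Eventually.of_forall fun _ => rfl)
  · intro h3
    exact h3.congr (eqB_pr_ev hu) (Eventually.of_forall fun _ => rfl)

/-- **the notion of a local equation of the branch divisor** -/
def brLE (h : RA C G) : LEq h.fam where
  LE m f := ∃ c : RC G C, m ∈ c.eM.source ∧ Asc h.fam m f (eqB c)
  hol := by
    rintro m f ⟨c, hc, hf⟩
    exact hf.hol (holN_eqB h hc)
  nz := by
    rintro m f ⟨c, hc, hf⟩
    exact hf.nz (holN_eqB h hc) (nz_eqB hc)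
  ev := by
    rintro m f ⟨c, hc, hf⟩
    filter_upwards [c.eM.open_source.mem_nhds hc, hf.eventually] with v h1 h2
    exact ⟨c, h1, h2⟩
  asc := by
    rintro m f g ⟨c, hc, hf⟩ ⟨c', hc', hg⟩
    exact hf.trans ((asc_eqB h hc hc').trans hg.symm)
  ex m := by
    obtain ⟨c, hc⟩ := h.fam.cover m
    exact ⟨eqB c, c, hc, Asc.refl _⟩

/-- all the charts may be used -/
theorem brLE_iff_all (h : RA C G) {m : Orb G X} {c : RC G C} (hc : m ∈ c.eM.source) :
    (brLE h).LE m F ↔ Asc h.fam m F (eqB c) := by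
  constructor
  · rintro ⟨c', hc', hf⟩
    exact hf.trans (asc_eqB h hc' hc)
  · intro hf
    exact ⟨c, hc, hf⟩

/-- **recognition upstairs**, in any adapted chart -/
theorem brLE_pr (h : RA C G) (hu : u ∈ c.e.source) :
    (brLE h).LE (pr G u) F ↔ Asc C u (fun v => F (pr G v)) fun v => eqU c v ^ 2 := by
  rw [brLE_iff_all h (c.mem_eM_source hu), asc_eqB_iff h hu]

/-- the chart equation is a local equation -/
theorem brLE_eqB (h : RA C G) {m : Orb G X} {c : RC G C} (hc : m ∈ c.eM.source) :
    (brLE h).LE m (eqB c) := ⟨c, hc, Asc.refl _⟩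

/-- off the branch set a local equation is a unit -/
theorem brLE_off (h : RA C G) {m : Orb G X} (hm : m ∉ Br G X) :
    (brLE h).LE m F ↔ HolN h.fam m F ∧ F m ≠ 0 := by
  obtain ⟨c, hc⟩ := h.fam.cover m
  have hc' : m ∈ c.eM.source := hc
  rw [brLE_iff_all h hc']
  have h0 : eqB c m ≠ 0 := fun h0 => hm ((eqB_eq_zero_iff hc').1 h0)
  constructor
  · intro hf
    refine ⟨hf.hol (holN_eqB h hc'), ?_⟩
    obtain ⟨v, hv, hv0, hv2⟩ := hf
    rw [hv2.self_of_nhds]
    exact mul_ne_zero hv0 h0
  · rintro ⟨hF, hF0⟩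
    refine ⟨fun y => F y / eqB c y, hF.div (holN_eqB h hc') h0, div_ne_zero hF0 h0, ?_⟩
    filter_upwards [(holN_eqB h hc').continuousAt.eventually_ne h0] with y hy
    rw [div_mul_cancel₀ _ hy]

/-- a local equation vanishes exactly on the branch set -/
theorem brLE_zero (h : RA C G) {m : Orb G X} (hF : (brLE h).LE m F) :
    ∀ᶠ y in 𝓝 m, F y = 0 ↔ y ∈ Br G X := by
  obtain ⟨c, hc, v, hv, hv0, hv2⟩ := hF
  filter_upwards [hv2, c.eM.open_source.mem_nhds hc, hv.continuousAt.eventually_ne hv0]
    with y h1 h2 h3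
  rw [h1, ← eqB_eq_zero_iff h2, mul_eq_zero]
  exact ⟨fun h => h.resolve_left h3, Or.inr⟩

/-- `F` divides every function which vanishes on the branch set -/
theorem brLE_dvd (h : RA C G) {m : Orb G X} (hF : (brLE h).LE m F) {K : Orb G X → ℂ}
    (hK : HolN h.fam m K) (hz : ∀ᶠ y in 𝓝 m, y ∈ Br G X → K y = 0) : Dvd h.fam m F K := by
  obtain ⟨c, hc, hf⟩ := hF
  exact (dvd_eqB h hc hK hz).trans hf.symm.dvd

/-- **the bundle O(-R₊)** -/
def RP (h : RA C G) : CB h.fam := (brLE h).eqs.idl 1

theorem exists_met_RP (h : RA C G) [CompactSpace (Orb G X)] [T2Space (Orb G X)] :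
    Nonempty (Met (RP h) univ) := exists_met _

end Down

end

end Crest.Agent.R272.LcR_783
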