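/-
R272 (S0415), positivity at p0, piece (5A)(ii): functions of `(c, c', ξ)` on `Y` in an `E`-chart
`E : (K × K) × ℂ ⇀ Y`, biholomorphic in the sense of `Idn_834.Germ.cpt`.

helper977
-/
import Crest.Agent.R272.Kum4_977
import Crest.Agent.R272.Kum5_977
import Crest.Agent.R272.IdnDefs_834
import Crest.Agent.R272.LcR2_783

set_option autoImplicit false
set_option linter.unusedVariables false
set_option linter.unusedSectionVars false

open Filter Topology Set OnePoint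

noncomputable section

namespace Crest.Agent.R272.Kum_977

open Crest.Agent.R275.Geo Crest.Agent.R273.Fam_835 Crest.Agent.R272.Lc_220
open Crest.Agent.R272.Idn_834 Crest.Agent.R272.AJ_956 Crest.Agent.R272.LcR_783

section chart

variable {K : Type} [TopologicalSpace K] {𝒞 : Cur K} {Y : Type} [TopologicalSpace Y]
  {CY : Fam 3 Y} {E : OpenPartialHomeomorph ((K × K) × ℂ) Y}

/-- all product charts are compatible -/
def ECpt (𝒞 : Cur K) (CY : Fam 3 Y) (E : OpenPartialHomeomorph ((K × K) × ℂ) Y) : Prop :=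
  ∀ c c', Refl_246.Cpt CY (E.symm.trans (pc 𝒞 c c'))

theorem mem_pc {c c' : K} {p : (K × K) × ℂ} (h : p.1.1 ∈ (𝒞.k c).source)
    (h' : p.1.2 ∈ (𝒞.k c').source) : p ∈ (pc 𝒞 c c').source := by
  unfold pc
  simp [h, h']

/-- holomorphy of a function of `(c, c', ξ)` -/
theorem holN_E (hE : ECpt 𝒞 CY E) {p : (K × K) × ℂ} (hp : p ∈ E.source)
    {f : (K × K) × ℂ → ℂ}
    (hf : AnalyticAt ℂ (fun w : Cn 3 => f (((𝒞.k p.1.1).symm (w 0), (𝒞.k p.1.2).symm (w 1)), w 2))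
      (h3 ((0, 0), p.2))) : HolN CY (E p) fun y => f (E.symm y) := by
  have hmem : E p ∈ (E.symm.trans (pc 𝒞 p.1.1 p.1.2)).source := by
    rw [OpenPartialHomeomorph.trans_source]
    refine ⟨E.map_source hp, ?_⟩
    rw [mem_preimage, E.left_inv hp]
    exact mem_pc (𝒞.k_mem _) (𝒞.k_mem _)
  rw [holN_iff_cpt (hE p.1.1 p.1.2) hmem]
  have hval : (E.symm.trans (pc 𝒞 p.1.1 p.1.2)) (E p) = h3 ((0, 0), p.2) := by
    show pc 𝒞 p.1.1 p.1.2 (E.symm (E p)) = _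
    rw [E.left_inv hp]
    show h3 ((𝒞.k p.1.1 p.1.1, 𝒞.k p.1.2 p.1.2), p.2) = _
    rw [𝒞.k_zero, 𝒞.k_zero]
  rw [hval]
  refine hf.congr ?_
  have hcont := (E.symm.trans (pc 𝒞 p.1.1 p.1.2)).continuousAt_symm
    ((E.symm.trans (pc 𝒞 p.1.1 p.1.2)).map_source hmem)
  rw [hval] at hcont
  have h0 : (E.symm.trans (pc 𝒞 p.1.1 p.1.2)).symm (h3 ((0, 0), p.2)) = E p := by
    rw [← hval, OpenPartialHomeomorph.left_inv _ hmem]
  have hev : ∀ᶠ w in 𝓝 (h3 ((0, 0), p.2)),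
      w ∈ (E.symm.trans (pc 𝒞 p.1.1 p.1.2)).target :=
    (E.symm.trans (pc 𝒞 p.1.1 p.1.2)).open_target.mem_nhds
      (by rw [← hval]; exact OpenPartialHomeomorph.map_source _ hmem)
  filter_upwards [hev] with w hw
  have h1 : (pc 𝒞 p.1.1 p.1.2).symm w ∈ E.source := by
    rw [OpenPartialHomeomorph.trans_target] at hw
    exact hw.2
  have h2 : (E.symm.trans (pc 𝒞 p.1.1 p.1.2)).symm w = E ((pc 𝒞 p.1.1 p.1.2).symm w) := rfl
  rw [h2, E.left_inv h1]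
  rfl

theorem analyticAt_coord (i : Fin 3) (w : Cn 3) : AnalyticAt ℂ (fun w : Cn 3 => w i) w := by
  have h3 : Differentiable ℂ fun w : Cn 3 => w i := by fun_prop
  exact Crest.Agent.R266.SCV.analyticOnNhd_of_differentiableOn isOpen_univ
    h3.differentiableOn _ (mem_univ _)

/-- `f` is holomorphic at the point `c` of the curve -/
def HolK (𝒞 : Cur K) (c : K) (f : K → ℂ) : Prop :=
  AnalyticAt ℂ (fun z => f ((𝒞.k c).symm z)) 0

theorem holN_c1 (hE : ECpt 𝒞 CY E) {p : (K × K) × ℂ} (hp : p ∈ E.source) {f : K → ℂ}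
    (hf : HolK 𝒞 p.1.1 f) : HolN CY (E p) fun y => f (E.symm y).1.1 := by
  refine holN_E hE hp (f := fun q => f q.1.1) ?_
  exact AnalyticAt.fun_comp (g := fun z => f ((𝒞.k p.1.1).symm z)) (f := fun w : Cn 3 => w 0)
    hf (analyticAt_coord 0 _)

theorem holN_c2 (hE : ECpt 𝒞 CY E) {p : (K × K) × ℂ} (hp : p ∈ E.source) {f : K → ℂ}
    (hf : HolK 𝒞 p.1.2 f) : HolN CY (E p) fun y => f (E.symm y).1.2 := by
  refine holN_E hE hp (f := fun q => f q.1.2) ?_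
  exact AnalyticAt.fun_comp (g := fun z => f ((𝒞.k p.1.2).symm z)) (f := fun w : Cn 3 => w 1)
    hf (analyticAt_coord 1 _)

theorem holN_x (hE : ECpt 𝒞 CY E) {p : (K × K) × ℂ} (hp : p ∈ E.source) :
    HolN CY (E p) fun y => (E.symm y).2 :=
  holN_E hE hp (f := fun q => q.2) (analyticAt_coord 2 _)

/-- non vanishing germs -/
theorem nz_E {p : (K × K) × ℂ} (hp : p ∈ E.source) {f : (K × K) × ℂ → ℂ}
    (hf : ∃ᶠ q in 𝓝 p, f q ≠ 0) : NZ (E p) fun y => f (E.symm y) := by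
  intro h
  have h1 : ∀ᶠ q in 𝓝 p, f (E.symm (E q)) = 0 :=
    (E.continuousAt hp).eventually h
  have h2 : ∀ᶠ q in 𝓝 p, f q = 0 := by
    filter_upwards [h1, E.open_source.mem_nhds hp] with q h3 h4
    rwa [E.left_inv h4] at h3
  exact hf (h2.mono fun q hq hq2 => hq2 hq)

theorem freq_ne (z₀ : ℂ) : ∃ᶠ z in 𝓝 z₀, z ≠ (0 : ℂ) := by
  by_cases h : z₀ = 0
  · subst h
    have h1 : ∀ᶠ z in 𝓝[≠] (0 : ℂ), z ≠ 0 := eventually_mem_nhdsWithin
    exact h1.frequently.filter_mono nhdsWithin_le_nhds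
  · have h1 : ∀ᶠ z in 𝓝 z₀, z ≠ 0 := isOpen_ne.mem_nhds h
    exact h1.frequently

theorem freq_x (p : (K × K) × ℂ) : ∃ᶠ q in 𝓝 p, q.2 ≠ 0 := by
  have h2 : Tendsto (fun z : ℂ => (p.1, z)) (𝓝 p.2) (𝓝 p) :=
    (continuous_const.prodMk continuous_id).tendsto' _ _ rfl
  exact h2.frequently (freq_ne p.2)

/-- a finite set of points of the curve is avoided near every point -/
theorem freq_K (𝒞 : Cur K) (c : K) {F : Set K} (hF : F.Finite) : ∃ᶠ c' in 𝓝 c, c' ∉ F := by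
  have h0 : (0 : ℂ) ∈ (𝒞.k c).target := by
    rw [← 𝒞.k_zero c]; exact (𝒞.k c).map_source (𝒞.k_mem c)
  have hsy : (𝒞.k c).symm 0 = c := by
    rw [← 𝒞.k_zero c, (𝒞.k c).left_inv (𝒞.k_mem c)]
  have h1 : Tendsto (𝒞.k c).symm (𝓝 0) (𝓝 c) := by
    have := (𝒞.k c).continuousAt_symm h0
    rwa [ContinuousAt, hsy] at this
  have h2 : ((𝒞.k c) '' F).Finite := hF.image _
  have h3 : ∀ᶠ z in 𝓝[≠] (0 : ℂ), z ∉ (𝒞.k c) '' F := by
    have h4 : ((𝒞.k c) '' F \ {0}).Finite := h2.subset sdiff_subset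
    have h5 : ∀ᶠ z in 𝓝 (0 : ℂ), z ∉ (𝒞.k c) '' F \ {0} :=
      h4.isClosed.isOpen_compl.mem_nhds (by simp)
    filter_upwards [h5.filter_mono nhdsWithin_le_nhds, self_mem_nhdsWithin] with z h6 h7 h8
    exact h6 ⟨h8, h7⟩
  have h4' : ∀ᶠ z in 𝓝 (0 : ℂ), z ∈ (𝒞.k c).target := (𝒞.k c).open_target.mem_nhds h0
  have h4 : ∀ᶠ z in 𝓝[≠] (0 : ℂ), z ∈ (𝒞.k c).target := h4'.filter_mono nhdsWithin_le_nhds
  refine h1.frequently ((h3.and h4).frequently.filter_mono nhdsWithin_le_nhds |>.mono ?_)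
  rintro z ⟨h5, h6⟩ h7
  exact h5 ⟨_, h7, (𝒞.k c).right_inv h6⟩

theorem freq_c1 (p : (K × K) × ℂ) {Q : K → K → Prop} (h : ∃ᶠ c in 𝓝 p.1.1, Q c p.1.2) :
    ∃ᶠ q : (K × K) × ℂ in 𝓝 p, Q q.1.1 q.1.2 := by
  have h2 : Tendsto (fun c : K => ((c, p.1.2), p.2)) (𝓝 p.1.1) (𝓝 p) :=
    ((continuous_id.prodMk continuous_const).prodMk continuous_const).tendsto' _ _ rfl
  exact h2.frequently h

theorem freq_c2 (p : (K × K) × ℂ) {Q : K → K → Prop} (h : ∃ᶠ c in 𝓝 p.1.2, Q p.1.1 c) :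
    ∃ᶠ q : (K × K) × ℂ in 𝓝 p, Q q.1.1 q.1.2 := by
  have h2 : Tendsto (fun c : K => ((p.1.1, c), p.2)) (𝓝 p.1.2) (𝓝 p) :=
    ((continuous_const.prodMk continuous_id).prodMk continuous_const).tendsto' _ _ rfl
  exact h2.frequently h

end chart

/-! ### the curve `Cv P` -/

section curve

open Crest.Agent.R272.Cur_297 Crest.Agent.R272.Tq1_916

variable {P : Par} {Y : Type} [TopologicalSpace Y] {CY : Fam 3 Y}
  {E : OpenPartialHomeomorph ((Cv P × Cv P) × ℂ) Y}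

theorem zero_mem_k (c : Cv P) : (0 : ℂ) ∈ (k c).target := by
  rw [← k_zero c]; exact (k c).map_source (k_mem c)

theorem symm_zero_k (c : Cv P) : (k c).symm 0 = c := by
  rw [← k_zero c, (k c).left_inv (k_mem c)]

theorem ev_k {c : Cv P} {O : Set (Cv P)} (hO : IsOpen O) (h : c ∈ O) :
    ∀ᶠ z in 𝓝 (0 : ℂ), (k c).symm z ∈ O := by
  have h1 := (k c).continuousAt_symm (zero_mem_k c)
  rw [ContinuousAt, symm_zero_k] at h1
  exact h1.eventually (hO.mem_nhds h)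

theorem holK_dl {i : Fin 2} {c : Cv P} (h : tt c ≠ pole i) :
    HolK (cur P) c fun c => dl i (tt c) := by
  fin_cases i
  · exact analyticAt_const
  · have h' : tt c ≠ ((0 : ℂ) : P1) := h
    have h1 := (R1 c (zero_mem_k c) (by rw [symm_zero_k]; exact h')).f_an
    refine h1.congr (Eventually.of_forall fun z => ?_)
    show sv ((k c).symm z) = Tp1_60.iv (tt ((k c).symm z))
    rw [iv_tt]

theorem holK_nu {i : Fin 2} {c : Cv P} (h : tt c ≠ pole i) :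
    HolK (cur P) c fun c => nu i (tt c) := by
  fin_cases i
  · have h' : tt c ≠ ∞ := h
    have h1 := (R0 c (zero_mem_k c) (by rw [symm_zero_k]; exact h')).f_an
    refine h1.congr ?_
    filter_upwards [ev_k isOpen_ne_inf h'] with z hz
    show tv ((k c).symm z) = Tp1_60.nn (tt ((k c).symm z))
    rw [nn_tt hz]
  · exact analyticAt_const

theorem holK_eta {i : Fin 2} {c : Cv P} (h : tt c ≠ pole i) :
    HolK (cur P) c fun c => eta i c := by
  fin_cases i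
  · have h' : tt c ≠ ∞ := h
    exact (R0 c (zero_mem_k c) (by rw [symm_zero_k]; exact h')).g_an
  · have h' : tt c ≠ ((0 : ℂ) : P1) := h
    exact (R1 c (zero_mem_k c) (by rw [symm_zero_k]; exact h')).g_an

theorem isOpen_ne_pole (i : Fin 2) : IsOpen {c : Cv P | tt c ≠ pole i} := by
  fin_cases i
  · exact isOpen_ne_inf
  · exact isOpen_ne_zero

/-- the points with a given slope -/
theorem fin_slope (t : P1) : {c : Cv P | tt c = t}.Finite := by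
  by_cases h : ∃ c : Cv P, tt c = t
  · obtain ⟨c, hc⟩ := h
    refine ((finite_singleton (iv c)).insert c).subset ?_
    intro c' hc'
    exact eq_or_eq_iv (hc.trans hc'.symm)
  · convert finite_empty (α := Cv P)
    ext c
    simp only [mem_ofPred_eq, mem_empty_iff_false, iff_false]
    exact fun hc => h ⟨c, hc⟩

/-- functions of the first point on `Y` -/
def sY (E : OpenPartialHomeomorph ((Cv P × Cv P) × ℂ) Y) (i : Fin 2) (y : Y) : ℂ :=
  dl i (tt (E.symm y).1.1)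
def rY (E : OpenPartialHomeomorph ((Cv P × Cv P) × ℂ) Y) (i : Fin 2) (y : Y) : ℂ :=
  nu i (tt (E.symm y).1.1)
def eY (E : OpenPartialHomeomorph ((Cv P × Cv P) × ℂ) Y) (i : Fin 2) (y : Y) : ℂ :=
  eta i (E.symm y).1.1
/-- functions of the second point on `Y` -/
def sY' (E : OpenPartialHomeomorph ((Cv P × Cv P) × ℂ) Y) (j : Fin 2) (y : Y) : ℂ :=
  dl j (tt (E.symm y).1.2)
def rY' (E : OpenPartialHomeomorph ((Cv P × Cv P) × ℂ) Y) (j : Fin 2) (y : Y) : ℂ :=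
  nu j (tt (E.symm y).1.2)
def eY' (E : OpenPartialHomeomorph ((Cv P × Cv P) × ℂ) Y) (j : Fin 2) (y : Y) : ℂ :=
  eta j (E.symm y).1.2
/-- the fibre coordinate on `Y` -/
def xY (E : OpenPartialHomeomorph ((Cv P × Cv P) × ℂ) Y) (y : Y) : ℂ := (E.symm y).2

theorem ev_Y {p : (Cv P × Cv P) × ℂ} (hp : p ∈ E.source) {Q : (Cv P × Cv P) × ℂ → Prop}
    (h : ∀ᶠ q in 𝓝 p, Q q) : ∀ᶠ y in 𝓝 (E p), Q (E.symm y) := by
  have h1 := E.continuousAt_symm (E.map_source hp)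
  rw [ContinuousAt, E.left_inv hp] at h1
  exact h1.eventually h

theorem ev_Y_source {p : (Cv P × Cv P) × ℂ} (hp : p ∈ E.source) :
    ∀ᶠ y in 𝓝 (E p), y ∈ E.target ∧ E (E.symm y) = y := by
  filter_upwards [E.open_target.mem_nhds (E.map_source hp)] with y hy
  exact ⟨hy, E.right_inv hy⟩

theorem fr_1 (hE : ECpt (cur P) CY E) {p : (Cv P × Cv P) × ℂ} (hp : p ∈ E.source) {i : Fin 2}
    (h : tt p.1.1 ≠ pole i) : Fr CY (cf P) (E p) (sY E i) (rY E i) (eY E i) where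
  hs := holN_c1 hE hp (f := fun c => dl i (tt c)) (holK_dl h)
  hr := holN_c1 hE hp (f := fun c => nu i (tt c)) (holK_nu h)
  he := holN_c1 hE hp (f := fun c => eta i c) (holK_eta h)
  eq := by
    have h1 : ∀ᶠ q : (Cv P × Cv P) × ℂ in 𝓝 p, tt q.1.1 ≠ pole i :=
      (continuous_fst.comp continuous_fst).continuousAt.eventually
        ((isOpen_ne_pole i).mem_nhds h)
    filter_upwards [ev_Y hp h1] with y hy
    exact eta_sq hy
  ne := by
    show dl i (tt (E.symm (E p)).1.1) ≠ 0 ∨ nu i (tt (E.symm (E p)).1.1) ≠ 0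
    rw [E.left_inv hp]
    exact frame_ne i _

theorem fr_2 (hE : ECpt (cur P) CY E) {p : (Cv P × Cv P) × ℂ} (hp : p ∈ E.source) {j : Fin 2}
    (h : tt p.1.2 ≠ pole j) : Fr CY (cf P) (E p) (sY' E j) (rY' E j) (eY' E j) where
  hs := holN_c2 hE hp (f := fun c => dl j (tt c)) (holK_dl h)
  hr := holN_c2 hE hp (f := fun c => nu j (tt c)) (holK_nu h)
  he := holN_c2 hE hp (f := fun c => eta j c) (holK_eta h)
  eq := by
    have h1 : ∀ᶠ q : (Cv P × Cv P) × ℂ in 𝓝 p, tt q.1.2 ≠ pole j :=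
      (continuous_snd.comp continuous_fst).continuousAt.eventually
        ((isOpen_ne_pole j).mem_nhds h)
    filter_upwards [ev_Y hp h1] with y hy
    exact eta_sq hy
  ne := by
    show dl j (tt (E.symm (E p)).1.2) ≠ 0 ∨ nu j (tt (E.symm (E p)).1.2) ≠ 0
    rw [E.left_inv hp]
    exact frame_ne j _

theorem dl_ne {i : Fin 2} {t : P1} (h : t ≠ pole i) (h0 : t ≠ ∞) : dl i t ≠ 0 := by
  obtain ⟨g, hg, e1, e2⟩ := frame_rep h
  rw [e1, Tp1_60.dd_of_ne h0, mul_one]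
  exact hg

theorem nz_xY {p : (Cv P × Cv P) × ℂ} (hp : p ∈ E.source) : NZ (E p) (xY E) :=
  nz_E hp (f := fun q => q.2) (freq_x p)

theorem nz_sY {p : (Cv P × Cv P) × ℂ} (hp : p ∈ E.source) {i : Fin 2} (h : tt p.1.1 ≠ pole i) :
    NZ (E p) (sY E i) := by
  refine nz_E hp (f := fun q => dl i (tt q.1.1)) ?_
  refine freq_c1 p (Q := fun c _ => dl i (tt c) ≠ 0) ?_
  have h1 := (freq_K (cur P) p.1.1 (fin_slope ∞)).and_eventually ((isOpen_ne_pole i).mem_nhds h)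
  exact h1.mono fun c hc => dl_ne hc.2 hc.1

theorem nz_sY' {p : (Cv P × Cv P) × ℂ} (hp : p ∈ E.source) {j : Fin 2} (h : tt p.1.2 ≠ pole j) :
    NZ (E p) (sY' E j) := by
  refine nz_E hp (f := fun q => dl j (tt q.1.2)) ?_
  refine freq_c2 p (Q := fun _ c => dl j (tt c) ≠ 0) ?_
  have h1 := (freq_K (cur P) p.1.2 (fin_slope ∞)).and_eventually ((isOpen_ne_pole j).mem_nhds h)
  exact h1.mono fun c hc => dl_ne hc.2 hc.1

theorem nz_delY {p : (Cv P × Cv P) × ℂ} (hp : p ∈ E.source) {i j : Fin 2}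
    (h : tt p.1.1 ≠ pole i) (h' : tt p.1.2 ≠ pole j) :
    NZ (E p) fun y => del (sY E i y) (rY E i y) (sY' E j y) (rY' E j y) := by
  refine nz_E hp (f := fun q => del (dl i (tt q.1.1)) (nu i (tt q.1.1)) (dl j (tt q.1.2))
    (nu j (tt q.1.2))) ?_
  refine freq_c1 p (Q := fun c c' => del (dl i (tt c)) (nu i (tt c)) (dl j (tt c'))
    (nu j (tt c')) ≠ 0) ?_
  have h1 := (freq_K (cur P) p.1.1 (fin_slope (tt p.1.2))).and_eventually
    ((isOpen_ne_pole i).mem_nhds h)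
  exact h1.mono fun c hc h0 => hc.1 ((del_frame hc.2 h').1 h0)

/-- the `E`-chart -/
theorem ech_E (hE : ECpt (cur P) CY E) {p : (Cv P × Cv P) × ℂ} (hp : p ∈ E.source) {i j : Fin 2}
    (h : tt p.1.1 ≠ pole i) (h' : tt p.1.2 ≠ pole j) {x0 x1 x2 Y1 Y2 E1 E2 N : Y → ℂ}
    (h0 : ∀ᶠ q in 𝓝 p, x0 (E q) = q.2 * (dl i (tt q.1.1) * dl j (tt q.1.2)))
    (h1 : ∀ᶠ q in 𝓝 p, x1 (E q) = q.2 * (nu i (tt q.1.1) * dl j (tt q.1.2)))
    (h2 : ∀ᶠ q in 𝓝 p, x2 (E q) = q.2 * (dl i (tt q.1.1) * nu j (tt q.1.2)))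
    (hY1 : ∀ᶠ q in 𝓝 p, Y1 (E q) = (q.2 * dl j (tt q.1.2)) ^ 3 * eta i q.1.1)
    (hY2 : ∀ᶠ q in 𝓝 p, Y2 (E q) = (q.2 * dl i (tt q.1.1)) ^ 3 * eta j q.1.2)
    (hE1 : ∀ᶠ y in 𝓝 (E p), E1 y = x1 y + x2 y) (hE2 : ∀ᶠ y in 𝓝 (E p), E2 y = x1 y * x2 y)
    (hN : ∀ᶠ y in 𝓝 (E p), N y = Fh (cf P) (x0 y) (x1 y) (x0 y) (x2 y) - 2 * Y1 y * Y2 y) :
    ECh CY (cf P) (E p) x0 E1 E2 N (xY E) (sY E i) (rY E i) (eY E i)
      (sY' E j) (rY' E j) (eY' E j) := by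
  have hev : ∀ {f : Y → ℂ} {g : (Cv P × Cv P) × ℂ → ℂ}, (∀ᶠ q in 𝓝 p, f (E q) = g q) →
      ∀ᶠ y in 𝓝 (E p), f y = g (E.symm y) := by
    intro f g hfg
    filter_upwards [ev_Y hp hfg, ev_Y_source hp] with y k1 k2
    rw [k2.2] at k1
    exact k1
  exact ECh.mk' (fr_1 hE hp h) (fr_2 hE hp h') (holN_x hE hp) (hev h0) (hev h1) (hev h2)
    (hev hY1) (hev hY2) hE1 hE2 hN

variable {x0 E1 E2 N : Y → ℂ} {b : ℕ} {i j : Fin 2} {p : (Cv P × Cv P) × ℂ}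

/-- abbreviation -/
def EC (CY : Fam 3 Y) (E : OpenPartialHomeomorph ((Cv P × Cv P) × ℂ) Y) (i j : Fin 2)
    (p : (Cv P × Cv P) × ℂ) (x0 E1 E2 N : Y → ℂ) : Prop :=
  ECh CY (cf P) (E p) x0 E1 E2 N (xY E) (sY E i) (rY E i) (eY E i) (sY' E j) (rY' E j) (eY' E j)

/-- the generator off `Γ` -/
def gXY (b : ℕ) (E : OpenPartialHomeomorph ((Cv P × Cv P) × ℂ) Y) (i j : Fin 2) : Y → ℂ :=
  gX b (xY E) (sY E i) (rY E i) (sY' E j) (rY' E j)

/-- the generator near `Γ`, `ξ ≠ 0` -/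
def gMY (b : ℕ) (E : OpenPartialHomeomorph ((Cv P × Cv P) × ℂ) Y) (i j : Fin 2) : Y → ℂ :=
  gM b (cf P) (xY E) (sY E i) (rY E i) (eY E i) (sY' E j) (rY' E j) (eY' E j)

theorem gXY_apply (hp : p ∈ E.source) : gXY b E i j (E p) = p.2 ^ (b + 9) *
    (del (dl i (tt p.1.1)) (nu i (tt p.1.1)) (dl j (tt p.1.2)) (nu j (tt p.1.2)) ^ 2) ^ 4 *
      (dl i (tt p.1.1) * dl j (tt p.1.2)) ^ b := by
  unfold gXY
  rw [gX_eq]
  unfold xY sY rY sY' rY'
  rw [E.left_inv hp]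

theorem off_Y (hp : p ∈ E.source) (h : tt p.1.1 ≠ pole i) (h' : tt p.1.2 ≠ pole j)
    (hc : p.1.2 ≠ iv p.1.1) :
    Off (cf P) (E p) (sY E i) (rY E i) (eY E i) (sY' E j) (rY' E j) (eY' E j) := by
  unfold Off sY rY eY sY' rY' eY'
  rw [E.left_inv hp]
  exact off_frame h h' hc

/-- **(5A) generator at the points `(c, c', ξ)`, `c' ≠ iv c`** -/
theorem kum_gen (hb : 15 ≤ b) (hp : p ∈ E.source) (h : tt p.1.1 ≠ pole i)
    (h' : tt p.1.2 ≠ pole j) (hc : p.1.2 ≠ iv p.1.1) (hC : EC CY E i j p x0 E1 E2 N) :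
    FinCB3_876.GenAt CY (Pf b x0 E1 E2 N) (gXY b E i j) (E p) :=
  ECh.genX hb hC (off_Y hp h h' hc)

/-- the fourth Kummer coordinate in the frames `i, j` -/
def GK (i j : Fin 2) (x : Cv P × Cv P) : ℂ :=
  GG (cf P) (dl i (tt x.1)) (nu i (tt x.1)) (eta i x.1) (dl j (tt x.2)) (nu j (tt x.2))
    (eta j x.2)

/-- the first three Kummer coordinates in the frames `i, j` -/
def SK (i j : Fin 2) (x : Cv P × Cv P) : Fin 3 → ℂ :=
  sym3 (dl i (tt x.1)) (nu i (tt x.1)) (dl j (tt x.2)) (nu j (tt x.2))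

/-- **(5A) values at the points `(c, c', ξ)`, `c' ≠ iv c`** -/
theorem kum_val (hb : 15 ≤ b) (hp : p ∈ E.source) (h : tt p.1.1 ≠ pole i)
    (h' : tt p.1.2 ≠ pole j) (hc : p.1.2 ≠ iv p.1.1) (hC : EC CY E i j p x0 E1 E2 N) :
    FinCB3_876.ValC CY (Pf b x0 E1 E2 N) (E p)
      fun k => PW_92.Yxi b p.2 (GK i j p.1) (SK i j p.1) k := by
  have h1 := ECh.valX hb hC (off_Y hp h h' hc) (nz_xY hp) (nz_sY hp h) (nz_sY' hp h')
    (nz_delY hp h h')
  unfold xY sY rY eY sY' rY' eY' at h1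
  rw [E.left_inv hp] at h1
  exact h1

/-- **(5A) on the zero section: the Kummer map** -/
theorem kum_val0 (hb : 15 ≤ b) {x : Cv P × Cv P} (hp : (x, (0 : ℂ)) ∈ E.source)
    (h : tt x.1 ≠ pole i) (h' : tt x.2 ≠ pole j) (hc : x.2 ≠ iv x.1)
    (hC : EC CY E i j (x, 0) x0 E1 E2 N) :
    FinCB3_876.ValC CY (Pf b x0 E1 E2 N) (E (x, 0)) (Kv (GK i j x) (SK i j x)) := by
  have h1 := kum_val hb hp h h' hc hC
  have h2 : (fun k => PW_92.Yxi b ((x, (0 : ℂ)) : (Cv P × Cv P) × ℂ).2 (GK i j x) (SK i j x) k)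
      = Kv (GK i j x) (SK i j x) := funext fun k => Yxi_zero hb _ _ k
  rw [← h2]
  exact h1

/-- **(5A) generator near `Γ`, `ξ ≠ 0`** (in fact at every point with `ξ ≠ 0` where `rho ≠ 0` or
`K0 ≠ 0`) -/
theorem kum_genM (hb : 15 ≤ b) (hp : p ∈ E.source) (h : tt p.1.1 ≠ pole i)
    (h' : tt p.1.2 ≠ pole j) (hc : p.1.2 = iv p.1.1) (hx : p.2 ≠ 0)
    (hC : EC CY E i j p x0 E1 E2 N) :
    FinCB3_876.GenAt CY (Pf b x0 E1 E2 N) (gMY b E i j) (E p) := by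
  have hn : Near (cf P) (E p) (sY E i) (rY E i) (eY E i) (sY' E j) (rY' E j) (eY' E j) := by
    rcases ECh.F hC |>.off_or_near (simple_cf P) (ECh.F' hC) with h1 | h1
    · exfalso
      unfold Off sY rY eY sY' rY' eY' at h1
      rw [E.left_inv hp] at h1
      obtain ⟨h2, h3⟩ := (gam_frame h h').2 hc
      rcases h1 with h1 | h1
      · exact h1 h2
      · exact h1 h3
    · exact h1
  refine ECh.genM hb hC hn ?_
  show (E.symm (E p)).2 ≠ 0
  rw [E.left_inv hp]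
  exact hx

/-! ### finite fibres on the zero section -/

/-- the canonical frame -/
def frI (c : Cv P) : Fin 2 := open Classical in if tt c = ∞ then 1 else 0

theorem frI_ne (c : Cv P) : tt c ≠ pole (frI c) := by
  unfold frI
  by_cases h : tt c = ∞
  · rw [if_pos h, pole_one, h]
    exact OnePoint.infty_ne_coe _
  · rw [if_neg h]; exact h

/-- the value vector on the zero section -/
def RK (x : Cv P × Cv P) : PW_92.IPhi → ℂ :=
  Kv (GK (frI x.1) (frI x.2) x) (SK (frI x.1) (frI x.2) x)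

theorem SK_q3 {i j : Fin 2} {x : Cv P × Cv P} (h : tt x.1 ≠ pole i) (h' : tt x.2 ≠ pole j) :
    ∃ g : ℂ, g ≠ 0 ∧ ∀ k, SK i j x k = g * q3 x k :=
  q3_frame h h'

theorem RK_ne (x : Cv P × Cv P) : RK x ≠ 0 := by
  rcases kap_ne (frame_ne (frI x.1) x.1) (frame_ne (frI x.2) x.2) with h | h | h
  · exact Function.ne_iff.2 ⟨.l 0, h⟩
  · exact Function.ne_iff.2 ⟨.l 1, h⟩
  · exact Function.ne_iff.2 ⟨.l 2, h⟩

/-- **(5A) finite fibres of the Kummer map** -/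
theorem kum_fin (y : Cv P × Cv P) :
    {x : Cv P × Cv P | ∀ i j, RK x i * RK y j = RK x j * RK y i}.Finite := by
  refine (q3_fin y).subset fun x hx => ?_
  obtain ⟨g, hg, e⟩ := SK_q3 (frI_ne x.1) (frI_ne x.2)
  obtain ⟨g', hg', e'⟩ := SK_q3 (frI_ne y.1) (frI_ne y.2)
  intro i j
  have h1 := hx (.l i) (.l j)
  change SK (frI x.1) (frI x.2) x i * SK (frI y.1) (frI y.2) y j
    = SK (frI x.1) (frI x.2) x j * SK (frI y.1) (frI y.2) y i at h1
  rw [e, e, e', e'] at h1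
  have h2 : (g * g') * (q3 x i * q3 y j) = (g * g') * (q3 x j * q3 y i) := by
    linear_combination h1
  exact mul_left_cancel₀ (mul_ne_zero hg hg') h2

end curve

end Crest.Agent.R272.Kum_977
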