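import Crest.Agent.R272.K3E5_227
import Crest.Agent.R272.Cur5_297

/-!
# R272 (helper227): the curve of S0415 is a `Sext`, so `K3 (cur P) U` exists

`sextP P : Sext (cur P) (lP P)` and `k3P : (cur P).NearE N U → K3 (cur P) U`.
-/

set_option autoImplicit false
set_option linter.unusedSectionVars false

open Set Filter Topology OnePoint

namespace Crest.Agent.R272.K3E_227

open Crest.Agent.R272.AJ_956 Crest.Agent.R272.Idn_834
open Crest.Agent.R272.Cur_297 (Par Cv P1 cur om la lb R0 R1 tt yv vv sv)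

noncomputable section

variable (P : Par)

/-- coefficients of `A t` -/
def aP : Fin 3 → ℂ := ![-(P.c 3 * P.c 4 * P.c 5), P.c 3 * P.c 4 + P.c 3 * P.c 5 + P.c 4 * P.c 5,
  -(P.c 3 + P.c 4 + P.c 5)]

/-- coefficients of `B t` -/
def bP : Fin 3 → ℂ := ![-(P.c 0 * P.c 1 * P.c 2), P.c 0 * P.c 1 + P.c 0 * P.c 2 + P.c 1 * P.c 2,
  -(P.c 0 + P.c 1 + P.c 2)]

/-- coefficients of `A t * B t` -/
def lP : Fin 7 → ℂ := ![aP P 0 * bP P 0, aP P 0 * bP P 1 + aP P 1 * bP P 0,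
  aP P 0 * bP P 2 + aP P 1 * bP P 1 + aP P 2 * bP P 0,
  aP P 0 + aP P 1 * bP P 2 + aP P 2 * bP P 1 + bP P 0,
  aP P 1 + aP P 2 * bP P 2 + bP P 1, aP P 2 + bP P 2, 1]

theorem p0_fp (t : ℂ) : P.p0 t = fp (lP P) t := by
  have e0 : lP P 0 = aP P 0 * bP P 0 := rfl
  have e1 : lP P 1 = aP P 0 * bP P 1 + aP P 1 * bP P 0 := rfl
  have e2 : lP P 2 = aP P 0 * bP P 2 + aP P 1 * bP P 1 + aP P 2 * bP P 0 := rfl
  have e3 : lP P 3 = aP P 0 + aP P 1 * bP P 2 + aP P 2 * bP P 1 + bP P 0 := rfl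
  have e4 : lP P 4 = aP P 1 + aP P 2 * bP P 2 + bP P 1 := rfl
  have e5 : lP P 5 = aP P 2 + bP P 2 := rfl
  have e6 : lP P 6 = 1 := rfl
  have a0 : aP P 0 = -(P.c 3 * P.c 4 * P.c 5) := rfl
  have a1 : aP P 1 = P.c 3 * P.c 4 + P.c 3 * P.c 5 + P.c 4 * P.c 5 := rfl
  have a2 : aP P 2 = -(P.c 3 + P.c 4 + P.c 5) := rfl
  have b0 : bP P 0 = -(P.c 0 * P.c 1 * P.c 2) := rfl
  have b1 : bP P 1 = P.c 0 * P.c 1 + P.c 0 * P.c 2 + P.c 1 * P.c 2 := rfl
  have b2 : bP P 2 = -(P.c 0 + P.c 1 + P.c 2) := rfl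
  unfold fp Par.p0 Par.AA Par.BB
  rw [e0, e1, e2, e3, e4, e5, e6, a0, a1, a2, b0, b1, b2]
  ring

theorem p1_fp (t : ℂ) : P.p1 t = fp (rv (lP P)) t := by
  have r0 : rv (lP P) 0 = lP P 6 := rfl
  have r1 : rv (lP P) 1 = lP P 5 := rfl
  have r2 : rv (lP P) 2 = lP P 4 := rfl
  have r3 : rv (lP P) 3 = lP P 3 := rfl
  have r4 : rv (lP P) 4 = lP P 2 := rfl
  have r5 : rv (lP P) 5 = lP P 1 := rfl
  have r6 : rv (lP P) 6 = lP P 0 := rfl
  have e0 : lP P 0 = aP P 0 * bP P 0 := rfl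
  have e1 : lP P 1 = aP P 0 * bP P 1 + aP P 1 * bP P 0 := rfl
  have e2 : lP P 2 = aP P 0 * bP P 2 + aP P 1 * bP P 1 + aP P 2 * bP P 0 := rfl
  have e3 : lP P 3 = aP P 0 + aP P 1 * bP P 2 + aP P 2 * bP P 1 + bP P 0 := rfl
  have e4 : lP P 4 = aP P 1 + aP P 2 * bP P 2 + bP P 1 := rfl
  have e5 : lP P 5 = aP P 2 + bP P 2 := rfl
  have e6 : lP P 6 = 1 := rfl
  have a0 : aP P 0 = -(P.c 3 * P.c 4 * P.c 5) := rfl
  have a1 : aP P 1 = P.c 3 * P.c 4 + P.c 3 * P.c 5 + P.c 4 * P.c 5 := rfl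
  have a2 : aP P 2 = -(P.c 3 + P.c 4 + P.c 5) := rfl
  have b0 : bP P 0 = -(P.c 0 * P.c 1 * P.c 2) := rfl
  have b1 : bP P 1 = P.c 0 * P.c 1 + P.c 0 * P.c 2 + P.c 1 * P.c 2 := rfl
  have b2 : bP P 2 = -(P.c 0 + P.c 1 + P.c 2) := rfl
  unfold fp Par.p1 Par.At Par.Bt
  rw [r0, r1, r2, r3, r4, r5, r6, e0, e1, e2, e3, e4, e5, e6, a0, a1, a2, b0, b1, b2]
  ring

variable {P}

/-! ### `w`, the slopes -/

theorem w0 {c : Cv P} (h : tt c ≠ ∞) : ∃ m : ℂ, m ≠ 0 ∧ (cur P).w c 0 = m ∧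
    (cur P).w c 1 = m * Cur_297.tv c := by
  have e : (cur P).w c = om c 0 := Cur_297.deriv_G c (Cur_297.zero_mem c)
  refine ⟨_, Cur_297.m0_ne (Cur_297.ch0 (Cur_297.aq c h)), ?_, ?_⟩ <;>
    rw [e, Cur_297.om_zero0 h] <;> simp [la]

theorem w1 {c : Cv P} (h : ¬ tt c ≠ ∞) : ∃ m : ℂ, m ≠ 0 ∧ (cur P).w c 0 = 0 ∧
    (cur P).w c 1 = -m := by
  have e : (cur P).w c = om c 0 := Cur_297.deriv_G c (Cur_297.zero_mem c)
  refine ⟨_, Cur_297.m0_ne (Cur_297.ch1 (Cur_297.bq c (Cur_297.nz h))), ?_, ?_⟩ <;>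
    rw [e, Cur_297.om_zero1 h] <;> simp [lb]

/-- `t` finite -/
theorem mem_C0 {c : Cv P} : c ∈ Ci (cur P) 0 ↔ tt c ≠ ∞ := by
  by_cases h : tt c ≠ ∞
  · obtain ⟨m, hm, h0, -⟩ := w0 h
    exact iff_of_true (show (cur P).w c 0 ≠ 0 by rw [h0]; exact hm) h
  · obtain ⟨m, hm, h0, -⟩ := w1 h
    exact iff_of_false (fun hc => (show (cur P).w c 0 ≠ 0 from hc) h0) h

/-- `t ≠ 0` -/
theorem mem_C1 {c : Cv P} : c ∈ Ci (cur P) 1 ↔ tt c ≠ ((0 : ℂ) : P1) := by
  by_cases h : tt c ≠ ∞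
  · obtain ⟨m, hm, -, h1⟩ := w0 h
    have e : tt c ≠ ((0 : ℂ) : P1) ↔ Cur_297.tv c ≠ 0 := by
      rw [Cur_297.tt_eq h, Ne, Ne, OnePoint.coe_eq_coe]
    rw [e]
    show (cur P).w c 1 ≠ 0 ↔ _
    rw [h1]
    simp [hm]
  · obtain ⟨m, hm, -, h1⟩ := w1 h
    refine iff_of_true (show (cur P).w c 1 ≠ 0 by rw [h1]; exact neg_ne_zero.2 hm)
      (Cur_297.nz h)

theorem tv0 (c : Cv P) : tv (cur P) 0 c = Cur_297.tv c := by
  show (cur P).w c 1 / (cur P).w c 0 = _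
  by_cases h : tt c ≠ ∞
  · obtain ⟨m, hm, h0, h1⟩ := w0 h
    rw [h0, h1, mul_div_cancel_left₀ _ hm]
  · obtain ⟨m, hm, h0, h1⟩ := w1 h
    rw [h0, div_zero]
    unfold Cur_297.tv
    rw [not_not.1 h]; rfl

theorem tv1 (c : Cv P) : tv (cur P) 1 c = sv c := by
  show (cur P).w c 0 / (cur P).w c 1 = _
  by_cases h : tt c ≠ ∞
  · obtain ⟨m, hm, h0, h1⟩ := w0 h
    rw [h0, h1, Cur_297.sv_eq h, div_mul_eq_div_div, div_self hm, one_div]
  · obtain ⟨m, hm, h0, h1⟩ := w1 h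
    rw [h0, zero_div]
    exact (Cur_297.sv_inf h).symm

theorem dG {c : Cv P} {z : ℂ} (hz : z ∈ ((cur P).k c).target) (i : Fin 2) :
    deriv (fun z => (cur P).G c z i) z = om c z i := by
  have h := (hasDerivAt_pi.1 (Cur_297.hasDerivAt_G c hz)) i
  exact h.deriv

/-- **the curve of S0415 is a `Sext`** -/
def sextP (P : Par) : Sext (cur P) (lP P) where
  y := ![fun c => yv c, fun c => - vv c]
  an := by
    intro i c hc
    fin_cases i
    · have h := mem_C0.1 hc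
      exact (R0 c (Cur_297.zero_mem c) (by rw [Cur_297.symm_zero]; exact h)).g_an
    · have h := mem_C1.1 hc
      exact (R1 c (Cur_297.zero_mem c) (by rw [Cur_297.symm_zero]; exact h)).g_an.neg
  sq := by
    intro i c hc
    fin_cases i
    · have h := mem_C0.1 hc
      show yv c ^ 2 = fp (lP P) (tv (cur P) 0 c)
      rw [tv0, ← p0_fp]
      exact Cur_297.yv_sq h
    · have h := mem_C1.1 hc
      show (- vv c) ^ 2 = fp (rv (lP P)) (tv (cur P) 1 c)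
      rw [tv1, ← p1_fp, neg_sq]
      exact Cur_297.vv_sq h
  iv := by
    intro i c hc
    fin_cases i
    · exact Cur_297.yv_iv c
    · show - vv (Cur_297.iv c) = - - vv c
      rw [Cur_297.vv_iv]
  der := by
    intro i c hc
    fin_cases i
    · have h := mem_C0.1 hc
      have hR := R0 c (Cur_297.zero_mem c) (by rw [Cur_297.symm_zero]; exact h)
      filter_upwards [hR.eq, (Cur_297.k c).open_target.mem_nhds (Cur_297.zero_mem c)] with z h1 h2
      have h3 := congrFun h1 0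
      show deriv (fun z => tv (cur P) 0 (((cur P).k c).symm z)) z =
        yv (((cur P).k c).symm z) * deriv (fun z => (cur P).G c z 0) z
      rw [dG h2]
      have e : (fun z => tv (cur P) 0 (((cur P).k c).symm z)) =
          fun z => Cur_297.tv ((Cur_297.k c).symm z) := by
        funext z; exact tv0 _
      rw [e]
      have h4 : yv ((Cur_297.k c).symm z) * om c z 0 =
          deriv (fun z => Cur_297.tv ((Cur_297.k c).symm z)) z * 1 := h3
      rw [mul_one] at h4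
      exact h4.symm
    · have h := mem_C1.1 hc
      have hR := R1 c (Cur_297.zero_mem c) (by rw [Cur_297.symm_zero]; exact h)
      filter_upwards [hR.eq, (Cur_297.k c).open_target.mem_nhds (Cur_297.zero_mem c)] with z h1 h2
      have h3 := congrFun h1 1
      show deriv (fun z => tv (cur P) 1 (((cur P).k c).symm z)) z =
        - vv (((cur P).k c).symm z) * deriv (fun z => (cur P).G c z 1) z
      rw [dG h2]
      have e : (fun z => tv (cur P) 1 (((cur P).k c).symm z)) =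
          fun z => sv ((Cur_297.k c).symm z) := by
        funext z; exact tv1 _
      rw [e]
      have h4 : vv ((Cur_297.k c).symm z) * om c z 1 =
          deriv (fun z => sv ((Cur_297.k c).symm z)) z * -1 := h3
      show _ = - vv ((Cur_297.k c).symm z) * om c z 1
      rw [neg_mul, h4]
      ring
  rel := by
    intro c h0 h1
    have g0 := mem_C0.1 h0
    have g1 := mem_C1.1 h1
    show - vv c = - yv c * tv (cur P) 1 c ^ 3
    rw [tv1, Cur_297.yv_eq g0 g1]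
    have hs := Cur_297.sv_ne g0 g1
    field_simp

/-- **K3 for the curve of S0415** -/
def k3P {N : Set (Cv P × Cv P)} {U : Cv P × Cv P → E2} (h : (cur P).NearE N U) : K3 (cur P) U :=
  k3 (sextP P) h

end

end Crest.Agent.R272.K3E_227
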