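/-
R272 (S0415), positivity at p0, piece (5A) of 848 #6650: THE KUMMER MAP, part 1 (algebra).

A frame of a point of the curve `y² = Σ a_k t^k` is `(s, r, η)` with `(s, r) ≠ 0`, `t = r / s` and
`η² = fh a s r` (homogeneous sextic); frames are changed by `(s, r, η) ↦ (l s, l r, l³ η)`.

* `Fh` (bidegree (3,3)), `K0`, `del`, `rho = Fh - 2 η η'`, `rhob = Fh + 2 η η'`,
  `rho * rhob = del² K0`;
* `GG` = `rho / del²`, extended by `K0 / rhob` : the fourth Kummer coordinate;
* `kap` = `(s s', r s' + s r', r r', GG)`;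
* `Phi b i (x0, x1, x2, R)` : the list of 848 #6650 (5), all of them polynomials in `x0, x1, x2` and
  `R = x0³ D W`, `D = (x1 - x2)²`;
* `Phi_kum` : in a frame chart, `Phi b i = (ξ D⁴ x0^b) * hh b i`.

helper977
-/
import Mathlib

set_option autoImplicit false

open Filter Topology Set

noncomputable section

namespace Crest.Agent.R272.Kum_977

variable (a : Fin 7 → ℂ)

/-- homogeneous sextic -/
def fh (s r : ℂ) : ℂ :=
  a 0 * s ^ 6 + a 1 * r * s ^ 5 + a 2 * r ^ 2 * s ^ 4 + a 3 * r ^ 3 * s ^ 3 + a 4 * r ^ 4 * s ^ 2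
    + a 5 * r ^ 5 * s + a 6 * r ^ 6

/-- the polar form, of bidegree (3, 3) -/
def Fh (s r s' r' : ℂ) : ℂ :=
  2 * a 0 * (s * s') ^ 3 + a 1 * (s * s') ^ 2 * (r * s' + s * r')
    + 2 * a 2 * (r * r') * (s * s') ^ 2 + a 3 * (r * r') * (s * s') * (r * s' + s * r')
    + 2 * a 4 * (r * r') ^ 2 * (s * s') + a 5 * (r * r') ^ 2 * (r * s' + s * r')
    + 2 * a 6 * (r * r') ^ 3

/-- the constant coefficient of the Kummer quartic, in `A = s s'`, `B = r s' + s r'`, `C = r r'` -/
def Kq (A B C : ℂ) : ℂ :=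
  -4 * A ^ 4 * a 0 * a 2 + A ^ 4 * a 1 ^ 2 - 4 * A ^ 3 * B * a 0 * a 3 - 2 * A ^ 3 * C * a 1 * a 3
    - 4 * A ^ 2 * B ^ 2 * a 0 * a 4 + 4 * A ^ 2 * B * C * a 0 * a 5 - 4 * A ^ 2 * B * C * a 1 * a 4
    - 4 * A ^ 2 * C ^ 2 * a 0 * a 6 + 2 * A ^ 2 * C ^ 2 * a 1 * a 5 - 4 * A ^ 2 * C ^ 2 * a 2 * a 4
    + A ^ 2 * C ^ 2 * a 3 ^ 2 - 4 * A * B ^ 3 * a 0 * a 5 + 8 * A * B ^ 2 * C * a 0 * a 6
    - 4 * A * B ^ 2 * C * a 1 * a 5 + 4 * A * B * C ^ 2 * a 1 * a 6 - 4 * A * B * C ^ 2 * a 2 * a 5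
    - 2 * A * C ^ 3 * a 3 * a 5 - 4 * B ^ 4 * a 0 * a 6 - 4 * B ^ 3 * C * a 1 * a 6
    - 4 * B ^ 2 * C ^ 2 * a 2 * a 6 - 4 * B * C ^ 3 * a 3 * a 6 - 4 * C ^ 4 * a 4 * a 6
    + C ^ 4 * a 5 ^ 2

def K0 (s r s' r' : ℂ) : ℂ := Kq a (s * s') (r * s' + s * r') (r * r')

/-- `r s' - s r'` -/
def del (s r s' r' : ℂ) : ℂ := r * s' - s * r'
/-- `F - 2 η η'` -/
def rho (s r η s' r' η' : ℂ) : ℂ := Fh a s r s' r' - 2 * η * η'
/-- `F + 2 η η'` -/
def rhob (s r η s' r' η' : ℂ) : ℂ := Fh a s r s' r' + 2 * η * η'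

theorem Fh_diag (s r : ℂ) : Fh a s r s r = 2 * fh a s r := by
  unfold Fh fh; ring

theorem key (s r s' r' : ℂ) :
    Fh a s r s' r' ^ 2 - 4 * fh a s r * fh a s' r' = del s r s' r' ^ 2 * K0 a s r s' r' := by
  unfold Fh fh K0 Kq del; ring

theorem fh_smul (l s r : ℂ) : fh a (l * s) (l * r) = l ^ 6 * fh a s r := by
  unfold fh; ring

theorem Fh_smul (l l' s r s' r' : ℂ) :
    Fh a (l * s) (l * r) (l' * s') (l' * r') = l ^ 3 * l' ^ 3 * Fh a s r s' r' := by
  unfold Fh; ring

theorem Fh_symm (s r s' r' : ℂ) : Fh a s' r' s r = Fh a s r s' r' := by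
  unfold Fh; ring

theorem K0_symm (s r s' r' : ℂ) : K0 a s' r' s r = K0 a s r s' r' := by
  unfold K0 Kq; ring

theorem rho_symm (s r η s' r' η' : ℂ) : rho a s' r' η' s r η = rho a s r η s' r' η' := by
  unfold rho; rw [Fh_symm]; ring

theorem rhob_symm (s r η s' r' η' : ℂ) : rhob a s' r' η' s r η = rhob a s r η s' r' η' := by
  unfold rhob; rw [Fh_symm]; ring

theorem del_symm (s r s' r' : ℂ) : del s' r' s r = - del s r s' r' := by
  unfold del; ring

theorem rho_smul (l l' s r η s' r' η' : ℂ) :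
    rho a (l * s) (l * r) (l ^ 3 * η) (l' * s') (l' * r') (l' ^ 3 * η')
      = l ^ 3 * l' ^ 3 * rho a s r η s' r' η' := by
  unfold rho; rw [Fh_smul]; ring

theorem rho_mul_rhob {s r η s' r' η' : ℂ} (h : η ^ 2 = fh a s r) (h' : η' ^ 2 = fh a s' r') :
    rho a s r η s' r' η' * rhob a s r η s' r' η' = del s r s' r' ^ 2 * K0 a s r s' r' := by
  rw [← key, ← h, ← h']
  unfold rho rhob; ring

/-- **the fourth Kummer coordinate** -/
def GG (s r η s' r' η' : ℂ) : ℂ :=
  open Classical in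
  if del s r s' r' = 0 then K0 a s r s' r' / rhob a s r η s' r' η'
  else rho a s r η s' r' η' / del s r s' r' ^ 2

theorem GG_of_del {s r η s' r' η' : ℂ} (h : del s r s' r' ≠ 0) :
    GG a s r η s' r' η' = rho a s r η s' r' η' / del s r s' r' ^ 2 := if_neg h

theorem GG_of_rhob {s r η s' r' η' : ℂ} (h : η ^ 2 = fh a s r) (h' : η' ^ 2 = fh a s' r')
    (h0 : rhob a s r η s' r' η' ≠ 0) :
    GG a s r η s' r' η' = K0 a s r s' r' / rhob a s r η s' r' η' := by
  by_cases hd : del s r s' r' = 0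
  · exact if_pos hd
  · rw [GG_of_del a hd, div_eq_div_iff (pow_ne_zero 2 hd) h0, rho_mul_rhob a h h']
    ring

/-- off `Γ` -/
theorem GG_mul {s r η s' r' η' : ℂ} (h : η ^ 2 = fh a s r) (h' : η' ^ 2 = fh a s' r')
    (h0 : del s r s' r' ≠ 0 ∨ rhob a s r η s' r' η' ≠ 0) :
    GG a s r η s' r' η' * del s r s' r' ^ 2 = rho a s r η s' r' η' := by
  rcases h0 with h0 | h0
  · rw [GG_of_del a h0, div_mul_cancel₀ _ (pow_ne_zero 2 h0)]
  · rw [GG_of_rhob a h h' h0, div_mul_eq_mul_div, div_eq_iff h0, rho_mul_rhob a h h']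
    ring

theorem GG_symm (s r η s' r' η' : ℂ) : GG a s' r' η' s r η = GG a s r η s' r' η' := by
  unfold GG
  rw [del_symm, K0_symm, rhob_symm, rho_symm, neg_sq]
  simp only [neg_eq_zero]

/-- `Γ` in frames: `(s', r', η') = (l s, l r, - l³ η)` -/
theorem gam_iff {s r η s' r' η' : ℂ} (h : η ^ 2 = fh a s r) (h' : η' ^ 2 = fh a s' r')
    (hs : s ≠ 0 ∨ r ≠ 0) (hs' : s' ≠ 0 ∨ r' ≠ 0) :
    (del s r s' r' = 0 ∧ rhob a s r η s' r' η' = 0) ↔
      ∃ l : ℂ, l ≠ 0 ∧ s' = l * s ∧ r' = l * r ∧ η' = - (l ^ 3 * η) := by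
  constructor
  · rintro ⟨hd, hr⟩
    have hl : ∃ l : ℂ, l ≠ 0 ∧ s' = l * s ∧ r' = l * r := by
      unfold del at hd
      rcases hs with hs | hs
      · refine ⟨s' / s, ?_, by field_simp, by field_simp; linear_combination - hd⟩
        rw [div_ne_zero_iff]
        refine ⟨?_, hs⟩
        intro h0
        rw [h0, mul_zero, zero_sub, neg_eq_zero, mul_eq_zero] at hd
        rcases hd with hd | hd
        · exact hs hd
        · rcases hs' with h1 | h1
          · exact h1 h0
          · exact h1 hd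
      · refine ⟨r' / r, ?_, by field_simp; linear_combination hd, by field_simp⟩
        rw [div_ne_zero_iff]
        refine ⟨?_, hs⟩
        intro h0
        rw [h0, mul_zero, sub_zero, mul_eq_zero] at hd
        rcases hd with hd | hd
        · exact hs hd
        · rcases hs' with h1 | h1
          · exact h1 hd
          · exact h1 h0
    obtain ⟨l, hl, rfl, rfl⟩ := hl
    refine ⟨l, hl, rfl, rfl, ?_⟩
    have h1 : rhob a s r η (l * s) (l * r) η' = 2 * η * (l ^ 3 * η + η') := by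
      unfold rhob
      have h2 := Fh_smul a 1 l s r s r
      rw [one_mul, one_mul] at h2
      rw [h2, Fh_diag, ← h]
      ring
    rw [h1] at hr
    rcases mul_eq_zero.1 hr with h3 | h3
    · have h4 : η = 0 := by simpa using h3
      rw [h4]
      rw [fh_smul, ← h, h4] at h'
      have : η' = 0 := by
        have : η' ^ 2 = 0 := by rw [h']; ring
        exact pow_eq_zero_iff (two_ne_zero) |>.1 this
      rw [this]; ring
    · linear_combination h3
  · rintro ⟨l, hl, rfl, rfl, rfl⟩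
    constructor
    · unfold del; ring
    · unfold rhob
      have h2 := Fh_smul a 1 l s r s r
      rw [one_mul, one_mul] at h2
      rw [h2, Fh_diag, ← h]
      ring

/-! ### the Kummer coordinates -/

/-- `(s s', r s' + s r', r r', GG)` -/
def kap (s r η s' r' η' : ℂ) : Fin 4 → ℂ :=
  ![s * s', r * s' + s * r', r * r', GG a s r η s' r' η']

/-- no common zero of the first three -/
theorem kap_ne {s r s' r' : ℂ} (hs : s ≠ 0 ∨ r ≠ 0) (hs' : s' ≠ 0 ∨ r' ≠ 0) :
    s * s' ≠ 0 ∨ r * s' + s * r' ≠ 0 ∨ r * r' ≠ 0 := by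
  by_contra hc
  push Not at hc
  obtain ⟨h1, h2, h3⟩ := hc
  rcases mul_eq_zero.1 h1 with h4 | h4
  · rw [h4, zero_mul, add_zero] at h2
    have hr : r ≠ 0 := by simpa [h4] using hs
    have h5 : s' = 0 := by simpa [hr] using h2
    have h6 : r' = 0 := by simpa [hr] using h3
    rcases hs' with h | h
    · exact h h5
    · exact h h6
  · rw [h4, mul_zero, zero_add] at h2
    have hr : r' ≠ 0 := by simpa [h4] using hs'
    have h5 : s = 0 := by simpa [hr] using h2
    have h6 : r = 0 := by simpa [hr] using h3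
    rcases hs with h | h
    · exact h h5
    · exact h h6

/-- the unordered pair of slopes is determined by the first three Kummer coordinates -/
theorem kap_fib {s r s' r' u v u' v' : ℂ} (hs : s ≠ 0 ∨ r ≠ 0) (hs' : s' ≠ 0 ∨ r' ≠ 0)
    (hu : u ≠ 0 ∨ v ≠ 0) (hu' : u' ≠ 0 ∨ v' ≠ 0)
    (h1 : (s * s') * (v * u' + u * v') = (r * s' + s * r') * (u * u'))
    (h2 : (s * s') * (v * v') = (r * r') * (u * u'))
    (h3 : (r * s' + s * r') * (v * v') = (r * r') * (v * u' + u * v')) :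
    (del s r u v = 0 ∧ del s' r' u' v' = 0) ∨ (del s r u' v' = 0 ∧ del s' r' u v = 0) := by
  -- the quadratic forms `(s X - r Y)(s' X - r' Y)` and `(u X - v Y)(u' X - v' Y)` are proportional
  have e1 : ∀ X Y : ℂ, (s * s') * ((v * Y - u * X) * (v' * Y - u' * X)) =
      (u * u') * ((r * Y - s * X) * (r' * Y - s' * X)) := by
    intro X Y
    linear_combination - X * Y * h1 + Y ^ 2 * h2
  have e2 : ∀ X Y : ℂ, (r * r') * ((v * Y - u * X) * (v' * Y - u' * X)) =
      (v * v') * ((r * Y - s * X) * (r' * Y - s' * X)) := by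
    intro X Y
    linear_combination X * Y * h3 - X ^ 2 * h2
  have e3 : ∀ X Y : ℂ, (r * s' + s * r') * ((v * Y - u * X) * (v' * Y - u' * X)) =
      (v * u' + u * v') * ((r * Y - s * X) * (r' * Y - s' * X)) := by
    intro X Y
    linear_combination Y ^ 2 * h3 - X ^ 2 * h1
  have hz : ∀ X Y : ℂ, (r * Y - s * X) * (r' * Y - s' * X) = 0 →
      (v * Y - u * X) * (v' * Y - u' * X) = 0 := by
    intro X Y h
    have f1 := e1 X Y
    have f2 := e2 X Y
    have f3 := e3 X Y
    rw [h, mul_zero] at f1 f2 f3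
    rcases kap_ne hs hs' with h4 | h4 | h4
    · exact (mul_eq_zero.1 f1).resolve_left h4
    · exact (mul_eq_zero.1 f3).resolve_left h4
    · exact (mul_eq_zero.1 f2).resolve_left h4
  have hz' : ∀ X Y : ℂ, (v * Y - u * X) * (v' * Y - u' * X) = 0 →
      (r * Y - s * X) * (r' * Y - s' * X) = 0 := by
    intro X Y h
    have f1 := e1 X Y
    have f2 := e2 X Y
    have f3 := e3 X Y
    rw [h, mul_zero] at f1 f2 f3
    rcases kap_ne hu hu' with h4 | h4 | h4
    · exact (mul_eq_zero.1 f1.symm).resolve_left h4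
    · exact (mul_eq_zero.1 f3.symm).resolve_left h4
    · exact (mul_eq_zero.1 f2.symm).resolve_left h4
  have A1 : del s r u v = 0 ∨ del s r u' v' = 0 := by
    have := hz r s (by ring)
    rcases mul_eq_zero.1 this with h | h
    · left; unfold del; linear_combination - h
    · right; unfold del; linear_combination - h
  have A2 : del s' r' u v = 0 ∨ del s' r' u' v' = 0 := by
    have := hz r' s' (by ring)
    rcases mul_eq_zero.1 this with h | h
    · left; unfold del; linear_combination - h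
    · right; unfold del; linear_combination - h
  have A3 : del s r u v = 0 ∨ del s' r' u v = 0 := by
    have := hz' v u (by ring)
    rcases mul_eq_zero.1 this with h | h
    · left; unfold del; linear_combination h
    · right; unfold del; linear_combination h
  have A4 : del s r u' v' = 0 ∨ del s' r' u' v' = 0 := by
    have := hz' v' u' (by ring)
    rcases mul_eq_zero.1 this with h | h
    · left; unfold del; linear_combination h
    · right; unfold del; linear_combination h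
  rcases A1 with h | h
  · rcases A2 with h' | h'
    · -- s r ∥ u v ∥ s' r'
      rcases A4 with h'' | h''
      · exact Or.inr ⟨h'', h'⟩
      · exact Or.inl ⟨h, h''⟩
    · exact Or.inl ⟨h, h'⟩
  · rcases A2 with h' | h'
    · exact Or.inr ⟨h, h'⟩
    · rcases A3 with h'' | h''
      · exact Or.inl ⟨h'', h'⟩
      · exact Or.inr ⟨h, h''⟩

end Crest.Agent.R272.Kum_977
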