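import Crest.Agent.R272.Tq1_916
import Crest.Agent.R272.Kum1_977
import Crest.Agent.R272.K3F_227
import Crest.Agent.R272.PhiDefs_92

/-!
# R272 (S0415), POS at `p0` (helper848), part 3: the four functions on the standard model

On `Amb (Cv P)` (60's standard coordinates `((S₀,S₁,S₂), c, c', v)`):
`x0 = S₀`, `E = S₁ + S₂`, `p = S₁ S₂`, `Sf = F(S₀,S₁;S₀,S₂) - 2 Y₁ Y₂`, `Y₁ = S₀³ y(c)` (`YY`).

* `YY s r c` : `κ(c) · A^h(s, r)`; `YY_smul`; `eta i c` in the frame `i`; `eta_sq`;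
* `Sf_frame`, `Sf_fij`, `Sf_fm`, `Sf_swA` : values in the charts of 916;
* `FF b y : IPhi → ℂ` : the list of 92 on the standard model.
-/

set_option autoImplicit false
set_option linter.unusedSectionVars false

open Set Filter Topology OnePoint

namespace Crest.Agent.R272.PosP3_848

open Crest.Agent.R272.Cur_297 (Par Cv tt kk fin tv yv sv vv yv_sq vv_sq)
open Crest.Agent.R272.Tp2_60 (Amb Std)
open Crest.Agent.R272.Tq1_916 (pole dl nu fij fm Inf Dm swA)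
open Crest.Agent.R272.K3E_227 (lP fp rv p0_fp p1_fp)
open Crest.Agent.R272.Kum_977 (fh Fh rho del fh_smul Fh_smul Fh_symm rho_symm)
open Crest.Agent.R272.PW_92 (IPhi Phi PhiC phi_eq disc)

noncomputable section

variable {P : Par}

/-- homogeneous cubic `A` -/
def Ah (P : Par) (s r : ℂ) : ℂ := (r - P.c 3 * s) * (r - P.c 4 * s) * (r - P.c 5 * s)

/-- homogeneous cubic `B` -/
def Bh (P : Par) (s r : ℂ) : ℂ := (r - P.c 0 * s) * (r - P.c 1 * s) * (r - P.c 2 * s)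

theorem fh_one (a : Fin 7 → ℂ) (t : ℂ) : fh a 1 t = fp a t := by
  unfold fh fp; ring

theorem fh_rev (a : Fin 7 → ℂ) (s : ℂ) : fh a s 1 = fp (rv a) s := by
  have e0 : rv a 0 = a 6 := rfl
  have e1 : rv a 1 = a 5 := rfl
  have e2 : rv a 2 = a 4 := rfl
  have e3 : rv a 3 = a 3 := rfl
  have e4 : rv a 4 = a 2 := rfl
  have e5 : rv a 5 = a 1 := rfl
  have e6 : rv a 6 = a 0 := rfl
  unfold fh fp
  rw [e0, e1, e2, e3, e4, e5, e6]
  ring

/-- `y` in the frame `(s, r)` : `κ A^h(s, r)` -/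
def YY (s r : ℂ) (c : Cv P) : ℂ := fin (kk c) * Ah P s r

theorem YY_smul (l s r : ℂ) (c : Cv P) : YY (l * s) (l * r) c = l ^ 3 * YY s r c := by
  unfold YY Ah; ring

theorem YY_one (c : Cv P) : YY 1 (tv c) c = yv c := by
  unfold YY yv Ah Par.AA; ring

theorem YY_inf (c : Cv P) : YY (sv c) 1 c = vv c := by
  unfold YY vv Ah Par.At; rfl

/-- the frame `i` at `c` -/
def fs (i : Fin 2) (c : Cv P) : ℂ := dl i (tt c)
def fr (i : Fin 2) (c : Cv P) : ℂ := nu i (tt c)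
def eta (i : Fin 2) (c : Cv P) : ℂ := YY (fs i c) (fr i c) c

theorem fr_zero {c : Cv P} (h : tt c ≠ ∞) : fr 0 c = tv c := by
  have h1 := Cur_297.tt_eq h
  show Tp1_60.nn (tt c) = tv c
  rw [h1]
  show tv c = fin (tt c)
  rfl

theorem fs_one (c : Cv P) : fs 1 c = sv c := by
  show Tp1_60.dd (tt c) / Tp1_60.nn (tt c) = Cur_297.finv (tt c)
  induction tt c using OnePoint.rec with
  | infty => simp
  | coe z => simp

theorem eta_zero {c : Cv P} (h : tt c ≠ ∞) : eta 0 c = yv c := by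
  unfold eta
  rw [fr_zero h]
  exact YY_one c

theorem eta_one (c : Cv P) : eta 1 c = vv c := by
  unfold eta
  rw [fs_one c]
  exact YY_inf c

/-- equation of the curve in frames -/
theorem eta_sq {i : Fin 2} {c : Cv P} (h : tt c ≠ pole i) :
    eta i c ^ 2 = fh (lP P) (fs i c) (fr i c) := by
  fin_cases i
  · have h' : tt c ≠ ∞ := h
    show eta 0 c ^ 2 = fh (lP P) 1 (fr 0 c)
    rw [eta_zero h', fr_zero h', fh_one, ← p0_fp]
    exact yv_sq h'
  · have h' : tt c ≠ ((0 : ℂ) : Cur_297.P1) := h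
    show eta 1 c ^ 2 = fh (lP P) (fs 1 c) 1
    rw [eta_one, fs_one, fh_rev, ← p1_fp]
    exact vv_sq h'

theorem frame_ne {i : Fin 2} (c : Cv P) : fs i c ≠ 0 ∨ fr i c ≠ 0 := by
  fin_cases i
  · left; exact one_ne_zero
  · right; exact one_ne_zero

/-! ### the functions -/

/-- `S = x₀⁶ (F(t,t') - 2 y y')` -/
def Sf (y : Amb (Cv P)) : ℂ :=
  Fh (lP P) y.1.1 y.1.2.1 y.1.1 y.1.2.2 -
    2 * YY y.1.1 y.1.2.1 y.2.1 * YY y.1.1 y.1.2.2 y.2.2.1

theorem Sf_frame {y : Amb (Cv P)} {l s r l' s' r' : ℂ} (h0 : y.1.1 = l * s) (h0' : y.1.1 = l' * s')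
    (h1 : y.1.2.1 = l * r) (h2 : y.1.2.2 = l' * r') :
    Sf y = (l * l') ^ 3 * rho (lP P) s r (YY s r y.2.1) s' r' (YY s' r' y.2.2.1) := by
  unfold Sf rho
  have e1 : Fh (lP P) y.1.1 y.1.2.1 y.1.1 y.1.2.2 = l ^ 3 * l' ^ 3 * Fh (lP P) s r s' r' := by
    rw [← Fh_smul, ← h0, ← h1, ← h2, ← h0']
  have e2 : YY y.1.1 y.1.2.1 y.2.1 = l ^ 3 * YY s r y.2.1 := by
    rw [← YY_smul, ← h0, ← h1]
  have e3 : YY y.1.1 y.1.2.2 y.2.2.1 = l' ^ 3 * YY s' r' y.2.2.1 := by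
    rw [← YY_smul, ← h0', ← h2]
  rw [e1, e2, e3]
  ring

theorem Sf_swA (y : Amb (Cv P)) : Sf (swA y) = Sf y := by
  unfold Sf swA
  simp only
  rw [Fh_symm]
  ring

/-- the list of 92 on the standard model -/
def FF (b : ℕ) (y : Amb (Cv P)) : IPhi → ℂ :=
  Phi b y.1.1 (y.1.2.1 + y.1.2.2) (y.1.2.1 * y.1.2.2) (Sf y)

theorem FF_swA (b : ℕ) (y : Amb (Cv P)) : FF b (swA y) = FF b y := by
  unfold FF
  rw [Sf_swA]
  show Phi b y.1.1 (y.1.2.2 + y.1.2.1) (y.1.2.2 * y.1.2.1) (Sf y) = _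
  rw [add_comm, mul_comm y.1.2.2]

/-! ### charts `(i, j)` -/

/-- the three Kummer coordinates `s s', r s' + s r', r r'` -/
def ks (i j : Fin 2) (c c' : Cv P) : Fin 3 → ℂ :=
  ![fs i c * fs j c', fr i c * fs j c' + fs i c * fr j c', fr i c * fr j c']

/-- `F - 2 η η'` in the frames `i, j` -/
def rh (i j : Fin 2) (c c' : Cv P) : ℂ :=
  rho (lP P) (fs i c) (fr i c) (eta i c) (fs j c') (fr j c') (eta j c')

/-- `r s' - s r'` -/
def dl2 (i j : Fin 2) (c c' : Cv P) : ℂ := del (fs i c) (fr i c) (fs j c') (fr j c')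

theorem disc_ks (i j : Fin 2) (c c' : Cv P) (ξ : ℂ) :
    disc (fun k => ξ * ks i j c c' k) = ξ ^ 2 * dl2 i j c c' ^ 2 := by
  unfold disc dl2 del ks
  simp only [Matrix.cons_val_zero, Matrix.cons_val_one, Matrix.cons_val]
  ring

theorem st_fij (i j : Fin 2) (c c' : Cv P) (ξ : ℂ) :
    (fij tt i j (c, c', ξ)).1.1 = ξ * ks i j c c' 0 ∧
    (fij tt i j (c, c', ξ)).1.2.1 + (fij tt i j (c, c', ξ)).1.2.2 = ξ * ks i j c c' 1 ∧
    (fij tt i j (c, c', ξ)).1.2.1 * (fij tt i j (c, c', ξ)).1.2.2 =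
      (ξ * ks i j c c' 0) * (ξ * ks i j c c' 2) ∧
    Sf (fij tt i j (c, c', ξ)) = (ξ * ks i j c c' 0) ^ 3 * (ξ ^ 3 * rh i j c c') := by
  refine ⟨?_, ?_, ?_, ?_⟩
  · show ξ * dl i (tt c) * dl j (tt c') = ξ * (dl i (tt c) * dl j (tt c'))
    ring
  · show ξ * nu i (tt c) * dl j (tt c') + ξ * dl i (tt c) * nu j (tt c') =
      ξ * (nu i (tt c) * dl j (tt c') + dl i (tt c) * nu j (tt c'))
    ring
  · show ξ * nu i (tt c) * dl j (tt c') * (ξ * dl i (tt c) * nu j (tt c')) =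
      (ξ * (dl i (tt c) * dl j (tt c'))) * (ξ * (nu i (tt c) * nu j (tt c')))
    ring
  · rw [Sf_frame (l := ξ * dl j (tt c')) (s := dl i (tt c)) (r := nu i (tt c))
      (l' := ξ * dl i (tt c)) (s' := dl j (tt c')) (r' := nu j (tt c'))
      (by show ξ * dl i (tt c) * dl j (tt c') = _; ring)
      (by show ξ * dl i (tt c) * dl j (tt c') = _; ring)
      (by show ξ * nu i (tt c) * dl j (tt c') = _; ring)
      (by show ξ * dl i (tt c) * nu j (tt c') = _; ring)]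
    show (ξ * dl j (tt c') * (ξ * dl i (tt c))) ^ 3 * rh i j c c' =
      (ξ * (dl i (tt c) * dl j (tt c'))) ^ 3 * (ξ ^ 3 * rh i j c c')
    ring

/-- **the list in the charts `(i, j)`** -/
theorem FF_fij {b : ℕ} (hb : 15 ≤ b) (i j : Fin 2) (c c' : Cv P) (ξ : ℂ) (a : IPhi) :
    FF b (fij tt i j (c, c', ξ)) a =
      PhiC b (fun k => ξ * ks i j c c' k) (ξ ^ 3 * rh i j c c') a := by
  obtain ⟨h0, h1, h2, h3⟩ := st_fij i j c c' ξ
  exact phi_eq hb (x := fun k => ξ * ks i j c c' k) (R := ξ ^ 3 * rh i j c c') h0 h1 h2 h3 a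

/-! ### `m`-charts -/

/-- `F - 2 η η'` in the `m`-chart -/
def rm (m s s' : ℂ) (c c' : Cv P) : ℂ :=
  rho (lP P) (m * s') 1 (YY (m * s') 1 c) (m * s) 1 (YY (m * s) 1 c')

theorem Sf_fm (a a' : Inf (tt : Cv P → Cur_297.P1)) (m s s' : ℂ) :
    Sf (fm a a' (m, s, s')) = (s * s') ^ 3 *
      rm m s s' (a.e.symm (m * s')) (a'.e.symm (m * s)) :=
  Sf_frame (y := fm a a' (m, s, s')) (l := s) (s := m * s') (r := 1) (l' := s') (s' := m * s)
    (r' := 1) (by show m * s * s' = _; ring) (by show m * s * s' = _; ring)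
    (by show s = _; ring) (by show s' = _; ring)

theorem st_fm (a a' : Inf (tt : Cv P → Cur_297.P1)) (m s s' : ℂ) :
    (fm a a' (m, s, s')).1.1 = m * (s * s') ∧
    (fm a a' (m, s, s')).1.2.1 + (fm a a' (m, s, s')).1.2.2 = s + s' ∧
    (fm a a' (m, s, s')).1.2.1 * (fm a a' (m, s, s')).1.2.2 = s * s' :=
  ⟨by show m * s * s' = _; ring, rfl, rfl⟩

theorem FF_fm {b : ℕ} (a a' : Inf (tt : Cv P → Cur_297.P1)) (m s s' : ℂ) :
    FF b (fm a a' (m, s, s')) = Phi b (m * (s * s')) (s + s') (s * s')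
      ((s * s') ^ 3 * rm m s s' (a.e.symm (m * s')) (a'.e.symm (m * s))) := by
  unfold FF
  rw [Sf_fm, (st_fm a a' m s s').1]
  rfl

/-- on the chart at infinity `YY` is 297's `v = y / t³` -/
theorem YY_chart (a : Inf (tt : Cv P → Cur_297.P1)) {s : ℂ} (hs : ‖s‖ < a.r) :
    YY s 1 (a.e.symm s) = vv (a.e.symm s) := by
  have h1 : sv (a.e.symm s) = s := by rw [← fs_one]; exact a.iv_symm hs
  rw [← YY_inf, h1]

end

end Crest.Agent.R272.PosP3_848
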