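/-
R272 (S0415), positivity at p0, piece (5A)(ii): the statements for 848's `FF b` in the charts
`(i, j)` (`PosP3_848.FF_fij`).

For any list `f : IPhi → Y → ℂ` with
`hf : ∀ᶠ q in 𝓝 p, ∀ a, f a (E q) = PhiC b (fun k => q.2 * ks i j q.1.1 q.1.2 k)
  (q.2 ^ 3 * rh i j q.1.1 q.1.2) a`:

* `kumF_gen`, `kumF_val`  : generator and values at `(c, c', ξ)`, `c' ≠ iv c`;
* `kumF_val0`             : on the zero section, the Kummer map `Kv (GK i j x) (ks i j ..)`;
* `kumF_genM`             : generator at `(c, iv c, ξ)`, `ξ ≠ 0`;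
* `kumF_ff`               : finite fibres on the zero section.

helper977
-/
import Crest.Agent.R272.Kum6_977
import Crest.Agent.R272.PosP3_848
import Crest.Agent.R272.CB9_232

set_option autoImplicit false
set_option linter.unusedVariables false
set_option linter.unusedSectionVars false

open Filter Topology Set OnePoint

noncomputable section

namespace Crest.Agent.R272.Kum_977

open Crest.Agent.R275.Geo Crest.Agent.R273.Fam_835 Crest.Agent.R272.Lc_220
open Crest.Agent.R272.Idn_834 Crest.Agent.R272.AJ_956 Crest.Agent.R272.Cur_297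
open Crest.Agent.R272.Tq1_916 Crest.Agent.R272.PW_92 Crest.Agent.R272.FinCB3_876

variable {P : Par} {Y : Type} [TopologicalSpace Y] {CY : Fam 3 Y}
  {E : OpenPartialHomeomorph ((Cv P × Cv P) × ℂ) Y} {b : ℕ} {i j : Fin 2}
  {p : (Cv P × Cv P) × ℂ} {f : IPhi → Y → ℂ}

/-- 227's coefficients are the same -/
theorem lP_eq (P : Par) : K3E_227.lP P = cf P := by
  funext k
  unfold K3E_227.lP cf cfc K3E_227.aP K3E_227.bP
  fin_cases k <;> simp <;> ring

theorem eta_848 {i : Fin 2} {c : Cv P} (h : tt c ≠ pole i) : PosP3_848.eta i c = eta i c := by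
  fin_cases i
  · exact PosP3_848.eta_zero h
  · exact PosP3_848.eta_one c

theorem rh_eq {i j : Fin 2} {c c' : Cv P} (h : tt c ≠ pole i) (h' : tt c' ≠ pole j) :
    PosP3_848.rh i j c c' = rho (cf P) (dl i (tt c)) (nu i (tt c)) (eta i c)
      (dl j (tt c')) (nu j (tt c')) (eta j c') := by
  unfold PosP3_848.rh
  rw [lP_eq, eta_848 h, eta_848 h']
  rfl

/-- hypothesis on the list -/
def HF (b : ℕ) (E : OpenPartialHomeomorph ((Cv P × Cv P) × ℂ) Y) (i j : Fin 2)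
    (p : (Cv P × Cv P) × ℂ) (f : IPhi → Y → ℂ) : Prop :=
  ∀ᶠ q in 𝓝 p, ∀ a, f a (E q) = PhiC b (fun k => q.2 * PosP3_848.ks i j q.1.1 q.1.2 k)
    (q.2 ^ 3 * PosP3_848.rh i j q.1.1 q.1.2) a

/-- the four functions in the chart -/
def X0 (E : OpenPartialHomeomorph ((Cv P × Cv P) × ℂ) Y) (i j : Fin 2) (y : Y) : ℂ :=
  xY E y * (sY E i y * sY' E j y)
def X1 (E : OpenPartialHomeomorph ((Cv P × Cv P) × ℂ) Y) (i j : Fin 2) (y : Y) : ℂ :=
  xY E y * (rY E i y * sY' E j y + sY E i y * rY' E j y)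
def X2 (E : OpenPartialHomeomorph ((Cv P × Cv P) × ℂ) Y) (i j : Fin 2) (y : Y) : ℂ :=
  xY E y ^ 2 * ((sY E i y * sY' E j y) * (rY E i y * rY' E j y))
def X3 (E : OpenPartialHomeomorph ((Cv P × Cv P) × ℂ) Y) (i j : Fin 2) (y : Y) : ℂ :=
  xY E y ^ 6 * (sY E i y * sY' E j y) ^ 3 *
    rho (cf P) (sY E i y) (rY E i y) (eY E i y) (sY' E j y) (rY' E j y) (eY' E j y)

theorem ec_X (hE : ECpt (cur P) CY E) (hp : p ∈ E.source) (h : tt p.1.1 ≠ pole i)
    (h' : tt p.1.2 ≠ pole j) : EC CY E i j p (X0 E i j) (X1 E i j) (X2 E i j) (X3 E i j) where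
  F := fr_1 hE hp h
  F' := fr_2 hE hp h'
  hξ := holN_x hE hp
  e0 := Eventually.of_forall fun _ => rfl
  e1 := Eventually.of_forall fun _ => rfl
  e2 := Eventually.of_forall fun _ => rfl
  eN := Eventually.of_forall fun _ => rfl

theorem hf_X (hb : 15 ≤ b) (hp : p ∈ E.source) (h : tt p.1.1 ≠ pole i)
    (h' : tt p.1.2 ≠ pole j) (hf : HF b E i j p f) :
    ∀ᶠ y in 𝓝 (E p), ∀ a, f a y = Pf b (X0 E i j) (X1 E i j) (X2 E i j) (X3 E i j) a y := by
  have h1 : ∀ᶠ q : (Cv P × Cv P) × ℂ in 𝓝 p, tt q.1.1 ≠ pole i :=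
    (continuous_fst.comp continuous_fst).continuousAt.eventually
      ((isOpen_ne_pole i).mem_nhds h)
  have h2 : ∀ᶠ q : (Cv P × Cv P) × ℂ in 𝓝 p, tt q.1.2 ≠ pole j :=
    (continuous_snd.comp continuous_fst).continuousAt.eventually
      ((isOpen_ne_pole j).mem_nhds h')
  filter_upwards [ev_Y hp hf, ev_Y_source hp, ev_Y hp h1, ev_Y hp h2] with y k1 k2 k3 k4 a
  have k5 := k1 a
  rw [k2.2] at k5
  rw [k5]
  unfold Pf
  refine (phi_eq hb (x := fun k => xY E y * PosP3_848.ks i j (E.symm y).1.1 (E.symm y).1.2 k)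
    (R := xY E y ^ 3 * PosP3_848.rh i j (E.symm y).1.1 (E.symm y).1.2) rfl rfl ?_ ?_ a).symm
  · show xY E y ^ 2 * ((sY E i y * sY' E j y) * (rY E i y * rY' E j y))
      = xY E y * (sY E i y * sY' E j y) * (xY E y * (rY E i y * rY' E j y))
    ring
  · rw [rh_eq k3 k4]
    show xY E y ^ 6 * (sY E i y * sY' E j y) ^ 3 *
      rho (cf P) (sY E i y) (rY E i y) (eY E i y) (sY' E j y) (rY' E j y) (eY' E j y)
      = (xY E y * (sY E i y * sY' E j y)) ^ 3 * (xY E y ^ 3 *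
      rho (cf P) (sY E i y) (rY E i y) (eY E i y) (sY' E j y) (rY' E j y) (eY' E j y))
    ring

theorem genAt_congr {g g' : IPhi → Y → ℂ} {e : Y → ℂ} {y : Y} (h : GenAt CY g e y)
    (he : ∀ᶠ z in 𝓝 y, ∀ a, g' a z = g a z) : GenAt CY g' e y := by
  rw [CB9_232.genAt_iff] at h ⊢
  obtain ⟨u, hu, hue, h0⟩ := h
  exact ⟨u, hu, fun k => ((hue k).and he).mono fun z hz => by rw [hz.2 k]; exact hz.1, h0⟩

theorem valC_congr {g g' : IPhi → Y → ℂ} {c : IPhi → ℂ} {y : Y} (h : ValC CY g y c)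
    (he : ∀ᶠ z in 𝓝 y, ∀ a, g' a z = g a z) : ValC CY g' y c := by
  rw [CB9_232.valC_iff] at h ⊢
  obtain ⟨hc, e, hcl, u, hu, hue, h0⟩ := h
  exact ⟨hc, e, hcl, u, hu,
    fun k => ((hue k).and he).mono fun z hz => by rw [hz.2 k]; exact hz.1, h0⟩

/-- **generator at `(c, c', ξ)`, `c' ≠ iv c`** -/
theorem kumF_gen (hb : 15 ≤ b) (hE : ECpt (cur P) CY E) (hp : p ∈ E.source)
    (h : tt p.1.1 ≠ pole i) (h' : tt p.1.2 ≠ pole j) (hc : p.1.2 ≠ iv p.1.1)
    (hf : HF b E i j p f) : GenAt CY f (gXY b E i j) (E p) :=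
  genAt_congr (kum_gen hb hp h h' hc (ec_X hE hp h h')) (hf_X hb hp h h' hf)

/-- **values at `(c, c', ξ)`, `c' ≠ iv c`** -/
theorem kumF_val (hb : 15 ≤ b) (hE : ECpt (cur P) CY E) (hp : p ∈ E.source)
    (h : tt p.1.1 ≠ pole i) (h' : tt p.1.2 ≠ pole j) (hc : p.1.2 ≠ iv p.1.1)
    (hf : HF b E i j p f) :
    ValC CY f (E p) fun k => Yxi b p.2 (GK i j p.1) (PosP3_848.ks i j p.1.1 p.1.2) k :=
  valC_congr (kum_val hb hp h h' hc (ec_X hE hp h h')) (hf_X hb hp h h' hf)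

/-- **values on the zero section: the Kummer map** -/
theorem kumF_val0 (hb : 15 ≤ b) (hE : ECpt (cur P) CY E) {x : Cv P × Cv P}
    (hp : (x, (0 : ℂ)) ∈ E.source) (h : tt x.1 ≠ pole i) (h' : tt x.2 ≠ pole j)
    (hc : x.2 ≠ iv x.1) (hf : HF b E i j (x, 0) f) :
    ValC CY f (E (x, 0)) (Kv (GK i j x) (PosP3_848.ks i j x.1 x.2)) :=
  valC_congr (kum_val0 hb hp h h' hc (ec_X hE hp h h')) (hf_X hb hp h h' hf)

/-- **generator at `(c, iv c, ξ)`, `ξ ≠ 0`** -/
theorem kumF_genM (hb : 15 ≤ b) (hE : ECpt (cur P) CY E) (hp : p ∈ E.source)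
    (h : tt p.1.1 ≠ pole i) (h' : tt p.1.2 ≠ pole j) (hc : p.1.2 = iv p.1.1) (hx : p.2 ≠ 0)
    (hf : HF b E i j p f) : GenAt CY f (gMY b E i j) (E p) :=
  genAt_congr (kum_genM hb hp h h' hc hx (ec_X hE hp h h')) (hf_X hb hp h h' hf)

/-- the two generators, explicit -/
theorem gXY_eq (y : Y) : gXY b E i j y = xY E y ^ (b + 9) *
    (PosP3_848.dl2 i j (E.symm y).1.1 (E.symm y).1.2 ^ 2) ^ 4 *
      (PosP3_848.ks i j (E.symm y).1.1 (E.symm y).1.2 0) ^ b := rfl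

theorem gMY_eq {y : Y} (h : tt (E.symm y).1.1 ≠ pole i) (h' : tt (E.symm y).1.2 ≠ pole j) :
    gMY b E i j y = xY E y ^ (b + 14) * (PosP3_848.rh i j (E.symm y).1.1 (E.symm y).1.2) ^ 4 *
      (PosP3_848.ks i j (E.symm y).1.1 (E.symm y).1.2 0) ^ b := by
  rw [rh_eq h h']
  rfl

/-! ### finite fibres on the zero section -/

/-- `(c, c')`-scaling of the Kummer vector under change of frames -/
theorem GG_smul {a : Fin 7 → ℂ} {l l' s r η s' r' η' : ℂ} (hl : l ≠ 0) (hl' : l' ≠ 0) :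
    GG a (l * s) (l * r) (l ^ 3 * η) (l' * s') (l' * r') (l' ^ 3 * η')
      = l * l' * GG a s r η s' r' η' := by
  have hd : del (l * s) (l * r) (l' * s') (l' * r') = l * l' * del s r s' r' := by
    unfold del; ring
  have hK : K0 a (l * s) (l * r) (l' * s') (l' * r') = (l * l') ^ 4 * K0 a s r s' r' := by
    unfold K0 Kq; ring
  have hrb : rhob a (l * s) (l * r) (l ^ 3 * η) (l' * s') (l' * r') (l' ^ 3 * η')
      = (l * l') ^ 3 * rhob a s r η s' r' η' := by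
    unfold rhob; rw [Fh_smul]; ring
  have hll := mul_ne_zero hl hl'
  unfold GG
  rw [hd, hK, hrb, rho_smul]
  by_cases h0 : del s r s' r' = 0
  · rw [if_pos (by rw [h0, mul_zero]), if_pos h0]
    by_cases h1 : rhob a s r η s' r' η' = 0
    · simp [h1]
    · field_simp
  · rw [if_neg (mul_ne_zero hll h0), if_neg h0]
    field_simp

/-- all frames give proportional Kummer vectors -/
theorem Kv_frames {i j i' j' : Fin 2} {x : Cv P × Cv P} (h : tt x.1 ≠ pole i)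
    (h' : tt x.2 ≠ pole j) (k : tt x.1 ≠ pole i') (k' : tt x.2 ≠ pole j') :
    ∃ g : ℂ, g ≠ 0 ∧ ∀ a, Kv (GK i' j' x) (SK i' j' x) a = g * Kv (GK i j x) (SK i j x) a := by
  obtain ⟨l, hl, e1, e2, e3⟩ := frame_two h k
  obtain ⟨l', hl', f1, f2, f3⟩ := frame_two h' k'
  refine ⟨l * l', mul_ne_zero hl hl', fun a => ?_⟩
  have hG : GK i' j' x = l * l' * GK i j x := by
    unfold GK
    rw [e1, e2, e3, f1, f2, f3]
    exact GG_smul hl hl'
  have hS : ∀ m, SK i' j' x m = l * l' * SK i j x m := by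
    intro m
    unfold SK sym3
    rw [e1, e2, f1, f2]
    fin_cases m <;> simp <;> ring
  cases a with
  | l m => exact hS m
  | W => exact hG
  | _ => simp [Kv]

/-- **finite fibres, all frames**: for `y` given, only finitely many `x` have a Kummer vector
proportional to that of `y` -/
theorem kumF_fin (y : Cv P × Cv P) (iy jy : Fin 2) (hy : tt y.1 ≠ pole iy)
    (hy' : tt y.2 ≠ pole jy) :
    {x : Cv P × Cv P | ∃ i j, tt x.1 ≠ pole i ∧ tt x.2 ≠ pole j ∧
      ∀ a a', Kv (GK i j x) (PosP3_848.ks i j x.1 x.2) a *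
        Kv (GK iy jy y) (PosP3_848.ks iy jy y.1 y.2) a' =
        Kv (GK i j x) (PosP3_848.ks i j x.1 x.2) a' *
        Kv (GK iy jy y) (PosP3_848.ks iy jy y.1 y.2) a}.Finite := by
  refine (q3_fin y).subset ?_
  rintro x ⟨i, j, h1, h2, h3⟩
  obtain ⟨g, hg, e⟩ := SK_q3 h1 h2
  obtain ⟨g', hg', e'⟩ := SK_q3 hy hy'
  intro m m'
  have h4 := h3 (.l m) (.l m')
  change SK i j x m * SK iy jy y m' = SK i j x m' * SK iy jy y m at h4
  rw [e, e, e', e'] at h4
  have h5 : (g * g') * (q3 x m * q3 y m') = (g * g') * (q3 x m' * q3 y m) := by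
    linear_combination h4
  exact mul_left_cancel₀ (mul_ne_zero hg hg') h5

end Crest.Agent.R272.Kum_977
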