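/-
R272 (S0415), positivity at p0, (K-b) of 848 #7179, `R`-half in the `E`-charts: the comparison of
`dl2` and `rh` with the reflected coordinate `eqU` (783).

* `dvd_coord`  : division by a coordinate of a compatible chart;
* `kdY`        : `k c (first point) - k c (second point)`, near `(c, c)`;
* `kd_asc_eqU` : `kdY ~ eqU` if the fixed points near `E p` are the points with `c = c'`;
* `del_asc_kd` : at `(c, c)`, `c ≠ iv c` : `dl2 ~ kdY`;
* `rho_asc_kd` : at `(w, w)`, `w = iv w` : `rh ~ kdY²`;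
* `kum_cmp`    : **at every point `(c, c', ξ)`, `ξ ≠ 0`: the list is generated by
                 `(ks 0)^b * eqU^8`**.

helper977
-/
import Crest.Agent.R272.Kum7_977

set_option autoImplicit false
set_option linter.unusedVariables false
set_option linter.unusedSectionVars false

open Filter Topology Set OnePoint

noncomputable section

namespace Crest.Agent.R272.Kum_977

open Crest.Agent.R275.Geo Crest.Agent.R273.Fam_835 Crest.Agent.R272.Lc_220
open Crest.Agent.R272.Idn_834 Crest.Agent.R272.AJ_956 Crest.Agent.R272.Cur_297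
open Crest.Agent.R272.Tq1_916 Crest.Agent.R272.PW_92 Crest.Agent.R272.FinCB3_876
open Crest.Agent.R272.LcR_783 Crest.Agent.R272.Refl_246

/-! ### division by a coordinate -/

theorem dvd_coord {n : ℕ} {X : Type} [TopologicalSpace X] {C : Fam n X} {x : X}
    {φ : OpenPartialHomeomorph X (Cn n)} (hφ : Refl_246.Cpt C φ) (hx : x ∈ φ.source)
    {a : Fin n} {F : X → ℂ} (hF : HolN C x F) (h0 : ∀ᶠ y in 𝓝 x, φ y a = 0 → F y = 0) :
    Dvd C x (fun y => φ y a) F := by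
  have hcoord : ∀ {y : X}, y ∈ φ.source → HolN C y fun y => φ y a := by
    intro y hy
    rw [holN_iff_cpt hφ hy]
    have h3 : Differentiable ℂ fun w : Cn n => w a := by fun_prop
    refine (Crest.Agent.R266.SCV.analyticOnNhd_of_differentiableOn isOpen_univ
      h3.differentiableOn _ (mem_univ _)).congr ?_
    filter_upwards [φ.open_target.mem_nhds (φ.map_source hy)] with w hw
    rw [φ.right_inv hw]
  by_cases hz : φ x a = 0
  · have hΦ : AnalyticAt ℂ (fun w => F (φ.symm w)) (φ x) := (holN_iff_cpt hφ hx).1 hF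
    have h2 : Tendsto φ.symm (𝓝 (φ x)) (𝓝 x) := by
      have h3 := (φ.continuousAt_symm (φ.map_source hx)).tendsto
      rwa [φ.left_inv hx] at h3
    obtain ⟨Ψ, hΨ, hΨ2⟩ := exists_div hΦ hz (by
      filter_upwards [h2.eventually h0, φ.open_target.mem_nhds (φ.map_source hx)]
        with w h1 h3 h4
      exact h1 (by rw [φ.right_inv h3]; exact h4))
    refine ⟨fun y => Ψ (φ y), ?_, ?_⟩
    · rw [holN_iff_cpt hφ hx]
      refine hΨ.congr ?_
      filter_upwards [φ.open_target.mem_nhds (φ.map_source hx)] with w hw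
      rw [φ.right_inv hw]
    · filter_upwards [(φ.continuousAt hx).eventually hΨ2, φ.open_source.mem_nhds hx] with y h3 h4
      rw [φ.left_inv h4] at h3
      exact h3
  · refine ⟨fun y => F y / φ y a, hF.div (hcoord hx) hz, ?_⟩
    filter_upwards [(hcoord hx).continuousAt.eventually_ne hz] with y hy
    rw [div_mul_cancel₀ _ hy]

theorem cpt_lin {n : ℕ} {X : Type} [TopologicalSpace X] {C : Fam n X}
    {φ : OpenPartialHomeomorph X (Cn n)} (hφ : Refl_246.Cpt C φ) (L : Cn n ≃L[ℂ] Cn n) :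
    Refl_246.Cpt C (φ.transHomeomorph L.toHomeomorph) where
  hol j := by
    have h1 := hφ.hol j
    have h2 : DifferentiableOn ℂ (fun z : Cn n => L.symm z)
        ((φ.transHomeomorph L.toHomeomorph).target ∩
          (φ.transHomeomorph L.toHomeomorph).symm ⁻¹' (C.e j).source) :=
      L.symm.differentiable.differentiableOn
    refine h1.comp h2 ?_
    rintro z ⟨hz1, hz2⟩
    exact ⟨hz1, hz2⟩
  holi j := by
    have h1 := hφ.holi j
    exact L.differentiable.comp_differentiableOn h1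

/-- `(w0, w1, w2) ↦ (w0 - w1, w1, w2)` -/
def Ld : Cn 3 ≃L[ℂ] Cn 3 :=
  LinearEquiv.toContinuousLinearEquiv
    { toFun := fun w => WithLp.toLp 2 ![w 0 - w 1, w 1, w 2]
      invFun := fun w => WithLp.toLp 2 ![w 0 + w 1, w 1, w 2]
      map_add' := by
        intro p q
        ext i
        fin_cases i
        · simp; ring
        · simp
        · simp
      map_smul' := by
        intro r p
        ext i
        fin_cases i
        · simp; ring
        · simp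
        · simp
      left_inv := by
        intro p
        ext i
        fin_cases i <;> simp
      right_inv := by
        intro z
        ext i
        fin_cases i <;> simp }

theorem Ld_0 (w : Cn 3) : Ld w 0 = w 0 - w 1 := rfl

section curve

variable {P : Par} {Y : Type} [TopologicalSpace Y] {CY : Fam 3 Y}
  {E : OpenPartialHomeomorph ((Cv P × Cv P) × ℂ) Y} {b : ℕ} {i j : Fin 2}
  {p : (Cv P × Cv P) × ℂ} {f : IPhi → Y → ℂ}

/-- difference of the coordinates of the two points, near `(c, c)` -/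
def kdY (E : OpenPartialHomeomorph ((Cv P × Cv P) × ℂ) Y) (c : Cv P) (y : Y) : ℂ :=
  k c (E.symm y).1.1 - k c (E.symm y).1.2

/-- the chart with first coordinate `kdY` -/
def chd (E : OpenPartialHomeomorph ((Cv P × Cv P) × ℂ) Y) (c : Cv P) :
    OpenPartialHomeomorph Y (Cn 3) :=
  (E.symm.trans (pc (cur P) c c)).transHomeomorph Ld.toHomeomorph

theorem chd_0 (c : Cv P) (y : Y) : chd E c y 0 = kdY E c y := rfl

theorem mem_chd (hp : p ∈ E.source) {c : Cv P} (h1 : p.1.1 = c) (h2 : p.1.2 = c) :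
    E p ∈ (chd E c).source := by
  show E p ∈ (E.symm.trans (pc (cur P) c c)).source
  rw [OpenPartialHomeomorph.trans_source]
  refine ⟨E.map_source hp, ?_⟩
  rw [mem_preimage, E.left_inv hp]
  exact mem_pc (by rw [h1]; exact k_mem c) (by rw [h2]; exact k_mem c)

theorem kd_zero (hp : p ∈ E.source) {c : Cv P} (h1 : p.1.1 = c) (h2 : p.1.2 = c) :
    kdY E c (E p) = 0 := by
  unfold kdY
  rw [E.left_inv hp, h1, h2, sub_self]

theorem holN_kd (hE : ECpt (cur P) CY E) (hp : p ∈ E.source) {c : Cv P} (h1 : p.1.1 = c)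
    (h2 : p.1.2 = c) : HolN CY (E p) (kdY E c) := by
  have hk : HolK (cur P) c (k c) := by
    have : AnalyticAt ℂ (fun z : ℂ => z) 0 := analyticAt_id
    refine this.congr ?_
    filter_upwards [(k c).open_target.mem_nhds (zero_mem_k c)] with z hz
    exact ((k c).right_inv hz).symm
  have a1 : HolN CY (E p) fun y => k c (E.symm y).1.1 :=
    holN_c1 hE hp (f := fun d => k c d) (by rw [h1]; exact hk)
  have a2 : HolN CY (E p) fun y => k c (E.symm y).1.2 :=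
    holN_c2 hE hp (f := fun d => k c d) (by rw [h2]; exact hk)
  exact a1.sub a2

/-- near `E p` both points are in the chart `k c` -/
theorem ev_both (hp : p ∈ E.source) {c : Cv P} (h1 : p.1.1 = c) (h2 : p.1.2 = c)
    {O : Set (Cv P)} (hO : IsOpen O) (hc : c ∈ O) :
    ∀ᶠ y in 𝓝 (E p), (E.symm y).1.1 ∈ O ∧ (E.symm y).1.2 ∈ O := by
  have e1 : ∀ᶠ q : (Cv P × Cv P) × ℂ in 𝓝 p, q.1.1 ∈ O :=
    (continuous_fst.comp continuous_fst).continuousAt.eventually
      (hO.mem_nhds (by show p.1.1 ∈ O; rw [h1]; exact hc))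
  have e2 : ∀ᶠ q : (Cv P × Cv P) × ℂ in 𝓝 p, q.1.2 ∈ O :=
    (continuous_snd.comp continuous_fst).continuousAt.eventually
      (hO.mem_nhds (by show p.1.2 ∈ O; rw [h2]; exact hc))
  exact ev_Y hp (e1.and e2)

/-- `kd = 0` iff the two points agree -/
theorem kd_iff (hp : p ∈ E.source) {c : Cv P} (h1 : p.1.1 = c) (h2 : p.1.2 = c) :
    ∀ᶠ y in 𝓝 (E p), kdY E c y = 0 ↔ (E.symm y).1.1 = (E.symm y).1.2 := by
  filter_upwards [ev_both hp h1 h2 (k c).open_source (k_mem c)] with y hy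
  unfold kdY
  rw [sub_eq_zero]
  exact ⟨fun h => (k c).injOn hy.1 hy.2 h, fun h => by rw [h]⟩

theorem nz_kd (hp : p ∈ E.source) {c : Cv P} (h1 : p.1.1 = c) (h2 : p.1.2 = c) :
    NZ (E p) (kdY E c) := by
  intro h
  have h3 := h.and (kd_iff hp h1 h2)
  have h4 : ∀ᶠ y in 𝓝 (E p), (E.symm y).1.1 = (E.symm y).1.2 := h3.mono fun y hy => hy.2.1 hy.1
  have h5 : ∀ᶠ q in 𝓝 p, (E.symm (E q)).1.1 = (E.symm (E q)).1.2 :=
    (E.continuousAt hp).eventually h4
  have h6 : ∀ᶠ q in 𝓝 p, q.1.1 = q.1.2 := by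
    filter_upwards [h5, E.open_source.mem_nhds hp] with q k1 k2
    rwa [E.left_inv k2] at k1
  have h7 : ∃ᶠ d in 𝓝 p.1.1, d ∉ ({p.1.2} : Set (Cv P)) :=
    freq_K (cur P) p.1.1 (finite_singleton _)
  exact (freq_c1 p (Q := fun d d' => d ≠ d') (h7.mono fun d hd => hd)) (h6.mono fun q hq h => h hq)

/-- a holomorphic function vanishing on the diagonal is divisible by `kd` -/
theorem dvd_kd (hE : ECpt (cur P) CY E) (hp : p ∈ E.source) {c : Cv P} (h1 : p.1.1 = c)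
    (h2 : p.1.2 = c) {F : Y → ℂ} (hF : HolN CY (E p) F)
    (h0 : ∀ᶠ y in 𝓝 (E p), (E.symm y).1.1 = (E.symm y).1.2 → F y = 0) :
    Dvd CY (E p) (kdY E c) F := by
  have hc : Refl_246.Cpt CY (chd E c) := cpt_lin (hE c c) Ld
  refine dvd_coord hc (mem_chd hp h1 h2) (a := 0) hF ?_
  filter_upwards [h0, kd_iff hp h1 h2] with y k1 k2 k3
  exact k1 (k2.1 k3)

/-! ### the reflected coordinate -/

variable {G : Type} [Group G] [MulAction G Y] {c : RC G CY}

/-- **`kd` is the reflected coordinate up to a unit** -/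
theorem kd_asc_eqU (hE : ECpt (cur P) CY E) (hp : p ∈ E.source) {d : Cv P} (h1 : p.1.1 = d)
    (h2 : p.1.2 = d) (hc : E p ∈ c.e.source)
    (hfix : ∀ᶠ y in 𝓝 (E p), (∃ g : G, g ≠ 1 ∧ g • y = y) ↔ (E.symm y).1.1 = (E.symm y).1.2) :
    Asc CY (E p) (kdY E d) (eqU c) := by
  refine Asc.of_dvd (holN_kd hE hp h1 h2) (nz_kd hp h1 h2) ?_ ?_
  · refine dvd_eqU hc (holN_kd hE hp h1 h2) ?_
    filter_upwards [hfix, kd_iff hp h1 h2] with y k1 k2 k3
    exact k2.2 (k1.1 k3)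
  · refine dvd_kd hE hp h1 h2 (holN_eqU hc) ?_
    filter_upwards [hfix, c.e.open_source.mem_nhds hc] with y k1 k2 k3
    exact (eqU_zero_iff k2).2 (k1.2 k3)

/-- off the fixed points `eqU` is a unit -/
theorem eqU_unit (hp : p ∈ E.source) (h : p.1.1 ≠ p.1.2) (hc : E p ∈ c.e.source)
    (hfix : ∀ᶠ y in 𝓝 (E p), (∃ g : G, g ≠ 1 ∧ g • y = y) ↔ (E.symm y).1.1 = (E.symm y).1.2) :
    eqU c (E p) ≠ 0 := by
  intro h0
  have h1 := (eqU_zero_iff hc).1 h0
  have h2 := hfix.self_of_nhds.1 h1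
  rw [E.left_inv hp] at h2
  exact h h2

/-! ### change of frames on `Y` -/

theorem change_1 (hE : ECpt (cur P) CY E) (hp : p ∈ E.source) {i i' : Fin 2}
    (h : tt p.1.1 ≠ pole i) (k' : tt p.1.1 ≠ pole i') :
    ∃ l : Y → ℂ, HolN CY (E p) l ∧ l (E p) ≠ 0 ∧ ∀ᶠ y in 𝓝 (E p),
      sY E i' y = l y * sY E i y ∧ rY E i' y = l y * rY E i y ∧ eY E i' y = l y ^ 3 * eY E i y := by
  by_cases hij : i = i'
  · subst hij
    exact ⟨fun _ => 1, holN_const 1, one_ne_zero, Eventually.of_forall fun y =>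
      ⟨by ring, by ring, by ring⟩⟩
  · have h01 : (i = 0 ∧ i' = 1) ∨ (i = 1 ∧ i' = 0) := by
      fin_cases i <;> fin_cases i' <;> simp_all
    have e0 : tt p.1.1 ≠ pole 0 := by rcases h01 with ⟨rfl, rfl⟩ | ⟨rfl, rfl⟩ <;> assumption
    have e1 : tt p.1.1 ≠ pole 1 := by rcases h01 with ⟨rfl, rfl⟩ | ⟨rfl, rfl⟩ <;> assumption
    have f0 : ∀ᶠ q : (Cv P × Cv P) × ℂ in 𝓝 p, tt q.1.1 ≠ pole 0 :=
      (continuous_fst.comp continuous_fst).continuousAt.eventually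
        ((isOpen_ne_pole 0).mem_nhds e0)
    have f1 : ∀ᶠ q : (Cv P × Cv P) × ℂ in 𝓝 p, tt q.1.1 ≠ pole 1 :=
      (continuous_fst.comp continuous_fst).continuousAt.eventually
        ((isOpen_ne_pole 1).mem_nhds e1)
    have hs : HolN CY (E p) (sY E 1) := (fr_1 hE hp e1).hs
    have hs0 : sY E 1 (E p) ≠ 0 := by
      unfold sY
      rw [E.left_inv hp]
      exact dl_ne e1 e0
    rcases h01 with ⟨rfl, rfl⟩ | ⟨rfl, rfl⟩
    · refine ⟨sY E 1, hs, hs0, ?_⟩
      filter_upwards [ev_Y hp f0, ev_Y hp f1] with y k0 k1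
      obtain ⟨a1, a2, a3, a4⟩ := eta_change k0 k1
      have e : sY E 1 y = sv (E.symm y).1.1 := iv_tt _
      rw [e]
      exact ⟨(mul_one _).symm, a2, a3⟩
    · refine ⟨fun y => (sY E 1 y)⁻¹, hs.inv hs0, inv_ne_zero hs0, ?_⟩
      filter_upwards [ev_Y hp f0, ev_Y hp f1] with y k0 k1
      obtain ⟨a1, a2, a3, a4⟩ := eta_change k0 k1
      have e : sY E 1 y = sv (E.symm y).1.1 := iv_tt _
      refine ⟨?_, ?_, ?_⟩
      · rw [eq_inv_mul_iff_mul_eq₀ (by rw [e]; exact a4)]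
        exact mul_one _
      · rw [e, eq_inv_mul_iff_mul_eq₀ a4]
        exact a2.symm
      · show eta 0 (E.symm y).1.1 = _ * eta 1 (E.symm y).1.1
        rw [a3, e, inv_pow, inv_mul_cancel_left₀ (pow_ne_zero 3 a4)]

theorem change_2 (hE : ECpt (cur P) CY E) (hp : p ∈ E.source) {j j' : Fin 2}
    (h : tt p.1.2 ≠ pole j) (k' : tt p.1.2 ≠ pole j') :
    ∃ l : Y → ℂ, HolN CY (E p) l ∧ l (E p) ≠ 0 ∧ ∀ᶠ y in 𝓝 (E p),
      sY' E j' y = l y * sY' E j y ∧ rY' E j' y = l y * rY' E j y ∧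
        eY' E j' y = l y ^ 3 * eY' E j y := by
  by_cases hij : j = j'
  · subst hij
    exact ⟨fun _ => 1, holN_const 1, one_ne_zero, Eventually.of_forall fun y =>
      ⟨by ring, by ring, by ring⟩⟩
  · have h01 : (j = 0 ∧ j' = 1) ∨ (j = 1 ∧ j' = 0) := by
      fin_cases j <;> fin_cases j' <;> simp_all
    have e0 : tt p.1.2 ≠ pole 0 := by rcases h01 with ⟨rfl, rfl⟩ | ⟨rfl, rfl⟩ <;> assumption
    have e1 : tt p.1.2 ≠ pole 1 := by rcases h01 with ⟨rfl, rfl⟩ | ⟨rfl, rfl⟩ <;> assumption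
    have f0 : ∀ᶠ q : (Cv P × Cv P) × ℂ in 𝓝 p, tt q.1.2 ≠ pole 0 :=
      (continuous_snd.comp continuous_fst).continuousAt.eventually
        ((isOpen_ne_pole 0).mem_nhds e0)
    have f1 : ∀ᶠ q : (Cv P × Cv P) × ℂ in 𝓝 p, tt q.1.2 ≠ pole 1 :=
      (continuous_snd.comp continuous_fst).continuousAt.eventually
        ((isOpen_ne_pole 1).mem_nhds e1)
    have hs : HolN CY (E p) (sY' E 1) := (fr_2 hE hp e1).hs
    have hs0 : sY' E 1 (E p) ≠ 0 := by
      unfold sY'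
      rw [E.left_inv hp]
      exact dl_ne e1 e0
    rcases h01 with ⟨rfl, rfl⟩ | ⟨rfl, rfl⟩
    · refine ⟨sY' E 1, hs, hs0, ?_⟩
      filter_upwards [ev_Y hp f0, ev_Y hp f1] with y k0 k1
      obtain ⟨a1, a2, a3, a4⟩ := eta_change k0 k1
      have e : sY' E 1 y = sv (E.symm y).1.2 := iv_tt _
      rw [e]
      exact ⟨(mul_one _).symm, a2, a3⟩
    · refine ⟨fun y => (sY' E 1 y)⁻¹, hs.inv hs0, inv_ne_zero hs0, ?_⟩
      filter_upwards [ev_Y hp f0, ev_Y hp f1] with y k0 k1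
      obtain ⟨a1, a2, a3, a4⟩ := eta_change k0 k1
      have e : sY' E 1 y = sv (E.symm y).1.2 := iv_tt _
      refine ⟨?_, ?_, ?_⟩
      · rw [eq_inv_mul_iff_mul_eq₀ (by rw [e]; exact a4)]
        exact mul_one _
      · rw [e, eq_inv_mul_iff_mul_eq₀ a4]
        exact a2.symm
      · show eta 0 (E.symm y).1.2 = _ * eta 1 (E.symm y).1.2
        rw [a3, e, inv_pow, inv_mul_cancel_left₀ (pow_ne_zero 3 a4)]

/-- `del` on `Y` -/
def delY (E : OpenPartialHomeomorph ((Cv P × Cv P) × ℂ) Y) (i j : Fin 2) (y : Y) : ℂ :=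
  del (sY E i y) (rY E i y) (sY' E j y) (rY' E j y)

/-- `rho` on `Y` -/
def rhoY (E : OpenPartialHomeomorph ((Cv P × Cv P) × ℂ) Y) (i j : Fin 2) (y : Y) : ℂ :=
  rho (cf P) (sY E i y) (rY E i y) (eY E i y) (sY' E j y) (rY' E j y) (eY' E j y)

theorem del_change (hE : ECpt (cur P) CY E) (hp : p ∈ E.source) {i i' j j' : Fin 2}
    (h : tt p.1.1 ≠ pole i) (h' : tt p.1.2 ≠ pole j) (k : tt p.1.1 ≠ pole i')
    (k' : tt p.1.2 ≠ pole j') : Asc CY (E p) (delY E i' j') (delY E i j) := by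
  obtain ⟨l, hl, hl0, he⟩ := change_1 hE hp h k
  obtain ⟨m, hm, hm0, hf⟩ := change_2 hE hp h' k'
  refine ⟨fun y => l y * m y, hl.mul hm, mul_ne_zero hl0 hm0, ?_⟩
  filter_upwards [he, hf] with y ⟨e1, e2, e3⟩ ⟨f1, f2, f3⟩
  unfold delY
  rw [e1, e2, f1, f2]
  unfold del
  ring

theorem rho_change (hE : ECpt (cur P) CY E) (hp : p ∈ E.source) {i i' j j' : Fin 2}
    (h : tt p.1.1 ≠ pole i) (h' : tt p.1.2 ≠ pole j) (k : tt p.1.1 ≠ pole i')
    (k' : tt p.1.2 ≠ pole j') : Asc CY (E p) (rhoY E i' j') (rhoY E i j) := by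
  obtain ⟨l, hl, hl0, he⟩ := change_1 hE hp h k
  obtain ⟨m, hm, hm0, hf⟩ := change_2 hE hp h' k'
  refine ⟨fun y => l y ^ 3 * m y ^ 3, (hl.pow 3).mul (hm.pow 3),
    mul_ne_zero (pow_ne_zero 3 hl0) (pow_ne_zero 3 hm0), ?_⟩
  filter_upwards [he, hf] with y ⟨e1, e2, e3⟩ ⟨f1, f2, f3⟩
  unfold rhoY
  rw [e1, e2, e3, f1, f2, f3, rho_smul]

/-- **at `(d, d)`, `d` not a Weierstrass point, `del ~ kd`** -/
theorem del_asc_kd (hE : ECpt (cur P) CY E) (hp : p ∈ E.source) {d : Cv P} (h1 : p.1.1 = d)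
    (h2 : p.1.2 = d) (hd : iv d ≠ d) (h : tt p.1.1 ≠ pole i) (h' : tt p.1.2 ≠ pole j) :
    Asc CY (E p) (delY E i j) (kdY E d) := by
  by_cases hi : tt d = ∞
  · have g1 : tt p.1.1 ≠ pole 1 := by rw [h1, hi]; exact OnePoint.infty_ne_coe _
    have g2 : tt p.1.2 ≠ pole 1 := by rw [h2, hi]; exact OnePoint.infty_ne_coe _
    refine (del_change hE hp g1 g2 h h').trans ?_
    refine ⟨fun _ => -1, holN_const _, by norm_num, ?_⟩
    filter_upwards [ev_both hp h1 h2 isOpen_ne_zero (show d ∈ {c : Cv P | tt c ≠ ((0 : ℂ) : P1)} by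
      rw [← h1]; exact g1)] with y hy
    unfold kdY
    rw [k_apply_s (not_not.2 hi) hy.1, k_apply_s (not_not.2 hi) hy.2]
    have e1 : sY E 1 y = sv (E.symm y).1.1 := iv_tt _
    have e2 : sY' E 1 y = sv (E.symm y).1.2 := iv_tt _
    unfold delY
    rw [e1, e2]
    show 1 * sv (E.symm y).1.2 - sv (E.symm y).1.1 * 1 = _
    ring
  · have g1 : tt p.1.1 ≠ pole 0 := by rw [h1]; exact hi
    have g2 : tt p.1.2 ≠ pole 0 := by rw [h2]; exact hi
    have hy0 : yv d ≠ 0 := fun h0 => hd ((iv_eq_iff0 hi).2 h0)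
    refine (del_change hE hp g1 g2 h h').trans ?_
    refine ⟨fun _ => 1, holN_const _, one_ne_zero, ?_⟩
    filter_upwards [ev_both hp h1 h2 isOpen_ne_inf (show d ∈ {c : Cv P | tt c ≠ ∞} from hi)]
      with y hy
    unfold kdY
    rw [k_apply_t hi hy0 hy.1, k_apply_t hi hy0 hy.2]
    unfold delY
    show Tp1_60.nn (tt (E.symm y).1.1) * 1 - 1 * Tp1_60.nn (tt (E.symm y).1.2) = _
    rw [nn_tt hy.1, nn_tt hy.2]
    ring

/-- divided difference of the sextic -/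
def Ea (a : Fin 7 → ℂ) (t u : ℂ) : ℂ :=
  a 1 + a 2 * (t + u) + a 3 * (t ^ 2 + t * u + u ^ 2) + a 4 * (t ^ 3 + t ^ 2 * u + t * u ^ 2 + u ^ 3)
    + a 5 * (t ^ 4 + t ^ 3 * u + t ^ 2 * u ^ 2 + t * u ^ 3 + u ^ 4)
    + a 6 * (t ^ 5 + t ^ 4 * u + t ^ 3 * u ^ 2 + t ^ 2 * u ^ 3 + t * u ^ 4 + u ^ 5)

def Qa (a : Fin 7 → ℂ) (t u : ℂ) : ℂ :=
  a 2 + a 3 * (t + u) + a 4 * (t + u) ^ 2 + a 5 * (t ^ 2 + t * u + u ^ 2) * (t + u)
    + a 6 * (t ^ 2 + t * u + u ^ 2) ^ 2

theorem Ea_mul (a : Fin 7 → ℂ) (t u : ℂ) : fh a 1 t - fh a 1 u = (t - u) * Ea a t u := by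
  unfold fh Ea; ring

theorem Qa_mul (a : Fin 7 → ℂ) (t u : ℂ) :
    Fh a 1 t 1 u = fh a 1 t + fh a 1 u - (t - u) ^ 2 * Qa a t u := by
  unfold Fh fh Qa; ring

theorem Ea_diag (a : Fin 7 → ℂ) (t : ℂ) : Ea a t t = fhr a 1 t := by
  unfold Ea fhr; ring

theorem rho_W {a : Fin 7 → ℂ} {t u η η' : ℂ} (h : η ^ 2 = fh a 1 t) (h' : η' ^ 2 = fh a 1 u)
    (h0 : Ea a t u ≠ 0) :
    rho a 1 t η 1 u η' = (1 - (η + η') ^ 2 * Qa a t u / Ea a t u ^ 2) * (η - η') ^ 2 := by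
  have h1 : (t - u) * Ea a t u = (η - η') * (η + η') := by
    rw [← Ea_mul, ← h, ← h']; ring
  have h2 : t - u = (η - η') * (η + η') / Ea a t u := by
    rw [eq_div_iff h0]; exact h1
  unfold rho
  rw [Qa_mul, ← h, ← h', h2]
  field_simp
  ring

/-- **at `(w, w)`, `w` a Weierstrass point, `rho ~ kd²`** -/
theorem rho_asc_kd (hE : ECpt (cur P) CY E) (hp : p ∈ E.source) {d : Cv P} (h1 : p.1.1 = d)
    (h2 : p.1.2 = d) (hd : iv d = d) (h : tt p.1.1 ≠ pole i) (h' : tt p.1.2 ≠ pole j) :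
    Asc CY (E p) (rhoY E i j) (fun y => kdY E d y ^ 2) := by
  have hi : tt d ≠ ∞ := fun h0 => iv_ne_inf h0 hd
  have g1 : tt p.1.1 ≠ pole 0 := by rw [h1]; exact hi
  have g2 : tt p.1.2 ≠ pole 0 := by rw [h2]; exact hi
  have hy0 : yv d = 0 := (iv_eq_iff0 hi).1 hd
  refine (rho_change hE hp g1 g2 h h').trans ?_
  have F1 := fr_1 hE hp g1
  have F2 := fr_2 hE hp g2
  have r1 := F1.hr
  have r2 := F2.hr
  have y1 := F1.he
  have y2 := F2.he
  have hEa : HolN CY (E p) fun y => Ea (cf P) (rY E 0 y) (rY' E 0 y) := by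
    unfold Ea
    holn
  have hQa : HolN CY (E p) fun y => Qa (cf P) (rY E 0 y) (rY' E 0 y) := by
    unfold Qa
    holn
  have er1 : rY E 0 (E p) = tv d := by
    unfold rY
    rw [E.left_inv hp, h1]
    exact nn_tt hi
  have er2 : rY' E 0 (E p) = tv d := by
    unfold rY'
    rw [E.left_inv hp, h2]
    exact nn_tt hi
  have ey1 : eY E 0 (E p) = 0 := by
    unfold eY
    rw [E.left_inv hp, h1]
    exact hy0
  have ey2 : eY' E 0 (E p) = 0 := by
    unfold eY'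
    rw [E.left_inv hp, h2]
    exact hy0
  have hE0 : Ea (cf P) (rY E 0 (E p)) (rY' E 0 (E p)) ≠ 0 := by
    rw [er1, er2, Ea_diag]
    intro h0
    have h3 : fh (cf P) 1 (tv d) = 0 := by
      rw [fh_cf_one, ← yv_sq hi, hy0]; ring
    have h4 := simple_cf P 1 (tv d) (Or.inl one_ne_zero) h3
    have h5 := fhr_sq (a := cf P) 1 (tv d)
    rw [h0, h3] at h5
    apply h4
    linear_combination - h5
  refine ⟨fun y => 1 - (eY E 0 y + eY' E 0 y) ^ 2 * Qa (cf P) (rY E 0 y) (rY' E 0 y)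
    / Ea (cf P) (rY E 0 y) (rY' E 0 y) ^ 2, ?_, ?_, ?_⟩
  · exact (holN_const 1).sub ((((y1.add y2).pow 2).mul hQa).div (hEa.pow 2) (pow_ne_zero 2 hE0))
  · simp only [ey1, ey2]
    norm_num
  · filter_upwards [ev_both hp h1 h2 isOpen_ne_inf (show d ∈ {c : Cv P | tt c ≠ ∞} from hi),
      hEa.continuousAt.eventually_ne hE0] with y hy hEy
    have e1 : eY E 0 y ^ 2 = fh (cf P) 1 (rY E 0 y) := eta_sq (i := 0) hy.1
    have e2 : eY' E 0 y ^ 2 = fh (cf P) 1 (rY' E 0 y) := eta_sq (i := 0) hy.2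
    have e3 := rho_W e1 e2 hEy
    have e4 : kdY E d y = eY E 0 y - eY' E 0 y := by
      unfold kdY
      rw [k_apply_y hi hy0 hy.1, k_apply_y hi hy0 hy.2]
      rfl
    rw [e4, ← e3]
    rfl

/-! ### the comparison -/

theorem asc_of_units {n : ℕ} {X : Type} [TopologicalSpace X] {C : Fam n X} {x : X} {u v : X → ℂ}
    (hu : HolN C x u) (hv : HolN C x v) (hu0 : u x ≠ 0) (hv0 : v x ≠ 0) : Asc C x u v := by
  refine ⟨fun y => u y / v y, hu.div hv hv0, div_ne_zero hu0 hv0, ?_⟩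
  filter_upwards [hv.continuousAt.eventually_ne hv0] with y hy
  rw [div_mul_cancel₀ _ hy]

theorem holN_delY (hE : ECpt (cur P) CY E) (hp : p ∈ E.source) (h : tt p.1.1 ≠ pole i)
    (h' : tt p.1.2 ≠ pole j) : HolN CY (E p) (delY E i j) :=
  holN_del (fr_1 hE hp h).hs (fr_1 hE hp h).hr (fr_2 hE hp h').hs (fr_2 hE hp h').hr

theorem holN_rhoY (hE : ECpt (cur P) CY E) (hp : p ∈ E.source) (h : tt p.1.1 ≠ pole i)
    (h' : tt p.1.2 ≠ pole j) : HolN CY (E p) (rhoY E i j) :=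
  (fr_1 hE hp h).holN_rho (fr_2 hE hp h')

/-- hypothesis on the fixed points -/
def Fix (G : Type) [Group G] [MulAction G Y] (E : OpenPartialHomeomorph ((Cv P × Cv P) × ℂ) Y)
    (p : (Cv P × Cv P) × ℂ) : Prop :=
  ∀ᶠ y in 𝓝 (E p), (∃ g : G, g ≠ 1 ∧ g • y = y) ↔ (E.symm y).1.1 = (E.symm y).1.2

/-- **off `Γ` : `del ~ eqU`** -/
theorem del_asc_eqU (hE : ECpt (cur P) CY E) (hp : p ∈ E.source) (h : tt p.1.1 ≠ pole i)
    (h' : tt p.1.2 ≠ pole j) (hc' : p.1.2 ≠ iv p.1.1) (hc : E p ∈ c.e.source)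
    (hfix : Fix G E p) : Asc CY (E p) (delY E i j) (eqU c) := by
  by_cases hd : p.1.1 = p.1.2
  · have hne : iv p.1.1 ≠ p.1.1 := by rw [← hd] at hc'; exact hc'.symm
    exact (del_asc_kd hE hp rfl hd.symm hne h h').trans (kd_asc_eqU hE hp rfl hd.symm hc hfix)
  · refine asc_of_units (holN_delY hE hp h h') (holN_eqU hc) ?_ (eqU_unit hp hd hc hfix)
    unfold delY sY rY sY' rY'
    rw [E.left_inv hp]
    intro h0
    rcases eq_or_eq_iv ((del_frame h h').1 h0) with h1 | h1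
    · exact hd h1.symm
    · exact hc' h1

/-- **on `Γ` : `rho ~ eqU²`** -/
theorem rho_asc_eqU (hE : ECpt (cur P) CY E) (hp : p ∈ E.source) (h : tt p.1.1 ≠ pole i)
    (h' : tt p.1.2 ≠ pole j) (hc' : p.1.2 = iv p.1.1) (hc : E p ∈ c.e.source)
    (hfix : Fix G E p) : Asc CY (E p) (rhoY E i j) (fun y => eqU c y ^ 2) := by
  by_cases hd : p.1.1 = p.1.2
  · have hne : iv p.1.1 = p.1.1 := by rw [← hc', hd]
    exact (rho_asc_kd hE hp rfl hd.symm hne h h').trans ((kd_asc_eqU hE hp rfl hd.symm hc hfix).pow 2)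
  · refine asc_of_units (holN_rhoY hE hp h h') ((holN_eqU hc).pow 2) ?_
      (pow_ne_zero 2 (eqU_unit hp hd hc hfix))
    unfold rhoY sY rY eY sY' rY' eY'
    rw [E.left_inv hp]
    -- the frame at `iv c` is `l` times the frame at `c`, with `- l³ η`
    obtain ⟨h2, h3⟩ := (gam_frame h h').2 hc'
    obtain ⟨l, hl, e1, e2, e3⟩ :=
      (gam_iff (cf P) (eta_sq h) (eta_sq h') (frame_ne i _) (frame_ne j _)).1 ⟨h2, h3⟩
    have hη : eta i p.1.1 ≠ 0 := by
      intro h0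
      apply hd
      rw [hc', iv_of_eta h h0]
    rw [e1, e2, e3]
    have h4 := Fh_smul (cf P) 1 l (dl i (tt p.1.1)) (nu i (tt p.1.1)) (dl i (tt p.1.1))
      (nu i (tt p.1.1))
    rw [one_mul, one_mul, Fh_diag, ← eta_sq h] at h4
    unfold rho
    rw [h4]
    have : 1 ^ 3 * l ^ 3 * (2 * eta i p.1.1 ^ 2) - 2 * eta i p.1.1 * -(l ^ 3 * eta i p.1.1)
        = 4 * l ^ 3 * eta i p.1.1 ^ 2 := by ring
    rw [this]
    exact mul_ne_zero (mul_ne_zero (by norm_num) (pow_ne_zero 3 hl)) (pow_ne_zero 2 hη)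

/-- the local equation of `P⁻` in the chart, up to units -/
def gC (b : ℕ) (E : OpenPartialHomeomorph ((Cv P × Cv P) × ℂ) Y) (i j : Fin 2) (c : RC G CY)
    (y : Y) : ℂ :=
  (PosP3_848.ks i j (E.symm y).1.1 (E.symm y).1.2 0) ^ b * eqU c y ^ 8

/-- **the list is generated by `(ks 0)^b * eqU^8` at every point `(c, c', ξ)`, `ξ ≠ 0`** -/
theorem kum_cmp (hb : 15 ≤ b) (hE : ECpt (cur P) CY E) (hp : p ∈ E.source)
    (h : tt p.1.1 ≠ pole i) (h' : tt p.1.2 ≠ pole j) (hx : p.2 ≠ 0) (hf : HF b E i j p f)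
    (hc : E p ∈ c.e.source) (hfix : Fix G E p) : GenAt CY f (gC b E i j c) (E p) := by
  have hξ : HolN CY (E p) (xY E) := holN_x hE hp
  have hξ0 : xY E (E p) ≠ 0 := by
    unfold xY; rw [E.left_inv hp]; exact hx
  have hk : Asc CY (E p)
      (fun y => (PosP3_848.ks i j (E.symm y).1.1 (E.symm y).1.2 0) ^ b)
      (fun y => (PosP3_848.ks i j (E.symm y).1.1 (E.symm y).1.2 0) ^ b) := Asc.refl _
  have hpw : ∀ m : ℕ, Asc CY (E p) (fun y => xY E y ^ m) (fun _ => 1) := fun m =>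
    asc_of_units (hξ.pow m) (holN_const 1) (pow_ne_zero m hξ0) one_ne_zero
  by_cases hc' : p.1.2 = iv p.1.1
  · refine (kumF_genM hb hE hp h h' hc' hx hf).asc ?_
    have h1 := ((hpw (b + 14)).mul ((rho_asc_eqU hE hp h h' hc' hc hfix).pow 4)).mul hk
    refine h1.congr (Eventually.of_forall fun y => rfl) (Eventually.of_forall fun y => ?_)
    unfold gC
    ring
  · refine (kumF_gen hb hE hp h h' hc' hf).asc ?_
    have h1 := ((hpw (b + 9)).mul (((del_asc_eqU hE hp h h' hc' hc hfix).pow 2).pow 4)).mul hk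
    refine h1.congr (Eventually.of_forall fun y => rfl) (Eventually.of_forall fun y => ?_)
    unfold gC
    ring

/-- `ks 0 = (first coordinate of the frames)`: `δ δ'` of 220's `(ξ δ δ', ξ ν δ', ξ δ ν')` -/
theorem gC_eq (y : Y) : gC b E i j c y = (sY E i y * sY' E j y) ^ b * eqU c y ^ 8 := rfl

end curve

end Crest.Agent.R272.Kum_977
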