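import Crest.Agent.R272.Gr6_559

/-!
# R272 (S0415), MOD-GRAPH (helper559), file 8: density of the graph

* `exists_appr` : every point of `X1` is a limit of the graph over regular points of the base;
* **`dense_pz_preimage : Dense S → Dense (D.pz ⁻¹' S)`**;
* `frequently_ne` : `(∀ z, ∃ᶠ y in 𝓝 z, h y ≠ 0) → ∀ s : X1, ∃ᶠ y in 𝓝 s, h (D.pz y) ≠ 0`.
-/

set_option autoImplicit false
set_option linter.unusedSectionVars false

open Set Filter Topology Complex

namespace Crest.Agent.R272.Gr_559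

open Crest.Agent.R275.Geo Crest.Agent.R273.Fam_835 Crest.Agent.R272.Quot_783
open Crest.Agent.R272

noncomputable section

variable {N : Type} [TopologicalSpace N] {F : Fam 3 N} {D : GData F}

theorem tendsto_eps_mul (u : ℂ) {c : ℂ} (hc : c = 0) :
    Tendsto (fun ε : ℂ => ε * u) (𝓝[≠] 0) (𝓝 c) := by
  have : Tendsto (fun ε : ℂ => ε * u) (𝓝 0) (𝓝 (0 * u)) :=
    (continuous_id.mul continuous_const).tendsto 0
  rw [zero_mul] at this
  rw [hc]
  exact this.mono_left nhdsWithin_le_nhds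

theorem eq_infty_of_d {t : P1} (h : t.d = 0) : t = OnePoint.infty := by
  induction t using OnePoint.rec with
  | infty => rfl
  | coe c => exact absurd h one_ne_zero

theorem appr_rr {z : N} {t : Fin 2 → P1} {v : P1} {k : Fin 2 → P1}
    (hs : ((z, t, v, k) : GData.Amb N) ∈ D.X1) (hr : ∀ a, ¬ (D.f0 z = 0 ∧ D.x a z = 0)) :
    Appr D z t v k := by
  obtain ⟨i, hi⟩ := F.cover z
  have h1 := (mem_X1_loc D (q := z) (fun a => Loc.reg D a z (hr a)) (y := (z, t, v, k))
    (fun a => (Loc.reg D a z (hr a)).mem)).1 hs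
  have h2 := (relE_mk D hr t v).1 h1.1
  have hY : ∀ a, (z, t a, k a) ∈ D.Y a := hs.1
  have hv' : ¬ (D.x 0 z * D.x 1 z = 0 ∧ D.f0 z = 0) := by
    rintro ⟨h1, h2⟩
    rcases mul_eq_zero.1 h1 with h3 | h3
    · exact hr 0 ⟨h2, h3⟩
    · exact hr 1 ⟨h2, h3⟩
  -- common part
  have common : ∀ l : Filter N, l.NeBot → l ≤ 𝓝 z →
      (∀ a, (∀ᶠ y in l, ¬ (D.P a y = 0 ∧ D.Q a y = 0)) ∧
        Tendsto (fun y => P1.mk (D.P a y) (D.Q a y)) l (𝓝 (P1.sq (k a)))) → Appr D z t v k := by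
    intro l hlb hl hk
    have hx : ∀ a, Tendsto (D.x a) l (𝓝 (D.x a z)) := fun a =>
      (D.continuous_x a).continuousAt.tendsto.mono_left hl
    have hf : Tendsto D.f0 l (𝓝 (D.f0 z)) := D.continuous_f0.continuousAt.tendsto.mono_left hl
    refine ⟨l, hlb, hl, ?_, fun a => ?_, ?_, hk⟩
    · rw [Filter.eventually_all]
      intro a
      exact hl ((Loc.reg D a z (hr a)).U_open.mem_nhds (Loc.reg D a z (hr a)).mem)
    · rw [h2.1 a]
      exact P1.tendsto_mk (hx a) hf (fun h => hr a ⟨h.2, h.1⟩)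
    · rw [h2.2]
      exact P1.tendsto_mk ((hx 0).mul (hx 1)) hf hv'
  by_cases hbad : ∃ a, D.P a z = 0 ∧ D.Q a z = 0
  · obtain ⟨a, ha⟩ := hbad
    -- the other colour is good
    have hgood : ∀ b, b ≠ a → ¬ (D.P b z = 0 ∧ D.Q b z = 0) := by
      intro b hba hb
      have hall : ∀ c, D.P c z = 0 ∧ D.Q c z = 0 := by
        intro c
        have hc : c = a ∨ c = b := by
          revert hba
          fin_cases a <;> fin_cases b <;> fin_cases c <;> simp
        rcases hc with rfl | rfl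
        · exact ha
        · exact hb
      -- a surjection `ℂ³ → ℂ⁴`
      let L : Cn 3 →ₗ[ℂ] (Fin 2 → ℂ) × (Fin 2 → ℂ) :=
        (LinearMap.pi fun c => (dd F i (D.P c) z).toLinearMap).prod
          (LinearMap.pi fun c => (dd F i (D.Q c) z).toLinearMap)
      have hL : Function.Surjective L := by
        rintro ⟨φ, γ⟩
        obtain ⟨V, hV⟩ := D.rr' hr hi φ γ
        exact ⟨V, Prod.ext (funext fun c => (hV c).1 (hall c).1)
          (funext fun c => (hV c).2 (hall c).2)⟩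
      have h3 := LinearMap.finrank_le_finrank_of_surjective hL
      rw [Module.finrank_prod, Module.finrank_fintype_fun_eq_card, Fintype.card_fin,
        finrank_euclideanSpace, Fintype.card_fin] at h3
      omega
    -- the pair `(P a, Q a)` is open at `z`
    have hop := open_tuple (r := 2) isOpen_univ (h := ![D.P a, D.Q a]) (fun c => by
      fin_cases c
      · exact D.P_hol a
      · exact D.Q_hol a) (mem_univ z) hi (fun w => by
      obtain ⟨V, hV⟩ := D.rr' hr hi (fun _ => w 0) (fun _ => w 1)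
      refine ⟨V, fun c => ?_⟩
      fin_cases c
      · exact (hV a).1 ha.1
      · exact (hV a).2 ha.2)
    obtain ⟨l, hlb, hl, hlw⟩ := exists_curve
      (Ψ := fun y (c : Fin 2) => (![D.P a, D.Q a] : Fin 2 → N → ℂ) c y) (z := z) hop
      (w := fun ε => ![ε * (k a).n ^ 2, ε * (k a).d ^ 2]) (by
        rw [tendsto_pi_nhds]
        intro c
        fin_cases c
        · exact tendsto_eps_mul ((k a).n ^ 2) ha.1
        · exact tendsto_eps_mul ((k a).d ^ 2) ha.2)
    have hev : ∀ᶠ y in l, ∃ ε : ℂ, ε ≠ 0 ∧ D.P a y = ε * (k a).n ^ 2 ∧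
        D.Q a y = ε * (k a).d ^ 2 := by
      have h4 : ∀ᶠ w in map (fun ε : ℂ => (![ε * (k a).n ^ 2, ε * (k a).d ^ 2] : Fin 2 → ℂ))
          (𝓝[≠] 0), ∃ ε : ℂ, ε ≠ 0 ∧ w 0 = ε * (k a).n ^ 2 ∧ w 1 = ε * (k a).d ^ 2 := by
        rw [Filter.eventually_map]
        filter_upwards [self_mem_nhdsWithin] with ε hε
        exact ⟨ε, hε, rfl, rfl⟩
      exact hlw.eventually h4
    refine common l hlb hl fun b => ?_
    by_cases hba : b = a
    · subst hba
      have hnd := P1.nd_ne (k b)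
      refine ⟨?_, ?_⟩
      · filter_upwards [hev] with y ⟨ε, hε, e1, e2⟩ h5
        rw [e1, e2] at h5
        exact hnd ⟨pow_eq_zero_iff (two_ne_zero) |>.1 ((mul_eq_zero.1 h5.1).resolve_left hε),
          pow_eq_zero_iff (two_ne_zero) |>.1 ((mul_eq_zero.1 h5.2).resolve_left hε)⟩
      · refine tendsto_const_nhds.congr' ?_
        filter_upwards [hev] with y ⟨ε, hε, e1, e2⟩
        rw [e1, e2, P1.mk_smul hε]
        rfl
    · exact mk_PQ_tendsto_reg (hY b) (hr b) (hgood b hba) hl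
  · push Not at hbad
    refine common (𝓝 z) inferInstance le_rfl fun b => ?_
    exact mk_PQ_tendsto_reg (hY b) (hr b) (fun h => hbad b h.1 h.2) le_rfl

theorem appr_fr {z : N} {t : Fin 2 → P1} {v : P1} {k : Fin 2 → P1}
    (hs : ((z, t, v, k) : GData.Amb N) ∈ D.X1) {a b : Fin 2} (hab : a ≠ b) (hf0 : D.f0 z = 0)
    (hxa : D.x a z = 0) (hxb : D.x b z ≠ 0) : Appr D z t v k := by
  obtain ⟨i, hi⟩ := F.cover z
  choose C hC using fun a => D.exists_loc a z
  have hY : ∀ a, (z, t a, k a) ∈ D.Y a := hs.1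
  have hR := (relE_iff D hab _ _ _ _ _).1 ((mem_X1_loc D C (y := (z, t, v, k))
    fun a => (C a).mem).1 hs).1
  obtain ⟨hR1, hR2, hR3, hR4⟩ := hR
  beta_reduce at hR1 hR2 hR3 hR4
  simp only at hR1 hR2 hR3 hR4
  have htb : t b = OnePoint.infty := by
    have h1 : D.x b z * (t b).d = 0 := by rw [hR2, hf0, zero_mul]
    exact eq_infty_of_d ((mul_eq_zero.1 h1).resolve_left hxb)
  have hop := open_tuple (r := 2) isOpen_univ (h := ![D.x a, D.f0]) (fun c => by
    fin_cases c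
    · exact D.x_hol a
    · exact D.f0_hol) (mem_univ z) hi (fun w => by
    obtain ⟨V, e1, e2, -, -⟩ := D.fr' hab hf0 hxa hxb hi (w 1) (w 0) 0 0
    refine ⟨V, fun c => ?_⟩
    fin_cases c
    · exact e2
    · exact e1)
  obtain ⟨l, hlb, hl, hlw⟩ := exists_curve
    (Ψ := fun y (c : Fin 2) => (![D.x a, D.f0] : Fin 2 → N → ℂ) c y) (z := z) hop
    (w := fun ε => ![ε * (t a).n, ε * (t a).d]) (by
      rw [tendsto_pi_nhds]
      intro c
      fin_cases c
      · exact tendsto_eps_mul (t a).n hxa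
      · exact tendsto_eps_mul (t a).d hf0)
  have hev : ∀ᶠ y in l, ∃ ε : ℂ, ε ≠ 0 ∧ D.x a y = ε * (t a).n ∧ D.f0 y = ε * (t a).d := by
    have h4 : ∀ᶠ w in map (fun ε : ℂ => (![ε * (t a).n, ε * (t a).d] : Fin 2 → ℂ))
        (𝓝[≠] 0), ∃ ε : ℂ, ε ≠ 0 ∧ w 0 = ε * (t a).n ∧ w 1 = ε * (t a).d := by
      rw [Filter.eventually_map]
      filter_upwards [self_mem_nhdsWithin] with ε hε
      exact ⟨ε, hε, rfl, rfl⟩
    exact hlw.eventually h4
  have hxl : ∀ c, Tendsto (D.x c) l (𝓝 (D.x c z)) := fun c =>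
    (D.continuous_x c).continuousAt.tendsto.mono_left hl
  have hfl : Tendsto D.f0 l (𝓝 (D.f0 z)) := D.continuous_f0.continuousAt.tendsto.mono_left hl
  have hxbl : ∀ᶠ y in l, D.x b y ≠ 0 := (hxl b).eventually_ne hxb
  have hc : ∀ c, c = a ∨ c = b := by
    intro c
    revert hab
    fin_cases a <;> fin_cases b <;> fin_cases c <;> simp
  have hregs : ∀ᶠ y in l, ∀ c, ¬ (D.f0 y = 0 ∧ D.x c y = 0) := by
    filter_upwards [hev, hxbl] with y ⟨ε, hε, e1, e2⟩ h5 c h6
    rcases hc c with rfl | rfl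
    · rw [e1, e2] at h6
      exact P1.nd_ne (t c) ⟨(mul_eq_zero.1 h6.2).resolve_left hε,
        (mul_eq_zero.1 h6.1).resolve_left hε⟩
    · exact h5 h6.2
  have hta : Tendsto (fun y => P1.mk (D.x a y) (D.f0 y)) l (𝓝 (t a)) := by
    refine tendsto_const_nhds.congr' ?_
    filter_upwards [hev] with y ⟨ε, hε, e1, e2⟩
    rw [e1, e2, P1.mk_smul hε, P1.mk_nd]
  have ht : ∀ c, Tendsto (fun y => P1.mk (D.x c y) (D.f0 y)) l (𝓝 (t c)) := by
    intro c
    rcases hc c with rfl | rfl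
    · exact hta
    · have h7 := P1.tendsto_mk (hxl c) hfl (fun h => hxb h.1)
      rw [hf0, P1.mk_zero] at h7
      rw [htb]
      exact h7
  have hPb : ¬ (D.P b z = 0 ∧ D.Q b z = 0) := by
    rintro ⟨h8, h9⟩
    let L : Cn 3 →ₗ[ℂ] (Fin 4 → ℂ) := LinearMap.pi
      ![(dd F i D.f0 z).toLinearMap, (dd F i (D.x a) z).toLinearMap,
        (dd F i (D.P b) z).toLinearMap, (dd F i (D.Q b) z).toLinearMap]
    have hL : Function.Surjective L := by
      intro w
      obtain ⟨V, e1, e2, e3, e4⟩ := D.fr' hab hf0 hxa hxb hi (w 0) (w 1) (w 2) (w 3)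
      refine ⟨V, funext fun c => ?_⟩
      fin_cases c
      · exact e1
      · exact e2
      · exact e3 h8
      · exact e4 h9
    have h3 := LinearMap.finrank_le_finrank_of_surjective hL
    rw [Module.finrank_fintype_fun_eq_card, Fintype.card_fin, finrank_euclideanSpace,
      Fintype.card_fin] at h3
    omega
  refine ⟨l, hlb, hl, hregs, ht, ?_, fun c => ?_⟩
  · -- the coordinate `v`
    have hnev : ¬ ((t a).n * D.x b z = 0 ∧ (t a).d = 0) := by
      rintro ⟨h1, h2⟩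
      exact P1.nd_ne (t a) ⟨(mul_eq_zero.1 h1).resolve_right hxb, h2⟩
    have hv : v = P1.mk ((t a).n * D.x b z) (t a).d := by
      refine (P1.rel_iff hnev v).1 ?_
      linear_combination -hR3
    rw [hv]
    have h7 : Tendsto (fun y => P1.mk ((t a).n * D.x b y) (t a).d) l
        (𝓝 (P1.mk ((t a).n * D.x b z) (t a).d)) :=
      P1.tendsto_mk ((tendsto_const_nhds).mul (hxl b)) tendsto_const_nhds hnev
    refine h7.congr' ?_
    filter_upwards [hev] with y ⟨ε, hε, e1, e2⟩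
    have h8 : D.x 0 y * D.x 1 y = D.x a y * D.x b y := by
      revert hab
      fin_cases a <;> fin_cases b <;> simp [mul_comm]
    rw [h8, e1, e2, mul_assoc, P1.mk_smul hε]
  · rcases hc c with rfl | rfl
    · exact mk_PQ_tendsto (C c) (hY c) ((hC c).ne_flat hf0 hxa _) hl
        (hregs.mono fun y hy => hy c) hta
    · exact mk_PQ_tendsto_reg (hY c) (fun h => hxb h.2) hPb hl

theorem appr_ff {z : N} {t : Fin 2 → P1} {v : P1} {k : Fin 2 → P1}
    (hs : ((z, t, v, k) : GData.Amb N) ∈ D.X1) (hf0 : D.f0 z = 0)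
    (hx0 : D.x 0 z = 0) (hx1 : D.x 1 z = 0) : Appr D z t v k := by
  obtain ⟨i, hi⟩ := F.cover z
  choose C hC using fun a => D.exists_loc a z
  have hY : ∀ a, (z, t a, k a) ∈ D.Y a := hs.1
  obtain ⟨-, hR3, hR4⟩ := ((mem_X1_loc D C (y := (z, t, v, k)) fun a => (C a).mem).1 hs).1
  beta_reduce at hR3 hR4
  simp only at hR3 hR4
  rw [hx1, mul_zero] at hR3
  rw [hx0, mul_zero] at hR4
  obtain ⟨w, hw1, hw2, hw3, hw4, hw5⟩ := exists_curve3 (t 0) (t 1) v hR3 hR4
  have hop := open_tuple (r := 3) isOpen_univ (h := ![D.f0, D.x 0, D.x 1]) (fun c => by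
    fin_cases c
    · exact D.f0_hol
    · exact D.x_hol 0
    · exact D.x_hol 1) (mem_univ z) hi (fun w => by
    obtain ⟨V, e1, e2, e3⟩ := D.ff' hf0 hx0 hx1 hi (w 0) (w 1) (w 2)
    refine ⟨V, fun c => ?_⟩
    fin_cases c
    · exact e1
    · exact e2
    · exact e3)
  have hz0 : (fun c : Fin 3 => (![D.f0, D.x 0, D.x 1] : Fin 3 → N → ℂ) c z) = 0 := by
    funext c
    fin_cases c
    · exact hf0
    · exact hx0
    · exact hx1
  obtain ⟨l, hlb, hl, hlw⟩ := exists_curve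
    (Ψ := fun y (c : Fin 3) => (![D.f0, D.x 0, D.x 1] : Fin 3 → N → ℂ) c y) (z := z) hop
    (w := w) (by rw [hz0]; exact hw1)
  have hev : ∀ᶠ y in l, D.f0 y ≠ 0 := by
    have h4 : ∀ᶠ u in map w (𝓝[≠] 0), u 0 ≠ 0 := by
      rw [Filter.eventually_map]; exact hw2
    exact hlw.eventually h4
  have ht0 : Tendsto (fun y => P1.mk (D.x 0 y) (D.f0 y)) l (𝓝 (t 0)) :=
    (tendsto_map'_iff.2 hw3 : Tendsto (fun u : Fin 3 → ℂ => P1.mk (u 1) (u 0)) _ _).comp hlw
  have ht1 : Tendsto (fun y => P1.mk (D.x 1 y) (D.f0 y)) l (𝓝 (t 1)) :=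
    (tendsto_map'_iff.2 hw4 : Tendsto (fun u : Fin 3 → ℂ => P1.mk (u 2) (u 0)) _ _).comp hlw
  have hv : Tendsto (fun y => P1.mk (D.x 0 y * D.x 1 y) (D.f0 y)) l (𝓝 v) :=
    (tendsto_map'_iff.2 hw5 :
      Tendsto (fun u : Fin 3 → ℂ => P1.mk (u 1 * u 2) (u 0)) _ _).comp hlw
  have ht : ∀ c, Tendsto (fun y => P1.mk (D.x c y) (D.f0 y)) l (𝓝 (t c)) := by
    intro c
    fin_cases c
    · exact ht0
    · exact ht1
  have hx : ∀ c, D.x c z = 0 := fun c => by fin_cases c; exacts [hx0, hx1]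
  refine ⟨l, hlb, hl, hev.mono fun y hy c h => hy h.1, ht, hv, fun c => ?_⟩
  exact mk_PQ_tendsto (C c) (hY c) ((hC c).ne_flat hf0 (hx c) _) hl
    (hev.mono fun y hy h => hy h.1) (ht c)

/-- every point of `X1` is a limit of the graph -/
theorem exists_appr {z : N} {t : Fin 2 → P1} {v : P1} {k : Fin 2 → P1}
    (hs : ((z, t, v, k) : GData.Amb N) ∈ D.X1) : Appr D z t v k := by
  by_cases hf0 : D.f0 z = 0
  · by_cases h0 : D.x 0 z = 0
    · by_cases h1 : D.x 1 z = 0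
      · exact appr_ff hs hf0 h0 h1
      · exact appr_fr hs (a := 0) (b := 1) (by decide) hf0 h0 h1
    · by_cases h1 : D.x 1 z = 0
      · exact appr_fr hs (a := 1) (b := 0) (by decide) hf0 h1 h0
      · exact appr_rr hs fun a h => by
          fin_cases a
          exacts [h0 h.2, h1 h.2]
  · exact appr_rr hs fun a h => hf0 h.1

/-- **the preimage of a dense subset of the base is dense in `X1`** -/
theorem dense_pz_preimage (D : GData F) {S : Set N} (hS : Dense S) : Dense (D.pz ⁻¹' S) := by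
  rintro ⟨⟨z, t, v, k⟩, hs⟩
  rw [mem_closure_iff_nhds]
  intro W hW
  rw [nhds_subtype_eq_comap] at hW
  obtain ⟨W', hW', hWW⟩ := hW
  obtain ⟨W0, hW0, hWo, hsW⟩ := mem_nhds_iff.1 hW'
  -- squaring the last coordinates
  let Sq : GData.Amb N → GData.Amb N :=
    Prod.map _root_.id (Prod.map _root_.id (Prod.map _root_.id (Pi.map fun _ : Fin 2 => P1.sq)))
  have hSq : IsOpenMap Sq := IsOpenMap.id.prodMap (IsOpenMap.id.prodMap (IsOpenMap.id.prodMap
    (IsOpenMap.piMap (fun _ => P1.isOpenMap_sq) (Filter.Eventually.of_forall fun _ => P1.exists_sq))))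
  have hA : IsOpen (Sq '' W0) := hSq _ hWo
  obtain ⟨l, hlb, hl, hreg, ht, hv, hk⟩ := exists_appr hs
  let R : N → GData.Amb N := fun y => (y, (fun a => P1.mk (D.x a y) (D.f0 y)),
    P1.mk (D.x 0 y * D.x 1 y) (D.f0 y), fun a => P1.mk (D.P a y) (D.Q a y))
  have hR : Tendsto R l (𝓝 (Sq (z, t, v, k))) := by
    have h1 : Tendsto (fun y : N => y) l (𝓝 z) := hl
    have h2 : Tendsto (fun y => fun a => P1.mk (D.x a y) (D.f0 y)) l (𝓝 t) :=
      tendsto_pi_nhds.2 ht
    have h3 : Tendsto (fun y => fun a => P1.mk (D.P a y) (D.Q a y)) l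
        (𝓝 (fun a => P1.sq (k a))) := tendsto_pi_nhds.2 fun a => (hk a).2
    exact h1.prodMk_nhds (h2.prodMk_nhds (hv.prodMk_nhds h3))
  have hPQ : ∀ᶠ y in l, ∀ a, ¬ (D.P a y = 0 ∧ D.Q a y = 0) := by
    rw [Filter.eventually_all]
    exact fun a => (hk a).1
  have hev : ∀ᶠ y in l, R y ∈ Sq '' W0 := hR.eventually (hA.mem_nhds ⟨_, hsW, rfl⟩)
  obtain ⟨y, hyr, hyP, hyA⟩ := (hreg.and (hPQ.and hev)).exists
  -- an open set of good points near `y`
  have hcx : ∀ a, ContinuousAt (D.x a) y := fun a => (D.continuous_x a).continuousAt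
  have hcf : ContinuousAt D.f0 y := D.continuous_f0.continuousAt
  have hcR : ContinuousAt R y := by
    refine continuousAt_id.prodMk ((continuousAt_pi.2 fun a => ?_).prodMk
      (ContinuousAt.prodMk ?_ (continuousAt_pi.2 fun a => ?_)))
    · exact P1A_54.continuousAt_mk (hcx a) hcf fun h => hyr a ⟨h.2, h.1⟩
    · refine P1A_54.continuousAt_mk ((hcx 0).mul (hcx 1)) hcf fun h => ?_
      rcases mul_eq_zero.1 h.1 with h3 | h3
      · exact hyr 0 ⟨h.2, h3⟩
      · exact hyr 1 ⟨h.2, h3⟩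
    · exact P1A_54.continuousAt_mk (D.continuous_P a).continuousAt (D.continuous_Q a).continuousAt
        (hyP a)
  have hopen : ∀ a, IsOpen {y | ¬ (D.P a y = 0 ∧ D.Q a y = 0)} := by
    intro a
    have h1 : {y | ¬ (D.P a y = 0 ∧ D.Q a y = 0)} = ({y | D.P a y = 0} ∩ {y | D.Q a y = 0})ᶜ := rfl
    rw [h1]
    exact ((isClosed_eq (D.continuous_P a) continuous_const).inter
      (isClosed_eq (D.continuous_Q a) continuous_const)).isOpen_compl
  have hgood : ∀ᶠ y' in 𝓝 y, (∀ a, ¬ (D.f0 y' = 0 ∧ D.x a y' = 0)) ∧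
      (∀ a, ¬ (D.P a y' = 0 ∧ D.Q a y' = 0)) ∧ R y' ∈ Sq '' W0 := by
    refine Filter.Eventually.and ?_ (Filter.Eventually.and ?_ (hcR.eventually (hA.mem_nhds hyA)))
    · rw [Filter.eventually_all]
      exact fun a => (Loc.reg D a y (hyr a)).U_open.mem_nhds (Loc.reg D a y (hyr a)).mem
    · rw [Filter.eventually_all]
      exact fun a => (hopen a).mem_nhds (hyP a)
  obtain ⟨y', hy'⟩ := mem_closure_iff_nhds.1 (hS y) _ hgood
  obtain ⟨⟨hr', hP', p, hp, hpR⟩, hyS⟩ := hy'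
  have e1 : p.1 = y' := congrArg Prod.fst hpR
  have e2 : p.2.1 = fun a => P1.mk (D.x a y') (D.f0 y') := congrArg (fun q => q.2.1) hpR
  have e3 : p.2.2.1 = P1.mk (D.x 0 y' * D.x 1 y') (D.f0 y') := congrArg (fun q => q.2.2.1) hpR
  have e4 : (fun a => P1.sq (p.2.2.2 a)) = fun a => P1.mk (D.P a y') (D.Q a y') :=
    congrArg (fun q => q.2.2.2) hpR
  have hmem : p ∈ D.X1 := by
    have h1 := mem_X1_reg D hr' hP' p.2.1 p.2.2.1 p.2.2.2
    have h2 : p = (y', p.2.1, p.2.2.1, p.2.2.2) := Prod.ext e1 rfl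
    rw [h2, h1]
    exact ⟨fun a => congrFun e2 a, e3, fun a => congrFun e4 a⟩
  refine ⟨⟨p, hmem⟩, hWW (hW0 hp), ?_⟩
  show p.1 ∈ S
  rw [e1]
  exact hyS

/-- a function which is nowhere locally zero on the base is nowhere locally zero on `X1` -/
theorem frequently_ne (D : GData F) {h : N → ℂ} (hN : ∀ z, ∃ᶠ y in 𝓝 z, h y ≠ 0) (s : D.X1) :
    ∃ᶠ y in 𝓝 s, h (D.pz y) ≠ 0 := by
  have hS : Dense {y | h y ≠ 0} := fun z => mem_closure_iff_frequently.2 (hN z)
  exact mem_closure_iff_frequently.1 (dense_pz_preimage D hS s)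

end

end Crest.Agent.R272.Gr_559
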