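import Crest.Agent.R272.Lc11_220
import Crest.Agent.R272.Gr7_559

/-!
# R272, LC-MINUS (helper220), part 12: `NzX` for the instance, and the final form of `pos15`

* `nzX_of`  : `NzX A` from the non vanishing on the base (559's `frequently_ne`);
* `nzX_ins M : NzX M.A`;
* `Pos15_220.JM hX`, `RM hX`, `pos15'` : `pos15` without the hypothesis `hz`.
-/

set_option autoImplicit false
set_option linter.unusedSectionVars false
set_option linter.unusedVariables false

open Set Filter Topology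

namespace Crest.Agent.R272.Lc_220

open Crest.Agent.R275.Geo Crest.Agent.R273.Fam_835 Crest.Agent.R272.Quot_783
  Crest.Agent.R272.Gr_559 Crest.Agent.R272.Act_302

variable {N : Type} [TopologicalSpace N] {F : Fam 3 N} {D : GData F}

theorem nz_iff {X : Type} [TopologicalSpace X] {x : X} {f : X → ℂ} :
    NZ x f ↔ ∃ᶠ y in 𝓝 x, f y ≠ 0 := by
  unfold NZ
  rw [Filter.not_eventually]

/-- non vanishing lifts to `X1` -/
theorem nz_pz (D : GData F) {h : N → ℂ} (hN : ∀ z, NZ z h) (s : D.X1) :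
    NZ s fun y => h (D.pz y) :=
  nz_iff.2 (frequently_ne D (fun z => nz_iff.1 (hN z)) s)

variable {G : Type} [Group G] [MulAction G N] (A : GAct D G)

theorem nzX_of (h1 : ∀ z, NZ z D.f0) (h4 : ∀ i z, NZ z (D.Q i)) : NzX A := by
  intro k y
  rcases k with i | _ | i
  · exact Or.inr (nz_pz D h1 y)
  · exact Or.inr (nz_pz D h1 y)
  · exact Or.inr (nz_pz D (h4 i) y)

/-- **the instance** -/
theorem nzX_ins (M : M15_939.Ar) : NzX M.A :=
  nzX_of M.A (nz_ins M).1 (nz_ins M).2.2.2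

end Crest.Agent.R272.Lc_220

namespace Crest.Agent.R272.Pos15_220

open Crest.Agent.R275.Geo Crest.Agent.R275.Core144 Crest.Agent.R275.GC293
open Crest.Agent.R273 Crest.Agent.R273.Defs_333 Crest.Agent.R273.Map_835
open Crest.Agent.R273.Fam_835
open Crest.Agent.R272.Quot_783 Crest.Agent.R272.Gr_559 Crest.Agent.R272.Refl_246
open Crest.Agent.R272.MQ_783 Crest.Agent.R272.Act_302 Crest.Agent.R272.CB_232
open Crest.Agent.R272.Sur_342 Crest.Agent.R272.PEnd_732 Crest.Agent.R272.Lc_220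
open Crest.Agent.R272.M15_939

noncomputable section

variable {M : Ar} (hX : RA M.CX M.G)

/-- equations of `L_1²` on `X⁻` (instance) -/
abbrev JM : Eqs hX.fam univ := J hX (nzX_ins M)

/-- **positivity of the surgered space**, final form -/
theorem pos15' {e : OpenPartialHomeomorph (Xm M) Flop_66.Um} {ε : ℝ} {ε0 : 0 < ε}
    {sub : ∀ a : Flop_66.Um, a.N ≤ ε → a ∈ e.target}
    (h : (Flop_66.sur e ε ε0 sub).Hol hX.fam Flop_66.Um.fam Flop_66.Up.fam)
    (h0 : ∀ x ∈ (Flop_66.sur e ε ε0 sub).K, piM M.A x = q0 M) (k : ℕ)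
    (germ : ∀ m₀ : ℕ, ∃ mm : ℕ, m₀ ≤ mm ∧ Nonempty (PhiS (Flop_66.sur e ε ε0 sub) hX.fam
      Flop_66.Up.fam (piM M.A) (q0 M) (JM hX) (R hX) mm k)) :
    ∃ A : Atl 3 (Flop_66.sur e ε ε0 sub).XP, Finite A.ι ∧ GoodA A ∧ Nonempty (Part A) ∧
      HolC (fam A) (Sur.fam h) id ∧ HolC (Sur.fam h) (fam A) id ∧ Nonempty (ProjD A) :=
  pos15 hX (nzX_ins M) h h0 k germ

end

end Crest.Agent.R272.Pos15_220
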