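import Crest.Agent.R272.PosL2_898
import Crest.Agent.R272.Lc1_220
import Crest.Agent.R272.FinCB3_876

/-!
# R272 (S0415), POS at `p0`, part (5L) (helper898), file 3: the m-lines on any complex manifold

`(X, C : Fam n X)`, `y : X`, functions near `y`: `m, x1, x2` holomorphic, `x1 y = x2 y = 0`,
`x0 = m p`, `p = x1 x2`, `E = x1 + x2`, `η1² = 1 - (m x2)⁵`, `η2² = 1 - (m x1)⁵` continuous,
`S = 2 p³ - x0⁵ E - 2 (x1³ η1) (x2³ η2)`.
* `line_eq`  (`η1 y = η2 y`)   : `GenAt Φ (D⁴ p^b) y` and `ValC Φ y (R1 b (m y))`;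
* `line_opp` (`η1 y = - η2 y`) : `GenAt Φ (p^b) y` and `ValC Φ y (R2 b (m y))`.
-/

set_option autoImplicit false

open Set Filter Topology

namespace Crest.Agent.R272.PosL_898

open Crest.Agent.R275.Geo Crest.Agent.R273.Fam_835 Crest.Agent.R272.Quot_783
open Crest.Agent.R272.Lc_220 Crest.Agent.R272.FinCB3_876 Crest.Agent.R272.PW_92
open Crest.Agent.R272.CB_232

noncomputable section

variable {n : ℕ} {X : Type} [TopologicalSpace X] {C : Fam n X} {y : X} {κ : Type}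

/-- `GenAt` from germs -/
theorem genAt_of [Finite κ] {f : κ → X → ℂ} {e : X → ℂ} {u : κ → X → ℂ}
    (hu : ∀ j, HolN C y (u j)) (he : ∀ᶠ w in 𝓝 y, ∀ j, f j w = u j w * e w)
    (hj : ∃ j, u j y ≠ 0) : GenAt C f e y := by
  have h1 : ∀ᶠ w in 𝓝 y, (∀ j, HolN C w (u j)) ∧ ∀ j, f j w = u j w * e w :=
    (eventually_all.2 fun j => (hu j).eventually).and he
  obtain ⟨W, hW, hWo, hy⟩ := mem_nhds_iff.1 h1
  exact ⟨W, hWo, hy, u, fun j => (holF_iff hWo).2 fun w hw => (hW hw).1 j,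
    fun w hw j => (hW hw).2 j, hj⟩

/-- `ValC` from germs -/
theorem valC_of [Finite κ] {f : κ → X → ℂ} {e : X → ℂ} {u : κ → X → ℂ}
    (hu : ∀ j, HolN C y (u j)) (he : ∀ᶠ w in 𝓝 y, ∀ j, f j w = u j w * e w)
    (heN : HolN C y e) (hnz : NZ y e) (hj : ∃ j, u j y ≠ 0) :
    ValC C f y fun j => u j y := by
  have h1 : ∀ᶠ w in 𝓝 y, ((∀ j, HolN C w (u j)) ∧ ∀ j, f j w = u j w * e w) ∧ NZ w e :=
    ((eventually_all.2 fun j => (hu j).eventually).and he).and (hnz.eventually heN)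
  obtain ⟨W, hW, hWo, hy⟩ := mem_nhds_iff.1 h1
  refine ⟨?_, W, hWo, hy, e, fun w hw => ?_, u,
    fun j => (holF_iff hWo).2 fun w hw => (hW hw).1.1 j,
    fun w hw j => (hW hw).1.2 j, fun j => rfl⟩
  · obtain ⟨j, hj⟩ := hj
    exact fun h => hj (congrFun h j)
  · have h2 : ∃ᶠ v in 𝓝 w, e v ≠ 0 := fun h3 => (hW hw).2 (h3.mono fun v hv => not_not.1 hv)
    exact mem_closure_iff_frequently.2 h2

/-- the sign of a square root is locally constant -/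
theorem sign_ev {η s : X → ℂ} (hη : ContinuousAt η y) (hs : ContinuousAt s y) (hs0 : ‖s y‖ < 1)
    (he : ∀ᶠ w in 𝓝 y, η w ^ 2 = 1 - s w ^ 5) :
    ∃ e : ℂ, e ^ 2 = 1 ∧ η y = e * rt (s y) ∧ ∀ᶠ w in 𝓝 y, η w = e * rt (s w) := by
  have hy := he.self_of_nhds
  obtain ⟨e, he1, he2⟩ : ∃ e : ℂ, e ^ 2 = 1 ∧ η y = e * rt (s y) := by
    rcases eq_rt_or hs0 hy with h | h
    · exact ⟨1, by norm_num, by rw [h, one_mul]⟩
    · exact ⟨-1, by norm_num, by rw [h]; ring⟩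
  refine ⟨e, he1, he2, ?_⟩
  have hr : ContinuousAt (fun w => rt (s w)) y :=
    ContinuousAt.comp (g := rt) (analyticAt_rt hs0).continuousAt hs
  have hrn := rt_ne hs0
  have hg : ContinuousAt (fun w => e * η w / rt (s w)) y := (continuousAt_const.mul hη).div hr hrn
  have hg1 : e * η y / rt (s y) = 1 := by
    rw [he2]
    have : e * (e * rt (s y)) = e ^ 2 * rt (s y) := by ring
    rw [this, he1, one_mul, div_self hrn]
  have h1 : ∀ᶠ w in 𝓝 y, e * η w / rt (s w) ≠ -1 := by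
    refine hg.eventually_ne ?_
    rw [hg1]; norm_num
  have h2 : ∀ᶠ w in 𝓝 y, ‖s w‖ < 1 := hs.norm.eventually_lt_const hs0
  filter_upwards [h1, h2, he] with w h3 h4 h5
  have h6 := rt_ne h4
  have h7 : (e * η w / rt (s w)) * (e * η w / rt (s w)) = 1 := by
    rw [← pow_two, div_pow, mul_pow, he1, one_mul, h5, rt_sq h4, div_self]
    rw [← rt_sq h4]
    exact pow_ne_zero 2 h6
  rcases mul_self_eq_one_iff.1 h7 with h8 | h8
  · have h9 : e * η w = rt (s w) := by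
      rw [div_eq_one_iff_eq h6] at h8; exact h8
    calc η w = e ^ 2 * η w := by rw [he1, one_mul]
      _ = e * (e * η w) := by ring
      _ = e * rt (s w) := by rw [h9]
  · exact absurd h8 h3

section line

variable {b : ℕ} {x0 E p S m x1 x2 η1 η2 : X → ℂ}

/-- the local data near a point of an m-line -/
structure LineAt (C : Fam n X) (y : X) (x0 E p S m x1 x2 η1 η2 : X → ℂ) : Prop where
  hm : HolN C y m
  h1 : HolN C y x1
  h2 : HolN C y x2
  z1 : x1 y = 0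
  z2 : x2 y = 0
  n1 : NZ y x1
  n2 : NZ y x2
  nd : NZ y fun w => x1 w - x2 w
  e0 : ∀ᶠ w in 𝓝 y, x0 w = m w * (x1 w * x2 w)
  eE : ∀ᶠ w in 𝓝 y, E w = x1 w + x2 w
  ep : ∀ᶠ w in 𝓝 y, p w = x1 w * x2 w
  eS : ∀ᶠ w in 𝓝 y, S w = 2 * p w ^ 3 - x0 w ^ 5 * E w
    - 2 * ((x1 w ^ 3 * η1 w) * (x2 w ^ 3 * η2 w))
  c1 : ContinuousAt η1 y
  c2 : ContinuousAt η2 y
  q1 : ∀ᶠ w in 𝓝 y, η1 w ^ 2 = 1 - (m w * x2 w) ^ 5
  q2 : ∀ᶠ w in 𝓝 y, η2 w ^ 2 = 1 - (m w * x1 w) ^ 5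

theorem holN_hop (hm : HolN C y m) (h1 : HolN C y x1) (h2 : HolN C y x2)
    (hs : ‖m y * x2 y‖ < 1) (ht : ‖m y * x1 y‖ < 1) :
    HolN C y fun w => hop (m w) (x1 w) (x2 w) := fun i hi =>
  analyticAt_hop (hm i hi) (h1 i hi) (h2 i hi) (by rw [(C.e i).left_inv hi]; exact hs)
    (by rw [(C.e i).left_inv hi]; exact ht)

theorem holN_heq (hm : HolN C y m) (h1 : HolN C y x1) (h2 : HolN C y x2)
    (hs : ‖m y * x2 y‖ < 1) (ht : ‖m y * x1 y‖ < 1) :
    HolN C y fun w => heq (m w) (x1 w) (x2 w) := fun i hi =>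
  analyticAt_heq (hm i hi) (h1 i hi) (h2 i hi) (by rw [(C.e i).left_inv hi]; exact hs)
    (by rw [(C.e i).left_inv hi]; exact ht)

theorem holN_zm (hm : HolN C y m) (h1 : HolN C y x1) (h2 : HolN C y x2) (j : Fin 3) :
    HolN C y fun w => zm (m w) (x1 w + x2 w) (x1 w * x2 w) j := by
  fin_cases j
  · exact (hm.pow 2).mul (h1.mul h2)
  · exact hm.mul (h1.add h2)
  · exact holN_const 1

theorem holN_YM1 {h : X → ℂ} (hm : HolN C y m) (h1 : HolN C y x1) (h2 : HolN C y x2)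
    (hh : HolN C y h) (i : IPhi) :
    HolN C y fun w => YM1 b (m w) (x1 w + x2 w) (x1 w * x2 w) (h w) i := by
  have hz := holN_zm hm h1 h2
  cases i with
  | l j => exact (hm.pow _).mul (hz j)
  | W => exact (hm.pow _).mul hh
  | W2 => exact (hm.pow _).mul (hh.pow 2)
  | W3 j => exact ((hm.pow _).mul (hh.pow 3)).mul (hz j)
  | W4 j k => exact (((hm.pow _).mul (hh.pow 4)).mul (hz j)).mul (hz k)
  | v => exact holN_const 1
  | last => exact hh.pow 4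

theorem holN_D (h1 : HolN C y x1) (h2 : HolN C y x2) :
    HolN C y fun w => (x1 w + x2 w) ^ 2 - 4 * (x1 w * x2 w) :=
  ((h1.add h2).pow 2).sub ((holN_const 4).mul (h1.mul h2))

theorem holN_YM2 {h : X → ℂ} (hm : HolN C y m) (h1 : HolN C y x1) (h2 : HolN C y x2)
    (hh : HolN C y h) (i : IPhi) :
    HolN C y fun w => YM2 b (m w) (x1 w + x2 w) (x1 w * x2 w) (h w) i := by
  have hz := holN_zm hm h1 h2
  have hD := holN_D h1 h2
  cases i with
  | l j => exact ((hD.pow 4).mul (hm.pow _)).mul (hz j)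
  | W => exact ((hD.pow 3).mul (hm.pow _)).mul hh
  | W2 => exact ((hD.pow 2).mul (hm.pow _)).mul (hh.pow 2)
  | W3 j => exact ((hD.mul (hm.pow _)).mul (hh.pow 3)).mul (hz j)
  | W4 j k => exact (((hm.pow _).mul (hh.pow 4)).mul (hz j)).mul (hz k)
  | v => exact hD.pow 4
  | last => exact hh.pow 4

variable (L : LineAt C y x0 E p S m x1 x2 η1 η2)

include L

theorem LineAt.s1 : ‖m y * x2 y‖ < 1 := by rw [L.z2, mul_zero, norm_zero]; exact one_pos

theorem LineAt.s2 : ‖m y * x1 y‖ < 1 := by rw [L.z1, mul_zero, norm_zero]; exact one_pos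

theorem LineAt.small : ∀ᶠ w in 𝓝 y, ‖m w * x2 w‖ < 1 ∧ ‖m w * x1 w‖ < 1 :=
  ((L.hm.mul L.h2).continuousAt.norm.eventually_lt_const L.s1).and
    ((L.hm.mul L.h1).continuousAt.norm.eventually_lt_const L.s2)

theorem LineAt.signs : ∃ e1 e2 : ℂ, e1 ^ 2 = 1 ∧ e2 ^ 2 = 1 ∧ η1 y = e1 ∧ η2 y = e2 ∧
    ∀ᶠ w in 𝓝 y, η1 w = e1 * rt (m w * x2 w) ∧ η2 w = e2 * rt (m w * x1 w) := by
  obtain ⟨e1, a1, a2, a3⟩ := sign_ev (s := fun w => m w * x2 w) L.c1
    (L.hm.mul L.h2).continuousAt L.s1 L.q1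
  obtain ⟨e2, b1, b2, b3⟩ := sign_ev (s := fun w => m w * x1 w) L.c2
    (L.hm.mul L.h1).continuousAt L.s2 L.q2
  refine ⟨e1, e2, a1, b1, ?_, ?_, a3.and b3⟩
  · rw [a2, L.z2, mul_zero, rt_zero, mul_one]
  · rw [b2, L.z1, mul_zero, rt_zero, mul_one]

theorem LineAt.nzp : NZ y fun w => x1 w * x2 w := NZ.mul L.h1 L.h2 L.n1 L.n2

theorem LineAt.nzD : NZ y fun w => (x1 w + x2 w) ^ 2 - 4 * (x1 w * x2 w) := by
  have h1 : NZ y fun w => (x1 w - x2 w) ^ 2 := L.nd.pow (L.h1.sub L.h2) 2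
  exact h1.congr (Eventually.of_forall fun w => by ring)

/-- **(5L), equal sheets** -/
theorem LineAt.line_eq (hb : 15 ≤ b) (hη : η1 y = η2 y) :
    GenAt C (fun i w => Phi b (x0 w) (E w) (p w) (S w) i) (fun w => gM1 b (E w) (p w)) y ∧
    ValC C (fun i w => Phi b (x0 w) (E w) (p w) (S w) i) y (R1 b (m y)) := by
  obtain ⟨e1, e2, he1, he2, hy1, hy2, hev⟩ := L.signs
  have hee : e1 = e2 := by rw [← hy1, ← hy2, hη]
  subst hee
  set u : IPhi → X → ℂ := fun i w => YM1 b (m w) (x1 w + x2 w) (x1 w * x2 w)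
    (heq (m w) (x1 w) (x2 w)) i with hu
  have hh := holN_heq L.hm L.h1 L.h2 L.s1 L.s2
  have huh : ∀ i, HolN C y (u i) := fun i => holN_YM1 L.hm L.h1 L.h2 hh i
  have hfac : ∀ᶠ w in 𝓝 y, ∀ i, Phi b (x0 w) (E w) (p w) (S w) i = u i w * gM1 b (E w) (p w) := by
    filter_upwards [L.e0, L.eE, L.ep, L.eS, L.small, hev] with w a0 aE ap aS asm aη i
    have h2 : S w = p w ^ 3 * (E w ^ 2 - 4 * p w) * heq (m w) (x1 w) (x2 w) := by
      rw [aS, aη.1, aη.2, a0, ap, aE]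
      exact N_eq he1 asm.1 asm.2
    have h3 := phi_M1 hb (x0 := x0 w) (E := E w) (p := p w) (S := S w) (m := m w)
      (h := heq (m w) (x1 w) (x2 w)) (by rw [a0, ap]) h2 i
    rw [h3, aE, ap]
  have hval : ∀ j, u j y = R1 b (m y) j := by
    intro j
    simp only [hu, R1, L.z1, L.z2, heq_zero]
    simp
  have hj : ∃ j, u j y ≠ 0 := ⟨.v, by simp [hu, YM1]⟩
  refine ⟨genAt_of huh hfac hj, ?_⟩
  have hfac' : ∀ᶠ w in 𝓝 y, ∀ i, Phi b (x0 w) (E w) (p w) (S w) i = u i w *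
      gM1 b (x1 w + x2 w) (x1 w * x2 w) := by
    filter_upwards [hfac, L.eE, L.ep] with w a aE ap i
    rw [a i, aE, ap]
  have hg : HolN C y fun w => gM1 b (x1 w + x2 w) (x1 w * x2 w) :=
    ((holN_D L.h1 L.h2).pow 4).mul ((L.h1.mul L.h2).pow b)
  have hn : NZ y fun w => gM1 b (x1 w + x2 w) (x1 w * x2 w) :=
    NZ.mul ((holN_D L.h1 L.h2).pow 4) ((L.h1.mul L.h2).pow b)
      (L.nzD.pow (holN_D L.h1 L.h2) 4) (L.nzp.pow (L.h1.mul L.h2) b)
  have h4 := valC_of huh hfac' hg hn hj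
  have h5 : (fun j => u j y) = R1 b (m y) := funext hval
  rw [h5] at h4
  exact h4

/-- **(5L), opposite sheets** -/
theorem LineAt.line_opp (hb : 15 ≤ b) (hη : η1 y = - η2 y) :
    GenAt C (fun i w => Phi b (x0 w) (E w) (p w) (S w) i) (fun w => gM2 b (p w)) y ∧
    ValC C (fun i w => Phi b (x0 w) (E w) (p w) (S w) i) y (R2 b (m y)) := by
  obtain ⟨e1, e2, he1, he2, hy1, hy2, hev⟩ := L.signs
  have hee : e2 = -e1 := by rw [← hy1, ← hy2, hη, neg_neg]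
  subst hee
  set u : IPhi → X → ℂ := fun i w => YM2 b (m w) (x1 w + x2 w) (x1 w * x2 w)
    (hop (m w) (x1 w) (x2 w)) i with hu
  have hh := holN_hop L.hm L.h1 L.h2 L.s1 L.s2
  have huh : ∀ i, HolN C y (u i) := fun i => holN_YM2 L.hm L.h1 L.h2 hh i
  have hfac : ∀ᶠ w in 𝓝 y, ∀ i, Phi b (x0 w) (E w) (p w) (S w) i = u i w * gM2 b (p w) := by
    filter_upwards [L.e0, L.eE, L.ep, L.eS, hev] with w a0 aE ap aS aη i
    have h2 : S w = p w ^ 3 * hop (m w) (x1 w) (x2 w) := by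
      rw [aS, aη.1, aη.2, a0, ap, aE]
      exact N_opp (m w) (x1 w) (x2 w) e1 he1
    have h3 := phi_M2 hb (x0 := x0 w) (E := E w) (p := p w) (S := S w) (m := m w)
      (h := hop (m w) (x1 w) (x2 w)) (by rw [a0, ap]) h2 i
    rw [h3, aE, ap]
  have hval : ∀ j, u j y = R2 b (m y) j := by
    intro j
    simp only [hu, R2, L.z1, L.z2, hop_zero]
    simp
  have hj : ∃ j, u j y ≠ 0 := ⟨.last, by
    rw [hval]
    simp [R2, YM2]⟩
  refine ⟨genAt_of huh hfac hj, ?_⟩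
  have hfac' : ∀ᶠ w in 𝓝 y, ∀ i, Phi b (x0 w) (E w) (p w) (S w) i = u i w *
      gM2 b (x1 w * x2 w) := by
    filter_upwards [hfac, L.ep] with w a ap i
    rw [a i, ap]
  have hg : HolN C y fun w => gM2 b (x1 w * x2 w) := (L.h1.mul L.h2).pow b
  have hn : NZ y fun w => gM2 b (x1 w * x2 w) := L.nzp.pow (L.h1.mul L.h2) b
  have h4 := valC_of huh hfac' hg hn hj
  have h5 : (fun j => u j y) = R2 b (m y) := funext hval
  rw [h5] at h4
  exact h4

end line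

end

end Crest.Agent.R272.PosL_898
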