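import Crest.Agent.R272.PEnd6_732
import Crest.Agent.R272.CB9_232
import Crest.Agent.R272.Flop10_66

/-!
# R272, task POS-END (helper732), part 7: the composition on the surgery `XP`

`PhiS`    : the functions near the bad fibre, given on `X = X⁻` and on `B' = Up`;
`pos_sur` : `pos_gen2` on 342's `S.XP`;
`pos_flop`: the same for 66's `sur e ε ε0 sub`.
-/

set_option autoImplicit false
set_option linter.unusedSectionVars false
set_option linter.unusedVariables false

open Set Filter Topology Complex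
open scoped ContDiff Matrix ComplexConjugate Manifold

namespace Crest.Agent.R272.PEnd_732

open Crest.Agent.R275.Geo Crest.Agent.R275.Core144 Crest.Agent.R275.GC293
open Crest.Agent.R273 Crest.Agent.R273.Defs_333 Crest.Agent.R273.Map_835
open Crest.Agent.R273.Fam_835
open Crest.Agent.R272.Quot_783 Crest.Agent.R272.PosGlue_232 Crest.Agent.R272.HFam_342
open Crest.Agent.R272.CB_232 Crest.Agent.R272.Sur_342
open Crest.Agent.R272.FinCB3_876 (ValC)

noncomputable section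

variable {n m : ℕ} {X A B' N : Type} [TopologicalSpace X] [TopologicalSpace A]
  [TopologicalSpace B'] [TopologicalSpace N] {C : Fam n X} {DA : Fam n A} {DB : Fam n B'}
  {p : X → N} {κ : Type}

/-- **functions near the bad fibre of the surgery**: `f` on `X`, `g` on `B'` -/
structure PhiS (S : Sur X A B') (C : Fam n X) (DB : Fam n B') (p : X → N) (q₀ : N)
    (J R : Eqs C univ) (mm k : ℕ) where
  κ : Type
  fin : Fintype κ
  f : κ → X → ℂ
  g : κ → B' → ℂ
  V : Set X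
  hV : IsOpen V
  sub : p ⁻¹' {q₀} ⊆ V
  δ : ℝ
  δ0 : 0 < δ
  cp : ∀ b, S.NB b ≠ 0 → S.NB b < δ → S.NB b < S.ε → ∀ j, g j b = f j (S.bx b)
  gen : ∀ x, p x = q₀ → x ∉ S.K → ∃ c, ValC C f x c
  gen' : ∀ b, S.NB b = 0 → ∃ c, ValC DB g b c
  cmp : ∀ x ∈ V, p x ≠ q₀ → ∃ a b, x ∈ J.V a ∧ x ∈ R.V b ∧
    FinCB3_876.GenAt C f (fun z => J.f a z ^ mm * R.f b z ^ k) x
  ff : ∀ q, p q = q₀ → q ∉ S.K → {x | (p x = q₀ ∧ x ∉ S.K) ∧ ∃ c c', ValC C f q c ∧
    ValC C f x c' ∧ ∀ i j, c i * c' j = c j * c' i}.Finite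
  ff' : ∀ q, S.NB q = 0 → {x | S.NB x = 0 ∧ ∃ c c', ValC DB g q c ∧
    ValC DB g x c' ∧ ∀ i j, c i * c' j = c j * c' i}.Finite

namespace PhiS

variable [T2Space X] {S : Sur X A B'} {q₀ : N} {J R : Eqs C univ} {mm k : ℕ}

/-- the functions on `XP` -/
def Φ (D : PhiS S C DB p q₀ J R mm k) (j : D.κ) (z : S.XP) : ℂ :=
  open Classical in if S.nf z = 0 then D.g j (S.ep z) else D.f j (S.iota.symm z)

variable (D : PhiS S C DB p q₀ J R mm k)

theorem Φ_off {j : D.κ} {z : S.XP} (hz : S.nf z ≠ 0) : D.Φ j z = D.f j (S.iota.symm z) := by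
  classical
  exact if_neg hz

theorem Φ_on {j : D.κ} {z : S.XP} (hz : S.nf z = 0) : D.Φ j z = D.g j (S.ep z) := by
  classical
  exact if_pos hz

theorem Φ_iota {j : D.κ} {x : X} (hx : x ∉ S.K) : D.Φ j (S.iota x) = D.f j x := by
  rw [D.Φ_off (by rw [S.nf_iota hx]; exact S.nX_ne_zero.2 hx),
    S.iota.left_inv (S.mem_iota_source.2 hx)]

theorem Φ_near {j : D.κ} {z : S.XP} (hz : S.nf z < S.ε) (hz' : S.nf z < D.δ) :
    D.Φ j z = D.g j (S.ep z) := by
  by_cases h : S.nf z = 0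
  · exact D.Φ_on h
  · rw [D.Φ_off h]
    have h1 : S.NB (S.ep z) ≠ 0 := by rw [S.NB_ep hz]; exact h
    have h2 : S.NB (S.ep z) < D.δ := by rw [S.NB_ep hz]; exact hz'
    have h3 : S.NB (S.ep z) < S.ε := by rw [S.NB_ep hz]; exact hz
    rw [D.cp _ h1 h2 h3 j]
    congr 1
    rw [← S.iota_symm_ep_symm h1 h3, S.ep.left_inv (S.mem_ep_source.2 hz)]

end PhiS

section

variable [T2Space X] {S : Sur X A B'} {q₀ : N} {J R : Eqs C univ} {mm k : ℕ}
  (h : S.Hol C DA DB)

include h in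
theorem lC_iota' : ∀ x ∈ S.iota.source, LC C (Sur.fam h) S.iota x := fun x hx =>
  Sur.lC_iota h (S.mem_iota_source.1 hx)

include h in
theorem lC_ep' : ∀ z ∈ S.ep.source, LC (Sur.fam h) DB S.ep z := fun z hz =>
  Sur.lC_ep h (S.mem_ep_source.1 hz)

variable (D : PhiS S C DB p q₀ J R mm k)

/-- values off `K'` -/
theorem valC_off_iff {x : X} (hx : x ∉ S.K) {c : D.κ → ℂ} :
    ValC (Sur.fam h) D.Φ (S.iota x) c ↔ ValC C D.f x c := by
  have := D.fin
  refine (CB9_232.valC_push_congr S.iota (lC_iota' h) (S.mem_iota_source.2 hx)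
    (F := D.Φ) (f := D.f) fun j => ?_).symm
  filter_upwards [S.isClosed_K.isOpen_compl.mem_nhds hx] with y hy
  exact (D.Φ_iota hy).symm

/-- values on `K'` -/
theorem valC_on_iff {z : S.XP} (hz : S.nf z = 0) {c : D.κ → ℂ} :
    ValC (Sur.fam h) D.Φ z c ↔ ValC DB D.g (S.ep z) c := by
  have := D.fin
  have h1 : S.nf z < S.ε := by rw [hz]; exact S.ε0
  have h2 : S.nf z < D.δ := by rw [hz]; exact D.δ0
  refine CB9_232.valC_push_congr S.ep (lC_ep' h) (S.mem_ep_source.2 h1) (F := D.g)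
    (f := D.Φ) fun j => ?_
  filter_upwards [(isOpen_lt S.continuous_nf continuous_const).mem_nhds h1,
    (isOpen_lt S.continuous_nf continuous_const).mem_nhds h2] with y hy hy'
  exact D.Φ_near hy hy'

include D in
/-- **the data of `pos_gen2` on `XP`** -/
theorem PhiS.toPhiD (h0 : ∀ x ∈ S.K, p x = q₀) (hc : Continuous p) :
    Nonempty (PhiD C (Sur.fam h) p (S.push p q₀) q₀ S.iota J R mm k) := by
  have := D.fin
  have hpc : Continuous (S.push p q₀) := S.continuous_push hc h0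
  obtain ⟨δ', hδ', -, hV'⟩ := S.exists_delta_X D.hV fun x hx => D.sub (h0 x hx)
  refine ⟨⟨D.κ, D.fin, D.Φ, {z | S.nf z < δ'} ∪ S.iota '' (D.V \ S.K), ?_, ?_, ?_, ?_, ?_⟩⟩
  · refine (isOpen_lt S.continuous_nf continuous_const).union ?_
    refine S.iota.isOpen_image_of_subset_source (D.hV.sdiff S.isClosed_K) fun x hx => ?_
    exact S.mem_iota_source.2 hx.2
  · intro z hz
    by_cases h1 : S.nf z = 0
    · exact Or.inl (by
        show S.nf z < δ'
        rw [h1]
        exact hδ')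
    · refine Or.inr ⟨S.iota.symm z, ⟨D.sub ?_, S.iota_symm_not_mem h1⟩,
        S.iota.right_inv (S.mem_iota_target.2 h1)⟩
      show p (S.iota.symm z) = q₀
      rw [← S.push_of p q₀ h1]
      exact hz
  · intro z hz
    by_cases h1 : S.nf z = 0
    · have h3 : S.NB (S.ep z) = 0 := by
        rw [S.NB_ep (by rw [h1]; exact S.ε0)]
        exact h1
      obtain ⟨c, hc⟩ := D.gen' _ h3
      exact ⟨c, (valC_on_iff h D h1).2 hc⟩
    · have h2 := S.iota_symm_not_mem h1
      have h3 : p (S.iota.symm z) = q₀ := by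
        rw [← S.push_of p q₀ h1]
        exact hz
      obtain ⟨c, hc⟩ := D.gen _ h3 h2
      refine ⟨c, ?_⟩
      have h4 := (valC_off_iff h D h2).2 hc
      rwa [S.iota.right_inv (S.mem_iota_target.2 h1)] at h4
  · intro x hx hxW hpx
    have hxK := S.mem_iota_source.1 hx
    have hxV : x ∈ D.V := by
      rcases hxW with h1 | ⟨y, hy, hyx⟩
      · refine hV' x ?_
        rw [← S.nf_iota hxK]
        exact h1
      · rw [← S.iota.injOn (S.mem_iota_source.2 hy.2) hx hyx]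
        exact hy.1
    obtain ⟨a, b, ha, hb, hg⟩ := D.cmp x hxV hpx
    refine ⟨a, b, ha, hb, hg.congr (fun j => ?_) (Eventually.of_forall fun _ => rfl)⟩
    filter_upwards [S.isClosed_K.isOpen_compl.mem_nhds hxK] with y hy
    exact D.Φ_iota hy
  · refine FinCB3_876.ff_of_pieces (ι := Bool) (fun b => if b then {z | S.nf z = 0} else
      {z | S.nf z ≠ 0}) (fun z hz => ?_) (fun b => ?_)
    · by_cases h1 : S.nf z = 0
      · exact mem_iUnion.2 ⟨true, h1⟩
      · exact mem_iUnion.2 ⟨false, h1⟩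
    · cases b
      · rintro q ⟨hq, hq0⟩
        have hq0 : S.nf q ≠ 0 := hq0
        have h1 := S.iota_symm_not_mem hq0
        have h2 : p (S.iota.symm q) = q₀ := by
          rw [← S.push_of p q₀ hq0]
          exact hq
        refine ((D.ff _ h2 h1).image S.iota).subset ?_
        rintro x ⟨⟨hx, hx0⟩, c, c', hc, hc', hcc⟩
        have hx0 : S.nf x ≠ 0 := hx0
        have h3 := S.iota_symm_not_mem hx0
        refine ⟨S.iota.symm x, ⟨⟨?_, h3⟩, c, c', ?_, ?_, hcc⟩,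
          S.iota.right_inv (S.mem_iota_target.2 hx0)⟩
        · rw [← S.push_of p q₀ hx0]
          exact hx
        · refine (valC_off_iff h D h1).1 ?_
          rw [S.iota.right_inv (S.mem_iota_target.2 hq0)]
          exact hc
        · refine (valC_off_iff h D h3).1 ?_
          rw [S.iota.right_inv (S.mem_iota_target.2 hx0)]
          exact hc'
      · rintro q ⟨hq, hq0⟩
        have hq0 : S.nf q = 0 := hq0
        have h1 : S.NB (S.ep q) = 0 := by
          rw [S.NB_ep (by rw [hq0]; exact S.ε0)]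
          exact hq0
        refine ((D.ff' _ h1).image S.ep.symm).subset ?_
        rintro x ⟨⟨hx, hx0⟩, c, c', hc, hc', hcc⟩
        have hx0 : S.nf x = 0 := hx0
        have h3 : S.nf x < S.ε := by rw [hx0]; exact S.ε0
        refine ⟨S.ep x, ⟨?_, c, c', ?_, ?_, hcc⟩, S.ep.left_inv (S.mem_ep_source.2 h3)⟩
        · rw [S.NB_ep h3]
          exact hx0
        · exact (valC_on_iff h D hq0).1 hc
        · exact (valC_on_iff h D hx0).1 hc'

end

/-- **the composition on the surgery** (any `Sur`) -/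
theorem pos_sur [CompactSpace X] [T2Space X] [T2Space B'] [CompactSpace N] [T2Space N]
    (B : Atl m N) {H : LB B} {hH : HM H} (hpos : hH.Pos) (S : Sur X A B') (h : S.Hol C DA DB)
    (hp : Continuous p) (q₀ : N) (h0 : ∀ x ∈ S.K, p x = q₀)
    (hp' : HolC (Sur.fam h) (fam B) (S.push p q₀)) (J R : Eqs C univ)
    (hJ : ∀ a, HolF C (J.V a) (J.f a)) (k : ℕ) (hJpos : ∀ q, PosNear (J.idl 1) (p ⁻¹' {q}))
    (germ : ∀ m₀ : ℕ, ∃ mm : ℕ, m₀ ≤ mm ∧ Nonempty (PhiS S C DB p q₀ J R mm k)) :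
    ∃ A : Atl n S.XP, Finite A.ι ∧ GoodA A ∧ Nonempty (Part A) ∧ HolC (fam A) (Sur.fam h) id ∧
      HolC (Sur.fam h) (fam A) id ∧ Nonempty (ProjD A) := by
  have : T2Space S.XP := S.t2
  have : CompactSpace S.XP := S.compact
  refine pos_gen2 B hpos hp hp' J R hJ k q₀ hJpos S.iota (lC_iota' h)
    (fun x hx => S.push_iota p q₀ (S.mem_iota_source.1 hx)) (fun z hz => ?_) fun m₀ => ?_
  · refine S.mem_iota_target.2 fun h1 => hz ?_
    exact S.push_K' p q₀ h1
  · obtain ⟨mm, hmm, ⟨D⟩⟩ := germ m₀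
    exact ⟨mm, hmm, PhiS.toPhiD h D h0 hp⟩

/-- **the composition on 66's surgery** -/
theorem pos_flop {C : Fam 3 X} [CompactSpace X] [T2Space X] [CompactSpace N] [T2Space N]
    (B : Atl m N) {H : LB B} {hH : HM H} (hpos : hH.Pos)
    {e : OpenPartialHomeomorph X Flop_66.Um} {ε : ℝ} {ε0 : 0 < ε}
    {sub : ∀ a : Flop_66.Um, a.N ≤ ε → a ∈ e.target}
    (h : (Flop_66.sur e ε ε0 sub).Hol C Flop_66.Um.fam Flop_66.Up.fam)
    (hp : HolC C (fam B) p) (q₀ : N) (h0 : ∀ x ∈ (Flop_66.sur e ε ε0 sub).K, p x = q₀)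
    (J R : Eqs C univ) (hJ : ∀ a, HolF C (J.V a) (J.f a)) (k : ℕ)
    (hJpos : ∀ q, PosNear (J.idl 1) (p ⁻¹' {q}))
    (germ : ∀ m₀ : ℕ, ∃ mm : ℕ, m₀ ≤ mm ∧
      Nonempty (PhiS (Flop_66.sur e ε ε0 sub) C Flop_66.Up.fam p q₀ J R mm k)) :
    ∃ A : Atl 3 (Flop_66.sur e ε ε0 sub).XP, Finite A.ι ∧ GoodA A ∧ Nonempty (Part A) ∧
      HolC (fam A) (Sur.fam h) id ∧ HolC (Sur.fam h) (fam A) id ∧ Nonempty (ProjD A) :=
  pos_sur B hpos (Flop_66.sur e ε ε0 sub) h hp.cont q₀ h0 (Flop_66.holC_push h hp h0) J R hJ k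
    hJpos germ

end

end Crest.Agent.R272.PEnd_732
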