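import Crest.Agent.R272.PosP5_848
import Crest.Agent.R272.PEnd7_732

/-!
# R272 (S0415), POS at `p0` (helper848), part 6: 732's `PhiS` from the cover `Y`

`YDat.phiS` : `YDat` (functions on `Y`) + `UpDat` (functions on `Up`) + the collar for small
              `NB` (`δ`-version: no constraint on the `ε` of the surgery) `→ PhiS`.
-/

set_option autoImplicit false
set_option linter.unusedSectionVars false
set_option linter.unusedVariables false

open Set Filter Topology Complex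

namespace Crest.Agent.R272.PosP6_848

open Crest.Agent.R275.Geo Crest.Agent.R273.Fam_835
open Crest.Agent.R272.Quot_783 Crest.Agent.R272.MQ_783 Crest.Agent.R272.CB_232
open Crest.Agent.R272.Refl_246
open Crest.Agent.R272.HFam_342 Crest.Agent.R272.Sur_342 Crest.Agent.R272.PEnd_732
open Crest.Agent.R272.Lc_220 Crest.Agent.R272.CB9_232 Crest.Agent.R272.PosP4_848
open Crest.Agent.R272.PosP5_848
open Crest.Agent.R272.FinCB3_876 (GenAt ValC ff_of_pieces)

noncomputable section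

variable {n m : ℕ} {Y A B N κ : Type} [TopologicalSpace Y]
  [TopologicalSpace A] [TopologicalSpace B] [TopologicalSpace N]
  {CY : Fam n Y} {DA : Fam n A} {DB : Fam n B} {G : Type} [Group G] [MulAction G Y]
  [MulAction G N] [ContinuousConstSMul G Y] [Nonempty Y]
  {h : RA CY G} {P : Y → N} {z₀ : N} {J R : Eqs h.fam univ} {mm k : ℕ}

/-- **732's `PhiS` from the cover** -/
def phiS [Fintype κ] {N' : Type} {S : Sur (Orb G Y) A B} {p : Orb G Y → N'} {q₀ : N'}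
    (T : YDat CY G h P z₀ S.K κ J R mm k) (U : UpDat DB S.NB κ)
    (hJ : ∀ a, HolF h.fam (J.V a) (J.f a)) (hR : ∀ a, HolF h.fam (R.V a) (R.f a))
    (hp : ∀ y, P y = z₀ → p (pr G y) = q₀) (hp' : ∀ x, p x = q₀ → ∃ y, P y = z₀ ∧ pr G y = x)
    {δ : ℝ} (δ0 : 0 < δ)
    (cp : ∀ b, S.NB b ≠ 0 → S.NB b < δ → S.NB b < S.ε →
      ∃ y ∈ T.O, pr G y = S.bx b ∧ ∀ j, U.FB j b = T.f j y) :
    PhiS S h.fam DB p q₀ J R mm k where
  κ := κ
  fin := inferInstance
  f := T.F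
  g := U.FB
  V := pr G '' T.O
  hV := isOpenQuotientMap_pr.isOpenMap _ T.hO
  sub := by
    intro x hx
    obtain ⟨y, hy, rfl⟩ := hp' x hx
    exact mem_image_of_mem _ (T.fib y hy)
  δ := δ
  δ0 := δ0
  cp b h0 h1 h2 j := by
    obtain ⟨y, hy, h3, h4⟩ := cp b h0 h1 h2
    rw [h4 j, ← h3, T.F_pr hy]
  gen x hx hK := by
    obtain ⟨y, hy, rfl⟩ := hp' x hx
    obtain ⟨c, hc⟩ := T.val y hy hK
    exact ⟨c, (T.valC_iff' (T.fib y hy)).2 hc⟩
  gen' := U.valB
  cmp := by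
    rintro x ⟨y, hy, rfl⟩ hx
    obtain ⟨a, b, ha, hb, hg⟩ := T.cmp y hy fun h0 => hx (hp y h0)
    refine ⟨a, b, ha, hb, ?_⟩
    have hj := YDat.hol_eq hJ ha mm
    have hr := YDat.hol_eq hR hb k
    rw [genAt_pr_iff h (H := fun z => J.f a z ^ mm * R.f b z ^ k) (hj.1.mul hr.1)
      (NZ.mul hj.1 hr.1 hj.2 hr.2)]
    exact hg.congr (fun j => T.ev_F hy j) (Eventually.of_forall fun _ => rfl)
  ff := by
    rintro q hq hqK
    obtain ⟨y, hy, rfl⟩ := hp' q hq
    refine ((T.ff y ⟨hy, hqK⟩).image (pr G)).subset ?_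
    rintro x ⟨⟨hx, hxK⟩, c, c', hc, hc', hcc⟩
    obtain ⟨v, hv, rfl⟩ := hp' x hx
    exact ⟨v, ⟨⟨hv, hxK⟩, c, c', (T.valC_iff' (T.fib y hy)).1 hc,
      (T.valC_iff' (T.fib v hv)).1 hc', hcc⟩, rfl⟩
  ff' := U.ffB

end

end Crest.Agent.R272.PosP6_848
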