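import Mathlib

/-!
Row 272 (helper297): CUR-INST, part 1: the genus two curve of S0415 (even model)
`C = {(t, κ) ∈ P¹ × P¹ : κ² A(t) = B(t)}`, `B t = (t-c₀)(t-c₁)(t-c₂)`, `A t = (t-c₃)(t-c₄)(t-c₅)`
(six different slopes `c j`), as a compact Hausdorff connected space, and its two affine pieces
`y² = A t B t` (`y = κ A(t)`) and `v² = Π (1 - c_j s)` (`s = 1/t`, `v = y/t³`).
-/

set_option autoImplicit false
set_option linter.unusedSectionVars false

open Set Filter Topology Metric Complex OnePoint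

noncomputable section

namespace Crest.Agent.R272.Cur_297

/-- the projective line -/
abbrev P1 : Type := OnePoint ℂ

/-! ### the cubics -/

/-- six different branch slopes -/
structure Par where
  c : Fin 6 → ℂ
  inj : Function.Injective c

namespace Par

variable (P : Par)

def AA (t : ℂ) : ℂ := (t - P.c 3) * (t - P.c 4) * (t - P.c 5)
def BB (t : ℂ) : ℂ := (t - P.c 0) * (t - P.c 1) * (t - P.c 2)
def At (s : ℂ) : ℂ := (1 - P.c 3 * s) * (1 - P.c 4 * s) * (1 - P.c 5 * s)
def Bt (s : ℂ) : ℂ := (1 - P.c 0 * s) * (1 - P.c 1 * s) * (1 - P.c 2 * s)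
def p0 (t : ℂ) : ℂ := P.AA t * P.BB t
def p1 (s : ℂ) : ℂ := P.At s * P.Bt s

theorem AA_mul_BB (t : ℂ) : P.AA t * P.BB t = P.p0 t := rfl

theorem At_mul_Bt (s : ℂ) : P.At s * P.Bt s = P.p1 s := rfl

theorem AA_inv {s : ℂ} (hs : s ≠ 0) : P.AA s⁻¹ = P.At s / s ^ 3 := by
  unfold AA At; field_simp

theorem BB_inv {s : ℂ} (hs : s ≠ 0) : P.BB s⁻¹ = P.Bt s / s ^ 3 := by
  unfold BB Bt; field_simp

theorem At_zero : P.At 0 = 1 := by simp [At]
theorem Bt_zero : P.Bt 0 = 1 := by simp [Bt]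
theorem p1_zero : P.p1 0 = 1 := by simp [p1, At, Bt]

@[fun_prop] theorem differentiable_AA : Differentiable ℂ P.AA := by unfold AA; fun_prop
@[fun_prop] theorem differentiable_BB : Differentiable ℂ P.BB := by unfold BB; fun_prop
@[fun_prop] theorem differentiable_At : Differentiable ℂ P.At := by unfold At; fun_prop
@[fun_prop] theorem differentiable_Bt : Differentiable ℂ P.Bt := by unfold Bt; fun_prop
@[fun_prop] theorem differentiable_p0 : Differentiable ℂ P.p0 := by unfold p0; fun_prop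
@[fun_prop] theorem differentiable_p1 : Differentiable ℂ P.p1 := by unfold p1; fun_prop
@[fun_prop] theorem continuous_AA : Continuous P.AA := P.differentiable_AA.continuous
@[fun_prop] theorem continuous_BB : Continuous P.BB := P.differentiable_BB.continuous
@[fun_prop] theorem continuous_At : Continuous P.At := P.differentiable_At.continuous
@[fun_prop] theorem continuous_Bt : Continuous P.Bt := P.differentiable_Bt.continuous
@[fun_prop] theorem continuous_p0 : Continuous P.p0 := P.differentiable_p0.continuous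
@[fun_prop] theorem continuous_p1 : Continuous P.p1 := P.differentiable_p1.continuous

theorem p0_eq (t : ℂ) : P.p0 t = ∏ j, (t - P.c j) := by
  simp only [p0, AA, BB, Fin.prod_univ_succ, Fin.prod_univ_zero]
  simp [Fin.succ]
  ring_nf

theorem p1_eq (s : ℂ) : P.p1 s = ∏ j, (1 - P.c j * s) := by
  simp only [p1, At, Bt, Fin.prod_univ_succ, Fin.prod_univ_zero]
  simp [Fin.succ]
  ring_nf

theorem simple_p0 {t : ℂ} (h : P.p0 t = 0) : deriv P.p0 t ≠ 0 := by
  rw [p0_eq, Finset.prod_eq_zero_iff] at h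
  obtain ⟨j, -, hj⟩ := h
  have ht : t = P.c j := sub_eq_zero.1 hj
  set q : ℂ → ℂ := fun x => ∏ i ∈ Finset.univ.erase j, (x - P.c i) with hq
  have hq0 : q t ≠ 0 := by
    rw [hq]
    refine Finset.prod_ne_zero_iff.2 fun i hi => ?_
    rw [ht, sub_ne_zero]
    exact fun e => (Finset.ne_of_mem_erase hi) (P.inj e).symm
  have hqd : DifferentiableAt ℂ q t := by rw [hq]; fun_prop
  have h1 : P.p0 = fun x => (x - P.c j) * q x := by
    funext x
    rw [p0_eq, ← Finset.mul_prod_erase Finset.univ _ (Finset.mem_univ j)]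
  have h2 : HasDerivAt P.p0 (1 * q t + (t - P.c j) * deriv q t) t := by
    rw [h1]
    exact ((hasDerivAt_id' t).sub_const _).fun_mul hqd.hasDerivAt
  rw [h2.deriv, hj, zero_mul, add_zero, one_mul]
  exact hq0

theorem simple_p1 {s : ℂ} (h : P.p1 s = 0) : deriv P.p1 s ≠ 0 := by
  rw [p1_eq, Finset.prod_eq_zero_iff] at h
  obtain ⟨j, -, hj⟩ := h
  have hs : P.c j * s = 1 := (sub_eq_zero.1 hj).symm
  have hs0 : s ≠ 0 := by rintro rfl; simp at hs
  have hc0 : P.c j ≠ 0 := by intro h; rw [h, zero_mul] at hs; exact zero_ne_one hs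
  set q : ℂ → ℂ := fun x => ∏ i ∈ Finset.univ.erase j, (1 - P.c i * x) with hq
  have hq0 : q s ≠ 0 := by
    rw [hq]
    refine Finset.prod_ne_zero_iff.2 fun i hi => ?_
    rw [sub_ne_zero, ← hs]
    intro e
    exact (Finset.ne_of_mem_erase hi) (P.inj (mul_right_cancel₀ hs0 e)).symm
  have hqd : DifferentiableAt ℂ q s := by rw [hq]; fun_prop
  have h1 : P.p1 = fun x => (1 - P.c j * x) * q x := by
    funext x
    rw [p1_eq, ← Finset.mul_prod_erase Finset.univ _ (Finset.mem_univ j)]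
  have h3 : HasDerivAt (fun x => 1 - P.c j * x) (-(P.c j * 1)) s :=
    ((hasDerivAt_id' s).const_mul _).const_sub 1
  have h2 : HasDerivAt P.p1 (-(P.c j * 1) * q s + (1 - P.c j * s) * deriv q s) s := by
    rw [h1]
    exact h3.fun_mul hqd.hasDerivAt
  rw [h2.deriv, hj, zero_mul, add_zero, mul_one]
  exact mul_ne_zero (neg_ne_zero.2 hc0) hq0

theorem BB_ne {t : ℂ} (h : P.AA t = 0) : P.BB t ≠ 0 := by
  intro hB
  unfold AA at h
  unfold BB at hB
  rcases mul_eq_zero.1 h with h | h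
  · rcases mul_eq_zero.1 h with h | h <;> rcases mul_eq_zero.1 hB with hB | hB
    · rcases mul_eq_zero.1 hB with hB | hB
      · exact absurd (P.inj ((sub_eq_zero.1 h).symm.trans (sub_eq_zero.1 hB))) (by decide)
      · exact absurd (P.inj ((sub_eq_zero.1 h).symm.trans (sub_eq_zero.1 hB))) (by decide)
    · exact absurd (P.inj ((sub_eq_zero.1 h).symm.trans (sub_eq_zero.1 hB))) (by decide)
    · rcases mul_eq_zero.1 hB with hB | hB
      · exact absurd (P.inj ((sub_eq_zero.1 h).symm.trans (sub_eq_zero.1 hB))) (by decide)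
      · exact absurd (P.inj ((sub_eq_zero.1 h).symm.trans (sub_eq_zero.1 hB))) (by decide)
    · exact absurd (P.inj ((sub_eq_zero.1 h).symm.trans (sub_eq_zero.1 hB))) (by decide)
  · rcases mul_eq_zero.1 hB with hB | hB
    · rcases mul_eq_zero.1 hB with hB | hB
      · exact absurd (P.inj ((sub_eq_zero.1 h).symm.trans (sub_eq_zero.1 hB))) (by decide)
      · exact absurd (P.inj ((sub_eq_zero.1 h).symm.trans (sub_eq_zero.1 hB))) (by decide)
    · exact absurd (P.inj ((sub_eq_zero.1 h).symm.trans (sub_eq_zero.1 hB))) (by decide)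

theorem Bt_ne {s : ℂ} (h : P.At s = 0) : P.Bt s ≠ 0 := by
  have hs : s ≠ 0 := by rintro rfl; rw [At_zero] at h; exact one_ne_zero h
  intro hB
  have hA : P.AA s⁻¹ = 0 := by rw [P.AA_inv hs, h, zero_div]
  exact P.BB_ne hA (by rw [P.BB_inv hs, hB, zero_div])

end Par

/-! ### the projective line -/

/-- finite part -/
def fin (p : P1) : ℂ := Option.elim p 0 id

@[simp] theorem fin_coe (z : ℂ) : fin (z : P1) = z := rfl
@[simp] theorem fin_infty : fin (∞ : P1) = 0 := rfl

theorem coe_fin {p : P1} (h : p ≠ ∞) : ((fin p : ℂ) : P1) = p := by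
  induction p using OnePoint.rec with
  | infty => exact absurd rfl h
  | coe z => rfl

theorem continuousAt_fin {p : P1} (h : p ≠ ∞) : ContinuousAt fin p := by
  induction p using OnePoint.rec with
  | infty => exact absurd rfl h
  | coe z => exact OnePoint.continuousAt_coe.2 continuousAt_id

theorem tendsto_inf {α : Type*} {l : Filter α} {g : α → P1}
    (h : ∀ R : ℝ, ∀ᶠ a in l, g a = ∞ ∨ ∃ z : ℂ, g a = ↑z ∧ R < ‖z‖) : Tendsto g l (𝓝 (∞ : P1)) := by
  intro U hU
  have h1 : Tendsto ((↑) : ℂ → P1) (coclosedCompact ℂ) (𝓝 ∞) := OnePoint.tendsto_coe_infty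
  rw [coclosedCompact_eq_cocompact, ← Metric.cobounded_eq_cocompact] at h1
  have h2 := h1 hU
  rw [Filter.mem_map, (Metric.hasBasis_cobounded_compl_closedBall (0 : ℂ)).mem_iff] at h2
  obtain ⟨R, -, hR⟩ := h2
  rw [Filter.mem_map]
  filter_upwards [h R] with a ha
  rcases ha with ha | ⟨z, hz, hzR⟩
  · rw [mem_preimage, ha]; exact mem_of_mem_nhds hU
  · rw [mem_preimage, hz]
    refine hR ?_
    simpa using hzR

/-- for a function tending to infinity the norm of the finite part is eventually large -/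
theorem eventually_large {p : P1} (hp : p = ∞) (R : ℝ) :
    ∀ᶠ q in 𝓝 p, q = ∞ ∨ R < ‖fin q‖ := by
  subst hp
  have h1 : IsOpen ((((↑) : ℂ → P1) '' closedBall (0 : ℂ) R)ᶜ) := by
    rw [isOpen_compl_iff]
    exact ((isCompact_closedBall (0 : ℂ) R).image OnePoint.continuous_coe).isClosed
  filter_upwards [h1.mem_nhds (by simp : (∞ : P1) ∈ (((↑) : ℂ → P1) '' closedBall (0 : ℂ) R)ᶜ)]
    with q hq
  induction q using OnePoint.rec with
  | infty => exact Or.inl rfl
  | coe z =>
    right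
    by_contra hcon
    push Not at hcon
    exact hq ⟨z, by simpa using hcon, rfl⟩

/-- inversion `ℂ → P¹` -/
def inv1 (s : ℂ) : P1 := if s = 0 then ∞ else ((s⁻¹ : ℂ) : P1)

theorem inv1_zero : inv1 0 = ∞ := if_pos rfl
theorem inv1_ne {s : ℂ} (h : s ≠ 0) : inv1 s = ((s⁻¹ : ℂ) : P1) := if_neg h

theorem continuous_inv1 : Continuous inv1 := by
  rw [continuous_iff_continuousAt]
  intro s
  by_cases h : s = 0
  · subst h
    rw [ContinuousAt, inv1_zero]
    refine tendsto_inf fun R => ?_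
    have h1 : Tendsto (fun a : ℂ => ‖a‖ * (|R| + 1)) (𝓝 0) (𝓝 (‖(0 : ℂ)‖ * (|R| + 1))) :=
      (continuous_norm.tendsto 0).mul_const _
    rw [norm_zero, zero_mul] at h1
    filter_upwards [h1.eventually (gt_mem_nhds one_pos)] with a ha
    by_cases h0 : a = 0
    · left; rw [h0, inv1_zero]
    · right
      refine ⟨a⁻¹, inv1_ne h0, ?_⟩
      have hn : 0 < ‖a‖ := norm_pos_iff.2 h0
      rw [norm_inv]
      have h2 : |R| + 1 < ‖a‖⁻¹ := by
        rw [lt_inv_comm₀ (by positivity) hn, ← one_div, lt_div_iff₀ (by positivity)]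
        exact ha
      linarith [le_abs_self R]
  · have h1 : inv1 =ᶠ[𝓝 s] fun s => ((s⁻¹ : ℂ) : P1) := by
      filter_upwards [isOpen_ne.mem_nhds h] with a ha
      exact inv1_ne ha
    refine ContinuousAt.congr ?_ h1.symm
    exact OnePoint.continuous_coe.continuousAt.comp (continuousAt_inv₀ h)

/-- the coordinate `1/t` -/
def finv (p : P1) : ℂ := Option.elim p 0 fun z => z⁻¹

@[simp] theorem finv_coe (z : ℂ) : finv (z : P1) = z⁻¹ := rfl
@[simp] theorem finv_infty : finv (∞ : P1) = 0 := rfl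

theorem continuousAt_finv {p : P1} (h : p ≠ ((0 : ℂ) : P1)) : ContinuousAt finv p := by
  induction p using OnePoint.rec with
  | infty =>
    rw [ContinuousAt, finv_infty, Metric.tendsto_nhds]
    intro ε hε
    filter_upwards [eventually_large rfl ε⁻¹] with q hq
    rcases hq with hq | hq
    · rw [hq]; simpa using hε
    · induction q using OnePoint.rec with
      | infty => simpa using hε
      | coe z =>
        rw [fin_coe] at hq
        rw [finv_coe, dist_zero_right, norm_inv]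
        exact inv_lt_of_inv_lt₀ hε hq
  | coe z =>
    have hz : z ≠ 0 := fun h0 => h (by rw [h0])
    exact OnePoint.continuousAt_coe.2 (continuousAt_inv₀ hz)

theorem inv1_finv {p : P1} (h : p ≠ ((0 : ℂ) : P1)) : inv1 (finv p) = p := by
  induction p using OnePoint.rec with
  | infty => exact inv1_zero
  | coe z =>
    have hz : z ≠ 0 := fun h0 => h (by rw [h0])
    rw [finv_coe, inv1_ne (inv_ne_zero hz), inv_inv]

theorem finv_inv1 (s : ℂ) : finv (inv1 s) = s := by
  by_cases h : s = 0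
  · rw [h, inv1_zero, finv_infty]
  · rw [inv1_ne h, finv_coe, inv_inv]

/-! ### the curve -/

/-- homogeneous coordinates on the projective line -/
def nn (p : P1) : ℂ := Option.elim p 1 id
def dd (p : P1) : ℂ := Option.elim p 0 fun _ => 1

@[simp] theorem nn_coe (z : ℂ) : nn (z : P1) = z := rfl
@[simp] theorem nn_infty : nn (∞ : P1) = 1 := rfl
@[simp] theorem dd_coe (z : ℂ) : dd (z : P1) = 1 := rfl
@[simp] theorem dd_infty : dd (∞ : P1) = 0 := rfl

variable (P : Par)

/-- the cubics in homogeneous form -/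
def hA (t : P1) : ℂ := (nn t - P.c 3 * dd t) * (nn t - P.c 4 * dd t) * (nn t - P.c 5 * dd t)
def hB (t : P1) : ℂ := (nn t - P.c 0 * dd t) * (nn t - P.c 1 * dd t) * (nn t - P.c 2 * dd t)

/-- the equation `κ² A(t) = B(t)` on `P¹ × P¹` -/
def Eqn (t k : P1) : Prop := nn k ^ 2 * hA P t = dd k ^ 2 * hB P t

variable {P}

@[simp] theorem eqn_coe_coe (t k : ℂ) : Eqn P t k ↔ k ^ 2 * P.AA t = P.BB t := by
  simp [Eqn, hA, hB, Par.AA, Par.BB]
@[simp] theorem eqn_coe_inf (t : ℂ) : Eqn P t ∞ ↔ P.AA t = 0 := by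
  simp [Eqn, hA, hB, Par.AA]
@[simp] theorem eqn_inf_coe (k : ℂ) : Eqn P ∞ k ↔ k ^ 2 = 1 := by
  simp [Eqn, hA, hB]
@[simp] theorem eqn_inf_inf : Eqn P ∞ ∞ ↔ False := by
  simp [Eqn, hA, hB]

variable (P) in
def Cset : Set (P1 × P1) := {q | Eqn P q.1 q.2}

variable (P) in
/-- the curve -/
abbrev Cv : Type := Cset P

/-- affine curve `y² = p x` -/
def Aff (p : ℂ → ℂ) : Set (ℂ × ℂ) := {q | q.2 ^ 2 = p q.1}

variable (P) in
def kap0 (t y : ℂ) : P1 := if P.AA t = 0 then ∞ else ((y / P.AA t : ℂ) : P1)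
variable (P) in
def kap1 (s v : ℂ) : P1 := if P.At s = 0 then ∞ else ((v / P.At s : ℂ) : P1)

theorem eqn0 {t y : ℂ} (h : y ^ 2 = P.p0 t) : Eqn P t (kap0 P t y) := by
  unfold kap0
  split_ifs with h0
  · exact (eqn_coe_inf t).2 h0
  · rw [eqn_coe_coe]
    rw [← P.AA_mul_BB] at h
    field_simp
    rw [h]

theorem eqn1 {s v : ℂ} (h : v ^ 2 = P.p1 s) : Eqn P (inv1 s) (kap1 P s v) := by
  unfold kap1
  by_cases hs : s = 0
  · subst hs
    rw [inv1_zero, P.At_zero, if_neg one_ne_zero, div_one, eqn_inf_coe, h, P.p1_zero]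
  · rw [inv1_ne hs]
    split_ifs with h0
    · rw [eqn_coe_inf, P.AA_inv hs, h0, zero_div]
    · rw [eqn_coe_coe, P.AA_inv hs, P.BB_inv hs]
      rw [← P.At_mul_Bt] at h
      field_simp
      rw [h]

def mk0 (q : Aff P.p0) : Cv P := ⟨((q.1.1 : ℂ), kap0 P q.1.1 q.1.2), eqn0 q.2⟩
def mk1 (q : Aff P.p1) : Cv P := ⟨(inv1 q.1.1, kap1 P q.1.1 q.1.2), eqn1 q.2⟩

/-- the two projections -/
def tt (c : Cv P) : P1 := c.1.1
def kk (c : Cv P) : P1 := c.1.2

theorem continuous_tt : Continuous (tt : Cv P → P1) := continuous_fst.comp continuous_subtype_val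
theorem continuous_kk : Continuous (kk : Cv P → P1) := continuous_snd.comp continuous_subtype_val

theorem eqn (c : Cv P) : Eqn P (tt c) (kk c) := c.2

theorem ext_c {c c' : Cv P} (h1 : tt c = tt c') (h2 : kk c = kk c') : c = c' :=
  Subtype.ext (Prod.ext h1 h2)

def tv (c : Cv P) : ℂ := fin (tt c)
def yv (c : Cv P) : ℂ := fin (kk c) * P.AA (tv c)
def sv (c : Cv P) : ℂ := finv (tt c)
def vv (c : Cv P) : ℂ := fin (kk c) * P.At (sv c)

@[simp] theorem tt_mk0 (q : Aff P.p0) : tt (mk0 q) = (q.1.1 : ℂ) := rfl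
@[simp] theorem kk_mk0 (q : Aff P.p0) : kk (mk0 q) = kap0 P q.1.1 q.1.2 := rfl
@[simp] theorem tt_mk1 (q : Aff P.p1) : tt (mk1 q) = inv1 q.1.1 := rfl
@[simp] theorem kk_mk1 (q : Aff P.p1) : kk (mk1 q) = kap1 P q.1.1 q.1.2 := rfl
@[simp] theorem tv_mk0 (q : Aff P.p0) : tv (mk0 q) = q.1.1 := rfl
@[simp] theorem sv_mk1 (q : Aff P.p1) : sv (mk1 q) = q.1.1 := finv_inv1 _

theorem tt_eq {c : Cv P} (h : tt c ≠ ∞) : tt c = (tv c : ℂ) := (coe_fin h).symm

theorem y_zero {y : ℂ} {p : ℂ → ℂ} {x : ℂ} (h : y ^ 2 = p x) (h0 : p x = 0) : y = 0 := by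
  rw [h0] at h
  exact pow_eq_zero_iff (two_ne_zero) |>.1 h

@[simp] theorem yv_mk0 (q : Aff P.p0) : yv (mk0 q) = q.1.2 := by
  unfold yv
  rw [kk_mk0, tv_mk0]
  unfold kap0
  split_ifs with h
  · rw [fin_infty, zero_mul]
    refine (y_zero q.2 ?_).symm
    rw [← P.AA_mul_BB, h, zero_mul]
  · rw [fin_coe, div_mul_cancel₀ _ h]

@[simp] theorem vv_mk1 (q : Aff P.p1) : vv (mk1 q) = q.1.2 := by
  unfold vv
  rw [kk_mk1, sv_mk1]
  unfold kap1
  split_ifs with h
  · rw [fin_infty, zero_mul]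
    refine (y_zero q.2 ?_).symm
    rw [← P.At_mul_Bt, h, zero_mul]
  · rw [fin_coe, div_mul_cancel₀ _ h]

theorem yv_sq {c : Cv P} (h : tt c ≠ ∞) : yv c ^ 2 = P.p0 (tv c) := by
  have hc := eqn c
  rw [tt_eq h] at hc
  unfold yv
  by_cases hk : kk c = ∞
  · rw [hk] at hc ⊢
    rw [eqn_coe_inf] at hc
    rw [fin_infty, ← P.AA_mul_BB, hc]
    ring
  · rw [← coe_fin hk, eqn_coe_coe] at hc
    rw [← P.AA_mul_BB, ← hc]
    ring

theorem mk0_eq {c : Cv P} (h : tt c ≠ ∞) : mk0 ⟨(tv c, yv c), yv_sq h⟩ = c := by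
  refine ext_c (by rw [tt_mk0, ← tt_eq h]) ?_
  have hc := eqn c
  rw [tt_eq h] at hc
  rw [kk_mk0]
  unfold kap0
  split_ifs with h0
  · change (∞ : P1) = kk c
    change P.AA (tv c) = 0 at h0
    by_contra hk
    rw [← coe_fin (Ne.symm hk), eqn_coe_coe, h0, mul_zero] at hc
    exact P.BB_ne h0 hc.symm
  · change P.AA (tv c) ≠ 0 at h0
    have hk : kk c ≠ ∞ := by
      intro hk
      rw [hk, eqn_coe_inf] at hc
      exact h0 hc
    change (((yv c) / P.AA (tv c) : ℂ) : P1) = kk c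
    unfold yv
    rw [mul_div_cancel_right₀ _ h0, coe_fin hk]

theorem vv_sq {c : Cv P} (h : tt c ≠ ((0 : ℂ) : P1)) : vv c ^ 2 = P.p1 (sv c) := by
  have hc := eqn c
  rw [← inv1_finv h] at hc
  change Eqn P (inv1 (sv c)) (kk c) at hc
  unfold vv
  by_cases hs : sv c = 0
  · rw [hs, inv1_zero] at hc
    rw [hs]
    by_cases hk : kk c = ∞
    · rw [hk, eqn_inf_inf] at hc; exact hc.elim
    · rw [← coe_fin hk, eqn_inf_coe] at hc
      rw [mul_pow, hc, P.At_zero, P.p1_zero]
      ring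
  · rw [inv1_ne hs] at hc
    by_cases hk : kk c = ∞
    · rw [hk] at hc ⊢
      rw [eqn_coe_inf, P.AA_inv hs, div_eq_zero_iff] at hc
      have : P.At (sv c) = 0 := hc.resolve_right (pow_ne_zero 3 hs)
      rw [fin_infty, ← P.At_mul_Bt, this]
      ring
    · rw [← coe_fin hk, eqn_coe_coe, P.AA_inv hs, P.BB_inv hs] at hc
      have h3 : fin (kk c) ^ 2 * P.At (sv c) = P.Bt (sv c) := by
        have := pow_ne_zero 3 hs
        field_simp at hc
        exact hc
      rw [← P.At_mul_Bt, ← h3]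
      ring

theorem mk1_eq {c : Cv P} (h : tt c ≠ ((0 : ℂ) : P1)) : mk1 ⟨(sv c, vv c), vv_sq h⟩ = c := by
  have ht : inv1 (sv c) = tt c := inv1_finv h
  refine ext_c (by rw [tt_mk1]; exact ht) ?_
  have hc := eqn c
  rw [← ht] at hc
  rw [kk_mk1]
  unfold kap1
  split_ifs with h0
  · change (∞ : P1) = kk c
    change P.At (sv c) = 0 at h0
    have hs : sv c ≠ 0 := by
      intro hs; rw [hs, P.At_zero] at h0; exact one_ne_zero h0
    by_contra hk
    rw [inv1_ne hs, ← coe_fin (Ne.symm hk), eqn_coe_coe, P.AA_inv hs, P.BB_inv hs, h0, zero_div,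
      mul_zero] at hc
    have := (div_eq_zero_iff.1 hc.symm).resolve_right (pow_ne_zero 3 hs)
    exact P.Bt_ne h0 this
  · change P.At (sv c) ≠ 0 at h0
    have hk : kk c ≠ ∞ := by
      intro hk
      rw [hk] at hc
      by_cases hs : sv c = 0
      · rw [hs, inv1_zero, eqn_inf_inf] at hc; exact hc
      · rw [inv1_ne hs, eqn_coe_inf, P.AA_inv hs, div_eq_zero_iff] at hc
        exact h0 (hc.resolve_right (pow_ne_zero 3 hs))
    change (((vv c) / P.At (sv c) : ℂ) : P1) = kk c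
    unfold vv
    rw [mul_div_cancel_right₀ _ h0, coe_fin hk]

/-! ### relations on the overlap -/

theorem sv_eq {c : Cv P} (h : tt c ≠ ∞) : sv c = (tv c)⁻¹ := by
  unfold sv
  rw [tt_eq h, finv_coe]

theorem tv_ne {c : Cv P} (h : tt c ≠ ∞) (h0 : tt c ≠ ((0 : ℂ) : P1)) : tv c ≠ 0 := by
  intro h1; rw [tt_eq h, h1] at h0; exact h0 rfl

theorem vv_eq {c : Cv P} (h : tt c ≠ ∞) (h0 : tt c ≠ ((0 : ℂ) : P1)) :
    vv c = yv c / tv c ^ 3 := by
  have ht := tv_ne h h0
  unfold vv yv
  rw [sv_eq h]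
  have : P.At (tv c)⁻¹ = P.AA (tv c) / tv c ^ 3 := by
    have := P.AA_inv (inv_ne_zero ht)
    rw [inv_inv] at this
    rw [this]
    field_simp
  rw [this, mul_div_assoc]

/-! ### continuity -/

theorem continuousAt_tv {c : Cv P} (h : tt c ≠ ∞) : ContinuousAt tv c :=
  (continuousAt_fin h).comp continuous_tt.continuousAt

theorem continuousAt_sv {c : Cv P} (h : tt c ≠ ((0 : ℂ) : P1)) : ContinuousAt sv c :=
  (continuousAt_finv h).comp continuous_tt.continuousAt

theorem continuousAt_of_sq {X : Type*} [TopologicalSpace X] {x : X} {y g : X → ℂ}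
    (hy : ∀ᶠ z in 𝓝 x, y z ^ 2 = g z) (hg : ContinuousAt g x) (h0 : g x = 0) : ContinuousAt y x := by
  have hyx : y x = 0 := by
    have := hy.self_of_nhds
    rw [h0] at this
    exact pow_eq_zero_iff two_ne_zero |>.1 this
  rw [ContinuousAt, hyx, Metric.tendsto_nhds]
  intro ε hε
  rw [ContinuousAt, h0, Metric.tendsto_nhds] at hg
  filter_upwards [hy, hg (ε ^ 2) (by positivity)] with z h1 h2
  rw [dist_zero_right] at h2 ⊢
  rw [← h1, norm_pow] at h2
  exact lt_of_pow_lt_pow_left₀ 2 hε.le h2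

/-- the affine piece -/
theorem isOpen_ne_inf : IsOpen {c : Cv P | tt c ≠ ∞} :=
  continuous_tt.isOpen_preimage _ isOpen_compl_singleton

/-- the piece at infinity -/
theorem isOpen_ne_zero : IsOpen {c : Cv P | tt c ≠ ((0 : ℂ) : P1)} :=
  continuous_tt.isOpen_preimage _ isOpen_compl_singleton

theorem continuousAt_yv {c : Cv P} (h : tt c ≠ ∞) : ContinuousAt yv c := by
  by_cases hk : kk c = ∞
  · refine continuousAt_of_sq (g := fun c => P.p0 (tv c)) ?_
      (P.continuous_p0.continuousAt.comp (continuousAt_tv h)) ?_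
    · filter_upwards [isOpen_ne_inf.mem_nhds (show c ∈ {c : Cv P | tt c ≠ ∞} from h)] with z hz
      exact yv_sq hz
    · have hc := eqn c
      rw [tt_eq h, hk, eqn_coe_inf] at hc
      show P.p0 (tv c) = 0
      rw [← P.AA_mul_BB, hc, zero_mul]
  · exact ((continuousAt_fin hk).comp continuous_kk.continuousAt).mul
      (P.continuous_AA.continuousAt.comp (continuousAt_tv h))

theorem continuousAt_vv {c : Cv P} (h : tt c ≠ ((0 : ℂ) : P1)) : ContinuousAt vv c := by
  by_cases hk : kk c = ∞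
  · refine continuousAt_of_sq (g := fun c => P.p1 (sv c)) ?_
      (P.continuous_p1.continuousAt.comp (continuousAt_sv h)) ?_
    · filter_upwards [isOpen_ne_zero.mem_nhds
        (show c ∈ {c : Cv P | tt c ≠ ((0 : ℂ) : P1)} from h)] with z hz
      exact vv_sq hz
    · have h1 := vv_sq h
      have h2 : vv c = 0 := by unfold vv; rw [hk, fin_infty, zero_mul]
      show P.p1 (sv c) = 0
      rw [← h1, h2]
      ring
  · exact ((continuousAt_fin hk).comp continuous_kk.continuousAt).mul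
      (P.continuous_At.continuousAt.comp (continuousAt_sv h))

theorem continuous_kap {a b p : ℂ → ℂ} (ha : Continuous a) (hb : Continuous b)
    (hab : ∀ x, a x * b x = p x) (hne : ∀ x, a x = 0 → b x ≠ 0) :
    Continuous fun q : Aff p => (if a q.1.1 = 0 then ∞ else ((q.1.2 / a q.1.1 : ℂ) : P1)) := by
  rw [continuous_iff_continuousAt]
  intro q
  have hx : Continuous fun q : Aff p => q.1.1 := continuous_fst.comp continuous_subtype_val
  have hy : Continuous fun q : Aff p => q.1.2 := continuous_snd.comp continuous_subtype_val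
  by_cases h : a q.1.1 = 0
  · rw [ContinuousAt]
    simp only [h, if_true]
    refine tendsto_inf fun R => ?_
    have hb0 : 0 < ‖b q.1.1‖ := norm_pos_iff.2 (hne _ h)
    have h1 : Tendsto (fun q : Aff p => ‖b q.1.1‖ - R ^ 2 * ‖a q.1.1‖) (𝓝 q)
        (𝓝 (‖b q.1.1‖ - R ^ 2 * ‖a q.1.1‖)) :=
      (Continuous.tendsto (by fun_prop) q)
    rw [h, norm_zero, mul_zero, sub_zero] at h1
    filter_upwards [h1.eventually (lt_mem_nhds hb0)] with r hr
    by_cases hr0 : a r.1.1 = 0
    · left; rw [if_pos hr0]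
    · right
      refine ⟨_, if_neg hr0, ?_⟩
      have hr' : r.1.2 ^ 2 = a r.1.1 * b r.1.1 := by rw [hab]; exact r.2
      have h2 : ‖r.1.2 / a r.1.1‖ ^ 2 * ‖a r.1.1‖ = ‖b r.1.1‖ := by
        rw [← norm_pow, ← norm_mul, div_pow, hr']
        congr 1
        field_simp
      have h3 : R ^ 2 < ‖r.1.2 / a r.1.1‖ ^ 2 := by
        have hpos : 0 < ‖a r.1.1‖ := norm_pos_iff.2 hr0
        nlinarith
      exact lt_of_pow_lt_pow_left₀ 2 (norm_nonneg _) h3
  · have hev : ∀ᶠ r in 𝓝 q, a (r : Aff p).1.1 ≠ 0 :=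
      (ha.comp hx).continuousAt.eventually_ne h
    have h1 : (fun q : Aff p => (if a q.1.1 = 0 then ∞ else ((q.1.2 / a q.1.1 : ℂ) : P1))) =ᶠ[𝓝 q]
        fun q : Aff p => ((q.1.2 / a q.1.1 : ℂ) : P1) := by
      filter_upwards [hev] with r hr
      rw [if_neg hr]
    refine ContinuousAt.congr ?_ h1.symm
    exact OnePoint.continuous_coe.continuousAt.comp
      (hy.continuousAt.div (ha.comp hx).continuousAt h)

theorem continuous_mk0 : Continuous (mk0 : Aff P.p0 → Cv P) := by
  refine Continuous.subtype_mk (Continuous.prodMk ?_ ?_) _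
  · exact OnePoint.continuous_coe.comp (continuous_fst.comp continuous_subtype_val)
  · exact continuous_kap P.continuous_AA P.continuous_BB P.AA_mul_BB (fun x => P.BB_ne)

theorem continuous_mk1 : Continuous (mk1 : Aff P.p1 → Cv P) := by
  refine Continuous.subtype_mk (Continuous.prodMk ?_ ?_) _
  · exact continuous_inv1.comp (continuous_fst.comp continuous_subtype_val)
  · exact continuous_kap P.continuous_At P.continuous_Bt P.At_mul_Bt (fun x => P.Bt_ne)

end Crest.Agent.R272.Cur_297
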