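import Crest.Agent.R266.SCV
import Crest.Agent.R272.Cur1_297

/-!
Row 272 (helper297): CUR-INST, part 3: centred charts of a smooth affine curve `y² = p x`.
-/

set_option autoImplicit false
set_option linter.unusedSectionVars false

open Set Filter Topology Metric Complex

noncomputable section

namespace Crest.Agent.R272.Cur_297

/-- a chart of the curve `y² = p x` centred at `q`: the coordinate is `x - x(q)` if `y(q) ≠ 0` and `y`
otherwise; `m = (dx/ds)/y` is the coefficient of the form `dx / y`. -/
structure Ch (p : ℂ → ℂ) (q : Aff p) where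
  φ : OpenPartialHomeomorph (Aff p) ℂ
  r : ℝ
  r_pos : 0 < r
  target : φ.target = ball 0 r
  mem : q ∈ φ.source
  zero : φ q = 0
  X : ℂ → ℂ
  Y : ℂ → ℂ
  m : ℂ → ℂ
  X_an : AnalyticOnNhd ℂ X (ball 0 r)
  Y_an : AnalyticOnNhd ℂ Y (ball 0 r)
  m_an : AnalyticOnNhd ℂ m (ball 0 r)
  symm_eq : ∀ s ∈ ball (0 : ℂ) r, (φ.symm s).1 = (X s, Y s)
  m_eq : ∀ s ∈ ball (0 : ℂ) r, m s * Y s = deriv X s
  m_ne : ∀ s ∈ ball (0 : ℂ) r, m s ≠ 0
  Y_ne : ∀ s ∈ ball (0 : ℂ) r, s ≠ 0 → Y s ≠ 0
  co0 : q.1.2 ≠ 0 → ∀ q', φ q' = q'.1.1 - q.1.1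
  co1 : q.1.2 = 0 → ∀ q', φ q' = q'.1.2

section

variable {p : ℂ → ℂ}

/-- chart at an unramified point -/
theorem exists_chU (hp : Differentiable ℂ p) (q : Aff p) (hq : q.1.2 ≠ 0) :
    Nonempty (Ch p q) := by
  set x0 := q.1.1 with hx0
  set y0 := q.1.2 with hy0
  have hq2 : y0 ^ 2 = p x0 := q.2
  have hp0 : p x0 ≠ 0 := by rw [← hq2]; exact pow_ne_zero 2 hq
  set g : ℂ → ℂ := fun x => p x / p x0 with hg
  have hgd : Differentiable ℂ g := hp.div_const _
  set h : ℂ → ℂ := fun x => y0 * (g x) ^ (((2 : ℕ) : ℂ)⁻¹) with hh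
  have hsq : ∀ x, h x ^ 2 = p x := by
    intro x
    simp only [hh]
    rw [mul_pow, Complex.cpow_nat_inv_pow _ two_ne_zero, hq2]
    simp only [hg]
    field_simp
  set O : Set ℂ := g ⁻¹' slitPlane with hO
  have hOo : IsOpen O := Complex.isOpen_slitPlane.preimage hgd.continuous
  have hx0O : x0 ∈ O := by
    show p x0 / p x0 ∈ slitPlane
    rw [div_self hp0]
    exact Complex.one_mem_slitPlane
  have hhd : DifferentiableOn ℂ h O := by
    intro x hx
    have : DifferentiableAt ℂ (fun x => (g x) ^ (((2 : ℕ) : ℂ)⁻¹)) x :=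
      (hgd x).cpow_const hx
    exact (this.const_mul y0).differentiableWithinAt
  have hha : AnalyticOnNhd ℂ h O := hhd.analyticOnNhd hOo
  have hne : ∀ x ∈ O, h x ≠ 0 := by
    intro x hx h0
    have h1 := hsq x
    rw [h0] at h1
    have h2 : g x = 0 := by
      simp only [hg]
      rw [← h1]; norm_num
    have : (0 : ℂ) ∈ slitPlane := by rw [← h2]; exact hx
    simp at this
  have hx0h : h x0 = y0 := by
    simp only [hh, hg]
    rw [div_self hp0, Complex.one_cpow, mul_one]
  obtain ⟨r, hr, hrO⟩ := Metric.isOpen_iff.1 hOo x0 hx0O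
  have hadd : ∀ s ∈ ball (0 : ℂ) r, x0 + s ∈ ball x0 r := by
    intro s hs
    rw [mem_ball, dist_eq_norm, add_sub_cancel_left]
    simpa using hs
  set inv : ℂ → Aff p := fun s => ⟨(x0 + s, h (x0 + s)), hsq (x0 + s)⟩ with hinv
  set rr : Aff p → ℝ := fun q' => (q'.1.2 / h q'.1.1).re with hrr
  have hopen : IsOpen ({q' : Aff p | q'.1.1 ∈ ball x0 r} ∩ rr ⁻¹' Ioi 0) := by
    refine ContinuousOn.isOpen_inter_preimage ?_
      (isOpen_ball.preimage (continuous_fst.comp continuous_subtype_val)) isOpen_Ioi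
    intro q' hq'
    have hx : q'.1.1 ∈ O := hrO hq'
    have h1 : ContinuousAt (fun q' : Aff p => h q'.1.1) q' :=
      ContinuousAt.comp (f := fun q' : Aff p => q'.1.1) (g := h) (x := q')
        (hha _ hx).continuousAt (continuous_fst.comp continuous_subtype_val).continuousAt
    have h2 : ContinuousAt (fun q' : Aff p => q'.1.2 / h q'.1.1) q' :=
      (continuous_snd.comp continuous_subtype_val).continuousAt.div h1 (hne _ hx)
    exact (Complex.continuous_re.continuousAt.comp h2).continuousWithinAt
  have hkey : ∀ q' : Aff p, q'.1.1 ∈ ball x0 r → 0 < rr q' → q'.1.2 = h q'.1.1 := by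
    intro q' hq' hre
    have h1 : q'.1.2 ^ 2 = h q'.1.1 ^ 2 := by rw [hsq]; exact q'.2
    rcases sq_eq_sq_iff_eq_or_eq_neg.1 h1 with e | e
    · exact e
    · exfalso
      simp only [hrr] at hre
      rw [e, neg_div, div_self (hne _ (hrO hq'))] at hre
      norm_num at hre
  set φ : OpenPartialHomeomorph (Aff p) ℂ :=
    { toFun := fun q' => q'.1.1 - x0
      invFun := inv
      source := {q' : Aff p | q'.1.1 ∈ ball x0 r} ∩ rr ⁻¹' Ioi 0
      target := ball 0 r
      map_source' := by
        rintro q' ⟨h1, -⟩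
        rw [mem_ball_zero_iff, ← dist_eq_norm]
        exact h1
      map_target' := by
        intro s hs
        refine ⟨hadd s hs, ?_⟩
        show (0 : ℝ) < (h (x0 + s) / h (x0 + s)).re
        rw [div_self (hne _ (hrO (hadd s hs)))]
        norm_num
      left_inv' := by
        rintro q' ⟨h1, h2⟩
        refine Subtype.ext (Prod.ext ?_ ?_)
        · show x0 + (q'.1.1 - x0) = q'.1.1
          ring
        · show h (x0 + (q'.1.1 - x0)) = q'.1.2
          rw [add_sub_cancel, hkey q' h1 h2]
      right_inv' := by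
        intro s hs
        show x0 + s - x0 = s
        ring
      open_source := hopen
      open_target := isOpen_ball
      continuousOn_toFun :=
        ((continuous_fst.comp continuous_subtype_val).sub continuous_const).continuousOn
      continuousOn_invFun := by
        rw [Topology.IsInducing.subtypeVal.continuousOn_iff]
        intro s hs
        have h1 : ContinuousAt (fun s => h (x0 + s)) s :=
          ContinuousAt.comp (f := fun s => x0 + s) (g := h) (x := s)
            (hha _ (hrO (hadd s hs))).continuousAt (by fun_prop)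
        have h2 : ContinuousAt (fun s : ℂ => (x0 + s, h (x0 + s))) s :=
          ContinuousAt.prodMk (by fun_prop) h1
        exact h2.continuousWithinAt } with hφ
  have hYan : AnalyticOnNhd ℂ (fun s => h (x0 + s)) (ball 0 r) := by
    intro s hs
    exact AnalyticAt.comp (f := fun s => x0 + s) (g := h) (x := s) (hha _ (hrO (hadd s hs)))
      (analyticAt_const.add analyticAt_id)
  refine ⟨{
    φ := φ
    r := r
    r_pos := hr
    target := rfl
    mem := ?_
    zero := sub_self _
    X := fun s => x0 + s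
    Y := fun s => h (x0 + s)
    m := fun s => (h (x0 + s))⁻¹
    X_an := fun s _ => analyticAt_const.add analyticAt_id
    Y_an := hYan
    m_an := fun s hs => (hYan s hs).inv (hne _ (hrO (hadd s hs)))
    symm_eq := fun s _ => rfl
    m_eq := ?_
    m_ne := fun s hs => inv_ne_zero (hne _ (hrO (hadd s hs)))
    Y_ne := fun s hs _ => hne _ (hrO (hadd s hs))
    co0 := fun _ q' => rfl
    co1 := fun h => absurd h hq }⟩
  · refine ⟨mem_ball_self hr, ?_⟩
    show (0 : ℝ) < (y0 / h x0).re
    rw [hx0h, div_self hq]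
    norm_num
  · intro s hs
    have h1 : deriv (fun s : ℂ => x0 + s) s = 1 := by
      rw [deriv_const_add, deriv_id'']
    rw [h1, inv_mul_cancel₀ (hne _ (hrO (hadd s hs)))]

/-- chart at a ramification point -/
theorem exists_chW (hp : Differentiable ℂ p) (q : Aff p) (hq : q.1.2 = 0)
    (hd : deriv p q.1.1 ≠ 0) : Nonempty (Ch p q) := by
  classical
  set x0 := q.1.1 with hx0
  have hp0 : p x0 = 0 := by
    have h : q.1.2 ^ 2 = p x0 := q.2
    rw [← h, hq]; norm_num
  have hpa : AnalyticAt ℂ p x0 := (hp.analyticAt x0)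
  have hU : {x | deriv p x ≠ 0} ∈ 𝓝 x0 :=
    hpa.deriv.continuousAt.eventually_ne hd
  obtain ⟨e, he1, he2, he3, he4, he5⟩ :=
    Crest.Agent.R266.SCV.exists_analytic_openPartialHomeomorph (E := ℂ) (F := ℂ) hpa
      (ContinuousLinearEquiv.unitsEquivAut ℂ (Units.mk0 _ hd))
      (by
        have h1 := (hp x0).hasDerivAt.hasFDerivAt
        refine h1.congr_fderiv ?_
        ext
        simp) hU
  have hex0 : e x0 = 0 := by rw [he3, hp0]
  have h0t : (0 : ℂ) ∈ e.target := by rw [← hex0]; exact e.map_source he1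
  have hop : IsOpen ((fun s : ℂ => s ^ 2) ⁻¹' e.target) := e.open_target.preimage (by fun_prop)
  obtain ⟨r, hr, hrO⟩ := Metric.isOpen_iff.1 hop 0 (by
    show (0 : ℂ) ^ 2 ∈ e.target
    rw [zero_pow two_ne_zero]; exact h0t)
  have hpe : ∀ z ∈ e.target, p (e.symm z) = z := fun z hz => by
    rw [← he3, e.right_inv hz]
  set inv : ℂ → Aff p := fun s => if hs : s ^ 2 ∈ e.target then ⟨(e.symm (s ^ 2), s), by
    show s ^ 2 = p (e.symm (s ^ 2))
    rw [hpe _ hs]⟩ else q with hinv
  have hinv' : ∀ s ∈ ball (0 : ℂ) r, (inv s).1 = (e.symm (s ^ 2), s) := by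
    intro s hs
    have : s ^ 2 ∈ e.target := hrO hs
    simp only [hinv, dif_pos this]
  set φ : OpenPartialHomeomorph (Aff p) ℂ :=
    { toFun := fun q' => q'.1.2
      invFun := inv
      source := {q' : Aff p | q'.1.1 ∈ e.source} ∩ {q' : Aff p | q'.1.2 ∈ ball 0 r}
      target := ball 0 r
      map_source' := fun q' h => h.2
      map_target' := by
        intro s hs
        refine ⟨?_, ?_⟩
        · show (inv s).1.1 ∈ e.source
          rw [hinv' s hs]
          exact e.map_target (hrO hs)
        · show (inv s).1.2 ∈ ball 0 r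
          rw [hinv' s hs]
          exact hs
      left_inv' := by
        rintro q' ⟨h1, h2⟩
        refine Subtype.ext ?_
        rw [hinv' _ h2]
        refine Prod.ext ?_ rfl
        show e.symm (q'.1.2 ^ 2) = q'.1.1
        have h3 : q'.1.2 ^ 2 = p q'.1.1 := q'.2
        rw [h3, ← he3, e.left_inv h1]
      right_inv' := by
        intro s hs
        show (inv s).1.2 = s
        rw [hinv' s hs]
      open_source := (e.open_source.preimage (continuous_fst.comp continuous_subtype_val)).inter
        (isOpen_ball.preimage (continuous_snd.comp continuous_subtype_val))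
      open_target := isOpen_ball
      continuousOn_toFun := (continuous_snd.comp continuous_subtype_val).continuousOn
      continuousOn_invFun := by
        rw [Topology.IsInducing.subtypeVal.continuousOn_iff]
        have h1 : ContinuousOn (fun s : ℂ => (e.symm (s ^ 2), s)) (ball 0 r) := by
          refine ContinuousOn.prodMk ?_ continuousOn_id
          exact e.symm.continuousOn.comp (by fun_prop) (fun s hs => hrO hs)
        exact h1.congr fun s hs => hinv' s hs } with hφ
  have hXan : AnalyticOnNhd ℂ (fun s => e.symm (s ^ 2)) (ball 0 r) := by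
    intro s hs
    exact AnalyticAt.comp (f := fun s => s ^ 2) (g := e.symm) (x := s) (he5 _ (hrO hs))
      (analyticAt_id.pow 2)
  have hX0 : ∀ s ∈ ball (0 : ℂ) r, deriv p (e.symm (s ^ 2)) ≠ 0 := fun s hs =>
    he2 (e.map_target (hrO hs))
  refine ⟨{
    φ := φ
    r := r
    r_pos := hr
    target := rfl
    mem := ?_
    zero := hq
    X := fun s => e.symm (s ^ 2)
    Y := fun s => s
    m := fun s => 2 / deriv p (e.symm (s ^ 2))
    X_an := hXan
    Y_an := fun s _ => analyticAt_id
    m_an := ?_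
    symm_eq := hinv'
    m_eq := ?_
    m_ne := fun s hs => div_ne_zero two_ne_zero (hX0 s hs)
    Y_ne := fun s _ h => h
    co0 := fun h => absurd hq h
    co1 := fun _ q' => rfl }⟩
  · refine ⟨he1, ?_⟩
    show q.1.2 ∈ ball 0 r
    rw [hq]; exact mem_ball_self hr
  · intro s hs
    have h1 : AnalyticAt ℂ (deriv p) (e.symm (s ^ 2)) := (hp.analyticAt _).deriv
    exact analyticAt_const.div (AnalyticAt.comp (f := fun s => e.symm (s ^ 2)) (x := s) h1
      (hXan s hs)) (hX0 s hs)
  · intro s hs
    have h1 : ∀ᶠ z in 𝓝 s, p (e.symm (z ^ 2)) = z ^ 2 := by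
      filter_upwards [isOpen_ball.mem_nhds hs] with z hz
      exact hpe _ (hrO hz)
    have hXd : HasDerivAt (fun s => e.symm (s ^ 2)) (deriv (fun s => e.symm (s ^ 2)) s) s :=
      (hXan s hs).differentiableAt.hasDerivAt
    have h2 : HasDerivAt (fun z => p (e.symm (z ^ 2)))
        (deriv p (e.symm (s ^ 2)) * deriv (fun s => e.symm (s ^ 2)) s) s :=
      HasDerivAt.comp s (h₂ := p) (hp _).hasDerivAt hXd
    have h3 : HasDerivAt (fun z : ℂ => z ^ 2) (2 * s) s := by
      simpa using hasDerivAt_pow 2 s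
    have h4 := (h2.congr_of_eventuallyEq (h1.mono fun z hz => hz.symm)).unique h3
    have h5 := hX0 s hs
    field_simp
    rw [← h4]

theorem exists_ch (hp : Differentiable ℂ p) (hs : ∀ x, p x = 0 → deriv p x ≠ 0) (q : Aff p) :
    Nonempty (Ch p q) := by
  by_cases h : q.1.2 = 0
  · refine exists_chW hp q h (hs _ ?_)
    have h1 : q.1.2 ^ 2 = p q.1.1 := q.2
    rw [← h1, h]; norm_num
  · exact exists_chU hp q h

end

end Crest.Agent.R272.Cur_297
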