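import Crest.Agent.R272.Cur2_297
import Crest.Agent.R272.Cur3_297
import Crest.Agent.R272.AJDefs_956

/-!
Row 272 (helper297): CUR-INST, part 4: the charts `k c`, the form `om c`, the local primitives `G c`,
and the instance of `AJ_956.Cur`.
-/

set_option autoImplicit false
set_option linter.unusedSectionVars false

open Set Filter Topology Metric Complex OnePoint

noncomputable section

namespace Crest.Agent.R272.Cur_297

open Crest.Agent.R272.AJ_956 (E2 det2)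

variable {P : Par}

def aq (c : Cv P) (h : tt c ≠ ∞) : Aff P.p0 := ⟨(tv c, yv c), yv_sq h⟩
def bq (c : Cv P) (h : tt c ≠ ((0 : ℂ) : P1)) : Aff P.p1 := ⟨(sv c, vv c), vv_sq h⟩

def ch0 (q : Aff P.p0) : Ch P.p0 q :=
  Classical.choice (exists_ch P.differentiable_p0 (fun _ h => P.simple_p0 h) q)
def ch1 (q : Aff P.p1) : Ch P.p1 q :=
  Classical.choice (exists_ch P.differentiable_p1 (fun _ h => P.simple_p1 h) q)

theorem nz {c : Cv P} (h : ¬ tt c ≠ ∞) : tt c ≠ ((0 : ℂ) : P1) := ne_zero_of_inf (not_not.1 h)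

/-- `(1, t)` -/
def la (t : ℂ) : E2 := ![1, t]
/-- `-(s, 1)` -/
def lb (s : ℂ) : E2 := ![-s, -1]

open Classical in
/-- the charts -/
def k (c : Cv P) : OpenPartialHomeomorph (Cv P) ℂ :=
  if h : tt c ≠ ∞ then (E0 P).trans (ch0 (aq c h)).φ else (E1 P).trans (ch1 (bq c (nz h))).φ

open Classical in
def rad (c : Cv P) : ℝ := if h : tt c ≠ ∞ then (ch0 (aq c h)).r else (ch1 (bq c (nz h))).r

open Classical in
/-- the form `(1, t) dt / y` in the chart `k c` -/
def om (c : Cv P) : ℂ → E2 :=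
  if h : tt c ≠ ∞ then fun s => (ch0 (aq c h)).m s • la ((ch0 (aq c h)).X s)
  else fun s => (ch1 (bq c (nz h))).m s • lb ((ch1 (bq c (nz h))).X s)

theorem k_eq0 {c : Cv P} (h : tt c ≠ ∞) : k c = (E0 P).trans (ch0 (aq c h)).φ := dif_pos h
theorem k_eq1 {c : Cv P} (h : ¬ tt c ≠ ∞) : k c = (E1 P).trans (ch1 (bq c (nz h))).φ := dif_neg h
theorem rad_eq0 {c : Cv P} (h : tt c ≠ ∞) : rad c = (ch0 (aq c h)).r := dif_pos h
theorem rad_eq1 {c : Cv P} (h : ¬ tt c ≠ ∞) : rad c = (ch1 (bq c (nz h))).r := dif_neg h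
theorem om_eq0 {c : Cv P} (h : tt c ≠ ∞) :
    om c = fun s => (ch0 (aq c h)).m s • la ((ch0 (aq c h)).X s) := dif_pos h
theorem om_eq1 {c : Cv P} (h : ¬ tt c ≠ ∞) :
    om c = fun s => (ch1 (bq c (nz h))).m s • lb ((ch1 (bq c (nz h))).X s) := dif_neg h

theorem rad_pos (c : Cv P) : 0 < rad c := by
  by_cases h : tt c ≠ ∞
  · rw [rad_eq0 h]; exact (ch0 (aq c h)).r_pos
  · rw [rad_eq1 h]; exact (ch1 (bq c (nz h))).r_pos

theorem k_target (c : Cv P) : (k c).target = ball 0 (rad c) := by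
  by_cases h : tt c ≠ ∞
  · rw [k_eq0 h, rad_eq0 h, OpenPartialHomeomorph.trans_target, E0_target, preimage_univ,
      inter_univ, (ch0 (aq c h)).target]
  · rw [k_eq1 h, rad_eq1 h, OpenPartialHomeomorph.trans_target, E1_target, preimage_univ,
      inter_univ, (ch1 (bq c (nz h))).target]

theorem k_mem (c : Cv P) : c ∈ (k c).source := by
  by_cases h : tt c ≠ ∞
  · rw [k_eq0 h, OpenPartialHomeomorph.trans_source]
    refine ⟨h, ?_⟩
    rw [mem_preimage, E0_apply h]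
    exact (ch0 (aq c h)).mem
  · rw [k_eq1 h, OpenPartialHomeomorph.trans_source]
    refine ⟨nz h, ?_⟩
    rw [mem_preimage, E1_apply (nz h)]
    exact (ch1 (bq c (nz h))).mem

theorem k_source0 {c : Cv P} (h : tt c ≠ ∞) {y : Cv P} (hy : y ∈ (k c).source) : tt y ≠ ∞ := by
  rw [k_eq0 h, OpenPartialHomeomorph.trans_source] at hy
  exact hy.1

theorem k_source1 {c : Cv P} (h : ¬ tt c ≠ ∞) {y : Cv P} (hy : y ∈ (k c).source) :
    tt y ≠ ((0 : ℂ) : P1) := by
  rw [k_eq1 h, OpenPartialHomeomorph.trans_source] at hy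
  exact hy.1

/-- the coordinate at an unramified finite point -/
theorem k_apply_t {c : Cv P} (h : tt c ≠ ∞) (h0 : yv c ≠ 0) {y : Cv P} (hy : tt y ≠ ∞) :
    k c y = tv y - tv c := by
  rw [k_eq0 h, OpenPartialHomeomorph.trans_apply, E0_apply hy]
  exact (ch0 (aq c h)).co0 h0 _

/-- the coordinate at a Weierstrass point -/
theorem k_apply_y {c : Cv P} (h : tt c ≠ ∞) (h0 : yv c = 0) {y : Cv P} (hy : tt y ≠ ∞) :
    k c y = yv y := by
  rw [k_eq0 h, OpenPartialHomeomorph.trans_apply, E0_apply hy]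
  exact (ch0 (aq c h)).co1 h0 _

theorem sv_inf {c : Cv P} (h : ¬ tt c ≠ ∞) : sv c = 0 := by
  unfold sv; rw [not_not.1 h]; rfl

theorem vv_inf {c : Cv P} (h : ¬ tt c ≠ ∞) : vv c ≠ 0 := by
  intro h0
  have := vv_sq (nz h)
  rw [h0, sv_inf h, P.p1_zero] at this
  norm_num at this

/-- the coordinate at infinity -/
theorem k_apply_s {c : Cv P} (h : ¬ tt c ≠ ∞) {y : Cv P} (hy : tt y ≠ ((0 : ℂ) : P1)) :
    k c y = sv y := by
  rw [k_eq1 h, OpenPartialHomeomorph.trans_apply, E1_apply hy]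
  refine ((ch1 (bq c (nz h))).co0 (vv_inf h) _).trans ?_
  show sv y - sv c = sv y
  rw [sv_inf h, sub_zero]

theorem k_zero (c : Cv P) : k c c = 0 := by
  by_cases h : tt c ≠ ∞
  · by_cases h0 : yv c = 0
    · rw [k_apply_y h h0 h, h0]
    · rw [k_apply_t h h0 h, sub_self]
  · rw [k_apply_s h (nz h), sv_inf h]

theorem symm0 {c : Cv P} (h : tt c ≠ ∞) {s : ℂ} (hs : s ∈ ball (0 : ℂ) (rad c)) :
    tt ((k c).symm s) ≠ ∞ ∧ tv ((k c).symm s) = (ch0 (aq c h)).X s ∧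
      yv ((k c).symm s) = (ch0 (aq c h)).Y s := by
  rw [rad_eq0 h] at hs
  have h1 := (ch0 (aq c h)).symm_eq s hs
  have h2 : (k c).symm s = mk0 ((ch0 (aq c h)).φ.symm s) := by
    rw [k_eq0 h]; rfl
  rw [h2]
  refine ⟨OnePoint.coe_ne_infty _, ?_, ?_⟩
  · rw [tv_mk0, h1]
  · rw [yv_mk0, h1]

theorem symm1 {c : Cv P} (h : ¬ tt c ≠ ∞) {s : ℂ} (hs : s ∈ ball (0 : ℂ) (rad c)) :
    tt ((k c).symm s) ≠ ((0 : ℂ) : P1) ∧ sv ((k c).symm s) = (ch1 (bq c (nz h))).X s ∧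
      vv ((k c).symm s) = (ch1 (bq c (nz h))).Y s := by
  rw [rad_eq1 h] at hs
  have h1 := (ch1 (bq c (nz h))).symm_eq s hs
  have h2 : (k c).symm s = mk1 ((ch1 (bq c (nz h))).φ.symm s) := by
    rw [k_eq1 h]; rfl
  rw [h2]
  refine ⟨(E1 P).map_target (mem_univ _), ?_, ?_⟩
  · rw [sv_mk1, h1]
  · rw [vv_mk1, h1]

theorem tv_eq {c : Cv P} : tv c = (sv c)⁻¹ := by
  by_cases h : tt c = ∞
  · unfold tv sv; rw [h]; simp
  · rw [sv_eq h, inv_inv]

theorem yv_eq {c : Cv P} (h : tt c ≠ ∞) (h0 : tt c ≠ ((0 : ℂ) : P1)) :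
    yv c = vv c / sv c ^ 3 := by
  have ht := tv_ne h h0
  rw [vv_eq h h0, sv_eq h]
  field_simp

theorem sv_ne {c : Cv P} (h : tt c ≠ ∞) (h0 : tt c ≠ ((0 : ℂ) : P1)) : sv c ≠ 0 := by
  rw [sv_eq h]; exact inv_ne_zero (tv_ne h h0)

theorem ev_open {c : Cv P} {s : ℂ} (hs : s ∈ (k c).target) {O : Set (Cv P)} (hO : IsOpen O)
    (h : (k c).symm s ∈ O) : ∀ᶠ z in 𝓝 s, z ∈ (k c).target ∧ (k c).symm z ∈ O := by
  filter_upwards [(k c).open_target.mem_nhds hs,
    ((k c).continuousAt_symm hs).preimage_mem_nhds (hO.mem_nhds h)] with z h1 h2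
  exact ⟨h1, h2⟩

theorem analyticAt_la {f : ℂ → ℂ} {s : ℂ} (hf : AnalyticAt ℂ f s) :
    AnalyticAt ℂ (fun z => la (f z)) s := by
  unfold la
  rw [analyticAt_pi_iff]
  intro i
  fin_cases i
  · exact analyticAt_const
  · exact hf

theorem analyticAt_lb {f : ℂ → ℂ} {s : ℂ} (hf : AnalyticAt ℂ f s) :
    AnalyticAt ℂ (fun z => lb (f z)) s := by
  unfold lb
  rw [analyticAt_pi_iff]
  intro i
  fin_cases i
  · exact hf.neg
  · exact analyticAt_const

theorem om_an (c : Cv P) : AnalyticOnNhd ℂ (om c) (k c).target := by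
  rw [k_target]
  by_cases h : tt c ≠ ∞
  · rw [rad_eq0 h, om_eq0 h]
    exact fun s hs => ((ch0 (aq c h)).m_an s hs).smul (analyticAt_la ((ch0 (aq c h)).X_an s hs))
  · rw [rad_eq1 h, om_eq1 h]
    exact fun s hs => ((ch1 (bq c (nz h))).m_an s hs).smul
      (analyticAt_lb ((ch1 (bq c (nz h))).X_an s hs))

/-- data of a chart in the affine coordinates -/
structure Rep (f g : ℂ → ℂ) (w : ℂ → E2) (l : ℂ → E2) (s : ℂ) : Prop where
  f_an : AnalyticAt ℂ f s
  g_an : AnalyticAt ℂ g s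
  g_ne : ∀ᶠ z in 𝓝[≠] s, g z ≠ 0
  eq : ∀ᶠ z in 𝓝 s, g z • w z = deriv f z • l (f z)

theorem Rep.congr {f g f' g' : ℂ → ℂ} {w l : ℂ → E2} {s : ℂ} (h : Rep f g w l s)
    (hf : f' =ᶠ[𝓝 s] f) (hg : g' =ᶠ[𝓝 s] g) : Rep f' g' w l s where
  f_an := h.f_an.congr hf.symm
  g_an := h.g_an.congr hg.symm
  g_ne := by
    filter_upwards [h.g_ne, hg.filter_mono nhdsWithin_le_nhds] with z h1 h2
    rw [h2]; exact h1
  eq := by
    filter_upwards [h.eq, hf.deriv, hf, hg] with z h1 h2 h3 h4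
    rw [h2, h3, h4]; exact h1

theorem rep_base {p : ℂ → ℂ} {q : Aff p} (C : Ch p q) {l : ℂ → E2} {s : ℂ}
    (hs : s ∈ ball (0 : ℂ) C.r) : Rep C.X C.Y (fun z => C.m z • l (C.X z)) l s where
  f_an := C.X_an s hs
  g_an := C.Y_an s hs
  g_ne := by
    have h1 : ∀ᶠ z in 𝓝[≠] s, z ∈ ball (0 : ℂ) C.r :=
      mem_nhdsWithin_of_mem_nhds (isOpen_ball.mem_nhds hs)
    have h2 : ∀ᶠ z in 𝓝[≠] s, z ≠ 0 := by
      by_cases h : s = 0
      · rw [h]; exact self_mem_nhdsWithin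
      · exact mem_nhdsWithin_of_mem_nhds (isOpen_ne.mem_nhds h)
    filter_upwards [h1, h2] with z h3 h4
    exact C.Y_ne z h3 h4
  eq := by
    filter_upwards [isOpen_ball.mem_nhds hs] with z hz
    rw [smul_smul, mul_comm, C.m_eq z hz]

/-- passing from one piece to the other -/
theorem rep_inv {f g : ℂ → ℂ} {w l l' : ℂ → E2} {s : ℂ} (h : Rep f g w l s) (hf : f s ≠ 0)
    (hl : ∀ x, x ≠ 0 → l x = -(x ^ 1) • l' x⁻¹) : Rep (fun z => (f z)⁻¹) (fun z => g z / f z ^ 3) w l' s where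
  f_an := h.f_an.inv hf
  g_an := h.g_an.div (h.f_an.pow 3) (pow_ne_zero 3 hf)
  g_ne := by
    have h1 : ∀ᶠ z in 𝓝[≠] s, f z ≠ 0 :=
      mem_nhdsWithin_of_mem_nhds (h.f_an.continuousAt.eventually_ne hf)
    filter_upwards [h1, h.g_ne] with z h1 h2
    exact div_ne_zero h2 (pow_ne_zero 3 h1)
  eq := by
    filter_upwards [h.eq, h.f_an.continuousAt.eventually_ne hf, h.f_an.eventually_analyticAt]
      with z h1 h2 h3
    have h4 : deriv (fun z => (f z)⁻¹) z = -deriv f z / f z ^ 2 := by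
      rw [deriv_fun_inv'' h3.differentiableAt h2]
    rw [h4, div_eq_inv_mul, mul_smul, h1, hl _ h2, smul_smul, smul_smul]
    congr 1
    field_simp

theorem R0 (c : Cv P) {s : ℂ} (hs : s ∈ (k c).target) (h0 : tt ((k c).symm s) ≠ ∞) :
    Rep (fun z => tv ((k c).symm z)) (fun z => yv ((k c).symm z)) (om c) la s := by
  by_cases h : tt c ≠ ∞
  · have hs' : s ∈ ball (0 : ℂ) (ch0 (aq c h)).r := by rw [← rad_eq0 h, ← k_target]; exact hs
    have h1 := rep_base (ch0 (aq c h)) (l := la) hs'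
    rw [om_eq0 h]
    have hev : ∀ᶠ z in 𝓝 s, z ∈ ball (0 : ℂ) (rad c) := by
      rw [k_target] at hs; exact isOpen_ball.mem_nhds hs
    exact h1.congr (hev.mono fun z hz => (symm0 h hz).2.1) (hev.mono fun z hz => (symm0 h hz).2.2)
  · have hs' : s ∈ ball (0 : ℂ) (ch1 (bq c (nz h))).r := by
      rw [← rad_eq1 h, ← k_target]; exact hs
    have h1 := rep_base (ch1 (bq c (nz h))) (l := lb) hs'
    rw [om_eq1 h]
    have hsb : s ∈ ball (0 : ℂ) (rad c) := by rw [← k_target]; exact hs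
    have hX : (ch1 (bq c (nz h))).X s ≠ 0 := by
      rw [← (symm1 h hsb).2.1]
      exact sv_ne h0 (symm1 h hsb).1
    have h2 := rep_inv h1 hX (l' := la) (by
      intro x hx
      ext i
      fin_cases i
      · simp [lb, la]
      · simp [lb, la, hx])
    have hev : ∀ᶠ z in 𝓝 s, z ∈ (k c).target ∧ (k c).symm z ∈ {c : Cv P | tt c ≠ ∞} :=
      ev_open hs isOpen_ne_inf h0
    refine h2.congr (hev.mono fun z hz => ?_) (hev.mono fun z hz => ?_)
    · have hzb : z ∈ ball (0 : ℂ) (rad c) := by rw [← k_target]; exact hz.1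
      show tv ((k c).symm z) = ((ch1 (bq c (nz h))).X z)⁻¹
      rw [← (symm1 h hzb).2.1, tv_eq]
    · have hzb : z ∈ ball (0 : ℂ) (rad c) := by rw [← k_target]; exact hz.1
      show yv ((k c).symm z) = (ch1 (bq c (nz h))).Y z / (ch1 (bq c (nz h))).X z ^ 3
      rw [← (symm1 h hzb).2.1, ← (symm1 h hzb).2.2, yv_eq hz.2 (symm1 h hzb).1]

theorem R1 (c : Cv P) {s : ℂ} (hs : s ∈ (k c).target) (h0 : tt ((k c).symm s) ≠ ((0 : ℂ) : P1)) :
    Rep (fun z => sv ((k c).symm z)) (fun z => vv ((k c).symm z)) (om c) lb s := by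
  by_cases h : tt c ≠ ∞
  · have hs' : s ∈ ball (0 : ℂ) (ch0 (aq c h)).r := by rw [← rad_eq0 h, ← k_target]; exact hs
    have h1 := rep_base (ch0 (aq c h)) (l := la) hs'
    rw [om_eq0 h]
    have hsb : s ∈ ball (0 : ℂ) (rad c) := by rw [← k_target]; exact hs
    have hX : (ch0 (aq c h)).X s ≠ 0 := by
      rw [← (symm0 h hsb).2.1]
      exact tv_ne (symm0 h hsb).1 h0
    have h2 := rep_inv h1 hX (l' := lb) (by
      intro x hx
      ext i
      fin_cases i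
      · simp [lb, la, hx]
      · simp [lb, la])
    have hev : ∀ᶠ z in 𝓝 s, z ∈ (k c).target ∧ (k c).symm z ∈ {c : Cv P | tt c ≠ ((0 : ℂ) : P1)} :=
      ev_open hs isOpen_ne_zero h0
    refine h2.congr (hev.mono fun z hz => ?_) (hev.mono fun z hz => ?_)
    · have hzb : z ∈ ball (0 : ℂ) (rad c) := by rw [← k_target]; exact hz.1
      show sv ((k c).symm z) = ((ch0 (aq c h)).X z)⁻¹
      rw [← (symm0 h hzb).2.1, sv_eq (symm0 h hzb).1]
    · have hzb : z ∈ ball (0 : ℂ) (rad c) := by rw [← k_target]; exact hz.1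
      show vv ((k c).symm z) = (ch0 (aq c h)).Y z / (ch0 (aq c h)).X z ^ 3
      rw [← (symm0 h hzb).2.1, ← (symm0 h hzb).2.2, vv_eq (symm0 h hzb).1 hz.2]
  · have hs' : s ∈ ball (0 : ℂ) (ch1 (bq c (nz h))).r := by
      rw [← rad_eq1 h, ← k_target]; exact hs
    have h1 := rep_base (ch1 (bq c (nz h))) (l := lb) hs'
    rw [om_eq1 h]
    have hev : ∀ᶠ z in 𝓝 s, z ∈ ball (0 : ℂ) (rad c) := by
      rw [k_target] at hs; exact isOpen_ball.mem_nhds hs
    exact h1.congr (hev.mono fun z hz => (symm1 h hz).2.1) (hev.mono fun z hz => (symm1 h hz).2.2)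

/-- transfer of the form under a holomorphic map -/
theorem transfer {f1 g1 f2 g2 : ℂ → ℂ} {w1 w2 l : ℂ → E2} {τ : ℂ → ℂ} {s ε : ℂ}
    (hτ : AnalyticAt ℂ τ s) (h1 : Rep f1 g1 w1 l s) (h2 : Rep f2 g2 w2 l (τ s))
    (hf : ∀ᶠ z in 𝓝 s, f2 (τ z) = f1 z) (hg : ∀ᶠ z in 𝓝 s, g2 (τ z) = ε * g1 z)
    (hw1 : AnalyticAt ℂ w1 s) (hw2 : AnalyticAt ℂ w2 (τ s)) :
    ∀ᶠ z in 𝓝 s, w1 z - (ε * deriv τ z) • w2 (τ z) = 0 := by
  have ha : AnalyticAt ℂ (fun z => w1 z - (ε * deriv τ z) • w2 (τ z)) s :=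
    hw1.sub ((analyticAt_const.mul hτ.deriv).smul
      (AnalyticAt.comp (f := τ) (g := w2) (x := s) hw2 hτ))
  have hp : ∀ᶠ z in 𝓝[≠] s, w1 z - (ε * deriv τ z) • w2 (τ z) = 0 := by
    have hlift : ∀ {Q : ℂ → Prop}, (∀ᶠ z in 𝓝 s, Q z) → ∀ᶠ z in 𝓝[≠] s, Q z :=
      fun h => mem_nhdsWithin_of_mem_nhds h
    have hderiv : ∀ᶠ z in 𝓝 s, deriv f1 z = deriv f2 (τ z) * deriv τ z := by
      filter_upwards [hf.eventually_nhds, hτ.eventually_analyticAt,
        hτ.continuousAt.eventually h2.f_an.eventually_analyticAt] with z h3 h4 h5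
      have h6 : HasDerivAt (fun z => f2 (τ z)) (deriv f2 (τ z) * deriv τ z) z :=
        HasDerivAt.comp z (h₂ := f2) h5.differentiableAt.hasDerivAt h4.differentiableAt.hasDerivAt
      exact (h6.congr_of_eventuallyEq (h3.mono fun z hz => hz.symm)).deriv
    filter_upwards [hlift h1.eq, hlift (hτ.continuousAt.eventually h2.eq), hlift hf, hlift hg,
      hlift hderiv, h1.g_ne] with z e1 e2 e3 e4 e5 e6
    have e7 : g1 z • (w1 z - (ε * deriv τ z) • w2 (τ z)) = 0 := by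
      have e8 : (g1 z * (ε * deriv τ z)) • w2 (τ z) =
          deriv τ z • (deriv f2 (τ z) • l (f1 z)) := by
        have : g1 z * (ε * deriv τ z) = deriv τ z * g2 (τ z) := by rw [e4]; ring
        rw [this, mul_smul, e2, e3]
      rw [smul_sub, e1, e5, smul_smul (g1 z), e8, smul_smul, mul_comm (deriv τ z), sub_self]
    exact (smul_eq_zero.1 e7).resolve_left e6
  rcases ha.eventually_eq_zero_or_eventually_ne_zero with h | h
  · exact h
  · exact absurd (hp.and h) (fun hcon => by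
      obtain ⟨z, hz⟩ := hcon.exists
      exact hz.2 hz.1)

/-! ### primitives -/

theorem exists_G (c : Cv P) : ∃ G : ℂ → E2, G 0 = 0 ∧ ∀ z ∈ (k c).target, HasDerivAt G (om c z) z := by
  have h1 : DifferentiableOn ℂ (om c) (ball 0 (rad c)) := by
    rw [← k_target]; exact (om_an c).differentiableOn
  obtain ⟨g, hg⟩ := h1.isExactOn_ball
  refine ⟨fun z => g z - g 0, sub_self _, fun z hz => ?_⟩
  rw [k_target] at hz
  exact (hg z hz).sub_const _

def G (c : Cv P) : ℂ → E2 := Classical.choose (exists_G c)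

theorem G_zero (c : Cv P) : G c 0 = 0 := (Classical.choose_spec (exists_G c)).1
theorem hasDerivAt_G (c : Cv P) {z : ℂ} (hz : z ∈ (k c).target) : HasDerivAt (G c) (om c z) z :=
  (Classical.choose_spec (exists_G c)).2 z hz

theorem G_an (c : Cv P) : AnalyticOnNhd ℂ (G c) (k c).target :=
  DifferentiableOn.analyticOnNhd
    (fun _ hz => (hasDerivAt_G c hz).differentiableAt.differentiableWithinAt) (k c).open_target

theorem deriv_G (c : Cv P) {z : ℂ} (hz : z ∈ (k c).target) : deriv (G c) z = om c z :=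
  (hasDerivAt_G c hz).deriv

theorem zero_mem (c : Cv P) : (0 : ℂ) ∈ (k c).target := by
  rw [k_target]; exact mem_ball_self (rad_pos c)

theorem symm_zero (c : Cv P) : (k c).symm 0 = c := by
  rw [← k_zero c]; exact (k c).left_inv (k_mem c)

/-- a function with derivative zero near a point is constant near it -/
theorem const_of_deriv {H : ℂ → E2} {s : ℂ} (h : ∀ᶠ z in 𝓝 s, HasDerivAt H 0 z) :
    ∀ᶠ z in 𝓝 s, H z = H s := by
  obtain ⟨r, hr, hb⟩ := Metric.eventually_nhds_iff_ball.1 h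
  filter_upwards [isOpen_ball.mem_nhds (mem_ball_self hr)] with z hz
  exact isOpen_ball.is_const_of_deriv_eq_zero (convex_ball s r).isPreconnected
    (fun z hz => (hb z hz).differentiableAt.differentiableWithinAt)
    (fun z hz => (hb z hz).deriv) hz (mem_ball_self hr)

end Crest.Agent.R272.Cur_297
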