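import Crest.Agent.R272.Tq3_916
import Crest.Agent.R272.Cur4_297

/-!
# R272 (S0415), MOD-TP (helper916): the points of the curve over `∞`

* `infc c h`   : the chart `k c` of 297 at a point over `∞` as an `Inf`;
* `pinf b`     : the two points over `∞` (`κ = 1`, `κ = -1`), `tt_inf_iff`;
* `exists_c`   : a point with `t ≠ 0, ∞`;
* `exists_EijC`, `coverC` : `exists_Eij`, `coverX` without the auxiliary hypotheses.
-/

set_option autoImplicit false
set_option linter.unusedSectionVars false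

open Set Filter Topology OnePoint

namespace Crest.Agent.R272.Tq4_916

open Crest.Agent.R272.Tp1_60 Crest.Agent.R272.Tp2_60 Crest.Agent.R272.Tp3_60
  Crest.Agent.R272.Tp4_60 Crest.Agent.R272.Tq1_916 Crest.Agent.R272.Tq3_916
open Crest.Agent.R272.Cur_297 (Par Cv Cset Eqn hA hB tt kk continuous_tt continuous_kk k rad
  rad_pos k_target k_mem k_source1 k_apply_s sv finv surjective_tt)

noncomputable section

variable {P : Par}

theorem finv_eq (t : P1) : finv t = iv t := by
  induction t using OnePoint.rec with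
  | infty => simp
  | coe c => simp

/-- the chart of 297 at a point over `∞` -/
def infc (c : Cv P) (h : tt c = ∞) : Inf (tt : Cv P → P1) where
  e := k c
  r := rad c
  r_pos := rad_pos c
  tgt := k_target c
  ne := fun y hy => k_source1 (not_not.2 h) hy
  val := fun y hy => by
    rw [k_apply_s (not_not.2 h) (k_source1 (not_not.2 h) hy)]
    exact (finv_eq _).symm

theorem infc_mem (c : Cv P) (h : tt c = ∞) : c ∈ (infc c h).e.source := k_mem c

@[simp] theorem infc_e (c : Cv P) (h : tt c = ∞) : (infc c h).e = k c := rfl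
@[simp] theorem infc_r (c : Cv P) (h : tt c = ∞) : (infc c h).r = rad c := rfl

/-- sign -/
def sg (b : Bool) : ℂ := if b then 1 else -1

theorem sg_sq (b : Bool) : sg b ^ 2 = 1 := by cases b <;> simp [sg]

variable (P) in
/-- the two points over `∞` -/
def pinf (b : Bool) : Cv P := ⟨(∞, ((sg b : ℂ) : P1)), by
  show Eqn P ∞ _
  rw [Cur_297.eqn_inf_coe]
  exact sg_sq b⟩

@[simp] theorem tt_pinf (b : Bool) : tt (pinf P b) = ∞ := rfl
@[simp] theorem kk_pinf (b : Bool) : kk (pinf P b) = ((sg b : ℂ) : P1) := rfl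

theorem tt_inf_iff {c : Cv P} : tt c = ∞ ↔ ∃ b, c = pinf P b := by
  constructor
  · intro h
    have he := Cur_297.eqn c
    rw [h] at he
    have hk : kk c ≠ ∞ := by
      intro hk
      rw [hk] at he
      exact Cur_297.eqn_inf_inf.1 he
    rw [← Cur_297.coe_fin hk, Cur_297.eqn_inf_coe] at he
    replace he : Cur_297.fin (kk c) = 1 ∨ Cur_297.fin (kk c) = -1 := by
      rcases mul_eq_zero.1 (by linear_combination he :
        (Cur_297.fin (kk c) - 1) * (Cur_297.fin (kk c) + 1) = 0) with h1 | h1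
      · exact Or.inl (sub_eq_zero.1 h1)
      · exact Or.inr (eq_neg_of_add_eq_zero_left h1)
    rcases he with he | he
    · refine ⟨true, Cur_297.ext_c (by rw [h]; rfl) ?_⟩
      rw [← Cur_297.coe_fin hk, he]; rfl
    · refine ⟨false, Cur_297.ext_c (by rw [h]; rfl) ?_⟩
      rw [← Cur_297.coe_fin hk, he]; rfl
  · rintro ⟨b, rfl⟩; rfl

theorem pinf_ne : pinf P true ≠ pinf P false := by
  intro h
  have h1 : ((sg true : ℂ) : P1) = ((sg false : ℂ) : P1) := congrArg kk h
  have h2 := OnePoint.coe_injective h1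
  simp only [sg, if_true, Bool.false_eq_true, if_false] at h2
  norm_num at h2

/-- the `Inf` at the point `pinf b` -/
def ib (P : Par) (b : Bool) : Inf (tt : Cv P → P1) := infc (pinf P b) rfl

theorem ib_cover (c : Cv P) (h : tt c = ∞) : ∃ b, c ∈ (ib P b).e.source := by
  obtain ⟨b, rfl⟩ := tt_inf_iff.1 h
  exact ⟨b, k_mem _⟩

theorem exists_c (P : Par) : ∃ c : Cv P, tt c ≠ ∞ ∧ tt c ≠ ((0 : ℂ) : P1) := by
  obtain ⟨c, hc⟩ := surjective_tt (P := P) ((1 : ℂ) : P1)
  refine ⟨c, by rw [hc]; exact OnePoint.coe_ne_infty _, ?_⟩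
  rw [hc]
  intro h
  exact one_ne_zero (OnePoint.coe_injective h)

variable {N : Type} [TopologicalSpace N]
  (L : Loc P N) (X : Set (E6 N)) (hX : ∀ y : E6 N, y.1 ∈ L.sh.source → (y ∈ X ↔ RelX L y))
  {r : ℝ} (hr : 0 < r) (hb : Metric.ball (0 : ℂ × ℂ × ℂ) r ⊆ L.sh.target)

include hX hr hb in
theorem exists_EijC (i j : Fin 2) :
    ∃ E : OpenPartialHomeomorph ((Cv P × Cv P) × ℂ) X, E.source = DEij P r i j ∧
      ∀ p ∈ DEij P r i j, (E p).1 = L.fro (FEij P i j p) ∧
        FEij P i j p ∈ Std (tt : Cv P → P1) ∧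
        (FEij P i j p).1 ∈ Metric.ball (0 : ℂ × ℂ × ℂ) r :=
  exists_Eij L X hX hr hb i j (exists_c P)

include hX in
theorem coverC {y : X} (hy : y.1.1 ∈ L.sh.source)
    (hyb : L.sh y.1.1 ∈ Metric.ball (0 : ℂ × ℂ × ℂ) r) :
    (∃ (i j : Fin 2) (p : (Cv P × Cv P) × ℂ), tt p.1.1 ≠ pole i ∧ tt p.1.2 ≠ pole j ∧
        (FEij P i j p).1 = L.sh y.1.1 ∧ y.1 = L.fro (FEij P i j p)) ∨
      ∃ (b b' : Bool) (p : ℂ × ℂ × ℂ), p ∈ DEm (ib P b) (ib P b') r ∧
        (fm (ib P b) (ib P b') p).1 = L.sh y.1.1 ∧ y.1 = L.fro (fm (ib P b) (ib P b') p) :=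
  coverX L X hX (ib P) ib_cover hy hyb

end

end Crest.Agent.R272.Tq4_916
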