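import Crest.Agent.R272.PosP3_848
import Crest.Agent.R272.PosP6_848
import Crest.Agent.R272.Kum6_977
import Crest.Agent.R272.PosL3_898
import Crest.Agent.R272.Tq4_916
import Crest.Agent.R272.Cur6_297

/-!
# R272 (S0415), POS at `p0` (helper848), part 7: the charts of `Y` over the cluster

* `mc`, `MCpt`  : coordinates `(m, s, s')`, compatible charts;
* `YC`          : the cover `Y` over a neighbourhood of the cluster point: `st : Y → Amb (Cv P)`
                  and charts `E i j` (916's `FEij`), `M b b'` (916's `fm`);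
* `YC.ec`       : 977's `EC` for the functions of `PosP3` in the chart `E i j`.
-/

set_option autoImplicit false
set_option linter.unusedSectionVars false
set_option linter.unusedVariables false

open Set Filter Topology Complex OnePoint

namespace Crest.Agent.R272.PosP7_848

open Crest.Agent.R275.Geo Crest.Agent.R273.Fam_835
open Crest.Agent.R272.Cur_297 (Par Cv cur tt kk fin tv yv sv vv Pz)
open Crest.Agent.R272.Tp2_60 (Amb Std)
open Crest.Agent.R272.Tq1_916 (pole dl nu fij fm Inf Dm swA)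
open Crest.Agent.R272.Tq3_916 (FEij)
open Crest.Agent.R272.Tq4_916 (ib pinf)
open Crest.Agent.R272.PosP3_848
open Crest.Agent.R272.Kum_977 (cf ECpt EC ech_E ECh)
open Crest.Agent.R272.PW_92 (IPhi Phi)
open Crest.Agent.R272.Lc_220
open Crest.Agent.R272.AJ_956 (Cur)

noncomputable section

/-- `(m, s, s')` as a vector -/
def mc : (ℂ × ℂ × ℂ) ≃L[ℂ] Cn 3 :=
  LinearEquiv.toContinuousLinearEquiv
    { toFun := fun p => WithLp.toLp 2 ![p.1, p.2.1, p.2.2]
      invFun := fun z => (z 0, z 1, z 2)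
      map_add' := by
        intro p q
        ext i
        fin_cases i <;> simp
      map_smul' := by
        intro r p
        ext i
        fin_cases i <;> simp
      left_inv := by
        intro p
        simp
      right_inv := by
        intro z
        ext i
        fin_cases i <;> simp }

@[simp] theorem mc_0 (p : ℂ × ℂ × ℂ) : mc p 0 = p.1 := rfl
@[simp] theorem mc_1 (p : ℂ × ℂ × ℂ) : mc p 1 = p.2.1 := rfl
@[simp] theorem mc_2 (p : ℂ × ℂ × ℂ) : mc p 2 = p.2.2 := rfl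
@[simp] theorem mc_symm (z : Cn 3) : mc.symm z = (z 0, z 1, z 2) := rfl

variable {Y N : Type} [TopologicalSpace Y]

/-- a compatible chart with coordinates `(m, s, s')` -/
def MCpt (CY : Fam 3 Y) (E : OpenPartialHomeomorph (ℂ × ℂ × ℂ) Y) : Prop :=
  Refl_246.Cpt CY (E.symm.transHomeomorph mc.toHomeomorph)

/-- **the cover `Y` over a neighbourhood of the cluster point** -/
structure YC (P : Par) (CY : Fam 3 Y) (Pm : Y → N) (z₀ : N) (O : Set Y) where
  /-- standard coordinates -/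
  st : Y → Amb (Cv P)
  E : Fin 2 → Fin 2 → OpenPartialHomeomorph ((Cv P × Cv P) × ℂ) Y
  cE : ∀ i j, ECpt (cur P) CY (E i j)
  hE : ∀ i j, ∀ p ∈ (E i j).source, tt p.1.1 ≠ pole i ∧ tt p.1.2 ≠ pole j
  sE : ∀ i j, ∀ p ∈ (E i j).source, st (E i j p) = FEij P i j p
  M : Bool → Bool → OpenPartialHomeomorph (ℂ × ℂ × ℂ) Y
  cM : ∀ b b', MCpt CY (M b b')
  hM : ∀ b b', ∀ q ∈ (M b b').source, q ∈ Dm (ib P b) (ib P b')
  sM : ∀ b b', ∀ q ∈ (M b b').source, st (M b b' q) = fm (ib P b) (ib P b') q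
  hO : IsOpen O
  /-- the bad fibre: the zero section and the lines over `(∞, ∞)` -/
  fib : ∀ y, Pm y = z₀ → y ∈ O ∧
    ((∃ i j x, (x, (0 : ℂ)) ∈ (E i j).source ∧ E i j (x, 0) = y) ∨
      ∃ b b' m, (m, (0 : ℂ), (0 : ℂ)) ∈ (M b b').source ∧ M b b' (m, 0, 0) = y)
  /-- off the bad fibre -/
  off : ∀ y ∈ O, Pm y ≠ z₀ →
    ((∃ i j p, p ∈ (E i j).source ∧ E i j p = y ∧ p.2 ≠ 0) ∨
      ∃ b b' q, q ∈ (M b b').source ∧ M b b' q = y ∧ (q.2.1 ≠ 0 ∨ q.2.2 ≠ 0))

namespace YC

variable {P : Par} {CY : Fam 3 Y} {Pm : Y → N} {z₀ : N} {O : Set Y} (T : YC P CY Pm z₀ O)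

/-- the four functions -/
def x0 (y : Y) : ℂ := (T.st y).1.1
def x1 (y : Y) : ℂ := (T.st y).1.2.1
def x2 (y : Y) : ℂ := (T.st y).1.2.2
def ee (y : Y) : ℂ := T.x1 y + T.x2 y
def pp (y : Y) : ℂ := T.x1 y * T.x2 y
def ss (y : Y) : ℂ := Sf (T.st y)

/-- the list of functions -/
def ff (b : ℕ) (i : IPhi) (y : Y) : ℂ := FF b (T.st y) i

theorem ff_eq (b : ℕ) : T.ff b = Kum_977.Pf b T.x0 T.ee T.pp T.ss := rfl

end YC

end

end Crest.Agent.R272.PosP7_848
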