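import Crest.Agent.R272.Kb1_220
import Crest.Agent.R272.Lc12_220
import Crest.Agent.R272.Kum8_977
import Crest.Agent.R272.PosP7_848

/-!
# R272 (S0415), (K-b) (helper220): the comparison `cmp` in the E-charts

* `cmp_of_Y` : from the cover to the local equations of record;
* `cmp_E`    : `cmp` at `T.E i j w`, `w.2 ≠ 0`.
-/

set_option autoImplicit false
set_option linter.unusedSectionVars false
set_option linter.unusedVariables false

open Set Filter Topology

namespace Crest.Agent.R272.Cm_220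

open Crest.Agent.R275.Geo Crest.Agent.R273.Fam_835
open Crest.Agent.R272 Crest.Agent.R272.MQ_783 Crest.Agent.R272.Refl_246
open Crest.Agent.R272.Quot_783 Crest.Agent.R272.Gr_559 Crest.Agent.R272.Act_302
open Crest.Agent.R272.CB_232 Crest.Agent.R272.CB9_232
open Crest.Agent.R272.Cur_297 (Par Cv cur tt)
open Crest.Agent.R272.Tp3_60 (Loc)
open Crest.Agent.R272.Tq1_916 (pole dl nu fij)
open Crest.Agent.R272.Tq3_916 (FEij)
open Crest.Agent.R272.PosP7_848
open Crest.Agent.R272.Kum_977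
open Crest.Agent.R272.PW_92 (IPhi)
open Crest.Agent.R272.FinCB3_876 (GenAt ValC)
open Crest.Agent.R272.Lc_220 Crest.Agent.R272.LcR_783
open Crest.Agent.R272.P1A_54 (ambFam)

noncomputable section

variable {N : Type} [TopologicalSpace N] {F : Fam 3 N} {D : GData F} {G : Type} [Group G]
  [MulAction G N] [Nonempty N] (A : GAct D G) {h : SubF_54.IsSl (ambFam F) D.X1 3} (hz : NzX A)
  (hX : RA (A.fam h) G)

/-- **from the cover to the local equations of record** -/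
theorem cmp_of_Y {κ : Type} [Finite κ] {y : A.X} {γ : A.X → ℂ} (hγ : (gsX A h hz).IsG y γ)
    {c : RC G (A.fam h)} (hc : y ∈ c.e.source) {f : κ → A.X → ℂ} {mm k : ℕ}
    (H : GenAt (A.fam h) f (fun v => (γ v * γ v) ^ mm * (eqU c v ^ 2) ^ k) y) :
    ∃ a b, pr G y ∈ (JX A hX hz).V a ∧ pr G y ∈ (brLE hX).eqs.V b ∧
      GenAt (A.fam h) f (fun v => (JX A hX hz).f a (pr G v) ^ mm *
        (brLE hX).eqs.f b (pr G v) ^ k) y := by
  obtain ⟨a, ha⟩ := (JX A hX hz).cov (pr G y) (mem_univ _)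
  obtain ⟨b, hb⟩ := (brLE hX).eqs.cov (pr G y) (mem_univ _)
  refine ⟨a, b, ha, hb, H.asc ?_⟩
  have h1 : Asc (A.fam h) y (fun v => (JX A hX hz).f a (pr G v) ^ mm)
      (fun v => (γ v * γ v) ^ mm) := (asc_of_JX A hX hz ha hγ).pow mm
  have h2 : Asc (A.fam h) y (fun v => (brLE hX).eqs.f b (pr G v) ^ k)
      (fun v => (eqU c v ^ 2) ^ k) := ((brLE_pr hX hc).1 (LEq.LE_eqs _ hb)).pow k
  exact (h1.mul h2).symm

variable {P : Par} {q : N} (p : Pen F D.f0 (D.x 0) (D.P 0) (D.Q 0) q)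
  (p' : Pen F D.f0 (D.x 1) (D.P 1) (D.Q 1) q) (hpp : p'.s0 = p.s0) {L : Loc P N}
  (hU : L.sh.source ⊆ p.U ∩ p'.U)
  (hsh : ∀ z ∈ L.sh.source, L.sh z = (p.s0 z, p.s1 z, p'.s1 z))
  {O : Set A.X} {q' : N} (T : YC P (A.fam h) A.pz q' O)
  (hT : ∀ y : A.X, A.pz y ∈ L.sh.source → (T.st y).1 = L.sh (A.pz y))

include hpp hU hsh hT in
/-- **(K-b) in the E-charts** -/
theorem cmp_E {mm : ℕ} (hb : 15 ≤ 10 * mm) {i j : Fin 2} {w : (Cv P × Cv P) × ℂ}
    (hw : w ∈ (T.E i j).source) (hw0 : w.2 ≠ 0) (hy : A.pz (T.E i j w) ∈ L.sh.source)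
    (hfix : Fix G (T.E i j) w) :
    ∃ a b, pr G (T.E i j w) ∈ (JX A hX hz).V a ∧ pr G (T.E i j w) ∈ (brLE hX).eqs.V b ∧
      GenAt (A.fam h) (T.ff (10 * mm)) (fun v => (JX A hX hz).f a (pr G v) ^ mm *
        (brLE hX).eqs.f b (pr G v) ^ 4) (T.E i j w) := by
  set y : A.X := T.E i j w with hyd
  have hp := T.hE i j w hw
  have hE := T.cE i j
  obtain ⟨c, hc⟩ := hX.cov y
  have f1 := fr_1 hE hw hp.1
  have f2 := fr_2 hE hw hp.2
  have hξ : HolN (A.fam h) y (xY (T.E i j)) := holN_x hE hw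
  have hy' : T.E i j w ∈ (T.E i j).target := (T.E i j).map_source hw
  -- the functions near `y`
  have e : ∀ᶠ v in 𝓝 y, (p.s0 (A.pz v), p.s1 (A.pz v), p'.s1 (A.pz v)) =
      ((xY (T.E i j) v * sY (T.E i j) i v * sY' (T.E i j) j v,
        xY (T.E i j) v * rY (T.E i j) i v * sY' (T.E i j) j v,
        xY (T.E i j) v * sY (T.E i j) i v * rY' (T.E i j) j v) : ℂ × ℂ × ℂ) := by
    filter_upwards [(T.E i j).open_target.mem_nhds hy',
      (L.sh.open_source.preimage A.continuous_pz).mem_nhds hy] with v h1 h2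
    have h3 : (T.st v).1 = L.sh (A.pz v) := hT v h2
    have h4 := T.sE i j _ ((T.E i j).map_target h1)
    rw [(T.E i j).right_inv h1] at h4
    rw [← hsh _ h2, ← h3, h4]
    rfl
  have hG : (gsX A h hz).IsG y fun v => p.s0 (A.pz v) ^ 5 := by
    refine isG_E' A h hz p p' hpp (hU hy).1 (hU hy).2 (ξ := xY (T.E i j)) (ν := rY (T.E i j) i)
      (δ := sY (T.E i j) i) (ν' := rY' (T.E i j) j) (δ' := sY' (T.E i j) j) hξ f1.hr f1.hs
      f2.hr f2.hs ?_ ?_ ?_ ?_ ?_ ?_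
    · exact e.mono fun v hv => congrArg Prod.fst hv
    · exact e.mono fun v hv => congrArg (fun t : ℂ × ℂ × ℂ => t.2.1) hv
    · exact e.mono fun v hv => congrArg (fun t : ℂ × ℂ × ℂ => t.2.2) hv
    · rintro ⟨h1, h2⟩
      exact (frame_ne i _).elim (fun h => h h2) fun h => h h1
    · rintro ⟨h1, h2⟩
      exact (frame_ne j _).elim (fun h => h h2) fun h => h h1
    · show (((T.E i j).symm (T.E i j w))).2 ≠ 0
      rw [(T.E i j).left_inv hw]
      exact hw0
  refine cmp_of_Y A hz hX hG hc ?_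
  have hf : HF (10 * mm) (T.E i j) i j w (T.ff (10 * mm)) := by
    filter_upwards [(T.E i j).open_source.mem_nhds hw] with u hu a
    show PosP3_848.FF (10 * mm) (T.st (T.E i j u)) a = _
    rw [T.sE i j u hu]
    exact PosP3_848.FF_fij hb i j u.1.1 u.1.2 u.2 a
  refine (kum_cmp hb hE hw hp.1 hp.2 hw0 hf hc hfix).asc ?_
  refine Asc.symm ⟨fun v => xY (T.E i j) v ^ (10 * mm), hξ.pow _, pow_ne_zero _ ?_, ?_⟩
  · show (((T.E i j).symm (T.E i j w))).2 ≠ 0
    rw [(T.E i j).left_inv hw]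
    exact hw0
  · filter_upwards [e] with v hv
    have h1 : p.s0 (A.pz v) = xY (T.E i j) v * sY (T.E i j) i v * sY' (T.E i j) j v :=
      congrArg Prod.fst hv
    rw [h1, gC_eq]
    ring

end

end Crest.Agent.R272.Cm_220
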