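import Crest.Agent.R272.Tp7_60
import Crest.Agent.R272.Act1_302

/-!
# R272 (S0415), MODEL, type tp (helper60): the swap in the standard coordinates

`SwRel A L s z` : the local data at `z` and `s • z` correspond; `co_sw` : the standard coordinates
of `s • y`; `ext_co` : a point over the cluster is determined by its standard coordinates.
-/

set_option autoImplicit false
set_option linter.unusedSectionVars false

open Set Filter Topology OnePoint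

namespace Crest.Agent.R272.Tp9_60

open Crest.Agent.R275.Geo Crest.Agent.R273.Fam_835 Crest.Agent.R272.FamP_54
open Crest.Agent.R272.HFam_342 Crest.Agent.R272.Tp1_60 Crest.Agent.R272.Refl_246
open Crest.Agent.R272.Tp2_60 hiding Amb
open Crest.Agent.R272.Tp3_60 Crest.Agent.R272.Tp4_60
open Crest.Agent.R272.Tp5_60 Crest.Agent.R272.SubF_54 Crest.Agent.R272.Tp6_60
open Crest.Agent.R272.Tp7_60
open Crest.Agent.R272.Cur_297 (Par Cv Cset Eqn hA hB tt kk continuous_tt continuous_kk)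
open Crest.Agent.R272.P1A_54 (ambFam amb_z amb_t amb_v amb_k)
open Crest.Agent.R272.Gr_559.GData (Amb)
open Crest.Agent.R272.Gr_559 (GData)
open Crest.Agent.R272.AJ_956 (Cur)
open Crest.Agent.R272.Idn_834 (h3 pc sw)
open Crest.Agent.R272.Act_302 (GAct)
open Crest.Agent.R272.P1F_54 (mulP)

noncomputable section

variable {N : Type} [TopologicalSpace N] {F : Fam 3 N} {P : Par} {L : Loc P N} {r : ℝ}

theorem mulP_mob (a b : ℂ) (t : P1) : mulP a b t = mob a 0 0 b t := by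
  unfold mulP mob
  rw [← rat_eq]
  have e1 : a * nn t + 0 * dd t = a * nn t := by ring
  have e2 : 0 * nn t + b * dd t = b * dd t := by ring
  rw [e1, e2]
  rfl

theorem mob_scale {l α β γ δ : ℂ} (hl : l ≠ 0) (t : P1) :
    mob (l * α) (l * β) (l * γ) (l * δ) t = mob α β γ δ t := by
  unfold mob
  rw [← rat_mul (a := α * nn t + β * dd t) (b := γ * nn t + δ * dd t) hl]
  congr 1 <;> ring

theorem mob_mulP {a b α β γ δ : ℂ} (ha : a ≠ 0) (hb : b ≠ 0) (t : P1) :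
    mob α β γ δ (mulP a b t) = mob (α * a) (β * b) (γ * a) (δ * b) t := by
  rw [mulP_mob, mob_mob (by simpa using ⟨ha, hb⟩)]
  congr 1 <;> ring

variable {D : GData F} {G : Type} [Group G] [MulAction G N] (A : GAct D G)

/-- the local data at `z` and at `s • z` correspond -/
structure SwRel (L : Loc P N) (s : G) (z : N) : Prop where
  m1 : z ∈ L.sh.source
  m2 : s • z ∈ L.sh.source
  hS : L.sh (s • z) = ((L.sh z).1, (L.sh z).2.2, (L.sh z).2.1)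
  ha : L.a (s • z) = A.j0 s z * L.a z
  hb0 : L.b 0 (s • z) = A.j s 1 z * L.b 1 z
  hb1 : L.b 1 (s • z) = A.j s 0 z * L.b 0 z
  hm0 : L.m 0 (s • z) * A.q s 1 z = A.p s 1 z * L.m 1 z
  hm1 : L.m 1 (s • z) * A.q s 0 z = A.p s 0 z * L.m 0 z

variable {A}

theorem Tm_sw {a b j0 j : ℂ} (h0 : j0 ≠ 0) (hj : j ≠ 0) (t : P1) :
    Tm P (j0 * a) (j * b) (mulP j j0 t) = Tm P a b t := by
  unfold Tm
  rw [mob_mulP hj h0]
  refine Eq.trans ?_ (mob_scale (mul_ne_zero h0 hj) t)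
  congr 1 <;> ring

theorem Km_sw {m m' p q : ℂ} (hp : p ≠ 0) (hq : q ≠ 0) (h : m' * q = p * m) (k : P1) :
    Km m' (mulP p q k) = Km m k := by
  unfold Km
  rw [mob_mulP hp hq, h]
  refine Eq.trans ?_ (mob_scale hp k)
  congr 1 <;> ring

theorem Vm_sw {a β e j0 j : ℂ} (h0 : j0 ≠ 0) (hj : j ≠ 0) (v : P1) :
    Vm (j0 * a) (j * β) e (mulP j j0 v) = Vm a β e v := by
  unfold Vm
  rw [mob_mulP hj h0]
  refine Eq.trans ?_ (mob_scale (mul_ne_zero h0 hj) v)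
  congr 1 <;> ring

/-- **the standard coordinates of `s • y`** -/
theorem co_sw {s : G} (hσ : A.σ s 0 = 1) {y : Amb N} (h : SwRel A L s y.1) :
    TA L 0 (A.act s y) = TA L 1 y ∧ TA L 1 (A.act s y) = TA L 0 y ∧
      VA L (A.act s y) = VA L y ∧ KA L 0 (A.act s y) = KA L 1 y ∧
      KA L 1 (A.act s y) = KA L 0 y := by
  have hσ1 : A.σ s 1 = 0 := by
    rcases GAct.perm_cases (A.σ s) with ⟨h1, -⟩ | ⟨-, h2⟩
    · rw [h1] at hσ
      exact absurd hσ (by decide)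
    · exact h2
  have t0 : (A.act s y).2.1 0 = mulP (A.j s 1 y.1) (A.j0 s y.1) (y.2.1 1) := by
    rw [← A.act_t s y 1, hσ1]
  have t1 : (A.act s y).2.1 1 = mulP (A.j s 0 y.1) (A.j0 s y.1) (y.2.1 0) := by
    rw [← A.act_t s y 0, hσ]
  have k0 : (A.act s y).2.2.2 0 = mulP (A.p s 1 y.1) (A.q s 1 y.1) (y.2.2.2 1) := by
    rw [← A.act_k s y 1, hσ1]
  have k1 : (A.act s y).2.2.2 1 = mulP (A.p s 0 y.1) (A.q s 0 y.1) (y.2.2.2 0) := by
    rw [← A.act_k s y 0, hσ]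
  refine ⟨?_, ?_, ?_, ?_, ?_⟩
  · unfold TA
    rw [t0, A.act_z, h.ha, h.hb0]
    exact Tm_sw (A.j0_ne _ _) (A.j_ne _ _ _) _
  · unfold TA
    rw [t1, A.act_z, h.ha, h.hb1]
    exact Tm_sw (A.j0_ne _ _) (A.j_ne _ _ _) _
  · unfold VA Loc.vv
    rw [A.act_v, A.act_z, h.ha, h.hb0, h.hb1]
    have e1 : A.j s 1 y.1 * L.b 1 y.1 * (A.j s 0 y.1 * L.b 0 y.1) =
        A.jv s y.1 * (L.b 0 y.1 * L.b 1 y.1) := by unfold GAct.jv; ring
    have e2 : Loc.ee P (L.sh (s • y.1)) = Loc.ee P (L.sh y.1) := by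
      rw [h.hS]; unfold Loc.ee; ring
    rw [e1, e2]
    exact Vm_sw (A.j0_ne _ _) (A.jv_ne _ _) _
  · unfold KA
    rw [k0, A.act_z]
    exact Km_sw (A.p_ne _ _ _) (A.q_ne _ _ _) h.hm0 _
  · unfold KA
    rw [k1, A.act_z]
    exact Km_sw (A.p_ne _ _ _) (A.q_ne _ _ _) h.hm1 _

/-- a point over the cluster is determined by its standard coordinates -/
theorem ext_co {y y' : Amb N} (hy : y.1 ∈ L.sh.source) (hy' : y'.1 ∈ L.sh.source)
    (hS : L.sh y.1 = L.sh y'.1) (h0 : TA L 0 y = TA L 0 y') (h1 : TA L 1 y = TA L 1 y')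
    (hV : VA L y = VA L y') (k0 : KA L 0 y = KA L 0 y') (k1 : KA L 1 y = KA L 1 y') : y = y' := by
  have hz : y.1 = y'.1 := L.sh.injOn hy hy' hS
  have ha := L.a0 _ hy
  have hb := L.b0 0 _ hy
  have hb' := L.b0 1 _ hy
  unfold TA at h0 h1
  unfold KA at k0 k1
  unfold VA Loc.vv at hV
  rw [← hz] at h0 h1 k0 k1 hV
  have e0 : y.2.1 0 = y'.2.1 0 := by
    rw [← tm_Tm (P := P) ha hb (y.2.1 0), h0, tm_Tm ha hb]
  have e1 : y.2.1 1 = y'.2.1 1 := by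
    rw [← tm_Tm (P := P) ha hb' (y.2.1 1), h1, tm_Tm ha hb']
  have e2 : y.2.2.1 = y'.2.2.1 := by
    rw [← vm_Vm (Loc.ee P (L.sh y.1)) ha (mul_ne_zero hb hb') y.2.2.1, hV,
      vm_Vm _ ha (mul_ne_zero hb hb')]
  have e3 : y.2.2.2 0 = y'.2.2.2 0 := by
    rw [← km_Km (L.m0 0 _ hy) (y.2.2.2 0), k0, km_Km (L.m0 0 _ hy)]
  have e4 : y.2.2.2 1 = y'.2.2.2 1 := by
    rw [← km_Km (L.m0 1 _ hy) (y.2.2.2 1), k1, km_Km (L.m0 1 _ hy)]
  refine Prod.ext hz (Prod.ext (funext fun i => ?_) (Prod.ext e2 (funext fun i => ?_)))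
  · fin_cases i
    · exact e0
    · exact e1
  · fin_cases i
    · exact e3
    · exact e4

theorem sw_DE {i : Fin 2} {p : (Cv P × Cv P) × ℂ} (h : p ∈ DE P r i) : sw p ∈ DE P r i := by
  fin_cases i
  · obtain ⟨h1, h2, h3⟩ := h
    refine ⟨h2, h1, ?_⟩
    show ‖p.2‖ * (1 + ‖nn (tt p.1.2)‖) * (1 + ‖nn (tt p.1.1)‖) < r
    calc _ = ‖p.2‖ * (1 + ‖nn (tt p.1.1)‖) * (1 + ‖nn (tt p.1.2)‖) := by ring
      _ < r := h3
  · obtain ⟨h1, h2, h3⟩ := h
    refine ⟨h2, h1, ?_⟩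
    show ‖p.2‖ * (1 + ‖iv (tt p.1.2)‖) * (1 + ‖iv (tt p.1.1)‖) < r
    calc _ = ‖p.2‖ * (1 + ‖iv (tt p.1.1)‖) * (1 + ‖iv (tt p.1.2)‖) := by ring
      _ < r := h3

theorem FE_sw (i : Fin 2) (p : (Cv P × Cv P) × ℂ) : FE P i (sw p) =
    (((FE P i p).1.1, (FE P i p).1.2.2, (FE P i p).1.2.1), (FE P i p).2.2.1, (FE P i p).2.1,
      (FE P i p).2.2.2) := by
  fin_cases i
  · refine Prod.ext rfl (Prod.ext rfl (Prod.ext rfl ?_))
    show ((nn (tt p.1.2) * nn (tt p.1.1) * p.2 : ℂ) : P1) = ((nn (tt p.1.1) * nn (tt p.1.2) * p.2 : ℂ) : P1)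
    congr 1
    ring
  · refine Prod.ext (Prod.ext ?_ rfl) rfl
    show p.2 * iv (tt p.1.2) * iv (tt p.1.1) = p.2 * iv (tt p.1.1) * iv (tt p.1.2)
    ring

/-- **the swap exchanges the two points of the curve** -/
theorem act_E {s : G} (hσ : A.σ s 0 = 1) {i : Fin 2} {p : (Cv P × Cv P) × ℂ}
    (h1 : (FE P i p).1 ∈ L.sh.target) (h2 : (FE P i (sw p)).1 ∈ L.sh.target)
    (h : SwRel A L s (L.fro (FE P i p)).1) :
    A.act s (toA N (L.fro (FE P i p))) = toA N (L.fro (FE P i (sw p))) := by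
  obtain ⟨b1, b2, b3, b4, b5, b6⟩ := co_fro h1
  obtain ⟨c1, c2, c3, c4, c5, c6⟩ := co_fro h2
  obtain ⟨d1, d2, d3, d4, d5⟩ := co_sw (A := A) (L := L) hσ (y := toA N (L.fro (FE P i p))) h
  rw [FE_sw] at c1 c2 c3 c4 c5 c6
  have e1 : L.sh (A.act s (toA N (L.fro (FE P i p)))).1 =
      ((FE P i p).1.1, (FE P i p).1.2.2, (FE P i p).1.2.1) := by
    rw [A.act_z, toA_1, h.hS]
    have : L.sh (L.fro (FE P i p)).1 = (FE P i p).1 := b1
    rw [this]
  rw [FE_sw]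
  refine ext_co (L := L) h.m2 ?_ (e1.trans c1.symm) ((d1.trans b3).trans c2.symm)
    ((d2.trans b2).trans c3.symm) ((d3.trans b4).trans c4.symm) ((d4.trans b6).trans c5.symm)
    ((d5.trans b5).trans c6.symm)
  rw [FE_sw] at h2
  exact L.sh.map_target h2

end

end Crest.Agent.R272.Tp9_60
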