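import Mathlib

/-!
# R272 (S0415), MOD-GRAPH, flat lemma (helper302)

`N` a topological space, `Y = closure {(z,t,k) ∈ N × P¹ × P¹ : (f0,x)(z) ≠ 0, t = [x : f0],
n(k)² Q = d(k)² P}`. Near a flat (`f0 = a s0`, `x = b (s1 - c₅ s0)`, `P = u ∏_{j<3} (s1 - c_j s0)`,
`Q = w ∏_{3≤j<6} (s1 - c_j s0)`, `(s0,s1)` open) `Y` is the explicit set
`{x d(t) = f0 n(t), n(k)² w ∏_{3,4,5} L_j = d(k)² u ∏_{0,1,2} L_j}`,
`L_j = n(t)/b + (c₅ - c_j) d(t)/a`.

`n d : OnePoint ℂ → ℂ` are any functions with `n c = c, n ∞ = 1, d c = 1, d ∞ = 0` (`ND n d`).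
-/

set_option autoImplicit false

open Set Filter Topology OnePoint

namespace Crest.Agent.R272.Flat1_302

noncomputable section

universe u

/-- numerator and denominator of a point of the projective line -/
structure ND (n d : OnePoint ℂ → ℂ) : Prop where
  n_coe : ∀ c : ℂ, n (c : OnePoint ℂ) = c
  n_inf : n ∞ = 1
  d_coe : ∀ c : ℂ, d (c : OnePoint ℂ) = 1
  d_inf : d ∞ = 0

variable {n d : OnePoint ℂ → ℂ}

theorem ND.ne (h : ND n d) (t : OnePoint ℂ) : n t ≠ 0 ∨ d t ≠ 0 := by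
  induction t using OnePoint.rec with
  | infty => left; rw [h.n_inf]; exact one_ne_zero
  | coe c => right; rw [h.d_coe]; exact one_ne_zero

/-- local continuous homogeneous coordinates -/
theorem ND.exists_loc (h : ND n d) (t₀ : OnePoint ℂ) : ∃ n' d' l : OnePoint ℂ → ℂ,
    ContinuousAt n' t₀ ∧ ContinuousAt d' t₀ ∧
      (∀ᶠ t in 𝓝 t₀, l t ≠ 0 ∧ n t = l t * n' t ∧ d t = l t * d' t) ∧
      n t₀ = l t₀ * n' t₀ ∧ d t₀ = l t₀ * d' t₀ := by
  induction t₀ using OnePoint.rec with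
  | infty =>
    have h0 : ∀ᶠ t : OnePoint ℂ in 𝓝 ∞, t ≠ ((0 : ℂ) : OnePoint ℂ) :=
      isOpen_ne.mem_nhds (OnePoint.infty_ne_coe (0 : ℂ))
    have hn : ∀ t : OnePoint ℂ, t ≠ ((0 : ℂ) : OnePoint ℂ) → n t ≠ 0 := by
      intro t ht
      induction t using OnePoint.rec with
      | infty => rw [h.n_inf]; exact one_ne_zero
      | coe c =>
        rw [h.n_coe]
        rintro rfl
        exact ht rfl
    refine ⟨fun _ => 1, fun t => d t / n t, n, continuousAt_const, ?_, ?_, ?_, ?_⟩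
    · rw [OnePoint.continuousAt_infty']
      have h1 : (fun t => d t / n t) ∘ ((↑) : ℂ → OnePoint ℂ) = fun c => c⁻¹ := by
        ext c
        simp [h.n_coe, h.d_coe]
      rw [h1, h.d_inf, zero_div]
      have h2 : coclosedCompact ℂ = Bornology.cobounded ℂ := by
        rw [coclosedCompact_eq_cocompact, Metric.cobounded_eq_cocompact]
      rw [h2]
      exact tendsto_inv₀_cobounded
    · filter_upwards [h0] with t ht
      exact ⟨hn t ht, (mul_one _).symm, (mul_div_cancel₀ _ (hn t ht)).symm⟩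
    · exact (mul_one _).symm
    · show d ∞ = n ∞ * (d ∞ / n ∞)
      rw [h.n_inf, h.d_inf]; norm_num
  | coe c =>
    have ho : ∀ᶠ t : OnePoint ℂ in 𝓝 (c : OnePoint ℂ), t ≠ ∞ :=
      isOpen_ne.mem_nhds (OnePoint.coe_ne_infty c)
    refine ⟨n, d, fun _ => 1, ?_, ?_, ?_, (one_mul _).symm, (one_mul _).symm⟩
    · rw [OnePoint.continuousAt_coe]
      have h1 : n ∘ ((↑) : ℂ → OnePoint ℂ) = id := by
        ext c
        simp [h.n_coe]
      rw [h1]
      exact continuousAt_id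
    · rw [OnePoint.continuousAt_coe]
      have h1 : d ∘ ((↑) : ℂ → OnePoint ℂ) = fun _ => 1 := by
        ext c
        simp [h.d_coe]
      rw [h1]
      exact continuousAt_const
    · exact Eventually.of_forall fun t => ⟨one_ne_zero, (one_mul _).symm, (one_mul _).symm⟩

/-- two homogeneous coordinates of the same point are proportional -/
theorem ND.prop (h : ND n d) {t : OnePoint ℂ} {x f : ℂ} (hne : f ≠ 0 ∨ x ≠ 0)
    (hr : x * d t = f * n t) : ∃ l : ℂ, l ≠ 0 ∧ n t = l * x ∧ d t = l * f := by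
  rcases eq_or_ne f 0 with hf | hf
  · subst hf
    have hx : x ≠ 0 := hne.resolve_left (fun h => h rfl)
    rw [zero_mul] at hr
    have hd : d t = 0 := (mul_eq_zero.1 hr).resolve_left hx
    have hn : n t ≠ 0 := (h.ne t).resolve_right (fun h => h hd)
    exact ⟨n t / x, div_ne_zero hn hx, by field_simp, by rw [hd, mul_zero]⟩
  · have h1 : n t = d t / f * x := by
      field_simp
      linear_combination -hr
    have hd : d t ≠ 0 := by
      intro h0
      rw [h0, zero_div, zero_mul] at h1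
      exact (h.ne t).elim (fun h => h h1) (fun h => h h0)
    exact ⟨d t / f, div_ne_zero hd hf, h1, by field_simp⟩

/-- the point `[x : f]` of the projective line -/
theorem ND.exists_pt (h : ND n d) (x f : ℂ) :
    ∃ t : OnePoint ℂ, x * d t = f * n t := by
  rcases eq_or_ne f 0 with hf | hf
  · exact ⟨∞, by rw [h.d_inf, hf]; ring⟩
  · exact ⟨((x / f : ℂ) : OnePoint ℂ), by rw [h.d_coe, h.n_coe]; field_simp⟩

section Closure

variable {N : Type u} [TopologicalSpace N]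

/-- the graph: `(f0,x)(z) ≠ 0, t = [x : f0], k² = P/Q` -/
def Gr (n d : OnePoint ℂ → ℂ) (f0 x P Q : N → ℂ) : Set (N × OnePoint ℂ × OnePoint ℂ) :=
  {p | (f0 p.1 ≠ 0 ∨ x p.1 ≠ 0) ∧ x p.1 * d p.2.1 = f0 p.1 * n p.2.1 ∧
    n p.2.2 ^ 2 * Q p.1 = d p.2.2 ^ 2 * P p.1}

/-- the linear form `L_j` -/
def Lf (n d : OnePoint ℂ → ℂ) (c : Fin 6 → ℂ) (a b : N → ℂ) (j : Fin 6) (z : N)
    (t : OnePoint ℂ) : ℂ := n t / b z + (c 5 - c j) * (d t / a z)

/-- the explicit set over a flat -/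
def Ex (n d : OnePoint ℂ → ℂ) (c : Fin 6 → ℂ) (a b u w f0 x : N → ℂ) :
    Set (N × OnePoint ℂ × OnePoint ℂ) :=
  {p | x p.1 * d p.2.1 = f0 p.1 * n p.2.1 ∧
    n p.2.2 ^ 2 * (w p.1 * (Lf n d c a b 3 p.1 p.2.1 * Lf n d c a b 4 p.1 p.2.1 *
      Lf n d c a b 5 p.1 p.2.1)) =
    d p.2.2 ^ 2 * (u p.1 * (Lf n d c a b 0 p.1 p.2.1 * Lf n d c a b 1 p.1 p.2.1 *
      Lf n d c a b 2 p.1 p.2.1))}

/-- the data of a flat on an open set `V` -/
structure FlatD (V : Set N) (c : Fin 6 → ℂ) (s0 s1 a b u w f0 x P Q : N → ℂ) : Prop where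
  ca : ContinuousOn a V
  cb : ContinuousOn b V
  cu : ContinuousOn u V
  cw : ContinuousOn w V
  cf : ContinuousOn f0 V
  cx : ContinuousOn x V
  a0 : ∀ z ∈ V, a z ≠ 0
  b0 : ∀ z ∈ V, b z ≠ 0
  u0 : ∀ z ∈ V, u z ≠ 0
  w0 : ∀ z ∈ V, w z ≠ 0
  hf : ∀ z ∈ V, f0 z = a z * s0 z
  hx : ∀ z ∈ V, x z = b z * (s1 z - c 5 * s0 z)
  hP : ∀ z ∈ V, P z = u z * ((s1 z - c 0 * s0 z) * (s1 z - c 1 * s0 z) * (s1 z - c 2 * s0 z))
  hQ : ∀ z ∈ V, Q z = w z * ((s1 z - c 3 * s0 z) * (s1 z - c 4 * s0 z) * (s1 z - c 5 * s0 z))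
  op : ∀ z ∈ V, 𝓝 (s0 z, s1 z) ≤ map (fun y => (s0 y, s1 y)) (𝓝 z)

variable {V : Set N} {c : Fin 6 → ℂ} {s0 s1 a b u w f0 x P Q : N → ℂ}

/-- where `(f0,x) ≠ 0` the two descriptions agree -/
theorem mem_Gr_iff (h : ND n d) (D : FlatD V c s0 s1 a b u w f0 x P Q) {z : N} (hz : z ∈ V)
    (hne : f0 z ≠ 0 ∨ x z ≠ 0) (t k : OnePoint ℂ) :
    (z, t, k) ∈ Gr n d f0 x P Q ↔ (z, t, k) ∈ Ex n d c a b u w f0 x := by
  have ha := D.a0 z hz
  have hb := D.b0 z hz
  constructor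
  · rintro ⟨-, h1, h2⟩
    refine ⟨h1, ?_⟩
    obtain ⟨l, hl, hn, hd⟩ := h.prop hne h1
    have hL : ∀ j, Lf n d c a b j z t = l * (s1 z - c j * s0 z) := by
      intro j
      simp only [Lf]
      rw [hn, hd, D.hf z hz, D.hx z hz]
      field_simp
      ring
    simp only [hL]
    have hP := D.hP z hz
    have hQ := D.hQ z hz
    simp only at h2
    rw [hP, hQ] at h2
    linear_combination l ^ 3 * h2
  · rintro ⟨h1, h2⟩
    refine ⟨hne, h1, ?_⟩
    obtain ⟨l, hl, hn, hd⟩ := h.prop hne h1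
    have hL : ∀ j, Lf n d c a b j z t = l * (s1 z - c j * s0 z) := by
      intro j
      simp only [Lf]
      rw [hn, hd, D.hf z hz, D.hx z hz]
      field_simp
      ring
    simp only [hL] at h2
    have hP := D.hP z hz
    have hQ := D.hQ z hz
    show n k ^ 2 * Q z = d k ^ 2 * P z
    rw [hP, hQ]
    have h3 : l ^ 3 ≠ 0 := pow_ne_zero 3 hl
    apply mul_left_cancel₀ h3
    linear_combination h2

/-- a homogeneous relation with continuous local coordinates holds at the limit -/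
theorem closed_rel {T : Type*} [TopologicalSpace T] {S : Set T} {p₀ : T} (hp : p₀ ∈ closure S)
    {F G : T → ℂ} (hF : ContinuousAt F p₀) (hG : ContinuousAt G p₀)
    (h : ∀ᶠ p in 𝓝 p₀, p ∈ S → F p = G p) : F p₀ = G p₀ := by
  by_contra hne
  have h1 : ∀ᶠ p in 𝓝 p₀, F p ≠ G p := by
    have h2 : ∀ᶠ p in 𝓝 p₀, F p - G p ≠ 0 := (hF.sub hG).eventually_ne (sub_ne_zero.2 hne)
    filter_upwards [h2] with p hp
    exact sub_ne_zero.1 hp
  obtain ⟨p, hp1, hp2, hp3⟩ := ((mem_closure_iff_frequently.1 hp).and_eventually (h.and h1)).exists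
  exact hp3 (hp2 hp1)

/-- **closure ⊆ explicit** -/
theorem mem_Ex_of_mem_closure (h : ND n d) (D : FlatD V c s0 s1 a b u w f0 x P Q)
    (hV : IsOpen V) {p₀ : N × OnePoint ℂ × OnePoint ℂ} (hz : p₀.1 ∈ V)
    (hp : p₀ ∈ closure (Gr n d f0 x P Q)) : p₀ ∈ Ex n d c a b u w f0 x := by
  obtain ⟨z, t, k⟩ := p₀
  have hzV : V ∈ 𝓝 z := hV.mem_nhds hz
  have c1 : Tendsto (fun p : N × OnePoint ℂ × OnePoint ℂ => p.1) (𝓝 (z, t, k)) (𝓝 z) :=
    continuous_fst.continuousAt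
  have c2 : Tendsto (fun p : N × OnePoint ℂ × OnePoint ℂ => p.2.1) (𝓝 (z, t, k)) (𝓝 t) :=
    (continuous_fst.comp continuous_snd).continuousAt
  have c3 : Tendsto (fun p : N × OnePoint ℂ × OnePoint ℂ => p.2.2) (𝓝 (z, t, k)) (𝓝 k) :=
    (continuous_snd.comp continuous_snd).continuousAt
  have ev1 : ∀ {g : N → ℂ}, ContinuousOn g V →
      ContinuousAt (fun p : N × OnePoint ℂ × OnePoint ℂ => g p.1) (z, t, k) := fun hg =>
    ContinuousAt.comp (x := (z, t, k)) (hg.continuousAt hzV) c1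
  obtain ⟨n1, d1, l1, cn1, cd1, hl1, en1, ed1⟩ := h.exists_loc t
  obtain ⟨n2, d2, l2, cn2, cd2, hl2, en2, ed2⟩ := h.exists_loc k
  have cN1 : ContinuousAt (fun p : N × OnePoint ℂ × OnePoint ℂ => n1 p.2.1) (z, t, k) :=
    ContinuousAt.comp (x := (z, t, k)) cn1 c2
  have cD1 : ContinuousAt (fun p : N × OnePoint ℂ × OnePoint ℂ => d1 p.2.1) (z, t, k) :=
    ContinuousAt.comp (x := (z, t, k)) cd1 c2
  have cN2 : ContinuousAt (fun p : N × OnePoint ℂ × OnePoint ℂ => n2 p.2.2) (z, t, k) :=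
    ContinuousAt.comp (x := (z, t, k)) cn2 c3
  have cD2 : ContinuousAt (fun p : N × OnePoint ℂ × OnePoint ℂ => d2 p.2.2) (z, t, k) :=
    ContinuousAt.comp (x := (z, t, k)) cd2 c3
  have cA := ev1 D.ca
  have cB := ev1 D.cb
  have cU := ev1 D.cu
  have cW := ev1 D.cw
  have cF := ev1 D.cf
  have cX := ev1 D.cx
  have hA : a z ≠ 0 := D.a0 z hz
  have hB : b z ≠ 0 := D.b0 z hz
  have r1 : x z * d1 t = f0 z * n1 t := by
    refine closed_rel hp (F := fun p => x p.1 * d1 p.2.1) (G := fun p => f0 p.1 * n1 p.2.1)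
      (cX.mul cD1) (cF.mul cN1) ?_
    filter_upwards [c2.eventually hl1] with p hlp hpS
    obtain ⟨-, h1, -⟩ := hpS
    rw [hlp.2.1, hlp.2.2] at h1
    apply mul_left_cancel₀ hlp.1
    linear_combination h1
  let M : Fin 6 → N × OnePoint ℂ × OnePoint ℂ → ℂ := fun j p =>
    n1 p.2.1 / b p.1 + (c 5 - c j) * (d1 p.2.1 / a p.1)
  have cM : ∀ j, ContinuousAt (M j) (z, t, k) := fun j =>
    (cN1.div cB hB).add (continuousAt_const.mul (cD1.div cA hA))
  have r2 : n2 k ^ 2 * (w z * (M 3 (z, t, k) * M 4 (z, t, k) * M 5 (z, t, k))) =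
      d2 k ^ 2 * (u z * (M 0 (z, t, k) * M 1 (z, t, k) * M 2 (z, t, k))) := by
    refine closed_rel hp (F := fun p => n2 p.2.2 ^ 2 * (w p.1 * (M 3 p * M 4 p * M 5 p)))
      (G := fun p => d2 p.2.2 ^ 2 * (u p.1 * (M 0 p * M 1 p * M 2 p)))
      ((cN2.pow 2).mul (cW.mul (((cM 3).mul (cM 4)).mul (cM 5))))
      ((cD2.pow 2).mul (cU.mul (((cM 0).mul (cM 1)).mul (cM 2)))) ?_
    filter_upwards [c1.eventually hzV, c2.eventually hl1, c3.eventually hl2] with p hpV hlp hlq hpS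
    obtain ⟨z', t', k'⟩ := p
    have hne := hpS.1
    have h3 := (mem_Gr_iff h D hpV hne t' k').1 hpS
    have h4 := h3.2
    have hL : ∀ j, Lf n d c a b j z' t' = l1 t' * M j (z', t', k') := by
      intro j
      simp only [Lf, M]
      have e1 : n t' = l1 t' * n1 t' := hlp.2.1
      have e2 : d t' = l1 t' * d1 t' := hlp.2.2
      rw [e1, e2]
      ring
    simp only [hL] at h4
    have e3 : n k' = l2 k' * n2 k' := hlq.2.1
    have e4 : d k' = l2 k' * d2 k' := hlq.2.2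
    rw [e3, e4] at h4
    have h5 : l1 t' ^ 3 * l2 k' ^ 2 ≠ 0 := mul_ne_zero (pow_ne_zero 3 hlp.1) (pow_ne_zero 2 hlq.1)
    apply mul_left_cancel₀ h5
    show l1 t' ^ 3 * l2 k' ^ 2 * (n2 k' ^ 2 * (w z' * (M 3 (z', t', k') * M 4 (z', t', k') *
      M 5 (z', t', k')))) = l1 t' ^ 3 * l2 k' ^ 2 * (d2 k' ^ 2 * (u z' * (M 0 (z', t', k') *
      M 1 (z', t', k') * M 2 (z', t', k'))))
    linear_combination h4
  refine ⟨?_, ?_⟩
  · show x z * d t = f0 z * n t
    rw [en1, ed1]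
    linear_combination l1 t * r1
  · have hL : ∀ j, Lf n d c a b j z t = l1 t * M j (z, t, k) := by
      intro j
      simp only [Lf, M]
      rw [en1, ed1]
      ring
    simp only [hL]
    rw [en2, ed2]
    linear_combination l1 t ^ 3 * l2 k ^ 2 * r2

/-- a continuous square root of `u / w`, normalised at `z` -/
theorem exists_root (D : FlatD V c s0 s1 a b u w f0 x P Q) (hV : IsOpen V) {z : N} (hz : z ∈ V) :
    ∃ r : N → ℂ, Tendsto r (𝓝 z) (𝓝 1) ∧
      ∀ y ∈ V, r y ^ 2 * (w y * u z) = u y * w z := by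
  have hzV : V ∈ 𝓝 z := hV.mem_nhds hz
  let q : N → ℂ := fun y => u y * w z / (w y * u z)
  have hq : ContinuousAt q z := by
    have h1 : ContinuousAt u z := D.cu.continuousAt hzV
    have h2 : ContinuousAt w z := D.cw.continuousAt hzV
    exact (h1.mul continuousAt_const).div (h2.mul continuousAt_const)
      (mul_ne_zero (D.w0 z hz) (D.u0 z hz))
  have hqz : q z = 1 := by
    have h1 := D.w0 z hz
    have h2 := D.u0 z hz
    simp only [q]
    field_simp
  refine ⟨fun y => (q y) ^ (((2 : ℕ) : ℂ)⁻¹), ?_, ?_⟩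
  · have h1 : ContinuousAt (fun y => (q y) ^ (((2 : ℕ) : ℂ)⁻¹)) z := by
      refine hq.cpow continuousAt_const ?_
      rw [hqz]
      exact Complex.one_mem_slitPlane
    have h2 : (q z) ^ (((2 : ℕ) : ℂ)⁻¹) = 1 := by rw [hqz, Complex.one_cpow]
    have h3 := h1.tendsto
    rwa [h2] at h3
  · intro y hy
    have h1 := D.w0 y hy
    have h2 := D.u0 z hz
    rw [Complex.cpow_nat_inv_pow _ two_ne_zero]
    simp only [q]
    field_simp

/-- scaling a point of the projective line by factors tending to `1` -/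
theorem exists_scale (h : ND n d) {r : N → ℂ} {z : N} (hr : Tendsto r (𝓝 z) (𝓝 1))
    (k : OnePoint ℂ) : ∃ k' : N → OnePoint ℂ, Tendsto k' (𝓝 z) (𝓝 k) ∧
      ∀ y, r y ≠ 0 → ∃ l : ℂ, l ≠ 0 ∧ n (k' y) = l * (r y * n k) ∧ d (k' y) = l * d k := by
  induction k using OnePoint.rec with
  | infty =>
    refine ⟨fun _ => ∞, tendsto_const_nhds, fun y hy => ⟨(r y)⁻¹, inv_ne_zero hy, ?_, ?_⟩⟩
    · rw [h.n_inf]; field_simp
    · rw [h.d_inf]; ring
  | coe e =>
    refine ⟨fun y => ((r y * e : ℂ) : OnePoint ℂ), ?_, fun y hy => ⟨1, one_ne_zero, ?_, ?_⟩⟩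
    · have h1 : Tendsto (fun y => r y * e) (𝓝 z) (𝓝 (1 * e)) := hr.mul tendsto_const_nhds
      rw [one_mul] at h1
      exact (OnePoint.continuous_coe.tendsto e).comp h1
    · rw [h.n_coe, h.n_coe]; ring
    · rw [h.d_coe, h.d_coe]; ring

/-- points of `V` near `z` with prescribed direction of `(s0, s1)` -/
theorem neBot_dir (D : FlatD V c s0 s1 a b u w f0 x P Q) {z : N} (hz : z ∈ V)
    (h0 : s0 z = 0) (h1 : s1 z = 0) (v : ℂ × ℂ) :
    (𝓝 z ⊓ 𝓟 {y | ∃ e : ℂ, e ≠ 0 ∧ (s0 y, s1 y) = e • v}).NeBot := by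
  rw [← frequently_mem_iff_neBot]
  have hop := D.op z hz
  rw [h0, h1] at hop
  have hfr : ∃ᶠ p in 𝓝 ((0, 0) : ℂ × ℂ), ∃ e : ℂ, e ≠ 0 ∧ p = e • v := by
    have h2 : Tendsto (fun e : ℂ => e • v) (𝓝[≠] 0) (𝓝 ((0, 0) : ℂ × ℂ)) := by
      have h3 : Tendsto (fun e : ℂ => e • v) (𝓝 0) (𝓝 ((0 : ℂ) • v)) :=
        (continuous_id.smul continuous_const).tendsto 0
      rw [zero_smul] at h3
      exact h3.mono_left nhdsWithin_le_nhds
    refine h2.frequently (Eventually.frequently ?_)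
    filter_upwards [self_mem_nhdsWithin] with e he
    exact ⟨e, he, rfl⟩
  have h4 := hfr.filter_mono hop
  exact h4

/-- **explicit ⊆ closure** -/
theorem mem_closure_of_mem_Ex (h : ND n d) (D : FlatD V c s0 s1 a b u w f0 x P Q)
    (hV : IsOpen V) {p₀ : N × OnePoint ℂ × OnePoint ℂ} (hz : p₀.1 ∈ V)
    (hp : p₀ ∈ Ex n d c a b u w f0 x) : p₀ ∈ closure (Gr n d f0 x P Q) := by
  obtain ⟨z, t, k⟩ := p₀
  have hzV : V ∈ 𝓝 z := hV.mem_nhds hz
  have hz' : z ∈ V := hz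
  have ha := D.a0 z hz
  have hb := D.b0 z hz
  by_cases hne : f0 z ≠ 0 ∨ x z ≠ 0
  · exact subset_closure ((mem_Gr_iff h D hz hne t k).2 hp)
  push Not at hne
  obtain ⟨hf0, hx0⟩ := hne
  have h0 : s0 z = 0 := by
    rw [D.hf z hz] at hf0
    exact (mul_eq_zero.1 hf0).resolve_left ha
  have h1 : s1 z = 0 := by
    rw [D.hx z hz, h0, mul_zero, sub_zero] at hx0
    exact (mul_eq_zero.1 hx0).resolve_left hb
  obtain ⟨r, hr, hr2⟩ := exists_root D hV hz
  obtain ⟨k', hk', hk2⟩ := exists_scale h hr k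
  have hrel : n k ^ 2 * (w z * (Lf n d c a b 3 z t * Lf n d c a b 4 z t *
      Lf n d c a b 5 z t)) = d k ^ 2 * (u z * (Lf n d c a b 0 z t * Lf n d c a b 1 z t *
      Lf n d c a b 2 z t)) := hp.2
  -- direction and slope function
  obtain ⟨v, hv, t', ht', hrt, hdir⟩ : ∃ v : ℂ × ℂ, v ≠ 0 ∧ ∃ t' : N → OnePoint ℂ,
      Tendsto t' (𝓝 z) (𝓝 t) ∧
      (∀ y ∈ V, ∀ e : ℂ, (s0 y, s1 y) = e • v → x y * d (t' y) = f0 y * n (t' y)) ∧
      ∃ l : ℂ, l ≠ 0 ∧ ∀ j, Lf n d c a b j z t = l * (v.2 - c j * v.1) := by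
    induction t using OnePoint.rec with
    | infty =>
      refine ⟨(0, 1), by simp, fun _ => ∞, tendsto_const_nhds, ?_, (b z)⁻¹, inv_ne_zero hb, ?_⟩
      · intro y hy e he
        have : s0 y = 0 := by simpa using congrArg Prod.fst he
        rw [D.hf y hy, this, h.d_inf]
        ring
      · intro j
        simp only [Lf]
        rw [h.n_inf, h.d_inf]
        field_simp
        ring
    | coe g =>
      refine ⟨(1, c 5 + g * a z / b z), by simp,
        fun y => ((b y * (g * a z / b z) / a y : ℂ) : OnePoint ℂ), ?_, ?_, (a z)⁻¹,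
        inv_ne_zero ha, ?_⟩
      · have e1 : Tendsto (fun y => b y * (g * a z / b z) / a y) (𝓝 z) (𝓝 g) := by
          have e2 : ContinuousAt (fun y => b y * (g * a z / b z) / a y) z :=
            ((D.cb.continuousAt hzV).mul continuousAt_const).div (D.ca.continuousAt hzV) ha
          have e3 : b z * (g * a z / b z) / a z = g := by field_simp
          have e4 := e2.tendsto
          rwa [e3] at e4
        exact (OnePoint.continuous_coe.tendsto g).comp e1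
      · intro y hy e he
        have e1 : s0 y = e := by simpa using congrArg Prod.fst he
        have e2 : s1 y = e * (c 5 + g * a z / b z) := by simpa using congrArg Prod.snd he
        have hay := D.a0 y hy
        rw [D.hf y hy, D.hx y hy, e1, e2, h.d_coe, h.n_coe]
        field_simp
        ring
      · intro j
        simp only [Lf]
        rw [h.n_coe, h.d_coe]
        field_simp
        ring
  obtain ⟨l, hl, hLf⟩ := hdir
  have hNB := neBot_dir D hz h0 h1 v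
  have hlim : Tendsto (fun y => (y, t' y, k' y))
      (𝓝 z ⊓ 𝓟 {y | ∃ e : ℂ, e ≠ 0 ∧ (s0 y, s1 y) = e • v}) (𝓝 (z, t, k)) := by
    have h5 : Tendsto (fun y => (y, t' y, k' y)) (𝓝 z) (𝓝 (z, t, k)) :=
      tendsto_id.prodMk_nhds (ht'.prodMk_nhds hk')
    exact h5.mono_left inf_le_left
  refine mem_closure_of_tendsto hlim ?_
  have hr0 : ∀ᶠ y in 𝓝 z, r y ≠ 0 := hr.eventually_ne one_ne_zero
  rw [eventually_inf_principal]
  filter_upwards [hzV, hr0] with y hy hry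
  rintro ⟨e, he, hey⟩
  have e1 : s0 y = e * v.1 := by simpa using congrArg Prod.fst hey
  have e2 : s1 y = e * v.2 := by simpa using congrArg Prod.snd hey
  have hay := D.a0 y hy
  have hby := D.b0 y hy
  refine ⟨?_, hrt y hy e hey, ?_⟩
  · by_contra hc
    push Not at hc
    obtain ⟨hc1, hc2⟩ := hc
    rw [D.hf y hy] at hc1
    have h6 : s0 y = 0 := (mul_eq_zero.1 hc1).resolve_left hay
    rw [D.hx y hy, h6, mul_zero, sub_zero] at hc2
    have h7 : s1 y = 0 := (mul_eq_zero.1 hc2).resolve_left hby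
    apply hv
    rw [e1] at h6
    rw [e2] at h7
    exact Prod.ext ((mul_eq_zero.1 h6).resolve_left he) ((mul_eq_zero.1 h7).resolve_left he)
  · obtain ⟨m, hm, hn, hd⟩ := hk2 y hry
    show n (k' y) ^ 2 * Q y = d (k' y) ^ 2 * P y
    rw [hn, hd, D.hP y hy, D.hQ y hy, e1, e2]
    simp only [hLf] at hrel
    have hroot := hr2 y hy
    have huz := D.u0 z hz
    have hwz := D.w0 z hz
    -- multiply by `u z` and divide by `l ^ 3`
    have hrel' : n k ^ 2 * (w z * ((v.2 - c 3 * v.1) * (v.2 - c 4 * v.1) * (v.2 - c 5 * v.1))) =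
        d k ^ 2 * (u z * ((v.2 - c 0 * v.1) * (v.2 - c 1 * v.1) * (v.2 - c 2 * v.1))) := by
      have h3 : l ^ 3 ≠ 0 := pow_ne_zero 3 hl
      apply mul_left_cancel₀ h3
      linear_combination hrel
    apply mul_left_cancel₀ huz
    linear_combination m ^ 2 * e ^ 3 * n k ^ 2 * ((v.2 - c 3 * v.1) * (v.2 - c 4 * v.1) *
      (v.2 - c 5 * v.1)) * hroot + m ^ 2 * e ^ 3 * u y * hrel'

/-- **the closure over a flat** -/
theorem mem_closure_iff_Ex (h : ND n d) (D : FlatD V c s0 s1 a b u w f0 x P Q)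
    (hV : IsOpen V) {p₀ : N × OnePoint ℂ × OnePoint ℂ} (hz : p₀.1 ∈ V) :
    p₀ ∈ closure (Gr n d f0 x P Q) ↔ p₀ ∈ Ex n d c a b u w f0 x :=
  ⟨mem_Ex_of_mem_closure h D hV hz, mem_closure_of_mem_Ex h D hV hz⟩

/-- at a point where `(f0,x) ≠ 0` the graph is closed (no flat) -/
theorem mem_closure_iff_Gr (h : ND n d) {z : N} (hne : f0 z ≠ 0 ∨ x z ≠ 0)
    (cf : ContinuousAt f0 z) (cx : ContinuousAt x z) (cP : ContinuousAt P z)
    (cQ : ContinuousAt Q z) (t k : OnePoint ℂ) :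
    (z, t, k) ∈ closure (Gr n d f0 x P Q) ↔ (z, t, k) ∈ Gr n d f0 x P Q := by
  refine ⟨fun hp => ?_, fun hp => subset_closure hp⟩
  have c1 : Tendsto (fun p : N × OnePoint ℂ × OnePoint ℂ => p.1) (𝓝 (z, t, k)) (𝓝 z) :=
    continuous_fst.continuousAt
  have c2 : Tendsto (fun p : N × OnePoint ℂ × OnePoint ℂ => p.2.1) (𝓝 (z, t, k)) (𝓝 t) :=
    (continuous_fst.comp continuous_snd).continuousAt
  have c3 : Tendsto (fun p : N × OnePoint ℂ × OnePoint ℂ => p.2.2) (𝓝 (z, t, k)) (𝓝 k) :=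
    (continuous_snd.comp continuous_snd).continuousAt
  have ev1 : ∀ {g : N → ℂ}, ContinuousAt g z →
      ContinuousAt (fun p : N × OnePoint ℂ × OnePoint ℂ => g p.1) (z, t, k) := fun hg =>
    ContinuousAt.comp (x := (z, t, k)) hg c1
  obtain ⟨n1, d1, l1, cn1, cd1, hl1, en1, ed1⟩ := h.exists_loc t
  obtain ⟨n2, d2, l2, cn2, cd2, hl2, en2, ed2⟩ := h.exists_loc k
  have cN1 : ContinuousAt (fun p : N × OnePoint ℂ × OnePoint ℂ => n1 p.2.1) (z, t, k) :=
    ContinuousAt.comp (x := (z, t, k)) cn1 c2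
  have cD1 : ContinuousAt (fun p : N × OnePoint ℂ × OnePoint ℂ => d1 p.2.1) (z, t, k) :=
    ContinuousAt.comp (x := (z, t, k)) cd1 c2
  have cN2 : ContinuousAt (fun p : N × OnePoint ℂ × OnePoint ℂ => n2 p.2.2) (z, t, k) :=
    ContinuousAt.comp (x := (z, t, k)) cn2 c3
  have cD2 : ContinuousAt (fun p : N × OnePoint ℂ × OnePoint ℂ => d2 p.2.2) (z, t, k) :=
    ContinuousAt.comp (x := (z, t, k)) cd2 c3
  have r1 : x z * d1 t = f0 z * n1 t := by
    refine closed_rel hp (F := fun p => x p.1 * d1 p.2.1) (G := fun p => f0 p.1 * n1 p.2.1)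
      ((ev1 cx).mul cD1) ((ev1 cf).mul cN1) ?_
    filter_upwards [c2.eventually hl1] with p hlp hpS
    obtain ⟨-, h1, -⟩ := hpS
    rw [hlp.2.1, hlp.2.2] at h1
    apply mul_left_cancel₀ hlp.1
    linear_combination h1
  have r2 : n2 k ^ 2 * Q z = d2 k ^ 2 * P z := by
    refine closed_rel hp (F := fun p => n2 p.2.2 ^ 2 * Q p.1) (G := fun p => d2 p.2.2 ^ 2 * P p.1)
      ((cN2.pow 2).mul (ev1 cQ)) ((cD2.pow 2).mul (ev1 cP)) ?_
    filter_upwards [c3.eventually hl2] with p hlp hpS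
    obtain ⟨-, -, h1⟩ := hpS
    rw [hlp.2.1, hlp.2.2] at h1
    apply mul_left_cancel₀ (pow_ne_zero 2 hlp.1)
    linear_combination h1
  refine ⟨hne, ?_, ?_⟩
  · show x z * d t = f0 z * n t
    rw [en1, ed1]
    linear_combination l1 t * r1
  · show n k ^ 2 * Q z = d k ^ 2 * P z
    rw [en2, ed2]
    linear_combination l2 k ^ 2 * r2

end Closure

end

end Crest.Agent.R272.Flat1_302
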