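import Crest.Agent.R272.P1A_54
import Crest.Agent.R272.Flat1_302

/-!
# R272 (S0415), MOD-GRAPH (helper302): `Y i` near a flat, in the language of `GrDefs_559`

* `open_near` : two holomorphic functions with independent differentials at `q` are jointly open
  at every point near `q`;
* `Y_pen`     : near `q`, `D.Y i` is the explicit set;
* `Y_reg`     : off the flats of colour `i`, `D.Y i` is given by the two equations;
* `isClosed_Y`, `isClosed_X1`, `pen_zero`.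
-/

set_option autoImplicit false
set_option linter.unusedSectionVars false

open Set Filter Topology

namespace Crest.Agent.R272.Flat2_302

open Crest.Agent.R275.Geo Crest.Agent.R273.Fam_835 Crest.Agent.R272.Quot_783
  Crest.Agent.R272.Gr_559 Crest.Agent.R272.Flat1_302 Crest.Agent.R272.FamP_54
  Crest.Agent.R272.P1A_54

noncomputable section

theorem nd : ND P1.n P1.d := ⟨fun _ => rfl, rfl, fun _ => rfl, rfl⟩

variable {m : ℕ} {N : Type} [TopologicalSpace N]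

/-- joint openness near a point with independent differentials -/
theorem open_near (F : Fam m N) {q : N} {U : Set N} (hU : IsOpen U) (hq : q ∈ U) {s0 s1 : N → ℂ}
    (h0 : HolF F U s0) (h1 : HolF F U s1)
    (hs : ∀ i, q ∈ (F.e i).source → ∀ w : Fin 2 → ℂ, ∃ v : Cn m,
      dd F i s0 q v = w 0 ∧ dd F i s1 q v = w 1) :
    ∃ V : Set N, V ⊆ U ∧ IsOpen V ∧ q ∈ V ∧
      ∀ z ∈ V, 𝓝 (s0 z, s1 z) ≤ map (fun y => (s0 y, s1 y)) (𝓝 z) := by
  obtain ⟨i, hi⟩ := F.cover q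
  let e := F.e i
  let h : Cn m → ℂ × ℂ := fun z => (s0 (e.symm z), s1 (e.symm z))
  have hO : IsOpen (e.target ∩ e.symm ⁻¹' U) := e.isOpen_inter_preimage_symm hU
  have hpO : e q ∈ e.target ∩ e.symm ⁻¹' U :=
    ⟨e.map_source hi, by rw [mem_preimage, e.left_inv hi]; exact hq⟩
  have hd : DifferentiableOn ℂ h (e.target ∩ e.symm ⁻¹' U) := (h0 i).prodMk (h1 i)
  have han : AnalyticAt ℂ h (e q) := by
    refine Crest.Agent.R266.SCV.analyticAt_of_eventually_differentiableAt ?_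
    filter_upwards [hO.mem_nhds hpO] with z hz
    exact hd.differentiableAt (hO.mem_nhds hz)
  have hst : HasStrictFDerivAt h (fderiv ℂ h (e q)) (e q) := han.hasStrictFDerivAt
  have hf : fderiv ℂ h (e q) = (dd F i s0 q).prod (dd F i s1 q) := by
    have a0 : DifferentiableAt ℂ (fun z => s0 (e.symm z)) (e q) := h0.diffAt hU hi hq
    have a1 : DifferentiableAt ℂ (fun z => s1 (e.symm z)) (e q) := h1.diffAt hU hi hq
    exact (a0.hasFDerivAt.prodMk a1.hasFDerivAt).fderiv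
  have hsurj : (fderiv ℂ h (e q)).range = ⊤ := by
    rw [LinearMap.range_eq_top]
    rintro ⟨w0, w1⟩
    obtain ⟨v, hv0, hv1⟩ := hs i hi ![w0, w1]
    refine ⟨v, ?_⟩
    rw [hf]
    exact Prod.ext hv0 hv1
  let f'symm := (fderiv ℂ h (e q)).nonlinearRightInverseOfSurjective hsurj
  have f'pos : 0 < f'symm.nnnorm :=
    (fderiv ℂ h (e q)).nonlinearRightInverseOfSurjective_nnnorm_pos hsurj
  have cpos : 0 < f'symm.nnnorm⁻¹ / 2 := by simp [f'pos]
  obtain ⟨s, hs', hA⟩ := hst.approximates_deriv_on_nhds (Or.inr cpos)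
  have hs2 : s ∩ (e.target ∩ e.symm ⁻¹' U) ∈ 𝓝 (e q) := inter_mem hs' (hO.mem_nhds hpO)
  obtain ⟨s', hs's, hs'o, hqs⟩ := mem_nhds_iff.1 hs2
  refine ⟨e.source ∩ e ⁻¹' s', ?_, e.isOpen_inter_preimage hs'o, ⟨hi, hqs⟩, ?_⟩
  · rintro z ⟨hz, hzs⟩
    have := (hs's hzs).2.2
    rw [mem_preimage, e.left_inv hz] at this
    exact this
  · rintro z ⟨hz, hzs⟩
    have k1 : map h (𝓝 (e z)) = 𝓝 (h (e z)) :=
      hA.map_nhds_eq f'symm (mem_of_superset (hs'o.mem_nhds hzs) fun y hy => (hs's hy).1)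
        (Or.inr (NNReal.half_lt_self (inv_pos.2 f'pos).ne'))
    have k2 : h (e z) = (s0 z, s1 z) := by
      show (s0 (e.symm (e z)), s1 (e.symm (e z))) = _
      rw [e.left_inv hz]
    rw [k2] at k1
    rw [← k1]
    have k3 : map e.symm (𝓝 (e z)) = 𝓝 z := by
      rw [e.symm.map_nhds_eq (e.map_source hz), e.left_inv hz]
    have k4 : map h (𝓝 (e z)) = map (fun y => (s0 y, s1 y)) (map e.symm (𝓝 (e z))) := by
      rw [map_map]; rfl
    rw [k4, k3]

variable {F : Fam 3 N} (D : GData F)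

theorem G_eq (i : Fin 2) : D.G i = Gr P1.n P1.d D.f0 (D.x i) (D.P i) (D.Q i) := by
  ext p
  have h : (¬(D.f0 p.1 = 0 ∧ D.x i p.1 = 0)) ↔ (D.f0 p.1 ≠ 0 ∨ D.x i p.1 ≠ 0) := by
    rw [not_and_or]
  exact and_congr_left fun _ => h

theorem cont_of {f : N → ℂ} (h : HolF F univ f) : Continuous f :=
  ((holF_iff isOpen_univ).1 h).continuous

theorem isClosed_Y (i : Fin 2) : IsClosed (D.Y i) := isClosed_closure

/-- the linear form in the language of `Pen` -/
def Lp {f0 x P Q : N → ℂ} {q : N} (p : Pen F f0 x P Q q) (j : Fin 6) (z : N) (t : P1) : ℂ :=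
  t.n / p.b z + (p.c 5 - p.c j) * (t.d / p.a z)

/-- at a point of the flat the two functions vanish -/
theorem pen_zero {f0 x P Q : N → ℂ} {q : N} (p : Pen F f0 x P Q q) {z : N} (hz : z ∈ p.U) :
    (f0 z = 0 ∧ x z = 0) ↔ (p.s0 z = 0 ∧ p.s1 z = 0) := by
  constructor
  · rintro ⟨h1, h2⟩
    rw [p.ef z hz] at h1
    have h0 : p.s0 z = 0 := (mul_eq_zero.1 h1).resolve_left (p.a_ne z hz)
    rw [p.ex z hz, h0, mul_zero, sub_zero] at h2
    exact ⟨h0, (mul_eq_zero.1 h2).resolve_left (p.b_ne z hz)⟩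
  · rintro ⟨h1, h2⟩
    rw [p.ef z hz, p.ex z hz, h1, h2]
    simp

/-- the hypothesis of `Flat1_302` on a smaller neighbourhood -/
theorem exists_flatD {i : Fin 2} {q : N} (p : Pen F D.f0 (D.x i) (D.P i) (D.Q i) q)
    (hS : ∀ j, q ∈ (F.e j).source → ∀ w : Fin 2 → ℂ, ∃ v : Cn 3,
      dd F j p.s0 q v = w 0 ∧ dd F j p.s1 q v = w 1) :
    ∃ V : Set N, V ⊆ p.U ∧ IsOpen V ∧ q ∈ V ∧
      FlatD V p.c p.s0 p.s1 p.a p.b p.u p.w D.f0 (D.x i) (D.P i) (D.Q i) := by
  obtain ⟨V, hVU, hV, hq, hop⟩ := open_near F p.U_open p.mem p.s0_hol p.s1_hol hS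
  have hc : ∀ {f : N → ℂ}, HolF F p.U f → ContinuousOn f V := fun h =>
    ((holF_iff p.U_open).1 h).continuousOn.mono hVU
  exact ⟨V, hVU, hV, hq, hc p.a_hol, hc p.b_hol, hc p.u_hol, hc p.w_hol,
    (cont_of D.f0_hol).continuousOn, (cont_of (D.x_hol i)).continuousOn,
    fun z hz => p.a_ne z (hVU hz), fun z hz => p.b_ne z (hVU hz), fun z hz => p.u_ne z (hVU hz),
    fun z hz => p.w_ne z (hVU hz), fun z hz => p.ef z (hVU hz), fun z hz => p.ex z (hVU hz),
    fun z hz => p.eP z (hVU hz), fun z hz => p.eQ z (hVU hz), hop⟩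

/-- **`Y i` near a flat is the explicit set** -/
theorem Y_pen' {i : Fin 2} {q : N} (p : Pen F D.f0 (D.x i) (D.P i) (D.Q i) q)
    (hS : ∀ j, q ∈ (F.e j).source → ∀ w : Fin 2 → ℂ, ∃ v : Cn 3,
      dd F j p.s0 q v = w 0 ∧ dd F j p.s1 q v = w 1) :
    ∃ V : Set N, V ⊆ p.U ∧ IsOpen V ∧ q ∈ V ∧ ∀ z ∈ V, ∀ t k : P1, (z, t, k) ∈ D.Y i ↔
      D.x i z * t.d = D.f0 z * t.n ∧
      k.n ^ 2 * (p.w z * (Lp p 3 z t * Lp p 4 z t * Lp p 5 z t)) =
        k.d ^ 2 * (p.u z * (Lp p 0 z t * Lp p 1 z t * Lp p 2 z t)) := by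
  obtain ⟨V, hVU, hV, hq, hD⟩ := exists_flatD D p hS
  refine ⟨V, hVU, hV, hq, fun z hz t k => ?_⟩
  have h := mem_closure_iff_Ex nd hD hV (p₀ := (z, t, k)) hz
  rw [← G_eq] at h
  exact h

/-- the same on a Pen with smaller neighbourhood -/
def shrink {f0 x P Q : N → ℂ} {q : N} (p : Pen F f0 x P Q q) (V : Set N) (hVU : V ⊆ p.U)
    (hV : IsOpen V) (hq : q ∈ V) : Pen F f0 x P Q q :=
  have hh : ∀ {f : N → ℂ}, HolF F p.U f → HolF F V f := fun h j =>
    (h j).mono fun _ hz => ⟨hz.1, hVU hz.2⟩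
  { p with
    U := V
    U_open := hV
    mem := hq
    s0_hol := hh p.s0_hol
    s1_hol := hh p.s1_hol
    a_hol := hh p.a_hol
    b_hol := hh p.b_hol
    u_hol := hh p.u_hol
    w_hol := hh p.w_hol
    a_ne := fun z hz => p.a_ne z (hVU hz)
    b_ne := fun z hz => p.b_ne z (hVU hz)
    u_ne := fun z hz => p.u_ne z (hVU hz)
    w_ne := fun z hz => p.w_ne z (hVU hz)
    ef := fun z hz => p.ef z (hVU hz)
    ex := fun z hz => p.ex z (hVU hz)
    eP := fun z hz => p.eP z (hVU hz)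
    eQ := fun z hz => p.eQ z (hVU hz) }

/-- the conclusion of `Y_pen` as a predicate on a Pen -/
def Good (i : Fin 2) {q : N} (p : Pen F D.f0 (D.x i) (D.P i) (D.Q i) q) : Prop :=
  ∀ z ∈ p.U, ∀ t k : P1, (z, t, k) ∈ D.Y i ↔
    D.x i z * t.d = D.f0 z * t.n ∧
    k.n ^ 2 * (p.w z * (Lp p 3 z t * Lp p 4 z t * Lp p 5 z t)) =
      k.d ^ 2 * (p.u z * (Lp p 0 z t * Lp p 1 z t * Lp p 2 z t))

theorem Y_pen {i : Fin 2} {q : N} (p : Pen F D.f0 (D.x i) (D.P i) (D.Q i) q)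
    (hS : ∀ j, q ∈ (F.e j).source → ∀ w : Fin 2 → ℂ, ∃ v : Cn 3,
      dd F j p.s0 q v = w 0 ∧ dd F j p.s1 q v = w 1) :
    ∃ (V : Set N) (hVU : V ⊆ p.U) (hV : IsOpen V) (hq : q ∈ V),
      Good D i (shrink p V hVU hV hq) := by
  obtain ⟨V, hVU, hV, hq, h⟩ := Y_pen' D p hS
  exact ⟨V, hVU, hV, hq, h⟩

/-- the surjectivity hypothesis from `SNC` of any list starting with `s0, s1` vanishing at `q` -/
theorem surj_of_snc {ρ : Type} {q : N} {h : ρ → N → ℂ} (hS : SNC F q h) {a b : ρ} (hab : a ≠ b)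
    (ha : h a q = 0) (hb : h b q = 0) : ∀ j, q ∈ (F.e j).source → ∀ w : Fin 2 → ℂ,
      ∃ v : Cn 3, dd F j (h a) q v = w 0 ∧ dd F j (h b) q v = w 1 := by
  classical
  intro j hj w
  obtain ⟨v, hv⟩ := hS j hj (fun r => if r = a then w 0 else w 1)
  refine ⟨v, ?_, ?_⟩
  · rw [hv a ha, if_pos rfl]
  · rw [hv b hb, if_neg hab.symm]

/-- **off the flats of colour `i`** -/
theorem Y_reg {i : Fin 2} {z : N} (h : ¬(D.f0 z = 0 ∧ D.x i z = 0)) (t k : P1) :
    (z, t, k) ∈ D.Y i ↔ D.x i z * t.d = D.f0 z * t.n ∧ k.n ^ 2 * D.Q i z = k.d ^ 2 * D.P i z := by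
  have h1 : D.f0 z ≠ 0 ∨ D.x i z ≠ 0 := by
    rwa [not_and_or] at h
  have h2 := mem_closure_iff_Gr (P := D.P i) (Q := D.Q i) nd h1 (cont_of D.f0_hol).continuousAt
    (cont_of (D.x_hol i)).continuousAt (cont_of (D.P_hol i)).continuousAt
    (cont_of (D.Q_hol i)).continuousAt t k
  rw [← G_eq] at h2
  refine h2.trans ?_
  constructor
  · rintro ⟨-, h3⟩; exact h3
  · intro h3; exact ⟨h, h3⟩

/-- the first relation holds everywhere on `Y i` -/
theorem Y_rel {i : Fin 2} {p : N × P1 × P1} (hp : p ∈ D.Y i) :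
    D.x i p.1 * p.2.1.d = D.f0 p.1 * p.2.1.n := by
  have hc : IsClosed {p : N × P1 × P1 | D.x i p.1 * p.2.1.d = D.f0 p.1 * p.2.1.n} :=
    closed_rel (continuous_fst.comp continuous_snd) ((cont_of (D.x_hol i)).comp continuous_fst)
      ((cont_of D.f0_hol).comp continuous_fst)
  exact hc.closure_subset_iff.2 (fun p hp => hp.2.1) hp

/-- the second relation holds everywhere on `Y i` -/
theorem Y_sq {i : Fin 2} {p : N × P1 × P1} (hp : p ∈ D.Y i) :
    p.2.2.n ^ 2 * D.Q i p.1 = p.2.2.d ^ 2 * D.P i p.1 := by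
  have hc : IsClosed {p : N × P1 × P1 | p.2.2.n ^ 2 * D.Q i p.1 = p.2.2.d ^ 2 * D.P i p.1} :=
    closed_sq (continuous_snd.comp continuous_snd) ((cont_of (D.Q_hol i)).comp continuous_fst)
      ((cont_of (D.P_hol i)).comp continuous_fst)
  exact hc.closure_subset_iff.2 (fun p hp => hp.2.2) hp

/-- `X1` is closed -/
theorem isClosed_X1 : IsClosed D.X1 := by
  have h1 : IsClosed {p : GData.Amb N | ∀ i, (p.1, p.2.1 i, p.2.2.2 i) ∈ D.Y i} := by
    have : {p : GData.Amb N | ∀ i, (p.1, p.2.1 i, p.2.2.2 i) ∈ D.Y i} =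
        ⋂ i, {p : GData.Amb N | (p.1, p.2.1 i, p.2.2.2 i) ∈ D.Y i} := by
      ext p; simp
    rw [this]
    exact isClosed_iInter fun i => (isClosed_Y D i).preimage (by fun_prop)
  have hv : Continuous fun p : GData.Amb N => p.2.2.1 := by fun_prop
  have ht : ∀ i, Continuous fun p : GData.Amb N => p.2.1 i := fun i => by fun_prop
  have h2 := closed_rel3 hv (ht 0) ((cont_of (D.x_hol 1)).comp continuous_fst)
  have h3 := closed_rel3 hv (ht 1) ((cont_of (D.x_hol 0)).comp continuous_fst)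
  exact h1.inter (h2.inter h3)

/-- `X1 → N` is proper -/
theorem isProperMap_pz : IsProperMap D.pz := by
  have h1 : IsClosedEmbedding (Subtype.val : D.X1 → GData.Amb N) :=
    (isClosed_X1 D).isClosedEmbedding_subtypeVal
  have h2 : IsProperMap (Prod.fst : GData.Amb N → N) := isProperMap_fst_of_compactSpace
  exact h2.comp h1.isProperMap

end

end Crest.Agent.R272.Flat2_302
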