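import Crest.Agent.R266.SCV

/-!
# R272 (S0414, S0415), DCOV (helper426), file 1: level sets of submersions

* `exists_compl`  : a surjective linear map is the second component of an isomorphism;
* `straighten`    : a holomorphic map which is submersive at a point is, in a local holomorphic
                    coordinate system, the second projection;
* `slice`         : a local homeomorphism `T ⊇ → V × W` for which `X = {second component = 0}`
                    restricts to a chart `X ⊇ → V`.
-/

set_option autoImplicit false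

open Set Filter Topology

namespace Crest.Agent.R272.DCov_426

noncomputable section

section Straighten

variable {E F V : Type*} [NormedAddCommGroup E] [NormedSpace ℂ E] [FiniteDimensional ℂ E]
  [NormedAddCommGroup F] [NormedSpace ℂ F] [FiniteDimensional ℂ F]
  [NormedAddCommGroup V] [NormedSpace ℂ V] [FiniteDimensional ℂ V]

/-- a surjective linear map is the second component of an isomorphism -/
theorem exists_compl (P : E →L[ℂ] F) (hP : Function.Surjective P)
    (hd : Module.finrank ℂ E = Module.finrank ℂ V + Module.finrank ℂ F) :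
    ∃ e : E ≃L[ℂ] V × F, ∀ x, (e x).2 = P x := by
  have h1 : Module.finrank ℂ (LinearMap.ker P.toLinearMap) = Module.finrank ℂ V := by
    have h2 := LinearMap.finrank_range_add_finrank_ker P.toLinearMap
    have h3 : LinearMap.range P.toLinearMap = ⊤ := LinearMap.range_eq_top.2 hP
    rw [h3, finrank_top] at h2
    omega
  let l : LinearMap.ker P.toLinearMap ≃ₗ[ℂ] V := LinearEquiv.ofFinrankEq _ _ h1
  obtain ⟨q, hq⟩ := Submodule.exists_isCompl (LinearMap.ker P.toLinearMap)
  let T : E →ₗ[ℂ] V := l.toLinearMap ∘ₗ (Submodule.projectionOnto _ q hq)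
  have hinj : Function.Injective (T.prod P.toLinearMap) := by
    rw [← LinearMap.ker_eq_bot, LinearMap.ker_eq_bot']
    intro x hx
    have h4 : P x = 0 := congrArg Prod.snd hx
    have h5 : T x = 0 := congrArg Prod.fst hx
    have h6 : x ∈ LinearMap.ker P.toLinearMap := h4
    have h7 : T x = l ⟨x, h6⟩ := by
      show l (Submodule.projectionOnto _ q hq x) = _
      congr 1
      exact Submodule.projectionOnto_apply_left hq ⟨x, h6⟩
    rw [h7] at h5
    have h8 := (LinearEquiv.map_eq_zero_iff l).1 h5
    exact congrArg Subtype.val h8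
  have hdim : Module.finrank ℂ E = Module.finrank ℂ (V × F) := by
    rw [hd, Module.finrank_prod]
  exact ⟨(LinearEquiv.ofInjectiveOfFinrankEq _ hinj hdim).toContinuousLinearEquiv, fun x => rfl⟩

/-- local straightening of a submersion -/
theorem straighten {Φ : E → F} {W : Set E} (hW : IsOpen W) (hΦ : DifferentiableOn ℂ Φ W) {a : E}
    (ha : a ∈ W) (hs : Function.Surjective (fderiv ℂ Φ a))
    (hd : Module.finrank ℂ E = Module.finrank ℂ V + Module.finrank ℂ F) :
    ∃ χ : OpenPartialHomeomorph E (V × F), a ∈ χ.source ∧ χ.source ⊆ W ∧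
      (∀ z, (χ z).2 = Φ z) ∧ DifferentiableOn ℂ χ χ.source ∧
      DifferentiableOn ℂ χ.symm χ.target := by
  have : CompleteSpace E := FiniteDimensional.complete ℂ E
  have : CompleteSpace F := FiniteDimensional.complete ℂ F
  have : CompleteSpace V := FiniteDimensional.complete ℂ V
  obtain ⟨e, he⟩ := exists_compl (V := V) (fderiv ℂ Φ a) hs hd
  have hAn : AnalyticAt ℂ Φ a :=
    Crest.Agent.R266.SCV.analyticOnNhd_of_differentiableOn hW hΦ a ha
  let T : E →L[ℂ] V := (ContinuousLinearMap.fst ℂ V F).comp (e : E →L[ℂ] V × F)
  have hG : AnalyticAt ℂ (fun z => (T z, Φ z)) a := (T.analyticAt a).prod hAn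
  have hG' : HasFDerivAt (fun z => (T z, Φ z)) (e : E →L[ℂ] V × F) a := by
    have h1 := (T.hasFDerivAt (x := a)).prodMk hAn.differentiableAt.hasFDerivAt
    have h2 : (T.prod (fderiv ℂ Φ a)) = (e : E →L[ℂ] V × F) := by
      ext x
      · rfl
      · exact (he x).symm
    rw [h2] at h1
    exact h1
  obtain ⟨χ, h1, h2, h3, h4, h5⟩ :=
    Crest.Agent.R266.SCV.exists_analytic_openPartialHomeomorph hG e hG' (hW.mem_nhds ha)
  refine ⟨χ, h1, h2, fun z => by rw [h3], h4.differentiableOn, h5.differentiableOn⟩

end Straighten

section Slice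

variable {T V W : Type*} [TopologicalSpace T] [TopologicalSpace V] [TopologicalSpace W] [Zero W]

open Classical in
/-- restriction of a chart to the level set `{second component = 0}` -/
def slice (G : OpenPartialHomeomorph T (V × W)) (X : Set T)
    (h : ∀ t ∈ G.source, t ∈ X ↔ (G t).2 = 0) (x0 : X) : OpenPartialHomeomorph X V where
  toFun q := (G q).1
  invFun z := if hz : G.symm (z, 0) ∈ X then ⟨_, hz⟩ else x0
  source := {q | (q : T) ∈ G.source}
  target := {z | (z, (0 : W)) ∈ G.target}
  map_source' q hq := by
    have h1 : (G q).2 = 0 := (h q hq).1 q.2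
    show ((G q).1, (0 : W)) ∈ G.target
    rw [← h1]
    exact G.map_source hq
  map_target' z hz := by
    have h1 : G.symm (z, 0) ∈ G.source := G.map_target hz
    have h2 : G.symm (z, 0) ∈ X := by
      rw [h _ h1, G.right_inv hz]
    show ((if hz : G.symm (z, 0) ∈ X then (⟨_, hz⟩ : X) else x0 : X) : T) ∈ G.source
    rw [dif_pos h2]
    exact h1
  left_inv' q hq := by
    have h1 : (G q).2 = 0 := (h q hq).1 q.2
    have h2 : G.symm ((G q).1, 0) = q := by
      rw [← h1]
      exact G.left_inv hq
    have h3 : G.symm ((G q).1, 0) ∈ X := by rw [h2]; exact q.2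
    rw [dif_pos h3]
    exact Subtype.ext h2
  right_inv' z hz := by
    have h1 : G.symm (z, 0) ∈ G.source := G.map_target hz
    have h2 : G.symm (z, 0) ∈ X := by
      rw [h _ h1, G.right_inv hz]
    rw [dif_pos h2]
    show (G (G.symm (z, 0))).1 = z
    rw [G.right_inv hz]
  open_source := G.open_source.preimage continuous_subtype_val
  open_target := G.open_target.preimage (by fun_prop)
  continuousOn_toFun := by
    have h1 : ContinuousOn (fun q : X => G (q : T)) {q : X | (q : T) ∈ G.source} :=
      G.continuousOn.comp continuous_subtype_val.continuousOn (fun q hq => hq)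
    exact continuous_fst.comp_continuousOn h1
  continuousOn_invFun := by
    rw [Topology.IsInducing.subtypeVal.continuousOn_iff]
    have h1 : ContinuousOn (fun z : V => G.symm (z, (0 : W))) {z | (z, (0 : W)) ∈ G.target} :=
      G.symm.continuousOn.comp (by fun_prop) (fun z hz => hz)
    refine h1.congr fun z hz => ?_
    have h2 : G.symm (z, 0) ∈ X := by
      rw [h _ (G.map_target hz), G.right_inv hz]
    show ((if hz : G.symm (z, 0) ∈ X then (⟨_, hz⟩ : X) else x0 : X) : T) = _
    rw [dif_pos h2]

variable {G : OpenPartialHomeomorph T (V × W)} {X : Set T}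
  {h : ∀ t ∈ G.source, t ∈ X ↔ (G t).2 = 0} {x0 : X}

theorem slice_apply (q : X) : slice G X h x0 q = (G q).1 := rfl

theorem slice_source : (slice G X h x0).source = {q : X | (q : T) ∈ G.source} := rfl

theorem slice_target : (slice G X h x0).target = {z | (z, (0 : W)) ∈ G.target} := rfl

theorem slice_symm {z : V} (hz : z ∈ (slice G X h x0).target) :
    (((slice G X h x0).symm z : X) : T) = G.symm (z, 0) := by
  have h2 : G.symm (z, 0) ∈ X := by
    rw [h _ (G.map_target hz), G.right_inv hz]
  show ((open Classical in if hz : G.symm (z, 0) ∈ X then (⟨_, hz⟩ : X) else x0 : X) : T) = _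
  rw [dif_pos h2]

end Slice

end

end Crest.Agent.R272.DCov_426
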