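import Crest.Agent.R272.FamP_54
import Crest.Agent.R272.DCov1_426

/-!
# R272 (S0415), MODEL tools (helper54): LEVEL, slices of level sets of submersions

* `exists_slice`   : `S` is, in a chart, the zero set of a submersion ⟹ a slice through the point;
* `exists_slice_g` : the same in any compatible chart with values in any normed space;
* `exists_slice_f` : the same for a function on an open set of `X`.
-/

set_option autoImplicit false
set_option linter.unusedSectionVars false

open Set Filter Topology Complex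

namespace Crest.Agent.R272.Lev_54

open Crest.Agent.R275.Geo Crest.Agent.R273.Fam_835 Crest.Agent.R272.FamP_54
  Crest.Agent.R272.SubF_54

noncomputable section

variable {N n : ℕ} {X : Type} [TopologicalSpace X] {F : Fam N X} {S : Set X}
  {E' : Type*} [NormedAddCommGroup E'] [NormedSpace ℂ E'] [FiniteDimensional ℂ E']

/-- the zero set of a submersion is a submanifold -/
theorem exists_slice (hn : N = n + Module.finrank ℂ E') {x : X} (j : F.ι)
    (hj : x ∈ (F.e j).source) {W : Set (Cn N)} (hW : IsOpen W) (hxW : F.e j x ∈ W)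
    {Φ : Cn N → E'} (hΦ : DifferentiableOn ℂ Φ W)
    (hS : ∀ y ∈ (F.e j).source, F.e j y ∈ W → (y ∈ S ↔ Φ (F.e j y) = 0))
    (hs : Function.Surjective (fderiv ℂ Φ (F.e j x))) : ∃ c : Slice F S n, x ∈ c.dom := by
  obtain ⟨χ, h1, h2, h3, h4, h5⟩ := DCov_426.straighten (V := Cn n)
    (hW.inter (F.e j).open_target) (hΦ.mono inter_subset_left)
    ⟨hxW, (F.e j).map_source hj⟩ hs (by simpa using hn)
  refine ⟨{ j := j
            V := χ.source
            U := {u | (u, (0 : E')) ∈ χ.target}
            φ := fun u => χ.symm (u, 0)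
            ψ := fun z => (χ z).1
            hV := χ.open_source
            hVt := fun z hz => (h2 hz).2
            hU := χ.open_target.preimage (by fun_prop)
            φV := fun u hu => χ.map_target hu
            φS := ?_
            dφ := ?_
            dψ := ?_
            ψφ := fun u hu => ?_
            ψU := ?_
            φψ := ?_ }, hj, h1⟩
  · intro u hu
    have h6 : χ.symm (u, 0) ∈ χ.source := χ.map_target hu
    have h7 := h2 h6
    rw [hS _ ((F.e j).map_target h7.2) (by rw [(F.e j).right_inv h7.2]; exact h7.1),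
      (F.e j).right_inv h7.2, ← h3, χ.right_inv hu]
  · exact h5.comp (differentiableOn_id.prodMk (differentiableOn_const _)) fun u hu => hu
  · exact differentiable_fst.comp_differentiableOn h4
  · show (χ (χ.symm (u, 0))).1 = u
    rw [χ.right_inv hu]
  · intro y hyS hy hyV
    have h6 : (χ (F.e j y)).2 = 0 := by
      rw [h3]; exact (hS y hy (h2 hyV).1).1 hyS
    show ((χ (F.e j y)).1, (0 : E')) ∈ χ.target
    rw [← h6]
    exact χ.map_source hyV
  · intro y hyS hy hyV
    have h6 : (χ (F.e j y)).2 = 0 := by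
      rw [h3]; exact (hS y hy (h2 hyV).1).1 hyS
    show χ.symm ((χ (F.e j y)).1, (0 : E')) = F.e j y
    rw [← h6]
    exact χ.left_inv hyV

/-- the function version -/
theorem exists_slice_f (hn : N = n + Module.finrank ℂ E') {x : X} {O : Set X} (hO : IsOpen O)
    (hxO : x ∈ O) {Φ : X → E'} (hΦ : HF F O Φ) (hS : ∀ y ∈ O, y ∈ S ↔ Φ y = 0) (j : F.ι)
    (hj : x ∈ (F.e j).source)
    (hs : Function.Surjective (fderiv ℂ (fun z => Φ ((F.e j).symm z)) (F.e j x))) :
    ∃ c : Slice F S n, x ∈ c.dom := by
  refine exists_slice hn j hj ((F.e j).isOpen_inter_preimage_symm hO)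
    ⟨(F.e j).map_source hj, by rw [mem_preimage, (F.e j).left_inv hj]; exact hxO⟩
    (Φ := fun z => Φ ((F.e j).symm z)) ?_ ?_ hs
  · rintro z ⟨hz, hzO⟩
    have h1 := hΦ _ hzO j ((F.e j).map_target hz)
    rw [(F.e j).right_inv hz] at h1
    exact h1.differentiableWithinAt
  · rintro y hy ⟨-, hyO⟩
    have hyO' : (F.e j).symm (F.e j y) ∈ O := hyO
    rw [(F.e j).left_inv hy] at hyO'
    rw [(F.e j).left_inv hy]
    exact hS y hyO'

/-- `g` is a holomorphic chart of `(X, F)` with values in a normed space `E` -/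
structure Cpt {E : Type*} [NormedAddCommGroup E] [NormedSpace ℂ E] (F : Fam N X)
    (g : OpenPartialHomeomorph X E) : Prop where
  hol : ∀ x ∈ g.source, HFA F g x
  hol' : ∀ i, ∀ z ∈ g.target, g.symm z ∈ (F.e i).source →
    DifferentiableAt ℂ (fun z => F.e i (g.symm z)) z

theorem Cpt.chart (i : F.ι) : Cpt F (F.e i) :=
  ⟨fun _ hx => hfa_chart hx, fun j _ hz hj => (F.holo i j).differentiableAt
    (((F.e i).isOpen_inter_preimage_symm (F.e j).open_source).mem_nhds ⟨hz, hj⟩)⟩

/-- the version with an arbitrary compatible chart `g : X ⊇ → E` -/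
theorem exists_slice_g {E : Type*} [NormedAddCommGroup E] [NormedSpace ℂ E]
    [FiniteDimensional ℂ E] (hn : Module.finrank ℂ E = n + Module.finrank ℂ E') (hN : N = Module.finrank ℂ E)
    {g : OpenPartialHomeomorph X E} (hg : Cpt F g) {x : X} (hx : x ∈ g.source) {W : Set E}
    (hW : IsOpen W) (hxW : g x ∈ W) {Φ : E → E'} (hΦ : DifferentiableOn ℂ Φ W)
    (hS : ∀ y ∈ g.source, g y ∈ W → (y ∈ S ↔ Φ (g y) = 0))
    (hs : Function.Surjective (fderiv ℂ Φ (g x))) : ∃ c : Slice F S n, x ∈ c.dom := by
  obtain ⟨j, hj⟩ := F.cover x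
  have hgx : g.symm (g x) ∈ (F.e j).source := by rw [g.left_inv hx]; exact hj
  -- derivative of the chart change is invertible
  have h1 : DifferentiableAt ℂ (fun z => g ((F.e j).symm z)) (F.e j x) := hg.hol x hx j hj
  have h2 : DifferentiableAt ℂ (fun z => F.e j (g.symm z)) (g x) := hg.hol' j _ (g.map_source hx) hgx
  have e1 : g ((F.e j).symm (F.e j x)) = g x := by rw [(F.e j).left_inv hj]
  have hcomp : Function.Surjective (fderiv ℂ (fun z => g ((F.e j).symm z)) (F.e j x)) := by
    have h3 : HasFDerivAt (fun z => g ((F.e j).symm (F.e j (g.symm z))))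
        ((fderiv ℂ (fun z => g ((F.e j).symm z)) (F.e j x)).comp
          (fderiv ℂ (fun z => F.e j (g.symm z)) (g x))) (g x) := by
      have e2 : F.e j (g.symm (g x)) = F.e j x := by rw [g.left_inv hx]
      have h4 : HasFDerivAt (fun z => g ((F.e j).symm z))
          (fderiv ℂ (fun z => g ((F.e j).symm z)) (F.e j x)) (F.e j (g.symm (g x))) := by
        rw [e2]; exact h1.hasFDerivAt
      exact HasFDerivAt.comp (g x) (f := fun z => F.e j (g.symm z)) h4 h2.hasFDerivAt
    have h5 : HasFDerivAt (fun z => g ((F.e j).symm (F.e j (g.symm z))))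
        (ContinuousLinearMap.id ℂ E) (g x) := by
      refine (hasFDerivAt_id (g x)).congr_of_eventuallyEq ?_
      have h6 : ∀ᶠ z in 𝓝 (g x), z ∈ g.target ∧ g.symm z ∈ (F.e j).source :=
        (g.open_target.eventually_mem (g.map_source hx)).and
          ((g.continuousAt_symm (g.map_source hx)).eventually
            ((F.e j).open_source.mem_nhds hgx))
      filter_upwards [h6] with z hz
      show g ((F.e j).symm (F.e j (g.symm z))) = id z
      rw [(F.e j).left_inv hz.2, g.right_inv hz.1]
      rfl
    have h7 := h3.unique h5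
    intro v
    refine ⟨fderiv ℂ (fun z => F.e j (g.symm z)) (g x) v, ?_⟩
    have h8 := congrArg (fun L : E →L[ℂ] E => L v) h7
    exact h8
  refine exists_slice_f (N := N) (S := S) (n := n) (by omega) (x := x) (O := g.source ∩ g ⁻¹' W)
    (g.isOpen_inter_preimage hW) ⟨hx, hxW⟩ (Φ := fun y => Φ (g y)) ?_ ?_ j hj ?_
  · rintro y ⟨hy, hyW⟩
    exact HFA.comp_left (g := Φ) (f := fun y => g y)
      (hΦ.differentiableAt (hW.mem_nhds hyW)) (hg.hol y hy)
  · rintro y ⟨hy, hyW⟩
    exact hS y hy hyW
  · have h9 : HasFDerivAt (fun z => Φ (g ((F.e j).symm z)))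
        ((fderiv ℂ Φ (g x)).comp (fderiv ℂ (fun z => g ((F.e j).symm z)) (F.e j x)))
        (F.e j x) := by
      have h10 : HasFDerivAt Φ (fderiv ℂ Φ (g x)) (g ((F.e j).symm (F.e j x))) := by
        rw [e1]; exact (hΦ.differentiableAt (hW.mem_nhds hxW)).hasFDerivAt
      exact HasFDerivAt.comp (F.e j x) (f := fun z => g ((F.e j).symm z)) h10 h1.hasFDerivAt
    rw [h9.fderiv]
    exact hs.comp hcomp

end

end Crest.Agent.R272.Lev_54
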