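import Crest.Agent.R272.Tp3_60
import Crest.Agent.R272.Flat2_302
import Crest.Agent.R272.Lev_54

/-!
# R272 (S0415), MOD-TP (helper916): from the pens of `GData` at a cluster point to `Tp3_60.Loc`

* `toA`         : `(z,t₀,t₁,v,k₀,k₁) ↦ (z, ![t₀,t₁], v, ![k₀,k₁])`;
* `exists_root` : holomorphic square root of `u / w` near a point;
* `exists_coords`: three functions with independent differentials are coordinates;
* `exists_loc`  : the local data `Loc P N` with `y ∈ X₁ ↔ RelX L y` over `L.sh.source`.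
-/

set_option autoImplicit false
set_option linter.unusedSectionVars false

open Set Filter Topology OnePoint

namespace Crest.Agent.R272.Tq2_916

open Crest.Agent.R275.Geo Crest.Agent.R273.Fam_835 Crest.Agent.R272.Quot_783
  Crest.Agent.R272.FamP_54 Crest.Agent.R272.P1A_54 Crest.Agent.R272.Flat2_302
  Crest.Agent.R272.Tp3_60
open Crest.Agent.R272.Gr_559 (dd SNC Pen GData)
open Crest.Agent.R272.Cur_297 (Par)
open Crest.Agent.R272.Tp1_60 (P1)

noncomputable section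

variable {N : Type} [TopologicalSpace N]

/-- order of the coordinates of `E6` and of `Amb` -/
def toA : E6 N ≃ₜ GData.Amb N where
  toFun y := (y.1, ![y.2.1, y.2.2.1], y.2.2.2.1, ![y.2.2.2.2.1, y.2.2.2.2.2])
  invFun p := (p.1, p.2.1 0, p.2.1 1, p.2.2.1, p.2.2.2 0, p.2.2.2 1)
  left_inv y := rfl
  right_inv p := by
    refine Prod.ext rfl (Prod.ext ?_ (Prod.ext rfl ?_)) <;>
    · funext i
      fin_cases i <;> rfl
  continuous_toFun := by
    have h1 : Continuous fun y : E6 N => (![y.2.1, y.2.2.1] : Fin 2 → P1) := by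
      refine continuous_pi fun i => ?_
      fin_cases i
      · show Continuous fun y : E6 N => y.2.1
        fun_prop
      · show Continuous fun y : E6 N => y.2.2.1
        fun_prop
    have h2 : Continuous fun y : E6 N => (![y.2.2.2.2.1, y.2.2.2.2.2] : Fin 2 → P1) := by
      refine continuous_pi fun i => ?_
      fin_cases i
      · show Continuous fun y : E6 N => y.2.2.2.2.1
        fun_prop
      · show Continuous fun y : E6 N => y.2.2.2.2.2
        fun_prop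
    fun_prop
  continuous_invFun := by fun_prop

variable {n : ℕ} {F : Fam n N}

/-- local square root -/
theorem exists_root {q : N} {O : Set N} (hO : IsOpen O) (hq : q ∈ O) {u w : N → ℂ}
    (hu : HF F O u) (hw : HF F O w) (hu0 : ∀ z ∈ O, u z ≠ 0) (hw0 : ∀ z ∈ O, w z ≠ 0) :
    ∃ V : Set N, V ⊆ O ∧ IsOpen V ∧ q ∈ V ∧ ∃ m : N → ℂ, HF F V m ∧
      ∀ z ∈ V, m z ≠ 0 ∧ m z ^ 2 * w z = u z := by
  obtain ⟨r, hr⟩ := IsAlgClosed.exists_pow_nat_eq (u q / w q) (n := 2) (by norm_num)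
  have hr0 : r ≠ 0 := by
    rintro rfl
    have h1 := div_ne_zero (hu0 q hq) (hw0 q hq)
    rw [← hr] at h1
    simp at h1
  let g : N → ℂ := fun z => u z / w z / (u q / w q)
  have hg : HF F O g := fun z hz =>
    HFA.div (HFA.div (hu z hz) (hw z hz) (hw0 z hz)) (HFA.const _ z)
      (div_ne_zero (hu0 q hq) (hw0 q hq))
  have hgc : ContinuousOn g O := fun z hz => (hg z hz).continuousAt.continuousWithinAt
  have hgq : g q = 1 := div_self (div_ne_zero (hu0 q hq) (hw0 q hq))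
  have hsl : ∀ z, g z ∈ Metric.ball (1 : ℂ) 1 → g z ∈ Complex.slitPlane := fun z hz =>
    Complex.ball_one_subset_slitPlane hz
  refine ⟨O ∩ g ⁻¹' Metric.ball 1 1, inter_subset_left, hgc.isOpen_inter_preimage hO
    Metric.isOpen_ball, ⟨hq, by rw [mem_preimage, hgq]; simp⟩,
    fun z => r * Complex.exp (Complex.log (g z) / 2), ?_, ?_⟩
  · rintro z ⟨hz, hzg⟩
    have h1 : DifferentiableAt ℂ (fun x : ℂ => r * Complex.exp (Complex.log x / 2)) (g z) := by
      have h2 := Complex.differentiableAt_log (hsl z hzg)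
      exact (((h2.div_const 2).cexp)).const_mul r
    exact HFA.comp_left (g := fun x : ℂ => r * Complex.exp (Complex.log x / 2)) (f := g) h1
      (hg z hz)
  · rintro z ⟨hz, hzg⟩
    refine ⟨mul_ne_zero hr0 (Complex.exp_ne_zero _), ?_⟩
    have hg0 : g z ≠ 0 := Complex.slitPlane_ne_zero (hsl z hzg)
    have h2 : Complex.exp (Complex.log (g z) / 2) ^ 2 = g z := by
      rw [← Complex.exp_nat_mul]
      have : ((2 : ℕ) : ℂ) * (Complex.log (g z) / 2) = Complex.log (g z) := by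
        push_cast; ring
      rw [this, Complex.exp_log hg0]
    have hwq := hw0 q hq
    have huq := hu0 q hq
    have hwz := hw0 z hz
    calc (r * Complex.exp (Complex.log (g z) / 2)) ^ 2 * w z =
        r ^ 2 * (Complex.exp (Complex.log (g z) / 2) ^ 2) * w z := by ring
      _ = u z := by
        rw [h2, hr]
        show u q / w q * (u z / w z / (u q / w q)) * w z = u z
        field_simp

/-- projection `Cn 0 × E ≃ E` -/
def sndH (E : Type) [TopologicalSpace E] : (Cn 0 × E) ≃ₜ E where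
  toFun := Prod.snd
  invFun y := (0, y)
  left_inv y := Prod.ext (Subsingleton.elim _ _) rfl
  right_inv y := rfl
  continuous_toFun := continuous_snd
  continuous_invFun := by fun_prop

/-- three functions with independent differentials are local coordinates -/
theorem exists_coords {F : Fam 3 N} {q : N} {O : Set N} (hO : IsOpen O) (hq : q ∈ O)
    {s0 s1 s2 : N → ℂ} (h0 : HF F O s0) (h1 : HF F O s1) (h2 : HF F O s2)
    (hs : ∀ i, q ∈ (F.e i).source → ∀ w : Fin 3 → ℂ, ∃ v : Cn 3,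
      dd F i s0 q v = w 0 ∧ dd F i s1 q v = w 1 ∧ dd F i s2 q v = w 2) :
    ∃ sh : OpenPartialHomeomorph N (ℂ × ℂ × ℂ), q ∈ sh.source ∧ sh.source ⊆ O ∧
      (∀ z ∈ sh.source, sh z = (s0 z, s1 z, s2 z)) ∧
      ∀ S ∈ sh.target, ∀ j, sh.symm S ∈ (F.e j).source →
        DifferentiableAt ℂ (fun S => F.e j (sh.symm S)) S := by
  obtain ⟨i, hi⟩ := F.cover q
  let e := F.e i
  have hi' : q ∈ e.source := hi
  let h : Cn 3 → ℂ × ℂ × ℂ := fun z => (s0 (e.symm z), s1 (e.symm z), s2 (e.symm z))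
  have hW : IsOpen (e.target ∩ e.symm ⁻¹' O) := e.isOpen_inter_preimage_symm hO
  have hqW : e q ∈ e.target ∩ e.symm ⁻¹' O :=
    ⟨e.map_source hi, by rw [mem_preimage, e.left_inv hi']; exact hq⟩
  have hd1 : ∀ {f : N → ℂ}, HF F O f → ∀ z ∈ e.target ∩ e.symm ⁻¹' O,
      DifferentiableAt ℂ (fun z => f (e.symm z)) z := by
    intro f hf z hz
    have := hf _ hz.2 i (e.map_target hz.1)
    have hr : F.e i (e.symm z) = z := e.right_inv hz.1
    rw [hr] at this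
    exact this
  have hd : DifferentiableOn ℂ h (e.target ∩ e.symm ⁻¹' O) := fun z hz =>
    ((hd1 h0 z hz).prodMk ((hd1 h1 z hz).prodMk (hd1 h2 z hz))).differentiableWithinAt
  have hfd : fderiv ℂ h (e q) = (dd F i s0 q).prod ((dd F i s1 q).prod (dd F i s2 q)) :=
    ((hd1 h0 _ hqW).hasFDerivAt.prodMk ((hd1 h1 _ hqW).hasFDerivAt.prodMk
      (hd1 h2 _ hqW).hasFDerivAt)).fderiv
  have hsurj : Function.Surjective (fderiv ℂ h (e q)) := by
    rintro ⟨w0, w1, w2⟩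
    obtain ⟨v, hv0, hv1, hv2⟩ := hs i hi ![w0, w1, w2]
    refine ⟨v, ?_⟩
    rw [hfd]
    exact Prod.ext hv0 (Prod.ext hv1 hv2)
  obtain ⟨χ, c1, c2, c3, c4, c5⟩ := DCov_426.straighten (V := Cn 0) hW hd hqW hsurj (by simp)
  let χ' : OpenPartialHomeomorph (Cn 3) (ℂ × ℂ × ℂ) :=
    χ.trans (sndH (ℂ × ℂ × ℂ)).toOpenPartialHomeomorph
  have hsrc : χ'.source = χ.source := by
    simp [χ']
  have htgt : ∀ S, S ∈ χ'.target ↔ ((0 : Cn 0), S) ∈ χ.target := by
    intro S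
    simp [χ', sndH]
  refine ⟨e.trans χ', ?_, ?_, ?_, ?_⟩
  · rw [OpenPartialHomeomorph.trans_source]
    exact ⟨hi, by rw [mem_preimage, hsrc]; exact c1⟩
  · rw [OpenPartialHomeomorph.trans_source]
    rintro z ⟨hz, hzc⟩
    rw [mem_preimage, hsrc] at hzc
    have := (c2 hzc).2
    rw [mem_preimage, e.left_inv hz] at this
    exact this
  · rw [OpenPartialHomeomorph.trans_source]
    rintro z ⟨hz, hzc⟩
    show (χ (e z)).2 = _
    rw [c3]
    show (s0 (e.symm (e z)), s1 (e.symm (e z)), s2 (e.symm (e z))) = _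
    rw [e.left_inv hz]
  · intro S hS j hj
    rw [OpenPartialHomeomorph.trans_target] at hS
    have hS' : ((0 : Cn 0), S) ∈ χ.target := (htgt S).1 hS.1
    have hy : χ.symm ((0 : Cn 0), S) ∈ e.target := hS.2
    have hj' : e.symm (χ.symm ((0 : Cn 0), S)) ∈ (F.e j).source := hj
    have k1 : DifferentiableAt ℂ (fun z => F.e j (e.symm z)) (χ.symm ((0 : Cn 0), S)) :=
      (F.holo i j).differentiableAt ((e.isOpen_inter_preimage_symm (F.e j).open_source).mem_nhds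
        ⟨hy, hj'⟩)
    have k2 : DifferentiableAt ℂ (fun S : ℂ × ℂ × ℂ => χ.symm ((0 : Cn 0), S)) S := by
      have k3 : DifferentiableAt ℂ χ.symm ((0 : Cn 0), S) :=
        c5.differentiableAt (χ.open_target.mem_nhds hS')
      exact DifferentiableAt.comp S k3 ((differentiableAt_const _).prodMk differentiableAt_id)
    exact DifferentiableAt.comp S (f := fun S : ℂ × ℂ × ℂ => χ.symm ((0 : Cn 0), S)) k1 k2

/-- the three functions of the list, as a triple -/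
theorem snc_three {F : Fam 3 N} {q : N} {s0 s1 s2 : N → ℂ} (h : SNC F q ![s0, s1, s2])
    (h0 : s0 q = 0) (h1 : s1 q = 0) (h2 : s2 q = 0) :
    ∀ i, q ∈ (F.e i).source → ∀ w : Fin 3 → ℂ, ∃ v : Cn 3,
      dd F i s0 q v = w 0 ∧ dd F i s1 q v = w 1 ∧ dd F i s2 q v = w 2 := by
  intro i hi w
  obtain ⟨v, hv⟩ := h i hi w
  exact ⟨v, hv 0 h0, hv 1 h1, hv 2 h2⟩

/-- a coordinate is non-zero at points arbitrarily near any point -/
theorem not_eventually_fst {sh : OpenPartialHomeomorph N (ℂ × ℂ × ℂ)} {z : N}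
    (hz : z ∈ sh.source) : ¬ ∀ᶠ y in 𝓝 z, (sh y).1 = 0 := by
  intro h
  have h1 : ∀ᶠ S in 𝓝 (sh z), (sh (sh.symm S)).1 = 0 := by
    have hc : Tendsto sh.symm (𝓝 (sh z)) (𝓝 z) := by
      have := sh.continuousAt_symm (sh.map_source hz)
      unfold ContinuousAt at this
      rwa [sh.left_inv hz] at this
    exact hc.eventually h
  have h2 : ∀ᶠ S in 𝓝 (sh z), S.1 = 0 := by
    filter_upwards [h1, sh.open_target.mem_nhds (sh.map_source hz)] with S hS hS'
    rwa [sh.right_inv hS'] at hS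
  have h3 : ∀ᶠ ε : ℂ in 𝓝 0, ε + (sh z).1 = 0 := by
    have hc : ContinuousAt (fun ε : ℂ => ((ε + (sh z).1, (sh z).2) : ℂ × ℂ × ℂ)) 0 := by fun_prop
    have hc' : Tendsto (fun ε : ℂ => ((ε + (sh z).1, (sh z).2) : ℂ × ℂ × ℂ)) (𝓝 0)
        (𝓝 (sh z)) := by
      have h5 := hc.tendsto
      simp only [zero_add, Prod.mk.eta] at h5
      exact h5
    exact hc'.eventually h2
  have h4 : ∀ᶠ ε : ℂ in 𝓝[≠] 0, False := by
    have h0 := h3.self_of_nhds
    filter_upwards [nhdsWithin_le_nhds h3, self_mem_nhdsWithin] with ε h5 h6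
    rw [zero_add] at h0
    rw [h0, add_zero] at h5
    exact h6 h5
  exact h4.exists.elim fun _ h => h

/-- **the local data at a cluster point** -/
theorem exists_loc {F : Fam 3 N} (D : GData F) (P : Par) {q : N}
    (p : Pen F D.f0 (D.x 0) (D.P 0) (D.Q 0) q) (p' : Pen F D.f0 (D.x 1) (D.P 1) (D.Q 1) q)
    (h0 : p'.s0 = p.s0) (hc : p.c = P.c) (hc' : p'.c = P.c)
    (snc : SNC F q ![p.s0, p.s1, p'.s1])
    (f0q : D.f0 q = 0) (x0q : D.x 0 q = 0) (x1q : D.x 1 q = 0)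
    {O : Set N} (hO : IsOpen O) (hq : q ∈ O) :
    ∃ L : Loc P N, q ∈ L.sh.source ∧ L.sh.source ⊆ O ∩ p.U ∩ p'.U ∧ L.sh q = 0 ∧
      (∀ z ∈ L.sh.source, L.sh z = (p.s0 z, p.s1 z, p'.s1 z) ∧ L.a z = p.a z ∧ L.a z = p'.a z ∧
        L.b 0 z = p.b z ∧ L.b 1 z = p'.b z ∧ L.m 0 z ^ 2 * p.w z = p.u z ∧
        L.m 1 z ^ 2 * p'.w z = p'.u z) ∧
      (∀ z ∈ L.sh.source, HFA F L.a z ∧ (∀ i, HFA F (L.b i) z) ∧ (∀ i, HFA F (L.m i) z) ∧
        HFA F L.sh z) ∧
      (∀ S ∈ L.sh.target, ∀ j, L.sh.symm S ∈ (F.e j).source →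
        DifferentiableAt ℂ (fun S => F.e j (L.sh.symm S)) S) ∧
      ∀ y : E6 N, y.1 ∈ L.sh.source → (toA y ∈ D.X1 ↔ RelX L y) := by
  obtain ⟨z0, z1⟩ := (pen_zero p p.mem).1 ⟨f0q, x0q⟩
  obtain ⟨z0', z2⟩ := (pen_zero p' p'.mem).1 ⟨f0q, x1q⟩
  obtain ⟨V0, hV0U, hV0, hqV0, hY0⟩ := Y_pen' D (i := 0) p
    (surj_of_snc snc (a := 0) (b := 1) (by decide) z0 z1)
  have hS' : ∀ j, q ∈ (F.e j).source → ∀ w : Fin 2 → ℂ, ∃ v : Cn 3,
      dd F j p'.s0 q v = w 0 ∧ dd F j p'.s1 q v = w 1 := by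
    rw [h0]
    exact surj_of_snc snc (a := 0) (b := 2) (by decide) z0 z2
  obtain ⟨V1, hV1U, hV1, hqV1, hY1⟩ := Y_pen' D (i := 1) p' hS'
  have hU : ∀ {f : N → ℂ}, HolF F p.U f → HF F p.U f := fun h => (holF_iff p.U_open).1 h
  have hU' : ∀ {f : N → ℂ}, HolF F p'.U f → HF F p'.U f := fun h => (holF_iff p'.U_open).1 h
  obtain ⟨W0, hW0U, hW0, hqW0, m0, hm0, hm0'⟩ :=
    exists_root p.U_open p.mem (hU p.u_hol) (hU p.w_hol) p.u_ne p.w_ne
  obtain ⟨W1, hW1U, hW1, hqW1, m1, hm1, hm1'⟩ :=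
    exists_root p'.U_open p'.mem (hU' p'.u_hol) (hU' p'.w_hol) p'.u_ne p'.w_ne
  have hOO : IsOpen (O ∩ (V0 ∩ V1) ∩ (W0 ∩ W1)) := (hO.inter (hV0.inter hV1)).inter (hW0.inter hW1)
  obtain ⟨sh, s1, s2, s3, s4⟩ := exists_coords (F := F) hOO ⟨⟨hq, hqV0, hqV1⟩, hqW0, hqW1⟩
    (s0 := p.s0) (s1 := p.s1) (s2 := p'.s1)
    (fun z hz => hU p.s0_hol z (hV0U hz.1.2.1)) (fun z hz => hU p.s1_hol z (hV0U hz.1.2.1))
    (fun z hz => hU' p'.s1_hol z (hV1U hz.1.2.2)) (snc_three snc z0 z1 z2)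
  have mU : ∀ z ∈ sh.source, z ∈ p.U := fun z hz => hV0U (s2 hz).1.2.1
  have mU' : ∀ z ∈ sh.source, z ∈ p'.U := fun z hz => hV1U (s2 hz).1.2.2
  have haa : ∀ z ∈ sh.source, p.a z = p'.a z := by
    intro z hz
    by_contra hne
    have c1 : ContinuousAt p.a z := (hU p.a_hol z (mU z hz)).continuousAt
    have c2 : ContinuousAt p'.a z := (hU' p'.a_hol z (mU' z hz)).continuousAt
    have c3 : ∀ᶠ y in 𝓝 z, p.a y - p'.a y ≠ 0 :=
      (c1.sub c2).eventually_ne (sub_ne_zero.2 hne)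
    refine not_eventually_fst hz ?_
    filter_upwards [c3, sh.open_source.mem_nhds hz] with y h1 h2
    rw [s3 y h2]
    have e1 := p.ef y (mU y h2)
    have e2 := p'.ef y (mU' y h2)
    rw [h0, e1] at e2
    refine (mul_eq_zero.1 (?_ : (p.a y - p'.a y) * p.s0 y = 0)).resolve_left h1
    linear_combination e2
  have hsh : ∀ z ∈ sh.source, HFA F sh z := by
    intro z hz
    have k1 : HFA F (fun y => ((p.s0 y, p.s1 y, p'.s1 y) : ℂ × ℂ × ℂ)) z := fun i hi =>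
      (hU p.s0_hol z (mU z hz) i hi).prodMk ((hU p.s1_hol z (mU z hz) i hi).prodMk
        (hU' p'.s1_hol z (mU' z hz) i hi))
    refine k1.congr ?_
    filter_upwards [sh.open_source.mem_nhds hz] with y hy
    exact s3 y hy
  let L : Loc P N :=
    { sh := sh
      a := p.a
      b := ![p.b, p'.b]
      m := ![m0, m1]
      ca := fun z hz => (hU p.a_hol z (mU z hz)).continuousAt.continuousWithinAt
      cb := fun i z hz => by
        fin_cases i
        · exact (hU p.b_hol z (mU z hz)).continuousAt.continuousWithinAt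
        · exact (hU' p'.b_hol z (mU' z hz)).continuousAt.continuousWithinAt
      cm := fun i z hz => by
        fin_cases i
        · exact (hm0 z (s2 hz).2.1).continuousAt.continuousWithinAt
        · exact (hm1 z (s2 hz).2.2).continuousAt.continuousWithinAt
      a0 := fun z hz => p.a_ne z (mU z hz)
      b0 := fun i z hz => by
        fin_cases i
        · exact p.b_ne z (mU z hz)
        · exact p'.b_ne z (mU' z hz)
      m0 := fun i z hz => by
        fin_cases i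
        · exact (hm0' z (s2 hz).2.1).1
        · exact (hm1' z (s2 hz).2.2).1 }
  refine ⟨L, s1, fun z hz => ⟨⟨(s2 hz).1.1, mU z hz⟩, mU' z hz⟩, ?_, ?_, ?_, s4, ?_⟩
  · show sh q = 0
    rw [s3 q s1, z0, z1, z2]
    rfl
  · intro z hz
    exact ⟨s3 z hz, rfl, haa z hz, rfl, rfl, (hm0' z (s2 hz).2.1).2, (hm1' z (s2 hz).2.2).2⟩
  · intro z hz
    refine ⟨hU p.a_hol z (mU z hz), fun i => ?_, fun i => ?_, hsh z hz⟩
    · fin_cases i
      · exact hU p.b_hol z (mU z hz)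
      · exact hU' p'.b_hol z (mU' z hz)
    · fin_cases i
      · exact hm0 z (s2 hz).2.1
      · exact hm1 z (s2 hz).2.2
  · rintro ⟨z, t0, t1, v, k0, k1⟩ hz
    change z ∈ sh.source at hz
    have hzU := mU z hz
    have hzU' := mU' z hz
    have e1 : L.sh z = (p.s0 z, p.s1 z, p'.s1 z) := s3 z hz
    have ef := p.ef z hzU
    have ex := p.ex z hzU
    have ex' := p'.ex z hzU'
    rw [hc] at ex
    rw [hc', h0] at ex'
    have w0 := p.w_ne z hzU
    have w1 := p'.w_ne z hzU'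
    have r0 := (hm0' z (s2 hz).2.1).2
    have r1 := (hm1' z (s2 hz).2.2).2
    have eY0 := hY0 z (s2 hz).1.2.1 t0 k0
    have eY1 := hY1 z (s2 hz).1.2.2 t1 k1
    have lp0 : ∀ j, Lp p j z t0 = Lj P (L.a z) (L.b 0 z) j t0 := fun j => by
      unfold Lp Lj
      rw [hc]
      rfl
    have lp1 : ∀ j, Lp p' j z t1 = Lj P (L.a z) (L.b 1 z) j t1 := fun j => by
      unfold Lp Lj
      rw [hc', ← haa z hz]
      rfl
    have memX : toA (z, t0, t1, v, k0, k1) ∈ D.X1 ↔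
        ((z, t0, k0) ∈ D.Y 0 ∧ (z, t1, k1) ∈ D.Y 1) ∧
        Gr_559.P1.n v * Gr_559.P1.d t0 = Gr_559.P1.d v * Gr_559.P1.n t0 * D.x 1 z ∧
        Gr_559.P1.n v * Gr_559.P1.d t1 = Gr_559.P1.d v * Gr_559.P1.n t1 * D.x 0 z := by
      refine and_congr_left fun _ => ?_
      rw [Fin.forall_fin_two]
      rfl
    rw [memX, eY0, eY1]
    rw [lp0, lp0, lp0, lp0, lp0, lp0, lp1, lp1, lp1, lp1, lp1, lp1]
    constructor
    · rintro ⟨⟨⟨a1, a2⟩, b1, b2⟩, c1, c2⟩
      refine ⟨?_, ?_, ?_, ?_, ?_, ?_⟩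
      · show L.b 0 z * ((L.sh z).2.1 - P.c 5 * (L.sh z).1) * _ = L.a z * (L.sh z).1 * _
        rw [e1]
        show p.b z * (p.s1 z - P.c 5 * p.s0 z) * _ = p.a z * p.s0 z * _
        rw [← ex, ← ef]
        exact a1
      · show L.b 1 z * ((L.sh z).2.2 - P.c 5 * (L.sh z).1) * _ = L.a z * (L.sh z).1 * _
        rw [e1]
        show p'.b z * (p'.s1 z - P.c 5 * p.s0 z) * _ = p.a z * p.s0 z * _
        rw [← ex', ← ef]
        exact b1
      · show _ = _ * (_ * (L.b 1 z * ((L.sh z).2.2 - P.c 5 * (L.sh z).1)))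
        rw [e1]
        show _ = _ * (_ * (p'.b z * (p'.s1 z - P.c 5 * p.s0 z)))
        rw [← ex', ← mul_assoc]
        exact c1
      · show _ = _ * (_ * (L.b 0 z * ((L.sh z).2.1 - P.c 5 * (L.sh z).1)))
        rw [e1]
        show _ = _ * (_ * (p.b z * (p.s1 z - P.c 5 * p.s0 z)))
        rw [← ex, ← mul_assoc]
        exact c2
      · refine mul_left_cancel₀ w0 ?_
        have a3 : Gr_559.P1.n k0 ^ 2 * (p.w z * (Lj P (L.a z) (L.b 0 z) 3 t0 *
            Lj P (L.a z) (L.b 0 z) 4 t0 * Lj P (L.a z) (L.b 0 z) 5 t0)) = Gr_559.P1.d k0 ^ 2 *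
            (m0 z ^ 2 * p.w z * (Lj P (L.a z) (L.b 0 z) 0 t0 *
            Lj P (L.a z) (L.b 0 z) 1 t0 * Lj P (L.a z) (L.b 0 z) 2 t0)) := by rw [r0]; exact a2
        show p.w z * (Gr_559.P1.n k0 ^ 2 * (Lj P (L.a z) (L.b 0 z) 3 t0 *
            Lj P (L.a z) (L.b 0 z) 4 t0 * Lj P (L.a z) (L.b 0 z) 5 t0)) = p.w z *
            (Gr_559.P1.d k0 ^ 2 * (m0 z ^ 2 * (Lj P (L.a z) (L.b 0 z) 0 t0 *
            Lj P (L.a z) (L.b 0 z) 1 t0 * Lj P (L.a z) (L.b 0 z) 2 t0)))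
        linear_combination a3
      · refine mul_left_cancel₀ w1 ?_
        have b3 : Gr_559.P1.n k1 ^ 2 * (p'.w z * (Lj P (L.a z) (L.b 1 z) 3 t1 *
            Lj P (L.a z) (L.b 1 z) 4 t1 * Lj P (L.a z) (L.b 1 z) 5 t1)) = Gr_559.P1.d k1 ^ 2 *
            (m1 z ^ 2 * p'.w z * (Lj P (L.a z) (L.b 1 z) 0 t1 *
            Lj P (L.a z) (L.b 1 z) 1 t1 * Lj P (L.a z) (L.b 1 z) 2 t1)) := by rw [r1]; exact b2
        show p'.w z * (Gr_559.P1.n k1 ^ 2 * (Lj P (L.a z) (L.b 1 z) 3 t1 *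
            Lj P (L.a z) (L.b 1 z) 4 t1 * Lj P (L.a z) (L.b 1 z) 5 t1)) = p'.w z *
            (Gr_559.P1.d k1 ^ 2 * (m1 z ^ 2 * (Lj P (L.a z) (L.b 1 z) 0 t1 *
            Lj P (L.a z) (L.b 1 z) 1 t1 * Lj P (L.a z) (L.b 1 z) 2 t1)))
        linear_combination b3
    · rintro ⟨a1, b1, c1, c2, a2, b2⟩
      change L.b 0 z * ((L.sh z).2.1 - P.c 5 * (L.sh z).1) * _ = L.a z * (L.sh z).1 * _ at a1
      change L.b 1 z * ((L.sh z).2.2 - P.c 5 * (L.sh z).1) * _ = L.a z * (L.sh z).1 * _ at b1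
      change _ = _ * (_ * (L.b 1 z * ((L.sh z).2.2 - P.c 5 * (L.sh z).1))) at c1
      change _ = _ * (_ * (L.b 0 z * ((L.sh z).2.1 - P.c 5 * (L.sh z).1))) at c2
      rw [e1] at a1 b1 c1 c2
      change p.b z * (p.s1 z - P.c 5 * p.s0 z) * _ = p.a z * p.s0 z * _ at a1
      change p'.b z * (p'.s1 z - P.c 5 * p.s0 z) * _ = p.a z * p.s0 z * _ at b1
      change _ = _ * (_ * (p'.b z * (p'.s1 z - P.c 5 * p.s0 z))) at c1
      change _ = _ * (_ * (p.b z * (p.s1 z - P.c 5 * p.s0 z))) at c2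
      rw [← ex, ← ef] at a1
      rw [← ex', ← ef] at b1
      rw [← ex', ← mul_assoc] at c1
      rw [← ex, ← mul_assoc] at c2
      refine ⟨⟨⟨a1, ?_⟩, b1, ?_⟩, c1, c2⟩
      · rw [← r0]
        have a3 : Gr_559.P1.n k0 ^ 2 * (Lj P (L.a z) (L.b 0 z) 3 t0 *
            Lj P (L.a z) (L.b 0 z) 4 t0 * Lj P (L.a z) (L.b 0 z) 5 t0) =
            Gr_559.P1.d k0 ^ 2 * (m0 z ^ 2 * (Lj P (L.a z) (L.b 0 z) 0 t0 *
            Lj P (L.a z) (L.b 0 z) 1 t0 * Lj P (L.a z) (L.b 0 z) 2 t0)) := a2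
        linear_combination (p.w z) * a3
      · rw [← r1]
        have b3 : Gr_559.P1.n k1 ^ 2 * (Lj P (L.a z) (L.b 1 z) 3 t1 *
            Lj P (L.a z) (L.b 1 z) 4 t1 * Lj P (L.a z) (L.b 1 z) 5 t1) =
            Gr_559.P1.d k1 ^ 2 * (m1 z ^ 2 * (Lj P (L.a z) (L.b 1 z) 0 t1 *
            Lj P (L.a z) (L.b 1 z) 1 t1 * Lj P (L.a z) (L.b 1 z) 2 t1)) := b2
        linear_combination (p'.w z) * b3

end

end Crest.Agent.R272.Tq2_916
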