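import Crest.Agent.R272.Tp8_60
import Crest.Agent.R272.Tp9_60
import Crest.Agent.R272.Tq2_916

/-!
# R272 (S0415), MODEL, type tp (helper60): the germ of `X1` at the base cluster point

`BaseP A P s q` : the base cluster point with the swap `s`;
**`exists_germ`** : `Germ (cur P) (A.fam hsl) G s` (interface (I1) of helper834).
-/

set_option autoImplicit false
set_option linter.unusedSectionVars false

open Set Filter Topology OnePoint

namespace Crest.Agent.R272.Tp10_60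

open Crest.Agent.R275.Geo Crest.Agent.R273.Fam_835 Crest.Agent.R272.FamP_54
open Crest.Agent.R272.HFam_342 Crest.Agent.R272.Tp1_60 Crest.Agent.R272.Refl_246
open Crest.Agent.R272.Tp2_60 hiding Amb
open Crest.Agent.R272.Tp3_60 Crest.Agent.R272.Tp4_60
open Crest.Agent.R272.Tp5_60 Crest.Agent.R272.SubF_54 Crest.Agent.R272.Tp6_60
open Crest.Agent.R272.Tp7_60 Crest.Agent.R272.Tp8_60 Crest.Agent.R272.Tp9_60
open Crest.Agent.R272.Cur_297 (Par Cv Cset Eqn hA hB tt kk continuous_tt continuous_kk cur)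
open Crest.Agent.R272.P1A_54 (ambFam amb_z amb_t amb_v amb_k)
open Crest.Agent.R272.Gr_559.GData (Amb)
open Crest.Agent.R272.Gr_559 (GData Pen SNC)
open Crest.Agent.R272.AJ_956 (Cur)
open Crest.Agent.R272.Idn_834 (h3 pc sw Germ Ci)
open Crest.Agent.R272.Act_302 (GAct)
open Crest.Agent.R272.P1F_54 (mulP)

noncomputable section

variable {N : Type} [TopologicalSpace N] {F : Fam 3 N} {P : Par}

/-! ### density -/

/-- near every point of the source there are points where no linear form of the list vanishes -/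
theorem freq (L : Loc P N) {z : N} (hz : z ∈ L.sh.source) :
    ∃ᶠ y in 𝓝 z, (L.sh y).1 ≠ 0 ∧ (∀ j, (L.sh y).2.1 - P.c j * (L.sh y).1 ≠ 0) ∧
      ∀ j, (L.sh y).2.2 - P.c j * (L.sh y).1 ≠ 0 := by
  obtain ⟨M, hM⟩ : ∃ M : ℂ, ∀ j, M ≠ P.c j := by
    obtain ⟨M, hM⟩ := (Set.finite_range P.c).infinite_compl.nonempty
    exact ⟨M, fun j e => hM ⟨j, e.symm⟩⟩
  set S := L.sh z with hS
  have hSt : S ∈ L.sh.target := L.sh.map_source hz
  set v : ℂ × ℂ × ℂ := (1, M, M) with hv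
  set g : ℂ → ℂ × ℂ × ℂ := fun t => (S.1 + t, S.2.1 + t * M, S.2.2 + t * M) with hg
  have hgc : Continuous g := by simp only [hg]; fun_prop
  have hg0 : g 0 = S := by simp [hg]
  have h1 : Tendsto (fun t => L.sh.symm (g t)) (𝓝[≠] 0) (𝓝 z) := by
    have h2 : ContinuousAt (fun t => L.sh.symm (g t)) 0 := by
      refine ContinuousAt.comp (g := L.sh.symm) ?_ hgc.continuousAt
      rw [hg0]
      exact L.sh.continuousAt_symm hSt
    have h3 : L.sh.symm (g 0) = z := by rw [hg0]; exact L.sh.left_inv hz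
    have h4 : Tendsto (fun t => L.sh.symm (g t)) (𝓝 0) (𝓝 z) := by
      rw [← h3]; exact h2
    exact h4.mono_left nhdsWithin_le_nhds
  refine h1.frequently ?_
  -- a form which does not vanish in the direction `v`
  have key : ∀ a b : ℂ, b ≠ 0 → ∀ᶠ t in 𝓝[≠] (0 : ℂ), a + t * b ≠ 0 := by
    intro a b hb
    by_cases ha : a = 0
    · filter_upwards [self_mem_nhdsWithin] with t ht
      rw [ha, zero_add]
      exact mul_ne_zero ht hb
    · have h2 : ContinuousAt (fun t : ℂ => a + t * b) 0 := by fun_prop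
      exact (h2.eventually_ne (by simpa using ha)).filter_mono nhdsWithin_le_nhds
  have ht : ∀ᶠ t in 𝓝[≠] (0 : ℂ), g t ∈ L.sh.target := by
    have h2 : ∀ᶠ t in 𝓝 (0 : ℂ), g t ∈ L.sh.target :=
      hgc.continuousAt.preimage_mem_nhds (by rw [hg0]; exact L.sh.open_target.mem_nhds hSt)
    exact h2.filter_mono nhdsWithin_le_nhds
  have e0 := key S.1 1 one_ne_zero
  have e1 : ∀ᶠ t in 𝓝[≠] (0 : ℂ), ∀ j, (S.2.1 - P.c j * S.1) + t * (M - P.c j) ≠ 0 :=
    eventually_all.2 fun j => key _ _ (sub_ne_zero.2 (hM j))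
  have e2 : ∀ᶠ t in 𝓝[≠] (0 : ℂ), ∀ j, (S.2.2 - P.c j * S.1) + t * (M - P.c j) ≠ 0 :=
    eventually_all.2 fun j => key _ _ (sub_ne_zero.2 (hM j))
  refine Eventually.frequently ?_
  filter_upwards [ht, e0, e1, e2] with t h5 h6 h7 h8
  rw [L.sh.right_inv h5]
  refine ⟨by simpa [hg] using h6, fun j => ?_, fun j => ?_⟩
  · have := h7 j
    intro h9
    apply this
    simp only [hg] at h9
    linear_combination h9
  · have := h8 j
    intro h9
    apply this
    simp only [hg] at h9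
    linear_combination h9

/-- continuous functions which agree frequently near a point agree at the point -/
theorem eq_of_freq {f g : N → ℂ} {z : N} (hf : ContinuousAt f z) (hg : ContinuousAt g z)
    (h : ∃ᶠ y in 𝓝 z, f y = g y) : f z = g z := by
  by_contra hne
  have h1 : ∀ᶠ y in 𝓝 z, f y - g y ≠ 0 := (hf.sub hg).eventually_ne (sub_ne_zero.2 hne)
  obtain ⟨y, h2, h3⟩ := (h.and_eventually h1).exists
  exact h3 (sub_eq_zero.2 h2)

/-! ### the base cluster point -/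

variable {D : GData F} {G : Type} [Group G] [MulAction G N]

/-- the base cluster point with its swap -/
structure BaseP (A : GAct D G) (P : Par) (s : G) (q : N) where
  p : Pen F D.f0 (D.x 0) (D.P 0) (D.Q 0) q
  p' : Pen F D.f0 (D.x 1) (D.P 1) (D.Q 1) q
  h0 : p'.s0 = p.s0
  hc : p.c = P.c
  hc' : p'.c = P.c
  snc : SNC F q ![p.s0, p.s1, p'.s1]
  f0q : D.f0 q = 0
  x0q : D.x 0 q = 0
  x1q : D.x 1 q = 0
  two : s * s = 1
  sig : A.σ s 0 = 1
  fix : s • q = q
  sw0 : ∀ᶠ z in 𝓝 q, p.s0 (s • z) = p.s0 z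
  sw1 : ∀ᶠ z in 𝓝 q, p.s1 (s • z) = p'.s1 z
  sw2 : ∀ᶠ z in 𝓝 q, p'.s1 (s • z) = p.s1 z
  stab : ∀ g : G, g • q = q → g = 1 ∨ g = s
  pd : ∃ U ∈ 𝓝 q, ∀ (g : G), ∀ z ∈ U, g • z ∈ U → g • q = q

variable {A : GAct D G} {s : G} {q : N}

/-- local data at the base point, with the sign of the second root fixed -/
theorem exists_base (B : BaseP A P s q) : ∃ L : Loc P N, q ∈ L.sh.source ∧ L.sh q = 0 ∧
    L.sh.source ⊆ B.p.U ∩ B.p'.U ∧ (∀ z ∈ L.sh.source, L.sh z = (B.p.s0 z, B.p.s1 z, B.p'.s1 z)) ∧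
    HLoc F L ∧ (∀ y : E6 N, y.1 ∈ L.sh.source → (toA N y ∈ D.X1 ↔ RelX L y)) ∧
      ∀ᶠ z in 𝓝 q, SwRel A L s z := by
  -- neighbourhood where the swap relations hold
  have hsw := B.sw0.and (B.sw1.and B.sw2)
  obtain ⟨O, hOs, hO, hqO⟩ := eventually_nhds_iff.1 hsw
  obtain ⟨L, hqL, hLs, hLq, hL, hH, hHs, hX⟩ := Tq2_916.exists_loc D P B.p B.p' B.h0 B.hc B.hc'
    B.snc B.f0q B.x0q B.x1q hO hqO
  have hσ1 : A.σ s 1 = 0 := by
    have hσ := B.sig
    rcases GAct.perm_cases (A.σ s) with ⟨h1, -⟩ | ⟨-, h2⟩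
    · rw [h1] at hσ
      exact absurd hσ (by decide)
    · exact h2
  have hU : L.sh.source ⊆ B.p.U ∩ B.p'.U := fun z hz => ⟨(hLs hz).1.2, (hLs hz).2⟩
  have hsc : Continuous fun z : N => s • z := (A.hol s).cont
  have hss : ∀ z : N, s • s • z = z := fun z => by rw [smul_smul, B.two, one_smul]
  -- the open set on which everything is defined
  set V : Set N := L.sh.source ∩ (fun z => s • z) ⁻¹' L.sh.source with hV
  have hVo : IsOpen V := L.sh.open_source.inter (L.sh.open_source.preimage hsc)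
  have hqV : q ∈ V := ⟨hqL, by rw [mem_preimage, B.fix]; exact hqL⟩
  have hVs : ∀ z ∈ V, s • z ∈ V := fun z hz => ⟨hz.2, by rw [mem_preimage, hss]; exact hz.1⟩
  have hS : ∀ z ∈ V, L.sh (s • z) = ((L.sh z).1, (L.sh z).2.2, (L.sh z).2.1) := by
    intro z hz
    obtain ⟨e0, e1, e2⟩ := hOs z (hLs hz.1).1.1
    rw [(hL _ hz.2).1, (hL _ hz.1).1, e0, e1, e2]
  have hcont : ∀ {f : N → ℂ}, Quot_783.HolF F univ f → ∀ z, ContinuousAt f z := fun h z =>
    ((P1A_54.holF_iff isOpen_univ).1 h z trivial).continuousAt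
  have hcs : ∀ {f : N → ℂ} {z : N}, ContinuousAt f (s • z) → ContinuousAt (fun y => f (s • y)) z :=
    fun h => ContinuousAt.comp (g := _) h hsc.continuousAt
  -- the factor of `a`
  have ha : ∀ z ∈ V, L.a (s • z) = A.j0 s z * L.a z := by
    intro z hz
    refine eq_of_freq (hcs (L.contAt_a hz.2)) ((hcont (A.j0_hol s) z).mul (L.contAt_a hz.1)) ?_
    refine ((freq L hz.1).and_eventually (hVo.mem_nhds hz)).mono ?_
    rintro y ⟨⟨h1, -, -⟩, hy⟩
    have hy1 : y ∈ L.sh.source := hy.1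
    have hy2 : s • y ∈ L.sh.source := hy.2
    show L.a (s • y) = A.j0 s y * L.a y
    have e1 := A.f0_smul s y
    rw [B.p.ef _ (hU hy2).1, B.p.ef _ (hU hy1).1] at e1
    have e2 := congrArg (fun S : ℂ × ℂ × ℂ => S.1) ((hL _ hy2).1.symm.trans (hS y hy))
    have e3 := congrArg (fun S : ℂ × ℂ × ℂ => S.1) (hL _ hy1).1
    simp only at e2 e3
    rw [(hL _ hy2).2.1, (hL _ hy1).2.1]
    rw [e2, ← e3] at e1
    refine mul_right_cancel₀ h1 ?_
    linear_combination e1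
  have hb0 : ∀ z ∈ V, L.b 0 (s • z) = A.j s 1 z * L.b 1 z := by
    intro z hz
    refine eq_of_freq (hcs (L.contAt_b 0 hz.2)) ((hcont (A.j_hol s 1) z).mul
      (L.contAt_b 1 hz.1)) ?_
    refine ((freq L hz.1).and_eventually (hVo.mem_nhds hz)).mono ?_
    rintro y ⟨⟨-, -, h1⟩, hy⟩
    have hy1 : y ∈ L.sh.source := hy.1
    have hy2 : s • y ∈ L.sh.source := hy.2
    show L.b 0 (s • y) = A.j s 1 y * L.b 1 y
    have e1 := A.x_smul s 1 y
    rw [hσ1, B.p.ex _ (hU hy2).1, B.p'.ex _ (hU hy1).2, B.hc, B.hc', B.h0] at e1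
    have e2 := (hL _ hy2).1.symm.trans (hS y hy)
    have e20 := congrArg (fun S : ℂ × ℂ × ℂ => S.1) e2
    have e21 := congrArg (fun S : ℂ × ℂ × ℂ => S.2.1) e2
    have e3 := (hL _ hy1).1
    have e30 := congrArg (fun S : ℂ × ℂ × ℂ => S.1) e3
    have e32 := congrArg (fun S : ℂ × ℂ × ℂ => S.2.2) e3
    simp only at e20 e21 e30 e32
    rw [(hL _ hy2).2.2.2.1, (hL _ hy1).2.2.2.2.1]
    rw [e20, e21, ← e30, ← e32] at e1
    refine mul_right_cancel₀ (h1 5) ?_
    linear_combination e1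
  have hb1 : ∀ z ∈ V, L.b 1 (s • z) = A.j s 0 z * L.b 0 z := by
    intro z hz
    have h1 := hb0 (s • z) (hVs z hz)
    rw [hss] at h1
    have h2 := A.j_mul s s 0 z
    rw [B.two, A.j_one, B.sig] at h2
    rw [h1]
    linear_combination L.b 1 (s • z) * h2
  -- the squares of the roots
  have hu : ∀ z ∈ V, B.p.u (s • z) = A.p s 1 z ^ 2 * B.p'.u z := by
    intro z hz
    have c1 : ContinuousAt B.p.u (s • z) :=
      ((P1A_54.holF_iff B.p.U_open).1 B.p.u_hol _ (hU hz.2).1).continuousAt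
    have c2 : ContinuousAt B.p'.u z :=
      ((P1A_54.holF_iff B.p'.U_open).1 B.p'.u_hol _ (hU hz.1).2).continuousAt
    refine eq_of_freq (hcs c1) (((hcont (A.p_hol s 1) z).pow 2).mul c2) ?_
    refine ((freq L hz.1).and_eventually (hVo.mem_nhds hz)).mono ?_
    rintro y ⟨⟨-, -, h1⟩, hy⟩
    have hy1 : y ∈ L.sh.source := hy.1
    have hy2 : s • y ∈ L.sh.source := hy.2
    show B.p.u (s • y) = A.p s 1 y ^ 2 * B.p'.u y
    have e1 := A.P_smul s 1 y
    rw [hσ1, B.p.eP _ (hU hy2).1, B.p'.eP _ (hU hy1).2, B.hc, B.hc', B.h0] at e1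
    have e2 := (hL _ hy2).1.symm.trans (hS y hy)
    have e20 := congrArg (fun S : ℂ × ℂ × ℂ => S.1) e2
    have e21 := congrArg (fun S : ℂ × ℂ × ℂ => S.2.1) e2
    have e3 := (hL _ hy1).1
    have e30 := congrArg (fun S : ℂ × ℂ × ℂ => S.1) e3
    have e32 := congrArg (fun S : ℂ × ℂ × ℂ => S.2.2) e3
    simp only at e20 e21 e30 e32
    rw [e20, e21, ← e30, ← e32] at e1
    refine mul_right_cancel₀ (mul_ne_zero (mul_ne_zero (h1 0) (h1 1)) (h1 2)) ?_
    linear_combination e1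
  have hw : ∀ z ∈ V, B.p.w (s • z) = A.q s 1 z ^ 2 * B.p'.w z := by
    intro z hz
    have c1 : ContinuousAt B.p.w (s • z) :=
      ((P1A_54.holF_iff B.p.U_open).1 B.p.w_hol _ (hU hz.2).1).continuousAt
    have c2 : ContinuousAt B.p'.w z :=
      ((P1A_54.holF_iff B.p'.U_open).1 B.p'.w_hol _ (hU hz.1).2).continuousAt
    refine eq_of_freq (hcs c1) (((hcont (A.q_hol s 1) z).pow 2).mul c2) ?_
    refine ((freq L hz.1).and_eventually (hVo.mem_nhds hz)).mono ?_
    rintro y ⟨⟨-, -, h1⟩, hy⟩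
    have hy1 : y ∈ L.sh.source := hy.1
    have hy2 : s • y ∈ L.sh.source := hy.2
    show B.p.w (s • y) = A.q s 1 y ^ 2 * B.p'.w y
    have e1 := A.Q_smul s 1 y
    rw [hσ1, B.p.eQ _ (hU hy2).1, B.p'.eQ _ (hU hy1).2, B.hc, B.hc', B.h0] at e1
    have e2 := (hL _ hy2).1.symm.trans (hS y hy)
    have e20 := congrArg (fun S : ℂ × ℂ × ℂ => S.1) e2
    have e21 := congrArg (fun S : ℂ × ℂ × ℂ => S.2.1) e2
    have e3 := (hL _ hy1).1
    have e30 := congrArg (fun S : ℂ × ℂ × ℂ => S.1) e3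
    have e32 := congrArg (fun S : ℂ × ℂ × ℂ => S.2.2) e3
    simp only at e20 e21 e30 e32
    rw [e20, e21, ← e30, ← e32] at e1
    refine mul_right_cancel₀ (mul_ne_zero (mul_ne_zero (h1 3) (h1 4)) (h1 5)) ?_
    linear_combination e1
  have hsq : ∀ z ∈ V, (L.m 0 (s • z) * A.q s 1 z) ^ 2 = (A.p s 1 z * L.m 1 z) ^ 2 := by
    intro z hz
    have h1 := (hL _ hz.2).2.2.2.2.2.1
    have h2 := (hL _ hz.1).2.2.2.2.2.2
    rw [hu z hz, hw z hz] at h1
    refine mul_right_cancel₀ (B.p'.w_ne z (hU hz.1).2) ?_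
    linear_combination h1 + A.p s 1 z ^ 2 * h2 - 2 * A.p s 1 z ^ 2 * h2
  -- the sign
  set ε : ℂ := (L.m 0 (s • q) * A.q s 1 q) / (A.p s 1 q * L.m 1 q) with hε
  have hpm : A.p s 1 q * L.m 1 q ≠ 0 := mul_ne_zero (A.p_ne _ _ _) (L.m0 1 _ hqL)
  have hε2 : ε ^ 2 = 1 := by
    rw [hε, div_pow, hsq q hqV, div_self (pow_ne_zero 2 hpm)]
  have hε0 : ε ≠ 0 := by
    intro h
    rw [h] at hε2
    norm_num at hε2
  have hεq : L.m 0 (s • q) * A.q s 1 q = A.p s 1 q * (ε * L.m 1 q) := by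
    have h1 : ε * (A.p s 1 q * L.m 1 q) = L.m 0 (s • q) * A.q s 1 q := div_mul_cancel₀ _ hpm
    linear_combination -h1
  have hroot : ∀ᶠ z in 𝓝 q, z ∈ V ∧ L.m 0 (s • z) * A.q s 1 z = A.p s 1 z * (ε * L.m 1 z) := by
    have c1 : ContinuousAt (fun z => L.m 0 (s • z)) q := hcs (by
      rw [B.fix]; exact L.contAt_m 0 hqL)
    have c2 : ContinuousAt (fun z => L.m 0 (s • z) * A.q s 1 z + A.p s 1 z * (ε * L.m 1 z)) q :=
      (c1.mul (hcont (A.q_hol s 1) q)).add ((hcont (A.p_hol s 1) q).mul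
        (continuousAt_const.mul (L.contAt_m 1 hqL)))
    have h1 : L.m 0 (s • q) * A.q s 1 q + A.p s 1 q * (ε * L.m 1 q) ≠ 0 := by
      rw [hεq]
      have : A.p s 1 q * (ε * L.m 1 q) + A.p s 1 q * (ε * L.m 1 q) =
          2 * (ε * (A.p s 1 q * L.m 1 q)) := by ring
      rw [this]
      exact mul_ne_zero two_ne_zero (mul_ne_zero hε0 hpm)
    filter_upwards [c2.eventually_ne h1, hVo.mem_nhds hqV] with z h2 hz
    refine ⟨hz, ?_⟩
    have h3 : (L.m 0 (s • z) * A.q s 1 z - A.p s 1 z * (ε * L.m 1 z)) *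
        (L.m 0 (s • z) * A.q s 1 z + A.p s 1 z * (ε * L.m 1 z)) = 0 := by
      linear_combination hsq z hz - (A.p s 1 z * L.m 1 z) ^ 2 * hε2
    exact sub_eq_zero.1 ((mul_eq_zero.1 h3).resolve_right h2)
  -- the corrected local data
  let L' : Loc P N :=
    { L with
      m := ![L.m 0, fun z => ε * L.m 1 z]
      cm := by
        intro i
        fin_cases i
        · exact L.cm 0
        · exact continuousOn_const.mul (L.cm 1)
      m0 := by
        intro i
        fin_cases i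
        · exact L.m0 0
        · exact fun z hz => mul_ne_zero hε0 (L.m0 1 z hz) }
  refine ⟨L', hqL, hLq, hU, fun z hz => (hL z hz).1, ?_, ?_, ?_⟩
  · refine ⟨fun z hz => (hH z hz).1, fun i z hz => (hH z hz).2.1 i, ?_,
      fun z hz => (hH z hz).2.2.2, hHs⟩
    intro i
    fin_cases i
    · exact fun z hz => (hH z hz).2.2.1 0
    · exact fun z hz => (HFA.const ε z).mul ((hH z hz).2.2.1 1)
  · intro y hy
    have e1 : (ε * L.m 1 y.1) ^ 2 = L.m 1 y.1 ^ 2 := by rw [mul_pow, hε2, one_mul]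
    have hy' := hX y hy
    refine Iff.trans hy' ⟨fun h => ⟨h.r1, h.r2, h.v1, h.v2, h.c1, ?_⟩,
      fun h => ⟨h.r1, h.r2, h.v1, h.v2, h.c1, ?_⟩⟩
    · show nn y.2.2.2.2.2 ^ 2 * (Lj P (L.a y.1) (L.b 1 y.1) 3 y.2.2.1 *
        Lj P (L.a y.1) (L.b 1 y.1) 4 y.2.2.1 * Lj P (L.a y.1) (L.b 1 y.1) 5 y.2.2.1) =
        dd y.2.2.2.2.2 ^ 2 * ((ε * L.m 1 y.1) ^ 2 * (Lj P (L.a y.1) (L.b 1 y.1) 0 y.2.2.1 *
          Lj P (L.a y.1) (L.b 1 y.1) 1 y.2.2.1 * Lj P (L.a y.1) (L.b 1 y.1) 2 y.2.2.1))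
      rw [e1]
      exact h.c2
    · have h2 : nn y.2.2.2.2.2 ^ 2 * (Lj P (L.a y.1) (L.b 1 y.1) 3 y.2.2.1 *
        Lj P (L.a y.1) (L.b 1 y.1) 4 y.2.2.1 * Lj P (L.a y.1) (L.b 1 y.1) 5 y.2.2.1) =
        dd y.2.2.2.2.2 ^ 2 * ((ε * L.m 1 y.1) ^ 2 * (Lj P (L.a y.1) (L.b 1 y.1) 0 y.2.2.1 *
          Lj P (L.a y.1) (L.b 1 y.1) 1 y.2.2.1 * Lj P (L.a y.1) (L.b 1 y.1) 2 y.2.2.1)) := h.c2
      rw [e1] at h2
      exact h2
  · have hroot' : ∀ᶠ z in 𝓝 q, s • z ∈ V ∧
        L.m 0 (s • s • z) * A.q s 1 (s • z) = A.p s 1 (s • z) * (ε * L.m 1 (s • z)) := by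
      have h1 : Tendsto (fun z : N => s • z) (𝓝 q) (𝓝 q) := by
        have := hsc.tendsto q
        rwa [B.fix] at this
      exact h1.eventually hroot
    filter_upwards [hroot, hroot'] with z h1 h2
    obtain ⟨hz, h1⟩ := h1
    obtain ⟨-, h2⟩ := h2
    rw [hss] at h2
    have hp := A.p_mul s s 0 z
    rw [B.two, A.p_one, B.sig] at hp
    have hq := A.q_mul s s 0 z
    rw [B.two, A.q_one, B.sig] at hq
    refine ⟨hz.1, hz.2, hS z hz, ha z hz, hb0 z hz, hb1 z hz, h1, ?_⟩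
    show ε * L.m 1 (s • z) * A.q s 0 z = A.p s 0 z * L.m 0 z
    linear_combination (-A.q s 0 z * A.p s 0 z) * h2 - A.p s 0 z * L.m 0 z * hq +
      A.q s 0 z * (ε * L.m 1 (s • z)) * hp

/-! ### the germ -/

/-- the germ together with its description by the standard embeddings -/
structure GermE (hsl : IsSl (ambFam F) D.X1 3) (A : GAct D G) (P : Par) (s : G) (q : N) where
  L : Loc P N
  H : HLoc F L
  q_mem : q ∈ L.sh.source
  sh_q : L.sh q = 0
  hX : ∀ y : E6 N, y.1 ∈ L.sh.source → (toA N y ∈ D.X1 ↔ RelX L y)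
  r : ℝ
  hr : 0 < r
  ball : Metric.ball (0 : ℂ × ℂ × ℂ) r ⊆ L.sh.target
  sw : ∀ S ∈ Metric.ball (0 : ℂ × ℂ × ℂ) r, SwRel A L s (L.sh.symm S)
  g : Germ (cur P) (A.fam hsl) G s
  src : ∀ i, (g.E i).source = DE P r i
  isE : ∀ i, IsE L r i (X0 := D.X1) (g.E i)
  /-- over the ball only `1, s` act -/
  stab : ∀ (γ : G), ∀ S ∈ Metric.ball (0 : ℂ × ℂ × ℂ) r, ∀ S' ∈ Metric.ball (0 : ℂ × ℂ × ℂ) r,
    γ • L.sh.symm S = L.sh.symm S' → γ = 1 ∨ γ = s

/-- there is a point of the curve with `t ≠ 0, ∞` -/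
theorem exists_pt (P : Par) : ∃ c : Cv P, tt c ≠ ∞ ∧ tt c ≠ ((0 : ℂ) : P1) := by
  obtain ⟨c, hc⟩ := Cur_297.surjective_tt (P := P) ((1 : ℂ) : P1)
  refine ⟨c, ?_, ?_⟩
  · rw [hc]; exact OnePoint.coe_ne_infty _
  · rw [hc]
    intro h
    exact one_ne_zero (OnePoint.coe_injective h)

/-- **(I1)** the germ at the base cluster point -/
theorem exists_germ (hsl : IsSl (ambFam F) D.X1 3) (B : BaseP A P s q) :
    Nonempty (GermE hsl A P s q) := by
  obtain ⟨L, hqL, hLq, -, -, H, hX, hsw⟩ := exists_base B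
  obtain ⟨U, hU, hUg⟩ := B.pd
  have hsy : L.sh.symm 0 = q := by rw [← hLq]; exact L.sh.left_inv hqL
  have h0t : (0 : ℂ × ℂ × ℂ) ∈ L.sh.target := by rw [← hLq]; exact L.sh.map_source hqL
  have h1 : ∀ᶠ S in 𝓝 (0 : ℂ × ℂ × ℂ), S ∈ L.sh.target ∧ SwRel A L s (L.sh.symm S) ∧
      L.sh.symm S ∈ U := by
    have h2 : Tendsto L.sh.symm (𝓝 0) (𝓝 q) := by
      have := L.sh.continuousAt_symm h0t
      rw [ContinuousAt, hsy] at this
      exact this
    filter_upwards [L.sh.open_target.mem_nhds h0t, h2.eventually hsw, h2.eventually hU]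
      with S a b c
    exact ⟨a, b, c⟩
  obtain ⟨r, hr, hb⟩ := Metric.eventually_nhds_iff_ball.1 h1
  have hball : Metric.ball (0 : ℂ × ℂ × ℂ) r ⊆ L.sh.target := fun S hS => (hb S hS).1
  obtain ⟨E, hEs, hE⟩ := exists_EA L hX hr hball (exists_pt P)
  have hIs : ∀ i, IsE L r i (E i) := fun i p hp => by
    rw [hEs] at hp
    obtain ⟨⟨h2, h3⟩, h4⟩ := hE i p hp
    exact ⟨hp, h2, hball h4, h3⟩
  have hC := ch_cur P
  have hstab : ∀ (γ : G), ∀ S ∈ Metric.ball (0 : ℂ × ℂ × ℂ) r,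
      ∀ S' ∈ Metric.ball (0 : ℂ × ℂ × ℂ) r, γ • L.sh.symm S = L.sh.symm S' →
        γ = 1 ∨ γ = s := by
    intro γ S hS S' hS' he
    refine B.stab γ (hUg γ _ (hb S hS).2.2 ?_)
    rw [he]
    exact (hb S' hS').2.2
  -- first component of `E i p`
  have hfst : ∀ i, ∀ p ∈ DE P r i, ((E i p).1).1 = L.sh.symm (FE P i p).1 := by
    intro i p hp
    rw [(hE i p hp).1.1]
    rfl
  let g : Germ (cur P) (A.fam hsl) G s :=
    { E := E
      cpt := fun i c c' => cpt_E H hC hsl (hIs i) c c'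
      dom := by
        intro i p hp
        have hp' : p ∈ DE P r i := by rw [← hEs]; exact hp
        fin_cases i
        · exact ⟨(hC.w0 _).2 hp'.1, (hC.w0 _).2 hp'.2.1⟩
        · exact ⟨(hC.w1 _).2 hp'.1, (hC.w1 _).2 hp'.2.1⟩
      mem := by
        intro i c hc
        show ((c, (cur P).iv c), (0 : ℂ)) ∈ (E i).source
        rw [hEs]
        fin_cases i
        · have h2 := (hC.w0 c).1 hc
          refine ⟨h2, h2, ?_⟩
          simpa using hr
        · have h2 := (hC.w1 c).1 hc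
          refine ⟨h2, h2, ?_⟩
          simpa using hr
      ov := by
        intro p hp q' hq
        have hp' : p ∈ DE P r 0 := by rw [← hEs]; exact hp
        have hq' : q' ∈ DE P r 1 := by rw [← hEs]; exact hq
        obtain ⟨⟨a1, a2⟩, a3⟩ := hE 0 p hp'
        obtain ⟨⟨b1, b2⟩, b3⟩ := hE 1 q' hq'
        rw [hC.tv0 _ hp'.1, hC.tv0 _ hp'.2.1, ← FE_ov hp' hq']
        constructor
        · intro h
          have h2 : (E 0 p).1 = (E 1 q').1 := congrArg Subtype.val h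
          rw [a1, b1] at h2
          exact fro_inj L a2 (hball a3) b2 (hball b3) ((toA N).injective h2)
        · intro h
          refine Subtype.ext ?_
          show (E 0 p).1 = (E 1 q').1
          rw [a1, b1, h]
      swap_mem := by
        intro i p hp
        show sw p ∈ (E i).source
        have hp' : p ∈ DE P r i := by rw [← hEs]; exact hp
        rw [hEs]
        exact sw_DE hp'
      swap := by
        intro i p hp
        have hp' : p ∈ DE P r i := by rw [← hEs]; exact hp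
        obtain ⟨⟨a1, a2⟩, a3⟩ := hE i p hp'
        obtain ⟨⟨b1, b2⟩, b3⟩ := hE i (sw p) (sw_DE hp')
        refine Subtype.ext ?_
        show A.act s (E i p).1 = (E i (sw p)).1
        rw [a1, b1]
        exact act_E B.sig (hball a3) (hball b3) (hb _ a3).2.1
      two := B.two
      grp := by
        intro γ i j p hp q' hq he
        have hp' : p ∈ DE P r i := by rw [← hEs]; exact hp
        have hq' : q' ∈ DE P r j := by rw [← hEs]; exact hq
        have h2 : (A.act γ (E i p).1).1 = ((E j q').1).1 :=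
          congrArg (fun y : D.X1 => y.1.1) he
        rw [A.act_z, hfst i p hp', hfst j q' hq'] at h2
        exact hstab γ _ (hE i p hp').2 _ (hE j q' hq').2 h2 }
  exact ⟨{ L := L, H := H, q_mem := hqL, sh_q := hLq, hX := hX, r := r, hr := hr, ball := hball,
           sw := fun S hS => (hb S hS).2.1, g := g, src := hEs, isE := hIs, stab := hstab }⟩

end

end Crest.Agent.R272.Tp10_60
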