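import Crest.Agent.R272.PEnd8_732
import Crest.Agent.R272.Tp10_60

/-!
# R272 (S0415), POS at `p0` (helper732): the neighbourhood of the cluster fibre for 60's `GermE`

`swp_of`    : 60's `SwRel` over `V` gives `Swp` (the swap on the whole standard model over `V`);
`exists_VB` : the small neighbourhood `B : BV G q` of the base cluster point, `B.s = s`, all points over
              it in charts, swap.
-/

set_option autoImplicit false
set_option linter.unusedSectionVars false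
set_option linter.unusedVariables false

open Set Filter Topology OnePoint

namespace Crest.Agent.R272.PEnd8_732

open Crest.Agent.R275.Geo Crest.Agent.R273.Fam_835 Crest.Agent.R272.Gr_559
open Crest.Agent.R272.Act_302 Crest.Agent.R272.Lc_220 Crest.Agent.R272.Refl_246
open Crest.Agent.R272.MQ_783 Crest.Agent.R272.FamP_54 Crest.Agent.R272.P1A_54
open Crest.Agent.R272.Cur_297 (Par Cv tt kk)
open Crest.Agent.R272.Tp1_60 (iv nn dd)
open Crest.Agent.R272.Tp2_60 (Amb Std)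
open Crest.Agent.R272.Tp3_60 (Loc RelX E6)
open Crest.Agent.R272.Tp6_60 (toA toA_1 co_fro TA KA VA)
open Crest.Agent.R272.Tp9_60 (SwRel co_sw ext_co)
open Crest.Agent.R272.Tp10_60 (GermE)
open Crest.Agent.R272.Tq1_916 (swA swA_mem)
open Crest.Agent.R272.SubF_54 (IsSl)

noncomputable section

variable {N : Type} [TopologicalSpace N] {F : Fam 3 N} {D : GData F} {G : Type} [Group G]
  [MulAction G N] {A : GAct D G} {P : Par} {L : Loc P N}

/-- **the swap on the standard model** -/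
theorem swp_of {s : G} (hσ : A.σ s 0 = 1) {V : Set N} (h : ∀ z ∈ V, SwRel A L s z) :
    Swp A L s V := by
  intro σ hσs hσt hz
  have hsw := h _ hz
  have hS : L.sh (s • L.sh.symm σ.1) = (swA σ).1 := by
    rw [hsw.hS, L.sh.right_inv hσt]
    rfl
  have ht : (swA σ).1 ∈ L.sh.target := by
    rw [← hS]
    exact L.sh.map_source hsw.m2
  refine ⟨ht, ?_⟩
  obtain ⟨b1, b2, b3, b4, b5, b6⟩ := co_fro (L := L) hσt
  obtain ⟨c1, c2, c3, c4, c5, c6⟩ := co_fro (L := L) ht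
  obtain ⟨d1, d2, d3, d4, d5⟩ := co_sw (A := A) (L := L) hσ (y := toA N (L.fro σ)) hsw
  have e1 : L.sh (A.act s (toA N (L.fro σ))).1 = (swA σ).1 := hS
  exact ext_co (L := L) hsw.m2 (L.sh.map_target ht) (e1.trans c1.symm) ((d1.trans b3).trans c2.symm)
    ((d2.trans b2).trans c3.symm) ((d3.trans b4).trans c4.symm) ((d4.trans b6).trans c5.symm)
    ((d5.trans b5).trans c6.symm)

/-- the norm is swap invariant -/
theorem ball_sw {S : ℂ × ℂ × ℂ} {r : ℝ} (h : S ∈ Metric.ball (0 : ℂ × ℂ × ℂ) r) :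
    (S.1, S.2.2, S.2.1) ∈ Metric.ball (0 : ℂ × ℂ × ℂ) r := by
  rw [Tq3_916.norm_prod_lt] at h ⊢
  exact ⟨h.1, h.2.2, h.2.1⟩

/-- the neighbourhood of 60's germ -/
def bvE {s : G} {q : N} {hsl : IsSl (ambFam F) D.X1 3} (Γ : GermE hsl A P s q) (hfix : s • q = q)
    (hss : s * s = 1) : BV G q where
  V := Γ.L.sh.source ∩ Γ.L.sh ⁻¹' Metric.ball (0 : ℂ × ℂ × ℂ) Γ.r
  s := s
  op := Γ.L.sh.isOpen_inter_preimage Metric.isOpen_ball
  mem := ⟨Γ.q_mem, by
    show Γ.L.sh q ∈ Metric.ball (0 : ℂ × ℂ × ℂ) Γ.r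
    rw [Γ.sh_q]
    exact Metric.mem_ball_self Γ.hr⟩
  ss := hss
  sV v hv := by
    have h1 := Γ.sw _ hv.2
    rw [Γ.L.sh.left_inv hv.1] at h1
    refine ⟨h1.m2, ?_⟩
    show Γ.L.sh (s • v) ∈ Metric.ball (0 : ℂ × ℂ × ℂ) Γ.r
    rw [h1.hS]
    exact ball_sw hv.2
  two g v hv hgv := by
    refine Γ.stab g _ hv.2 _ hgv.2 ?_
    rw [Γ.L.sh.left_inv hv.1, Γ.L.sh.left_inv hgv.1]
  sz := hfix

/-- **the small neighbourhood of the base cluster point** -/
theorem exists_VB {s : G} {q : N} {hsl : IsSl (ambFam F) D.X1 3} [ContinuousConstSMul G N]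
    (Γ : GermE hsl A P s q) (hσ : A.σ s 0 = 1) (hfix : s • q = q) (hss : s * s = 1) {O : Set N}
    (hO : IsOpen O) (hq : q ∈ O) :
    ∃ B : BV G q, B.s = s ∧ B.V ⊆ O ∧ B.V ⊆ Γ.L.sh.source ∧
      (∀ z ∈ B.V, Γ.L.sh z ∈ Metric.ball (0 : ℂ × ℂ × ℂ) Γ.r) ∧
      (∀ y : A.X, A.pz y ∈ B.V → InCh P Γ.r (st A Γ.L Γ.hX y)) ∧ Swp A Γ.L B.s B.V := by
  obtain ⟨W, h1, h2, h3, h4, h5⟩ := exists_cover A (L := Γ.L) Γ.hX Γ.hr Γ.ball
  have hq' : Γ.L.sh.symm 0 = q := by rw [← Γ.sh_q]; exact Γ.L.sh.left_inv Γ.q_mem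
  rw [hq'] at h2
  have h6 := shrink_sub (bvE Γ hfix hss) (W ∩ O) (h1.inter hO) ⟨h2, hq⟩
  have h7 := shrink_sub' (bvE Γ hfix hss) (W ∩ O) (h1.inter hO) ⟨h2, hq⟩
  refine ⟨shrink (bvE Γ hfix hss) (W ∩ O) (h1.inter hO) ⟨h2, hq⟩, rfl, fun z hz => (h6 hz).2,
    fun z hz => h3 (h6 hz).1, fun z hz => h4 z (h6 hz).1, fun y hy => h5 y (h6 hy).1,
    swp_of (s := s) hσ fun z hz => ?_⟩
  have h8 := Γ.sw _ (h7 hz).2
  rwa [Γ.L.sh.left_inv (h7 hz).1] at h8

end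

end Crest.Agent.R272.PEnd8_732
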