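import Crest.Agent.R272.Md1_834
import Crest.Agent.R272.Lc12_220
import Crest.Agent.R272.PosP7_848
import Crest.Agent.R272.PEnd9_732

/-!
# R272 (S0415), POS at `p0` (helper220): the last composition over 834's `W : Md M`

* `MdE M`   : `W : Md M` whose germ is 60's `GermE` and whose zero section is 916's `zst`;
* `mem_K`   : the centre `K` is the image of the section over `Γ`;
* `germ15`  : the germ clause of `pos15'` / `Md.s15`.
-/

set_option autoImplicit false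
set_option linter.unusedSectionVars false
set_option linter.unusedVariables false

open Set Filter Topology

namespace Crest.Agent.R272.PEndZ_220

open Crest.Agent.R275.Geo Crest.Agent.R273.Fam_835
open Crest.Agent.R272 Crest.Agent.R272.MQ_783 Crest.Agent.R272.Refl_246
open Crest.Agent.R272.HFam_342 Crest.Agent.R272.Sur_342 Crest.Agent.R272.Flop_66
open Crest.Agent.R272.AJ_956 Crest.Agent.R272.Idn_834 Crest.Agent.R272.Ax_834
open Crest.Agent.R272.Cur_297 Crest.Agent.R272.K3E_227 Crest.Agent.R272.M15_939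
open Crest.Agent.R272.Md_834 Crest.Agent.R272.PEnd_732 Crest.Agent.R272.Pos15_220
open Crest.Agent.R272.Tp2_60 (Amb Std)
open Crest.Agent.R272.Tp6_60 (toA)
open Crest.Agent.R272.Tp10_60 (GermE)
open Crest.Agent.R272.Tq1_916 (swA fm)
open Crest.Agent.R272.Tq3_916 (zst zst_mem FEij zst_eq)
open Crest.Agent.R272.PosP5_848 Crest.Agent.R272.PosP6_848 Crest.Agent.R272.PosP7_848
open Crest.Agent.R272.PW_92 (IPhi)
open Crest.Agent.R272.FinCB3_876 (GenAt ValC)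
open Crest.Agent.R272.Lc_220

noncomputable section

/-- the block of 834 with its germ and section made explicit -/
structure MdE (M : Ar) where
  W : Md M
  Γ : GermE (Gr_559.isSl_X1 M.DX) M.A Pz M.s M.p0
  hG : W.Ge = Γ.g
  hz : ∀ x, M.A.val (W.z x) = toA M.N (Γ.L.fro (zst x))

theorem exists_mdE {M : Ar} (ra : RA M.CX M.G)
    (Γ : GermE (Gr_559.isSl_X1 M.DX) M.A Pz M.s M.p0)
    {z : Cz × Cz → M.X} (Z : ZSec Γ.g z) (pz : ∀ x, M.A.pz (z x) = M.p0)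
    (hz : ∀ x, M.A.val (z x) = toA M.N (Γ.L.fro (zst x))) :
    ∃ E : MdE M, E.Γ = Γ ∧ E.W.z = z := by
  obtain ⟨NN, U, hN⟩ := Crest.Agent.R272.AJg_956.exists_nearE (cur Pz)
  obtain ⟨e, he, he1, he2⟩ := exists_isId
    (⟨hN, k3P hN, Γ.g, Um.stdU⟩ : Inp (cur Pz) NN U M.CX M.G M.s Um.fam) ra.hol ra.cov
  obtain ⟨ε, h1, -, h3, -⟩ := exists_eps_sur e (he.sub_target fun _ => rfl) isOpen_univ
    (fun _ _ => mem_univ _) one_pos
  exact ⟨⟨⟨ra, Γ.g, z, Z, pz, NN, U, hN, e, he, he1, he2, ε, h1, h3⟩, Γ, rfl, hz⟩, rfl, rfl⟩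

namespace MdE

variable {M : Ar} (E : MdE M)

/-- a point with the coordinates of the section over `Γ` lies over the centre -/
theorem mem_K {y : M.X} {c : Cz}
    (hy : M.A.val y = toA M.N (E.Γ.L.fro (zst (c, (cur Pz).iv c)))) : pr M.G y ∈ E.W.S.K := by
  rw [E.W.mem_K_pr]
  refine ⟨1, c, ?_⟩
  rw [one_smul]
  exact M.A.val_injective (hy.trans (E.hz _).symm)

/-- the points of the bad fibre off the centre do not lie on the section over `Γ` -/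
theorem st_ne {O : Set M.X} (T : YC Pz M.CX M.A.pz M.p0 O)
    (hT : T.st = PEnd8_732.st M.A E.Γ.L E.Γ.hX) {y : M.X} (hy : M.A.pz y = M.p0)
    (hK : pr M.G y ∉ E.W.S.K) (c : Cz) : T.st y ≠ zst (c, (cur Pz).iv c) := by
  intro h
  refine hK (E.mem_K (c := c) ?_)
  rw [← h, hT]
  exact (PEnd8_732.fro_st M.A (L := E.Γ.L) (hX := E.Γ.hX) (by rw [hy]; exact E.Γ.q_mem)).symm

/-- **the germ clause of `Md.s15`** -/
theorem germ15 {O : Set M.X} (T : YC Pz M.CX M.A.pz M.p0 O)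
    (hT : T.st = PEnd8_732.st M.A E.Γ.L E.Γ.hX)
    (inv : ∀ b, ∀ y ∈ O, ∀ g : M.G, g • y ∈ O → ∀ i, T.ff b i (g • y) = T.ff b i y)
    (hol : ∀ b, ∀ y ∈ O, ∀ i, HolN M.CX y (T.ff b i))
    (val : ∀ b, 15 ≤ b → ∀ y, M.A.pz y = M.p0 → (∀ c, T.st y ≠ zst (c, (cur Pz).iv c)) →
      ∃ c, ValC M.CX (T.ff b) y c)
    (ff : ∀ b, 15 ≤ b → PosP4_848.FF M.CX (T.ff b)
      {y | M.A.pz y = M.p0 ∧ ∀ c, T.st y ≠ zst (c, (cur Pz).iv c)})
    (cmp : ∀ mm, 2 ≤ mm → ∀ y ∈ O, M.A.pz y ≠ M.p0 → ∃ a c,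
      pr M.G y ∈ (JM E.W.ra).V a ∧ pr M.G y ∈ (R E.W.ra).V c ∧
      GenAt M.CX (T.ff (10 * mm)) (fun v => (JM E.W.ra).f a (pr M.G v) ^ mm *
        (R E.W.ra).f c (pr M.G v) ^ 4) y)
    (up : ∀ b, 15 ≤ b → UpDat Up.fam Up.N IPhi)
    (cp : ∀ b (hb : 15 ≤ b), ∃ δ > 0, ∀ u : Up, u.N ≠ 0 → u.N < δ → u.N < E.W.ε →
      ∃ y ∈ O, pr M.G y = E.W.S.bx u ∧ ∀ j, (up b hb).FB j u = T.ff b j y) (m₀ : ℕ) :
    ∃ mm : ℕ, m₀ ≤ mm ∧ Nonempty (PhiS E.W.S E.W.ra.fam Up.fam (piM M.A) (q0 M)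
      (JM E.W.ra) (R E.W.ra) mm 4) := by
  refine ⟨max m₀ 2, le_max_left _ _, ?_⟩
  have h2 : 2 ≤ max m₀ 2 := le_max_right _ _
  generalize max m₀ 2 = mm at h2
  have hb : 15 ≤ 10 * mm := by omega
  obtain ⟨δ, δ0, hδ⟩ := cp _ hb
  let Y : YDat M.CX M.G E.W.ra M.A.pz M.p0 E.W.S.K IPhi (JM E.W.ra) (R E.W.ra) mm 4 :=
    { f := T.ff (10 * mm)
      O := O
      hO := T.hO
      fib := fun y hy => (T.fib y hy).1
      inv := inv _
      hol := hol _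
      cmp := cmp mm h2
      val := fun y hy hK => val _ hb y hy fun c => E.st_ne T hT hy hK c
      ff := fun y hy => (ff _ hb y ⟨hy.1, fun c => E.st_ne T hT hy.1 hy.2 c⟩).subset
        fun x hx => ⟨⟨hx.1.1, fun c => E.st_ne T hT hx.1.1 hx.1.2 c⟩, hx.2⟩ }
  refine ⟨phiS Y (up _ hb) (hJ E.W.ra (nzX_ins M)) (hR E.W.ra) ?_ ?_ δ0 ?_⟩
  · intro y hy
    rw [piM_pr, hy]
  · intro x hx
    obtain ⟨y, rfl⟩ := Refl_246.surjective_pr (G := M.G) x
    rw [piM_pr] at hx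
    obtain ⟨g, hg⟩ := pr_eq_iff.1 hx
    exact ⟨g • y, by rw [M.A.pz_smul, hg], pr_smul g y⟩
  · intro u h0 h1 h3
    exact hδ u h0 h1 h3

end MdE

end

end Crest.Agent.R272.PEndZ_220
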