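import Crest.Agent.R272.CmM_220
import Crest.Agent.R272.PEndZ_220

/-!
# R272 (S0415), (K-b) (helper220): the comparison `cmp` over `M : Ar`

* `cmp_M` : `cmp` in the m-charts;
* `cmp_O` : `cmp` at every point of `O = pz⁻¹(V)` off the bad fibre (732's `YC`).
-/

set_option autoImplicit false
set_option linter.unusedSectionVars false
set_option linter.unusedVariables false

open Set Filter Topology

namespace Crest.Agent.R272.Cm_220

open Crest.Agent.R275.Geo Crest.Agent.R273.Fam_835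
open Crest.Agent.R272 Crest.Agent.R272.MQ_783 Crest.Agent.R272.Refl_246
open Crest.Agent.R272.Quot_783 Crest.Agent.R272.Gr_559 Crest.Agent.R272.Act_302
open Crest.Agent.R272.CB_232 Crest.Agent.R272.CB9_232
open Crest.Agent.R272.Cur_297 (Par Cv cur tt Pz vv)
open Crest.Agent.R272.Tp3_60 (Loc)
open Crest.Agent.R272.Tq4_916 (ib pinf)
open Crest.Agent.R272.PosP7_848
open Crest.Agent.R272.Kum_977
open Crest.Agent.R272.PW_92 (IPhi Phi)
open Crest.Agent.R272.FinCB3_876 (GenAt ValC)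
open Crest.Agent.R272.Lc_220 Crest.Agent.R272.LcR_783
open Crest.Agent.R272.P1A_54 (ambFam)
open Crest.Agent.R272.PEnd8_732 (LX st Swp st_fst fix_E fix_M)

noncomputable section

variable {N : Type} [TopologicalSpace N] {F : Fam 3 N} {D : GData F} {G : Type} [Group G]
  [MulAction G N] [Nonempty N] (A : GAct D G) {h : SubF_54.IsSl (ambFam F) D.X1 3} (hz : NzX A)
  (hX : RA (A.fam h) G)
  {q : N} (p : Pen F D.f0 (D.x 0) (D.P 0) (D.Q 0) q)
  (p' : Pen F D.f0 (D.x 1) (D.P 1) (D.Q 1) q) (hpp : p'.s0 = p.s0) {L : Loc Pz N}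
  (hU : L.sh.source ⊆ p.U ∩ p'.U)
  (hsh : ∀ z ∈ L.sh.source, L.sh z = (p.s0 z, p.s1 z, p'.s1 z))

include hpp hU hsh in
/-- **(K-b) in the m-charts** -/
theorem cmp_M {O : Set A.X} {q' : N} (T : YC Pz (A.fam h) A.pz q' O)
    (hT : ∀ y : A.X, A.pz y ∈ L.sh.source → (T.st y).1 = L.sh (A.pz y)) {mm : ℕ}
    (hb : 15 ≤ 10 * mm) {b b' : Bool} {w : ℂ × ℂ × ℂ}
    (hw : w ∈ (T.M b b').source) (hy : A.pz (T.M b b' w) ∈ L.sh.source)
    (hfix : ∀ᶠ y in 𝓝 (T.M b b' w), (∃ g : G, g ≠ 1 ∧ g • y = y) ↔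
      (((T.M b b').symm y).2.1 = ((T.M b b').symm y).2.2 ∧
        (ib Pz b).e.symm (((T.M b b').symm y).1 * ((T.M b b').symm y).2.1) =
          (ib Pz b').e.symm (((T.M b b').symm y).1 * ((T.M b b').symm y).2.1))) :
    ∃ a c, pr G (T.M b b' w) ∈ (JX A hX hz).V a ∧ pr G (T.M b b' w) ∈ (brLE hX).eqs.V c ∧
      GenAt (A.fam h) (T.ff (10 * mm)) (fun v => (JX A hX hz).f a (pr G v) ^ mm *
        (brLE hX).eqs.f c (pr G v) ^ 4) (T.M b b' w) := by
  obtain ⟨c, hc⟩ := hX.cov (T.M b b' w)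
  -- the functions near the point
  have e : ∀ᶠ v in 𝓝 (T.M b b' w), p.s1 (A.pz v) = T.x1 v ∧ p'.s1 (A.pz v) = T.x2 v ∧
      p.s0 (A.pz v) = T.x0 v := by
    filter_upwards [(L.sh.open_source.preimage A.continuous_pz).mem_nhds hy] with v h2
    have h3 : (T.st v).1 = L.sh (A.pz v) := hT v h2
    rw [hsh _ h2] at h3
    unfold YC.x0 YC.x1 YC.x2
    rw [h3]
    exact ⟨rfl, rfl, rfl⟩
  have hG : (gsX A h hz).IsG (T.M b b' w) fun v => (p.s1 (A.pz v) * p'.s1 (A.pz v)) ^ 5 := by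
    refine isG_M A h hz p p' hpp (hU hy).1 (hU hy).2
      (m := fun y => ((T.M b b').symm y).1) (holN_m0 (T.cM b b') hw) ?_
    filter_upwards [e, T.ev_M hw (Q := fun y p => T.x0 y = p.1 * (T.x1 y * T.x2 y))
      fun p hp => by rw [(T.stM hp).1, (T.stM hp).2.1, (T.stM hp).2.2.1]] with v h1 h2
    rw [h1.1, h1.2.1, h1.2.2, h2]
    ring
  refine cmp_of_Y A hz hX hG hc ?_
  refine (gen_M T hw hb hc hfix).asc ?_
  refine (Asc.refl _).congr ?_ (Eventually.of_forall fun _ => rfl)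
  filter_upwards [e] with v h1
  rw [h1.1, h1.2.1]
  ring

include hpp hU hsh in
/-- **(K-b)** : `cmp` at every point of `O` off the bad fibre -/
theorem cmp_O {q' : N} {hL : LX D L} {B : BV G q'} (hV : B.V ⊆ L.sh.source)
    (hs : Swp A L B.s B.V) (hne : B.s ≠ 1)
    (T : YC Pz (A.fam h) A.pz q' (A.pz ⁻¹' B.V)) (hT : T.st = st A L hL) {mm : ℕ}
    (hb : 15 ≤ 10 * mm) {y : A.X} (hy : A.pz y ∈ B.V) (hy0 : A.pz y ≠ q') :
    ∃ a c, pr G y ∈ (JX A hX hz).V a ∧ pr G y ∈ (brLE hX).eqs.V c ∧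
      GenAt (A.fam h) (T.ff (10 * mm)) (fun v => (JX A hX hz).f a (pr G v) ^ mm *
        (brLE hX).eqs.f c (pr G v) ^ 4) y := by
  have hT' : ∀ y : A.X, A.pz y ∈ L.sh.source → (T.st y).1 = L.sh (A.pz y) := by
    intro y hy
    rw [hT]
    exact st_fst A hy
  rcases T.off y hy hy0 with ⟨i, j, w, hw, rfl, hw0⟩ | ⟨b, b', w, hw, rfl, -⟩
  · exact cmp_E A hz hX p p' hpp hU hsh T hT' hb hw hw0 (hV hy) (fix_E hV hs hne T hT hw hy)
  · exact cmp_M A hz hX p p' hpp hU hsh T hT' hb hw (hV hy) (fix_M hV hs hne T hT hw hy)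

end

end Crest.Agent.R272.Cm_220
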