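import Crest.Agent.R272.Md2_834
import Crest.Agent.R272.Act5_302

/-!
# R272 (S0415), M15: the smooth model is a complex manifold with a good action (302's (B) over
939's `M : Ar`)
-/

set_option autoImplicit false
set_option linter.unusedSectionVars false

open Set Filter Topology

namespace Crest.Agent.R272.Md_834

open Crest.Agent.R275.Geo Crest.Agent.R273.Fam_835
open Crest.Agent.R272 Crest.Agent.R272.MQ_783 Crest.Agent.R272.Refl_246
open Crest.Agent.R272.M15_939

noncomputable section

theorem hfix (M : Ar) (s : M.G) (z : M.N) (hs : s ≠ 1) (hz : s • z = z) :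
    M.A.σ s = Equiv.swap 0 1 := by
  rcases M.base_st z with h | ⟨s', -, -, h, h', -⟩
  · exact absurd (h s hz) hs
  · rcases h s hz with h1 | h1
    · exact absurd h1 hs
    · rw [h1]; exact h'

/-- **302 (B) over `M : Ar`** -/
theorem raM (M : Ar) : RA M.CX M.G := M.A.ra1 M.ra (hfix M)

end

end Crest.Agent.R272.Md_834
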