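import Crest.Agent.R272.Tq7_916

/-!
# R272 (S0415), MOD-TP (helper916): all charts of `X₁` over a cluster point are holomorphic

* `exists_FAij`, `cpt_Eij` : the charts `(c, c', ξ)` in the frames `i, j` (all four pairs);
* `exists_FAm`, `cpt_Em`   : the `m`-charts;
* `coverA`                 : they cover the part of `X₁` over the ball.
-/

set_option autoImplicit false
set_option linter.unusedSectionVars false

open Set Filter Topology OnePoint

namespace Crest.Agent.R272.Tq8_916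

open Crest.Agent.R275.Geo Crest.Agent.R273.Fam_835 Crest.Agent.R272.FamP_54
open Crest.Agent.R272.HFam_342 Crest.Agent.R272.Tp1_60 Crest.Agent.R272.Refl_246
open Crest.Agent.R272.Tp2_60 hiding Amb
open Crest.Agent.R272.Tp3_60 Crest.Agent.R272.Tp4_60
open Crest.Agent.R272.Tp5_60 Crest.Agent.R272.SubF_54 Crest.Agent.R272.Tp6_60
open Crest.Agent.R272.Tp7_60 (mem_pc_target mem_pc_source)
open Crest.Agent.R272.Tq1_916 Crest.Agent.R272.Tq3_916 Crest.Agent.R272.Tq4_916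
open Crest.Agent.R272.Cur_297 (Par Cv Cset Eqn hA hB tt kk continuous_tt continuous_kk cur)
open Crest.Agent.R272.P1A_54 (ambFam amb_z amb_t amb_v amb_k)
open Crest.Agent.R272.Gr_559.GData (Amb)
open Crest.Agent.R272.AJ_956 (Cur)
open Crest.Agent.R272.Idn_834 (h3 pc)

noncomputable section

variable {N : Type} [TopologicalSpace N] {F : Fam 3 N} {P : Par} {L : Loc P N} {r : ℝ}

/-! ### the four frames -/

/-- `E` is (a restriction of) the chart in the frames `i, j` -/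
def IsEij (L : Loc P N) (r : ℝ) {X0 : Set (Amb N)} (i j : Fin 2)
    (E : OpenPartialHomeomorph ((Cv P × Cv P) × ℂ) X0) : Prop :=
  ∀ p ∈ E.source, p ∈ DEij P r i j ∧ (E p).1 = toA N (L.fro (FEij P i j p)) ∧
    (FEij P i j p).1 ∈ L.sh.target ∧ FEij P i j p ∈ Std (tt : Cv P → P1)

section exist

variable (L : Loc P N) {X0 : Set (Amb N)}
  (hX : ∀ y : E6 N, y.1 ∈ L.sh.source → (toA N y ∈ X0 ↔ RelX L y))
  {r : ℝ} (hr : 0 < r) (hb : Metric.ball (0 : ℂ × ℂ × ℂ) r ⊆ L.sh.target)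

include hX hr hb in
theorem exists_FAij (i j : Fin 2) :
    ∃ E : OpenPartialHomeomorph ((Cv P × Cv P) × ℂ) X0, E.source = DEij P r i j ∧
      IsEij L r i j E ∧ ∀ p ∈ E.source, (FEij P i j p).1 ∈ Metric.ball (0 : ℂ × ℂ × ℂ) r := by
  set X : Set (E6 N) := toA N ⁻¹' X0 with hXdef
  have he : ∃ e : X ≃ₜ X0, ∀ y : X, (e y).1 = toA N y.1 :=
    ⟨(toA N).subtype (fun _ => Iff.rfl), fun _ => rfl⟩
  obtain ⟨e, he⟩ := he
  obtain ⟨E, h1, h2⟩ := exists_EijC L X hX hr hb i j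
  refine ⟨E.transHomeomorph e, by rw [← h1]; rfl, fun p hp => ?_, fun p hp => ?_⟩
  · have hp' : p ∈ DEij P r i j := by rw [← h1]; exact hp
    obtain ⟨k3, k4, k5⟩ := h2 p hp'
    refine ⟨hp', ?_, hb k5, k4⟩
    show (e (E p)).1 = _
    rw [he, k3]
  · have hp' : p ∈ DEij P r i j := by rw [← h1]; exact hp
    exact (h2 p hp').2.2

include hX hr hb in
theorem exists_FAm (a a' : Inf (tt : Cv P → P1)) :
    ∃ E : OpenPartialHomeomorph (ℂ × ℂ × ℂ) X0, E.source = DEm a a' r ∧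
      ∀ p ∈ DEm a a' r, (E p).1 = toA N (L.fro (fm a a' p)) ∧
        fm a a' p ∈ Std (tt : Cv P → P1) ∧ (fm a a' p).1 ∈ Metric.ball (0 : ℂ × ℂ × ℂ) r := by
  set X : Set (E6 N) := toA N ⁻¹' X0 with hXdef
  have he : ∃ e : X ≃ₜ X0, ∀ y : X, (e y).1 = toA N y.1 :=
    ⟨(toA N).subtype (fun _ => Iff.rfl), fun _ => rfl⟩
  obtain ⟨e, he⟩ := he
  obtain ⟨E, h1, h2⟩ := exists_Em L X hX hr hb a a'
  refine ⟨E.transHomeomorph e, by rw [← h1]; rfl, fun p hp => ?_⟩
  obtain ⟨k3, k4, k5⟩ := h2 p hp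
  refine ⟨?_, k4, k5⟩
  show (e (E p)).1 = _
  rw [he, k3]

include hX in
/-- the charts cover the part of `X₁` over the ball -/
theorem coverA {y : X0} (hy : y.1.1 ∈ L.sh.source)
    (hyb : L.sh y.1.1 ∈ Metric.ball (0 : ℂ × ℂ × ℂ) r) :
    (∃ (i j : Fin 2) (p : (Cv P × Cv P) × ℂ), tt p.1.1 ≠ pole i ∧ tt p.1.2 ≠ pole j ∧
        (FEij P i j p).1 = L.sh y.1.1 ∧ y.1 = toA N (L.fro (FEij P i j p))) ∨
      ∃ (b b' : Bool) (p : ℂ × ℂ × ℂ), p ∈ DEm (ib P b) (ib P b') r ∧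
        (fm (ib P b) (ib P b') p).1 = L.sh y.1.1 ∧
          y.1 = toA N (L.fro (fm (ib P b) (ib P b') p)) := by
  set X : Set (E6 N) := toA N ⁻¹' X0 with hXdef
  have hm : (toA N).symm y.1 ∈ X := by
    show toA N ((toA N).symm y.1) ∈ X0
    rw [(toA N).apply_symm_apply]
    exact y.2
  have h := coverC (r := r) L X hX (y := ⟨(toA N).symm y.1, hm⟩) hy hyb
  rcases h with ⟨i, j, p, k1, k2, k3, k4⟩ | ⟨b, b', p, k1, k2, k3⟩
  · exact Or.inl ⟨i, j, p, k1, k2, k3, by rw [← k4]; exact ((toA N).apply_symm_apply _).symm⟩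
  · exact Or.inr ⟨b, b', p, k1, k2, by rw [← k3]; exact ((toA N).apply_symm_apply _).symm⟩

end exist

section cpt

variable (H : HLoc F L) {𝒞 : Cur (Cv P)} (hC : CH 𝒞)

theorem hfa_dl {n : ℕ} {X : Type} [TopologicalSpace X] {G : Fam n X} {i : Fin 2} {p : X → P1}
    {x : X} (h : HP G p x) (hp : p x ≠ pole i) : HFA G (fun y => dl i (p y)) x := by
  fin_cases i
  · exact HFA.const _ _
  · exact h.iv hp

theorem hfa_nu {n : ℕ} {X : Type} [TopologicalSpace X] {G : Fam n X} {i : Fin 2} {p : X → P1}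
    {x : X} (h : HP G p x) (hp : p x ≠ pole i) : HFA G (fun y => nu i (p y)) x := by
  fin_cases i
  · exact h.nn hp
  · exact HFA.const _ _

/-- holomorphy of the standard coordinates of a holomorphic germ `(c, c', ξ)` -/
theorem hfa_FEij {k : ℕ} {Z : Type} [TopologicalSpace Z] {E : Fam k Z}
    {g : Z → (Cv P × Cv P) × ℂ} {z : Z} {i j : Fin 2} (h1 : tt (g z).1.1 ≠ pole i)
    (h2 : tt (g z).1.2 ≠ pole j) (hT : HP E (fun y => tt (g y).1.1) z)
    (hT' : HP E (fun y => tt (g y).1.2) z) (hx : HFA E (fun y => (g y).2) z) :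
    HFA E (fun y => (FEij P i j (g y)).1) z ∧ HP E (fun y => (FEij P i j (g y)).2.2.2) z := by
  have d0 := hfa_dl hT h1
  have d1 := hfa_dl hT' h2
  have n0 := hfa_nu hT h1
  have n1 := hfa_nu hT' h2
  constructor
  · intro l hl
    have a1 := ((hx.mul d0).mul d1) l hl
    have a2 := ((hx.mul n0).mul d1) l hl
    have a3 := ((hx.mul d0).mul n1) l hl
    exact a1.prodMk (a2.prodMk a3)
  · exact hP_coe ((hx.mul n0).mul n1)

include hC in
theorem hC_pc {c c' : Cv P} {z : Cn 3} (hz : z ∈ (pc 𝒞 c c').target) :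
      HP (cnFam 3) (fun z => tt ((pc 𝒞 c c').symm z).1.1) z ∧
      HP (cnFam 3) (fun z => tt ((pc 𝒞 c c').symm z).1.2) z ∧
      HP (cnFam 3) (fun z => kk ((pc 𝒞 c c').symm z).1.1) z ∧
      HP (cnFam 3) (fun z => kk ((pc 𝒞 c c').symm z).1.2) z ∧
      HFA (cnFam 3) (fun z => ((pc 𝒞 c c').symm z).2) z := by
  obtain ⟨h0, h1⟩ := mem_pc_target hz
  have T0 : HP (cnFam 3) (fun z : Cn 3 => tt ((𝒞.k c).symm (z 0))) z :=
    HP.comp (g := fun s : ℂ => tt ((𝒞.k c).symm s)) (hC.hT c _ h0) (hC_coord 0 z)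
  have T1 : HP (cnFam 3) (fun z : Cn 3 => tt ((𝒞.k c').symm (z 1))) z :=
    HP.comp (g := fun s : ℂ => tt ((𝒞.k c').symm s)) (hC.hT c' _ h1) (hC_coord 1 z)
  have K0 : HP (cnFam 3) (fun z : Cn 3 => kk ((𝒞.k c).symm (z 0))) z :=
    HP.comp (g := fun s : ℂ => kk ((𝒞.k c).symm s)) (hC.hK c _ h0) (hC_coord 0 z)
  have K1 : HP (cnFam 3) (fun z : Cn 3 => kk ((𝒞.k c').symm (z 1))) z :=
    HP.comp (g := fun s : ℂ => kk ((𝒞.k c').symm s)) (hC.hK c' _ h1) (hC_coord 1 z)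
  exact ⟨T0, T1, K0, K1, hfa_coord 2 z⟩

include H in
/-- the standard coordinates are holomorphic on `X₁` -/
theorem hfa_back {X0 : Set (Amb N)} (hs : IsSl (ambFam F) X0 3) {y : X0}
    (hyS : y.1.1 ∈ L.sh.source) :
    HFA (slFam hs) (fun w : X0 => L.sh w.1.1) y ∧ HP (slFam hs) (fun w : X0 => TA L 0 w.1) y ∧
      HP (slFam hs) (fun w : X0 => TA L 1 w.1) y ∧ HP (slFam hs) (fun w : X0 => KA L 0 w.1) y ∧
      HP (slFam hs) (fun w : X0 => KA L 1 w.1) y ∧ HP (slFam hs) (fun w : X0 => VA L w.1) y := by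
  have hval : HC (slFam hs) (ambFam F) (fun w : X0 => w.1) y := (slFam_hol hs).hC y
  have h0 : HFA (ambFam F) (fun q : Amb N => L.sh q.1) y.1 :=
    hfa_comp (H.hS _ hyS) (amb_z.hC y.1)
  exact ⟨hfa_comp (g := fun q : Amb N => L.sh q.1) (p := fun w : X0 => w.1) h0 hval,
    HP.comp (p := fun w : X0 => w.1) (hP_TA H 0 hyS) hval,
    HP.comp (p := fun w : X0 => w.1) (hP_TA H 1 hyS) hval,
    HP.comp (p := fun w : X0 => w.1) (hP_KA H 0 hyS) hval,
    HP.comp (p := fun w : X0 => w.1) (hP_KA H 1 hyS) hval,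
    HP.comp (p := fun w : X0 => w.1) (hP_VA H hyS) hval⟩

theorem FEij_fst (i j : Fin 2) (p : (Cv P × Cv P) × ℂ) : (FEij P i j p).2.1 = p.1.1 := rfl
theorem FEij_snd (i j : Fin 2) (p : (Cv P × Cv P) × ℂ) : (FEij P i j p).2.2.1 = p.1.2 := rfl
theorem xi_FEij (i j : Fin 2) (p : (Cv P × Cv P) × ℂ) : xi i j (FEij P i j p) = p.2 :=
  xi_fij _

/-- what `IsEij` says about the inverse -/
theorem IsEij.back {X0 : Set (Amb N)} {i j : Fin 2}
    {E : OpenPartialHomeomorph ((Cv P × Cv P) × ℂ) X0} (hE : IsEij L r i j E) {w : X0}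
    (hw : w ∈ E.target) : w.1.1 ∈ L.sh.source ∧ L.sh w.1.1 = (FEij P i j (E.symm w)).1 ∧
        TA L 0 w.1 = tt (E.symm w).1.1 ∧ TA L 1 w.1 = tt (E.symm w).1.2 ∧
        VA L w.1 = (FEij P i j (E.symm w)).2.2.2 ∧ KA L 0 w.1 = kk (E.symm w).1.1 ∧
        KA L 1 w.1 = kk (E.symm w).1.2 := by
  obtain ⟨-, h1, h2, -⟩ := hE _ (E.map_target hw)
  rw [E.right_inv hw] at h1
  obtain ⟨b1, b2, b3, b4, b5, b6⟩ := co_fro h2
  rw [← h1] at b1 b2 b3 b4 b5 b6
  rw [FEij_fst] at b2 b5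
  rw [FEij_snd] at b3 b6
  refine ⟨?_, b1, b2, b3, b4, b5, b6⟩
  rw [h1]
  exact L.sh.map_target h2

include H hC in
/-- **the charts in the frames `i, j` are holomorphic** -/
theorem cpt_Eij {X0 : Set (Amb N)} (hs : IsSl (ambFam F) X0 3) {i j : Fin 2}
    {E : OpenPartialHomeomorph ((Cv P × Cv P) × ℂ) X0} (hE : IsEij L r i j E) (c c' : Cv P) :
    Cpt (slFam hs) (E.symm.trans (pc 𝒞 c c')) := by
  refine cpt_of ?_ ?_
  · rintro z ⟨hz, hz2⟩
    have hz2' : (pc 𝒞 c c').symm z ∈ E.source := hz2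
    obtain ⟨h1, h2, h3, h4⟩ := hE _ hz2'
    obtain ⟨a1, a2, a3, a4, a5⟩ := hC_pc hC hz
    obtain ⟨f1, f2⟩ := hfa_FEij (i := i) (j := j) (g := fun z => (pc 𝒞 c c').symm z)
      h1.1 h1.2.1 a1 a2 a5
    have hc : ContinuousAt (fun z => E ((pc 𝒞 c c').symm z)) z :=
      ContinuousAt.comp (g := E) (E.continuousAt hz2') ((pc 𝒞 c c').continuousAt_symm hz)
    refine hC_sl hs hc ?_
    have h5 : HC (cnFam 3) (ambFam F)
        (fun z => toA N (L.fro (FEij P i j ((pc 𝒞 c c').symm z)))) z :=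
      hC_fro H (g := fun z => FEij P i j ((pc 𝒞 c c').symm z)) h3 f1 a1 a2 f2 a3 a4
    refine h5.congr ?_
    have h6 : ∀ᶠ w in 𝓝 z, (pc 𝒞 c c').symm w ∈ E.source :=
      ((pc 𝒞 c c').continuousAt_symm hz).preimage_mem_nhds (E.open_source.mem_nhds hz2')
    filter_upwards [h6] with w hw
    exact (hE _ hw).2.1.symm
  · rintro y ⟨hy, hy2⟩
    have hy' : y ∈ E.target := hy
    have hy2' : E.symm y ∈ (pc 𝒞 c c').source := hy2
    obtain ⟨k1, k2⟩ := mem_pc_source hy2'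
    have hev : ∀ᶠ w in 𝓝 y, w ∈ E.target := E.open_target.mem_nhds hy'
    have hyS := (hE.back hy').1
    obtain ⟨S0, T0, T1, K0, K1, V0⟩ := hfa_back H hs hyS
    have hcs : ContinuousAt (fun w : X0 => E.symm w) y := E.continuousAt_symm hy'
    replace T0 : HP (slFam hs) (fun w : X0 => tt (E.symm w).1.1) y :=
      T0.congr (hev.mono fun w hw => (hE.back hw).2.2.1.symm)
    replace T1 : HP (slFam hs) (fun w : X0 => tt (E.symm w).1.2) y :=
      T1.congr (hev.mono fun w hw => (hE.back hw).2.2.2.1.symm)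
    replace K0 : HP (slFam hs) (fun w : X0 => kk (E.symm w).1.1) y :=
      K0.congr (hev.mono fun w hw => (hE.back hw).2.2.2.2.2.1.symm)
    replace K1 : HP (slFam hs) (fun w : X0 => kk (E.symm w).1.2) y :=
      K1.congr (hev.mono fun w hw => (hE.back hw).2.2.2.2.2.2.symm)
    have C0 : HFA (slFam hs) (fun w : X0 => 𝒞.k c (E.symm w).1.1) y :=
      hC.back (slFam hs) (fun w : X0 => (E.symm w).1.1) y
        (continuous_fst.continuousAt.comp (continuous_fst.continuousAt.comp hcs)) T0 K0 c k1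
    have C1 : HFA (slFam hs) (fun w : X0 => 𝒞.k c' (E.symm w).1.2) y :=
      hC.back (slFam hs) (fun w : X0 => (E.symm w).1.2) y
        (continuous_snd.continuousAt.comp (continuous_fst.continuousAt.comp hcs)) T1 K1 c' k2
    have C2 : HFA (slFam hs) (fun w : X0 => (E.symm w).2) y := by
      have e : ∀ᶠ w in 𝓝 y, (E.symm w).2 = xi i j (L.sh w.1.1, (E.symm w).1.1,
          (E.symm w).1.2, VA L w.1) := by
        filter_upwards [hev] with w hw
        obtain ⟨-, b1, -, -, b4, -, -⟩ := hE.back hw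
        rw [b1, b4]
        exact (xi_FEij i j _).symm
      have s0 : HFA (slFam hs) (fun w : X0 => (L.sh w.1.1).1) y :=
        HFA.comp_left (g := Prod.fst) (by fun_prop) S0
      have s1 : HFA (slFam hs) (fun w : X0 => (L.sh w.1.1).2.1) y :=
        HFA.comp_left (g := fun s : ℂ × ℂ × ℂ => s.2.1) (by fun_prop) S0
      have s2 : HFA (slFam hs) (fun w : X0 => (L.sh w.1.1).2.2) y :=
        HFA.comp_left (g := fun s : ℂ × ℂ × ℂ => s.2.2) (by fun_prop) S0
      have hV : VA L y.1 ≠ ∞ := by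
        rw [(hE.back hy').2.2.2.2.1]
        exact OnePoint.coe_ne_infty _
      have s3 : HFA (slFam hs) (fun w : X0 => nn (VA L w.1)) y := V0.nn hV
      fin_cases i <;> fin_cases j
      · exact s0.congr e
      · exact s2.congr e
      · exact s1.congr e
      · exact s3.congr e
    show HFA (slFam hs) (fun w : X0 => pc 𝒞 c c' (E.symm w)) y
    intro l hl
    have h1 := ((C0 l hl).prodMk (C1 l hl)).prodMk (C2 l hl)
    exact DifferentiableAt.comp _ (g := h3) h3.differentiableAt h1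

/-! ### the `m`-charts -/

/-- `(m, S₁, S₂) ↦ ![m, S₁, S₂]` -/
def hm3 : (ℂ × ℂ × ℂ) ≃L[ℂ] Cn 3 :=
  LinearEquiv.toContinuousLinearEquiv
    { toFun := fun p => WithLp.toLp 2 ![p.1, p.2.1, p.2.2]
      invFun := fun z => (z 0, z 1, z 2)
      map_add' := by
        intro p q
        ext i
        fin_cases i <;> simp
      map_smul' := by
        intro r p
        ext i
        fin_cases i <;> simp
      left_inv := by
        intro p
        simp
      right_inv := by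
        intro z
        ext i
        fin_cases i <;> simp }

@[simp] theorem hm3_0 (p : ℂ × ℂ × ℂ) : hm3 p 0 = p.1 := rfl
@[simp] theorem hm3_1 (p : ℂ × ℂ × ℂ) : hm3 p 1 = p.2.1 := rfl
@[simp] theorem hm3_2 (p : ℂ × ℂ × ℂ) : hm3 p 2 = p.2.2 := rfl
@[simp] theorem hm3_symm (z : Cn 3) : hm3.symm z = (z 0, z 1, z 2) := rfl

/-- `κ` is holomorphic in the chart `a` -/
def HInf (a : Inf (tt : Cv P → P1)) : Prop :=
  ∀ s ∈ a.e.target, HP cFam (fun s => kk (a.e.symm s)) s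

theorem hInf_ib (b : Bool) : HInf (ib P b) := fun _ hs => Tq6_916.hp_kk (pinf P b) hs

theorem tt_symm (a : Inf (tt : Cv P → P1)) {s : ℂ} (h : ‖s‖ < a.r) :
    tt (a.e.symm s) = rat 1 s := by
  have h1 := a.iv_symm h
  have h2 := rat_iv (a.ne _ (a.mem h))
  rw [h1] at h2
  exact h2.symm

theorem hp_tt_inf (a : Inf (tt : Cv P → P1)) {s : ℂ} (h : ‖s‖ < a.r) :
    HP cFam (fun s => tt (a.e.symm s)) s := by
  have h1 : HFA cFam (fun s : ℂ => s) s := hfa_c.2 differentiableAt_id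
  refine (hP_rat (HFA.const 1 s) h1 (Or.inl one_ne_zero)).congr ?_
  have h2 : ∀ᶠ t : ℂ in 𝓝 s, ‖t‖ < a.r := continuous_norm.continuousAt.eventually_lt_const h
  filter_upwards [h2] with t ht
  exact tt_symm a ht

/-- `E` is (a restriction of) the `m`-chart at `a, a'` -/
def IsEm (L : Loc P N) {X0 : Set (Amb N)} (a a' : Inf (tt : Cv P → P1))
    (E : OpenPartialHomeomorph (ℂ × ℂ × ℂ) X0) : Prop :=
  ∀ p ∈ E.source, p ∈ Dm a a' ∧ (E p).1 = toA N (L.fro (fm a a' p)) ∧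
    (fm a a' p).1 ∈ L.sh.target ∧ fm a a' p ∈ Std (tt : Cv P → P1)

theorem hC_cc {k : ℕ} {Z : Type} [TopologicalSpace Z] {E : Fam k Z} {f : Z → ℂ} {z : Z}
    (hf : HFA E f z) : HC E cFam f z :=
  hC_of_fC (j := ()) hf.continuousAt trivial
    (HFA.comp_left (g := oneL) oneL.differentiableAt hf)

/-- holomorphy of the standard coordinates of a germ in the `m`-chart -/
theorem hfa_fm {k : ℕ} {Z : Type} [TopologicalSpace Z] {E : Fam k Z}
    {g : Z → ℂ × ℂ × ℂ} {z : Z} {a a' : Inf (tt : Cv P → P1)} (ha : HInf a) (ha' : HInf a')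
    (hz : g z ∈ Dm a a') (hg : HFA E g z) :
    HFA E (fun y => (fm a a' (g y)).1) z ∧ HP E (fun y => tt (fm a a' (g y)).2.1) z ∧
      HP E (fun y => tt (fm a a' (g y)).2.2.1) z ∧ HP E (fun y => (fm a a' (g y)).2.2.2) z ∧
      HP E (fun y => kk (fm a a' (g y)).2.1) z ∧ HP E (fun y => kk (fm a a' (g y)).2.2.1) z := by
  have g0 : HFA E (fun y => (g y).1) z :=
    HFA.comp_left (g := fun s : ℂ × ℂ × ℂ => s.1) (by fun_prop) hg
  have g1 : HFA E (fun y => (g y).2.1) z :=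
    HFA.comp_left (g := fun s : ℂ × ℂ × ℂ => s.2.1) (by fun_prop) hg
  have g2 : HFA E (fun y => (g y).2.2) z :=
    HFA.comp_left (g := fun s : ℂ × ℂ × ℂ => s.2.2) (by fun_prop) hg
  have q2 := hC_cc (g0.mul g2)
  have q1 := hC_cc (g0.mul g1)
  have t2 : (g z).1 * (g z).2.2 ∈ a.e.target := by rw [a.tgt]; simpa using hz.1
  have t1 : (g z).1 * (g z).2.1 ∈ a'.e.target := by rw [a'.tgt]; simpa using hz.2
  refine ⟨?_, ?_, ?_, ?_, ?_, ?_⟩
  · refine HFA.comp_left (g := fun p : ℂ × ℂ × ℂ => (p.1 * p.2.1 * p.2.2, p.2.1, p.2.2)) ?_ hg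
    fun_prop
  · exact HP.comp (g := fun s => tt (a.e.symm s)) (hp_tt_inf a hz.1) q2
  · exact HP.comp (g := fun s => tt (a'.e.symm s)) (hp_tt_inf a' hz.2) q1
  · exact hP_rat (HFA.const 1 z) g0 (Or.inl one_ne_zero)
  · exact HP.comp (g := fun s => kk (a.e.symm s)) (ha _ t2) q2
  · exact HP.comp (g := fun s => kk (a'.e.symm s)) (ha' _ t1) q1

/-- what `IsEm` says about the inverse -/
theorem IsEm.back {X0 : Set (Amb N)} {a a' : Inf (tt : Cv P → P1)}
    {E : OpenPartialHomeomorph (ℂ × ℂ × ℂ) X0} (hE : IsEm L a a' E) {w : X0}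
    (hw : w ∈ E.target) : w.1.1 ∈ L.sh.source ∧ L.sh w.1.1 = (fm a a' (E.symm w)).1 ∧
        VA L w.1 = rat 1 (E.symm w).1 := by
  obtain ⟨-, h1, h2, -⟩ := hE _ (E.map_target hw)
  rw [E.right_inv hw] at h1
  obtain ⟨b1, b2, b3, b4, b5, b6⟩ := co_fro h2
  rw [← h1] at b1 b2 b3 b4 b5 b6
  refine ⟨?_, b1, b4⟩
  rw [h1]
  exact L.sh.map_target h2

include H in
/-- **the `m`-charts are holomorphic** -/
theorem cpt_Em {X0 : Set (Amb N)} (hs : IsSl (ambFam F) X0 3) {a a' : Inf (tt : Cv P → P1)}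
    (ha : HInf a) (ha' : HInf a')
    {E : OpenPartialHomeomorph (ℂ × ℂ × ℂ) X0} (hE : IsEm L a a' E) :
    Cpt (slFam hs) (E.symm.transHomeomorph hm3.toHomeomorph) := by
  refine cpt_of ?_ ?_
  · intro z hz
    have hz2' : hm3.symm z ∈ E.source := hz
    obtain ⟨h1, h2, h3, h4⟩ := hE _ hz2'
    have hg : HFA (cnFam 3) (fun z : Cn 3 => hm3.symm z) z := hfa_cn.2 hm3.symm.differentiableAt
    obtain ⟨f1, f2, f3, f4, f5, f6⟩ := hfa_fm ha ha' (g := fun z : Cn 3 => hm3.symm z) h1 hg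
    have hc : ContinuousAt (fun z => E (hm3.symm z)) z :=
      ContinuousAt.comp (g := E) (E.continuousAt hz2') hm3.symm.continuous.continuousAt
    refine hC_sl hs hc ?_
    have h5 : HC (cnFam 3) (ambFam F) (fun z => toA N (L.fro (fm a a' (hm3.symm z)))) z :=
      hC_fro H (g := fun z => fm a a' (hm3.symm z)) h3 f1 f2 f3 f4 f5 f6
    refine h5.congr ?_
    have h6 : ∀ᶠ w in 𝓝 z, hm3.symm w ∈ E.source :=
      hm3.symm.continuous.continuousAt.preimage_mem_nhds (E.open_source.mem_nhds hz2')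
    filter_upwards [h6] with w hw
    exact (hE _ hw).2.1.symm
  · intro y hy
    have hy' : y ∈ E.target := hy
    have hev : ∀ᶠ w in 𝓝 y, w ∈ E.target := E.open_target.mem_nhds hy'
    have hyS := (hE.back hy').1
    obtain ⟨S0, -, -, -, -, V0⟩ := hfa_back H hs hyS
    have hV : VA L y.1 ≠ ((0 : ℂ) : P1) := by
      rw [(hE.back hy').2.2]
      exact rat_ne_zero _
    have s1 : HFA (slFam hs) (fun w : X0 => (L.sh w.1.1).2.1) y :=
      HFA.comp_left (g := fun s : ℂ × ℂ × ℂ => s.2.1) (by fun_prop) S0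
    have s2 : HFA (slFam hs) (fun w : X0 => (L.sh w.1.1).2.2) y :=
      HFA.comp_left (g := fun s : ℂ × ℂ × ℂ => s.2.2) (by fun_prop) S0
    have s3 : HFA (slFam hs) (fun w : X0 => iv (VA L w.1)) y := V0.iv hV
    have h7 : HFA (slFam hs) (fun w : X0 => hm3 (iv (VA L w.1), (L.sh w.1.1).2.1,
        (L.sh w.1.1).2.2)) y := by
      intro l hl
      have h1 := (s3 l hl).prodMk ((s1 l hl).prodMk (s2 l hl))
      exact DifferentiableAt.comp _ (g := hm3) hm3.differentiableAt h1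
    show HFA (slFam hs) (fun w : X0 => hm3 (E.symm w)) y
    refine h7.congr (hev.mono fun w hw => ?_)
    obtain ⟨-, b1, b2⟩ := hE.back hw
    rw [b1, b2, iv_rat]
    rfl

end cpt

end

end Crest.Agent.R272.Tq8_916
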