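import Crest.Agent.R272.PEnd9_732
import Crest.Agent.R272.Tq8_916
import Crest.Agent.R272.PosP7_848

/-!
# R272 (S0415), POS at `p0` (helper732): 848's `YC` over 60's `GermE`

`ycE`       : `YC P (A.fam hsl) A.pz q (A.pz ⁻¹' V)` from the cover of `pz⁻¹ V` by charts;
`exists_YC` : the small neighbourhood, the charts, the swap;
`ff_inv`    : the functions are invariant.
-/

set_option autoImplicit false
set_option linter.unusedSectionVars false
set_option linter.unusedVariables false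

open Set Filter Topology OnePoint

namespace Crest.Agent.R272.PEnd8_732

open Crest.Agent.R275.Geo Crest.Agent.R273.Fam_835 Crest.Agent.R272.Gr_559
open Crest.Agent.R272.Act_302 Crest.Agent.R272.Lc_220 Crest.Agent.R272.Refl_246
open Crest.Agent.R272.MQ_783 Crest.Agent.R272.FamP_54 Crest.Agent.R272.P1A_54
open Crest.Agent.R272.Cur_297 (Par Cv tt kk cur)
open Crest.Agent.R272.Tp1_60 (iv nn dd)
open Crest.Agent.R272.Tp2_60 (Amb Std)
open Crest.Agent.R272.Tp3_60 (Loc RelX E6)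
open Crest.Agent.R272.Tp4_60 (FE DE)
open Crest.Agent.R272.Tp6_60 (toA toA_1 co_fro TA KA VA HLoc)
open Crest.Agent.R272.Tp7_60 (IsE)
open Crest.Agent.R272.Tp9_60 (SwRel co_sw ext_co)
open Crest.Agent.R272.Tp10_60 (GermE)
open Crest.Agent.R272.Tq1_916 (swA swA_mem pole fij fm Dm fibre exists_frame fm_eq)
open Crest.Agent.R272.Tq3_916 (DEij FEij DEm)
open Crest.Agent.R272.Tq4_916 (ib ib_cover)
open Crest.Agent.R272.Tq8_916 (exists_FAij exists_FAm IsEij IsEm cpt_Eij cpt_Em hm3 hInf_ib)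
open Crest.Agent.R272.SubF_54 (IsSl)
open Crest.Agent.R272.PosP7_848 (YC MCpt mc)
open Crest.Agent.R272.PosP3_848 (FF FF_swA)

noncomputable section

variable {N : Type} [TopologicalSpace N] {F : Fam 3 N} {D : GData F} {G : Type} [Group G]
  [MulAction G N] {A : GAct D G} {P : Par} {L : Loc P N}

/-- points over the origin: on the zero section or on the lines -/
theorem inCh_zero' {r : ℝ} (hr : 0 < r) {σ : Amb (Cv P)}
    (hσ : σ ∈ Std (tt : Cv P → Cur_297.P1)) (h0 : σ.1 = 0) :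
    (∃ i j x, (x, (0 : ℂ)) ∈ DEij P r i j ∧ σ = FEij P i j (x, 0)) ∨
      ∃ b b' m, (m, (0 : ℂ), (0 : ℂ)) ∈ DEm (ib P b) (ib P b') r ∧
        σ = fm (ib P b) (ib P b') (m, 0, 0) := by
  have h0' : σ.1 = (0, 0, 0) := h0
  rcases eq_or_ne σ.2.2.2 ((0 : ℂ) : Cur_297.P1) with hv | hv
  · left
    obtain ⟨i, hi⟩ := exists_frame (tt σ.2.1)
    obtain ⟨j, hj⟩ := exists_frame (tt σ.2.2.1)
    have e : FEij P i j ((σ.2.1, σ.2.2.1), 0) = σ := by
      rw [Tq3_916.zst_eq]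
      exact Prod.ext h0'.symm (Prod.ext rfl (Prod.ext rfl hv.symm))
    exact ⟨i, j, (σ.2.1, σ.2.2.1), ⟨hi, hj, by simpa using hr⟩, e.symm⟩
  · right
    rcases (fibre h0').1 hσ with h | ⟨h1, h2⟩
    · exact absurd h hv
    · obtain ⟨b, hb⟩ := ib_cover _ h1
      obtain ⟨b', hb'⟩ := ib_cover _ h2
      have e := fm_eq (ib P b) (ib P b') hσ hv hb hb'
      rw [h0'] at e
      refine ⟨b, b', iv σ.2.2.2, ⟨⟨?_, ?_⟩, ?_⟩, e.symm⟩
      · simpa using (ib P b).r_pos
      · simpa using (ib P b').r_pos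
      · rw [Tq3_916.norm_prod_lt]
        simpa using hr

/-- the charts of 916, into `A.X` -/
theorem exists_charts (hsl : IsSl (ambFam F) D.X1 3) (H : HLoc F L) (hX : LX D L) {r : ℝ}
    (hr : 0 < r) (hb : Metric.ball (0 : ℂ × ℂ × ℂ) r ⊆ L.sh.target) :
    (∃ E : Fin 2 → Fin 2 → OpenPartialHomeomorph ((Cv P × Cv P) × ℂ) A.X,
      (∀ i j, (E i j).source = DEij P r i j) ∧
      (∀ i j, Kum_977.ECpt (cur P) (A.fam hsl) (E i j)) ∧
      ∀ i j, ∀ p ∈ (E i j).source, A.val (E i j p) = toA N (L.fro (FEij P i j p)) ∧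
        st A L hX (E i j p) = FEij P i j p) ∧
    ∃ M : Bool → Bool → OpenPartialHomeomorph (ℂ × ℂ × ℂ) A.X,
      (∀ b b', (M b b').source = DEm (ib P b) (ib P b') r) ∧
      (∀ b b', MCpt (A.fam hsl) (M b b')) ∧
      ∀ b b', ∀ p ∈ (M b b').source, A.val (M b b' p) = toA N (L.fro (fm (ib P b) (ib P b') p)) ∧
        st A L hX (M b b' p) = fm (ib P b) (ib P b') p := by
  constructor
  · choose E h1 h2 h3 using fun i j => exists_FAij L (X0 := D.X1) hX hr hb i j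
    refine ⟨E, h1, fun i j c c' => cpt_Eij H (Tp8_60.ch_cur P) hsl (h2 i j) c c', ?_⟩
    intro i j p hp
    obtain ⟨h4, h5, h6, h7⟩ := h2 i j p hp
    exact ⟨h5, (st_of (hX := hX) A (y := E i j p) h7 h6 h5).2⟩
  · choose M h1 h2 using fun b b' => exists_FAm L (X0 := D.X1) hX hr hb (ib P b) (ib P b')
    have h3 : ∀ b b', IsEm L (ib P b) (ib P b') (M b b') := fun b b' p hp => by
      rw [h1] at hp
      obtain ⟨h4, h5, h6⟩ := h2 b b' p hp
      exact ⟨hp.1, h4, hb h6, h5⟩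
    refine ⟨M, h1, fun b b' => ?_, ?_⟩
    · have h4 := cpt_Em H hsl (hInf_ib b) (hInf_ib b') (h3 b b')
      exact h4
    · intro b b' p hp
      obtain ⟨h4, h5, h6, h7⟩ := h3 b b' p hp
      exact ⟨h5, (st_of (hX := hX) A (y := M b b' p) h7 h6 h5).2⟩

/-- a point is determined by its standard coordinates -/
theorem st_inj {hX : LX D L} {y y' : A.X} (h : A.pz y ∈ L.sh.source)
    (h' : A.pz y' ∈ L.sh.source) (e : st A L hX y = st A L hX y') : y = y' := by
  refine A.val_injective ?_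
  rw [← fro_st (hX := hX) A h, ← fro_st (hX := hX) A h', e]

/-- **848's `YC`** -/
theorem exists_yc (hsl : IsSl (ambFam F) D.X1 3) (H : HLoc F L) (hX : LX D L) {r : ℝ}
    (hr : 0 < r) (hb : Metric.ball (0 : ℂ × ℂ × ℂ) r ⊆ L.sh.target) {q : N}
    (hq : q ∈ L.sh.source) (hq0 : L.sh q = 0) {V : Set N} (hV : IsOpen V) (hqV : q ∈ V)
    (hVs : V ⊆ L.sh.source) (hcov : ∀ y : A.X, A.pz y ∈ V → InCh P r (st A L hX y)) :
    ∃ T : YC P (A.fam hsl) A.pz q (A.pz ⁻¹' V), T.st = st A L hX ∧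
      (∀ i j, (T.E i j).source = DEij P r i j) ∧
      (∀ b b', (T.M b b').source = DEm (ib P b) (ib P b') r) ∧
      (∀ i j, ∀ p ∈ (T.E i j).source, A.val (T.E i j p) = toA N (L.fro (FEij P i j p))) ∧
      ∀ b b', ∀ p ∈ (T.M b b').source,
        A.val (T.M b b' p) = toA N (L.fro (fm (ib P b) (ib P b') p)) := by
  obtain ⟨⟨E, e1, e2, e3⟩, M, m1, m2, m3⟩ := exists_charts (A := A) hsl H hX hr hb
  have hz : L.sh.symm 0 = q := by rw [← hq0]; exact L.sh.left_inv hq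
  have h0 : (0 : ℂ × ℂ × ℂ) ∈ L.sh.target := hb (Metric.mem_ball_self hr)
  have hEs : ∀ i j, ∀ p ∈ (E i j).source, A.pz (E i j p) ∈ L.sh.source := fun i j p hp => by
    have h1 : p ∈ DEij P r i j := by rw [← e1]; exact hp
    rw [A.pz_eq, (e3 i j p hp).1]
    refine L.sh.map_target (hb ?_)
    exact Tq3_916.ball_of_Oij (s := (Tq1_916.eij tt Cur_297.continuous_tt i j r
      ⟨Tp4_60.asc _ p, h1⟩).1) (Tq1_916.eij tt Cur_297.continuous_tt i j r
      ⟨Tp4_60.asc _ p, h1⟩).2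
  have hMs : ∀ b b', ∀ p ∈ (M b b').source, A.pz (M b b' p) ∈ L.sh.source := fun b b' p hp => by
    have h1 : p ∈ DEm (ib P b) (ib P b') r := by rw [← m1]; exact hp
    rw [A.pz_eq, (m3 b b' p hp).1]
    exact L.sh.map_target (hb h1.2)
  refine ⟨{ st := st A L hX
            E := E
            cE := e2
            hE := fun i j p hp => ?_
            sE := fun i j p hp => (e3 i j p hp).2
            M := M
            cM := m2
            hM := fun b b' p hp => ?_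
            sM := fun b b' p hp => (m3 b b' p hp).2
            hO := hV.preimage A.continuous_pz
            fib := fun y hy => ⟨?_, ?_⟩
            off := fun y hy hyq => ?_ }, rfl, e1, m1, fun i j p hp => (e3 i j p hp).1,
            fun b b' p hp => (m3 b b' p hp).1⟩
  · rw [e1] at hp
    exact ⟨hp.1, hp.2.1⟩
  · rw [m1] at hp
    exact hp.1
  · show A.pz y ∈ V
    rw [hy]
    exact hqV
  · have hys : A.pz y ∈ L.sh.source := by rw [hy]; exact hq
    have hy0 : (st A L hX y).1 = 0 := by rw [st_fst A hys, hy, hq0]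
    rcases inCh_zero' hr (st_mem A hys) hy0 with ⟨i, j, x, h1, h2⟩ | ⟨b, b', m, h1, h2⟩
    · left
      have h3 : (x, (0 : ℂ)) ∈ (E i j).source := by rw [e1]; exact h1
      refine ⟨i, j, x, h3, st_inj (hX := hX) (hEs i j _ h3) hys ?_⟩
      rw [(e3 i j _ h3).2, h2]
    · right
      have h3 : (m, (0 : ℂ), (0 : ℂ)) ∈ (M b b').source := by rw [m1]; exact h1
      refine ⟨b, b', m, h3, st_inj (hX := hX) (hMs b b' _ h3) hys ?_⟩
      rw [(m3 b b' _ h3).2, h2]
  · have hys : A.pz y ∈ L.sh.source := hVs hy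
    have hyq' : A.pz y ≠ L.sh.symm 0 := by rw [hz]; exact hyq
    rcases hcov y hy with ⟨i, j, p, h1, h2⟩ | ⟨b, b', p, h1, h2⟩
    · left
      have h3 : p ∈ (E i j).source := by rw [e1]; exact h1
      refine ⟨i, j, p, h3, st_inj (hX := hX) (hEs i j _ h3) hys ?_, xi_ne A hys h0 hyq' h2⟩
      rw [(e3 i j _ h3).2, h2]
    · right
      have h3 : p ∈ (M b b').source := by rw [m1]; exact h1
      refine ⟨b, b', p, h3, st_inj (hX := hX) (hMs b b' _ h3) hys ?_, s_ne A hys h0 hyq' h2⟩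
      rw [(m3 b b' _ h3).2, h2]

/-- **the chart data over the base cluster point** -/
theorem exists_YC {s : G} {q : N} {hsl : IsSl (ambFam F) D.X1 3} [ContinuousConstSMul G N]
    (Γ : GermE hsl A P s q) (hσ : A.σ s 0 = 1) (hfix : s • q = q) (hss : s * s = 1) {O : Set N}
    (hO : IsOpen O) (hq : q ∈ O) :
    ∃ B : BV G q, B.s = s ∧ B.V ⊆ O ∧ B.V ⊆ Γ.L.sh.source ∧ Swp A Γ.L B.s B.V ∧
      ∃ T : YC P (A.fam hsl) A.pz q (A.pz ⁻¹' B.V), T.st = st A Γ.L Γ.hX ∧
        (∀ i j, (T.E i j).source = DEij P Γ.r i j) ∧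
        (∀ b b', (T.M b b').source = DEm (ib P b) (ib P b') Γ.r) ∧
        (∀ i j, ∀ p ∈ (T.E i j).source, A.val (T.E i j p) = toA N (Γ.L.fro (FEij P i j p))) ∧
        ∀ b b', ∀ p ∈ (T.M b b').source,
          A.val (T.M b b' p) = toA N (Γ.L.fro (fm (ib P b) (ib P b') p)) := by
  obtain ⟨B, h1, h2, h3, h4, h5, h6⟩ := exists_VB Γ hσ hfix hss hO hq
  exact ⟨B, h1, h2, h3, h6, exists_yc hsl Γ.H Γ.hX Γ.hr Γ.ball Γ.q_mem Γ.sh_q B.op B.mem h3 h5⟩

/-- **invariance of the functions** -/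
theorem ff_inv {q : N} {hsl : IsSl (ambFam F) D.X1 3} {hX : LX D L} {B : BV G q}
    (hV : B.V ⊆ L.sh.source) (hs : Swp A L B.s B.V)
    (T : YC P (A.fam hsl) A.pz q (A.pz ⁻¹' B.V)) (hT : T.st = st A L hX) (b : ℕ) :
    ∀ y ∈ A.pz ⁻¹' B.V, ∀ g : G, g • y ∈ A.pz ⁻¹' B.V → ∀ i, T.ff b i (g • y) = T.ff b i y := by
  intro y hy g hg i
  show FF b (T.st (g • y)) i = FF b (T.st y) i
  rw [hT]
  exact inv_of_swA A hV hs (f := fun σ => FF b σ i) (fun σ => by rw [FF_swA]) hy hg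

/-- the standard coordinates of the charts of 60's germ -/
theorem st_gE {s : G} {q : N} {hsl : IsSl (ambFam F) D.X1 3} (Γ : GermE hsl A P s q) (i : Fin 2)
    {p : (Cv P × Cv P) × ℂ} (hp : p ∈ (Γ.g.E i).source) :
    A.pz (Γ.g.E i p) ∈ Γ.L.sh.source ∧ st A Γ.L Γ.hX (Γ.g.E i p) = FE P i p := by
  obtain ⟨h1, h2, h3, h4⟩ := Γ.isE i p hp
  exact st_of (hX := Γ.hX) A (y := Γ.g.E i p) h4 h3 h2

end

end Crest.Agent.R272.PEnd8_732
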