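import Crest.Agent.R272.PW3_92

/-!
# R272, (5W) of #6650 (helper92), part 4: values and finite fibres on `{N = 0} = Π ∪ R⁺`

* `K.holN_X`, `K.holN_RR` : `X`, `RR` are holomorphic where `z`, `m` are;
* `K.X_cone`, `K.RR_cone` : `m = ω (z₀², z₀ z₁, z₁²)` ⟹ `X_j = ω q_j(z)`, `RR = ω³ disc q(z)`;
* `K.valC_N0`             : `[Φ]` has a value (no common zero) at every point with `N = 0`;
* `K.ff_N0`               : `[Φ]` has finite fibres on `{N = 0}`.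
-/

set_option autoImplicit false
set_option linter.unusedSectionVars false

open Filter Topology Asymptotics Set Metric

namespace Crest.Agent.R272.PW_92

open Crest.Agent.R275.Geo Crest.Agent.R273.Fam_835
open Crest.Agent.R272.Flop_66 Crest.Agent.R272.Lc_220 Crest.Agent.R272.FinCB3_876

noncomputable section

theorem fin_pow {n : ℕ} (hn : 0 < n) (a : ℂ) : {x : ℂ | x ^ n = a}.Finite := by
  refine (Polynomial.nthRoots n a).toFinset.finite_toSet.subset fun x hx => ?_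
  simp only [Finset.mem_coe, Multiset.mem_toFinset]
  exact (Polynomial.mem_nthRoots hn).2 hx

theorem fin_box (S : Fin 3 → Set ℂ) (hS : ∀ i, (S i).Finite) : {c : Cn 3 | ∀ i, c i ∈ S i}.Finite := by
  have h1 : (Set.univ.pi S).Finite := Set.Finite.pi' hS |>.subset fun f hf i => hf i trivial
  refine (h1.image (fun f : Fin 3 → ℂ => (WithLp.toLp 2 f : Cn 3))).subset ?_
  intro c hc
  exact ⟨fun i => c i, fun i _ => hc i, by ext i; rfl⟩

namespace KF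

variable {κ : ℂ} {q : Fin 3 → (Fin 2 → ℂ) → ℂ} (K : KF κ q)

theorem holN_an {n : ℕ} {Y : Type} [TopologicalSpace Y] {D : Fam n Y} {x : Y}
    {z : Y → Fin 2 → ℂ} {f : (Fin 2 → ℂ) → ℂ} (hz : ∀ i, HolN D x fun y => z y i)
    (hf : AnalyticAt ℂ f (z x)) : HolN D x fun y => f (z y) := by
  intro i hi
  have h1 : AnalyticAt ℂ (fun w => z ((D.e i).symm w)) (D.e i x) :=
    AnalyticAt.pi fun j => hz j i hi
  have h2 : AnalyticAt ℂ f (z ((D.e i).symm (D.e i x))) := by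
    rw [(D.e i).left_inv hi]; exact hf
  exact AnalyticAt.comp (g := f) (f := fun w => z ((D.e i).symm w)) h2 h1

theorem holN_X {n : ℕ} {Y : Type} [TopologicalSpace Y] {D : Fam n Y} {x : Y}
    {z : Y → Fin 2 → ℂ} {m : Y → Fin 3 → ℂ} (hz : ∀ i, HolN D x fun y => z y i)
    (hm : ∀ i, HolN D x fun y => m y i) (h : z x ∈ ball (0 : Fin 2 → ℂ) K.ε) (j : Fin 3) :
    HolN D x fun y => K.X (z y) (m y) j :=
  (((hm 0).mul (holN_an hz (K.A_an j 0 _ h))).add ((hm 1).mul (holN_an hz (K.A_an j 1 _ h)))).add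
    ((hm 2).mul (holN_an hz (K.A_an j 2 _ h)))

theorem holN_RR {n : ℕ} {Y : Type} [TopologicalSpace Y] {D : Fam n Y} {x : Y}
    {z : Y → Fin 2 → ℂ} {m : Y → Fin 3 → ℂ} (hz : ∀ i, HolN D x fun y => z y i)
    (hm : ∀ i, HolN D x fun y => m y i) (h : z x ∈ ball (0 : Fin 2 → ℂ) K.ε) :
    HolN D x fun y => K.RR (z y) (m y) := by
  refine holN_sum _ fun i _ => HolN.mul ?_ (holN_an hz (K.B_an i _ h))
  fin_cases i
  · exact (hm 0).pow 3
  · exact ((hm 0).pow 2).mul (hm 1)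
  · exact ((hm 0).pow 2).mul (hm 2)
  · exact ((hm 0).mul (hm 1)).mul (hm 2)
  · exact (hm 0).mul ((hm 2).pow 2)
  · exact (hm 1).mul ((hm 2).pow 2)
  · exact (hm 2).pow 3

theorem X_cone {z : Fin 2 → ℂ} (h : z ∈ ball (0 : Fin 2 → ℂ) K.ε) (w : ℂ) (j : Fin 3) :
    K.X z (qu w z) j = w * q j z := by
  have h1 := K.X_qu z w 1 j
  have h2 := K.q_yy (s := z) (τ := 1) (by rw [one_smul]; exact h) j
  rw [one_smul] at h1 h2
  rw [h1, h2]
  ring

theorem RR_cone {z : Fin 2 → ℂ} (h : z ∈ ball (0 : Fin 2 → ℂ) K.ε) (w : ℂ) :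
    K.RR z (qu w z) = w ^ 3 * disc fun j => q j z := by
  have h1 := K.RR_qu z w 1
  have h2 := K.P_be (s := z) (τ := 1) (by rw [one_smul]; exact h)
  rw [one_smul] at h1 h2
  rw [h1, h2]
  ring

theorem X_zero (m : Fin 3 → ℂ) (j : Fin 3) : K.X 0 m j = kc κ j * m j := by
  simp only [X, K.A_zero]
  fin_cases j <;> simp <;> ring

/-- `Um`, chart `(T, a, μ)`, off the zero section -/
theorem X_mk0 {T a μ : ℂ} (ha : a ≠ 0) (h : (![a, a * T] : Fin 2 → ℂ) ∈ ball 0 K.ε) (j : Fin 3) :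
    K.X (Um.mk0 T a μ).z (Um.mk0 T a μ).m j = μ / a ^ 2 * q j ![a, a * T] := by
  rw [← K.X_cone h]
  congr 1
  funext i
  fin_cases i <;> simp [Um.mk0, qu] <;> field_simp

theorem RR_mk0 {T a μ : ℂ} (ha : a ≠ 0) (h : (![a, a * T] : Fin 2 → ℂ) ∈ ball 0 K.ε) :
    K.RR (Um.mk0 T a μ).z (Um.mk0 T a μ).m = (μ / a ^ 2) ^ 3 * disc fun j => q j ![a, a * T] := by
  rw [← K.RR_cone h]
  congr 1
  funext i
  fin_cases i <;> simp [Um.mk0, qu] <;> field_simp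

/-- `Um`, chart `(T', b, ν)`, off the zero section -/
theorem X_mk1 {T a μ : ℂ} (ha : a ≠ 0) (h : (![a * T, a] : Fin 2 → ℂ) ∈ ball 0 K.ε) (j : Fin 3) :
    K.X (Um.mk1 T a μ).z (Um.mk1 T a μ).m j = μ / a ^ 2 * q j ![a * T, a] := by
  rw [← K.X_cone h]
  congr 1
  funext i
  fin_cases i <;> simp [Um.mk1, qu] <;> field_simp

theorem RR_mk1 {T a μ : ℂ} (ha : a ≠ 0) (h : (![a * T, a] : Fin 2 → ℂ) ∈ ball 0 K.ε) :
    K.RR (Um.mk1 T a μ).z (Um.mk1 T a μ).m = (μ / a ^ 2) ^ 3 * disc fun j => q j ![a * T, a] := by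
  rw [← K.RR_cone h]
  congr 1
  funext i
  fin_cases i <;> simp [Um.mk1, qu] <;> field_simp

variable {K} {k : Fin 4} {x : Up}

theorem reg_of_N0 (h : x.N = 0) : x ∈ K.Reg := by
  show x.z ∈ ball (0 : Fin 2 → ℂ) K.ε
  rw [(Up.N_eq_zero.1 h).1]
  exact mem_ball_self K.ε_pos

theorem ts_zero (hx : x ∈ (Up.ch k).source) (h : x.N = 0) :
    τC k (Up.ch k x) • sC k (Up.ch k x) = 0 := by
  rw [← z_eq hx]; exact (Up.N_eq_zero.1 h).1

theorem yC_zero (hx : x ∈ (Up.ch k).source) (h : x.N = 0) (j : Fin 3) :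
    K.yC k (Up.ch k x) j = ![κ * sC k (Up.ch k x) 0 ^ 2,
      2 * κ * (sC k (Up.ch k x) 0 * sC k (Up.ch k x) 1), κ * sC k (Up.ch k x) 1 ^ 2] j :=
  K.yy_zero (ts_zero hx h) j

theorem y1 (hx : x ∈ (Up.ch 0).source) (h : x.N = 0) :
    Up.ch 0 x 2 = 0 ∧ K.yC 0 (Up.ch 0 x) 0 = κ ∧ K.yC 0 (Up.ch 0 x) 1 = 2 * κ * Up.ch 0 x 0 := by
  refine ⟨?_, ?_, ?_⟩
  · have h1 := congrFun (m_eq hx) 0
    rw [(Up.N_eq_zero.1 h).2] at h1
    simp [qu, sC] at h1
    exact h1.symm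
  · rw [yC_zero hx h]; simp [sC]
  · rw [yC_zero hx h]; simp [sC]

theorem y2 (hx : x ∈ (Up.ch 1).source) (h : x.N = 0) :
    Up.ch 1 x 2 = 0 ∧ K.yC 1 (Up.ch 1 x) 2 = κ ∧ K.yC 1 (Up.ch 1 x) 1 = 2 * κ * Up.ch 1 x 0 := by
  refine ⟨?_, ?_, ?_⟩
  · have h1 := congrFun (m_eq hx) 2
    rw [(Up.N_eq_zero.1 h).2] at h1
    simp [qu, sC] at h1
    exact h1.symm
  · rw [yC_zero hx h]; simp [sC]
  · rw [yC_zero hx h]; simp [sC]

theorem y3 (hx : x ∈ (Up.ch 2).source) (h : x.N = 0) :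
    K.yC 2 (Up.ch 2 x) 0 = κ * Up.ch 2 x 0 ^ 2 ∧ K.yC 2 (Up.ch 2 x) 2 = κ * Up.ch 2 x 1 ^ 2 := by
  refine ⟨?_, ?_⟩
  · rw [yC_zero hx h]; simp [sC]
  · rw [yC_zero hx h]; simp [sC]

theorem y4 (hx : x ∈ (Up.ch 3).source) (h : x.N = 0) : Up.ch 3 x 0 = 0 ∧ Up.ch 3 x 1 = 0 := by
  have h1 := ts_zero hx h
  constructor
  · have := congrFun h1 0
    simpa [τC, sC] using this
  · have := congrFun h1 1
    simpa [τC, sC] using this

theorem hτ0 (c : Cn 3) : τC 0 c = αC 0 c * c 2 := rfl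
theorem hτ1 (c : Cn 3) : τC 1 c = αC 1 c * c 2 := rfl
theorem hτ2 (c : Cn 3) : τC 2 c = αC 2 c * c 2 := (one_mul _).symm

/-- the explicit vector of values in the chart `k` -/
def Rv (K : KF κ q) (b : ℕ) (k : Fin 4) (c : Cn 3) : IPhi → ℂ :=
  ![Ymu b (αC 0 c) (c 2) (K.yC 0 c), Ymu b (αC 1 c) (c 2) (K.yC 1 c),
    Ymu b (αC 2 c) (c 2) (K.yC 2 c), Yxi b (c 2) 1 (K.yC 3 c)] k

theorem valC_Rv {b : ℕ} (hb : 15 ≤ b) (hx : x ∈ (Up.ch k).source) (h : x.N = 0) :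
    ValC Up.fam (K.PhiU b) x (K.Rv b k (Up.ch k x)) := by
  have hR : x ∈ K.Reg := reg_of_N0 h
  fin_cases k
  · refine valC_mu hb hτ0 hx hR fun h0 => ?_
    have h1 := congrFun h0 (IPhi.W4 0 0)
    simp only [Ymu, (y1 (K := K) hx h).2.1, Pi.zero_apply] at h1
    exact mul_ne_zero K.κ_ne K.κ_ne h1
  · refine valC_mu hb hτ1 hx hR fun h0 => ?_
    have h1 := congrFun h0 (IPhi.W4 2 2)
    simp only [Ymu, (y2 (K := K) hx h).2.1, Pi.zero_apply] at h1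
    exact mul_ne_zero K.κ_ne K.κ_ne h1
  · refine valC_mu hb hτ2 hx hR fun h0 => ?_
    have h1 := congrFun h0 IPhi.W2
    have h2 : αC 2 (Up.ch 2 x) = 1 := rfl
    simp only [Ymu, h2, Pi.zero_apply, one_pow] at h1
    exact one_ne_zero h1
  · exact valC_xi hb hx hR

/-- **no common zero on `{N = 0}`** -/
theorem valC_N0 {b : ℕ} (hb : 15 ≤ b) (h : x.N = 0) : ∃ c, ValC Up.fam (K.PhiU b) x c := by
  obtain ⟨k, hk⟩ := Up.cover x
  exact ⟨_, valC_Rv hb hk h⟩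

/-- finite fibres in one chart -/
theorem fin_chart {b : ℕ} (k : Fin 4) (c : Cn 3)
    (hc : (Up.ch k).symm c ∈ {x : Up | x.N = 0} ∩ (Up.ch k).source) :
    {c' | (Up.ch k).symm c' ∈ {x : Up | x.N = 0} ∩ (Up.ch k).source ∧
      ∀ i j, K.Rv b k c i * K.Rv b k c' j = K.Rv b k c j * K.Rv b k c' i}.Finite := by
  have hr : ∀ c : Cn 3, Up.ch k ((Up.ch k).symm c) = c := fun c =>
    (Up.ch k).right_inv (by rw [ch_target]; exact mem_univ _)
  have hκ : κ * κ ≠ 0 := mul_ne_zero K.κ_ne K.κ_ne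
  revert hc hr
  match k with
  | 0 =>
    intro hc hr
    obtain ⟨a1, a2, a3⟩ := y1 (K := K) hc.2 hc.1
    rw [hr] at a1 a2 a3
    refine (fin_box ![{c 0}, {a | a ^ 4 = c 1 ^ 4}, {0}] ?_).subset ?_
    · intro i
      fin_cases i
      · exact finite_singleton _
      · exact fin_pow (by norm_num) _
      · exact finite_singleton _
    · rintro c' ⟨h1, h2⟩
      obtain ⟨b1, b2, b3⟩ := y1 (K := K) h1.2 h1.1
      rw [hr] at b1 b2 b3
      have e1 := h2 (IPhi.W4 0 0) (IPhi.W4 0 1)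
      have e2 := h2 (IPhi.W4 0 0) IPhi.W2
      change K.yC 0 c 0 * K.yC 0 c 0 * (K.yC 0 c' 0 * K.yC 0 c' 1) =
        K.yC 0 c 0 * K.yC 0 c 1 * (K.yC 0 c' 0 * K.yC 0 c' 0) at e1
      change K.yC 0 c 0 * K.yC 0 c 0 * (c' 1) ^ 4 = (c 1) ^ 4 * (K.yC 0 c' 0 * K.yC 0 c' 0) at e2
      rw [a2, a3, b2, b3] at e1
      rw [a2, b2] at e2
      intro i
      fin_cases i
      · show c' 0 = c 0
        have h3 : κ * κ * (κ * κ) * 2 ≠ 0 := mul_ne_zero (mul_ne_zero hκ hκ) two_ne_zero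
        apply mul_left_cancel₀ h3
        linear_combination e1
      · show c' 1 ^ 4 = c 1 ^ 4
        apply mul_left_cancel₀ hκ
        linear_combination e2
      · exact b1
  | 1 =>
    intro hc hr
    obtain ⟨a1, a2, a3⟩ := y2 (K := K) hc.2 hc.1
    rw [hr] at a1 a2 a3
    refine (fin_box ![{c 0}, {a | a ^ 4 = c 1 ^ 4}, {0}] ?_).subset ?_
    · intro i
      fin_cases i
      · exact finite_singleton _
      · exact fin_pow (by norm_num) _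
      · exact finite_singleton _
    · rintro c' ⟨h1, h2⟩
      obtain ⟨b1, b2, b3⟩ := y2 (K := K) h1.2 h1.1
      rw [hr] at b1 b2 b3
      have e1 := h2 (IPhi.W4 2 2) (IPhi.W4 1 2)
      have e2 := h2 (IPhi.W4 2 2) IPhi.W2
      change K.yC 1 c 2 * K.yC 1 c 2 * (K.yC 1 c' 1 * K.yC 1 c' 2) =
        K.yC 1 c 1 * K.yC 1 c 2 * (K.yC 1 c' 2 * K.yC 1 c' 2) at e1
      change K.yC 1 c 2 * K.yC 1 c 2 * (c' 1) ^ 4 = (c 1) ^ 4 * (K.yC 1 c' 2 * K.yC 1 c' 2) at e2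
      rw [a2, a3, b2, b3] at e1
      rw [a2, b2] at e2
      intro i
      fin_cases i
      · show c' 0 = c 0
        have h3 : κ * κ * (κ * κ) * 2 ≠ 0 := mul_ne_zero (mul_ne_zero hκ hκ) two_ne_zero
        apply mul_left_cancel₀ h3
        linear_combination e1
      · show c' 1 ^ 4 = c 1 ^ 4
        apply mul_left_cancel₀ hκ
        linear_combination e2
      · exact b1
  | 2 =>
    intro hc hr
    obtain ⟨a1, a2⟩ := y3 (K := K) hc.2 hc.1
    rw [hr] at a1 a2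
    refine (fin_box ![{a | a ^ 2 = c 0 ^ 2}, {a | a ^ 2 = c 1 ^ 2}, {c 2}] ?_).subset ?_
    · intro i
      fin_cases i
      · exact fin_pow (by norm_num) _
      · exact fin_pow (by norm_num) _
      · exact finite_singleton _
    · rintro c' ⟨h1, h2⟩
      obtain ⟨b1, b2⟩ := y3 (K := K) h1.2 h1.1
      rw [hr] at b1 b2
      have e0 := h2 IPhi.W2 IPhi.W
      have e1 := h2 IPhi.W2 (IPhi.W3 0)
      have e2 := h2 IPhi.W2 (IPhi.W3 2)
      change (1 : ℂ) ^ 4 * (1 ^ 6 * c' 2) = 1 ^ 6 * c 2 * 1 ^ 4 at e0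
      change (1 : ℂ) ^ 4 * (1 ^ 2 * K.yC 2 c' 0) = 1 ^ 2 * K.yC 2 c 0 * 1 ^ 4 at e1
      change (1 : ℂ) ^ 4 * (1 ^ 2 * K.yC 2 c' 2) = 1 ^ 2 * K.yC 2 c 2 * 1 ^ 4 at e2
      rw [a1, b1] at e1
      rw [a2, b2] at e2
      intro i
      fin_cases i
      · show c' 0 ^ 2 = c 0 ^ 2
        apply mul_left_cancel₀ K.κ_ne
        linear_combination e1
      · show c' 1 ^ 2 = c 1 ^ 2
        apply mul_left_cancel₀ K.κ_ne
        linear_combination e2
      · show c' 2 = c 2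
        linear_combination e0
  | 3 =>
    intro hc hr
    refine (fin_box ![{0}, {0}, {c 2}] ?_).subset ?_
    · intro i
      fin_cases i <;> exact finite_singleton _
    · rintro c' ⟨h1, h2⟩
      obtain ⟨b1, b2⟩ := y4 h1.2 h1.1
      rw [hr] at b1 b2
      have e0 := h2 IPhi.W IPhi.W2
      change (1 : ℂ) * (c' 2 * 1 ^ 2) = c 2 * 1 ^ 2 * 1 at e0
      intro i
      fin_cases i
      · exact b1
      · exact b2
      · show c' 2 = c 2
        linear_combination e0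

/-- **finite fibres on `{N = 0}`** -/
theorem ff_N0 {b : ℕ} (hb : 15 ≤ b) (x₀ : Up) (h₀ : x₀.N = 0) :
    {x | x ∈ {x : Up | x.N = 0} ∧ ∃ c c', ValC Up.fam (K.PhiU b) x₀ c ∧
      ValC Up.fam (K.PhiU b) x c' ∧ ∀ i j, c i * c' j = c j * c' i}.Finite := by
  refine ff_of_pieces (C := Up.fam) (f := K.PhiU b) (K := {x : Up | x.N = 0})
    (fun k : Fin 4 => (Up.ch k).source) (fun x _ => mem_iUnion.2 (Up.cover x)) (fun k => ?_) x₀ h₀
  refine ff_of_param (C := Up.fam) (f := K.PhiU b) (P := {x : Up | x.N = 0} ∩ (Up.ch k).source)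
    (Up.ch k).symm (fun x hx => ⟨Up.ch k x, (Up.ch k).left_inv hx.2⟩) (K.Rv b k) ?_ ?_
  · intro c hc
    have h1 := valC_Rv (K := K) hb hc.2 hc.1
    rwa [(Up.ch k).right_inv (by rw [ch_target]; exact mem_univ _)] at h1
  · intro c hc
    exact fin_chart k c hc

end KF

end

end Crest.Agent.R272.PW_92
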