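import Crest.Agent.R272.PosP9_848
import Crest.Agent.R272.PW4_92

/-!
# R272 (S0415), POS at `p0` (helper848), part 10: the forms consumed by `PEndZ_220.germ15`

* `YC.hol'`, `YC.val'`, `YC.fin'` : the bad fibre off the section over `Γ`;
* `upDat`                         : 92's functions on `Up` as `PosP5_848.UpDat`.
-/

set_option autoImplicit false
set_option linter.unusedSectionVars false
set_option linter.unusedVariables false

open Set Filter Topology Complex OnePoint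

namespace Crest.Agent.R272.PosP7_848

open Crest.Agent.R275.Geo Crest.Agent.R273.Fam_835
open Crest.Agent.R272.Cur_297 (Par Cv cur tt Pz iv)
open Crest.Agent.R272.Tq3_916 (FEij zst zst_eq)
open Crest.Agent.R272.PW_92 (IPhi KF)
open Crest.Agent.R272.Lc_220
open Crest.Agent.R272.Flop_66 (Up)
open Crest.Agent.R272.PosP5_848 (UpDat)
open Crest.Agent.R272.FinCB3_876 (GenAt ValC)

noncomputable section

variable {Y N : Type} [TopologicalSpace Y]

namespace YC

variable {CY : Fam 3 Y} {Pm : Y → N} {z₀ : N} {O : Set Y} (T : YC Pz CY Pm z₀ O)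

/-- the bad fibre off the section over `Γ` -/
def Bd : Set Y := {y | Pm y = z₀ ∧ ∀ c, T.st y ≠ zst (c, (cur Pz).iv c)}

theorem Bd_K (i j : Fin 2) (x : Cv Pz × Cv Pz) (hp : (x, (0 : ℂ)) ∈ (T.E i j).source)
    (h : T.E i j (x, 0) ∈ T.Bd) : x.2 ≠ iv x.1 := by
  intro hx
  refine h.2 x.1 ?_
  rw [T.sE i j _ hp, zst_eq]
  show zst x = zst (x.1, iv x.1)
  rw [← hx]

/-- **holomorphy** (220's `hol`) -/
theorem hol' (b : ℕ) (y : Y) (hy : y ∈ O) (i : IPhi) : HolN CY y (T.ff b i) := T.hol hy b i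

/-- **values** (220's `val`) -/
theorem val' (b : ℕ) (hb : 15 ≤ b) (y : Y) (hy : Pm y = z₀)
    (h : ∀ c, T.st y ≠ zst (c, (cur Pz).iv c)) : ∃ c, ValC CY (T.ff b) y c :=
  T.val hb (B := T.Bd) (fun y hy => hy.1) (fun i j x h1 h2 => T.Bd_K i j x h1 h2) ⟨hy, h⟩

/-- **finite fibres** (220's `ff`) -/
theorem fin' (b : ℕ) (hb : 15 ≤ b) : PosP4_848.FF CY (T.ff b)
    {y | Pm y = z₀ ∧ ∀ c, T.st y ≠ zst (c, (cur Pz).iv c)} :=
  T.fin hb (B := T.Bd) (fun y hy => hy.1) (fun i j x h1 h2 => T.Bd_K i j x h1 h2)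

end YC

/-- **the data on `Up`** (220's `up`) -/
def upDat {κ : ℂ} {q : Fin 3 → (Fin 2 → ℂ) → ℂ} (K : KF κ q) (b : ℕ) (hb : 15 ≤ b) :
    UpDat Up.fam Up.N IPhi where
  FB := K.PhiU b
  valB := fun b h => KF.valC_N0 hb h
  ffB := fun x hx => KF.ff_N0 hb x hx

@[simp] theorem upDat_FB {κ : ℂ} {q : Fin 3 → (Fin 2 → ℂ) → ℂ} (K : KF κ q) (b : ℕ)
    (hb : 15 ≤ b) : (upDat K b hb).FB = K.PhiU b := rfl

end

end Crest.Agent.R272.PosP7_848
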