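import Crest.Agent.R272.Tq11_916
import Crest.Agent.R272.Md3_834

/-!
# R272 (S0415): argument (2) of `s15_W` over 939's `M : Ar` (helper916)

`exists_germM` : 60's germ at `M.p0` with the pens of `M.bpt`; `zsecM`, `zsM` : `ZSec`, 936's `ZS`;
`exists_mdM` : 834's `Md M` for this germ and this zero section.
-/

set_option autoImplicit false
set_option linter.unusedSectionVars false

open Set Filter Topology OnePoint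

namespace Crest.Agent.R272.Tq12_916

open Crest.Agent.R275.Geo Crest.Agent.R273.Fam_835
open Crest.Agent.R272 Crest.Agent.R272.MQ_783 Crest.Agent.R272.Refl_246
open Crest.Agent.R272.M15_939
open Crest.Agent.R272.Tp10_60 (GermE)
open Crest.Agent.R272.Tq10_916 Crest.Agent.R272.Tq11_916
open Crest.Agent.R272.Cur_297 (Pz Cz cur)
open Crest.Agent.R272.Ax_834 (ZSec)
open Crest.Agent.R272.Md_834 (Md)

noncomputable section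

variable (M : Ar)

/-- 60's germ at the base cluster point -/
abbrev GE : Type := GermE (Gr_559.isSl_X1 M.DX) M.A Pz M.s M.p0

theorem sigM : M.A.σ M.s = Equiv.swap 0 1 := Md_834.hfix M M.s M.p0 M.bpt.s_ne M.bpt.s_fix

theorem sigM0 : M.A.σ M.s 0 = 1 := by rw [sigM]; rfl

/-- **the germ at the base cluster point, with the pens of `M.bpt`** -/
theorem exists_germM {O : Set M.N} (hO : IsOpen O) (hp : M.p0 ∈ O) :
    ∃ Γ : GE M, SymL M.A Γ.L M.s ∧ Γ.L.sh.source ⊆ O ∩ M.bpt.p.U ∩ M.bpt.p'.U ∧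
      ∀ z ∈ Γ.L.sh.source, Γ.L.sh z = (M.bpt.p.s0 z, M.bpt.p.s1 z, M.bpt.p'.s1 z) ∧
        Γ.L.a z = M.bpt.p.a z ∧ Γ.L.a z = M.bpt.p'.a z ∧ Γ.L.b 0 z = M.bpt.p.b z ∧
        Γ.L.b 1 z = M.bpt.p'.b z ∧ Γ.L.m 0 z ^ 2 * M.bpt.p.w z = M.bpt.p.u z ∧
        Γ.L.m 1 z ^ 2 * M.bpt.p'.w z = M.bpt.p'.u z :=
  exists_germE _ M.bpt (sigM M) (pd_of_properly M.p0) hO hp

variable {M}

/-- **834's `ZSec`** -/
theorem zsecM (Γ : GE M) : ZSec Γ.g (zG Γ) := zsec Γ (sigM0 M) M.bpt.stab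

theorem pzM (Γ : GE M) (x : Cz × Cz) : M.A.pz (zG Γ x) = M.p0 := pz_zG Γ x

/-- **936's `ZS`** -/
theorem zsM (Γ : GE M) (ha : Γ.L.a M.p0 = M.bpt.p.a M.p0) (hb : Γ.L.b 0 M.p0 = M.bpt.p.b M.p0) :
    LbIn_936.ZS M Γ.L (zG Γ) where
  src := Γ.q_mem
  zero := Γ.sh_q
  a := ha
  b := hb
  val _ := rfl

/-- **834's model of record over this germ** -/
theorem exists_mdM (M : Ar) (ra : RA M.CX M.G) {O : Set M.N} (hO : IsOpen O) (hp : M.p0 ∈ O) :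
    ∃ Γ : GE M, SymL M.A Γ.L M.s ∧ Γ.L.sh.source ⊆ O ∩ M.bpt.p.U ∩ M.bpt.p'.U ∧
      (∀ z ∈ Γ.L.sh.source, Γ.L.sh z = (M.bpt.p.s0 z, M.bpt.p.s1 z, M.bpt.p'.s1 z) ∧
        Γ.L.a z = M.bpt.p.a z ∧ Γ.L.a z = M.bpt.p'.a z ∧ Γ.L.b 0 z = M.bpt.p.b z ∧
        Γ.L.b 1 z = M.bpt.p'.b z ∧ Γ.L.m 0 z ^ 2 * M.bpt.p.w z = M.bpt.p.u z ∧
        Γ.L.m 1 z ^ 2 * M.bpt.p'.w z = M.bpt.p'.u z) ∧
      ∀ δ : ℝ, 0 < δ → ∃ W : Md M, W.Ge = Γ.g ∧ W.z = zG Γ ∧ W.ε ≤ δ ∧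
        LbIn_936.ZS M Γ.L W.z := by
  obtain ⟨Γ, h1, h2, h3⟩ := exists_germM M hO hp
  refine ⟨Γ, h1, h2, h3, fun δ hδ => ?_⟩
  obtain ⟨W, w1, w2, w3⟩ := Md_834.exists_md' ra Γ.g (zsecM Γ) (pzM Γ) hδ
  refine ⟨W, w1, w2, w3, ?_⟩
  obtain ⟨-, k1, -, k2, -⟩ := h3 M.p0 Γ.q_mem
  rw [w2]
  exact zsM Γ k1 k2

/-- 338's form -/
theorem exists_md' (M : Ar) (ra : RA M.CX M.G) :
    ∃ (W : Md M) (Γ : GE M), W.Ge = Γ.g ∧ W.z = zG Γ ∧ LbIn_936.ZS M Γ.L W.z := by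
  obtain ⟨Γ, -, -, -, h⟩ := exists_mdM M ra isOpen_univ (mem_univ _)
  obtain ⟨W, w1, w2, -, w4⟩ := h 1 one_pos
  exact ⟨W, Γ, w1, w2, w4⟩

end

end Crest.Agent.R272.Tq12_916
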