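import Crest.Agent.R272.Fin2_338
import Crest.Agent.R272.PEndZ_220
import Crest.Agent.R272.PosP10_848
import Crest.Agent.R272.PEnd10_732
import Crest.Agent.R272.Tq12_916
import Crest.Agent.R272.Md3_834

/-!
# R272, S15-ASM (helper338): S0415 from (K-b), the collar and the three dying arcs

`s15_of` : the last composition over 939's `M : Ar`, 916's `exists_germM`, 732's `exists_YC`, 848's functions,
220's `germ15`.
-/

set_option autoImplicit false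
set_option linter.unusedSectionVars false
set_option linter.unusedVariables false

open Set Filter Topology OnePoint

namespace Crest.Agent.R272.Fin_338

open Crest.Agent.R275.Geo Crest.Agent.R273.Fam_835
open Crest.Agent.R272 Crest.Agent.R272.MQ_783 Crest.Agent.R272.Refl_246
open Crest.Agent.R272.HFam_342 Crest.Agent.R272.Sur_342 Crest.Agent.R272.Flop_66
open Crest.Agent.R272.AJ_956 Crest.Agent.R272.Idn_834 Crest.Agent.R272.Ax_834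
open Crest.Agent.R272.Cur_297 Crest.Agent.R272.K3E_227 Crest.Agent.R272.M15_939
open Crest.Agent.R272.LbExt_259 Crest.Agent.R272.As15_338 Crest.Agent.R272.Comp_259
open Crest.Agent.R272.Md_834 Crest.Agent.R272.Tp3_60 Crest.Agent.R272.CB_232
open Crest.Agent.R272.Tq12_916 Crest.Agent.R272.Tq11_916 Crest.Agent.R272.Lc_220
open Crest.Agent.R272.PEnd8_732 (Swp st)
open Crest.Agent.R272.PosP7_848
open Crest.Agent.R272.Tq1_916 (fm)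
open Crest.Agent.R272.Tq3_916 (zst FEij DEij DEm)
open Crest.Agent.R272.Tq4_916 (ib)
open Crest.Agent.R272.Tp6_60 (toA)
open Crest.Agent.R272.Tq10_916 (SymL)
open Crest.Agent.R272.FinCB3_876 (GenAt)
open Crest.Agent.R272.PosP5_848 (UpDat)
open Crest.Agent.R272.PW_92 (IPhi)
open Crest.Agent.R272.PEndZ_220 (MdE)

noncomputable section

/-- the pens clause of 916's `exists_germM` -/
structure Pens (M : Ar) (Γ : GE M) : Prop where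
  sym : SymL M.A Γ.L M.s
  src : Γ.L.sh.source ⊆ M.bpt.p.U ∩ M.bpt.p'.U
  eq : ∀ z ∈ Γ.L.sh.source, Γ.L.sh z = (M.bpt.p.s0 z, M.bpt.p.s1 z, M.bpt.p'.s1 z) ∧
        Γ.L.a z = M.bpt.p.a z ∧ Γ.L.a z = M.bpt.p'.a z ∧ Γ.L.b 0 z = M.bpt.p.b z ∧
        Γ.L.b 1 z = M.bpt.p'.b z ∧ Γ.L.m 0 z ^ 2 * M.bpt.p.w z = M.bpt.p.u z ∧
        Γ.L.m 1 z ^ 2 * M.bpt.p'.w z = M.bpt.p'.u z

/-- the output of 732's `exists_YC` -/
structure YB (M : Ar) (Γ : GE M) where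
  B : BV M.G M.p0
  s : B.s = M.s
  src : B.V ⊆ Γ.L.sh.source
  swp : Swp M.A Γ.L B.s B.V
  T : YC Pz M.CX M.A.pz M.p0 (M.A.pz ⁻¹' B.V)
  st_eq : T.st = st M.A Γ.L Γ.hX
  srcE : ∀ i j, (T.E i j).source = DEij Pz Γ.r i j
  srcM : ∀ b b', (T.M b b').source = DEm (ib Pz b) (ib Pz b') Γ.r
  valE : ∀ i j, ∀ p ∈ (T.E i j).source, M.A.val (T.E i j p) = toA M.N (Γ.L.fro (FEij Pz i j p))
  valM : ∀ b b', ∀ p ∈ (T.M b b').source,
    M.A.val (T.M b b' p) = toA M.N (Γ.L.fro (fm (ib Pz b) (ib Pz b') p))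

/-- **732's `exists_YC`**, over the pens -/
theorem exists_YB {M : Ar} (Γ : GE M) {O : Set M.N} (hO : IsOpen O) (hp : M.p0 ∈ O) :
    ∃ Y : YB M Γ, Y.B.V ⊆ O := by
  obtain ⟨B, h1, h2, h3, h4, T, h5, h6, h7, h8, h9⟩ := PEnd8_732.exists_YC Γ (sigM0 M)
    M.bpt.s_fix M.bpt.s_sq hO hp
  exact ⟨⟨B, h1, h3, h4, T, h5, h6, h7, h8, h9⟩, h2⟩

/-- **the compatibility (K-b)** -/
def CMP {M : Ar} {Γ : GE M} (Y : YB M Γ) : Prop :=
  ∀ mm, 2 ≤ mm → ∀ y ∈ M.A.pz ⁻¹' Y.B.V, M.A.pz y ≠ M.p0 → ∃ a c,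
      pr M.G y ∈ (Pos15_220.JM (raM M)).V a ∧ pr M.G y ∈ (Pos15_220.R (raM M)).V c ∧
      GenAt M.CX (Y.T.ff (10 * mm)) (fun v => (Pos15_220.JM (raM M)).f a (pr M.G v) ^ mm *
        (Pos15_220.R (raM M)).f c (pr M.G v) ^ 4) y

/-- **the collar** -/
def COL {M : Ar} {Γ : GE M} (Y : YB M Γ) (W : Md M) : Prop :=
  ∃ up : ∀ b, 15 ≤ b → UpDat Up.fam Up.N IPhi,
    ∀ b (hb : 15 ≤ b), ∃ δ > 0, ∀ u : Up, u.N ≠ 0 → u.N < δ → u.N < W.ε →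
      ∃ y ∈ M.A.pz ⁻¹' Y.B.V, pr M.G y = W.S.bx u ∧ ∀ j, (up b hb).FB j u = Y.T.ff b j y

/-- **S0415 from (K-b), the collar and the three dying arcs**, variable choices -/
theorem s15_of (M : Ar) {O : Set M.N} (hO : IsOpen O) (hp : M.p0 ∈ O)
    (H : ∀ Γ : GE M, Γ.L.sh.source ⊆ O → Pens M Γ → ∃ Y : YB M Γ, CMP Y ∧
      ∃ δ > 0, ∀ W : Md M, W.Ge = Γ.g → W.z = zG Γ → W.ε ≤ δ →
        COL Y W ∧ Dies (cur Pz) W.hq.cont W.inc (Cur_297.arc 1) ∧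
          Dies (cur Pz) W.hq.cont W.inc (Cur_297.arc 3) ∧
          Dies (cur Pz) W.hq.cont W.inc (Cur_297.arc 4)) : S15 := by
  obtain ⟨Γ, h1, h2, h3, h4⟩ := exists_mdM M (raM M) hO hp
  obtain ⟨Y, hY, δ, δ0, hδ⟩ := H Γ (fun z hz => (h2 hz).1.1)
    ⟨h1, fun z hz => ⟨(h2 hz).1.2, (h2 hz).2⟩, h3⟩
  obtain ⟨W, w1, w2, w3, w4⟩ := h4 δ δ0
  obtain ⟨⟨up, hup⟩, d1, d3, d4⟩ := hδ W w1 w2 w3
  refine s15_W W w4 4 ?_ d1 d3 d4
  exact (⟨W, Γ, w1, fun x => by rw [w2]; rfl⟩ : MdE M).germ15 Y.T Y.st_eq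
    (PEnd8_732.ff_inv Y.src Y.swp Y.T Y.st_eq) Y.T.hol' Y.T.val' Y.T.fin' hY up hup

/-- **S0415 from (K-b), the collar and the three dying arcs** -/
theorem s15_of' (M : Ar)
    (cmp : ∀ Γ : GE M, Pens M Γ → ∀ Y : YB M Γ, CMP Y)
    (col : ∀ Γ : GE M, Pens M Γ → ∀ Y : YB M Γ, ∀ W : Md M, W.Ge = Γ.g → W.z = zG Γ → COL Y W)
    (die : ∀ Γ : GE M, Pens M Γ → ∀ W : Md M, W.Ge = Γ.g → W.z = zG Γ →
      Dies (cur Pz) W.hq.cont W.inc (Cur_297.arc 1) ∧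
        Dies (cur Pz) W.hq.cont W.inc (Cur_297.arc 3) ∧
        Dies (cur Pz) W.hq.cont W.inc (Cur_297.arc 4)) : S15 := by
  refine s15_of M isOpen_univ (mem_univ _) fun Γ _ hΓ => ?_
  obtain ⟨Y, -⟩ := exists_YB Γ isOpen_univ (mem_univ _)
  exact ⟨Y, cmp Γ hΓ Y, 1, one_pos, fun W w1 w2 _ => ⟨col Γ hΓ Y W w1 w2, die Γ hΓ W w1 w2⟩⟩

end

end Crest.Agent.R272.Fin_338
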