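import Crest.Agent.R272.CmF_220
import Crest.Agent.R272.Fin4_338

/-!
# R272 (S0415), (K-b) (helper220): argument `cmp` of 338's `s15_of'`
-/

set_option autoImplicit false
set_option linter.unusedSectionVars false
set_option linter.unusedVariables false

open Set Filter Topology

namespace Crest.Agent.R272.Cm_220

open Crest.Agent.R272.M15_939 Crest.Agent.R272.Md_834 Crest.Agent.R272.Fin_338
open Crest.Agent.R272.Tq12_916 Crest.Agent.R272.Lc_220

/-- **argument (1) of `Fin_338.s15_of'`** -/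
theorem cmp15 (M : Ar) (Γ : GE M) (hΓ : Pens M Γ) (Y : YB M Γ) : CMP Y :=
  fun mm hmm y hy hy0 => cmp_O M.A (nzX_ins M) (raM M) M.bpt.p M.bpt.p' M.bpt.s0_eq hΓ.src
    (fun z hz => (hΓ.eq z hz).1) (hL := Γ.hX) Y.src Y.swp (by rw [Y.s]; exact M.bpt.s_ne) Y.T
    Y.st_eq (by omega) hy hy0

end Crest.Agent.R272.Cm_220
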