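import Crest.Agent.R272.Tp6_60

/-!
# R272 (S0415), MODEL, type tp (helper60): `E 0`, `E 1` are compatible with the charts of `X1`
-/

set_option autoImplicit false
set_option linter.unusedSectionVars false

open Set Filter Topology OnePoint

namespace Crest.Agent.R272.Tp7_60

open Crest.Agent.R275.Geo Crest.Agent.R273.Fam_835 Crest.Agent.R272.FamP_54
open Crest.Agent.R272.HFam_342 Crest.Agent.R272.Tp1_60 Crest.Agent.R272.Refl_246
open Crest.Agent.R272.Tp2_60 hiding Amb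
open Crest.Agent.R272.Tp3_60 Crest.Agent.R272.Tp4_60
open Crest.Agent.R272.Tp5_60 Crest.Agent.R272.SubF_54 Crest.Agent.R272.Tp6_60
open Crest.Agent.R272.Cur_297 (Par Cv Cset Eqn hA hB tt kk continuous_tt continuous_kk)
open Crest.Agent.R272.P1A_54 (ambFam amb_z amb_t amb_v amb_k)
open Crest.Agent.R272.Gr_559.GData (Amb)
open Crest.Agent.R272.AJ_956 (Cur)
open Crest.Agent.R272.Idn_834 (h3 pc)

noncomputable section

variable {N : Type} [TopologicalSpace N] {F : Fam 3 N} {P : Par} {L : Loc P N} {r : ℝ}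

/-- `E` is (a restriction of) the standard embedding number `i` -/
def IsE (L : Loc P N) (r : ℝ) {X0 : Set (Amb N)} (i : Fin 2)
    (E : OpenPartialHomeomorph ((Cv P × Cv P) × ℂ) X0) : Prop :=
  ∀ p ∈ E.source, p ∈ DE P r i ∧ (E p).1 = toA N (L.fro (FE P i p)) ∧
    (FE P i p).1 ∈ L.sh.target ∧ FE P i p ∈ Std (tt : Cv P → P1)

theorem pc_symm (𝒞 : Cur (Cv P)) (c c' : Cv P) (z : Cn 3) :
    (pc 𝒞 c c').symm z = (((𝒞.k c).symm (z 0), (𝒞.k c').symm (z 1)), z 2) := rfl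

theorem pc_apply (𝒞 : Cur (Cv P)) (c c' : Cv P) (p : (Cv P × Cv P) × ℂ) :
    pc 𝒞 c c' p = h3 ((𝒞.k c p.1.1, 𝒞.k c' p.1.2), p.2) := rfl

theorem mem_pc_target {𝒞 : Cur (Cv P)} {c c' : Cv P} {z : Cn 3} (h : z ∈ (pc 𝒞 c c').target) :
    z 0 ∈ (𝒞.k c).target ∧ z 1 ∈ (𝒞.k c').target := by
  have h1 : h3.symm z ∈ (((𝒞.k c).prod (𝒞.k c')).prod (OpenPartialHomeomorph.refl ℂ)).target := h
  exact ⟨h1.1.1, h1.1.2⟩

theorem mem_pc_source {𝒞 : Cur (Cv P)} {c c' : Cv P} {p : (Cv P × Cv P) × ℂ}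
    (h : p ∈ (pc 𝒞 c c').source) : p.1.1 ∈ (𝒞.k c).source ∧ p.1.2 ∈ (𝒞.k c').source := by
  have h1 : p ∈ (((𝒞.k c).prod (𝒞.k c')).prod (OpenPartialHomeomorph.refl ℂ)).source := h
  exact ⟨h1.1.1, h1.1.2⟩

variable (H : HLoc F L) {𝒞 : Cur (Cv P)} (hC : CH 𝒞)

include hC in
theorem hfa_FE {c c' : Cv P} {z : Cn 3} (hz : z ∈ (pc 𝒞 c c').target) (i : Fin 2)
    (hp : (pc 𝒞 c c').symm z ∈ DE P r i) :
    HFA (cnFam 3) (fun z => (FE P i ((pc 𝒞 c c').symm z)).1) z ∧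
      HP (cnFam 3) (fun z => (FE P i ((pc 𝒞 c c').symm z)).2.2.2) z ∧
      HP (cnFam 3) (fun z => tt (FE P i ((pc 𝒞 c c').symm z)).2.1) z ∧
      HP (cnFam 3) (fun z => tt (FE P i ((pc 𝒞 c c').symm z)).2.2.1) z ∧
      HP (cnFam 3) (fun z => kk (FE P i ((pc 𝒞 c c').symm z)).2.1) z ∧
      HP (cnFam 3) (fun z => kk (FE P i ((pc 𝒞 c c').symm z)).2.2.1) z := by
  obtain ⟨h0, h1⟩ := mem_pc_target hz
  have T0 : HP (cnFam 3) (fun z : Cn 3 => tt ((𝒞.k c).symm (z 0))) z :=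
    HP.comp (g := fun s : ℂ => tt ((𝒞.k c).symm s)) (hC.hT c _ h0) (hC_coord 0 z)
  have T1 : HP (cnFam 3) (fun z : Cn 3 => tt ((𝒞.k c').symm (z 1))) z :=
    HP.comp (g := fun s : ℂ => tt ((𝒞.k c').symm s)) (hC.hT c' _ h1) (hC_coord 1 z)
  have K0 : HP (cnFam 3) (fun z : Cn 3 => kk ((𝒞.k c).symm (z 0))) z :=
    HP.comp (g := fun s : ℂ => kk ((𝒞.k c).symm s)) (hC.hK c _ h0) (hC_coord 0 z)
  have K1 : HP (cnFam 3) (fun z : Cn 3 => kk ((𝒞.k c').symm (z 1))) z :=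
    HP.comp (g := fun s : ℂ => kk ((𝒞.k c').symm s)) (hC.hK c' _ h1) (hC_coord 1 z)
  have x2 := hfa_coord 2 z
  fin_cases i
  · obtain ⟨e0, e1, -⟩ := hp
    have n0 : HFA (cnFam 3) (fun z : Cn 3 => nn (tt ((𝒞.k c).symm (z 0)))) z := T0.nn e0
    have n1 : HFA (cnFam 3) (fun z : Cn 3 => nn (tt ((𝒞.k c').symm (z 1)))) z := T1.nn e1
    refine ⟨?_, ?_, T0, T1, K0, K1⟩
    · refine hfa_cn.2 ?_
      have a1 := hfa_cn.1 x2
      have a2 := hfa_cn.1 (x2.mul n0)
      have a3 := hfa_cn.1 (x2.mul n1)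
      exact a1.prodMk (a2.prodMk a3)
    · exact hP_coe ((n0.mul n1).mul x2)
  · obtain ⟨e0, e1, -⟩ := hp
    have n0 : HFA (cnFam 3) (fun z : Cn 3 => iv (tt ((𝒞.k c).symm (z 0)))) z := T0.iv e0
    have n1 : HFA (cnFam 3) (fun z : Cn 3 => iv (tt ((𝒞.k c').symm (z 1)))) z := T1.iv e1
    refine ⟨?_, ?_, T0, T1, K0, K1⟩
    · refine hfa_cn.2 ?_
      have a1 := hfa_cn.1 ((x2.mul n0).mul n1)
      have a2 := hfa_cn.1 (x2.mul n1)
      have a3 := hfa_cn.1 (x2.mul n0)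
      exact a1.prodMk (a2.prodMk a3)
    · exact hP_coe x2

include H hC in
/-- **the standard embeddings are biholomorphic** -/
theorem cpt_E {X0 : Set (Amb N)} (hs : IsSl (ambFam F) X0 3) {i : Fin 2}
    {E : OpenPartialHomeomorph ((Cv P × Cv P) × ℂ) X0} (hE : IsE L r i E) (c c' : Cv P) :
    Cpt (slFam hs) (E.symm.trans (pc 𝒞 c c')) := by
  refine cpt_of ?_ ?_
  · rintro z ⟨hz, hz2⟩
    have hz2' : (pc 𝒞 c c').symm z ∈ E.source := hz2
    obtain ⟨h1, h2, h3, h4⟩ := hE _ hz2'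
    obtain ⟨a1, a2, a3, a4, a5, a6⟩ := hfa_FE (r := r) hC hz i h1
    have hc : ContinuousAt (fun z => E ((pc 𝒞 c c').symm z)) z :=
      ContinuousAt.comp (g := E) (E.continuousAt hz2') ((pc 𝒞 c c').continuousAt_symm hz)
    refine hC_sl hs hc ?_
    have h5 : HC (cnFam 3) (ambFam F)
        (fun z => toA N (L.fro (FE P i ((pc 𝒞 c c').symm z)))) z :=
      hC_fro H (g := fun z => FE P i ((pc 𝒞 c c').symm z)) h3 a1 a3 a4 a2 a5 a6
    refine h5.congr ?_
    have h6 : ∀ᶠ w in 𝓝 z, (pc 𝒞 c c').symm w ∈ E.source :=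
      ((pc 𝒞 c c').continuousAt_symm hz).preimage_mem_nhds (E.open_source.mem_nhds hz2')
    filter_upwards [h6] with w hw
    exact (hE _ hw).2.1.symm
  · rintro y ⟨hy, hy2⟩
    have hy' : y ∈ E.target := hy
    have hy2' : E.symm y ∈ (pc 𝒞 c c').source := hy2
    obtain ⟨k1, k2⟩ := mem_pc_source hy2'
    -- the coordinates near `y`
    have hev : ∀ᶠ w in 𝓝 y, w ∈ E.target := E.open_target.mem_nhds hy'
    have key : ∀ w ∈ E.target, w.1 = toA N (L.fro (FE P i (E.symm w))) ∧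
        (FE P i (E.symm w)).1 ∈ L.sh.target := by
      intro w hw
      obtain ⟨-, h2, h3, -⟩ := hE _ (E.map_target hw)
      rw [E.right_inv hw] at h2
      exact ⟨h2, h3⟩
    have hco : ∀ w ∈ E.target, w.1.1 ∈ L.sh.source ∧ L.sh w.1.1 = (FE P i (E.symm w)).1 ∧
        TA L 0 w.1 = tt (E.symm w).1.1 ∧ TA L 1 w.1 = tt (E.symm w).1.2 ∧
        VA L w.1 = (FE P i (E.symm w)).2.2.2 ∧ KA L 0 w.1 = kk (E.symm w).1.1 ∧
        KA L 1 w.1 = kk (E.symm w).1.2 := by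
      intro w hw
      obtain ⟨h1, h2⟩ := key w hw
      obtain ⟨b1, b2, b3, b4, b5, b6⟩ := co_fro h2
      rw [← h1] at b1 b2 b3 b4 b5 b6
      rw [FE_fst] at b2 b5
      rw [FE_snd] at b3 b6
      refine ⟨?_, b1, b2, b3, b4, b5, b6⟩
      rw [h1]
      exact L.sh.map_target h2
    have hyS := (hco y hy').1
    have hval : HC (slFam hs) (ambFam F) (fun w : X0 => w.1) y := (slFam_hol hs).hC y
    have hcs : ContinuousAt (fun w : X0 => E.symm w) y := E.continuousAt_symm hy'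
    have T0 : HP (slFam hs) (fun w : X0 => tt (E.symm w).1.1) y :=
      (HP.comp (p := fun w : X0 => w.1) (hP_TA H 0 hyS) hval).congr
        (hev.mono fun w hw => (hco w hw).2.2.1.symm)
    have T1 : HP (slFam hs) (fun w : X0 => tt (E.symm w).1.2) y :=
      (HP.comp (p := fun w : X0 => w.1) (hP_TA H 1 hyS) hval).congr
        (hev.mono fun w hw => (hco w hw).2.2.2.1.symm)
    have K0 : HP (slFam hs) (fun w : X0 => kk (E.symm w).1.1) y :=
      (HP.comp (p := fun w : X0 => w.1) (hP_KA H 0 hyS) hval).congr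
        (hev.mono fun w hw => (hco w hw).2.2.2.2.2.1.symm)
    have K1 : HP (slFam hs) (fun w : X0 => kk (E.symm w).1.2) y :=
      (HP.comp (p := fun w : X0 => w.1) (hP_KA H 1 hyS) hval).congr
        (hev.mono fun w hw => (hco w hw).2.2.2.2.2.2.symm)
    have C0 : HFA (slFam hs) (fun w : X0 => 𝒞.k c (E.symm w).1.1) y :=
      hC.back (slFam hs) (fun w : X0 => (E.symm w).1.1) y
        (continuous_fst.continuousAt.comp (continuous_fst.continuousAt.comp hcs)) T0 K0 c k1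
    have C1 : HFA (slFam hs) (fun w : X0 => 𝒞.k c' (E.symm w).1.2) y :=
      hC.back (slFam hs) (fun w : X0 => (E.symm w).1.2) y
        (continuous_snd.continuousAt.comp (continuous_fst.continuousAt.comp hcs)) T1 K1 c' k2
    have C2 : HFA (slFam hs) (fun w : X0 => (E.symm w).2) y := by
      obtain ⟨d1, -⟩ := hE _ (E.map_target hy')
      fin_cases i
      · -- `x = S₀`
        have h0 : HFA (ambFam F) (fun q : Amb N => L.sh q.1) y.1 :=
          hfa_comp (H.hS _ hyS) (amb_z.hC y.1)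
        have h1 : HFA (slFam hs) (fun w : X0 => L.sh w.1.1) y :=
          hfa_comp (g := fun q : Amb N => L.sh q.1) (p := fun w : X0 => w.1) h0 hval
        have h2 : HFA (slFam hs) (fun w : X0 => (L.sh w.1.1).1) y :=
          HFA.comp_left (g := Prod.fst) (by fun_prop) h1
        refine h2.congr (hev.mono fun w hw => ?_)
        rw [(hco w hw).2.1]
        rfl
      · -- `v = nn V`
        have h1 : HP (slFam hs) (fun w : X0 => VA L w.1) y :=
          HP.comp (p := fun w : X0 => w.1) (hP_VA H hyS) hval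
        have h2 : VA L y.1 ≠ ∞ := by
          rw [(hco y hy').2.2.2.2.1]
          exact OnePoint.coe_ne_infty _
        refine (h1.nn h2).congr (hev.mono fun w hw => ?_)
        rw [(hco w hw).2.2.2.2.1]
        rfl
    show HFA (slFam hs) (fun w : X0 => pc 𝒞 c c' (E.symm w)) y
    intro j hj
    have h1 := ((C0 j hj).prodMk (C1 j hj)).prodMk (C2 j hj)
    exact DifferentiableAt.comp _ (g := h3) h3.differentiableAt h1

end

end Crest.Agent.R272.Tp7_60
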