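import Crest.Agent.R272.Lc9_220
import Crest.Agent.R272.Tp7_60
import Crest.Agent.R272.Tq2_916
import Crest.Agent.R272.PosP3_848

/-!
# R272 (S0415), POS at `p0`, (K-b) (helper898): hypotheses

* `sc i S`  : the second coordinate of the colour `i` (`S₁`, `S₂`);
* `KLoc D L`: the functions of the model in the local coordinates of the cluster;
* `St`      : the standard coordinates `st` on an open set `O`, the swap.
-/

set_option autoImplicit false
set_option linter.unusedSectionVars false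

open Set Filter Topology OnePoint

namespace Crest.Agent.R272.Kb_898

open Crest.Agent.R275.Geo Crest.Agent.R273.Fam_835 Crest.Agent.R272.FamP_54
open Crest.Agent.R272.HFam_342 Crest.Agent.R272.Tp1_60 Crest.Agent.R272.Refl_246
open Crest.Agent.R272.Tp2_60 hiding Amb
open Crest.Agent.R272.Tp3_60 Crest.Agent.R272.Tp5_60 Crest.Agent.R272.Tp6_60
open Crest.Agent.R272.Cur_297 (Par Cv tt kk)
open Crest.Agent.R272.P1A_54 (ambFam amb_z amb_t amb_v amb_k)
open Crest.Agent.R272.Gr_559 (GData Pen)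
open Crest.Agent.R272.Act_302 (GAct)
open Crest.Agent.R272.Tq1_916 (swA)
open Crest.Agent.R272.Quot_783

noncomputable section

variable {N : Type} [TopologicalSpace N] {F : Fam 3 N} {P : Par}

/-- the second coordinate of the colour `i` -/
def sc (i : Fin 2) (S : ℂ × ℂ × ℂ) : ℂ := if i = 0 then S.2.1 else S.2.2

@[simp] theorem sc_zero (S : ℂ × ℂ × ℂ) : sc 0 S = S.2.1 := rfl
@[simp] theorem sc_one (S : ℂ × ℂ × ℂ) : sc 1 S = S.2.2 := rfl

/-- the functions of the model in the local coordinates of the cluster -/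
structure KLoc (D : GData F) (L : Loc P N) where
  u : Fin 2 → N → ℂ
  w : Fin 2 → N → ℂ
  hu : ∀ i, ∀ z ∈ L.sh.source, HFA F (u i) z
  hw : ∀ i, ∀ z ∈ L.sh.source, HFA F (w i) z
  u0 : ∀ i, ∀ z ∈ L.sh.source, u i z ≠ 0
  w0 : ∀ i, ∀ z ∈ L.sh.source, w i z ≠ 0
  ef : ∀ z ∈ L.sh.source, D.f0 z = L.a z * (L.sh z).1
  ex : ∀ i, ∀ z ∈ L.sh.source, D.x i z = L.b i z * (sc i (L.sh z) - P.c 5 * (L.sh z).1)
  eP : ∀ i, ∀ z ∈ L.sh.source, D.P i z = u i z * ((sc i (L.sh z) - P.c 0 * (L.sh z).1) *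
    (sc i (L.sh z) - P.c 1 * (L.sh z).1) * (sc i (L.sh z) - P.c 2 * (L.sh z).1))
  eQ : ∀ i, ∀ z ∈ L.sh.source, D.Q i z = w i z * ((sc i (L.sh z) - P.c 3 * (L.sh z).1) *
    (sc i (L.sh z) - P.c 4 * (L.sh z).1) * (sc i (L.sh z) - P.c 5 * (L.sh z).1))

/-- `KLoc` from the pens (`hU`, `hL` : output of 916's `exists_loc`) -/
def KLoc.of_pens (D : GData F) {q : N} (p : Pen F D.f0 (D.x 0) (D.P 0) (D.Q 0) q)
    (p' : Pen F D.f0 (D.x 1) (D.P 1) (D.Q 1) q) (h0 : p'.s0 = p.s0) (hc : p.c = P.c)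
    (hc' : p'.c = P.c) {L : Loc P N} (hU : L.sh.source ⊆ p.U ∩ p'.U)
    (hL : ∀ z ∈ L.sh.source, L.sh z = (p.s0 z, p.s1 z, p'.s1 z) ∧ L.a z = p.a z ∧
      L.b 0 z = p.b z ∧ L.b 1 z = p'.b z) : KLoc D L where
  u := ![p.u, p'.u]
  w := ![p.w, p'.w]
  hu i z hz := by
    fin_cases i
    · exact (P1A_54.holF_iff p.U_open).1 p.u_hol z (hU hz).1
    · exact (P1A_54.holF_iff p'.U_open).1 p'.u_hol z (hU hz).2
  hw i z hz := by
    fin_cases i
    · exact (P1A_54.holF_iff p.U_open).1 p.w_hol z (hU hz).1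
    · exact (P1A_54.holF_iff p'.U_open).1 p'.w_hol z (hU hz).2
  u0 i z hz := by
    fin_cases i
    · exact p.u_ne z (hU hz).1
    · exact p'.u_ne z (hU hz).2
  w0 i z hz := by
    fin_cases i
    · exact p.w_ne z (hU hz).1
    · exact p'.w_ne z (hU hz).2
  ef z hz := by
    obtain ⟨e1, e2, -, -⟩ := hL z hz
    rw [p.ef z (hU hz).1, e2, e1]
  ex i z hz := by
    obtain ⟨e1, e2, e3, e4⟩ := hL z hz
    fin_cases i
    · show D.x 0 z = L.b 0 z * ((L.sh z).2.1 - P.c 5 * (L.sh z).1)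
      rw [p.ex z (hU hz).1, e3, e1, hc]
    · show D.x 1 z = L.b 1 z * ((L.sh z).2.2 - P.c 5 * (L.sh z).1)
      rw [p'.ex z (hU hz).2, e4, e1, hc', h0]
  eP i z hz := by
    obtain ⟨e1, e2, e3, e4⟩ := hL z hz
    fin_cases i
    · show D.P 0 z = p.u z * (((L.sh z).2.1 - P.c 0 * (L.sh z).1) *
        ((L.sh z).2.1 - P.c 1 * (L.sh z).1) * ((L.sh z).2.1 - P.c 2 * (L.sh z).1))
      rw [p.eP z (hU hz).1, e1, hc]
    · show D.P 1 z = p'.u z * (((L.sh z).2.2 - P.c 0 * (L.sh z).1) *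
        ((L.sh z).2.2 - P.c 1 * (L.sh z).1) * ((L.sh z).2.2 - P.c 2 * (L.sh z).1))
      rw [p'.eP z (hU hz).2, e1, hc', h0]
  eQ i z hz := by
    obtain ⟨e1, e2, e3, e4⟩ := hL z hz
    fin_cases i
    · show D.Q 0 z = p.w z * (((L.sh z).2.1 - P.c 3 * (L.sh z).1) *
        ((L.sh z).2.1 - P.c 4 * (L.sh z).1) * ((L.sh z).2.1 - P.c 5 * (L.sh z).1))
      rw [p.eQ z (hU hz).1, e1, hc]
    · show D.Q 1 z = p'.w z * (((L.sh z).2.2 - P.c 3 * (L.sh z).1) *
        ((L.sh z).2.2 - P.c 4 * (L.sh z).1) * ((L.sh z).2.2 - P.c 5 * (L.sh z).1))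
      rw [p'.eQ z (hU hz).2, e1, hc', h0]

variable {D : GData F} {G : Type} [Group G] [MulAction G N]

/-- the standard coordinates on an open set, and the swap -/
structure St (A : GAct D G) (L : Loc P N) (O : Set A.X) (st : A.X → Tp2_60.Amb (Cv P)) (s : G) :
    Prop where
  op : IsOpen O
  std : ∀ v ∈ O, st v ∈ Std (tt : Cv P → P1)
  tgt : ∀ v ∈ O, (st v).1 ∈ L.sh.target
  fro : ∀ v ∈ O, A.val v = toA N (L.fro (st v))
  s_ne : s ≠ 1
  sO : ∀ v ∈ O, s • v ∈ O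
  sw : ∀ v ∈ O, st (s • v) = swA (st v)
  stab : ∀ g : G, ∀ v ∈ O, g • v = v → g = 1 ∨ g = s

variable {A : GAct D G} {L : Loc P N} {O : Set A.X} {st : A.X → Tp2_60.Amb (Cv P)} {s : G}

namespace St

variable (T : St A L O st s)

include T

theorem src {v : A.X} (hv : v ∈ O) : A.pz v ∈ L.sh.source := by
  have h1 : A.pz v = (L.fro (st v)).1 := by
    rw [A.pz_eq, T.fro v hv]; rfl
  rw [h1]
  exact L.sh.map_target (T.tgt v hv)

/-- the coordinates -/
theorem co {v : A.X} (hv : v ∈ O) : L.sh (A.pz v) = (st v).1 ∧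
    TA L 0 (A.val v) = tt (st v).2.1 ∧ TA L 1 (A.val v) = tt (st v).2.2.1 ∧
    VA L (A.val v) = (st v).2.2.2 ∧ KA L 0 (A.val v) = kk (st v).2.1 ∧
    KA L 1 (A.val v) = kk (st v).2.2.1 := by
  have h1 := co_fro (L := L) (T.tgt v hv)
  rw [← T.fro v hv] at h1
  exact h1

theorem ev {y : A.X} (hy : y ∈ O) : ∀ᶠ v in 𝓝 y, v ∈ O := T.op.mem_nhds hy

end St

end

end Crest.Agent.R272.Kb_898
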