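import Crest.Agent.R272.PEnd10_732
import Crest.Agent.R272.KbDefs_898
import Crest.Agent.R272.Kum8_977

/-!
# R272 (S0415), POS at `p0` (helper732): fixed points of the swap over the cluster

`St_of`   : 898's `St` from a small neighbourhood `B : BV G q` and `Swp`;
`fix_iff` : `y` has a non trivial stabiliser iff `swA (st y) = st y`;
`fix_E`   : 977's `Fix` in the charts `E i j`;
`fix_M`   : the same in the `m`-charts.
-/

set_option autoImplicit false
set_option linter.unusedSectionVars false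
set_option linter.unusedVariables false

open Set Filter Topology OnePoint

namespace Crest.Agent.R272.PEnd8_732

open Crest.Agent.R275.Geo Crest.Agent.R273.Fam_835 Crest.Agent.R272.Gr_559
open Crest.Agent.R272.Act_302 Crest.Agent.R272.Lc_220 Crest.Agent.R272.Refl_246
open Crest.Agent.R272.MQ_783 Crest.Agent.R272.FamP_54 Crest.Agent.R272.P1A_54
open Crest.Agent.R272.Cur_297 (Par Cv tt kk cur)
open Crest.Agent.R272.Tp1_60 (iv nn dd nn_dd)
open Crest.Agent.R272.Tp2_60 (Amb Std)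
open Crest.Agent.R272.Tp3_60 (Loc RelX E6)
open Crest.Agent.R272.Tp6_60 (toA)
open Crest.Agent.R272.Tq1_916 (swA swA_mem pole fij fm Dm dl nu dl_nu swA_fij swA_fm)
open Crest.Agent.R272.Tq3_916 (DEij FEij DEm)
open Crest.Agent.R272.Tq4_916 (ib ib_cover)
open Crest.Agent.R272.SubF_54 (IsSl)
open Crest.Agent.R272.PosP7_848 (YC MCpt mc)

noncomputable section

variable {N : Type} [TopologicalSpace N] {F : Fam 3 N} {D : GData F} {G : Type} [Group G]
  [MulAction G N] {A : GAct D G} {P : Par} {L : Loc P N} {hX : LX D L} {q : N} {B : BV G q}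

/-- **898's `St`** -/
theorem St_of (hV : B.V ⊆ L.sh.source) (hs : Swp A L B.s B.V) (hne : B.s ≠ 1) :
    Kb_898.St A L (A.pz ⁻¹' B.V) (st A L hX) B.s where
  op := B.op.preimage A.continuous_pz
  std v hv := st_mem A (hV hv)
  tgt v hv := st_fst_mem A (hV hv)
  fro v hv := (fro_st A (hV hv)).symm
  s_ne := hne
  sO v hv := by
    show A.pz (B.s • v) ∈ B.V
    rw [A.pz_smul]
    exact B.sV _ hv
  sw v hv := st_smul A hV hs hv
  stab g v hv h := B.two g _ hv (by rw [← A.pz_smul, h]; exact hv)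

include hX in
/-- **non trivial stabilisers** -/
theorem fix_iff (hV : B.V ⊆ L.sh.source) (hs : Swp A L B.s B.V) (hne : B.s ≠ 1) {y : A.X}
    (hy : A.pz y ∈ B.V) : (∃ g : G, g ≠ 1 ∧ g • y = y) ↔ swA (st A L hX y) = st A L hX y := by
  have h1 := st_smul (hX := hX) A hV hs hy
  constructor
  · rintro ⟨g, hg, hgy⟩
    have h2 : g • A.pz y ∈ B.V := by rw [← A.pz_smul, hgy]; exact hy
    rcases B.two g _ hy h2 with rfl | rfl
    · exact absurd rfl hg
    · rw [← h1, hgy]
  · intro h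
    refine ⟨B.s, hne, st_inj (hX := hX) ?_ (hV hy) (h1.trans h)⟩
    rw [A.pz_smul]
    exact hV (B.sV _ hy)

theorem frame_cross {i j : Fin 2} {t : Cur_297.P1} (h : t ≠ pole i) (h' : t ≠ pole j) :
    nu i t * dl j t = dl i t * nu j t := by
  have e1 := dl_nu h
  have e2 := dl_nu h'
  have h3 : (nu i t * dl j t - dl i t * nu j t) * nn t = 0 := by
    linear_combination (nu i t) * e2 - (nu j t) * e1
  have h4 : (nu i t * dl j t - dl i t * nu j t) * dd t = 0 := by
    linear_combination (dl i t) * e2 - (dl j t) * e1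
  rcases nn_dd t with h5 | h5
  · exact sub_eq_zero.1 ((mul_eq_zero.1 h3).resolve_right h5)
  · exact sub_eq_zero.1 ((mul_eq_zero.1 h4).resolve_right h5)

/-- the diagonal in the charts `E i j` -/
theorem swA_FEij {i j : Fin 2} {p : (Cv P × Cv P) × ℂ} (h : tt p.1.1 ≠ pole i)
    (h' : tt p.1.2 ≠ pole j) : swA (FEij P i j p) = FEij P i j p ↔ p.1.1 = p.1.2 := by
  constructor
  · intro e
    exact (congrArg (fun y : Amb (Cv P) => y.2.2.1) e)
  · intro e
    obtain ⟨⟨c, c'⟩, x⟩ := p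
    simp only at e h h'
    subst e
    have hc := frame_cross h h'
    have h1 : x * dl i (tt c) * nu j (tt c) = x * nu i (tt c) * dl j (tt c) := by
      linear_combination (-x) * hc
    refine Prod.ext (Prod.ext rfl (Prod.ext ?_ ?_)) (Prod.ext rfl (Prod.ext rfl rfl))
    · exact h1
    · exact h1.symm

/-- the diagonal in the `m`-charts -/
theorem swA_fm_iff {b b' : Bool} {p : ℂ × ℂ × ℂ} :
    swA (fm (ib P b) (ib P b') p) = fm (ib P b) (ib P b') p ↔
      p.2.1 = p.2.2 ∧ (ib P b).e.symm (p.1 * p.2.1) = (ib P b').e.symm (p.1 * p.2.1) := by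
  constructor
  · intro e
    have e1 : p.2.2 = p.2.1 := congrArg (fun y : Amb (Cv P) => y.1.2.1) e
    have e2 : (ib P b').e.symm (p.1 * p.2.1) = (ib P b).e.symm (p.1 * p.2.2) :=
      congrArg (fun y : Amb (Cv P) => y.2.1) e
    rw [e1] at e2
    exact ⟨e1.symm, e2.symm⟩
  · rintro ⟨e1, e2⟩
    refine Prod.ext (Prod.ext rfl (Prod.ext e1.symm e1)) (Prod.ext ?_ (Prod.ext ?_ rfl))
    · show (ib P b').e.symm (p.1 * p.2.1) = (ib P b).e.symm (p.1 * p.2.2)
      rw [← e1, e2]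
    · show (ib P b).e.symm (p.1 * p.2.2) = (ib P b').e.symm (p.1 * p.2.1)
      rw [← e1, e2]

/-- **977's `Fix`** -/
theorem fix_E {hsl : IsSl (ambFam F) D.X1 3} (hV : B.V ⊆ L.sh.source) (hs : Swp A L B.s B.V)
    (hne : B.s ≠ 1) (T : YC P (A.fam hsl) A.pz q (A.pz ⁻¹' B.V)) (hT : T.st = st A L hX)
    {i j : Fin 2} {p : (Cv P × Cv P) × ℂ} (hp : p ∈ (T.E i j).source)
    (hy : A.pz (T.E i j p) ∈ B.V) : Kum_977.Fix G (T.E i j) p := by
  have h1 : ∀ᶠ y in 𝓝 (T.E i j p), y ∈ (T.E i j).target :=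
    (T.E i j).open_target.mem_nhds ((T.E i j).map_source hp)
  have h2 : ∀ᶠ y in 𝓝 (T.E i j p), A.pz y ∈ B.V :=
    A.continuous_pz.continuousAt.preimage_mem_nhds (B.op.mem_nhds hy)
  filter_upwards [h1, h2] with y hy1 hy2
  have h3 := (T.E i j).map_target hy1
  obtain ⟨h4, h5⟩ := T.hE i j _ h3
  have h6 := T.sE i j _ h3
  rw [(T.E i j).right_inv hy1, hT] at h6
  rw [fix_iff (hX := hX) hV hs hne hy2, h6]
  exact swA_FEij h4 h5

/-- the same in the `m`-charts -/
theorem fix_M {hsl : IsSl (ambFam F) D.X1 3} (hV : B.V ⊆ L.sh.source) (hs : Swp A L B.s B.V)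
    (hne : B.s ≠ 1) (T : YC P (A.fam hsl) A.pz q (A.pz ⁻¹' B.V)) (hT : T.st = st A L hX)
    {b b' : Bool} {p : ℂ × ℂ × ℂ} (hp : p ∈ (T.M b b').source)
    (hy : A.pz (T.M b b' p) ∈ B.V) : ∀ᶠ y in 𝓝 (T.M b b' p), (∃ g : G, g ≠ 1 ∧ g • y = y) ↔
      (((T.M b b').symm y).2.1 = ((T.M b b').symm y).2.2 ∧
        (ib P b).e.symm (((T.M b b').symm y).1 * ((T.M b b').symm y).2.1) =
          (ib P b').e.symm (((T.M b b').symm y).1 * ((T.M b b').symm y).2.1)) := by
  have h1 : ∀ᶠ y in 𝓝 (T.M b b' p), y ∈ (T.M b b').target :=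
    (T.M b b').open_target.mem_nhds ((T.M b b').map_source hp)
  have h2 : ∀ᶠ y in 𝓝 (T.M b b' p), A.pz y ∈ B.V :=
    A.continuous_pz.continuousAt.preimage_mem_nhds (B.op.mem_nhds hy)
  filter_upwards [h1, h2] with y hy1 hy2
  have h3 := (T.M b b').map_target hy1
  have h6 := T.sM b b' _ h3
  rw [(T.M b b').right_inv hy1, hT] at h6
  rw [fix_iff (hX := hX) hV hs hne hy2, h6]
  exact swA_fm_iff

end

end Crest.Agent.R272.PEnd8_732
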