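import Crest.Agent.R272.CmE_220
import Crest.Agent.R272.PosP10_848
import Crest.Agent.R272.PEnd11_732

/-!
# R272 (S0415), (K-b) (helper220): the comparison `cmp` in the m-charts

* `gen_eq`, `gen_opp` : 898's factorisation at `m = 0`;
* `cmp_M0`            : `cmp` at `T.M b b' q`, `q.1 = 0`, `pz ≠ z₀`.
-/

set_option autoImplicit false
set_option linter.unusedSectionVars false
set_option linter.unusedVariables false

open Set Filter Topology

namespace Crest.Agent.R272.Cm_220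

open Crest.Agent.R275.Geo Crest.Agent.R273.Fam_835
open Crest.Agent.R272 Crest.Agent.R272.MQ_783 Crest.Agent.R272.Refl_246
open Crest.Agent.R272.Quot_783 Crest.Agent.R272.Gr_559 Crest.Agent.R272.Act_302
open Crest.Agent.R272.CB_232 Crest.Agent.R272.CB9_232
open Crest.Agent.R272.Cur_297 (Par Cv cur tt Pz vv)
open Crest.Agent.R272.Tp3_60 (Loc)
open Crest.Agent.R272.Tq1_916 (pole dl nu fij)
open Crest.Agent.R272.Tq3_916 (FEij)
open Crest.Agent.R272.Tq4_916 (ib pinf)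
open Crest.Agent.R272.PosP7_848
open Crest.Agent.R272.Kum_977
open Crest.Agent.R272.PosL_898
open Crest.Agent.R272.PW_92 (IPhi Phi)
open Crest.Agent.R272.FinCB3_876 (GenAt ValC)
open Crest.Agent.R272.Lc_220 Crest.Agent.R272.LcR_783
open Crest.Agent.R272.P1A_54 (ambFam)

noncomputable section

section line

variable {n : ℕ} {X : Type} [TopologicalSpace X] {C : Fam n X} {y : X}
  {x0 E p S m x1 x2 η1 η2 : X → ℂ}

/-- 898's local data at any point of an m-chart -/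
structure LineM (C : Fam n X) (y : X) (x0 E p S m x1 x2 η1 η2 : X → ℂ) (e1 e2 : ℂ) : Prop where
  hm : HolN C y m
  h1 : HolN C y x1
  h2 : HolN C y x2
  s1 : ‖m y * x2 y‖ < 1
  s2 : ‖m y * x1 y‖ < 1
  e0 : ∀ᶠ w in 𝓝 y, x0 w = m w * (x1 w * x2 w)
  eE : ∀ᶠ w in 𝓝 y, E w = x1 w + x2 w
  ep : ∀ᶠ w in 𝓝 y, p w = x1 w * x2 w
  eS : ∀ᶠ w in 𝓝 y, S w = 2 * p w ^ 3 - x0 w ^ 5 * E w
    - 2 * ((x1 w ^ 3 * η1 w) * (x2 w ^ 3 * η2 w))
  he : e1 ^ 2 = 1
  eη : ∀ᶠ w in 𝓝 y, η1 w = e1 * rt (m w * x2 w) ∧ η2 w = e2 * rt (m w * x1 w)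

variable {e1 e2 : ℂ} (L : LineM C y x0 E p S m x1 x2 η1 η2 e1 e2) {b : ℕ}

include L

theorem LineM.small : ∀ᶠ w in 𝓝 y, ‖m w * x2 w‖ < 1 ∧ ‖m w * x1 w‖ < 1 :=
  ((L.hm.mul L.h2).continuousAt.norm.eventually_lt_const L.s1).and
    ((L.hm.mul L.h1).continuousAt.norm.eventually_lt_const L.s2)

/-- equal sheets -/
theorem LineM.gen_eq (hb : 15 ≤ b) (hη : e1 = e2) :
    GenAt C (fun i w => Phi b (x0 w) (E w) (p w) (S w) i) (fun w => gM1 b (E w) (p w)) y := by
  subst hη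
  set u : IPhi → X → ℂ := fun i w => YM1 b (m w) (x1 w + x2 w) (x1 w * x2 w)
    (heq (m w) (x1 w) (x2 w)) i with hu
  have hh := holN_heq L.hm L.h1 L.h2 L.s1 L.s2
  have huh : ∀ i, HolN C y (u i) := fun i => holN_YM1 L.hm L.h1 L.h2 hh i
  refine genAt_of huh ?_ ⟨.v, by simp [hu, YM1]⟩
  filter_upwards [L.e0, L.eE, L.ep, L.eS, L.small, L.eη] with w a0 aE ap aS asm aη i
  have h2 : S w = p w ^ 3 * (E w ^ 2 - 4 * p w) * heq (m w) (x1 w) (x2 w) := by
    rw [aS, aη.1, aη.2, a0, ap, aE]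
    exact N_eq L.he asm.1 asm.2
  have h3 := phi_M1 hb (x0 := x0 w) (E := E w) (p := p w) (S := S w) (m := m w)
    (h := heq (m w) (x1 w) (x2 w)) (by rw [a0, ap]) h2 i
  rw [h3, aE, ap]

/-- opposite sheets -/
theorem LineM.gen_opp (hb : 15 ≤ b) (hη : e2 = - e1) :
    GenAt C (fun i w => Phi b (x0 w) (E w) (p w) (S w) i) (fun w => gM2 b (p w)) y := by
  subst hη
  set u : IPhi → X → ℂ := fun i w => YM2 b (m w) (x1 w + x2 w) (x1 w * x2 w)
    (hop (m w) (x1 w) (x2 w)) i with hu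
  have hh := holN_hop L.hm L.h1 L.h2 L.s1 L.s2
  have huh : ∀ i, HolN C y (u i) := fun i => holN_YM2 L.hm L.h1 L.h2 hh i
  have hfac : ∀ᶠ w in 𝓝 y, ∀ i, Phi b (x0 w) (E w) (p w) (S w) i = u i w * gM2 b (p w) := by
    filter_upwards [L.e0, L.eE, L.ep, L.eS, L.eη] with w a0 aE ap aS aη i
    have h2 : S w = p w ^ 3 * hop (m w) (x1 w) (x2 w) := by
      rw [aS, aη.1, aη.2, a0, ap, aE]
      exact N_opp (m w) (x1 w) (x2 w) e1 L.he
    have h3 := phi_M2 hb (x0 := x0 w) (E := E w) (p := p w) (S := S w) (m := m w)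
      (h := hop (m w) (x1 w) (x2 w)) (by rw [a0, ap]) h2 i
    rw [h3, aE, ap]
  by_cases hx : x1 y = x2 y
  · refine genAt_of huh hfac ⟨.last, ?_⟩
    have h4 : hop (m y) (x1 y) (x2 y) = 4 * (1 - (m y * x2 y) ^ 5) := by
      rw [hx]
      unfold hop
      have := rt_sq L.s1
      linear_combination 2 * this
    have h5 := one_sub_ne L.s1
    simp only [hu, YM2, h4]
    exact pow_ne_zero 4 (mul_ne_zero (by norm_num) h5)
  · refine genAt_of huh hfac ⟨.v, ?_⟩
    have h4 : (x1 y + x2 y) ^ 2 - 4 * (x1 y * x2 y) = (x1 y - x2 y) ^ 2 := by ring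
    simp only [hu, YM2, h4]
    exact pow_ne_zero 4 (pow_ne_zero 2 (sub_ne_zero.2 hx))

end line

/-! ### the linear change of coordinates `(m, s, s') ↦ (s - s', s', m)` -/

/-- `(w0, w1, w2) ↦ (w1 - w2, w2, w0)` -/
def Ls : Cn 3 ≃L[ℂ] Cn 3 :=
  LinearEquiv.toContinuousLinearEquiv
    { toFun := fun w => WithLp.toLp 2 ![w 1 - w 2, w 2, w 0]
      invFun := fun w => WithLp.toLp 2 ![w 2, w 0 + w 1, w 1]
      map_add' := by
        intro p q
        ext i
        fin_cases i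
        · simp; ring
        · simp
        · simp
      map_smul' := by
        intro r p
        ext i
        fin_cases i
        · simp; ring
        · simp
        · simp
      left_inv := by
        intro p
        ext i
        fin_cases i <;> simp
      right_inv := by
        intro z
        ext i
        fin_cases i <;> simp }

theorem Ls_0 (w : Cn 3) : Ls w 0 = w 1 - w 2 := rfl

variable {Y : Type} [TopologicalSpace Y] {CY : Fam 3 Y} {G : Type} [Group G] [MulAction G Y]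

/-- `s - s'` is the reflected coordinate -/
theorem sd_asc_eqU {E : OpenPartialHomeomorph (ℂ × ℂ × ℂ) Y} (hE : MCpt CY E) {q : ℂ × ℂ × ℂ}
    (hq : q ∈ E.source) {c : RC G CY} (hc : E q ∈ c.e.source)
    (hfix : ∀ᶠ y in 𝓝 (E q), (∃ g : G, g ≠ 1 ∧ g • y = y) ↔ (E.symm y).2.1 = (E.symm y).2.2) :
    Asc CY (E q) (fun y => (E.symm y).2.1 - (E.symm y).2.2) (eqU c) := by
  have hh : HolN CY (E q) fun y => (E.symm y).2.1 - (E.symm y).2.2 :=
    (holN_m1 hE hq).sub (holN_m2 hE hq)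
  refine Asc.of_dvd hh (nz_M hq (f := fun q => q.2.1 - q.2.2) (freq_12 q)) ?_ ?_
  · refine dvd_eqU hc hh ?_
    filter_upwards [hfix] with y k1 k3
    rw [k1.1 k3, sub_self]
  · have hφ : Refl_246.Cpt CY ((E.symm.transHomeomorph mc.toHomeomorph).transHomeomorph
        Ls.toHomeomorph) := cpt_lin hE Ls
    refine dvd_coord hφ (E.map_source hq) (a := 0) (holN_eqU hc) ?_
    filter_upwards [hfix, c.e.open_source.mem_nhds hc] with y k1 k2 k3
    refine (eqU_zero_iff k2).2 (k1.2 ?_)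
    have : (E.symm y).2.1 - (E.symm y).2.2 = 0 := k3
    exact sub_eq_zero.1 this

/-! ### the charts at infinity of the curve of record -/

theorem vvf_sq (b : Bool) {s : ℂ} (hs : ‖s‖ < (ib Pz b).r) :
    vv ((ib Pz b).e.symm s) ^ 2 = 1 - s ^ 5 := by
  rw [YC.vv_sq' b hs, Kum_977.fh_cf_inf, Cur_297.Pz_p1]

/-- the radius of the chart is at most one -/
theorem r_le (b : Bool) : (ib Pz b).r ≤ 1 := by
  by_contra hr
  push Not at hr
  have h1 : ‖(1 : ℂ)‖ < (ib Pz b).r := by rw [norm_one]; exact hr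
  have hf := YC.an_vv (P := Pz) b h1
  have hev : (fun z => vv ((ib Pz b).e.symm z) ^ 2) =ᶠ[𝓝 (1 : ℂ)] fun z => 1 - z ^ 5 := by
    filter_upwards [continuous_norm.continuousAt.eventually_lt_const h1] with z hz
    exact vvf_sq b hz
  have h0 : vv ((ib Pz b).e.symm 1) = 0 := by
    have := vvf_sq b h1
    rw [one_pow, sub_self] at this
    exact pow_eq_zero_iff (two_ne_zero) |>.1 this
  have h2 := (hf.differentiableAt.hasDerivAt.pow 2).deriv
  have h3 : deriv (fun z : ℂ => 1 - z ^ 5) 1 = -5 := by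
    have := ((hasDerivAt_id (1 : ℂ)).pow 5).const_sub 1
    have h4 := this.deriv
    simp at h4 ⊢
  have h5 := hev.deriv_eq
  rw [h3] at h5
  have h6 : deriv (fun z => vv ((ib Pz b).e.symm z) ^ 2) 1 = 0 := by
    have h7 : deriv (fun z => vv ((ib Pz b).e.symm z) ^ 2) 1 =
        (2 : ℕ) * vv ((ib Pz b).e.symm 1) ^ (2 - 1) *
          deriv (fun z => vv ((ib Pz b).e.symm z)) 1 := h2
    rw [h7, h0]
    simp
  rw [h6] at h5
  norm_num at h5

/-- `η = ± rt` on the whole chart -/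
theorem vvf (b : Bool) {s : ℂ} (hs : ‖s‖ < (ib Pz b).r) :
    vv ((ib Pz b).e.symm s) = vv (pinf Pz b) * rt s := by
  have hle := r_le b
  have hS : IsPreconnected (Metric.ball (0 : ℂ) (ib Pz b).r) :=
    (convex_ball (0 : ℂ) _).isPreconnected
  have hm : ∀ {z : ℂ}, z ∈ Metric.ball (0 : ℂ) (ib Pz b).r ↔ ‖z‖ < (ib Pz b).r := by
    intro z; simp
  have h1 : ∀ {z : ℂ}, z ∈ Metric.ball (0 : ℂ) (ib Pz b).r → ‖z‖ < 1 := fun hz =>
    lt_of_lt_of_le (hm.1 hz) hle
  have hf : ContinuousOn (fun z => vv ((ib Pz b).e.symm z)) (Metric.ball 0 (ib Pz b).r) :=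
    fun z hz => (YC.an_vv (P := Pz) b (hm.1 hz)).continuousAt.continuousWithinAt
  have hg : ContinuousOn (fun z => vv (pinf Pz b) * rt z) (Metric.ball 0 (ib Pz b).r) :=
    fun z hz => (continuousAt_const.mul (analyticAt_rt (h1 hz)).continuousAt).continuousWithinAt
  have hv := vv_pinf_sq b
  have hv0 : vv (pinf Pz b) ≠ 0 := by
    intro h
    rw [h] at hv
    norm_num at hv
  refine hS.eq_of_sq_eq hf hg ?_ (fun {z} hz => mul_ne_zero hv0 (rt_ne (h1 hz)))
    (y := 0) (by simpa using (ib Pz b).r_pos) ?_ (hm.2 hs)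
  · intro z hz
    show vv ((ib Pz b).e.symm z) ^ 2 = (vv (pinf Pz b) * rt z) ^ 2
    rw [vvf_sq b (hm.1 hz), mul_pow, hv, one_mul, rt_sq (h1 hz)]
  · show vv ((ib Pz b).e.symm 0) = vv (pinf Pz b) * rt 0
    rw [symm_ib, rt_zero, mul_one]

/-! ### the m-charts -/

section YCsec

variable {N : Type} {Pm : Y → N} {z₀ : N} {O : Set Y} (T : YC Pz CY Pm z₀ O)
  {b b' : Bool} {q : ℂ × ℂ × ℂ} (hq : q ∈ (T.M b b').source)

include hq

theorem lineM :
    LineM CY (T.M b b' q) T.x0 T.ee T.pp T.ss (fun y => ((T.M b b').symm y).1) T.x1 T.x2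
      (T.e1 b b') (T.e2 b b') (vv (pinf Pz b)) (vv (pinf Pz b')) where
  hm := holN_m0 (T.cM b b') hq
  h1 := T.holN_x1 hq
  h2 := T.holN_x2 hq
  s1 := by
    show ‖((T.M b b').symm (T.M b b' q)).1 * T.x2 (T.M b b' q)‖ < 1
    rw [(T.M b b').left_inv hq, (T.stM hq).2.2.1]
    exact lt_of_lt_of_le (T.hM b b' q hq).1 (r_le b)
  s2 := by
    show ‖((T.M b b').symm (T.M b b' q)).1 * T.x1 (T.M b b' q)‖ < 1
    rw [(T.M b b').left_inv hq, (T.stM hq).2.1]
    exact lt_of_lt_of_le (T.hM b b' q hq).2 (r_le b')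
  e0 := T.ev_M hq (Q := fun y p => T.x0 y = p.1 * (T.x1 y * T.x2 y)) fun p hp => by
    rw [(T.stM hp).1, (T.stM hp).2.1, (T.stM hp).2.2.1]
  eE := Eventually.of_forall fun _ => rfl
  ep := Eventually.of_forall fun _ => rfl
  eS := T.ev_M hq (Q := fun y p => T.ss y = 2 * T.pp y ^ 3 - T.x0 y ^ 5 * T.ee y -
      2 * ((T.x1 y ^ 3 * T.e1 b b' y) * (T.x2 y ^ 3 * T.e2 b b' y))) fun p hp => by
    obtain ⟨a0, a1, a2, a3⟩ := T.stM hp
    rw [a3]
    unfold YC.ee YC.pp YC.e1 YC.e2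
    rw [(T.M b b').left_inv hp, a0, a1, a2]
    unfold rho
    rw [Fh_Pz]
    ring
  he := vv_pinf_sq b
  eη := T.ev_M hq (Q := fun y p => vv ((ib Pz b).e.symm (((T.M b b').symm y).1 *
      ((T.M b b').symm y).2.2)) = vv (pinf Pz b) * rt (((T.M b b').symm y).1 * T.x2 y) ∧
      vv ((ib Pz b').e.symm (((T.M b b').symm y).1 * ((T.M b b').symm y).2.1)) =
        vv (pinf Pz b') * rt (((T.M b b').symm y).1 * T.x1 y)) fun p hp => by
    rw [(T.M b b').left_inv hp, (T.stM hp).2.2.1, (T.stM hp).2.1]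
    exact ⟨vvf b (T.hM b b' p hp).1, vvf b' (T.hM b b' p hp).2⟩

/-- the list is generated by `(s s')^n * eqU^8` in the m-charts -/
theorem gen_M {n : ℕ} (hn : 15 ≤ n) {c : RC G CY} (hc : T.M b b' q ∈ c.e.source)
    (hfix : ∀ᶠ y in 𝓝 (T.M b b' q), (∃ g : G, g ≠ 1 ∧ g • y = y) ↔
      (((T.M b b').symm y).2.1 = ((T.M b b').symm y).2.2 ∧
        (ib Pz b).e.symm (((T.M b b').symm y).1 * ((T.M b b').symm y).2.1) =
          (ib Pz b').e.symm (((T.M b b').symm y).1 * ((T.M b b').symm y).2.1))) :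
    GenAt CY (T.ff n) (fun y => (T.x1 y * T.x2 y) ^ n * eqU c y ^ 8) (T.M b b' q) := by
  have L := lineM T hq
  have hs := (T.M b b').left_inv hq
  by_cases hbb : b = b'
  · subst hbb
    have hg := L.gen_eq hn rfl
    refine GenAt.asc (f := T.ff n) hg ?_
    have h2 : ∀ᶠ y in 𝓝 (T.M b b q), (∃ g : G, g ≠ 1 ∧ g • y = y) ↔
        ((T.M b b).symm y).2.1 = ((T.M b b).symm y).2.2 :=
      hfix.mono fun y hy => ⟨fun h => (hy.1 h).1, fun h => hy.2 ⟨h, rfl⟩⟩
    have h3 := (sd_asc_eqU (T.cM b b) hq hc h2).pow 8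
    have h4 : Asc CY (T.M b b q) (fun y => (T.x1 y * T.x2 y) ^ n)
      (fun y => (T.x1 y * T.x2 y) ^ n) := Asc.refl _
    have h5 := T.ev_M hq (Q := fun y p => T.x1 y - T.x2 y = p.2.1 - p.2.2) fun p hp => by
      rw [(T.stM hp).2.1, (T.stM hp).2.2.1]
    refine (h4.mul h3).congr ?_ (Eventually.of_forall fun _ => rfl)
    filter_upwards [h5] with y hy
    rw [← hy]
    unfold gM1 YC.ee YC.pp
    ring
  · have hg := L.gen_opp hn (by linear_combination vv_pinf hbb)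
    refine GenAt.asc (f := T.ff n) hg ?_
    have h2 : eqU c (T.M b b' q) ≠ 0 := by
      intro h0
      have h3 := (eqU_zero_iff hc).1 h0
      obtain ⟨h4, h5⟩ := hfix.self_of_nhds.1 h3
      rw [hs] at h4 h5
      have h6 := congrArg vv h5
      obtain ⟨d1, d2⟩ := T.hM b b' q hq
      rw [vvf b (by rw [h4]; exact d1), vvf b' d2, vv_pinf hbb] at h6
      have h7 : rt (q.1 * q.2.1) ≠ 0 := rt_ne (lt_of_lt_of_le d2 (r_le b'))
      have h8 : vv (pinf Pz b') ≠ 0 := by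
        intro h
        have := vv_pinf_sq b'
        rw [h] at this
        norm_num at this
      have h9 : vv (pinf Pz b') * rt (q.1 * q.2.1) = 0 := by linear_combination (-1 / 2) * h6
      exact (mul_ne_zero h8 h7) h9
    refine Asc.symm ⟨fun y => eqU c y ^ 8, (holN_eqU hc).pow 8, pow_ne_zero 8 h2,
      Eventually.of_forall fun y => ?_⟩
    unfold gM2 YC.pp
    ring

end YCsec

end

end Crest.Agent.R272.Cm_220
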