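import Crest.Agent.R272.EBase_641

/-!
# Row 272, division E (helper564): cocompactness without number theory (641 #6419), (2)-(4)

* `Q z v = maj v.1 z + |v.2|^2`.
* `exists_iso`     : spanning families with equal Gram matrices are related by an isometry.
* `gen_short`      : vectors of bounded length generate `L`.
* `exists_index`   : the sets of short vectors are images of one finite set.
* `cocpt_of_short` : the conclusion.
-/

set_option autoImplicit false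
set_option linter.unusedVariables false

open scoped ComplexConjugate Topology

noncomputable section

namespace Crest.Agent.R272.Coc1_564

open EBase_641 Module

variable {n m : ℕ}

/-! ### isometries from Gram matrices -/

section Gram

variable {U : Type*} [AddCommGroup U] [Module ℂ U] (B : U →ₗ[ℂ] U →ₗ⋆[ℂ] ℂ)
  {ι : Type*} [Fintype ι]

theorem B_lc (v : ι → U) (c : ι → ℂ) (y : U) :
    B (Fintype.linearCombination ℂ v c) y = ∑ i, c i * B (v i) y := by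
  rw [Fintype.linearCombination_apply, map_sum, LinearMap.sum_apply]
  exact Finset.sum_congr rfl fun i _ => by rw [map_smul, LinearMap.smul_apply, smul_eq_mul]

theorem B_lc' (v : ι → U) (d : ι → ℂ) (x : U) :
    B x (Fintype.linearCombination ℂ v d) = ∑ j, conj (d j) * B x (v j) := by
  rw [Fintype.linearCombination_apply, map_sum]
  exact Finset.sum_congr rfl fun j _ => by rw [LinearMap.map_smulₛₗ, smul_eq_mul]

variable {B}

theorem mem_ker_iff (nd : ∀ x, (∀ y, B x y = 0) → x = 0) {v : ι → U}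
    (hv : Submodule.span ℂ (Set.range v) = ⊤) (c : ι → ℂ) :
    Fintype.linearCombination ℂ v c = 0 ↔ ∀ j, ∑ i, c i * B (v i) (v j) = 0 := by
  constructor
  · intro h j
    rw [← B_lc, h, map_zero, LinearMap.zero_apply]
  · intro h
    refine nd _ fun y => ?_
    have h1 : Submodule.span ℂ (Set.range v) ≤
        LinearMap.ker (B (Fintype.linearCombination ℂ v c)) := by
      rw [Submodule.span_le]
      rintro _ ⟨j, rfl⟩
      rw [SetLike.mem_coe, LinearMap.mem_ker, B_lc]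
      exact h j
    rw [hv] at h1
    exact LinearMap.mem_ker.1 (h1 trivial)

/-- **families with equal Gram matrices** -/
theorem exists_iso (nd : ∀ x, (∀ y, B x y = 0) → x = 0) {v v' : ι → U}
    (hv : Submodule.span ℂ (Set.range v) = ⊤) (hv' : Submodule.span ℂ (Set.range v') = ⊤)
    (hG : ∀ i j, B (v i) (v j) = B (v' i) (v' j)) :
    ∃ g : U ≃ₗ[ℂ] U, (∀ i, g (v i) = v' i) ∧ ∀ x y, B (g x) (g y) = B x y := by
  classical
  set e := Fintype.linearCombination ℂ v with he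
  set e' := Fintype.linearCombination ℂ v' with he'
  have hs : Function.Surjective e := by
    rw [← LinearMap.range_eq_top, he, Fintype.range_linearCombination, hv]
  have hs' : Function.Surjective e' := by
    rw [← LinearMap.range_eq_top, he', Fintype.range_linearCombination, hv']
  have hk : LinearMap.ker e = LinearMap.ker e' := by
    ext c
    rw [LinearMap.mem_ker, LinearMap.mem_ker, he, he', mem_ker_iff nd hv, mem_ker_iff nd hv']
    exact forall_congr' fun j => by simp only [hG]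
  let g : U ≃ₗ[ℂ] U := (e.quotKerEquivOfSurjective hs).symm ≪≫ₗ
    (Submodule.quotEquivOfEq _ _ hk) ≪≫ₗ (e'.quotKerEquivOfSurjective hs')
  have hg : ∀ c, g (e c) = e' c := by
    intro c
    have h1 : (e.quotKerEquivOfSurjective hs).symm (e c) = Submodule.Quotient.mk c := by
      rw [LinearEquiv.symm_apply_eq]
      rfl
    show (e'.quotKerEquivOfSurjective hs') ((Submodule.quotEquivOfEq _ _ hk)
      ((e.quotKerEquivOfSurjective hs).symm (e c))) = _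
    rw [h1]
    rfl
  have hev : ∀ i, e (Pi.single i 1) = v i := fun i => by
    rw [he, Fintype.linearCombination_apply_single, one_smul]
  have hev' : ∀ i, e' (Pi.single i 1) = v' i := fun i => by
    rw [he', Fintype.linearCombination_apply_single, one_smul]
  refine ⟨g, fun i => by rw [← hev, hg, hev'], fun x y => ?_⟩
  obtain ⟨c, rfl⟩ := hs x
  obtain ⟨d, rfl⟩ := hs y
  rw [hg, hg, he, he', B_lc, B_lc]
  refine Finset.sum_congr rfl fun i _ => ?_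
  rw [B_lc', B_lc']
  simp only [hG]

end Gram

/-- `hh` as a sesquilinear form -/
def hB' (n : ℕ) : V1 n →ₗ[ℂ] V1 n →ₗ⋆[ℂ] ℂ :=
  LinearMap.mk₂'ₛₗ (RingHom.id ℂ) (starRingEnd ℂ) hh hh_add_left hh_smul_left hh_add_right
    hh_smul_right

theorem hB_apply (v w : V1 n) : hB' n v w = hh v w := rfl

theorem hB_nd (x : V1 n) (h : ∀ y, hB' n x y = 0) : x = 0 := by
  have h1 := h (x.1, 0)
  have h2 := h (0, x.2)
  rw [hB_apply, hh] at h1 h2
  simp only [map_zero, mul_zero, sub_zero, inner_zero_left, zero_sub, neg_eq_zero] at h1 h2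
  refine Prod.ext (inner_self_eq_zero.1 h1) ?_
  rw [Complex.mul_conj] at h2
  exact Complex.normSq_eq_zero.1 (by exact_mod_cast h2)

/-- the inner product as a sesquilinear form, linear in the first variable -/
def iB (m : ℕ) : W m →ₗ[ℂ] W m →ₗ⋆[ℂ] ℂ :=
  LinearMap.mk₂'ₛₗ (RingHom.id ℂ) (starRingEnd ℂ) (fun v w => inner ℂ w v)
    (fun _ _ _ => inner_add_right _ _ _) (fun _ _ _ => inner_smul_right _ _ _)
    (fun _ _ _ => inner_add_left _ _ _) (fun _ _ _ => inner_smul_left _ _ _)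

theorem iB_apply (v w : W m) : iB m v w = inner ℂ w v := rfl

theorem iB_nd (x : W m) (h : ∀ y, iB m x y = 0) : x = 0 := inner_self_eq_zero.1 (h x)

/-! ### the majorant -/

theorem nsq_act (g : UG n) (v : V1 n) :
    ‖(g.1 v).1‖ ^ 2 - ‖(g.1 v).2‖ ^ 2 = ‖v.1‖ ^ 2 - ‖v.2‖ ^ 2 := by
  have h := UG_hh g v v
  rw [hh_self, hh_self] at h
  exact Complex.ofReal_injective h

theorem maj_act (g : UG n) (v : V1 n) {z : E n} (hz : z ∈ Ball n) :
    maj (g.1 v) (act g z) = maj v z := by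
  unfold maj
  rw [R_act g v hz, nsq_act]

theorem maj_zero (v : V1 n) : maj v 0 = ‖v.1‖ ^ 2 + ‖v.2‖ ^ 2 := by
  unfold maj R lin
  rw [inner_zero_right, zero_sub, norm_neg, norm_zero, RCLike.norm_conj]
  ring

theorem maj_boost {b : UG n} {z : E n} (hz : z ∈ Ball n) (hb : act b z = 0) (v : V1 n) :
    maj v z = ‖(b.1 v).1‖ ^ 2 + ‖(b.1 v).2‖ ^ 2 := by
  rw [← maj_act b v hz, hb, maj_zero]

theorem sq_le_maj {b : UG n} {z : E n} (hz : z ∈ Ball n) (hb : act b z = 0) (v : V1 n) :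
    ‖b.1 v‖ ^ 2 ≤ maj v z := by
  rw [maj_boost hz hb, Prod.norm_def]
  rcases max_choice ‖(b.1 v).1‖ ‖(b.1 v).2‖ with h | h
  · rw [h]
    nlinarith [norm_nonneg (b.1 v).2]
  · rw [h]
    nlinarith [norm_nonneg (b.1 v).1]

theorem maj_le_sq {b : UG n} {z : E n} (hz : z ∈ Ball n) (hb : act b z = 0) (v : V1 n) :
    maj v z ≤ 2 * ‖b.1 v‖ ^ 2 := by
  rw [maj_boost hz hb]
  have h1 : ‖(b.1 v).1‖ ≤ ‖b.1 v‖ := norm_fst_le _
  have h2 : ‖(b.1 v).2‖ ≤ ‖b.1 v‖ := norm_snd_le _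
  nlinarith [norm_nonneg (b.1 v).1, norm_nonneg (b.1 v).2]

theorem norm_hh_le (v w : V1 n) : ‖hh v w‖ ≤ 2 * (‖v‖ * ‖w‖) := by
  unfold hh
  have h1 : ‖inner ℂ w.1 v.1‖ ≤ ‖w.1‖ * ‖v.1‖ := norm_inner_le_norm _ _
  have h2 : ‖v.2 * conj w.2‖ = ‖v.2‖ * ‖w.2‖ := by rw [norm_mul, RCLike.norm_conj]
  have h3 := norm_sub_le (inner ℂ w.1 v.1) (v.2 * conj w.2)
  have h4 : ‖w.1‖ * ‖v.1‖ ≤ ‖w‖ * ‖v‖ :=
    mul_le_mul (norm_fst_le _) (norm_fst_le _) (norm_nonneg _) (norm_nonneg _)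
  have h5 : ‖v.2‖ * ‖w.2‖ ≤ ‖v‖ * ‖w‖ :=
    mul_le_mul (norm_snd_le _) (norm_snd_le _) (norm_nonneg _) (norm_nonneg _)
  rw [h2] at h3
  linarith [mul_comm ‖w‖ ‖v‖]

/-- the majorant at `z` of all places -/
def Q (z : E n) (v : V1 n × W m) : ℝ := maj v.1 z + ‖v.2‖ ^ 2

/-- the boost on both factors -/
def T (m : ℕ) (b : UG n) : (V1 n × W m) →ₗ[ℝ] (V1 n × W m) :=
  (((b.1 : V1 n ≃ₗ[ℂ] V1 n) : V1 n →ₗ[ℂ] V1 n).restrictScalars ℝ).prodMap LinearMap.id

theorem T_apply (b : UG n) (v : V1 n × W m) : T m b v = (b.1 v.1, v.2) := rfl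

theorem sq_le_Q {b : UG n} {z : E n} (hz : z ∈ Ball n) (hb : act b z = 0) (v : V1 n × W m) :
    ‖T m b v‖ ^ 2 ≤ Q z v := by
  have h1 := sq_le_maj hz hb v.1
  rw [T_apply, Prod.norm_def, Q]
  rcases max_choice ‖b.1 v.1‖ ‖v.2‖ with h | h
  · show max ‖b.1 v.1‖ ‖v.2‖ ^ 2 ≤ _
    rw [h]
    nlinarith [norm_nonneg v.2]
  · show max ‖b.1 v.1‖ ‖v.2‖ ^ 2 ≤ _
    rw [h]
    nlinarith [norm_nonneg (b.1 v.1)]

theorem Q_le_sq {b : UG n} {z : E n} (hz : z ∈ Ball n) (hb : act b z = 0) (v : V1 n × W m) :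
    Q z v ≤ 3 * ‖T m b v‖ ^ 2 := by
  have h1 := maj_le_sq hz hb v.1
  have h2 : ‖b.1 v.1‖ ≤ ‖T m b v‖ := norm_fst_le (T m b v)
  have h3 : ‖v.2‖ ≤ ‖T m b v‖ := norm_snd_le (T m b v)
  rw [Q]
  nlinarith [norm_nonneg (b.1 v.1), norm_nonneg v.2]

/-- boosts -/
def Boosts (n : ℕ) : Prop := ∀ z ∈ Ball n, ∃ b : UG n, act b z = 0

/-- short vectors -/
def S (L : AddSubgroup (V1 n × W m)) (ρ : ℝ) (z : E n) : Set (V1 n × W m) :=
  {v | v ∈ L ∧ Q z v ≤ ρ ^ 2}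

/-- **(1)** of 641 #6419 -/
def Short (L : AddSubgroup (V1 n × W m)) : Prop :=
  ∃ R : ℝ, ∀ z ∈ Ball n, Submodule.span ℝ {v : V1 n × W m | v ∈ L ∧ Q z v ≤ R ^ 2} = ⊤

/-- **(H1)** -/
def H1 (L : AddSubgroup (V1 n × W m)) : Prop :=
  ∃ s : ℝ, 0 < s ∧ ∀ z ∈ Ball n, ∀ v ∈ L, v ≠ 0 → s ^ 2 ≤ Q z v

/-- **(H2)** -/
def H2 (L : AddSubgroup (V1 n × W m)) : Prop :=
  ∀ R : ℝ, {x : ℂ × ℂ | ‖x‖ ≤ R ∧ ∃ v ∈ L, ∃ w ∈ L, x = (hh v.1 w.1, inner ℂ w.2 v.2)}.Finite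

theorem Q_zero {b : UG n} {z : E n} (hz : z ∈ Ball n) (hb : act b z = 0) :
    Q z (0 : V1 n × W m) = 0 := by
  have h1 := sq_le_Q hz hb (0 : V1 n × W m)
  have h2 := Q_le_sq hz hb (0 : V1 n × W m)
  rw [map_zero, norm_zero] at h1 h2
  norm_num at h1 h2
  linarith

/-- **(2)**: short vectors generate -/
theorem gen_short (hB : Boosts n) {L : AddSubgroup (V1 n × W m)} {R : ℝ} (hR : 0 ≤ R)
    {z : E n} (hz : z ∈ Ball n)
    (hs : Submodule.span ℝ {v : V1 n × W m | v ∈ L ∧ Q z v ≤ R ^ 2} = ⊤) :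
    AddSubgroup.closure (S L (3 * (finrank ℝ (V1 n × W m) : ℝ) * R) z) = L := by
  classical
  obtain ⟨b, hb⟩ := hB z hz
  set d := finrank ℝ (V1 n × W m) with hd
  have hd1 : (1 : ℝ) ≤ d := by
    have : 0 < d := Module.finrank_pos
    exact_mod_cast this
  refine le_antisymm ((AddSubgroup.closure_le _).2 fun v hv => hv.1) fun v hv => ?_
  let e := Basis.ofSpan (hs.ge)
  have he : ∀ i, e i ∈ L ∧ Q z (e i) ≤ R ^ 2 := fun i => Basis.ofSpan_subset hs.ge ⟨i, rfl⟩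
  have := e.finiteDimensional_of_finite
  have hfin : Fintype _ := FiniteDimensional.fintypeBasisIndex e
  have hcard := Module.finrank_eq_card_basis e
  have hTe : ∀ i, ‖T m b (e i)‖ ≤ R := fun i =>
    abs_le_of_sq_le_sq' ((sq_le_Q hz hb (e i)).trans (he i).2) hR |>.2
  have heS : ∀ i, e i ∈ S L (3 * (d : ℝ) * R) z := fun i => ⟨(he i).1, (he i).2.trans (by
    have : R ≤ 3 * (d : ℝ) * R := by nlinarith
    exact pow_le_pow_left₀ hR this 2)⟩
  -- the integral part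
  set c := e.repr v with hc
  set r := v - ∑ i, ⌊c i⌋ • e i with hr
  have hsum : ∑ i, ⌊c i⌋ • e i ∈ AddSubgroup.closure (S L (3 * (d : ℝ) * R) z) :=
    AddSubgroup.sum_mem _ fun i _ =>
      AddSubgroup.zsmul_mem _ (AddSubgroup.subset_closure (heS i)) _
  have hsumL : ∑ i, ⌊c i⌋ • e i ∈ L :=
    AddSubgroup.sum_mem _ fun i _ => AddSubgroup.zsmul_mem _ (he i).1 _
  have hrL : r ∈ L := AddSubgroup.sub_mem _ hv hsumL
  have hr2 : r = ∑ i, Int.fract (c i) • e i := by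
    rw [hr, ← e.sum_repr v, ← Finset.sum_sub_distrib]
    refine Finset.sum_congr rfl fun i _ => ?_
    rw [← hc, ← Int.cast_smul_eq_zsmul ℝ ⌊c i⌋ (e i), ← sub_smul]
    rfl
  have hTr : ‖T m b r‖ ≤ d * R := by
    rw [hr2, map_sum]
    refine (norm_sum_le _ _).trans ?_
    have h1 : ∀ i ∈ Finset.univ, ‖T m b (Int.fract (c i) • e i)‖ ≤ R := by
      intro i _
      rw [map_smul, norm_smul, Real.norm_eq_abs, abs_of_nonneg (Int.fract_nonneg _)]
      have h2 := (Int.fract_lt_one (c i)).le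
      have h3 := Int.fract_nonneg (c i)
      have h4 := hTe i
      nlinarith [norm_nonneg (T m b (e i))]
    refine (Finset.sum_le_sum h1).trans ?_
    rw [Finset.sum_const, Finset.card_univ, nsmul_eq_mul, ← hcard, ← hd]
  have hrS : r ∈ S L (3 * (d : ℝ) * R) z := by
    refine ⟨hrL, (Q_le_sq hz hb r).trans ?_⟩
    have h0 : 0 ≤ (d : ℝ) * R := mul_nonneg (by linarith) hR
    nlinarith [norm_nonneg (T m b r)]
  have hv2 : v = r + ∑ i, ⌊c i⌋ • e i := by rw [hr]; abel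
  rw [hv2]
  exact AddSubgroup.add_mem _ (AddSubgroup.subset_closure hrS) hsum

/-- the sets of short vectors are images of one finite set -/
theorem exists_index (hB : Boosts n) {L : AddSubgroup (V1 n × W m)} (h1 : H1 L) (ρ : ℝ) :
    ∃ (ι : Type) (_ : Fintype ι), ∀ z ∈ Ball n, ∃ v : ι → V1 n × W m,
      Set.range v = S L ρ z := by
  classical
  obtain ⟨s, hs, hs1⟩ := h1
  obtain ⟨t, ht, htc⟩ := Metric.totallyBounded_iff.1
    (isCompact_closedBall (0 : V1 n × W m) |ρ|).totallyBounded (s / 4) (by positivity)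
  refine ⟨t, ht.fintype, fun z hz => ?_⟩
  obtain ⟨b, hb⟩ := hB z hz
  let P : t → V1 n × W m → Prop := fun y w => w ∈ S L ρ z ∧ dist (T m b w) y < s / 4
  have h0 : (0 : V1 n × W m) ∈ S L ρ z := ⟨zero_mem _, by
    rw [Q_zero hz hb]
    positivity⟩
  have huni : ∀ y w w', P y w → P y w' → w = w' := by
    intro y w w' hw hw'
    by_contra hne
    have h2 : dist (T m b w) (T m b w') < s / 2 := by
      have := dist_triangle_right (T m b w) (T m b w') y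
      linarith [hw.2, hw'.2]
    rw [dist_eq_norm, ← map_sub] at h2
    have h3 := hs1 z hz (w - w') (AddSubgroup.sub_mem _ hw.1.1 hw'.1.1) (sub_ne_zero.2 hne)
    have h4 := Q_le_sq hz hb (w - w')
    nlinarith [norm_nonneg (T m b (w - w'))]
  refine ⟨fun y => if h : ∃ w, P y w then h.choose else 0, ?_⟩
  ext w
  constructor
  · rintro ⟨y, rfl⟩
    dsimp only
    split_ifs with h
    · exact h.choose_spec.1
    · exact h0
  · intro hw
    have h2 : T m b w ∈ Metric.closedBall (0 : V1 n × W m) |ρ| := by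
      rw [mem_closedBall_zero_iff]
      have h3 := (sq_le_Q hz hb w).trans hw.2
      rw [← abs_of_nonneg (norm_nonneg (T m b w))]
      exact sq_le_sq.1 h3
    obtain ⟨y, hy, hyw⟩ := Set.mem_iUnion₂.1 (htc h2)
    have hP : P ⟨y, hy⟩ w := ⟨hw, hyw⟩
    refine ⟨⟨y, hy⟩, ?_⟩
    dsimp only
    rw [dif_pos ⟨w, hP⟩]
    exact huni _ _ _ (Exists.choose_spec (⟨w, hP⟩ : ∃ w, P ⟨y, hy⟩ w)) hP

/-! ### types -/

theorem span_fst {A : Set (V1 n × W m)} (h : Submodule.span ℝ A = ⊤) :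
    Submodule.span ℂ (Prod.fst '' A) = ⊤ := by
  rw [eq_top_iff]
  intro x _
  have h1 : ((x, 0) : V1 n × W m) ∈ Submodule.span ℝ A := h ▸ trivial
  have h2 : x ∈ (Submodule.span ℝ A).map (LinearMap.fst ℝ (V1 n) (W m)) := ⟨_, h1, rfl⟩
  rw [Submodule.map_span] at h2
  exact Submodule.span_le_restrictScalars ℝ ℂ _ h2

theorem span_snd {A : Set (V1 n × W m)} (h : Submodule.span ℝ A = ⊤) :
    Submodule.span ℂ (Prod.snd '' A) = ⊤ := by
  rw [eq_top_iff]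
  intro x _
  have h1 : ((0, x) : V1 n × W m) ∈ Submodule.span ℝ A := h ▸ trivial
  have h2 : x ∈ (Submodule.span ℝ A).map (LinearMap.snd ℝ (V1 n) (W m)) := ⟨_, h1, rfl⟩
  rw [Submodule.map_span] at h2
  exact Submodule.span_le_restrictScalars ℝ ℂ _ h2

/-- the two Gram matrices -/
def Gram {ι : Type} (v : ι → V1 n × W m) (i j : ι) : ℂ × ℂ :=
  (hh (v i).1 (v j).1, inner ℂ (v j).2 (v i).2)

theorem norm_T_le {b : UG n} {z : E n} (hz : z ∈ Ball n) (hb : act b z = 0)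
    {L : AddSubgroup (V1 n × W m)} {ρ : ℝ} {v : V1 n × W m} (hv : v ∈ S L ρ z) :
    ‖T m b v‖ ≤ |ρ| := by
  have h3 := (sq_le_Q hz hb v).trans hv.2
  rw [← abs_of_nonneg (norm_nonneg (T m b v))]
  exact sq_le_sq.1 h3

/-- **(3)**: finitely many types -/
theorem finite_types (hB : Boosts n) {L : AddSubgroup (V1 n × W m)} (h2 : H2 L) (ρ : ℝ)
    (ι : Type) [Fintype ι] :
    {G : ι → ι → ℂ × ℂ | ∃ z ∈ Ball n, ∃ v : ι → V1 n × W m,
      Set.range v = S L ρ z ∧ Gram v = G}.Finite := by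
  have h3 := h2 (2 * (|ρ| * |ρ|))
  refine (Set.Finite.pi' fun _ : ι => Set.Finite.pi' fun _ : ι => h3).subset ?_
  rintro _ ⟨z, hz, v, hv, rfl⟩ i j
  obtain ⟨b, hb⟩ := hB z hz
  have hi : v i ∈ S L ρ z := hv ▸ ⟨i, rfl⟩
  have hj : v j ∈ S L ρ z := hv ▸ ⟨j, rfl⟩
  refine ⟨?_, v i, hi.1, v j, hj.1, rfl⟩
  have bi := norm_T_le hz hb hi
  have bj := norm_T_le hz hb hj
  have e1 : ‖b.1 (v i).1‖ ≤ |ρ| := (norm_fst_le (T m b (v i))).trans bi
  have e2 : ‖b.1 (v j).1‖ ≤ |ρ| := (norm_fst_le (T m b (v j))).trans bj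
  have e3 : ‖(v i).2‖ ≤ |ρ| := (norm_snd_le (T m b (v i))).trans bi
  have e4 : ‖(v j).2‖ ≤ |ρ| := (norm_snd_le (T m b (v j))).trans bj
  have e5 : ‖b.1 (v i).1‖ * ‖b.1 (v j).1‖ ≤ |ρ| * |ρ| :=
    mul_le_mul e1 e2 (norm_nonneg _) (abs_nonneg _)
  have e6 : ‖(v j).2‖ * ‖(v i).2‖ ≤ |ρ| * |ρ| :=
    mul_le_mul e4 e3 (norm_nonneg _) (abs_nonneg _)
  rw [Prod.norm_def, max_le_iff]
  constructor
  · show ‖hh (v i).1 (v j).1‖ ≤ _
    rw [← UG_hh b]
    exact (norm_hh_le _ _).trans (by linarith)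
  · show ‖inner ℂ (v j).2 (v i).2‖ ≤ _
    have := norm_inner_le_norm (𝕜 := ℂ) (v j).2 (v i).2
    nlinarith [mul_nonneg (abs_nonneg ρ) (abs_nonneg ρ)]

theorem maj_one {z : E n} (hz : z ∈ Ball n) :
    maj ((0, 1) : V1 n) z = -1 + 2 / (1 - ‖z‖ ^ 2) := by
  unfold maj R lin
  simp only [inner_zero_left, map_one, zero_sub, norm_neg, norm_one, norm_zero]
  ring

/-- points at which the vectors of a spanning family are short stay away from the boundary -/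
theorem exists_radius (hB : Boosts n) {ι : Type} [Fintype ι] (w : ι → V1 n)
    (hw : Submodule.span ℂ (Set.range w) = ⊤) (ρ : ℝ) :
    ∃ r : ℝ, r < 1 ∧ ∀ z ∈ Ball n, (∀ i, maj (w i) z ≤ ρ ^ 2) → ‖z‖ ≤ r := by
  obtain ⟨c, hc⟩ := (Submodule.mem_span_range_iff_exists_fun ℂ).1
    (show ((0, 1) : V1 n) ∈ Submodule.span ℂ (Set.range w) from hw ▸ trivial)
  set M := (∑ i, ‖c i‖) * |ρ| with hM
  set K := 1 + 2 * M ^ 2 with hK
  have hK0 : 0 < K := by positivity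
  refine ⟨Real.sqrt (1 - 2 / K), ?_, fun z hz h => ?_⟩
  · rw [Real.sqrt_lt' one_pos]
    have : 0 < 2 / K := by positivity
    linarith
  · obtain ⟨b, hb⟩ := hB z hz
    have h1 : ∀ i, ‖b.1 (w i)‖ ≤ |ρ| := by
      intro i
      have h3 := (sq_le_maj hz hb (w i)).trans (h i)
      rw [← abs_of_nonneg (norm_nonneg (b.1 (w i)))]
      exact sq_le_sq.1 h3
    have h2 : ‖b.1 ((0, 1) : V1 n)‖ ≤ M := by
      rw [← hc, map_sum, hM, Finset.sum_mul]
      refine (norm_sum_le _ _).trans (Finset.sum_le_sum fun i _ => ?_)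
      rw [map_smul, norm_smul]
      exact mul_le_mul_of_nonneg_left (h1 i) (norm_nonneg _)
    have h3 := maj_le_sq hz hb ((0, 1) : V1 n)
    rw [maj_one hz] at h3
    have h4 : ‖b.1 ((0, 1) : V1 n)‖ ^ 2 ≤ M ^ 2 := pow_le_pow_left₀ (norm_nonneg _) h2 2
    have hz1 : ‖z‖ < 1 := mem_Ball.1 hz
    have hz2 : 0 < 1 - ‖z‖ ^ 2 := by nlinarith [norm_nonneg z]
    have h5 : 2 / (1 - ‖z‖ ^ 2) ≤ K := by linarith
    rw [div_le_iff₀ hz2] at h5
    refine Real.le_sqrt_of_sq_le ?_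
    have h6 : 2 / K ≤ 1 - ‖z‖ ^ 2 := by
      rw [div_le_iff₀ hK0]
      linarith
    linarith

/-- **(4)** -/
theorem one_type (hB : Boosts n) {L : AddSubgroup (V1 n × W m)} {ρ : ℝ}
    (hgen : ∀ z ∈ Ball n, AddSubgroup.closure (S L ρ z) = L)
    (hsp : ∀ z ∈ Ball n, Submodule.span ℝ (S L ρ z) = ⊤) {ι : Type} [Fintype ι]
    {z₀ : E n} (hz₀ : z₀ ∈ Ball n) {v₀ : ι → V1 n × W m} (hv₀ : Set.range v₀ = S L ρ z₀) :
    ∃ r : ℝ, r < 1 ∧ ∀ z ∈ Ball n, ∀ v : ι → V1 n × W m, Set.range v = S L ρ z →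
      Gram v = Gram v₀ → ∃ (g₁ : UG n) (g₂ : W m ≃ₗᵢ[ℂ] W m),
        (∀ x : V1 n × W m, ((g₁.1 x.1, g₂ x.2) : V1 n × W m) ∈ L ↔ x ∈ L) ∧
          ‖act g₁ z‖ ≤ r := by
  have hs1 : ∀ {z : E n} (hz : z ∈ Ball n) {v : ι → V1 n × W m} (hv : Set.range v = S L ρ z),
      Submodule.span ℂ (Set.range fun i => (v i).1) = ⊤ := by
    intro z hz v hv
    have h1 := span_fst (hsp z hz)
    rw [← hv, ← Set.range_comp] at h1
    exact h1
  have hs2 : ∀ {z : E n} (hz : z ∈ Ball n) {v : ι → V1 n × W m} (hv : Set.range v = S L ρ z),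
      Submodule.span ℂ (Set.range fun i => (v i).2) = ⊤ := by
    intro z hz v hv
    have h1 := span_snd (hsp z hz)
    rw [← hv, ← Set.range_comp] at h1
    exact h1
  obtain ⟨r, hr, hr'⟩ := exists_radius hB (fun i => (v₀ i).1) (hs1 hz₀ hv₀) ρ
  refine ⟨r, hr, fun z hz v hv hG => ?_⟩
  have hG' : ∀ i j, Gram v i j = Gram v₀ i j := fun i j => congrFun (congrFun hG i) j
  obtain ⟨g, hg, hgB⟩ := exists_iso (B := hB' n) hB_nd (hs1 hz₀ hv₀) (hs1 hz hv)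
    fun i j => (congrArg Prod.fst (hG' i j)).symm
  obtain ⟨g', hg', hgB'⟩ := exists_iso (B := iB m) iB_nd (hs2 hz₀ hv₀) (hs2 hz hv)
    fun i j => (congrArg Prod.snd (hG' i j)).symm
  let G₁ : UG n := ⟨g, fun x y => hgB x y⟩
  let G₂ : W m ≃ₗᵢ[ℂ] W m := g'.isometryOfInner fun x y => hgB' y x
  let A : (V1 n × W m) →+ (V1 n × W m) :=
    { toFun := fun x => (g x.1, g' x.2)
      map_zero' := by simp
      map_add' := fun x y => by simp }
  have hAi : ∀ x y, A x = A y → x = y := by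
    intro x y h
    exact Prod.ext (g.injective (congrArg Prod.fst h)) (g'.injective (congrArg Prod.snd h))
  have hAL : L.map A = L := by
    conv_lhs => rw [← hgen z₀ hz₀]
    rw [AddMonoidHom.map_closure, ← hv₀, ← Set.range_comp]
    have : A ∘ v₀ = v := funext fun i => Prod.ext (hg i) (hg' i)
    rw [this, hv, hgen z hz]
  have hA : ∀ x, A x ∈ L ↔ x ∈ L := by
    intro x
    constructor
    · intro h
      rw [← hAL] at h
      obtain ⟨y, hy, hxy⟩ := h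
      rwa [← hAi _ _ hxy]
    · intro h
      rw [← hAL]
      exact ⟨x, h, rfl⟩
  refine ⟨G₁⁻¹, G₂.symm, fun x => ?_, ?_⟩
  · have h1 : A ((G₁⁻¹).1 x.1, G₂.symm x.2) = x :=
      Prod.ext (LinearEquiv.apply_symm_apply g x.1) (LinearEquiv.apply_symm_apply g' x.2)
    rw [← hA, h1]
  · have hz' : act G₁⁻¹ z ∈ Ball n := act_mem _ hz
    refine hr' _ hz' fun i => ?_
    rw [← maj_act G₁ _ hz', act_act_inv G₁ hz]
    have h1 : G₁.1 (v₀ i).1 = (v i).1 := hg i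
    rw [h1]
    have h2 : v i ∈ S L ρ z := hv ▸ ⟨i, rfl⟩
    have h3 : maj (v i).1 z + ‖(v i).2‖ ^ 2 ≤ ρ ^ 2 := h2.2
    nlinarith [norm_nonneg (v i).2]

/-- **cocompactness** -/
theorem cocpt_of_short (hB : Boosts n) {L : AddSubgroup (V1 n × W m)} (h1 : H1 L) (h2 : H2 L)
    (h : Short L) : ∃ r : ℝ, r < 1 ∧ ∀ z ∈ Ball n, ∃ (g₁ : UG n) (g₂ : W m ≃ₗᵢ[ℂ] W m),
      (∀ x : V1 n × W m, ((g₁.1 x.1, g₂ x.2) : V1 n × W m) ∈ L ↔ x ∈ L) ∧ ‖act g₁ z‖ ≤ r := by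
  classical
  obtain ⟨R₀, hR₀⟩ := h
  set R := |R₀| with hR
  have hR0 : 0 ≤ R := abs_nonneg _
  have hs : ∀ z ∈ Ball n, Submodule.span ℝ {v : V1 n × W m | v ∈ L ∧ Q z v ≤ R ^ 2} = ⊤ := by
    intro z hz
    rw [hR, sq_abs]
    exact hR₀ z hz
  set ρ := 3 * (finrank ℝ (V1 n × W m) : ℝ) * R with hρ
  have hgen : ∀ z ∈ Ball n, AddSubgroup.closure (S L ρ z) = L := fun z hz =>
    gen_short hB hR0 hz (hs z hz)
  have hsp : ∀ z ∈ Ball n, Submodule.span ℝ (S L ρ z) = ⊤ := by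
    intro z hz
    rw [eq_top_iff, ← hs z hz]
    refine Submodule.span_mono fun v hv => ⟨hv.1, hv.2.trans ?_⟩
    have hd1 : (1 : ℝ) ≤ (finrank ℝ (V1 n × W m) : ℝ) := by
      have : 0 < finrank ℝ (V1 n × W m) := Module.finrank_pos
      exact_mod_cast this
    have : R ≤ ρ := by rw [hρ]; nlinarith
    exact pow_le_pow_left₀ hR0 this 2
  obtain ⟨ι, _, hι⟩ := exists_index hB h1 ρ
  have hfin := finite_types hB h2 ρ ι
  have key : ∀ G : ι → ι → ℂ × ℂ, ∃ r : ℝ, r < 1 ∧ ∀ z ∈ Ball n, ∀ v : ι → V1 n × W m,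
      Set.range v = S L ρ z → Gram v = G → ∃ (g₁ : UG n) (g₂ : W m ≃ₗᵢ[ℂ] W m),
        (∀ x : V1 n × W m, ((g₁.1 x.1, g₂ x.2) : V1 n × W m) ∈ L ↔ x ∈ L) ∧
          ‖act g₁ z‖ ≤ r := by
    intro G
    by_cases hG : ∃ z ∈ Ball n, ∃ v : ι → V1 n × W m, Set.range v = S L ρ z ∧ Gram v = G
    · obtain ⟨z₀, hz₀, v₀, hv₀, rfl⟩ := hG
      exact one_type hB hgen hsp hz₀ hv₀
    · exact ⟨0, one_pos, fun z hz v hv hvG => absurd ⟨z, hz, v, hv, hvG⟩ hG⟩
  choose r hr hr' using key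
  obtain ⟨M, hM, hM'⟩ : ∃ M : ℝ, M < 1 ∧ ∀ G ∈ hfin.toFinset, r G ≤ M := by
    rcases hfin.toFinset.eq_empty_or_nonempty with h | h
    · exact ⟨0, one_pos, fun G hG => by rw [h] at hG; exact absurd hG (Finset.notMem_empty _)⟩
    · exact ⟨hfin.toFinset.sup' h r, (Finset.sup'_lt_iff h).2 fun G _ => hr G,
        fun G hG => Finset.le_sup' r hG⟩
  refine ⟨M, hM, fun z hz => ?_⟩
  obtain ⟨v, hv⟩ := hι z hz
  obtain ⟨g₁, g₂, hg, hgz⟩ := hr' (Gram v) z hz v hv rfl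
  exact ⟨g₁, g₂, hg, hgz.trans (hM' _ (hfin.mem_toFinset.2 ⟨z, hz, v, hv, rfl⟩))⟩

end Crest.Agent.R272.Coc1_564
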