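import Crest.Agent.R272.PW1_92
import Crest.Agent.R272.PhiDefs_92

/-!
# R272, (5W) of #6650 (helper92), part 2: the functions `x = (x₀, E, v)` and `R` on the cone

`KD κ q`    : input; `q j` = `x_j / ω` as a function of `z ∈ ℂ²` near `0`;
`KF κ q`    : coefficients `A j i`, `B i` on a ball `|z| < ε`;
`K.X z m j` = `∑ m_i A j i z`, `K.RR z m = ∑ M_i(m) B_i z`;
`K.yy s τ j`, `K.be s τ` : `z = τ s`, `m = ρ (s₀², s₀ s₁, s₁²)` ⟹ `X = ρ yy`, `RR = ρ³ be`,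
                `disc (yy s τ) = τ² be s τ`.
-/

set_option autoImplicit false
set_option linter.unusedSectionVars false

open Filter Topology Asymptotics Set Metric

namespace Crest.Agent.R272.PW_92

noncomputable section

/-- `(κ, 2 κ, κ)` -/
def kc (κ : ℂ) : Fin 3 → ℂ := ![κ, 2 * κ, κ]

/-- **input**: `q 0 = 1 / G`, `q 1 = (t + t') / G`, `q 2 = t t' / G` as functions of `z` -/
structure KD (κ : ℂ) (q : Fin 3 → (Fin 2 → ℂ) → ℂ) : Prop where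
  κ_ne : κ ≠ 0
  an : ∀ j, AnalyticAt ℂ (q j) 0
  j0 : (fun z : Fin 2 → ℂ => q 0 z - κ * z 0 ^ 2) =O[𝓝 0] fun z : Fin 2 → ℂ => ‖z‖ ^ 3
  j1 : (fun z : Fin 2 → ℂ => q 1 z - 2 * κ * (z 0 * z 1)) =O[𝓝 0] fun z : Fin 2 → ℂ => ‖z‖ ^ 3
  j2 : (fun z : Fin 2 → ℂ => q 2 z - κ * z 1 ^ 2) =O[𝓝 0] fun z : Fin 2 → ℂ => ‖z‖ ^ 3
  disc6 : (fun z : Fin 2 → ℂ => disc fun j => q j z) =O[𝓝 0] fun z : Fin 2 → ℂ => ‖z‖ ^ 6
  nz : ¬ ∀ᶠ z in 𝓝 (0 : Fin 2 → ℂ), disc (fun j => q j z) = 0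

/-- coefficients on a ball -/
structure KF (κ : ℂ) (q : Fin 3 → (Fin 2 → ℂ) → ℂ) where
  ε : ℝ
  ε_pos : 0 < ε
  A : Fin 3 → Fin 3 → (Fin 2 → ℂ) → ℂ
  B : Fin 7 → (Fin 2 → ℂ) → ℂ
  κ_ne : κ ≠ 0
  q_an : ∀ j, AnalyticOnNhd ℂ (q j) (ball 0 ε)
  A_an : ∀ j i, AnalyticOnNhd ℂ (A j i) (ball 0 ε)
  B_an : ∀ i, AnalyticOnNhd ℂ (B i) (ball 0 ε)
  A_eq : ∀ j, ∀ z ∈ ball (0 : Fin 2 → ℂ) ε,
    q j z = z 0 ^ 2 * A j 0 z + z 0 * z 1 * A j 1 z + z 1 ^ 2 * A j 2 z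
  A_zero : ∀ j i, A j i 0 = if i = j then kc κ j else 0
  B_eq : ∀ z ∈ ball (0 : Fin 2 → ℂ) ε,
    disc (fun j => q j z) = ∑ i : Fin 7, z 0 ^ (6 - (i : ℕ)) * z 1 ^ (i : ℕ) * B i z
  nzP : ∀ z ∈ ball (0 : Fin 2 → ℂ) ε, ¬ ∀ᶠ w in 𝓝 z, disc (fun j => q j w) = 0
  nzq : ∀ z ∈ ball (0 : Fin 2 → ℂ) ε, ¬ ∀ᶠ w in 𝓝 z, q 0 w = 0

theorem an_coord (i : Fin 2) (z : Fin 2 → ℂ) : AnalyticAt ℂ (fun z : Fin 2 → ℂ => z i) z :=
  (ContinuousLinearMap.proj (R := ℂ) (φ := fun _ : Fin 2 => ℂ) i).analyticAt _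

theorem an_disc {q : Fin 3 → (Fin 2 → ℂ) → ℂ} {z : Fin 2 → ℂ} (h : ∀ j, AnalyticAt ℂ (q j) z) :
    AnalyticAt ℂ (fun z => disc fun j => q j z) z := by
  unfold disc
  exact ((h 1).pow 2).sub ((analyticAt_const.mul (h 0)).mul (h 2))

theorem mono3 (j : Fin 3) (z : Fin 2 → ℂ) : z 0 ^ (2 - (j : ℕ)) * z 1 ^ (j : ℕ) =
    ![z 0 ^ 2, z 0 * z 1, z 1 ^ 2] j := by
  fin_cases j <;> simp

theorem exists_row {κ' : ℂ} (j : Fin 3) {q : (Fin 2 → ℂ) → ℂ} (hq : AnalyticAt ℂ q 0)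
    (ho : (fun z : Fin 2 → ℂ => q z - κ' * ![z 0 ^ 2, z 0 * z 1, z 1 ^ 2] j) =O[𝓝 0]
      fun z : Fin 2 → ℂ => ‖z‖ ^ 3) :
    ∃ A : Fin 3 → (Fin 2 → ℂ) → ℂ, (∀ i, AnalyticAt ℂ (A i) 0) ∧
      (∀ᶠ z in 𝓝 (0 : Fin 2 → ℂ), q z = z 0 ^ 2 * A 0 z + z 0 * z 1 * A 1 z + z 1 ^ 2 * A 2 z) ∧
      ∀ i, A i 0 = if i = j then κ' else 0 := by
  have hm : AnalyticAt ℂ (fun z : Fin 2 → ℂ => q z - κ' * ![z 0 ^ 2, z 0 * z 1, z 1 ^ 2] j) 0 := by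
    refine hq.sub (analyticAt_const.mul ?_)
    have := fun z : Fin 2 → ℂ => mono3 j z
    simp only [← this]
    exact ((an_coord 0 0).pow _).mul ((an_coord 1 0).pow _)
  obtain ⟨B, hB, hBe⟩ := decomp 3 hm ho
  refine ⟨![fun z => (if (0 : Fin 3) = j then κ' else 0) + (z 0 * B 0 z + z 1 * B 1 z),
    fun z => (if (1 : Fin 3) = j then κ' else 0) + z 1 * B 2 z,
    fun z => (if (2 : Fin 3) = j then κ' else 0) + z 1 * B 3 z], ?_, ?_, ?_⟩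
  · intro i
    fin_cases i
    · exact analyticAt_const.add (((an_coord 0 0).mul (hB 0)).add ((an_coord 1 0).mul (hB 1)))
    · exact analyticAt_const.add ((an_coord 1 0).mul (hB 2))
    · exact analyticAt_const.add ((an_coord 1 0).mul (hB 3))
  · filter_upwards [hBe] with z hz
    simp only [Finset.sum_range_succ, Finset.range_zero, Finset.sum_empty, zero_add, Nat.sub_zero,
      pow_zero, mul_one, pow_one, Nat.sub_self, one_mul] at hz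
    have e1 : q z = κ' * ![z 0 ^ 2, z 0 * z 1, z 1 ^ 2] j + (z 0 ^ 3 * B 0 z +
        z 0 ^ (3 - 1) * z 1 * B 1 z + z 0 ^ (3 - 2) * z 1 ^ 2 * B 2 z + z 1 ^ 3 * B 3 z) := by
      rw [← hz]; ring
    rw [e1]
    fin_cases j <;> simp <;> ring
  · intro i
    fin_cases i <;> simp

theorem kf_ev {α : Type*} [TopologicalSpace α] {x : α} {ι : Type*} [Finite ι] {p : ι → α → Prop}
    (h : ∀ i, ∀ᶠ y in 𝓝 x, p i y) : ∀ᶠ y in 𝓝 x, ∀ i, p i y := eventually_all.2 h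

/-- an analytic function on a ball which is not identically zero near the centre -/
theorem nz_ball {f : (Fin 2 → ℂ) → ℂ} {ε : ℝ} (hε : 0 < ε) (hf : AnalyticOnNhd ℂ f (ball 0 ε))
    (h0 : ¬ ∀ᶠ z in 𝓝 (0 : Fin 2 → ℂ), f z = 0) :
    ∀ z ∈ ball (0 : Fin 2 → ℂ) ε, ¬ ∀ᶠ w in 𝓝 z, f w = 0 := by
  intro z hz h1
  apply h0
  have h2 := hf.eqOn_zero_of_preconnected_of_eventuallyEq_zero
    (convex_ball _ _).isPreconnected hz h1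
  filter_upwards [ball_mem_nhds (0 : Fin 2 → ℂ) hε] with w hw
  exact h2 hw

theorem KD.nz0 {κ : ℂ} {q : Fin 3 → (Fin 2 → ℂ) → ℂ} (h : KD κ q) :
    ¬ ∀ᶠ z in 𝓝 (0 : Fin 2 → ℂ), q 0 z = 0 := by
  intro h0
  obtain ⟨C, hC⟩ := h.j0.bound
  have h1 : ∀ᶠ z in 𝓝 (0 : Fin 2 → ℂ), ‖κ‖ * ‖z 0‖ ^ 2 ≤ C * ‖z‖ ^ 3 := by
    filter_upwards [h0, hC] with z h2 h3
    rw [h2, zero_sub, norm_neg, norm_mul, norm_pow, norm_pow, norm_norm] at h3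
    exact h3
  have ht : Tendsto (fun w : ℂ => (![w, 0] : Fin 2 → ℂ)) (𝓝 0) (𝓝 0) := by
    have h1 : Continuous (fun w : ℂ => (![w, 0] : Fin 2 → ℂ)) := by
      refine continuous_pi fun i => ?_
      fin_cases i
      · exact continuous_id
      · exact continuous_const
    have h2 := h1.tendsto 0
    have h3 : (![0, 0] : Fin 2 → ℂ) = 0 := by funext i; fin_cases i <;> rfl
    rw [h3] at h2
    exact h2
  have h2 : ∀ᶠ w in 𝓝[≠] (0 : ℂ), ‖κ‖ ≤ C * ‖w‖ := by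
    filter_upwards [nhdsWithin_le_nhds (ht.eventually h1), self_mem_nhdsWithin] with w h3 h4
    have hw : 0 < ‖w‖ := norm_pos_iff.2 h4
    rw [norm_vec2, norm_zero, max_eq_left (norm_nonneg w)] at h3
    simp only [Matrix.cons_val_zero] at h3
    have h5 : ‖w‖ ^ 2 * ‖κ‖ ≤ ‖w‖ ^ 2 * (C * ‖w‖) := by
      calc ‖w‖ ^ 2 * ‖κ‖ = ‖κ‖ * ‖w‖ ^ 2 := by ring
        _ ≤ C * ‖w‖ ^ 3 := h3
        _ = _ := by ring
    exact le_of_mul_le_mul_left h5 (pow_pos hw 2)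
  have h3 : Tendsto (fun w : ℂ => C * ‖w‖) (𝓝[≠] 0) (𝓝 0) := by
    have : Tendsto (fun w : ℂ => C * ‖w‖) (𝓝 0) (𝓝 (C * ‖(0 : ℂ)‖)) := by
      apply Continuous.tendsto
      fun_prop
    rw [norm_zero, mul_zero] at this
    exact this.mono_left nhdsWithin_le_nhds
  have h4 : ‖κ‖ ≤ 0 := ge_of_tendsto h3 h2
  exact h.κ_ne (norm_le_zero_iff.1 h4)

/-- **existence of the coefficients** -/
theorem KD.exists_kf {κ : ℂ} {q : Fin 3 → (Fin 2 → ℂ) → ℂ} (h : KD κ q) : Nonempty (KF κ q) := by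
  have hrow : ∀ j : Fin 3, ∃ A : Fin 3 → (Fin 2 → ℂ) → ℂ, (∀ i, AnalyticAt ℂ (A i) 0) ∧
      (∀ᶠ z in 𝓝 (0 : Fin 2 → ℂ), q j z =
        z 0 ^ 2 * A 0 z + z 0 * z 1 * A 1 z + z 1 ^ 2 * A 2 z) ∧
      ∀ i, A i 0 = if i = j then kc κ j else 0 := by
    intro j
    refine exists_row j (h.an j) ?_
    fin_cases j
    · exact h.j0
    · exact h.j1
    · exact h.j2
  choose A hA hAe hA0 using hrow
  obtain ⟨B, hB, hBe⟩ := decomp 6 (an_disc h.an) h.disc6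
  have hall : ∀ᶠ z in 𝓝 (0 : Fin 2 → ℂ), (∀ j, AnalyticAt ℂ (q j) z) ∧
      (∀ j i, AnalyticAt ℂ (A j i) z) ∧ (∀ i : Fin 7, AnalyticAt ℂ (B i) z) ∧
      (∀ j, q j z = z 0 ^ 2 * A j 0 z + z 0 * z 1 * A j 1 z + z 1 ^ 2 * A j 2 z) ∧
      disc (fun j => q j z) = ∑ i ∈ Finset.range (6 + 1), z 0 ^ (6 - i) * z 1 ^ i * B i z := by
    refine (kf_ev fun j => (h.an j).eventually_analyticAt).and
      ((kf_ev fun j => kf_ev fun i => (hA j i).eventually_analyticAt).and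
      ((kf_ev fun i : Fin 7 => (hB i).eventually_analyticAt).and
      ((kf_ev hAe).and hBe)))
  obtain ⟨ε, hε, hb⟩ := Metric.eventually_nhds_iff_ball.1 hall
  refine ⟨⟨ε, hε, A, fun i => B i, h.κ_ne, fun j z hz => (hb z hz).1 j,
    fun j i z hz => (hb z hz).2.1 j i, fun i z hz => (hb z hz).2.2.1 i,
    fun j z hz => (hb z hz).2.2.2.1 j, hA0, fun z hz => ?_, ?_, ?_⟩⟩
  · rw [(hb z hz).2.2.2.2, Finset.sum_range]
  · exact nz_ball hε (fun z hz => an_disc fun j => (hb z hz).1 j) h.nz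
  · exact nz_ball hε (fun z hz => (hb z hz).1 0) h.nz0

namespace KF

variable {κ : ℂ} {q : Fin 3 → (Fin 2 → ℂ) → ℂ} (K : KF κ q)

/-- cubic monomials in `m` -/
def MM (m : Fin 3 → ℂ) : Fin 7 → ℂ :=
  ![m 0 ^ 3, m 0 ^ 2 * m 1, m 0 ^ 2 * m 2, m 0 * m 1 * m 2, m 0 * m 2 ^ 2, m 1 * m 2 ^ 2, m 2 ^ 3]

/-- `x = (x₀, E, v)` as a function of `(z, m)` -/
def X (z : Fin 2 → ℂ) (m : Fin 3 → ℂ) (j : Fin 3) : ℂ :=
  m 0 * K.A j 0 z + m 1 * K.A j 1 z + m 2 * K.A j 2 z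

/-- `R` as a function of `(z, m)` -/
def RR (z : Fin 2 → ℂ) (m : Fin 3 → ℂ) : ℂ := ∑ i, MM m i * K.B i z

/-- `X / ρ` -/
def yy (s : Fin 2 → ℂ) (τ : ℂ) (j : Fin 3) : ℂ :=
  s 0 ^ 2 * K.A j 0 (τ • s) + s 0 * s 1 * K.A j 1 (τ • s) + s 1 ^ 2 * K.A j 2 (τ • s)

/-- `RR / ρ³` -/
def be (s : Fin 2 → ℂ) (τ : ℂ) : ℂ :=
  ∑ i : Fin 7, s 0 ^ (6 - (i : ℕ)) * s 1 ^ (i : ℕ) * K.B i (τ • s)

/-- `m = ρ (s₀², s₀ s₁, s₁²)` -/
def qu (ρ : ℂ) (s : Fin 2 → ℂ) : Fin 3 → ℂ := ![ρ * s 0 ^ 2, ρ * (s 0 * s 1), ρ * s 1 ^ 2]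

theorem X_qu (s : Fin 2 → ℂ) (ρ τ : ℂ) (j : Fin 3) : K.X (τ • s) (qu ρ s) j = ρ * K.yy s τ j := by
  simp only [X, qu, yy, Matrix.cons_val_zero, Matrix.cons_val_one, Matrix.cons_val]
  ring

theorem MM_qu (ρ : ℂ) (s : Fin 2 → ℂ) (i : Fin 7) :
    MM (qu ρ s) i = ρ ^ 3 * (s 0 ^ (6 - (i : ℕ)) * s 1 ^ (i : ℕ)) := by
  fin_cases i <;> simp [MM, qu] <;> ring

theorem RR_qu (s : Fin 2 → ℂ) (ρ τ : ℂ) : K.RR (τ • s) (qu ρ s) = ρ ^ 3 * K.be s τ := by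
  simp only [RR, be, MM_qu, Finset.mul_sum]
  exact Finset.sum_congr rfl fun i _ => by ring

theorem q_yy {s : Fin 2 → ℂ} {τ : ℂ} (h : τ • s ∈ ball (0 : Fin 2 → ℂ) K.ε) (j : Fin 3) :
    q j (τ • s) = τ ^ 2 * K.yy s τ j := by
  rw [K.A_eq j _ h]
  simp only [yy, Pi.smul_apply, smul_eq_mul]
  ring

theorem P_be {s : Fin 2 → ℂ} {τ : ℂ} (h : τ • s ∈ ball (0 : Fin 2 → ℂ) K.ε) :
    disc (fun j => q j (τ • s)) = τ ^ 6 * K.be s τ := by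
  rw [K.B_eq _ h, be, Finset.mul_sum]
  refine Finset.sum_congr rfl fun i _ => ?_
  simp only [Pi.smul_apply, smul_eq_mul, mul_pow]
  have h6 : τ ^ 6 = τ ^ (6 - (i : ℕ)) * τ ^ (i : ℕ) := by
    rw [← pow_add]; congr 1; omega
  rw [h6]
  ring

theorem disc_yy_of_ne {s : Fin 2 → ℂ} {τ : ℂ} (h : τ • s ∈ ball (0 : Fin 2 → ℂ) K.ε)
    (hτ : τ ≠ 0) : disc (K.yy s τ) = τ ^ 2 * K.be s τ := by
  have h1 := K.P_be h
  have h2 : disc (fun j => q j (τ • s)) = τ ^ 4 * disc (K.yy s τ) := by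
    simp only [disc, K.q_yy h]
    ring
  rw [h2] at h1
  have h3 : τ ^ 4 ≠ 0 := pow_ne_zero 4 hτ
  apply mul_left_cancel₀ h3
  rw [h1]
  ring

theorem an_yy {E : Type*} [NormedAddCommGroup E] [NormedSpace ℂ E] {s : E → (Fin 2 → ℂ)}
    {τ : E → ℂ} {c : E} (hs : ∀ i, AnalyticAt ℂ (fun c => s c i) c) (hτ : AnalyticAt ℂ τ c)
    (h : τ c • s c ∈ ball (0 : Fin 2 → ℂ) K.ε) (j : Fin 3) :
    AnalyticAt ℂ (fun c => K.yy (s c) (τ c) j) c := by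
  have hz : AnalyticAt ℂ (fun c => τ c • s c) c := by
    refine AnalyticAt.pi fun i => ?_
    simp only [Pi.smul_apply, smul_eq_mul]
    exact hτ.mul (hs i)
  have hA : ∀ i, AnalyticAt ℂ (fun c => K.A j i (τ c • s c)) c := fun i =>
    AnalyticAt.comp (g := K.A j i) (f := fun c => τ c • s c) (K.A_an j i _ h) hz
  simp only [yy]
  exact ((((hs 0).pow 2).mul (hA 0)).add (((hs 0).mul (hs 1)).mul (hA 1))).add
    (((hs 1).pow 2).mul (hA 2))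

theorem an_be {E : Type*} [NormedAddCommGroup E] [NormedSpace ℂ E] {s : E → (Fin 2 → ℂ)}
    {τ : E → ℂ} {c : E} (hs : ∀ i, AnalyticAt ℂ (fun c => s c i) c) (hτ : AnalyticAt ℂ τ c)
    (h : τ c • s c ∈ ball (0 : Fin 2 → ℂ) K.ε) :
    AnalyticAt ℂ (fun c => K.be (s c) (τ c)) c := by
  have hz : AnalyticAt ℂ (fun c => τ c • s c) c := by
    refine AnalyticAt.pi fun i => ?_
    simp only [Pi.smul_apply, smul_eq_mul]
    exact hτ.mul (hs i)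
  have hB : ∀ i, AnalyticAt ℂ (fun c => K.B i (τ c • s c)) c := fun i =>
    AnalyticAt.comp (g := K.B i) (f := fun c => τ c • s c) (K.B_an i _ h) hz
  simp only [be]
  exact Finset.analyticAt_fun_sum _ fun i _ => (((hs 0).pow _).mul ((hs 1).pow _)).mul (hB i)

theorem disc_yy {s : Fin 2 → ℂ} {τ : ℂ} (h : τ • s ∈ ball (0 : Fin 2 → ℂ) K.ε) :
    disc (K.yy s τ) = τ ^ 2 * K.be s τ := by
  by_cases hτ : τ ≠ 0
  · exact K.disc_yy_of_ne h hτ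
  · rw [not_not] at hτ
    subst hτ
    have hs : ∀ i, AnalyticAt ℂ (fun _ : ℂ => s i) (0 : ℂ) := fun i => analyticAt_const
    have c1 : ContinuousAt (fun τ : ℂ => disc (K.yy s τ)) 0 := by
      have h1 := fun j => K.an_yy (s := fun _ : ℂ => s) hs analyticAt_id h j
      unfold disc
      exact ((((h1 1).pow 2).sub ((analyticAt_const.mul (h1 0)).mul (h1 2)))).continuousAt
    have c2 : ContinuousAt (fun τ : ℂ => τ ^ 2 * K.be s τ) 0 :=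
      ((analyticAt_id.pow 2).mul (K.an_be (s := fun _ : ℂ => s) hs analyticAt_id h)).continuousAt
    have hc : ContinuousAt (fun τ : ℂ => τ • s) 0 := by fun_prop
    have h3 : ∀ᶠ τ in 𝓝[≠] (0 : ℂ), disc (K.yy s τ) = τ ^ 2 * K.be s τ := by
      filter_upwards [nhdsWithin_le_nhds (hc.eventually (isOpen_ball.mem_nhds h)),
        self_mem_nhdsWithin] with t h4 h5
      exact K.disc_yy_of_ne h4 h5
    exact tendsto_nhds_unique ((c1.tendsto.mono_left nhdsWithin_le_nhds).congr' h3)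
      (c2.tendsto.mono_left nhdsWithin_le_nhds)

/-- values at `z = 0` -/
theorem yy_zero {s : Fin 2 → ℂ} {τ : ℂ} (h : τ • s = 0) (j : Fin 3) :
    K.yy s τ j = ![κ * s 0 ^ 2, 2 * κ * (s 0 * s 1), κ * s 1 ^ 2] j := by
  simp only [yy, h, K.A_zero]
  fin_cases j <;> simp [kc] <;> ring

end KF

end

end Crest.Agent.R272.PW_92
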