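import Crest.Agent.R272.Th3_876
import Crest.Agent.R272.PW2_92
import Crest.Agent.R272.PosP3_848

/-!
# R272 (helper876), THETA, part 4: the input `KD` of helper92 and the collar formulas

`Theta.kd`   : `KD 4⁻¹ T.q`;
`exists_kd`  : for the curve of S0415: `q` with `KD 4⁻¹ q` and, near `Γ`, in the frame `i`:
               `q j (U x) g_i = ks_j U_i²`, `disc q (U x) g_i³ = U_i⁶ rh`;
`KdP.x`, `KdP.R` : `ξ ks_j = ω q_j(U x)`, `ξ³ rh = ω³ disc q (U x)` for `ω = ξ g_i / U_i²`.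
-/

set_option autoImplicit false
set_option linter.unusedSectionVars false
set_option linter.unusedVariables false

open Set Filter Topology Asymptotics

namespace Crest.Agent.R272.Th_876

open Crest.Agent.R272.AJ_956 Crest.Agent.R272.Idn_834
open Crest.Agent.R272.K3E_227 (Sext k3 fp Fp lr rv)
open Crest.Agent.R272.PW_92 (KD disc)

noncomputable section

variable {C : Type} [TopologicalSpace C] {𝒞 : Cur C} {N : Set (C × C)} {U : C × C → E2}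
  {l : Fin 7 → ℂ}

theorem Theta.kd {S : Sext 𝒞 l} {h : 𝒞.NearE N U} (T : Theta S h) : KD 4⁻¹ T.q where
  κ_ne := by norm_num
  an := T.an
  j0 := T.exp 0
  j1 := by
    refine (T.exp 1).congr_left fun z => ?_
    show T.q 1 z - 4⁻¹ * (2 * z 0 * z 1) = _
    ring
  j2 := T.exp 2
  disc6 := T.disc
  nz := by
    intro h0
    refine T.nz ?_
    filter_upwards [h0] with z hz
    exact not_not.2 hz

open Crest.Agent.R272.Cur_297 (Par Cv P1 cur tt kk yv vv sv)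
open Crest.Agent.R272.K3E_227 (lP sextP k3P)
open Crest.Agent.R272.PosP3_848 (fs fr eta ks rh)
open Crest.Agent.R272.Kum_977 (Fh rho)

variable {P : Par} {NP : Set (Cv P × Cv P)} {UP : Cv P × Cv P → E2}

theorem Tj_ks {i : Fin 2} {x : Cv P × Cv P} (h1 : x.1 ∈ Ci (cur P) i) (h2 : x.2 ∈ Ci (cur P) i)
    (j : Fin 3) : Tj (cur P) i j x = ks i i x.1 x.2 j := by
  fin_cases i
  · have e1 : tv (cur P) 0 x.1 = fr 0 x.1 := by
      rw [K3E_227.tv0, PosP3_848.fr_zero (K3E_227.mem_C0.1 h1)]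
    have e2 : tv (cur P) 0 x.2 = fr 0 x.2 := by
      rw [K3E_227.tv0, PosP3_848.fr_zero (K3E_227.mem_C0.1 h2)]
    have f1 : fs 0 x.1 = 1 := rfl
    have f2 : fs 0 x.2 = 1 := rfl
    fin_cases j
    · show (1 : ℂ) = fs 0 x.1 * fs 0 x.2
      rw [f1, f2]; ring
    · show tv (cur P) 0 x.1 + tv (cur P) 0 x.2 = fr 0 x.1 * fs 0 x.2 + fs 0 x.1 * fr 0 x.2
      rw [f1, f2, e1, e2]; ring
    · show tv (cur P) 0 x.1 * tv (cur P) 0 x.2 = fr 0 x.1 * fr 0 x.2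
      rw [e1, e2]
  · have e1 : tv (cur P) 1 x.1 = fs 1 x.1 := by rw [K3E_227.tv1, PosP3_848.fs_one]
    have e2 : tv (cur P) 1 x.2 = fs 1 x.2 := by rw [K3E_227.tv1, PosP3_848.fs_one]
    have f1 : fr 1 x.1 = 1 := rfl
    have f2 : fr 1 x.2 = 1 := rfl
    fin_cases j
    · show tv (cur P) 1 x.1 * tv (cur P) 1 x.2 = fs 1 x.1 * fs 1 x.2
      rw [e1, e2]
    · show tv (cur P) 1 x.1 + tv (cur P) 1 x.2 = fr 1 x.1 * fs 1 x.2 + fs 1 x.1 * fr 1 x.2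
      rw [f1, f2, e1, e2]; ring
    · show (1 : ℂ) = fr 1 x.1 * fr 1 x.2
      rw [f1, f2]; ring

theorem Ph_rh {i : Fin 2} {x : Cv P × Cv P} (h1 : x.1 ∈ Ci (cur P) i)
    (h2 : x.2 ∈ Ci (cur P) i) : Ph (sextP P) i x = rh i i x.1 x.2 := by
  fin_cases i
  · have e1 : tv (cur P) 0 x.1 = fr 0 x.1 := by
      rw [K3E_227.tv0, PosP3_848.fr_zero (K3E_227.mem_C0.1 h1)]
    have e2 : tv (cur P) 0 x.2 = fr 0 x.2 := by
      rw [K3E_227.tv0, PosP3_848.fr_zero (K3E_227.mem_C0.1 h2)]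
    have y1 : (sextP P).y 0 x.1 = eta 0 x.1 :=
      (PosP3_848.eta_zero (K3E_227.mem_C0.1 h1)).symm
    have y2 : (sextP P).y 0 x.2 = eta 0 x.2 :=
      (PosP3_848.eta_zero (K3E_227.mem_C0.1 h2)).symm
    have f1 : fs 0 x.1 = 1 := rfl
    have f2 : fs 0 x.2 = 1 := rfl
    have l0 : lr (lP P) 0 = lP P := by simp [lr]
    show Fp (lr (lP P) 0) (tv (cur P) 0 x.1) (tv (cur P) 0 x.2) -
      2 * (sextP P).y 0 x.1 * (sextP P).y 0 x.2 = rho (lP P) (fs 0 x.1) (fr 0 x.1) (eta 0 x.1)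
        (fs 0 x.2) (fr 0 x.2) (eta 0 x.2)
    rw [y1, y2, e1, e2, f1, f2, l0]
    unfold rho Fh Fp
    ring
  · have e1 : tv (cur P) 1 x.1 = fs 1 x.1 := by rw [K3E_227.tv1, PosP3_848.fs_one]
    have e2 : tv (cur P) 1 x.2 = fs 1 x.2 := by rw [K3E_227.tv1, PosP3_848.fs_one]
    have y1 : (sextP P).y 1 x.1 = - eta 1 x.1 := by rw [PosP3_848.eta_one]; rfl
    have y2 : (sextP P).y 1 x.2 = - eta 1 x.2 := by rw [PosP3_848.eta_one]; rfl
    have f1 : fr 1 x.1 = 1 := rfl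
    have f2 : fr 1 x.2 = 1 := rfl
    have l1 : lr (lP P) 1 = rv (lP P) := by simp [lr]
    have r0 : rv (lP P) 0 = lP P 6 := rfl
    have r1 : rv (lP P) 1 = lP P 5 := rfl
    have r2 : rv (lP P) 2 = lP P 4 := rfl
    have r3 : rv (lP P) 3 = lP P 3 := rfl
    have r4 : rv (lP P) 4 = lP P 2 := rfl
    have r5 : rv (lP P) 5 = lP P 1 := rfl
    have r6 : rv (lP P) 6 = lP P 0 := rfl
    show Fp (lr (lP P) 1) (tv (cur P) 1 x.1) (tv (cur P) 1 x.2) -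
      2 * (sextP P).y 1 x.1 * (sextP P).y 1 x.2 = rho (lP P) (fs 1 x.1) (fr 1 x.1) (eta 1 x.1)
        (fs 1 x.2) (fr 1 x.2) (eta 1 x.2)
    rw [y1, y2, e1, e2, f1, f2, l1]
    unfold rho Fh Fp
    rw [r0, r1, r2, r3, r4, r5, r6]
    ring

theorem exists_y (P : Par) : ∃ i, ∃ c ∈ Ci (cur P) i, (sextP P).y i c ≠ 0 := by
  obtain ⟨t, ht⟩ := (Set.finite_range P.c).exists_notMem
  obtain ⟨c, hc⟩ := Cur_297.surjective_tt (P := P) ((t : ℂ) : P1)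
  have h1 : tt c ≠ OnePoint.infty := by rw [hc]; exact OnePoint.coe_ne_infty t
  refine ⟨0, c, K3E_227.mem_C0.2 h1, ?_⟩
  show yv c ≠ 0
  intro h0
  have h2 := Cur_297.yv_sq h1
  have h3 : Cur_297.tv c = t := by
    have := Cur_297.tt_eq h1
    rw [hc] at this
    exact (OnePoint.coe_injective this).symm
  rw [h0, h3] at h2
  have h4 : P.p0 t ≠ 0 := by
    unfold Par.p0 Par.AA Par.BB
    have hj : ∀ j, t - P.c j ≠ 0 := fun j h => ht ⟨j, (sub_eq_zero.1 h).symm⟩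
    exact mul_ne_zero (mul_ne_zero (mul_ne_zero (hj _) (hj _)) (hj _))
      (mul_ne_zero (mul_ne_zero (hj _) (hj _)) (hj _))
  apply h4
  rw [← h2]
  ring

/-- the germs for the curve of S0415, with the relations near `Γ` -/
structure KdP (h : (cur P).NearE NP UP) (q : Fin 3 → E2 → ℂ) (x : Cv P × Cv P) : Prop where
  mem : x ∈ NP
  rel : ∀ i, x ∈ (k3P h).N i → ∀ j,
    q j (UP x) * (k3P h).g i x = ks i i x.1 x.2 j * UP x i ^ 2
  rel6 : ∀ i, x ∈ (k3P h).N i →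
    disc (fun j => q j (UP x)) * (k3P h).g i x ^ 3 = UP x i ^ 6 * rh i i x.1 x.2

theorem exists_kd (h : (cur P).NearE NP UP) : ∃ q : Fin 3 → E2 → ℂ, KD 4⁻¹ q ∧
    (∀ j, q j 0 = 0) ∧ ∀ᶠ x in 𝓝ˢ (cur P).Gam, KdP h q x := by
  obtain ⟨T⟩ := exists_theta (sextP P) h (exists_y P)
  refine ⟨T.q, T.kd, T.zero, ?_⟩
  filter_upwards [T.form] with x hx
  have hr : ∀ i, x ∈ (k3P h).N i → ∀ j,
      T.q j (UP x) * (k3P h).g i x = ks i i x.1 x.2 j * UP x i ^ 2 := by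
    intro i hi j
    have hd := (k3P h).dom i x hi
    rw [← Tj_ks hd.1 hd.2.1 j]
    exact hx.2 i hi j
  refine ⟨hx.1, hr, fun i hi => ?_⟩
  have hd := (k3P h).dom i x hi
  have e0 := hx.2 i hi 0
  have e1 := hx.2 i hi 1
  have e2 := hx.2 i hi 2
  have h6 := id6 (sextP P) h hi
  have hdj := Tj_disc (𝒞 := cur P) i x
  rw [← Ph_rh hd.1 hd.2.1]
  show (T.q 1 (UP x) ^ 2 - 4 * T.q 0 (UP x) * T.q 2 (UP x)) * (k3 (sextP P) h).g i x ^ 3 = _
  have e3 : (T.q 1 (UP x) ^ 2 - 4 * T.q 0 (UP x) * T.q 2 (UP x)) * (k3 (sextP P) h).g i x ^ 2 =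
      (tv (cur P) i x.1 - tv (cur P) i x.2) ^ 2 * UP x i ^ 4 := by
    rw [← hdj]
    linear_combination (T.q 1 (UP x) * (k3 (sextP P) h).g i x +
      Tj (cur P) i 1 x * UP x i ^ 2) * e1 -
      4 * (T.q 2 (UP x) * (k3 (sextP P) h).g i x) * e0 - 4 * (Tj (cur P) i 0 x * UP x i ^ 2) * e2
  linear_combination ((k3 (sextP P) h).g i x) * e3 + (UP x i ^ 4) * h6

/-- `ω` -/
def om' (h : (cur P).NearE NP UP) (i : Fin 2) (x : Cv P × Cv P) (ξ : ℂ) : ℂ :=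
  ξ * (k3P h).g i x / UP x i ^ 2

theorem KdP.x {h : (cur P).NearE NP UP} {q : Fin 3 → E2 → ℂ} {x : Cv P × Cv P}
    (hx : KdP h q x) {i : Fin 2} (hi : x ∈ (k3P h).N i) (hU : UP x i ≠ 0) (ξ : ℂ) (j : Fin 3) :
    ξ * ks i i x.1 x.2 j = om' h i x ξ * q j (UP x) := by
  have h1 := hx.rel i hi j
  unfold om'
  rw [div_mul_eq_mul_div, eq_div_iff (pow_ne_zero 2 hU)]
  linear_combination -ξ * h1

theorem KdP.R {h : (cur P).NearE NP UP} {q : Fin 3 → E2 → ℂ} {x : Cv P × Cv P}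
    (hx : KdP h q x) {i : Fin 2} (hi : x ∈ (k3P h).N i) (hU : UP x i ≠ 0) (ξ : ℂ) :
    ξ ^ 3 * rh i i x.1 x.2 = om' h i x ξ ^ 3 * disc (fun j => q j (UP x)) := by
  have h1 := hx.rel6 i hi
  unfold om'
  rw [div_pow, div_mul_eq_mul_div, eq_div_iff (pow_ne_zero 3 (pow_ne_zero 2 hU))]
  linear_combination -(ξ ^ 3) * h1

end

end Crest.Agent.R272.Th_876
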