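import Crest.Agent.R272.PW5_92
import Crest.Agent.R272.Th4_876
import Crest.Agent.R272.PEndZ_220
import Crest.Agent.R272.PEnd10_732
import Crest.Agent.R272.Fin4_338

/-!
# R272 (S0415), POS at `p0` (helper92), part 6: the collar

`X_col`, `RR_col` : `X_j(z, m) = ξ ks_j`, `RR(z, m) = ξ³ rh` at the point `(TT, U_i, ξ g_i)` of `Um`,
                    also on `Γ` (by continuity);
`collar`          : the functions on `Up` and on `Y` agree on the collar (`cp` of 220's `germ15`).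
-/

set_option autoImplicit false
set_option linter.unusedSectionVars false
set_option linter.unusedVariables false

open Set Filter Topology Metric

namespace Crest.Agent.R272.PW_92

open Crest.Agent.R275.Geo Crest.Agent.R273.Fam_835
open Crest.Agent.R272.AJ_956 Crest.Agent.R272.Idn_834 Crest.Agent.R272.Ax_834
open Crest.Agent.R272.Flop_66 Crest.Agent.R272.Lc_220 Crest.Agent.R272.FinCB3_876
open Crest.Agent.R272.Cur_297 (Par Cv P1 cur tt kk yv vv sv Pz Cz)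
open Crest.Agent.R272.K3E_227 (lP sextP k3P k3 Sext)
open Crest.Agent.R272.PosP3_848 (fs fr eta ks rh FF FF_fij)
open Crest.Agent.R272.Th_876 (KdP Tj Ph Tj_ks Ph_rh Ph_cont freq_gam om' exists_kd)

noncomputable section

/-! ### the point of `Um` -/

/-- `z` in the chart `i` -/
def zi (i : Fin 2) (T a : ℂ) : Fin 2 → ℂ := if i = 0 then ![a, a * T] else ![a * T, a]

/-- `m` in the chart `i` -/
def mi (i : Fin 2) (T μ : ℂ) : Fin 3 → ℂ :=
  if i = 0 then ![μ, μ * T, μ * T ^ 2] else ![μ * T ^ 2, μ * T, μ]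

theorem um_z (i : Fin 2) (p : (ℂ × ℂ) × ℂ) :
    ((Um.fam.e (Um.dix i)).symm (h3 p)).z = zi i p.1.1 p.1.2 := by
  fin_cases i <;> rfl

theorem um_m (i : Fin 2) (p : (ℂ × ℂ) × ℂ) :
    ((Um.fam.e (Um.dix i)).symm (h3 p)).m = mi i p.1.1 p.2 := by
  fin_cases i <;> rfl

section core

variable {P : Par} {NP : Set (Cv P × Cv P)} {UP : Cv P × Cv P → E2} {h : (cur P).NearE NP UP}
  {κ : ℂ} {q : Fin 3 → E2 → ℂ} (K : KF κ q)

theorem zi_U {i : Fin 2} {x : Cv P × Cv P} (hg : x ∉ (cur P).Gam) (hU : UP x i ≠ 0) :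
    zi i ((cur P).TT UP i x) (UP x i) = UP x := by
  rw [TT_off hg]
  funext k
  fin_cases i
  · fin_cases k
    · rfl
    · show UP x 0 * (UP x 1 / UP x 0) = UP x 1
      exact mul_div_cancel₀ _ hU
  · fin_cases k
    · show UP x 1 * (UP x 0 / UP x 1) = UP x 0
      exact mul_div_cancel₀ _ hU
    · rfl

theorem mi_qu {i : Fin 2} {x : Cv P × Cv P} (hg : x ∉ (cur P).Gam) (hU : UP x i ≠ 0) (μ : ℂ) :
    mi i ((cur P).TT UP i x) μ = KF.qu (μ / UP x i ^ 2) (UP x) := by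
  rw [TT_off hg]
  funext k
  fin_cases i
  · have hU0 : UP x 0 ≠ 0 := hU
    fin_cases k
    · show μ = μ / UP x 0 ^ 2 * UP x 0 ^ 2
      field_simp
    · show μ * (UP x 1 / UP x 0) = μ / UP x 0 ^ 2 * (UP x 0 * UP x 1)
      field_simp
    · show μ * (UP x 1 / UP x 0) ^ 2 = μ / UP x 0 ^ 2 * UP x 1 ^ 2
      field_simp
  · have hU0 : UP x 1 ≠ 0 := hU
    fin_cases k
    · show μ * (UP x 0 / UP x 1) ^ 2 = μ / UP x 1 ^ 2 * UP x 0 ^ 2
      field_simp
    · show μ * (UP x 0 / UP x 1) = μ / UP x 1 ^ 2 * (UP x 0 * UP x 1)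
      field_simp
    · show μ = μ / UP x 1 ^ 2 * UP x 1 ^ 2
      field_simp

/-- `X` off `Γ` -/
theorem X_off {i : Fin 2} {x : Cv P × Cv P} (hx : KdP h q x) (hi : x ∈ (k3P h).N i)
    (hg : x ∉ (cur P).Gam) (hb : UP x ∈ ball (0 : Fin 2 → ℂ) K.ε) (ξ : ℂ) (j : Fin 3) :
    K.X (zi i ((cur P).TT UP i x) (UP x i)) (mi i ((cur P).TT UP i x) (ξ * (k3P h).g i x)) j =
      ξ * ks i i x.1 x.2 j := by
  have hU : UP x i ≠ 0 := ((k3P h).dom i x hi).2.2.resolve_left hg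
  rw [zi_U hg hU, mi_qu hg hU, K.X_cone hb, hx.x hi hU]
  rfl

/-- `RR` off `Γ` -/
theorem RR_off {i : Fin 2} {x : Cv P × Cv P} (hx : KdP h q x) (hi : x ∈ (k3P h).N i)
    (hg : x ∉ (cur P).Gam) (hb : UP x ∈ ball (0 : Fin 2 → ℂ) K.ε) (ξ : ℂ) :
    K.RR (zi i ((cur P).TT UP i x) (UP x i)) (mi i ((cur P).TT UP i x) (ξ * (k3P h).g i x)) =
      ξ ^ 3 * rh i i x.1 x.2 := by
  have hU : UP x i ≠ 0 := ((k3P h).dom i x hi).2.2.resolve_left hg
  rw [zi_U hg hU, mi_qu hg hU, K.RR_cone hb, hx.R hi hU]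
  rfl

/-! ### continuity -/

theorem fst_c {C X : Type} [TopologicalSpace C] [TopologicalSpace X] {f : C → X} {x : C × C}
    (h : ContinuousAt f x.1) : ContinuousAt (fun y : C × C => f y.1) x :=
  h.comp (f := Prod.fst) continuousAt_fst

theorem snd_c {C X : Type} [TopologicalSpace C] [TopologicalSpace X] {f : C → X} {x : C × C}
    (h : ContinuousAt f x.2) : ContinuousAt (fun y : C × C => f y.2) x :=
  h.comp (f := Prod.snd) continuousAt_snd

theorem Tj_cont {i : Fin 2} {x : Cv P × Cv P} (h1 : x.1 ∈ Ci (cur P) i)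
    (h2 : x.2 ∈ Ci (cur P) i) (j : Fin 3) : ContinuousAt (Tj (cur P) i j) x := by
  have a1 := fst_c (K3E_227.tv_cont i x.1 h1)
  have a2 := snd_c (K3E_227.tv_cont i x.2 h2)
  fin_cases i <;> fin_cases j
  · exact continuousAt_const
  · exact a1.add a2
  · exact a1.mul a2
  · exact a1.mul a2
  · exact a1.add a2
  · exact continuousAt_const

theorem ks_cont {i : Fin 2} {x : Cv P × Cv P} (hi : x ∈ (k3P h).N i) (j : Fin 3) :
    ContinuousAt (fun x : Cv P × Cv P => ks i i x.1 x.2 j) x := by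
  have hd := (k3P h).dom i x hi
  refine (Tj_cont hd.1 hd.2.1 j).congr ?_
  filter_upwards [((k3P h).open_N i).mem_nhds hi] with y hy
  have hy' := (k3P h).dom i y hy
  exact Tj_ks hy'.1 hy'.2.1 j

theorem rh_cont {i : Fin 2} {x : Cv P × Cv P} (hi : x ∈ (k3P h).N i) :
    ContinuousAt (fun x : Cv P × Cv P => rh i i x.1 x.2) x := by
  have hd := (k3P h).dom i x hi
  refine (Ph_cont (sextP P) hd.1 hd.2.1).congr ?_
  filter_upwards [((k3P h).open_N i).mem_nhds hi] with y hy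
  have hy' := (k3P h).dom i y hy
  exact Ph_rh hy'.1 hy'.2.1

theorem g_cont {i : Fin 2} {x : Cv P × Cv P} (hi : x ∈ (k3P h).N i) :
    ContinuousAt ((k3P h).g i) x := by
  have hx' : x ∈ interior (K3E_227.Tset (sextP P) NP UP i) := hi.1
  obtain ⟨⟨m1, m2⟩, m3, m4, m5, m6, m7, m8⟩ := interior_subset hx'
  exact m6

theorem zi_cont {Z : Type} [TopologicalSpace Z] {i : Fin 2} {T a : Z → ℂ} {x : Z}
    (hT : ContinuousAt T x) (ha : ContinuousAt a x) :
    ContinuousAt (fun y => zi i (T y) (a y)) x := by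
  refine continuousAt_pi.2 fun k => ?_
  fin_cases i <;> fin_cases k
  · exact ha
  · exact ha.mul hT
  · exact ha.mul hT
  · exact ha

theorem mi_cont {Z : Type} [TopologicalSpace Z] {i : Fin 2} {T μ : Z → ℂ} {x : Z}
    (hT : ContinuousAt T x) (hμ : ContinuousAt μ x) (k : Fin 3) :
    ContinuousAt (fun y => mi i (T y) (μ y) k) x := by
  fin_cases i <;> fin_cases k
  · exact hμ
  · exact hμ.mul hT
  · exact hμ.mul (hT.pow 2)
  · exact hμ.mul (hT.pow 2)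
  · exact hμ.mul hT
  · exact hμ

theorem X_cont {Z : Type} [TopologicalSpace Z] {z : Z → Fin 2 → ℂ} {m : Z → Fin 3 → ℂ} {x : Z}
    (hz : ContinuousAt z x) (hm : ∀ k, ContinuousAt (fun y => m y k) x)
    (hb : z x ∈ ball (0 : Fin 2 → ℂ) K.ε) (j : Fin 3) :
    ContinuousAt (fun y => K.X (z y) (m y) j) x := by
  have hA : ∀ k, ContinuousAt (fun y => K.A j k (z y)) x := fun k =>
    ContinuousAt.comp (g := K.A j k) (f := z) (K.A_an j k _ hb).continuousAt hz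
  exact (((hm 0).mul (hA 0)).add ((hm 1).mul (hA 1))).add ((hm 2).mul (hA 2))

theorem RR_cont {Z : Type} [TopologicalSpace Z] {z : Z → Fin 2 → ℂ} {m : Z → Fin 3 → ℂ} {x : Z}
    (hz : ContinuousAt z x) (hm : ∀ k, ContinuousAt (fun y => m y k) x)
    (hb : z x ∈ ball (0 : Fin 2 → ℂ) K.ε) :
    ContinuousAt (fun y => K.RR (z y) (m y)) x := by
  have hB : ∀ k, ContinuousAt (fun y => K.B k (z y)) x := fun k =>
    ContinuousAt.comp (g := K.B k) (f := z) (K.B_an k _ hb).continuousAt hz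
  refine tendsto_finsetSum _ fun k _ => ?_
  refine ContinuousAt.mul ?_ (hB k)
  fin_cases k
  · exact (hm 0).pow 3
  · exact ((hm 0).pow 2).mul (hm 1)
  · exact ((hm 0).pow 2).mul (hm 2)
  · exact ((hm 0).mul (hm 1)).mul (hm 2)
  · exact (hm 0).mul ((hm 2).pow 2)
  · exact (hm 1).mul ((hm 2).pow 2)
  · exact (hm 2).pow 3

/-! ### everywhere near `Γ` -/

/-- two functions continuous at a point of `Γ` which agree off `Γ` agree -/
theorem eq_gam {c : Cv P} {f g : Cv P × Cv P → ℂ}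
    (hf : ContinuousAt f (c, (cur P).iv c)) (hg : ContinuousAt g (c, (cur P).iv c))
    (he : ∀ᶠ x in 𝓝 ((c, (cur P).iv c) : Cv P × Cv P), x ∉ (cur P).Gam → f x = g x) :
    f (c, (cur P).iv c) = g (c, (cur P).iv c) := by
  have hne : NeBot (𝓝[(cur P).Gamᶜ] ((c, (cur P).iv c) : Cv P × Cv P)) := by
    rw [← mem_closure_iff_nhdsWithin_neBot, mem_closure_iff_frequently]
    exact freq_gam c
  refine tendsto_nhds_unique ((hf.tendsto.mono_left (nhdsWithin_le_nhds (s := (cur P).Gamᶜ))).congr'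
    ?_) (hg.tendsto.mono_left (nhdsWithin_le_nhds (s := (cur P).Gamᶜ)))
  filter_upwards [mem_nhdsWithin_of_mem_nhds he, self_mem_nhdsWithin] with x h1 h2
  exact h1 h2

theorem U_zero_gam {x : Cv P × Cv P} (h : (cur P).NearE NP UP) (hg : x ∈ (cur P).Gam) :
    UP x = 0 := U_gam h hg

/-- **`X` and `RR` in terms of `(x, ξ)`** -/
theorem XR_col (hq : ∀ᶠ x in 𝓝ˢ (cur P).Gam, KdP h q x) {x : Cv P × Cv P} (hx : KdP h q x)
    {i : Fin 2} (hi : x ∈ (k3P h).N i) (hb : UP x ∈ ball (0 : Fin 2 → ℂ) K.ε) (ξ : ℂ) :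
    (∀ j, K.X (zi i ((cur P).TT UP i x) (UP x i))
      (mi i ((cur P).TT UP i x) (ξ * (k3P h).g i x)) j = ξ * ks i i x.1 x.2 j) ∧
    K.RR (zi i ((cur P).TT UP i x) (UP x i)) (mi i ((cur P).TT UP i x) (ξ * (k3P h).g i x)) =
      ξ ^ 3 * rh i i x.1 x.2 := by
  by_cases hg : x ∈ (cur P).Gam
  · obtain ⟨c, c'⟩ := x
    obtain rfl : c' = (cur P).iv c := hg
    have hg : ((c, (cur P).iv c) : Cv P × Cv P) ∈ (cur P).Gam := rfl
    have hc : c ∈ Ci (cur P) i := ((k3P h).dom i _ hi).1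
    have hU0 : UP (c, (cur P).iv c) = 0 := U_gam h hg
    have hUc : ContinuousAt UP (c, (cur P).iv c) := K3E_227.U_cont h _ (h.sub hg)
    have hUi : ContinuousAt (fun x => UP x i) (c, (cur P).iv c) :=
      ContinuousAt.comp (g := fun z : E2 => z i) (continuous_apply i).continuousAt hUc
    have hT := TT_cont h hc
    have hμ : ContinuousAt (fun x => ξ * (k3P h).g i x) (c, (cur P).iv c) :=
      continuousAt_const.mul (g_cont hi)
    have hz := zi_cont (i := i) hT hUi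
    have hm := fun k => mi_cont (i := i) hT hμ k
    have hz0 : zi i ((cur P).TT UP i (c, (cur P).iv c)) (UP (c, (cur P).iv c) i) ∈
        ball (0 : Fin 2 → ℂ) K.ε := by
      have : zi i ((cur P).TT UP i (c, (cur P).iv c)) (UP (c, (cur P).iv c) i) = 0 := by
        rw [hU0]
        funext k
        fin_cases i <;> fin_cases k <;> simp [zi]
      rw [this]
      exact mem_ball_self K.ε_pos
    have hev : ∀ᶠ y in 𝓝 ((c, (cur P).iv c) : Cv P × Cv P), KdP h q y ∧ y ∈ (k3P h).N i ∧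
        UP y ∈ ball (0 : Fin 2 → ℂ) K.ε :=
      (eventually_nhdsSet_iff_forall.1 hq _ hg).and (Eventually.and
        (((k3P h).open_N i).mem_nhds hi) (hUc.eventually (isOpen_ball.mem_nhds hb)))
    constructor
    · intro j
      refine eq_gam (P := P) (X_cont K hz hm hz0 j) (continuousAt_const.mul (ks_cont hi j)) ?_
      filter_upwards [hev] with y hy hyg
      exact X_off K hy.1 hy.2.1 hyg hy.2.2 ξ j
    · refine eq_gam (P := P) (RR_cont K hz hm hz0) (continuousAt_const.mul (rh_cont hi)) ?_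
      filter_upwards [hev] with y hy hyg
      exact RR_off K hy.1 hy.2.1 hyg hy.2.2 ξ
  · exact ⟨fun j => X_off K hx hi hg hb ξ j, RR_off K hx hi hg hb ξ⟩

end core

/-! ### small points -/

section small

open Crest.Agent.R272 Crest.Agent.R272.MQ_783 Crest.Agent.R272.Refl_246
open Crest.Agent.R272.M15_939 Crest.Agent.R272.Md_834
open Crest.Agent.R272.PosP7_848 Crest.Agent.R272.PosP5_848
open Crest.Agent.R272.Tp10_60 (GermE)
open Crest.Agent.R272.Tp4_60 (FE)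
open Crest.Agent.R272.Tq1_916 (fij)
open Crest.Agent.R272.Tq12_916 Crest.Agent.R272.Tq11_916
open Crest.Agent.R272.Fin_338 (YB COL Pens)

theorem FE_fij {P : Par} (i : Fin 2) (p : (Cv P × Cv P) × ℂ) :
    FE P i p = fij tt i i (p.1.1, p.1.2, p.2) := by
  fin_cases i
  · show Tp2_60.f0 tt (p.1.1, p.1.2, p.2) = _
    simp only [Tp2_60.f0, fij, Fin.zero_eta, Tq1_916.dl_zero, Tq1_916.nu_zero, mul_one]
    refine Prod.ext rfl (Prod.ext rfl (Prod.ext rfl ?_))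
    simp only
    congr 1
    ring
  · show Tp2_60.fi tt (p.1.1, p.1.2, p.2) = _
    simp only [Tp2_60.fi, fij, Fin.mk_one, Tq1_916.dl_one, Tq1_916.nu_one, mul_one]

variable {M : Ar} (W : Md M)

/-- **small points of `Um`** come from small points of the cover -/
theorem small_form {O : Set M.X} (hO : IsOpen O) (hO' : ∀ y, M.A.pz y = M.p0 → y ∈ O)
    {Q : Cz × Cz → Prop} (hQ : ∀ᶠ x in 𝓝ˢ (cur Pz).Gam, Q x) :
    ∃ δ > 0, ∀ a : Um, a.N < δ → ∃ (i : Fin 2) (p : (Cz × Cz) × ℂ), p ∈ W.I.Dm i ∧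
      W.Ge.E i p ∈ W.I.OO ∧ W.Ge.E i p ∈ O ∧ Q p.1 ∧ pr M.G (W.Ge.E i p) = W.e.symm a ∧
      a = (Um.fam.e (Um.dix i)).symm (h3 (W.I.co W.I i p)) := by
  obtain ⟨D, hD, hGD, hDQ⟩ := eventually_nhdsSet_iff_exists.1 hQ
  let S : Fin 2 → Set ((Cz × Cz) × ℂ) := fun i =>
    (W.Ge.E i).source ∩ {p | p.1 ∈ W.NN ∧ p.1 ∈ W.I.K.N i ∧ p.1 ∈ D}
  have hS : ∀ i, IsOpen (S i) := fun i =>
    (W.Ge.E i).open_source.inter ((W.hN.open_N.inter ((W.I.K.open_N i).inter hD)).preimage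
      continuous_fst)
  let A : Set M.X := (⋃ i, (W.Ge.E i) '' S i) ∩ (W.I.OO ∩ O)
  have hA : IsOpen A := (isOpen_iUnion fun i =>
    (W.Ge.E i).isOpen_image_of_subset_source (hS i) inter_subset_left).inter
      (W.I.isOpen_OO.inter hO)
  let B : Set Um := W.e.target ∩ W.e.symm ⁻¹' (pr M.G '' A)
  have hB : IsOpen B := W.e.isOpen_inter_preimage_symm (isOpenQuotientMap_pr.isOpenMap _ hA)
  have h0 : ∀ a : Um, a.N = 0 → a ∈ B := by
    intro a ha
    have h1 : a ∈ W.e.target := W.isId.sub_target (fun _ => rfl) a ha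
    refine ⟨h1, ?_⟩
    have h2 : W.e.symm a ∈ W.e.source := W.e.map_target h1
    obtain ⟨i, c, hc, h3⟩ := W.isId.exists_c (fun _ => rfl) h2 (by rw [W.e.right_inv h1]; exact ha)
    refine ⟨W.Ge.E i ((c, (cur Pz).iv c), 0), ⟨?_, W.I.y0_OO hc, ?_⟩, h3.symm⟩
    · exact mem_iUnion.2 ⟨i, mem_image_of_mem _ ⟨W.Ge.mem i c hc, W.hN.sub rfl,
        W.I.K.sub i c hc, hGD rfl⟩⟩
    · refine hO' _ ?_
      rw [W.Z.germ i _ (W.Ge.mem i c hc)]
      exact W.pz _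
  obtain ⟨δ, δ0, hδ⟩ := Um.exists_eps hB h0
  refine ⟨δ, δ0, fun a ha => ?_⟩
  obtain ⟨h1, y, ⟨hy1, hy2, hy3⟩, hy4⟩ := hδ a ha.le
  obtain ⟨i, p, hp, rfl⟩ := mem_iUnion.1 hy1 |>.imp fun i h => h
  have hD' : p ∈ W.I.Dm i := ⟨hp.1, hp.2.1, hp.2.2.1⟩
  refine ⟨i, p, hD', hy2, hy3, hDQ _ hp.2.2.2, hy4, ?_⟩
  have h2 := W.isId.form i p hD' hy2
  rw [hy4, W.e.right_inv h1] at h2
  exact h2

/-- **the collar** -/
theorem collar {O : Set M.X} (Γ : GermE (Gr_559.isSl_X1 M.DX) M.A Pz M.s M.p0)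
    (hG : W.Ge = Γ.g) (T : YC Pz M.CX M.A.pz M.p0 O) (hT : T.st = PEnd8_732.st M.A Γ.L Γ.hX)
    {κ : ℂ} {q : Fin 3 → E2 → ℂ} (K : KF κ q)
    (hq : ∀ᶠ x in 𝓝ˢ (cur Pz).Gam, KdP W.hN q x) :
    ∃ δ > 0, ∀ u : Up, u.N ≠ 0 → u.N < δ → u.N < W.ε → ∃ y ∈ O, pr M.G y = W.S.bx u ∧
      ∀ b, 15 ≤ b → ∀ j, K.PhiU b j u = T.ff b j y := by
  have hball : ∀ᶠ x in 𝓝ˢ (cur Pz).Gam, W.U x ∈ ball (0 : Fin 2 → ℂ) K.ε := by
    rw [eventually_nhdsSet_iff_forall]
    intro x hx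
    have h1 : ContinuousAt W.U x := K3E_227.U_cont W.hN x (W.hN.sub hx)
    refine h1.eventually (isOpen_ball.mem_nhds ?_)
    rw [U_gam W.hN hx]
    exact mem_ball_self K.ε_pos
  obtain ⟨δ, δ0, hδ⟩ := small_form W T.hO (fun y hy => (T.fib y hy).1) (hq.and hball)
  refine ⟨δ, δ0, fun u h0 h1 h2 => ?_⟩
  have hNs : (phi.symm u).N = u.N := W.S.NA_symm (b := u) h0
  obtain ⟨i, p, hp, hOO, hpO, ⟨hk, hb⟩, h3, h4⟩ := hδ (phi.symm u) (by rw [hNs]; exact h1)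
  refine ⟨W.Ge.E i p, hpO, h3, fun b hb15 j => ?_⟩
  have hz : u.z = zi i ((cur Pz).TT W.U i p.1) (W.U p.1 i) := by
    rw [← (pd_spec h0).1, ← phi_symm_apply, h4, um_z]
    rfl
  have hm : u.m = mi i ((cur Pz).TT W.U i p.1) (p.2 * (k3P W.hN).g i p.1) := by
    rw [← (pd_spec h0).2, ← phi_symm_apply, h4, um_m]
    rfl
  have hXR := XR_col K hq hk hp.2.2 hb p.2
  have hX : K.X u.z u.m = fun k => p.2 * ks i i p.1.1 p.1.2 k := by
    funext k
    rw [hz, hm]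
    exact hXR.1 k
  have hR : K.RR u.z u.m = p.2 ^ 3 * rh i i p.1.1 p.1.2 := by
    rw [hz, hm]
    exact hXR.2
  have hst : T.st (W.Ge.E i p) = fij tt i i (p.1.1, p.1.2, p.2) := by
    rw [hT, hG, (PEnd8_732.st_gE Γ i (by rw [← hG]; exact hp.1)).2, FE_fij]
  show K.PhiU b j u = FF b (T.st (W.Ge.E i p)) j
  rw [hst, FF_fij hb15, KF.PhiU, phi_eq hb15 (x := K.X u.z u.m) (R := K.RR u.z u.m) rfl rfl rfl rfl,
    hX, hR]

/-- **`COL`** -/
theorem col (Γ : GE M) (Y : YB M Γ) (hG : W.Ge = Γ.g) : COL Y W := by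
  obtain ⟨q, hKD, -, hq⟩ := exists_kd W.hN
  obtain ⟨K⟩ := hKD.exists_kf
  obtain ⟨δ, δ0, hδ⟩ := collar W Γ hG Y.T Y.st_eq K hq
  refine ⟨fun b hb => upDat K hb, fun b hb => ⟨δ, δ0, fun u h0 h1 h2 => ?_⟩⟩
  obtain ⟨y, hy, h3, h4⟩ := hδ u h0 h1 h2
  exact ⟨y, hy, h3, h4 b hb⟩

end small

end

end Crest.Agent.R272.PW_92
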