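import Crest.Agent.R273.Defs_333

/-!
# R272, leaf COMP-RED (helper259), part 1: restriction to open / clopen subsets

* `subA A U` : the atlas `A : Atl n M` restricted to the nonempty open subset `U`; `subP` (`Part`),
  `subPD` (`ProjD`) for clopen subsets;
* `locConn` : a space with an atlas is locally connected; `cmp x` : the connected component of `x` as
  an `Opens`, it is clopen;
* `ret x : C(M, cmp x)` : the retraction.
-/

set_option autoImplicit false
set_option linter.unusedSectionVars false

open Set Filter Topology Complex TopologicalSpace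
open scoped ContDiff Manifold

namespace Crest.Agent.R272.Comp_259

open Crest.Agent.R275.Geo Crest.Agent.R275.Core144 Crest.Agent.R275.GC293
open Crest.Agent.R273.Defs_333

noncomputable section

variable {n : ℕ} {M : Type} [TopologicalSpace M]

section Sub

variable (A : Atl n M) (U : Opens M) [hU : Nonempty U]

/-- the restricted chart -/
def rc' (i : A.ι) : OpenPartialHomeomorph U (Cn n) := (A.e i).subtypeRestr hU

theorem rc_apply (i : A.ι) (x : U) : rc' A U i x = A.e i x := rfl

theorem rc_source (i : A.ι) : (rc' A U i).source = Subtype.val ⁻¹' (A.e i).source :=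
  (A.e i).subtypeRestr_source hU

theorem mem_rc_source {i : A.ι} {x : U} : x ∈ (rc' A U i).source ↔ (x : M) ∈ (A.e i).source := by
  rw [rc_source]; rfl

theorem rc_target (i : A.ι) :
    (rc' A U i).target = (A.e i).target ∩ (A.e i).symm ⁻¹' U := by
  show ((U.openPartialHomeomorphSubtypeCoe hU).trans (A.e i)).target = _
  rw [OpenPartialHomeomorph.trans_target]
  simp

theorem mem_rc_target {i : A.ι} {z : Cn n} :
    z ∈ (rc' A U i).target ↔ z ∈ (A.e i).target ∧ (A.e i).symm z ∈ U := by
  rw [rc_target]; rfl

theorem rc_symm {i : A.ι} {z : Cn n} (hz : z ∈ (rc' A U i).target) :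
    (((rc' A U i).symm z : U) : M) = (A.e i).symm z :=
  ((A.e i).subtypeRestr_symm_eqOn hU hz).symm

/-- the atlas restricted to `U` -/
def subA : Atl n U where
  ι := A.ι
  e := rc' A U
  cover x := by
    obtain ⟨i, hi⟩ := A.cover (x : M)
    exact ⟨i, (mem_rc_source A U).2 hi⟩
  cube i z hz := A.cube i z ((mem_rc_target A U).1 hz).1
  holo i j := by
    refine ((A.holo i j).mono ?_).congr ?_
    · rintro z ⟨hz, hj⟩
      refine ⟨((mem_rc_target A U).1 hz).1, ?_⟩
      rw [← rc_symm A U hz]
      exact (mem_rc_source A U).1 hj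
    · rintro z ⟨hz, -⟩
      show A.e j (((rc' A U i).symm z : U) : M) = _
      rw [rc_symm A U hz]

instance [h : Finite A.ι] : Finite (subA A U).ι := h

theorem subA_e (i : A.ι) : (subA A U).e i = rc' A U i := rfl

variable {A U}

theorem mem_source {i : A.ι} {x : U} :
    x ∈ ((subA A U).e i).source ↔ (x : M) ∈ (A.e i).source := mem_rc_source A U

theorem mem_target {i : A.ι} {z : Cn n} :
    z ∈ ((subA A U).e i).target ↔ z ∈ (A.e i).target ∧ (A.e i).symm z ∈ U := mem_rc_target A U

theorem e_apply (i : A.ι) (x : U) : (subA A U).e i x = A.e i x := rfl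

theorem e_symm {i : A.ι} {z : Cn n} (hz : z ∈ ((subA A U).e i).target) :
    ((((subA A U).e i).symm z : U) : M) = (A.e i).symm z := rc_symm A U hz

theorem target_sub (i : A.ι) : ((subA A U).e i).target ⊆ (A.e i).target := fun _ hz =>
  (mem_target.1 hz).1

/-- smooth functions restrict -/
theorem sm_sub {W : Type*} [NormedAddCommGroup W] [NormedSpace ℝ W] {i : A.ι} {f : M → W}
    (h : A.SmAt i f) : (subA A U).SmAt i (fun x => f x) := by
  refine (ContDiffOn.mono h (target_sub i)).congr fun z hz => ?_
  show f ((((subA A U).e i).symm z : U) : M) = _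
  rw [e_symm hz]

/-- holomorphic functions restrict -/
theorem holAt_sub {i : A.ι} {V : Set M} {f : M → ℂ} (h : HolAt A i V f) :
    HolAt (subA A U) i (Subtype.val ⁻¹' V) (fun x => f x) := by
  refine (DifferentiableOn.mono h ?_).congr fun z hz => ?_
  · rintro z ⟨hz, hV⟩
    refine ⟨target_sub i hz, ?_⟩
    have h1 : ((((subA A U).e i).symm z : U) : M) ∈ V := hV
    rwa [e_symm hz] at h1
  · show f ((((subA A U).e i).symm z : U) : M) = _
    rw [e_symm hz.1]

/-- line bundles restrict -/
def subL (L : LB A) : LB (subA A U) where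
  g i j x := L.g i j x
  hol i j := by
    have h := holAt_sub (U := U) (L.hol i j)
    have h1 : ((subA A U).e j).source = Subtype.val ⁻¹' (A.e j).source := rc_source A U j
    rw [h1]; exact h
  off i j x hx := L.off i j x fun h => hx ⟨mem_source.2 h.1, mem_source.2 h.2⟩
  self i x := L.self i x
  mul i j k x hx := L.mul i j k x ⟨⟨mem_source.1 hx.1.1, mem_source.1 hx.1.2⟩, mem_source.1 hx.2⟩

/-- Hermitian metrics restrict -/
def subH {L : LB A} (h : HM L) : HM (subL (U := U) L) where
  w i x := h.w i x
  pos i x hx := h.pos i x (mem_source.1 hx)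
  sm i := sm_sub (h.sm i)
  tr i j x hx := h.tr i j x ⟨mem_source.1 hx.1, mem_source.1 hx.2⟩

theorem imm_sub {N : ℕ} {F : A.ι → M → Fin (N + 1) → ℂ} {i : A.ι} {z v : Cn n}
    (hz : z ∈ ((subA A U).e i).target)
    (h : (∃ c : ℂ, fderiv ℂ (fun w => F i ((A.e i).symm w)) z v = c • F i ((A.e i).symm z)) →
      v = 0)
    (h' : ∃ c : ℂ, fderiv ℂ (fun w => F i ((((subA A U).e i).symm w : U) : M)) z v =
      c • F i ((((subA A U).e i).symm z : U) : M)) : v = 0 := by
  obtain ⟨c, hc⟩ := h'
  apply h
  refine ⟨c, ?_⟩
  have h1 : (fun w => F i ((((subA A U).e i).symm w : U) : M)) =ᶠ[𝓝 z]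
      fun w => F i ((A.e i).symm w) := by
    filter_upwards [((subA A U).e i).open_target.mem_nhds hz] with w hw
    rw [e_symm hw]
  rw [h1.fderiv_eq, e_symm hz] at hc
  exact hc

theorem subPD_imm (P : ProjD A) : ∀ (i : (subA A U).ι), ∀ z ∈ ((subA A U).e i).target,
    ∀ v : Cn n, (∃ c : ℂ, fderiv ℂ (fun w => P.F i ((((subA A U).e i).symm w : U) : M)) z v =
      c • P.F i ((((subA A U).e i).symm z : U) : M)) → v = 0 := by
  intro i z hz v hv
  have h0 : z ∈ (A.e i).target := target_sub (A := A) (U := U) i hz
  have h1 := P.imm i z h0 v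
  exact imm_sub (N := P.N) (F := P.F) (i := i) hz h1 hv

/-- projective embeddings restrict -/
def subPD (P : ProjD A) : ProjD (subA A U) where
  N := P.N
  F i x := P.F i x
  hol i k := holAt_sub (V := univ) (P.hol i k)
  ne i x hx := P.ne i x (mem_source.1 hx)
  tr i j x hx := P.tr i j x ⟨mem_source.1 hx.1, mem_source.1 hx.2⟩
  inj i j x hx y hy h := Subtype.ext (P.inj i j x (mem_source.1 hx) y (mem_source.1 hy) h)
  imm := subPD_imm P

theorem tsupport_val {W : Type*} [Zero W] (f : M → W) :
    tsupport (fun x : U => f x) = Subtype.val ⁻¹' tsupport f := by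
  have h : IsOpenMap (Subtype.val : U → M) := U.isOpen.isOpenMap_subtype_val
  exact (h.preimage_closure_eq_closure_preimage continuous_subtype_val (Function.support f)).symm

/-- partitions of unity restrict to clopen subsets -/
def subP (hc : IsClosed (U : Set M)) (PA : Part A) : Part (subA A U) where
  ψ i x := PA.ψ i x
  χ i x := PA.χ i x
  ψ_sm i j := sm_sub (PA.ψ_sm i j)
  χ_sm i j := sm_sub (PA.χ_sm i j)
  χ_cpt i := by
    rw [tsupport_val]
    exact hc.isClosedEmbedding_subtypeVal.isCompact_preimage (PA.χ_cpt i)
  χ_sub i x hx := by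
    rw [tsupport_val] at hx
    exact mem_source.2 (PA.χ_sub i hx)
  χ_one i x hx := by
    rw [tsupport_val] at hx
    exact continuous_subtype_val.continuousAt.eventually (PA.χ_one i x hx)
  lf K hK := by
    refine (PA.lf _ (hK.image continuous_subtype_val)).subset ?_
    rintro i ⟨x, hx, hxK⟩
    rw [tsupport_val] at hx
    exact ⟨x, hx, x, hxK, rfl⟩
  sum_one x := PA.sum_one x

end Sub

section Conn

variable (A : Atl n M)

include A in
/-- a space with an atlas is locally connected -/
theorem locConn : LocallyConnectedSpace M := by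
  classical
  let c : ChartedSpace (Cn n) M :=
    { atlas := range A.e
      chartAt := fun x => A.e (A.cover x).choose
      mem_chart_source := fun x => (A.cover x).choose_spec
      chart_mem_atlas := fun x => ⟨_, rfl⟩ }
  exact ChartedSpace.locallyConnectedSpace (Cn n) M

end Conn

section Comp

variable [LocallyConnectedSpace M]

/-- the connected component of `x` -/
def cmp (x : M) : Opens M := ⟨connectedComponent x, isOpen_connectedComponent⟩

instance (x : M) : Nonempty (cmp x) := ⟨⟨x, mem_connectedComponent⟩⟩

/-- the base point -/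
def bp (x : M) : cmp x := ⟨x, mem_connectedComponent⟩

theorem isClosed_cmp (x : M) : IsClosed (cmp x : Set M) := isClosed_connectedComponent

theorem isClopen_cmp (x : M) : IsClopen (cmp x : Set M) :=
  ⟨isClosed_connectedComponent, isOpen_connectedComponent⟩

instance (x : M) : ConnectedSpace (cmp x) := by
  have h : IsConnected (cmp x : Set M) := isConnected_connectedComponent
  exact isConnected_iff_connectedSpace.1 h

instance (x : M) [CompactSpace M] : CompactSpace (cmp x) :=
  isCompact_iff_compactSpace.1 (isClosed_cmp x).isCompact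

/-- a connected set meeting the component is contained in it -/
theorem sub_cmp {x : M} {s : Set M} (hs : IsPreconnected s) {y : M} (hy : y ∈ s)
    (hyx : y ∈ cmp x) : s ⊆ cmp x := by
  have h : connectedComponent y = connectedComponent x :=
    (connectedComponent_eq hyx).symm
  have h1 := hs.subset_connectedComponent hy
  rw [h] at h1
  exact h1

open Classical in
/-- the retraction onto the component -/
def ret (x : M) : C(M, cmp x) where
  toFun y := if h : y ∈ cmp x then ⟨y, h⟩ else bp x
  continuous_toFun := by
    refine continuous_induced_rng.2 ?_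
    have h1 : (Subtype.val ∘ fun y : M => if h : y ∈ cmp x then (⟨y, h⟩ : cmp x) else bp x) =
        fun y => if y ∈ cmp x then y else x := by
      funext y
      by_cases h : y ∈ cmp x
      · simp [h]
      · simp [h, bp]
    rw [h1]
    refine continuous_if ?_ continuous_id.continuousOn continuous_const.continuousOn
    intro a ha
    have h2 : frontier {a | a ∈ cmp x} = ∅ := (isClopen_cmp x).frontier_eq
    rw [h2] at ha
    exact ha.elim

/-- the inclusion of the component -/
def inc (x : M) : C(cmp x, M) := ⟨Subtype.val, continuous_subtype_val⟩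

theorem ret_of_mem {x y : M} (h : y ∈ cmp x) : ret x y = ⟨y, h⟩ := dif_pos h

theorem ret_val {x : M} (y : cmp x) : ret x (y : M) = y := ret_of_mem y.2

theorem val_ret {x y : M} (h : y ∈ cmp x) : ((ret x y : cmp x) : M) = y := by
  rw [ret_of_mem h]

end Comp

end

end Crest.Agent.R272.Comp_259
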