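import Crest.Agent.R272.CpEnd_338

/-!
# R272, leaf CP-END, part 2 (helper338): torus data from immersions

* `torD_of` : `f : ℂ² → M` holomorphic, immersive, `f z = f w ↔ z - w ∈ Λ`, `P : ProjD A`
  ⟹ `TorD ω P.N` (`M` = the torus itself, or any manifold which contains it);
* `s0415_emb` : the literal end of S0415 for an embedded torus (no separate torus data).
-/

set_option autoImplicit false
set_option linter.unusedSectionVars false

open Set Filter Topology
open Crest.AlgGeometry

namespace Crest.Agent.R272.CpEnd_338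

open Crest.Agent.R275.Geo Crest.Agent.R275.Core144 Crest.Agent.R273.Defs_333
open CpTop_338 CpChow_338 CpMan_338 CpTor_338 CpPi_338 CpSeg_338 CpGrp_338
open TLoop_463 TLoopCP_463 Lift_297

noncomputable section

variable {n : ℕ} {M : Type} [TopologicalSpace M] {A : Atl n M}

/-- immersive maps `ℂ² → M` (one chart at every point is enough) -/
def ImmTo (A : Atl n M) (f : (Fin 2 → ℂ) → M) : Prop :=
  ∀ z, ∃ i, f z ∈ (A.e i).source ∧
    ∀ v, fderiv ℂ (fun w => A.e i (f w)) z v = 0 → v = 0

theorem fderiv_pi_apply {E : Type*} [NormedAddCommGroup E] [NormedSpace ℂ E] {m : ℕ}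
    {F : E → Fin m → ℂ} {z : E} (h : DifferentiableAt ℂ F z) (v : E) (k : Fin m) :
    fderiv ℂ F z v k = fderiv ℂ (fun w => F w k) z v := by
  have h3 := ((hasFDerivAt_pi'.1 h.hasFDerivAt) k).fderiv
  rw [h3]
  rfl

/-- torus data from a projective embedding of a manifold which contains (or is) the torus -/
theorem torD_of (P : ProjD A) {ω : Fin 4 → (Fin 2 → ℂ)} {f : C(Fin 2 → ℂ, M)} (hf : HolTo A f)
    (him : ImmTo A f) (hper : ∀ z w, f z = f w ↔ z - w ∈ periodLattice ω) :
    ∃ D : TorD ω P.N, ∀ z, D.map z = toCP P (f z) := by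
  obtain ⟨G, hGd, hGr⟩ := exists_lift P hf
  choose hG0 hG using hGr
  refine ⟨⟨G, hG0, hGd, ?_, ?_⟩, hG⟩
  · intro z a v hv
    obtain ⟨i, hi, hinj⟩ := him z
    refine hinj v ?_
    -- the local lift
    let Q : (Fin 2 → ℂ) → Fin (P.N + 1) → ℂ := fun w => P.F i (f w)
    have h1 : ∀ᶠ w in 𝓝 z, f w ∈ (A.e i).source :=
      f.continuous.continuousAt.eventually ((A.e i).open_source.mem_nhds hi)
    have hP : DifferentiableAt ℂ (fun y => P.F i ((A.e i).symm y)) (A.e i (f z)) :=
      differentiableAt_pi.2 fun k => Fdiff P i ((A.e i).map_source hi) k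
    have hQ1 : HasFDerivAt (fun w => P.F i ((A.e i).symm (A.e i (f w))))
        ((fderiv ℂ (fun y => P.F i ((A.e i).symm y)) (A.e i (f z))).comp
          (fderiv ℂ (fun w => A.e i (f w)) z)) z :=
      HasFDerivAt.comp (g := fun y => P.F i ((A.e i).symm y)) (f := fun w => A.e i (f w)) z
        hP.hasFDerivAt (hf i z hi).hasFDerivAt
    have hQ2 : HasFDerivAt Q ((fderiv ℂ (fun y => P.F i ((A.e i).symm y)) (A.e i (f z))).comp
          (fderiv ℂ (fun w => A.e i (f w)) z)) z := by
      refine hQ1.congr_of_eventuallyEq ?_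
      filter_upwards [h1] with w hw
      show P.F i (f w) = P.F i ((A.e i).symm (A.e i (f w)))
      rw [(A.e i).left_inv hw]
    have hQd : DifferentiableAt ℂ Q z := hQ2.differentiableAt
    have hQ0 : Q z ≠ 0 := P.ne i _ hi
    obtain ⟨k, hk⟩ := Function.ne_iff.1 hQ0
    -- `G = g • Q` near `z`
    have hprop : ∀ᶠ w in 𝓝 z, ∀ l, G w l * Q w k = G w k * Q w l := by
      filter_upwards [h1] with w hw l
      have h2 := (hG w).trans (toCP_eq P hw)
      rw [mk_eq_iff_minor] at h2
      exact h2 l k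
    have hGl : ∀ l, DifferentiableAt ℂ (fun w => G w l) z := differentiableAt_pi.1 (hGd z)
    have hQl : ∀ l, DifferentiableAt ℂ (fun w => Q w l) z := differentiableAt_pi.1 hQd
    have hd : ∀ l, fderiv ℂ (fun w => G w l) z v * Q z k + G z l * fderiv ℂ (fun w => Q w k) z v =
        fderiv ℂ (fun w => G w k) z v * Q z l + G z k * fderiv ℂ (fun w => Q w l) z v := by
      intro l
      have h2 : (fun w => G w l * Q w k) =ᶠ[𝓝 z] fun w => G w k * Q w l := by
        filter_upwards [hprop] with w hw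
        exact hw l
      have h3 := h2.fderiv_eq (𝕜 := ℂ)
      rw [fderiv_fun_mul (hGl l) (hQl k), fderiv_fun_mul (hGl k) (hQl l)] at h3
      have h4 := congrArg (fun L : (Fin 2 → ℂ) →L[ℂ] ℂ => L v) h3
      simp only [_root_.add_apply, _root_.smul_apply, smul_eq_mul] at h4
      linear_combination h4
    have hz := hprop.self_of_nhds
    have hGk : G z k ≠ 0 := by
      intro h0
      refine hG0 z (funext fun l => ?_)
      have h2 := hz l
      rw [h0, zero_mul] at h2
      exact (mul_eq_zero.1 h2).resolve_right hk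
    have hv' : ∀ l, fderiv ℂ (fun w => G w l) z v = - a * G z l := by
      intro l
      have h2 := congrFun hv l
      rw [Pi.add_apply, fderiv_pi_apply (hGd z)] at h2
      change a * G z l + _ = 0 at h2
      linear_combination h2
    -- the derivative of `Q` is proportional to `Q`
    have hQv : ∀ l, fderiv ℂ (fun w => Q w l) z v =
        (fderiv ℂ (fun w => Q w k) z v / Q z k) * Q z l := by
      intro l
      have h2 := hd l
      rw [hv', hv'] at h2
      have h3 : G z k * (fderiv ℂ (fun w => Q w l) z v * Q z k) =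
          G z k * (fderiv ℂ (fun w => Q w k) z v * Q z l) := by
        have h4 := hz l
        linear_combination (-(Q z k)) * h2 + (fderiv ℂ (fun w => Q w k) z v + (-a) * Q z k) * h4
      have h4 := mul_left_cancel₀ hGk h3
      have hk' : Q z k ≠ 0 := hk
      field_simp
      exact h4
    refine P.imm i (A.e i (f z)) ((A.e i).map_source hi) _
      ⟨fderiv ℂ (fun w => Q w k) z v / Q z k, funext fun l => ?_⟩
    have h5 : fderiv ℂ Q z v = fderiv ℂ (fun y => P.F i ((A.e i).symm y)) (A.e i (f z))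
        (fderiv ℂ (fun w => A.e i (f w)) z v) := by
      rw [hQ2.fderiv]
      rfl
    rw [← h5, fderiv_pi_apply hQd, hQv l, Pi.smul_apply, smul_eq_mul, (A.e i).left_inv hi]
  · intro z w
    rw [hG, hG, (toCP_injective P).eq_iff]
    exact hper z w

variable [T2Space M] [CompactSpace M] [ConnectedSpace M] [Finite A.ι]

/-- **the literal end of S0415 for an embedded torus** -/
theorem s0415_emb (PA : Part A) (P : ProjD A) {ω : Fin 4 → (Fin 2 → ℂ)}
    (hω : LinearIndependent ℝ ω)
    (hsim : ∀ l m : Fin 2 → ℂ, l ∈ periodLattice ω → m ∈ periodLattice ω → l ≠ 0 →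
      ∀ a : ℂ, m = a • l → a.im = 0)
    (f : C(Fin 2 → ℂ, M)) (hf : HolTo A f) (him : ImmTo A f)
    (hinj : ∀ z w, f z = f w ↔ z - w ∈ periodLattice ω)
    (hper : Per f (periodLattice ω).toAddSubgroup)
    (z₀ : Fin 2 → ℂ) (l₁ : (periodLattice ω).toAddSubgroup)
    (h1 : ¬ IsOfFinOrder (perHom hper z₀ (Multiplicative.ofAdd l₁)))
    (h : ∀ l : (periodLattice ω).toAddSubgroup, ∃ m : ℤ, m ≠ 0 ∧ ∃ k : ℤ,
      perHom hper z₀ (Multiplicative.ofAdd (m • l - k • l₁)) = 1) :
    ∃ (N c : ℕ) (X A : Set (CPn N)), IsSmoothProjVariety c X ∧ IsConnected X ∧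
      IsSimpleAbelianSurface A ∧ A ⊆ X ∧
      ∃ x : X, (x : CPn N) ∈ A ∧ ∃ g : FundamentalGroup X x, ¬ IsOfFinOrder g ∧
        loopClassesIn X A x = Set.range (fun k : ℤ => g ^ k) := by
  obtain ⟨D, -⟩ := torD_of P hf him hinj
  exact s0415_of PA P hω hsim D f hf hper z₀ l₁ h1 h

end

end Crest.Agent.R272.CpEnd_338
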