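import Crest.Prelude.Def_RatCurveLoops

/-!
# R272 (S0414, S0415), leaf CP-CHOW, part 4 (helper338): loops under homeomorphisms

* `loopsIn S x` : the elements of `π₁(X, x)` represented by loops in `S`;
  `loopClassesIn X Z x = loopsIn (Subtype.val ⁻¹' Z) x` by `rfl`;
* `piE h x : π₁(X, x) ≃* π₁(Y, h x)`, `image_loopsIn`, `infinite_loopsIn`, `zpow_loopsIn`.
-/

set_option autoImplicit false
set_option linter.unusedSectionVars false

open Set Filter Topology
open Crest.AlgGeometry

namespace Crest.Agent.R272.CpPi_338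

noncomputable section

variable {X Y : Type*} [TopologicalSpace X] [TopologicalSpace Y]

/-- the elements of the fundamental group represented by loops in `S` -/
def loopsIn (S : Set X) (x : X) : Set (FundamentalGroup X x) :=
  {g | ∃ p : Path x x, (∀ t, p t ∈ S) ∧ g = FundamentalGroup.fromPath ⟦p⟧}

theorem loopClassesIn_eq {N : ℕ} (X Z : Set (CPn N)) (x : X) :
    loopClassesIn X Z x = loopsIn (Subtype.val ⁻¹' Z) x := rfl

theorem map_fromPath (f : C(X, Y)) {x : X} (p : Path x x) :
    FundamentalGroup.map f x (FundamentalGroup.fromPath ⟦p⟧) =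
      FundamentalGroup.fromPath ⟦p.map f.continuous⟧ := rfl

theorem exists_path {x : X} (g : FundamentalGroup X x) :
    ∃ p : Path x x, g = FundamentalGroup.fromPath ⟦p⟧ := by
  induction g using Quotient.inductionOn with
  | h p => exact ⟨p, rfl⟩

theorem fromPath_eq {x : X} {p q : Path x x} :
    (FundamentalGroup.fromPath ⟦p⟧ : FundamentalGroup X x) = FundamentalGroup.fromPath ⟦q⟧ ↔
      p.Homotopic q := Quotient.eq

/-- homotopies can be read through a map with a left inverse -/
theorem homotopic_of_map {x y : X} {p q : Path x y} (f : C(X, Y)) (r : C(Y, X))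
    (hr : ∀ z, r (f z) = z)
    (H : (p.map f.continuous).Homotopic (q.map f.continuous)) : p.Homotopic q := by
  obtain ⟨F⟩ := H
  refine ⟨{ toFun := fun s => r (F s)
            continuous_toFun := r.continuous.comp F.continuous
            map_zero_left := fun t => ?_
            map_one_left := fun t => ?_
            prop' := fun s t ht => ?_ }⟩
  · have h1 : F (0, t) = (p.map f.continuous) t := F.map_zero_left t
    show r (F (0, t)) = p t
    rw [h1]
    exact hr _
  · have h1 : F (1, t) = (q.map f.continuous) t := F.map_one_left t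
    show r (F (1, t)) = q t
    rw [h1]
    exact hr _
  · have h1 := F.prop' s t ht
    show r (F (s, t)) = p t
    have h2 : F (s, t) = (p.map f.continuous) t := h1
    rw [h2]
    exact hr _

theorem map_injective (f : C(X, Y)) (r : C(Y, X)) (hr : ∀ z, r (f z) = z) (x : X) :
    Function.Injective (FundamentalGroup.map f x) := by
  intro g g' h
  obtain ⟨p, rfl⟩ := exists_path g
  obtain ⟨q, rfl⟩ := exists_path g'
  rw [map_fromPath, map_fromPath, fromPath_eq] at h
  exact fromPath_eq.2 (homotopic_of_map f r hr h)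

/-- the loop pulled back by a homeomorphism -/
def pull (h : X ≃ₜ Y) {x : X} (q : Path (h x) (h x)) : Path x x :=
  (q.map h.symm.continuous).cast (h.symm_apply_apply x).symm (h.symm_apply_apply x).symm

theorem pull_apply (h : X ≃ₜ Y) {x : X} (q : Path (h x) (h x)) (t : unitInterval) :
    pull h q t = h.symm (q t) := rfl

theorem map_pull (h : X ≃ₜ Y) {x : X} (q : Path (h x) (h x)) :
    (pull h q).map h.continuous = q := by
  ext t
  show h (h.symm (q t)) = q t
  exact h.apply_symm_apply _

theorem map_surjective (h : X ≃ₜ Y) (x : X) :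
    Function.Surjective (FundamentalGroup.map (⟨h, h.continuous⟩ : C(X, Y)) x) := by
  intro g
  obtain ⟨q, rfl⟩ := exists_path g
  refine ⟨FundamentalGroup.fromPath ⟦pull h q⟧, ?_⟩
  rw [map_fromPath]
  exact congrArg (fun p => FundamentalGroup.fromPath ⟦p⟧) (map_pull h q)

/-- the isomorphism induced by a homeomorphism -/
def piE (h : X ≃ₜ Y) (x : X) : FundamentalGroup X x ≃* FundamentalGroup Y (h x) :=
  MulEquiv.ofBijective (FundamentalGroup.map (⟨h, h.continuous⟩ : C(X, Y)) x)
    ⟨map_injective _ (⟨h.symm, h.symm.continuous⟩ : C(Y, X)) (fun z => h.symm_apply_apply z) x,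
      map_surjective h x⟩

theorem piE_apply (h : X ≃ₜ Y) {x : X} (p : Path x x) :
    piE h x (FundamentalGroup.fromPath ⟦p⟧) =
      FundamentalGroup.fromPath ⟦p.map h.continuous⟧ := rfl

theorem image_loopsIn (h : X ≃ₜ Y) (S : Set Y) (x : X) :
    piE h x '' loopsIn (h ⁻¹' S) x = loopsIn S (h x) := by
  ext g
  constructor
  · rintro ⟨_, ⟨p, hp, rfl⟩, rfl⟩
    exact ⟨p.map h.continuous, hp, rfl⟩
  · rintro ⟨q, hq, rfl⟩
    refine ⟨FundamentalGroup.fromPath ⟦pull h q⟧, ⟨pull h q, fun t => ?_, rfl⟩, ?_⟩
    · show h (pull h q t) ∈ S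
      rw [pull_apply, h.apply_symm_apply]
      exact hq t
    · rw [piE_apply]
      exact congrArg (fun p => FundamentalGroup.fromPath ⟦p⟧) (map_pull h q)

theorem infinite_loopsIn (h : X ≃ₜ Y) (S : Set Y) (x : X) (hi : (loopsIn (h ⁻¹' S) x).Infinite) :
    (loopsIn S (h x)).Infinite := by
  rw [← image_loopsIn]
  exact hi.image (piE h x).injective.injOn

theorem zpow_loopsIn (h : X ≃ₜ Y) (S : Set Y) (x : X) {g : FundamentalGroup X x}
    (hg : ¬ IsOfFinOrder g) (hS : loopsIn (h ⁻¹' S) x = range (fun k : ℤ => g ^ k)) :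
    ∃ g' : FundamentalGroup Y (h x), ¬ IsOfFinOrder g' ∧
      loopsIn S (h x) = range (fun k : ℤ => g' ^ k) := by
  refine ⟨piE h x g, fun h1 => hg ?_, ?_⟩
  · rw [isOfFinOrder_iff_pow_eq_one] at h1 ⊢
    obtain ⟨n, hn, h2⟩ := h1
    refine ⟨n, hn, (piE h x).injective ?_⟩
    rw [map_pow, h2, map_one]
  · rw [← image_loopsIn, hS, ← range_comp]
    congr 1
    funext k
    exact map_zpow (piE h x) g k

end

end Crest.Agent.R272.CpPi_338
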