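import Crest.Agent.R272.CpMan_338
import Crest.Agent.R272.CpPi_338
import Crest.Agent.R272.CpRat2_423
import Crest.Agent.R272.CovOrd_463

/-!
# R272, leaf S14-GLUE (helper414), part 1: the end of S0414 from a compact complex surface

`of_projD` : `X` compact connected complex surface with an atlas `A : Atl 2 X`, `Part A`, `ProjD A`; rational
curves `γ : Fin k → P1C A`, pairwise transversal, no triple points, connected union `Z`, and infinitely many
elements of `π₁(X, x)` represented by loops in `Z`  ⟹  the frozen statement S0414.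

`loops_infinite` : the elements represented by loops in `Z ⊆ X` are infinitely many as soon as there is a
covering `p : E → X`, `θ : E → ℝ/ℤ` and a loop of `E` over `Z` of nonzero degree (abstract `X`).
-/

set_option autoImplicit false
set_option linter.unusedSectionVars false

open Set Filter Topology
open scoped unitInterval
open Crest.AlgGeometry

namespace Crest.Agent.R272.G14a_414

open Crest.Agent.R275.Geo Crest.Agent.R275.Core144 Crest.Agent.R275.GC293
open Crest.Agent.R273.Defs_333
open CpTop_338 CpChow_338 CpMan_338 CpPi_338 CpRat423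

noncomputable section

/-- the frozen text of S0414 -/
def S14 : Prop :=
  ∃ (c : ℕ) (X : Set (CPn (c + 2))), IsSmoothProjSurface c X ∧ IsConnected X ∧
    ∃ (k : ℕ) (φ : Fin k → RatCurve (c + 2)),
      RatCurve.IsNodalUnion φ ∧ RatCurve.union φ ⊆ X ∧ IsConnected (RatCurve.union φ) ∧
      ∃ x : X, (x : CPn (c + 2)) ∈ RatCurve.union φ ∧
        (loopClassesIn X (RatCurve.union φ) x).Infinite

/-! ### `loopsIn` in an arbitrary space -/

section Loops

universe u v

variable {X : Type u} [TopologicalSpace X] {Z : Set X} {x : X}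

theorem one_mem (hx : x ∈ Z) : (1 : FundamentalGroup X x) ∈ loopsIn Z x :=
  ⟨Path.refl x, fun _ => hx, rfl⟩

theorem mul_mem {g h : FundamentalGroup X x} (hg : g ∈ loopsIn Z x)
    (hh : h ∈ loopsIn Z x) : g * h ∈ loopsIn Z x := by
  obtain ⟨p, hp, rfl⟩ := hg
  obtain ⟨q, hq, rfl⟩ := hh
  refine ⟨q.trans p, fun t => ?_, rfl⟩
  have : (q.trans p) t ∈ Set.range (q.trans p) := ⟨t, rfl⟩
  rw [Path.trans_range] at this
  rcases this with ⟨s, hs⟩ | ⟨s, hs⟩
  · rw [← hs]; exact hq s
  · rw [← hs]; exact hp s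

theorem pow_mem {g : FundamentalGroup X x} (hx : x ∈ Z) (hg : g ∈ loopsIn Z x) (k : ℕ) :
    g ^ k ∈ loopsIn Z x := by
  induction k with
  | zero => rw [pow_zero]; exact one_mem hx
  | succ k ih => rw [pow_succ]; exact mul_mem ih hg

theorem infinite_of_not_isOfFinOrder (hx : x ∈ Z) {g : FundamentalGroup X x}
    (hg : g ∈ loopsIn Z x) (h : ¬ IsOfFinOrder g) : (loopsIn Z x).Infinite := by
  have hinj : Function.Injective fun k : ℕ => g ^ k := injective_pow_iff_not_isOfFinOrder.2 h
  exact (Set.infinite_range_of_injective hinj).mono (by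
    rintro _ ⟨k, rfl⟩
    exact pow_mem hx hg k)

/-- **abstract form of `CovOrd_463.infinite_of_cover`**: a covering `p : E → X`, `θ : E → ℝ/ℤ`, a
loop over `Z` of non-zero degree -/
theorem loops_infinite {E : Type v} [TopologicalSpace E] {p : E → X} (hp : IsCoveringMap p)
    (θ : C(E, AddCircle (1 : ℝ))) {e : E} (γ : Path e e) (hZ : ∀ t, p (γ t) ∈ Z) (ℓ : C(I, ℝ))
    (hℓ : ∀ t, (ℓ t : AddCircle (1 : ℝ)) = θ (γ t)) (hne : ℓ 1 ≠ ℓ 0) :
    (loopsIn Z (p e)).Infinite := by
  have hx : p e ∈ Z := by have := hZ 0; rwa [γ.source] at this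
  exact infinite_of_not_isOfFinOrder hx
    (g := CovOrd_463.cls (γ.map hp.continuous)) ⟨γ.map hp.continuous, hZ, rfl⟩
    (CovOrd_463.not_isOfFinOrder_of_cover hp θ γ ℓ hℓ hne)

end Loops

section Emb

variable {X : Type} [TopologicalSpace X] {N : ℕ} {T : X → CPn N}

/-- transport of loops along a closed embedding into projective space -/
theorem loops_image (hT : IsClosedEmbedding T) (S : Set X) (x : X)
    (hi : (loopsIn S x).Infinite) :
    (loopClassesIn (range T) (T '' S) ⟨T x, x, rfl⟩).Infinite := by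
  set h : X ≃ₜ range T := hT.isEmbedding.toHomeomorph with hh
  have hhx : ∀ z, ((h z : range T) : CPn N) = T z := fun z => rfl
  have e : h ⁻¹' (Subtype.val ⁻¹' (T '' S)) = S := by
    ext z
    simp only [mem_preimage, hhx]
    constructor
    · rintro ⟨z', hz', e⟩
      rwa [← hT.injective e]
    · intro hz
      exact ⟨z, hz, rfl⟩
  have := infinite_loopsIn h (Subtype.val ⁻¹' (T '' S)) x (by rw [e]; exact hi)
  exact this

end Emb

theorem of_embedding {X : Type} [TopologicalSpace X] [ConnectedSpace X] {N k : ℕ} (hN : 2 ≤ N)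
    {T : X → CPn N} (hT : IsClosedEmbedding T) (hsm : ∀ c, c + 2 = N → IsSmoothProjVariety c (range T))
    {S : Set X} {φ : Fin k → RatCurve N} (hφ : RatCurve.IsNodalUnion φ)
    (hS : RatCurve.union φ = T '' S) (hc : IsConnected S) {x : X} (hx : x ∈ S)
    (hi : (loopsIn S x).Infinite) : S14 := by
  obtain ⟨c, rfl⟩ : ∃ c, N = c + 2 := ⟨N - 2, (Nat.sub_add_cancel hN).symm⟩
  refine ⟨c, range T, hsm c rfl, isConnected_range hT.continuous, k, φ, hφ, ?_, ?_, ⟨T x, x, rfl⟩, ?_, ?_⟩
  · rw [hS]
    exact image_subset_range _ _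
  · rw [hS]
    exact hc.image _ hT.continuous.continuousOn
  · rw [hS]
    exact ⟨x, hx, rfl⟩
  · rw [hS]
    exact loops_image hT S x hi

/-- **S0414 from a projective surface in charts** -/
theorem of_projD {X : Type} [TopologicalSpace X] [T2Space X] [CompactSpace X] [ConnectedSpace X]
    {A : Atl 2 X} [Finite A.ι] (PA : Part A) (P : ProjD A) {k : ℕ} (γ : Fin k → P1C A)
    (ht : ∀ i j, i ≠ j → Trans (γ i) (γ j))
    (h3 : ∀ i j l, i ≠ j → j ≠ l → i ≠ l → (γ i).img ∩ (γ j).img ∩ (γ l).img = ∅)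
    (hc : IsConnected (⋃ i, (γ i).img)) {x : X} (hx : x ∈ ⋃ i, (γ i).img)
    (hi : (loopsIn (⋃ i, (γ i).img) x).Infinite) : S14 := by
  have hCP : IsCP P (toCP P) := fun i x hx => toCP_eq P hx
  obtain ⟨φ, h1, h2⟩ := exists_nodal hCP γ ht h3
  exact of_embedding (le_N P) (isClosedEmbedding_toCP P)
    (fun c hc => smooth PA P hc) h1 h2 hc hx hi

end

end Crest.Agent.R272.G14a_414
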