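import Crest.Agent.R272.Comp1_259
import Crest.Agent.R272.CpEnd2_338
import Crest.Agent.R272.G14a_414

/-!
# R272, leaf COMP-RED (helper259), part 2: the two frozen ends without connectedness

* `subH_pos` : positivity of metrics restricts;
* `P1C.sub`, `trans_sub`, `img_sub` : rational curves in the component;
* `loopsIn_cmp` : infinitely many loop classes in the component;
* `s14_of` : 414's `of_projD` without `[ConnectedSpace X]`; `s14_of_pos` : the same with a positive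
  line bundle and the Kodaira embedding theorem (connected case) as hypothesis;
* `s0415_of'`, `s0415_emb'`, `s0415_of_pos`, `s0415_emb_pos` : the same for S0415.
-/

set_option autoImplicit false
set_option linter.unusedSectionVars false

open Set Filter Topology Complex TopologicalSpace
open Crest.AlgGeometry

namespace Crest.Agent.R272.Comp_259

open Crest.Agent.R275.Geo Crest.Agent.R275.Core144 Crest.Agent.R275.GC293
open Crest.Agent.R273.Defs_333
open CpTop_338 CpChow_338 CpMan_338 CpPi_338 CpRat423 G14a_414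

noncomputable section

section Pos

variable {n : ℕ} {M : Type} [TopologicalSpace M] {A : Atl n M} {U : Opens M} [hU : Nonempty U]

theorem lev_congr {u v : Cn n → ℝ} {z : Cn n} (h : u =ᶠ[𝓝 z] v) (w : Cn n) :
    lev u z w = lev v z w := by
  unfold lev
  rw [(h.iteratedFDeriv ℝ 2).self_of_nhds]

theorem wt_sub {L : LB A} (h : HM L) (i : A.ι) {z : Cn n}
    (hz : z ∈ ((subA A U).e i).target) :
    (fun w => - Real.log (h.w i ((((subA A U).e i).symm w : U) : M))) =ᶠ[𝓝 z] h.wt i := by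
  filter_upwards [((subA A U).e i).open_target.mem_nhds hz] with w hw
  show - Real.log (h.w i ((((subA A U).e i).symm w : U) : M)) = - Real.log (h.w i _)
  rw [e_symm hw]

theorem lev_sub {L : LB A} (h : HM L) (i : A.ι) {z : Cn n}
    (hz : z ∈ ((subA A U).e i).target) (v : Cn n) :
    lev ((subH (U := U) h).wt i) z v = lev (h.wt i) z v := lev_congr (wt_sub h i hz) v

/-- positivity restricts -/
theorem subH_pos {L : LB A} {h : HM L} (hp : h.Pos) : (subH (U := U) h).Pos := by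
  intro i z hz v hv
  have h1 : z ∈ (A.e i).target := target_sub (A := A) (U := U) i hz
  have h2 := hp i z h1 v hv
  have h3 := lev_sub (U := U) h i hz v
  exact h3 ▸ h2

end Pos

section Curves

variable {n : ℕ} {M : Type} [TopologicalSpace M] {A : Atl n M} {U : Opens M} [hU : Nonempty U]

/-- a rational curve contained in `U` -/
def P1C.sub (γ : P1C A) (h : γ.img ⊆ U) : P1C (subA A U) where
  g b z := ⟨γ.g b z, h γ.mem_img⟩
  glue z hz := Subtype.ext (γ.glue z hz)
  cont b := (γ.cont b).subtype_mk _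
  hol b z := by
    obtain ⟨i, hi, hd, h0⟩ := γ.hol b z
    exact ⟨i, mem_source.2 hi, hd, h0⟩
  inj z w hzw := γ.inj (congrArg Subtype.val hzw)
  ninf := by
    rintro ⟨z, hz⟩
    exact γ.ninf ⟨z, congrArg Subtype.val hz⟩

theorem sub_g (γ : P1C A) (h : γ.img ⊆ U) (b : Bool) (z : ℂ) :
    (((P1C.sub γ h).g b z : U) : M) = γ.g b z := rfl

theorem img_sub (γ : P1C A) (h : γ.img ⊆ U) :
    (P1C.sub γ h).img = Subtype.val ⁻¹' γ.img := by
  ext x
  rw [mem_preimage, P1C.mem_img_iff, P1C.mem_img_iff]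
  constructor
  · rintro ⟨b, z, rfl⟩
    exact ⟨b, z, rfl⟩
  · rintro ⟨b, z, hz⟩
    exact ⟨b, z, Subtype.ext hz⟩

theorem trans_sub {γ δ : P1C A} (h : γ.img ⊆ U) (h' : δ.img ⊆ U) (ht : Trans γ δ) :
    Trans (P1C.sub γ h) (P1C.sub δ h') := by
  intro b z b' z' hz
  obtain ⟨i, hi, hn⟩ := ht b z b' z' (congrArg Subtype.val hz)
  exact ⟨i, mem_source.2 hi, hn⟩

end Curves

section Loops

variable {M : Type} [TopologicalSpace M] [LocallyConnectedSpace M]

theorem map_inc_injective {x : M} (a : cmp x) :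
    Function.Injective (FundamentalGroup.map (inc x) a) :=
  map_injective (inc x) (ret x) (fun z => ret_val z) a

/-- infinitely many loop classes: pass to the component -/
theorem loopsIn_cmp {x : M} {S : Set M} (hS : S ⊆ cmp x) (hi : (loopsIn S x).Infinite) :
    (loopsIn (Subtype.val ⁻¹' S : Set (cmp x)) (bp x)).Infinite := by
  intro hfin
  refine hi ((hfin.image (FundamentalGroup.map (inc x) (bp x))).subset ?_)
  rintro _ ⟨p, hp, rfl⟩
  have h0 : ret x x = bp x := ret_of_mem mem_connectedComponent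
  let p' : Path (bp x) (bp x) := (p.map (ret x).continuous).cast h0.symm h0.symm
  have hp' : ∀ t, ((p' t : cmp x) : M) = p t := fun t => val_ret (hS (hp t))
  refine ⟨FundamentalGroup.fromPath ⟦p'⟧, ⟨p', fun t => ?_, rfl⟩, ?_⟩
  · show ((p' t : cmp x) : M) ∈ S
    rw [hp' t]; exact hp t
  · rw [map_fromPath]
    have h1 : p'.map (inc x).continuous = p := by
      ext t
      exact hp' t
    exact congrArg (fun q => FundamentalGroup.fromPath ⟦q⟧) h1

end Loops

section S14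

variable {X : Type} [TopologicalSpace X] [T2Space X] [CompactSpace X] {A : Atl 2 X} [Finite A.ι]

/-- **the end of S0414 without connectedness of the surface**; `HP` produces the projective
embedding of the component -/
theorem s14_aux (PA : Part A) {k : ℕ} (γ : Fin k → P1C A)
    (ht : ∀ i j, i ≠ j → Trans (γ i) (γ j))
    (h3 : ∀ i j l, i ≠ j → j ≠ l → i ≠ l → (γ i).img ∩ (γ j).img ∩ (γ l).img = ∅)
    (hc : IsConnected (⋃ i, (γ i).img)) {x : X} (hx : x ∈ ⋃ i, (γ i).img)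
    (hi : (loopsIn (⋃ i, (γ i).img) x).Infinite)
    (HP : ∀ (U : Opens X) [Nonempty U], IsClosed (U : Set X) → ConnectedSpace U →
      Nonempty (ProjD (subA A U))) : S14 := by
  have : LocallyConnectedSpace X := locConn A
  have hsub : (⋃ i, (γ i).img) ⊆ cmp x :=
    sub_cmp hc.isPreconnected hx mem_connectedComponent
  have hsub' : ∀ i, (γ i).img ⊆ cmp x := fun i => (subset_iUnion _ i).trans hsub
  obtain ⟨P⟩ := HP (cmp x) (isClosed_cmp x) inferInstance
  have himg : ⋃ i, (P1C.sub (γ i) (hsub' i)).img =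
      (Subtype.val ⁻¹' (⋃ i, (γ i).img) : Set (cmp x)) := by
    rw [preimage_iUnion]
    exact iUnion_congr fun i => img_sub _ _
  refine of_projD (X := cmp x) (A := subA A (cmp x)) (subP (isClosed_cmp x) PA) P
    (fun i => P1C.sub (γ i) (hsub' i)) (fun i j hij => trans_sub _ _ (ht i j hij))
    (fun i j l hij hjl hil => ?_) ?_ (x := bp x) ?_ ?_
  · rw [img_sub, img_sub, img_sub, ← preimage_inter, ← preimage_inter, h3 i j l hij hjl hil,
      preimage_empty]
  · rw [himg]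
    refine ⟨⟨bp x, hx⟩, ?_⟩
    have h1 : (Subtype.val : cmp x → X) '' (Subtype.val ⁻¹' (⋃ i, (γ i).img)) =
        ⋃ i, (γ i).img := by
      rw [image_preimage_eq_inter_range]
      exact inter_eq_left.2 fun y hy => ⟨⟨y, hsub hy⟩, rfl⟩
    have h2 := hc.isPreconnected
    rw [← h1] at h2
    exact (IsInducing.subtypeVal.isPreconnected_image).1 h2
  · rw [himg]; exact hx
  · rw [himg]
    exact loopsIn_cmp hsub hi

theorem s14_of (PA : Part A) (P : ProjD A) {k : ℕ} (γ : Fin k → P1C A)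
    (ht : ∀ i j, i ≠ j → Trans (γ i) (γ j))
    (h3 : ∀ i j l, i ≠ j → j ≠ l → i ≠ l → (γ i).img ∩ (γ j).img ∩ (γ l).img = ∅)
    (hc : IsConnected (⋃ i, (γ i).img)) {x : X} (hx : x ∈ ⋃ i, (γ i).img)
    (hi : (loopsIn (⋃ i, (γ i).img) x).Infinite) : S14 :=
  s14_aux PA γ ht h3 hc hx hi fun _ _ _ _ => ⟨subPD P⟩

/-- the Kodaira embedding theorem for connected compact manifolds (as a hypothesis) -/
def KodEmb (n : ℕ) : Prop :=
  ∀ (Y : Type) [TopologicalSpace Y] [T2Space Y] [CompactSpace Y] [ConnectedSpace Y]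
    (B : Atl n Y) [Finite B.ι], Part B → ∀ (O : LB B) (h : HM O), h.Pos → Nonempty (ProjD B)

theorem KodEmb.cmp {n : ℕ} (K : KodEmb n) {X : Type} [TopologicalSpace X] [T2Space X]
    [CompactSpace X] {A : Atl n X} [Finite A.ι] (PA : Part A) {O : LB A} {h : HM O} (hp : h.Pos)
    (U : Opens X) [Nonempty U] (hU : IsClosed (U : Set X)) (hc : ConnectedSpace U) :
    Nonempty (ProjD (subA A U)) := by
  have : CompactSpace U := isCompact_iff_compactSpace.1 hU.isCompact
  exact K U (subA A U) (subP hU PA) (subL O) (subH h) (subH_pos hp)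

theorem s14_of_pos (K : KodEmb 2) (PA : Part A) {O : LB A} {h : HM O} (hp : h.Pos) {k : ℕ}
    (γ : Fin k → P1C A) (ht : ∀ i j, i ≠ j → Trans (γ i) (γ j))
    (h3 : ∀ i j l, i ≠ j → j ≠ l → i ≠ l → (γ i).img ∩ (γ j).img ∩ (γ l).img = ∅)
    (hc : IsConnected (⋃ i, (γ i).img)) {x : X} (hx : x ∈ ⋃ i, (γ i).img)
    (hi : (loopsIn (⋃ i, (γ i).img) x).Infinite) : S14 :=
  s14_aux PA γ ht h3 hc hx hi fun U _ hU hc => K.cmp PA hp U hU hc

end S14

section S15

open CpEnd_338 CpTor_338 TLoop_463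

variable {n : ℕ} {M : Type} [TopologicalSpace M] [T2Space M] [CompactSpace M] {A : Atl n M}
  [Finite A.ι]

/-- the map into the component -/
def fc [LocallyConnectedSpace M] (f : C(Fin 2 → ℂ, M)) (z₀ : Fin 2 → ℂ) :
    C(Fin 2 → ℂ, cmp (f z₀)) := (ret (f z₀)).comp f

theorem mem_cmp [LocallyConnectedSpace M] (f : C(Fin 2 → ℂ, M)) (z₀ z : Fin 2 → ℂ) :
    f z ∈ cmp (f z₀) :=
  sub_cmp (isPreconnected_range f.continuous) ⟨z₀, rfl⟩ mem_connectedComponent ⟨z, rfl⟩

theorem fc_val [LocallyConnectedSpace M] (f : C(Fin 2 → ℂ, M)) (z₀ z : Fin 2 → ℂ) :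
    ((fc f z₀ z : cmp (f z₀)) : M) = f z := val_ret (mem_cmp f z₀ z)

theorem fc_hol [LocallyConnectedSpace M] {f : C(Fin 2 → ℂ, M)} (hf : HolTo A f)
    (z₀ : Fin 2 → ℂ) : HolTo (subA A (cmp (f z₀))) (fc f z₀) := by
  intro i z hz
  have h1 : (fun w => (subA A (cmp (f z₀))).e i (fc f z₀ w)) = fun w => A.e i (f w) := by
    funext w
    show A.e i ((fc f z₀ w : cmp (f z₀)) : M) = _
    rw [fc_val]
  rw [h1]
  refine hf i z ?_
  rw [← fc_val f z₀ z]
  exact mem_source.1 hz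

theorem fc_imm [LocallyConnectedSpace M] {f : C(Fin 2 → ℂ, M)} (hf : ImmTo A f)
    (z₀ : Fin 2 → ℂ) : ImmTo (subA A (cmp (f z₀))) (fc f z₀) := by
  intro z
  obtain ⟨i, hi, hv⟩ := hf z
  have h1 : (fun w => (subA A (cmp (f z₀))).e i (fc f z₀ w)) = fun w => A.e i (f w) := by
    funext w
    show A.e i ((fc f z₀ w : cmp (f z₀)) : M) = _
    rw [fc_val]
  refine ⟨i, mem_source.2 ?_, fun v => ?_⟩
  · rw [fc_val]; exact hi
  · rw [h1]; exact hv v

theorem fc_per [LocallyConnectedSpace M] {f : C(Fin 2 → ℂ, M)} {Λ : AddSubgroup (Fin 2 → ℂ)}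
    (hper : Per f Λ) (z₀ : Fin 2 → ℂ) : Per (fc f z₀) Λ := by
  intro v l hl
  show ret (f z₀) (f (v + l)) = ret (f z₀) (f v)
  rw [hper v l hl]

theorem fc_key [LocallyConnectedSpace M] {f : C(Fin 2 → ℂ, M)} {Λ : AddSubgroup (Fin 2 → ℂ)}
    (hper : Per f Λ) (z₀ : Fin 2 → ℂ) (l : Λ) :
    (perHom (fc_per hper z₀) z₀ (Multiplicative.ofAdd l) = 1 ↔
      perHom hper z₀ (Multiplicative.ofAdd l) = 1) ∧
    (IsOfFinOrder (perHom (fc_per hper z₀) z₀ (Multiplicative.ofAdd l)) ↔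
      IsOfFinOrder (perHom hper z₀ (Multiplicative.ofAdd l))) := by
  have hr : (inc (f z₀)).comp (fc f z₀) = f := by
    ext z
    exact fc_val f z₀ z
  have h2 := perHom_congr hr
    (fun v m hm => by
      show inc (f z₀) (fc f z₀ (v + m)) = inc (f z₀) _
      rw [fc_per hper z₀ v m hm]) hper z₀ l.2 l.2
  have h3 := map_perHom (fc_per hper z₀) (inc (f z₀)) z₀ (Multiplicative.ofAdd l)
  have h4 := map_inc_injective (fc f z₀ z₀)
  constructor
  · rw [← h2.1, ← h3]
    constructor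
    · intro h5
      rw [h5, map_one]
    · intro h5
      exact h4 (h5.trans (map_one _).symm)
  · rw [← h2.2, ← h3]
    constructor
    · intro h5
      exact (FundamentalGroup.map (inc (f z₀)) _).isOfFinOrder h5
    · intro h5
      rw [isOfFinOrder_iff_pow_eq_one] at h5 ⊢
      obtain ⟨m, hm, h6⟩ := h5
      refine ⟨m, hm, h4 ?_⟩
      rw [map_pow, h6, map_one]

/-- the text of S0415 -/
def S15 : Prop :=
  ∃ (N c : ℕ) (X A : Set (CPn N)), IsSmoothProjVariety c X ∧ IsConnected X ∧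
    IsSimpleAbelianSurface A ∧ A ⊆ X ∧
    ∃ x : X, (x : CPn N) ∈ A ∧ ∃ g : FundamentalGroup X x, ¬ IsOfFinOrder g ∧
      loopClassesIn X A x = Set.range (fun k : ℤ => g ^ k)

theorem s15_aux (PA : Part A) {ω : Fin 4 → (Fin 2 → ℂ)} (hω : LinearIndependent ℝ ω)
    (hsim : ∀ l m : Fin 2 → ℂ, l ∈ periodLattice ω → m ∈ periodLattice ω → l ≠ 0 →
      ∀ a : ℂ, m = a • l → a.im = 0)
    (f : C(Fin 2 → ℂ, M)) (hf : HolTo A f) (hper : Per f (periodLattice ω).toAddSubgroup)
    (z₀ : Fin 2 → ℂ) (l₁ : (periodLattice ω).toAddSubgroup)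
    (h1 : ¬ IsOfFinOrder (perHom hper z₀ (Multiplicative.ofAdd l₁)))
    (h : ∀ l : (periodLattice ω).toAddSubgroup, ∃ m : ℤ, m ≠ 0 ∧ ∃ k : ℤ,
      perHom hper z₀ (Multiplicative.ofAdd (m • l - k • l₁)) = 1)
    (HP : ∀ (U : Opens M) [Nonempty U], IsClosed (U : Set M) → ConnectedSpace U →
      Nonempty (ProjD (subA A U)))
    (HD : (∃ b, Nonempty (TorD ω b)) ∨
      (ImmTo A f ∧ ∀ z w, f z = f w ↔ z - w ∈ periodLattice ω)) : S15 := by
  have : LocallyConnectedSpace M := locConn A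
  obtain ⟨P⟩ := HP (cmp (f z₀)) (isClosed_cmp _) inferInstance
  have hD : ∃ b, Nonempty (TorD ω b) := by
    rcases HD with hD | ⟨him, hinj⟩
    · exact hD
    · obtain ⟨D, -⟩ := torD_of P (fc_hol hf z₀) (fc_imm him z₀) (fun z w => by
        rw [← hinj z w]
        constructor
        · intro hzw
          have := congrArg (Subtype.val : cmp (f z₀) → M) hzw
          rwa [fc_val, fc_val] at this
        · intro hzw
          exact congrArg (ret (f z₀)) hzw)
      exact ⟨_, ⟨D⟩⟩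
  obtain ⟨b, ⟨D⟩⟩ := hD
  exact s0415_of (M := cmp (f z₀)) (A := subA A (cmp (f z₀))) (subP (isClosed_cmp _) PA) P hω hsim
    D (fc f z₀) (fc_hol hf z₀) (fc_per hper z₀) z₀ l₁
    (fun h5 => h1 ((fc_key hper z₀ l₁).2.1 h5))
    (fun l => by
      obtain ⟨m, hm, k, hk⟩ := h l
      exact ⟨m, hm, k, (fc_key hper z₀ _).1.2 hk⟩)

/-- **the end of S0415 without connectedness** -/
theorem s15_of (PA : Part A) (P : ProjD A) {ω : Fin 4 → (Fin 2 → ℂ)}
    (hω : LinearIndependent ℝ ω)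
    (hsim : ∀ l m : Fin 2 → ℂ, l ∈ periodLattice ω → m ∈ periodLattice ω → l ≠ 0 →
      ∀ a : ℂ, m = a • l → a.im = 0) {b : ℕ} (D : TorD ω b)
    (f : C(Fin 2 → ℂ, M)) (hf : HolTo A f) (hper : Per f (periodLattice ω).toAddSubgroup)
    (z₀ : Fin 2 → ℂ) (l₁ : (periodLattice ω).toAddSubgroup)
    (h1 : ¬ IsOfFinOrder (perHom hper z₀ (Multiplicative.ofAdd l₁)))
    (h : ∀ l : (periodLattice ω).toAddSubgroup, ∃ m : ℤ, m ≠ 0 ∧ ∃ k : ℤ,
      perHom hper z₀ (Multiplicative.ofAdd (m • l - k • l₁)) = 1) : S15 :=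
  s15_aux PA hω hsim f hf hper z₀ l₁ h1 h (fun _ _ _ _ => ⟨subPD P⟩) (Or.inl ⟨b, ⟨D⟩⟩)

theorem s15_emb (PA : Part A) (P : ProjD A) {ω : Fin 4 → (Fin 2 → ℂ)}
    (hω : LinearIndependent ℝ ω)
    (hsim : ∀ l m : Fin 2 → ℂ, l ∈ periodLattice ω → m ∈ periodLattice ω → l ≠ 0 →
      ∀ a : ℂ, m = a • l → a.im = 0)
    (f : C(Fin 2 → ℂ, M)) (hf : HolTo A f) (him : ImmTo A f)
    (hinj : ∀ z w, f z = f w ↔ z - w ∈ periodLattice ω)
    (hper : Per f (periodLattice ω).toAddSubgroup)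
    (z₀ : Fin 2 → ℂ) (l₁ : (periodLattice ω).toAddSubgroup)
    (h1 : ¬ IsOfFinOrder (perHom hper z₀ (Multiplicative.ofAdd l₁)))
    (h : ∀ l : (periodLattice ω).toAddSubgroup, ∃ m : ℤ, m ≠ 0 ∧ ∃ k : ℤ,
      perHom hper z₀ (Multiplicative.ofAdd (m • l - k • l₁)) = 1) : S15 :=
  s15_aux PA hω hsim f hf hper z₀ l₁ h1 h (fun _ _ _ _ => ⟨subPD P⟩) (Or.inr ⟨him, hinj⟩)

/-- **the end of S0415 from a positive line bundle**, no connectedness, embedded torus -/
theorem s15_emb_pos (K : KodEmb n) (PA : Part A) {O : LB A} {hm : HM O} (hp : hm.Pos)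
    {ω : Fin 4 → (Fin 2 → ℂ)} (hω : LinearIndependent ℝ ω)
    (hsim : ∀ l m : Fin 2 → ℂ, l ∈ periodLattice ω → m ∈ periodLattice ω → l ≠ 0 →
      ∀ a : ℂ, m = a • l → a.im = 0)
    (f : C(Fin 2 → ℂ, M)) (hf : HolTo A f) (him : ImmTo A f)
    (hinj : ∀ z w, f z = f w ↔ z - w ∈ periodLattice ω)
    (hper : Per f (periodLattice ω).toAddSubgroup)
    (z₀ : Fin 2 → ℂ) (l₁ : (periodLattice ω).toAddSubgroup)
    (h1 : ¬ IsOfFinOrder (perHom hper z₀ (Multiplicative.ofAdd l₁)))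
    (h : ∀ l : (periodLattice ω).toAddSubgroup, ∃ m : ℤ, m ≠ 0 ∧ ∃ k : ℤ,
      perHom hper z₀ (Multiplicative.ofAdd (m • l - k • l₁)) = 1) : S15 :=
  s15_aux PA hω hsim f hf hper z₀ l₁ h1 h (fun U _ hU hc => K.cmp PA hp U hU hc)
    (Or.inr ⟨him, hinj⟩)

end S15

end

end Crest.Agent.R272.Comp_259
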