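import Crest.Agent.R272.Comp2_259

/-!
# R272, leaf COMP-RED (helper259), part 3: `GoodA` restricts to clopen subsets

* `subG` : `GoodA A → GoodA (subA A U)` for `U` clopen;
* `KodEmbG` : the Kodaira embedding theorem with the extra hypothesis `GoodA`; the two ends.
-/

set_option autoImplicit false
set_option linter.unusedSectionVars false

open Set Filter Topology Complex TopologicalSpace
open Crest.AlgGeometry

namespace Crest.Agent.R272.Comp_259

open Crest.Agent.R275.Geo Crest.Agent.R275.Core144 Crest.Agent.R275.GC293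
open Crest.Agent.R273.Defs_333
open CpTop_338 CpChow_338 CpMan_338 CpPi_338 CpRat423 G14a_414

noncomputable section

section Good

variable {n : ℕ} {M : Type} [TopologicalSpace M] {A : Atl n M} {U : Opens M} [hU : Nonempty U]

theorem ov_sub (i j : A.ι) :
    (subA A U).ov i j = A.ov i j ∩ (A.e i).symm ⁻¹' U := by
  ext z
  constructor
  · rintro ⟨h1, h2⟩
    have h3 := mem_target.1 h1
    refine ⟨⟨h3.1, ?_⟩, h3.2⟩
    rw [← e_symm h1]
    exact mem_source.1 h2
  · rintro ⟨⟨h1, h2⟩, h3⟩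
    have h4 : z ∈ ((subA A U).e i).target := mem_target.2 ⟨h1, h3⟩
    refine ⟨h4, mem_source.2 ?_⟩
    rw [e_symm h4]
    exact h2

theorem convex_sub (hc : IsClosed (U : Set M)) {i j : A.ι} (h0 : Convex ℝ (A.ov i j)) :
    Convex ℝ ((subA A U).ov i j) := by
  rw [ov_sub]
  have h2 : IsPreconnected ((A.e i).symm '' (A.ov i j)) :=
    h0.isPreconnected.image _ ((A.e i).continuousOn_symm.mono fun z hz => hz.1)
  by_cases hne : (A.ov i j ∩ (A.e i).symm ⁻¹' U).Nonempty
  · obtain ⟨z, hz, hzU⟩ := hne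
    have h3 := h2.subset_isClopen ⟨hc, U.isOpen⟩ ⟨_, ⟨z, hz, rfl⟩, hzU⟩
    have h4 : A.ov i j ∩ (A.e i).symm ⁻¹' U = A.ov i j :=
      inter_eq_left.2 fun w hw => h3 ⟨w, hw, rfl⟩
    rw [h4]
    exact h0
  · rw [not_nonempty_iff_eq_empty.1 hne]
    exact convex_empty

/-- `GoodA` restricts to clopen subsets -/
theorem subG (hc : IsClosed (U : Set M)) (hA : GoodA A) : GoodA (subA A U) :=
  fun i j => convex_sub hc (hA i j)

end Good

/-- Kodaira embedding with `GoodA` (as a hypothesis) -/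
def KodEmbG (n : ℕ) : Prop :=
  ∀ (Y : Type) [TopologicalSpace Y] [T2Space Y] [CompactSpace Y] [ConnectedSpace Y]
    (B : Atl n Y) [Finite B.ι], GoodA B → Part B → ∀ (O : LB B) (h : HM O), h.Pos →
      Nonempty (ProjD B)

theorem KodEmbG.cmp {n : ℕ} (K : KodEmbG n) {X : Type} [TopologicalSpace X] [T2Space X]
    [CompactSpace X] {A : Atl n X} [Finite A.ι] (hA : GoodA A) (PA : Part A) {O : LB A}
    {h : HM O} (hp : h.Pos) (U : Opens X) [Nonempty U] (hU : IsClosed (U : Set X))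
    (hc : ConnectedSpace U) : Nonempty (ProjD (subA A U)) := by
  have : CompactSpace U := isCompact_iff_compactSpace.1 hU.isCompact
  exact K U (subA A U) (subG hU hA) (subP hU PA) (subL O) (subH h) (subH_pos hp)

theorem s14_of_posG {X : Type} [TopologicalSpace X] [T2Space X] [CompactSpace X] {A : Atl 2 X}
    [Finite A.ι] (K : KodEmbG 2) (hA : GoodA A) (PA : Part A) {O : LB A} {h : HM O}
    (hp : h.Pos) {k : ℕ}
    (γ : Fin k → P1C A) (ht : ∀ i j, i ≠ j → Trans (γ i) (γ j))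
    (h3 : ∀ i j l, i ≠ j → j ≠ l → i ≠ l → (γ i).img ∩ (γ j).img ∩ (γ l).img = ∅)
    (hc : IsConnected (⋃ i, (γ i).img)) {x : X} (hx : x ∈ ⋃ i, (γ i).img)
    (hi : (loopsIn (⋃ i, (γ i).img) x).Infinite) : S14 :=
  s14_aux PA γ ht h3 hc hx hi fun U _ hU hc => K.cmp hA PA hp U hU hc

open CpEnd_338 CpTor_338 TLoop_463 in
/-- **the end of S0415 from a positive line bundle**, no connectedness, embedded torus -/
theorem s15_emb_posG {n : ℕ} {M : Type} [TopologicalSpace M] [T2Space M] [CompactSpace M]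
    {A : Atl n M} [Finite A.ι] (K : KodEmbG n) (hA : GoodA A) (PA : Part A) {O : LB A}
    {hm : HM O} (hp : hm.Pos)
    {ω : Fin 4 → (Fin 2 → ℂ)} (hω : LinearIndependent ℝ ω)
    (hsim : ∀ l m : Fin 2 → ℂ, l ∈ periodLattice ω → m ∈ periodLattice ω → l ≠ 0 →
      ∀ a : ℂ, m = a • l → a.im = 0)
    (f : C(Fin 2 → ℂ, M)) (hf : HolTo A f) (him : ImmTo A f)
    (hinj : ∀ z w, f z = f w ↔ z - w ∈ periodLattice ω)
    (hper : Per f (periodLattice ω).toAddSubgroup)
    (z₀ : Fin 2 → ℂ) (l₁ : (periodLattice ω).toAddSubgroup)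
    (h1 : ¬ IsOfFinOrder (perHom hper z₀ (Multiplicative.ofAdd l₁)))
    (h : ∀ l : (periodLattice ω).toAddSubgroup, ∃ m : ℤ, m ≠ 0 ∧ ∃ k : ℤ,
      perHom hper z₀ (Multiplicative.ofAdd (m • l - k • l₁)) = 1) : S15 :=
  s15_aux PA hω hsim f hf hper z₀ l₁ h1 h (fun U _ hU hc => K.cmp hA PA hp U hU hc)
    (Or.inr ⟨him, hinj⟩)

end

end Crest.Agent.R272.Comp_259
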