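import Mathlib

/-!
Row 272, division E, leaf ET2B-SYMPZ (helper771).

* `exists_sympl` : a unimodular alternating form on a free `ℤ`-module of finite rank has a
  symplectic basis (expansion form), `exists_basis` the same as a `Basis`.
* `exists_lag` : the same for a lattice `L` of a real vector space `W`, self-dual for a real
  alternating form `B`: `W = span P ⊕ span Q`, coordinates given by `B`.
-/

set_option autoImplicit false
set_option linter.unusedSectionVars false

open Module

namespace Crest.Agent.R272.SympZ_771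

section abstract

variable {L : Type*} [AddCommGroup L]

/-- `p, q` is a symplectic family for `e` which spans (expansion formula). -/
structure Sympl (e : L →ₗ[ℤ] L →ₗ[ℤ] ℤ) {N : ℕ} (p q : Fin N → L) : Prop where
  pp : ∀ i j, e (p i) (p j) = 0
  qq : ∀ i j, e (q i) (q j) = 0
  pq : ∀ i j, e (p i) (q j) = if i = j then 1 else 0
  expand : ∀ x, x = ∑ i, (e x (q i) • p i - e x (p i) • q i)

theorem skew {e : L →ₗ[ℤ] L →ₗ[ℤ] ℤ} (halt : ∀ x, e x x = 0) (x y : L) : e x y = - e y x := by
  have h := halt (x + y)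
  simp only [map_add, LinearMap.add_apply, halt] at h
  linarith

theorem exists_sympl [Module.Free ℤ L] [Module.Finite ℤ L] (e : L →ₗ[ℤ] L →ₗ[ℤ] ℤ)
    (halt : ∀ x, e x x = 0) (hsurj : Function.Surjective e) :
    ∃ (N : ℕ) (p q : Fin N → L), Sympl e p q := by
  induction h : Module.finrank ℤ L using Nat.strong_induction_on generalizing L with
  | _ r ih =>
    rcases Nat.eq_zero_or_pos r with h0 | hpos
    · -- rank zero
      have hs : Subsingleton L := by
        rw [← h] at h0
        exact Module.finrank_zero_iff.1 h0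
      refine ⟨0, Fin.elim0, Fin.elim0, ⟨fun i => i.elim0, fun i => i.elim0, fun i => i.elim0, ?_⟩⟩
      intro x
      exact Subsingleton.elim _ _
    · -- choose a basis vector
      let b := Module.Free.chooseBasis ℤ L
      have hne : Nonempty (Module.Free.ChooseBasisIndex ℤ L) := by
        rw [← Fintype.card_pos_iff, ← Module.finrank_eq_card_chooseBasisIndex, h]
        exact hpos
      obtain ⟨i0⟩ := hne
      obtain ⟨q, hq⟩ := hsurj (-(b.coord i0))
      set p : L := b i0 with hp
      have hpq : e p q = 1 := by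
        rw [skew halt, hq]
        simp [hp]
      have hqp : e q p = -1 := by rw [skew halt, hpq]
      -- the projection to the orthogonal complement
      let K : Submodule ℤ L := LinearMap.ker (e p) ⊓ LinearMap.ker (e q)
      have hK : ∀ x : L, x ∈ K ↔ e p x = 0 ∧ e q x = 0 := by
        intro x
        simp [K]
      have hmem : ∀ x : L, x - e x q • p + e x p • q ∈ K := by
        intro x
        rw [hK]
        constructor
        · simp only [map_add, map_sub, map_smul, halt, hpq, smul_eq_mul]
          rw [skew halt p x]; ring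
        · simp only [map_add, map_sub, map_smul, halt, hqp, smul_eq_mul]
          rw [skew halt q x]; ring
      let pr : L →ₗ[ℤ] K :=
        { toFun := fun x => ⟨x - e x q • p + e x p • q, hmem x⟩
          map_add' := by
            intro x y
            ext
            simp only [map_add, LinearMap.add_apply, add_smul, Submodule.coe_add]
            abel
          map_smul' := by
            intro c x
            ext
            simp only [map_smul, LinearMap.smul_apply, smul_eq_mul, mul_smul, RingHom.id_apply,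
              Submodule.coe_smul, smul_add, smul_sub] }
      have hprK : ∀ x : K, pr x = x := by
        intro x
        have hx := (hK x).1 x.2
        ext
        show (x : L) - e x q • p + e x p • q = x
        rw [skew halt x q, skew halt x p, hx.1, hx.2]
        simp
      have hprp : pr p = 0 := by
        ext
        show p - e p q • p + e p p • q = 0
        rw [hpq, halt]; simp
      have hprq : pr q = 0 := by
        ext
        show q - e q q • p + e q p • q = 0
        rw [hqp, halt]; simp
      let e' : K →ₗ[ℤ] K →ₗ[ℤ] ℤ := e.domRestrict₁₂ K K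
      have he' : ∀ x y : K, e' x y = e x y := fun x y => rfl
      have hK_free : Module.Free ℤ K := inferInstance
      have hK_fin : Module.Finite ℤ K := inferInstance
      have hlt : Module.finrank ℤ K < r := by
        rw [← h]
        -- K ⊕ ℤ p injects into L
        let φ : (K × ℤ) →ₗ[ℤ] L := (K.subtype).coprod (LinearMap.toSpanSingleton ℤ L p)
        have hφ : Function.Injective φ := by
          rw [← LinearMap.ker_eq_bot, LinearMap.ker_eq_bot']
          rintro ⟨x, c⟩ hx
          have hx' : (x : L) + c • p = 0 := by simpa [φ] using hx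
          have h1 : e q ((x : L) + c • p) = 0 := by rw [hx', map_zero]
          have h2 := (hK x).1 x.2
          rw [map_add, map_smul, h2.2, hqp] at h1
          have hc : c = 0 := by simpa using h1
          subst hc
          have : (x : L) = 0 := by simpa using hx'
          ext
          · simpa using this
          · rfl
        have h3 := LinearMap.finrank_le_finrank_of_injective hφ
        rw [Module.finrank_prod] at h3
        simp at h3
        omega
      have halt' : ∀ x, e' x x = 0 := fun x => halt x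
      have hsurj' : Function.Surjective e' := by
        intro f
        obtain ⟨y, hy⟩ := hsurj (f ∘ₗ pr)
        have hyK : y ∈ K := by
          rw [hK, skew halt p, skew halt q, hy]
          simp [hprp, hprq]
        refine ⟨⟨y, hyK⟩, ?_⟩
        ext x
        rw [he']
        show e y x = f x
        rw [hy, LinearMap.comp_apply, hprK]
      obtain ⟨N, p', q', hS⟩ := ih _ hlt e' halt' hsurj' rfl
      refine ⟨N + 1, Fin.cons p (fun i => (p' i : L)), Fin.cons q (fun i => (q' i : L)), ?_⟩
      have hp1 : ∀ x : K, e p x = 0 := fun x => ((hK x).1 x.2).1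
      have hq1 : ∀ x : K, e q x = 0 := fun x => ((hK x).1 x.2).2
      have hp2 : ∀ x : K, e x p = 0 := fun x => by rw [skew halt, hp1, neg_zero]
      have hq2 : ∀ x : K, e x q = 0 := fun x => by rw [skew halt, hq1, neg_zero]
      refine ⟨?_, ?_, ?_, ?_⟩
      · intro i j
        refine Fin.cases ?_ (fun i => ?_) i <;> refine Fin.cases ?_ (fun j => ?_) j
        · simpa using halt p
        · simpa using hp1 (p' j)
        · simpa using hp2 (p' i)
        · simpa using (he' _ _).symm.trans (hS.pp i j)
      · intro i j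
        refine Fin.cases ?_ (fun i => ?_) i <;> refine Fin.cases ?_ (fun j => ?_) j
        · simpa using halt q
        · simpa using hq1 (q' j)
        · simpa using hq2 (q' i)
        · simpa using (he' _ _).symm.trans (hS.qq i j)
      · intro i j
        refine Fin.cases ?_ (fun i => ?_) i <;> refine Fin.cases ?_ (fun j => ?_) j
        · simpa using hpq
        · have := hp1 (q' j)
          simpa [(Fin.succ_ne_zero j).symm] using this
        · have := hq2 (p' i)
          simpa [Fin.succ_ne_zero i] using this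
        · have := (he' _ _).symm.trans (hS.pq i j)
          simpa [Fin.succ_inj] using this
      · intro x
        rw [Fin.sum_univ_succ]
        simp only [Fin.cons_zero, Fin.cons_succ]
        have h1 := congrArg (Subtype.val : K → L) (hS.expand (pr x))
        have h2 : ∀ k : K, e x k = e (pr x) k := by
          intro k
          show e x k = e (x - e x q • p + e x p • q) k
          simp [hp1, hq1]
        have h3 : ((pr x : K) : L) = x - e x q • p + e x p • q := rfl
        have h4 : ((∑ i, (e' (pr x) (q' i) • p' i - e' (pr x) (p' i) • q' i) : K) : L)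
            = ∑ i, (e x (q' i) • (p' i : L) - e x (p' i) • (q' i : L)) := by
          rw [Submodule.coe_sum]
          refine Finset.sum_congr rfl fun i _ => ?_
          rw [h2, h2, he', he']
          simp
        rw [h3, h4] at h1
        rw [← h1]
        abel

/-- the coordinates in a symplectic family -/
def Sympl.equivFun {e : L →ₗ[ℤ] L →ₗ[ℤ] ℤ} {N : ℕ} {p q : Fin N → L} (h : Sympl e p q)
    (halt : ∀ x, e x x = 0) : L ≃ₗ[ℤ] (Fin N ⊕ Fin N → ℤ) where
  toFun x := Sum.elim (fun i => e x (q i)) (fun i => - e x (p i))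
  map_add' x y := by
    ext i
    rcases i with i | i
    · simp
    · simp; ring
  map_smul' c x := by
    ext i
    rcases i with i | i
    · simp
    · simp
  invFun c := ∑ i, (c (Sum.inl i) • p i + c (Sum.inr i) • q i)
  left_inv x := by
    conv_rhs => rw [h.expand x]
    refine Finset.sum_congr rfl fun i _ => ?_
    simp [sub_eq_add_neg]
  right_inv c := by
    ext i
    rcases i with i | i
    · simp only [Sum.elim_inl, map_sum, LinearMap.sum_apply, map_add, map_smul,
        LinearMap.add_apply, LinearMap.smul_apply, h.pq, h.qq, smul_eq_mul, mul_zero, add_zero]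
      simp
    · have hqp : ∀ k j, e (q k) (p j) = if j = k then -1 else 0 := by
        intro k j
        rw [skew halt, h.pq]
        split_ifs <;> simp
      simp only [Sum.elim_inr, map_sum, LinearMap.sum_apply, map_add, map_smul,
        LinearMap.add_apply, LinearMap.smul_apply, h.pp, hqp, smul_eq_mul, mul_zero, zero_add]
      simp

theorem exists_basis [Module.Free ℤ L] [Module.Finite ℤ L] (e : L →ₗ[ℤ] L →ₗ[ℤ] ℤ)
    (halt : ∀ x, e x x = 0) (hsurj : Function.Surjective e) :
    ∃ (N : ℕ) (b : Basis (Fin N ⊕ Fin N) ℤ L),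
      (∀ i j, e (b (Sum.inl i)) (b (Sum.inl j)) = 0) ∧
      (∀ i j, e (b (Sum.inr i)) (b (Sum.inr j)) = 0) ∧
      (∀ i j, e (b (Sum.inl i)) (b (Sum.inr j)) = if i = j then 1 else 0) ∧
      (∀ x i, b.repr x (Sum.inl i) = e x (b (Sum.inr i))) ∧
      (∀ x i, b.repr x (Sum.inr i) = - e x (b (Sum.inl i))) := by
  obtain ⟨N, p, q, h⟩ := exists_sympl e halt hsurj
  let b := Basis.ofEquivFun (h.equivFun halt)
  have hb1 : ∀ i, b (Sum.inl i) = p i := by
    intro i
    rw [Basis.coe_ofEquivFun]
    show ∑ k, ((Pi.single (Sum.inl i) (1 : ℤ) : Fin N ⊕ Fin N → ℤ) (Sum.inl k) • p k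
      + (Pi.single (Sum.inl i) (1 : ℤ) : Fin N ⊕ Fin N → ℤ) (Sum.inr k) • q k) = p i
    simp [Pi.single_apply]
  have hb2 : ∀ i, b (Sum.inr i) = q i := by
    intro i
    rw [Basis.coe_ofEquivFun]
    show ∑ k, ((Pi.single (Sum.inr i) (1 : ℤ) : Fin N ⊕ Fin N → ℤ) (Sum.inl k) • p k
      + (Pi.single (Sum.inr i) (1 : ℤ) : Fin N ⊕ Fin N → ℤ) (Sum.inr k) • q k) = q i
    simp [Pi.single_apply]
  refine ⟨N, b, ?_, ?_, ?_, ?_, ?_⟩
  · intro i j; rw [hb1, hb1, h.pp]
  · intro i j; rw [hb2, hb2, h.qq]
  · intro i j; rw [hb1, hb2, h.pq]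
  · intro x i; rw [hb2]; rfl
  · intro x i; rw [hb1]; rfl

end abstract

section lattice

variable {W : Type*} [NormedAddCommGroup W] [NormedSpace ℝ W] [FiniteDimensional ℝ W]

/-- `L` is a lattice of `W`, self-dual for the real alternating form `B`. -/
structure SelfDual (B : W →ₗ[ℝ] W →ₗ[ℝ] ℝ) (L : AddSubgroup W) : Prop where
  alt : ∀ x, B x x = 0
  disc : ∀ r : ℝ, {v : W | v ∈ L ∧ ‖v‖ ≤ r}.Finite
  span : Submodule.span ℝ (L : Set W) = ⊤
  int : ∀ v ∈ L, ∀ w ∈ L, ∃ k : ℤ, B v w = k
  dual : ∀ v, (∀ w ∈ L, ∃ k : ℤ, B v w = k) → v ∈ L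

/-- Lagrangian splitting of a self-dual lattice: `P = span p`, `Q = span q`. -/
structure Lag (B : W →ₗ[ℝ] W →ₗ[ℝ] ℝ) (L : AddSubgroup W) {N : ℕ} (p q : Fin N → W) : Prop where
  memp : ∀ i, p i ∈ L
  memq : ∀ i, q i ∈ L
  pp : ∀ i j, B (p i) (p j) = 0
  qq : ∀ i j, B (q i) (q j) = 0
  pq : ∀ i j, B (p i) (q j) = if i = j then 1 else 0
  expand : ∀ x, x = ∑ i, (B x (q i) • p i - B x (p i) • q i)

theorem SelfDual.discrete {B : W →ₗ[ℝ] W →ₗ[ℝ] ℝ} {L : AddSubgroup W} (h : SelfDual B L) :
    DiscreteTopology L := by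
  have hfin : {x : L | ‖(x : W)‖ ≤ 1}.Finite := by
    have h1 := (h.disc 1).preimage (f := ((↑) : L → W)) Subtype.val_injective.injOn
    refine h1.subset ?_
    intro x hx
    exact ⟨x.2, hx⟩
  refine discreteTopology_of_isOpen_singleton_zero ?_
  have h2 : ({0} : Set L) = Metric.ball (0 : L) 1 ∩ ({x : L | ‖(x : W)‖ ≤ 1} \ {0})ᶜ := by
    ext x
    simp only [Set.mem_singleton_iff, Set.mem_inter_iff, Set.mem_compl_iff, Set.mem_sdiff,
      Set.mem_ofPred_eq, mem_ball_zero_iff]
    constructor
    · rintro rfl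
      simp
    · rintro ⟨h3, h4⟩
      by_contra hx
      exact h4 ⟨le_of_lt h3, hx⟩
  rw [h2]
  exact Metric.isOpen_ball.inter (hfin.subset Set.sdiff_subset).isClosed.isOpen_compl

theorem SelfDual.nondeg {B : W →ₗ[ℝ] W →ₗ[ℝ] ℝ} {L : AddSubgroup W} (h : SelfDual B L)
    {v : W} (hv : ∀ w, B v w = 0) : v = 0 := by
  by_contra hne
  have hmem : ∀ n : ℕ, ((1 : ℝ) / (n + 1)) • v ∈ L := by
    intro n
    apply h.dual
    intro w _
    exact ⟨0, by simp [hv]⟩
  have hinj : Function.Injective (fun n : ℕ => ((1 : ℝ) / (n + 1)) • v) := by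
    intro a b hab
    have h1 := smul_left_injective ℝ hne hab
    have ha : (0 : ℝ) < a + 1 := by positivity
    have hb : (0 : ℝ) < b + 1 := by positivity
    simp only [one_div, inv_inj] at h1
    exact_mod_cast (add_right_cancel h1)
  have hfin := h.disc ‖v‖
  have hsub : Set.range (fun n : ℕ => ((1 : ℝ) / (n + 1)) • v) ⊆ {w : W | w ∈ L ∧ ‖w‖ ≤ ‖v‖} := by
    rintro _ ⟨n, rfl⟩
    refine ⟨hmem n, ?_⟩
    have : (0:ℝ) < n + 1 := by positivity
    rw [norm_smul, Real.norm_of_nonneg (by positivity)]
    have h2 : (1 : ℝ) / (n + 1) ≤ 1 := by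
      rw [div_le_one this]; linarith [(Nat.cast_nonneg n : (0:ℝ) ≤ n)]
    nlinarith [norm_nonneg v]
  exact (Set.infinite_range_of_injective hinj) (hfin.subset hsub)

/-- existence of a Lagrangian splitting -/
theorem exists_lag {B : W →ₗ[ℝ] W →ₗ[ℝ] ℝ} {L : AddSubgroup W} (h : SelfDual B L) :
    ∃ (N : ℕ) (p q : Fin N → W), Lag B L p q := by
  have hdisc := h.discrete
  let M : Submodule ℤ W := AddSubgroup.toIntSubmodule L
  have hdM : DiscreteTopology M := hdisc
  have hZ : IsZLattice ℝ M := ⟨h.span⟩
  have hfree : Module.Free ℤ M := ZLattice.module_free ℝ M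
  have hfinM : Module.Finite ℤ M := ZLattice.module_finite ℝ M
  have hint : ∀ x y : M, ((⌊B x y⌋ : ℤ) : ℝ) = B x y := by
    intro x y
    obtain ⟨k, hk⟩ := h.int x x.2 y y.2
    rw [hk, Int.floor_intCast]
  let e : M →ₗ[ℤ] M →ₗ[ℤ] ℤ := LinearMap.mk₂ ℤ (fun x y : M => ⌊B x y⌋)
    (by
      intro x x' y
      have : ((⌊B ((x + x' : M) : W) y⌋ : ℤ) : ℝ) = ((⌊B x y⌋ + ⌊B x' y⌋ : ℤ) : ℝ) := by
        rw [Int.cast_add, hint, hint, hint]; simp
      exact_mod_cast this)
    (by
      intro c x y
      have : ((⌊B ((c • x : M) : W) y⌋ : ℤ) : ℝ) = ((c • ⌊B x y⌋ : ℤ) : ℝ) := by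
        rw [smul_eq_mul, Int.cast_mul, hint, hint]; simp
      exact_mod_cast this)
    (by
      intro x y y'
      have : ((⌊B (x : W) ((y + y' : M) : W)⌋ : ℤ) : ℝ) = ((⌊B x y⌋ + ⌊B x y'⌋ : ℤ) : ℝ) := by
        rw [Int.cast_add, hint, hint, hint]; simp
      exact_mod_cast this)
    (by
      intro c x y
      have : ((⌊B (x : W) ((c • y : M) : W)⌋ : ℤ) : ℝ) = ((c • ⌊B x y⌋ : ℤ) : ℝ) := by
        rw [smul_eq_mul, Int.cast_mul, hint, hint]; simp
      exact_mod_cast this)
  have he : ∀ x y : M, ((e x y : ℤ) : ℝ) = B x y := fun x y => hint x y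
  have halt : ∀ x, e x x = 0 := by
    intro x
    have := he x x
    rw [h.alt] at this
    exact_mod_cast this
  have hBinj : Function.Injective B := by
    rw [← LinearMap.ker_eq_bot, LinearMap.ker_eq_bot']
    intro v hv
    exact h.nondeg (fun w => by rw [hv]; rfl)
  have hBsurj : Function.Surjective B := by
    have := LinearMap.injective_iff_surjective_of_finrank_eq_finrank (f := B)
      (Subspace.dual_finrank_eq (K := ℝ) (V := W)).symm
    exact this.1 hBinj
  have hsurj : Function.Surjective e := by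
    intro f
    let b := Module.Free.chooseBasis ℤ M
    let bR := b.ofZLatticeBasis ℝ M
    let F : W →ₗ[ℝ] ℝ := bR.constr ℝ (fun i => ((f (b i) : ℤ) : ℝ))
    have hF : ∀ x : M, F x = ((f x : ℤ) : ℝ) := by
      intro x
      have h1 : (F.restrictScalars ℤ) ∘ₗ M.subtype =
          (Algebra.linearMap ℤ ℝ) ∘ₗ f := by
        refine b.ext fun i => ?_
        simp only [LinearMap.comp_apply, LinearMap.restrictScalars_apply, Submodule.subtype_apply,
          Algebra.linearMap_apply, algebraMap_int_eq, eq_intCast]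
        rw [← b.ofZLatticeBasis_apply ℝ M i]
        exact bR.constr_basis ℝ _ i
      have h2 := LinearMap.congr_fun h1 x
      simpa using h2
    obtain ⟨v, hv⟩ := hBsurj F
    have hvL : v ∈ L := by
      apply h.dual
      intro w hw
      exact ⟨f ⟨w, hw⟩, by rw [hv]; exact hF ⟨w, hw⟩⟩
    refine ⟨⟨v, hvL⟩, ?_⟩
    ext x
    have h1 := he ⟨v, hvL⟩ x
    have h2 := hF x
    have h3 : B v x = F x := by rw [hv]
    have h4 : ((e ⟨v, hvL⟩ x : ℤ) : ℝ) = ((f x : ℤ) : ℝ) := by rw [h1, ← h2, ← h3]
    exact_mod_cast h4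
  obtain ⟨N, p, q, hS⟩ := exists_sympl e halt hsurj
  refine ⟨N, fun i => (p i : W), fun i => (q i : W), fun i => (p i).2, fun i => (q i).2,
    ?_, ?_, ?_, ?_⟩
  · intro i j
    rw [← he, hS.pp, Int.cast_zero]
  · intro i j
    rw [← he, hS.qq, Int.cast_zero]
  · intro i j
    rw [← he, hS.pq]
    split_ifs <;> simp
  · let T : W →ₗ[ℝ] W := ∑ i, ((B.flip (q i : W)).smulRight (p i : W)
      - (B.flip (p i : W)).smulRight (q i : W))
    have hT : ∀ x, T x = ∑ i, (B x (q i) • (p i : W) - B x (p i) • (q i : W)) := by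
      intro x
      simp [T, LinearMap.sum_apply]
    have hTid : T = LinearMap.id := by
      refine LinearMap.ext_on h.span ?_
      intro x hx
      have h1 := congrArg (Subtype.val : M → W) (hS.expand ⟨x, hx⟩)
      rw [hT, LinearMap.id_apply]
      refine Eq.trans ?_ h1.symm
      rw [Submodule.coe_sum]
      refine Finset.sum_congr rfl fun i _ => ?_
      rw [← he ⟨x, hx⟩ (q i), ← he ⟨x, hx⟩ (p i), Int.cast_smul_eq_zsmul,
        Int.cast_smul_eq_zsmul]
      rfl
    intro x
    rw [← hT, hTid, LinearMap.id_apply]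

namespace Lag

variable {B : W →ₗ[ℝ] W →ₗ[ℝ] ℝ} {L : AddSubgroup W} {N : ℕ} {p q : Fin N → W}

theorem skewB (halt : ∀ x, B x x = 0) (x y : W) : B x y = - B y x := by
  have h := halt (x + y)
  simp only [map_add, LinearMap.add_apply, halt] at h
  linarith

theorem qp (h : Lag B L p q) (halt : ∀ x, B x x = 0) (i j : Fin N) :
    B (q i) (p j) = if i = j then -1 else 0 := by
  rw [skewB halt, h.pq]
  by_cases hij : i = j
  · simp [hij]
  · simp [hij, Ne.symm hij]

/-- the point with coordinates `(s,t)` -/
def pt (p q : Fin N → W) (s t : Fin N → ℝ) : W := ∑ i, (s i • p i + t i • q i)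

theorem pt_p (h : Lag B L p q) (halt : ∀ x, B x x = 0) (s t : Fin N → ℝ) (j : Fin N) :
    B (pt p q s t) (p j) = - t j := by
  simp only [pt, map_sum, LinearMap.sum_apply, map_add, map_smul, LinearMap.add_apply,
    LinearMap.smul_apply, h.pp, h.qp halt, smul_eq_mul, mul_zero, zero_add]
  simp

theorem pt_q (h : Lag B L p q) (s t : Fin N → ℝ) (j : Fin N) :
    B (pt p q s t) (q j) = s j := by
  simp only [pt, map_sum, LinearMap.sum_apply, map_add, map_smul, LinearMap.add_apply,
    LinearMap.smul_apply, h.qq, h.pq, smul_eq_mul, mul_zero, add_zero]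
  simp

/-- Darboux coordinates: `W ≃ ℝ^N × ℝ^N`. -/
noncomputable def equiv (h : Lag B L p q) (halt : ∀ x, B x x = 0) :
    W ≃ₗ[ℝ] (Fin N → ℝ) × (Fin N → ℝ) where
  toFun x := (fun i => B x (q i), fun i => - B x (p i))
  map_add' x y := by
    ext i
    · simp
    · simp; ring
  map_smul' c x := by
    ext i
    · simp
    · simp
  invFun c := pt p q c.1 c.2
  left_inv x := by
    conv_rhs => rw [h.expand x]
    refine Finset.sum_congr rfl fun i _ => ?_
    simp [sub_eq_add_neg]
  right_inv c := by
    ext i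
    · exact h.pt_q c.1 c.2 i
    · show - B (pt p q c.1 c.2) (p i) = c.2 i
      rw [h.pt_p halt]; simp

theorem equiv_apply (h : Lag B L p q) (halt : ∀ x, B x x = 0) (x : W) :
    h.equiv halt x = (fun i => B x (q i), fun i => - B x (p i)) := rfl

theorem equiv_symm_apply (h : Lag B L p q) (halt : ∀ x, B x x = 0)
    (c : (Fin N → ℝ) × (Fin N → ℝ)) :
    (h.equiv halt).symm c = ∑ i, (c.1 i • p i + c.2 i • q i) := rfl

/-- the form in Darboux coordinates -/
theorem form (h : Lag B L p q) (halt : ∀ x, B x x = 0) (c d : (Fin N → ℝ) × (Fin N → ℝ)) :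
    B ((h.equiv halt).symm c) ((h.equiv halt).symm d) = ∑ i, (c.1 i * d.2 i - c.2 i * d.1 i) := by
  rw [equiv_symm_apply h halt d]
  simp only [map_sum, map_add, map_smul, smul_eq_mul]
  refine Finset.sum_congr rfl fun i _ => ?_
  have h1 := h.pt_p halt c.1 c.2 i
  have h2 := h.pt_q c.1 c.2 i
  simp only [pt] at h1 h2
  rw [equiv_symm_apply, h1, h2]
  ring

/-- the lattice consists of the points with integral coordinates -/
theorem mem_iff (h : Lag B L p q) (halt : ∀ x, B x x = 0)
    (hint : ∀ v ∈ L, ∀ w ∈ L, ∃ k : ℤ, B v w = k) (x : W) :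
    x ∈ L ↔ ∃ a b : Fin N → ℤ, x = (h.equiv halt).symm (fun i => (a i : ℝ), fun i => (b i : ℝ)) := by
  constructor
  · intro hx
    choose a ha using fun i => hint x hx (q i) (h.memq i)
    choose b hb using fun i => hint x hx (p i) (h.memp i)
    refine ⟨a, fun i => - b i, ?_⟩
    rw [LinearEquiv.eq_symm_apply, equiv_apply]
    ext i
    · exact ha i
    · simp [hb i]
  · rintro ⟨a, b, rfl⟩
    rw [equiv_symm_apply]
    refine L.sum_mem fun i _ => L.add_mem ?_ ?_
    · show ((a i : ℝ)) • p i ∈ L
      rw [Int.cast_smul_eq_zsmul]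
      exact L.zsmul_mem (h.memp i) _
    · show ((b i : ℝ)) • q i ∈ L
      rw [Int.cast_smul_eq_zsmul]
      exact L.zsmul_mem (h.memq i) _

/-- rank: `dim W = 2 N` -/
theorem finrank_eq (h : Lag B L p q) (halt : ∀ x, B x x = 0) : Module.finrank ℝ W = 2 * N := by
  rw [(h.equiv halt).finrank_eq, Module.finrank_prod]
  simp
  ring

/-- `(p, q)` as a real basis -/
noncomputable def basis (h : Lag B L p q) (halt : ∀ x, B x x = 0) :
    Basis (Fin N ⊕ Fin N) ℝ W :=
  Basis.ofEquivFun ((h.equiv halt).trans (LinearEquiv.sumArrowLequivProdArrow _ _ ℝ ℝ).symm)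

theorem basis_inl (h : Lag B L p q) (halt : ∀ x, B x x = 0) (i : Fin N) :
    h.basis halt (Sum.inl i) = p i := by
  rw [basis, Basis.coe_ofEquivFun]
  show (h.equiv halt).symm _ = _
  rw [equiv_symm_apply]
  simp [Pi.single_apply]

theorem basis_inr (h : Lag B L p q) (halt : ∀ x, B x x = 0) (i : Fin N) :
    h.basis halt (Sum.inr i) = q i := by
  rw [basis, Basis.coe_ofEquivFun]
  show (h.equiv halt).symm _ = _
  rw [equiv_symm_apply]
  simp [Pi.single_apply]

theorem span_basis (h : Lag B L p q) (halt : ∀ x, B x x = 0)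
    (hint : ∀ v ∈ L, ∀ w ∈ L, ∃ k : ℤ, B v w = k) :
    (Submodule.span ℤ (Set.range (h.basis halt))).toAddSubgroup = L := by
  ext x
  rw [Submodule.mem_toAddSubgroup, Basis.mem_span_iff_repr_mem]
  constructor
  · intro hx
    have h1 := (h.basis halt).sum_repr x
    rw [← h1]
    refine L.sum_mem fun i _ => ?_
    obtain ⟨k, hk⟩ := hx i
    rw [← hk]
    show ((k : ℝ)) • _ ∈ L
    rw [Int.cast_smul_eq_zsmul]
    refine L.zsmul_mem ?_ _
    rcases i with i | i
    · rw [basis_inl]; exact h.memp i
    · rw [basis_inr]; exact h.memq i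
  · intro hx i
    rcases i with i | i
    · obtain ⟨k, hk⟩ := hint x hx (q i) (h.memq i)
      exact ⟨k, by rw [basis, Basis.ofEquivFun_repr_apply]; simp [equiv_apply, hk]⟩
    · obtain ⟨k, hk⟩ := hint x hx (p i) (h.memp i)
      exact ⟨-k, by rw [basis, Basis.ofEquivFun_repr_apply]; simp [equiv_apply, hk]⟩

end Lag

end lattice

end Crest.Agent.R272.SympZ_771
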