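import Crest.Agent.R272.Poi_307
import Crest.Agent.R272.SympZ_771
import Crest.Agent.R272.Z2_939

/-!
Row 272, (E), road B of 641's #6137: the Gaussian integral.
`<A,B> = inner ℂ B A` (linear in `A`) on a finite dimensional complex inner product space `H`.
-/
set_option autoImplicit false

namespace Crest.Agent.R272.Core_898

open Complex Set Filter Topology MeasureTheory
open scoped ComplexConjugate Real

noncomputable section

variable {H : Type*} [NormedAddCommGroup H] [InnerProductSpace ℂ H]

/-- `<A,B>`, linear in `A` -/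
def br (A B : H) : ℂ := inner ℂ B A

theorem br_add_left (A A' B : H) : br (A + A') B = br A B + br A' B := by simp [br]
theorem br_add_right (A B B' : H) : br A (B + B') = br A B + br A B' := by simp [br]
theorem br_sub_left (A A' B : H) : br (A - A') B = br A B - br A' B := by simp [br]
theorem br_sub_right (A B B' : H) : br A (B - B') = br A B - br A B' := by simp [br]
theorem br_neg_left (A B : H) : br (-A) B = - br A B := by simp [br]
theorem br_neg_right (A B : H) : br A (-B) = - br A B := by simp [br]
theorem br_conj (A B : H) : conj (br A B) = br B A := by simp [br]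
theorem br_zero_left (B : H) : br 0 B = 0 := by simp [br]
theorem br_zero_right (A : H) : br A 0 = 0 := by simp [br]
theorem br_smul_left (c : ℂ) (A B : H) : br (c • A) B = c * br A B := by simp [br]
theorem br_smul_right (c : ℂ) (A B : H) : br A (c • B) = conj c * br A B := by
  simp [br]; ring
theorem br_self (A : H) : br A A = ((‖A‖ ^ 2 : ℝ) : ℂ) := by
  simp only [br, inner_self_eq_norm_sq_to_K]; push_cast; rfl

/-- the Gaussian `exp π(-|V|² + <V,F> + <E,V>)` -/
def gs (E F V : H) : ℂ := exp (π * (-((‖V‖ ^ 2 : ℝ) : ℂ) + br V F + br E V))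

theorem norm_gs_le (E F V : H) :
    ‖gs E F V‖ ≤ Real.exp (π * (‖E‖ + ‖F‖) ^ 2 / 2) * Real.exp (-(π / 2) * ‖V‖ ^ 2) := by
  unfold gs
  rw [norm_exp, ← Real.exp_add]
  refine Real.exp_le_exp.2 ?_
  have h1 : (br V F).re ≤ ‖F‖ * ‖V‖ := (re_le_norm _).trans (norm_inner_le_norm _ _)
  have h2 : (br E V).re ≤ ‖V‖ * ‖E‖ := (re_le_norm _).trans (norm_inner_le_norm _ _)
  rw [re_ofReal_mul]
  simp only [add_re, neg_re, ofReal_re]
  have hpi := Real.pi_pos
  have h3 : π * (-‖V‖ ^ 2 + (br V F).re + (br E V).re) ≤
      π * (-‖V‖ ^ 2 + (‖E‖ + ‖F‖) * ‖V‖) := by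
    refine mul_le_mul_of_nonneg_left ?_ hpi.le
    nlinarith
  refine h3.trans ?_
  nlinarith [sq_nonneg (‖E‖ + ‖F‖ - ‖V‖), mul_nonneg hpi.le (sq_nonneg (‖E‖ + ‖F‖ - ‖V‖))]

theorem continuous_br (F : H) : Continuous fun V => br V F := by
  unfold br; fun_prop

theorem continuous_br' (E : H) : Continuous fun V => br E V := by
  unfold br; fun_prop

theorem continuous_gs (E F : H) : Continuous (gs E F) := by
  unfold gs
  have h1 := continuous_br (H := H) F
  have h2 := continuous_br' (H := H) E
  fun_prop

/-- translation formula -/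
theorem gs_add (E F Y V : H) :
    gs E F (V + Y) = exp (π * (-((‖Y‖ ^ 2 : ℝ) : ℂ) + br Y F + br E Y)) * gs (E - Y) (F - Y) V := by
  unfold gs
  rw [← exp_add]
  congr 1
  rw [← br_self, ← br_self, ← br_self]
  simp only [br_add_left, br_add_right, br_sub_left, br_sub_right]
  ring

section integral

variable [FiniteDimensional ℂ H] [MeasurableSpace H] [BorelSpace H]

attribute [local instance] InnerProductSpace.complexToReal

instance finR : FiniteDimensional ℝ H := FiniteDimensional.complexToReal H

/-- **Gaussian integral** over `H` -/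
theorem integral_gs (E F : H) : ∫ V : H, gs E F V = exp (π * br E F) := by
  set Y : H := (2⁻¹ : ℂ) • (E + F) with hY
  set G : H := F - E with hG
  have h1 : ∫ V : H, gs E F V = ∫ V : H, gs E F (V + Y) := (integral_add_right_eq_self _ Y).symm
  rw [h1]
  simp only [gs_add]
  rw [integral_const_mul]
  have c2 : conj (2⁻¹ : ℂ) = 2⁻¹ := by
    rw [map_inv₀, Complex.conj_ofNat]
  -- the symmetric integral
  have h2 : ∀ V : H, gs (E - Y) (F - Y) V =
      cexp (-(π:ℂ) * (‖V‖ : ℂ) ^ 2 + (π * I) * ((inner ℝ (I • G) V : ℝ) : ℂ)) := by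
    intro V
    unfold gs
    congr 1
    have e1 : E - Y = -((2⁻¹ : ℂ) • G) := by
      rw [hY, hG]; module
    have e2 : F - Y = (2⁻¹ : ℂ) • G := by
      rw [hY, hG]; module
    rw [e1, e2, br_neg_left, br_smul_left, br_smul_right, c2]
    have e3 : (inner ℝ (I • G) V : ℝ) = (br V G).im := by
      rw [real_inner_eq_re_inner ℂ, inner_smul_left]
      simp [br]
    have e4 : br V G - br G V = 2 * I * ((br V G).im : ℂ) := by
      rw [← br_conj V G]
      apply Complex.ext <;> simp
      ring
    rw [e3]
    have e5 : br G V = br V G - 2 * I * ((br V G).im : ℂ) := by rw [← e4]; ring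
    rw [e5]; push_cast; ring
  simp only [h2]
  have h3 := GaussianFourier.integral_cexp_neg_mul_sq_norm_add (V := H) (b := (π:ℂ))
    (by simpa using Real.pi_pos) (π * I) (I • G)
  rw [h3, div_self (by exact_mod_cast Real.pi_ne_zero), one_cpow, one_mul, ← exp_add]
  congr 1
  have e6 : ((‖I • G‖ : ℝ) : ℂ) ^ 2 = br G G := by
    rw [norm_smul, norm_I, one_mul, br_self]; push_cast; rfl
  rw [e6, ← br_self, hY, hG]
  simp only [br_smul_left, br_smul_right, br_add_left, br_add_right, br_sub_left, br_sub_right, c2]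
  have hpi : (π:ℂ) ≠ 0 := by exact_mod_cast Real.pi_ne_zero
  field_simp
  rw [I_sq]
  ring

end integral

end

end Crest.Agent.R272.Core_898
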