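import Crest.Agent.R272.Core1_898

/-!
Row 272, (E), road B of 641's #6137: (B1) Poisson summation of the Gaussian over a self-dual
lattice.
-/
set_option autoImplicit false

namespace Crest.Agent.R272.Core_898

open Complex Set Filter Topology MeasureTheory
open scoped ComplexConjugate Real
open Crest.Agent.R272.SympZ_771 (SelfDual Lag)
open Crest.Agent.R272.Poi307 (ic dot ch FTp Dec poisson_pi)

noncomputable section

variable {H : Type*} [NormedAddCommGroup H] [InnerProductSpace ℂ H] [FiniteDimensional ℂ H]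

section pre

variable {B : H →ₗ[ℝ] H →ₗ[ℝ] ℝ} {L : AddSubgroup H} {N : ℕ} {p q : Fin N → H}

/-- Darboux coordinates, flattened -/
def eqv (h : Lag B L p q) (halt : ∀ x, B x x = 0) : H ≃ₗ[ℝ] (Fin N ⊕ Fin N → ℝ) :=
  (h.equiv halt).trans (LinearEquiv.sumArrowLequivProdArrow _ _ ℝ ℝ).symm

theorem eqv_symm (h : Lag B L p q) (halt : ∀ x, B x x = 0) (x : Fin N ⊕ Fin N → ℝ) :
    (eqv h halt).symm x = (h.equiv halt).symm (fun i => x (Sum.inl i), fun i => x (Sum.inr i)) :=
  rfl

/-- integral points -/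
def lat (h : Lag B L p q) (halt : ∀ x, B x x = 0) (m : Fin N ⊕ Fin N → ℤ) : H :=
  (eqv h halt).symm (ic m)

theorem lat_mem (h : Lag B L p q) (halt : ∀ x, B x x = 0)
    (hint : ∀ v ∈ L, ∀ w ∈ L, ∃ k : ℤ, B v w = k) (m : Fin N ⊕ Fin N → ℤ) : lat h halt m ∈ L := by
  rw [h.mem_iff halt hint]
  exact ⟨fun i => m (Sum.inl i), fun i => m (Sum.inr i), rfl⟩

/-- `ℤ^{2N} ≃ L` -/
def latE (h : Lag B L p q) (halt : ∀ x, B x x = 0)
    (hint : ∀ v ∈ L, ∀ w ∈ L, ∃ k : ℤ, B v w = k) : (Fin N ⊕ Fin N → ℤ) ≃ L :=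
  Equiv.ofBijective (fun m => ⟨lat h halt m, lat_mem h halt hint m⟩) (by
    constructor
    · intro a b hab
      have h1 : lat h halt a = lat h halt b := congrArg Subtype.val hab
      have h2 : ic a = ic b := (eqv h halt).symm.injective h1
      funext i
      have := congrFun h2 i
      simpa using this
    · rintro ⟨x, hx⟩
      obtain ⟨a, b, hab⟩ := (h.mem_iff halt hint x).1 hx
      refine ⟨Sum.elim a b, Subtype.ext ?_⟩
      show lat h halt (Sum.elim a b) = x
      rw [hab]; rfl)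

theorem latE_apply (h : Lag B L p q) (halt : ∀ x, B x x = 0)
    (hint : ∀ v ∈ L, ∀ w ∈ L, ∃ k : ℤ, B v w = k) (m : Fin N ⊕ Fin N → ℤ) :
    ((latE h halt hint m : L) : H) = lat h halt m := rfl

/-- the symplectic rotation of the index -/
def rotE (N : ℕ) : (Fin N ⊕ Fin N → ℤ) ≃ (Fin N ⊕ Fin N → ℤ) where
  toFun k := Sum.elim (fun i => - k (Sum.inr i)) (fun i => k (Sum.inl i))
  invFun k := Sum.elim (fun i => k (Sum.inr i)) (fun i => - k (Sum.inl i))
  left_inv k := by
    funext i; rcases i with i | i <;> simp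
  right_inv k := by
    funext i; rcases i with i | i <;> simp

theorem dot_eq (h : Lag B L p q) (halt : ∀ x, B x x = 0) (k : Fin N ⊕ Fin N → ℤ)
    (x : Fin N ⊕ Fin N → ℝ) :
    dot k x = B ((eqv h halt).symm x) (lat h halt (rotE N k)) := by
  rw [lat, eqv_symm, eqv_symm, h.form halt, dot, Fintype.sum_sum_type, ← Finset.sum_add_distrib]
  refine Finset.sum_congr rfl fun i _ => ?_
  simp [rotE]; ring

theorem summable_gs {L : AddSubgroup H} (hd : ∀ r : ℝ, {v : H | v ∈ L ∧ ‖v‖ ≤ r}.Finite)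
    (E F : H) : Summable fun l : L => gs E F (l : H) := by
  have h1 := Z2_939.summable_gauss L hd 0 (c := π / 2) (by positivity)
  refine Summable.of_norm_bounded (h1.mul_left (Real.exp (π * (‖E‖ + ‖F‖) ^ 2 / 2)))
    fun l => ?_
  simpa using norm_gs_le E F (l : H)

theorem summable_lat (h : Lag B L p q) (halt : ∀ x, B x x = 0)
    (hint : ∀ v ∈ L, ∀ w ∈ L, ∃ k : ℤ, B v w = k)
    (hd : ∀ r : ℝ, {v : H | v ∈ L ∧ ‖v‖ ≤ r}.Finite) (E F : H) :
    Summable fun m : Fin N ⊕ Fin N → ℤ => gs E F (lat h halt m) := by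
  have h1 := (summable_gs hd E F).comp_injective (latE h halt hint).injective
  exact h1

theorem tsum_lat (h : Lag B L p q) (halt : ∀ x, B x x = 0)
    (hint : ∀ v ∈ L, ∀ w ∈ L, ∃ k : ℤ, B v w = k) (E F : H) :
    ∑' m : Fin N ⊕ Fin N → ℤ, gs E F (lat h halt m) = ∑' l : L, gs E F (l : H) := by
  rw [← (latE h halt hint).tsum_eq (fun l : L => gs E F (l : H))]
  refine tsum_congr fun k => ?_
  rw [latE_apply]

theorem exp_bound (n : ℕ) {c : ℝ} (hc : 0 < c) :
    ∃ A : ℝ, 0 ≤ A ∧ ∀ t : ℝ, 0 ≤ t → Real.exp (-c * t ^ 2) ≤ A * ((1 + t)⁻¹) ^ n := by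
  obtain ⟨A, hA, hb⟩ := Z2_939.gauss_bound n 0 hc
  refine ⟨2 ^ n * A, by positivity, fun t ht => ?_⟩
  have h1 := hb t ht
  simp only [pow_zero, mul_one] at h1
  have h2 : 0 < (1 + t) ^ n := by positivity
  rw [inv_pow, ← div_eq_mul_inv, le_div_iff₀ h2]
  have h3 : (1 + t) ^ n ≤ (2 * (1 + 3 * t ^ 2)) ^ n := by
    refine pow_le_pow_left₀ (by positivity) ?_ n
    nlinarith [sq_nonneg (t - 1)]
  calc Real.exp (-c * t ^ 2) * (1 + t) ^ n
      ≤ Real.exp (-c * t ^ 2) * (2 * (1 + 3 * t ^ 2)) ^ n :=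
        mul_le_mul_of_nonneg_left h3 (Real.exp_nonneg _)
    _ = 2 ^ n * ((1 + 3 * t ^ 2) ^ n * Real.exp (-c * t ^ 2)) := by rw [mul_pow]; ring
    _ ≤ 2 ^ n * A := mul_le_mul_of_nonneg_left h1 (by positivity)

end pre

section poisson

variable [MeasurableSpace H] [BorelSpace H]

attribute [local instance] InnerProductSpace.complexToReal

/-- change of variables: lattice coordinates -/
theorem exists_scale {κ : Type*} [Fintype κ] (e : (κ → ℝ) ≃L[ℝ] H) :
    ∃ c : ℝ, ∀ F : H → ℂ, ∫ x, F (e x) = (c : ℂ) * ∫ V, F V := by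
  have h1 : (Measure.map e (volume : Measure (κ → ℝ))).IsAddHaarMeasure :=
    e.isAddHaarMeasure_map volume
  have h2 := Measure.isAddLeftInvariant_eq_smul (Measure.map e (volume : Measure (κ → ℝ)))
    (volume : Measure H)
  set c := Measure.addHaarScalarFactor (Measure.map e (volume : Measure (κ → ℝ)))
    (volume : Measure H) with hc
  refine ⟨(c : ℝ), fun F => ?_⟩
  have h3 : ∫ x, F (e x) = ∫ V, F V ∂(Measure.map e (volume : Measure (κ → ℝ))) :=
    (e.toHomeomorph.measurableEmbedding.integral_map F).symm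
  rw [h3, h2, integral_smul_nnreal_measure]
  rfl

/-- shifting by a character -/
theorem ch_mul_gs {B : H →ₗ[ℝ] H →ₗ[ℝ] ℝ} (hB : ∀ x y, B x y = (br x y).im) {L : AddSubgroup H}
    {N : ℕ} {p q : Fin N → H} (h : Lag B L p q) (halt : ∀ x, B x x = 0) (E F : H)
    (k : Fin N ⊕ Fin N → ℤ) (x : Fin N ⊕ Fin N → ℝ) :
    ch (-k) x * gs E F ((eqv h halt).symm x) =
      gs (E + lat h halt (rotE N k)) (F - lat h halt (rotE N k)) ((eqv h halt).symm x) := by
  set V := (eqv h halt).symm x with hV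
  set W := lat h halt (rotE N k) with hW
  have h1 : dot (-k) x = - (br V W).im := by
    have : dot (-k) x = - dot k x := by
      simp only [dot, Pi.neg_apply, Int.cast_neg, neg_mul, Finset.sum_neg_distrib]
    rw [this, dot_eq h halt, ← hV, ← hW, hB]
  have h2 : br V W - br W V = 2 * I * ((br V W).im : ℂ) := by
    rw [← br_conj V W]
    apply Complex.ext <;> simp
    ring
  unfold ch gs
  rw [← exp_add, h1]
  congr 1
  simp only [br_add_left, br_sub_right]
  have h3 : br W V = br V W - 2 * I * ((br V W).im : ℂ) := by rw [← h2]; ring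
  rw [h3]; push_cast; ring

/-- **(B1)** up to the constant -/
theorem poisson_gs {B : H →ₗ[ℝ] H →ₗ[ℝ] ℝ} (hB : ∀ x y, B x y = (br x y).im)
    {L : AddSubgroup H} (hS : SelfDual B L) :
    ∃ c : ℂ, ∀ E F : H, ∑' l : L, gs E F (l : H)
      = c * exp (π * br E F) * ∑' l : L, gs (-E) F (l : H) := by
  obtain ⟨N, p, q, h⟩ := SympZ_771.exists_lag hS
  have halt := hS.alt
  set e := (eqv h halt).symm.toContinuousLinearEquiv with he
  obtain ⟨c, hc⟩ := exists_scale (H := H) e
  refine ⟨c, fun E F => ?_⟩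
  set g : (Fin N ⊕ Fin N → ℝ) → ℂ := fun x => gs E F (e x) with hg
  have hgc : Continuous g := (continuous_gs E F).comp e.continuous
  -- decay
  set n := Fintype.card (Fin N ⊕ Fin N) + 1 with hn
  have hpos : 0 < ‖(e.symm : H →L[ℝ] (Fin N ⊕ Fin N → ℝ))‖ + 1 := by positivity
  set a := (‖(e.symm : H →L[ℝ] (Fin N ⊕ Fin N → ℝ))‖ + 1)⁻¹ with ha
  have ha0 : 0 < a := by positivity
  have hlow : ∀ x, a * ‖x‖ ≤ ‖e x‖ := by
    intro x
    have h1 := (e.symm : H →L[ℝ] (Fin N ⊕ Fin N → ℝ)).le_opNorm (e x)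
    have h2 : (e.symm : H →L[ℝ] (Fin N ⊕ Fin N → ℝ)) (e x) = x := e.symm_apply_apply x
    rw [h2] at h1
    rw [ha, inv_mul_le_iff₀ hpos]
    nlinarith [norm_nonneg (e x)]
  obtain ⟨A, hA, hAb⟩ := exp_bound n (c := π / 2 * a ^ 2) (by positivity)
  have hdec : Dec (Real.exp (π * (‖E‖ + ‖F‖) ^ 2 / 2) * A) n g := by
    intro x
    refine (norm_gs_le E F (e x)).trans ?_
    rw [mul_assoc]
    refine mul_le_mul_of_nonneg_left ?_ (Real.exp_nonneg _)
    refine le_trans ?_ (hAb ‖x‖ (norm_nonneg x))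
    refine Real.exp_le_exp.2 ?_
    have h1 : (a * ‖x‖) ^ 2 ≤ ‖e x‖ ^ 2 := pow_le_pow_left₀ (by positivity) (hlow x) 2
    have := Real.pi_pos
    nlinarith
  -- Fourier transform
  have hFT : ∀ k, FTp g k = c * exp (π * br E F) *
      gs (-E) F (lat h halt (rotE N k)) := by
    intro k
    set W := lat h halt (rotE N k) with hW
    have h1 : ∀ x, ch (-k) x * g x = gs (E + W) (F - W) (e x) := fun x =>
      ch_mul_gs hB h halt E F k x
    unfold FTp
    simp only [h1]
    rw [hc, integral_gs, mul_assoc]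
    congr 1
    unfold gs
    rw [← exp_add]
    congr 1
    rw [← br_self]
    simp only [br_add_left, br_sub_right, br_neg_left]
    ring
  have hsum : ∀ E' F' : H, Summable fun m : Fin N ⊕ Fin N → ℤ => gs E' F' (lat h halt m) := by
    intro E' F'
    exact summable_lat h halt hS.int hS.disc E' F'
  have hsF : Summable (FTp g) := by
    have h1 := ((hsum (-E) F).comp_injective (rotE N).injective).mul_left
      (c * exp (π * br E F))
    exact h1.congr fun k => (hFT k).symm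
  have hP := (poisson_pi hgc (by positivity) (Nat.lt_succ_self _) hdec hsF 0).tsum_eq
  have e1 : ∑' k, FTp g k * ch k 0 = c * exp (π * br E F) * ∑' l : L, gs (-E) F (l : H) := by
    have h1 : ∀ k, FTp g k * ch k 0 = c * exp (π * br E F) *
        gs (-E) F (lat h halt (rotE N k)) := by
      intro k
      rw [hFT]
      have : ch k (0 : Fin N ⊕ Fin N → ℝ) = 1 := by simp [ch, dot]
      rw [this, mul_one]
    simp only [h1]
    rw [tsum_mul_left]
    congr 1
    rw [(rotE N).tsum_eq (fun k => gs (-E) F (lat h halt k)), tsum_lat h halt hS.int]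
  have e2 : ∑' m : Fin N ⊕ Fin N → ℤ, g (0 + ic m) = ∑' l : L, gs E F (l : H) := by
    rw [← tsum_lat h halt hS.int]
    refine tsum_congr fun m => ?_
    rw [zero_add]; rfl
  rw [← e1, ← e2, hP]

end poisson

/-! ### the functional equation -/

section feq

variable {B : H →ₗ[ℝ] H →ₗ[ℝ] ℝ} {L : AddSubgroup H}

/-- `S(E,F) = Σ_l exp π(-|l|² + <l,F> + <E,l>)` -/
def SS (L : AddSubgroup H) (E F : H) : ℂ := ∑' l : L, gs E F (l : H)

theorem gs_neg (E F V : H) : gs E F (-V) = gs (-E) (-F) V := by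
  unfold gs
  simp only [norm_neg, br_neg_left, br_neg_right]

theorem SS_neg (E F : H) : SS L (-E) (-F) = SS L E F := by
  unfold SS
  rw [← (Equiv.neg L).tsum_eq (fun l : L => gs E F (l : H))]
  refine tsum_congr fun l => ?_
  simp only [Equiv.neg_apply, NegMemClass.coe_neg]
  rw [gs_neg]

theorem SS_zero_ne (hd : ∀ r : ℝ, {v : H | v ∈ L ∧ ‖v‖ ≤ r}.Finite) : SS L 0 0 ≠ 0 := by
  have h1 : ∀ l : L, gs 0 0 (l : H) = ((Real.exp (-π * ‖(l : H)‖ ^ 2) : ℝ) : ℂ) := by
    intro l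
    unfold gs
    rw [br_zero_left, br_zero_right]
    push_cast; congr 1; ring
  unfold SS
  simp only [h1]
  rw [← ofReal_tsum]
  have hs : Summable fun l : L => Real.exp (-π * ‖(l : H)‖ ^ 2) := by
    have := (summable_gs hd 0 0 : Summable fun l : L => gs 0 0 (l : H)).norm
    refine this.congr fun l => ?_
    rw [h1, norm_real, Real.norm_of_nonneg (Real.exp_nonneg _)]
  have h2 : (0:ℝ) < ∑' l : L, Real.exp (-π * ‖(l : H)‖ ^ 2) :=
    hs.tsum_pos (fun l => Real.exp_nonneg _) 0 (Real.exp_pos _)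
  exact_mod_cast h2.ne'

/-- **(B1)** -/
theorem SS_B1 (hB : ∀ x y, B x y = (br x y).im) (hS : SelfDual B L) (E F : H) :
    SS L E F = exp (π * br E F) * SS L E (-F) := by
  letI : MeasurableSpace H := borel H
  haveI : BorelSpace H := ⟨rfl⟩
  obtain ⟨c, hc⟩ := poisson_gs hB hS
  have hc1 : c = 1 := by
    have h1 := hc 0 0
    rw [br_zero_left, mul_zero, exp_zero, mul_one, neg_zero] at h1
    have h2 := SS_zero_ne (L := L) hS.disc
    have h3 : SS L 0 0 = c * SS L 0 0 := h1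
    have h4 : (1 - c) * SS L 0 0 = 0 := by rw [sub_mul, one_mul, ← h3, sub_self]
    rcases mul_eq_zero.1 h4 with h5 | h5
    · exact (sub_eq_zero.1 h5).symm
    · exact absurd h5 h2
  have h1 := hc E F
  rw [hc1, one_mul] at h1
  have h2 : SS L (-E) F = SS L E (-F) := by
    have := SS_neg (L := L) E (-F)
    rwa [neg_neg] at this
  rw [← h2]; exact h1

theorem exp_im_mem (hB : ∀ x y, B x y = (br x y).im)
    (hint : ∀ v ∈ L, ∀ w ∈ L, ∃ k : ℤ, B v w = k) {v w : H} (hv : v ∈ L) (hw : w ∈ L) :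
    exp (2 * π * I * ((br v w).im : ℂ)) = 1 := by
  obtain ⟨k, hk⟩ := hint v hv w hw
  rw [← hB, hk, exp_eq_one_iff]
  exact ⟨k, by push_cast; ring⟩

/-- **(B2)** lattice shift -/
theorem SS_B2 (hB : ∀ x y, B x y = (br x y).im)
    (hint : ∀ v ∈ L, ∀ w ∈ L, ∃ k : ℤ, B v w = k) (E F : H) {u : H} (hu : u ∈ L) :
    SS L E F = exp (π * (-((‖u‖ ^ 2 : ℝ) : ℂ) + br u F + br E u)) * SS L E (F - u - u) := by
  unfold SS
  rw [← (Equiv.addRight (⟨u, hu⟩ : L)).tsum_eq (fun l : L => gs E F (l : H)), ← tsum_mul_left]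
  refine tsum_congr fun l => ?_
  simp only [Equiv.coe_addRight, AddMemClass.coe_add]
  have h1 := exp_im_mem hB hint l.2 hu
  have h2 : br (l : H) u - br u (l : H) = 2 * I * ((br (l : H) u).im : ℂ) := by
    rw [← br_conj (l : H) u]
    apply Complex.ext <;> simp
    ring
  have h3 : gs E F ((l : H) + u) = exp (π * (-((‖u‖ ^ 2 : ℝ) : ℂ) + br u F + br E u)) *
      gs E (F - u - u) l * exp (2 * π * I * ((br (l : H) u).im : ℂ)) := by
    unfold gs
    rw [← exp_add, ← exp_add]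
    congr 1
    have h4 : br u (l : H) = br (l : H) u - 2 * I * ((br (l : H) u).im : ℂ) := by rw [← h2]; ring
    rw [← br_self, ← br_self, ← br_self]
    simp only [br_add_left, br_add_right, br_sub_right]
    rw [h4]; ring
  rw [h3, h1, mul_one]

/-- **(B1)+(B2)** -/
theorem SS_B12 (hB : ∀ x y, B x y = (br x y).im) (hS : SelfDual B L) (E G : H) {u : H}
    (hu : u ∈ L) : SS L E (u + G) = exp (π * (br E G + br u G)) * SS L E (u - G) := by
  rw [SS_B2 hB hS.int E (u + G) hu, SS_B1 hB hS E (u + G - u - u), ← mul_assoc, ← exp_add]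
  have e1 : -(u + G - u - u) = u - G := by abel
  rw [e1]
  congr 2
  rw [← br_self]
  simp only [br_add_right, br_sub_right]
  ring

end feq

end

end Crest.Agent.R272.Core_898
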