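import Crest.Agent.R272.Core2_898

/-!
Row 272, (E), road B of 641's #6137: (B3), (B4) — the quadratic character and the rank one
identity for the coherent states, abstract form.
-/
set_option autoImplicit false

namespace Crest.Agent.R272.Core_898

open Complex Set Filter Topology MeasureTheory
open scoped ComplexConjugate Real
open Crest.Agent.R272.SympZ_771 (SelfDual Lag)

noncomputable section

variable {H : Type*} [NormedAddCommGroup H] [InnerProductSpace ℂ H]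

/-- `⟨π(l) e_A, e_C⟩` -/
def KK (l A C : H) : ℂ := exp (π * (-((‖l‖ ^ 2 : ℝ) : ℂ) / 2 + br A C - br A l + br l C))

/-- quadratic character of a lattice -/
structure QChar (B : H →ₗ[ℝ] H →ₗ[ℝ] ℝ) (L : AddSubgroup H) (ε : H → ℂ) : Prop where
  pm : ∀ l ∈ L, ε l = 1 ∨ ε l = -1
  add : ∀ l ∈ L, ∀ l' ∈ L, ε (l + l') = ε l * ε l' * exp (π * I * ((B l l' : ℝ) : ℂ))

/-- the quadratic character from a Lagrangian decomposition -/
def eps (B : H →ₗ[ℝ] H →ₗ[ℝ] ℝ) {N : ℕ} (p q : Fin N → H) (x : H) : ℂ :=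
  exp (π * I * ((∑ i, B x (q i) * (- B x (p i)) : ℝ) : ℂ))

theorem exp_pi_int (k : ℤ) : exp (π * I * (k : ℂ)) = 1 ∨ exp (π * I * (k : ℂ)) = -1 := by
  rcases Int.even_or_odd' k with ⟨j, hj | hj⟩
  · left
    rw [exp_eq_one_iff]; exact ⟨j, by rw [hj]; push_cast; ring⟩
  · right
    have : π * I * (k : ℂ) = π * I + (j : ℂ) * (2 * π * I) := by rw [hj]; push_cast; ring
    rw [this, exp_add, exp_pi_mul_I, exp_int_mul_two_pi_mul_I, mul_one]

theorem eps_qchar [FiniteDimensional ℂ H] {B : H →ₗ[ℝ] H →ₗ[ℝ] ℝ} {L : AddSubgroup H} {N : ℕ} {p q : Fin N → H}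
    (h : Lag B L p q) (halt : ∀ x, B x x = 0)
    (hint : ∀ v ∈ L, ∀ w ∈ L, ∃ k : ℤ, B v w = k) : QChar B L (eps B p q) := by
  refine ⟨fun l hl => ?_, fun l hl l' hl' => ?_⟩
  · choose a ha using fun i => hint l hl (q i) (h.memq i)
    choose b hb using fun i => hint l hl (p i) (h.memp i)
    have h1 : (∑ i, B l (q i) * (- B l (p i)) : ℝ) = ((∑ i, a i * (- b i) : ℤ) : ℝ) := by
      push_cast
      exact Finset.sum_congr rfl fun i _ => by rw [ha, hb]
    unfold eps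
    rw [h1, ofReal_intCast]
    exact exp_pi_int _
  · choose a ha using fun i => hint l hl (q i) (h.memq i)
    choose b hb using fun i => hint l hl (p i) (h.memp i)
    choose a' ha' using fun i => hint l' hl' (q i) (h.memq i)
    choose b' hb' using fun i => hint l' hl' (p i) (h.memp i)
    have e1 : B l l' = ∑ i, (B l (q i) * (- B l' (p i)) - (- B l (p i)) * B l' (q i)) := by
      have h2 := h.form halt (h.equiv halt l) (h.equiv halt l')
      rw [LinearEquiv.symm_apply_apply, LinearEquiv.symm_apply_apply] at h2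
      rw [h2]; rfl
    have e2 : (∑ i, B (l + l') (q i) * (- B (l + l') (p i)) : ℝ) =
        (∑ i, B l (q i) * (- B l (p i))) + (∑ i, B l' (q i) * (- B l' (p i))) + B l l'
          + 2 * ((∑ i, (- b i) * a' i : ℤ) : ℝ) := by
      rw [e1]
      push_cast
      rw [Finset.mul_sum, ← Finset.sum_add_distrib, ← Finset.sum_add_distrib,
        ← Finset.sum_add_distrib]
      refine Finset.sum_congr rfl fun i _ => ?_
      rw [← hb, ← ha']
      simp only [map_add, LinearMap.add_apply]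
      ring
    unfold eps
    rw [e2, ← exp_add, ← exp_add]
    set K : ℤ := ∑ i, (- b i) * a' i with hK
    have e3 : (π : ℂ) * I * (((∑ i, B l (q i) * (- B l (p i))) +
        (∑ i, B l' (q i) * (- B l' (p i))) + B l l' + 2 * (K : ℝ) : ℝ) : ℂ) =
        (π * I * ((∑ i, B l (q i) * (- B l (p i)) : ℝ) : ℂ) +
          π * I * ((∑ i, B l' (q i) * (- B l' (p i)) : ℝ) : ℂ) +
          π * I * ((B l l' : ℝ) : ℂ)) + (K : ℂ) * (2 * π * I) := by
      simp only [ofReal_add, ofReal_mul, ofReal_ofNat, ofReal_intCast]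
      ring
    rw [e3, exp_add _ ((K : ℂ) * (2 * π * I)), exp_int_mul_two_pi_mul_I, mul_one]

theorem norm_KK_le (l A C : H) :
    ‖KK l A C‖ ≤ Real.exp (π * (‖A‖ * ‖C‖ + (‖A‖ + ‖C‖) ^ 2)) * Real.exp (-(π / 4) * ‖l‖ ^ 2) := by
  unfold KK
  rw [norm_exp, ← Real.exp_add]
  refine Real.exp_le_exp.2 ?_
  have h1 : (br A C).re ≤ ‖C‖ * ‖A‖ := (re_le_norm _).trans (norm_inner_le_norm _ _)
  have h2 : -(br A l).re ≤ ‖l‖ * ‖A‖ :=
    (neg_le_abs _).trans ((abs_re_le_norm _).trans (norm_inner_le_norm _ _))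
  have h3 : (br l C).re ≤ ‖C‖ * ‖l‖ := (re_le_norm _).trans (norm_inner_le_norm _ _)
  rw [re_ofReal_mul]
  have h4 : (-((‖l‖ ^ 2 : ℝ) : ℂ) / 2 + br A C - br A l + br l C).re =
      -‖l‖ ^ 2 / 2 + (br A C).re - (br A l).re + (br l C).re := by
    have : (-((‖l‖ ^ 2 : ℝ) : ℂ) / 2) = ((-‖l‖ ^ 2 / 2 : ℝ) : ℂ) := by push_cast; ring
    rw [this]
    simp only [add_re, sub_re, ofReal_re]
  rw [h4]
  have hpi := Real.pi_pos
  have h5 : -‖l‖ ^ 2 / 2 + (br A C).re - (br A l).re + (br l C).re ≤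
      (‖A‖ * ‖C‖ + (‖A‖ + ‖C‖) ^ 2) - ‖l‖ ^ 2 / 4 := by
    nlinarith [sq_nonneg (‖A‖ + ‖C‖ - ‖l‖ / 2)]
  nlinarith

section sums

variable {B : H →ₗ[ℝ] H →ₗ[ℝ] ℝ} {L : AddSubgroup H} {ε : H → ℂ}

theorem QChar.norm_eq (hq : QChar B L ε) (l : L) : ‖ε l‖ = 1 := by
  rcases hq.pm l l.2 with h | h <;> rw [h] <;> simp

theorem QChar.sq (hq : QChar B L ε) {l : H} (hl : l ∈ L) : ε l * ε l = 1 := by
  rcases hq.pm l hl with h | h <;> rw [h] <;> simp

theorem QChar.conj_eq (hq : QChar B L ε) {l : H} (hl : l ∈ L) : conj (ε l) = ε l := by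
  rcases hq.pm l hl with h | h <;> rw [h] <;> simp

theorem QChar.zero (hq : QChar B L ε) : ε 0 = 1 := by
  have h1 := hq.add 0 L.zero_mem 0 L.zero_mem
  rw [hq.sq L.zero_mem] at h1
  simpa using h1

theorem QChar.neg (hq : QChar B L ε) (halt : ∀ x, B x x = 0) {l : H} (hl : l ∈ L) :
    ε (-l) = ε l := by
  have h1 := hq.add l hl (-l) (L.neg_mem hl)
  rw [add_neg_cancel, hq.zero, map_neg, halt, neg_zero, ofReal_zero, mul_zero, exp_zero,
    mul_one] at h1
  have h2 := hq.sq hl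
  have h3 : ε l * (ε l - ε (-l)) = 0 := by rw [mul_sub, h2, ← h1, sub_self]
  rcases mul_eq_zero.1 h3 with h4 | h4
  · rw [h4] at h2; simp at h2
  · exact (sub_eq_zero.1 h4).symm

/-- `ε(v) ε(u-v) = ε(u) exp(πi B(v,u))` -/
theorem QChar.mul_sub (hq : QChar B L ε) (halt : ∀ x, B x x = 0)
    (hint : ∀ v ∈ L, ∀ w ∈ L, ∃ k : ℤ, B v w = k) {u v : H} (hu : u ∈ L) (hv : v ∈ L) :
    ε v * ε (u - v) = ε u * exp (π * I * ((B v u : ℝ) : ℂ)) := by
  have h1 := hq.add v hv (u - v) (L.sub_mem hu hv)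
  rw [add_sub_cancel, map_sub, halt, sub_zero] at h1
  obtain ⟨k, hk⟩ := hint v hv u hu
  have h2 : exp (π * I * ((B v u : ℝ) : ℂ)) * exp (π * I * ((B v u : ℝ) : ℂ)) = 1 := by
    rw [hk, ofReal_intCast]
    rcases exp_pi_int k with h | h <;> rw [h] <;> simp
  rw [h1, mul_assoc, h2, mul_one]

/-- the kernel -/
def PP (L : AddSubgroup H) (ε : H → ℂ) (A C : H) : ℂ := ∑' l : L, ε l * KK (l : H) A C

theorem summable_PP [FiniteDimensional ℂ H] (hq : QChar B L ε)
    (hd : ∀ r : ℝ, {v : H | v ∈ L ∧ ‖v‖ ≤ r}.Finite) (A C : H) :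
    Summable fun l : L => ‖ε l * KK (l : H) A C‖ := by
  have h1 := Z2_939.summable_gauss L hd 0 (c := π / 4) (by positivity)
  refine Summable.of_nonneg_of_le (fun _ => norm_nonneg _) (fun l => ?_)
    (h1.mul_left (Real.exp (π * (‖A‖ * ‖C‖ + (‖A‖ + ‖C‖) ^ 2))))
  rw [norm_mul, hq.norm_eq, one_mul]
  simpa using norm_KK_le (l : H) A C

theorem PP_conj (hq : QChar B L ε) (halt : ∀ x, B x x = 0) (A C : H) :
    conj (PP L ε A C) = PP L ε C A := by
  unfold PP
  rw [Complex.conj_tsum, ← (Equiv.neg L).tsum_eq]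
  refine tsum_congr fun l => ?_
  simp only [Equiv.neg_apply, NegMemClass.coe_neg]
  rw [map_mul, hq.conj_eq (L.neg_mem l.2), hq.neg halt l.2]
  congr 1
  unfold KK
  rw [← exp_conj]
  congr 1
  simp only [map_mul, map_add, map_sub, map_neg, map_div₀, conj_ofReal, norm_neg, br_neg_left,
    br_neg_right, br_conj, Complex.conj_ofNat]
  ring

/-- the product of two values of the kernel -/
theorem PP_mul [FiniteDimensional ℂ H] (hB : ∀ x y, B x y = (br x y).im) (hq : QChar B L ε)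
    (hS : SelfDual B L) (A C A' C' : H) :
    PP L ε A C * PP L ε A' C' = ∑' u : L, ε u * exp (π * (-((‖(u : H)‖ ^ 2 : ℝ) : ℂ) / 2
      + br A C + br A' C' - br A' u + br (u : H) C')) * SS L (A' - A) (u + (C - C')) := by
  have s1 := summable_PP hq hS.disc A C
  have s2 := summable_PP hq hS.disc A' C'
  unfold PP
  rw [tsum_mul_tsum_of_summable_norm s1 s2]
  let e : L × L ≃ L × L :=
    { toFun := fun x => (x.2, x.1 - x.2)
      invFun := fun x => (x.1 + x.2, x.1)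
      left_inv := fun x => by ext <;> simp
      right_inv := fun x => by ext <;> simp }
  have s3 := summable_mul_of_summable_norm s1 s2
  have s4 := s3.comp_injective e.injective
  rw [← e.tsum_eq]
  refine (Summable.tsum_prod s4).trans ?_
  refine tsum_congr fun u => ?_
  unfold SS
  rw [← tsum_mul_left]
  refine tsum_congr fun v => ?_
  show (ε (v : H) * KK (v : H) A C) * (ε ((u - v : L) : H) * KK ((u - v : L) : H) A' C') = _
  rw [AddSubgroupClass.coe_sub]
  have h1 := hq.mul_sub hS.alt hS.int u.2 v.2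
  have h2 : (ε (v : H) * KK (v : H) A C) * (ε ((u : H) - v) * KK ((u : H) - v) A' C') =
      (ε (v : H) * ε ((u : H) - v)) * (KK (v : H) A C * KK ((u : H) - v) A' C') := by ring
  rw [h2, h1]
  unfold KK gs
  rw [mul_assoc (ε (u : H)), mul_assoc (ε (u : H)), ← exp_add, ← exp_add, ← exp_add]
  congr 2
  rw [hB]
  have h3 : br (u : H) (v : H) = br (v : H) (u : H) - 2 * I * ((br (v : H) (u : H)).im : ℂ) := by
    rw [← br_conj (v : H) (u : H)]
    apply Complex.ext <;> simp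
    ring
  rw [← br_self, ← br_self, ← br_self]
  simp only [br_add_left, br_add_right, br_sub_left, br_sub_right]
  rw [h3]
  ring

/-- **the exchange identity** -/
theorem PP_exch [FiniteDimensional ℂ H] (hB : ∀ x y, B x y = (br x y).im) (hq : QChar B L ε)
    (hS : SelfDual B L) (A C A' C' : H) :
    PP L ε A C * PP L ε A' C' = PP L ε A C' * PP L ε A' C := by
  rw [PP_mul hB hq hS, PP_mul hB hq hS]
  refine tsum_congr fun u => ?_
  rw [SS_B12 hB hS (A' - A) (C - C') u.2, mul_assoc, mul_assoc]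
  congr 1
  rw [← mul_assoc, ← exp_add]
  have e1 : (u : H) - (C - C') = u + (C' - C) := by abel
  rw [e1]
  congr 2
  simp only [br_sub_left, br_sub_right]
  ring

end sums

/-! ### positivity -/

section pos

variable {B : H →ₗ[ℝ] H →ₗ[ℝ] ℝ} {L : AddSubgroup H} {N : ℕ} {p q : Fin N → H}

/-- half points -/
def hp (p q : Fin N → H) (x : Fin N ⊕ Fin N → Fin 2) : H :=
  ∑ i, (((x i : ℕ) : ℝ) / 2) • (Sum.elim p q i)

theorem KK_self (hB : ∀ x y, B x y = (br x y).im) (l c : H) :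
    KK l c c = ((Real.exp (π * ‖c‖ ^ 2) : ℝ) : ℂ) *
      (((Real.exp (-(π / 2) * ‖l‖ ^ 2) : ℝ) : ℂ) * exp (2 * π * I * ((B l c : ℝ) : ℂ))) := by
  unfold KK
  push_cast
  rw [← exp_add, ← exp_add, hB]
  congr 1
  have h3 : br c l = br l c - 2 * I * ((br l c).im : ℂ) := by
    rw [← br_conj l c]
    apply Complex.ext <;> simp
    ring
  rw [h3, br_self]
  push_cast
  ring

theorem sum_char (l : H) :
    ∑ x : Fin N ⊕ Fin N → Fin 2, exp (2 * π * I * ((B l (hp p q x) : ℝ) : ℂ)) =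
      ∏ i, (1 + exp (π * I * ((B l (Sum.elim p q i) : ℝ) : ℂ))) := by
  have h1 : ∀ i : Fin N ⊕ Fin N, (1 + exp (π * I * ((B l (Sum.elim p q i) : ℝ) : ℂ))) =
      ∑ j : Fin 2, exp (π * I * ((j : ℕ) : ℂ) * ((B l (Sum.elim p q i) : ℝ) : ℂ)) := by
    intro i
    rw [Fin.sum_univ_two]
    simp
  simp only [h1]
  rw [Finset.prod_univ_sum]
  rw [Fintype.piFinset_univ]
  refine Finset.sum_congr rfl fun x _ => ?_
  rw [← exp_sum]
  congr 1
  unfold hp
  rw [map_sum, ofReal_sum, Finset.mul_sum]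
  refine Finset.sum_congr rfl fun i _ => ?_
  rw [map_smul, smul_eq_mul]
  push_cast
  ring

theorem term_nonneg (h : Lag B L p q) (hint : ∀ v ∈ L, ∀ w ∈ L, ∃ k : ℤ, B v w = k) {l : H}
    (hl : l ∈ L) : ∃ r : ℝ, 0 ≤ r ∧
      eps B p q l * ∏ i, (1 + exp (π * I * ((B l (Sum.elim p q i) : ℝ) : ℂ))) = (r : ℂ) := by
  have hmem : ∀ i : Fin N ⊕ Fin N, Sum.elim p q i ∈ L := by
    rintro (i | i)
    · exact h.memp i
    · exact h.memq i
  choose a ha using fun i => hint l hl (Sum.elim p q i) (hmem i)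
  by_cases hev : ∀ i, Even (a i)
  · choose b hb using hev
    have h1 : ∀ i, exp (π * I * ((B l (Sum.elim p q i) : ℝ) : ℂ)) = 1 := by
      intro i
      rw [ha, exp_eq_one_iff]
      exact ⟨b i, by rw [hb]; push_cast; ring⟩
    have h2 : eps B p q l = 1 := by
      unfold eps
      have e1 : (∑ i, B l (q i) * (- B l (p i)) : ℝ) =
          ((2 * ∑ i, (b (Sum.inr i)) * (- (b (Sum.inl i) + b (Sum.inl i))) : ℤ) : ℝ) := by
        push_cast
        rw [Finset.mul_sum]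
        refine Finset.sum_congr rfl fun i _ => ?_
        have e2 := ha (Sum.inl i)
        have e3 := ha (Sum.inr i)
        simp only [Sum.elim_inl, Sum.elim_inr] at e2 e3
        rw [e2, e3, hb, hb]
        push_cast; ring
      rw [e1, ofReal_intCast, exp_eq_one_iff]
      exact ⟨∑ i, (b (Sum.inr i)) * (- (b (Sum.inl i) + b (Sum.inl i))), by push_cast; ring⟩
    refine ⟨∏ _i : Fin N ⊕ Fin N, 2, by positivity, ?_⟩
    rw [h2, one_mul]
    push_cast
    refine Finset.prod_congr rfl fun i _ => ?_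
    rw [h1]; norm_num
  · push Not at hev
    obtain ⟨i, hi⟩ := hev
    refine ⟨0, le_refl _, ?_⟩
    have h1 : 1 + exp (π * I * ((B l (Sum.elim p q i) : ℝ) : ℂ)) = 0 := by
      obtain ⟨j, hj⟩ := Int.not_even_iff_odd.1 hi
      have : π * I * ((B l (Sum.elim p q i) : ℝ) : ℂ) = π * I + (j : ℂ) * (2 * π * I) := by
        rw [ha, hj]; push_cast; ring
      rw [this, exp_add, exp_pi_mul_I, exp_int_mul_two_pi_mul_I]
      norm_num
    rw [Finset.prod_eq_zero (Finset.mem_univ i) h1]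
    simp

/-- **(B4)** some diagonal value is positive -/
theorem exists_pos [FiniteDimensional ℂ H] (hB : ∀ x y, B x y = (br x y).im)
    (hS : SelfDual B L) (h : Lag B L p q) :
    ∃ c : H, 0 < (PP L (eps B p q) c c).re := by
  have hq := eps_qchar h hS.alt hS.int
  set ε := eps B p q with hε
  -- the normalised kernel
  have h1 : ∀ c : H, HasSum (fun l : L => ((Real.exp (-(π / 2) * ‖(l : H)‖ ^ 2) : ℝ) : ℂ) *
      (ε l * exp (2 * π * I * ((B (l : H) c : ℝ) : ℂ))))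
      (((Real.exp (-(π * ‖c‖ ^ 2)) : ℝ) : ℂ) * PP L ε c c) := by
    intro c
    have h2 := ((summable_PP hq hS.disc c c).of_norm.hasSum).mul_left
      (((Real.exp (-(π * ‖c‖ ^ 2)) : ℝ) : ℂ))
    have e0 : (fun l : L => ((Real.exp (-(π / 2) * ‖(l : H)‖ ^ 2) : ℝ) : ℂ) *
        (ε l * exp (2 * π * I * ((B (l : H) c : ℝ) : ℂ)))) =
        fun l : L => ((Real.exp (-(π * ‖c‖ ^ 2)) : ℝ) : ℂ) * (ε l * KK (l : H) c c) := ?_
    · rw [e0]; exact h2
    funext l
    symm
    rw [KK_self hB]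
    have e1 : ((Real.exp (-(π * ‖c‖ ^ 2)) : ℝ) : ℂ) * ((Real.exp (π * ‖c‖ ^ 2) : ℝ) : ℂ) = 1 := by
      rw [← ofReal_mul, ← Real.exp_add, neg_add_cancel, Real.exp_zero, ofReal_one]
    calc _ = (((Real.exp (-(π * ‖c‖ ^ 2)) : ℝ) : ℂ) * ((Real.exp (π * ‖c‖ ^ 2) : ℝ) : ℂ)) *
        (((Real.exp (-(π / 2) * ‖(l : H)‖ ^ 2) : ℝ) : ℂ) *
          (ε l * exp (2 * π * I * ((B (l : H) c : ℝ) : ℂ)))) := by ring
      _ = _ := by rw [e1, one_mul]
  have h2 := hasSum_sum (s := (Finset.univ : Finset (Fin N ⊕ Fin N → Fin 2)))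
    fun x _ => h1 (hp p q x)
  choose r hr0 hr using fun l : L => term_nonneg h hS.int l.2
  have h3 : ∀ l : L, ∑ x : Fin N ⊕ Fin N → Fin 2,
      ((Real.exp (-(π / 2) * ‖(l : H)‖ ^ 2) : ℝ) : ℂ) *
        (ε l * exp (2 * π * I * ((B (l : H) (hp p q x) : ℝ) : ℂ))) =
      ((Real.exp (-(π / 2) * ‖(l : H)‖ ^ 2) * r l : ℝ) : ℂ) := by
    intro l
    rw [← Finset.mul_sum, ← Finset.mul_sum, sum_char, hr, ofReal_mul]
  simp only [h3] at h2
  have h4 := (Complex.hasSum_re h2)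
  simp only [ofReal_re] at h4
  have h5 : 0 < (∑ x : Fin N ⊕ Fin N → Fin 2,
      ((Real.exp (-(π * ‖hp p q x‖ ^ 2)) : ℝ) : ℂ) * PP L ε (hp p q x) (hp p q x)).re := by
    rw [← h4.tsum_eq]
    refine h4.summable.tsum_pos (fun l => mul_nonneg (Real.exp_nonneg _) (hr0 l)) 0 ?_
    refine mul_pos (Real.exp_pos _) ?_
    have h6 := hr 0
    simp only [ZeroMemClass.coe_zero, map_zero, LinearMap.zero_apply, ofReal_zero, mul_zero,
      exp_zero] at h6
    have h7 : eps B p q 0 = 1 := hq.zero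
    rw [h7, one_mul] at h6
    have h8 : (∏ _i : Fin N ⊕ Fin N, (1 + 1) : ℂ) = ((∏ _i : Fin N ⊕ Fin N, (2:ℝ) : ℝ) : ℂ) := by
      push_cast
      refine Finset.prod_congr rfl fun i _ => ?_
      norm_num
    rw [h8] at h6
    have h9 : (∏ _i : Fin N ⊕ Fin N, (2:ℝ)) = r 0 := by exact_mod_cast h6
    rw [← h9]; positivity
  rw [re_sum] at h5
  have h6 : ∃ x ∈ (Finset.univ : Finset (Fin N ⊕ Fin N → Fin 2)), (0:ℝ) <
      (((Real.exp (-(π * ‖hp p q x‖ ^ 2)) : ℝ) : ℂ) * PP L ε (hp p q x) (hp p q x)).re := by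
    by_contra hcon
    push Not at hcon
    exact absurd h5 (not_lt.2 (Finset.sum_nonpos hcon))
  obtain ⟨x, -, hx⟩ := h6
  refine ⟨hp p q x, ?_⟩
  rw [re_ofReal_mul] at hx
  exact (pos_iff_pos_of_mul_pos hx).1 (Real.exp_pos _)

/-- **(B5)** the rank one identity, abstract form -/
theorem core_abs [FiniteDimensional ℂ H] (hB : ∀ x y, B x y = (br x y).im) (hS : SelfDual B L) :
    ∃ (ε : H → ℂ) (T : H → ℂ), QChar B L ε ∧ (∃ A, T A ≠ 0) ∧
      ∀ A C, HasSum (fun l : L => ε l * KK (l : H) A C) (T A * conj (T C)) := by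
  obtain ⟨N, p, q, h⟩ := SympZ_771.exists_lag hS
  have hq := eps_qchar h hS.alt hS.int
  obtain ⟨c, hc⟩ := exists_pos hB hS h
  set ε := eps B p q with hε
  set s : ℝ := Real.sqrt (PP L ε c c).re with hs
  have hs0 : 0 < s := Real.sqrt_pos.2 hc
  have hreal : PP L ε c c = ((s * s : ℝ) : ℂ) := by
    have h1 := PP_conj hq hS.alt c c
    rw [hs, Real.mul_self_sqrt hc.le]
    exact (Complex.conj_eq_iff_re.1 h1).symm
  have hsne : (s : ℂ) ≠ 0 := by exact_mod_cast hs0.ne'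
  refine ⟨ε, fun A => PP L ε A c / s, hq, ⟨c, ?_⟩, fun A C => ?_⟩
  · show PP L ε c c / s ≠ 0
    rw [hreal]; push_cast
    field_simp
    exact hsne
  · have h1 : PP L ε A C = PP L ε A c / s * conj (PP L ε C c / s) := by
      rw [map_div₀, conj_ofReal, PP_conj hq hS.alt, div_mul_div_comm, ← PP_exch hB hq hS A C c c,
        hreal]
      push_cast
      field_simp
    rw [← h1]
    exact (summable_PP hq hS.disc A C).of_norm.hasSum

end pos

end

end Crest.Agent.R272.Core_898
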