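import Crest.Agent.R272.Core3_898
import Crest.Agent.R272.SupDefs_528

/-!
Row 272, (E), road B of 641's #6137: the rank one identity `Core L` of `SupDefs_528` for every
`ee`-self-dual lattice `L` (`core_main`).
-/
set_option autoImplicit false

namespace Crest.Agent.R272.Core_898

open Complex Set Filter Topology
open scoped ComplexConjugate Real
open Crest.Agent.R272.SympZ_771 (SelfDual Lag)
open Crest.Agent.R272.EBase_641 Crest.Agent.R272.EBase2_641 Crest.Agent.R272.EThDefs_445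
open Crest.Agent.R272.Sup_528

noncomputable section

variable {n m : ℕ}

theorem her_uu (v w : V1 n × W m) : (her (uu v) (uu w)).im = ee v w := by
  simp only [her, uu, ee, hh, Complex.conj_conj, Complex.add_im, Complex.sub_im, Complex.mul_im,
    Complex.conj_re, Complex.conj_im]
  ring

section transfer

variable {H : Type*} [NormedAddCommGroup H] [InnerProductSpace ℂ H]

theorem br_rsmul_left (c : ℝ) (A C : H) : br (c • A) C = c * br A C := by
  have : c • A = (c : ℂ) • A := (Complex.coe_smul c A).symm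
  rw [this, br_smul_left]

theorem br_rsmul_right (c : ℝ) (A C : H) : br A (c • C) = c * br A C := by
  have : c • C = (c : ℂ) • C := (Complex.coe_smul c C).symm
  rw [this, br_smul_right, conj_ofReal]

/-- `Im <x,y>` as a bilinear form -/
def BH (H : Type*) [NormedAddCommGroup H] [InnerProductSpace ℂ H] : H →ₗ[ℝ] H →ₗ[ℝ] ℝ :=
  LinearMap.mk₂ ℝ (fun x y => (br x y).im)
    (fun a b c => by simp only [br_add_left, add_im])
    (fun c a b => by simp only [br_rsmul_left, im_ofReal_mul, smul_eq_mul])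
    (fun a b c => by simp only [br_add_right, add_im])
    (fun c a b => by simp only [br_rsmul_right, im_ofReal_mul, smul_eq_mul])

theorem BH_apply (x y : H) : BH H x y = (br x y).im := rfl

theorem core_transfer [FiniteDimensional ℂ H] (τ : Co n m ≃ H) (f : (V1 n × W m) ≃ₗ[ℝ] H)
    (hτ : ∀ A C, br (τ A) (τ C) = her A C) (hf : ∀ v, f v = τ (uu v)) (hn : ∀ v, ‖v‖ ≤ ‖f v‖)
    (L : AddSubgroup (V1 n × W m))
    (hd : ∀ r : ℝ, {v : V1 n × W m | v ∈ L ∧ ‖v‖ ≤ r}.Finite)
    (hs : Submodule.span ℝ (L : Set (V1 n × W m)) = ⊤)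
    (hi : ∀ v ∈ L, ∀ w ∈ L, ∃ k : ℤ, ee v w = k)
    (hu : ∀ v, (∀ w ∈ L, ∃ k : ℤ, ee v w = k) → v ∈ L) : Nonempty (Core L) := by
  have hee : ∀ v w, BH H (f v) (f w) = ee v w := fun v w => by
    rw [BH_apply, hf, hf, hτ, her_uu]
  set L' : AddSubgroup H := L.comap (f.symm.toAddEquiv.toAddMonoidHom) with hL'
  have hmem : ∀ v, f v ∈ L' ↔ v ∈ L := by
    intro v
    rw [hL', AddSubgroup.mem_comap]
    show f.symm (f v) ∈ L ↔ v ∈ L
    rw [LinearEquiv.symm_apply_apply]
  have hset : (L' : Set H) = f '' (L : Set (V1 n × W m)) := by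
    ext x
    constructor
    · intro hx
      refine ⟨f.symm x, (hmem _).1 ?_, f.apply_symm_apply x⟩
      rw [f.apply_symm_apply]; exact hx
    · rintro ⟨v, hv, rfl⟩
      exact (hmem v).2 hv
  have hS : SelfDual (BH H) L' := by
    refine ⟨fun x => ?_, fun r => ?_, ?_, ?_, ?_⟩
    · rw [BH_apply, br_self, ofReal_im]
    · refine ((hd r).image f).subset ?_
      rintro x ⟨hx, hxr⟩
      obtain ⟨v, rfl⟩ := f.surjective x
      exact ⟨v, ⟨(hmem v).1 hx, (hn v).trans hxr⟩, rfl⟩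
    · rw [hset]
      have h1 := Submodule.span_image (f : (V1 n × W m) →ₗ[ℝ] H) (s := (L : Set (V1 n × W m)))
      rw [hs, Submodule.map_top] at h1
      have h2 : LinearMap.range (f : (V1 n × W m) →ₗ[ℝ] H) = ⊤ := LinearEquiv.range f
      rw [h2] at h1
      exact h1
    · intro x hx y hy
      obtain ⟨v, rfl⟩ := f.surjective x
      obtain ⟨w, rfl⟩ := f.surjective y
      rw [hee]
      exact hi v ((hmem v).1 hx) w ((hmem w).1 hy)
    · intro x hx
      obtain ⟨v, rfl⟩ := f.surjective x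
      rw [hmem]
      refine hu v fun w hw => ?_
      rw [← hee]
      exact hx (f w) ((hmem w).2 hw)
  obtain ⟨ε, T, hq, ⟨A0, hA0⟩, hcore⟩ := core_abs (BH_apply (H := H)) hS
  let eL : L ≃ L' :=
    { toFun := fun l => ⟨f l, (hmem _).2 l.2⟩
      invFun := fun x => ⟨f.symm x, (hmem _).1 (by rw [f.apply_symm_apply]; exact x.2)⟩
      left_inv := fun l => Subtype.ext (f.symm_apply_apply _)
      right_inv := fun x => Subtype.ext (f.apply_symm_apply _) }
  refine ⟨{ ε := fun v => ε (f v), ε_pm := fun l hl => hq.pm (f l) ((hmem l).2 hl),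
            ε_add := fun l hl l' hl' => ?_, T := fun A => T (τ A),
            T_ne := ⟨τ.symm A0, by simpa using hA0⟩, core := fun A C => ?_ }⟩
  · have h1 := hq.add (f l) ((hmem l).2 hl) (f l') ((hmem l').2 hl')
    rw [hee, ← map_add] at h1
    exact h1
  · have h1 := (eL.hasSum_iff (f := fun x : L' => ε (x : H) * KK (x : H) (τ A) (τ C))).2
      (hcore (τ A) (τ C))
    have h2 : (fun l : L => ε (f (l : V1 n × W m)) * G (l : V1 n × W m) A C) =
        (fun x : L' => ε (x : H) * KK (x : H) (τ A) (τ C)) ∘ eL := by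
      funext l
      show ε (f (l : V1 n × W m)) * G (l : V1 n × W m) A C =
        ε (f (l : V1 n × W m)) * KK (f (l : V1 n × W m)) (τ A) (τ C)
      congr 1
      unfold G KK
      have e1 : br (f (l : V1 n × W m)) (f (l : V1 n × W m)) = (nsq (uu (l : V1 n × W m)) : ℂ) := by
        rw [hf, hτ]
        simp only [her, nsq, inner_self_eq_norm_sq_to_K, mul_conj, normSq_eq_norm_sq]
        push_cast
        rfl
      rw [← br_self, e1, hf, hτ, hτ, hτ]
    rw [h2]; exact h1

end transfer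

/-! ### the concrete space -/

/-- `Co n m` with its Hilbert norm -/
abbrev HH (n m : ℕ) := WithLp 2 (ℂ × WithLp 2 (E n × W m))

def toH : Co n m ≃ HH n m where
  toFun A := WithLp.toLp 2 (A.1, WithLp.toLp 2 (A.2.1, A.2.2))
  invFun x := (x.fst, x.snd.fst, x.snd.snd)
  left_inv A := rfl
  right_inv x := rfl

theorem br_toH (A C : Co n m) : br (toH A) (toH C) = her A C := by
  show inner ℂ C.1 A.1 + (inner ℂ C.2.1 A.2.1 + inner ℂ C.2.2 A.2.2) = _
  rw [her, add_assoc]
  congr 1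

theorem norm_toH (A : Co n m) : ‖toH A‖ ^ 2 = nsq A := by
  have h1 := WithLp.prod_norm_sq_eq_of_L2 (toH A)
  have h2 := WithLp.prod_norm_sq_eq_of_L2 (WithLp.toLp 2 (A.2.1, A.2.2))
  rw [h1]
  show ‖A.1‖ ^ 2 + ‖(WithLp.toLp 2 (A.2.1, A.2.2) : WithLp 2 (E n × W m))‖ ^ 2 = _
  rw [h2]
  show ‖A.1‖ ^ 2 + (‖A.2.1‖ ^ 2 + ‖A.2.2‖ ^ 2) = _
  rw [nsq, add_assoc]

/-- the real linear isomorphism `v ↦ uu v` -/
def fH (n m : ℕ) : (V1 n × W m) ≃ₗ[ℝ] HH n m where
  toFun v := toH (uu v)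
  map_add' v w := by
    have : uu (v + w) = uu v + uu w := by
      simp [uu]
    rw [this]; rfl
  map_smul' c v := by
    have : uu (c • v) = c • uu v := by
      simp [uu]
    rw [this]; rfl
  invFun x := ((x.snd.fst, conj x.fst), x.snd.snd)
  left_inv v := by
    show ((v.1.1, conj (conj v.1.2)), v.2) = v
    rw [conj_conj]
  right_inv x := by
    show toH (conj (conj x.fst), x.snd.fst, x.snd.snd) = x
    rw [conj_conj]; rfl

/-- **Core**: the rank one identity for every `ee`-self-dual lattice. -/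
theorem core_main (n m : ℕ) (L : AddSubgroup (V1 n × W m))
    (hd : ∀ r : ℝ, {v : V1 n × W m | v ∈ L ∧ ‖v‖ ≤ r}.Finite)
    (hs : Submodule.span ℝ (L : Set (V1 n × W m)) = ⊤)
    (hi : ∀ v ∈ L, ∀ w ∈ L, ∃ k : ℤ, ee v w = k)
    (hu : ∀ v, (∀ w ∈ L, ∃ k : ℤ, ee v w = k) → v ∈ L) : Nonempty (Core L) := by
  refine core_transfer toH (fH n m) br_toH (fun v => rfl) (fun v => ?_) L hd hs hi hu
  have h1 : ‖fH n m v‖ ^ 2 = nsq (uu v) := norm_toH (uu v)
  have h2 : nsq (uu v) = ‖v.1.2‖ ^ 2 + ‖v.1.1‖ ^ 2 + ‖v.2‖ ^ 2 := by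
    simp [nsq, uu]
  have key : ∀ a : ℝ, 0 ≤ a → a ^ 2 ≤ nsq (uu v) → a ≤ ‖fH n m v‖ := fun a ha h =>
    (sq_le_sq₀ ha (norm_nonneg _)).1 (by rw [h1]; exact h)
  rw [Prod.norm_def, Prod.norm_def]
  refine max_le (max_le (key _ (norm_nonneg _) ?_) (key _ (norm_nonneg _) ?_))
    (key _ (norm_nonneg _) ?_)
  all_goals
    rw [h2]
    nlinarith [sq_nonneg ‖v.1.2‖, sq_nonneg ‖v.1.1‖, sq_nonneg ‖v.2‖]

end

end Crest.Agent.R272.Core_898
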