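import Crest.Agent.R272.SupDefs_528
import Crest.Agent.R272.Z2_939

/-!
Row 272, division E, road B of the theta leaf (helper429): (B3) + (B4) of #6137.
From the functional equation of `S(E,F) = Σ exp π(-|V|² + ⟨V,F⟩ + ⟨E,V⟩)` to the rank one identity
of the coherent kernels.
-/

set_option autoImplicit false

open scoped ComplexConjugate Topology Real
open Filter Set

set_option maxHeartbeats 400000

namespace Crest.Agent.R272.CoreB_429

open Crest.Agent.R272.EBase_641 Crest.Agent.R272.EThDefs_445 Crest.Agent.R272.Sup_528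

noncomputable section

variable {n m : ℕ}

/-! ### algebra of `her`, `uu` -/

theorem her_add_left (A A' B : Co n m) : her (A + A') B = her A B + her A' B := by
  simp only [her, Prod.fst_add, Prod.snd_add, inner_add_right]; ring

theorem her_add_right (A B B' : Co n m) : her A (B + B') = her A B + her A B' := by
  simp only [her, Prod.fst_add, Prod.snd_add, inner_add_left, map_add]; ring

theorem her_neg_left (A B : Co n m) : her (-A) B = - her A B := by
  simp only [her, Prod.fst_neg, Prod.snd_neg, inner_neg_right]; ring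

theorem her_neg_right (A B : Co n m) : her A (-B) = - her A B := by
  simp only [her, Prod.fst_neg, Prod.snd_neg, inner_neg_left, map_neg]; ring

theorem her_sub_left (A A' B : Co n m) : her (A - A') B = her A B - her A' B := by
  rw [sub_eq_add_neg, her_add_left, her_neg_left, sub_eq_add_neg]

theorem her_sub_right (A B B' : Co n m) : her A (B - B') = her A B - her A B' := by
  rw [sub_eq_add_neg, her_add_right, her_neg_right, sub_eq_add_neg]

theorem her_conj (A B : Co n m) : conj (her A B) = her B A := by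
  simp only [her, map_add, map_mul, Complex.conj_conj, inner_conj_symm]; ring

theorem her_self (A : Co n m) : her A A = (nsq A : ℂ) := by
  simp only [her, nsq, inner_self_eq_norm_sq_to_K, Complex.mul_conj, Complex.normSq_eq_norm_sq]
  push_cast; rfl

theorem her_zero_left (B : Co n m) : her 0 B = 0 := by simp [her]
theorem her_zero_right (A : Co n m) : her A 0 = 0 := by simp [her]

theorem nsq_nonneg (A : Co n m) : 0 ≤ nsq A := by unfold nsq; positivity

theorem nsq_neg (A : Co n m) : nsq (-A) = nsq A := by simp [nsq]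

theorem nsq_sub (A B : Co n m) : nsq (A - B) = nsq A + nsq B - 2 * (her A B).re := by
  have h1 : ((nsq (A - B) : ℝ) : ℂ) = nsq A + nsq B - (her A B + conj (her A B)) := by
    rw [← her_self, her_sub_left, her_sub_right, her_sub_right, her_self, her_self, her_conj]
    ring
  have h2 := congrArg Complex.re h1
  simp only [Complex.sub_re, Complex.add_re, Complex.ofReal_re, Complex.conj_re] at h2
  rw [h2]; ring

theorem norm_her_le (A B : Co n m) : ‖her A B‖ ≤ nsq A / 8 + 2 * nsq B := by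
  have h1 : ‖A.1 * conj B.1‖ ≤ ‖A.1‖ * ‖B.1‖ := by
    rw [norm_mul, RCLike.norm_conj]
  have h2 := norm_inner_le_norm (𝕜 := ℂ) B.2.1 A.2.1
  have h3 := norm_inner_le_norm (𝕜 := ℂ) B.2.2 A.2.2
  have h4 : ‖her A B‖ ≤ ‖A.1 * conj B.1‖ + ‖(inner ℂ B.2.1 A.2.1 : ℂ)‖
      + ‖(inner ℂ B.2.2 A.2.2 : ℂ)‖ := norm_add₃_le
  unfold nsq
  nlinarith [sq_nonneg (‖A.1‖ / 4 - 2 * ‖B.1‖), sq_nonneg (‖A.2.1‖ / 4 - 2 * ‖B.2.1‖),
    sq_nonneg (‖A.2.2‖ / 4 - 2 * ‖B.2.2‖), sq_nonneg (‖A.1‖ - 4 * ‖B.1‖),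
    sq_nonneg (‖A.2.1‖ - 4 * ‖B.2.1‖), sq_nonneg (‖A.2.2‖ - 4 * ‖B.2.2‖)]

theorem norm_her_le' (A B : Co n m) : ‖her A B‖ ≤ 2 * nsq A + nsq B / 8 := by
  have := norm_her_le B A
  rw [← her_conj, RCLike.norm_conj] at this
  linarith

theorem uu_add (v w : V1 n × W m) : uu (v + w) = uu v + uu w := by
  simp [uu]

theorem uu_neg (v : V1 n × W m) : uu (-v) = - uu v := by
  simp [uu]

theorem uu_sub (v w : V1 n × W m) : uu (v - w) = uu v - uu w := by
  rw [sub_eq_add_neg, uu_add, uu_neg, sub_eq_add_neg]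

theorem uu_zero : uu (0 : V1 n × W m) = 0 := by simp [uu]

theorem ee_eq (v w : V1 n × W m) : ee v w = (her (uu v) (uu w)).im := by
  simp only [ee, her, uu, hh, Complex.conj_conj, Complex.add_im, Complex.sub_im, Complex.mul_im,
    Complex.conj_re, Complex.conj_im]
  ring

theorem ee_add_left' (v v' w : V1 n × W m) : ee (v + v') w = ee v w + ee v' w := by
  rw [ee_eq, ee_eq, ee_eq, uu_add, her_add_left, Complex.add_im]

theorem ee_add_right' (v w w' : V1 n × W m) : ee v (w + w') = ee v w + ee v w' := by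
  rw [ee_eq, ee_eq, ee_eq, uu_add, her_add_right, Complex.add_im]

theorem ee_neg_right' (v w : V1 n × W m) : ee v (-w) = - ee v w := by
  rw [ee_eq, ee_eq, uu_neg, her_neg_right, Complex.neg_im]

theorem ee_self' (v : V1 n × W m) : ee v v = 0 := by
  rw [ee_eq, her_self]; simp

theorem ph_add (x y : ℝ) : ph (x + y) = ph x * ph y := by
  unfold ph; rw [← Complex.exp_add]; congr 1; push_cast; ring

theorem ph_zero : ph 0 = 1 := by simp [ph]

theorem ph_int (k : ℤ) : ph (k : ℝ) * ph (k : ℝ) = 1 := by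
  rw [← ph_add]
  unfold ph
  rw [Complex.exp_eq_one_iff]
  exact ⟨k, by push_cast; ring⟩

theorem ph_neg_int (k : ℤ) : ph (-(k : ℝ)) = ph (k : ℝ) := by
  have h1 := ph_int k
  have h2 : ph (-(k:ℝ)) * ph (k:ℝ) = 1 := by rw [← ph_add, neg_add_cancel, ph_zero]
  have h3 : ph (k:ℝ) ≠ 0 := Complex.exp_ne_zero _
  exact mul_right_cancel₀ h3 (h2.trans h1.symm)

/-! ### the quadratic character -/

section eps

variable {L : AddSubgroup (V1 n × W m)} {ε : V1 n × W m → ℂ}

theorem eps_ne (hpm : ∀ l ∈ L, ε l = 1 ∨ ε l = -1) {l : V1 n × W m} (hl : l ∈ L) : ε l ≠ 0 := by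
  rcases hpm l hl with h | h <;> rw [h] <;> norm_num

theorem eps_norm (hpm : ∀ l ∈ L, ε l = 1 ∨ ε l = -1) {l : V1 n × W m} (hl : l ∈ L) :
    ‖ε l‖ = 1 := by
  rcases hpm l hl with h | h <;> rw [h] <;> simp

theorem eps_conj (hpm : ∀ l ∈ L, ε l = 1 ∨ ε l = -1) {l : V1 n × W m} (hl : l ∈ L) :
    conj (ε l) = ε l := by
  rcases hpm l hl with h | h <;> rw [h] <;> simp

theorem eps_mul_self (hpm : ∀ l ∈ L, ε l = 1 ∨ ε l = -1) {l : V1 n × W m} (hl : l ∈ L) :
    ε l * ε l = 1 := by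
  rcases hpm l hl with h | h <;> rw [h] <;> norm_num

theorem eps_zero (hpm : ∀ l ∈ L, ε l = 1 ∨ ε l = -1)
    (hadd : ∀ l ∈ L, ∀ l' ∈ L, ε (l + l') = ε l * ε l' * ph (ee l l')) : ε 0 = 1 := by
  have h := hadd 0 L.zero_mem 0 L.zero_mem
  rw [add_zero, ee_self', ph_zero, mul_one] at h
  have h0 := eps_ne hpm L.zero_mem
  exact mul_right_cancel₀ h0 (by rw [one_mul]; exact h.symm)

theorem eps_neg (hpm : ∀ l ∈ L, ε l = 1 ∨ ε l = -1)
    (hadd : ∀ l ∈ L, ∀ l' ∈ L, ε (l + l') = ε l * ε l' * ph (ee l l'))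
    {l : V1 n × W m} (hl : l ∈ L) : ε (-l) = ε l := by
  have h := hadd l hl (-l) (L.neg_mem hl)
  rw [add_neg_cancel, ee_neg_right', ee_self', neg_zero, ph_zero, mul_one,
    eps_zero hpm hadd] at h
  have h2 := eps_mul_self hpm hl
  exact mul_left_cancel₀ (eps_ne hpm hl) (h.symm.trans h2.symm)

/-- `ε(v) ε(u-v) = ε(u) e^{π i ee(v,u)}` -/
theorem eps_sub (hpm : ∀ l ∈ L, ε l = 1 ∨ ε l = -1)
    (hadd : ∀ l ∈ L, ∀ l' ∈ L, ε (l + l') = ε l * ε l' * ph (ee l l'))
    (hint : ∀ v ∈ L, ∀ w ∈ L, ∃ k : ℤ, ee v w = k)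
    {u v : V1 n × W m} (hu : u ∈ L) (hv : v ∈ L) : ε v * ε (u - v) = ε u * ph (ee v u) := by
  have h := hadd v hv (u - v) (L.sub_mem hu hv)
  have e1 : v + (u - v) = u := by abel
  have e2 : ee v (u - v) = ee v u := by
    rw [sub_eq_add_neg, ee_add_right', ee_neg_right', ee_self']; ring
  rw [e1, e2] at h
  obtain ⟨k, hk⟩ := hint v hv u hu
  rw [h, hk, mul_assoc, ph_int, mul_one]

end eps

/-! ### Gaussian bounds -/

theorem norm_G_le (v : V1 n × W m) (A B : Co n m) :
    ‖G v A B‖ ≤ Real.exp (π * (3 * nsq A + 4 * nsq B)) * Real.exp (-(π / 4) * nsq (uu v)) := by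
  unfold G
  rw [Complex.norm_exp, ← Real.exp_add]
  refine Real.exp_le_exp.2 ?_
  have e : (π * (-(nsq (uu v) : ℂ) / 2 + her A B - her A (uu v) + her (uu v) B)).re
      = π * (-(nsq (uu v)) / 2 + (her A B).re - (her A (uu v)).re + (her (uu v) B).re) := by
    rw [Complex.re_ofReal_mul]
    congr 1
    have : (-(nsq (uu v) : ℂ) / 2 : ℂ) = ((-(nsq (uu v)) / 2 : ℝ) : ℂ) := by push_cast; ring
    rw [this]
    simp only [Complex.add_re, Complex.sub_re, Complex.ofReal_re]
  rw [e]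
  have h1 : (her A B).re ≤ nsq A / 8 + 2 * nsq B := (Complex.re_le_norm _).trans (norm_her_le A B)
  have h2 : -(her A (uu v)).re ≤ 2 * nsq A + nsq (uu v) / 8 := by
    have := (Complex.abs_re_le_norm (her A (uu v))).trans (norm_her_le' A (uu v))
    exact (neg_le_abs _).trans this
  have h3 : (her (uu v) B).re ≤ nsq (uu v) / 8 + 2 * nsq B :=
    (Complex.re_le_norm _).trans (norm_her_le _ _)
  have hpi := Real.pi_pos
  have hA := nsq_nonneg A
  calc π * (-(nsq (uu v)) / 2 + (her A B).re - (her A (uu v)).re + (her (uu v) B).re)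
      ≤ π * (3 * nsq A + 4 * nsq B - nsq (uu v) / 4) := by
        refine mul_le_mul_of_nonneg_left ?_ hpi.le
        linarith
    _ = _ := by ring

/-- the summand of `S(E,F)` -/
def sg (E F : Co n m) (v : V1 n × W m) : ℂ :=
  Complex.exp (π * (-(nsq (uu v) : ℂ) + her (uu v) F + her E (uu v)))

/-- `S(E,F)` -/
def Sf (L : AddSubgroup (V1 n × W m)) (E F : Co n m) : ℂ := ∑' l : L, sg E F l.1

/-- the functional equation (B1)+(B2) -/
def FE (L : AddSubgroup (V1 n × W m)) : Prop :=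
  ∀ u ∈ L, ∀ E G : Co n m, Sf L E (uu u + G) =
    Complex.exp (π * (her E G + her (uu u) G)) * Sf L E (uu u - G)

theorem nsq_uu (v : V1 n × W m) : nsq (uu v) = Z2_939.nrm2 v := by
  simp only [nsq, uu, Z2_939.nrm2, RCLike.norm_conj]; ring

theorem summable_exp_nsq {L : AddSubgroup (V1 n × W m)}
    (hdisc : ∀ r : ℝ, {v : V1 n × W m | v ∈ L ∧ ‖v‖ ≤ r}.Finite) {c : ℝ} (hc : 0 < c) :
    Summable fun l : L => Real.exp (-c * nsq (uu l.1)) := by
  refine Summable.of_nonneg_of_le (fun l => (Real.exp_pos _).le) (fun l => ?_)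
    (Z2_939.summable_gauss L hdisc 0 hc)
  rw [pow_zero, one_mul]
  refine Real.exp_le_exp.2 ?_
  have := Z2_939.sq_norm_le_nrm2 l.1
  rw [nsq_uu]
  nlinarith

theorem summable_G {L : AddSubgroup (V1 n × W m)} {ε : V1 n × W m → ℂ}
    (hdisc : ∀ r : ℝ, {v : V1 n × W m | v ∈ L ∧ ‖v‖ ≤ r}.Finite)
    (hpm : ∀ l ∈ L, ε l = 1 ∨ ε l = -1) (A B : Co n m) :
    Summable fun l : L => ‖ε l.1 * G l.1 A B‖ := by
  refine Summable.of_nonneg_of_le (fun l => norm_nonneg _) (fun l => ?_)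
    ((summable_exp_nsq hdisc (c := π / 4) (by positivity)).mul_left
      (Real.exp (π * (3 * nsq A + 4 * nsq B))))
  rw [norm_mul, eps_norm hpm l.2, one_mul]
  exact norm_G_le _ _ _

/-- the coherent kernel -/
def P (L : AddSubgroup (V1 n × W m)) (ε : V1 n × W m → ℂ) (A B : Co n m) : ℂ :=
  ∑' l : L, ε l.1 * G l.1 A B

/-- the exponent identity -/
theorem term_eq {L : AddSubgroup (V1 n × W m)} {ε : V1 n × W m → ℂ}
    (hpm : ∀ l ∈ L, ε l = 1 ∨ ε l = -1)
    (hadd : ∀ l ∈ L, ∀ l' ∈ L, ε (l + l') = ε l * ε l' * ph (ee l l'))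
    (hint : ∀ v ∈ L, ∀ w ∈ L, ∃ k : ℤ, ee v w = k)
    (A B C D : Co n m) {u v : V1 n × W m} (hu : u ∈ L) (hv : v ∈ L) :
    (ε v * G v A B) * (ε (u - v) * G (u - v) C D) =
      ε u * Complex.exp (π * (-(nsq (uu u) : ℂ) / 2 + her A B + her C D - her C (uu u)
        + her (uu u) D)) * sg (C - A) (uu u + (B - D)) v := by
  have h1 := eps_sub hpm hadd hint hu hv
  have h2 : (ε v * G v A B) * (ε (u - v) * G (u - v) C D)
      = (ε v * ε (u - v)) * (G v A B * G (u - v) C D) := by ring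
  rw [h2, h1, mul_assoc, mul_assoc]
  congr 1
  unfold ph G sg
  rw [← Complex.exp_add, ← Complex.exp_add, ← Complex.exp_add]
  congr 1
  have e1 : (nsq (uu (u - v)) : ℂ) = nsq (uu u) + nsq (uu v) - (her (uu v) (uu u)
      + conj (her (uu v) (uu u))) := by
    rw [uu_sub, ← her_self, her_sub_left, her_sub_right, her_sub_right, her_self, her_self,
      her_conj]
    ring
  have e2 : (Complex.I * (ee v u : ℂ)) = (her (uu v) (uu u) - conj (her (uu v) (uu u))) / 2 := by
    rw [ee_eq]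
    apply Complex.ext <;> simp
  have e3 : (π : ℂ) * Complex.I * (ee v u : ℂ) = π * (Complex.I * (ee v u : ℂ)) := by ring
  rw [e3, e2, e1, uu_sub]
  simp only [her_sub_left, her_sub_right, her_add_right]
  ring

/-- the change of summation variables -/
def eqv (L : AddSubgroup (V1 n × W m)) : L × L ≃ L × L where
  toFun z := (z.2, z.1 - z.2)
  invFun z := (z.1 + z.2, z.1)
  left_inv z := by ext1 <;> simp
  right_inv z := by ext1 <;> simp

/-- abstract convolution -/
theorem conv {L : AddSubgroup (V1 n × W m)} {a b : L → ℂ} (ha : Summable fun l => ‖a l‖)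
    (hb : Summable fun l => ‖b l‖) :
    (∑' l, a l) * (∑' l, b l) = ∑' u : L, ∑' v : L, a v * b (u - v) := by
  have hprod : Summable fun z : L × L => a z.1 * b z.2 :=
    summable_mul_of_summable_norm ha hb
  have hprod' : Summable fun z : L × L => a z.2 * b (z.1 - z.2) :=
    ((eqv L).summable_iff (f := fun z : L × L => a z.1 * b z.2)).2 hprod
  rw [tsum_mul_tsum_of_summable_norm ha hb,
    ← (eqv L).tsum_eq (fun z : L × L => a z.1 * b z.2)]
  exact hprod'.tsum_prod

/-- **(B3)** -/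
theorem mul_eq {L : AddSubgroup (V1 n × W m)} {ε : V1 n × W m → ℂ}
    (hdisc : ∀ r : ℝ, {v : V1 n × W m | v ∈ L ∧ ‖v‖ ≤ r}.Finite)
    (hpm : ∀ l ∈ L, ε l = 1 ∨ ε l = -1)
    (hadd : ∀ l ∈ L, ∀ l' ∈ L, ε (l + l') = ε l * ε l' * ph (ee l l'))
    (hint : ∀ v ∈ L, ∀ w ∈ L, ∃ k : ℤ, ee v w = k)
    (A B C D : Co n m) :
    P L ε A B * P L ε C D = ∑' u : L, ε u.1 * Complex.exp (π * (-(nsq (uu u.1) : ℂ) / 2
      + her A B + her C D - her C (uu u.1) + her (uu u.1) D)) * Sf L (C - A) (uu u.1 + (B - D)) := by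
  have h1 := conv (summable_G hdisc hpm A B) (summable_G hdisc hpm C D)
  refine h1.trans (tsum_congr fun u => ?_)
  unfold Sf
  rw [← tsum_mul_left]
  refine tsum_congr fun v => ?_
  have h2 := term_eq hpm hadd hint A B C D u.2 v.2
  rw [AddSubgroup.coe_sub]
  exact h2

/-- **(B3)** rank one -/
theorem rank_one {L : AddSubgroup (V1 n × W m)} {ε : V1 n × W m → ℂ}
    (hdisc : ∀ r : ℝ, {v : V1 n × W m | v ∈ L ∧ ‖v‖ ≤ r}.Finite)
    (hpm : ∀ l ∈ L, ε l = 1 ∨ ε l = -1)
    (hadd : ∀ l ∈ L, ∀ l' ∈ L, ε (l + l') = ε l * ε l' * ph (ee l l'))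
    (hint : ∀ v ∈ L, ∀ w ∈ L, ∃ k : ℤ, ee v w = k) (hFE : FE L)
    (A B C D : Co n m) : P L ε A B * P L ε C D = P L ε A D * P L ε C B := by
  rw [mul_eq hdisc hpm hadd hint, mul_eq hdisc hpm hadd hint]
  refine tsum_congr fun u => ?_
  have h := hFE u.1 u.2 (C - A) (B - D)
  have e : uu u.1 - (B - D) = uu u.1 + (D - B) := by abel
  rw [h, e, ← mul_assoc, mul_assoc (ε u.1), ← Complex.exp_add]
  congr 3
  simp only [her_sub_left, her_sub_right]
  ring

theorem G_conj (v : V1 n × W m) (A B : Co n m) : conj (G v A B) = G (-v) B A := by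
  unfold G
  rw [← Complex.exp_conj]
  congr 1
  simp only [map_mul, map_add, map_sub, map_div₀, map_neg, Complex.conj_ofReal, her_conj, uu_neg,
    nsq_neg, her_neg_left, her_neg_right, map_ofNat]
  ring

theorem P_conj {L : AddSubgroup (V1 n × W m)} {ε : V1 n × W m → ℂ}
    (hpm : ∀ l ∈ L, ε l = 1 ∨ ε l = -1)
    (hadd : ∀ l ∈ L, ∀ l' ∈ L, ε (l + l') = ε l * ε l' * ph (ee l l')) (A B : Co n m) :
    conj (P L ε A B) = P L ε B A := by
  unfold P
  rw [Complex.conj_tsum, ← (Equiv.neg L).tsum_eq]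
  refine tsum_congr fun l => ?_
  rw [map_mul, G_conj]
  show conj (ε (-l.1)) * G (- -l.1) B A = _
  rw [eps_neg hpm hadd l.2, eps_conj hpm l.2, neg_neg]

end

end Crest.Agent.R272.CoreB_429
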