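import Crest.Prelude.Def_RatCurveLoops
import Crest.Agent.R266.Osgood

/-!
# R272 (S0414, S0415), leaf CP-CHOW, part 2 (helper338): images of immersions are submanifolds

`subm_of_imm` : `G` holomorphic near `w0` with injective derivative at `w0`, `S` contains the image
of `G` near `w0` and near `G w0` nothing else ⟹ `IsCplxSubmfldAt c S (G w0)`, `c + dim = N`.
-/

set_option autoImplicit false
set_option linter.unusedSectionVars false

open Set Filter Topology
open scoped ContDiff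
open Crest.AlgGeometry

namespace Crest.Agent.R272.CpSub_338

noncomputable section

variable {E : Type*} [NormedAddCommGroup E] [NormedSpace ℂ E] [FiniteDimensional ℂ E]
variable {T : Type*} [NormedAddCommGroup T] [NormedSpace ℂ T] [FiniteDimensional ℂ T]

/-- a complement of the image of an injective linear map -/
theorem exists_compl (L : E →ₗ[ℂ] T) (hL : Function.Injective L) (c : ℕ)
    (hc : c + Module.finrank ℂ E = Module.finrank ℂ T) :
    ∃ (L2 : (Fin c → ℂ) →ₗ[ℂ] T) (e : (E × (Fin c → ℂ)) ≃ₗ[ℂ] T),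
      ∀ w t, e (w, t) = L w + L2 t := by
  obtain ⟨Q, hQ⟩ := Submodule.exists_isCompl (LinearMap.range L)
  have h1 : Module.finrank ℂ (LinearMap.range L) = Module.finrank ℂ E :=
    LinearMap.finrank_range_of_inj hL
  have h2 := Submodule.finrank_add_eq_of_isCompl hQ
  have h3 : Module.finrank ℂ (Fin c → ℂ) = Module.finrank ℂ Q := by
    rw [Module.finrank_fin_fun]
    omega
  let e1 : (Fin c → ℂ) ≃ₗ[ℂ] Q := LinearEquiv.ofFinrankEq _ _ h3
  let e2 : E ≃ₗ[ℂ] LinearMap.range L := LinearEquiv.ofInjective L hL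
  let e : (E × (Fin c → ℂ)) ≃ₗ[ℂ] T := (e2.prodCongr e1).trans (Submodule.prodEquivOfIsCompl _ _ hQ)
  refine ⟨Q.subtype ∘ₗ e1.toLinearMap, e, fun w t => ?_⟩
  show (Submodule.prodEquivOfIsCompl _ _ hQ) (e2 w, e1 t) = _
  rw [Submodule.coe_prodEquivOfIsCompl']
  rfl

theorem subm_of_imm {N : ℕ} {G : E → (Fin N → ℂ)} {V : Set E} {w0 : E} (hV : IsOpen V)
    (hw0 : w0 ∈ V) (hG : DifferentiableOn ℂ G V)
    (himm : ∀ v, fderiv ℂ G w0 v = 0 → v = 0) {c : ℕ} (hc : c + Module.finrank ℂ E = N)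
    {S : Set (Fin N → ℂ)} (h1 : ∀ w ∈ V, G w ∈ S)
    (h2 : ∀ V' ∈ 𝓝 w0, ∀ᶠ u in 𝓝 (G w0), u ∈ S → u ∈ G '' V') :
    IsCplxSubmfldAt c S (G w0) := by
  have hinj : Function.Injective (fderiv ℂ G w0 : E →ₗ[ℂ] (Fin N → ℂ)) := by
    rw [injective_iff_map_eq_zero]
    intro v hv
    exact himm v hv
  obtain ⟨L2, e, he⟩ := exists_compl (fderiv ℂ G w0 : E →ₗ[ℂ] (Fin N → ℂ)) hinj c
    (by rw [hc, Module.finrank_fin_fun])
  let L2' : (Fin c → ℂ) →L[ℂ] (Fin N → ℂ) := LinearMap.toContinuousLinearMap L2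
  let e' : (E × (Fin c → ℂ)) ≃L[ℂ] (Fin N → ℂ) := e.toContinuousLinearEquiv
  have he' : ∀ w t, e' (w, t) = fderiv ℂ G w0 w + L2' t := he
  let Φ : E × (Fin c → ℂ) → (Fin N → ℂ) := fun p => G p.1 + L2' p.2
  have hGc : ContDiffAt ℂ 1 G w0 :=
    ((Crest.Agent.R266.SCV.contDiffOn_omega_of_differentiableOn hV hG).contDiffAt
      (hV.mem_nhds hw0)).of_le le_top
  have hΦc : ContDiffAt ℂ 1 Φ (w0, 0) := by
    refine ContDiffAt.add ?_ ?_
    · exact ContDiffAt.comp (w0, (0 : Fin c → ℂ)) hGc contDiffAt_fst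
    · exact L2'.contDiff.contDiffAt.comp (w0, (0 : Fin c → ℂ)) contDiffAt_snd
  have hΦd : HasFDerivAt Φ (e' : E × (Fin c → ℂ) →L[ℂ] (Fin N → ℂ)) (w0, 0) := by
    have h3 : HasFDerivAt Φ ((fderiv ℂ G w0).comp (ContinuousLinearMap.fst ℂ E (Fin c → ℂ)) +
        L2'.comp (ContinuousLinearMap.snd ℂ E (Fin c → ℂ))) (w0, 0) := by
      refine HasFDerivAt.add ?_ ?_
      · exact HasFDerivAt.comp (w0, (0 : Fin c → ℂ))
          (hGc.differentiableAt (by norm_num)).hasFDerivAt hasFDerivAt_fst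
      · exact HasFDerivAt.comp (w0, (0 : Fin c → ℂ)) L2'.hasFDerivAt hasFDerivAt_snd
    have h4 : ((e' : E × (Fin c → ℂ) →L[ℂ] (Fin N → ℂ))) =
        (fderiv ℂ G w0).comp (ContinuousLinearMap.fst ℂ E (Fin c → ℂ)) +
        L2'.comp (ContinuousLinearMap.snd ℂ E (Fin c → ℂ)) := by
      refine ContinuousLinearMap.ext fun p => ?_
      exact he' p.1 p.2
    rw [h4]
    exact h3
  let R := hΦc.toOpenPartialHomeomorph Φ hΦd one_ne_zero
  have hR : ∀ p, R p = Φ p := fun p => rfl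
  have hmem : (w0, (0 : Fin c → ℂ)) ∈ R.source :=
    hΦc.mem_toOpenPartialHomeomorph_source hΦd one_ne_zero
  have hΦ0 : Φ (w0, 0) = G w0 := by
    show G w0 + L2' 0 = G w0
    rw [map_zero, add_zero]
  have hz : G w0 ∈ R.target := by
    have := R.map_source hmem
    rwa [hR, hΦ0] at this
  have hΨ0 : R.symm (G w0) = (w0, 0) := by
    rw [← hΦ0, ← hR, R.left_inv hmem]
  have hΨc : ContDiffAt ℂ 1 R.symm (G w0) := by
    have h3 := hΦc.to_localInverse hΦd one_ne_zero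
    rw [hΦ0] at h3
    exact h3
  have hΨd : HasFDerivAt R.symm (e'.symm : (Fin N → ℂ) →L[ℂ] E × (Fin c → ℂ)) (G w0) := by
    refine R.hasFDerivAt_symm hz ?_
    rw [hΨ0]
    exact hΦd
  -- the neighbourhood
  have e1 : ∀ᶠ u in 𝓝 (G w0), u ∈ R.target := R.open_target.mem_nhds hz
  have e2 : ∀ᶠ u in 𝓝 (G w0), ContDiffAt ℂ 1 R.symm u := hΨc.eventually (by norm_num)
  have hcts : ContinuousAt R.symm (G w0) := hΨc.continuousAt
  have e3 : ∀ᶠ u in 𝓝 (G w0), (R.symm u).1 ∈ V := by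
    have h3 : ContinuousAt (fun u => (R.symm u).1) (G w0) := continuousAt_fst.comp hcts
    refine h3.eventually ?_
    show ∀ᶠ y in 𝓝 (R.symm (G w0)).1, y ∈ V
    rw [hΨ0]
    exact hV.mem_nhds hw0
  have hV' : {w | (w, (0 : Fin c → ℂ)) ∈ R.source} ∈ 𝓝 w0 := by
    have h3 : ContinuousAt (fun w : E => (w, (0 : Fin c → ℂ))) w0 := by fun_prop
    exact h3 (R.open_source.mem_nhds hmem)
  have e4 := h2 _ hV'
  obtain ⟨U, hU1, hU2, hU3⟩ := mem_nhds_iff.1 (e1.and (e2.and (e3.and e4)))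
  refine ⟨U, fun u => (R.symm u).2, hU2, hU3, ?_, ?_, ?_⟩
  · intro u hu
    exact (((hU1 hu).2.1.differentiableAt (by norm_num)).snd).differentiableWithinAt
  · have h3 : HasFDerivAt (fun u => (R.symm u).2)
        ((ContinuousLinearMap.snd ℂ E (Fin c → ℂ)).comp
          (e'.symm : (Fin N → ℂ) →L[ℂ] E × (Fin c → ℂ))) (G w0) := hΨd.snd
    rw [h3.fderiv]
    intro t
    refine ⟨e' (0, t), ?_⟩
    show (e'.symm (e' (0, t))).2 = t
    rw [e'.symm_apply_apply]
  · ext u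
    constructor
    · rintro ⟨hu1, hu2⟩
      refine ⟨hu2, ?_⟩
      obtain ⟨w, hw, rfl⟩ := (hU1 hu2).2.2.2 hu1
      have h3 : Φ (w, 0) = G w := by
        show G w + L2' 0 = G w
        rw [map_zero, add_zero]
      have h4 : R.symm (G w) = (w, 0) := by
        rw [← h3, ← hR, R.left_inv hw]
      show (R.symm (G w)).2 = 0
      rw [h4]
    · rintro ⟨hu2, hu0⟩
      refine ⟨?_, hu2⟩
      have h3 := hU1 hu2
      have h4 : R (R.symm u) = u := R.right_inv h3.1
      rw [hR] at h4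
      change G (R.symm u).1 + L2' (R.symm u).2 = u at h4
      have hu0' : (R.symm u).2 = 0 := hu0
      rw [hu0', map_zero, add_zero] at h4
      rw [← h4]
      exact h1 _ h3.2.2.1

end

end Crest.Agent.R272.CpSub_338
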