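import Crest.Agent.R272.CpTop_338
import Crest.Agent.R272.CpSub_338
import Crest.Agent.R273.ChowM_313

/-!
# R272 (S0414, S0415), leaf CP-CHOW, part 3 (helper338): Chow's theorem in the frozen language

`M` compact connected Hausdorff, `A : Atl n M` finite, `PA : Part A`, `hD : D2 A`, `P : ProjD A`:
* `toCP P : M → CPn P.N`, `toCP_eq`, `toCP_injective`, `continuous_toCP`,
  `isClosedEmbedding_toCP`;
* `toCP_alg`  : the image is the zero set of finitely many homogeneous polynomials;
* `toCP_subm` : the image is a submanifold of codimension `c`, `c + n = P.N`, in the charts;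
* `toCP_smooth` : `∃ c, c + n = P.N ∧ IsSmoothProjVariety c (range (toCP P))`.
-/

set_option autoImplicit false
set_option linter.unusedSectionVars false

open Set Filter Topology Complex
open scoped ContDiff Matrix ComplexConjugate
open Crest.AlgGeometry

namespace Crest.Agent.R272.CpChow_338

open Crest.Agent.R275 Crest.Agent.R275.Geo Crest.Agent.R275.Core144 Crest.Agent.R275.Dg199
open Crest.Agent.R273.LamN127 Crest.Agent.R273.SerA_945
open Crest.Agent.R273.SerB_945 Crest.Agent.R273.SerC_945 Crest.Agent.R273.SerE_945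
open Crest.Agent.R273.Defs_333 Crest.Agent.R273.FS_333 Crest.Agent.R273.SteinC_794
open Crest.Agent.R273.Chow_313 Crest.Agent.R273.TD3_733
open CpTop_338 CpSub_338

noncomputable section

variable {n : ℕ} {M : Type} [TopologicalSpace M] {A : Atl n M}

/-- a chart at `x` -/
def ci (A : Atl n M) (x : M) : A.ι := (A.cover x).choose

theorem ci_mem (A : Atl n M) (x : M) : x ∈ (A.e (ci A x)).source := (A.cover x).choose_spec

/-- the map to projective space -/
def toCP (P : ProjD A) (x : M) : CPn P.N := CPn.mk (P.F (ci A x) x) (P.ne _ x (ci_mem A x))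

theorem toCP_eq (P : ProjD A) {i : A.ι} {x : M} (hx : x ∈ (A.e i).source) :
    toCP P x = CPn.mk (P.F i x) (P.ne i x hx) :=
  (mk_eq_iff _ _).2 (P.tr _ _ x ⟨ci_mem A x, hx⟩)

theorem toCP_injective (P : ProjD A) : Function.Injective (toCP P) := by
  intro x y h
  exact P.inj _ _ x (ci_mem A x) y (ci_mem A y) ((mk_eq_iff _ _).1 h)

theorem continuousAt_F (P : ProjD A) {i : A.ι} {x : M} (hx : x ∈ (A.e i).source) :
    ContinuousAt (P.F i) x := by
  rw [continuousAt_pi]
  exact fun k => continuousAt_of_holAt isOpen_univ (P.hol i k) hx (mem_univ x)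

theorem continuous_toCP (P : ProjD A) : Continuous (toCP P) := by
  refine continuous_iff_local fun x => ⟨P.F (ci A x), continuousAt_F P (ci_mem A x), ?_⟩
  filter_upwards [(A.e (ci A x)).open_source.mem_nhds (ci_mem A x)] with y hy
  exact ⟨P.ne _ y hy, toCP_eq P hy⟩

theorem isClosedEmbedding_toCP [CompactSpace M] (P : ProjD A) : IsClosedEmbedding (toCP P) :=
  (continuous_toCP P).isClosedEmbedding (toCP_injective P)

/-! ### the image is algebraic -/

section Alg

/-- the homogeneous polynomials which vanish on the image -/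
def VanS (P : ProjD A) : Set (MvPolynomial (Fin (P.N + 1)) ℂ) :=
  {p | (∃ d, p.IsHomogeneous d) ∧ ∀ i, ∀ x ∈ (A.e i).source, MvPolynomial.eval (P.F i x) p = 0}

variable [T2Space M] [ConnectedSpace M] [CompactSpace M] [Finite A.ι]

theorem mem_range_iff (PA : Part A) (hD : D2 A) (P : ProjD A) (v : Fin (P.N + 1) → ℂ)
    (hv : v ≠ 0) : CPn.mk v hv ∈ range (toCP P) ↔ ∀ p ∈ VanS P, MvPolynomial.eval v p = 0 := by
  constructor
  · rintro ⟨x, hx⟩ p ⟨⟨d, hd⟩, hp⟩
    obtain ⟨c, -, hc⟩ := (mk_eq_iff' hv (P.ne _ x (ci_mem A x))).1 hx.symm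
    rw [hc, eval_smul hd, hp _ x (ci_mem A x), mul_zero]
  · intro h
    obtain ⟨m0, hV⟩ := solv_large PA hD (fs_pos P) (1 : LB A)
    have hV' : ∀ m, m0 ≤ m → ∀ q, 1 ≤ q → Solv (lb P ^ m) q := fun m hm q hq => by
      have := hV m hm q hq
      rwa [one_mul] at this
    obtain ⟨i, x, hx, c, hc, hvc⟩ := chow_vec (F := fun k => sec P k) (isHS_sec P)
      (exists_sec_ne' P) (fun k => fd_HS PA _) hV' v hv fun d p hp h1 => by
        refine h p ⟨⟨d, hp⟩, fun i x hx => ?_⟩
        have h2 := h1 i x hx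
        have h3 : (fun k => sec P k i x) = P.F i x := funext fun k => sec_eq P hx k
        rwa [h3] at h2
    refine ⟨x, ?_⟩
    rw [toCP_eq P hx]
    refine ((mk_eq_iff' hv (P.ne i x hx)).2 ⟨c, hc, ?_⟩).symm
    rw [hvc]
    congr 1
    exact funext fun k => sec_eq P hx k

theorem toCP_alg (PA : Part A) (hD : D2 A) (P : ProjD A) :
    ∃ s : Finset (MvPolynomial (Fin (P.N + 1)) ℂ), (∀ p ∈ s, ∃ d : ℕ, p.IsHomogeneous d) ∧
      ∀ (v : Fin (P.N + 1) → ℂ) (hv : v ≠ 0),
        CPn.mk v hv ∈ range (toCP P) ↔ ∀ p ∈ s, MvPolynomial.eval v p = 0 := by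
  have hfg : (Ideal.span (VanS P)).FG := (isNoetherianRing_iff_ideal_fg _).1 inferInstance _
  obtain ⟨s, hs1, hs2⟩ := (Submodule.fg_span_iff_fg_span_finset_subset (VanS P)).1 hfg
  refine ⟨s, fun p hp => (hs1 hp).1, fun v hv => ?_⟩
  rw [mem_range_iff PA hD P v hv]
  constructor
  · exact fun h p hp => h p (hs1 hp)
  · intro h p hp
    have h1 : Ideal.span (s : Set (MvPolynomial (Fin (P.N + 1)) ℂ)) ≤
        RingHom.ker (MvPolynomial.eval v) := by
      rw [Ideal.span_le]
      exact fun p hp => h p hp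
    have h2 : p ∈ Ideal.span (VanS P) := Ideal.subset_span hp
    have h3 : Ideal.span (VanS P) = Ideal.span (s : Set (MvPolynomial (Fin (P.N + 1)) ℂ)) := hs2
    rw [h3] at h2
    exact h1 h2

end Alg

/-! ### the image is a submanifold -/

section Subm

variable (P : ProjD A)

/-- the affine coordinates of the embedding, read in the chart `i` -/
def aff (i : A.ι) (j : Fin (P.N + 1)) (w : Cn n) : Fin P.N → ℂ := fun k =>
  P.F i ((A.e i).symm w) (j.succAbove k) / P.F i ((A.e i).symm w) j

/-- the domain -/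
def affD (i : A.ι) (j : Fin (P.N + 1)) : Set (Cn n) :=
  {w | w ∈ (A.e i).target ∧ P.F i ((A.e i).symm w) j ≠ 0}

theorem Fdiff (i : A.ι) {w : Cn n} (hw : w ∈ (A.e i).target) (k : Fin (P.N + 1)) :
    DifferentiableAt ℂ (fun w => P.F i ((A.e i).symm w) k) w := by
  have h1 := (P.hol i k).diffAt isOpen_univ ((A.e i).map_target hw) (mem_univ _)
  rwa [(A.e i).right_inv hw] at h1

theorem isOpen_affD (i : A.ι) (j : Fin (P.N + 1)) : IsOpen (affD P i j) := by
  rw [isOpen_iff_mem_nhds]
  rintro w ⟨hw, h0⟩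
  filter_upwards [(A.e i).open_target.mem_nhds hw,
    (Fdiff P i hw j).continuousAt.eventually_ne h0] with u hu hu0
  exact ⟨hu, hu0⟩

theorem toCP_aff {i : A.ι} {j : Fin (P.N + 1)} {w : Cn n} (hw : w ∈ affD P i j) :
    toCP P ((A.e i).symm w) = CPn.affineChart j (aff P i j w) := by
  rw [toCP_eq P ((A.e i).map_target hw.1), mk_eq_affineChart]
  exact ⟨hw.2, fun k => rfl⟩

theorem aff_diff (i : A.ι) (j : Fin (P.N + 1)) :
    DifferentiableOn ℂ (aff P i j) (affD P i j) := by
  intro w hw
  refine DifferentiableAt.differentiableWithinAt ?_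
  rw [differentiableAt_pi]
  intro k
  have h1 : DifferentiableAt ℂ (fun w => P.F i ((A.e i).symm w) (j.succAbove k) *
      (P.F i ((A.e i).symm w) j)⁻¹) w :=
    (Fdiff P i hw.1 (j.succAbove k)).mul ((Fdiff P i hw.1 j).inv hw.2)
  exact h1

theorem aff_imm {i : A.ι} {j : Fin (P.N + 1)} {w : Cn n} (hw : w ∈ affD P i j) (v : Cn n)
    (hv : fderiv ℂ (aff P i j) w v = 0) : v = 0 := by
  have hd := (aff_diff P i j).differentiableAt ((isOpen_affD P i j).mem_nhds hw)
  have hFd := Fdiff P i hw.1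
  have hk : ∀ k : Fin P.N, fderiv ℂ (fun w => aff P i j w k) w v = 0 := by
    intro k
    have h3 := fderiv_pi (h := fun k => (differentiableAt_pi.1 hd) k)
    have h4 : (fun w => fun k => aff P i j w k) = aff P i j := rfl
    rw [h4] at h3
    rw [h3] at hv
    exact congrFun hv k
  have h5 : ∀ k, fderiv ℂ (fun w => P.F i ((A.e i).symm w)) w v k =
      fderiv ℂ (fun w => P.F i ((A.e i).symm w) k) w v := by
    intro k
    have h3 := fderiv_pi (h := fun k => hFd k)
    rw [show (fun w => fun k => P.F i ((A.e i).symm w) k) =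
      fun w => P.F i ((A.e i).symm w) from rfl] at h3
    rw [h3]
    rfl
  refine P.imm i w hw.1 v ⟨fderiv ℂ (fun w => P.F i ((A.e i).symm w) j) w v /
    P.F i ((A.e i).symm w) j, funext fun l => ?_⟩
  rw [h5 l, Pi.smul_apply, smul_eq_mul]
  refine Fin.succAboveCases j ?_ (fun k => ?_) l
  · rw [div_mul_cancel₀ _ hw.2]
  · have h6 : (fun w => P.F i ((A.e i).symm w) (j.succAbove k)) =ᶠ[𝓝 w]
        fun w => aff P i j w k * P.F i ((A.e i).symm w) j := by
      filter_upwards [(isOpen_affD P i j).mem_nhds hw] with u hu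
      exact (div_mul_cancel₀ _ hu.2).symm
    rw [h6.fderiv_eq, fderiv_fun_mul ((differentiableAt_pi.1 hd) k) (hFd j)]
    simp only [_root_.add_apply, _root_.smul_apply, smul_eq_mul]
    rw [hk k, mul_zero, add_zero]
    show P.F i ((A.e i).symm w) (j.succAbove k) / P.F i ((A.e i).symm w) j * _ = _
    ring

theorem le_N [Nonempty M] : n ≤ P.N := by
  obtain ⟨x⟩ := (inferInstance : Nonempty M)
  have hx := ci_mem A x
  obtain ⟨j, hj⟩ := Function.ne_iff.1 (P.ne _ x hx)
  have hw : A.e (ci A x) x ∈ affD P (ci A x) j := by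
    refine ⟨(A.e _).map_source hx, ?_⟩
    rw [(A.e _).left_inv hx]
    exact hj
  have hinj : Function.Injective (fderiv ℂ (aff P (ci A x) j) (A.e (ci A x) x) :
      Cn n →ₗ[ℂ] (Fin P.N → ℂ)) := by
    rw [injective_iff_map_eq_zero]
    exact fun v hv => aff_imm P hw v hv
  have h := LinearMap.finrank_le_finrank_of_injective hinj
  rwa [finrank_euclideanSpace_fin, Module.finrank_fin_fun] at h

variable [CompactSpace M]

theorem toCP_subm {c : ℕ} (hc : c + n = P.N) (j : Fin (P.N + 1)) (z : Fin P.N → ℂ)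
    (hz : CPn.affineChart j z ∈ range (toCP P)) :
    IsCplxSubmfldAt c (CPn.affineChart j ⁻¹' range (toCP P)) z := by
  obtain ⟨x, hx⟩ := hz
  have hxi := ci_mem A x
  set i := ci A x with hi
  have hx' := hx
  rw [toCP_eq P hxi, mk_eq_affineChart] at hx'
  obtain ⟨hj, hzk⟩ := hx'
  have hw : A.e i x ∈ affD P i j := by
    refine ⟨(A.e _).map_source hxi, ?_⟩
    rw [(A.e _).left_inv hxi]
    exact hj
  have hzw : aff P i j (A.e i x) = z := by
    funext k
    rw [hzk k, aff, (A.e i).left_inv hxi]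
  rw [← hzw]
  refine subm_of_imm (isOpen_affD P i j) hw (aff_diff P i j) (fun v hv => aff_imm P hw v hv)
    (by rw [finrank_euclideanSpace_fin]; exact hc) (fun w hw => ?_) fun V' hV' => ?_
  · exact ⟨_, toCP_aff P hw⟩
  · rw [hzw]
    have h1 : {y | y ∈ (A.e i).source ∧ A.e i y ∈ V' ∩ affD P i j} ∈ 𝓝 x := by
      refine inter_mem ((A.e i).open_source.mem_nhds hxi) ?_
      exact (A.e i).continuousAt hxi (inter_mem hV' ((isOpen_affD P i j).mem_nhds hw))
    rw [(isClosedEmbedding_toCP P).isInducing.nhds_eq_comap, mem_comap] at h1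
    obtain ⟨O, hO, hOs⟩ := h1
    rw [hx] at hO
    have h2 := (continuous_affineChart j).continuousAt (x := z) hO
    filter_upwards [h2] with u hu
    rintro ⟨y, hy⟩
    have hyO : toCP P y ∈ O := by
      rw [hy]
      exact hu
    obtain ⟨hy1, hy2, hy3⟩ := hOs hyO
    refine ⟨A.e i y, hy2, affineChart_injective j ?_⟩
    rw [← toCP_aff P hy3, (A.e i).left_inv hy1, hy]

end Subm

/-- **Chow's theorem in the frozen language** -/
theorem toCP_smooth [T2Space M] [ConnectedSpace M] [CompactSpace M] [Finite A.ι] (PA : Part A)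
    (hD : D2 A) (P : ProjD A) {c : ℕ} (hc : c + n = P.N) :
    IsSmoothProjVariety c (range (toCP P)) :=
  ⟨toCP_alg PA hD P, fun j z hz => toCP_subm P hc j z hz⟩

theorem toCP_smooth' [T2Space M] [ConnectedSpace M] [CompactSpace M] [Finite A.ι] (PA : Part A)
    (hD : D2 A) (P : ProjD A) : ∃ c, c + n = P.N ∧ IsSmoothProjVariety c (range (toCP P)) :=
  ⟨P.N - n, Nat.sub_add_cancel (le_N P), toCP_smooth PA hD P (Nat.sub_add_cancel (le_N P))⟩

theorem isConnected_toCP [ConnectedSpace M] (P : ProjD A) : IsConnected (range (toCP P)) :=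
  isConnected_range (continuous_toCP P)

end

end Crest.Agent.R272.CpChow_338
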