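import Mathlib

/-!
# R272 (S0415), leaf CP-MORPH, part 2 (helper338): virtually infinite cyclic images of a lattice

`exists_scale` : `φ : Λ → G` a homomorphism on a finitely generated abelian group, `φ l₁` of infinite
order, every `l` has a positive multiple in `ℤ l₁ + ker φ` ⟹ there are `n ≠ 0` and `l₀` such that
`φ (n l₀)` has infinite order and `φ` maps `n Λ` onto the powers of `φ (n l₀)`.
-/

set_option autoImplicit false
set_option linter.unusedSectionVars false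

open Multiplicative

namespace Crest.Agent.R272.CpGrp_338

variable {Λ G : Type*} [AddCommGroup Λ] [Group G]

/-- the kernel as a submodule -/
def kerM (φ : Multiplicative Λ →* G) : Submodule ℤ Λ where
  carrier := {l | φ (ofAdd l) = 1}
  add_mem' {a b} ha hb := by
    show φ (ofAdd (a + b)) = 1
    rw [ofAdd_add, map_mul, show φ (ofAdd a) = 1 from ha, show φ (ofAdd b) = 1 from hb, one_mul]
  zero_mem' := map_one φ
  smul_mem' c a ha := by
    show φ (ofAdd (c • a)) = 1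
    rw [ofAdd_zsmul, map_zpow, show φ (ofAdd a) = 1 from ha, one_zpow]

theorem mem_kerM {φ : Multiplicative Λ →* G} {l : Λ} : l ∈ kerM φ ↔ φ (ofAdd l) = 1 := Iff.rfl

theorem exists_exponent (Q : Type*) [AddCommGroup Q] [Module.Finite ℤ Q] :
    ∃ n : ℕ, n ≠ 0 ∧ ∀ (t : Q) (m : ℤ), m ≠ 0 → m • t = 0 → n • t = 0 := by
  let T : Submodule ℤ Q := Submodule.torsion ℤ Q
  have hT : Module.IsTorsion ℤ T := Submodule.torsion_isTorsion
  have h1 := Submodule.annihilator_top_inter_nonZeroDivisors hT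
  obtain ⟨a, ha1, ha2⟩ := h1
  have ha0 : a ≠ 0 := nonZeroDivisors.ne_zero ha2
  refine ⟨a.natAbs, Int.natAbs_ne_zero.2 ha0, fun t m hm ht => ?_⟩
  have htT : t ∈ T := by
    rw [Submodule.mem_torsion_iff]
    exact ⟨⟨m, mem_nonZeroDivisors_of_ne_zero hm⟩, ht⟩
  have h2 : a • (⟨t, htT⟩ : T) = 0 :=
    (Submodule.mem_annihilator.1 ha1) _ Submodule.mem_top
  have h3 : a • t = 0 := congrArg Subtype.val h2
  rw [← natCast_zsmul]
  rcases Int.natAbs_eq a with h4 | h4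
  · rw [← h4]
    exact h3
  · have h5 : ((a.natAbs : ℕ) : ℤ) = - a := by omega
    rw [h5, neg_smul, h3, neg_zero]

theorem exists_scale [Module.Finite ℤ Λ] (φ : Multiplicative Λ →* G) (l₁ : Λ)
    (h1 : ¬ IsOfFinOrder (φ (ofAdd l₁)))
    (h : ∀ l : Λ, ∃ m : ℤ, m ≠ 0 ∧ ∃ k : ℤ, φ (ofAdd (m • l - k • l₁)) = 1) :
    ∃ n : ℕ, n ≠ 0 ∧ ∃ l₀ : Λ, ¬ IsOfFinOrder (φ (ofAdd (n • l₀))) ∧
      ∀ l : Λ, ∃ k : ℤ, φ (ofAdd (n • l - k • n • l₀)) = 1 := by
  classical
  let Q := Λ ⧸ kerM φ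
  let π : Λ →ₗ[ℤ] Q := (kerM φ).mkQ
  have hπ : ∀ l, π l = 0 ↔ φ (ofAdd l) = 1 := fun l =>
    (Submodule.Quotient.mk_eq_zero _).trans mem_kerM
  have hπs : Function.Surjective π := Submodule.mkQ_surjective _
  obtain ⟨n, hn, hexp⟩ := exists_exponent Q
  let T : Submodule ℤ Q := Submodule.torsion ℤ Q
  let Q' := Q ⧸ T
  let ρ : Q →ₗ[ℤ] Q' := T.mkQ
  have hρs : Function.Surjective ρ := Submodule.mkQ_surjective _
  have hρ : ∀ x, ρ x = 0 ↔ ∃ m : ℤ, m ≠ 0 ∧ m • x = 0 := by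
    intro x
    rw [show (ρ x = 0 ↔ x ∈ T) from Submodule.Quotient.mk_eq_zero _, Submodule.mem_torsion_iff]
    constructor
    · rintro ⟨m, hm⟩
      exact ⟨m, nonZeroDivisors.coe_ne_zero m, hm⟩
    · rintro ⟨m, hm, hx⟩
      exact ⟨⟨m, mem_nonZeroDivisors_of_ne_zero hm⟩, hx⟩
  have : Module.IsTorsionFree ℤ Q' := inferInstance
  have : Module.Free ℤ Q' := inferInstance
  let b := Module.Free.chooseBasis ℤ Q'
  -- the class of `l₁` is not zero
  have hq1 : ρ (π l₁) ≠ 0 := by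
    intro h0
    obtain ⟨m, hm, h2⟩ := (hρ _).1 h0
    rw [← map_smul, hπ, ofAdd_zsmul, map_zpow] at h2
    exact h1 (isOfFinOrder_iff_zpow_eq_one.2 ⟨m, hm, h2⟩)
  -- every class has a multiple in the line of `l₁`
  have hline : ∀ x : Q', ∃ m : ℤ, m ≠ 0 ∧ ∃ k : ℤ, m • x = k • ρ (π l₁) := by
    intro x
    obtain ⟨y, rfl⟩ := hρs x
    obtain ⟨l, rfl⟩ := hπs y
    obtain ⟨m, hm, k, hk⟩ := h l
    refine ⟨m, hm, k, ?_⟩
    rw [← hπ, map_sub, map_smul, map_smul, sub_eq_zero] at hk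
    rw [← map_smul, hk, map_smul]
  -- the basis has one element
  have hsub : Subsingleton (Module.Free.ChooseBasisIndex ℤ Q') := by
    refine ⟨fun i j => ?_⟩
    by_contra hij
    obtain ⟨m, hm, k, hk⟩ := hline (b i)
    obtain ⟨m', hm', k', hk'⟩ := hline (b j)
    have e1 : (k' * m) • b i = (k * m') • b j := by
      rw [mul_smul, hk, mul_smul, hk', smul_comm]
    have e2 := congrArg (fun x => b.repr x i) e1
    simp only [map_smul, Module.Basis.repr_self, Finsupp.smul_apply, Finsupp.single_eq_same,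
      smul_eq_mul, mul_one] at e2
    rw [Finsupp.single_eq_of_ne (by tauto), mul_zero] at e2
    have hk0 : k' ≠ 0 := by
      rintro rfl
      rw [zero_smul] at hk'
      exact b.ne_zero j ((smul_eq_zero.1 hk').resolve_left hm')
    exact (mul_ne_zero hk0 hm) e2
  obtain ⟨i₀⟩ : Nonempty (Module.Free.ChooseBasisIndex ℤ Q') := by
    by_contra hne
    rw [not_nonempty_iff] at hne
    refine hq1 ?_
    rw [← b.sum_repr (ρ (π l₁))]
    exact Finset.sum_eq_zero fun i _ => (hne.false i).elim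
  have hspan : ∀ x : Q', ∃ k : ℤ, x = k • b i₀ := by
    intro x
    refine ⟨b.repr x i₀, ?_⟩
    conv_lhs => rw [← b.sum_repr x]
    rw [Finset.sum_eq_single i₀ (fun i _ hi => (hi (Subsingleton.elim _ _)).elim)
      (fun h => absurd (Finset.mem_univ _) h)]
  obtain ⟨y₀, hy₀⟩ := hρs (b i₀)
  obtain ⟨l₀, rfl⟩ := hπs y₀
  refine ⟨n, hn, l₀, fun hfin => ?_, fun l => ?_⟩
  · obtain ⟨m, hm, h2⟩ := isOfFinOrder_iff_zpow_eq_one.1 hfin
    rw [← map_zpow, ← ofAdd_zsmul, ← hπ] at h2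
    refine b.ne_zero i₀ ?_
    rw [← hy₀, hρ]
    refine ⟨m * n, mul_ne_zero hm (Nat.cast_ne_zero.2 hn), ?_⟩
    rw [mul_smul, natCast_zsmul, ← map_nsmul, ← map_smul]
    exact h2
  · obtain ⟨k, hk⟩ := hspan (ρ (π l))
    refine ⟨k, ?_⟩
    rw [← hπ]
    have h3 : ρ (π (l - k • l₀)) = 0 := by
      rw [map_sub, map_sub, map_smul, map_smul, hy₀, hk, sub_self]
    obtain ⟨m, hm, h4⟩ := (hρ _).1 h3
    have h5 := hexp _ m hm h4
    rw [← map_nsmul, smul_sub] at h5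
    rw [← h5]
    congr 2
    rw [smul_comm]

end Crest.Agent.R272.CpGrp_338
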