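import Crest.Agent.R272.Lift1_297
import Crest.Prelude.Def_RatCurveLoops

/-!
Row 272 (helper297): LIFT, part 2.
* `lift` : a map `f : ℂⁿ → CPn N` with a holomorphic local lift at every point has an entire nowhere
  vanishing lift.
* `lift_pi` : the same on `Fin n → ℂ`.
-/

set_option autoImplicit false
set_option linter.unusedSectionVars false

open Set Filter Topology Metric Complex
open Crest.Agent.R266.SCV Crest.Agent.R275.Geo Crest.Agent.R275.Cous686
open Crest.AlgGeometry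

noncomputable section

namespace Crest.Agent.R272.Lift_297

variable {N : ℕ}

/-- `v` is a vector of homogeneous coordinates of `x` -/
def Rep (x : CPn N) (v : Fin (N + 1) → ℂ) : Prop := ∃ hv : v ≠ 0, CPn.mk v hv = x

theorem Rep.ne {x : CPn N} {v : Fin (N + 1) → ℂ} (h : Rep x v) : v ≠ 0 := h.1

theorem Rep.eq_smul {x : CPn N} {v w : Fin (N + 1) → ℂ} (h : Rep x v) (h' : Rep x w) :
    ∃ c : ℂ, c ≠ 0 ∧ v = c • w := by
  obtain ⟨hv, e⟩ := h
  obtain ⟨hw, e'⟩ := h'
  obtain ⟨c, hc⟩ := (Projectivization.mk_eq_mk_iff' ℂ v w hv hw).1 (e.trans e'.symm)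
  refine ⟨c, ?_, hc.symm⟩
  rintro rfl
  exact hv (by rw [← hc, zero_smul])

theorem Rep.smul {x : CPn N} {v : Fin (N + 1) → ℂ} (h : Rep x v) {c : ℂ} (hc : c ≠ 0) :
    Rep x (c • v) := by
  obtain ⟨hv, e⟩ := h
  refine ⟨smul_ne_zero hc hv, ?_⟩
  rw [← e]
  exact (Projectivization.mk_eq_mk_iff' ℂ _ _ _ _).2 ⟨c, rfl⟩

section

variable {E : Type*} [NormedAddCommGroup E] [NormedSpace ℂ E]

/-- `F` is a holomorphic lift of `f` near `x` -/
def LocLift (f : E → CPn N) (F : E → Fin (N + 1) → ℂ) (x : E) : Prop :=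
  (∀ᶠ w in 𝓝 x, DifferentiableAt ℂ F w) ∧ ∀ᶠ w in 𝓝 x, Rep (f w) (F w)

/-- the `k`-th homogeneous coordinate of `f` is zero -/
def ZeroK (f : E → CPn N) (k : Fin (N + 1)) : Set E := {y | ∀ v, Rep (f y) v → v k = 0}

theorem exists_coord [FiniteDimensional ℂ E] {f : E → CPn N} (hf : ∀ z, ∃ F, LocLift f F z) :
    ∃ k : Fin (N + 1), ∀ x F, LocLift f F x → ∃ᶠ y in 𝓝 x, F y k ≠ 0 := by
  have hcl : ∀ k, IsClosed (interior (ZeroK f k)) := by
    intro k
    refine isClosed_of_closure_subset fun x hx => ?_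
    obtain ⟨F, h1, h2⟩ := hf x
    obtain ⟨ρ, hρ, hb⟩ := Metric.eventually_nhds_iff_ball.1 (h1.and h2)
    have hFd : DifferentiableOn ℂ (fun y => F y k) (ball x ρ) := fun y hy =>
      ((differentiableAt_pi.1 (hb y hy).1) k).differentiableWithinAt
    have hFa := analyticOnNhd_of_differentiableOn isOpen_ball hFd
    obtain ⟨y, hy, hyZ⟩ := mem_closure_iff.1 hx (ball x ρ) isOpen_ball (mem_ball_self hρ)
    have hzero : ∀ y ∈ ball x ρ, F y k = 0 := by
      by_contra hne
      push Not at hne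
      have h3 := dense_ne_zero isOpen_ball (convex_ball x ρ).isPreconnected hFa hne y hy
      apply h3
      filter_upwards [isOpen_interior.mem_nhds hyZ] with w hw hc
      exact hc.2 (interior_subset hw _ (hb w hc.1).2)
    refine mem_interior.2 ⟨ball x ρ, fun w hw v hv => ?_, isOpen_ball, mem_ball_self hρ⟩
    obtain ⟨c, -, hc⟩ := hv.eq_smul (hb w hw).2
    rw [hc, Pi.smul_apply, hzero w hw, smul_zero]
  have hdi : ∃ k, interior (ZeroK f k) = ∅ := by
    by_contra hne
    push Not at hne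
    have hall : ∀ k, interior (ZeroK f k) = univ := fun k =>
      IsClopen.eq_univ ⟨hcl k, isOpen_interior⟩ (hne k)
    obtain ⟨F, -, h2⟩ := hf 0
    refine h2.self_of_nhds.ne (funext fun k => ?_)
    have : (0 : E) ∈ interior (ZeroK f k) := by rw [hall k]; trivial
    exact interior_subset this _ h2.self_of_nhds
  obtain ⟨k, hk⟩ := hdi
  refine ⟨k, fun x F hF hcon => ?_⟩
  have : x ∈ interior (ZeroK f k) := by
    rw [mem_interior_iff_mem_nhds]
    filter_upwards [hcon, hF.2] with y h1 h2 v hv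
    obtain ⟨c, -, hc⟩ := hv.eq_smul h2
    rw [hc, Pi.smul_apply, not_not.1 h1, smul_zero]
  rw [hk] at this
  exact this

/-- the local data of the coordinate `k` -/
def PK (f : E → CPn N) (k : Fin (N + 1)) (a : E → ℂ) (x : E) : Prop :=
  ∃ F, LocLift f F x ∧ a =ᶠ[𝓝 x] fun w => F w k

theorem LocLift.ev {f : E → CPn N} {F : E → Fin (N + 1) → ℂ} {x : E} (h : LocLift f F x) :
    ∀ᶠ y in 𝓝 x, LocLift f F y := by
  filter_upwards [eventually_eventually_nhds.2 h.1, eventually_eventually_nhds.2 h.2] with y h1 h2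
  exact ⟨h1, h2⟩

theorem locData {f : E → CPn N} {k : Fin (N + 1)}
    (hk : ∀ x F, LocLift f F x → ∃ᶠ y in 𝓝 x, F y k ≠ 0) : LocData (PK f k) where
  hol := by
    rintro a x ⟨F, hF, ha⟩
    filter_upwards [hF.1, eventually_eventually_nhds.2 ha] with y h1 h2
    exact ((differentiableAt_pi.1 h1) k).congr_of_eventuallyEq h2
  ne := by
    rintro a x ⟨F, hF, ha⟩
    refine ((hk x F hF).and_eventually ha).mono ?_
    rintro y ⟨h1, h2⟩
    rw [h2]; exact h1
  ev := by
    rintro a x ⟨F, hF, ha⟩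
    filter_upwards [hF.ev, eventually_eventually_nhds.2 ha] with y h1 h2
    exact ⟨F, h1, h2⟩
  ratio := by
    rintro a a' x ⟨F, hF, ha⟩ ⟨F', hF', ha'⟩
    have hne := hF'.2.self_of_nhds.ne
    obtain ⟨j, hj⟩ := Function.ne_iff.1 hne
    have hj' : F' x j ≠ 0 := hj
    have hc' : ContinuousAt (fun w => F' w j) x :=
      ((differentiableAt_pi.1 hF'.1.self_of_nhds) j).continuousAt
    have hev : ∀ᶠ w in 𝓝 x, F' w j ≠ 0 := hc'.eventually_ne hj'
    refine ⟨fun w => F w j / F' w j, ?_, ?_, ?_⟩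
    · filter_upwards [hF.1, hF'.1, hev] with w h1 h2 h3
      have e1 : DifferentiableAt ℂ (fun w => F w j) w := (differentiableAt_pi.1 h1) j
      have e2 : DifferentiableAt ℂ (fun w => F' w j) w := (differentiableAt_pi.1 h2) j
      simp only [div_eq_mul_inv]
      exact e1.mul (e2.inv h3)
    · obtain ⟨c, hc0, hc⟩ := hF.2.self_of_nhds.eq_smul hF'.2.self_of_nhds
      have : F x j = c * F' x j := by rw [hc]; rfl
      show F x j / F' x j ≠ 0
      rw [this, mul_div_cancel_right₀ _ hj']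
      exact hc0
    · filter_upwards [ha, ha', hev, hF.2, hF'.2] with w h1 h2 h3 h4 h5
      obtain ⟨c, hc0, hc⟩ := h4.eq_smul h5
      have e1 : F w j = c * F' w j := by rw [hc]; rfl
      have e2 : F w k = c * F' w k := by rw [hc]; rfl
      show a w = F w j / F' w j * a' w
      rw [h1, h2, e1, e2, mul_div_cancel_right₀ _ h3]
  mul := by
    rintro a a' u x ⟨F, hF, ha⟩ hu hu0 he
    have hev : ∀ᶠ w in 𝓝 x, u w ≠ 0 := hu.self_of_nhds.continuousAt.eventually_ne hu0
    refine ⟨fun w => u w • F w, ⟨?_, ?_⟩, ?_⟩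
    · filter_upwards [hu, hF.1] with w h1 h2
      exact h1.smul h2
    · filter_upwards [hev, hF.2] with w h1 h2
      exact h2.smul h1
    · filter_upwards [ha, he] with w h1 h2
      show a' w = u w * F w k
      rw [h2, ← h1]; rfl

end

variable {n : ℕ}

/-- **LIFT**: a holomorphic map `ℂⁿ → CPn N` has an entire nowhere vanishing lift -/
theorem lift {f : Cn n → CPn N} (hf : ∀ z, ∃ F, LocLift f F z) :
    ∃ F : Cn n → Fin (N + 1) → ℂ, Differentiable ℂ F ∧ ∀ z, Rep (f z) (F z) := by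
  obtain ⟨k, hk⟩ := exists_coord hf
  have hP := locData hk
  obtain ⟨a, ha⟩ := cousin2_global hP (fun x => by
    obtain ⟨F, hF⟩ := hf x
    exact ⟨fun w => F w k, F, hF, EventuallyEq.rfl⟩)
  choose Φ hΦ haΦ using ha
  have hag : ∀ x, (fun y => Φ y y) =ᶠ[𝓝 x] Φ x := by
    intro x
    filter_upwards [(hΦ x).ev, eventually_eventually_nhds.2 (haΦ x)] with y h1 h2
    by_contra hne
    have c1 : ContinuousAt (Φ y) y := (hΦ y).1.self_of_nhds.continuousAt
    have c2 : ContinuousAt (Φ x) y := h1.1.self_of_nhds.continuousAt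
    have h3 : ∀ᶠ w in 𝓝 y, Φ y w - Φ x w ≠ 0 := (c1.sub c2).eventually_ne (sub_ne_zero.2 hne)
    refine (hP.ne ⟨Φ y, hΦ y, haΦ y⟩) ?_
    filter_upwards [h3, h1.2, (hΦ y).2, haΦ y, h2] with w h4 h5 h6 h7 h8 h9
    obtain ⟨c, hc0, hc⟩ := h6.eq_smul h5
    have e2 : Φ y w k = c * Φ x w k := by rw [hc]; rfl
    have e3 : a w = c * a w := by
      calc a w = Φ y w k := h7
        _ = c * Φ x w k := e2
        _ = c * a w := by rw [h8]
    have e4 : c = 1 := by
      have : (c - 1) * a w = 0 := by rw [sub_mul, one_mul, ← e3, sub_self]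
      rcases mul_eq_zero.1 this with h | h
      · exact sub_eq_zero.1 h
      · exact absurd h h9
    apply h4
    rw [hc, e4, one_smul, sub_self]
  refine ⟨fun y => Φ y y, fun x => ?_, fun x => (hΦ x).2.self_of_nhds⟩
  exact (hΦ x).1.self_of_nhds.congr_of_eventuallyEq (hag x)

/-- LIFT on `Fin n → ℂ` -/
theorem lift_pi {f : (Fin n → ℂ) → CPn N} (hf : ∀ z, ∃ F, LocLift f F z) :
    ∃ F : (Fin n → ℂ) → Fin (N + 1) → ℂ, Differentiable ℂ F ∧ ∀ z, Rep (f z) (F z) := by
  set e : Cn n ≃L[ℂ] (Fin n → ℂ) := EuclideanSpace.equiv (Fin n) ℂ with he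
  obtain ⟨F, hF1, hF2⟩ := lift (f := fun z : Cn n => f (e z)) (fun z => by
    obtain ⟨F, h1, h2⟩ := hf (e z)
    refine ⟨fun w => F (e w), ?_, ?_⟩
    · have := e.continuous.continuousAt.eventually h1
      filter_upwards [this] with w hw
      exact hw.comp w e.differentiableAt
    · exact e.continuous.continuousAt.eventually h2)
  refine ⟨fun z => F (e.symm z), hF1.comp e.symm.differentiable, fun z => ?_⟩
  have := hF2 (e.symm z)
  rwa [e.apply_symm_apply] at this

end Crest.Agent.R272.Lift_297
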