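import Crest.Agent.R272.CpSeg2_338
import Crest.Agent.R272.CpGrp_338
import Crest.Agent.R272.Lift2_297

/-!
# R272, leaf CP-END (helper338): the literal end of S0415

`s0415_of` : from
* `M` compact connected Hausdorff, `A : Atl n M` finite, `PA : Part A`, `P : ProjD A`;
* `ω` real independent with the simplicity clause, `D : TorD ω b` (one embedding of `ℂ² / Λ`);
* `f : C(Fin 2 → ℂ, M)` holomorphic and `Λ`-periodic;
* a period `l₁` whose class has infinite order, such that every period has a non-zero multiple in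
  `ℤ l₁` modulo the periods which die in `M`;
the statement of S0415.
-/

set_option autoImplicit false
set_option linter.unusedSectionVars false

open Set Filter Topology
open Crest.AlgGeometry

namespace Crest.Agent.R272.CpEnd_338

open Crest.Agent.R275.Geo Crest.Agent.R275.Core144 Crest.Agent.R273.Defs_333
open CpTop_338 CpChow_338 CpMan_338 CpTor_338 CpPi_338 CpSeg_338 CpGrp_338
open TLoop_463 TLoopCP_463 Lift_297

noncomputable section

variable {n : ℕ} {M : Type} [TopologicalSpace M] {A : Atl n M}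

/-- holomorphic maps `ℂ² → M` -/
def HolTo (A : Atl n M) (f : (Fin 2 → ℂ) → M) : Prop :=
  ∀ i z, f z ∈ (A.e i).source → DifferentiableAt ℂ (fun w => A.e i (f w)) z

/-- the composition with a projective embedding has an entire lift -/
theorem exists_lift (P : ProjD A) {f : C(Fin 2 → ℂ, M)} (hf : HolTo A f) :
    ∃ G : (Fin 2 → ℂ) → Fin (P.N + 1) → ℂ, Differentiable ℂ G ∧
      ∀ z, ∃ h : G z ≠ 0, CPn.mk (G z) h = toCP P (f z) := by
  obtain ⟨G, hG, hr⟩ := lift_pi (n := 2) (f := fun z => toCP P (f z)) (fun z => by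
    refine ⟨fun w => P.F (ci A (f z)) (f w), ?_, ?_⟩
    · have h1 : ∀ᶠ w in 𝓝 z, f w ∈ (A.e (ci A (f z))).source :=
        f.continuous.continuousAt.eventually
          ((A.e (ci A (f z))).open_source.mem_nhds (ci_mem A (f z)))
      filter_upwards [h1.eventually_nhds] with w hw
      have hw0 : f w ∈ (A.e (ci A (f z))).source := hw.self_of_nhds
      rw [differentiableAt_pi]
      intro k
      have h2 : DifferentiableAt ℂ (fun y => P.F (ci A (f z)) ((A.e (ci A (f z))).symm y) k)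
          (A.e (ci A (f z)) (f w)) := Fdiff P _ ((A.e _).map_source hw0) k
      have h3 := h2.comp w (f := fun w => A.e (ci A (f z)) (f w)) (hf _ w hw0)
      refine h3.congr_of_eventuallyEq ?_
      filter_upwards [hw] with y hy
      simp only [Function.comp_apply, (A.e (ci A (f z))).left_inv hy]
    · have h1 : ∀ᶠ w in 𝓝 z, f w ∈ (A.e (ci A (f z))).source :=
        f.continuous.continuousAt.eventually
          ((A.e (ci A (f z))).open_source.mem_nhds (ci_mem A (f z)))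
      filter_upwards [h1] with w hw
      exact ⟨P.ne _ _ hw, (toCP_eq P hw).symm⟩)
  exact ⟨G, hG, hr⟩

theorem perHom_congr {V Y : Type*} [AddCommGroup V] [Module ℝ V] [TopologicalSpace V]
    [ContinuousAdd V] [ContinuousSMul ℝ V] [TopologicalSpace Y] {Λ Λ' : AddSubgroup V}
    {f f' : C(V, Y)} (h : f = f') (hf : Per f Λ) (hf' : Per f' Λ') (v₀ : V) {l : V}
    (hl : l ∈ Λ) (hl' : l ∈ Λ') :
    (perHom hf v₀ (Multiplicative.ofAdd ⟨l, hl⟩) = 1 ↔
      perHom hf' v₀ (Multiplicative.ofAdd ⟨l, hl'⟩) = 1) ∧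
    (IsOfFinOrder (perHom hf v₀ (Multiplicative.ofAdd ⟨l, hl⟩)) ↔
      IsOfFinOrder (perHom hf' v₀ (Multiplicative.ofAdd ⟨l, hl'⟩))) := by
  subst h
  exact ⟨Iff.rfl, Iff.rfl⟩

instance finite_lattice (ω : Fin 4 → (Fin 2 → ℂ)) :
    Module.Finite ℤ (periodLattice ω).toAddSubgroup := by
  have : Module.Finite ℤ (periodLattice ω) :=
    Module.Finite.iff_fg.2 (Submodule.fg_span (finite_range ω))
  exact Module.Finite.equiv (AddEquiv.refl (periodLattice ω)).toIntLinearEquiv

theorem scale_mem {ω : Fin 4 → (Fin 2 → ℂ)} {n : ℕ} (hn : n ≠ 0) {z : Fin 2 → ℂ} :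
    z ∈ periodLattice (fun i => n • ω i) ↔ ∃ y ∈ periodLattice ω, n • y = z := by
  have hn' : (n : ℂ) ≠ 0 := Nat.cast_ne_zero.2 hn
  rw [mem_scale hn]
  constructor
  · intro h
    refine ⟨_, h, ?_⟩
    rw [← Nat.cast_smul_eq_nsmul ℂ, smul_smul, mul_inv_cancel₀ hn', one_smul]
  · rintro ⟨y, hy, rfl⟩
    rwa [← Nat.cast_smul_eq_nsmul ℂ, smul_smul, inv_mul_cancel₀ hn', one_smul]

theorem scale_le {ω : Fin 4 → (Fin 2 → ℂ)} {n : ℕ} (hn : n ≠ 0) {z : Fin 2 → ℂ}
    (hz : z ∈ periodLattice (fun i => n • ω i)) : z ∈ periodLattice ω := by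
  obtain ⟨y, hy, rfl⟩ := (scale_mem hn).1 hz
  exact (periodLattice ω).smul_mem n hy |> fun h => by simpa using h

theorem scale_li {ω : Fin 4 → (Fin 2 → ℂ)} (hω : LinearIndependent ℝ ω) {n : ℕ} (hn : n ≠ 0) :
    LinearIndependent ℝ (fun i => n • ω i) := by
  have h1 : IsUnit (n : ℝ) := (Nat.cast_ne_zero.2 hn : (n : ℝ) ≠ 0).isUnit
  have h2 := hω.units_smul (fun _ => h1.unit)
  convert h2 using 1
  funext i
  show n • ω i = (n : ℝ) • ω i
  rw [Nat.cast_smul_eq_nsmul]

section Main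

variable [T2Space M] [CompactSpace M] [ConnectedSpace M] [Finite A.ι]

/-- **the literal end of S0415** -/
theorem s0415_of (PA : Part A) (P : ProjD A) {ω : Fin 4 → (Fin 2 → ℂ)}
    (hω : LinearIndependent ℝ ω)
    (hsim : ∀ l m : Fin 2 → ℂ, l ∈ periodLattice ω → m ∈ periodLattice ω → l ≠ 0 →
      ∀ a : ℂ, m = a • l → a.im = 0) {b : ℕ} (D : TorD ω b)
    (f : C(Fin 2 → ℂ, M)) (hf : HolTo A f) (hper : Per f (periodLattice ω).toAddSubgroup)
    (z₀ : Fin 2 → ℂ) (l₁ : (periodLattice ω).toAddSubgroup)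
    (h1 : ¬ IsOfFinOrder (perHom hper z₀ (Multiplicative.ofAdd l₁)))
    (h : ∀ l : (periodLattice ω).toAddSubgroup, ∃ m : ℤ, m ≠ 0 ∧ ∃ k : ℤ,
      perHom hper z₀ (Multiplicative.ofAdd (m • l - k • l₁)) = 1) :
    ∃ (N c : ℕ) (X A : Set (CPn N)), IsSmoothProjVariety c X ∧ IsConnected X ∧
      IsSimpleAbelianSurface A ∧ A ⊆ X ∧
      ∃ x : X, (x : CPn N) ∈ A ∧ ∃ g : FundamentalGroup X x, ¬ IsOfFinOrder g ∧
        loopClassesIn X A x = Set.range (fun k : ℤ => g ^ k) := by
  obtain ⟨nn, hn, l₀, h0, hk⟩ := exists_scale (perHom hper z₀) l₁ h1 h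
  -- the covering torus
  let ω' : Fin 4 → (Fin 2 → ℂ) := fun i => nn • ω i
  have hω' : LinearIndependent ℝ ω' := scale_li hω hn
  have hle : ∀ z, z ∈ periodLattice ω' → z ∈ periodLattice ω := fun z hz => scale_le hn hz
  have hsim' : ∀ l m : Fin 2 → ℂ, l ∈ periodLattice ω' → m ∈ periodLattice ω' → l ≠ 0 →
      ∀ a : ℂ, m = a • l → a.im = 0 := fun l m hl hm => hsim l m (hle l hl) (hle m hm)
  let D1 : TorD ω' b := D.scale hn
  -- the lift of `f`
  obtain ⟨G, hGd, hGr⟩ := exists_lift P hf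
  choose hG0 hG using hGr
  have hGp : ∀ z w : Fin 2 → ℂ, z - w ∈ periodLattice ω' →
      CPn.mk (G z) (hG0 z) = CPn.mk (G w) (hG0 w) := by
    intro z w hzw
    rw [hG, hG]
    have h2 := hper w (z - w) (hle _ hzw)
    rw [add_sub_cancel] at h2
    rw [h2]
  let K : ℕ := P.N * b + P.N + b
  let e : Fin (K + 1) ≃ Fin (P.N + 1) × Fin (b + 1) :=
    (finCongr (by ring : K + 1 = (P.N + 1) * (b + 1))).trans finProdFinEquiv.symm
  let D2 : TorD ω' K := TorD.tensor e G hG0 hGd hGp D1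
  -- the varieties
  let X0 : Set (CPn P.N) := range (toCP P)
  obtain ⟨c0, hc0, hX0⟩ := smooth' PA P
  let X : Set (CPn K) := segX e X0
  have hX : IsSmoothProjVariety (P.N * b + c0) X := segX_smooth e hX0 rfl
  have hXc : IsConnected X := isConnected_segX e X0 (isConnected_toCP P)
  have hpt : ∀ z, D2.map z = segM e (toCP P (f z), D1.map z) := by
    intro z
    rw [← hG z]
    exact (segM_mk e (hG0 z) (D1.ne z)).symm
  have hmem : ∀ z, CPn.mk (D2.F z) (D2.ne z) ∈ X := fun z =>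
    ⟨(toCP P (f z), D1.map z), ⟨⟨f z, rfl⟩, mem_univ _⟩, (hpt z).symm⟩
  -- the map to `M`
  let hM : M ≃ₜ X0 := (isClosedEmbedding_toCP P).isEmbedding.toHomeomorph
  let r : C(X, M) := (⟨hM.symm, hM.symm.continuous⟩ : C(X0, M)).comp (prX e X0)
  have hr : r.comp (par D2.F D2.ne D2.diff.continuous hmem) = f := by
    ext z
    show hM.symm (prX e X0 ⟨CPn.mk (D2.F z) (D2.ne z), hmem z⟩) = f z
    have h2 : (⟨CPn.mk (D2.F z) (D2.ne z), hmem z⟩ : X) =
        toX e X0 (⟨toCP P (f z), ⟨f z, rfl⟩⟩, D1.map z) := Subtype.ext (hpt z)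
    rw [h2, prX_toX, Homeomorph.symm_apply_eq]
    exact Subtype.ext rfl
  have hinj : ∀ x : X, Function.Injective (FundamentalGroup.map r x) := by
    intro x
    have h2 : Function.Injective (FundamentalGroup.map
        (⟨hM.symm, hM.symm.continuous⟩ : C(X0, M)) (prX e X0 x)) :=
      map_injective _ (⟨hM, hM.continuous⟩ : C(M, X0)) (fun z => hM.apply_symm_apply z) _
    intro g g' hgg
    refine map_prX_injective e X0 x (h2 ?_)
    obtain ⟨p, rfl⟩ := exists_path g
    obtain ⟨q, rfl⟩ := exists_path g'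
    exact hgg
  -- transfer of the periods
  let pH := par_per ω' D2.F D2.ne D2.diff.continuous hmem D2.per
  have key : ∀ (l : Fin 2 → ℂ) (hl : l ∈ (periodLattice ω').toAddSubgroup)
      (hl' : l ∈ (periodLattice ω).toAddSubgroup),
      (perHom pH z₀ (Multiplicative.ofAdd ⟨l, hl⟩) = 1 ↔
        perHom hper z₀ (Multiplicative.ofAdd ⟨l, hl'⟩) = 1) ∧
      (IsOfFinOrder (perHom pH z₀ (Multiplicative.ofAdd ⟨l, hl⟩)) ↔
        IsOfFinOrder (perHom hper z₀ (Multiplicative.ofAdd ⟨l, hl'⟩))) := by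
    intro l hl hl'
    have h2 := perHom_congr hr
      (fun v m hm => by
        show r (par D2.F D2.ne D2.diff.continuous hmem (v + m)) = r _
        rw [pH v m hm]) hper z₀ hl hl'
    have h3 := map_perHom pH r z₀ (Multiplicative.ofAdd ⟨l, hl⟩)
    have h4 := hinj (par D2.F D2.ne D2.diff.continuous hmem z₀)
    constructor
    · rw [← h2.1, ← h3]
      constructor
      · intro h5
        rw [h5, map_one]
      · intro h5
        exact h4 (h5.trans (map_one _).symm)
    · rw [← h2.2, ← h3]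
      constructor
      · intro h5
        exact (FundamentalGroup.map r _).isOfFinOrder h5
      · intro h5
        rw [isOfFinOrder_iff_pow_eq_one] at h5 ⊢
        obtain ⟨m, hm, h6⟩ := h5
        refine ⟨m, hm, h4 ?_⟩
        rw [map_pow, h6, map_one]
  have hmul : ∀ y ∈ (periodLattice ω).toAddSubgroup, nn • y ∈ (periodLattice ω').toAddSubgroup :=
    fun y hy => (scale_mem hn).2 ⟨y, hy, rfl⟩
  refine ⟨K, P.N * b + c0, X, range D2.map, hX, hXc, isSimpleAbelianSurface hω' hsim' D2, ?_, ?_⟩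
  · rintro _ ⟨z, rfl⟩
    exact hmem z
  · refine end_of_periods ω' D2.F D2.ne hω' D2.diff.continuous hmem D2.per rfl z₀
      ⟨nn • (l₀ : Fin 2 → ℂ), hmul _ l₀.2⟩ (fun l => ?_) ?_
    · obtain ⟨y, hy, hyl⟩ := (scale_mem hn).1 l.2
      obtain ⟨k, hk'⟩ := hk ⟨y, hy⟩
      refine ⟨k, ?_⟩
      have h2 : (l - k • (⟨nn • (l₀ : Fin 2 → ℂ), hmul _ l₀.2⟩ :
          (periodLattice ω').toAddSubgroup)) = ⟨nn • y - k • nn • (l₀ : Fin 2 → ℂ),
            sub_mem (hmul y hy) (zsmul_mem (hmul _ l₀.2) k)⟩ := by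
        refine Subtype.ext ?_
        show (l : Fin 2 → ℂ) - k • (nn • (l₀ : Fin 2 → ℂ)) = _
        rw [← hyl]
      rw [h2]
      refine ((key _ _ (sub_mem (nsmul_mem hy nn) (zsmul_mem (nsmul_mem l₀.2 nn) k))).1).2 ?_
      exact hk'
    · intro h2
      refine h0 ?_
      exact ((key _ _ (nsmul_mem l₀.2 nn)).2).1 h2

end Main

end

end Crest.Agent.R272.CpEnd_338
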