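import Crest.Agent.R272.CpChow_338
import Crest.Agent.R273.D13_505
import Crest.Agent.R273.Red_333

/-!
# R272 (S0414, S0415), leaf CP-CHOW, part 5 (helper338): Chow without `D2`, and for manifolds

* `d2P (PA : Part A) (P : ProjD A) : D2 A`; `smooth (PA) (P)` : the image of `toCP P` is a smooth
  projective variety of codimension `c`, `c + n = P.N`;
* `projD_of` : the projective data of a manifold `X` (`IsProjective n X` with named `N`, `F`);
* `chow_manifold` : `X` compact connected Hausdorff complex manifold with an injective immersion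
  `φ : X → CPn N` ⟹ `∃ c, c + n = N ∧ IsSmoothProjVariety c (range φ)`.
-/

set_option autoImplicit false
set_option linter.unusedSectionVars false

open Set Filter Topology Complex
open scoped ContDiff Manifold
open Crest.AlgGeometry

namespace Crest.Agent.R272.CpMan_338

open Crest.Agent.R275.Geo Crest.Agent.R275.Core144 Crest.Agent.R275.GC293
open Crest.Agent.R273.Defs_333 Crest.Agent.R273.FS_333 Crest.Agent.R273.Kah_333
open Crest.Agent.R273.RedA_333 Crest.Agent.R273.RedB_333 Crest.Agent.R273.RedC_333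
open Crest.Agent.R273.Red_333
open CpTop_338 CpSub_338 CpChow_338

noncomputable section

universe u

section Atlas

variable {n : ℕ} {M : Type} [TopologicalSpace M] {A : Atl n M} [T2Space M] [CompactSpace M]
  [Finite A.ι]

theorem d2P (PA : Part A) (P : ProjD A) : Crest.Agent.R273.TD3_733.D2 A :=
  Crest.Agent.R273.D13_505.d2 PA (kah (fs P) (fs_pos P))

/-- **Chow's theorem** for a projective embedding of a compact manifold -/
theorem smooth [ConnectedSpace M] (PA : Part A) (P : ProjD A) {c : ℕ} (hc : c + n = P.N) :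
    IsSmoothProjVariety c (range (toCP P)) := toCP_smooth PA (d2P PA P) P hc

theorem smooth' [ConnectedSpace M] (PA : Part A) (P : ProjD A) :
    ∃ c, c + n = P.N ∧ IsSmoothProjVariety c (range (toCP P)) :=
  toCP_smooth' PA (d2P PA P) P

end Atlas

section Manifold

variable {n : ℕ} {M : Type} [TopologicalSpace M] {A : Atl n M} {X : Type u} [TopologicalSpace X]
  [ChartedSpace (Cs n) X]

/-- the projective data on `A` -/
def projD_of (K : Lk A X) {N : ℕ}
    (F : OpenPartialHomeomorph X (Cs n) → Cs n → (Fin (N + 1) → ℂ))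
    (h1 : ∀ e ∈ atlas (Cs n) X, DifferentiableOn ℂ (F e) e.target ∧ ∀ z ∈ e.target, F e z ≠ 0)
    (h2 : ∀ e ∈ atlas (Cs n) X, ∀ e' ∈ atlas (Cs n) X, ∀ x ∈ e.source ∩ e'.source,
      ∃ c : ℂ, F e (e x) = c • F e' (e' x))
    (h3 : ∀ e ∈ atlas (Cs n) X, ∀ e' ∈ atlas (Cs n) X, ∀ x ∈ e.source, ∀ y ∈ e'.source,
      (∃ c : ℂ, F e (e x) = c • F e' (e' y)) → x = y)
    (h4 : ∀ e ∈ atlas (Cs n) X, ∀ z ∈ e.target, ∀ v : Cs n,
      (∃ c : ℂ, fderiv ℂ (F e) z v = c • F e z) → v = 0) : ProjD A where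
  N := N
  F i x := F (K.c i) (K.c i (K.g x))
  hol i k := by
    have h5 : DifferentiableOn ℂ (fun z => F (K.c i) (K.ps i z) k) (A.e i).target := by
      have h6 : DifferentiableOn ℂ (fun z => F (K.c i) (K.ps i z)) (A.e i).target :=
        (h1 _ (K.mem i)).1.comp (K.differentiable_ps i).differentiableOn fun z hz => K.ps_mem hz
      exact differentiableOn_pi.1 h6 k
    refine (h5.mono inter_subset_left).congr fun z hz => ?_
    simp only [K.c_symm hz.1]
  ne i x hx := (h1 _ (K.mem i)).2 _ ((K.c i).map_source (K.src i x hx))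
  tr i j x hx := h2 _ (K.mem i) _ (K.mem j) _ ⟨K.src i x hx.1, K.src j x hx.2⟩
  inj i j x hx y hy hxy :=
    K.g.injective (h3 _ (K.mem i) _ (K.mem j) _ (K.src i x hx) _ (K.src j y hy) hxy)
  imm i z hz v := by
    rintro ⟨c, hc⟩
    have h6 : (fun w => F (K.c i) (K.c i (K.g ((A.e i).symm w)))) =ᶠ[𝓝 z]
        fun w => F (K.c i) (K.ps i w) := by
      filter_upwards [(A.e i).open_target.mem_nhds hz] with w hw
      rw [K.c_symm hw]
    have h7 : HasFDerivAt (F (K.c i)) (fderiv ℂ (F (K.c i)) (K.ps i z)) (K.ps i z) :=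
      ((h1 _ (K.mem i)).1.differentiableAt
        ((K.c i).open_target.mem_nhds (K.ps_mem hz))).hasFDerivAt
    have h8 := (h7.comp z (K.hasFDerivAt_ps i z)).fderiv
    have h9 : fderiv ℂ (fun w => F (K.c i) (K.ps i w)) z =
      (fderiv ℂ (F (K.c i)) (K.ps i z)).comp K.lin := h8
    have h10 := h4 _ (K.mem i) _ (K.ps_mem hz) (K.lin v) ⟨c, by
      rw [h6.fderiv_eq, h9, K.c_symm hz] at hc
      exact hc⟩
    rw [Lk.lin_apply] at h10
    have h11 := (smul_eq_zero.1 h10).resolve_left K.ρ_ne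
    exact (lpE n).map_eq_zero_iff.1 h11

/-- **Chow's theorem for a complex manifold with an injective immersion to `CPn N`** -/
theorem chow_manifold [T2Space X] [CompactSpace X] [ConnectedSpace X]
    [IsManifold 𝓘(ℂ, Cs n) ω X] {N : ℕ}
    (F : OpenPartialHomeomorph X (Cs n) → Cs n → (Fin (N + 1) → ℂ))
    (h1 : ∀ e ∈ atlas (Cs n) X, DifferentiableOn ℂ (F e) e.target ∧ ∀ z ∈ e.target, F e z ≠ 0)
    (h4 : ∀ e ∈ atlas (Cs n) X, ∀ z ∈ e.target, ∀ v : Cs n,
      (∃ c : ℂ, fderiv ℂ (F e) z v = c • F e z) → v = 0)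
    (φ : X → CPn N) (hinj : Function.Injective φ)
    (hφ : ∀ e ∈ atlas (Cs n) X, ∀ x ∈ e.source, ∃ h0 : F e (e x) ≠ 0,
      φ x = CPn.mk (F e (e x)) h0) :
    ∃ c, c + n = N ∧ IsSmoothProjVariety c (range φ) := by
  obtain ⟨M, _, ⟨g⟩⟩ := exists_model n X
  have : T2Space M := g.symm.t2Space
  have : CompactSpace M := g.symm.compactSpace
  have : ConnectedSpace M := g.symm.surjective.connectedSpace g.symm.continuous
  obtain ⟨A, hF, hG, ⟨PA⟩, ⟨K⟩⟩ := exists_lk n g
  have h2 : ∀ e ∈ atlas (Cs n) X, ∀ e' ∈ atlas (Cs n) X, ∀ x ∈ e.source ∩ e'.source,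
      ∃ c : ℂ, F e (e x) = c • F e' (e' x) := by
    intro e he e' he' x hx
    obtain ⟨a0, ha⟩ := hφ e he x hx.1
    obtain ⟨b0, hb⟩ := hφ e' he' x hx.2
    exact (mk_eq_iff a0 b0).1 (ha.symm.trans hb)
  have h3 : ∀ e ∈ atlas (Cs n) X, ∀ e' ∈ atlas (Cs n) X, ∀ x ∈ e.source, ∀ y ∈ e'.source,
      (∃ c : ℂ, F e (e x) = c • F e' (e' y)) → x = y := by
    intro e he e' he' x hx y hy h
    obtain ⟨a0, ha⟩ := hφ e he x hx
    obtain ⟨b0, hb⟩ := hφ e' he' y hy
    exact hinj (ha.trans (((mk_eq_iff a0 b0).2 h).trans hb.symm))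
  let P : ProjD A := projD_of K F h1 h2 h3 h4
  have hr : range (toCP P) = range φ := by
    have h5 : ∀ x, toCP P x = φ (K.g x) := by
      intro x
      obtain ⟨a0, ha⟩ := hφ _ (K.mem (ci A x)) (K.g x) (K.src _ x (ci_mem A x))
      rw [ha]
      rfl
    have h6 : toCP P = φ ∘ K.g := funext h5
    rw [h6]
    exact K.g.surjective.range_comp φ
  obtain ⟨c, hc, hs⟩ := smooth' PA P
  refine ⟨c, hc, ?_⟩
  rw [← hr]
  exact hs

end Manifold

end

end Crest.Agent.R272.CpMan_338
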