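import Mathlib
import Crest.Prelude.Def_RatCurveLoops
import Crest.Agent.R266.P1Poly

/-!
# R272 / CpRat1 (helper423): holomorphic maps from the projective line are binary forms

* `pt b z`: the two affine charts `(1,z)`, `(z,1)` of the parameters of a `RatCurve`;
* `vec_smul`, `deriv_smul`, `euler`, `hasDerivAt_vec`, `tangentPlane_pt`, `tangentPlane_smul`;
* `exists_ratCurve`: two maps `u false, u true : ℂ → CPn N` with local holomorphic non-vanishing
  lifts and `u true z⁻¹ = u false z`, not constant, come from a `RatCurve N`.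
-/

set_option autoImplicit false

open Set Filter Topology
open Crest.AlgGeometry
open Crest.Agent.R266.Rat (Par pev)

namespace Crest.Agent.R272.CpRat423

noncomputable section

/-! ### the two affine charts of the parameters -/

/-- the two affine charts of the parameter line -/
def pt (b : Bool) (z : ℂ) : Fin 2 → ℂ := if b then ![z, 1] else ![1, z]

/-- the index of the moving parameter -/
def mi (b : Bool) : Fin 2 := if b then 0 else 1

@[simp] lemma pt_false (z : ℂ) : pt false z = ![1, z] := rfl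
@[simp] lemma pt_true (z : ℂ) : pt true z = ![z, 1] := rfl

lemma pt_ne (b : Bool) (z : ℂ) : pt b z ≠ 0 := by
  intro h
  cases b
  · have := congrFun h 0
    simp at this
  · have := congrFun h 1
    simp at this

lemma exists_pt {st : Fin 2 → ℂ} (h : st ≠ 0) : ∃ (b : Bool) (z c : ℂ), c ≠ 0 ∧ st = c • pt b z := by
  by_cases h0 : st 0 = 0
  · have h1 : st 1 ≠ 0 := by
      intro h1
      apply h
      funext i
      fin_cases i <;> simp [h0, h1]
    refine ⟨true, 0, st 1, h1, ?_⟩
    funext i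
    fin_cases i <;> simp [h0]
  · refine ⟨false, st 1 / st 0, st 0, h0, ?_⟩
    funext i
    fin_cases i
    · simp
    · simp [mul_div_cancel₀ _ h0]

/-! ### evaluation of forms -/

theorem eval_smul' {σ : Type*} [Fintype σ] {φ : MvPolynomial σ ℂ} {d : ℕ} (h : φ.IsHomogeneous d)
    (c : ℂ) (v : σ → ℂ) : MvPolynomial.eval (c • v) φ = c ^ d * MvPolynomial.eval v φ := by
  rw [MvPolynomial.eval_eq', MvPolynomial.eval_eq', Finset.mul_sum]
  refine Finset.sum_congr rfl fun e he => ?_
  have h1 : ∑ i, e i = d := by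
    have h2 := h (MvPolynomial.mem_support_iff.1 he)
    rw [← h2, Finsupp.weight_apply, Finsupp.sum_fintype]
    · simp
    · intro i
      simp
  have h2 : ∏ i, (c • v) i ^ e i = c ^ d * ∏ i, v i ^ e i := by
    rw [← h1, ← Finset.prod_pow_eq_pow_sum, ← Finset.prod_mul_distrib]
    exact Finset.prod_congr rfl fun i _ => by rw [Pi.smul_apply, smul_eq_mul, mul_pow]
  rw [h2]
  ring

lemma hasDerivAt_pt (b : Bool) (i : Fin 2) (z : ℂ) :
    HasDerivAt (fun w => pt b w i) (if i = mi b then 1 else 0) z := by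
  cases b <;> fin_cases i
  · simpa [mi] using hasDerivAt_const z (1 : ℂ)
  · simpa [mi] using hasDerivAt_id' z
  · simpa [mi] using hasDerivAt_id' z
  · simpa [mi] using hasDerivAt_const z (1 : ℂ)

lemma hasDerivAt_eval (b : Bool) (p : MvPolynomial (Fin 2) ℂ) (z : ℂ) :
    HasDerivAt (fun w => MvPolynomial.eval (pt b w) p)
      (MvPolynomial.eval (pt b z) (MvPolynomial.pderiv (mi b) p)) z := by
  induction p using MvPolynomial.induction_on with
  | C a => simpa using hasDerivAt_const z a
  | add p q hp hq =>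
    simp only [map_add]
    exact hp.fun_add hq
  | mul_X p i hp =>
    have h := hp.fun_mul (hasDerivAt_pt b i z)
    simp only [map_mul, MvPolynomial.eval_X]
    refine h.congr_deriv ?_
    rw [Derivation.leibniz, MvPolynomial.pderiv_X]
    by_cases hi : i = mi b
    · subst hi
      simp
      ring
    · simp [hi, mul_comm]

variable {N : ℕ}

lemma vec_smul (φ : RatCurve N) (c : ℂ) (st : Fin 2 → ℂ) :
    φ.vec (c • st) = c ^ φ.deg • φ.vec st := by
  funext j
  exact eval_smul' (φ.homog j) c st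

lemma deriv_smul (φ : RatCurve N) (i : Fin 2) (c : ℂ) (st : Fin 2 → ℂ) :
    φ.deriv i (c • st) = c ^ (φ.deg - 1) • φ.deriv i st := by
  funext j
  exact eval_smul' (φ.homog j).pderiv c st

lemma euler (φ : RatCurve N) (st : Fin 2 → ℂ) :
    st 0 • φ.deriv 0 st + st 1 • φ.deriv 1 st = (φ.deg : ℂ) • φ.vec st := by
  funext j
  have h := congrArg (MvPolynomial.eval st) (φ.homog j).sum_X_mul_pderiv
  simp only [Fin.sum_univ_two, map_add, map_mul, MvPolynomial.eval_X, map_nsmul] at h
  simpa [RatCurve.deriv, RatCurve.vec, nsmul_eq_mul] using h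

lemma hasDerivAt_vec (φ : RatCurve N) (b : Bool) (z : ℂ) :
    HasDerivAt (fun w => φ.vec (pt b w)) (φ.deriv (mi b) (pt b z)) z := by
  rw [hasDerivAt_pi]
  intro j
  exact hasDerivAt_eval b (φ.form j) z

lemma tangentPlane_smul (φ : RatCurve N) {c : ℂ} (hc : c ≠ 0) (st : Fin 2 → ℂ) :
    φ.tangentPlane (c • st) = φ.tangentPlane st := by
  have hc' : c ^ (φ.deg - 1) ≠ 0 := pow_ne_zero _ hc
  unfold RatCurve.tangentPlane
  apply le_antisymm
  · rw [Submodule.span_le]
    rintro _ ⟨i, rfl⟩
    simp only [deriv_smul]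
    exact Submodule.smul_mem _ _ (Submodule.subset_span ⟨i, rfl⟩)
  · rw [Submodule.span_le]
    rintro _ ⟨i, rfl⟩
    have h : φ.deriv i st = (c ^ (φ.deg - 1))⁻¹ • φ.deriv i (c • st) := by
      rw [deriv_smul, inv_smul_smul₀ hc']
    simp only [h]
    exact Submodule.smul_mem _ _ (Submodule.subset_span ⟨i, rfl⟩)

lemma range_deriv_pt (φ : RatCurve N) (st : Fin 2 → ℂ) :
    (Set.range fun i : Fin 2 => φ.deriv i st) = {φ.deriv 0 st, φ.deriv 1 st} := by
  ext v
  simp only [Set.mem_range, Set.mem_insert_iff, Set.mem_singleton_iff, Fin.exists_fin_two]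
  constructor
  · rintro (h | h)
    · exact Or.inl h.symm
    · exact Or.inr h.symm
  · rintro (h | h)
    · exact Or.inl h.symm
    · exact Or.inr h.symm

/-- the tangent plane in an affine chart: value and derivative -/
lemma tangentPlane_pt (φ : RatCurve N) (b : Bool) (z : ℂ) :
    φ.tangentPlane (pt b z) =
      Submodule.span ℂ {φ.vec (pt b z), φ.deriv (mi b) (pt b z)} := by
  have hd : (φ.deg : ℂ) ≠ 0 := Nat.cast_ne_zero.2 φ.deg_pos.ne'
  have he := euler φ (pt b z)
  unfold RatCurve.tangentPlane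
  rw [range_deriv_pt]
  apply le_antisymm
  · rw [Submodule.span_le]
    intro v hv
    simp only [Set.mem_insert_iff, Set.mem_singleton_iff] at hv
    simp only [SetLike.mem_coe, Submodule.mem_span_pair]
    cases b
    · simp only [pt_false, Matrix.cons_val_zero, Matrix.cons_val_one, one_smul, mi] at he hv ⊢
      rcases hv with rfl | rfl
      · refine ⟨(φ.deg : ℂ), -z, ?_⟩
        simp only [Bool.false_eq_true, if_false]
        rw [← he]
        module
      · exact ⟨0, 1, by simp⟩
    · simp only [pt_true, Matrix.cons_val_zero, Matrix.cons_val_one, one_smul, mi] at he hv ⊢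
      rcases hv with rfl | rfl
      · exact ⟨0, 1, by simp⟩
      · refine ⟨(φ.deg : ℂ), -z, ?_⟩
        simp only [if_true]
        rw [← he]
        module
  · rw [Submodule.span_le]
    intro v hv
    simp only [Set.mem_insert_iff, Set.mem_singleton_iff] at hv
    simp only [SetLike.mem_coe, Submodule.mem_span_pair]
    rcases hv with rfl | rfl
    · refine ⟨(φ.deg : ℂ)⁻¹ * pt b z 0, (φ.deg : ℂ)⁻¹ * pt b z 1, ?_⟩
      rw [mul_smul, mul_smul, ← smul_add, he, inv_smul_smul₀ hd]
    · cases b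
      · exact ⟨0, 1, by simp [mi]⟩
      · exact ⟨1, 0, by simp [mi]⟩

/-- independence of the two partial derivatives in an affine chart -/
lemma linInd_pt (φ : RatCurve N) (b : Bool) (z : ℂ)
    (h : LinearIndependent ℂ ![φ.vec (pt b z), φ.deriv (mi b) (pt b z)]) :
    LinearIndependent ℂ (fun i : Fin 2 => φ.deriv i (pt b z)) := by
  have hd : (φ.deg : ℂ) ≠ 0 := Nat.cast_ne_zero.2 φ.deg_pos.ne'
  have he := euler φ (pt b z)
  have e0 : (fun i : Fin 2 => φ.deriv i (pt b z)) =
      ![φ.deriv 0 (pt b z), φ.deriv 1 (pt b z)] := by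
    funext i
    fin_cases i <;> rfl
  rw [e0, LinearIndependent.pair_iff]
  rw [LinearIndependent.pair_iff] at h
  intro s t hst
  cases b
  · simp only [pt_false, Matrix.cons_val_zero, Matrix.cons_val_one, one_smul, mi,
      Bool.false_eq_true, if_false] at he h hst
    have h0 : φ.deriv 0 ![1, z] = (φ.deg : ℂ) • φ.vec ![1, z] - z • φ.deriv 1 ![1, z] := by
      rw [← he]
      module
    rw [h0] at hst
    obtain ⟨h1, h2⟩ := h (s * φ.deg) (t - s * z) (by rw [← hst]; module)
    have hs : s = 0 := by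
      rcases mul_eq_zero.1 h1 with h | h
      · exact h
      · exact absurd h hd
    refine ⟨hs, ?_⟩
    rw [hs] at h2
    simpa using h2
  · simp only [pt_true, Matrix.cons_val_zero, Matrix.cons_val_one, one_smul, mi,
      if_true] at he h hst
    have h0 : φ.deriv 1 ![z, 1] = (φ.deg : ℂ) • φ.vec ![z, 1] - z • φ.deriv 0 ![z, 1] := by
      rw [← he]
      module
    rw [h0] at hst
    obtain ⟨h1, h2⟩ := h (t * φ.deg) (s - t * z) (by rw [← hst]; module)
    have hs : t = 0 := by
      rcases mul_eq_zero.1 h1 with h | h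
      · exact h
      · exact absurd h hd
    refine ⟨?_, hs⟩
    rw [hs] at h2
    simpa using h2

lemma linInd_smul (φ : RatCurve N) {c : ℂ} (hc : c ≠ 0) (st : Fin 2 → ℂ)
    (h : LinearIndependent ℂ (fun i : Fin 2 => φ.deriv i st)) :
    LinearIndependent ℂ (fun i : Fin 2 => φ.deriv i (c • st)) := by
  have hc' : c ^ (φ.deg - 1) ≠ 0 := pow_ne_zero _ hc
  have h1 := h.units_smul (fun _ => Units.mk0 _ hc')
  have h2 : (fun i : Fin 2 => φ.deriv i (c • st)) =
      (fun _ : Fin 2 => Units.mk0 _ hc') • fun i : Fin 2 => φ.deriv i st := by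
    funext i
    rw [deriv_smul]
    rfl
  rw [h2]
  exact h1

/-! ### the existence theorem -/

/-- `f` is a local holomorphic non-vanishing lift of `u` near `z0` -/
def IsLift (u : ℂ → CPn N) (f : ℂ → Fin (N + 1) → ℂ) (z0 : ℂ) : Prop :=
  AnalyticAt ℂ f z0 ∧ ∀ᶠ z in 𝓝 z0, ∃ h : f z ≠ 0, u z = CPn.mk (f z) h

/-- the binary form with coefficients `a` -/
def bform {d : ℕ} (a : Fin (d + 1) → ℂ) : MvPolynomial (Fin 2) ℂ :=
  ∑ i : Fin (d + 1), MvPolynomial.C (a i) *
    (MvPolynomial.X 0 ^ (d - (i : ℕ)) * MvPolynomial.X 1 ^ (i : ℕ))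

lemma bform_homog {d : ℕ} (a : Fin (d + 1) → ℂ) : (bform a).IsHomogeneous d := by
  unfold bform
  refine MvPolynomial.IsHomogeneous.sum _ _ _ fun i _ => ?_
  have h1 := ((MvPolynomial.isHomogeneous_X_pow (R := ℂ) (0 : Fin 2) (d - (i : ℕ))).mul
    (MvPolynomial.isHomogeneous_X_pow (R := ℂ) (1 : Fin 2) (i : ℕ)))
  have h2 : d - (i : ℕ) + (i : ℕ) = d := Nat.sub_add_cancel (Nat.lt_succ_iff.1 i.2)
  rw [h2] at h1
  simpa using (MvPolynomial.isHomogeneous_C (Fin 2) (a i)).mul h1

lemma eval_bform {d : ℕ} (a : Fin (d + 1) → ℂ) (st : Fin 2 → ℂ) :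
    MvPolynomial.eval st (bform a) = ∑ i, a i * (st 0 ^ (d - (i : ℕ)) * st 1 ^ (i : ℕ)) := by
  simp [bform]

lemma eval_bform_false {d : ℕ} (q : Fin (N + 1) → Fin (d + 1) → ℂ) (z : ℂ) :
    (fun j => MvPolynomial.eval (pt false z) (bform (q j))) = pev q z := by
  funext j
  rw [eval_bform]
  simp [pev]

lemma eval_bform_zero {d : ℕ} (q : Fin (N + 1) → Fin (d + 1) → ℂ) :
    (fun j => MvPolynomial.eval (pt true 0) (bform (q j))) = fun j => q j (Fin.last d) := by
  funext j
  rw [eval_bform, Finset.sum_eq_single (Fin.last d)]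
  · simp
  · intro i _ hi
    have : d - (i : ℕ) ≠ 0 := by
      have h1 : (i : ℕ) < d := by
        rcases (Nat.lt_succ_iff.1 i.2).lt_or_eq with h | h
        · exact h
        · exact absurd (Fin.ext (by simpa using h)) hi
      omega
    simp [this]
  · intro h
    exact absurd (Finset.mem_univ _) h

lemma pt_true_eq {z : ℂ} (hz : z ≠ 0) : pt true z = z • pt false z⁻¹ := by
  funext i
  fin_cases i
  · simp
  · simp [mul_inv_cancel₀ hz]

lemma mk_eq_of_par {v w : Fin (N + 1) → ℂ} (hv : v ≠ 0) (hw : w ≠ 0) (h : Par v w) :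
    CPn.mk v hv = CPn.mk w hw := by
  obtain ⟨i, hi⟩ : ∃ i, w i ≠ 0 := by
    by_contra hcon
    push Not at hcon
    exact hw (funext hcon)
  refine (Projectivization.mk_eq_mk_iff' ℂ _ _ _ _).2 ⟨v i / w i, ?_⟩
  funext j
  have := h i j
  simp only [Pi.smul_apply, smul_eq_mul]
  field_simp
  linear_combination this

lemma mk_eq_of_smul {v w : Fin (N + 1) → ℂ} (hv : v ≠ 0) (hw : w ≠ 0) {c : ℂ} (h : v = c • w) :
    CPn.mk v hv = CPn.mk w hw :=
  (Projectivization.mk_eq_mk_iff' ℂ _ _ _ _).2 ⟨c, h.symm⟩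

/-- **Holomorphic maps from the projective line to projective space are given by binary forms.** -/
theorem exists_ratCurve (u : Bool → ℂ → CPn N) (hl : ∀ b z0, ∃ f, IsLift (u b) f z0)
    (hg : ∀ z : ℂ, z ≠ 0 → u true z⁻¹ = u false z) (hne : ∃ z z', u false z ≠ u false z') :
    ∃ φ : RatCurve N, ∀ b z, u b z = CPn.mk (φ.vec (pt b z)) (φ.noBase _ (pt_ne b z)) := by
  classical
  set c : ℂ → Fin (N + 1) → ℂ := fun z => Projectivization.rep (u false z) with hc
  have hc0 : ∀ z, c z ≠ 0 := fun z => Projectivization.rep_nonzero _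
  have hcmk : ∀ z, CPn.mk (c z) (hc0 z) = u false z := fun z => Projectivization.mk_rep _
  have hlift : ∀ b z0 f, IsLift (u b) f z0 → ∀ᶠ z in 𝓝 z0, ∃ l : ℂ, l ≠ 0 ∧
      Projectivization.rep (u b z) = l • f z := by
    intro b z0 f hf
    filter_upwards [hf.2] with z hz
    obtain ⟨h, hz⟩ := hz
    have h1 : CPn.mk (Projectivization.rep (u b z)) (Projectivization.rep_nonzero _) =
        CPn.mk (f z) h := by
      rw [← hz]; exact Projectivization.mk_rep _
    obtain ⟨a, ha⟩ := (Projectivization.mk_eq_mk_iff ℂ _ _ _ _).1 h1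
    exact ⟨a, a.ne_zero, ha.symm⟩
  obtain ⟨κi, hκi⟩ := hl true 0
  have hκi0 : κi 0 ≠ 0 := hκi.2.self_of_nhds.1
  obtain ⟨d, q, hq, ⟨i, hi⟩, hpar, hpar0⟩ := Crest.Agent.R266.P1.p1_poly_pure c hc0
    (fun z0 => by
      obtain ⟨f, hf⟩ := hl false z0
      exact ⟨f, hf.1, hf.2.self_of_nhds.1, hlift false z0 f hf⟩)
    κi hκi.1 hκi0 (by
      have h1 := hlift true 0 κi hκi
      rw [eventually_nhdsWithin_iff]
      filter_upwards [h1] with w hw hw0
      obtain ⟨l, hl, hw⟩ := hw
      refine ⟨l, hl, ?_⟩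
      have h2 : u false w⁻¹ = u true w := by
        rw [← hg w⁻¹ (inv_ne_zero hw0), inv_inv]
      simp only [hc, h2]
      exact hw)
  have hlast : (fun j => q j (Fin.last d)) ≠ 0 := fun h => hi (congrFun h i)
  have hnb : ∀ st : Fin 2 → ℂ, st ≠ 0 → (fun j => MvPolynomial.eval st (bform (q j))) ≠ 0 := by
    intro st hst
    have hred : ∀ (c : ℂ) (v : Fin 2 → ℂ), (fun j => MvPolynomial.eval (c • v) (bform (q j))) =
        c ^ d • fun j => MvPolynomial.eval v (bform (q j)) := by
      intro c v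
      funext j
      exact eval_smul' (bform_homog (q j)) c v
    obtain ⟨b, z, c, hc, rfl⟩ := exists_pt hst
    rw [hred]
    refine smul_ne_zero (pow_ne_zero _ hc) ?_
    cases b
    · rw [eval_bform_false]
      exact hq z
    · by_cases hz : z = 0
      · rw [hz, eval_bform_zero]
        exact hlast
      · rw [pt_true_eq hz, hred]
        refine smul_ne_zero (pow_ne_zero _ hz) ?_
        rw [eval_bform_false]
        exact hq _
  have hdpos : 0 < d := by
    rcases Nat.eq_zero_or_pos d with h0 | h0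
    · exfalso
      subst h0
      obtain ⟨z, z', hzz⟩ := hne
      apply hzz
      have hconst : ∀ z z', pev q z = pev q z' := by
        intro z z'
        funext j
        simp [pev]
      rw [← hcmk z, ← hcmk z', ← mk_eq_of_par (hq z) (hc0 z) (hpar z),
        ← mk_eq_of_par (hq z') (hc0 z') (hpar z')]
      exact mk_eq_of_smul _ _ (c := 1) (by rw [one_smul]; exact hconst z z')
    · exact h0
  let φ : RatCurve N :=
    { deg := d
      deg_pos := hdpos
      form := fun j => bform (q j)
      homog := fun j => bform_homog (q j)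
      noBase := hnb }
  have hfalse : ∀ z, u false z = CPn.mk (φ.vec (pt false z)) (φ.noBase _ (pt_ne false z)) := by
    intro z
    rw [← hcmk z, ← mk_eq_of_par (hq z) (hc0 z) (hpar z)]
    congr 1
    exact (eval_bform_false q z).symm
  refine ⟨φ, fun b z => ?_⟩
  cases b
  · exact hfalse z
  · by_cases hz : z = 0
    · subst hz
      obtain ⟨h, hu⟩ := hκi.2.self_of_nhds
      rw [hu, ← mk_eq_of_par hlast h hpar0]
      congr 1
      exact (eval_bform_zero q).symm
    · have h1 : u true z = u false z⁻¹ := by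
        rw [← hg z⁻¹ (inv_ne_zero hz), inv_inv]
      rw [h1, hfalse]
      refine (mk_eq_of_smul _ _ (c := z ^ φ.deg) ?_).symm
      rw [← vec_smul, ← pt_true_eq hz]

/-- two lifts of the same germ of curves span the same plane together with their derivatives -/
theorem span_lift {u : ℂ → CPn N} {f g : ℂ → Fin (N + 1) → ℂ} {z0 : ℂ} (hf : IsLift u f z0)
    (hg : IsLift u g z0) :
    Submodule.span ℂ {f z0, deriv f z0} ≤ Submodule.span ℂ {g z0, deriv g z0} := by
  obtain ⟨hf1, hf2⟩ := hf
  obtain ⟨hg1, hg2⟩ := hg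
  obtain ⟨hg0, -⟩ := hg2.self_of_nhds
  obtain ⟨i, hi⟩ : ∃ i, g z0 i ≠ 0 := by
    by_contra hcon
    push Not at hcon
    exact hg0 (funext hcon)
  have hfd := hf1.differentiableAt
  have hgd := hg1.differentiableAt
  have hfi : DifferentiableAt ℂ (fun z => f z i) z0 := (differentiableAt_pi.1 hfd) i
  have hgi : DifferentiableAt ℂ (fun z => g z i) z0 := (differentiableAt_pi.1 hgd) i
  have hev : f =ᶠ[𝓝 z0] fun z => (f z i / g z i) • g z := by
    filter_upwards [hf2, hg2, hgi.continuousAt.eventually_ne hi] with z h1 h2 h3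
    obtain ⟨h1', h1⟩ := h1
    obtain ⟨h2', h2⟩ := h2
    rw [h1] at h2
    obtain ⟨a, ha⟩ := (Projectivization.mk_eq_mk_iff' ℂ _ _ _ _).1 h2
    rw [← ha]
    simp only [Pi.smul_apply, smul_eq_mul, mul_div_assoc, div_self h3, mul_one]
  have hlam : DifferentiableAt ℂ (fun z => f z i / g z i) z0 := hfi.div hgi hi
  have hder : deriv f z0 = (f z0 i / g z0 i) • deriv g z0 +
      deriv (fun z => f z i / g z i) z0 • g z0 := by
    rw [hev.deriv_eq, deriv_fun_smul hlam hgd]
  rw [Submodule.span_le]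
  intro v hv
  simp only [Set.mem_insert_iff, Set.mem_singleton_iff] at hv
  simp only [SetLike.mem_coe, Submodule.mem_span_pair]
  rcases hv with rfl | rfl
  · exact ⟨f z0 i / g z0 i, 0, by rw [zero_smul, add_zero]; exact hev.self_of_nhds.symm⟩
  · exact ⟨deriv (fun z => f z i / g z i) z0, f z0 i / g z0 i, by rw [hder]; exact add_comm _ _⟩

end

end Crest.Agent.R272.CpRat423
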