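import Crest.Agent.R272.CpRat2_423
import Crest.Agent.R272.CpMan_338
import Crest.Agent.R272.CpPi_338

/-!
# R272 / CpRat3 (helper423): the frozen end of S0414

`s0414_of` : S0414 (literally) from a compact connected complex surface `M` (atlas language of
R275 / R273, projective data `P`) with a transversal family of holomorphic rational curves
without triple points, whose union is connected and carries infinitely many classes of loops.
-/

set_option autoImplicit false
set_option maxHeartbeats 400000

open Set Filter Topology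
open Crest.AlgGeometry
open Crest.Agent.R275.Geo Crest.Agent.R275.Core144 Crest.Agent.R273.Defs_333
open Crest.Agent.R272.CpChow_338 Crest.Agent.R272.CpMan_338 Crest.Agent.R272.CpPi_338

namespace Crest.Agent.R272.CpRat423

noncomputable section

/-- the statement S0414 -/
def S0414 : Prop :=
    ∃ (c : ℕ) (X : Set (CPn (c + 2))), IsSmoothProjSurface c X ∧ IsConnected X ∧
      ∃ (k : ℕ) (φ : Fin k → RatCurve (c + 2)),
        RatCurve.IsNodalUnion φ ∧ RatCurve.union φ ⊆ X ∧ IsConnected (RatCurve.union φ) ∧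
        ∃ x : X, (x : CPn (c + 2)) ∈ RatCurve.union φ ∧
          (loopClassesIn X (RatCurve.union φ) x).Infinite

theorem s0414_cast {N c : ℕ} (hc : c + 2 = N) (X : Set (CPn N)) (h1 : IsSmoothProjVariety c X)
    (h2 : IsConnected X) {k : ℕ} (φ : Fin k → RatCurve N) (h3 : RatCurve.IsNodalUnion φ)
    (h4 : RatCurve.union φ ⊆ X) (h5 : IsConnected (RatCurve.union φ)) (x : X)
    (h6 : (x : CPn N) ∈ RatCurve.union φ)
    (h7 : (loopClassesIn X (RatCurve.union φ) x).Infinite) : S0414 := by
  subst hc
  exact ⟨c, X, h1, h2, k, φ, h3, h4, h5, x, h6, h7⟩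

variable {n : ℕ} {M : Type} [TopologicalSpace M]

theorem isCP_toCP {A : Atl n M} (P : ProjD A) : IsCP P (toCP P) := fun _ _ hx => toCP_eq P hx

/-- the homeomorphism of `M` onto its image -/
def homeoR {A : Atl n M} [CompactSpace M] (P : ProjD A) : M ≃ₜ range (toCP P) :=
  (isClosedEmbedding_toCP P).isEmbedding.toHomeomorph

theorem homeoR_val {A : Atl n M} [CompactSpace M] (P : ProjD A) (x : M) :
    (homeoR P x : CPn P.N) = toCP P x := rfl

/-- **The frozen end of S0414.** -/
theorem s0414_of [T2Space M] [CompactSpace M] [ConnectedSpace M] (A : Atl 2 M) [Finite A.ι]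
    (PA : Part A) (P : ProjD A) {k : ℕ} (γ : Fin k → P1C A)
    (ht : ∀ i j, i ≠ j → Trans (γ i) (γ j))
    (h3 : ∀ i j l, i ≠ j → j ≠ l → i ≠ l → (γ i).img ∩ (γ j).img ∩ (γ l).img = ∅)
    (hc : IsConnected (⋃ i, (γ i).img)) (x : M) (hx : x ∈ ⋃ i, (γ i).img)
    (hinf : (loopsIn (⋃ i, (γ i).img) x).Infinite) : S0414 := by
  obtain ⟨φ, hφ, hU⟩ := exists_nodal (isCP_toCP P) γ ht h3
  obtain ⟨c, hcN, hsm⟩ := smooth' PA P
  have hpre : (homeoR P) ⁻¹' (Subtype.val ⁻¹' RatCurve.union φ) = ⋃ i, (γ i).img := by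
    rw [hU]
    ext y
    simp only [mem_preimage, homeoR_val]
    exact (toCP_injective P).mem_set_image
  refine s0414_cast hcN (range (toCP P)) hsm (isConnected_toCP P) φ hφ ?_ ?_ (homeoR P x) ?_ ?_
  · rw [hU]
    exact image_subset_range _ _
  · rw [hU]
    exact hc.image _ (continuous_toCP P).continuousOn
  · rw [hU, homeoR_val]
    exact mem_image_of_mem _ hx
  · rw [loopClassesIn_eq]
    refine infinite_loopsIn (homeoR P) _ x ?_
    rw [hpre]
    exact hinf

end

end Crest.Agent.R272.CpRat423
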