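import Crest.Agent.R272.CpTop_338
import Crest.Agent.R251.SC613

/-!
# R272 (S0415), leaf CP-PI1 (helper338): `CPn N` is simply connected

* `simplyConnected_of_cover` : open cover by sets in which all paths with the same ends are
  homotopic, a common point, path connected intersections;
* `isOpenEmbedding_affineChart`, `simplyConnected_CPn`.
-/

set_option autoImplicit false
set_option linter.unusedSectionVars false

open Set Filter Topology unitInterval
open Crest.AlgGeometry

namespace Crest.Agent.R272.CpSC_338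

open CpTop_338 Crest.Agent.R251.SCB

noncomputable section

section Gen

variable {E : Type*} [TopologicalSpace E]

theorem simplyConnected_of_cover {κ : Type*} (V : κ → Set E) (hV : ∀ i, IsOpen (V i))
    (hc : ∀ y, ∃ i, y ∈ V i) (y₀ : E)
    (hsc : ∀ i (x y : E) (p q : Path x y), (∀ t, p t ∈ V i) → (∀ t, q t ∈ V i) → p.Homotopic q)
    (hpc : ∀ i j, ∀ y ∈ V i ∩ V j, JoinedIn (V i ∩ V j) y₀ y) : SimplyConnectedSpace E := by
  choose c hcy using hc
  let P : ∀ y : E, Path y₀ y := fun y => (hpc (c y) (c y) y ⟨hcy y, hcy y⟩).somePath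
  have hP : ∀ y t, P y t ∈ V (c y) := fun y t =>
    ((hpc (c y) (c y) y ⟨hcy y, hcy y⟩).somePath_mem t).1
  have key : ∀ i y (p : Path y₀ y), (∀ t, p t ∈ V i) → cl (P y) = cl p := by
    intro i y p hp
    have hy : y ∈ V i := by
      have := hp 1
      rwa [p.target] at this
    let r : Path y₀ y := (hpc i (c y) y ⟨hy, hcy y⟩).somePath
    have hr : ∀ t, r t ∈ V i ∩ V (c y) := (hpc i (c y) y ⟨hy, hcy y⟩).somePath_mem
    have h1 : (P y).Homotopic r := hsc (c y) _ _ _ _ (hP y) fun t => (hr t).2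
    have h2 : r.Homotopic p := hsc i _ _ _ _ (fun t => (hr t).1) hp
    exact Quotient.sound (h1.trans h2)
  refine simplyConnected_of (V := V) (Φ := fun y => cl (P y)) ?_ hV fun y => ⟨c y, hcy y⟩
  intro i y y' γ hγ
  have hy : y ∈ V i := by
    have := hγ 0
    rwa [γ.source] at this
  let p : Path y₀ y := (hpc i i y ⟨hy, hy⟩).somePath
  have hp : ∀ t, p t ∈ V i := fun t => ((hpc i i y ⟨hy, hy⟩).somePath_mem t).1
  show cl (P y') = (cl (P y)).trans (cl γ)
  rw [key i y p hp, key i y' (p.trans γ) fun t => ?_]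
  · rfl
  · have h1 : p.trans γ t ∈ range (p.trans γ) := mem_range_self t
    rw [Path.trans_range] at h1
    rcases h1 with ⟨s, hs⟩ | ⟨s, hs⟩
    · rw [← hs]
      exact hp s
    · rw [← hs]
      exact hγ s

/-- paths in the range of an embedding of a simply connected space -/
theorem homotopic_of_embedding {X : Type*} [TopologicalSpace X] [SimplyConnectedSpace X] {f : X → E}
    (hf : IsEmbedding f) {x y : E} (p q : Path x y) (hp : ∀ t, p t ∈ range f)
    (hq : ∀ t, q t ∈ range f) : p.Homotopic q := by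
  obtain ⟨x', hx'⟩ : x ∈ range f := by
    have := hp 0
    rwa [p.source] at this
  obtain ⟨y', hy'⟩ : y ∈ range f := by
    have := hp 1
    rwa [p.target] at this
  subst hx' hy'
  have lift : ∀ r : Path (f x') (f y'), (∀ t, r t ∈ range f) →
      ∃ r' : Path x' y', r'.map hf.continuous = r := by
    intro r hr
    choose g hg using hr
    have hgc : Continuous g := by
      rw [hf.continuous_iff]
      have : f ∘ g = r := funext hg
      rw [this]
      exact r.continuous
    refine ⟨⟨⟨g, hgc⟩, hf.injective ?_, hf.injective ?_⟩, ?_⟩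
    · show f (g 0) = f x'
      rw [hg 0, r.source]
    · show f (g 1) = f y'
      rw [hg 1, r.target]
    · ext t
      exact hg t
  obtain ⟨p', rfl⟩ := lift p hp
  obtain ⟨q', rfl⟩ := lift q hq
  exact (SimplyConnectedSpace.paths_homotopic p' q').map ⟨f, hf.continuous⟩

end Gen

variable {N : ℕ}

theorem isOpenMap_affineChart (j : Fin (N + 1)) : IsOpenMap (CPn.affineChart (N := N) j) := by
  intro U hU
  rw [← isQuotientMap_q.isOpen_preimage]
  have h : q ⁻¹' (CPn.affineChart j '' U) =
      {v : NZ N | v.1 j ≠ 0 ∧ (fun k => v.1 (j.succAbove k) / v.1 j) ∈ U} := by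
    ext v
    constructor
    · rintro ⟨z, hz, h⟩
      have h1 := (mk_eq_affineChart v.2 j z).1 h.symm
      have h2 : (fun k => v.1 (j.succAbove k) / v.1 j) = z := funext fun k => (h1.2 k).symm
      exact ⟨h1.1, by rw [h2]; exact hz⟩
    · rintro ⟨h1, h2⟩
      exact ⟨_, h2, ((mk_eq_affineChart v.2 j _).2 ⟨h1, fun _ => rfl⟩).symm⟩
  rw [h, isOpen_iff_mem_nhds]
  rintro v ⟨h1, h2⟩
  have hc : ∀ k, ContinuousAt (fun v : NZ N => v.1 k) v := fun k =>
    ((continuous_apply k).comp continuous_subtype_val).continuousAt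
  have h3 : ContinuousAt (fun v : NZ N => (fun k => v.1 (j.succAbove k) / v.1 j :
      Fin N → ℂ)) v := continuousAt_pi.2 fun k => (hc _).div (hc j) h1
  filter_upwards [(hc j).eventually_ne h1, h3 (hU.mem_nhds h2)] with w hw1 hw2
  exact ⟨hw1, hw2⟩

theorem isOpenEmbedding_affineChart (j : Fin (N + 1)) :
    IsOpenEmbedding (CPn.affineChart (N := N) j) :=
  .of_continuous_injective_isOpenMap (continuous_affineChart j) (affineChart_injective j)
    (isOpenMap_affineChart j)

theorem mem_range_affineChart {v : Fin (N + 1) → ℂ} (hv : v ≠ 0) (j : Fin (N + 1)) :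
    CPn.mk v hv ∈ range (CPn.affineChart j) ↔ v j ≠ 0 := by
  constructor
  · rintro ⟨z, hz⟩
    exact ((mk_eq_affineChart hv j z).1 hz.symm).1
  · intro h
    exact ⟨_, ((mk_eq_affineChart hv j _).2 ⟨h, fun _ => rfl⟩).symm⟩

theorem ones_ne : (fun _ => 1 : Fin (N + 1) → ℂ) ≠ 0 := fun h => one_ne_zero (congrFun h 0)

/-- the point `[1 : ... : 1]` -/
def pt : CPn N := CPn.mk (fun _ => 1) ones_ne

theorem joined_pt (i j : Fin (N + 1)) (y : CPn N)
    (hy : y ∈ range (CPn.affineChart i) ∩ range (CPn.affineChart j)) :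
    JoinedIn (range (CPn.affineChart i) ∩ range (CPn.affineChart j)) (pt : CPn N) y := by
  obtain ⟨v, hv, rfl⟩ : ∃ (v : Fin (N + 1) → ℂ) (hv : v ≠ 0), CPn.mk v hv = y := by
    obtain ⟨v, hv⟩ := surjective_q y
    exact ⟨v.1, v.2, hv⟩
  obtain ⟨hi, hj⟩ := hy
  rw [mem_range_affineChart] at hi hj
  -- normalise the coordinate `i`
  obtain ⟨w, hw, hwi, hwj, he⟩ : ∃ (w : Fin (N + 1) → ℂ) (hw : w ≠ 0), w i = 1 ∧ w j ≠ 0 ∧
      CPn.mk v hv = CPn.mk w hw := by
    refine ⟨(v i)⁻¹ • v, smul_ne_zero (inv_ne_zero hi) hv, ?_, ?_,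
      (mk_smul hv (inv_ne_zero hi)).symm⟩
    · rw [Pi.smul_apply, smul_eq_mul, inv_mul_cancel₀ hi]
    · rw [Pi.smul_apply, smul_eq_mul]
      exact mul_ne_zero (inv_ne_zero hi) hj
  rw [he]
  have hγ : JoinedIn ({0}ᶜ : Set ℂ) 1 (w j) := by
    have h1 : IsPathConnected ({0}ᶜ : Set ℂ) :=
      isPathConnected_compl_singleton_of_one_lt_rank (by simp) 0
    exact h1.joinedIn _ one_ne_zero _ hwj
  obtain ⟨γ, hγ0⟩ := hγ
  let u : I → Fin (N + 1) → ℂ := fun t k =>
    if k = i then 1 else if k = j then γ t else (1 - (t : ℝ) : ℂ) + (t : ℝ) * w k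
  have hui : ∀ t, u t i = 1 := fun t => if_pos rfl
  have huj : ∀ t, u t j ≠ 0 := by
    intro t
    by_cases hij : j = i
    · rw [hij, hui]
      exact one_ne_zero
    · show (if j = i then (1 : ℂ) else if j = j then γ t else _) ≠ 0
      rw [if_neg hij, if_pos rfl]
      exact hγ0 t
  have hu0 : ∀ t, u t ≠ 0 := fun t h => by
    have := hui t
    rw [h] at this
    exact zero_ne_one this
  have huc : Continuous u := by
    rw [continuous_pi_iff]
    intro k
    show Continuous fun t => if k = i then (1 : ℂ) else if k = j then γ t else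
      (1 - (t : ℝ) : ℂ) + (t : ℝ) * w k
    split_ifs
    · exact continuous_const
    · exact γ.continuous
    · fun_prop
  have h0 : u 0 = fun _ => 1 := by
    funext k
    show (if k = i then (1 : ℂ) else if k = j then γ 0 else
      (1 - ((0 : I) : ℝ) : ℂ) + ((0 : I) : ℝ) * w k) = 1
    split_ifs
    · rfl
    · exact γ.source
    · simp
  have h1 : u 1 = w := by
    funext k
    show (if k = i then (1 : ℂ) else if k = j then γ 1 else
      (1 - ((1 : I) : ℝ) : ℂ) + ((1 : I) : ℝ) * w k) = w k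
    split_ifs with hk hk'
    · rw [hk, hwi]
    · rw [hk', γ.target]
    · simp
  refine ⟨⟨⟨fun t => CPn.mk (u t) (hu0 t), continuous_mk huc hu0⟩, ?_, ?_⟩, fun t => ?_⟩
  · show CPn.mk (u 0) (hu0 0) = pt
    refine (mk_eq_iff _ _).2 ⟨1, ?_⟩
    rw [h0, one_smul]
  · show CPn.mk (u 1) (hu0 1) = CPn.mk w hw
    refine (mk_eq_iff _ _).2 ⟨1, ?_⟩
    rw [h1, one_smul]
  · constructor
    · exact (mem_range_affineChart (hu0 t) i).2 (by rw [hui]; exact one_ne_zero)
    · exact (mem_range_affineChart (hu0 t) j).2 (huj t)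

/-- **`CPn N` is simply connected** -/
instance simplyConnected_CPn : SimplyConnectedSpace (CPn N) := by
  refine simplyConnected_of_cover (fun j : Fin (N + 1) => range (CPn.affineChart j))
    (fun j => (isOpenEmbedding_affineChart j).isOpen_range) (fun y => ?_) pt
    (fun j x y p q hp hq => homotopic_of_embedding (isOpenEmbedding_affineChart j).isEmbedding
      p q hp hq) fun i j y hy => joined_pt i j y hy
  obtain ⟨j, z, hz⟩ := exists_affineChart y
  exact ⟨j, z, hz.symm⟩

end

end Crest.Agent.R272.CpSC_338
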