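import Crest.Agent.R272.CpTor_338
import Crest.Agent.R272.CpSC_338
import Crest.Agent.R272.CpPi_338

/-!
# R272 (S0415), leaf CP-MORPH, part 3 (helper338): the Segre map, topology

`e : Fin (K + 1) ≃ Fin (a + 1) × Fin (b + 1)`, `segM e : CPn a × CPn b → CPn K`:
* `segM_mk`, `segM_injective`, `continuous_segM`, `isClosedEmbedding_segM`;
* `segX e X0` : the image of `X0 × CPn b`; `prX : C(segX e X0, X0)`, `map_prX_injective` on `π₁`.
-/

set_option autoImplicit false
set_option linter.unusedSectionVars false

open Set Filter Topology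
open Crest.AlgGeometry

namespace Crest.Agent.R272.CpSeg_338

open CpTop_338 CpTor_338 CpPi_338

noncomputable section

variable {a b K : ℕ} (e : Fin (K + 1) ≃ Fin (a + 1) × Fin (b + 1))

/-- the Segre map -/
def segM (p : CPn a × CPn b) : CPn K :=
  CPn.mk (tens e (Projectivization.rep p.1) (Projectivization.rep p.2))
    (tens_ne e (Projectivization.rep_nonzero p.1) (Projectivization.rep_nonzero p.2))

theorem segM_mk {u : Fin (a + 1) → ℂ} {v : Fin (b + 1) → ℂ} (hu : u ≠ 0) (hv : v ≠ 0) :
    segM e (CPn.mk u hu, CPn.mk v hv) = CPn.mk (tens e u v) (tens_ne e hu hv) :=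
  (tens_eq_iff e _ _ hu hv).2 ⟨Projectivization.mk_rep _, Projectivization.mk_rep _⟩

theorem exists_mk (x : CPn a) : ∃ (u : Fin (a + 1) → ℂ) (hu : u ≠ 0), x = CPn.mk u hu := by
  obtain ⟨v, rfl⟩ := surjective_q x
  exact ⟨v.1, v.2, rfl⟩

theorem segM_injective : Function.Injective (segM e) := by
  rintro ⟨x, y⟩ ⟨x', y'⟩ h
  obtain ⟨u, hu, rfl⟩ := exists_mk x
  obtain ⟨v, hv, rfl⟩ := exists_mk y
  obtain ⟨u', hu', rfl⟩ := exists_mk x'
  obtain ⟨v', hv', rfl⟩ := exists_mk y'
  rw [segM_mk, segM_mk, tens_eq_iff] at h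
  rw [h.1, h.2]
  all_goals assumption

theorem continuous_segM : Continuous (segM e) := by
  have h1 : IsOpenQuotientMap (Prod.map (q (N := a)) (q (N := b))) :=
    isOpenQuotientMap_q.prodMap isOpenQuotientMap_q
  rw [← h1.continuous_comp_iff]
  have h2 : segM e ∘ Prod.map (q (N := a)) (q (N := b)) = fun p : NZ a × NZ b =>
      CPn.mk (tens e p.1.1 p.2.1) (tens_ne e p.1.2 p.2.2) := by
    funext p
    exact segM_mk e p.1.2 p.2.2
  rw [h2]
  refine continuous_mk (f := fun p : NZ a × NZ b => tens e p.1.1 p.2.1) ?_ _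
  rw [continuous_pi_iff]
  intro k
  exact ((continuous_apply _).comp (continuous_subtype_val.comp continuous_fst)).mul
    ((continuous_apply _).comp (continuous_subtype_val.comp continuous_snd))

theorem isClosedEmbedding_segM : IsClosedEmbedding (segM e) :=
  (continuous_segM e).isClosedEmbedding (segM_injective e)

/-! ### the product with a projective space -/

variable (X0 : Set (CPn a))

/-- the Segre image of `X0 × CPn b` -/
def segX : Set (CPn K) := segM e '' (X0 ×ˢ univ)

/-- the parametrisation -/
def toX (p : X0 × CPn b) : segX e X0 := ⟨segM e (p.1.1, p.2), ⟨(p.1.1, p.2), ⟨p.1.2, mem_univ _⟩, rfl⟩⟩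

theorem continuous_toX : Continuous (toX e X0) :=
  ((continuous_segM e).comp ((continuous_subtype_val.comp continuous_fst).prodMk
    continuous_snd)).subtype_mk _

theorem toX_injective : Function.Injective (toX e X0) := by
  rintro ⟨x, y⟩ ⟨x', y'⟩ h
  have h1 := segM_injective e (congrArg Subtype.val h)
  simp only [Prod.mk.injEq] at h1
  exact Prod.ext (Subtype.ext h1.1) h1.2

theorem toX_surjective : Function.Surjective (toX e X0) := by
  rintro ⟨_, ⟨⟨x, y⟩, ⟨hx, -⟩, rfl⟩⟩
  exact ⟨(⟨x, hx⟩, y), rfl⟩

theorem isInducing_toX : IsInducing (toX e X0) := by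
  have h1 : IsInducing (fun p : X0 × CPn b => segM e (p.1.1, p.2)) :=
    (isClosedEmbedding_segM e).isInducing.comp (IsInducing.subtypeVal.prodMap IsInducing.id)
  exact IsInducing.of_comp (continuous_toX e X0) continuous_subtype_val h1

/-- `X0 × CPn b ≃ₜ segX` -/
def homX : (X0 × CPn b) ≃ₜ segX e X0 :=
  (Equiv.ofBijective (toX e X0) ⟨toX_injective e X0, toX_surjective e X0⟩).toHomeomorphOfIsInducing
    (isInducing_toX e X0)

theorem homX_apply (p : X0 × CPn b) : homX e X0 p = toX e X0 p := rfl

theorem isConnected_segX (h : IsConnected X0) : IsConnected (segX e X0) := by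
  have : ConnectedSpace X0 := isConnected_iff_connectedSpace.1 h
  have : ConnectedSpace (segX e X0) := (homX e X0).surjective.connectedSpace (homX e X0).continuous
  exact isConnected_iff_connectedSpace.2 this

/-- the projection to the first factor -/
def prX : C(segX e X0, X0) := ⟨fun x => ((homX e X0).symm x).1,
  continuous_fst.comp (homX e X0).symm.continuous⟩

theorem prX_toX (p : X0 × CPn b) : prX e X0 (toX e X0 p) = p.1 := by
  show ((homX e X0).symm (homX e X0 p)).1 = p.1
  rw [Homeomorph.symm_apply_apply]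

/-- loops are homotopic as soon as their projections are -/
theorem map_prX_injective (x : segX e X0) :
    Function.Injective (FundamentalGroup.map (prX e X0) x) := by
  intro g g' h
  obtain ⟨p, rfl⟩ := exists_path g
  obtain ⟨q, rfl⟩ := exists_path g'
  rw [map_fromPath, map_fromPath, fromPath_eq] at h
  refine fromPath_eq.2 ?_
  -- the homeomorphism to the product
  let f : C(segX e X0, X0 × CPn b) := ⟨(homX e X0).symm, (homX e X0).symm.continuous⟩
  let r : C(X0 × CPn b, segX e X0) := ⟨homX e X0, (homX e X0).continuous⟩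
  refine homotopic_of_map f r (fun z => (homX e X0).apply_symm_apply z) ?_
  have h1 : ((p.map f.continuous).map continuous_fst).Homotopic
      ((q.map f.continuous).map continuous_fst) := h
  have h2 : ((p.map f.continuous).map continuous_snd).Homotopic
      ((q.map f.continuous).map continuous_snd) :=
    SimplyConnectedSpace.paths_homotopic _ _
  obtain ⟨H1⟩ := h1
  obtain ⟨H2⟩ := h2
  exact ⟨Path.Homotopic.prodHomotopy H1 H2⟩

end

end Crest.Agent.R272.CpSeg_338
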