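import Crest.Agent.R272.CpSeg1_338

/-!
# R272 (S0415), leaf CP-MORPH, part 4 (helper338): the Segre image of `X0 × CPn b` is smooth

`segX_smooth : IsSmoothProjVariety c0 X0 → C = a * b + c0 → IsSmoothProjVariety C (segX e X0)`.
-/

set_option autoImplicit false
set_option linter.unusedSectionVars false

open Set Filter Topology
open Crest.AlgGeometry

namespace Crest.Agent.R272.CpSeg_338

open CpTop_338 CpTor_338 CpPi_338

noncomputable section

variable {a b K : ℕ} (e : Fin (K + 1) ≃ Fin (a + 1) × Fin (b + 1))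

theorem mem_segX {X0 : Set (CPn a)} {w : Fin (K + 1) → ℂ} (hw : w ≠ 0) :
    CPn.mk w hw ∈ segX e X0 ↔ ∃ (u : Fin (a + 1) → ℂ) (hu : u ≠ 0) (v : Fin (b + 1) → ℂ)
      (_ : v ≠ 0), CPn.mk u hu ∈ X0 ∧ w = tens e u v := by
  constructor
  · rintro ⟨⟨x, y⟩, ⟨hx, -⟩, h⟩
    obtain ⟨u, hu, rfl⟩ := exists_mk x
    obtain ⟨v, hv, rfl⟩ := exists_mk y
    rw [segM_mk e hu hv] at h
    obtain ⟨c, hc, h1⟩ := (mk_eq_iff' hw (tens_ne e hu hv)).1 h.symm
    refine ⟨u, hu, c • v, smul_ne_zero hc hv, hx, ?_⟩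
    rw [h1]
    funext k
    simp only [tens, Pi.smul_apply, smul_eq_mul]
    ring
  · rintro ⟨u, hu, v, hv, hx, rfl⟩
    exact ⟨(CPn.mk u hu, CPn.mk v hv), ⟨hx, mem_univ _⟩, segM_mk e hu hv⟩

/-! ### equations -/

/-- the minors -/
def minor (p : (Fin (a + 1) × Fin (b + 1)) × (Fin (a + 1) × Fin (b + 1))) :
    MvPolynomial (Fin (K + 1)) ℂ :=
  MvPolynomial.X (e.symm (p.1.1, p.1.2)) * MvPolynomial.X (e.symm (p.2.1, p.2.2)) -
    MvPolynomial.X (e.symm (p.1.1, p.2.2)) * MvPolynomial.X (e.symm (p.2.1, p.1.2))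

theorem minor_homog (p : (Fin (a + 1) × Fin (b + 1)) × (Fin (a + 1) × Fin (b + 1))) :
    (minor e p).IsHomogeneous 2 :=
  ((MvPolynomial.isHomogeneous_X ℂ _).mul (MvPolynomial.isHomogeneous_X ℂ _)).sub
    ((MvPolynomial.isHomogeneous_X ℂ _).mul (MvPolynomial.isHomogeneous_X ℂ _))

theorem eval_minor (w : Fin (K + 1) → ℂ)
    (p : (Fin (a + 1) × Fin (b + 1)) × (Fin (a + 1) × Fin (b + 1))) :
    MvPolynomial.eval w (minor e p) = w (e.symm (p.1.1, p.1.2)) * w (e.symm (p.2.1, p.2.2)) -
      w (e.symm (p.1.1, p.2.2)) * w (e.symm (p.2.1, p.1.2)) := by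
  simp only [minor, map_sub, map_mul, MvPolynomial.eval_X]

/-- the equation `p` of the column `l` -/
def colP (l : Fin (b + 1)) (p : MvPolynomial (Fin (a + 1)) ℂ) : MvPolynomial (Fin (K + 1)) ℂ :=
  MvPolynomial.rename (fun k => e.symm (k, l)) p

theorem eval_colP (w : Fin (K + 1) → ℂ) (l : Fin (b + 1)) (p : MvPolynomial (Fin (a + 1)) ℂ) :
    MvPolynomial.eval w (colP e l p) = MvPolynomial.eval (fun k => w (e.symm (k, l))) p := by
  unfold colP
  rw [MvPolynomial.eval_rename]
  rfl

theorem segX_alg {X0 : Set (CPn a)}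
    (h : ∃ s : Finset (MvPolynomial (Fin (a + 1)) ℂ), (∀ p ∈ s, ∃ d : ℕ, p.IsHomogeneous d) ∧
      ∀ (v : Fin (a + 1) → ℂ) (hv : v ≠ 0),
        CPn.mk v hv ∈ X0 ↔ ∀ p ∈ s, MvPolynomial.eval v p = 0) :
    ∃ s : Finset (MvPolynomial (Fin (K + 1)) ℂ), (∀ p ∈ s, ∃ d : ℕ, p.IsHomogeneous d) ∧
      ∀ (v : Fin (K + 1) → ℂ) (hv : v ≠ 0),
        CPn.mk v hv ∈ segX e X0 ↔ ∀ p ∈ s, MvPolynomial.eval v p = 0 := by
  classical
  obtain ⟨s, hs1, hs2⟩ := h
  refine ⟨Finset.univ.image (minor e) ∪
    (s ×ˢ (Finset.univ : Finset (Fin (b + 1)))).image (fun q => colP e q.2 q.1), ?_, ?_⟩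
  · intro p hp
    rw [Finset.mem_union, Finset.mem_image, Finset.mem_image] at hp
    rcases hp with ⟨q, -, rfl⟩ | ⟨q, hq, rfl⟩
    · exact ⟨2, minor_homog e q⟩
    · obtain ⟨d, hd⟩ := hs1 q.1 (Finset.mem_product.1 hq).1
      exact ⟨d, MvPolynomial.IsHomogeneous.rename_isHomogeneous hd⟩
  · intro w hw
    rw [mem_segX]
    constructor
    · rintro ⟨u, hu, v, hv, hx, rfl⟩ p hp
      rw [Finset.mem_union, Finset.mem_image, Finset.mem_image] at hp
      rcases hp with ⟨q, -, rfl⟩ | ⟨q, hq, rfl⟩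
      · rw [eval_minor, tens_apply, tens_apply, tens_apply, tens_apply]
        ring
      · have hq1 := (Finset.mem_product.1 hq).1
        obtain ⟨d, hd⟩ := hs1 q.1 hq1
        rw [eval_colP]
        have h1 : (fun k => tens e u v (e.symm (k, q.2))) = v q.2 • u := by
          funext k
          rw [tens_apply, Pi.smul_apply, smul_eq_mul, mul_comm]
        rw [h1, Crest.Agent.R273.Chow_313.eval_smul hd, (hs2 u hu).1 hx q.1 hq1, mul_zero]
    · intro h
      obtain ⟨n0, hn0⟩ := Function.ne_iff.1 hw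
      obtain ⟨p0, rfl⟩ := e.symm.surjective n0
      obtain ⟨i0, j0⟩ := p0
      have hm : ∀ k l, w (e.symm (k, l)) * w (e.symm (i0, j0)) =
          w (e.symm (k, j0)) * w (e.symm (i0, l)) := by
        intro k l
        have h1 := h (minor e ((k, l), (i0, j0))) (Finset.mem_union_left _
          (Finset.mem_image_of_mem _ (Finset.mem_univ _)))
        rw [eval_minor, sub_eq_zero] at h1
        exact h1
      have hu : (fun k => w (e.symm (k, j0))) ≠ 0 := fun h0 => hn0 (congrFun h0 i0)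
      refine ⟨fun k => w (e.symm (k, j0)), hu,
        fun l => w (e.symm (i0, l)) / w (e.symm (i0, j0)), ?_, ?_, ?_⟩
      · intro h0
        have h1 := congrFun h0 j0
        simp only [Pi.zero_apply] at h1
        rw [div_self hn0] at h1
        exact one_ne_zero h1
      · rw [hs2 _ hu]
        intro p hp
        have h1 := h (colP e j0 p) (Finset.mem_union_right _
          (Finset.mem_image.2 ⟨(p, j0), Finset.mem_product.2 ⟨hp, Finset.mem_univ _⟩, rfl⟩))
        rwa [eval_colP] at h1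
      · funext n
        obtain ⟨⟨k, l⟩, rfl⟩ := e.symm.surjective n
        rw [tens_apply, ← mul_div_assoc, eq_div_iff hn0]
        exact hm k l

/-! ### local equations -/

section Loc

variable (J : Fin (K + 1))

/-- the homogeneous coordinate `q` in the affine chart `J` -/
def cw (q : Fin (K + 1)) (z : Fin K → ℂ) : ℂ := (Fin.insertNth J (1 : ℂ) z : Fin (K + 1) → ℂ) q

theorem cw_self (z : Fin K → ℂ) : cw J J z = 1 := Fin.insertNth_apply_same _ _ _

theorem hasFDerivAt_cw (q : Fin (K + 1)) (z : Fin K → ℂ) :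
    ∃ L : (Fin K → ℂ) →L[ℂ] ℂ, HasFDerivAt (cw J q) L z ∧
      ∀ δ : Fin K → ℂ, L δ = (Fin.insertNth J (0 : ℂ) δ : Fin (K + 1) → ℂ) q := by
  refine Fin.succAboveCases J ?_ (fun n => ?_) q
  · refine ⟨0, ?_, fun δ => ?_⟩
    · have h : cw J J = fun _ => (1 : ℂ) := funext fun z => cw_self J z
      rw [h]
      exact hasFDerivAt_const _ _
    · rw [Fin.insertNth_apply_same]
      rfl
  · refine ⟨ContinuousLinearMap.proj n, ?_, fun δ => ?_⟩
    · have h : cw J (J.succAbove n) = fun z : Fin K → ℂ => z n := funext fun z =>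
        Fin.insertNth_apply_succAbove _ _ _ _
      rw [h]
      exact (ContinuousLinearMap.proj (R := ℂ) (φ := fun _ : Fin K => ℂ) n).hasFDerivAt
    · rw [Fin.insertNth_apply_succAbove]
      rfl

theorem diff_cw (q : Fin (K + 1)) : Differentiable ℂ (cw J q) := fun z => by
  obtain ⟨L, h, -⟩ := hasFDerivAt_cw J q z
  exact h.differentiableAt

theorem fderiv_cw (q : Fin (K + 1)) (z δ : Fin K → ℂ) :
    fderiv ℂ (cw J q) z δ = (Fin.insertNth J (0 : ℂ) δ : Fin (K + 1) → ℂ) q := by
  obtain ⟨L, h, h1⟩ := hasFDerivAt_cw J q z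
  rw [h.fderiv, h1]

/-- the coordinates of the point of `X0` -/
def colC (z : Fin K → ℂ) : Fin a → ℂ := fun k =>
  cw J (e.symm ((e J).1.succAbove k, (e J).2)) z

/-- the minors with the pivot `J` -/
def pv (k : Fin a) (l : Fin b) (z : Fin K → ℂ) : ℂ :=
  cw J (e.symm ((e J).1.succAbove k, (e J).2.succAbove l)) z -
    cw J (e.symm ((e J).1.succAbove k, (e J).2)) z *
      cw J (e.symm ((e J).1, (e J).2.succAbove l)) z

theorem mem_chart_iff {X0 : Set (CPn a)} (z : Fin K → ℂ) :
    CPn.affineChart J z ∈ segX e X0 ↔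
      (∀ k l, pv e J k l z = 0) ∧ CPn.affineChart (e J).1 (colC e J z) ∈ X0 := by
  rw [affineChart_eq, mem_segX]
  have hJ : e.symm ((e J).1, (e J).2) = J := by
    rw [Prod.mk.eta, Equiv.symm_apply_apply]
  constructor
  · rintro ⟨u, hu, v, hv, hx, h⟩
    have hc : ∀ k l, cw J (e.symm (k, l)) z = u k * v l := by
      intro k l
      show (Fin.insertNth J (1 : ℂ) z : Fin (K + 1) → ℂ) _ = _
      rw [h, tens_apply]
    have h1 : u (e J).1 * v (e J).2 = 1 := by
      rw [← hc, hJ, cw_self]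
    refine ⟨fun k l => ?_, ?_⟩
    · unfold pv
      rw [hc, hc, hc]
      linear_combination (-(u ((e J).1.succAbove k) * v ((e J).2.succAbove l))) * h1
    · have hui : u (e J).1 ≠ 0 := left_ne_zero_of_mul_eq_one h1
      have h2 : CPn.mk u hu = CPn.affineChart (e J).1 (colC e J z) := by
        rw [mk_eq_affineChart]
        refine ⟨hui, fun k => ?_⟩
        unfold colC
        rw [hc, eq_div_iff hui]
        linear_combination (u ((e J).1.succAbove k)) * h1
      rw [← h2]
      exact hx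
  · rintro ⟨hp, hx⟩
    refine ⟨Fin.insertNth (e J).1 (1 : ℂ) (colC e J z), insertNth_ne _ _,
      Fin.insertNth (e J).2 (1 : ℂ) (fun l => cw J (e.symm ((e J).1, (e J).2.succAbove l)) z),
      insertNth_ne _ _, hx, ?_⟩
    funext n
    obtain ⟨⟨k, l⟩, rfl⟩ := e.symm.surjective n
    rw [tens_apply]
    show cw J (e.symm (k, l)) z = _
    refine Fin.succAboveCases (e J).1 ?_ (fun k => ?_) k
    · refine Fin.succAboveCases (e J).2 ?_ (fun l => ?_) l
      · rw [Fin.insertNth_apply_same, Fin.insertNth_apply_same, hJ, cw_self, mul_one]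
      · rw [Fin.insertNth_apply_same, Fin.insertNth_apply_succAbove, one_mul]
    · refine Fin.succAboveCases (e J).2 ?_ (fun l => ?_) l
      · rw [Fin.insertNth_apply_same, Fin.insertNth_apply_succAbove, mul_one]
        rfl
      · rw [Fin.insertNth_apply_succAbove, Fin.insertNth_apply_succAbove]
        have h1 := hp k l
        unfold pv at h1
        rw [sub_eq_zero] at h1
        exact h1

theorem diff_colC : Differentiable ℂ (colC e J) :=
  differentiable_pi.2 fun k => diff_cw J _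

theorem segX_subm {X0 : Set (CPn a)} {c0 : ℕ}
    (h : ∀ (j : Fin (a + 1)) (z : Fin a → ℂ), CPn.affineChart j z ∈ X0 →
      IsCplxSubmfldAt c0 (CPn.affineChart j ⁻¹' X0) z)
    {C : ℕ} (g : Fin C ≃ (Fin a × Fin b) ⊕ Fin c0) (z : Fin K → ℂ)
    (hz : CPn.affineChart J z ∈ segX e X0) :
    IsCplxSubmfldAt C (CPn.affineChart J ⁻¹' segX e X0) z := by
  obtain ⟨hp, hx⟩ := (mem_chart_iff e J z).1 hz
  obtain ⟨U0, F0, hU0, hzU, hF0, hsur, hS⟩ := h _ _ hx
  have hU : IsOpen (colC e J ⁻¹' U0) := hU0.preimage (diff_colC e J).continuous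
  have hF0d : DifferentiableAt ℂ F0 (colC e J z) := hF0.differentiableAt (hU0.mem_nhds hzU)
  let F : (Fin K → ℂ) → (Fin C → ℂ) := fun z' m =>
    Sum.elim (fun q : Fin a × Fin b => pv e J q.1 q.2 z') (fun m => F0 (colC e J z') m) (g m)
  refine ⟨colC e J ⁻¹' U0, F, hU, hzU, ?_, ?_, ?_⟩
  · intro z' hz'
    rw [differentiableWithinAt_pi]
    intro m
    show DifferentiableWithinAt ℂ (fun z' => Sum.elim (fun q : Fin a × Fin b => pv e J q.1 q.2 z')
      (fun m => F0 (colC e J z') m) (g m)) _ z'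
    rcases g m with q | m
    · exact (((diff_cw J _) z').sub (((diff_cw J _) z').mul ((diff_cw J _) z'))
        ).differentiableWithinAt
    · have h1 : DifferentiableAt ℂ F0 (colC e J z') := hF0.differentiableAt (hU0.mem_nhds hz')
      have h2 : DifferentiableAt ℂ (fun z' => F0 (colC e J z')) z' :=
        DifferentiableAt.comp z' h1 (diff_colC e J z')
      exact ((differentiableAt_pi.1 h2) m).differentiableWithinAt
  · intro y
    obtain ⟨δc, hδc⟩ := hsur (fun m => y (g.symm (Sum.inr m)))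
    -- the direction
    let W : Fin b → ℂ := fun l => cw J (e.symm ((e J).1, (e J).2.succAbove l)) z
    let Δ : Fin (a + 1) → Fin (b + 1) → ℂ := fun k =>
      Fin.insertNth (e J).2 ((Fin.insertNth (e J).1 (0 : ℂ) δc : Fin (a + 1) → ℂ) k)
        (fun l => (Fin.insertNth (e J).1 (0 : ℂ)
          (fun k' => y (g.symm (Sum.inl (k', l))) + δc k' * W l) : Fin (a + 1) → ℂ) k)
    let δ : Fin K → ℂ := fun n => Δ (e (J.succAbove n)).1 (e (J.succAbove n)).2
    have hΔ : ∀ k l, (Fin.insertNth J (0 : ℂ) δ : Fin (K + 1) → ℂ) (e.symm (k, l)) = Δ k l := by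
      have h1 : ∀ q, (Fin.insertNth J (0 : ℂ) δ : Fin (K + 1) → ℂ) q = Δ (e q).1 (e q).2 := by
        intro q
        refine Fin.succAboveCases J ?_ (fun n => ?_) q
        · rw [Fin.insertNth_apply_same]
          show 0 = (Fin.insertNth (e J).2 ((Fin.insertNth (e J).1 (0 : ℂ) δc : Fin (a + 1) → ℂ)
            (e J).1) _ : Fin (b + 1) → ℂ) (e J).2
          rw [Fin.insertNth_apply_same, Fin.insertNth_apply_same]
        · rw [Fin.insertNth_apply_succAbove]
      intro k l
      rw [h1, Equiv.apply_symm_apply]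
    have hΔ1 : ∀ k, Δ ((e J).1.succAbove k) (e J).2 = δc k := by
      intro k
      show (Fin.insertNth (e J).2 _ _ : Fin (b + 1) → ℂ) (e J).2 = _
      rw [Fin.insertNth_apply_same, Fin.insertNth_apply_succAbove]
    have hΔ2 : ∀ l, Δ (e J).1 ((e J).2.succAbove l) = 0 := by
      intro l
      show (Fin.insertNth (e J).2 _ _ : Fin (b + 1) → ℂ) ((e J).2.succAbove l) = _
      rw [Fin.insertNth_apply_succAbove, Fin.insertNth_apply_same]
    have hΔ3 : ∀ k l, Δ ((e J).1.succAbove k) ((e J).2.succAbove l) =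
        y (g.symm (Sum.inl (k, l))) + δc k * W l := by
      intro k l
      show (Fin.insertNth (e J).2 _ _ : Fin (b + 1) → ℂ) ((e J).2.succAbove l) = _
      rw [Fin.insertNth_apply_succAbove, Fin.insertNth_apply_succAbove]
    have hFd : ∀ m, DifferentiableAt ℂ (fun z' => F z' m) z := by
      intro m
      show DifferentiableAt ℂ (fun z' => Sum.elim (fun q : Fin a × Fin b => pv e J q.1 q.2 z')
        (fun m => F0 (colC e J z') m) (g m)) z
      rcases g m with q | m
      · exact ((diff_cw J _) z).sub (((diff_cw J _) z).mul ((diff_cw J _) z))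
      · have h2 : DifferentiableAt ℂ (fun z' => F0 (colC e J z')) z :=
          DifferentiableAt.comp z hF0d (diff_colC e J z)
        exact (differentiableAt_pi.1 h2) m
    refine ⟨δ, funext fun m => ?_⟩
    have h3 := fderiv_pi (h := hFd)
    have h4 : (fun z' => fun m => F z' m) = F := rfl
    rw [h4] at h3
    rw [h3]
    show fderiv ℂ (fun z' => Sum.elim (fun q : Fin a × Fin b => pv e J q.1 q.2 z')
        (fun m => F0 (colC e J z') m) (g m)) z δ = y m
    rcases hgm : g m with q | m'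
    · have hm : m = g.symm (Sum.inl q) := by rw [← hgm, Equiv.symm_apply_apply]
      show fderiv ℂ (fun z' => pv e J q.1 q.2 z') z δ = y m
      have h5 : HasFDerivAt (fun z' => pv e J q.1 q.2 z')
          (fderiv ℂ (cw J (e.symm ((e J).1.succAbove q.1, (e J).2.succAbove q.2))) z -
            (cw J (e.symm ((e J).1.succAbove q.1, (e J).2)) z •
              fderiv ℂ (cw J (e.symm ((e J).1, (e J).2.succAbove q.2))) z +
            cw J (e.symm ((e J).1, (e J).2.succAbove q.2)) z •
              fderiv ℂ (cw J (e.symm ((e J).1.succAbove q.1, (e J).2))) z)) z :=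
        (diff_cw J _ z).hasFDerivAt.sub
          ((diff_cw J _ z).hasFDerivAt.mul (diff_cw J _ z).hasFDerivAt)
      rw [h5.fderiv]
      show fderiv ℂ (cw J (e.symm ((e J).1.succAbove q.1, (e J).2.succAbove q.2))) z δ -
            (cw J (e.symm ((e J).1.succAbove q.1, (e J).2)) z *
              fderiv ℂ (cw J (e.symm ((e J).1, (e J).2.succAbove q.2))) z δ +
            cw J (e.symm ((e J).1, (e J).2.succAbove q.2)) z *
              fderiv ℂ (cw J (e.symm ((e J).1.succAbove q.1, (e J).2))) z δ) = y m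
      rw [fderiv_cw, fderiv_cw, fderiv_cw, hΔ, hΔ, hΔ, hΔ1, hΔ2, hΔ3, hm]
      show y (g.symm (Sum.inl (q.1, q.2))) + δc q.1 * W q.2 - (_ * 0 + W q.2 * δc q.1) = _
      ring
    · have hm : m = g.symm (Sum.inr m') := by rw [← hgm, Equiv.symm_apply_apply]
      show fderiv ℂ (fun z' => F0 (colC e J z') m') z δ = y m
      have h2 : HasFDerivAt (fun z' => F0 (colC e J z'))
          ((fderiv ℂ F0 (colC e J z)).comp (fderiv ℂ (colC e J) z)) z :=
        hF0d.hasFDerivAt.comp z (diff_colC e J z).hasFDerivAt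
      have h6 := ((hasFDerivAt_pi'.1 h2) m').fderiv
      rw [h6]
      have h7 : fderiv ℂ (colC e J) z δ = δc := by
        funext k
        have h8 := fderiv_pi (h := fun k : Fin a =>
          (diff_cw J (e.symm ((e J).1.succAbove k, (e J).2))) z)
        have h9 : (fun z' => fun k => cw J (e.symm ((e J).1.succAbove k, (e J).2)) z') =
          colC e J := rfl
        rw [h9] at h8
        rw [h8]
        show fderiv ℂ (cw J (e.symm ((e J).1.succAbove k, (e J).2))) z δ = δc k
        rw [fderiv_cw, hΔ, hΔ1]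
      show (fderiv ℂ F0 (colC e J z) (fderiv ℂ (colC e J) z δ)) m' = y m
      rw [h7, hδc, hm]
  · ext z'
    constructor
    · rintro ⟨h1, h2⟩
      refine ⟨h2, funext fun m => ?_⟩
      obtain ⟨h3, h4⟩ := (mem_chart_iff e J z').1 h1
      have h5 : F0 (colC e J z') = 0 := by
        have h6 : colC e J z' ∈ CPn.affineChart (e J).1 ⁻¹' X0 ∩ U0 := ⟨h4, h2⟩
        rw [hS] at h6
        exact h6.2
      show Sum.elim (fun q : Fin a × Fin b => pv e J q.1 q.2 z')
        (fun m => F0 (colC e J z') m) (g m) = 0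
      rcases g m with q | m
      · exact h3 q.1 q.2
      · exact congrFun h5 m
    · rintro ⟨h2, h1⟩
      refine ⟨(mem_chart_iff e J z').2 ⟨fun k l => ?_, ?_⟩, h2⟩
      · have h3 := congrFun h1 (g.symm (Sum.inl (k, l)))
        change Sum.elim (fun q : Fin a × Fin b => pv e J q.1 q.2 z')
          (fun m => F0 (colC e J z') m) (g (g.symm (Sum.inl (k, l)))) = 0 at h3
        rwa [Equiv.apply_symm_apply] at h3
      · have h5 : F0 (colC e J z') = 0 := by
          funext m
          have h3 := congrFun h1 (g.symm (Sum.inr m))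
          change Sum.elim (fun q : Fin a × Fin b => pv e J q.1 q.2 z')
            (fun m => F0 (colC e J z') m) (g (g.symm (Sum.inr m))) = 0 at h3
          rwa [Equiv.apply_symm_apply] at h3
        have h6 : colC e J z' ∈ CPn.affineChart (e J).1 ⁻¹' X0 ∩ U0 := by
          rw [hS]
          exact ⟨h2, h5⟩
        exact h6.1

end Loc

/-- **the Segre image of `X0 × CPn b` is a smooth projective variety** -/
theorem segX_smooth {X0 : Set (CPn a)} {c0 : ℕ} (h : IsSmoothProjVariety c0 X0) {C : ℕ}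
    (hC : C = a * b + c0) : IsSmoothProjVariety C (segX e X0) := by
  subst hC
  let g : Fin (a * b + c0) ≃ (Fin a × Fin b) ⊕ Fin c0 :=
    finSumFinEquiv.symm.trans (Equiv.sumCongr finProdFinEquiv.symm (Equiv.refl _))
  exact ⟨segX_alg e h.1, fun J z hz => segX_subm e J h.2 g z hz⟩

end

end Crest.Agent.R272.CpSeg_338
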