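import Crest.Prelude.Def_RatCurveLoops

/-!
# R272 (S0414, S0415), leaf CP-CHOW, part 1 (helper338): topology of the frozen `CPn N`

* `mk_eq_iff`, `mk_eq_iff'` (proportional), `mk_eq_iff_minor`;
* `isOpenQuotientMap_q`, `T2Space (CPn N)`, `CompactSpace (CPn N)`;
* `continuous_mk`, `continuousOn_mk`, `continuous_affineChart`, `affineChart_injective`,
  `exists_affineChart`.
-/

set_option autoImplicit false
set_option linter.unusedSectionVars false

open Set Filter Topology
open Crest.AlgGeometry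

namespace Crest.Agent.R272.CpTop_338

noncomputable section

variable {N : ℕ}

/-- nonzero vectors -/
abbrev NZ (N : ℕ) : Type := {v : Fin (N + 1) → ℂ // v ≠ 0}

/-- the quotient map -/
def q (v : NZ N) : CPn N := CPn.mk v.1 v.2

theorem continuous_q : Continuous (q (N := N)) := continuous_coinduced_rng

theorem surjective_q : Function.Surjective (q (N := N)) := fun x =>
  ⟨⟨Projectivization.rep x, Projectivization.rep_nonzero x⟩, Projectivization.mk_rep x⟩

theorem isQuotientMap_q : IsQuotientMap (q (N := N)) := ⟨⟨rfl⟩, surjective_q⟩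

theorem mk_eq_iff {v w : Fin (N + 1) → ℂ} (hv : v ≠ 0) (hw : w ≠ 0) :
    CPn.mk v hv = CPn.mk w hw ↔ ∃ c : ℂ, v = c • w := by
  refine (Projectivization.mk_eq_mk_iff' ℂ v w hv hw).trans ?_
  exact ⟨fun ⟨a, h⟩ => ⟨a, h.symm⟩, fun ⟨a, h⟩ => ⟨a, h.symm⟩⟩

theorem mk_eq_iff' {v w : Fin (N + 1) → ℂ} (hv : v ≠ 0) (hw : w ≠ 0) :
    CPn.mk v hv = CPn.mk w hw ↔ ∃ c : ℂ, c ≠ 0 ∧ v = c • w := by
  rw [mk_eq_iff]
  constructor
  · rintro ⟨c, h⟩
    refine ⟨c, fun hc => hv ?_, h⟩
    rw [h, hc, zero_smul]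
  · rintro ⟨c, -, h⟩
    exact ⟨c, h⟩

theorem mk_smul {v : Fin (N + 1) → ℂ} (hv : v ≠ 0) {c : ℂ} (hc : c ≠ 0) :
    CPn.mk (c • v) (smul_ne_zero hc hv) = CPn.mk v hv :=
  (mk_eq_iff _ _).2 ⟨c, rfl⟩

theorem prop_iff_minor {v w : Fin (N + 1) → ℂ} (hw : w ≠ 0) :
    (∃ c : ℂ, v = c • w) ↔ ∀ i j, v i * w j = v j * w i := by
  constructor
  · rintro ⟨c, rfl⟩ i j
    simp only [Pi.smul_apply, smul_eq_mul]
    ring
  · intro h
    obtain ⟨k, hk⟩ := Function.ne_iff.1 hw
    refine ⟨v k / w k, funext fun i => ?_⟩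
    rw [Pi.smul_apply, smul_eq_mul, div_mul_eq_mul_div, eq_div_iff hk]
    exact h i k

theorem mk_eq_iff_minor {v w : Fin (N + 1) → ℂ} (hv : v ≠ 0) (hw : w ≠ 0) :
    CPn.mk v hv = CPn.mk w hw ↔ ∀ i j, v i * w j = v j * w i := by
  rw [mk_eq_iff, prop_iff_minor hw]

theorem isOpenMap_q : IsOpenMap (q (N := N)) := by
  intro U hU
  show IsOpen (q '' U)
  rw [← isQuotientMap_q.isOpen_preimage]
  have h : q ⁻¹' (q '' U) = ⋃ c : {c : ℂ // c ≠ 0},
      (fun v : NZ N => (⟨c.1 • v.1, smul_ne_zero c.2 v.2⟩ : NZ N)) ⁻¹' U := by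
    ext v
    simp only [mem_preimage, mem_image, mem_iUnion]
    constructor
    · rintro ⟨w, hw, h⟩
      obtain ⟨c, hc, h1⟩ := (mk_eq_iff' w.2 v.2).1 h
      refine ⟨⟨c, hc⟩, ?_⟩
      have : (⟨c • v.1, smul_ne_zero hc v.2⟩ : NZ N) = w := Subtype.ext h1.symm
      rw [this]
      exact hw
    · rintro ⟨c, hc⟩
      exact ⟨_, hc, mk_smul v.2 c.2⟩
  rw [h]
  refine isOpen_iUnion fun c => hU.preimage ?_
  exact Continuous.subtype_mk (continuous_subtype_val.const_smul c.1) _

theorem isOpenQuotientMap_q : IsOpenQuotientMap (q (N := N)) :=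
  ⟨surjective_q, continuous_q, isOpenMap_q⟩

instance instT2 : T2Space (CPn N) := by
  rw [t2Space_iff_of_isOpenQuotientMap isOpenQuotientMap_q]
  have h : {p : NZ N × NZ N | q p.1 = q p.2} =
      ⋂ (i : Fin (N + 1)) (j : Fin (N + 1)), {p | p.1.1 i * p.2.1 j = p.1.1 j * p.2.1 i} := by
    ext p
    simp only [mem_iInter]
    exact mk_eq_iff_minor p.1.2 p.2.2
  rw [h]
  refine isClosed_iInter fun i => isClosed_iInter fun j => ?_
  have h1 : ∀ i, Continuous fun p : NZ N × NZ N => p.1.1 i := fun i =>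
    (continuous_apply i).comp (continuous_subtype_val.comp continuous_fst)
  have h2 : ∀ i, Continuous fun p : NZ N × NZ N => p.2.1 i := fun i =>
    (continuous_apply i).comp (continuous_subtype_val.comp continuous_snd)
  exact isClosed_eq ((h1 i).mul (h2 j)) ((h1 j).mul (h2 i))

/-! ### continuity of maps to `CPn N` -/

variable {X : Type*} [TopologicalSpace X]

theorem continuous_mk {f : X → Fin (N + 1) → ℂ} (hf : Continuous f) (h0 : ∀ x, f x ≠ 0) :
    Continuous fun x => CPn.mk (f x) (h0 x) :=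
  (continuous_q (N := N)).comp (hf.subtype_mk h0)

/-- continuity at a point of a map given locally by homogeneous coordinates -/
theorem continuousAt_mk {f : X → Fin (N + 1) → ℂ} {g : X → CPn N} {x : X} (hf : ContinuousAt f x)
    (h : ∀ᶠ y in 𝓝 x, ∃ h0 : f y ≠ 0, g y = CPn.mk (f y) h0) : ContinuousAt g x := by
  classical
  obtain ⟨h0, hg⟩ := h.self_of_nhds
  let F : X → NZ N := fun y => if h0 : f y ≠ 0 then ⟨f y, h0⟩ else ⟨f x, ‹f x ≠ 0›⟩
  have hF : ContinuousAt F x := by
    rw [ContinuousAt, tendsto_subtype_rng]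
    have hFx : (F x).1 = f x := by simp only [F, dif_pos h0]
    rw [hFx]
    refine Tendsto.congr' ?_ hf
    filter_upwards [h] with y hy
    obtain ⟨h1, -⟩ := hy
    simp only [F, dif_pos h1]
  have h2 : ContinuousAt (fun y => q (F y)) x := continuous_q.continuousAt.comp hF
  refine h2.congr ?_
  filter_upwards [h] with y hy
  obtain ⟨h1, h3⟩ := hy
  simp only [F, dif_pos h1, h3]
  rfl

/-- continuity of a map which is locally given by continuous homogeneous coordinates -/
theorem continuous_iff_local {g : X → CPn N}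
    (h : ∀ x, ∃ f : X → Fin (N + 1) → ℂ, ContinuousAt f x ∧
      ∀ᶠ y in 𝓝 x, ∃ h0 : f y ≠ 0, g y = CPn.mk (f y) h0) : Continuous g := by
  rw [continuous_iff_continuousAt]
  intro x
  obtain ⟨f, hf, h1⟩ := h x
  exact continuousAt_mk hf h1

/-! ### the affine charts -/

theorem insertNth_ne (j : Fin (N + 1)) (z : Fin N → ℂ) :
    (Fin.insertNth j (1 : ℂ) z : Fin (N + 1) → ℂ) ≠ 0 := by
  intro h
  have h1 := congr_fun h j
  simp at h1

theorem affineChart_eq (j : Fin (N + 1)) (z : Fin N → ℂ) :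
    CPn.affineChart j z = CPn.mk (Fin.insertNth j (1 : ℂ) z) (insertNth_ne j z) := rfl

theorem continuous_affineChart (j : Fin (N + 1)) : Continuous (CPn.affineChart (N := N) j) := by
  refine continuous_mk (f := fun z : Fin N → ℂ => (Fin.insertNth j (1 : ℂ) z : Fin (N + 1) → ℂ))
    ?_ (insertNth_ne j)
  rw [continuous_pi_iff]
  intro i
  refine Fin.succAboveCases j ?_ (fun i => ?_) i
  · simp only [Fin.insertNth_apply_same]
    exact continuous_const
  · simp only [Fin.insertNth_apply_succAbove]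
    exact continuous_apply i

/-- `[v] = chart_j(z)` iff `v = v_j • (z with 1 inserted)` -/
theorem mk_eq_affineChart {v : Fin (N + 1) → ℂ} (hv : v ≠ 0) (j : Fin (N + 1)) (z : Fin N → ℂ) :
    CPn.mk v hv = CPn.affineChart j z ↔ v j ≠ 0 ∧ ∀ k : Fin N, z k = v (j.succAbove k) / v j := by
  rw [affineChart_eq, mk_eq_iff' hv (insertNth_ne j z)]
  constructor
  · rintro ⟨c, hc, h⟩
    have h1 : v j = c := by
      rw [h, Pi.smul_apply, Fin.insertNth_apply_same, smul_eq_mul, mul_one]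
    refine ⟨by rwa [h1], fun k => ?_⟩
    have h2 : v (j.succAbove k) = c * z k := by
      rw [h, Pi.smul_apply, Fin.insertNth_apply_succAbove, smul_eq_mul]
    rw [h2, h1, mul_div_cancel_left₀ _ hc]
  · rintro ⟨h0, h⟩
    refine ⟨v j, h0, funext fun i => ?_⟩
    refine Fin.succAboveCases j ?_ (fun k => ?_) i
    · rw [Pi.smul_apply, Fin.insertNth_apply_same, smul_eq_mul, mul_one]
    · rw [Pi.smul_apply, Fin.insertNth_apply_succAbove, smul_eq_mul, h k, mul_div_cancel₀ _ h0]

theorem affineChart_injective (j : Fin (N + 1)) :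
    Function.Injective (CPn.affineChart (N := N) j) := by
  intro z w h
  rw [affineChart_eq, mk_eq_affineChart] at h
  funext k
  rw [h.2 k, Fin.insertNth_apply_succAbove, Fin.insertNth_apply_same, div_one]

theorem exists_affineChart (x : CPn N) : ∃ j z, x = CPn.affineChart j z := by
  obtain ⟨v, rfl⟩ := surjective_q x
  obtain ⟨j, hj⟩ := Function.ne_iff.1 v.2
  exact ⟨j, fun k => v.1 (j.succAbove k) / v.1 j, (mk_eq_affineChart v.2 j _).2 ⟨hj, fun _ => rfl⟩⟩

/-! ### compactness -/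

instance instCompact : CompactSpace (CPn N) := by
  let S : Type := Metric.sphere (0 : EuclideanSpace ℂ (Fin (N + 1))) 1
  have hS : CompactSpace (Metric.sphere (0 : EuclideanSpace ℂ (Fin (N + 1))) 1) :=
    isCompact_iff_compactSpace.1 (isCompact_sphere _ _)
  have hne : ∀ x : Metric.sphere (0 : EuclideanSpace ℂ (Fin (N + 1))) 1,
      (fun k => (x : EuclideanSpace ℂ (Fin (N + 1))) k) ≠ (0 : Fin (N + 1) → ℂ) := by
    intro x h
    have h1 : ‖(x : EuclideanSpace ℂ (Fin (N + 1)))‖ = 1 := by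
      have := x.2
      rwa [mem_sphere_zero_iff_norm] at this
    have h2 : (x : EuclideanSpace ℂ (Fin (N + 1))) = 0 := by
      ext k
      exact congrFun h k
    rw [h2, norm_zero] at h1
    exact zero_ne_one h1
  let g : Metric.sphere (0 : EuclideanSpace ℂ (Fin (N + 1))) 1 → CPn N := fun x =>
    CPn.mk (fun k => (x : EuclideanSpace ℂ (Fin (N + 1))) k) (hne x)
  have hg : Continuous g := by
    refine continuous_mk (f := fun x : Metric.sphere (0 : EuclideanSpace ℂ (Fin (N + 1))) 1 =>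
      (fun k => (x : EuclideanSpace ℂ (Fin (N + 1))) k : Fin (N + 1) → ℂ)) ?_ hne
    fun_prop
  have hs : Function.Surjective g := by
    intro y
    obtain ⟨v, rfl⟩ := surjective_q y
    let u : EuclideanSpace ℂ (Fin (N + 1)) := WithLp.toLp 2 v.1
    have hu : u ≠ 0 := by
      intro h
      refine v.2 (funext fun k => ?_)
      have : u k = (0 : EuclideanSpace ℂ (Fin (N + 1))) k := by rw [h]
      exact this
    have hn : (‖u‖ : ℂ) ≠ 0 := by
      rw [Complex.ofReal_ne_zero]
      exact norm_ne_zero_iff.2 hu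
    refine ⟨⟨(‖u‖ : ℂ)⁻¹ • u, ?_⟩, ?_⟩
    · rw [mem_sphere_zero_iff_norm, norm_smul, norm_inv, Complex.norm_real, norm_norm,
        inv_mul_cancel₀ (norm_ne_zero_iff.2 hu)]
    · exact (mk_eq_iff _ _).2 ⟨(‖u‖ : ℂ)⁻¹, rfl⟩
  have := isCompact_range hg
  rw [hs.range_eq] at this
  exact ⟨this⟩

end

end Crest.Agent.R272.CpTop_338
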