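import Mathlib
import Crest.Agent.R272.CovOrd_463

/-!
# R272, leaf TORUS-LOOPS (helper463), part 1 (Mathlib only in spirit)

`V` a real topological vector space, `Λ` an additive subgroup, `f : C(V, Y)` with `f (v + l) = f v`
for `l ∈ Λ`:

* `perHom` : `Multiplicative Λ →* FundamentalGroup Y (f v₀)`, `l ↦` class of `t ↦ f (v₀ + t l)`;
* `cls_lp` : every path from `v₀` to `v₀ + l` gives `perHom l`;
* `map_perHom` : naturality;
* `range_perHom_of_lift` / `range_perHom_of_covering` : the loops lying in the image of `f` are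
  exactly the `perHom l`, if `f : V → range f` has path lifting;
* `covering_of_compact` : `Λ` a lattice, `f` injective modulo `Λ`, `Y` Hausdorff ⟹ `V → range f` is a
  covering;
* `exists_zpowers`, `exists_finiteIndex_zpowers` : the group theoretic end of S0415;
* `sublattice` : a finite index subgroup of the period lattice is a period lattice.
-/

set_option autoImplicit false
set_option linter.unusedSectionVars false

open Set Topology Crest.Agent.R272.CovOrd_463

namespace Crest.Agent.R272.TLoop_463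

noncomputable section

local notation "I" => unitInterval

universe u v w

variable {V : Type u} [AddCommGroup V] [Module ℝ V] [TopologicalSpace V] [ContinuousAdd V]
  [ContinuousSMul ℝ V] {Y : Type v} [TopologicalSpace Y] {Z : Type w} [TopologicalSpace Z]

/-- the segment from `v` to `v + l` -/
def seg (v l : V) : Path v (v + l) where
  toFun t := v + (t : ℝ) • l
  continuous_toFun := by fun_prop
  source' := by simp
  target' := by simp

@[simp] theorem seg_apply (v l : V) (t : I) : seg v l t = v + (t : ℝ) • l := rfl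

/-- the loop of `Y` given by a path of `V` whose end points have the same image -/
def lp (f : C(V, Y)) {v w : V} (γ : Path v w) (h : f w = f v) : Path (f v) (f v) :=
  (γ.map f.continuous).cast rfl h.symm

@[simp] theorem lp_apply (f : C(V, Y)) {v w : V} (γ : Path v w) (h : f w = f v) (t : I) :
    lp f γ h t = f (γ t) := rfl

variable (V) in
/-- a real topological vector space is simply connected -/
theorem simplyConn : SimplyConnectedSpace V :=
  haveI : ContractibleSpace V := RealTopologicalVectorSpace.contractibleSpace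
  SimplyConnectedSpace.ofContractible V

theorem cls_lp_eq (f : C(V, Y)) {v w : V} (γ γ' : Path v w) (h : f w = f v) :
    cls (lp f γ h) = cls (lp f γ' h) := by
  have := simplyConn V
  have h1 : γ.Homotopic γ' := SimplyConnectedSpace.paths_homotopic γ γ'
  have h2 : (lp f γ h).Homotopic (lp f γ' h) := (h1.map f).pathCast rfl h.symm
  exact Quotient.sound h2

/-- `f` is `Λ`-periodic -/
def Per (f : C(V, Y)) (Λ : AddSubgroup V) : Prop := ∀ v, ∀ l ∈ Λ, f (v + l) = f v

variable {f : C(V, Y)} {Λ : AddSubgroup V}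

/-- the class of the image of the segment `[v₀, v₀ + l]` -/
def perCls (hf : Per f Λ) (v₀ : V) (l : Λ) : FundamentalGroup Y (f v₀) :=
  cls (lp f (seg v₀ (l : V)) (hf v₀ l l.2))

theorem perCls_eq (hf : Per f Λ) (v₀ : V) (l : Λ) (γ : Path v₀ (v₀ + (l : V))) :
    cls (lp f γ (hf v₀ l l.2)) = perCls hf v₀ l := cls_lp_eq f _ _ _

theorem perCls_zero (hf : Per f Λ) (v₀ : V) : perCls hf v₀ 0 = 1 := by
  have h : lp f (seg v₀ ((0 : Λ) : V)) (hf v₀ _ (0 : Λ).2) = Path.refl (f v₀) := by
    ext t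
    simp
  unfold perCls
  rw [h]
  rfl

theorem perCls_add (hf : Per f Λ) (v₀ : V) (l m : Λ) :
    perCls hf v₀ (l + m) = perCls hf v₀ l * perCls hf v₀ m := by
  -- the path through `v₀ + m`
  have e : v₀ + ((l + m : Λ) : V) = v₀ + (m : V) + (l : V) := by
    push_cast; abel
  let δ : Path v₀ (v₀ + ((l + m : Λ) : V)) :=
    ((seg v₀ (m : V)).trans (seg (v₀ + (m : V)) (l : V))).cast rfl e
  have h1 : lp f δ (hf v₀ _ (l + m).2) =
      (lp f (seg v₀ (m : V)) (hf v₀ m m.2)).trans (lp f (seg v₀ (l : V)) (hf v₀ l l.2)) := by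
    ext t
    rw [lp_apply]
    show f (((seg v₀ (m : V)).trans (seg (v₀ + (m : V)) (l : V))) t) = _
    rw [Path.trans_apply, Path.trans_apply]
    split_ifs with ht
    · rfl
    · rw [lp_apply, seg_apply, seg_apply]
      have : v₀ + (m : V) + (((⟨2 * (t : ℝ) - 1, unitInterval.two_mul_sub_one_mem_iff.2
          ⟨(not_le.1 ht).le, t.2.2⟩⟩ : I) : ℝ)) • (l : V) =
          (v₀ + (((⟨2 * (t : ℝ) - 1, unitInterval.two_mul_sub_one_mem_iff.2
          ⟨(not_le.1 ht).le, t.2.2⟩⟩ : I) : ℝ)) • (l : V)) + (m : V) := by abel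
      rw [this, hf _ _ m.2]
  rw [← perCls_eq hf v₀ (l + m) δ, h1]
  rfl

/-- the period homomorphism -/
def perHom (hf : Per f Λ) (v₀ : V) : Multiplicative Λ →* FundamentalGroup Y (f v₀) where
  toFun l := perCls hf v₀ l.toAdd
  map_one' := perCls_zero hf v₀
  map_mul' l m := perCls_add hf v₀ l.toAdd m.toAdd

theorem perHom_apply (hf : Per f Λ) (v₀ : V) (l : Λ) :
    perHom hf v₀ (Multiplicative.ofAdd l) = cls (lp f (seg v₀ (l : V)) (hf v₀ l l.2)) := rfl

/-- the image of any path from `v₀` to `v₀ + l` -/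
theorem cls_lp (hf : Per f Λ) (v₀ : V) (l : Λ) (γ : Path v₀ (v₀ + (l : V))) :
    cls (lp f γ (hf v₀ l l.2)) = perHom hf v₀ (Multiplicative.ofAdd l) := perCls_eq hf v₀ l γ

/-- the image of any path from `v₀` to a point `w` with `w - v₀ ∈ Λ` -/
theorem cls_lp' (hf : Per f Λ) {v₀ w : V} (hw : w - v₀ ∈ Λ) (γ : Path v₀ w) (h : f w = f v₀) :
    cls (lp f γ h) = perHom hf v₀ (Multiplicative.ofAdd ⟨w - v₀, hw⟩) := by
  have e : v₀ + (w - v₀) = w := by abel
  rw [← cls_lp hf v₀ ⟨w - v₀, hw⟩ (γ.cast rfl e)]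
  rfl

/-- naturality -/
theorem map_perHom (hf : Per f Λ) (g : C(Y, Z)) (v₀ : V) (l : Multiplicative Λ) :
    FundamentalGroup.map g (f v₀) (perHom hf v₀ l) =
      perHom (f := g.comp f) (fun v m hm => by simp [hf v m hm]) v₀ l := rfl

/-- restriction to a subgroup of `Λ` -/
theorem perHom_mono (hf : Per f Λ) {Λ' : AddSubgroup V} (hf' : Per f Λ') (v₀ : V) {l : V}
    (hl : l ∈ Λ) (hl' : l ∈ Λ') :
    perHom hf v₀ (Multiplicative.ofAdd ⟨l, hl⟩) = perHom hf' v₀ (Multiplicative.ofAdd ⟨l, hl'⟩) :=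
  rfl

/-- **loops with a lift** : if the loop `p` lifts to a path of `V` starting at `v₀` and `f` is
injective modulo `Λ`, the class of `p` is a period class -/
theorem cls_mem_range_of_lift (hf : Per f Λ) (hinj : ∀ v w, f v = f w → v - w ∈ Λ) {v₀ : V}
    (p : Path (f v₀) (f v₀)) (q : C(I, V)) (hq0 : q 0 = v₀) (hq : ∀ t, f (q t) = p t) :
    cls p ∈ Set.range (perHom hf v₀) := by
  have h1 : f (q 1) = f v₀ := by rw [hq]; exact p.target
  let γ : Path v₀ (q 1) := ⟨q, hq0, rfl⟩
  refine ⟨Multiplicative.ofAdd ⟨q 1 - v₀, hinj _ _ h1⟩, ?_⟩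
  rw [← cls_lp' hf (hinj _ _ h1) γ h1]
  congr 1
  ext t
  exact hq t

/-- a covering `V → range f` has path lifting for loops lying in `range f` -/
theorem exists_lift_of_covering (hcov : IsCoveringMap (Set.rangeFactorization f)) {v₀ : V}
    (p : Path (f v₀) (f v₀)) (hp : ∀ t, p t ∈ Set.range f) :
    ∃ q : C(I, V), q 0 = v₀ ∧ ∀ t, f (q t) = p t := by
  let p' : C(I, Set.range f) := ⟨fun t => ⟨p t, hp t⟩, by fun_prop⟩
  have h0 : p' 0 = Set.rangeFactorization f v₀ := by
    apply Subtype.ext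
    show p 0 = f v₀
    exact p.source
  refine ⟨hcov.liftPath p' v₀ h0, ?_, ?_⟩
  · exact hcov.liftPath_zero p' v₀ h0
  · intro t
    have h2 := congrFun (hcov.liftPath_lifts p' v₀ h0) t
    exact congrArg Subtype.val h2

/-- **TL2** : the classes of the loops lying in `range f` are exactly the period classes -/
theorem mem_range_perHom_iff (hf : Per f Λ) (hinj : ∀ v w, f v = f w → v - w ∈ Λ)
    (hcov : IsCoveringMap (Set.rangeFactorization f)) (v₀ : V)
    (g : FundamentalGroup Y (f v₀)) :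
    g ∈ Set.range (perHom hf v₀) ↔
      ∃ p : Path (f v₀) (f v₀), (∀ t, p t ∈ Set.range f) ∧ g = cls p := by
  constructor
  · rintro ⟨l, rfl⟩
    exact ⟨lp f (seg v₀ (l.toAdd : V)) (hf v₀ _ l.toAdd.2), fun t => ⟨_, rfl⟩, rfl⟩
  · rintro ⟨p, hp, rfl⟩
    obtain ⟨q, h0, hq⟩ := exists_lift_of_covering hcov p hp
    exact cls_mem_range_of_lift hf hinj p q h0 hq

/-! ### coverings -/

section cov

variable {V : Type u} [AddCommGroup V] [Module ℝ V] [TopologicalSpace V] [IsTopologicalAddGroup V]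
  [ContinuousSMul ℝ V] {f : C(V, Y)} {Λ : AddSubgroup V}

/-- **TL2'** : a periodic map with compact quotient, injective modulo a discrete `Λ`, into a
Hausdorff space is a covering of its image -/
theorem covering_of_compact [T2Space Y] (hf : Per f Λ) (hinj : ∀ v w, f v = f w → v - w ∈ Λ)
    (hdisc : IsDiscrete (Λ : Set V)) {K : Set V} (hK : IsCompact K)
    (hcov : ∀ v, ∃ l ∈ Λ, v + l ∈ K) : IsCoveringMap (Set.rangeFactorization f) := by
  have hper : ∀ a b : V, QuotientAddGroup.leftRel Λ a b → f a = f b := by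
    intro a b hab
    rw [QuotientAddGroup.leftRel_apply] at hab
    have := hf a _ hab
    rw [← this]
    congr 1
    abel
  have : CompactSpace (V ⧸ Λ) := by
    refine ⟨?_⟩
    have h1 : (Set.univ : Set (V ⧸ Λ)) = (QuotientAddGroup.mk : V → V ⧸ Λ) '' K := by
      symm
      rw [Set.eq_univ_iff_forall]
      intro x
      obtain ⟨v, rfl⟩ := QuotientAddGroup.mk_surjective x
      obtain ⟨l, hl, hv⟩ := hcov v
      exact ⟨v + l, hv, by rw [QuotientAddGroup.eq]; simpa using Λ.neg_mem hl⟩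
    rw [h1]
    exact hK.image continuous_quotient_mk'
  let F : V ⧸ Λ → Y := Quotient.lift f hper
  have hF : Continuous F := continuous_quot_lift _ f.continuous
  have hFinj : Function.Injective F := by
    intro x y hxy
    obtain ⟨v, rfl⟩ := QuotientAddGroup.mk_surjective x
    obtain ⟨w, rfl⟩ := QuotientAddGroup.mk_surjective y
    have h2 := hinj w v hxy.symm
    rw [QuotientAddGroup.eq]
    have : -v + w = w - v := by abel
    rwa [this]
  have hemb : IsEmbedding F := (hF.isClosedEmbedding hFinj).isEmbedding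
  have hrange : Set.range F = Set.range f := by
    ext y
    constructor
    · rintro ⟨x, rfl⟩
      obtain ⟨v, rfl⟩ := QuotientAddGroup.mk_surjective x
      exact ⟨v, rfl⟩
    · rintro ⟨v, rfl⟩
      exact ⟨(v : V ⧸ Λ), rfl⟩
  let e : (V ⧸ Λ) ≃ₜ Set.range f := hemb.toHomeomorph.trans (Homeomorph.setCongr hrange)
  have h3 : Set.rangeFactorization f = e ∘ (QuotientAddGroup.mk : V → V ⧸ Λ) := rfl
  rw [h3]
  exact (AddSubgroup.isAddQuotientCoveringMap_of_comm Λ hdisc).isCoveringMap.homeomorph_comp e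

end cov

/-! ### lattices in a finite-dimensional space -/

section lattice

variable {E : Type u} [NormedAddCommGroup E] [NormedSpace ℝ E] [FiniteDimensional ℝ E]
  (L : Submodule ℤ E) [DiscreteTopology L] [IsZLattice ℝ L]

theorem exists_compact_fund :
    ∃ K : Set E, IsCompact K ∧ ∀ v, ∃ l ∈ L.toAddSubgroup, v + l ∈ K := by
  have := ZLattice.module_free ℝ L
  let b := Module.Free.chooseBasis ℤ L
  refine ⟨(b.ofZLatticeBasis ℝ).parallelepiped, (b.ofZLatticeBasis ℝ).parallelepiped.isCompact, ?_⟩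
  intro x
  let x' : L := b.repr.symm (Finsupp.equivFunOnFinite.symm
    fun i ↦ ⌊(b.ofZLatticeBasis ℝ).repr x i⌋)
  refine ⟨((- x' : L) : E), (- x').2, ?_⟩
  simp [parallelepiped_basis_eq, x', Int.floor_le, Int.lt_floor_add_one, le_of_lt,
    add_comm (1 : ℝ)]

/-- covering statement for a lattice in a finite-dimensional space -/
theorem covering_of_lattice [T2Space Y] {f : C(E, Y)} (hf : Per f L.toAddSubgroup)
    (hinj : ∀ v w, f v = f w → v - w ∈ L) : IsCoveringMap (Set.rangeFactorization f) := by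
  obtain ⟨K, hK, hcov⟩ := exists_compact_fund L
  refine covering_of_compact hf hinj ?_ hK hcov
  exact ⟨inferInstanceAs (DiscreteTopology L)⟩

/-- a finite index subgroup of a lattice in `E` is spanned by a real basis -/
theorem sublattice {ι : Type*} [Fintype ι] (ω : ι → E) (hω : LinearIndependent ℝ ω)
    (hcard : Fintype.card ι = Module.finrank ℝ E) (Λ' : AddSubgroup E)
    (hsub : Λ' ≤ (Submodule.span ℤ (Set.range ω)).toAddSubgroup) (n : ℕ) (hn : n ≠ 0)
    (hfin : ∀ l ∈ Submodule.span ℤ (Set.range ω), n • l ∈ Λ') :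
    ∃ ω' : ι → E, LinearIndependent ℝ ω' ∧
      (Submodule.span ℤ (Set.range ω')).toAddSubgroup = Λ' := by
  classical
  let b : Module.Basis ι ℝ E := basisOfLinearIndependentOfCardEqFinrank' ω hω hcard
  have hb : ∀ i, b i = ω i := fun i => by
    simp [b]
  have hbω : Set.range b = Set.range ω := by
    congr 1
    ext i
    exact hb i
  let L0 : Submodule ℤ E := Submodule.span ℤ (Set.range b)
  have hL0 : L0 = Submodule.span ℤ (Set.range ω) := by simp only [L0, hbω]
  let L' : Submodule ℤ E := AddSubgroup.toIntSubmodule Λ'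
  have hL' : L' ≤ L0 := by
    intro x hx
    rw [hL0]
    exact hsub hx
  have : DiscreteTopology L0 := inferInstanceAs
    (DiscreteTopology (Submodule.span ℤ (Set.range b)))
  have : DiscreteTopology L' := by
    refine DiscreteTopology.of_continuous_injective (β := L0)
      (f := Submodule.inclusion hL') ?_ (Submodule.inclusion_injective hL')
    exact continuous_inclusion hL'
  have : IsZLattice ℝ L' := by
    refine ⟨?_⟩
    rw [eq_top_iff, ← b.span_eq, Submodule.span_le]
    rintro _ ⟨i, rfl⟩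
    have h1 : n • b i ∈ Λ' := hfin _ (by rw [← hbω]; exact Submodule.subset_span ⟨i, rfl⟩)
    have h2 : (n : ℝ) • b i ∈ Submodule.span ℝ (L' : Set E) := by
      rw [Nat.cast_smul_eq_nsmul]
      exact Submodule.subset_span h1
    have h3 := Submodule.smul_mem (Submodule.span ℝ (L' : Set E)) ((n : ℝ)⁻¹) h2
    rwa [smul_smul, inv_mul_cancel₀ (by exact_mod_cast hn), one_smul] at h3
  have : Module.Free ℤ L' := ZLattice.module_free ℝ L'
  have : Module.Finite ℤ L' := ZLattice.module_finite ℝ L'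
  have hr : Module.finrank ℤ L' = Fintype.card ι := by
    rw [ZLattice.rank ℝ L', hcard]
  let b0 := Module.Free.chooseBasis ℤ L'
  have hc : Fintype.card (Module.Free.ChooseBasisIndex ℤ L') = Fintype.card ι := by
    rw [← Module.finrank_eq_card_chooseBasisIndex, hr]
  let e : Module.Free.ChooseBasisIndex ℤ L' ≃ ι := Fintype.equivOfCardEq hc
  let b1 : Module.Basis ι ℤ L' := b0.reindex e
  refine ⟨b1.ofZLatticeBasis ℝ L', (b1.ofZLatticeBasis ℝ L').linearIndependent, ?_⟩
  rw [b1.ofZLatticeBasis_span ℝ]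
  rfl

end lattice

/-! ### group theory: the end of S0415 -/

section grp

variable {Λ : Type u} [AddCommGroup Λ] {G : Type v} [Group G]

/-- if `Λ` is generated by the kernel of `φ` and `l₀`, the range of `φ` is `φ(l₀) ^ ℤ` -/
theorem range_eq_zpowers (φ : Multiplicative Λ →* G) (l₀ : Λ)
    (h : ∀ l : Λ, ∃ k : ℤ, φ (Multiplicative.ofAdd (l - k • l₀)) = 1) :
    Set.range φ = Set.range fun k : ℤ => (φ (Multiplicative.ofAdd l₀)) ^ k := by
  ext g
  constructor
  · rintro ⟨l, rfl⟩
    obtain ⟨k, hk⟩ := h l.toAdd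
    refine ⟨k, ?_⟩
    have h1 : l = Multiplicative.ofAdd (l.toAdd - k • l₀) * (Multiplicative.ofAdd l₀) ^ k := by
      rw [← ofAdd_zsmul, ← ofAdd_add, sub_add_cancel]
      rfl
    rw [h1, map_mul, hk, one_mul, map_zpow]
  · rintro ⟨k, rfl⟩
    exact ⟨(Multiplicative.ofAdd l₀) ^ k, map_zpow _ _ _⟩

/-- **TL4** -/
theorem exists_zpowers (φ : Multiplicative Λ →* G) (l₀ : Λ)
    (h : ∀ l : Λ, ∃ k : ℤ, φ (Multiplicative.ofAdd (l - k • l₀)) = 1)
    (h0 : ¬ IsOfFinOrder (φ (Multiplicative.ofAdd l₀))) :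
    ∃ g : G, ¬ IsOfFinOrder g ∧ Set.range φ = Set.range fun k : ℤ => g ^ k :=
  ⟨_, h0, range_eq_zpowers φ l₀ h⟩

/-- the kernel contains `K` and `Λ = K + ℤ l₀` -/
theorem exists_zpowers' (φ : Multiplicative Λ →* G) (l₀ : Λ) (K : AddSubgroup Λ)
    (hK : ∀ l ∈ K, φ (Multiplicative.ofAdd l) = 1)
    (h : K ⊔ AddSubgroup.zmultiples l₀ = ⊤)
    (h0 : ¬ IsOfFinOrder (φ (Multiplicative.ofAdd l₀))) :
    ∃ g : G, ¬ IsOfFinOrder g ∧ Set.range φ = Set.range fun k : ℤ => g ^ k := by
  refine exists_zpowers φ l₀ (fun l => ?_) h0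
  have hl : l ∈ K ⊔ AddSubgroup.zmultiples l₀ := by rw [h]; trivial
  obtain ⟨k, hk, m, hm, rfl⟩ := AddSubgroup.mem_sup.1 hl
  obtain ⟨j, rfl⟩ := AddSubgroup.mem_zmultiples_iff.1 hm
  exact ⟨j, by rw [add_sub_cancel_right]; exact hK k hk⟩

/-- **sublattice version**: `m • l ∈ K + ℤ l₀` for all `l` (rank one quotient) and `φ(l₀)` of infinite
order: on the finite index subgroup `n Λ + ℤ l₀` (`n` a suitable multiple) the image is infinite
cyclic. Here in the form: `Λ'` any subgroup contained in `K + ℤ l₀` and containing `l₀`. -/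
theorem range_restrict_eq_zpowers (φ : Multiplicative Λ →* G) (l₀ : Λ) (Λ' : AddSubgroup Λ)
    (hl₀ : l₀ ∈ Λ')
    (h : ∀ l ∈ Λ', ∃ k : ℤ, φ (Multiplicative.ofAdd (l - k • l₀)) = 1) :
    (fun l : Λ' => φ (Multiplicative.ofAdd (l : Λ))) '' Set.univ =
      Set.range fun k : ℤ => (φ (Multiplicative.ofAdd l₀)) ^ k := by
  ext g
  constructor
  · rintro ⟨⟨l, hl⟩, -, rfl⟩
    obtain ⟨k, hk⟩ := h l hl
    refine ⟨k, ?_⟩
    have h1 : Multiplicative.ofAdd l =
        Multiplicative.ofAdd (l - k • l₀) * (Multiplicative.ofAdd l₀) ^ k := by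
      rw [← ofAdd_zsmul, ← ofAdd_add, sub_add_cancel]
    show _ = φ (Multiplicative.ofAdd l)
    rw [h1, map_mul, hk, one_mul, map_zpow]
  · rintro ⟨k, rfl⟩
    refine ⟨⟨k • l₀, Λ'.zsmul_mem hl₀ k⟩, trivial, ?_⟩
    show φ (Multiplicative.ofAdd (k • l₀)) = _
    rw [ofAdd_zsmul, map_zpow]

end grp

end

end Crest.Agent.R272.TLoop_463
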