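import Mathlib
import Crest.Agent.R272.TLoop_463

/-!
# R272, leaf TORUS-LOOPS (helper463), part 2: the frozen `CPn N`

* `T2Space (CPn N)`, `CompactSpace (CPn N)`, `PathConnectedSpace (CPn N)`;
* `continuous_mk` : `z ↦ [F z]` is continuous; `continuousOn_mk`;
* `toCP` : the continuous map `ℂ² → CPn N` of the data `(ω, F)` in `IsSimpleAbelianSurface`;
* `loopClassesIn_torus` : for a frozen torus `A ⊆ X` the loop classes are the range of the period
  homomorphism `periodLattice ω → FundamentalGroup X x`.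
-/

set_option autoImplicit false
set_option linter.unusedSectionVars false

open Set Topology Crest.AlgGeometry Crest.Agent.R272.CovOrd_463 Crest.Agent.R272.TLoop_463

namespace Crest.Agent.R272.TLoopCP_463

noncomputable section

local notation "I" => unitInterval

variable {N : ℕ}

/-- non-zero vectors -/
abbrev NZ (N : ℕ) : Type := {v : Fin (N + 1) → ℂ // v ≠ 0}

/-- the projection from non-zero vectors -/
def pr (N : ℕ) (v : NZ N) : CPn N := CPn.mk v.1 v.2

theorem continuous_pr : Continuous (pr N) := continuous_coinduced_rng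

theorem pr_surjective : Function.Surjective (pr N) := by
  intro x
  induction x using Projectivization.ind with
  | h v hv => exact ⟨⟨v, hv⟩, rfl⟩

theorem isQuotientMap_pr : IsQuotientMap (pr N) :=
  (isQuotientMap_iff _).2 ⟨⟨rfl⟩, pr_surjective⟩

theorem mk_eq_mk_iff {v w : Fin (N + 1) → ℂ} (hv : v ≠ 0) (hw : w ≠ 0) :
    CPn.mk v hv = CPn.mk w hw ↔ ∃ a : ℂ, a • w = v :=
  Projectivization.mk_eq_mk_iff' ℂ v w hv hw

/-- proportionality is detected by the 2 × 2 minors -/
theorem mk_eq_of_minors {v w : Fin (N + 1) → ℂ} (hv : v ≠ 0) (hw : w ≠ 0)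
    (h : ∀ i j, v i * w j = v j * w i) : CPn.mk w hw = CPn.mk v hv := by
  rw [mk_eq_mk_iff]
  obtain ⟨i, hi⟩ : ∃ i, v i ≠ 0 := by
    by_contra hc
    push Not at hc
    exact hv (funext hc)
  refine ⟨w i / v i, ?_⟩
  ext j
  have := h i j
  rw [Pi.smul_apply, smul_eq_mul, div_mul_eq_mul_div, div_eq_iff hi]
  rw [mul_comm (w i), ← this]
  ring

/-- the size of the minors of `v` and `w`, divided by the norm of `w` -/
def dist₀ (v : Fin (N + 1) → ℂ) (w : NZ N) : ℝ :=
  ‖fun ij : Fin (N + 1) × Fin (N + 1) => v ij.1 * w.1 ij.2 - v ij.2 * w.1 ij.1‖ / ‖w.1‖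

theorem continuous_dist₀ (v : Fin (N + 1) → ℂ) : Continuous (dist₀ v) := by
  unfold dist₀
  refine Continuous.div ?_ (by fun_prop) (fun w => norm_ne_zero_iff.2 w.2)
  refine Continuous.norm ?_
  refine continuous_pi fun ij => ?_
  have h : ∀ i, Continuous fun w : NZ N => w.1 i := fun i =>
    (continuous_apply i).comp continuous_subtype_val
  exact (continuous_const.mul (h ij.2)).sub (continuous_const.mul (h ij.1))

/-- the same as a function of the line of `w` -/
def distCP (v : Fin (N + 1) → ℂ) (x : CPn N) : ℝ :=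
  dist₀ v ⟨x.rep, x.rep_nonzero⟩

theorem dist₀_congr (v : Fin (N + 1) → ℂ) (w w' : NZ N) (h : pr N w = pr N w') :
    dist₀ v w = dist₀ v w' := by
  obtain ⟨a, ha⟩ := (mk_eq_mk_iff w.2 w'.2).1 h
  have ha0 : a ≠ 0 := by
    rintro rfl
    rw [zero_smul] at ha
    exact w.2 ha.symm
  unfold dist₀
  rw [← ha]
  have h1 : (fun ij : Fin (N + 1) × Fin (N + 1) => v ij.1 * (a • w'.1) ij.2 -
      v ij.2 * (a • w'.1) ij.1) = a • (fun ij : Fin (N + 1) × Fin (N + 1) =>
      v ij.1 * w'.1 ij.2 - v ij.2 * w'.1 ij.1) := by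
    ext ij
    simp only [Pi.smul_apply, smul_eq_mul]
    ring
  rw [h1, norm_smul, norm_smul, mul_div_mul_left _ _ (norm_ne_zero_iff.2 ha0)]

theorem distCP_pr (v : Fin (N + 1) → ℂ) (w : NZ N) : distCP v (pr N w) = dist₀ v w := by
  unfold distCP
  refine dist₀_congr v _ _ ?_
  exact Projectivization.mk_rep _

theorem continuous_distCP (v : Fin (N + 1) → ℂ) : Continuous (distCP v) := by
  rw [isQuotientMap_pr.continuous_iff]
  have : distCP v ∘ pr N = dist₀ v := funext fun w => distCP_pr v w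
  rw [this]
  exact continuous_dist₀ v

instance instT2CPn (N : ℕ) : T2Space (CPn N) := by
  refine ⟨fun x y hxy => ?_⟩
  obtain ⟨v, rfl⟩ := pr_surjective x
  obtain ⟨w, rfl⟩ := pr_surjective y
  have h1 : distCP v.1 (pr N v) = 0 := by
    rw [distCP_pr]
    unfold dist₀
    have : (fun ij : Fin (N + 1) × Fin (N + 1) => v.1 ij.1 * v.1 ij.2 - v.1 ij.2 * v.1 ij.1) =
        0 := by
      ext ij
      simp only [Pi.zero_apply]
      ring
    rw [this, norm_zero, zero_div]
  have h2 : distCP v.1 (pr N w) ≠ 0 := by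
    rw [distCP_pr]
    intro h0
    unfold dist₀ at h0
    rw [div_eq_zero_iff] at h0
    rcases h0 with h0 | h0
    · rw [norm_eq_zero] at h0
      refine hxy (mk_eq_of_minors v.2 w.2 fun i j => ?_).symm
      have := congrFun h0 (i, j)
      exact sub_eq_zero.1 this
    · exact w.2 (norm_eq_zero.1 h0)
  exact separated_by_continuous (continuous_distCP v.1) (by rw [h1]; exact h2.symm)

instance instCompactCPn (N : ℕ) : CompactSpace (CPn N) := by
  refine ⟨?_⟩
  let s : Set (NZ N) := {w | ‖w.1‖ = 1}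
  have hs : IsCompact s := by
    rw [Subtype.isCompact_iff]
    have : (Subtype.val '' s : Set (Fin (N + 1) → ℂ)) = Metric.sphere 0 1 := by
      ext w
      simp only [s, Set.mem_image, Set.mem_ofPred_eq, Subtype.exists, exists_and_left, exists_prop,
        exists_eq_right_right, mem_sphere_iff_norm, sub_zero]
      constructor
      · rintro ⟨h, -⟩; exact h
      · intro h
        refine ⟨h, ?_⟩
        rintro rfl
        simp at h
    rw [this]
    exact isCompact_sphere _ _
  have himg : (Set.univ : Set (CPn N)) = pr N '' s := by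
    symm
    rw [Set.eq_univ_iff_forall]
    intro x
    obtain ⟨w, rfl⟩ := pr_surjective x
    have hw : ‖w.1‖ ≠ 0 := norm_ne_zero_iff.2 w.2
    have hc : (‖w.1‖⁻¹ : ℂ) ≠ 0 := by
      simpa using w.2
    refine ⟨⟨(‖w.1‖⁻¹ : ℂ) • w.1, smul_ne_zero hc w.2⟩, ?_, ?_⟩
    · show ‖(‖w.1‖⁻¹ : ℂ) • w.1‖ = 1
      rw [norm_smul, norm_inv, Complex.norm_real, norm_norm, inv_mul_cancel₀ hw]
    · exact (mk_eq_mk_iff _ w.2).2 ⟨_, rfl⟩
  rw [himg]
  exact hs.image continuous_pr

/-- continuity of `z ↦ [F z]` -/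
theorem continuous_mk {T : Type*} [TopologicalSpace T] {F : T → (Fin (N + 1) → ℂ)}
    (hF : Continuous F) (h0 : ∀ t, F t ≠ 0) : Continuous fun t => CPn.mk (F t) (h0 t) :=
  continuous_pr.comp (hF.subtype_mk h0)

/-- the map to projective space given by a continuous lift -/
def mkC {T : Type*} [TopologicalSpace T] (F : T → (Fin (N + 1) → ℂ))
    (hF : Continuous F) (h0 : ∀ t, F t ≠ 0) : C(T, CPn N) :=
  ⟨fun t => CPn.mk (F t) (h0 t), continuous_mk hF h0⟩

/-! ### the torus -/

section torus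

variable {X A : Set (CPn N)} (ω : Fin 4 → (Fin 2 → ℂ)) (F : (Fin 2 → ℂ) → (Fin (N + 1) → ℂ))
  (hF : ∀ z, F z ≠ 0)

/-- the parametrisation of the torus as a map into `X` -/
def par (hc : Continuous F) (hX : ∀ z, CPn.mk (F z) (hF z) ∈ X) : C(Fin 2 → ℂ, X) :=
  ⟨fun z => ⟨CPn.mk (F z) (hF z), hX z⟩, (continuous_mk hc hF).subtype_mk hX⟩

theorem par_per (hc : Continuous F) (hX : ∀ z, CPn.mk (F z) (hF z) ∈ X)
    (hper : ∀ z w : Fin 2 → ℂ,
      CPn.mk (F z) (hF z) = CPn.mk (F w) (hF w) ↔ z - w ∈ periodLattice ω) :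
    Per (par F hF hc hX) (periodLattice ω).toAddSubgroup := by
  intro v l hl
  apply Subtype.ext
  show CPn.mk (F (v + l)) (hF (v + l)) = CPn.mk (F v) (hF v)
  rw [hper, add_sub_cancel_left]
  exact hl

theorem basis_of_li (hω : LinearIndependent ℝ ω) :
    ∃ b : Module.Basis (Fin 4) ℝ (Fin 2 → ℂ), ∀ i, b i = ω i := by
  have hr : Module.finrank ℝ (Fin 2 → ℂ) = 4 := by
    rw [Module.finrank_pi_fintype]
    simp
  refine ⟨basisOfLinearIndependentOfCardEqFinrank' ω hω (by rw [hr]; simp), fun i => by simp⟩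

theorem covering_par (hω : LinearIndependent ℝ ω) (hc : Continuous F)
    (hX : ∀ z, CPn.mk (F z) (hF z) ∈ X)
    (hper : ∀ z w : Fin 2 → ℂ,
      CPn.mk (F z) (hF z) = CPn.mk (F w) (hF w) ↔ z - w ∈ periodLattice ω) :
    IsCoveringMap (Set.rangeFactorization (par F hF hc hX)) := by
  obtain ⟨b, hb⟩ := basis_of_li ω hω
  have hbω : periodLattice ω = Submodule.span ℤ (Set.range b) := by
    unfold periodLattice
    congr 2
    ext i
    rw [hb]
  have : DiscreteTopology (periodLattice ω) := by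
    rw [hbω]; infer_instance
  have : IsZLattice ℝ (periodLattice ω) := by
    refine ⟨?_⟩
    rw [hbω]
    exact ZSpan.span_top b
  refine covering_of_lattice (periodLattice ω) (par_per ω F hF hc hX hper) ?_
  intro v w h
  exact (hper v w).1 (congrArg Subtype.val h)

/-- **TL3** : loop classes of a torus in the frozen sense -/
theorem loopClassesIn_torus (hω : LinearIndependent ℝ ω) (hc : Continuous F)
    (hX : ∀ z, CPn.mk (F z) (hF z) ∈ X)
    (hper : ∀ z w : Fin 2 → ℂ,
      CPn.mk (F z) (hF z) = CPn.mk (F w) (hF w) ↔ z - w ∈ periodLattice ω)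
    (hA : A = Set.range (fun z => CPn.mk (F z) (hF z))) (z₀ : Fin 2 → ℂ) :
    loopClassesIn X A (par F hF hc hX z₀) =
      Set.range (perHom (par_per ω F hF hc hX hper) z₀) := by
  ext g
  rw [mem_range_perHom_iff (par_per ω F hF hc hX hper)
    (fun v w h => (hper v w).1 (congrArg Subtype.val h)) (covering_par ω F hF hω hc hX hper) z₀ g]
  constructor
  · rintro ⟨p, hp, rfl⟩
    refine ⟨p, fun t => ?_, rfl⟩
    have h1 := hp t
    rw [hA] at h1
    obtain ⟨z, hz⟩ := h1
    exact ⟨z, Subtype.ext hz⟩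
  · rintro ⟨p, hp, rfl⟩
    refine ⟨p, fun t => ?_, rfl⟩
    obtain ⟨z, hz⟩ := hp t
    rw [hA, ← hz]
    exact ⟨z, rfl⟩

/-- the literal end of S0415: `Λ = K + ℤ l₀`, `K` dies in `X`, `l₀` has infinite order -/
theorem end_of_periods (hω : LinearIndependent ℝ ω) (hc : Continuous F)
    (hX : ∀ z, CPn.mk (F z) (hF z) ∈ X)
    (hper : ∀ z w : Fin 2 → ℂ,
      CPn.mk (F z) (hF z) = CPn.mk (F w) (hF w) ↔ z - w ∈ periodLattice ω)
    (hA : A = Set.range (fun z => CPn.mk (F z) (hF z))) (z₀ : Fin 2 → ℂ)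
    (l₀ : (periodLattice ω).toAddSubgroup)
    (h : ∀ l : (periodLattice ω).toAddSubgroup, ∃ k : ℤ,
      perHom (par_per ω F hF hc hX hper) z₀ (Multiplicative.ofAdd (l - k • l₀)) = 1)
    (h0 : ¬ IsOfFinOrder (perHom (par_per ω F hF hc hX hper) z₀ (Multiplicative.ofAdd l₀))) :
    ∃ x : X, (x : CPn N) ∈ A ∧ ∃ g : FundamentalGroup X x, ¬ IsOfFinOrder g ∧
      loopClassesIn X A x = Set.range (fun k : ℤ => g ^ k) := by
  refine ⟨par F hF hc hX z₀, ?_, ?_⟩
  · rw [hA]; exact ⟨z₀, rfl⟩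
  · rw [loopClassesIn_torus ω F hF hω hc hX hper hA z₀]
    exact exists_zpowers _ l₀ h h0

end torus

end

end Crest.Agent.R272.TLoopCP_463
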