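import Crest.Agent.R272.CpMan_338
import Crest.Agent.R272.TLoopCP_463

/-!
# R272 (S0415), leaf CP-MORPH, part 1 (helper338): Chow for a torus in projective space

* `TorD ω N` : an entire nowhere zero immersive `F : ℂ² → ℂ^(N+1)` with `[F z] = [F w]` iff
  `z - w` is a period;
* `torus_smooth` : the image is a smooth projective variety of dimension two;
* `isSimpleAbelianSurface` : with the simplicity clause the image is a simple abelian surface;
* `TorD.tensor` (product with another periodic map), `TorD.scale` (the periods `n • ω`).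
-/

set_option autoImplicit false
set_option linter.unusedSectionVars false

open Set Filter Topology Complex
open Crest.AlgGeometry

namespace Crest.Agent.R272.CpTor_338

open Crest.Agent.R273.RedA_333
open CpTop_338 CpSub_338 CpChow_338 CpMan_338
open TLoop_463 (Per covering_of_lattice exists_compact_fund)
open TLoopCP_463 (par par_per covering_par basis_of_li)

noncomputable section

universe u

/-! ### complex manifolds from local homeomorphisms -/

section Quot

open scoped ContDiff Manifold

variable {n : ℕ} {X : Type u} [TopologicalSpace X] {p : Cs n → X}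

/-- the charted space of a surjective local homeomorphism -/
@[reducible] def chartedP (hp : IsLocalHomeomorph p) (hs : Function.Surjective p) :
    ChartedSpace (Cs n) X where
  atlas := {c | ⇑c.symm = p}
  chartAt x := (hp (hs x).choose).choose.symm
  mem_chart_source x := by
    have h := (hp (hs x).choose).choose_spec
    have h1 : (hp (hs x).choose).choose (hs x).choose = x := by
      rw [← h.2]
      exact (hs x).choose_spec
    have h2 := (hp (hs x).choose).choose.map_source h.1
    rw [h1] at h2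
    exact h2
  chart_mem_atlas x := by
    show ⇑(hp (hs x).choose).choose.symm.symm = p
    rw [OpenPartialHomeomorph.symm_symm]
    exact (hp (hs x).choose).choose_spec.2.symm

theorem isManifold_chartedP (hp : IsLocalHomeomorph p) (hs : Function.Surjective p)
    (ht : ∀ z w : Cs n, p z = p w → ∀ h, p (z + h) = p (w + h)) :
    let _ := chartedP hp hs
    IsManifold 𝓘(ℂ, Cs n) ω X := by
  let _ := chartedP hp hs
  apply isManifold_of_contDiffOn
  rintro c c' hc hc'
  have hc1 : ⇑c.symm = p := hc
  have hc1' : ⇑c'.symm = p := hc'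
  intro z hz
  have hz' : z ∈ (c.symm ≫ₕ c').source := hz.1
  rw [OpenPartialHomeomorph.trans_source, OpenPartialHomeomorph.symm_source] at hz'
  obtain ⟨hz1, hz2⟩ := hz'
  have hz2' : p z ∈ c'.source := by
    rw [← hc1]
    exact hz2
  set w := c' (p z) with hw
  have hpw : p w = p z := by
    rw [hw, ← hc1']
    rw [hc1'] 
    have := c'.left_inv hz2'
    rwa [hc1'] at this
  have hwt : w ∈ c'.target := c'.map_source hz2'
  have key : ∀ᶠ y in 𝓝 z, (c.symm ≫ₕ c') y = y + (w - z) := by
    have h1 : ContinuousAt (fun y : Cs n => y + (w - z)) z := by fun_prop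
    have h2 : ∀ᶠ y in 𝓝 z, y + (w - z) ∈ c'.target := by
      refine h1.eventually (c'.open_target.mem_nhds ?_)
      show z + (w - z) ∈ c'.target
      rw [add_sub_cancel]
      exact hwt
    filter_upwards [h2] with y hy
    have h3 : p (y + (w - z)) = p y := by
      have h4 := ht w z hpw (y - z)
      rw [add_sub_cancel] at h4
      rw [← h4]
      congr 1
      abel
    show c' (c.symm y) = _
    rw [hc1, ← h3]
    have h5 := c'.right_inv hy
    rwa [hc1'] at h5
  have h4 : ContDiffAt ℂ ω (fun y : Cs n => y + (w - z)) z := contDiffAt_id.add contDiffAt_const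
  exact (h4.congr_of_eventuallyEq key).contDiffWithinAt

end Quot

/-! ### torus data -/

/-- an entire lift of an embedding of the torus `ℂ² / Λ` -/
structure TorD (ω : Fin 4 → (Fin 2 → ℂ)) (N : ℕ) where
  F : (Fin 2 → ℂ) → (Fin (N + 1) → ℂ)
  ne : ∀ z, F z ≠ 0
  diff : Differentiable ℂ F
  imm : ∀ (z : Fin 2 → ℂ) (a : ℂ) (v : Fin 2 → ℂ), a • F z + fderiv ℂ F z v = 0 → v = 0
  per : ∀ z w : Fin 2 → ℂ, CPn.mk (F z) (ne z) = CPn.mk (F w) (ne w) ↔ z - w ∈ periodLattice ω

namespace TorD

variable {ω : Fin 4 → (Fin 2 → ℂ)} {N : ℕ} (D : TorD ω N)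

/-- the map to projective space -/
def map (z : Fin 2 → ℂ) : CPn N := CPn.mk (D.F z) (D.ne z)

theorem continuous_map : Continuous D.map := continuous_mk D.diff.continuous D.ne

theorem map_add {z w : Fin 2 → ℂ} (h : D.map z = D.map w) (v : Fin 2 → ℂ) :
    D.map (z + v) = D.map (w + v) := by
  refine (D.per _ _).2 ?_
  have := (D.per _ _).1 h
  rwa [add_sub_add_right_eq_sub]

end TorD

theorem lattice_props {ω : Fin 4 → (Fin 2 → ℂ)} (hω : LinearIndependent ℝ ω) :
    ∃ _ : DiscreteTopology (periodLattice ω), IsZLattice ℝ (periodLattice ω) := by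
  obtain ⟨b, hb⟩ := basis_of_li ω hω
  have hbω : periodLattice ω = Submodule.span ℤ (Set.range b) := by
    unfold periodLattice
    congr 2
    ext i
    rw [hb]
  have h1 : DiscreteTopology (periodLattice ω) := by
    rw [hbω]; infer_instance
  refine ⟨h1, ⟨?_⟩⟩
  rw [hbω]
  exact ZSpan.span_top b

/-- **Chow's theorem for a torus** -/
theorem torus_smooth {ω : Fin 4 → (Fin 2 → ℂ)} (hω : LinearIndependent ℝ ω) {N : ℕ}
    (D : TorD ω N) : ∃ c, c + 2 = N ∧ IsSmoothProjVariety c (range D.map) := by
  let f : C(Fin 2 → ℂ, (univ : Set (CPn N))) :=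
    par D.F D.ne D.diff.continuous (fun _ => mem_univ _)
  let X : Type := range f
  let p : Cs 2 → X := rangeFactorization f
  have hcov : IsCoveringMap p :=
    covering_par ω D.F D.ne hω D.diff.continuous (fun _ => mem_univ _) D.per
  have hs : Function.Surjective p := rangeFactorization_surjective
  have hlh : IsLocalHomeomorph p := hcov.isLocalHomeomorph
  have hpc : Continuous p := hcov.continuous
  have hpv : ∀ z, ((p z : X).1 : CPn N) = D.map z := fun z => rfl
  have ht : ∀ z w : Cs 2, p z = p w → ∀ h, p (z + h) = p (w + h) := by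
    intro z w h v
    refine Subtype.ext (Subtype.ext ?_)
    have h1 : D.map z = D.map w := congrArg (fun x : X => ((x.1 : (univ : Set (CPn N))) : CPn N)) h
    exact D.map_add h1 v
  have : T2Space X := inferInstanceAs (T2Space (range f))
  obtain ⟨hd, hz⟩ := lattice_props hω
  have hcomp : CompactSpace X := by
    obtain ⟨K, hK, hcK⟩ := exists_compact_fund (periodLattice ω)
    refine ⟨?_⟩
    have h1 : (univ : Set X) = p '' K := by
      refine (eq_univ_of_forall fun x => ?_).symm
      obtain ⟨z, rfl⟩ := hs x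
      obtain ⟨l, hl, hlK⟩ := hcK z
      refine ⟨z + l, hlK, Subtype.ext (Subtype.ext ?_)⟩
      refine (D.per _ _).2 ?_
      rw [add_sub_cancel_left]
      exact hl
    rw [h1]
    exact hK.image hpc
  have : ConnectedSpace X := hs.connectedSpace hpc
  let _ := chartedP hlh hs
  have := isManifold_chartedP hlh hs ht
  obtain ⟨c, hc, hsm⟩ := chow_manifold (n := 2) (X := X) (N := N) (fun _ => D.F)
    (fun e _ => ⟨D.diff.differentiableOn, fun z _ => D.ne z⟩)
    (fun e _ z _ v => by
      rintro ⟨c, hc⟩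
      refine D.imm z (-c) v ?_
      rw [hc, neg_smul, neg_add_cancel])
    (fun x => ((x.1 : (univ : Set (CPn N))) : CPn N))
    (fun x y h => Subtype.ext (Subtype.ext h))
    (fun e he x hx => by
      refine ⟨D.ne _, ?_⟩
      have h1 : ⇑e.symm = p := he
      have h2 : p (e x) = x := by
        rw [← h1]
        exact e.left_inv hx
      conv_lhs => rw [← h2]
      rfl)
  refine ⟨c, hc, ?_⟩
  have hr : range (fun x : X => ((x.1 : (univ : Set (CPn N))) : CPn N)) = range D.map := by
    ext y
    constructor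
    · rintro ⟨x, rfl⟩
      obtain ⟨z, rfl⟩ := hs x
      exact ⟨z, rfl⟩
    · rintro ⟨z, rfl⟩
      exact ⟨p z, rfl⟩
  rw [← hr]
  exact hsm

/-- **the torus is a simple abelian surface** -/
theorem isSimpleAbelianSurface {ω : Fin 4 → (Fin 2 → ℂ)} (hω : LinearIndependent ℝ ω)
    (hsim : ∀ l m : Fin 2 → ℂ, l ∈ periodLattice ω → m ∈ periodLattice ω → l ≠ 0 →
      ∀ a : ℂ, m = a • l → a.im = 0) {N : ℕ} (D : TorD ω N) :
    IsSimpleAbelianSurface (range D.map) :=
  ⟨torus_smooth hω D, ω, D.F, D.ne, hω, D.diff, D.imm, D.per, rfl, hsim⟩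

/-! ### products and coverings -/

/-- the tensor product of two vectors -/
def tens {a b K : ℕ} (e : Fin (K + 1) ≃ Fin (a + 1) × Fin (b + 1)) (u : Fin (a + 1) → ℂ)
    (v : Fin (b + 1) → ℂ) : Fin (K + 1) → ℂ := fun k => u (e k).1 * v (e k).2

section Tens

variable {a b K : ℕ} (e : Fin (K + 1) ≃ Fin (a + 1) × Fin (b + 1))

theorem tens_apply (u : Fin (a + 1) → ℂ) (v : Fin (b + 1) → ℂ) (i : Fin (a + 1))
    (j : Fin (b + 1)) : tens e u v (e.symm (i, j)) = u i * v j := by
  unfold tens
  rw [Equiv.apply_symm_apply]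

theorem tens_ne {u : Fin (a + 1) → ℂ} {v : Fin (b + 1) → ℂ} (hu : u ≠ 0) (hv : v ≠ 0) :
    tens e u v ≠ 0 := by
  obtain ⟨i, hi⟩ := Function.ne_iff.1 hu
  obtain ⟨j, hj⟩ := Function.ne_iff.1 hv
  intro h
  have := congrFun h (e.symm (i, j))
  rw [tens_apply] at this
  exact mul_ne_zero hi hj this

theorem tens_eq_iff {u u' : Fin (a + 1) → ℂ} {v v' : Fin (b + 1) → ℂ} (hu : u ≠ 0) (hv : v ≠ 0)
    (hu' : u' ≠ 0) (hv' : v' ≠ 0) :
    CPn.mk (tens e u v) (tens_ne e hu hv) = CPn.mk (tens e u' v') (tens_ne e hu' hv') ↔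
      CPn.mk u hu = CPn.mk u' hu' ∧ CPn.mk v hv = CPn.mk v' hv' := by
  rw [mk_eq_iff_minor, mk_eq_iff_minor, mk_eq_iff_minor]
  constructor
  · intro h
    obtain ⟨i, hi⟩ := Function.ne_iff.1 hu
    obtain ⟨j, hj⟩ := Function.ne_iff.1 hv
    have h1 : ∀ k l m o, u k * v l * (u' m * v' o) = u m * v o * (u' k * v' l) := by
      intro k l m o
      have := h (e.symm (k, l)) (e.symm (m, o))
      rwa [tens_apply, tens_apply, tens_apply, tens_apply] at this
    obtain ⟨i', hi'⟩ := Function.ne_iff.1 hu'
    obtain ⟨j', hj'⟩ := Function.ne_iff.1 hv'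
    simp only [Pi.zero_apply] at hi hj hi' hj'
    have hv2 : v j' ≠ 0 := by
      intro h0
      have h2 := h1 i j i' j'
      rw [h0, mul_zero, zero_mul] at h2
      exact mul_ne_zero (mul_ne_zero hi hj) (mul_ne_zero hi' hj') h2
    have hu2 : u i' ≠ 0 := by
      intro h0
      have h2 := h1 i j i' j'
      rw [h0, zero_mul, zero_mul] at h2
      exact mul_ne_zero (mul_ne_zero hi hj) (mul_ne_zero hi' hj') h2
    constructor
    · intro k m
      have h2 := h1 k j' m j'
      have h3 : (v j' * v' j') * (u k * u' m) = (v j' * v' j') * (u m * u' k) := by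
        linear_combination h2
      exact mul_left_cancel₀ (mul_ne_zero hv2 hj') h3
    · intro l o
      have h2 := h1 i' l i' o
      have h3 : (u i' * u' i') * (v l * v' o) = (u i' * u' i') * (v o * v' l) := by
        linear_combination h2
      exact mul_left_cancel₀ (mul_ne_zero hu2 hi') h3
  · rintro ⟨h1, h2⟩ k l
    unfold tens
    have h3 := h1 (e k).1 (e l).1
    have h4 := h2 (e k).2 (e l).2
    linear_combination (v (e k).2 * v' (e l).2) * h3 + (u (e l).1 * u' (e k).1) * h4

end Tens

/-- product of the embedding with a periodic map -/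
def TorD.tensor {ω : Fin 4 → (Fin 2 → ℂ)} {a b K : ℕ}
    (e : Fin (K + 1) ≃ Fin (a + 1) × Fin (b + 1)) (G : (Fin 2 → ℂ) → (Fin (a + 1) → ℂ))
    (hG : ∀ z, G z ≠ 0) (hGd : Differentiable ℂ G)
    (hGp : ∀ z w : Fin 2 → ℂ, z - w ∈ periodLattice ω → CPn.mk (G z) (hG z) = CPn.mk (G w) (hG w))
    (D : TorD ω b) : TorD ω K where
  F z := tens e (G z) (D.F z)
  ne z := tens_ne e (hG z) (D.ne z)
  diff := by
    rw [differentiable_pi]
    intro k
    exact (differentiable_pi.1 hGd _).mul (differentiable_pi.1 D.diff _)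
  imm z c v h := by
    have hGk := fun k => (differentiable_pi.1 hGd k) z
    have hFk := fun k => (differentiable_pi.1 D.diff k) z
    have hd : ∀ k, fderiv ℂ (fun z => tens e (G z) (D.F z)) z v k =
        fderiv ℂ (fun z => G z (e k).1) z v * D.F z (e k).2 +
          G z (e k).1 * fderiv ℂ (fun z => D.F z (e k).2) z v := by
      intro k
      have hT : ∀ k, DifferentiableAt ℂ (fun z => tens e (G z) (D.F z) k) z := fun k =>
        (hGk _).mul (hFk _)
      have h3 := fderiv_pi (h := hT)
      have h4 : (fun w => fun k => tens e (G w) (D.F w) k) = fun w => tens e (G w) (D.F w) := rfl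
      rw [h4] at h3
      rw [h3]
      show fderiv ℂ (fun z => G z (e k).1 * D.F z (e k).2) z v = _
      rw [fderiv_fun_mul (hGk _) (hFk _)]
      simp only [_root_.add_apply, _root_.smul_apply, smul_eq_mul]
      ring
    obtain ⟨i, hi⟩ := Function.ne_iff.1 (hG z)
    refine D.imm z (c + fderiv ℂ (fun z => G z i) z v / G z i) v (funext fun j => ?_)
    have h1 := congrFun h (e.symm (i, j))
    rw [Pi.add_apply, Pi.smul_apply, hd, smul_eq_mul] at h1
    change c * tens e (G z) (D.F z) (e.symm (i, j)) + _ = 0 at h1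
    rw [tens_apply, Equiv.apply_symm_apply] at h1
    have h5 : fderiv ℂ (fun z => D.F z j) z v = fderiv ℂ D.F z v j := by
      have h3 := fderiv_pi (h := hFk)
      have h4 : (fun w => fun k => D.F w k) = D.F := rfl
      rw [h4] at h3
      rw [h3]
      rfl
    rw [Pi.add_apply, Pi.smul_apply, smul_eq_mul, ← h5]
    have hi' : G z i ≠ 0 := hi
    have h6 : G z i * ((c + fderiv ℂ (fun z => G z i) z v / G z i) * D.F z j +
        fderiv ℂ (fun z => D.F z j) z v) = 0 := by
      field_simp
      linear_combination h1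
    exact (mul_eq_zero.1 h6).resolve_left hi'
  per z w := by
    refine (tens_eq_iff e (hG z) (D.ne z) (hG w) (D.ne w)).trans ?_
    constructor
    · exact fun h => (D.per z w).1 h.2
    · exact fun h => ⟨hGp z w h, (D.per z w).2 h⟩

theorem mem_scale {ω : Fin 4 → (Fin 2 → ℂ)} {n : ℕ} (hn : n ≠ 0) (z : Fin 2 → ℂ) :
    z ∈ periodLattice (fun i => n • ω i) ↔ (n : ℂ)⁻¹ • z ∈ periodLattice ω := by
  have hn' : (n : ℂ) ≠ 0 := Nat.cast_ne_zero.2 hn
  unfold periodLattice
  constructor
  · intro h
    induction h using Submodule.span_induction with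
    | mem x hx =>
      obtain ⟨i, rfl⟩ := hx
      have : (n : ℂ)⁻¹ • (n • ω i) = ω i := by
        rw [← Nat.cast_smul_eq_nsmul ℂ, smul_smul, inv_mul_cancel₀ hn', one_smul]
      show (n : ℂ)⁻¹ • (n • ω i) ∈ _
      rw [this]
      exact Submodule.subset_span ⟨i, rfl⟩
    | zero => rw [smul_zero]; exact Submodule.zero_mem _
    | add x y _ _ hx hy => rw [smul_add]; exact Submodule.add_mem _ hx hy
    | smul c x _ hx =>
      rw [smul_comm]
      exact Submodule.smul_mem _ c hx
  · intro h
    have h1 : ∀ y ∈ Submodule.span ℤ (range ω), n • y ∈ Submodule.span ℤ (range fun i => n • ω i) := by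
      intro y hy
      induction hy using Submodule.span_induction with
      | mem x hx =>
        obtain ⟨i, rfl⟩ := hx
        exact Submodule.subset_span ⟨i, rfl⟩
      | zero => rw [smul_zero]; exact Submodule.zero_mem _
      | add x y _ _ hx hy => rw [smul_add]; exact Submodule.add_mem _ hx hy
      | smul c x _ hx =>
        rw [smul_comm]
        exact Submodule.smul_mem _ c hx
    have h2 := h1 _ h
    rwa [← Nat.cast_smul_eq_nsmul ℂ, smul_smul, mul_inv_cancel₀ hn', one_smul] at h2

/-- the covering torus `ℂ² / nΛ`, embedded through the isomorphism `z ↦ z / n` -/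
def TorD.scale {ω : Fin 4 → (Fin 2 → ℂ)} {N : ℕ} (D : TorD ω N) {n : ℕ} (hn : n ≠ 0) :
    TorD (fun i => n • ω i) N where
  F z := D.F ((n : ℂ)⁻¹ • z)
  ne z := D.ne _
  diff := D.diff.comp ((n : ℂ)⁻¹ • ContinuousLinearMap.id ℂ (Fin 2 → ℂ)).differentiable
  imm z c v h := by
    have hn' : (n : ℂ) ≠ 0 := Nat.cast_ne_zero.2 hn
    have h1 : fderiv ℂ (fun z => D.F ((n : ℂ)⁻¹ • z)) z v =
        fderiv ℂ D.F ((n : ℂ)⁻¹ • z) ((n : ℂ)⁻¹ • v) := by
      have h2 : HasFDerivAt (fun z : Fin 2 → ℂ => (n : ℂ)⁻¹ • z)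
          ((n : ℂ)⁻¹ • ContinuousLinearMap.id ℂ (Fin 2 → ℂ)) z :=
        ((n : ℂ)⁻¹ • ContinuousLinearMap.id ℂ (Fin 2 → ℂ)).hasFDerivAt
      have h3 := ((D.diff ((n : ℂ)⁻¹ • z)).hasFDerivAt.comp z h2).fderiv
      have h4 : (D.F ∘ fun z : Fin 2 → ℂ => (n : ℂ)⁻¹ • z) = fun z => D.F ((n : ℂ)⁻¹ • z) := rfl
      rw [h4] at h3
      rw [h3]
      rfl
    rw [h1] at h
    have h2 := D.imm _ c _ h
    exact (smul_eq_zero.1 h2).resolve_left (inv_ne_zero hn')
  per z w := by
    rw [D.per, mem_scale hn, smul_sub]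

end

end Crest.Agent.R272.CpTor_338
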