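import Mathlib

/-!
Row 272 (S0414): the contraction inequality of #4780 (A) (helper771).

`E : Y² = X³ + 1`, `a² = -3`, `q = (0,1)`. For `P' = (x,y)` on `E` the first coordinate of
`a P' + q` is `N / D` with `N = 18 x⁴ + (6/a) x y (x³ - 8)`, `D = (x³ + 4)²`.
-/

namespace Crest.Agent.R272.Ctr_771

open Complex

/-- numerator of the first coordinate of `a (x,y) + (0,1)` -/
noncomputable def N (a x y : ℂ) : ℂ := 18 * x ^ 4 + 6 / a * x * y * (x ^ 3 - 8)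

/-- denominator of the first coordinate of `a (x,y) + (0,1)` -/
def D (x : ℂ) : ℂ := (x ^ 3 + 4) ^ 2

/-- first coordinate of the isogeny of degree three `[a]` -/
noncomputable def Xa (x : ℂ) : ℂ := -(x ^ 3 + 4) / (3 * x ^ 2)

/-- second coordinate of the isogeny of degree three `[a]` -/
noncomputable def Ya (a x y : ℂ) : ℂ := -(y * (x ^ 3 - 8)) / (3 * a * x ^ 3)

theorem on_E {a x y : ℂ} (ha : a ^ 2 = -3) (hx : x ≠ 0) (hy : y ^ 2 = x ^ 3 + 1) :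
    Ya a x y ^ 2 = Xa x ^ 3 + 1 := by
  have ha0 : a ≠ 0 := by rintro rfl; norm_num at ha
  unfold Ya Xa
  rw [div_pow, neg_sq, mul_pow, mul_pow, mul_pow, ha, hy, div_pow]
  field_simp
  ring

/-- the chord formula: `X (P + q) = 2 (1 - Y) / X²` for `P = (X,Y)`, `q = (0,1)`:
the slope of the line through `P` and `q` is `m = (Y-1)/X` and `X(P+q) = m² - X`. -/
theorem chord {X Y : ℂ} (hX : X ≠ 0) (h : Y ^ 2 = X ^ 3 + 1) :
    ((Y - 1) / X) ^ 2 - X - 0 = 2 * (1 - Y) / X ^ 2 := by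
  field_simp
  linear_combination h

theorem N_div_D {a x y : ℂ} (ha : a ^ 2 = -3) (hx : x ≠ 0) (hx4 : x ^ 3 + 4 ≠ 0) :
    2 * (1 - Ya a x y) / Xa x ^ 2 = N a x y / D x := by
  have ha0 : a ≠ 0 := by rintro rfl; norm_num at ha
  unfold Ya Xa N D
  field_simp
  ring

theorem norm_a {a : ℂ} (ha : a ^ 2 = -3) : ‖a‖ ^ 2 = 3 := by
  rw [← norm_pow, ha]; simp

theorem norm_six_div {a : ℂ} (ha : a ^ 2 = -3) : ‖6 / a‖ ≤ 3.4642 := by
  have h := norm_a ha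
  have h0 : 0 ≤ ‖a‖ := norm_nonneg a
  have h1 : 1.73204 ≤ ‖a‖ := by nlinarith
  rw [norm_div, div_le_iff₀ (by linarith)]
  simp only [Complex.norm_ofNat]
  linarith

theorem norm_N_le {a x y : ℂ} (ha : a ^ 2 = -3) (hy : y ^ 2 = x ^ 3 + 1) (hx : ‖x‖ ≤ 0.53) :
    ‖N a x y‖ ≤ 2.23 * ‖x‖ * ‖D x‖ := by
  set r := ‖x‖ with hr
  have r0 : 0 ≤ r := norm_nonneg x
  have r3 : r ^ 3 ≤ 0.1489 := by
    have : r ^ 3 ≤ 0.53 ^ 3 := pow_le_pow_left₀ r0 hx 3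
    norm_num at this ⊢
    linarith
  have r30 : 0 ≤ r ^ 3 := by positivity
  have hy1 : ‖y‖ ≤ 1.072 := by
    have h1 : ‖y‖ ^ 2 ≤ r ^ 3 + 1 := by
      rw [← norm_pow, hy]
      calc ‖x ^ 3 + 1‖ ≤ ‖x ^ 3‖ + ‖(1 : ℂ)‖ := norm_add_le _ _
        _ = r ^ 3 + 1 := by rw [norm_pow, norm_one]
    nlinarith [norm_nonneg y]
  have h8 : ‖x ^ 3 - 8‖ ≤ 8.149 := by
    calc ‖x ^ 3 - 8‖ ≤ ‖x ^ 3‖ + ‖(8 : ℂ)‖ := norm_sub_le _ _
      _ = r ^ 3 + 8 := by rw [norm_pow, ← hr]; simp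
      _ ≤ 8.149 := by linarith
  have hD : 14.83 ≤ ‖D x‖ := by
    have h4 : 3.8511 ≤ ‖x ^ 3 + 4‖ := by
      have h5 : ‖(4 : ℂ)‖ ≤ ‖x ^ 3 + 4‖ + ‖x ^ 3‖ := by
        calc ‖(4 : ℂ)‖ = ‖(x ^ 3 + 4) - x ^ 3‖ := by ring_nf
          _ ≤ _ := norm_sub_le _ _
      rw [norm_pow, ← hr] at h5
      simp only [Complex.norm_ofNat] at h5
      linarith
    unfold D
    rw [norm_pow]
    nlinarith
  have hN : ‖N a x y‖ ≤ r * (18 * r ^ 3 + 3.4642 * 1.072 * 8.149) := by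
    unfold N
    calc ‖18 * x ^ 4 + 6 / a * x * y * (x ^ 3 - 8)‖
        ≤ ‖18 * x ^ 4‖ + ‖6 / a * x * y * (x ^ 3 - 8)‖ := norm_add_le _ _
      _ = 18 * r ^ 4 + ‖6 / a‖ * r * ‖y‖ * ‖x ^ 3 - 8‖ := by
          rw [norm_mul, norm_mul, norm_mul, norm_mul, norm_pow]; simp [hr]
      _ ≤ 18 * r ^ 4 + 3.4642 * r * 1.072 * 8.149 := by
          have := norm_six_div ha
          gcongr
      _ = _ := by ring
  calc ‖N a x y‖ ≤ r * (18 * r ^ 3 + 3.4642 * 1.072 * 8.149) := hN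
    _ ≤ r * (2.23 * 14.83) := by
        gcongr
        norm_num
        linarith
    _ ≤ r * (2.23 * ‖D x‖) := by gcongr
    _ = _ := by ring

/-- **Contraction inequality**, homogeneous form: with `X = N / D`,
`1 + 1/|x| ≤ 2.9 (1 + 1/|X|)` on all of `E` (also where `x = 0`, `X = 0` or `X = ∞`). -/
theorem contraction {a x y : ℂ} (ha : a ^ 2 = -3) (hy : y ^ 2 = x ^ 3 + 1) :
    (‖x‖ + 1) * ‖N a x y‖ ≤ 2.9 * ((‖N a x y‖ + ‖D x‖) * ‖x‖) := by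
  rcases le_total ‖x‖ 0.53 with h | h
  · have h1 := norm_N_le ha hy h
    have h2 : 0 ≤ ‖x‖ * ‖N a x y‖ := by positivity
    have h3 : 0 ≤ ‖x‖ * ‖D x‖ := by positivity
    nlinarith
  · have h1 : ‖x‖ + 1 ≤ 2.9 * ‖x‖ := by linarith
    have h2 : 0 ≤ ‖D x‖ * ‖x‖ := by positivity
    have h3 := mul_le_mul_of_nonneg_right h1 (norm_nonneg (N a x y))
    nlinarith

/-- the same in the form `1 + 1/|x| ≤ 2.9 (1 + 1/|X|)`. -/
theorem contraction' {a x y : ℂ} (ha : a ^ 2 = -3) (hy : y ^ 2 = x ^ 3 + 1) (hx : x ≠ 0)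
    (hD : D x ≠ 0) (hN : N a x y ≠ 0) :
    1 + 1 / ‖x‖ ≤ 2.9 * (1 + 1 / ‖N a x y / D x‖) := by
  have h := contraction ha hy
  have hx' : 0 < ‖x‖ := norm_pos_iff.2 hx
  have hD' : 0 < ‖D x‖ := norm_pos_iff.2 hD
  have hN' : 0 < ‖N a x y‖ := norm_pos_iff.2 hN
  rw [norm_div]
  rw [show 1 + 1 / ‖x‖ = (‖x‖ + 1) / ‖x‖ by field_simp,
    show 2.9 * (1 + 1 / (‖N a x y‖ / ‖D x‖)) = 2.9 * (‖N a x y‖ + ‖D x‖) / ‖N a x y‖ by
      field_simp,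
    div_le_div_iff₀ hx' hN']
  linarith

end Crest.Agent.R272.Ctr_771
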