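import Crest.Agent.R272.Cur1_297

/-!
Row 272 (helper297): CUR-INST, part 2: topology of the curve (compact, Hausdorff, connected), the
hyperelliptic involution, the two affine pieces as partial homeomorphisms.
-/

set_option autoImplicit false
set_option linter.unusedSectionVars false

open Set Filter Topology Metric Complex OnePoint

noncomputable section

namespace Crest.Agent.R272.Cur_297

variable {P : Par}

/-! ### compactness -/

theorem isCompact_aff {p : ℂ → ℂ} (hp : Continuous p) (R : ℝ) :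
    IsCompact {q : Aff p | ‖q.1.1‖ ≤ R} := by
  rw [Subtype.isCompact_iff]
  obtain ⟨M, hM⟩ := (isCompact_closedBall (0 : ℂ) R).exists_bound_of_continuousOn (f := p)
    hp.continuousOn
  have himg : ((↑) '' {q : Aff p | ‖q.1.1‖ ≤ R} : Set (ℂ × ℂ)) =
      {q : ℂ × ℂ | q.2 ^ 2 = p q.1 ∧ ‖q.1‖ ≤ R} := by
    ext q
    constructor
    · rintro ⟨q', h, rfl⟩
      exact ⟨q'.2, h⟩
    · rintro ⟨h1, h2⟩
      exact ⟨⟨q, h1⟩, h2, rfl⟩
  rw [himg]
  refine Metric.isCompact_of_isClosed_isBounded ?_ ?_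
  · exact (isClosed_eq (f := fun q : ℂ × ℂ => q.2 ^ 2) (g := fun q => p q.1) (by fun_prop)
      (hp.comp continuous_fst)).inter
      (isClosed_le (f := fun q : ℂ × ℂ => ‖q.1‖) (by fun_prop) continuous_const)
  · refine (isBounded_closedBall (x := (0 : ℂ × ℂ)) (r := max R (M + 1))).subset ?_
    rintro q ⟨h1, h2⟩
    rw [mem_closedBall_zero_iff, Prod.norm_def]
    refine max_le_max h2 ?_
    have h3 : ‖q.2‖ ^ 2 ≤ M := by
      rw [← norm_pow, h1]
      exact hM _ (by simpa using h2)
    by_contra hcon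
    push Not at hcon
    have h4 : 0 ≤ M := (sq_nonneg _).trans h3
    nlinarith

instance : CompactSpace (Cv P) := by
  refine ⟨?_⟩
  have h : (univ : Set (Cv P)) = mk0 '' {q : Aff P.p0 | ‖q.1.1‖ ≤ 1} ∪
      mk1 '' {q : Aff P.p1 | ‖q.1.1‖ ≤ 1} := by
    refine (eq_univ_of_forall fun c => ?_).symm
    by_cases h1 : tt c = ∞
    · right
      have h0 : tt c ≠ ((0 : ℂ) : P1) := by rw [h1]; exact OnePoint.infty_ne_coe 0
      refine ⟨_, ?_, mk1_eq h0⟩
      show ‖sv c‖ ≤ 1
      unfold sv; rw [h1, finv_infty, norm_zero]; exact zero_le_one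
    · by_cases h2 : ‖tv c‖ ≤ 1
      · left
        exact ⟨_, h2, mk0_eq h1⟩
      · right
        push Not at h2
        have h0 : tt c ≠ ((0 : ℂ) : P1) := by
          intro h
          have : tv c = 0 := by unfold tv; rw [h]; rfl
          rw [this, norm_zero] at h2
          linarith
        refine ⟨_, ?_, mk1_eq h0⟩
        show ‖sv c‖ ≤ 1
        rw [sv_eq h1, norm_inv]
        exact inv_le_one_of_one_le₀ h2.le
  rw [h]
  exact ((isCompact_aff P.continuous_p0 1).image continuous_mk0).union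
    ((isCompact_aff P.continuous_p1 1).image continuous_mk1)

instance : T2Space (Cv P) := inferInstance

theorem isClosed_Cset : IsClosed (Cset P) := by
  have : IsCompact (Cset P) := isCompact_iff_compactSpace.2 inferInstance
  exact this.isClosed

/-! ### the involution -/

def negP (p : P1) : P1 := Option.elim p ∞ fun z => ((-z : ℂ) : P1)

@[simp] theorem negP_coe (z : ℂ) : negP (z : P1) = ((-z : ℂ) : P1) := rfl
@[simp] theorem negP_infty : negP (∞ : P1) = ∞ := rfl

@[simp] theorem negP_negP (p : P1) : negP (negP p) = p := by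
  induction p using OnePoint.rec with
  | infty => rfl
  | coe z => simp

theorem continuous_negP : Continuous negP := by
  rw [continuous_iff_continuousAt]
  intro p
  induction p using OnePoint.rec with
  | infty =>
    refine tendsto_inf fun R => ?_
    filter_upwards [eventually_large (p := ∞) rfl R] with q hq
    induction q using OnePoint.rec with
    | infty => exact Or.inl rfl
    | coe z =>
      rcases hq with hq | hq
      · exact absurd hq (OnePoint.coe_ne_infty z)
      · exact Or.inr ⟨-z, rfl, by rw [norm_neg]; exact hq⟩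
  | coe z =>
    exact OnePoint.continuousAt_coe.2
      (OnePoint.continuous_coe.comp continuous_neg).continuousAt

theorem fin_negP (p : P1) : fin (negP p) = -fin p := by
  induction p using OnePoint.rec with
  | infty => simp
  | coe z => simp

theorem eqn_neg {t k : P1} (h : Eqn P t k) : Eqn P t (negP k) := by
  induction k using OnePoint.rec with
  | infty => exact h
  | coe k =>
    unfold Eqn at h ⊢
    rw [negP_coe, nn_coe, dd_coe]
    rw [nn_coe, dd_coe] at h
    rw [neg_sq]
    exact h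

/-- the hyperelliptic involution `(t, κ) ↦ (t, -κ)` -/
def iv (c : Cv P) : Cv P := ⟨(tt c, negP (kk c)), eqn_neg (eqn c)⟩

@[simp] theorem tt_iv (c : Cv P) : tt (iv c) = tt c := rfl
@[simp] theorem kk_iv (c : Cv P) : kk (iv c) = negP (kk c) := rfl
@[simp] theorem tv_iv (c : Cv P) : tv (iv c) = tv c := rfl
@[simp] theorem sv_iv (c : Cv P) : sv (iv c) = sv c := rfl
@[simp] theorem yv_iv (c : Cv P) : yv (iv c) = -yv c := by
  unfold yv; rw [kk_iv, fin_negP, tv_iv, neg_mul]
@[simp] theorem vv_iv (c : Cv P) : vv (iv c) = -vv c := by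
  unfold vv; rw [kk_iv, fin_negP, sv_iv, neg_mul]

@[simp] theorem iv_iv (c : Cv P) : iv (iv c) = c := ext_c rfl (negP_negP _)

theorem continuous_iv : Continuous (iv : Cv P → Cv P) :=
  Continuous.subtype_mk (continuous_tt.prodMk (continuous_negP.comp continuous_kk)) _

theorem ext0 {c c' : Cv P} (h : tt c ≠ ∞) (h1 : tt c = tt c') (h2 : yv c = yv c') : c = c' := by
  have h' : tt c' ≠ ∞ := h1 ▸ h
  rw [← mk0_eq h, ← mk0_eq h']
  congr 1
  refine Subtype.ext (Prod.ext ?_ h2)
  show tv c = tv c'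
  unfold tv; rw [h1]

theorem ext1 {c c' : Cv P} (h : tt c ≠ ((0 : ℂ) : P1)) (h1 : tt c = tt c') (h2 : vv c = vv c') :
    c = c' := by
  have h' : tt c' ≠ ((0 : ℂ) : P1) := h1 ▸ h
  rw [← mk1_eq h, ← mk1_eq h']
  congr 1
  refine Subtype.ext (Prod.ext ?_ h2)
  show sv c = sv c'
  unfold sv; rw [h1]

theorem ne_zero_of_inf {c : Cv P} (h : tt c = ∞) : tt c ≠ ((0 : ℂ) : P1) := by
  rw [h]; exact OnePoint.infty_ne_coe 0

/-- the fibres of `t` are the orbits of the involution -/
theorem eq_or_eq_iv {c c' : Cv P} (h : tt c = tt c') : c' = c ∨ c' = iv c := by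
  by_cases h1 : tt c = ∞
  · have h0 := ne_zero_of_inf h1
    have h0' : tt c' ≠ ((0 : ℂ) : P1) := h ▸ h0
    have e1 := vv_sq h0
    have e2 := vv_sq h0'
    have es : sv c = sv c' := by unfold sv; rw [h]
    rw [← es, ← e1] at e2
    rcases sq_eq_sq_iff_eq_or_eq_neg.1 e2 with e | e
    · left; exact ext1 h0' h.symm e
    · right; exact ext1 h0' h.symm (by rw [vv_iv]; exact e)
  · have h1' : tt c' ≠ ∞ := h ▸ h1
    have e1 := yv_sq h1
    have e2 := yv_sq h1'
    have es : tv c = tv c' := by unfold tv; rw [h]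
    rw [← es, ← e1] at e2
    rcases sq_eq_sq_iff_eq_or_eq_neg.1 e2 with e | e
    · left; exact ext0 h1' h.symm e
    · right; exact ext0 h1' h.symm (by rw [yv_iv]; exact e)

theorem iv_eq_iff0 {c : Cv P} (h : tt c ≠ ∞) : iv c = c ↔ yv c = 0 := by
  constructor
  · intro e
    have h1 : yv (iv c) = yv c := by rw [e]
    rw [yv_iv] at h1
    have h2 : (2 : ℂ) * yv c = 0 := by linear_combination -h1
    exact (mul_eq_zero.1 h2).resolve_left two_ne_zero
  · intro e
    refine ext0 h rfl ?_
    rw [yv_iv, e, neg_zero]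

theorem iv_ne_inf {c : Cv P} (h : tt c = ∞) : iv c ≠ c := by
  intro e
  have h0 := ne_zero_of_inf h
  have e1 := vv_sq h0
  have es : sv c = 0 := by unfold sv; rw [h]; rfl
  rw [es, P.p1_zero] at e1
  have h1 : vv (iv c) = vv c := by rw [e]
  rw [vv_iv] at h1
  have h2 : (2 : ℂ) * vv c = 0 := by linear_combination -h1
  have h3 := (mul_eq_zero.1 h2).resolve_left two_ne_zero
  rw [h3] at e1
  norm_num at e1

/-! ### connectedness -/

theorem surjective_tt : Function.Surjective (tt : Cv P → P1) := by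
  intro t
  induction t using OnePoint.rec with
  | infty =>
    refine ⟨mk1 ⟨(0, 1), ?_⟩, inv1_zero⟩
    show (1 : ℂ) ^ 2 = P.p1 0
    rw [P.p1_zero, one_pow]
  | coe z =>
    obtain ⟨y, hy⟩ := IsAlgClosed.exists_pow_nat_eq (P.p0 z) (n := 2) (by norm_num)
    exact ⟨mk0 ⟨(z, y), hy⟩, rfl⟩

theorem p0_root (j : Fin 6) : P.p0 (P.c j) = 0 := by
  rw [P.p0_eq]
  exact Finset.prod_eq_zero (Finset.mem_univ j) (sub_self _)

/-- the Weierstrass points -/
def wp (P : Par) (j : Fin 6) : Cv P := mk0 ⟨(P.c j, 0), by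
  show (0 : ℂ) ^ 2 = P.p0 (P.c j)
  rw [p0_root]; norm_num⟩

@[simp] theorem tt_wp (j : Fin 6) : tt (wp P j) = (P.c j : ℂ) := rfl
@[simp] theorem yv_wp (j : Fin 6) : yv (wp P j) = 0 := yv_mk0 _

@[simp] theorem iv_wp (j : Fin 6) : iv (wp P j) = wp P j :=
  (iv_eq_iff0 (by rw [tt_wp]; exact OnePoint.coe_ne_infty _)).2 (yv_wp j)

theorem iv_eq_iff {c : Cv P} : iv c = c ↔ ∃ j, c = wp P j := by
  constructor
  · intro e
    have h : tt c ≠ ∞ := fun h => iv_ne_inf h e
    have hy := (iv_eq_iff0 h).1 e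
    have h0 := yv_sq h
    rw [hy, P.p0_eq] at h0
    have h1 : ∏ j, (tv c - P.c j) = 0 := by rw [← h0]; norm_num
    obtain ⟨j, -, hj⟩ := Finset.prod_eq_zero_iff.1 h1
    refine ⟨j, ext0 h ?_ (by rw [yv_wp, hy])⟩
    rw [tt_wp, tt_eq h, sub_eq_zero.1 hj]
  · rintro ⟨j, rfl⟩
    exact iv_wp j

theorem isClosedMap_tt : IsClosedMap (tt : Cv P → P1) := continuous_tt.isClosedMap

instance : ConnectedSpace (Cv P) := by
  have hne : Nonempty (Cv P) := ⟨wp P 0⟩
  have key : ∀ s : Set (Cv P), IsClopen s → (∀ c ∈ s, iv c ∈ s) → s = ∅ ∨ s = univ := by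
    intro s hs hiv
    have hsat : ∀ c c' : Cv P, tt c = tt c' → c ∈ s → c' ∈ s := by
      intro c c' h hc
      rcases eq_or_eq_iv h with e | e
      · rw [e]; exact hc
      · rw [e]; exact hiv c hc
    have h1 : IsClosed (tt '' s) := isClosedMap_tt _ hs.1
    have h2 : (tt '' s)ᶜ = tt '' sᶜ := by
      ext t
      constructor
      · intro ht
        obtain ⟨c, rfl⟩ := surjective_tt (P := P) t
        exact ⟨c, fun hc => ht ⟨c, hc, rfl⟩, rfl⟩
      · rintro ⟨c, hc, rfl⟩ ⟨c', hc', e⟩
        exact hc (hsat c' c e hc')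
    have h3 : IsOpen (tt '' s) := by
      rw [← isClosed_compl_iff, h2]
      exact isClosedMap_tt _ hs.compl.1
    rcases isClopen_iff.1 ⟨h1, h3⟩ with h | h
    · left; exact image_eq_empty.1 h
    · right
      refine eq_univ_of_forall fun c => ?_
      have : tt c ∈ tt '' s := by rw [h]; trivial
      obtain ⟨c', hc', e⟩ := this
      exact hsat c' c e hc'
  have hpre : PreconnectedSpace (Cv P) := by
    rw [preconnectedSpace_iff_clopen]
    intro s hs
    have hV : IsClopen (s ∩ iv ⁻¹' s) := hs.inter (hs.preimage continuous_iv)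
    have hW : IsClopen (sᶜ ∩ iv ⁻¹' sᶜ) := hs.compl.inter (hs.compl.preimage continuous_iv)
    rcases key _ hV (fun c hc => ⟨hc.2, by rw [mem_preimage, iv_iv]; exact hc.1⟩) with h | h
    · rcases key _ hW (fun c hc => ⟨hc.2, by rw [mem_preimage, iv_iv]; exact hc.1⟩) with h' | h'
      · exfalso
        by_cases h0 : wp P 0 ∈ s
        · have : wp P 0 ∈ s ∩ iv ⁻¹' s := ⟨h0, by rw [mem_preimage, iv_wp]; exact h0⟩
          rw [h] at this; exact this
        · have : wp P 0 ∈ sᶜ ∩ iv ⁻¹' sᶜ := ⟨h0, by rw [mem_preimage, iv_wp]; exact h0⟩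
          rw [h'] at this; exact this
      · left
        refine eq_empty_of_forall_notMem fun c hc => ?_
        have : c ∈ sᶜ ∩ iv ⁻¹' sᶜ := by rw [h']; trivial
        exact this.1 hc
    · right
      refine eq_univ_of_forall fun c => ?_
      have : c ∈ s ∩ iv ⁻¹' s := by rw [h]; trivial
      exact this.1
  exact { toPreconnectedSpace := hpre, toNonempty := hne }

/-! ### the two pieces as partial homeomorphisms -/

open Classical in
/-- the affine piece -/
def E0 (P : Par) : OpenPartialHomeomorph (Cv P) (Aff P.p0) where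
  toFun c := if h : tt c ≠ ∞ then ⟨(tv c, yv c), yv_sq h⟩
    else ⟨(P.c 0, 0), by show (0 : ℂ) ^ 2 = P.p0 (P.c 0); rw [p0_root]; norm_num⟩
  invFun := mk0
  source := {c | tt c ≠ ∞}
  target := univ
  map_source' _ _ := trivial
  map_target' q _ := OnePoint.coe_ne_infty q.1.1
  left_inv' c hc := by
    have h : tt c ≠ ∞ := hc
    simp only [dif_pos h]
    exact mk0_eq h
  right_inv' q _ := by
    have h : tt (mk0 q) ≠ ∞ := OnePoint.coe_ne_infty q.1.1
    simp only [dif_pos h]
    exact Subtype.ext (Prod.ext (tv_mk0 q) (yv_mk0 q))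
  open_source := isOpen_ne_inf
  open_target := isOpen_univ
  continuousOn_toFun := by
    rw [Topology.IsInducing.subtypeVal.continuousOn_iff]
    have h1 : ContinuousOn (fun c : Cv P => (tv c, yv c)) {c | tt c ≠ ∞} := fun c hc =>
      ((continuousAt_tv hc).prodMk (continuousAt_yv hc)).continuousWithinAt
    refine h1.congr fun c hc => ?_
    have h : tt c ≠ ∞ := hc
    simp only [Function.comp_def, dif_pos h]
  continuousOn_invFun := continuous_mk0.continuousOn

open Classical in
/-- the piece at infinity -/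
def E1 (P : Par) : OpenPartialHomeomorph (Cv P) (Aff P.p1) where
  toFun c := if h : tt c ≠ ((0 : ℂ) : P1) then ⟨(sv c, vv c), vv_sq h⟩
    else ⟨(0, 1), by show (1 : ℂ) ^ 2 = P.p1 0; rw [P.p1_zero, one_pow]⟩
  invFun := mk1
  source := {c | tt c ≠ ((0 : ℂ) : P1)}
  target := univ
  map_source' _ _ := trivial
  map_target' q _ := by
    show inv1 q.1.1 ≠ ((0 : ℂ) : P1)
    by_cases h : q.1.1 = 0
    · rw [h, inv1_zero]; exact OnePoint.infty_ne_coe 0
    · rw [inv1_ne h]
      intro e
      exact inv_ne_zero h (OnePoint.coe_injective e)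
  left_inv' c hc := by
    have h : tt c ≠ ((0 : ℂ) : P1) := hc
    simp only [dif_pos h]
    exact mk1_eq h
  right_inv' q _ := by
    have h : tt (mk1 q) ≠ ((0 : ℂ) : P1) := by
      show inv1 q.1.1 ≠ ((0 : ℂ) : P1)
      by_cases h : q.1.1 = 0
      · rw [h, inv1_zero]; exact OnePoint.infty_ne_coe 0
      · rw [inv1_ne h]
        intro e
        exact inv_ne_zero h (OnePoint.coe_injective e)
    simp only [dif_pos h]
    exact Subtype.ext (Prod.ext (sv_mk1 q) (vv_mk1 q))
  open_source := isOpen_ne_zero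
  open_target := isOpen_univ
  continuousOn_toFun := by
    rw [Topology.IsInducing.subtypeVal.continuousOn_iff]
    have h1 : ContinuousOn (fun c : Cv P => (sv c, vv c)) {c | tt c ≠ ((0 : ℂ) : P1)} := fun c hc =>
      ((continuousAt_sv hc).prodMk (continuousAt_vv hc)).continuousWithinAt
    refine h1.congr fun c hc => ?_
    have h : tt c ≠ ((0 : ℂ) : P1) := hc
    simp only [Function.comp_def, dif_pos h]
  continuousOn_invFun := continuous_mk1.continuousOn

@[simp] theorem E0_source : (E0 P).source = {c | tt c ≠ ∞} := rfl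
@[simp] theorem E0_target : (E0 P).target = univ := rfl
@[simp] theorem E0_symm (q : Aff P.p0) : (E0 P).symm q = mk0 q := rfl
@[simp] theorem E1_source : (E1 P).source = {c | tt c ≠ ((0 : ℂ) : P1)} := rfl
@[simp] theorem E1_target : (E1 P).target = univ := rfl
@[simp] theorem E1_symm (q : Aff P.p1) : (E1 P).symm q = mk1 q := rfl

theorem E0_apply {c : Cv P} (h : tt c ≠ ∞) : E0 P c = ⟨(tv c, yv c), yv_sq h⟩ := dif_pos h
theorem E1_apply {c : Cv P} (h : tt c ≠ ((0 : ℂ) : P1)) : E1 P c = ⟨(sv c, vv c), vv_sq h⟩ :=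
  dif_pos h

end Crest.Agent.R272.Cur_297
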