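import Mathlib

/-!
Row 272 (S0414), the explicit curves and maps (helper771).

`a² = -3`, `κ² = -2a`.  Weighted homogeneous coordinates:
* `C  : y² = x⁶ + z⁶`                       weights of `(x,y,z)`   = (1,3,1)
* `C' : y² = x⁶ + z⁶`, `s² = z (y + a z³)`   weights of `(x,y,z,s)` = (1,3,1,2)
* `f : C' → C` forgets `s`;
* `G : C' → C`, `(x,y,z,s) ↦ (X,Y,Z) = (y - a z³, MM y z, κ x s)`  (multiplies weights by 3).
* `τ : C → C`, `(x,y,z) ↦ (x,y,-z)`; `δ : C' → C'`, `s ↦ -s`; `f ∘ δ = f`, `G ∘ δ = τ ∘ G`.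
* base points `z₀ = (1,1,0,0)`, `w₀ = (1,1,0)`: `f z₀ = w₀`, `G z₀ = w₀`, `τ w₀ = w₀`.
Chart `∞` is `x = 1` (coordinates `(ξ,η,t) = (z,y,s)`), chart `0` is `z = 1`.
-/

set_option autoImplicit false

namespace Crest.Agent.R272.CurveId_771

/-- second coordinate (weight 9) of the etale map -/
def MM (a y z : ℂ) : ℂ := y ^ 3 + 9 * a * y ^ 2 * z ^ 3 - 9 * y * z ^ 6 - 9 * a * z ^ 9

/-- partial derivatives of `MM` -/
def MMy (a y z : ℂ) : ℂ := 3 * y ^ 2 + 18 * a * y * z ^ 3 - 9 * z ^ 6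
def MMz (a y z : ℂ) : ℂ := 27 * a * y ^ 2 * z ^ 2 - 54 * y * z ^ 5 - 81 * a * z ^ 8

/-- equation of (the cone over) `C` -/
def EqC (x y z : ℂ) : Prop := y ^ 2 = x ^ 6 + z ^ 6

/-- equations of (the cone over) `C'` -/
def EqC' (a x y z s : ℂ) : Prop := y ^ 2 = x ^ 6 + z ^ 6 ∧ s ^ 2 = z * (y + a * z ^ 3)

/-- tangent vectors of the cone over `C` -/
def TanC (x y z dx dy dz : ℂ) : Prop := y * dy = 3 * x ^ 5 * dx + 3 * z ^ 5 * dz

/-- tangent vectors of the cone over `C'` -/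
def TanC' (a x y z s dx dy dz ds : ℂ) : Prop :=
  y * dy = 3 * x ^ 5 * dx + 3 * z ^ 5 * dz ∧
  2 * s * ds = dz * (y + a * z ^ 3) + z * (dy + 3 * a * z ^ 2 * dz)

variable {a κ : ℂ}

theorem a_ne (ha : a ^ 2 = -3) : a ≠ 0 := by rintro rfl; norm_num at ha

theorem k_ne (ha : a ^ 2 = -3) (hk : κ ^ 2 = -2 * a) : κ ≠ 0 := by
  rintro rfl
  apply a_ne ha
  have : (0:ℂ) = -2 * a := by simpa using hk
  linear_combination (1/2 : ℂ) * this

theorem hasDerivAt_MM_y (a y z : ℂ) : HasDerivAt (fun y => MM a y z) (MMy a y z) y := by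
  unfold MM MMy
  have h2 := (((hasDerivAt_pow 3 y).add
    (((hasDerivAt_pow 2 y).const_mul (9 * a)).mul_const (z ^ 3))).sub
    (((hasDerivAt_id' y).const_mul 9).mul_const (z ^ 6))).sub_const (9 * a * z ^ 9)
  exact h2.congr_deriv (by push_cast; ring)

theorem hasDerivAt_MM_z (a y z : ℂ) : HasDerivAt (fun z => MM a y z) (MMz a y z) z := by
  unfold MM MMz
  have h2 := ((((hasDerivAt_pow 3 z).const_mul (9 * a * y ^ 2)).const_add (y ^ 3)).sub
    ((hasDerivAt_pow 6 z).const_mul (9 * y))).sub ((hasDerivAt_pow 9 z).const_mul (9 * a))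
  exact h2.congr_deriv (by push_cast; ring)

/-- the key polynomial identity -/
theorem MM_sq (ha : a ^ 2 = -3) (y z : ℂ) :
    MM a y z ^ 2 = 24 * a * (y ^ 2 - z ^ 6) * (z * (y + a * z ^ 3)) ^ 3 + (y - a * z ^ 3) ^ 6 := by
  unfold MM
  linear_combination (27 * y ^ 2 * z ^ 12 - 6 * y ^ 4 * z ^ 6 + 54 * a * y * z ^ 15
    - 52 * a * y ^ 3 * z ^ 9 + 27 * a ^ 2 * z ^ 18 - 39 * a ^ 2 * y ^ 2 * z ^ 12
    + 6 * a ^ 3 * y * z ^ 15 - a ^ 4 * z ^ 18) * ha

/-- `G` maps `C'` to `C` -/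
theorem G_mem (ha : a ^ 2 = -3) (hk : κ ^ 2 = -2 * a) {x y z s : ℂ} (h : EqC' a x y z s) :
    EqC (y - a * z ^ 3) (MM a y z) (κ * x * s) := by
  obtain ⟨h1, h2⟩ := h
  unfold EqC
  have e1 : (κ * x * s) ^ 6 = (κ ^ 2) ^ 3 * x ^ 6 * (s ^ 2) ^ 3 := by ring
  have e2 : x ^ 6 = y ^ 2 - z ^ 6 := by linear_combination -h1
  have e3 : (-2 * a) ^ 3 = 24 * a := by linear_combination (-8 * a) * ha
  rw [MM_sq ha, e1, hk, h2, e2, e3]
  ring

theorem f_mem {x y z s : ℂ} (h : EqC' a x y z s) : EqC x y z := h.1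

theorem tau_mem {x y z : ℂ} (h : EqC x y z) : EqC x y (-z) := by
  unfold EqC at *; rw [h]; ring

theorem delta_mem {x y z s : ℂ} (h : EqC' a x y z s) : EqC' a x y z (-s) := by
  refine ⟨h.1, ?_⟩; rw [neg_sq]; exact h.2

/-- points of the cone over `C'` other than the vertex have `(x,z) ≠ 0` -/
theorem xz_ne {x y z s : ℂ} (h : EqC' a x y z s) (hx : x = 0) (hz : z = 0) : y = 0 ∧ s = 0 := by
  obtain ⟨h1, h2⟩ := h
  subst hx; subst hz
  constructor
  · have : y ^ 2 = 0 := by rw [h1]; ring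
    exact pow_eq_zero_iff (two_ne_zero) |>.1 this
  · have : s ^ 2 = 0 := by rw [h2]; ring
    exact pow_eq_zero_iff (two_ne_zero) |>.1 this

/-- `G` is defined everywhere: `(y - a z³, κ x s) ≠ (0,0)` off the vertex -/
theorem G_ne (ha : a ^ 2 = -3) (hk : κ ^ 2 = -2 * a) {x y z s : ℂ} (h : EqC' a x y z s)
    (h0 : ¬ (x = 0 ∧ z = 0)) : ¬ (y - a * z ^ 3 = 0 ∧ κ * x * s = 0) := by
  rintro ⟨h3, h4⟩
  obtain ⟨h1, h2⟩ := h
  have hy : y = a * z ^ 3 := by linear_combination h3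
  have hx6 : x ^ 6 = -4 * z ^ 6 := by
    rw [hy] at h1
    linear_combination -h1 + z ^ 6 * ha
  have hs : s ^ 2 = 2 * a * z ^ 4 := by rw [h2, hy]; ring
  have hz : z = 0 := by
    rcases mul_eq_zero.1 h4 with h5 | h5
    · rcases mul_eq_zero.1 h5 with h6 | h6
      · exact absurd h6 (k_ne ha hk)
      · rw [h6] at hx6
        have : z ^ 6 = 0 := by linear_combination (-1/4 : ℂ) * hx6.symm
        exact pow_eq_zero_iff (by norm_num) |>.1 this
    · rw [h5] at hs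
      have h7 : 2 * a * z ^ 4 = 0 := by rw [← hs]; ring
      have h8 : z ^ 4 = 0 := by
        rcases mul_eq_zero.1 h7 with h9 | h9
        · exact absurd h9 (mul_ne_zero two_ne_zero (a_ne ha))
        · exact h9
      exact pow_eq_zero_iff (by norm_num) |>.1 h8
  have hx : x = 0 := by
    rw [hz] at hx6
    have : x ^ 6 = 0 := by rw [hx6]; ring
    exact pow_eq_zero_iff (by norm_num) |>.1 this
  exact h0 ⟨hx, hz⟩

/-- differentials of `G`: `dX = dy - 3a z² dz`, `dY = MMy dy + MMz dz`, `dZ = κ (s dx + x ds)`.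
Tangent vectors are mapped to tangent vectors. -/
theorem G_tan (ha : a ^ 2 = -3) (hk : κ ^ 2 = -2 * a) {x y z s dx dy dz ds : ℂ}
    (h : EqC' a x y z s) (ht : TanC' a x y z s dx dy dz ds) :
    TanC (y - a * z ^ 3) (MM a y z) (κ * x * s)
      (dy - 3 * a * z ^ 2 * dz) (MMy a y z * dy + MMz a y z * dz) (κ * (s * dx + x * ds)) := by
  obtain ⟨h1, h2⟩ := h
  obtain ⟨t1, t2⟩ := ht
  unfold TanC
  have hA : MM a y z * (MMy a y z * dy + MMz a y z * dz) =
      12 * a * (2 * y * dy - 6 * z ^ 5 * dz) * (z * (y + a * z ^ 3)) ^ 3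
      + 36 * a * (y ^ 2 - z ^ 6) * (z * (y + a * z ^ 3)) ^ 2
        * (dz * (y + a * z ^ 3) + z * (dy + 3 * a * z ^ 2 * dz))
      + 3 * (y - a * z ^ 3) ^ 5 * (dy - 3 * a * z ^ 2 * dz) := by
    unfold MM MMy MMz
    linear_combination (1/2 : ℂ) * ((54 * y * z ^ 12 - 24 * y ^ 3 * z ^ 6 + 54 * a * z ^ 15
      - 156 * a * y ^ 2 * z ^ 9 - 78 * a ^ 2 * y * z ^ 12 + 6 * a ^ 3 * z ^ 15) * dy
      + (324 * y ^ 2 * z ^ 11 - 36 * y ^ 4 * z ^ 5 + 810 * a * y * z ^ 14 - 468 * a * y ^ 3 * z ^ 8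
      + 486 * a ^ 2 * z ^ 17 - 468 * a ^ 2 * y ^ 2 * z ^ 11 + 90 * a ^ 3 * y * z ^ 14
      - 18 * a ^ 4 * z ^ 17) * dz) * ha
  have e0 : 2 * y * dy - 6 * z ^ 5 * dz = 6 * x ^ 5 * dx := by linear_combination 2 * t1
  have e2 : y ^ 2 - z ^ 6 = x ^ 6 := by linear_combination h1
  have e3 : (-2 * a) ^ 3 = 24 * a := by linear_combination (-8 * a) * ha
  have e4 : 3 * (κ * x * s) ^ 5 * (κ * (s * dx + x * ds)) =
      3 * (κ ^ 2) ^ 3 * x ^ 5 * s ^ 5 * (s * dx + x * ds) := by ring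
  rw [hA, e0, e2, ← t2, ← h2, e4, hk, e3]
  ring

theorem dY_eq (ha : a ^ 2 = -3) {y z dy dz : ℂ} (hX : dy - 3 * a * z ^ 2 * dz = 0) :
    MMy a y z * dy + MMz a y z * dz = 36 * a * z ^ 2 * (y + a * z ^ 3) ^ 2 * dz := by
  have hdy : dy = 3 * a * z ^ 2 * dz := by linear_combination hX
  unfold MMy MMz
  rw [hdy]
  linear_combination (-18 * y * z ^ 5 * dz - 36 * a * z ^ 8 * dz) * ha

/-- **`G` is etale** (and `C'` is smooth in the sense needed): a tangent vector of the cone over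
`C'` killed by `dG` is zero. -/
theorem G_etale (ha : a ^ 2 = -3) (hk : κ ^ 2 = -2 * a) {x y z s dx dy dz ds : ℂ}
    (h : EqC' a x y z s) (h0 : ¬ (x = 0 ∧ z = 0)) (ht : TanC' a x y z s dx dy dz ds)
    (hX : dy - 3 * a * z ^ 2 * dz = 0) (hY : MMy a y z * dy + MMz a y z * dz = 0)
    (hZ : κ * (s * dx + x * ds) = 0) : dx = 0 ∧ dy = 0 ∧ dz = 0 ∧ ds = 0 := by
  obtain ⟨h1, h2⟩ := h
  obtain ⟨t1, t2⟩ := ht
  have ha0 := a_ne ha
  have hdy : dy = 3 * a * z ^ 2 * dz := by linear_combination hX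
  have hZ' : s * dx + x * ds = 0 := by
    rcases mul_eq_zero.1 hZ with h5 | h5
    · exact absurd h5 (k_ne ha hk)
    · exact h5
  rw [dY_eq ha hX] at hY
  -- it suffices to show `dz = 0`, and `x ≠ 0` or `dx = 0`
  have key : dz = 0 → ds = 0 → (x ≠ 0 ∨ s ≠ 0) → dx = 0 ∧ dy = 0 ∧ dz = 0 ∧ ds = 0 := by
    intro hz hs hxs
    have hdy0 : dy = 0 := by rw [hdy, hz, mul_zero]
    refine ⟨?_, hdy0, hz, hs⟩
    rcases hxs with hx | hs'
    · rw [hdy0, hz] at t1
      have : x ^ 5 * dx = 0 := by linear_combination (-1/3 : ℂ) * t1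
      rcases mul_eq_zero.1 this with h5 | h5
      · exact absurd (pow_eq_zero_iff (by norm_num) |>.1 h5) hx
      · exact h5
    · rw [hs, mul_zero, add_zero] at hZ'
      exact (mul_eq_zero.1 hZ').resolve_left hs'
  have t2' : 2 * s * ds = dz * (y + 7 * a * z ^ 3) := by
    rw [t2, hdy]; ring
  by_cases hz : z = 0
  · have hx : x ≠ 0 := fun hx => h0 ⟨hx, hz⟩
    have hs : s = 0 := by
      rw [hz, zero_mul] at h2
      exact pow_eq_zero_iff two_ne_zero |>.1 h2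
    have hy : y ≠ 0 := by
      intro hy
      rw [hy, hz] at h1
      have : x ^ 6 = 0 := by linear_combination -h1
      exact hx (pow_eq_zero_iff (by norm_num) |>.1 this)
    have hds : ds = 0 := by
      rw [hs, zero_mul, zero_add] at hZ'
      exact (mul_eq_zero.1 hZ').resolve_left hx
    have hdz : dz = 0 := by
      rw [hs, hz] at t2'
      have : dz * y = 0 := by linear_combination -t2'
      exact (mul_eq_zero.1 this).resolve_right hy
    exact key hdz hds (Or.inl hx)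
  · by_cases hy : y + a * z ^ 3 = 0
    · have hs : s = 0 := by
        rw [hy, mul_zero] at h2
        exact pow_eq_zero_iff two_ne_zero |>.1 h2
      have hy' : y = -(a * z ^ 3) := by linear_combination hy
      have hx : x ≠ 0 := by
        intro hx
        rw [hy', hx] at h1
        have : z ^ 6 = 0 := by
          linear_combination (-1/4 : ℂ) * h1 + (1/4 : ℂ) * z ^ 6 * ha
        exact hz (pow_eq_zero_iff (by norm_num) |>.1 this)
      have hds : ds = 0 := by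
        rw [hs, zero_mul, zero_add] at hZ'
        exact (mul_eq_zero.1 hZ').resolve_left hx
      have hdz : dz = 0 := by
        rw [hs, hy'] at t2'
        have : dz * (6 * a * z ^ 3) = 0 := by linear_combination -t2'
        refine (mul_eq_zero.1 this).resolve_right ?_
        exact mul_ne_zero (mul_ne_zero (by norm_num) ha0) (pow_ne_zero _ hz)
      exact key hdz hds (Or.inl hx)
    · have hs : s ≠ 0 := by
        intro hs
        rw [hs] at h2
        have : z * (y + a * z ^ 3) = 0 := by rw [← h2]; ring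
        exact mul_ne_zero hz hy this
      have hdz : dz = 0 := by
        refine (mul_eq_zero.1 hY).resolve_left ?_
        exact mul_ne_zero (mul_ne_zero (mul_ne_zero (by norm_num) ha0) (pow_ne_zero _ hz))
          (pow_ne_zero _ hy)
      have hds : ds = 0 := by
        rw [hdz, zero_mul] at t2'
        exact (mul_eq_zero.1 t2').resolve_left (mul_ne_zero two_ne_zero hs)
      exact key hdz hds (Or.inr hs)

/-- Euler relation for `MM` (weight 9) -/
theorem MM_euler (a y z : ℂ) : MMy a y z * (3 * y) + MMz a y z * z = 9 * MM a y z := by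
  unfold MMy MMz MM; ring

/-- the Euler vector is tangent -/
theorem euler_tan {x y z s : ℂ} (h : EqC' a x y z s) :
    TanC' a x y z s x (3 * y) z (2 * s) := by
  obtain ⟨h1, h2⟩ := h
  constructor
  · linear_combination 3 * h1
  · linear_combination 4 * h2

theorem tan_sub {x y z s dx dy dz ds ex ey ez es : ℂ} (h : TanC' a x y z s dx dy dz ds)
    (h' : TanC' a x y z s ex ey ez es) (c : ℂ) :
    TanC' a x y z s (dx - c * ex) (dy - c * ey) (dz - c * ez) (ds - c * es) := by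
  obtain ⟨h1, h2⟩ := h
  obtain ⟨h3, h4⟩ := h'
  constructor
  · linear_combination h1 - c * h3
  · linear_combination h2 - c * h4

/-- **`G` is etale**, projective form: if `dG v` is a multiple of the Euler vector then so is `v`. -/
theorem G_etale_euler (ha : a ^ 2 = -3) (hk : κ ^ 2 = -2 * a) {x y z s dx dy dz ds c : ℂ}
    (h : EqC' a x y z s) (h0 : ¬ (x = 0 ∧ z = 0)) (ht : TanC' a x y z s dx dy dz ds)
    (hX : dy - 3 * a * z ^ 2 * dz = 3 * c * (y - a * z ^ 3))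
    (hY : MMy a y z * dy + MMz a y z * dz = 9 * c * MM a y z)
    (hZ : κ * (s * dx + x * ds) = 3 * c * (κ * x * s)) :
    dx = c * x ∧ dy = c * (3 * y) ∧ dz = c * z ∧ ds = c * (2 * s) := by
  have h1 := tan_sub ht (euler_tan h) c
  have h2 := G_etale ha hk h h0 h1 (by linear_combination hX)
    (by linear_combination hY - c * MM_euler a y z) (by linear_combination hZ)
  obtain ⟨e1, e2, e3, e4⟩ := h2
  exact ⟨sub_eq_zero.1 e1, sub_eq_zero.1 e2, sub_eq_zero.1 e3, sub_eq_zero.1 e4⟩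

/-- **`G` is etale in charts.** Source chart: `∞` (`x = 1, dx = 0`) or `0` (`z = 1, dz = 0`), more
generally `dx = 0, x ≠ 0` or `dz = 0, z ≠ 0`; target chart `∞` (`X ≠ 0`, coordinates `Z/X, Y/X³`). -/
theorem G_etale_inf (ha : a ^ 2 = -3) (hk : κ ^ 2 = -2 * a) {x y z s dx dy dz ds : ℂ}
    (h : EqC' a x y z s) (hs : (x ≠ 0 ∧ dx = 0) ∨ (z ≠ 0 ∧ dz = 0))
    (ht : TanC' a x y z s dx dy dz ds) (hX : y - a * z ^ 3 ≠ 0)
    (h1 : (y - a * z ^ 3) * (κ * (s * dx + x * ds)) = (κ * x * s) * (dy - 3 * a * z ^ 2 * dz))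
    (h2 : (y - a * z ^ 3) * (MMy a y z * dy + MMz a y z * dz) =
      3 * MM a y z * (dy - 3 * a * z ^ 2 * dz)) :
    dx = 0 ∧ dy = 0 ∧ dz = 0 ∧ ds = 0 := by
  have h0 : ¬ (x = 0 ∧ z = 0) := by
    rintro ⟨e1, e2⟩
    rcases hs with hs | hs
    · exact hs.1 e1
    · exact hs.1 e2
  obtain ⟨c, hc⟩ : ∃ c, dy - 3 * a * z ^ 2 * dz = 3 * c * (y - a * z ^ 3) :=
    ⟨(dy - 3 * a * z ^ 2 * dz) / (3 * (y - a * z ^ 3)), by field_simp⟩
  have h2' : MMy a y z * dy + MMz a y z * dz = 9 * c * MM a y z :=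
    mul_left_cancel₀ hX (by rw [h2, hc]; ring)
  have h1' : κ * (s * dx + x * ds) = 3 * c * (κ * x * s) :=
    mul_left_cancel₀ hX (by rw [h1, hc]; ring)
  obtain ⟨e1, e2, e3, e4⟩ := G_etale_euler ha hk h h0 ht hc h2' h1'
  have hc0 : c = 0 := by
    rcases hs with hs | hs
    · rw [hs.2] at e1
      exact (mul_eq_zero.1 e1.symm).resolve_right hs.1
    · rw [hs.2] at e3
      exact (mul_eq_zero.1 e3.symm).resolve_right hs.1
  rw [hc0] at e1 e2 e3 e4
  simp only [zero_mul] at e1 e2 e3 e4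
  exact ⟨e1, e2, e3, e4⟩

/-- the same for the target chart `0` (`Z ≠ 0`, coordinates `X/Z, Y/Z³`). -/
theorem G_etale_zero (ha : a ^ 2 = -3) (hk : κ ^ 2 = -2 * a) {x y z s dx dy dz ds : ℂ}
    (h : EqC' a x y z s) (hs : (x ≠ 0 ∧ dx = 0) ∨ (z ≠ 0 ∧ dz = 0))
    (ht : TanC' a x y z s dx dy dz ds) (hZ : κ * x * s ≠ 0)
    (h1 : (κ * x * s) * (dy - 3 * a * z ^ 2 * dz) = (y - a * z ^ 3) * (κ * (s * dx + x * ds)))
    (h2 : (κ * x * s) * (MMy a y z * dy + MMz a y z * dz) =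
      3 * MM a y z * (κ * (s * dx + x * ds))) :
    dx = 0 ∧ dy = 0 ∧ dz = 0 ∧ ds = 0 := by
  have h0 : ¬ (x = 0 ∧ z = 0) := by
    rintro ⟨e1, e2⟩
    rcases hs with hs | hs
    · exact hs.1 e1
    · exact hs.1 e2
  obtain ⟨c, hc⟩ : ∃ c, κ * (s * dx + x * ds) = 3 * c * (κ * x * s) :=
    ⟨κ * (s * dx + x * ds) / (3 * (κ * x * s)), (by
      rw [mul_assoc 3, mul_comm _ (κ * x * s), ← mul_assoc, mul_div_cancel₀]
      exact mul_ne_zero three_ne_zero hZ)⟩
  have h2' : MMy a y z * dy + MMz a y z * dz = 9 * c * MM a y z :=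
    mul_left_cancel₀ hZ (by rw [h2, hc]; ring)
  have h1' : dy - 3 * a * z ^ 2 * dz = 3 * c * (y - a * z ^ 3) :=
    mul_left_cancel₀ hZ (by rw [h1, hc]; ring)
  obtain ⟨e1, e2, e3, e4⟩ := G_etale_euler ha hk h h0 ht h1' h2' hc
  have hc0 : c = 0 := by
    rcases hs with hs | hs
    · rw [hs.2] at e1
      exact (mul_eq_zero.1 e1.symm).resolve_right hs.1
    · rw [hs.2] at e3
      exact (mul_eq_zero.1 e3.symm).resolve_right hs.1
  rw [hc0] at e1 e2 e3 e4
  simp only [zero_mul] at e1 e2 e3 e4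
  exact ⟨e1, e2, e3, e4⟩

/-- kernel of `df`: only where `s = 0` -/
theorem f_ker {x y z s ds : ℂ} (ht : TanC' a x y z s 0 0 0 ds) (hs : s ≠ 0) : ds = 0 := by
  have h2 := ht.2
  have h3 : 2 * s * ds = 0 := by rw [h2]; ring
  exact (mul_eq_zero.1 h3).resolve_left (mul_ne_zero two_ne_zero hs)

/-- at `s = 0` (off the vertex) the vertical vector is tangent: `f` is ramified there -/
theorem f_ram {x y z : ℂ} (ds : ℂ) : TanC' a x y z 0 0 0 0 ds := by
  constructor <;> ring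

/-- `C'` is smooth: at a point off the vertex one of the following partial determinants is nonzero.
(`x`-chart: `y ≠ 0` always when `z = 0`; etc.) -/
theorem smooth' (ha : a ^ 2 = -3) {x y z s : ℂ} (h : EqC' a x y z s) (h0 : ¬ (x = 0 ∧ z = 0)) :
    (s ≠ 0 ∧ (y ≠ 0 ∨ x ≠ 0)) ∨ (s = 0 ∧ x ≠ 0 ∧ y ≠ 0) := by
  obtain ⟨h1, h2⟩ := h
  by_cases hs : s = 0
  · right
    subst hs
    have h3 : z * (y + a * z ^ 3) = 0 := by rw [← h2]; ring
    rcases mul_eq_zero.1 h3 with hz | hy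
    · have hx : x ≠ 0 := fun hx => h0 ⟨hx, hz⟩
      refine ⟨rfl, hx, ?_⟩
      intro hy
      rw [hy, hz] at h1
      have : x ^ 6 = 0 := by linear_combination -h1
      exact hx (pow_eq_zero_iff (by norm_num) |>.1 this)
    · have hy' : y = -(a * z ^ 3) := by linear_combination hy
      have hx6 : x ^ 6 = -4 * z ^ 6 := by
        rw [hy'] at h1
        linear_combination -h1 + z ^ 6 * ha
      have hz : z ≠ 0 := by
        intro hz
        rw [hz] at hx6
        have : x ^ 6 = 0 := by rw [hx6]; ring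
        exact h0 ⟨pow_eq_zero_iff (by norm_num) |>.1 this, hz⟩
      refine ⟨rfl, ?_, ?_⟩
      · intro hx
        rw [hx] at hx6
        have : z ^ 6 = 0 := by linear_combination (-1/4 : ℂ) * hx6.symm
        exact hz (pow_eq_zero_iff (by norm_num) |>.1 this)
      · rw [hy']
        exact neg_ne_zero.2 (mul_ne_zero (a_ne ha) (pow_ne_zero _ hz))
  · left
    refine ⟨hs, ?_⟩
    by_contra hcon
    push Not at hcon
    obtain ⟨hy, hx⟩ := hcon
    rw [hy, hx] at h1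
    have : z ^ 6 = 0 := by linear_combination -h1
    exact h0 ⟨hx, pow_eq_zero_iff (by norm_num) |>.1 this⟩

/-- base points -/
theorem base_mem : EqC' a 1 1 0 0 := by
  constructor <;> norm_num

theorem base_G : ((1 : ℂ) - a * 0 ^ 3 = 1) ∧ MM a 1 0 = 1 ∧ κ * 1 * 0 = 0 := by
  refine ⟨by ring, ?_, by ring⟩
  unfold MM; ring

/-- contact of `f` and `τ ∘ f` at the base point: `ξ ∘ f = t² / (η + a ξ³)` (chart `∞`) -/
theorem xi_f {ξ η t : ℂ} (h : EqC' a 1 η ξ t) (hne : η + a * ξ ^ 3 ≠ 0) :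
    ξ = t ^ 2 / (η + a * ξ ^ 3) := by
  rw [h.2, mul_div_assoc, div_self hne, mul_one]

end Crest.Agent.R272.CurveId_771
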