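import Crest.Agent.R272.Root7_83

/-!
# R272, S14-ASM (helper414): the data `Dat14` from the discs

* `Discs AB AC h g z0 w0` : everything of the two universal covers `q : DD → B`, `p : DD → C` and of the lift `F` of `h`;
* `exists_discs` : from 894's `discs_ram`;
* `Sq14` : the conditions on the surface (holomorphic maps `π1`, `π2`, square classes, nowhere equal);
* `Discs.dat` : the `Dat14` of 83.
-/

set_option autoImplicit false
set_option linter.unusedSectionVars false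

open Set Filter Topology

namespace Crest.Agent.R272.Dt14_414

open Crest.Agent.R275.Geo Crest.Agent.R273.Fam_835 Crest.Agent.R273.Map_835
open Root_83 UnB_894 LbExt_259

noncomputable section

variable {X B C : Type} [TopologicalSpace X] [TopologicalSpace B] [TopologicalSpace C]
  {AB : Atl 1 B} {AC : Atl 1 C} {h g : B → C} {z0 : B} {w0 : C}

/-- the two universal covers and the lift of `h` -/
structure Discs (AB : Atl 1 B) (AC : Atl 1 C) (h g : B → C) (z0 : B) (w0 : C) where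
  q : DD → B
  p : DD → C
  hq : IsCoveringMap q
  hp : IsCoveringMap p
  lq : LBD AB q
  lp : LBD AC p
  hh : HolMap AB AC h
  hg : HolMap AB AC g
  F : DD → DD
  hF : Hol F
  pF : ∀ t, p (F t) = h (q t)
  pg : ∀ t, g (q t) = p t
  qo : q o = z0
  po : p o = w0
  Fo : F o = o
  hS : ∀ t : DD, ‖(F t : ℂ)‖ ≤ ‖(t : ℂ)‖ ^ 2
  fac : ∃ u : ℂ → ℂ, AnalyticAt ℂ u 0 ∧ u 0 ≠ 0 ∧ ∀ᶠ z in 𝓝 0, ex F z = z ^ 2 * u z

/-- existence of the discs: `p` a holomorphic universal covering of `C`, `g` a covering, `h` of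
order two at `z0` -/
theorem exists_discs {p : DD → C} (hp : IsCoveringMap p) (lp : LBD AC p) (hpo : p o = w0)
    (hh : HolMap AB AC h) (hg : HolMap AB AC g) (hgc : IsCoveringMap g)
    (hz : h z0 = w0) (gz : g z0 = w0)
    (hram : ∃ (j : AB.ι) (i : AC.ι), z0 ∈ (AB.e j).source ∧ h z0 ∈ (AC.e i).source ∧
      analyticOrderAt (fun u => rd1 AB AC h j i u - co AC i (h z0)) (co AB j z0) = (2 : ℕ)) :
    Nonempty (Discs AB AC h g z0 w0) := by
  obtain ⟨q, hq, lq, qo, pg, F, hF, Fo, pF, hS, u, hu⟩ :=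
    discs_ram hp lp hg hgc hh (gz.trans hpo.symm) (hz.trans hpo.symm) (le_refl 2) hram
  exact ⟨{ q := q, p := p, hq := hq, hp := hp, lq := lq, lp := lp, hh := hh, hg := hg, F := F
           hF := hF, pF := pF, pg := pg, qo := qo, po := hpo, Fo := Fo, hS := hS
           fac := ⟨u, hu⟩ }⟩

/-- the conditions on the surface `X → B × C` -/
structure Sq14 {n : ℕ} (CX : Fam n X) (AB : Atl 1 B) (AC : Atl 1 C) (h g : B → C) (z0 : B) (w0 : C)
    (π1 : X → B) (π2 : X → C) : Prop where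
  h1 : HolC CX (fam AB) π1
  h2 : HolC CX (fam AC) π2
  ne1 : ∀ x, ∃ᶠ z in 𝓝 x, π2 z ≠ w0
  ne2 : ∀ x, ∃ᶠ z in 𝓝 x, π2 z ≠ h (π1 z)
  ne3 : ∀ x, ∃ᶠ z in 𝓝 x, π1 z ≠ z0
  ne4 : ∀ x, ∃ᶠ z in 𝓝 x, π2 z ≠ g (π1 z)
  sq1 : ∀ x, π2 x = w0 → ∃ f, LC AC (π2 x) f ∧
    SqE CX x (fun z => f (π2 z) - f w0) (fun _ => 1)
  sq2 : ∀ x, π2 x = h (π1 x) → ∃ f, LC AC (π2 x) f ∧
    SqE CX x (fun z => f (π2 z) - f (h (π1 z))) (fun _ => 1)
  sq3 : ∀ x, π1 x = z0 → ∃ f, LC AB (π1 x) f ∧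
    SqE CX x (fun z => f (π1 z) - f z0) (fun _ => 1)
  sq4 : ∀ x, π2 x = g (π1 x) → ∃ f, LC AC (π2 x) f ∧
    SqE CX x (fun z => f (π2 z) - f (g (π1 z))) (fun _ => 1)

/-- the data of 83 -/
def Discs.dat {n : ℕ} {CX : Fam n X} {π1 : X → B} {π2 : X → C} (S : Discs AB AC h g z0 w0)
    (s : Sq14 CX AB AC h g z0 w0 π1 π2) : Dat14 CX AB AC where
  π1 := π1
  π2 := π2
  h1 := s.h1
  h2 := s.h2
  q := S.q
  p := S.p
  hq := S.hq
  hp := S.hp
  lq := S.lq
  lp := S.lp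
  h := h
  g := g
  hh := S.hh
  hg := S.hg
  F := S.F
  hF := S.hF.continuous
  pF := S.pF
  pg := S.pg
  ne1 := by rw [S.po]; exact s.ne1
  ne2 := s.ne2
  ne3 := by rw [S.qo]; exact s.ne3
  ne4 := s.ne4
  sq1 := by rw [S.po]; exact s.sq1
  sq2 := s.sq2
  sq3 := by rw [S.qo]; exact s.sq3
  sq4 := s.sq4

section

variable {n : ℕ} {CX : Fam n X} {π1 : X → B} {π2 : X → C} (S : Discs AB AC h g z0 w0)
  (s : Sq14 CX AB AC h g z0 w0 π1 π2)

@[simp] theorem dat_π1 : (S.dat s).π1 = π1 := rfl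
@[simp] theorem dat_π2 : (S.dat s).π2 = π2 := rfl
@[simp] theorem dat_q : (S.dat s).q = S.q := rfl
@[simp] theorem dat_p : (S.dat s).p = S.p := rfl
@[simp] theorem dat_F : (S.dat s).F = S.F := rfl
@[simp] theorem dat_h : (S.dat s).h = h := rfl
@[simp] theorem dat_g : (S.dat s).g = g := rfl

/-- the special fibre -/
def Fib (π1 : X → B) (π2 : X → C) (z0 : B) (w0 : C) : Set X := {x | π1 x = z0 ∧ π2 x = w0}

/-- the point of the covering over `x` with disc coordinates `(o, o)` -/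
def Discs.jX (x : Fib π1 π2 z0 w0) : (S.dat s).Xh :=
  ⟨((x : X), (o, o)), by
    show (π1 x, π2 x) = (S.q o, S.p o)
    rw [x.2.1, x.2.2, S.qo, S.po]⟩

theorem Discs.continuous_jX : Continuous (S.jX s) :=
  (continuous_subtype_val.prodMk continuous_const).subtype_mk _

@[simp] theorem Discs.fst_jX (x : Fib π1 π2 z0 w0) :
    pbFst (S.dat s).qp (S.dat s).π (S.jX s x) = x := rfl

@[simp] theorem Discs.T_jX (x : Fib π1 π2 z0 w0) : (S.dat s).T (S.jX s x) = o := rfl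

@[simp] theorem Discs.W_jX (x : Fib π1 π2 z0 w0) : (S.dat s).W (S.jX s x) = o := rfl

/-- every point of the covering with `T = W = 0` is of this form -/
theorem Discs.eq_jX {y : (S.dat s).Xh} (hT : ((S.dat s).T y : ℂ) = 0)
    (hW : ((S.dat s).W y : ℂ) = 0) : ∃ x : Fib π1 π2 z0 w0, y = S.jX s x := by
  have h1 : (S.dat s).T y = o := Subtype.ext hT
  have h2 : (S.dat s).W y = o := Subtype.ext hW
  have h3 : π1 (pbFst (S.dat s).qp (S.dat s).π y) = z0 := by
    have := (S.dat s).q_T y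
    rw [h1] at this
    exact this.symm.trans S.qo
  have h4 : π2 (pbFst (S.dat s).qp (S.dat s).π y) = w0 := by
    have := (S.dat s).p_W y
    rw [h2] at this
    exact this.symm.trans S.po
  refine ⟨⟨pbFst (S.dat s).qp (S.dat s).π y, h3, h4⟩, ?_⟩
  refine Subtype.ext (Prod.ext rfl (Prod.ext ?_ ?_))
  · exact h1
  · exact h2

end

end

end Crest.Agent.R272.Dt14_414
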