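import Crest.Agent.R272.TopG_414
import Crest.Agent.R272.Dt14_414

/-!
# R272, S14-ASM (helper414): conversions between the two forms of the end game of S0414

* `lc_iff` : 83's `LC` = 894's `LC`;
* `Sq14.of` : the conditions `ne1..ne4` follow from the square classes;
* `Discs.discD`, `Sq14.xmap`, `Sq14.sqD` : helper235's structures from `Discs`, `Sq14`;
* `s14_model` : the top of S0414 from `Discs`, `Sq14`, `SlD`.
-/

set_option autoImplicit false
set_option linter.unusedSectionVars false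

open Set Filter Topology
open scoped unitInterval

namespace Crest.Agent.R272.Dt14_414

open Crest.Agent.R275.Geo Crest.Agent.R275.Core144 Crest.Agent.R273.Fam_835 Crest.Agent.R273.Map_835
open Crest.Agent.R273.Defs_333 Crest.Agent.R273.HM_333
open Root_83 UnB_894 LbExt_259 Gm2_235 Top14_414 Wall4_275 DCov_426 Blup1_102 G14a_414

noncomputable section

theorem lc_iff {M : Type} [TopologicalSpace M] {A : Atl 1 M} {m : M} {f : M → ℂ} :
    Root_83.LC A m f ↔ UnB_894.LC A m f := ⟨fun h => ⟨h.1, h.2⟩, fun h => ⟨h.1, h.2⟩⟩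

variable {X B C : Type} [TopologicalSpace X] [TopologicalSpace B] [TopologicalSpace C]
  {AB : Atl 1 B} {AC : Atl 1 C} {h g : B → C} {z0 : B} {w0 : C}

theorem ne_of_sq {n : ℕ} {CX : Fam n X} {K : Type} [TopologicalSpace K] [T2Space K] {AK : Atl 1 K}
    {P H : X → K} (hP : Continuous P) (hH : Continuous H)
    (hs : ∀ x, P x = H x → ∃ f, Root_83.LC AK (P x) f ∧
      SqE CX x (fun z => f (P z) - f (H z)) (fun _ => 1)) (x : X) : ∃ᶠ z in 𝓝 x, P z ≠ H z := by
  by_cases hx : P x = H x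
  · obtain ⟨f, -, h1⟩ := hs x hx
    exact (UnB_894.SqE.freq h1).mono fun z hz h2 => hz (by rw [h2, sub_self])
  · have h1 : ∀ᶠ z in 𝓝 x, P z ≠ H z :=
      (isOpen_ne_fun hP hH).mem_nhds hx
    exact h1.frequently

/-- the conditions `ne1..ne4` are consequences -/
theorem Sq14.of [T2Space B] [T2Space C] {n : ℕ} {CX : Fam n X} {π1 : X → B} {π2 : X → C}
    (h1 : HolC CX (fam AB) π1) (h2 : HolC CX (fam AC) π2) (hh : Continuous h) (hg : Continuous g)
    (sq1 : ∀ x, π2 x = w0 → ∃ f, Root_83.LC AC (π2 x) f ∧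
      SqE CX x (fun z => f (π2 z) - f w0) (fun _ => 1))
    (sq2 : ∀ x, π2 x = h (π1 x) → ∃ f, Root_83.LC AC (π2 x) f ∧
      SqE CX x (fun z => f (π2 z) - f (h (π1 z))) (fun _ => 1))
    (sq3 : ∀ x, π1 x = z0 → ∃ f, Root_83.LC AB (π1 x) f ∧
      SqE CX x (fun z => f (π1 z) - f z0) (fun _ => 1))
    (sq4 : ∀ x, π2 x = g (π1 x) → ∃ f, Root_83.LC AC (π2 x) f ∧
      SqE CX x (fun z => f (π2 z) - f (g (π1 z))) (fun _ => 1)) :
    Sq14 CX AB AC h g z0 w0 π1 π2 where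
  h1 := h1
  h2 := h2
  ne1 := ne_of_sq h2.cont continuous_const sq1
  ne2 := ne_of_sq h2.cont (hh.comp h1.cont) sq2
  ne3 := ne_of_sq h1.cont continuous_const sq3
  ne4 := ne_of_sq h2.cont (hg.comp h1.cont) sq4
  sq1 := sq1
  sq2 := sq2
  sq3 := sq3
  sq4 := sq4

/-- helper235's form of the discs -/
theorem Discs.discD (S : Discs AB AC h g z0 w0) : DiscD AB AC S.q S.p h g S.F where
  hqc := S.hq
  hpc := S.hp
  hql := S.lq
  hpl := S.lp
  hF := S.hF
  hFo := S.Fo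
  hφ := S.pF
  hf := fun t => (S.pg t).symm
  hle := S.hS
  hK := by
    obtain ⟨u, hu, -, h1⟩ := S.fac
    exact ⟨u, hu, h1⟩

section

variable {n : ℕ} {CX : Fam n X} {π1 : X → B} {π2 : X → C}

theorem Sq14.xmap (s : Sq14 CX AB AC h g z0 w0 π1 π2) : XMap CX AB AC (fun x => (π1 x, π2 x)) where
  hπ := s.h1.cont.prodMk s.h2.cont
  h1 := s.h1
  h2 := s.h2

theorem Sq14.sqD (s : Sq14 CX AB AC h g z0 w0 π1 π2) :
    SqD CX AB AC (fun x => (π1 x, π2 x)) h g z0 w0 where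
  rW x hx := by
    obtain ⟨f, h1, h2⟩ := s.sq1 x hx
    have hx' : π2 x = w0 := hx
    rw [hx'] at h1
    exact ⟨f, lc_iff.1 h1, h2⟩
  rT x hx := by
    obtain ⟨f, h1, h2⟩ := s.sq3 x hx
    have hx' : π1 x = z0 := hx
    rw [hx'] at h1
    exact ⟨f, lc_iff.1 h1, h2⟩
  rF x hx := by
    obtain ⟨f, h1, h2⟩ := s.sq2 x hx
    exact ⟨f, lc_iff.1 h1, h2⟩
  rG x hx := by
    obtain ⟨f, h1, h2⟩ := s.sq4 x hx
    exact ⟨f, lc_iff.1 h1, h2⟩

end

end

end Crest.Agent.R272.Dt14_414
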