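import Crest.Agent.R272.Cyc2_760
import Crest.Agent.R272.BlupTop_102
import Crest.Agent.R272.Blup6_102

/-!
# R272 (S0414), S14-CYC, Cyc-BL (helper894 for helper760), part 1: the exceptional curve

`C : Ctr A` (helper102, `n = 2`), `s : C.S`:
* `exc C s : HCur (fam C.atl)`, `(exc C s).G w` = the point over `p s` with direction `w`;
* `exc_pi`, `exc_snd`, `exc_mem_V`, `exc_co`, `exc_mem_inl`, `exc_img`.
-/

set_option autoImplicit false
set_option linter.unusedSectionVars false

open Set Filter Topology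

namespace Crest.Agent.R272.CyB_894

open Crest.Agent.R275.Geo Crest.Agent.R275.Core144
open Crest.Agent.R273.Map_835 Crest.Agent.R273.Fam_835
open Crest.Agent.R272.Cyc_760 Crest.Agent.R272.Blup1_102 Crest.Agent.R272.Blup1_102.Ctr

noncomputable section

/-- a vector of `ℂ²` in `Cn 2` -/
def L2 (w : V2) : Cn 2 := WithLp.toLp 2 w

@[simp] theorem L2_apply (w : V2) (b : Fin 2) : L2 w b = w b := rfl

theorem L2_ne {w : V2} (h : w ≠ 0) : L2 w ≠ 0 := by
  intro h0
  apply h
  funext b
  exact congrArg (fun v : Cn 2 => v b) h0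

theorem L2_smul (c : ℂ) (w : V2) : L2 (c • w) = c • L2 w := rfl

theorem continuous_L2 : Continuous L2 := PiLp.continuous_toLp 2 _

variable {M : Type} [TopologicalSpace M] [T2Space M] {A : Atl 2 M} (C : Ctr A) (s : C.S)

open Classical in
/-- the point over `p s` with direction `w` -/
def eG (w : V2) : C.X :=
  if h : w ≠ 0 then ⟨(C.p s, (C.r s : ℂ) • prj (L2 w)), Or.inl ⟨s, rfl, L2 w, L2_ne h, rfl⟩⟩
  else C.lift (C.p s)

variable {w : V2}

theorem eG_val (h : w ≠ 0) : (eG C s w).1 = (C.p s, (C.r s : ℂ) • prj (L2 w)) := by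
  rw [eG, dif_pos h]

theorem pi_eG (w : V2) : C.pi (eG C s w) = C.p s := by
  by_cases h : w ≠ 0
  · rw [Ctr.pi, eG_val C s h]
  · rw [eG, dif_neg h, C.pi_lift]

theorem snd_eG (h : w ≠ 0) : (eG C s w).1.2 = (C.r s : ℂ) • prj (L2 w) := by
  rw [eG_val C s h]

theorem r_ne : (C.r s : ℂ) ≠ 0 := by exact_mod_cast (C.r_pos s).ne'

theorem eG_smul {c : ℂ} (hc : c ≠ 0) (h : w ≠ 0) : eG C s (c • w) = eG C s w := by
  refine Subtype.ext ?_
  rw [eG_val C s (smul_ne_zero hc h), eG_val C s h, L2_smul, prj_smul hc]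

theorem snd_div (h : w ≠ 0) {a : Fin 2} (ha : w a ≠ 0) (b : Fin 2) :
    (eG C s w).1.2 b a / (eG C s w).1.2 a a = w b / w a := by
  rw [snd_eG C s h]
  simp only [Pi.smul_apply, smul_eq_mul]
  rw [mul_div_mul_left _ _ (r_ne C s), prj_div (w := L2 w) ha]
  rfl

theorem snd_ne (h : w ≠ 0) {a : Fin 2} : (eG C s w).1.2 a a ≠ 0 ↔ w a ≠ 0 := by
  rw [snd_eG C s h]
  simp only [Pi.smul_apply, smul_eq_mul]
  rw [mul_ne_zero_iff, prj_diag_ne (L2_ne h)]
  exact ⟨fun h => h.2, fun h => ⟨r_ne C s, h⟩⟩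

/-- in which charts is the point -/
theorem eG_mem_V (h : w ≠ 0) {t : C.S} {a : Fin 2} :
    eG C s w ∈ C.V t a ↔ t = s ∧ w a ≠ 0 ∧ ∀ b, b ≠ a → ‖w b‖ < 2 * ‖w a‖ := by
  constructor
  · rintro ⟨h1, h2, h3⟩
    rw [pi_eG] at h1
    have ht : t = s := C.U_unique h1 (C.p_mem s)
    subst ht
    rw [snd_ne C t h] at h2
    refine ⟨rfl, h2, fun b hb => ?_⟩
    have h4 := h3 b hb
    have h5 : 0 < ‖(eG C t w).1.2 a a‖ := norm_pos_iff.2 ((snd_ne C t h).2 h2)
    rw [← div_lt_iff₀ h5, ← norm_div, snd_div C t h h2, norm_div, div_lt_iff₀ (norm_pos_iff.2 h2)] at h4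
    exact h4
  · rintro ⟨rfl, h2, h3⟩
    refine ⟨by rw [pi_eG]; exact C.p_mem t, (snd_ne C t h).2 h2, fun b hb => ?_⟩
    have h5 : 0 < ‖(eG C t w).1.2 a a‖ := norm_pos_iff.2 ((snd_ne C t h).2 h2)
    rw [← div_lt_iff₀ h5, ← norm_div, snd_div C t h h2, norm_div, div_lt_iff₀ (norm_pos_iff.2 h2)]
    exact h3 b hb

theorem eG_mem_inr (h : w ≠ 0) {t : C.S} {a : Fin 2} :
    eG C s w ∈ (C.atl.e (Sum.inr (t, a))).source ↔
      t = s ∧ w a ≠ 0 ∧ ∀ b, b ≠ a → ‖w b‖ < 2 * ‖w a‖ := eG_mem_V C s h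

theorem eG_mem_Z (w : V2) : C.pi (eG C s w) ∈ C.Z := by
  rw [pi_eG]
  exact ⟨s, rfl⟩

theorem eG_notMem_inl (w : V2) (i : A.ι) : eG C s w ∉ (C.atl.e (Sum.inl i)).source := fun h =>
  (C.mem_ec_inl.1 h).1 (eG_mem_Z C s w)

/-- the coordinates -/
theorem co_eG (h : w ≠ 0) {a : Fin 2} (ha : w a ≠ 0) :
    C.co s a (eG C s w) = WithLp.toLp 2 fun b => if b = a then 0 else w b / w a := by
  ext b
  rw [co_apply]
  show _ = if b = a then (0 : ℂ) else w b / w a
  split_ifs with hb
  · rw [pi_eG, z_p]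
    rfl
  · exact snd_div C s h ha b

theorem e_eG (h : w ≠ 0) {a : Fin 2} (ha : w a ≠ 0) :
    C.atl.e (Sum.inr (s, a)) (eG C s w) =
      sc 2 (WithLp.toLp 2 fun b => if b = a then 0 else w b / w a) := by
  rw [← co_eG C s h ha]
  rfl

theorem continuousAt_eG (h : w ≠ 0) : ContinuousAt (eG C s) w := by
  rw [Topology.IsInducing.subtypeVal.continuousAt_iff]
  have h1 : ContinuousAt (fun w : V2 => ((C.p s, (C.r s : ℂ) • prj (L2 w)) : M × MM 2)) w := by
    have h2 : ContinuousAt (fun w : V2 => prj (L2 w)) w :=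
      ContinuousAt.comp (g := prj) (continuousAt_prj (L2_ne h)) continuous_L2.continuousAt
    have h3 : ContinuousAt (fun w : V2 => (C.r s : ℂ) • prj (L2 w)) w :=
      (continuousAt_const : ContinuousAt (fun _ : V2 => (C.r s : ℂ)) w).smul h2
    exact continuousAt_const.prodMk h3
  refine h1.congr ?_
  filter_upwards [isOpen_ne.mem_nhds h] with v hv
  exact (eG_val C s hv).symm

theorem diff_chart {a : Fin 2} (ha : w a ≠ 0) : DifferentiableAt ℂ
    (fun w : V2 => sc 2 (WithLp.toLp 2 fun b => if b = a then (0 : ℂ) else w b / w a)) w := by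
  refine DifferentiableAt.comp w (g := sc 2) (differentiable_sc _) ?_
  rw [differentiableAt_euclidean]
  intro b
  show DifferentiableAt ℂ (fun w : V2 => if b = a then (0 : ℂ) else w b / w a) w
  split_ifs with hb
  · exact differentiableAt_const _
  · have h1 : DifferentiableAt ℂ (fun w : V2 => w b) w := differentiableAt_pi.1 differentiableAt_id b
    have h2 : DifferentiableAt ℂ (fun w : V2 => w a) w := differentiableAt_pi.1 differentiableAt_id a
    simp only [div_eq_mul_inv]
    exact h1.fun_mul (h2.fun_inv ha)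

theorem ev_eG (h : w ≠ 0) {a : Fin 2} (ha : w a ≠ 0) :
    (fun w => C.atl.e (Sum.inr (s, a)) (eG C s w)) =ᶠ[𝓝 w]
      fun w => sc 2 (WithLp.toLp 2 fun b => if b = a then (0 : ℂ) else w b / w a) := by
  have h1 : ContinuousAt (fun w : V2 => w a) w := (continuous_apply a).continuousAt
  filter_upwards [isOpen_ne.mem_nhds h, h1.eventually_ne ha] with v hv hva
  exact e_eG C s hv hva

/-- the kernel of the differential of `w b / w a` -/
theorem ker_div {a b : Fin 2} (ha : w a ≠ 0) {v : V2}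
    (hv : fderiv ℂ (fun w : V2 => w b / w a) w v = 0) : v b = v a / w a * w b := by
  have h1 : DifferentiableAt ℂ (fun w : V2 => w b) w := differentiableAt_pi.1 differentiableAt_id b
  have h2 : DifferentiableAt ℂ (fun w : V2 => w a) w := differentiableAt_pi.1 differentiableAt_id a
  have hg : DifferentiableAt ℂ (fun w : V2 => w b / w a) w := by
    simp only [div_eq_mul_inv]
    exact h1.fun_mul (h2.fun_inv ha)
  have h3 : HasFDerivAt (fun w : V2 => w b / w a * w a)
      ((w b / w a) • (ContinuousLinearMap.proj (R := ℂ) (φ := fun _ : Fin 2 => ℂ) a) +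
        (w a) • fderiv ℂ (fun w : V2 => w b / w a) w) w :=
    hg.hasFDerivAt.mul (hasFDerivAt_apply a w)
  have h4 : HasFDerivAt (fun w : V2 => w b)
      ((w b / w a) • (ContinuousLinearMap.proj (R := ℂ) (φ := fun _ : Fin 2 => ℂ) a) +
        (w a) • fderiv ℂ (fun w : V2 => w b / w a) w) w := by
    refine h3.congr_of_eventuallyEq ?_
    have h5 : ContinuousAt (fun w : V2 => w a) w := (continuous_apply a).continuousAt
    filter_upwards [h5.eventually_ne ha] with u hu
    rw [div_mul_cancel₀ _ hu]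
  have h6 := h4.unique (hasFDerivAt_apply b w)
  have h7 := congrArg (fun L : V2 →L[ℂ] ℂ => L v) h6
  simp only [_root_.add_apply, _root_.smul_apply, ContinuousLinearMap.proj_apply, smul_eq_mul,
    hv, mul_zero, add_zero] at h7
  rw [← h7]
  ring

/-- a function of the chart of the curve has differential zero -/
theorem fd_zero {E F : Type*} [NormedAddCommGroup E] [NormedSpace ℂ E] [NormedAddCommGroup F]
    [NormedSpace ℂ F] {f : V2 → E} {g : E → F} (hf : DifferentiableAt ℂ f w)
    (hg : DifferentiableAt ℂ g (f w)) {v : V2} (hv : fderiv ℂ f w v = 0) :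
    fderiv ℂ (fun w => g (f w)) w v = 0 := by
  have h1 := (hg.hasFDerivAt.comp w hf.hasFDerivAt).fderiv
  simp only [Function.comp_def] at h1
  rw [h1, ContinuousLinearMap.comp_apply, hv, map_zero]

/-- **the exceptional curve** -/
def exc : HCur (fam C.atl) where
  G := eG C s
  smul c hc w hw := eG_smul C s hc hw
  ha w hw := by
    obtain ⟨a, ha, hm⟩ := exists_max (L2_ne hw)
    refine HA.of (i := (Sum.inr (s, a) : C.atl.ι)) (continuousAt_eG C s hw)
      ((eG_mem_inr C s hw).2 ⟨rfl, ha, fun b _ => ?_⟩) ?_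
    · have h1 : 0 < ‖w a‖ := norm_pos_iff.2 ha
      have h2 : ‖w b‖ ≤ ‖w a‖ := hm b
      linarith
    · exact (diff_chart ha).congr_of_eventuallyEq (ev_eG C s hw ha)
  imm w hw := by
    obtain ⟨a, ha, hm⟩ := exists_max (L2_ne hw)
    have ha' : w a ≠ 0 := ha
    refine ⟨(Sum.inr (s, a) : C.atl.ι), (eG_mem_inr C s hw).2 ⟨rfl, ha, fun b _ => ?_⟩,
      fun v hv => ?_⟩
    · have h1 : 0 < ‖w a‖ := norm_pos_iff.2 ha
      have h2 : ‖w b‖ ≤ ‖w a‖ := hm b
      linarith
    · have hv' : fderiv ℂ (fun w : V2 => sc 2 (WithLp.toLp 2 fun b =>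
          if b = a then (0 : ℂ) else w b / w a)) w v = 0 := by
        rw [← (ev_eG C s hw ha).fderiv_eq]
        exact hv
      refine ⟨v a / w a, funext fun b => ?_⟩
      by_cases hb : b = a
      · subst hb
        simp [ha']
      · rw [Pi.smul_apply, smul_eq_mul]
        refine ker_div ha ?_
        have h3 := fd_zero (g := fun z : Cn 2 => (sc 2).symm z b) (diff_chart ha)
          ((differentiableAt_euclidean.1 (differentiable_sc_symm _)) b) hv'
        have e3 : (fun w : V2 => (sc 2).symm (sc 2 (WithLp.toLp 2 fun b =>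
            if b = a then (0 : ℂ) else w b / w a)) b) = fun w : V2 => w b / w a := by
          funext u
          rw [Homeomorph.symm_apply_apply]
          show (if b = a then (0 : ℂ) else u b / u a) = _
          rw [if_neg hb]
        rw [e3] at h3
        exact h3
  inj w w' hw hw' h := by
    have h1 : (C.r s : ℂ) • prj (L2 w) = (C.r s : ℂ) • prj (L2 w') := by
      rw [← snd_eG C s hw, ← snd_eG C s hw', h]
    have h2 := smul_right_injective _ (r_ne C s) h1
    obtain ⟨c, -, hc⟩ := prj_inj (L2_ne hw) (L2_ne hw') h2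
    exact ⟨c, funext fun b => congrArg (fun v : Cn 2 => v b) hc⟩

@[simp] theorem exc_G (w : V2) : (exc C s).G w = eG C s w := rfl

/-- the image of the exceptional curve is the fibre -/
theorem exc_img : (exc C s).img = C.pi ⁻¹' {C.p s} := by
  ext y
  constructor
  · rintro ⟨w, hw, rfl⟩
    exact pi_eG C s w
  · intro hy
    have hy' : C.pi y = C.p s := hy
    obtain ⟨P, rfl⟩ := C.exists_ep hy'
    obtain ⟨u, hu, hP⟩ := P.2
    have hu' : (fun b => u b : V2) ≠ 0 := fun h => hu (by
      ext b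
      exact congrFun h b)
    refine ⟨fun b => u b, hu', Subtype.ext ?_⟩
    rw [exc_G, eG_val C s hu']
    have : L2 (fun b => u b) = u := by
      ext b
      rfl
    rw [this, ← hP]
    rfl

end

end Crest.Agent.R272.CyB_894
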