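import Crest.Agent.R272.CyB1_894

/-!
# R272 (S0414), S14-CYC, Cyc-BL (helper894 for helper760), part 2: the strict transform

`Two C1 C2` : `C2` blows up the point `T-direction` (`= C1.ci s1 0 0`, chart `inr (s1, 0)`) of the
exceptional curve `E_s1` of `C1`, and no other point of `E_s1`.
* `τ.str : HCur (fam C2.atl)` = strict transform of `E_s1`;
* `τ.pi_sG`, `τ.co_sG`, `τ.sG_eq`, `τ.meet_iff`, `τ.trans_str_exc`.
-/

set_option autoImplicit false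
set_option linter.unusedSectionVars false

open Set Filter Topology

namespace Crest.Agent.R272.CyB_894

open Crest.Agent.R275.Geo Crest.Agent.R275.Core144
open Crest.Agent.R273.Map_835 Crest.Agent.R273.Fam_835
open Crest.Agent.R272.Cyc_760 Crest.Agent.R272.Blup1_102 Crest.Agent.R272.Blup1_102.Ctr

noncomputable section

variable {M : Type} [TopologicalSpace M] [T2Space M] {A : Atl 2 M}

theorem zero_mem_T (C : Ctr A) (s : C.S) (a : Fin 2) : (0 : Cn 2) ∈ C.T s a := by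
  refine ⟨?_, fun b _ => ?_⟩
  · rw [PiLp.zero_apply, zero_smul, norm_zero]
    exact C.r_pos s
  · rw [PiLp.zero_apply, norm_zero]
    exact two_pos

/-- the point with coordinates `0` in the chart `(s, a)` -/
theorem ci_zero (C : Ctr A) (s : C.S) (a : Fin 2) :
    C.ci s a 0 = eG C s (fun b => if b = a then 1 else 0) := by
  have h1 : (fun b : Fin 2 => if b = a then (1 : ℂ) else 0) ≠ 0 := fun h => by
    have := congrFun h a
    simp at this
  refine Subtype.ext ?_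
  have hW : W a (0 : Cn 2) = L2 (fun b => if b = a then 1 else 0) := by
    ext b
    rfl
  have hp : C.pt s ((0 : Cn 2) a • W a (0 : Cn 2)) = C.p s := by
    rw [PiLp.zero_apply, zero_smul, pt, add_zero, (A.e (C.i s)).left_inv (C.hp s)]
  rw [C.ci_val (zero_mem_T C s a), eG_val C s h1, cp, hp, hW, amp, z_p, norm_zero, sub_zero]

/-- `C2` blows up one point of the exceptional curve `E_s1` of `C1` -/
structure Two (C1 : Ctr A) (C2 : Ctr C1.atl) where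
  s1 : C1.S
  s2 : C2.S
  hi : C2.i s2 = Sum.inr (s1, 0)
  hp : C2.p s2 = C1.ci s1 0 0
  hno : ∀ t, C1.pi (C2.p t) = C1.p s1 → t = s2

namespace Two

variable {C1 : Ctr A} {C2 : Ctr C1.atl} (τ : Two C1 C2)

/-- the vectors `(1,0)` and `(0,1)` -/
def e0 : V2 := fun b => if b = 0 then 1 else 0
def e1 : V2 := fun b => if b = 1 then 1 else 0

@[simp] theorem e0_zero : e0 0 = 1 := rfl
@[simp] theorem e0_one : e0 1 = 0 := rfl
@[simp] theorem e1_zero : e1 0 = 0 := rfl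
@[simp] theorem e1_one : e1 1 = 1 := rfl

theorem e0_ne : e0 ≠ 0 := fun h => one_ne_zero (congrFun h 0)
theorem e1_ne : e1 ≠ 0 := fun h => one_ne_zero (congrFun h 1)

theorem p_eq : C2.p τ.s2 = eG C1 τ.s1 e0 := by
  rw [τ.hp, ci_zero]
  rfl

variable {w : V2}

theorem smul_e0 (h : w 1 = 0) : w = w 0 • e0 := v2_ext (by simp) (by simp [h])
theorem smul_e1 (h : w 0 = 0) : w = w 1 • e1 := v2_ext (by simp [h]) (by simp)

theorem ne_zero_of_one (hw : w ≠ 0) (h : w 1 = 0) : w 0 ≠ 0 := fun h0 => hw (v2_ext h0 h)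
theorem ne_one_of_zero (hw : w ≠ 0) (h : w 0 = 0) : w 1 ≠ 0 := fun h0 => hw (v2_ext h h0)

/-- the centre on the exceptional curve -/
theorem eG_eq_p (hw : w ≠ 0) : eG C1 τ.s1 w = C2.p τ.s2 ↔ w 1 = 0 := by
  rw [τ.p_eq]
  constructor
  · intro h
    obtain ⟨c, hc⟩ := (exc C1 τ.s1).inj _ _ hw e0_ne h
    have h0 := congrFun hc 0
    have h1 := congrFun hc 1
    simp only [e0_zero, e0_one, Pi.smul_apply, smul_eq_mul] at h0 h1
    rcases mul_eq_zero.1 h1.symm with h2 | h2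
    · rw [h2, zero_mul] at h0
      exact absurd h0 one_ne_zero
    · exact h2
  · intro h
    have h0 := ne_zero_of_one hw h
    rw [smul_e0 h, eG_smul C1 τ.s1 h0 e0_ne]

theorem eG_notMem_Z (hw : w 1 ≠ 0) : eG C1 τ.s1 w ∉ C2.Z := by
  have hw0 : w ≠ 0 := fun h => hw (by rw [h]; rfl)
  rintro ⟨t, ht⟩
  have h1 : C1.pi (C2.p t) = C1.p τ.s1 := by rw [ht, pi_eG]
  have h2 := τ.hno t h1
  subst h2
  exact hw ((τ.eG_eq_p hw0).1 ht.symm)

open Classical in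
/-- the strict transform -/
def sG (w : V2) : C2.X := if w 1 = 0 then eG C2 τ.s2 e1 else C2.lift (eG C1 τ.s1 w)

theorem sG_of_eq (h : w 1 = 0) : τ.sG w = eG C2 τ.s2 e1 := by rw [sG, if_pos h]

theorem sG_of_ne (h : w 1 ≠ 0) : τ.sG w = C2.lift (eG C1 τ.s1 w) := by rw [sG, if_neg h]

theorem pi_sG (hw : w ≠ 0) : C2.pi (τ.sG w) = eG C1 τ.s1 w := by
  by_cases h : w 1 = 0
  · rw [τ.sG_of_eq h, pi_eG, (τ.eG_eq_p hw).2 h]
  · rw [τ.sG_of_ne h, C2.pi_lift]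

/-- the local parameter -/
def x (w : V2) : ℂ := w 1 / w 0 / 5

/-- the vector `(0, x)` -/
def vx (x : ℂ) : Cn 2 := EuclideanSpace.single 1 x

@[simp] theorem vx_zero (x : ℂ) : vx x 0 = 0 := by simp [vx]
@[simp] theorem vx_one (x : ℂ) : vx x 1 = x := by simp [vx]

theorem norm_vx (x : ℂ) : ‖vx x‖ = ‖x‖ := by simp [vx]

theorem vx_smul (x : ℂ) : vx x 1 • W 1 (vx x) = vx x := by
  ext b
  fin_cases b
  · simp [W_apply]
  · simp [W_apply]

theorem vx_mem {y : ℂ} (h : ‖y‖ < C2.r τ.s2) : vx y ∈ C2.T τ.s2 1 := by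
  refine ⟨?_, fun b hb => ?_⟩
  · rw [vx_smul, norm_vx]
    exact h
  · have : b = 0 := by
      fin_cases b
      · rfl
      · exact absurd rfl hb
    rw [this, vx_zero, norm_zero]
    exact two_pos

theorem e_p2 : C1.atl.e (C2.i τ.s2) (C2.p τ.s2) = sc 2 0 := by
  rw [τ.hi, τ.hp]
  show sc 2 (C1.co τ.s1 0 (C1.ci τ.s1 0 0)) = _
  rw [C1.co_ci (zero_mem_T C1 τ.s1 0)]

theorem sc_add (v : Cn 2) : sc 2 0 + v = sc 2 ((5 : ℂ) • v) := by
  show ((1 / 5 : ℂ) • (0 : Cn 2) + kap 2) + v = (1 / 5 : ℂ) • ((5 : ℂ) • v) + kap 2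
  rw [smul_zero, zero_add, smul_smul]
  norm_num
  exact add_comm _ _

theorem mem_T1 {y : ℂ} (h : ‖y‖ < C2.r τ.s2) : (5 : ℂ) • vx y ∈ C1.T τ.s1 0 := by
  have h1 : C1.atl.e (C2.i τ.s2) (C2.p τ.s2) + vx y ∈ (C1.atl.e (C2.i τ.s2)).target :=
    C2.sub_ball (by rw [norm_vx]; exact h)
  rw [τ.e_p2, sc_add, τ.hi] at h1
  have h2 : (sc 2).symm (sc 2 ((5 : ℂ) • vx y)) ∈ C1.T τ.s1 0 := h1
  rwa [Homeomorph.symm_apply_apply] at h2

theorem pt_vx {y : ℂ} (h : ‖y‖ < C2.r τ.s2) : C2.pt τ.s2 (vx y) = C1.ci τ.s1 0 ((5 : ℂ) • vx y) := by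
  rw [Ctr.pt, τ.e_p2, sc_add, τ.hi]
  show C1.ci τ.s1 0 ((sc 2).symm (sc 2 ((5 : ℂ) • vx y))) = _
  rw [Homeomorph.symm_apply_apply]

theorem eG_eq_ci (h0 : w 0 ≠ 0) (h : ‖x w‖ < C2.r τ.s2) :
    eG C1 τ.s1 w = C1.ci τ.s1 0 ((5 : ℂ) • vx (x w)) := by
  have hw : w ≠ 0 := fun h1 => h0 (by rw [h1]; rfl)
  have h1 := τ.mem_T1 h
  have h2 : ‖w 1 / w 0‖ < 2 := by
    have h3 := h1.2 1 (by decide)
    rw [PiLp.smul_apply, vx_one, smul_eq_mul, x, mul_div_cancel₀ _ (by norm_num : (5 : ℂ) ≠ 0)] at h3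
    exact h3
  have h4 : eG C1 τ.s1 w ∈ C1.V τ.s1 0 := by
    refine (eG_mem_V C1 τ.s1 hw).2 ⟨rfl, h0, fun b hb => ?_⟩
    have : b = 1 := by
      fin_cases b
      · exact absurd rfl hb
      · rfl
    rw [this]
    rwa [norm_div, div_lt_iff₀ (norm_pos_iff.2 h0)] at h2
  rw [← C1.ci_co h4, co_eG C1 τ.s1 hw h0]
  congr 1
  ext b
  fin_cases b
  · simp
  · show w 1 / w 0 = (5 : ℂ) * vx (x w) 1
    rw [vx_one, x, mul_div_cancel₀ _ (by norm_num : (5 : ℂ) ≠ 0)]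

/-- **the chart at the second centre** -/
theorem sG_eq (h0 : w 0 ≠ 0) (h : ‖x w‖ < C2.r τ.s2) :
    τ.sG w = C2.ci τ.s2 1 (vx (x w)) := by
  by_cases h1 : w 1 = 0
  · have hx : x w = 0 := by rw [x, h1, zero_div, zero_div]
    have hv : vx (0 : ℂ) = 0 := by
      ext b
      fin_cases b <;> simp
    rw [τ.sG_of_eq h1, hx, hv, ci_zero]
    rfl
  · refine C2.ext_off ?_ ?_
    · rw [τ.sG_of_ne h1, C2.pi_lift, C2.pi_ci (τ.vx_mem h), vx_smul, τ.pt_vx h, τ.eG_eq_ci h0 h]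
    · rw [τ.sG_of_ne h1, C2.pi_lift]
      exact τ.eG_notMem_Z h1

theorem sG_mem_V (h0 : w 0 ≠ 0) (h : ‖x w‖ < C2.r τ.s2) : τ.sG w ∈ C2.V τ.s2 1 := by
  rw [τ.sG_eq h0 h]
  exact C2.ci_mem (τ.vx_mem h)

theorem co_sG (h0 : w 0 ≠ 0) (h : ‖x w‖ < C2.r τ.s2) : C2.co τ.s2 1 (τ.sG w) = vx (x w) := by
  rw [τ.sG_eq h0 h, C2.co_ci (τ.vx_mem h)]

theorem sG_smul {c : ℂ} (hc : c ≠ 0) (hw : w ≠ 0) : τ.sG (c • w) = τ.sG w := by
  by_cases h : w 1 = 0
  · rw [τ.sG_of_eq h, τ.sG_of_eq (by simp [h])]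
  · rw [τ.sG_of_ne h, τ.sG_of_ne (by simp [h, hc]), eG_smul C1 τ.s1 hc hw]

theorem mem_Z_iff (hw : w ≠ 0) : C2.pi (τ.sG w) ∈ C2.Z ↔ w 1 = 0 := by
  rw [τ.pi_sG hw]
  constructor
  · intro h
    by_contra h1
    exact τ.eG_notMem_Z h1 h
  · intro h
    exact ⟨τ.s2, ((τ.eG_eq_p hw).2 h).symm⟩

theorem mem_inl (hw : w ≠ 0) {i : C1.atl.ι} : τ.sG w ∈ (C2.atl.e (Sum.inl i)).source ↔
    w 1 ≠ 0 ∧ eG C1 τ.s1 w ∈ (C1.atl.e i).source := by
  have h := C2.mem_ec_inl (i := i) (y := τ.sG w)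
  rw [τ.mem_Z_iff hw, τ.pi_sG hw] at h
  exact h

/-! ### near a point -/

theorem differentiableAt_x (h0 : w 0 ≠ 0) : DifferentiableAt ℂ x w := by
  have h1 : DifferentiableAt ℂ (fun w : V2 => w 1) w := differentiableAt_pi.1 differentiableAt_id 1
  have h2 : DifferentiableAt ℂ (fun w : V2 => w 0) w := differentiableAt_pi.1 differentiableAt_id 0
  unfold x
  simp only [div_eq_mul_inv]
  exact (h1.fun_mul (h2.fun_inv h0)).mul_const _

theorem differentiable_vx : Differentiable ℂ vx := by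
  intro y
  rw [differentiableAt_euclidean]
  intro b
  fin_cases b
  · simp
  · simp

theorem ev_x (hw : w ≠ 0) (h : w 1 = 0) : ∀ᶠ w' : V2 in 𝓝 w, w' ≠ 0 ∧ w' 0 ≠ 0 ∧
    ‖x w'‖ < C2.r τ.s2 := by
  have h0 := ne_zero_of_one hw h
  have h1 : ContinuousAt (fun w : V2 => w 0) w := (continuous_apply 0).continuousAt
  have h2 : ContinuousAt (fun w : V2 => ‖x w‖) w := (differentiableAt_x h0).continuousAt.norm
  have h3 : ‖x w‖ < C2.r τ.s2 := by
    rw [x, h, zero_div, zero_div, norm_zero]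
    exact C2.r_pos _
  filter_upwards [isOpen_ne.mem_nhds hw, h1.eventually_ne h0, h2.eventually (gt_mem_nhds h3)]
    with v h4 h5 h6
  exact ⟨h4, h5, h6⟩

theorem ev_sG (hw : w ≠ 0) (h : w 1 = 0) : (fun w => C2.atl.e (Sum.inr (τ.s2, 1)) (τ.sG w))
    =ᶠ[𝓝 w] fun w => sc 2 (vx (x w)) := by
  filter_upwards [τ.ev_x hw h] with v hv
  show sc 2 (C2.co τ.s2 1 (τ.sG v)) = _
  rw [τ.co_sG hv.2.1 hv.2.2]

theorem mem_inr (hw : w ≠ 0) (h : w 1 = 0) :
    τ.sG w ∈ (C2.atl.e (Sum.inr (τ.s2, 1))).source := by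
  obtain ⟨-, h1, h2⟩ := (τ.ev_x hw h).self_of_nhds
  exact τ.sG_mem_V h1 h2

theorem diff_sx (h0 : w 0 ≠ 0) : DifferentiableAt ℂ (fun w => sc 2 (vx (x w))) w :=
  DifferentiableAt.comp w (g := fun y => sc 2 (vx y))
    (DifferentiableAt.comp _ (g := sc 2) (differentiable_sc _) (differentiable_vx _))
    (differentiableAt_x h0)

theorem continuousAt_sG (hw : w ≠ 0) : ContinuousAt τ.sG w := by
  by_cases h : w 1 = 0
  · have h0 := ne_zero_of_one hw h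
    obtain ⟨-, h1, h2⟩ := (τ.ev_x hw h).self_of_nhds
    have h3 : ContinuousAt (fun w => C2.ci τ.s2 1 (vx (x w))) w := by
      have h4 : ContinuousAt (C2.ci τ.s2 1) (vx (x w)) :=
        (C2.continuousOn_ci τ.s2 1).continuousAt ((C2.isOpen_T τ.s2 1).mem_nhds (τ.vx_mem h2))
      exact ContinuousAt.comp (g := C2.ci τ.s2 1) h4
        (ContinuousAt.comp (g := vx) (differentiable_vx _).continuousAt
          (differentiableAt_x h0).continuousAt)
    refine h3.congr ?_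
    filter_upwards [τ.ev_x hw h] with v hv
    exact (τ.sG_eq hv.2.1 hv.2.2).symm
  · have h1 : ContinuousAt (fun w => C2.lift (eG C1 τ.s1 w)) w := by
      have h2 : ContinuousAt C2.lift (eG C1 τ.s1 w) :=
        C2.continuousOn_lift.continuousAt (C2.isClosed_Z.isOpen_compl.mem_nhds (τ.eG_notMem_Z h))
      exact ContinuousAt.comp (g := C2.lift) h2 (continuousAt_eG C1 τ.s1 hw)
    refine h1.congr ?_
    have h3 : ContinuousAt (fun w : V2 => w 1) w := (continuous_apply 1).continuousAt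
    filter_upwards [h3.eventually_ne h] with v hv
    exact (τ.sG_of_ne hv).symm

theorem ev_inl (hw : w ≠ 0) (i : C1.atl.ι) :
    (fun w => C2.atl.e (Sum.inl i) (τ.sG w)) =ᶠ[𝓝 w] fun w => C1.atl.e i (eG C1 τ.s1 w) := by
  filter_upwards [isOpen_ne.mem_nhds hw] with v hv
  show C1.atl.e i (C2.pi (τ.sG v)) = _
  rw [τ.pi_sG hv]

/-- **the strict transform of the exceptional curve** -/
def str : HCur (fam C2.atl) where
  G := τ.sG
  smul c hc w hw := τ.sG_smul hc hw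
  ha w hw := by
    by_cases h : w 1 = 0
    · exact HA.of (i := (Sum.inr (τ.s2, 1) : C2.atl.ι)) (τ.continuousAt_sG hw) (τ.mem_inr hw h)
        ((diff_sx (ne_zero_of_one hw h)).congr_of_eventuallyEq (τ.ev_sG hw h))
    · obtain ⟨i, hi⟩ := C1.atl.cover (eG C1 τ.s1 w)
      exact HA.of (i := (Sum.inl i : C2.atl.ι)) (τ.continuousAt_sG hw)
        ((τ.mem_inl hw).2 ⟨h, hi⟩)
        ((((exc C1 τ.s1).ha w hw).diff i hi).congr_of_eventuallyEq (τ.ev_inl hw i))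
  imm w hw := by
    by_cases h : w 1 = 0
    · have h0 := ne_zero_of_one hw h
      refine ⟨(Sum.inr (τ.s2, 1) : C2.atl.ι), τ.mem_inr hw h, fun v hv => ?_⟩
      have hv' : fderiv ℂ (fun w => sc 2 (vx (x w))) w v = 0 := by
        rw [← (τ.ev_sG hw h).fderiv_eq]
        exact hv
      have h3 := fd_zero (g := fun z : Cn 2 => 5 * (sc 2).symm z 1) (diff_sx h0)
        (((differentiableAt_euclidean.1 (differentiable_sc_symm _)) 1).const_mul 5) hv'
      have e3 : (fun w : V2 => 5 * (sc 2).symm (sc 2 (vx (x w))) 1) =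
          fun w : V2 => w 1 / w 0 := by
        funext u
        rw [Homeomorph.symm_apply_apply, vx_one, x, mul_div_cancel₀ _ (by norm_num : (5 : ℂ) ≠ 0)]
      rw [e3] at h3
      refine ⟨v 0 / w 0, v2_ext ?_ ?_⟩
      · simp [h0]
      · exact ker_div h0 h3
    · obtain ⟨i, hi⟩ := C1.atl.cover (eG C1 τ.s1 w)
      refine ⟨(Sum.inl i : C2.atl.ι), (τ.mem_inl hw).2 ⟨h, hi⟩, fun v hv => ?_⟩
      refine (exc C1 τ.s1).imm' hw (i := i) hi ?_
      have e3 := (τ.ev_inl hw i).fderiv_eq (𝕜 := ℂ)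
      have hv' : fderiv ℂ (fun w => C2.atl.e (Sum.inl i) (τ.sG w)) w v = 0 := hv
      rw [e3] at hv'
      exact hv'
  inj w w' hw hw' h := by
    have h1 : C2.pi (τ.sG w) = C2.pi (τ.sG w') := congrArg C2.pi h
    rw [τ.pi_sG hw, τ.pi_sG hw'] at h1
    exact (exc C1 τ.s1).inj _ _ hw hw' h1

@[simp] theorem str_G (w : V2) : τ.str.G w = τ.sG w := rfl

/-! ### the intersection with the second exceptional curve -/

theorem meet_iff {w' : V2} (hw : w ≠ 0) (hw' : w' ≠ 0) :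
    τ.sG w = eG C2 τ.s2 w' ↔ w 1 = 0 ∧ w' 0 = 0 := by
  constructor
  · intro h
    have h1 : w 1 = 0 := by
      rw [← τ.mem_Z_iff hw, h]
      exact eG_mem_Z C2 τ.s2 w'
    refine ⟨h1, ?_⟩
    rw [τ.sG_of_eq h1] at h
    obtain ⟨c, hc⟩ := (exc C2 τ.s2).inj _ _ e1_ne hw' h
    have := congrFun hc 0
    simpa using this
  · rintro ⟨h1, h2⟩
    rw [τ.sG_of_eq h1, smul_e1 h2, eG_smul C2 τ.s2 (ne_one_of_zero hw' h2) e1_ne]

theorem mem_exc_inr {w' : V2} (hw' : w' ≠ 0) (h : w' 0 = 0) :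
    eG C2 τ.s2 w' ∈ (C2.atl.e (Sum.inr (τ.s2, 1))).source := by
  refine (eG_mem_inr C2 τ.s2 hw').2 ⟨rfl, ne_one_of_zero hw' h, fun b hb => ?_⟩
  have : b = 0 := by
    fin_cases b
    · rfl
    · exact absurd rfl hb
  rw [this, h, norm_zero]
  exact mul_pos two_pos (norm_pos_iff.2 (ne_one_of_zero hw' h))

/-- a component of a differential -/
theorem fd_comp {f : V2 → Cn 2} {w v : V2} (hf : DifferentiableAt ℂ f w) (b : Fin 2) :
    fderiv ℂ (fun w => f w b) w v = fderiv ℂ f w v b := by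
  have h1 := ((EuclideanSpace.proj b : Cn 2 →L[ℂ] ℂ).hasFDerivAt.comp w hf.hasFDerivAt).fderiv
  have h2 : (⇑(EuclideanSpace.proj b : Cn 2 →L[ℂ] ℂ) ∘ f) = fun w => f w b := rfl
  rw [h2] at h1
  rw [h1]
  rfl

/-- **transversality of the two curves** -/
theorem trans_str_exc : HTrans τ.str (exc C2 τ.s2) := by
  intro w w' hw hw' he
  obtain ⟨h1, h2⟩ := (τ.meet_iff hw hw').1 he
  have h0 := ne_zero_of_one hw h1
  have h0' := ne_one_of_zero hw' h2
  refine ⟨(Sum.inr (τ.s2, 1) : C2.atl.ι), τ.mem_inr hw h1, fun v v' hv => ?_⟩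
  have d1 : DifferentiableAt ℂ (fun w => C2.atl.e (Sum.inr (τ.s2, 1)) (τ.sG w)) w :=
    (diff_sx h0).congr_of_eventuallyEq (τ.ev_sG hw h1)
  have d2 : DifferentiableAt ℂ (fun w => C2.atl.e (Sum.inr (τ.s2, 1)) (eG C2 τ.s2 w)) w' :=
    (diff_chart h0').congr_of_eventuallyEq (ev_eG C2 τ.s2 hw' h0')
  have hv' : fderiv ℂ (fun w => C2.atl.e (Sum.inr (τ.s2, 1)) (τ.sG w)) w v =
    fderiv ℂ (fun w => C2.atl.e (Sum.inr (τ.s2, 1)) (eG C2 τ.s2 w)) w' v' := hv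
  show fderiv ℂ (fun w => C2.atl.e (Sum.inr (τ.s2, 1)) (τ.sG w)) w v = 0
  have k0 : fderiv ℂ (fun w => C2.atl.e (Sum.inr (τ.s2, 1)) (τ.sG w)) w v 0 = 0 := by
    rw [← fd_comp d1]
    have e3 : (fun w => C2.atl.e (Sum.inr (τ.s2, 1)) (τ.sG w) 0) =ᶠ[𝓝 w]
        fun _ => (1 / 5 : ℂ) * 0 + (1 + Complex.I) / 2 := by
      filter_upwards [τ.ev_sG hw h1] with u hu
      rw [hu]
      show (1 / 5 : ℂ) * vx (x u) 0 + (1 + Complex.I) / 2 = _
      rw [vx_zero]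
    rw [e3.fderiv_eq]
    simp
  have k1 : fderiv ℂ (fun w => C2.atl.e (Sum.inr (τ.s2, 1)) (eG C2 τ.s2 w)) w' v' 1 = 0 := by
    rw [← fd_comp d2]
    have e3 : (fun w => C2.atl.e (Sum.inr (τ.s2, 1)) (eG C2 τ.s2 w) 1) =ᶠ[𝓝 w']
        fun _ => (1 / 5 : ℂ) * 0 + (1 + Complex.I) / 2 := by
      filter_upwards [ev_eG C2 τ.s2 hw' h0'] with u hu
      rw [hu]
      rfl
    rw [e3.fderiv_eq]
    simp
  ext b
  fin_cases b
  · exact k0
  · rw [hv']
    exact k1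

end Two

end

end Crest.Agent.R272.CyB_894
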