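import Crest.Agent.R272.CyB4_894
import Crest.Agent.R272.BlS1_266

/-!
# R272 (S0414), S14-CYC, Cyc-BL (helper894), part 5: the slopes with 266's parameters

`BlS_266.Bg γ hγ x = ((x 0 - x 1) / (2 γ), (x 0 + x 1) / 2)`.
-/

set_option autoImplicit false
set_option linter.unusedSectionVars false

open Set Filter Topology

namespace Crest.Agent.R272.CyB_894

open Crest.Agent.R275.Geo Crest.Agent.R275.Core144
open Crest.Agent.R273.Map_835 Crest.Agent.R273.Fam_835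
open Crest.Agent.R272.Cyc_760 Crest.Agent.R272.Blup1_102 Crest.Agent.R272.Blup1_102.Ctr
open Crest.Agent.R272.Two_102 Crest.Agent.R272.BlA_266 Crest.Agent.R272.Adp_409
open Crest.Agent.R272.Asm2_102 Crest.Agent.R272.Gm3_235

noncomputable section

theorem bg_symm_apply (γ : ℂ) (hγ : γ ≠ 0) (w : V2) :
    (BlS_266.Bg γ hγ).symm w = ![w 1 + γ * w 0, w 1 - γ * w 0] := rfl

theorem bg_symm_e0 (γ : ℂ) (hγ : γ ≠ 0) : (BlS_266.Bg γ hγ).symm Two.e0 = ![γ, -γ] := by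
  rw [bg_symm_apply]
  funext i
  fin_cases i <;> simp

theorem bg_symm_e1 (γ : ℂ) (hγ : γ ≠ 0) : (BlS_266.Bg γ hγ).symm Two.e1 = ![1, 1] := by
  rw [bg_symm_apply]
  funext i
  fin_cases i <;> simp

theorem bg_sum (γ : ℂ) (hγ : γ ≠ 0) :
    (BlS_266.Bg γ hγ).symm Two.e0 0 + (BlS_266.Bg γ hγ).symm Two.e0 1 = 0 := by
  rw [bg_symm_e0]
  simp

theorem bg_zero_ne {γ : ℂ} {hγ : γ ≠ 0} {x : V2} (hx : x 0 ≠ x 1) :
    BlS_266.Bg γ hγ x 0 ≠ 0 := by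
  rw [BlS_266.Bg_zero]
  exact div_ne_zero (sub_ne_zero.2 hx) (mul_ne_zero two_ne_zero hγ)

theorem bg_div {γ : ℂ} {hγ : γ ≠ 0} {x : V2} (hx : x 0 ≠ x 1) :
    BlS_266.Bg γ hγ x 1 / BlS_266.Bg γ hγ x 0 = γ * (x 0 + x 1) / (x 0 - x 1) := by
  have h0 : x 0 - x 1 ≠ 0 := sub_ne_zero.2 hx
  rw [BlS_266.Bg_zero, BlS_266.Bg_one]
  field_simp

section two

variable {M : Type} [TopologicalSpace M] [T2Space M] {A : Atl 2 M}

namespace Two

variable {C1 : Ctr A} {C2 : Ctr C1.atl} (τ : Two C1 C2)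

/-- **V1** with 266's parameters -/
theorem rat_strG {γ : ℂ} {hγ : γ ≠ 0} {x : V2} (hx : x 0 ≠ x 1) :
    Rat (fun y => C1.z τ.s1 (C1.pi (C2.pi y)) 0) (fun y => C1.z τ.s1 (C1.pi (C2.pi y)) 1)
      ((τ.str.pre (BlS_266.Bg γ hγ)).G x) (γ * (x 0 + x 1) / (x 0 - x 1)) := by
  have h1 := τ.rat_str (bg_zero_ne (γ := γ) (hγ := hγ) hx)
  rw [bg_div hx] at h1
  exact h1

/-- **V2** with any parameters -/
theorem rat_excG (B : V2 ≃L[ℂ] V2) (x : V2) :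
    Rat (fun y => C1.z τ.s1 (C1.pi (C2.pi y)) 0) (fun y => C1.z τ.s1 (C1.pi (C2.pi y)) 1)
      (((exc C2 τ.s2).pre B).G x) 0 := τ.rat_exc (B x)

end Two

end two

section tower

variable {M : Type} [TopologicalSpace M] [T2Space M] {A : Atl 2 M} {ρ : Type} (P : PD A ρ)
  {Z : Set M} (hZ : Z.Finite) (N : ∀ x : Z, Node P (x : M))
  (t : (D1 P hZ N).S) (ht : t ∈ tau (D1 P hZ N) (sh1 P hZ N))

/-- **V1 on 102's tower**, 266's parameters -/
theorem rat_strG {γ : ℂ} {hγ : γ ≠ 0} {x : V2} (hx : x 0 ≠ x 1) :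
    Rat (fun y => (N t).T (piN P hZ N y)) (fun y => (N t).S (piN P hZ N y))
      (((two14 P hZ N t ht).str.pre (BlS_266.Bg γ hγ)).G x) (γ * (x 0 + x 1) / (x 0 - x 1)) := by
  have h1 := rat_str14 P hZ N t ht (bg_zero_ne (γ := γ) (hγ := hγ) hx)
  rw [bg_div hx] at h1
  exact h1

end tower

end

end Crest.Agent.R272.CyB_894
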