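import Crest.Agent.R272.DCov4_426
import Crest.Agent.R272.CpRat2_423

/-!
# R272 (S0414), leaf S14-CYC (helper760), part 1: homogeneous rational curves

* `HA C F w`  : `F : E → X` (`E` a normed space) is holomorphic at `w`;
* `HCur C`    : rational curve as a homogeneous map `G : ℂ² ∖ 0 → X` (holomorphic, `G (c • w) = G w`,
                injective and immersive modulo scalars);
* `HCur.map`, `HCur.pre`, `HCur.toP1C`, `HTrans`, `HTrans.toP1C`.
-/

set_option autoImplicit false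
set_option linter.unusedSectionVars false

open Set Filter Topology

namespace Crest.Agent.R272.Cyc_760

open Crest.Agent.R275.Geo Crest.Agent.R275.Core144
open Crest.Agent.R273.Map_835 Crest.Agent.R273.Fam_835
open Crest.Agent.R272.CpRat423

noncomputable section

variable {E : Type*} [NormedAddCommGroup E] [NormedSpace ℂ E]
  {n m : ℕ} {X Y : Type} [TopologicalSpace X] [TopologicalSpace Y]
  {C : Fam n X} {D : Fam m Y}

/-- `F` is holomorphic at `w` -/
structure HA (C : Fam n X) (F : E → X) (w : E) : Prop where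
  cont : ContinuousAt F w
  diff : ∀ i, F w ∈ (C.e i).source → DifferentiableAt ℂ (fun w => C.e i (F w)) w

section HA

variable {F : E → X} {w : E}

theorem comp_fd {V : Type*} [NormedAddCommGroup V] [NormedSpace ℂ V] {g : X → V} {i : C.ι}
    (hc : ContinuousAt F w) (hi : F w ∈ (C.e i).source)
    (hd : DifferentiableAt ℂ (fun w => C.e i (F w)) w)
    (hg : DifferentiableAt ℂ (fun z => g ((C.e i).symm z)) (C.e i (F w))) :
    HasFDerivAt (fun w => g (F w)) ((fderiv ℂ (fun z => g ((C.e i).symm z)) (C.e i (F w))).comp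
      (fderiv ℂ (fun w => C.e i (F w)) w)) w := by
  have h1 := hg.hasFDerivAt.comp w hd.hasFDerivAt
  refine h1.congr_of_eventuallyEq ?_
  filter_upwards [hc ((C.e i).open_source.mem_nhds hi)] with u hu
  simp only [Function.comp]
  rw [(C.e i).left_inv hu]

theorem tr_diff (C : Fam n X) {i j : C.ι} {x : X} (hi : x ∈ (C.e i).source)
    (hj : x ∈ (C.e j).source) :
    DifferentiableAt ℂ (fun z => C.e j ((C.e i).symm z)) (C.e i x) :=
  (C.holo i j).differentiableAt (((C.e i).isOpen_inter_preimage_symm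
    (C.e j).open_source).mem_nhds ⟨(C.e i).map_source hi, by
      rw [mem_preimage, (C.e i).left_inv hi]; exact hj⟩)

theorem HA.of (hc : ContinuousAt F w) {i : C.ι} (hi : F w ∈ (C.e i).source)
    (hd : DifferentiableAt ℂ (fun w => C.e i (F w)) w) : HA C F w :=
  ⟨hc, fun _ hj => (comp_fd hc hi hd (tr_diff C hi hj)).differentiableAt⟩

theorem HA.congr {F' : E → X} (h : HA C F w) (he : F' =ᶠ[𝓝 w] F) : HA C F' w := by
  refine ⟨h.cont.congr he.symm, fun i hi => ?_⟩
  have h1 : F' w = F w := he.eq_of_nhds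
  rw [h1] at hi
  refine (h.diff i hi).congr_of_eventuallyEq ?_
  filter_upwards [he] with u hu
  rw [hu]

/-- functions on `X` composed with `F` -/
theorem HA.fun_diff {V : Type*} [NormedAddCommGroup V] [NormedSpace ℂ V] {g : X → V} {i : C.ι}
    (h : HA C F w) (hi : F w ∈ (C.e i).source)
    (hg : DifferentiableAt ℂ (fun z => g ((C.e i).symm z)) (C.e i (F w))) :
    DifferentiableAt ℂ (fun w => g (F w)) w :=
  (comp_fd h.cont hi (h.diff i hi) hg).differentiableAt

theorem HA.fun_zero {V : Type*} [NormedAddCommGroup V] [NormedSpace ℂ V] {g : X → V} {i : C.ι}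
    (h : HA C F w) (hi : F w ∈ (C.e i).source)
    (hg : DifferentiableAt ℂ (fun z => g ((C.e i).symm z)) (C.e i (F w))) {v : E}
    (hv : fderiv ℂ (fun w => C.e i (F w)) w v = 0) :
    fderiv ℂ (fun w => g (F w)) w v = 0 := by
  rw [(comp_fd h.cont hi (h.diff i hi) hg).fderiv, ContinuousLinearMap.comp_apply, hv, map_zero]

theorem HA.fun_eq {V : Type*} [NormedAddCommGroup V] [NormedSpace ℂ V] {g : X → V} {i : C.ι}
    {E' : Type*} [NormedAddCommGroup E'] [NormedSpace ℂ E'] {F' : E' → X} {w' : E'}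
    (h : HA C F w) (h' : HA C F' w') (he : F w = F' w') (hi : F w ∈ (C.e i).source)
    (hg : DifferentiableAt ℂ (fun z => g ((C.e i).symm z)) (C.e i (F w))) {v : E} {v' : E'}
    (hv : fderiv ℂ (fun w => C.e i (F w)) w v = fderiv ℂ (fun w => C.e i (F' w)) w' v') :
    fderiv ℂ (fun w => g (F w)) w v = fderiv ℂ (fun w => g (F' w)) w' v' := by
  have hi' : F' w' ∈ (C.e i).source := he ▸ hi
  have hg' : DifferentiableAt ℂ (fun z => g ((C.e i).symm z)) (C.e i (F' w')) := he ▸ hg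
  rw [(comp_fd h.cont hi (h.diff i hi) hg).fderiv,
    (comp_fd h'.cont hi' (h'.diff i hi') hg').fderiv, ContinuousLinearMap.comp_apply,
    ContinuousLinearMap.comp_apply, hv, he]

theorem hol_diff {p : X → Y} (hp : HolC C D p) {i : C.ι} {j : D.ι} {x : X}
    (hi : x ∈ (C.e i).source) (hj : p x ∈ (D.e j).source) :
    DifferentiableAt ℂ (fun z => D.e j (p ((C.e i).symm z))) (C.e i x) :=
  hp.diffAt ((C.e i).map_source hi) (by rw [(C.e i).left_inv hi]; exact hj)

theorem HA.comp {p : X → Y} (hp : HolC C D p) (h : HA C F w) : HA D (fun w => p (F w)) w := by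
  refine ⟨ContinuousAt.comp (g := p) hp.cont.continuousAt h.cont, fun j hj => ?_⟩
  obtain ⟨i, hi⟩ := C.cover (F w)
  exact h.fun_diff (g := fun x => D.e j (p x)) hi (hol_diff hp hi hj)

theorem HA.comp_zero {p : X → Y} (hp : HolC C D p) (h : HA C F w) {i : C.ι} {j : D.ι}
    (hi : F w ∈ (C.e i).source) (hj : p (F w) ∈ (D.e j).source) {v : E}
    (hv : fderiv ℂ (fun w => C.e i (F w)) w v = 0) :
    fderiv ℂ (fun w => D.e j (p (F w))) w v = 0 :=
  h.fun_zero (g := fun x => D.e j (p x)) hi (hol_diff hp hi hj) hv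

/-- precomposition -/
theorem HA.pre {E' : Type*} [NormedAddCommGroup E'] [NormedSpace ℂ E'] {f : E' → E} {u : E'}
    (hf : DifferentiableAt ℂ f u) (h : HA C F (f u)) : HA C (fun u => F (f u)) u :=
  ⟨ContinuousAt.comp (g := F) h.cont hf.continuousAt, fun i hi =>
    DifferentiableAt.comp u (g := fun w => C.e i (F w)) (h.diff i hi) hf⟩

theorem HA.pre_fderiv {E' : Type*} [NormedAddCommGroup E'] [NormedSpace ℂ E'] {f : E' → E} {u : E'}
    (hf : DifferentiableAt ℂ f u) (h : HA C F (f u)) {i : C.ι} (hi : F (f u) ∈ (C.e i).source)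
    (v : E') : fderiv ℂ (fun u => C.e i (F (f u))) u v =
      fderiv ℂ (fun w => C.e i (F w)) (f u) (fderiv ℂ f u v) := by
  have h1 := (h.diff i hi).hasFDerivAt.comp u hf.hasFDerivAt
  have h2 := h1.fderiv
  simp only [Function.comp_def] at h2
  rw [h2]
  rfl

end HA

/-- the vectors `(x, y)` -/
abbrev V2 : Type := Fin 2 → ℂ

/-- a rational curve, as a homogeneous map -/
structure HCur (C : Fam n X) where
  G : V2 → X
  smul : ∀ c : ℂ, c ≠ 0 → ∀ w : V2, w ≠ 0 → G (c • w) = G w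
  ha : ∀ w : V2, w ≠ 0 → HA C G w
  imm : ∀ w : V2, w ≠ 0 → ∃ i, G w ∈ (C.e i).source ∧ ∀ v : V2,
    fderiv ℂ (fun w => C.e i (G w)) w v = 0 → ∃ c : ℂ, v = c • w
  inj : ∀ w w' : V2, w ≠ 0 → w' ≠ 0 → G w = G w' → ∃ c : ℂ, w' = c • w

namespace HCur

variable (Γ : HCur C)

/-- the image -/
def img : Set X := {x | ∃ w : V2, w ≠ 0 ∧ Γ.G w = x}

theorem imm' {w : V2} (hw : w ≠ 0) {i : C.ι} (hi : Γ.G w ∈ (C.e i).source) {v : V2}
    (hv : fderiv ℂ (fun w => C.e i (Γ.G w)) w v = 0) : ∃ c : ℂ, v = c • w := by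
  obtain ⟨j, hj, h⟩ := Γ.imm w hw
  exact h v ((Γ.ha w hw).fun_zero (g := fun x => C.e j x) hi (tr_diff C hi hj) hv)

theorem euler {w : V2} (hw : w ≠ 0) {i : C.ι} (hi : Γ.G w ∈ (C.e i).source) :
    fderiv ℂ (fun w => C.e i (Γ.G w)) w w = 0 := by
  have h1 : HasDerivAt (fun c : ℂ => (1 + c) • w) w 0 := by
    have h2 : HasDerivAt (fun c : ℂ => (1 + c)) 1 0 := (hasDerivAt_id' (0 : ℂ)).const_add 1
    have h3 := h2.smul_const w
    rwa [one_smul] at h3
  have e0 : (1 + (0 : ℂ)) • w = w := by rw [add_zero, one_smul]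
  have h4 : HasFDerivAt (fun w => C.e i (Γ.G w)) (fderiv ℂ (fun w => C.e i (Γ.G w)) w)
      ((fun c : ℂ => (1 + c) • w) 0) := by
    simp only [e0]
    exact ((Γ.ha w hw).diff i hi).hasFDerivAt
  have h5 := h4.comp_hasDerivAt 0 h1
  have h6 : HasDerivAt (fun _ : ℂ => C.e i (Γ.G w)) (fderiv ℂ (fun w => C.e i (Γ.G w)) w w) 0 := by
    refine h5.congr_of_eventuallyEq ?_
    have h7 : ∀ᶠ c : ℂ in 𝓝 0, 1 + c ≠ 0 := by
      have h8 : ContinuousAt (fun c : ℂ => 1 + c) 0 := by fun_prop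
      exact h8.eventually_ne (by simp)
    filter_upwards [h7] with c hc
    simp only [Function.comp]
    rw [Γ.smul _ hc w hw]
  exact h6.unique (hasDerivAt_const _ _)

/-- change of the complex structure -/
def map {C' : Fam n X} (h : HolC C C' id) (h' : HolC C' C id) : HCur C' where
  G := Γ.G
  smul := Γ.smul
  ha w hw := HA.comp (p := id) h (Γ.ha w hw)
  imm w hw := by
    obtain ⟨i, hi, h1⟩ := Γ.imm w hw
    obtain ⟨j, hj⟩ := C'.cover (Γ.G w)
    refine ⟨j, hj, fun v hv => h1 v ?_⟩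
    have h2 : HA C' Γ.G w := HA.comp (p := id) h (Γ.ha w hw)
    exact HA.comp_zero (p := id) h' h2 hj (j := i) hi hv
  inj := Γ.inj

/-- linear change of the parameter -/
def pre (B : V2 ≃L[ℂ] V2) : HCur C where
  G w := Γ.G (B w)
  smul c hc w hw := by
    rw [map_smul]
    exact Γ.smul c hc _ ((map_ne_zero_iff _ B.injective).2 hw)
  ha w hw := (Γ.ha (B w) ((map_ne_zero_iff _ B.injective).2 hw)).pre B.differentiableAt
  imm w hw := by
    have hBw : B w ≠ 0 := (map_ne_zero_iff _ B.injective).2 hw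
    obtain ⟨i, hi, h⟩ := Γ.imm (B w) hBw
    refine ⟨i, hi, fun v hv => ?_⟩
    rw [(Γ.ha (B w) hBw).pre_fderiv B.differentiableAt hi, B.fderiv] at hv
    obtain ⟨c, hc⟩ := h _ hv
    refine ⟨c, B.injective ?_⟩
    rw [map_smul]
    exact hc
  inj w w' hw hw' h := by
    obtain ⟨c, hc⟩ := Γ.inj _ _ ((map_ne_zero_iff _ B.injective).2 hw)
      ((map_ne_zero_iff _ B.injective).2 hw') h
    refine ⟨c, B.injective ?_⟩
    rw [map_smul]
    exact hc

theorem pre_img (B : V2 ≃L[ℂ] V2) : (Γ.pre B).img = Γ.img := by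
  ext x
  constructor
  · rintro ⟨w, hw, h⟩
    exact ⟨B w, (map_ne_zero_iff _ B.injective).2 hw, h⟩
  · rintro ⟨w, hw, h⟩
    refine ⟨B.symm w, (map_ne_zero_iff _ B.symm.injective).2 hw, ?_⟩
    show Γ.G (B (B.symm w)) = x
    rw [B.apply_symm_apply]
    exact h

end HCur

/-- distinct tangent lines at all common points -/
def HTrans (Γ Δ : HCur C) : Prop :=
  ∀ w w' : V2, w ≠ 0 → w' ≠ 0 → Γ.G w = Δ.G w' → ∃ i, Γ.G w ∈ (C.e i).source ∧ ∀ v v' : V2,
    fderiv ℂ (fun w => C.e i (Γ.G w)) w v = fderiv ℂ (fun w => C.e i (Δ.G w)) w' v' →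
    fderiv ℂ (fun w => C.e i (Γ.G w)) w v = 0

theorem HTrans.all {Γ Δ : HCur C} (h : HTrans Γ Δ) {w w' : V2} (hw : w ≠ 0) (hw' : w' ≠ 0)
    (he : Γ.G w = Δ.G w') {i : C.ι} (hi : Γ.G w ∈ (C.e i).source) {v v' : V2}
    (hv : fderiv ℂ (fun w => C.e i (Γ.G w)) w v = fderiv ℂ (fun w => C.e i (Δ.G w)) w' v') :
    fderiv ℂ (fun w => C.e i (Γ.G w)) w v = 0 := by
  obtain ⟨j, hj, h1⟩ := h w w' hw hw' he
  have h2 := (Γ.ha w hw).fun_eq (g := fun x => C.e j x) (Δ.ha w' hw') he hi (tr_diff C hi hj) hv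
  have h3 := h1 v v' h2
  exact (Γ.ha w hw).fun_zero (g := fun x => C.e i x) hj (tr_diff C hj hi) h3

theorem HTrans.symm {Γ Δ : HCur C} (h : HTrans Γ Δ) : HTrans Δ Γ := by
  intro w w' hw hw' he
  obtain ⟨i, hi⟩ := C.cover (Δ.G w)
  refine ⟨i, hi, fun v v' hv => ?_⟩
  rw [hv]
  exact h.all hw' hw he.symm (by rw [← he]; exact hi) hv.symm

/-! ### the projective line with two charts -/

section P1C

variable {A : Atl n X}

theorem mi_ne (b : Bool) (z c : ℂ) : (Pi.single (mi b) 1 : V2) ≠ c • pt b z := by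
  intro h
  cases b
  · have h0 := congrFun h 0
    have h1 := congrFun h 1
    simp [mi] at h0 h1
    rw [← h0] at h1
    simp at h1
  · have h0 := congrFun h 0
    have h1 := congrFun h 1
    simp [mi] at h0 h1
    rw [← h1] at h0
    simp at h0

theorem hasDerivAt_pt' (b : Bool) (z : ℂ) :
    HasDerivAt (fun w => pt b w) (Pi.single (mi b) 1 : V2) z := by
  rw [hasDerivAt_pi]
  intro i
  have h := hasDerivAt_pt b i z
  refine h.congr_deriv ?_
  rw [Pi.single_apply]

theorem HCur.deriv_pt {C : Fam n X} (Γ : HCur C) (b : Bool) (z : ℂ) {i : C.ι}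
    (hi : Γ.G (pt b z) ∈ (C.e i).source) :
    HasDerivAt (fun z => C.e i (Γ.G (pt b z)))
      (fderiv ℂ (fun w => C.e i (Γ.G w)) (pt b z) (Pi.single (mi b) 1)) z :=
  ((Γ.ha _ (pt_ne b z)).diff i hi).hasFDerivAt.comp_hasDerivAt z (hasDerivAt_pt' b z)

/-- the two affine charts of a homogeneous curve -/
def HCur.toP1C (Γ : HCur (fam A)) : P1C A where
  g b z := Γ.G (pt b z)
  glue z hz := by
    have h : pt true z⁻¹ = z⁻¹ • pt false z := by
      funext i
      fin_cases i <;> simp [hz]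
    rw [h]
    exact Γ.smul _ (inv_ne_zero hz) _ (pt_ne false z)
  cont b := by
    rw [continuous_iff_continuousAt]
    intro z
    exact ContinuousAt.comp (g := Γ.G) (Γ.ha _ (pt_ne b z)).cont (hasDerivAt_pt' b z).continuousAt
  hol b z := by
    obtain ⟨i, hi, h⟩ := Γ.imm _ (pt_ne b z)
    have hd := Γ.deriv_pt b z hi
    refine ⟨i, hi, hd.differentiableAt, ?_⟩
    have e : deriv (fun w => A.e i (Γ.G (pt b w))) z = _ := hd.deriv
    rw [e]
    intro h0
    obtain ⟨c, hc⟩ := h _ h0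
    exact mi_ne b z c hc
  inj z z' h := by
    obtain ⟨c, hc⟩ := Γ.inj _ _ (pt_ne false z) (pt_ne false z') h
    have h0 := congrFun hc 0
    have h1 := congrFun hc 1
    simp at h0 h1
    rw [← h0, one_mul] at h1
    exact h1.symm
  ninf := by
    rintro ⟨z, h⟩
    obtain ⟨c, hc⟩ := Γ.inj _ _ (pt_ne false z) (pt_ne true 0) h
    have h0 := congrFun hc 0
    have h1 := congrFun hc 1
    simp at h0 h1
    rw [← h0, zero_mul] at h1
    exact one_ne_zero h1

theorem HCur.toP1C_g (Γ : HCur (fam A)) (b : Bool) (z : ℂ) : Γ.toP1C.g b z = Γ.G (pt b z) := rfl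

theorem HCur.toP1C_img (Γ : HCur (fam A)) : Γ.toP1C.img = Γ.img := by
  ext x
  rw [P1C.mem_img_iff]
  constructor
  · rintro ⟨b, z, h⟩
    exact ⟨pt b z, pt_ne b z, h⟩
  · rintro ⟨w, hw, h⟩
    obtain ⟨b, z, c, hc, rfl⟩ := exists_pt hw
    refine ⟨b, z, ?_⟩
    rw [Γ.smul c hc _ (pt_ne b z)] at h
    exact h

theorem HTrans.toP1C {Γ Δ : HCur (fam A)} (h : HTrans Γ Δ) : Trans Γ.toP1C Δ.toP1C := by
  intro b z b' z' he
  have he' : Γ.G (pt b z) = Δ.G (pt b' z') := he
  obtain ⟨i, hi, h1⟩ := h _ _ (pt_ne b z) (pt_ne b' z') he'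
  refine ⟨i, hi, ?_⟩
  rintro ⟨c, hc⟩
  have hi' : Δ.G (pt b' z') ∈ ((fam A).e i).source := he' ▸ hi
  have e1 : deriv (fun w => A.e i (Γ.toP1C.g b w)) z = _ := (Γ.deriv_pt b z hi).deriv
  have e2 : deriv (fun w => A.e i (Δ.toP1C.g b' w)) z' = _ := (Δ.deriv_pt b' z' hi').deriv
  rw [e1, e2, ← map_smul] at hc
  have h2 := h1 _ _ hc.symm
  rw [← hc] at h2
  obtain ⟨c', hc'⟩ := Δ.imm' (pt_ne b' z') hi' h2
  exact mi_ne b' z' c' hc'

/-- the image of a homogeneous curve is connected -/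
theorem HCur.isConnected_img (Γ : HCur C) : IsConnected Γ.img := by
  have h1 : IsConnected ({0}ᶜ : Set V2) := by
    refine isConnected_compl_singleton_of_one_lt_rank ?_ 0
    rw [rank_real_of_complex]
    simp
    norm_num
  have h2 : Γ.img = Γ.G '' ({0}ᶜ : Set V2) := by
    ext x
    constructor
    · rintro ⟨w, hw, h⟩
      exact ⟨w, hw, h⟩
    · rintro ⟨w, hw, h⟩
      exact ⟨w, hw, h⟩
  rw [h2]
  exact h1.image _ fun w hw => (Γ.ha w hw).cont.continuousWithinAt

end P1C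

end

end Crest.Agent.R272.Cyc_760
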