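import Crest.Agent.R272.Cyc1_760

/-!
# R272 (S0414), leaf S14-CYC (helper760), part 2: the two sheets over a rational curve

`Frm L Γ m` : nowhere vanishing homogeneous holomorphic frame of degree `m` of `Γ^* L`;
`Sheet D a b Γ` : `s_a = fa²` and `s_b = fb² · w0 · w1` along the homogeneous curve `Γ` of the base;
`Sheet.up ε` (`ε² = 1`) : the curve `ζ ↦ (Γ (ζ0², ζ1²), y_a = ε fa, y_b = fb ζ0 ζ1)` of `D.X`.
-/

set_option autoImplicit false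
set_option linter.unusedSectionVars false

open Set Filter Topology

namespace Crest.Agent.R272.Cyc_760

open Crest.Agent.R275.Geo Crest.Agent.R275.Core144
open Crest.Agent.R273.Map_835 Crest.Agent.R273.Fam_835
open Crest.Agent.R272.CpRat423 Crest.Agent.R272.DCov_426

noncomputable section

variable {n : ℕ} {M : Type} [TopologicalSpace M] {A : Atl n M}

/-- the square map of `ℂ²` -/
def sqv (ζ : V2) : V2 := ![ζ 0 ^ 2, ζ 1 ^ 2]

@[simp] theorem sqv_zero (ζ : V2) : sqv ζ 0 = ζ 0 ^ 2 := rfl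
@[simp] theorem sqv_one (ζ : V2) : sqv ζ 1 = ζ 1 ^ 2 := rfl

theorem v2_ext {v w : V2} (h0 : v 0 = w 0) (h1 : v 1 = w 1) : v = w := by
  funext i
  fin_cases i
  · exact h0
  · exact h1

theorem v2_ne {v : V2} (h : v ≠ 0) : v 0 ≠ 0 ∨ v 1 ≠ 0 := by
  by_contra h1
  push Not at h1
  exact h (v2_ext h1.1 h1.2)

theorem sqv_ne {ζ : V2} (h : ζ ≠ 0) : sqv ζ ≠ 0 := by
  intro h0
  apply h
  have h1 := congrFun h0 0
  have h2 := congrFun h0 1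
  simp only [sqv_zero, sqv_one, Pi.zero_apply] at h1 h2
  exact v2_ext (pow_eq_zero_iff two_ne_zero |>.1 h1) (pow_eq_zero_iff two_ne_zero |>.1 h2)

theorem sqv_smul (c : ℂ) (ζ : V2) : sqv (c • ζ) = c ^ 2 • sqv ζ :=
  v2_ext (by simp [mul_pow]) (by simp [mul_pow])

/-- the derivative of the square map -/
def dsq (ζ : V2) : V2 →L[ℂ] V2 :=
  ContinuousLinearMap.pi ![(2 * ζ 0) • ContinuousLinearMap.proj (R := ℂ) (φ := fun _ : Fin 2 => ℂ) 0,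
    (2 * ζ 1) • ContinuousLinearMap.proj (R := ℂ) (φ := fun _ : Fin 2 => ℂ) 1]

@[simp] theorem dsq_zero (ζ v : V2) : dsq ζ v 0 = 2 * ζ 0 * v 0 := rfl
@[simp] theorem dsq_one (ζ v : V2) : dsq ζ v 1 = 2 * ζ 1 * v 1 := rfl

theorem hasFDerivAt_sqv (ζ : V2) : HasFDerivAt sqv (dsq ζ) ζ := by
  rw [hasFDerivAt_pi']
  intro i
  fin_cases i
  · have h := (hasFDerivAt_apply (𝕜 := ℂ) (0 : Fin 2) ζ).pow 2
    refine h.congr_fderiv ?_
    ext v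
    simp [dsq]
  · have h := (hasFDerivAt_apply (𝕜 := ℂ) (1 : Fin 2) ζ).pow 2
    refine h.congr_fderiv ?_
    ext v
    simp [dsq]

theorem exists_sqv {w : V2} (hw : w ≠ 0) : ∃ ζ : V2, ζ ≠ 0 ∧ sqv ζ = w := by
  obtain ⟨a, ha⟩ := IsAlgClosed.exists_pow_nat_eq (w 0) (n := 2) (by norm_num)
  obtain ⟨b, hb⟩ := IsAlgClosed.exists_pow_nat_eq (w 1) (n := 2) (by norm_num)
  refine ⟨![a, b], ?_, v2_ext (by simpa using ha) (by simpa using hb)⟩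
  intro h0
  apply hw
  have h1 := congrFun h0 0
  have h2 := congrFun h0 1
  simp at h1 h2
  exact v2_ext (by rw [← ha, h1]; simp) (by rw [← hb, h2]; simp)

/-- if `ζ'² = c ζ²` and `ζ0' ζ1' = c ζ0 ζ1` then `ζ' = d ζ` -/
theorem sqv_inj {ζ ζ' : V2} (hζ : ζ ≠ 0) (hζ' : ζ' ≠ 0) {c : ℂ} (h : sqv ζ' = c • sqv ζ)
    (hp : ζ' 0 * ζ' 1 = c * (ζ 0 * ζ 1)) : ∃ d : ℂ, ζ' = d • ζ := by
  have hc : c ≠ 0 := by
    rintro rfl
    rw [zero_smul] at h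
    exact sqv_ne hζ' h
  have h0 : ζ' 0 ^ 2 = c * ζ 0 ^ 2 := congrFun h 0
  have h1 : ζ' 1 ^ 2 = c * ζ 1 ^ 2 := congrFun h 1
  rcases v2_ne hζ with h2 | h2
  · have h3 : ζ' 0 ≠ 0 := by
      intro h4
      rw [h4] at h0
      exact mul_ne_zero hc (pow_ne_zero 2 h2) (by rw [← h0]; simp)
    refine ⟨ζ' 0 / ζ 0, v2_ext ?_ ?_⟩
    · simp [h2]
    · have h5 : ζ' 0 * ζ' 1 = ζ' 0 * (ζ' 0 / ζ 0 * ζ 1) := by
        rw [hp]
        field_simp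
        rw [h0]
        ring
      simpa using mul_left_cancel₀ h3 h5
  · have h3 : ζ' 1 ≠ 0 := by
      intro h4
      rw [h4] at h1
      exact mul_ne_zero hc (pow_ne_zero 2 h2) (by rw [← h1]; simp)
    refine ⟨ζ' 1 / ζ 1, v2_ext ?_ ?_⟩
    · have h5 : ζ' 1 * ζ' 0 = ζ' 1 * (ζ' 1 / ζ 1 * ζ 0) := by
        rw [mul_comm, hp]
        field_simp
        rw [h1]
        ring
      simpa using mul_left_cancel₀ h3 h5
    · simp [h2]

/-- a nowhere vanishing homogeneous frame of `Γ^* L` -/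
structure Frm (L : LB A) (Γ : HCur (fam A)) (m : ℕ) where
  r : A.ι → V2 → ℂ
  tr : ∀ w : V2, w ≠ 0 → ∀ i j, Γ.G w ∈ (A.e i).source → Γ.G w ∈ (A.e j).source →
    r i w = L.g i j (Γ.G w) * r j w
  ne : ∀ w : V2, w ≠ 0 → ∀ i, Γ.G w ∈ (A.e i).source → r i w ≠ 0
  hol : ∀ w : V2, w ≠ 0 → ∀ i, Γ.G w ∈ (A.e i).source → DifferentiableAt ℂ (r i) w
  hom : ∀ c : ℂ, c ≠ 0 → ∀ w : V2, w ≠ 0 → ∀ i, Γ.G w ∈ (A.e i).source →
    c ^ m * r i (c • w) = r i w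

/-- `s_a` is the square of a frame and `s_b` the square of a frame times `w0 w1`, along `Γ` -/
structure Sheet (D : Data A (Fin 2)) (a b : Fin 2) (Γ : HCur (fam A)) where
  hab : a ≠ b
  ka : D.k a = 2
  kb : D.k b = 2
  fa : Frm (D.L a) Γ 0
  fb : Frm (D.L b) Γ 1
  sa : ∀ w : V2, w ≠ 0 → ∀ i, Γ.G w ∈ (A.e i).source → D.s a i (Γ.G w) = fa.r i w ^ 2
  sb : ∀ w : V2, w ≠ 0 → ∀ i, Γ.G w ∈ (A.e i).source →
    D.s b i (Γ.G w) = fb.r i w ^ 2 * (w 0 * w 1)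

namespace Sheet

variable {D : Data A (Fin 2)} {a b : Fin 2} {Γ : HCur (fam A)} (S : Sheet D a b Γ)

/-- the coordinates of the lifted curve -/
def t (ε : ℂ) (c : Fin 2) (i : A.ι) (ζ : V2) : ℂ :=
  if c = a then ε * S.fa.r i (sqv ζ) else S.fb.r i (sqv ζ) * (ζ 0 * ζ 1)

theorem t_a (ε : ℂ) (i : A.ι) (ζ : V2) : S.t ε a i ζ = ε * S.fa.r i (sqv ζ) := by
  rw [t, if_pos rfl]

theorem t_b (ε : ℂ) (i : A.ι) (ζ : V2) : S.t ε b i ζ = S.fb.r i (sqv ζ) * (ζ 0 * ζ 1) := by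
  rw [t, if_neg (Ne.symm S.hab)]

include S in
theorem eq_ab (c : Fin 2) : c = a ∨ c = b := by
  have h := S.hab
  fin_cases a <;> fin_cases b <;> fin_cases c <;> simp_all

theorem liftData {ε : ℂ} (hε : ε ^ 2 = 1) : Data.LiftData D
    (fun ζ : {ζ : V2 // ζ ≠ 0} => Γ.G (sqv ζ.1)) (fun c i ζ => S.t ε c i ζ.1) where
  tr c i j ζ hi hj := by
    rcases S.eq_ab c with rfl | rfl
    · rw [S.t_a, S.t_a, S.fa.tr _ (sqv_ne ζ.2) i j hi hj]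
      ring
    · rw [S.t_b, S.t_b, S.fb.tr _ (sqv_ne ζ.2) i j hi hj]
      ring
  pw c i ζ hi := by
    rcases S.eq_ab c with rfl | rfl
    · rw [S.t_a, S.ka, S.sa _ (sqv_ne ζ.2) i hi, mul_pow, hε, one_mul]
    · rw [S.t_b, S.kb, S.sb _ (sqv_ne ζ.2) i hi, mul_pow, mul_pow]
      rfl

open Classical in
/-- the lifted curve -/
def F {ε : ℂ} (hε : ε ^ 2 = 1) (ζ : V2) : D.X :=
  if h : ζ ≠ 0 then D.lift (S.liftData hε) ⟨ζ, h⟩
  else D.lift (S.liftData hε) ⟨pt false 0, pt_ne false 0⟩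

variable {ε : ℂ} (hε : ε ^ 2 = 1)

theorem F_of {ζ : V2} (h : ζ ≠ 0) : S.F hε ζ = D.lift (S.liftData hε) ⟨ζ, h⟩ := by
  rw [F, dif_pos h]

theorem p_F {ζ : V2} (h : ζ ≠ 0) : D.p (S.F hε ζ) = Γ.G (sqv ζ) := by
  rw [S.F_of hε h]
  rfl

theorem y_F {ζ : V2} (h : ζ ≠ 0) {i : A.ι} (hi : Γ.G (sqv ζ) ∈ (A.e i).source) (c : Fin 2) :
    D.y c i (S.F hε ζ) = S.t ε c i ζ := by
  rw [S.F_of hε h]
  exact D.y_lift (S.liftData hε) (q := ⟨ζ, h⟩) hi c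

theorem diff_ra {ζ : V2} (h : ζ ≠ 0) {i : A.ι} (hi : Γ.G (sqv ζ) ∈ (A.e i).source) :
    DifferentiableAt ℂ (fun ζ => S.fa.r i (sqv ζ)) ζ :=
  DifferentiableAt.comp ζ (g := S.fa.r i) (S.fa.hol _ (sqv_ne h) i hi)
    (hasFDerivAt_sqv ζ).differentiableAt

theorem diff_rb {ζ : V2} (h : ζ ≠ 0) {i : A.ι} (hi : Γ.G (sqv ζ) ∈ (A.e i).source) :
    DifferentiableAt ℂ (fun ζ => S.fb.r i (sqv ζ)) ζ :=
  DifferentiableAt.comp ζ (g := S.fb.r i) (S.fb.hol _ (sqv_ne h) i hi)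
    (hasFDerivAt_sqv ζ).differentiableAt

theorem diff_t {ζ : V2} (h : ζ ≠ 0) {i : A.ι} (hi : Γ.G (sqv ζ) ∈ (A.e i).source) (c : Fin 2) :
    DifferentiableAt ℂ (S.t ε c i) ζ := by
  rcases S.eq_ab c with rfl | rfl
  · have e : S.t ε c i = fun ζ => ε * S.fa.r i (sqv ζ) := by
      funext ζ
      exact S.t_a ε i ζ
    rw [e]
    exact (S.diff_ra h hi).const_mul ε
  · have e : S.t ε c i = fun ζ => S.fb.r i (sqv ζ) * (ζ 0 * ζ 1) := by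
      funext ζ
      exact S.t_b ε i ζ
    rw [e]
    refine (S.diff_rb h hi).mul ?_
    fun_prop

theorem haΓ {ζ : V2} (h : ζ ≠ 0) : HA (fam A) (fun ζ => Γ.G (sqv ζ)) ζ :=
  (Γ.ha _ (sqv_ne h)).pre (hasFDerivAt_sqv ζ).differentiableAt

theorem ev_ne {ζ : V2} (h : ζ ≠ 0) : ∀ᶠ ζ' : V2 in 𝓝 ζ, ζ' ≠ 0 :=
  isOpen_ne.mem_nhds h

theorem ev_src {ζ : V2} (h : ζ ≠ 0) {i : A.ι} (hi : Γ.G (sqv ζ) ∈ (A.e i).source) :
    ∀ᶠ ζ' : V2 in 𝓝 ζ, Γ.G (sqv ζ') ∈ (A.e i).source :=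
  (haΓ h).cont ((A.e i).open_source.mem_nhds hi)

theorem ev_p {ζ : V2} (h : ζ ≠ 0) : (fun ζ => D.p (S.F hε ζ)) =ᶠ[𝓝 ζ] fun ζ => Γ.G (sqv ζ) := by
  filter_upwards [ev_ne h] with ζ' h'
  exact S.p_F hε h'

theorem ev_y {ζ : V2} (h : ζ ≠ 0) {i : A.ι} (hi : Γ.G (sqv ζ) ∈ (A.e i).source) (c : Fin 2) :
    (fun ζ => D.y c i (S.F hε ζ)) =ᶠ[𝓝 ζ] S.t ε c i := by
  filter_upwards [ev_ne h, ev_src h hi] with ζ' h' h''
  exact S.y_F hε h' h'' c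

theorem continuousAt_F {ζ : V2} (h : ζ ≠ 0) : ContinuousAt (S.F hε) ζ := by
  obtain ⟨i, hi⟩ := A.cover (Γ.G (sqv ζ))
  refine D.continuousAt_X (i := i) (by rw [S.p_F hε h]; exact hi)
    ((haΓ h).cont.congr (S.ev_p hε h).symm) fun c => ?_
  exact (S.diff_t h hi c).continuousAt.congr (S.ev_y hε h hi c).symm

theorem ha_F {ζ : V2} (h : ζ ≠ 0) : HA D.famX (S.F hε) ζ := by
  refine ⟨S.continuousAt_F hε h, fun c hc => ?_⟩
  have h3 : ((S.F hε ζ : D.X) : D.T) ∈ c.G.source := hc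
  obtain ⟨h4, h5⟩ := c.mem_source.1 h3
  have h4' : Γ.G (sqv ζ) ∈ (A.e c.i).source := by
    have : D.p (S.F hε ζ) ∈ (A.e c.i).source := h4
    rwa [S.p_F hε h] at this
  have h6 : DifferentiableAt ℂ (fun ζ => D.ch c.i (S.F hε ζ : D.X)) ζ := by
    have h7 : DifferentiableAt ℂ (fun ζ => A.e c.i (D.p (S.F hε ζ))) ζ := by
      refine ((haΓ h).diff c.i h4').congr_of_eventuallyEq ?_
      filter_upwards [S.ev_p hε h] with ζ' h'
      show A.e c.i (D.p (S.F hε ζ')) = A.e c.i (Γ.G (sqv ζ'))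
      rw [h']
    exact h7.prodMk (differentiableAt_pi.2 fun a' =>
      (S.diff_t h h4' a').congr_of_eventuallyEq (S.ev_y hε h h4' a'))
  have h7 : DifferentiableAt ℂ c.χ (D.ch c.i (S.F hε ζ : D.X)) :=
    c.d1.differentiableAt (c.χ.open_source.mem_nhds h5)
  have h8 : DifferentiableAt ℂ (fun ζ => c.χ (D.ch c.i (S.F hε ζ : D.X))) ζ :=
    DifferentiableAt.comp ζ (f := fun ζ => D.ch c.i (S.F hε ζ : D.X)) h7 h6
  exact h8.fst

theorem p_hol {q : D.X} {c : D.K} {i : A.ι} (hc : q ∈ (D.famX.e c).source)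
    (hi : D.p q ∈ (A.e i).source) :
    DifferentiableAt ℂ (fun z => A.e i (D.p ((D.famX.e c).symm z))) (D.famX.e c q) :=
  hol_diff D.holC_p (j := i) hc hi

theorem y_hol {q : D.X} {c : D.K} {i : A.ι} (hc : q ∈ (D.famX.e c).source)
    (hi : D.p q ∈ (A.e i).source) (a' : Fin 2) :
    DifferentiableAt ℂ (fun z => D.y a' i ((D.famX.e c).symm z)) (D.famX.e c q) :=
  D.y_diffAt a' (c := c) ((D.famX.e c).map_source hc) (by
    show D.p ((D.famX.e c).symm (D.famX.e c q)) ∈ _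
    rw [(D.famX.e c).left_inv hc]; exact hi)

/-- the kernel of the differential -/
theorem ker_F {ζ : V2} (h : ζ ≠ 0) {c : D.K} (hc : S.F hε ζ ∈ (D.famX.e c).source) {v : V2}
    (hv : fderiv ℂ (fun ζ => D.famX.e c (S.F hε ζ)) ζ v = 0) : ∃ d : ℂ, v = d • ζ := by
  obtain ⟨i, hi⟩ := A.cover (Γ.G (sqv ζ))
  have hi' : D.p (S.F hε ζ) ∈ (A.e i).source := by rw [S.p_F hε h]; exact hi
  have hF := S.ha_F hε h
  have h1 : fderiv ℂ (fun ζ => A.e i (D.p (S.F hε ζ))) ζ v = 0 :=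
    hF.fun_zero (g := fun q => A.e i (D.p q)) hc (p_hol hc hi') hv
  have h2 : fderiv ℂ (fun ζ => D.y b i (S.F hε ζ)) ζ v = 0 :=
    hF.fun_zero (g := fun q => D.y b i q) hc (y_hol hc hi' b) hv
  have e1 : (fun ζ => A.e i (D.p (S.F hε ζ))) =ᶠ[𝓝 ζ] fun ζ => (fam A).e i (Γ.G (sqv ζ)) := by
    filter_upwards [S.ev_p hε h] with ζ' h'
    show A.e i (D.p (S.F hε ζ')) = A.e i (Γ.G (sqv ζ'))
    rw [h']
  rw [e1.fderiv_eq, (Γ.ha _ (sqv_ne h)).pre_fderiv (hasFDerivAt_sqv ζ).differentiableAt hi,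
    (hasFDerivAt_sqv ζ).fderiv] at h1
  obtain ⟨k, hk⟩ := Γ.imm' (sqv_ne h) hi h1
  have k0 : 2 * ζ 0 * v 0 = k * ζ 0 ^ 2 := congrFun hk 0
  have k1 : 2 * ζ 1 * v 1 = k * ζ 1 ^ 2 := congrFun hk 1
  have hr : S.fb.r i (sqv ζ) ≠ 0 := S.fb.ne _ (sqv_ne h) i hi
  have e2 : HasFDerivAt (fun ζ : V2 => S.fb.r i (sqv ζ) * (ζ 0 * ζ 1))
      (S.fb.r i (sqv ζ) • (ζ 0 • ContinuousLinearMap.proj (R := ℂ) (φ := fun _ : Fin 2 => ℂ) 1 +
        ζ 1 • ContinuousLinearMap.proj (R := ℂ) (φ := fun _ : Fin 2 => ℂ) 0) +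
        (ζ 0 * ζ 1) • fderiv ℂ (fun ζ => S.fb.r i (sqv ζ)) ζ) ζ :=
    (S.diff_rb h hi).hasFDerivAt.mul
      ((hasFDerivAt_apply (𝕜 := ℂ) (0 : Fin 2) ζ).mul (hasFDerivAt_apply (𝕜 := ℂ) (1 : Fin 2) ζ))
  have e3 : (fun ζ => D.y b i (S.F hε ζ)) =ᶠ[𝓝 ζ] fun ζ => S.fb.r i (sqv ζ) * (ζ 0 * ζ 1) := by
    filter_upwards [S.ev_y hε h hi b] with ζ' h'
    rw [h', S.t_b]
  rw [e3.fderiv_eq, e2.fderiv] at h2
  simp only [_root_.add_apply, _root_.smul_apply, ContinuousLinearMap.proj_apply,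
    smul_eq_mul] at h2
  rcases v2_ne h with h0 | h0
  · by_cases h1' : ζ 1 = 0
    · rw [h1'] at h2
      simp only [zero_mul, mul_zero, add_zero] at h2
      have h3 : v 1 = 0 := by
        rcases mul_eq_zero.1 h2 with h4 | h4
        · exact absurd h4 hr
        · exact (mul_eq_zero.1 h4).resolve_left h0
      refine ⟨v 0 / ζ 0, v2_ext ?_ ?_⟩
      · simp [h0]
      · simp [h1', h3]
    · refine ⟨k / 2, v2_ext ?_ ?_⟩
      · have : v 0 = k / 2 * ζ 0 := by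
          apply mul_left_cancel₀ (mul_ne_zero two_ne_zero h0)
          rw [k0]
          ring
        simpa using this
      · have : v 1 = k / 2 * ζ 1 := by
          apply mul_left_cancel₀ (mul_ne_zero two_ne_zero h1')
          rw [k1]
          ring
        simpa using this
  · by_cases h1' : ζ 0 = 0
    · rw [h1'] at h2
      simp only [zero_mul, add_zero, zero_add] at h2
      have h3 : v 0 = 0 := by
        rcases mul_eq_zero.1 h2 with h4 | h4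
        · exact absurd h4 hr
        · exact (mul_eq_zero.1 h4).resolve_left h0
      refine ⟨v 1 / ζ 1, v2_ext ?_ ?_⟩
      · simp [h1', h3]
      · simp [h0]
    · refine ⟨k / 2, v2_ext ?_ ?_⟩
      · have : v 0 = k / 2 * ζ 0 := by
          apply mul_left_cancel₀ (mul_ne_zero two_ne_zero h1')
          rw [k0]
          ring
        simpa using this
      · have : v 1 = k / 2 * ζ 1 := by
          apply mul_left_cancel₀ (mul_ne_zero two_ne_zero h0)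
          rw [k1]
          ring
        simpa using this

theorem F_smul {c : ℂ} (hc : c ≠ 0) {ζ : V2} (h : ζ ≠ 0) : S.F hε (c • ζ) = S.F hε ζ := by
  have h' : c • ζ ≠ 0 := smul_ne_zero hc h
  obtain ⟨i, hi⟩ := A.cover (Γ.G (sqv ζ))
  have e1 : Γ.G (sqv (c • ζ)) = Γ.G (sqv ζ) := by
    rw [sqv_smul]
    exact Γ.smul _ (pow_ne_zero 2 hc) _ (sqv_ne h)
  have hi2 : Γ.G (sqv (c • ζ)) ∈ (A.e i).source := by rw [e1]; exact hi
  refine D.ext_X (i := i) (by rw [S.p_F hε h', S.p_F hε h, e1])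
    (by rw [S.p_F hε h']; exact hi2) fun a' => ?_
  rw [S.y_F hε h' hi2, S.y_F hε h hi]
  rcases S.eq_ab a' with rfl | rfl
  · rw [S.t_a, S.t_a, sqv_smul, ← S.fa.hom (c ^ 2) (pow_ne_zero 2 hc) _ (sqv_ne h) i hi]
    simp
  · rw [S.t_b, S.t_b, sqv_smul, ← S.fb.hom (c ^ 2) (pow_ne_zero 2 hc) _ (sqv_ne h) i hi]
    simp only [Pi.smul_apply, smul_eq_mul]
    ring

theorem F_inj {ζ ζ' : V2} (h : ζ ≠ 0) (h' : ζ' ≠ 0) (he : S.F hε ζ = S.F hε ζ') :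
    ∃ d : ℂ, ζ' = d • ζ := by
  obtain ⟨i, hi⟩ := A.cover (Γ.G (sqv ζ))
  have e1 : Γ.G (sqv ζ) = Γ.G (sqv ζ') := by
    rw [← S.p_F hε h, ← S.p_F hε h', he]
  have hi' : Γ.G (sqv ζ') ∈ (A.e i).source := by rw [← e1]; exact hi
  obtain ⟨c, hc⟩ := Γ.inj _ _ (sqv_ne h) (sqv_ne h') e1
  have hc0 : c ≠ 0 := by
    rintro rfl
    rw [zero_smul] at hc
    exact sqv_ne h' hc
  have e2 : S.t ε b i ζ = S.t ε b i ζ' := by
    rw [← S.y_F hε h hi, ← S.y_F hε h' hi', he]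
  rw [S.t_b, S.t_b, hc, ← S.fb.hom c hc0 _ (sqv_ne h) i hi, pow_one] at e2
  have hr : S.fb.r i (c • sqv ζ) ≠ 0 := by
    rw [← hc]
    exact S.fb.ne _ (sqv_ne h') i hi'
  refine sqv_inj h h' hc ?_
  apply mul_left_cancel₀ hr
  rw [← e2]
  ring

/-- **the sheet `ε` over the curve `Γ`** -/
def up {ε : ℂ} (hε : ε ^ 2 = 1) : HCur D.famX where
  G := S.F hε
  smul c hc ζ h := S.F_smul hε hc h
  ha ζ h := S.ha_F hε h
  imm ζ h := by
    obtain ⟨c, hc⟩ := D.famX.cover (S.F hε ζ)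
    exact ⟨c, hc, fun v hv => S.ker_F hε h hc hv⟩
  inj ζ ζ' h h' he := S.F_inj hε h h' he

theorem up_G {ε : ℂ} (hε : ε ^ 2 = 1) : (S.up hε).G = S.F hε := rfl

end Sheet

end

end Crest.Agent.R272.Cyc_760
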