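import Crest.Agent.R272.P1F_414
import Crest.Agent.R272.Wall4_275

/-!
# R272, S14-CYC (helper894, partner of helper760): the 4-cycle of rational curves

`Cyc C`: four parametrised curves `K ±`, `R ±` (`P1F C` of helper414) with the incidences
`K e (d i) = R d (∞ if e = +, 0 if e = -)`, `K +` and `K -` disjoint, `R +` and `R -` disjoint,
`K e` and `R d` transversal.

* `c.cv : Fin 4 → P1F C`, `trans_cv`, `triple_cv`, `connected_cv` : the input of 414's `of_theta`;
* `c.kp e`, `c.rp d` : the four paths; `c.exists_paths`: the closed 4-gon in 275's form;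
* `arc_kp`, `slr_rp` : the hypotheses `Arc`, `SlR` of 275's `lb414` from the values along the curves.
-/

set_option autoImplicit false
set_option linter.unusedSectionVars false

open Set Filter Topology
open scoped unitInterval

namespace Crest.Agent.R272.Cyp_894

open Crest.Agent.R275.Geo Crest.Agent.R273.Fam_835
open Crest.Agent.R272.CpRat423 Crest.Agent.R272.DCov_426 Crest.Agent.R272.P1F_414
open Crest.Agent.R272.Wall4_275 Crest.Agent.R272.Root_83

noncomputable section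

variable {X : Type} [TopologicalSpace X] {C : Fam 2 X}

/-- `i` or `-i` -/
def cI (d : Bool) : ℂ := if d then Complex.I else -Complex.I

/-- `1` or `-1` -/
def cs (e : Bool) : ℂ := if e then 1 else -1

@[simp] theorem cI_true : cI true = Complex.I := rfl
@[simp] theorem cI_false : cI false = -Complex.I := rfl
@[simp] theorem cs_true : cs true = 1 := rfl
@[simp] theorem cs_false : cs false = -1 := rfl

/-- the cycle of four curves -/
structure Cyc (C : Fam 2 X) where
  K : Bool → P1F C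
  R : Bool → P1F C
  meet : ∀ e d, (K e).g false (cI d) = (R d).g e 0
  disjK : Disjoint (K true).img (K false).img
  disjR : Disjoint (R true).img (R false).img
  tr : ∀ e d, (K e).Tr (R d)

theorem P1F_Tr_symm {γ δ : P1F C} (h : γ.Tr δ) : δ.Tr γ := by
  intro b z b' z' e
  obtain ⟨f₁, f₂, h1, h2, h3⟩ := h b' z' b z e.symm
  refine ⟨f₁, f₂, by rw [e]; exact h1, by rw [e]; exact h2, fun h4 => h3 ?_⟩
  rw [mul_comm, ← h4, mul_comm]

theorem P1F_mem {γ : P1F C} {b : Bool} {z : ℂ} : γ.g b z ∈ γ.img := by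
  cases b
  · exact Or.inl ⟨z, rfl⟩
  · exact Or.inr ⟨z, rfl⟩

theorem P1F_Tr_of_disj {γ δ : P1F C} (h : Disjoint γ.img δ.img) : γ.Tr δ := by
  intro b z b' z' e
  exact (Set.disjoint_left.1 h (P1F_mem (γ := γ) (b := b) (z := z)) (by rw [e]; exact P1F_mem)).elim

namespace Cyc

variable (c : Cyc C)

/-- the four curves -/
def cv : Fin 4 → P1F C := ![c.K true, c.R true, c.K false, c.R false]

theorem Tr_cv (i j : Fin 4) (h : i ≠ j) : (c.cv i).Tr (c.cv j) := by
  have hK := P1F_Tr_of_disj c.disjK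
  have hR := P1F_Tr_of_disj c.disjR
  fin_cases i <;> fin_cases j
  · exact absurd rfl h
  · exact c.tr true true
  · exact hK
  · exact c.tr true false
  · exact P1F_Tr_symm (c.tr true true)
  · exact absurd rfl h
  · exact P1F_Tr_symm (c.tr false true)
  · exact hR
  · exact P1F_Tr_symm hK
  · exact c.tr false true
  · exact absurd rfl h
  · exact c.tr false false
  · exact P1F_Tr_symm (c.tr true false)
  · exact P1F_Tr_symm hR
  · exact P1F_Tr_symm (c.tr false false)
  · exact absurd rfl h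

theorem trans_cv {A' : Atl 2 X} (hc : Cmp C A') (i j : Fin 4) (h : i ≠ j) :
    Trans ((c.cv i).cv hc) ((c.cv j).cv hc) := P1F.Tr.trans hc (c.Tr_cv i j h)

theorem pairs : ∀ i j l : Fin 4, i ≠ j → j ≠ l → i ≠ l →
    ((0 = i ∨ 0 = j ∨ 0 = l) ∧ (2 = i ∨ 2 = j ∨ 2 = l)) ∨
      ((1 = i ∨ 1 = j ∨ 1 = l) ∧ (3 = i ∨ 3 = j ∨ 3 = l)) := by
  decide

theorem triple_cv (i j l : Fin 4) (hij : i ≠ j) (hjl : j ≠ l) (hil : i ≠ l) :
    (c.cv i).img ∩ (c.cv j).img ∩ (c.cv l).img = ∅ := by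
  have hK : ∀ x, x ∈ (c.cv 0).img → x ∈ (c.cv 2).img → False := fun x h1 h2 =>
    Set.disjoint_left.1 c.disjK h1 h2
  have hR : ∀ x, x ∈ (c.cv 1).img → x ∈ (c.cv 3).img → False := fun x h1 h2 =>
    Set.disjoint_left.1 c.disjR h1 h2
  refine Set.eq_empty_iff_forall_notMem.2 ?_
  rintro x ⟨⟨h1, h2⟩, h3⟩
  have key : ∀ k : Fin 4, (k = i ∨ k = j ∨ k = l) → x ∈ (c.cv k).img := by
    rintro k (rfl | rfl | rfl)
    · exact h1
    · exact h2
    · exact h3
  rcases pairs i j l hij hjl hil with h | h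
  · exact hK x (key _ h.1) (key _ h.2)
  · exact hR x (key _ h.1) (key _ h.2)

theorem meet_mem (e d : Bool) : ((c.K e).img ∩ (c.R d).img).Nonempty :=
  ⟨_, P1F_mem, by rw [c.meet]; exact P1F_mem⟩

theorem connected_cv : IsConnected (⋃ i, (c.cv i).img) := by
  refine isConnected_iUnion_chain (by norm_num) (fun i => P1F.isConnected_img) ?_
  intro i h
  fin_cases i
  · exact c.meet_mem true true
  · exact (Set.inter_comm _ _ ▸ c.meet_mem false true :
      ((c.R true).img ∩ (c.K false).img).Nonempty)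
  · exact c.meet_mem false false
  · exact absurd h (by norm_num)

/-- the union of the four curves -/
def Z : Set X := ⋃ i, (c.cv i).img

theorem K_mem (e : Bool) (b : Bool) (z : ℂ) : (c.K e).g b z ∈ c.Z := by
  cases e
  · exact mem_iUnion.2 ⟨2, P1F_mem⟩
  · exact mem_iUnion.2 ⟨0, P1F_mem⟩

theorem R_mem (d : Bool) (b : Bool) (z : ℂ) : (c.R d).g b z ∈ c.Z := by
  cases d
  · exact mem_iUnion.2 ⟨3, P1F_mem⟩
  · exact mem_iUnion.2 ⟨1, P1F_mem⟩

theorem isClosed_Z [T2Space X] : IsClosed c.Z :=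
  isClosed_iUnion_of_finite fun i => (P1F.isCompact_img (γ := c.cv i)).isClosed

/-! ### the paths -/

/-- the angle `φ t = π/2 - π t` -/
def ph (t : ℝ) : ℝ := Real.pi / 2 - Real.pi * t

/-- the parameter along `K e` -/
def zt (e : Bool) (t : ℝ) : ℂ := Complex.exp (cs e * (ph t : ℂ) * Complex.I)

theorem continuous_zt (e : Bool) : Continuous (zt e) := by
  unfold zt ph
  fun_prop

theorem zt_ne (e : Bool) (t : ℝ) : zt e t ≠ 0 := Complex.exp_ne_zero _

theorem zt_zero (e : Bool) : zt e 0 = cI e := by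
  cases e
  · simp only [zt, ph, cs_false, cI_false, mul_zero, sub_zero]
    rw [show (-1 : ℂ) * ((Real.pi / 2 : ℝ) : ℂ) * Complex.I =
      -(((Real.pi : ℂ) / 2) * Complex.I) by push_cast; ring, Complex.exp_neg, Complex.exp_pi_div_two_mul_I,
      Complex.inv_I]
  · simp only [zt, ph, cs_true, cI_true, mul_zero, sub_zero]
    rw [show (1 : ℂ) * ((Real.pi / 2 : ℝ) : ℂ) * Complex.I =
      (((Real.pi : ℂ) / 2) * Complex.I) by push_cast; ring, Complex.exp_pi_div_two_mul_I]

theorem zt_one (e : Bool) : zt e 1 = cI (!e) := by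
  cases e
  · simp only [zt, ph, cs_false, mul_one, Bool.not_false, cI_true]
    rw [show (-1 : ℂ) * ((Real.pi / 2 - Real.pi : ℝ) : ℂ) * Complex.I =
      (((Real.pi : ℂ) / 2) * Complex.I) by push_cast; ring, Complex.exp_pi_div_two_mul_I]
  · simp only [zt, ph, cs_true, mul_one, Bool.not_true, cI_false]
    rw [show (1 : ℂ) * ((Real.pi / 2 - Real.pi : ℝ) : ℂ) * Complex.I =
      -(((Real.pi : ℂ) / 2) * Complex.I) by push_cast; ring, Complex.exp_neg, Complex.exp_pi_div_two_mul_I,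
      Complex.inv_I]

/-- `(ζ + 1/ζ)/2 = cos φ`, `(ζ - 1/ζ)/2 = ± i sin φ` -/
theorem zt_add (e : Bool) (t : ℝ) : (zt e t + (zt e t)⁻¹) / 2 = (Real.cos (ph t) : ℂ) := by
  rw [Complex.ofReal_cos, Complex.cos]
  cases e
  · simp only [zt, cs_false]
    rw [← Complex.exp_neg, add_comm]
    congr 2
    · congr 1; ring
    · congr 1; ring
  · simp only [zt, cs_true]
    rw [← Complex.exp_neg]
    congr 2
    · congr 1; ring
    · congr 1; ring

theorem zt_sub (e : Bool) (t : ℝ) : (zt e t - (zt e t)⁻¹) / 2 = cs e * (Complex.I * (Real.sin (ph t) : ℂ)) := by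
  rw [Complex.ofReal_sin, Complex.sin]
  have hI : Complex.I * Complex.I = -1 := Complex.I_mul_I
  cases e
  · simp only [zt, cs_false]
    rw [← Complex.exp_neg]
    rw [show -(-1 * (ph t : ℂ) * Complex.I) = (ph t : ℂ) * Complex.I by ring,
      show (-1 * (ph t : ℂ) * Complex.I) = -(ph t : ℂ) * Complex.I by ring]
    linear_combination ((1 / 2 : ℂ) * (Complex.exp (-(ph t : ℂ) * Complex.I) - Complex.exp ((ph t : ℂ) * Complex.I))) * hI
  · simp only [zt, cs_true]
    rw [← Complex.exp_neg]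
    rw [show -(1 * (ph t : ℂ) * Complex.I) = -(ph t : ℂ) * Complex.I by ring,
      show (1 * (ph t : ℂ) * Complex.I) = (ph t : ℂ) * Complex.I by ring]
    linear_combination (-(1 / 2 : ℂ) * (Complex.exp (-(ph t : ℂ) * Complex.I) - Complex.exp ((ph t : ℂ) * Complex.I))) * hI

/-- the path on `K e` -/
def kp (e : Bool) : Path (⟨(c.K e).g false (cI e), c.K_mem e _ _⟩ : c.Z)
    ⟨(c.K e).g false (cI (!e)), c.K_mem e _ _⟩ where
  toFun t := ⟨(c.K e).g false (zt e t), c.K_mem e _ _⟩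
  continuous_toFun := by
    refine Continuous.subtype_mk ?_ _
    exact ((c.K e).cont false).comp ((continuous_zt e).comp continuous_subtype_val)
  source' := by simp only [Set.Icc.coe_zero, zt_zero]
  target' := by simp only [Set.Icc.coe_one, zt_one]

theorem kp_apply (e : Bool) (t : I) : ((c.kp e t : c.Z) : X) = (c.K e).g false (zt e t) := rfl

/-- the two halves of the path on `R d` -/
def rp1 (d : Bool) : Path (⟨(c.R d).g true 0, c.R_mem d _ _⟩ : c.Z)
    ⟨(c.R d).g false 1, c.R_mem d _ _⟩ where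
  toFun t := ⟨(c.R d).g true ((t : ℝ) : ℂ), c.R_mem d _ _⟩
  continuous_toFun := by
    refine Continuous.subtype_mk ?_ _
    exact ((c.R d).cont true).comp (Complex.continuous_ofReal.comp continuous_subtype_val)
  source' := by simp
  target' := by
    have h := (c.R d).glue 1 one_ne_zero
    rw [inv_one] at h
    apply Subtype.ext
    simp [h]

def rp2 (d : Bool) : Path (⟨(c.R d).g false 1, c.R_mem d _ _⟩ : c.Z)
    ⟨(c.R d).g false 0, c.R_mem d _ _⟩ where
  toFun t := ⟨(c.R d).g false ((1 - (t : ℝ) : ℝ) : ℂ), c.R_mem d _ _⟩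
  continuous_toFun := by
    refine Continuous.subtype_mk ?_ _
    refine ((c.R d).cont false).comp (Complex.continuous_ofReal.comp ?_)
    exact continuous_const.sub continuous_subtype_val
  source' := by simp
  target' := by simp

/-- the path on `R d` -/
def rp (d : Bool) : Path (⟨(c.R d).g true 0, c.R_mem d _ _⟩ : c.Z)
    ⟨(c.R d).g false 0, c.R_mem d _ _⟩ := (c.rp1 d).trans (c.rp2 d)

theorem rp_mem (d : Bool) (t : I) : ∃ b z, ((c.rp d t : c.Z) : X) = (c.R d).g b z := by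
  have h : c.rp d t ∈ range (c.rp d) := ⟨t, rfl⟩
  rw [rp, Path.trans_range] at h
  rcases h with ⟨s, hs⟩ | ⟨s, hs⟩
  · exact ⟨true, ((s : ℝ) : ℂ), (congrArg Subtype.val hs).symm⟩
  · exact ⟨false, ((1 - (s : ℝ) : ℝ) : ℂ), (congrArg Subtype.val hs).symm⟩

/-! ### the closed 4-gon in a space `Zh` over `Z` -/

variable {Y : Type*} [TopologicalSpace Y] {Zh : Set Y}

/-- the vertices -/
theorem pt_eq {x y : X} (hx : x ∈ c.Z) (hy : y ∈ c.Z) (h : x = y) : (⟨x, hx⟩ : c.Z) = ⟨y, hy⟩ :=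
  Subtype.ext h

/-- `k₁ : K +` from `i` to `-i` -/
def k₁ : Path (⟨(c.K true).g false Complex.I, c.K_mem _ _ _⟩ : c.Z)
    ⟨(c.K true).g false (-Complex.I), c.K_mem _ _ _⟩ := c.kp true

/-- `r₁ : R -` from `∞` to `0` -/
def r₁ : Path (⟨(c.K true).g false (-Complex.I), c.K_mem _ _ _⟩ : c.Z)
    ⟨(c.K false).g false (-Complex.I), c.K_mem _ _ _⟩ :=
  (c.rp false).cast (c.pt_eq _ _ (c.meet true false)) (c.pt_eq _ _ (c.meet false false))

/-- `k₂ : K -` from `-i` to `i` -/
def k₂ : Path (⟨(c.K false).g false (-Complex.I), c.K_mem _ _ _⟩ : c.Z)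
    ⟨(c.K false).g false Complex.I, c.K_mem _ _ _⟩ := c.kp false

/-- `r₂ : R +` from `0` to `∞` -/
def r₂ : Path (⟨(c.K false).g false Complex.I, c.K_mem _ _ _⟩ : c.Z)
    ⟨(c.K true).g false Complex.I, c.K_mem _ _ _⟩ :=
  ((c.rp true).symm).cast (c.pt_eq _ _ (c.meet false true)) (c.pt_eq _ _ (c.meet true true))

theorem k₁_apply (t : I) : ((c.k₁ t : c.Z) : X) = (c.K true).g false (zt true t) := rfl

theorem k₂_apply (t : I) : ((c.k₂ t : c.Z) : X) = (c.K false).g false (zt false t) := rfl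

theorem r₁_mem (t : I) : ∃ b z, ((c.r₁ t : c.Z) : X) = (c.R false).g b z := c.rp_mem false t

theorem r₂_mem (t : I) : ∃ b z, ((c.r₂ t : c.Z) : X) = (c.R true).g b z := c.rp_mem true _

end Cyc

/-! ### the hypotheses of `lb414` -/

variable {Y : Type*} [TopologicalSpace Y] {Zh : Set Y}

/-- `Arc` from the values `r0/r2 = (ζ+1/ζ)/2`, `r3/r2 = (ζ-1/ζ)/2`, `r1/r0 = ±1` -/
theorem arc_of_values {R : Zh → Fin 4 → Y → ℂ} {γ : I → Zh} (e : Bool)
    (h : ∀ t : I, SlR (R (γ t)) (γ t : Y) ((Cyc.zt e t + (Cyc.zt e t)⁻¹) / 2) ∧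
      ((Cyc.zt e t + (Cyc.zt e t)⁻¹) / 2 ≠ 0 →
        KpR (R (γ t)) (γ t : Y) ((Cyc.zt e t - (Cyc.zt e t)⁻¹) / 2) ∧
        LmR (R (γ t)) (γ t : Y) (cs e))) : Arc R γ := by
  have hpi := Real.pi_pos
  refine ⟨fun t => Real.sin (Cyc.ph t), ⟨1 / 2, by norm_num, by norm_num⟩, ?_, ?_, ?_, ?_, ?_, ?_,
    ?_, ?_⟩
  · simp [Cyc.ph]
  · simp only [Cyc.ph, Set.Icc.coe_one, mul_one]
    rw [show Real.pi / 2 - Real.pi = -(Real.pi / 2) by ring, Real.sin_neg, Real.sin_pi_div_two]
  · simp only [Cyc.ph]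
    rw [show Real.pi / 2 - Real.pi * (1 / 2) = 0 by ring, Real.sin_zero]
  · intro t
    exact Real.abs_sin_le_one _
  · intro t ht
    have h1 : (t : ℝ) ≤ 1 / 2 := ht
    have h0 : 0 ≤ (t : ℝ) := t.2.1
    refine Real.sin_nonneg_of_nonneg_of_le_pi ?_ ?_
    · unfold Cyc.ph; nlinarith
    · unfold Cyc.ph; nlinarith
  · intro t ht
    have h1 : 1 / 2 ≤ (t : ℝ) := ht
    have h0 : (t : ℝ) ≤ 1 := t.2.2
    refine Real.sin_nonpos_of_nonpos_of_neg_pi_le ?_ ?_
    · unfold Cyc.ph; nlinarith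
    · unfold Cyc.ph; nlinarith
  · intro t
    refine ⟨_, (h t).1, ?_⟩
    rw [Cyc.zt_add]
    have := Real.cos_sq' (Cyc.ph t)
    rw [← this]
    push_cast
    rfl
  · intro t h0 h1
    have hm : (Cyc.zt e t + (Cyc.zt e t)⁻¹) / 2 ≠ 0 := by
      rw [Cyc.zt_add]
      intro h2
      have h3 : Real.cos (Cyc.ph t) = 0 := by exact_mod_cast h2
      have h4 := Real.sin_sq_add_cos_sq (Cyc.ph t)
      rw [h3] at h4
      have h5 : |Real.sin (Cyc.ph t)| = 1 := by
        rw [← sq_eq_sq₀ (abs_nonneg _) zero_le_one, sq_abs]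
        linarith
      rw [h5] at h1
      exact lt_irrefl _ h1
    refine ⟨_, _, ((h t).2 hm).1, ((h t).2 hm).2, ?_⟩
    rw [Cyc.zt_sub, ← mul_assoc]
    cases e
    · simp
    · simp

end

end Crest.Agent.R272.Cyp_894
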