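import Crest.Agent.R272.Cyc3_760
import Crest.Agent.R272.Cyp1_894

/-!
# R272 (S0414), leaf S14-CYC (helper760), part 4: the cycle in 414's and 894's forms

* `HCur.toP1F`, `HTrans.toTr` : homogeneous curves as 414's `P1F`, transversality as `P1F.Tr`;
* `CycD.cyc` : 894's `Cyc D.famX` (`K e`, `R d`), with explicit parametrisations `K_g`, `R_g`.
-/

set_option autoImplicit false
set_option linter.unusedSectionVars false

open Set Filter Topology

namespace Crest.Agent.R272.Cyc_760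

open Crest.Agent.R275.Geo Crest.Agent.R275.Core144
open Crest.Agent.R273.Map_835 Crest.Agent.R273.Fam_835
open Crest.Agent.R272.CpRat423 Crest.Agent.R272.DCov_426 Crest.Agent.R272.P1F_414
open Crest.Agent.R272.FamP_54 Crest.Agent.R272.Cyp_894

noncomputable section

variable {n : ℕ} {X : Type} [TopologicalSpace X] {C : Fam n X}

/-- a coordinate of a chart is differentiable in all charts -/
theorem hfa_coord (C : Fam n X) {x : X} {i : C.ι} (hi : x ∈ (C.e i).source) (k : Fin n) :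
    HFA C (fun x => C.e i x k) x := by
  intro j hj
  have h := tr_diff C hj hi
  exact (EuclideanSpace.proj (𝕜 := ℂ) k).differentiableAt.comp _ h

theorem deriv_coord {g : ℂ → Cn n} {z : ℂ} {v : Cn n} (h : HasDerivAt g v z) (k : Fin n) :
    HasDerivAt (fun w => g w k) (v k) z := by
  have h1 := (EuclideanSpace.proj (𝕜 := ℂ) k).hasFDerivAt.comp_hasDerivAt z h
  exact h1

theorem exists_coord {v : Cn n} (h : v ≠ 0) : ∃ k, v k ≠ 0 := by
  by_contra h1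
  push Not at h1
  exact h (PiLp.ext h1)

/-- the two affine charts of a homogeneous curve, in the form of helper414 -/
def HCur.toP1F (Γ : HCur C) : P1F C where
  g b z := Γ.G (pt b z)
  glue z hz := by
    have h : pt true z⁻¹ = z⁻¹ • pt false z := by
      funext i
      fin_cases i <;> simp [hz]
    rw [h]
    exact Γ.smul _ (inv_ne_zero hz) _ (pt_ne false z)
  cont b := by
    rw [continuous_iff_continuousAt]
    intro z
    exact ContinuousAt.comp (g := Γ.G) (Γ.ha _ (pt_ne b z)).cont (hasDerivAt_pt' b z).continuousAt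
  hol b z := by
    refine ⟨ContinuousAt.comp (g := Γ.G) (Γ.ha _ (pt_ne b z)).cont
      (hasDerivAt_pt' b z).continuousAt, fun i hi => ?_⟩
    exact (Γ.deriv_pt b z hi).differentiableAt
  imm b z := by
    obtain ⟨i, hi, h⟩ := Γ.imm _ (pt_ne b z)
    have hd := Γ.deriv_pt b z hi
    have h0 : fderiv ℂ (fun w => C.e i (Γ.G w)) (pt b z) (Pi.single (mi b) 1) ≠ 0 := by
      intro h0
      obtain ⟨c, hc⟩ := h _ h0
      exact mi_ne b z c hc
    obtain ⟨k, hk⟩ := exists_coord h0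
    refine ⟨fun x => C.e i x k, hfa_coord C hi k, ?_⟩
    rw [(deriv_coord hd k).deriv]
    exact hk
  inj z z' h := by
    obtain ⟨c, hc⟩ := Γ.inj _ _ (pt_ne false z) (pt_ne false z') h
    have h0 := congrFun hc 0
    have h1 := congrFun hc 1
    simp at h0 h1
    rw [← h0, one_mul] at h1
    exact h1.symm
  ninf := by
    rintro ⟨z, h⟩
    obtain ⟨c, hc⟩ := Γ.inj _ _ (pt_ne false z) (pt_ne true 0) h
    have h0 := congrFun hc 0
    have h1 := congrFun hc 1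
    simp at h0 h1
    rw [← h0, zero_mul] at h1
    exact one_ne_zero h1

theorem HCur.toP1F_g (Γ : HCur C) (b : Bool) (z : ℂ) : Γ.toP1F.g b z = Γ.G (pt b z) := rfl

theorem HCur.toP1F_img (Γ : HCur C) : Γ.toP1F.img = Γ.img := by
  ext x
  constructor
  · rintro (⟨z, h⟩ | ⟨z, h⟩)
    · exact ⟨pt false z, pt_ne false z, h⟩
    · exact ⟨pt true z, pt_ne true z, h⟩
  · rintro ⟨w, hw, h⟩
    obtain ⟨b, z, c, hc, rfl⟩ := exists_pt hw
    rw [Γ.smul c hc _ (pt_ne b z)] at h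
    cases b
    · exact Or.inl ⟨z, h⟩
    · exact Or.inr ⟨z, h⟩

/-- two vectors which are not parallel have a non-zero minor -/
theorem exists_minor {v v' : Cn n} (hv : v ≠ 0) (h : ∀ c : ℂ, v' ≠ c • v) :
    ∃ k l, v k * v' l ≠ v l * v' k := by
  obtain ⟨k, hk⟩ := exists_coord hv
  by_contra h1
  push Not at h1
  refine h (v' k / v k) (PiLp.ext fun l => ?_)
  have h2 := h1 k l
  simp only [PiLp.smul_apply, smul_eq_mul]
  field_simp
  linear_combination h2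

theorem HTrans.toTr {Γ Δ : HCur C} (h : HTrans Γ Δ) : Γ.toP1F.Tr Δ.toP1F := by
  intro b z b' z' he
  have he' : Γ.G (pt b z) = Δ.G (pt b' z') := he
  obtain ⟨i, hi, h1⟩ := h _ _ (pt_ne b z) (pt_ne b' z') he'
  have hi' : Δ.G (pt b' z') ∈ (C.e i).source := he' ▸ hi
  have e1 := Γ.deriv_pt b z hi
  have e2 := Δ.deriv_pt b' z' hi'
  have n1 : fderiv ℂ (fun w => C.e i (Γ.G w)) (pt b z) (Pi.single (mi b) 1) ≠ 0 := by
    intro h0
    obtain ⟨c, hc⟩ := Γ.imm' (pt_ne b z) hi h0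
    exact mi_ne b z c hc
  have n2 : fderiv ℂ (fun w => C.e i (Δ.G w)) (pt b' z') (Pi.single (mi b') 1) ≠ 0 := by
    intro h0
    obtain ⟨c, hc⟩ := Δ.imm' (pt_ne b' z') hi' h0
    exact mi_ne b' z' c hc
  obtain ⟨k, l, hkl⟩ := exists_minor n1 (v' := fderiv ℂ (fun w => C.e i (Δ.G w)) (pt b' z')
    (Pi.single (mi b') 1)) (by
      intro c hc
      have hc0 : c ≠ 0 := by
        rintro rfl
        rw [zero_smul] at hc
        exact n2 hc
      have h3 := h1 (c • Pi.single (mi b) 1) (Pi.single (mi b') 1) (by rw [map_smul]; exact hc.symm)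
      rw [map_smul] at h3
      exact (smul_ne_zero hc0 n1) h3)
  refine ⟨fun x => C.e i x k, fun x => C.e i x l, hfa_coord C hi k, hfa_coord C hi l, ?_⟩
  have d1 : deriv (fun w => C.e i (Γ.toP1F.g b w) k) z = _ := (deriv_coord e1 k).deriv
  have d2 : deriv (fun w => C.e i (Γ.toP1F.g b w) l) z = _ := (deriv_coord e1 l).deriv
  have d3 : deriv (fun w => C.e i (Δ.toP1F.g b' w) k) z' = _ := (deriv_coord e2 k).deriv
  have d4 : deriv (fun w => C.e i (Δ.toP1F.g b' w) l) z' = _ := (deriv_coord e2 l).deriv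
  rw [d1, d2, d3, d4]
  exact hkl

/-! ### invertible linear maps of `ℂ²` -/

/-- the linear map `(x, y) ↦ (a x + b y, c x + d y)` -/
def lin2 (a b c d : ℂ) (w : V2) : V2 := ![a * w 0 + b * w 1, c * w 0 + d * w 1]

@[simp] theorem lin2_zero (a b c d : ℂ) (w : V2) : lin2 a b c d w 0 = a * w 0 + b * w 1 := rfl
@[simp] theorem lin2_one (a b c d : ℂ) (w : V2) : lin2 a b c d w 1 = c * w 0 + d * w 1 := rfl

/-- the linear equivalence -/
def linE (a b c d : ℂ) (h : a * d - b * c ≠ 0) : V2 ≃L[ℂ] V2 :=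
  LinearEquiv.toContinuousLinearEquiv
    { toFun := lin2 a b c d
      invFun := fun w => (a * d - b * c)⁻¹ • lin2 d (-b) (-c) a w
      map_add' := fun v w => v2_ext (by simp; ring) (by simp; ring)
      map_smul' := fun k v => v2_ext (by simp; ring) (by simp; ring)
      left_inv := fun w => by
        refine v2_ext ?_ ?_
        · show (a * d - b * c)⁻¹ * (d * (a * w 0 + b * w 1) + -b * (c * w 0 + d * w 1)) = w 0
          rw [inv_mul_eq_iff_eq_mul₀ h]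
          ring
        · show (a * d - b * c)⁻¹ * (-c * (a * w 0 + b * w 1) + a * (c * w 0 + d * w 1)) = w 1
          rw [inv_mul_eq_iff_eq_mul₀ h]
          ring
      right_inv := fun w => by
        refine v2_ext ?_ ?_
        · show a * ((a * d - b * c)⁻¹ * (d * w 0 + -b * w 1)) +
            b * ((a * d - b * c)⁻¹ * (-c * w 0 + a * w 1)) = w 0
          have e : a * ((a * d - b * c)⁻¹ * (d * w 0 + -b * w 1)) +
            b * ((a * d - b * c)⁻¹ * (-c * w 0 + a * w 1)) =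
              (a * d - b * c)⁻¹ * ((a * d - b * c) * w 0) := by ring
          rw [e, inv_mul_cancel_left₀ h]
        · show c * ((a * d - b * c)⁻¹ * (d * w 0 + -b * w 1)) +
            d * ((a * d - b * c)⁻¹ * (-c * w 0 + a * w 1)) = w 1
          have e : c * ((a * d - b * c)⁻¹ * (d * w 0 + -b * w 1)) +
            d * ((a * d - b * c)⁻¹ * (-c * w 0 + a * w 1)) =
              (a * d - b * c)⁻¹ * ((a * d - b * c) * w 1) := by ring
          rw [e, inv_mul_cancel_left₀ h] }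

@[simp] theorem linE_apply (a b c d : ℂ) (h : a * d - b * c ≠ 0) (w : V2) :
    linE a b c d h w = lin2 a b c d w := rfl

namespace CycD

variable {A : Atl n X} {D : Data A (Fin 2)} (K : CycD D)

theorem cs_sq (e : Bool) : cs e ^ 2 = 1 := by cases e <;> simp

theorem cs_ne (e : Bool) : cs e ≠ 0 := by cases e <;> simp

theorem cI_sq (d : Bool) : cI d ^ 2 = -1 := by cases d <;> simp

/-- the two signs at the node -/
structure Sg (K : CycD D) (κ₁ κ₂ : ℂ) : Prop where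
  s1 : κ₁ ^ 2 = 1
  s2 : κ₂ ^ 2 = 1
  w1 : K.w₁ = ![-1, 1]
  w2 : K.w₂ = ![1, 1]
  e1 : ∀ i, K.α.G K.w₁ ∈ (A.e i).source →
    K.Sα.fb.r i K.w₁ * Complex.I = κ₁ * K.Sβ.fa.r i K.w₂
  e2 : ∀ i, K.α.G K.w₁ ∈ (A.e i).source → K.Sβ.fb.r i K.w₂ = κ₂ * K.Sα.fa.r i K.w₁

theorem exists_sg (hw1 : K.w₁ = ![-1, 1]) (hw2 : K.w₂ = ![1, 1]) :
    ∃ κ₁ κ₂ : ℂ, K.Sg κ₁ κ₂ := by
  obtain ⟨i, hi⟩ := A.cover (K.α.G K.w₁)
  have hi' : K.β.G K.w₂ ∈ (A.e i).source := K.meet ▸ hi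
  have h1 := K.Sα.sb _ K.hw₁ i hi
  have h2 := K.Sβ.sa _ K.hw₂ i hi'
  have h3 := K.Sβ.sb _ K.hw₂ i hi'
  have h4 := K.Sα.sa _ K.hw₁ i hi
  have a1 : (K.Sα.fb.r i K.w₁ * Complex.I) ^ 2 = K.Sβ.fa.r i K.w₂ ^ 2 := by
    rw [← h2, ← K.meet, h1, mul_pow, Complex.I_sq, hw1]
    simp
  have a2 : K.Sβ.fb.r i K.w₂ ^ 2 = K.Sα.fa.r i K.w₁ ^ 2 := by
    rw [← h4, K.meet, h3, hw2]
    simp
  have key : ∀ {x y : ℂ}, x ^ 2 = y ^ 2 → ∃ κ : ℂ, κ ^ 2 = 1 ∧ x = κ * y := by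
    intro x y h
    rcases sq_eq_sq_iff_eq_or_eq_neg.1 h with h5 | h5
    · exact ⟨1, by norm_num, by rw [one_mul]; exact h5⟩
    · exact ⟨-1, by norm_num, by rw [h5]; ring⟩
  obtain ⟨κ₁, q1, b1⟩ := key a1
  obtain ⟨κ₂, q2, b2⟩ := key a2
  refine ⟨κ₁, κ₂, q1, q2, hw1, hw2, fun j hj => ?_, fun j hj => ?_⟩
  · have hj' : K.β.G K.w₂ ∈ (A.e j).source := K.meet ▸ hj
    rw [K.Sα.fb.tr _ K.hw₁ j i hj hi, K.Sβ.fa.tr _ K.hw₂ j i hj' hi', K.meet]
    linear_combination (D.L 1).g j i (K.β.G K.w₂) * b1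
  · have hj' : K.β.G K.w₂ ∈ (A.e j).source := K.meet ▸ hj
    rw [K.Sβ.fb.tr _ K.hw₂ j i hj' hi', K.Sα.fa.tr _ K.hw₁ j i hj hi, K.meet]
    linear_combination (D.L 0).g j i (K.β.G K.w₂) * b2

variable {K}

theorem sq_ne {κ : ℂ} (h : κ ^ 2 = 1) : κ ≠ 0 := by
  rintro rfl
  norm_num at h

/-- the parametrisation of `K e` : `(1, z) ↦ ζ = (z - 1, κ₁ (z + 1))` -/
def Bk {κ₁ : ℂ} (h1 : κ₁ ^ 2 = 1) : V2 ≃L[ℂ] V2 :=
  linE (-1) 1 κ₁ κ₁ (by
    intro h
    exact sq_ne h1 (by linear_combination (-1 / 2) * h))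

/-- the parametrisation of `R d` : `(1, z) ↦ ζ = (κ₂ (z - 1), z + 1)` -/
def Br {κ₂ : ℂ} (h2 : κ₂ ^ 2 = 1) : V2 ≃L[ℂ] V2 :=
  linE (-κ₂) κ₂ 1 1 (by
    intro h
    exact sq_ne h2 (by linear_combination (-1 / 2) * h))

variable {κ₁ κ₂ : ℂ}

/-- the curve `K e` -/
def ck (S : K.Sg κ₁ κ₂) (e : Bool) : HCur D.famX := (K.Sα.up (cs_sq e)).pre (Bk S.s1)

/-- the curve `R d` -/
def cr (S : K.Sg κ₁ κ₂) (d : Bool) : HCur D.famX := (K.Sβ.up (cs_sq d)).pre (Br S.s2)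

theorem ck_G (S : K.Sg κ₁ κ₂) (e : Bool) (w : V2) :
    (ck S e).G w = K.Sα.F (cs_sq e) (lin2 (-1) 1 κ₁ κ₁ w) := rfl

theorem cr_G (S : K.Sg κ₁ κ₂) (d : Bool) (w : V2) :
    (cr S d).G w = K.Sβ.F (cs_sq d) (lin2 (-κ₂) κ₂ 1 1 w) := rfl

theorem lin_k_ne {κ₁ : ℂ} (h1 : κ₁ ^ 2 = 1) {w : V2} (hw : w ≠ 0) : lin2 (-1) 1 κ₁ κ₁ w ≠ 0 :=
  (map_ne_zero_iff _ (Bk h1).injective).2 hw

theorem lin_r_ne {κ₂ : ℂ} (h2 : κ₂ ^ 2 = 1) {w : V2} (hw : w ≠ 0) : lin2 (-κ₂) κ₂ 1 1 w ≠ 0 :=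
  (map_ne_zero_iff _ (Br h2).injective).2 hw

theorem ck_img (S : K.Sg κ₁ κ₂) (e : Bool) : (ck S e).img = (K.Sα.up (cs_sq e)).img :=
  HCur.pre_img _ _

theorem cr_img (S : K.Sg κ₁ κ₂) (d : Bool) : (cr S d).img = (K.Sβ.up (cs_sq d)).img :=
  HCur.pre_img _ _

theorem meet_kr (S : K.Sg κ₁ κ₂) (e d : Bool) :
    (ck S e).G (pt false (cI d)) = (cr S d).G (pt e 0) := by
  rw [ck_G, cr_G]
  have hz := cI_sq d
  have hz0 : cI d ≠ 0 := by
    intro h
    rw [h] at hz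
    norm_num at hz
  have hId : cI d = cs d * Complex.I := by cases d <;> simp
  set ζ := lin2 (-1) 1 κ₁ κ₁ (pt false (cI d)) with hζ
  set ζ' := lin2 (-κ₂) κ₂ 1 1 (pt e 0) with hζ'
  have hζ0 : ζ ≠ 0 := lin_k_ne S.s1 (pt_ne _ _)
  have hζ0' : ζ' ≠ 0 := lin_r_ne S.s2 (pt_ne _ _)
  have a0 : ζ 0 = cI d - 1 := by
    rw [hζ]
    simp
    ring
  have a1 : ζ 1 = κ₁ * (cI d + 1) := by
    rw [hζ]
    simp
    ring
  have b0 : ζ' 0 = cs e * κ₂ := by
    rw [hζ']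
    cases e <;> simp
  have b1 : ζ' 1 = 1 := by
    rw [hζ']
    cases e <;> simp
  have c1 : sqv ζ = (2 * cI d) • K.w₁ := by
    rw [S.w1]
    refine v2_ext ?_ ?_
    · simp [a0]
      linear_combination hz
    · simp [a1, mul_pow, S.s1]
      linear_combination hz
  have c2 : sqv ζ' = K.w₂ := by
    rw [S.w2]
    refine v2_ext ?_ ?_
    · simp [b0, mul_pow, S.s2, cs_sq]
    · simp [b1]
  have h2z : (2 * cI d) ≠ 0 := mul_ne_zero two_ne_zero hz0
  have c3 : K.α.G (sqv ζ) = K.α.G K.w₁ := by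
    rw [c1]
    exact K.α.smul _ h2z _ K.hw₁
  obtain ⟨i, hi⟩ := A.cover (K.α.G K.w₁)
  have hi1 : K.α.G (sqv ζ) ∈ (A.e i).source := by rw [c3]; exact hi
  have hi2 : K.β.G (sqv ζ') ∈ (A.e i).source := by rw [c2, ← K.meet]; exact hi
  refine D.ext_X (i := i) (by rw [K.Sα.p_F _ hζ0, K.Sβ.p_F _ hζ0', c3, c2, K.meet])
    (by rw [K.Sα.p_F _ hζ0]; exact hi1) fun c => ?_
  rw [K.Sα.y_F _ hζ0 hi1, K.Sβ.y_F _ hζ0' hi2]
  rcases K.Sα.eq_ab c with rfl | rfl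
  · rw [K.Sα.t_a, K.Sβ.t_b, c1, c2, S.e2 i hi, b0, b1]
    have h3 := K.Sα.fa.hom _ h2z _ K.hw₁ i hi
    rw [pow_zero, one_mul] at h3
    rw [h3]
    linear_combination (- cs e * K.Sα.fa.r i K.w₁) * S.s2
  · rw [K.Sα.t_b, K.Sβ.t_a, c1, c2, a0, a1]
    have h3 := K.Sα.fb.hom _ h2z _ K.hw₁ i hi
    rw [pow_one] at h3
    have h4 := S.e1 i hi
    apply mul_left_cancel₀ h2z
    have h5 : 2 * cI d * (K.Sα.fb.r i ((2 * cI d) • K.w₁) * ((cI d - 1) * (κ₁ * (cI d + 1)))) =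
        (2 * cI d * K.Sα.fb.r i ((2 * cI d) • K.w₁)) * ((cI d - 1) * (κ₁ * (cI d + 1))) := by ring
    rw [h5, h3, hId]
    have h6 : cs d ^ 2 = 1 := cs_sq d
    have h7 : Complex.I ^ 2 = -1 := Complex.I_sq
    linear_combination (K.Sα.fb.r i K.w₁ * κ₁ * Complex.I ^ 2 -
      2 * Complex.I * K.Sβ.fa.r i K.w₂) * h6 - K.Sα.fb.r i K.w₁ * κ₁ * h7 +
      2 * κ₁ * Complex.I * h4 + 2 * Complex.I * K.Sβ.fa.r i K.w₂ * S.s1

theorem htrans_pre {X : Type} [TopologicalSpace X] {C : Fam n X} {Γ Δ : HCur C}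
    (h : HTrans Γ Δ) (B B' : V2 ≃L[ℂ] V2) : HTrans (Γ.pre B) (Δ.pre B') := by
  intro w w' hw hw' he
  have hBw : B w ≠ 0 := (map_ne_zero_iff _ B.injective).2 hw
  have hBw' : B' w' ≠ 0 := (map_ne_zero_iff _ B'.injective).2 hw'
  have he' : Γ.G (B w) = Δ.G (B' w') := he
  obtain ⟨i, hi, h1⟩ := h _ _ hBw hBw' he'
  have hi' : Δ.G (B' w') ∈ (C.e i).source := he' ▸ hi
  refine ⟨i, hi, fun v v' hv => ?_⟩
  have e1 : fderiv ℂ (fun w => C.e i (Γ.G (B w))) w v =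
      fderiv ℂ (fun w => C.e i (Γ.G w)) (B w) (fderiv ℂ (⇑B) w v) :=
    (Γ.ha _ hBw).pre_fderiv B.differentiableAt hi v
  have e2 : fderiv ℂ (fun w => C.e i (Δ.G (B' w))) w' v' =
      fderiv ℂ (fun w => C.e i (Δ.G w)) (B' w') (fderiv ℂ (⇑B') w' v') :=
    (Δ.ha _ hBw').pre_fderiv B'.differentiableAt hi' v'
  have hv' : fderiv ℂ (fun w => C.e i (Γ.G (B w))) w v =
      fderiv ℂ (fun w => C.e i (Δ.G (B' w))) w' v' := hv
  rw [e1, e2] at hv'
  show fderiv ℂ (fun w => C.e i (Γ.G (B w))) w v = 0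
  rw [e1]
  exact h1 _ _ hv'

theorem disj_img {a b : Fin 2} {Γ : HCur (fam A)} (S : Sheet D a b Γ) :
    Disjoint (S.up (cs_sq true)).img (S.up (cs_sq false)).img := by
  rw [Set.disjoint_left]
  rintro x ⟨ζ, hζ, e⟩ ⟨ζ', hζ', e'⟩
  have h := S.sheet_eq (cs_sq true) (cs_sq false) hζ hζ' (e.trans e'.symm)
  simp only [cs_true, cs_false] at h
  norm_num at h

end CycD

namespace CycD

variable {A : Atl 2 X} {D : Data A (Fin 2)} {K : CycD D} {κ₁ κ₂ : ℂ}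

/-- **894's cycle** -/
def cyc (S : K.Sg κ₁ κ₂) : Cyc D.famX where
  K e := (ck S e).toP1F
  R d := (cr S d).toP1F
  meet e d := meet_kr S e d
  disjK := by
    rw [HCur.toP1F_img, HCur.toP1F_img, ck_img, ck_img]
    exact disj_img K.Sα
  disjR := by
    rw [HCur.toP1F_img, HCur.toP1F_img, cr_img, cr_img]
    exact disj_img K.Sβ
  tr e d := (htrans_pre (K.htrans (cs_sq e) (cs_sq d)) _ _).toTr

theorem cyc_K_g (S : K.Sg κ₁ κ₂) (e b : Bool) (z : ℂ) :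
    ((cyc S).K e).g b z = K.Sα.F (cs_sq e) (lin2 (-1) 1 κ₁ κ₁ (pt b z)) := rfl

theorem cyc_R_g (S : K.Sg κ₁ κ₂) (d b : Bool) (z : ℂ) :
    ((cyc S).R d).g b z = K.Sβ.F (cs_sq d) (lin2 (-κ₂) κ₂ 1 1 (pt b z)) := rfl

/-- the union of the four curves, in terms of the base -/
theorem cyc_Z (S : K.Sg κ₁ κ₂) : (cyc S).Z = (K.Sα.up (cs_sq true)).img ∪
    (K.Sβ.up (cs_sq true)).img ∪ (K.Sα.up (cs_sq false)).img ∪ (K.Sβ.up (cs_sq false)).img := by
  have h0 : ((cyc S).cv 0).img = (K.Sα.up (cs_sq true)).img := by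
    show ((ck S true).toP1F).img = _
    rw [HCur.toP1F_img, ck_img]
  have h1 : ((cyc S).cv 1).img = (K.Sβ.up (cs_sq true)).img := by
    show ((cr S true).toP1F).img = _
    rw [HCur.toP1F_img, cr_img]
  have h2 : ((cyc S).cv 2).img = (K.Sα.up (cs_sq false)).img := by
    show ((ck S false).toP1F).img = _
    rw [HCur.toP1F_img, ck_img]
  have h3 : ((cyc S).cv 3).img = (K.Sβ.up (cs_sq false)).img := by
    show ((cr S false).toP1F).img = _
    rw [HCur.toP1F_img, cr_img]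
  rw [← h0, ← h1, ← h2, ← h3]
  ext x
  simp only [Cyc.Z, mem_iUnion, mem_union]
  constructor
  · rintro ⟨i, hi⟩
    fin_cases i
    · exact Or.inl (Or.inl (Or.inl hi))
    · exact Or.inl (Or.inl (Or.inr hi))
    · exact Or.inl (Or.inr hi)
    · exact Or.inr hi
  · rintro (((h | h) | h) | h)
    · exact ⟨0, h⟩
    · exact ⟨1, h⟩
    · exact ⟨2, h⟩
    · exact ⟨3, h⟩

end CycD

end

end Crest.Agent.R272.Cyc_760
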