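import Crest.Agent.R272.Top14_414
import Crest.Agent.R272.Gm2_235

/-!
# R272, S14-ASM (helper414): the top of S0414, general form

* `CurvesOn CX Z` : for every atlas compatible with `CX` the set `Z` is a connected union of `P1C`'s, pairwise
  transversal, without triple points; `CurvesOn.of_P1F`;
* `s14_gen` : for any covering `X̂ → X`, bidisc data `B` and root system `H` on `X̂`;
* `s14_towerG` : the same for the cover of a double blow-up;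
* `s14_tower235` : for helper235's `DiscD`, `XMap`, `SqD`, `SlD`.
-/

set_option autoImplicit false
set_option linter.unusedSectionVars false

open Set Filter Topology
open scoped unitInterval

namespace Crest.Agent.R272.Top14_414

open Crest.Agent.R275.Geo Crest.Agent.R275.Core144 Crest.Agent.R275.GC293
open Crest.Agent.R273.Defs_333 Crest.Agent.R273.Fam_835 Crest.Agent.R273.HM_333
open CpTop_338 CpChow_338 CpMan_338 CpPi_338 CpRat423 G14a_414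
open DCov_426 P1F_414 Root_83 UnB_894 LbExt_259 Wall4_275 Blup1_102

noncomputable section

universe v w

/-- `Z` is a nodal connected union of rational curves, in every compatible atlas -/
def CurvesOn {X : Type} [TopologicalSpace X] (CX : Fam 2 X) (Z : Set X) : Prop :=
  ∀ A' : Atl 2 X, Cmp CX A' → ∃ (k : ℕ) (γ : Fin k → P1C A'), (∀ i j, i ≠ j → Trans (γ i) (γ j)) ∧
    (∀ i j l, i ≠ j → j ≠ l → i ≠ l → (γ i).img ∩ (γ j).img ∩ (γ l).img = ∅) ∧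
    IsConnected (⋃ i, (γ i).img) ∧ (⋃ i, (γ i).img) = Z

theorem CurvesOn.of_P1F {X : Type} [TopologicalSpace X] {CX : Fam 2 X} {k : ℕ}
    (γ : Fin k → P1F CX) (ht : ∀ i j, i ≠ j → (γ i).Tr (γ j))
    (h3 : ∀ i j l, i ≠ j → j ≠ l → i ≠ l → (γ i).img ∩ (γ j).img ∩ (γ l).img = ∅)
    (hc : IsConnected (⋃ i, (γ i).img)) : CurvesOn CX (⋃ i, (γ i).img) := fun _ hcmp =>
  ⟨k, fun i => (γ i).cv hcmp, fun i j hij => (ht i j hij).trans hcmp,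
    fun i j l hij hjl hil => h3 i j l hij hjl hil, hc, rfl⟩

section gen

variable {X : Type} [TopologicalSpace X] {CX : Fam 2 X}

/-- **the end game of S0414** over any covering `qX : X̂ → X` with bidisc data and a root system -/
theorem s14_gen [T2Space X] [CompactSpace X] {A' : Atl 2 X} [Finite A'.ι] (hcmp : Cmp CX A')
    (PA : Part A') (P : ProjD A') {Z : Set X} (hcv : CurvesOn CX Z)
    {Xh : Type v} [TopologicalSpace Xh] {qX : Xh → X} (hq : IsCoveringMap qX)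
    (B : BD Xh) (H : RS Xh (Fin 4) (gg B.F B.T B.W)) (hloc : Loc B H) {Zh : Set Xh}
    (hZ : ∀ y ∈ Zh, B.T y = 0 ∧ B.W y = 0) (hZγ : ∀ y ∈ Zh, qX y ∈ Z)
    (R : Zh → Fin 4 → Xh → ℂ) (hR : ∀ (y : Zh) (a : Fin 4), H.Rt a (R y a) (y : Xh))
    (hRc : ∀ y : Zh, ∀ᶠ y' : Zh in 𝓝 y, ∀ a, R y' a =ᶠ[𝓝 (y' : Xh)] R y a)
    {z₀ z₁ z₂ z₃ : Zh} (k₁ : Path z₀ z₁) (r₁ : Path z₁ z₂) (k₂ : Path z₂ z₃) (r₂ : Path z₃ z₀)
    (hk₁ : Arc R k₁) (hk₂ : Arc R k₂) (hr₁ : ∀ t, SlR (R (r₁ t)) (r₁ t : Xh) 0)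
    (hr₂ : ∀ t, SlR (R (r₂ t)) (r₂ t : Xh) 0) : S14 := by
  obtain ⟨θ, e, c, l, h1, h2, h4⟩ := lb414 hloc (Zh := Zh) hZ R hR hRc k₁ r₁ k₂ r₂ hk₁ hk₂ hr₁ hr₂
  obtain ⟨k, γ, ht, h3, hc, hU⟩ := hcv A' hcmp
  refine of_theta' (A := A') PA P γ ht h3 hc H.cov hq θ c (fun t => ?_) l h2 h4
  rw [hU]
  exact hZγ _ (h1 t)

end gen

section tower

variable {N : Type} [TopologicalSpace N] {A : Atl 2 N} {ρ : Type} [Fintype ρ]

/-- **S0414 from the tower** `X̂ → D.X → Bl₂ → Bl₁ → N` -/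
theorem s14_towerG [T2Space N] [CompactSpace N] (hpos : ∃ (L : LB A) (g : HM L), g.Pos)
    (C₁ : Ctr A) (C₂ : Ctr C₁.atl) (D : Data C₂.atl ρ) {Z : Set D.X} (hcv : CurvesOn D.famX Z)
    {Xh : Type v} [TopologicalSpace Xh] {qX : Xh → D.X} (hq : IsCoveringMap qX)
    (B : BD Xh) (H : RS Xh (Fin 4) (gg B.F B.T B.W)) (hloc : Loc B H) {Zh : Set Xh}
    (hZ : ∀ y ∈ Zh, B.T y = 0 ∧ B.W y = 0) (hZγ : ∀ y ∈ Zh, qX y ∈ Z)
    (R : Zh → Fin 4 → Xh → ℂ) (hR : ∀ (y : Zh) (a : Fin 4), H.Rt a (R y a) (y : Xh))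
    (hRc : ∀ y : Zh, ∀ᶠ y' : Zh in 𝓝 y, ∀ a, R y' a =ᶠ[𝓝 (y' : Xh)] R y a)
    {z₀ z₁ z₂ z₃ : Zh} (k₁ : Path z₀ z₁) (r₁ : Path z₁ z₂) (k₂ : Path z₂ z₃) (r₂ : Path z₃ z₀)
    (hk₁ : Arc R k₁) (hk₂ : Arc R k₂) (hr₁ : ∀ t, SlR (R (r₁ t)) (r₁ t : Xh) 0)
    (hr₂ : ∀ t, SlR (R (r₂ t)) (r₂ t : Xh) 0) : S14 := by
  obtain ⟨hX1, hX2, A', hcmp, -, hF, -, ⟨PA⟩, ⟨P⟩⟩ := Middle_414.middle hpos C₁ C₂ D
  exact s14_gen hcmp PA P hcv hq B H hloc hZ hZγ R hR hRc k₁ r₁ k₂ r₂ hk₁ hk₂ hr₁ hr₂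

open Gm2_235 in
/-- the same for helper235's structures: `X̂ = PB (q × p) π` -/
theorem s14_tower235 [T2Space N] [CompactSpace N] (hpos : ∃ (L : LB A) (g : HM L), g.Pos)
    (C₁ : Ctr A) (C₂ : Ctr C₁.atl) (D : Data C₂.atl ρ) {Z : Set D.X} (hcv : CurvesOn D.famX Z)
    {CC BB : Type} [TopologicalSpace CC] [TopologicalSpace BB] {AC : Atl 1 CC} {AB : Atl 1 BB}
    {q : DD → CC} {p : DD → BB} {π : D.X → CC × BB} {φ f : CC → BB} {F : DD → DD}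
    (E : DiscD AC AB q p φ f F) (M : XMap D.famX AC AB π)
    (S : SqD D.famX AC AB π φ f (q o) (p o)) {f1 : CC → ℂ} {f2 : BB → ℂ}
    (L : SlD D.famX AC AB π (q o) (p o) f1 f2) {Zh : Set (PB (Prod.map q p) π)}
    (hZ : ∀ y ∈ Zh, (bd E π).T y = 0 ∧ (bd E π).W y = 0) (hZγ : ∀ y ∈ Zh, pbFst _ π y ∈ Z)
    (R : Zh → Fin 4 → PB (Prod.map q p) π → ℂ)
    (hR : ∀ (y : Zh) (a : Fin 4), (rs E M S).Rt a (R y a) (y : PB (Prod.map q p) π))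
    (hRc : ∀ y : Zh, ∀ᶠ y' : Zh in 𝓝 y, ∀ a, R y' a =ᶠ[𝓝 (y' : PB (Prod.map q p) π)] R y a)
    {z₀ z₁ z₂ z₃ : Zh} (k₁ : Path z₀ z₁) (r₁ : Path z₁ z₂) (k₂ : Path z₂ z₃) (r₂ : Path z₃ z₀)
    (hk₁ : Arc R k₁) (hk₂ : Arc R k₂)
    (hr₁ : ∀ t, SlR (R (r₁ t)) (r₁ t : PB (Prod.map q p) π) 0)
    (hr₂ : ∀ t, SlR (R (r₂ t)) (r₂ t : PB (Prod.map q p) π) 0) : S14 :=
  s14_towerG hpos C₁ C₂ D hcv (isCoveringMap_fst (prod_covering E.hqc E.hpc) M.hπ) (bd E π)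
    (rs E M S) (loc_xhat E M S L) hZ hZγ R hR hRc k₁ r₁ k₂ r₂ hk₁ hk₂ hr₁ hr₂

end tower

end

end Crest.Agent.R272.Top14_414
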