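import Crest.Agent.R272.Cyc4_760
import Crest.Agent.R272.TopG_414

/-!
# R272 (S0414), leaf S14-CYC (helper760), part 5: `CurvesOn` of 414 from `CycD`

`CycD.curvesOn : CurvesOn D.famX (⋃ i, (K.γ i).img)`.
-/

set_option autoImplicit false
set_option linter.unusedSectionVars false

open Set Filter Topology

namespace Crest.Agent.R272.Cyc_760

open Crest.Agent.R275.Geo Crest.Agent.R275.Core144
open Crest.Agent.R273.Map_835 Crest.Agent.R273.Fam_835
open Crest.Agent.R272.CpRat423 Crest.Agent.R272.DCov_426 Crest.Agent.R272.P1F_414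
open Crest.Agent.R272.Top14_414

noncomputable section

variable {M : Type} [TopologicalSpace M] {A : Atl 2 M}

namespace CycD

variable {D : Data A (Fin 2)} (K : CycD D)

/-- the union of the four curves -/
def Z : Set D.X := ⋃ i, (K.γ i).img

theorem curvesOn : CurvesOn D.famX K.Z := fun _ hc =>
  ⟨4, K.cP hc, K.cP_ht hc, K.cP_h3 hc, K.cP_hc hc, iUnion_congr fun i => K.cP_img hc i⟩

theorem mem_Z {x : D.X} : x ∈ K.Z ↔ ∃ i, x ∈ (K.γ i).img := mem_iUnion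

/-- a point of the union lies over one of the two curves of the base -/
theorem p_mem_of_Z {x : D.X} (hx : x ∈ K.Z) : D.p x ∈ K.α.img ∨ D.p x ∈ K.β.img := by
  obtain ⟨i, hi⟩ := K.mem_Z.1 hx
  fin_cases i
  · obtain ⟨ζ, hζ, rfl⟩ := hi
    exact Or.inl ⟨sqv ζ, sqv_ne hζ, (K.Sα.p_F one_sq hζ).symm⟩
  · obtain ⟨ζ, hζ, rfl⟩ := hi
    exact Or.inr ⟨sqv ζ, sqv_ne hζ, (K.Sβ.p_F one_sq hζ).symm⟩
  · obtain ⟨ζ, hζ, rfl⟩ := hi
    exact Or.inl ⟨sqv ζ, sqv_ne hζ, (K.Sα.p_F neg_sq' hζ).symm⟩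
  · obtain ⟨ζ, hζ, rfl⟩ := hi
    exact Or.inr ⟨sqv ζ, sqv_ne hζ, (K.Sβ.p_F neg_sq' hζ).symm⟩

end CycD

end

end Crest.Agent.R272.Cyc_760
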