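import Crest.Agent.R272.DCov7_426

/-!
# R272 (S0414, S0415), DCOV (helper426), file 8: tangent vectors and coordinates on the cover

* `exists_tangent` : the tangent space of the cover at a point is
                     `{(ζ, η) | k_a y_a^(k_a-1) η_a = ds_a(ζ)}`
* `snc_up`         : the sections `y a` together with pull-backs of further sections are SNC upstairs
* `coord_one`      : `n = 1`: at a zero of `s a` the function `y a` has non-zero derivative
-/

set_option autoImplicit false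
set_option linter.unusedSectionVars false

open Set Filter Topology Metric

namespace Crest.Agent.R272.DCov_426

open Crest.Agent.R275.Geo Crest.Agent.R275.Core144 Crest.Agent.R275.GC293
open Crest.Agent.R273.Map_835 Crest.Agent.R273.Fam_835 Crest.Agent.R273.PB_835
open Crest.Agent.R273.Defs_333

noncomputable section

variable {n : ℕ} {M : Type} [TopologicalSpace M] {A : Atl n M} {ρ : Type} [Fintype ρ]

namespace Data

variable (D : Data A ρ) {A' : Atl n D.X} (hc : Cmp D.famX A')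

include hc in
theorem diffAt_y {i : A'.ι} {j : A.ι} {z : Cn n} (hz : z ∈ dm A' A D.p i j) (a : ρ) :
    DifferentiableAt ℂ (fun w => D.y a j ((A'.e i).symm w)) z :=
  differentiableAt_pi.1 (D.diffAt_ch' hc hz.1 hz.2).snd a

include hc in
/-- the equation satisfied by tangent vectors -/
theorem tangent_eq {i : A'.ι} {j : A.ι} {z : Cn n} (hz : z ∈ dm A' A D.p i j) (a : ρ) (v : Cn n) :
    ((D.k a : ℂ) * D.y a j ((A'.e i).symm z) ^ (D.k a - 1)) *
      fderiv ℂ (fun w => D.y a j ((A'.e i).symm w)) z v =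
    fderiv ℂ (fun u => D.s a j ((A.e j).symm u)) (rd A' A D.p i j z)
      (fderiv ℂ (rd A' A D.p i j) z v) := by
  have hp := D.holMap_p hc
  have hy := D.diffAt_y hc hz a
  have hsd : DifferentiableAt ℂ (fun u => D.s a j ((A.e j).symm u)) (rd A' A D.p i j z) :=
    D.diff_s j a ((A.e j).map_source hz.2)
  have h1 : (fun w => D.y a j ((A'.e i).symm w) ^ D.k a) =ᶠ[𝓝 z]
      (fun u => D.s a j ((A.e j).symm u)) ∘ (rd A' A D.p i j) := by
    filter_upwards [(hp.isOpen_dm i j).mem_nhds hz] with w hw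
    rw [D.y_pow a (show D.p ((A'.e i).symm w) ∈ (A.e j).source from hw.2)]
    show _ = D.s a j ((A.e j).symm (A.e j (D.p ((A'.e i).symm w))))
    rw [(A.e j).left_inv hw.2]
  have h2 := h1.fderiv_eq (𝕜 := ℂ)
  rw [fderiv_comp z hsd (hp.diffAt hz)] at h2
  have h3 : fderiv ℂ (fun w => D.y a j ((A'.e i).symm w) ^ D.k a) z = _ :=
    (hy.hasFDerivAt.pow (D.k a)).fderiv
  rw [h3] at h2
  have h4 := congrArg (fun T : Cn n →L[ℂ] ℂ => T v) h2
  simpa [smul_eq_mul, mul_assoc] using h4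

/-- the tangent map of `(p, y)` -/
def tm (i : A'.ι) (j : A.ι) (z : Cn n) : Cn n →ₗ[ℂ] Cn n × (ρ → ℂ) :=
  (fderiv ℂ (rd A' A D.p i j) z).toLinearMap.prod
    (LinearMap.pi fun a => (fderiv ℂ (fun w => D.y a j ((A'.e i).symm w)) z).toLinearMap)

include hc in
theorem tm_injective {i : A'.ι} {j : A.ι} {z : Cn n} (hz : z ∈ dm A' A D.p i j) :
    Function.Injective (D.tm (A' := A') i j z) := by
  rw [← LinearMap.ker_eq_bot, LinearMap.ker_eq_bot']
  intro v hv
  have h1 : fderiv ℂ (rd A' A D.p i j) z v = 0 := congrArg Prod.fst hv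
  have h2 : ∀ a, fderiv ℂ (fun w => D.y a j ((A'.e i).symm w)) z v = 0 := fun a =>
    congrFun (congrArg Prod.snd hv) a
  refine D.imm_rs hc i j z hz v h1 ⟨0, fun o => ?_⟩
  rw [zero_mul]
  match o with
  | none =>
    show fderiv ℂ (fun _ : Cn n => (1 : ℂ)) z v = 0
    simp
  | some a => exact h2 a

/-- the linearised equations -/
def lin (i : A'.ι) (j : A.ι) (z : Cn n) : Cn n × (ρ → ℂ) →ₗ[ℂ] (ρ → ℂ) :=
  LinearMap.pi fun a =>
    ((D.k a : ℂ) * D.y a j ((A'.e i).symm z) ^ (D.k a - 1)) •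
      (LinearMap.proj a ∘ₗ LinearMap.snd ℂ (Cn n) (ρ → ℂ)) -
    (fderiv ℂ (fun u => D.s a j ((A.e j).symm u)) (rd A' A D.p i j z)).toLinearMap ∘ₗ
      LinearMap.fst ℂ (Cn n) (ρ → ℂ)

theorem lin_apply (i : A'.ι) (j : A.ι) (z : Cn n) (u : Cn n × (ρ → ℂ)) (a : ρ) :
    D.lin (A' := A') i j z u a =
      ((D.k a : ℂ) * D.y a j ((A'.e i).symm z) ^ (D.k a - 1)) * u.2 a -
      fderiv ℂ (fun u => D.s a j ((A.e j).symm u)) (rd A' A D.p i j z) u.1 := rfl

theorem lin_surjective {i : A'.ι} {j : A.ι} {z : Cn n} (hz : z ∈ dm A' A D.p i j) :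
    Function.Surjective (D.lin (A' := A') i j z) := by
  classical
  intro c
  have hj : D.p ((A'.e i).symm z) ∈ (A.e j).source := hz.2
  obtain ⟨v, hv⟩ := D.snc j (D.p ((A'.e i).symm z)) hj (-c)
  refine ⟨(v, fun a => if D.s a j (D.p ((A'.e i).symm z)) = 0 then 0 else
    ((D.k a : ℂ) * D.y a j ((A'.e i).symm z) ^ (D.k a - 1))⁻¹ *
      (c a + fderiv ℂ (fun z => D.s a j ((A.e j).symm z)) (rd A' A D.p i j z) v)), ?_⟩
  funext a
  rw [lin_apply]
  by_cases hs : D.s a j (D.p ((A'.e i).symm z)) = 0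
  · have h1 : fderiv ℂ (fun u => D.s a j ((A.e j).symm u)) (rd A' A D.p i j z) v = -c a := hv a hs
    simp only [hs, if_true, mul_zero, h1]
    ring
  · have h1 : D.y a j ((A'.e i).symm z) ≠ 0 := by
      intro h
      apply hs
      rw [← D.y_pow a hj, h, zero_pow (D.kpos a).ne']
    have h2 : ((D.k a : ℂ) * D.y a j ((A'.e i).symm z) ^ (D.k a - 1)) ≠ 0 :=
      mul_ne_zero (by exact_mod_cast (D.kpos a).ne') (pow_ne_zero _ h1)
    simp only [hs, if_false]
    rw [← mul_assoc, mul_inv_cancel₀ h2]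
    ring

include hc in
/-- **the tangent space of the cover** -/
theorem exists_tangent {i : A'.ι} {j : A.ι} {z : Cn n} (hz : z ∈ dm A' A D.p i j) (ζ : Cn n)
    (η : ρ → ℂ) (h : ∀ a, ((D.k a : ℂ) * D.y a j ((A'.e i).symm z) ^ (D.k a - 1)) * η a =
      fderiv ℂ (fun u => D.s a j ((A.e j).symm u)) (rd A' A D.p i j z) ζ) :
    ∃ v : Cn n, fderiv ℂ (rd A' A D.p i j) z v = ζ ∧
      ∀ a, fderiv ℂ (fun w => D.y a j ((A'.e i).symm w)) z v = η a := by
  have hle : LinearMap.range (D.tm (A' := A') i j z) ≤ LinearMap.ker (D.lin (A' := A') i j z) := by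
    rintro _ ⟨v, rfl⟩
    rw [LinearMap.mem_ker]
    funext a
    rw [lin_apply]
    exact sub_eq_zero.2 (D.tangent_eq hc hz a v)
  have h1 : Module.finrank ℂ (LinearMap.range (D.tm (A' := A') i j z)) = n := by
    rw [LinearMap.finrank_range_of_inj (D.tm_injective hc hz)]
    simp
  have h2 : Module.finrank ℂ (LinearMap.ker (D.lin (A' := A') i j z)) = n := by
    have h3 := LinearMap.finrank_range_add_finrank_ker (D.lin (A' := A') i j z)
    rw [LinearMap.range_eq_top.2 (D.lin_surjective hz), finrank_top, Module.finrank_prod] at h3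
    have h4 : Module.finrank ℂ (Cn n) = n := by simp
    omega
  have heq := Submodule.eq_of_le_of_finrank_eq hle (h1.trans h2.symm)
  have h3 : ((ζ, η) : Cn n × (ρ → ℂ)) ∈ LinearMap.ker (D.lin (A' := A') i j z) := by
    rw [LinearMap.mem_ker]
    funext a
    rw [lin_apply]
    exact sub_eq_zero.2 (h a)
  rw [← heq] at h3
  obtain ⟨v, hv⟩ := h3
  exact ⟨v, congrArg Prod.fst hv, fun a => congrFun (congrArg Prod.snd hv) a⟩

include hc in
/-- the `y a` with `s a = 0` have independent differentials, together with the pull-backs of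
further functions `f b` on the base -/
theorem snc_up {i : A'.ι} {j : A.ι} {z : Cn n} (hz : z ∈ dm A' A D.p i j) {β : Type*}
    {f : β → Cn n → ℂ} (hf : ∀ b, DifferentiableAt ℂ (f b) (rd A' A D.p i j z))
    (hs : ∀ (w : ρ → ℂ) (w' : β → ℂ), ∃ ζ : Cn n, (∀ a, D.s a j (D.p ((A'.e i).symm z)) = 0 →
      fderiv ℂ (fun u => D.s a j ((A.e j).symm u)) (rd A' A D.p i j z) ζ = w a) ∧
      ∀ b, fderiv ℂ (f b) (rd A' A D.p i j z) ζ = w' b) (w : ρ → ℂ) (w' : β → ℂ) :
    ∃ v : Cn n, (∀ a, D.s a j (D.p ((A'.e i).symm z)) = 0 →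
      fderiv ℂ (fun u => D.y a j ((A'.e i).symm u)) z v = w a) ∧
      ∀ b, fderiv ℂ (fun u => f b (rd A' A D.p i j u)) z v = w' b := by
  classical
  have hj : D.p ((A'.e i).symm z) ∈ (A.e j).source := hz.2
  obtain ⟨ζ, h1, h2⟩ := hs (fun a => if D.k a = 1 then w a else 0) w'
  have h0 : ∀ a, D.s a j (D.p ((A'.e i).symm z)) = 0 → D.y a j ((A'.e i).symm z) = 0 := by
    intro a h
    rw [← D.y_pow a hj] at h
    exact (pow_eq_zero_iff (D.kpos a).ne').1 h
  obtain ⟨v, h3, h4⟩ := D.exists_tangent hc hz ζ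
    (fun a => if D.s a j (D.p ((A'.e i).symm z)) = 0 then w a else
      ((D.k a : ℂ) * D.y a j ((A'.e i).symm z) ^ (D.k a - 1))⁻¹ *
        fderiv ℂ (fun u => D.s a j ((A.e j).symm u)) (rd A' A D.p i j z) ζ) (by
    intro a
    by_cases hsa : D.s a j (D.p ((A'.e i).symm z)) = 0
    · simp only [hsa, if_true]
      rw [h1 a hsa, h0 a hsa]
      by_cases hk : D.k a = 1
      · simp [hk]
      · have hk' : D.k a - 1 ≠ 0 := by
          have := D.kpos a
          omega
        simp [hk, zero_pow hk']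
    · have h5 : D.y a j ((A'.e i).symm z) ≠ 0 := by
        intro h
        apply hsa
        rw [← D.y_pow a hj, h, zero_pow (D.kpos a).ne']
      have h6 : ((D.k a : ℂ) * D.y a j ((A'.e i).symm z) ^ (D.k a - 1)) ≠ 0 :=
        mul_ne_zero (by exact_mod_cast (D.kpos a).ne') (pow_ne_zero _ h5)
      simp only [hsa, if_false]
      rw [← mul_assoc, mul_inv_cancel₀ h6, one_mul])
  refine ⟨v, fun a ha => ?_, fun b => ?_⟩
  · rw [h4 a, if_pos ha]
  · have h5 := fderiv_comp z (g := f b) (f := rd A' A D.p i j) (hf b)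
      ((D.holMap_p hc).diffAt hz)
    have h6 : fderiv ℂ (fun u => f b (rd A' A D.p i j u)) z v =
        fderiv ℂ (f b ∘ rd A' A D.p i j) z v := rfl
    rw [h6, h5]
    show fderiv ℂ (f b) (rd A' A D.p i j z) (fderiv ℂ (rd A' A D.p i j) z v) = _
    rw [h3, h2 b]

end Data

/-- **curves**: at a zero of `s a` the function `y a` is a local coordinate -/
theorem Data.coord_one {A : Atl 1 M} (D : Data A ρ) {A' : Atl 1 D.X} (hc : Cmp D.famX A')
    {i : A'.ι} {j : A.ι} {z : Cn 1} (hz : z ∈ dm A' A D.p i j) {a : ρ}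
    (ha : D.s a j (D.p ((A'.e i).symm z)) = 0) :
    Function.Injective (fderiv ℂ (fun w => D.y a j ((A'.e i).symm w)) z) := by
  classical
  obtain ⟨v, h1, -⟩ := D.snc_up hc hz (β := Empty) (f := fun b => b.elim) (fun b => b.elim)
    (fun w w' => by
      obtain ⟨ζ, h⟩ := D.snc j _ hz.2 w
      exact ⟨ζ, fun a ha => h a ha, fun b => b.elim⟩) (fun _ => 1) (fun b => b.elim)
  have h2 := h1 a ha
  have hv : v ≠ 0 := by
    rintro rfl
    rw [map_zero] at h2
    exact zero_ne_one h2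
  rw [injective_iff_map_eq_zero]
  intro u hu
  obtain ⟨c, hc'⟩ : ∃ c : ℂ, u = c • v := by
    have h3 : Module.finrank ℂ (Cn 1) = 1 := by simp
    obtain ⟨c, hc'⟩ := (finrank_eq_one_iff_of_nonzero' v hv).1 h3 u
    exact ⟨c, hc'.symm⟩
  rw [hc', map_smul, h2, smul_eq_mul, mul_one] at hu
  rw [hc', hu, zero_smul]

end

end Crest.Agent.R272.DCov_426
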