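import Crest.Agent.R272.P1F_54
import Crest.Agent.R272.DCov7_426

/-!
# R272 (S0414), P1 (helper590), file 1: the atlas `A1` of the projective line, `O d`, sections

Convention (839): the point `pt a0 a1 = [a0 : a1]`, `(a0, a1) ≠ 0`; chart `false` : `a0 ≠ 0`,
coordinate `a1 / a0`; chart `true` : `a1 ≠ 0`, coordinate `a0 / a1`.
-/

set_option autoImplicit false
set_option linter.unusedSectionVars false

open Set Filter Topology Complex OnePoint Metric
namespace Crest.Agent.R272.P1S_590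

open Crest.Agent.R275.Geo Crest.Agent.R275.Core144 Crest.Agent.R275.GC293
open Crest.Agent.R273.Fam_835 Crest.Agent.R273.Map_835 Crest.Agent.R273.Defs_333
open Crest.Agent.R272.FamP_54 Crest.Agent.R272.P1F_54 Crest.Agent.R272.DCov_426

noncomputable section

/-- `[a0 : a1]`, affine coordinate `a1 / a0` -/
def pt (a0 a1 : ℂ) : P1 := hmk a1 a0

/-- the coordinate which does not vanish in the chart `s` -/
def sel (s : Bool) (a0 a1 : ℂ) : ℂ := if s then a1 else a0

/-- the other coordinate -/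
def oth (s : Bool) (a0 a1 : ℂ) : ℂ := if s then a0 else a1

@[simp] theorem sel_false (a0 a1 : ℂ) : sel false a0 a1 = a0 := rfl
@[simp] theorem sel_true (a0 a1 : ℂ) : sel true a0 a1 = a1 := rfl
@[simp] theorem oth_false (a0 a1 : ℂ) : oth false a0 a1 = a1 := rfl
@[simp] theorem oth_true (a0 a1 : ℂ) : oth true a0 a1 = a0 := rfl

/-- homogeneous coordinates of the point with coordinate `c` in the chart `s` :
`(1, c)` for `false`, `(c, 1)` for `true` -/
def u0 (s : Bool) (c : ℂ) : ℂ := if s then c else 1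

/-- see `u0` -/
def u1 (s : Bool) (c : ℂ) : ℂ := if s then 1 else c

@[simp] theorem u0_false (c : ℂ) : u0 false c = 1 := rfl
@[simp] theorem u0_true (c : ℂ) : u0 true c = c := rfl
@[simp] theorem u1_false (c : ℂ) : u1 false c = c := rfl
@[simp] theorem u1_true (c : ℂ) : u1 true c = 1 := rfl

@[simp] theorem sel_u (s : Bool) (c : ℂ) : sel s (u0 s c) (u1 s c) = 1 := by cases s <;> rfl
@[simp] theorem oth_u (s : Bool) (c : ℂ) : oth s (u0 s c) (u1 s c) = c := by cases s <;> rfl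

theorem u_ne (s : Bool) (c : ℂ) : u0 s c ≠ 0 ∨ u1 s c ≠ 0 := by
  cases s
  · exact Or.inl (by simp)
  · exact Or.inr (by simp)

theorem pinv_eq (s : Bool) (c : ℂ) : pinv s c = pt (u0 s c) (u1 s c) := by cases s <;> rfl

theorem pt_smul {c : ℂ} (hc : c ≠ 0) (a0 a1 : ℂ) : pt (c * a0) (c * a1) = pt a0 a1 :=
  hmk_smul hc a1 a0

/-- every point has homogeneous coordinates -/
theorem exists_pt (t : P1) : ∃ a0 a1 : ℂ, (a0 ≠ 0 ∨ a1 ≠ 0) ∧ t = pt a0 a1 :=
  ⟨dd t, nn t, (nd_ne t).symm, (hmk_nn_dd t).symm⟩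

theorem pt_eq_pt {a0 a1 b0 b1 : ℂ} (h : a0 ≠ 0 ∨ a1 ≠ 0) (h' : b0 ≠ 0 ∨ b1 ≠ 0) :
    pt a0 a1 = pt b0 b1 ↔ a0 * b1 = a1 * b0 := by
  rw [pt, pt, hmk_eq_hmk h.symm h'.symm, eq_comm]

/-- equal points have proportional coordinates -/
theorem pt_eq_iff {a0 a1 b0 b1 : ℂ} (h : a0 ≠ 0 ∨ a1 ≠ 0) (h' : b0 ≠ 0 ∨ b1 ≠ 0) :
    pt a0 a1 = pt b0 b1 ↔ ∃ c : ℂ, c ≠ 0 ∧ b0 = c * a0 ∧ b1 = c * a1 := by
  constructor
  · intro he
    rw [pt_eq_pt h h'] at he
    by_cases h0 : a0 = 0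
    · have h1 : a1 ≠ 0 := h.resolve_left (fun h => h h0)
      have hb0 : b0 = 0 := by
        have : a1 * b0 = 0 := by rw [← he, h0, zero_mul]
        exact (mul_eq_zero.1 this).resolve_left h1
      have hb1 : b1 ≠ 0 := h'.resolve_left (fun h => h hb0)
      exact ⟨b1 / a1, div_ne_zero hb1 h1, by rw [h0, hb0, mul_zero], by field_simp⟩
    · have hb0 : b0 ≠ 0 := by
        intro hb
        rw [hb, mul_zero] at he
        exact (h'.resolve_left (fun h => h hb)) ((mul_eq_zero.1 he).resolve_left h0)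
      exact ⟨b0 / a0, div_ne_zero hb0 h0, by field_simp, by field_simp; linear_combination he⟩
  · rintro ⟨c, hc, rfl, rfl⟩
    rw [pt_smul hc]

theorem mem_ps_pt {a0 a1 : ℂ} (h : a0 ≠ 0 ∨ a1 ≠ 0) (s : Bool) :
    pt a0 a1 ∈ ps s ↔ sel s a0 a1 ≠ 0 := by
  rw [pt, hmk_mem_ps h.symm]
  cases s <;> rfl

theorem pc_pt {a0 a1 : ℂ} {s : Bool} (h : sel s a0 a1 ≠ 0) :
    pc s (pt a0 a1) = oth s a0 a1 / sel s a0 a1 := by
  rw [pt, pc_hmk s h]
  cases s <;> rfl

/-! ### the atlas -/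

/-- the charts of `A1` -/
def ch1 (s : Bool) : OpenPartialHomeomorph P1 (Cn 1) :=
  (pch s).trans ((aff (0 : Cn 1) 2 two_pos).toOpenPartialHomeomorph.restrOpen
    (ball (0 : Cn 1) 2) isOpen_ball)

theorem norm_oneL (c : ℂ) : ‖oneL c‖ = ‖c‖ := by
  rw [EuclideanSpace.norm_eq]
  simp only [Finset.univ_unique, Fin.default_eq_zero, Finset.sum_singleton, norm_nonneg,
    Real.sqrt_sq]
  rfl

theorem mem_ch1 {s : Bool} {t : P1} : t ∈ (ch1 s).source ↔ t ∈ ps s ∧ ‖pc s t‖ < 2 := by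
  constructor
  · intro h
    have h2 : oneL (pc s t) ∈ ball (0 : Cn 1) 2 := h.2.2
    rw [mem_ball_zero_iff, norm_oneL] at h2
    exact ⟨h.1, h2⟩
  · intro h
    refine ⟨h.1, mem_univ _, ?_⟩
    show oneL (pc s t) ∈ ball (0 : Cn 1) 2
    rw [mem_ball_zero_iff, norm_oneL]
    exact h.2

theorem mem_ch1_target {s : Bool} {z : Cn 1} :
    z ∈ (ch1 s).target ↔ (aff (0 : Cn 1) 2 two_pos).symm z ∈ ball (0 : Cn 1) 2 := by
  constructor
  · intro h
    exact h.1.2
  · intro h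
    exact ⟨⟨mem_univ _, h⟩, mem_univ _⟩

/-- the affine coordinate of the point with chart coordinate `z` : `κ z = 4 (z - ctr)` -/
def kap (z : Cn 1) : ℂ := 4 * (z 0 - ctr 1 0)

theorem ch1_symm (s : Bool) (z : Cn 1) : (ch1 s).symm z = pinv s (kap z) := by
  show pinv s (((aff (0 : Cn 1) 2 two_pos).symm z) 0) = _
  congr 1
  rw [aff_symm_apply, kap]
  simp
  norm_num

theorem differentiable_kap : Differentiable ℂ kap := by
  unfold kap
  fun_prop

theorem hasFDerivAt_kap (z : Cn 1) :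
    HasFDerivAt kap ((4 : ℂ) • (EuclideanSpace.proj (0 : Fin 1) : Cn 1 →L[ℂ] ℂ)) z := by
  have h1 : HasFDerivAt (fun z : Cn 1 => z 0)
      (EuclideanSpace.proj (0 : Fin 1) : Cn 1 →L[ℂ] ℂ) z :=
    (EuclideanSpace.proj (0 : Fin 1) : Cn 1 →L[ℂ] ℂ).hasFDerivAt
  exact (h1.sub_const (ctr 1 0)).const_mul 4

theorem kap_ch1 (s : Bool) {t : P1} (ht : t ∈ (ch1 s).source) : kap (ch1 s t) = pc s t := by
  have h1 := (ch1 s).left_inv ht
  rw [ch1_symm] at h1
  rw [← h1, pc_pinv, h1]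

theorem kap_mem {s : Bool} {z : Cn 1} : z ∈ (ch1 s).target ↔ ‖kap z‖ < 2 := by
  rw [mem_ch1_target, mem_ball_zero_iff]
  have h1 : (aff (0 : Cn 1) 2 two_pos).symm z = oneL (kap z) := by
    ext a
    fin_cases a
    show ((aff (0 : Cn 1) 2 two_pos).symm z) 0 = kap z
    rw [aff_symm_apply, kap]
    simp
    norm_num
  rw [h1, norm_oneL]

theorem cover_ch1 (t : P1) : ∃ s, t ∈ (ch1 s).source := by
  obtain ⟨a0, a1, h, rfl⟩ := exists_pt t
  by_cases hle : ‖a1‖ ≤ ‖a0‖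
  · have h0 : a0 ≠ 0 := by
      intro h0
      rw [h0, norm_zero] at hle
      exact (h.resolve_left (fun h => h h0)) (norm_le_zero_iff.1 hle)
    refine ⟨false, mem_ch1.2 ⟨(mem_ps_pt h false).2 h0, ?_⟩⟩
    rw [pc_pt (s := false) h0, oth_false, sel_false, norm_div]
    calc ‖a1‖ / ‖a0‖ ≤ 1 := div_le_one_of_le₀ hle (norm_nonneg _)
      _ < 2 := by norm_num
  · push Not at hle
    have h1 : a1 ≠ 0 := by
      intro h1
      rw [h1, norm_zero] at hle
      exact absurd (norm_nonneg a0) (not_le.2 hle)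
    refine ⟨true, mem_ch1.2 ⟨(mem_ps_pt h true).2 h1, ?_⟩⟩
    rw [pc_pt (s := true) h1, oth_true, sel_true, norm_div]
    calc ‖a0‖ / ‖a1‖ ≤ 1 := div_le_one_of_le₀ hle.le (norm_nonneg _)
      _ < 2 := by norm_num

/-- **the atlas of `P1`** (index type `Bool`, sources `{‖coordinate‖ < 2}`) -/
abbrev A1 : Atl 1 P1 where
  ι := Bool
  e := ch1
  cover := cover_ch1
  cube s z hz p := rc_mem_of_ball _ _ two_pos (mem_ch1_target.1 hz) p
  holo s s' := by
    rintro z ⟨-, hz⟩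
    rw [ch1_symm] at hz
    have h1 : DifferentiableAt ℂ (fun c => pc s' (pinv s c)) (kap z) :=
      diffAt_trans s s' (mem_ch1.1 hz).1
    have h2 : DifferentiableAt ℂ (fun z : Cn 1 => pc s' (pinv s (kap z))) z :=
      DifferentiableAt.comp z (g := fun c => pc s' (pinv s c)) h1 differentiable_kap.differentiableAt
    have h3 : DifferentiableAt ℂ (fun z : Cn 1 => oneL (pc s' (pinv s (kap z)))) z :=
      DifferentiableAt.comp z (g := oneL) oneL.differentiableAt h2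
    have h4 : DifferentiableAt ℂ (fun z : Cn 1 =>
        aff (0 : Cn 1) 2 two_pos (oneL (pc s' (pinv s (kap z))))) z :=
      DifferentiableAt.comp z (g := aff (0 : Cn 1) 2 two_pos)
        (differentiable_aff _ _ two_pos).differentiableAt h3
    refine DifferentiableAt.differentiableWithinAt ?_
    convert h4 using 2 with w
    rw [ch1_symm]
    rfl

theorem A1_e (s : Bool) : A1.e s = ch1 s := rfl

instance : Finite A1.ι := inferInstanceAs (Finite Bool)

instance : CompactSpace P1 := inferInstanceAs (CompactSpace (OnePoint ℂ))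
instance : T2Space P1 := inferInstanceAs (T2Space (OnePoint ℂ))
instance : ConnectedSpace P1 := inferInstanceAs (ConnectedSpace (OnePoint ℂ))

end

end Crest.Agent.R272.P1S_590
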