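import Crest.Agent.R272.Root6_83
import Crest.Agent.R272.P1S1_590
import Crest.Agent.R272.DCov8_426

/-!
Row 272 (S0414), leaf S14-SQ4 (helper771): local coordinates (`LC` of `Root6_83`) on the curves.

* `lc_of_inj` : a holomorphic function with injective derivative is a local coordinate;
* `hg_y`, `lc_y`, `lc_base` : the functions `y a j` and `f ∘ p` on a `DCov` curve;
* `lc_pc` : the affine coordinates of `P1` (590's atlas `A1`).
-/

set_option autoImplicit false
set_option linter.unusedSectionVars false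

open Set Filter Topology Metric

namespace Crest.Agent.R272.Lc_771

open Crest.Agent.R275.Geo Crest.Agent.R275.Core144 Crest.Agent.R275.GC293
open Crest.Agent.R273.Fam_835 Crest.Agent.R273.Map_835 Crest.Agent.R273.Defs_333
open Crest.Agent.R272.Quot_783 Crest.Agent.R272.Root_83 Crest.Agent.R272.DCov_426
open Crest.Agent.R272.P1F_54 Crest.Agent.R272.FamP_54

noncomputable section

/-- a holomorphic map between spaces of the same dimension with injective derivative is injective
near the point -/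
theorem injOn_of_inj {E F : Type*} [NormedAddCommGroup E] [NormedSpace ℂ E]
    [FiniteDimensional ℂ E] [NormedAddCommGroup F] [NormedSpace ℂ F] [FiniteDimensional ℂ F]
    (hd : Module.finrank ℂ E = Module.finrank ℂ F) {G : E → F} {W : Set E} (hW : IsOpen W)
    (hG : DifferentiableOn ℂ G W) {a : E} (ha : a ∈ W)
    (hinj : Function.Injective (fderiv ℂ G a)) : ∃ N ∈ 𝓝 a, InjOn G N := by
  have : CompleteSpace E := FiniteDimensional.complete ℂ E
  have : CompleteSpace F := FiniteDimensional.complete ℂ F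
  have hAn : AnalyticAt ℂ G a :=
    Crest.Agent.R266.SCV.analyticOnNhd_of_differentiableOn hW hG a ha
  let e : E ≃L[ℂ] F :=
    (LinearEquiv.ofInjectiveOfFinrankEq (fderiv ℂ G a).toLinearMap hinj hd).toContinuousLinearEquiv
  have hG' : HasFDerivAt G (e : E →L[ℂ] F) a := by
    have h1 := hAn.differentiableAt.hasFDerivAt
    have h2 : fderiv ℂ G a = (e : E →L[ℂ] F) := by
      ext x
      rfl
    rwa [h2] at h1
  obtain ⟨χ, h1, h2, h3, h4, h5⟩ :=
    Crest.Agent.R266.SCV.exists_analytic_openPartialHomeomorph hAn e hG' (hW.mem_nhds ha)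
  refine ⟨χ.source, χ.open_source.mem_nhds h1, fun x hx y hy hxy => χ.injOn hx hy ?_⟩
  rw [h3, h3, hxy]

section curve

variable {C : Type} [TopologicalSpace C] {A : Atl 1 C} {c : C} {f g : C → ℂ}

/-- a holomorphic function with injective derivative is a local coordinate -/
theorem lc_of_inj (hf : HG (fam A) c f) {i : A.ι} (hi : c ∈ (A.e i).source)
    (hinj : Function.Injective (fderiv ℂ (fun w => f ((A.e i).symm w)) (A.e i c))) :
    LC A c f := by
  refine ⟨hf, ?_⟩
  obtain ⟨U, hU, hcU, hfU⟩ := hf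
  have hΩ : IsOpen ((A.e i).target ∩ (A.e i).symm ⁻¹' U) := (A.e i).isOpen_inter_preimage_symm hU
  have hc : A.e i c ∈ (A.e i).target ∩ (A.e i).symm ⁻¹' U :=
    ⟨(A.e i).map_source hi, by rw [mem_preimage, (A.e i).left_inv hi]; exact hcU⟩
  obtain ⟨N, hN, hinjN⟩ := injOn_of_inj (by simp) hΩ (hfU i) hc hinj
  refine ⟨(A.e i).source ∩ A.e i ⁻¹' N, ?_, ?_⟩
  · exact Filter.inter_mem ((A.e i).open_source.mem_nhds hi)
      ((A.e i).continuousAt hi |>.preimage_mem_nhds hN)
  · rintro x ⟨hx, hxN⟩ y ⟨hy, hyN⟩ hxy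
    refine (A.e i).injOn hx hy (hinjN hxN hyN ?_)
    show f ((A.e i).symm (A.e i x)) = f ((A.e i).symm (A.e i y))
    rw [(A.e i).left_inv hx, (A.e i).left_inv hy, hxy]

theorem lc_congr (hf : LC A c f) (h : f =ᶠ[𝓝 c] g) : LC A c g := by
  obtain ⟨h1, N, hN, hinj⟩ := hf
  refine ⟨h1.congr h, N ∩ {x | f x = g x}, Filter.inter_mem hN h, ?_⟩
  rintro x ⟨hx, hx'⟩ y ⟨hy, hy'⟩ hxy
  exact hinj hx hy (by rw [hx', hy', hxy])

end curve

section dcov

variable {M : Type} [TopologicalSpace M] {A : Atl 1 M} {ρ : Type} [Fintype ρ]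
  (D : Data A ρ) {A' : Atl 1 D.X} (hc : Cmp D.famX A')

include hc in
theorem holC_p' : HolC (fam A') (fam A) D.p := holC_iff.2 (D.holMap_p hc)

include hc in
theorem hg_y (a : ρ) {j : A.ι} {q : D.X} (hq : D.p q ∈ (A.e j).source) :
    HG (fam A') q (D.y a j) :=
  ⟨D.p ⁻¹' (A.e j).source, (A.e j).open_source.preimage D.continuous_p, hq,
    fun i => (D.rsY hc a).hol i j⟩

include hc in
/-- at a zero of `s a` the function `y a` is a local coordinate -/
theorem lc_y {a : ρ} {j : A.ι} {q : D.X} (hq : D.p q ∈ (A.e j).source)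
    (ha : D.s a j (D.p q) = 0) : LC A' q (D.y a j) := by
  obtain ⟨i, hi⟩ := A'.cover q
  refine lc_of_inj (hg_y D hc a hq) hi ?_
  refine D.coord_one hc (mem_dm hi hq) ?_
  rw [(A'.e i).left_inv hi]
  exact ha

include hc in
/-- `p` is injective near a point where no `s a` vanishes -/
theorem injOn_p {j : A.ι} {q : D.X} (hq : D.p q ∈ (A.e j).source)
    (hs : ∀ a, D.s a j (D.p q) ≠ 0) : ∃ N ∈ 𝓝 q, InjOn D.p N := by
  obtain ⟨i, hi⟩ := A'.cover q
  have hp := D.holMap_p hc
  have hz := mem_dm (p := D.p) hi hq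
  have h1 := D.inj_of_ne hc hz (by rw [(A'.e i).left_inv hi]; exact hs)
  obtain ⟨N, hN, hinjN⟩ := injOn_of_inj rfl (hp.isOpen_dm i j)
    (fun z hz => (hp.diffAt hz).differentiableWithinAt) hz h1
  refine ⟨(A'.e i).source ∩ A'.e i ⁻¹' N, ?_, ?_⟩
  · exact Filter.inter_mem ((A'.e i).open_source.mem_nhds hi)
      ((A'.e i).continuousAt hi |>.preimage_mem_nhds hN)
  · rintro x ⟨hx, hxN⟩ y ⟨hy, hyN⟩ hxy
    refine (A'.e i).injOn hx hy (hinjN hxN hyN ?_)
    show A.e j (D.p ((A'.e i).symm (A'.e i x))) = A.e j (D.p ((A'.e i).symm (A'.e i y)))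
    rw [(A'.e i).left_inv hx, (A'.e i).left_inv hy, hxy]

include hc in
/-- off the branch points a local coordinate of the base is one upstairs -/
theorem lc_base {j : A.ι} {q : D.X} (hq : D.p q ∈ (A.e j).source)
    (hs : ∀ a, D.s a j (D.p q) ≠ 0) {f : M → ℂ} (hf : LC A (D.p q) f) :
    LC A' q (fun x => f (D.p x)) := by
  obtain ⟨h1, N, hN, hinj⟩ := hf
  obtain ⟨N', hN', hinj'⟩ := injOn_p D hc hq hs
  refine ⟨h1.comp (holC_p' D hc), N' ∩ D.p ⁻¹' N,
    Filter.inter_mem hN' (D.continuous_p.continuousAt.preimage_mem_nhds hN), ?_⟩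
  rintro x ⟨hx, hxN⟩ y ⟨hy, hyN⟩ hxy
  exact hinj' hx hy (hinj hxN hyN hxy)

end dcov

/-! ### the projective line -/

open Crest.Agent.R272.P1S_590

theorem hg_pc {s : Bool} {t : P1} (ht : t ∈ ps s) : HG (fam A1) t (pc s) := by
  refine ⟨ps s, (pch s).open_source, ht, fun (s' : Bool) => ?_⟩
  rintro z ⟨-, hz⟩
  have hz' : pinv s' (kap z) ∈ ps s := by
    have h : (ch1 s').symm z ∈ ps s := hz
    exact (congrArg (· ∈ ps s) (ch1_symm s' z)).mp h
  have h2 : DifferentiableAt ℂ (fun z : Cn 1 => pc s (pinv s' (kap z))) z :=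
    DifferentiableAt.comp z (g := fun c => pc s (pinv s' c)) (diffAt_trans s' s hz')
      differentiable_kap.differentiableAt
  refine DifferentiableAt.differentiableWithinAt ?_
  refine h2.congr_of_eventuallyEq (Eventually.of_forall fun w => ?_)
  exact congrArg (pc s) (ch1_symm s' w)

/-- the affine coordinate -/
theorem lc_pc {s : Bool} {t : P1} (ht : t ∈ ps s) : LC A1 t (pc s) := by
  refine ⟨hg_pc ht, ps s, (pch s).open_source.mem_nhds ht, fun x hx y hy hxy => ?_⟩
  refine (pch s).injOn hx hy ?_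
  show oneL (pc s x) = oneL (pc s y)
  rw [hxy]

end

end Crest.Agent.R272.Lc_771
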