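import Crest.Agent.R272.NlB0_426
import Crest.Agent.R272.Adp5_409

/-!
# R272 (S0414), NLOC-ASM (B) (helper426), part 1: the frame dictionary

* `hg_y`, `hg_pc` : germs of `y a s`, `pc s ∘ p` on a cover of `P1`, for every compatible atlas
* `cr_y`, `cr_pc` : local coordinates (409's `Cr1`)
* `ptC`, `pcC`, `poF`, `pzF` : 140's patches on the product of the curves
-/

set_option autoImplicit false
set_option linter.unusedSectionVars false

open Set Filter Topology Complex

namespace Crest.Agent.R272.NlB_426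

open Crest.Agent.R275.Geo Crest.Agent.R275.Core144 Crest.Agent.R275.Prod363
open Crest.Agent.R273.Map_835 Crest.Agent.R273.Fam_835 Crest.Agent.R272.DCov_426
open Crest.Agent.R272.P1F_54 Crest.Agent.R272.P1L_426
open Crest.Agent.R272.P1S_590 (A1 O1 O u0 u1 O_g u0_false u1_false u0_true u1_true)
open Crest.Agent.R272.Quot_783 Crest.Agent.R272.Root_83 Crest.Agent.R272.Adp_409

noncomputable section

section Gen

variable {ρ : Type} [Fintype ρ] (D : Data A1 ρ) {A' : Atl 1 D.X} (hc : Cmp D.famX A')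

include hc in
theorem hg_y {s : Bool} {q : D.X} (hq : D.p q ∈ (A1.e s).source) (a : ρ) :
    HG (fam A') q (D.y a s) := by
  refine ⟨D.p ⁻¹' (A1.e s).source, (A1.e s).open_source.preimage D.continuous_p, hq,
    fun (i : A'.ι) => ?_⟩
  intro z hz
  have h1 : (A'.e i).symm z ∈ (A'.e i).source := (A'.e i).map_target hz.1
  have h2 : D.p ((A'.e i).symm z) ∈ (A1.e s).source := hz.2
  have h3 := diff_y D hc h1 h2 a
  rw [(A'.e i).right_inv hz.1] at h3
  exact h3.differentiableWithinAt

include hc in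
theorem hg_pc {s : Bool} {q : D.X} (hq : D.p q ∈ (A1.e s).source) :
    HG (fam A') q (fun x => pc s (D.p x)) := by
  refine ⟨D.p ⁻¹' (A1.e s).source, (A1.e s).open_source.preimage D.continuous_p, hq,
    fun (i : A'.ι) => ?_⟩
  intro z hz
  have h1 : (A'.e i).symm z ∈ (A'.e i).source := (A'.e i).map_target hz.1
  have h2 : D.p ((A'.e i).symm z) ∈ (A1.e s).source := hz.2
  have h3 := diff_pcX D hc h1 h2
  rw [(A'.e i).right_inv hz.1] at h3
  exact h3.differentiableWithinAt

theorem cr1_of_inj {f : D.X → ℂ} {q : D.X} (hf : HG (fam A') q f) {i : A'.ι}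
    (hi : q ∈ (A'.e i).source)
    (h : Function.Injective (fderiv ℂ (fun w => f ((A'.e i).symm w)) (A'.e i q))) :
    Cr1 A' q f := by
  refine ⟨hf, i, hi, EuclideanSpace.single 0 1, fun h0 => ?_⟩
  have h1 := h (h0.trans (map_zero _).symm)
  have h2 := congrArg (fun v : Cn 1 => v 0) h1
  simp at h2

include hc in
/-- `y a` is a local coordinate at its zeros -/
theorem cr_y {s : Bool} {q : D.X} (hq : D.p q ∈ (A1.e s).source) {a : ρ} (ha : D.y a s q = 0) :
    Cr1 A' q (D.y a s) := by
  obtain ⟨i, hi⟩ := A'.cover q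
  exact cr1_of_inj D (hg_y D hc hq a) hi (coord_y D hc hi hq ha)

include hc in
/-- the base coordinate is a local coordinate where no `y a` vanishes -/
theorem cr_pc {s : Bool} {q : D.X} (hq : D.p q ∈ (A1.e s).source) (ha : ∀ a, D.y a s q ≠ 0) :
    Cr1 A' q (fun x => pc s (D.p x)) := by
  obtain ⟨i, hi⟩ := A'.cover q
  exact cr1_of_inj D (hg_pc D hc hq) hi (coord_pc D hc hi hq ha)

theorem ev_src {s : Bool} {q : D.X} (hq : D.p q ∈ (A1.e s).source) :
    ∀ᶠ x in 𝓝 q, D.p x ∈ (A1.e s).source :=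
  ((A1.e s).open_source.preimage D.continuous_p).mem_nhds hq

end Gen

variable {AC : Atl 1 Ch.X} (hC : Cmp Ch.famX AC) {AF : Atl 1 F8.X} (hF : Cmp F8.famX AF)
  {a : Ch.X} {b : F8.X}

theorem ev_fst {P : Ch.X → Prop} (h : ∀ᶠ x in 𝓝 a, P x) :
    ∀ᶠ y : Ch.X × F8.X in 𝓝 (a, b), P y.1 := continuousAt_fst.eventually h

theorem ev_snd {P : F8.X → Prop} (h : ∀ᶠ x in 𝓝 b, P x) :
    ∀ᶠ y : Ch.X × F8.X in 𝓝 (a, b), P y.2 := continuousAt_snd.eventually h

include hC in
/-- 140's patch `t` -/
theorem ptC (ha : Ch.p a ∈ (A1.e false).source) : NF_140.Pt (fam (AC.prod AF)) (a, b)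
    (fun q => t1 false q.1) (fun q => dl false q.1) (fun q => rh false q.1) where
  ht := hg_fst (hg_pc Ch hC ha)
  hd := hg_fst (hg_y Ch hC ha 0)
  hr := hg_fst (hg_y Ch hC ha 1)
  ed := by
    refine ev_fst (P := fun x => dl false x ^ 8 = 1 - t1 false x ^ 16) ?_
    filter_upwards [ev_src Ch ha] with x hx
    have h := Ch_y0 hx
    rw [u0_false, one_pow] at h
    exact h
  er := by
    refine ev_fst (P := fun x => rh false x ^ 2 = t1 false x ^ 8 + I) ?_
    filter_upwards [ev_src Ch ha] with x hx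
    have h := Ch_y1 hx
    rw [u0_false, one_pow, mul_one] at h
    exact h

include hC in
/-- 140's patch `c` -/
theorem pcC (ha : Ch.p a ∈ (A1.e true).source) : NF_140.Pc (fam (AC.prod AF)) (a, b)
    (fun q => t0 true q.1) (fun q => dl true q.1) (fun q => rh true q.1) where
  hc := hg_fst (hg_pc Ch hC ha)
  hd := hg_fst (hg_y Ch hC ha 0)
  hr := hg_fst (hg_y Ch hC ha 1)
  ed := by
    refine ev_fst (P := fun x => dl true x ^ 8 = t0 true x ^ 16 - 1) ?_
    filter_upwards [ev_src Ch ha] with x hx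
    have h := Ch_y0 hx
    rw [u1_true, one_pow] at h
    exact h
  er := by
    refine ev_fst (P := fun x => rh true x ^ 2 = 1 + I * t0 true x ^ 8) ?_
    filter_upwards [ev_src Ch ha] with x hx
    have h := Ch_y1 hx
    rw [u1_true, one_pow] at h
    exact h

include hF in
/-- 140's patch `o` -/
theorem poF (hb : F8.p b ∈ (A1.e false).source) : NF_140.Po (fam (AC.prod AF)) (a, b)
    (fun q => om false q.2) (fun q => et false q.2) where
  ho := hg_snd (hg_pc F8 hF hb)
  he := hg_snd (hg_y F8 hF hb 0)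
  ee := by
    refine ev_snd (P := fun x => et false x ^ 8 = 1 - om false x ^ 8) ?_
    filter_upwards [ev_src F8 hb] with x hx
    have h := F8_y hx
    rw [u0_false, one_pow] at h
    exact h

include hF in
/-- 140's patch `z` -/
theorem pzF (hb : F8.p b ∈ (A1.e true).source) : NF_140.Pz (fam (AC.prod AF)) (a, b)
    (fun q => ze true q.2) (fun q => et true q.2) where
  hz := hg_snd (hg_pc F8 hF hb)
  he := hg_snd (hg_y F8 hF hb 0)
  ee := by
    refine ev_snd (P := fun x => et true x ^ 8 = ze true x ^ 8 - 1) ?_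
    filter_upwards [ev_src F8 hb] with x hx
    have h := F8_y hx
    rw [u1_true, one_pow] at h
    exact h

/-! ### local coordinates of the two curves -/

include hC in
theorem cr_t1 (ha : Ch.p a ∈ (A1.e false).source) (hd : dl false a ≠ 0) (hr : rh false a ≠ 0) :
    Cr1 AC a (t1 false) :=
  cr_pc Ch hC ha fun c => by
    fin_cases c
    · exact hd
    · exact hr

include hC in
theorem cr_t0 (ha : Ch.p a ∈ (A1.e true).source) (hd : dl true a ≠ 0) (hr : rh true a ≠ 0) :
    Cr1 AC a (t0 true) :=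
  cr_pc Ch hC ha fun c => by
    fin_cases c
    · exact hd
    · exact hr

include hC in
theorem cr_dl {s : Bool} (ha : Ch.p a ∈ (A1.e s).source) (hd : dl s a = 0) : Cr1 AC a (dl s) :=
  cr_y Ch hC ha hd

include hC in
theorem cr_rh {s : Bool} (ha : Ch.p a ∈ (A1.e s).source) (hr : rh s a = 0) : Cr1 AC a (rh s) :=
  cr_y Ch hC ha hr

include hF in
theorem cr_om (hb : F8.p b ∈ (A1.e false).source) (he : et false b ≠ 0) :
    Cr1 AF b (om false) :=
  cr_pc F8 hF hb fun c => by
    fin_cases c
    exact he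

include hF in
theorem cr_ze (hb : F8.p b ∈ (A1.e true).source) (he : et true b ≠ 0) :
    Cr1 AF b (ze true) :=
  cr_pc F8 hF hb fun c => by
    fin_cases c
    exact he

include hF in
theorem cr_et {s : Bool} (hb : F8.p b ∈ (A1.e s).source) (he : et s b = 0) : Cr1 AF b (et s) :=
  cr_y F8 hF hb he

end

end Crest.Agent.R272.NlB_426
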