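import Crest.Agent.R272.M14a_590
import Crest.Agent.R272.Lc1_771
import Crest.Agent.R272.NlB1_426

/-!
# R272 (S0414), NEAR (helper595), part 0: the local coordinates at the special point

* `f1 : CC.X → ℂ` (`α = a1/a0`), `f2 : BB.X → ℂ` (`X = a1/a0`), local coordinates at `z0`, `w0`;
* `P0 = (p1, p2)` : the (P) centre over `(z0, w0)`; `mem_P0`;
* `f1 ∘ kC = τ²`, `f2 ∘ kF = ω²`, `f2 ∘ phi = α²`;
* `g0 k` : `g0 k ^ 2 = -I k`.
-/

set_option autoImplicit false
set_option linter.unusedSectionVars false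

open Set Filter Topology Complex

namespace Crest.Agent.R272.Ne_595

open Crest.Agent.R275.Geo Crest.Agent.R275.Core144
open Crest.Agent.R273.Fam_835 Crest.Agent.R273.Map_835
open Crest.Agent.R272.FamP_54 Crest.Agent.R272.P1F_54 Crest.Agent.R272.DCov_426
open Crest.Agent.R272.P1S_590 Crest.Agent.R272.Hom_839 Crest.Agent.R272.M14_590
open Crest.Agent.R272.P1L_426 (Ch F8 CC BB f16 f8 f4 g8)
open Crest.Agent.R272.Root_83

noncomputable section

variable {ρ : Type} [Fintype ρ] {D : DCov_426.Data A1 ρ} {d : ρ → ℕ}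

/-- the affine coordinate of a point with homogeneous coordinates -/
theorem rep_pc {q : D.X} {a0 a1 : ℂ} {v : ρ → ℂ} (r : Rep D d q a0 a1 v) (h : a0 ≠ 0) :
    pc false (D.p q) = a1 / a0 := by
  rw [r.p, pc_pt (s := false) h]
  rfl

theorem src_of_zero : (pt 1 0 : P1) ∈ (A1.e false).source := by
  rw [mem_src_pt (Or.inl one_ne_zero)]
  simp

theorem src_of_rep {q : D.X} {v : ρ → ℂ} (r : Rep D d q 1 0 v) :
    D.p q ∈ (A1.e false).source := by
  rw [r.p]
  exact src_of_zero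

theorem y_of_rep {q : D.X} {v : ρ → ℂ} (r : Rep D d q 1 0 v) (a : ρ) :
    D.y a false q = v a := by
  rw [r.y a false src_of_zero]
  simp

/-- the `α`-coordinate on `CC` -/
def f1 (c : CC.X) : ℂ := pc false (CC.p c)

/-- the `X`-coordinate on `BB` -/
def f2 (b : BB.X) : ℂ := pc false (BB.p b)

theorem f1_rep {q : CC.X} {a0 a1 : ℂ} {v : Fin 1 → ℂ} (r : Rep CC (fun _ => 2) q a0 a1 v)
    (h : a0 ≠ 0) : f1 q = a1 / a0 := rep_pc r h

theorem f2_rep {q : BB.X} {a0 a1 : ℂ} {v : Fin 1 → ℂ} (r : Rep BB (fun _ => 1) q a0 a1 v)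
    (h : a0 ≠ 0) : f2 q = a1 / a0 := rep_pc r h

theorem f1_z0 : f1 z0 = 0 := by
  rw [f1_rep rep_z0 one_ne_zero, zero_div]

theorem f2_w0 : f2 w0 = 0 := by
  rw [f2_rep rep_w0 one_ne_zero, zero_div]

/-- a coordinate of the base is a coordinate upstairs where no `y` vanishes -/
theorem lc_of_rep {q : D.X} {v : ρ → ℂ} (r : Rep D d q 1 0 v) (hv : ∀ a, v a ≠ 0)
    {A' : Atl 1 D.X} (hc : Cmp D.famX A') : Root_83.LC A' q (fun x => pc false (D.p x)) := by
  have hs := src_of_rep r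
  refine Lc_771.lc_base D hc (j := false) hs (fun a h0 => ?_) (Lc_771.lc_pc (mem_ch1.1 hs).1)
  have h1 : D.y a false q ^ D.k a = D.s a false (D.p q) := D.y_pow a (i := false) hs
  rw [h0, y_of_rep r] at h1
  exact hv a (pow_eq_zero_iff (D.kpos a).ne' |>.1 h1)

theorem lc1 : Root_83.LC CC.atlX z0 f1 :=
  lc_of_rep rep_z0 (fun _ => neg_ne_zero.2 one_ne_zero) CC.cmp_atlX

theorem lc2 : Root_83.LC BB.atlX w0 f2 :=
  lc_of_rep rep_w0 (fun _ => neg_ne_zero.2 one_ne_zero) BB.cmp_atlX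

/-! ### the maps in the coordinates -/

theorem f1_kC {q : Ch.X} (hq : Ch.p q ∈ (A1.e false).source) :
    f1 (kC q) = NlB_426.t1 false q ^ 2 := by
  have r := rep_kC (isHom_Ch.rep_norm (s := false) hq)
  rw [u0_false, u1_false, one_pow] at r
  rw [f1_rep r one_ne_zero, div_one]
  rfl

theorem f2_kF {q : F8.X} (hq : F8.p q ∈ (A1.e false).source) :
    f2 (kF q) = NlB_426.om false q ^ 2 := by
  have r := rep_kF (isHom_F8.rep_norm (s := false) hq)
  rw [u0_false, u1_false, one_pow] at r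
  rw [f2_rep r one_ne_zero, div_one]
  rfl

theorem f2_phi {c : CC.X} (hc : CC.p c ∈ (A1.e false).source) : f2 (phi c) = f1 c ^ 2 := by
  have r := rep_phi (isHom_CC.rep_norm (s := false) hc)
  rw [u0_false, u1_false, one_pow] at r
  rw [f2_rep r one_ne_zero, div_one]
  rfl

/-- homogeneous coordinates of `kC q` in the patch `τ` -/
theorem rep_kC_norm {q : Ch.X} (hq : Ch.p q ∈ (A1.e false).source) :
    Rep CC (fun _ => 2) (kC q) 1 (NlB_426.t1 false q ^ 2) (fun _ => NlB_426.dl false q ^ 2) := by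
  have r := rep_kC (isHom_Ch.rep_norm (s := false) hq)
  rw [u0_false, u1_false, one_pow] at r
  exact r

theorem rep_kF_norm {q : F8.X} (hq : F8.p q ∈ (A1.e false).source) :
    Rep BB (fun _ => 1) (kF q) 1 (NlB_426.om false q ^ 2) (fun _ => NlB_426.et false q ^ 2) := by
  have r := rep_kF (isHom_F8.rep_norm (s := false) hq)
  rw [u0_false, u1_false, one_pow] at r
  exact r

/-! ### the special point -/

/-- a square root -/
def sq (a : ℂ) : ℂ := (IsAlgClosed.exists_pow_nat_eq a (n := 2) two_pos).choose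

theorem sq_sq (a : ℂ) : sq a ^ 2 = a :=
  (IsAlgClosed.exists_pow_nat_eq a (n := 2) two_pos).choose_spec

theorem sq_ne {a : ℂ} (h : a ≠ 0) : sq a ≠ 0 := by
  intro h0
  have h1 := sq_sq a
  rw [h0] at h1
  exact h (by rw [← h1]; norm_num)

theorem exists_p1 : ∃ q : Ch.X, Rep Ch ![2, 4] q 1 0 ![sq (-1), sq I] :=
  isHom_Ch.rep_exists (Or.inl one_ne_zero) fun a => by
    fin_cases a
    · show sq (-1) ^ 8 = 1 ^ 16 - 0 ^ 16
      have h : sq (-1) ^ 8 = (sq (-1) ^ 2) ^ 4 := by ring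
      rw [h, sq_sq]
      norm_num
    · show sq I ^ 2 = 0 ^ 8 + I * 1 ^ 8
      rw [sq_sq]
      ring

theorem exists_p2 : ∃ q : F8.X, Rep F8 (fun _ => 1) q 1 0 (fun _ => sq (-1)) :=
  isHom_F8.rep_exists (Or.inl one_ne_zero) fun _ => by
    show sq (-1) ^ 8 = 1 ^ 8 - 0 ^ 8
    have h : sq (-1) ^ 8 = (sq (-1) ^ 2) ^ 4 := by ring
    rw [h, sq_sq]
    norm_num

/-- the point `τ = 0`, `δ² = -1`, `ρ² = i` of `C^` -/
def p1 : Ch.X := exists_p1.choose

/-- the point `ω = 0`, `η² = -1` of `F8` -/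
def p2 : F8.X := exists_p2.choose

theorem rep_p1 : Rep Ch ![2, 4] p1 1 0 ![sq (-1), sq I] := exists_p1.choose_spec
theorem rep_p2 : Rep F8 (fun _ => 1) p2 1 0 (fun _ => sq (-1)) := exists_p2.choose_spec

/-- **the special centre** -/
def P0 : Ch.X × F8.X := (p1, p2)

theorem kC_p1 : kC p1 = z0 := by
  have r := rep_kC rep_p1
  have h : (fun _ : Fin 1 => (![sq (-1), sq I] : Fin 2 → ℂ) 0 ^ 2) = fun _ => -1 := by
    funext _
    exact sq_sq (-1)
  rw [one_pow, zero_pow two_ne_zero, h] at r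
  exact IsHom.rep_unique r rep_z0

theorem kF_p2 : kF p2 = w0 := by
  have r := rep_kF rep_p2
  rw [one_pow, zero_pow two_ne_zero, sq_sq] at r
  exact IsHom.rep_unique r rep_w0

theorem src_p1 : Ch.p p1 ∈ (A1.e false).source := src_of_rep rep_p1
theorem src_p2 : F8.p p2 ∈ (A1.e false).source := src_of_rep rep_p2

theorem t1_p1 : NlB_426.t1 false p1 = 0 := by
  show pc false (Ch.p p1) = 0
  rw [rep_pc rep_p1 one_ne_zero, zero_div]

theorem om_p2 : NlB_426.om false p2 = 0 := by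
  show pc false (F8.p p2) = 0
  rw [rep_pc rep_p2 one_ne_zero, zero_div]

theorem dl_p1 : NlB_426.dl false p1 ^ 2 = -1 := by
  have h : NlB_426.dl false p1 = sq (-1) := y_of_rep rep_p1 0
  rw [h, sq_sq]

theorem rh_p1 : NlB_426.rh false p1 ^ 2 = I := by
  have h : NlB_426.rh false p1 = sq I := y_of_rep rep_p1 1
  rw [h, sq_sq]

theorem et_p2 : NlB_426.et false p2 ^ 2 = -1 := by
  have h : NlB_426.et false p2 = sq (-1) := y_of_rep rep_p2 0
  rw [h, sq_sq]

theorem mem_P0 (k : ℂ) : P0 ∈ NlB_426.Z k :=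
  (NlB_426.mem_Z src_p1 src_p2).2 (Or.inl ⟨t1_p1, om_p2⟩)

/-- the constant of the node: `γ0² = -i k` -/
def g0 (k : ℂ) : ℂ := sq (-I * k)

theorem g0_sq (k : ℂ) : g0 k ^ 2 = -I * k := sq_sq _

theorem g0_ne {k : ℂ} (hk : k ^ 4 = 8 * I) : g0 k ≠ 0 := by
  refine sq_ne (mul_ne_zero (neg_ne_zero.2 I_ne_zero) ?_)
  rintro rfl
  have h : (8 : ℂ) * I = 0 := by rw [← hk]; norm_num
  exact I_ne_zero ((mul_eq_zero.1 h).resolve_left (by norm_num))

end

end Crest.Agent.R272.Ne_595
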