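import Crest.Agent.R272.P1S1_590

/-!
# R272 (S0414), P1 (helper590), file 2: the line bundles `O d` of the projective line, sections

* `O1`, `O d = O1 ^ d`, `O1_g_pt`, `O_pow`
* `Hom d F` : `F : ℂ → ℂ → ℂ` holomorphic and homogeneous of degree `d`; `sec F` : its section
* `isHS_sec`, `isHS_sec_pow`, `sec_pt`, `sec_eq_zero_iff`, `fderiv_sec`, `surj_sec`
* `cmp_A1 : Cmp p1Fam A1`
-/

set_option autoImplicit false
set_option linter.unusedSectionVars false

open Set Filter Topology Complex OnePoint Metric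
namespace Crest.Agent.R272.P1S_590

open Crest.Agent.R275.Geo Crest.Agent.R275.Core144 Crest.Agent.R275.GC293
open Crest.Agent.R273.Fam_835 Crest.Agent.R273.Map_835 Crest.Agent.R273.Defs_333
open Crest.Agent.R272.FamP_54 Crest.Agent.R272.P1F_54 Crest.Agent.R272.DCov_426

noncomputable section

theorem mem_src_pt {a0 a1 : ℂ} (h : a0 ≠ 0 ∨ a1 ≠ 0) {s : Bool} :
    pt a0 a1 ∈ (A1.e s).source ↔ ‖oth s a0 a1‖ < 2 * ‖sel s a0 a1‖ := by
  rw [A1_e, mem_ch1, mem_ps_pt h]
  by_cases hs : sel s a0 a1 = 0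
  · rw [hs, norm_zero, mul_zero]
    constructor
    · intro h1
      exact absurd rfl h1.1
    · intro h1
      exact absurd (norm_nonneg _) (not_le.2 h1)
  · rw [pc_pt hs, norm_div, div_lt_iff₀ (norm_pos_iff.2 hs)]
    exact ⟨fun h1 => h1.2, fun h1 => ⟨hs, h1⟩⟩

theorem sel_ne {a0 a1 : ℂ} (h : a0 ≠ 0 ∨ a1 ≠ 0) {s : Bool} (hs : pt a0 a1 ∈ (A1.e s).source) :
    sel s a0 a1 ≠ 0 := (mem_ps_pt h s).1 (mem_ch1.1 hs).1

/-- transition of the homogeneous coordinates -/
def g1 (i j : Bool) (t : P1) : ℂ := sel j (u0 i (pc i t)) (u1 i (pc i t))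

theorem g1_pt {a0 a1 : ℂ} {i : Bool} (hi : sel i a0 a1 ≠ 0) (j : Bool) :
    g1 i j (pt a0 a1) = sel j a0 a1 / sel i a0 a1 := by
  rw [g1, pc_pt hi]
  cases i <;> cases j
  · exact (div_self hi).symm
  · rfl
  · rfl
  · exact (div_self hi).symm

theorem g1_pinv (i j : Bool) (c : ℂ) : g1 i j (pinv i c) = sel j (u0 i c) (u1 i c) := by
  rw [g1, pc_pinv]

theorem differentiable_u0 (s : Bool) : Differentiable ℂ (u0 s) := by
  cases s
  · exact differentiable_const _
  · exact differentiable_id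

theorem differentiable_u1 (s : Bool) : Differentiable ℂ (u1 s) := by
  cases s
  · exact differentiable_id
  · exact differentiable_const _

open Classical in
/-- **the bundle `O(1)`** -/
def O1 : LB A1 where
  g i j t := if t ∈ (A1.e i).source ∩ (A1.e j).source then g1 i j t else 1
  hol i j := by
    intro z hz
    have h1 : DifferentiableAt ℂ (fun z : Cn 1 => sel j (u0 i (kap z)) (u1 i (kap z))) z := by
      cases j
      · exact ((differentiable_u0 i).comp differentiable_kap) z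
      · exact ((differentiable_u1 i).comp differentiable_kap) z
    have h2 : ∀ w ∈ (A1.e i).target ∩ (A1.e i).symm ⁻¹' (A1.e j).source,
        (if (A1.e i).symm w ∈ (A1.e i).source ∩ (A1.e j).source then
          g1 i j ((A1.e i).symm w) else 1) = sel j (u0 i (kap w)) (u1 i (kap w)) := by
      intro w hw
      rw [if_pos ⟨(A1.e i).map_target hw.1, hw.2⟩, ch1_symm, g1_pinv]
    exact (h1.differentiableWithinAt (s := _)).congr h2 (h2 z hz)
  off i j x hx := if_neg hx
  self i x := by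
    split_ifs
    · exact sel_u i _
    · rfl
  mul i j k x hx := by
    rw [if_pos hx.1, if_pos ⟨hx.1.2, hx.2⟩, if_pos ⟨hx.1.1, hx.2⟩]
    obtain ⟨a0, a1, h, rfl⟩ := exists_pt x
    have hi := sel_ne h hx.1.1
    have hj := sel_ne h hx.1.2
    rw [g1_pt hi, g1_pt hj, g1_pt hi, div_mul_div_cancel₀' hj]

theorem O1_g {i j : Bool} {t : P1} (h : t ∈ (A1.e i).source ∩ (A1.e j).source) :
    O1.g i j t = g1 i j t := if_pos h

theorem O1_g_pt {a0 a1 : ℂ} (h : a0 ≠ 0 ∨ a1 ≠ 0) {i j : Bool}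
    (hx : pt a0 a1 ∈ (A1.e i).source ∩ (A1.e j).source) :
    O1.g i j (pt a0 a1) = sel j a0 a1 / sel i a0 a1 := by
  rw [O1_g hx, g1_pt (sel_ne h hx.1)]

/-- **the bundles `O(d)`** -/
def O (d : ℕ) : LB A1 := O1 ^ d

theorem O_pow (d k : ℕ) : O d ^ k = O (d * k) := (pow_mul O1 d k).symm

theorem O_mul (d k : ℕ) : O d * O k = O (d + k) := (pow_add O1 d k).symm

theorem O_zero : O 0 = 1 := pow_zero _

theorem O_one : O 1 = O1 := pow_one _

theorem O_g (d : ℕ) (i j : Bool) (t : P1) : (O d).g i j t = O1.g i j t ^ d := LB_pow_g _ _ _ _ _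

/-- transitions of `O(d)` at `[a0 : a1]` -/
theorem O_g_pt {a0 a1 : ℂ} (h : a0 ≠ 0 ∨ a1 ≠ 0) (d : ℕ) {i j : Bool}
    (hx : pt a0 a1 ∈ (A1.e i).source ∩ (A1.e j).source) :
    (O d).g i j (pt a0 a1) = (sel j a0 a1 / sel i a0 a1) ^ d := by
  rw [O_g, O1_g_pt h hx]

/-! ### homogeneous functions -/

/-- holomorphic homogeneous functions on `ℂ²` -/
structure Hom (d : ℕ) (F : ℂ → ℂ → ℂ) : Prop where
  diff : Differentiable ℂ fun p : ℂ × ℂ => F p.1 p.2
  hom : ∀ c a b, F (c * a) (c * b) = c ^ d * F a b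

namespace Hom

variable {d e : ℕ} {F G : ℂ → ℂ → ℂ}

theorem add (hF : Hom d F) (hG : Hom d G) : Hom d fun a b => F a b + G a b :=
  ⟨hF.diff.add hG.diff, fun c a b => by rw [hF.hom, hG.hom, mul_add]⟩

theorem sub (hF : Hom d F) (hG : Hom d G) : Hom d fun a b => F a b - G a b :=
  ⟨hF.diff.sub hG.diff, fun c a b => by rw [hF.hom, hG.hom, mul_sub]⟩

theorem neg (hF : Hom d F) : Hom d fun a b => - F a b :=
  ⟨hF.diff.neg, fun c a b => by rw [hF.hom, mul_neg]⟩

theorem const_mul (k : ℂ) (hF : Hom d F) : Hom d fun a b => k * F a b :=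
  ⟨hF.diff.const_mul k, fun c a b => by rw [hF.hom, mul_left_comm]⟩

theorem mul (hF : Hom d F) (hG : Hom e G) : Hom (d + e) fun a b => F a b * G a b :=
  ⟨hF.diff.mul hG.diff, fun c a b => by rw [hF.hom, hG.hom]; ring⟩

theorem pow (hF : Hom d F) (k : ℕ) : Hom (d * k) fun a b => F a b ^ k :=
  ⟨hF.diff.pow k, fun c a b => by rw [hF.hom]; ring⟩

theorem fst : Hom 1 fun a _ => a := ⟨differentiable_fst, fun c a b => by rw [pow_one]⟩

theorem snd : Hom 1 fun _ b => b := ⟨differentiable_snd, fun c a b => by rw [pow_one]⟩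

theorem one : Hom 0 fun _ _ => 1 := ⟨differentiable_const _, fun c a b => by rw [pow_zero, one_mul]⟩

theorem const (k : ℂ) : Hom 0 fun _ _ => k :=
  ⟨differentiable_const _, fun c a b => by rw [pow_zero, one_mul]⟩

theorem cast (hF : Hom d F) (h : d = e) : Hom e F := h ▸ hF

theorem pow_fst (m : ℕ) : Hom m fun a _ => a ^ m := (fst.pow m).cast (one_mul m)

theorem pow_snd (m : ℕ) : Hom m fun _ b => b ^ m := (snd.pow m).cast (one_mul m)

theorem diff_u (hF : Hom d F) (s : Bool) : Differentiable ℂ fun c => F (u0 s c) (u1 s c) :=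
  hF.diff.comp ((differentiable_u0 s).prodMk (differentiable_u1 s))

end Hom

open Classical in
/-- **the section of `O(d)` given by a homogeneous function** -/
def sec (F : ℂ → ℂ → ℂ) (s : Bool) (t : P1) : ℂ :=
  if t ∈ (A1.e s).source then F (u0 s (pc s t)) (u1 s (pc s t)) else 0

theorem sec_of_mem (F : ℂ → ℂ → ℂ) {s : Bool} {t : P1} (ht : t ∈ (A1.e s).source) :
    sec F s t = F (u0 s (pc s t)) (u1 s (pc s t)) := if_pos ht

theorem u_pc_pt {a0 a1 : ℂ} {s : Bool} (hs : sel s a0 a1 ≠ 0) :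
    u0 s (pc s (pt a0 a1)) = (sel s a0 a1)⁻¹ * a0 ∧
      u1 s (pc s (pt a0 a1)) = (sel s a0 a1)⁻¹ * a1 := by
  rw [pc_pt hs]
  cases s
  · exact ⟨(inv_mul_cancel₀ hs).symm, div_eq_inv_mul _ _⟩
  · exact ⟨div_eq_inv_mul _ _, (inv_mul_cancel₀ hs).symm⟩

variable {d : ℕ} {F : ℂ → ℂ → ℂ}

/-- value of the section at `[a0 : a1]` -/
theorem sec_pt (hF : Hom d F) {a0 a1 : ℂ} (h : a0 ≠ 0 ∨ a1 ≠ 0) {s : Bool}
    (hs : pt a0 a1 ∈ (A1.e s).source) :
    sec F s (pt a0 a1) = F a0 a1 / sel s a0 a1 ^ d := by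
  obtain ⟨h1, h2⟩ := u_pc_pt (sel_ne h hs)
  rw [sec_of_mem F hs, h1, h2, hF.hom, inv_pow, div_eq_inv_mul]

theorem sec_eq_zero_iff (hF : Hom d F) {a0 a1 : ℂ} (h : a0 ≠ 0 ∨ a1 ≠ 0) {s : Bool}
    (hs : pt a0 a1 ∈ (A1.e s).source) : sec F s (pt a0 a1) = 0 ↔ F a0 a1 = 0 := by
  rw [sec_pt hF h hs, div_eq_zero_iff, or_iff_left (pow_ne_zero _ (sel_ne h hs))]

theorem sec_symm (F : ℂ → ℂ → ℂ) {s : Bool} {z : Cn 1} (hz : z ∈ (A1.e s).target) :
    sec F s ((A1.e s).symm z) = F (u0 s (kap z)) (u1 s (kap z)) := by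
  rw [sec_of_mem F ((A1.e s).map_target hz)]
  have h1 : (A1.e s).symm z = pinv s (kap z) := ch1_symm s z
  rw [h1, pc_pinv]

/-- **sections of `O(d)`** -/
theorem isHS_sec (hF : Hom d F) : IsHS (O d) univ (sec F) := by
  refine ⟨fun s => ?_, fun s t ht => if_neg ht, fun i j x hx _ => ?_⟩
  · intro z hz
    have h1 : DifferentiableAt ℂ (fun z : Cn 1 => F (u0 s (kap z)) (u1 s (kap z))) z :=
      ((hF.diff_u s).comp differentiable_kap) z
    exact (h1.differentiableWithinAt (s := _)).congr (fun w hw => sec_symm F hw.1) (sec_symm F hz.1)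
  · obtain ⟨a0, a1, h, rfl⟩ := exists_pt x
    have hi := sel_ne h hx.1
    have hj := sel_ne h hx.2
    rw [sec_pt hF h hx.1, sec_pt hF h hx.2, O_g_pt h d hx, div_pow]
    have h1 : sel i a0 a1 ^ d ≠ 0 := pow_ne_zero _ hi
    have h2 : sel j a0 a1 ^ d ≠ 0 := pow_ne_zero _ hj
    field_simp

theorem isHS_sec_pow {k : ℕ} (hF : Hom (d * k) F) : IsHS (O d ^ k) univ (sec F) := by
  rw [O_pow]
  exact isHS_sec hF

/-- the derivative of a section in the chart -/
theorem hasFDerivAt_sec (hF : Hom d F) {s : Bool} {t : P1} (ht : t ∈ (A1.e s).source) :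
    HasFDerivAt (fun z => sec F s ((A1.e s).symm z))
      (deriv (fun c => F (u0 s c) (u1 s c)) (pc s t) •
        ((4 : ℂ) • (EuclideanSpace.proj (0 : Fin 1) : Cn 1 →L[ℂ] ℂ))) (A1.e s t) := by
  have h1 : HasDerivAt (fun c => F (u0 s c) (u1 s c))
      (deriv (fun c => F (u0 s c) (u1 s c)) (pc s t)) (kap (A1.e s t)) := by
    have h2 : kap (A1.e s t) = pc s t := kap_ch1 s ht
    rw [h2]
    exact (hF.diff_u s (pc s t)).hasDerivAt
  have h3 := h1.comp_hasFDerivAt (A1.e s t) (hasFDerivAt_kap (A1.e s t))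
  refine h3.congr_of_eventuallyEq ?_
  filter_upwards [(A1.e s).open_target.mem_nhds ((A1.e s).map_source ht)] with w hw
  exact sec_symm F hw

theorem fderiv_sec (hF : Hom d F) {s : Bool} {t : P1} (ht : t ∈ (A1.e s).source) (v : Cn 1) :
    fderiv ℂ (fun z => sec F s ((A1.e s).symm z)) (A1.e s t) v =
      deriv (fun c => F (u0 s c) (u1 s c)) (pc s t) * (4 * v 0) := by
  rw [(hasFDerivAt_sec hF ht).fderiv]
  rfl

/-- simple zeros: the derivative is onto -/
theorem surj_sec (hF : Hom d F) {s : Bool} {t : P1} (ht : t ∈ (A1.e s).source)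
    (h0 : deriv (fun c => F (u0 s c) (u1 s c)) (pc s t) ≠ 0) (w : ℂ) :
    ∃ v : Cn 1, fderiv ℂ (fun z => sec F s ((A1.e s).symm z)) (A1.e s t) v = w := by
  refine ⟨oneL (w / (deriv (fun c => F (u0 s c) (u1 s c)) (pc s t) * 4)), ?_⟩
  rw [fderiv_sec hF ht]
  show _ * (4 * (w / (deriv (fun c => F (u0 s c) (u1 s c)) (pc s t) * 4))) = w
  field_simp

/-! ### compatibility with `p1Fam` -/

theorem cmp_A1 : Cmp p1Fam A1 := by
  have key : ∀ (s s' : Bool) (z : Cn 1), pinv s (z 0) ∈ ps s' →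
      DifferentiableAt ℂ (fun z : Cn 1 => pc s' (pinv s (z 0))) z := fun s s' z h =>
    DifferentiableAt.comp z (g := fun c => pc s' (pinv s c)) (f := fun z : Cn 1 => z 0)
      (diffAt_trans s s' h) (EuclideanSpace.proj (0 : Fin 1) : Cn 1 →L[ℂ] ℂ).differentiableAt
  have key' : ∀ (s s' : Bool) (z : Cn 1), pinv s (kap z) ∈ ps s' →
      DifferentiableAt ℂ (fun z : Cn 1 => pc s' (pinv s (kap z))) z := fun s s' z h =>
    DifferentiableAt.comp z (g := fun c => pc s' (pinv s c)) (f := kap)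
      (diffAt_trans s s' h) differentiable_kap.differentiableAt
  refine ⟨⟨continuous_id, fun (s s' : Bool) => ?_⟩, ⟨continuous_id, fun (s s' : Bool) => ?_⟩⟩
  · intro z hz
    have h0 : pinv s (kap z) ∈ ps s' := by
      have := hz.2
      change (ch1 s).symm z ∈ ps s' at this
      rwa [ch1_symm] at this
    refine DifferentiableAt.differentiableWithinAt ?_
    have h1 : DifferentiableAt ℂ (fun z : Cn 1 => oneL (pc s' (pinv s (kap z)))) z :=
      DifferentiableAt.comp z (g := oneL) oneL.differentiableAt (key' s s' z h0)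
    convert h1 using 2 with w
    show oneL (pc s' ((ch1 s).symm w)) = _
    rw [ch1_symm]
  · intro z hz
    have h0 : pinv s (z 0) ∈ ps s' := (mem_ch1.1 (show pinv s (z 0) ∈ (ch1 s').source from hz.2)).1
    refine DifferentiableAt.differentiableWithinAt ?_
    have h1 : DifferentiableAt ℂ (fun z : Cn 1 => oneL (pc s' (pinv s (z 0)))) z :=
      DifferentiableAt.comp z (g := oneL) oneL.differentiableAt (key s s' z h0)
    exact DifferentiableAt.comp z (g := aff (0 : Cn 1) 2 two_pos)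
      (differentiable_aff _ _ two_pos).differentiableAt h1

end

end Crest.Agent.R272.P1S_590
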