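import Crest.Agent.R272.P1L_426
import Crest.Agent.R272.P1S2_590

/-!
# R272 (S0414), helper426: the four curves of the model #6536 / #6713 over 590's `P1`, `A1`, `O d`

`Ch : Data A1 (Fin 2)` : `δ^8 = t0^16 - t1^16` (`O 2`, 8), `ρ^2 = t1^8 + i t0^8` (`O 4`, 2)
`F8 : Data A1 (Fin 1)` : `η^8 = ζ^8 - ω^8` (`O 1`, 8), `(a0, a1) = (ζ, ω)`
`CC : Data A1 (Fin 1)` : `β^4 = a0^8 - a1^8` (`O 2`, 4)
`BB : Data A1 (Fin 1)` : `Y^4 = X0^4 - X1^4` (`O 1`, 4)
compact, Hausdorff, connected; the equations in the two patches; a coordinate at every point.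
-/

set_option autoImplicit false
set_option linter.unusedSectionVars false

open Set Filter Topology Complex

namespace Crest.Agent.R272.P1L_426

open Crest.Agent.R275.Geo Crest.Agent.R275.Core144
open Crest.Agent.R273.Map_835 Crest.Agent.R273.Fam_835 Crest.Agent.R272.DCov_426
open Crest.Agent.R272.P1F_54
open Crest.Agent.R272.P1S_590 (A1 O1 O sec pt sel oth u0 u1 kap ch1 mem_ch1 kap_ch1 ch1_symm
  hasFDerivAt_kap differentiable_kap differentiable_u0 differentiable_u1 sec_of_mem exists_pt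
  sel_ne u_pc_pt)

noncomputable section

/-- the coordinate in the chart is `kap` -/
theorem pc_symm (s : Bool) (z : Cn 1) : pc s ((A1.e s).symm z) = kap z := by
  show pc s ((ch1 s).symm z) = _
  rw [ch1_symm, pc_pinv]

theorem fderiv_pc (s : Bool) (z : Cn 1) :
    fderiv ℂ (fun w => pc s ((A1.e s).symm w)) z =
      (4 : ℂ) • (EuclideanSpace.proj (0 : Fin 1) : Cn 1 →L[ℂ] ℂ) := by
  rw [show (fun w => pc s ((A1.e s).symm w)) = kap from funext (pc_symm s)]
  exact (hasFDerivAt_kap z).fderiv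

theorem diff_pc (s : Bool) (z : Cn 1) :
    DifferentiableAt ℂ (fun w => pc s ((A1.e s).symm w)) z := by
  rw [show (fun w => pc s ((A1.e s).symm w)) = kap from funext (pc_symm s)]
  exact (hasFDerivAt_kap z).differentiableAt

theorem inj_pc (s : Bool) (z : Cn 1) :
    Function.Injective (fderiv ℂ (fun w => pc s ((A1.e s).symm w)) z) := by
  rw [fderiv_pc, injective_iff_map_eq_zero]
  intro v hv
  have h1 : (4 : ℂ) * v 0 = 0 := hv
  ext a
  fin_cases a
  exact (mul_eq_zero.1 h1).resolve_left (by norm_num)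

/-- the homogeneous coordinates of `P1` -/
def HP : HC A1 where
  O := O1
  a0 s t := u0 s (pc s t)
  a1 s t := u1 s (pc s t)
  hol0 s := by
    intro z _
    have h1 : DifferentiableAt ℂ (fun z => u0 s (pc s ((A1.e s).symm z))) z :=
      (differentiable_u0 s _).comp z (diff_pc s z)
    exact h1.differentiableWithinAt
  hol1 s := by
    intro z _
    have h1 : DifferentiableAt ℂ (fun z => u1 s (pc s ((A1.e s).symm z))) z :=
      (differentiable_u1 s _).comp z (diff_pc s z)
    exact h1.differentiableWithinAt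
  tr0 i j x hx := by
    obtain ⟨a0, a1, h, rfl⟩ := exists_pt x
    have hi := sel_ne h hx.1
    have hj := sel_ne h hx.2
    rw [P1S_590.O1_g_pt h hx, (u_pc_pt hi).1, (u_pc_pt hj).1]
    field_simp
  tr1 i j x hx := by
    obtain ⟨a0, a1, h, rfl⟩ := exists_pt x
    have hi := sel_ne h hx.1
    have hj := sel_ne h hx.2
    rw [P1S_590.O1_g_pt h hx, (u_pc_pt hi).2, (u_pc_pt hj).2]
    field_simp
  ne s x _ h0 := by
    cases s
    · exact absurd h0 one_ne_zero
    · exact one_ne_zero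
  imm s z _ v hv := by
    have hp := inj_pc s z
    rw [injective_iff_map_eq_zero] at hp
    apply hp
    cases s
    · have h1 : fderiv ℂ (fun w => u0 false (pc false ((A1.e false).symm w))) z v = 0 := by
        simp
      rw [h1, zero_mul] at hv
      have h2 : u0 false (pc false ((A1.e false).symm z)) = 1 := rfl
      rw [h2, mul_one] at hv
      exact hv.symm
    · have h1 : fderiv ℂ (fun w => u1 true (pc true ((A1.e true).symm w))) z v = 0 := by
        simp
      rw [h1, zero_mul] at hv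
      have h2 : u1 true (pc true ((A1.e true).symm z)) = 1 := rfl
      rw [h2, mul_one] at hv
      exact hv
  surj p q hpq := by
    have h : p ≠ 0 ∨ q ≠ 0 := by
      by_cases hp : p = 0
      · exact Or.inr (hpq hp)
      · exact Or.inl hp
    obtain ⟨s, hs⟩ := A1.cover (pt p q)
    obtain ⟨h1, h2⟩ := u_pc_pt (sel_ne h hs)
    exact ⟨s, pt p q, hs, _, h1, h2⟩

theorem HP_sec (G : ℂ → ℂ → ℂ) : HP.sec G = sec G := rfl

/-! ### the forms -/

/-- `a^16 - b^16` -/
def f16 : ℂ → ℂ → ℂ := fun a b => a ^ 16 - b ^ 16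
/-- `a^8 - b^8` -/
def f8 : ℂ → ℂ → ℂ := fun a b => a ^ 8 - b ^ 8
/-- `a^4 - b^4` -/
def f4 : ℂ → ℂ → ℂ := fun a b => a ^ 4 - b ^ 4
/-- `b^8 + i a^8` -/
def g8 : ℂ → ℂ → ℂ := fun a b => b ^ 8 + I * a ^ 8

theorem f16_eq : HC.bin 1 (-1) 16 = f16 := by funext a b; simp only [HC.bin, f16]; ring
theorem f8_eq : HC.bin 1 (-1) 8 = f8 := by funext a b; simp only [HC.bin, f8]; ring
theorem f4_eq : HC.bin 1 (-1) 4 = f4 := by funext a b; simp only [HC.bin, f4]; ring
theorem g8_eq : HC.bin I 1 8 = g8 := by funext a b; simp only [HC.bin, g8]; ring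

theorem Chat_s : HP.Chat.s = ![sec f16, sec g8] := by
  funext a
  fin_cases a
  · exact congrArg sec f16_eq
  · exact congrArg sec g8_eq

/-- **`C^`** -/
def Ch : Data A1 (Fin 2) where
  L := ![O 2, O 4]
  k := ![8, 2]
  s := ![sec f16, sec g8]
  kpos a := HP.Chat.kpos a
  hs a := by
    have h := HP.Chat.hs a
    rw [Chat_s] at h
    fin_cases a
    · exact h
    · exact h
  snc := by
    have h := HP.Chat.snc
    rw [Chat_s] at h
    exact h

/-- `F8` -/
def F8 : Data A1 (Fin 1) where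
  L _ := O 1
  k _ := 8
  s _ := sec f8
  kpos a := HP.F8.kpos a
  hs a := by
    have := HP.F8.hs a
    rw [show HP.F8.s a = sec f8 from congrArg sec f8_eq] at this
    exact this
  snc i x hx w := by
    obtain ⟨v, hv⟩ := HP.F8.snc i x hx w
    refine ⟨v, fun a => ?_⟩
    have h := hv a
    rw [show HP.F8.s a = sec f8 from congrArg sec f8_eq] at h
    exact h

/-- `CC` -/
def CC : Data A1 (Fin 1) where
  L _ := O 2
  k _ := 4
  s _ := sec f8
  kpos a := HP.CC.kpos a
  hs a := by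
    have := HP.CC.hs a
    rw [show HP.CC.s a = sec f8 from congrArg sec f8_eq] at this
    exact this
  snc i x hx w := by
    obtain ⟨v, hv⟩ := HP.CC.snc i x hx w
    refine ⟨v, fun a => ?_⟩
    have h := hv a
    rw [show HP.CC.s a = sec f8 from congrArg sec f8_eq] at h
    exact h

/-- `BB` -/
def BB : Data A1 (Fin 1) where
  L _ := O 1
  k _ := 4
  s _ := sec f4
  kpos a := HP.BB.kpos a
  hs a := by
    have := HP.BB.hs a
    rw [show HP.BB.s a = sec f4 from congrArg sec f4_eq] at this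
    exact this
  snc i x hx w := by
    obtain ⟨v, hv⟩ := HP.BB.snc i x hx w
    refine ⟨v, fun a => ?_⟩
    have h := hv a
    rw [show HP.BB.s a = sec f4 from congrArg sec f4_eq] at h
    exact h

instance : CompactSpace Ch.X := Ch.compact_X
instance : CompactSpace F8.X := F8.compact_X
instance : CompactSpace CC.X := CC.compact_X
instance : CompactSpace BB.X := BB.compact_X
instance : T2Space Ch.X := Ch.t2_X
instance : T2Space F8.X := F8.t2_X
instance : T2Space CC.X := CC.t2_X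
instance : T2Space BB.X := BB.t2_X

theorem exists_zero_f16 : ∃ x, ∃ i, x ∈ (A1.e i).source ∧ sec f16 i x = 0 := by
  have := HP.exists_zero (HC.hom_bin 1 (-1) 16)
    (HC.exists_zero_bin (neg_ne_zero.2 one_ne_zero) (by norm_num))
  rwa [f16_eq] at this

theorem exists_zero_g8 : ∃ x, ∃ i, x ∈ (A1.e i).source ∧ sec g8 i x = 0 := by
  have := HP.exists_zero (HC.hom_bin I 1 8) (HC.exists_zero_bin one_ne_zero (by norm_num))
  rwa [g8_eq] at this

theorem exists_zero_f8 : ∃ x, ∃ i, x ∈ (A1.e i).source ∧ sec f8 i x = 0 := by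
  have := HP.exists_zero (HC.hom_bin 1 (-1) 8)
    (HC.exists_zero_bin (neg_ne_zero.2 one_ne_zero) (by norm_num))
  rwa [f8_eq] at this

theorem exists_zero_f4 : ∃ x, ∃ i, x ∈ (A1.e i).source ∧ sec f4 i x = 0 := by
  have := HP.exists_zero (HC.hom_bin 1 (-1) 4)
    (HC.exists_zero_bin (neg_ne_zero.2 one_ne_zero) (by norm_num))
  rwa [f4_eq] at this

instance : ConnectedSpace Ch.X := by
  refine Ch.connected_X fun a => ?_
  fin_cases a
  · exact exists_zero_f16
  · exact exists_zero_g8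

instance : ConnectedSpace F8.X := F8.connected_X fun _ => exists_zero_f8
instance : ConnectedSpace CC.X := CC.connected_X fun _ => exists_zero_f8
instance : ConnectedSpace BB.X := BB.connected_X fun _ => exists_zero_f4

/-! ### the equations in the patches (`s : Bool`, base coordinate `pc s (p q)`) -/

theorem Ch_y0 {s : Bool} {q : Ch.X} (hq : Ch.p q ∈ (A1.e s).source) :
    Ch.y 0 s q ^ 8 = u0 s (pc s (Ch.p q)) ^ 16 - u1 s (pc s (Ch.p q)) ^ 16 := by
  have h : Ch.y 0 s q ^ 8 = sec f16 s (Ch.p q) := Ch.y_pow 0 hq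
  rw [h, sec_of_mem _ hq]
  rfl

theorem Ch_y1 {s : Bool} {q : Ch.X} (hq : Ch.p q ∈ (A1.e s).source) :
    Ch.y 1 s q ^ 2 = u1 s (pc s (Ch.p q)) ^ 8 + I * u0 s (pc s (Ch.p q)) ^ 8 := by
  have h : Ch.y 1 s q ^ 2 = sec g8 s (Ch.p q) := Ch.y_pow 1 hq
  rw [h, sec_of_mem _ hq]
  rfl

theorem F8_y {s : Bool} {q : F8.X} (hq : F8.p q ∈ (A1.e s).source) :
    F8.y 0 s q ^ 8 = u0 s (pc s (F8.p q)) ^ 8 - u1 s (pc s (F8.p q)) ^ 8 := by
  have h : F8.y 0 s q ^ 8 = sec f8 s (F8.p q) := F8.y_pow 0 hq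
  rw [h, sec_of_mem _ hq]
  rfl

theorem CC_y {s : Bool} {q : CC.X} (hq : CC.p q ∈ (A1.e s).source) :
    CC.y 0 s q ^ 4 = u0 s (pc s (CC.p q)) ^ 8 - u1 s (pc s (CC.p q)) ^ 8 := by
  have h : CC.y 0 s q ^ 4 = sec f8 s (CC.p q) := CC.y_pow 0 hq
  rw [h, sec_of_mem _ hq]
  rfl

theorem BB_y {s : Bool} {q : BB.X} (hq : BB.p q ∈ (A1.e s).source) :
    BB.y 0 s q ^ 4 = u0 s (pc s (BB.p q)) ^ 4 - u1 s (pc s (BB.p q)) ^ 4 := by
  have h : BB.y 0 s q ^ 4 = sec f4 s (BB.p q) := BB.y_pow 0 hq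
  rw [h, sec_of_mem _ hq]
  rfl

/-! ### a coordinate at every point, for every compatible atlas -/

section Coord

variable {ρ : Type} [Fintype ρ] (D : Data A1 ρ) {A' : Atl 1 D.X} (hc : Cmp D.famX A')

include hc in
/-- where no `y a` vanishes, the base coordinate is a coordinate -/
theorem coord_pc {i : A'.ι} {s : Bool} {q : D.X} (hi : q ∈ (A'.e i).source)
    (hs : D.p q ∈ (A1.e s).source) (ha : ∀ a, D.y a s q ≠ 0) :
    Function.Injective (fderiv ℂ (fun w => pc s (D.p ((A'.e i).symm w))) (A'.e i q)) :=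
  coord_base D hc hi hs ha (diff_pc s _) (inj_pc s _)

include hc in
theorem diff_pcX {i : A'.ι} {s : Bool} {q : D.X} (hi : q ∈ (A'.e i).source)
    (hs : D.p q ∈ (A1.e s).source) :
    DifferentiableAt ℂ (fun w => pc s (D.p ((A'.e i).symm w))) (A'.e i q) :=
  diff_base D hc hi hs (diff_pc s _)

end Coord

end

end Crest.Agent.R272.P1L_426
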