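import Crest.Agent.R272.P1S2_590
import Crest.Agent.R273.FS_333

/-!
# R272 (S0414), P1 (helper590), file 3

* `fsO1`, `fsO1_pos`, `exists_pos_O` : the Fubini-Study metric of `O(1)`, positive; `O d`, `d > 0`
* `continuous_of_pt`, `holC_A1_of`   : maps into `P1` from local homogeneous coordinates
* `mkData`                           : `Data A1 ρ` from homogeneous functions with simple zeros
-/

set_option autoImplicit false
set_option linter.unusedSectionVars false

open Set Filter Topology Complex Metric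
open scoped ContDiff
namespace Crest.Agent.R272.P1S_590

open Crest.Agent.R275.Geo Crest.Agent.R275.Core144 Crest.Agent.R275.GC293
open Crest.Agent.R273.Fam_835 Crest.Agent.R273.Map_835 Crest.Agent.R273.Defs_333
open Crest.Agent.R272.FamP_54 Crest.Agent.R272.P1F_54 Crest.Agent.R272.DCov_426

noncomputable section

theorem kap_ch1_symm {s : Bool} {z : Cn 1} : pc s ((A1.e s).symm z) = kap z := by
  have h1 : (A1.e s).symm z = pinv s (kap z) := ch1_symm s z
  rw [h1, pc_pinv]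

theorem contDiff_kap : ContDiff ℝ ∞ kap := by
  have h1 : ContDiff ℂ ∞ kap := by
    unfold kap
    exact contDiff_const.mul (((EuclideanSpace.proj (0 : Fin 1) : Cn 1 →L[ℂ] ℂ).contDiff).sub
      contDiff_const)
  exact h1.restrict_scalars ℝ

/-- **the Fubini-Study metric of `O(1)`** -/
def fsO1 : HM O1 where
  w s t := (1 + ‖pc s t‖ ^ 2)⁻¹
  pos s t _ := by positivity
  sm s := by
    have h1 : (fun z : Cn 1 => (1 + ‖pc s ((A1.e s).symm z)‖ ^ 2)⁻¹) =
        fun z => (1 + ‖kap z‖ ^ 2)⁻¹ := by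
      funext z
      rw [kap_ch1_symm]
    show ContDiffOn ℝ ∞ (fun z : Cn 1 => (1 + ‖pc s ((A1.e s).symm z)‖ ^ 2)⁻¹) _
    rw [h1]
    refine ContDiff.contDiffOn ?_
    refine (contDiff_const.add (contDiff_kap.norm_sq ℝ)).inv fun z => ?_
    positivity
  tr i j x hx := by
    obtain ⟨a0, a1, h, rfl⟩ := exists_pt x
    have hi := sel_ne h hx.1
    have hj := sel_ne h hx.2
    rw [O1_g_pt h hx, pc_pt hi, pc_pt hj]
    have key : ∀ s : Bool, sel s a0 a1 ≠ 0 → (1 + ‖oth s a0 a1 / sel s a0 a1‖ ^ 2)⁻¹ =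
        ‖sel s a0 a1‖ ^ 2 * (‖a0‖ ^ 2 + ‖a1‖ ^ 2)⁻¹ := by
      intro s hs
      have h1 : 0 < ‖sel s a0 a1‖ ^ 2 := by positivity
      rw [norm_div, div_pow]
      have h2 : ‖a0‖ ^ 2 + ‖a1‖ ^ 2 = ‖sel s a0 a1‖ ^ 2 + ‖oth s a0 a1‖ ^ 2 := by
        cases s
        · rfl
        · exact add_comm _ _
      have h3 : 0 < ‖sel s a0 a1‖ ^ 2 + ‖oth s a0 a1‖ ^ 2 := by positivity
      rw [h2]
      field_simp
    rw [key i hi, key j hj, norm_div, div_pow]
    have h1 : ‖sel i a0 a1‖ ^ 2 ≠ 0 := by positivity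
    field_simp

open Crest.Agent.R273.FS_333 in
/-- **positivity** -/
theorem fsO1_pos : fsO1.Pos := by
  intro s z hz v hv
  have h1 : fsO1.wt s = fun w => Real.log (sq (fun w => ![1, kap w]) w) := by
    funext w
    have h2 : fsO1.w s ((A1.e s).symm w) = (1 + ‖kap w‖ ^ 2)⁻¹ := by
      show (1 + ‖pc s ((A1.e s).symm w)‖ ^ 2)⁻¹ = _
      rw [kap_ch1_symm]
    rw [HM.wt, h2, Real.log_inv, neg_neg]
    congr 1
    show 1 + ‖kap w‖ ^ 2 = ∑ k : Fin 2, ‖(![1, kap w] : Fin 2 → ℂ) k‖ ^ 2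
    simp [Fin.sum_univ_two]
  have hk : ∀ w, HasFDerivAt (fun w => ![1, kap w])
      (ContinuousLinearMap.pi ![0, (4 : ℂ) • (EuclideanSpace.proj (0 : Fin 1) : Cn 1 →L[ℂ] ℂ)]) w := by
    intro w
    rw [hasFDerivAt_pi]
    intro k
    fin_cases k
    · exact hasFDerivAt_const _ _
    · exact hasFDerivAt_kap w
  rw [h1]
  refine lev_log_sq_pos isOpen_univ (fun w _ => (hk w).differentiableAt.differentiableWithinAt)
    (mem_univ z) (fun h => one_ne_zero (α := ℂ) (congrFun h 0)) ?_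
  intro c hc
  rw [(hk z).fderiv] at hc
  have h2 := congrFun hc 0
  have h3 := congrFun hc 1
  have h2' : (0 : ℂ) = c * 1 := h2
  have h3' : (4 : ℂ) * v 0 = c * kap z := h3
  rw [← mul_one c, ← h2', zero_mul] at h3'
  apply hv
  ext a
  fin_cases a
  exact (mul_eq_zero.1 h3').resolve_left (by norm_num)

/-- every `O(d)`, `d > 0`, is positive -/
theorem exists_pos_O1 : ∃ h : HM O1, h.Pos := ⟨fsO1, fsO1_pos⟩

/-! ### maps into the projective line -/

theorem ContinuousAt.pt {Z : Type*} [TopologicalSpace Z] {f g : Z → ℂ} {z : Z}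
    (hf : ContinuousAt f z) (hg : ContinuousAt g z) (h : f z ≠ 0 ∨ g z ≠ 0) :
    ContinuousAt (fun z => pt (f z) (g z)) z := ContinuousAt.hmk hg hf h.symm

theorem continuous_of_pt {Z : Type*} [TopologicalSpace Z] {p : Z → P1}
    (h : ∀ z, ∃ f g : Z → ℂ, ContinuousAt f z ∧ ContinuousAt g z ∧ (f z ≠ 0 ∨ g z ≠ 0) ∧
      ∀ᶠ y in 𝓝 z, p y = pt (f y) (g y)) : Continuous p := by
  rw [continuous_iff_continuousAt]
  intro z
  obtain ⟨f, g, hf, hg, h0, he⟩ := h z
  exact (ContinuousAt.pt hf hg h0).congr (he.mono fun y hy => hy.symm)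

variable {n : ℕ} {X : Type} [TopologicalSpace X] {F : Fam n X}

/-- **holomorphic maps into `P1` from local homogeneous coordinates** -/
theorem holC_A1_of {p : X → P1} (h : ∀ x, ∃ f g : X → ℂ, HFA F f x ∧ HFA F g x ∧
    (f x ≠ 0 ∨ g x ≠ 0) ∧ ∀ᶠ y in 𝓝 x, p y = pt (f y) (g y)) : HolC F (fam A1) p := by
  have h1 : HolC F p1Fam p := holC_p1_of fun x => by
    obtain ⟨f, g, hf, hg, h0, he⟩ := h x
    exact ⟨g, f, hg, hf, h0.symm, he⟩
  exact cmp_A1.bwd.comp h1

/-- every holomorphic map to `P1` has local homogeneous coordinates -/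
theorem exists_lift_A1 {p : X → P1} (hp : HolC F (fam A1) p) (x : X) :
    ∃ f g : X → ℂ, (∀ᶠ y in 𝓝 x, HFA F f y) ∧ (∀ᶠ y in 𝓝 x, HFA F g y) ∧
      (∀ y, f y ≠ 0 ∨ g y ≠ 0) ∧ ∀ᶠ y in 𝓝 x, p y = pt (f y) (g y) := by
  obtain ⟨f, g, hf, hg, h0, he⟩ := HolC.exists_lift (cmp_A1.fwd.comp hp) x
  exact ⟨g, f, hg, hf, fun y => (h0 y).symm, he⟩

/-- the coordinate of the chart `s` is holomorphic on its source -/
theorem hf_pc_A1 (s : Bool) : HF (fam A1) (A1.e s).source (pc s) := by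
  intro t ht
  refine HFA.of (F := fam A1) s ht ?_
  have h1 : (fun z : Cn 1 => pc s (((fam A1).e s).symm z)) = kap := by
    funext z
    exact kap_ch1_symm
  rw [h1]
  exact differentiable_kap _

/-! ### roots of homogeneous functions -/

/-- **abelian covers of `P1`**: `y_a ^ k_a = F_a` with `F_a` homogeneous of degree `d_a k_a`,
simple zeros, no common zeros -/
def mkData {ρ : Type} (d k : ρ → ℕ) (G : ρ → ℂ → ℂ → ℂ) (hk : ∀ a, 0 < k a)
    (hG : ∀ a, Hom (d a * k a) (G a))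
    (hs : ∀ a (s : Bool) (c : ℂ), G a (u0 s c) (u1 s c) = 0 →
      deriv (fun c => G a (u0 s c) (u1 s c)) c ≠ 0)
    (hd : ∀ a b, a ≠ b → ∀ (s : Bool) (c : ℂ), G a (u0 s c) (u1 s c) = 0 →
      G b (u0 s c) (u1 s c) ≠ 0) : Data A1 ρ where
  L a := O (d a)
  k := k
  s a := sec (G a)
  kpos := hk
  hs a := isHS_sec_pow (hG a)
  snc := by
    intro i x hx w
    by_cases h : ∃ a, sec (G a) i x = 0
    · obtain ⟨a, ha⟩ := h
      rw [sec_of_mem (G a) hx] at ha
      obtain ⟨v, hv⟩ := surj_sec (hG a) hx (hs a i _ ha) (w a)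
      refine ⟨v, fun b hb => ?_⟩
      by_cases hab : a = b
      · rw [← hab]
        exact hv
      · rw [sec_of_mem (G b) hx] at hb
        exact absurd hb (hd a b hab i _ ha)
    · exact ⟨0, fun b hb => absurd ⟨b, hb⟩ h⟩

end

end Crest.Agent.R272.P1S_590
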