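import Crest.Agent.R272.NPos_102
import Crest.Agent.R272.P1L2_426
import Crest.Agent.R272.P1S3_590

/-!
# R272 (S0414), helper102: a positive bundle on `Ch.X × F8.X`
-/

set_option autoImplicit false

namespace Crest.Agent.R272.NPos_102

open Crest.Agent.R275.Geo Crest.Agent.R275.Core144 Crest.Agent.R273.Defs_333
open Crest.Agent.R273.Map_835 Crest.Agent.R273.PB_835 Crest.Agent.R273.Fam_835
open Crest.Agent.R272.DCov_426 Crest.Agent.R272.P1S_590

/-- **`hpos` of `s14_tower`**: the base `C^ × F8` with the canonical atlases -/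
theorem hposN : ∃ (L : LB (P1L_426.Ch.atlX.prod P1L_426.F8.atlX)) (g : HM L), g.Pos := by
  obtain ⟨h, hp⟩ := exists_pos_O1
  exact npos_atlX P1L_426.Ch P1L_426.F8 hp hp

/-- the same for any compatible atlases which refine the one of `P¹` -/
theorem hposN' {A' : Atl 1 P1L_426.Ch.X} {B' : Atl 1 P1L_426.F8.X}
    (hc : Cmp P1L_426.Ch.famX A') (R : Ref A' A1 P1L_426.Ch.p)
    (hc' : Cmp P1L_426.F8.famX B') (R' : Ref B' A1 P1L_426.F8.p) :
    ∃ (L : LB (A'.prod B')) (g : HM L), g.Pos := by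
  obtain ⟨h, hp⟩ := exists_pos_O1
  exact npos P1L_426.Ch P1L_426.F8 hc R hc' R' hp hp

end Crest.Agent.R272.NPos_102
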