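import Crest.Agent.R272.Tra2_178

/-!
Row 272 (S0414), SNC1 (helper178): the pair `(s_M, s_N)` of the model of record #6536 has simple
normal crossings at every point of `C^ × F8` which is not of type (P), (Q), (T), (S), (S').

Everything is in homogeneous form: functions `t0 t1 d r z o e` on a normed space with
`d^8 = t0^16 - t1^16`, `r^2 = t1^8 + i t0^8`, `e^8 = z^8 - o^8`,
`sM = o^2 t0^4 - z^2 t1^4`, `sN = o^2 (t1^8 - i t0^8) - k t0^2 t1^2 d^2 z^2`, `k^4 = 8 i`.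
-/

set_option autoImplicit false

open Complex Filter Topology

namespace Crest.Agent.R272.Tra3_178

open Crest.Agent.R272.Tra2_178

/-- `s_M` -/
def sM (t0 t1 z o : ℂ) : ℂ := o ^ 2 * t0 ^ 4 - z ^ 2 * t1 ^ 4

/-- `s_N` -/
def sN (k t0 t1 d z o : ℂ) : ℂ :=
  o ^ 2 * (t1 ^ 8 - I * t0 ^ 8) - k * t0 ^ 2 * t1 ^ 2 * d ^ 2 * z ^ 2

/-- the five types of centres -/
def Cen (k t0 t1 d r z o e : ℂ) : Prop :=
  (t1 = 0 ∧ o = 0) ∨ (t0 = 0 ∧ z = 0) ∨ (o = 0 ∧ (t0 = 0 ∨ d = 0)) ∨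
    (d = 0 ∧ e = 0 ∧ sM t0 t1 z o = 0) ∨ (r = 0 ∧ e = 0 ∧ sN k t0 t1 d z o = 0)

/-- the point conditions -/
structure Pt (k t0 t1 d r z o e : ℂ) : Prop where
  hk : k ^ 4 = 8 * I
  ht : ¬ (t0 = 0 ∧ t1 = 0)
  hz : ¬ (z = 0 ∧ o = 0)
  hC : d ^ 8 = t0 ^ 16 - t1 ^ 16
  hR : r ^ 2 = t1 ^ 8 + I * t0 ^ 8
  hF : e ^ 8 = z ^ 8 - o ^ 8

section Points

variable {k t0 t1 d r z o e : ℂ}

theorem pow0 {a : ℂ} {n : ℕ} (hn : n ≠ 0) (h : a ^ n = 0) : a = 0 := (pow_eq_zero_iff hn).1 h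

theorem Pt.k0 (P : Pt k t0 t1 d r z o e) : k ≠ 0 := by
  intro h
  have h1 := P.hk
  rw [h] at h1
  have : (8 : ℂ) * I = 0 := by rw [← h1]; norm_num
  exact absurd this (mul_ne_zero (by norm_num) I_ne_zero)

/-- `e = 0` and `s_M = 0` imply `d = 0` -/
theorem Pt.d_of (P : Pt k t0 t1 d r z o e) (he : e = 0) (hM : sM t0 t1 z o = 0) : d = 0 := by
  have h1 := P.hF
  rw [he] at h1
  have h2 : o ^ 8 = z ^ 8 := by linear_combination h1
  have h3 : o ^ 2 * t0 ^ 4 = z ^ 2 * t1 ^ 4 := by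
    unfold sM at hM
    linear_combination hM
  have ho : o ≠ 0 := by
    intro h
    rw [h] at h2
    exact P.hz ⟨pow0 (n := 8) (by norm_num) (by rw [← h2]; norm_num), h⟩
  have h4 : (o ^ 2 * t0 ^ 4) ^ 4 = (z ^ 2 * t1 ^ 4) ^ 4 := by rw [h3]
  have h5 : o ^ 8 * (t0 ^ 16 - t1 ^ 16) = 0 := by
    linear_combination h4 - t1 ^ 16 * h2
  have h6 := (mul_eq_zero.1 h5).resolve_left (pow_ne_zero 8 ho)
  rw [← P.hC] at h6
  exact pow0 (by norm_num) h6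

/-- `e = 0` and `s_N = 0` imply `r = 0` -/
theorem Pt.r_of (P : Pt k t0 t1 d r z o e) (he : e = 0) (hN : sN k t0 t1 d z o = 0) : r = 0 := by
  have h1 := P.hF
  rw [he] at h1
  have h2 : o ^ 8 = z ^ 8 := by linear_combination h1
  have h3 : o ^ 2 * (t1 ^ 8 - I * t0 ^ 8) = k * t0 ^ 2 * t1 ^ 2 * d ^ 2 * z ^ 2 := by
    unfold sN at hN
    linear_combination hN
  have ho : o ≠ 0 := by
    intro h
    rw [h] at h2
    exact P.hz ⟨pow0 (n := 8) (by norm_num) (by rw [← h2]; norm_num), h⟩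
  have h4 : (o ^ 2 * (t1 ^ 8 - I * t0 ^ 8)) ^ 4 = (k * t0 ^ 2 * t1 ^ 2 * d ^ 2 * z ^ 2) ^ 4 := by
    rw [h3]
  have h5 : o ^ 8 * (t1 ^ 8 + I * t0 ^ 8) ^ 4 = 0 := by
    have h7 := P.hk
    have h8 := P.hC
    have h9 : I ^ 2 = -1 := I_sq
    linear_combination h4 + (t0 ^ 8 * t1 ^ 8 * d ^ 8 * z ^ 8) * h7 +
      (8 * I * t0 ^ 8 * t1 ^ 8 * z ^ 8) * h8 -
      (8 * I * t0 ^ 8 * t1 ^ 8 * (t0 ^ 16 - t1 ^ 16)) * h2 +
      (8 * o ^ 8 * I * t1 ^ 8 * t0 ^ 24) * h9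
  have h6 := (mul_eq_zero.1 h5).resolve_left (pow_ne_zero 8 ho)
  have h7 := pow0 (by norm_num) h6
  rw [← P.hR] at h7
  exact pow0 (by norm_num) h7

/-- off the centres, `e ≠ 0` where one of the sections vanishes -/
theorem Pt.e_ne (P : Pt k t0 t1 d r z o e) (hc : ¬ Cen k t0 t1 d r z o e)
    (h : sM t0 t1 z o = 0 ∨ sN k t0 t1 d z o = 0) : e ≠ 0 := by
  intro he
  rcases h with h | h
  · exact hc (Or.inr (Or.inr (Or.inr (Or.inl ⟨P.d_of he h, he, h⟩))))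
  · exact hc (Or.inr (Or.inr (Or.inr (Or.inr ⟨P.r_of he h, he, h⟩))))

/-- derivative of `s_M` in the direction of `F8` -/
theorem Pt.M2 (P : Pt k t0 t1 d r z o e) (hc : ¬ Cen k t0 t1 d r z o e)
    (hM : sM t0 t1 z o = 0) {qz qo : ℂ} (hW : z * qo - o * qz ≠ 0) :
    2 * o * qo * t0 ^ 4 - 2 * z * qz * t1 ^ 4 ≠ 0 := by
  have h3 : o ^ 2 * t0 ^ 4 = z ^ 2 * t1 ^ 4 := by
    unfold sM at hM
    linear_combination hM
  have ho : o ≠ 0 := by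
    intro h
    have hz : z ≠ 0 := fun h' => P.hz ⟨h', h⟩
    rw [h] at h3
    have h4 : z ^ 2 * t1 ^ 4 = 0 := by rw [← h3]; ring
    exact hc (Or.inl ⟨pow0 (by norm_num) ((mul_eq_zero.1 h4).resolve_left (pow_ne_zero 2 hz)), h⟩)
  have ht : t0 ≠ 0 := by
    intro h
    have ht1 : t1 ≠ 0 := fun h' => P.ht ⟨h, h'⟩
    rw [h] at h3
    have h4 : z ^ 2 * t1 ^ 4 = 0 := by rw [← h3]; ring
    exact hc (Or.inr (Or.inl
      ⟨h, pow0 (by norm_num) ((mul_eq_zero.1 h4).resolve_right (pow_ne_zero 4 ht1))⟩))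
  intro h
  have h5 : 2 * o * t0 ^ 4 * (z * qo - o * qz) = 0 := by
    linear_combination z * h - 2 * qz * h3
  exact mul_ne_zero (mul_ne_zero (mul_ne_zero two_ne_zero ho) (pow_ne_zero 4 ht)) hW h5

/-- derivative of `s_N` in the direction of `F8`, `z ≠ 0` -/
theorem Pt.N2 (P : Pt k t0 t1 d r z o e) (hc : ¬ Cen k t0 t1 d r z o e)
    (hN : sN k t0 t1 d z o = 0) (hz : z ≠ 0) {qz qo : ℂ} (hW : z * qo - o * qz ≠ 0) :
    2 * o * qo * (t1 ^ 8 - I * t0 ^ 8) - 2 * k * z * qz * t0 ^ 2 * t1 ^ 2 * d ^ 2 ≠ 0 := by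
  have h3 : o ^ 2 * (t1 ^ 8 - I * t0 ^ 8) = k * t0 ^ 2 * t1 ^ 2 * d ^ 2 * z ^ 2 := by
    unfold sN at hN
    linear_combination hN
  have hk := P.k0
  have ho : o ≠ 0 := by
    intro h
    rw [h] at h3
    have h4 : t0 = 0 ∨ t1 = 0 ∨ d = 0 := by
      by_contra h5
      push Not at h5
      obtain ⟨a, b, c⟩ := h5
      refine mul_ne_zero (mul_ne_zero (mul_ne_zero (mul_ne_zero hk (pow_ne_zero 2 a))
        (pow_ne_zero 2 b)) (pow_ne_zero 2 c)) (pow_ne_zero 2 hz) ?_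
      rw [← h3]; ring
    rcases h4 with h4 | h4 | h4
    · exact hc (Or.inr (Or.inr (Or.inl ⟨h, Or.inl h4⟩)))
    · exact hc (Or.inl ⟨h4, h⟩)
    · exact hc (Or.inr (Or.inr (Or.inl ⟨h, Or.inr h4⟩)))
  have hq : t1 ^ 8 - I * t0 ^ 8 ≠ 0 := by
    intro hq
    rw [hq, mul_zero] at h3
    have h4 : t0 = 0 ∨ t1 = 0 ∨ d = 0 := by
      by_contra h5
      push Not at h5
      obtain ⟨a, b, c⟩ := h5
      exact mul_ne_zero (mul_ne_zero (mul_ne_zero (mul_ne_zero hk (pow_ne_zero 2 a))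
        (pow_ne_zero 2 b)) (pow_ne_zero 2 c)) (pow_ne_zero 2 hz) h3.symm
    rcases h4 with h4 | h4 | h4
    · rw [h4] at hq
      exact P.ht ⟨h4, pow0 (n := 8) (by norm_num) (by linear_combination hq)⟩
    · rw [h4] at hq
      have h6 : I * t0 ^ 8 = 0 := by linear_combination -hq
      exact P.ht ⟨pow0 (n := 8) (by norm_num) ((mul_eq_zero.1 h6).resolve_left I_ne_zero), h4⟩
    · have h6 := P.hC
      rw [h4] at h6
      have h9 : I ^ 2 = -1 := I_sq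
      have h7 : 2 * t0 ^ 16 = 0 := by
        linear_combination -h6 + (t1 ^ 8 + I * t0 ^ 8) * hq + t0 ^ 16 * h9
      have h8 : t0 = 0 := pow0 (by norm_num) ((mul_eq_zero.1 h7).resolve_left two_ne_zero)
      rw [h8] at hq
      exact P.ht ⟨h8, pow0 (n := 8) (by norm_num) (by linear_combination hq)⟩
  intro h
  have h5 : 2 * o * (t1 ^ 8 - I * t0 ^ 8) * (z * qo - o * qz) = 0 := by
    linear_combination z * h - 2 * qz * h3
  exact mul_ne_zero (mul_ne_zero (mul_ne_zero two_ne_zero ho) hq) hW h5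

/-- `z = 0` and `s_N = 0` -/
theorem Pt.of_z (P : Pt k t0 t1 d r z o e) (hN : sN k t0 t1 d z o = 0) (hz : z = 0) :
    o ≠ 0 ∧ t0 ≠ 0 ∧ t1 ≠ 0 ∧ d ≠ 0 ∧ r ≠ 0 ∧ t1 ^ 8 = I * t0 ^ 8 := by
  have ho : o ≠ 0 := fun h => P.hz ⟨hz, h⟩
  have hq : t1 ^ 8 = I * t0 ^ 8 := by
    unfold sN at hN
    rw [hz] at hN
    have h1 : o ^ 2 * (t1 ^ 8 - I * t0 ^ 8) = 0 := by linear_combination hN
    exact sub_eq_zero.1 ((mul_eq_zero.1 h1).resolve_left (pow_ne_zero 2 ho))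
  have h0 : t0 ≠ 0 := by
    intro h
    rw [h] at hq
    exact P.ht ⟨h, pow0 (n := 8) (by norm_num) (by rw [hq]; norm_num)⟩
  have h1 : t1 ≠ 0 := by
    intro h
    rw [h] at hq
    have h6 : I * t0 ^ 8 = 0 := by rw [← hq]; norm_num
    exact h0 (pow0 (n := 8) (by norm_num) ((mul_eq_zero.1 h6).resolve_left I_ne_zero))
  refine ⟨ho, h0, h1, ?_, ?_, hq⟩
  · intro h4
    have h6 := P.hC
    rw [h4] at h6
    have h9 : I ^ 2 = -1 := I_sq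
    have h7 : 2 * t0 ^ 16 = 0 := by
      linear_combination -h6 + (t1 ^ 8 + I * t0 ^ 8) * hq + t0 ^ 16 * h9
    exact h0 (pow0 (by norm_num) ((mul_eq_zero.1 h7).resolve_left two_ne_zero))
  · intro h4
    have h6 := P.hR
    rw [h4] at h6
    have h7 : 2 * I * t0 ^ 8 = 0 := by linear_combination -h6 - hq
    exact h0 (pow0 (by norm_num) ((mul_eq_zero.1 h7).resolve_left
      (mul_ne_zero two_ne_zero I_ne_zero)))

/-- derivative of `s_N` in the direction of `C^` at `z = 0` -/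
theorem Pt.N1 (P : Pt k t0 t1 d r z o e) (hN : sN k t0 t1 d z o = 0) (hz : z = 0) {p0 p1 : ℂ}
    (hW : t0 * p1 - t1 * p0 ≠ 0) :
    o ^ 2 * (8 * t1 ^ 7 * p1 - 8 * I * t0 ^ 7 * p0) ≠ 0 := by
  obtain ⟨ho, h0, h1, -, -, hq⟩ := P.of_z hN hz
  intro h
  have h2 : 8 * t1 ^ 7 * p1 - 8 * I * t0 ^ 7 * p0 = 0 :=
    (mul_eq_zero.1 h).resolve_left (pow_ne_zero 2 ho)
  have h3 : 8 * t1 ^ 7 * (t0 * p1 - t1 * p0) = 0 := by
    linear_combination t0 * h2 - 8 * p0 * hq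
  exact mul_ne_zero (mul_ne_zero (by norm_num) (pow_ne_zero 7 h1)) hW h3

/-- both sections vanish, no centre -/
theorem Pt.both (P : Pt k t0 t1 d r z o e) (hc : ¬ Cen k t0 t1 d r z o e)
    (hM : sM t0 t1 z o = 0) (hN : sN k t0 t1 d z o = 0) :
    t0 ≠ 0 ∧ z ≠ 0 ∧ t1 ≠ 0 ∧ o ≠ 0 ∧ d ≠ 0 ∧ r ≠ 0 ∧ e ≠ 0 := by
  unfold sM at hM
  unfold sN at hN
  obtain ⟨h0, hz, h | ⟨h1, ho, hd, hr, he⟩⟩ := both_zero P.ht P.hz P.hk P.hC P.hR P.hF hM hN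
  · exact absurd (Or.inl h) hc
  · exact ⟨h0, hz, h1, ho, hd, hr, he⟩

/-- the Jacobian factor, homogeneous -/
theorem Pt.J (P : Pt k t0 t1 d r z o e) (hc : ¬ Cen k t0 t1 d r z o e)
    (hM : sM t0 t1 z o = 0) (hN : sN k t0 t1 d z o = 0) :
    3 * (t1 ^ 8) ^ 3 + I * (t1 ^ 8) ^ 2 * t0 ^ 8 - 5 * t1 ^ 8 * (t0 ^ 8) ^ 2 +
      I * (t0 ^ 8) ^ 3 ≠ 0 := by
  obtain ⟨h0, hz, h1, ho, hd, hr, he⟩ := P.both hc hM hN
  have hJ := jac_ne (t := t1 / t0) (o := o / z) (d := d / t0 ^ 2) (k := k) P.hk ?_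
    (div_ne_zero h1 h0) ?_ ?_
  · intro h
    refine hJ ?_
    have : 3 * ((t1 / t0) ^ 8) ^ 3 + I * ((t1 / t0) ^ 8) ^ 2 - 5 * (t1 / t0) ^ 8 + I =
      (3 * (t1 ^ 8) ^ 3 + I * (t1 ^ 8) ^ 2 * t0 ^ 8 - 5 * t1 ^ 8 * (t0 ^ 8) ^ 2 +
      I * (t0 ^ 8) ^ 3) / (t0 ^ 8) ^ 3 := by
      field_simp
    rw [this, h, zero_div]
  · have := P.hC
    field_simp
    linear_combination this
  · unfold sM at hM
    field_simp
    linear_combination hM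
  · unfold sN at hN
    field_simp
    linear_combination hN

/-- the Jacobian determinant at a common zero -/
theorem Pt.det (P : Pt k t0 t1 d r z o e) (hc : ¬ Cen k t0 t1 d r z o e)
    (hM : sM t0 t1 z o = 0) (hN : sN k t0 t1 d z o = 0) {p0 p1 pd qz qo : ℂ}
    (hd' : 8 * d ^ 7 * pd = 16 * t0 ^ 15 * p0 - 16 * t1 ^ 15 * p1)
    (hC : t0 * p1 - t1 * p0 ≠ 0) (hF : z * qo - o * qz ≠ 0) :
    (4 * o ^ 2 * t0 ^ 3 * p0 - 4 * z ^ 2 * t1 ^ 3 * p1) *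
      (2 * o * qo * (t1 ^ 8 - I * t0 ^ 8) - 2 * k * z * qz * t0 ^ 2 * t1 ^ 2 * d ^ 2) -
    (2 * o * qo * t0 ^ 4 - 2 * z * qz * t1 ^ 4) *
      (o ^ 2 * (8 * t1 ^ 7 * p1 - 8 * I * t0 ^ 7 * p0) -
        k * z ^ 2 * (2 * t0 * p0 * t1 ^ 2 * d ^ 2 + 2 * t0 ^ 2 * t1 * p1 * d ^ 2 +
          2 * t0 ^ 2 * t1 ^ 2 * d * pd)) ≠ 0 := by
  have hJ := P.J hc hM hN
  obtain ⟨h0, hz, h1, ho, hd, hr, he⟩ := P.both hc hM hN
  have hCx := P.hC
  unfold sM at hM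
  unfold sN at hN
  -- `t1^2 q = k t0^6 d^2`
  have h3 : t1 ^ 2 * (t1 ^ 8 - I * t0 ^ 8) = k * t0 ^ 6 * d ^ 2 := by
    refine mul_left_cancel₀ (mul_ne_zero (pow_ne_zero 2 hz) (pow_ne_zero 2 h1)) ?_
    linear_combination t0 ^ 4 * hN - (t1 ^ 8 - I * t0 ^ 8) * hM
  set W := t0 * p1 - t1 * p0 with hW
  set V := z * qo - o * qz with hV
  set M1 := 4 * o ^ 2 * t0 ^ 3 * p0 - 4 * z ^ 2 * t1 ^ 3 * p1 with hM1
  set N2 := 2 * o * qo * (t1 ^ 8 - I * t0 ^ 8) - 2 * k * z * qz * t0 ^ 2 * t1 ^ 2 * d ^ 2 with hN2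
  set M2 := 2 * o * qo * t0 ^ 4 - 2 * z * qz * t1 ^ 4 with hM2
  set N1 := o ^ 2 * (8 * t1 ^ 7 * p1 - 8 * I * t0 ^ 7 * p0) -
        k * z ^ 2 * (2 * t0 * p0 * t1 ^ 2 * d ^ 2 + 2 * t0 ^ 2 * t1 * p1 * d ^ 2 +
          2 * t0 ^ 2 * t1 ^ 2 * d * pd) with hN1
  have a1 : t0 * M1 = -4 * z ^ 2 * t1 ^ 3 * W := by
    rw [hM1, hW]; linear_combination 4 * p0 * hM
  have a2 : z * M2 = 2 * o * t0 ^ 4 * V := by
    rw [hM2, hV]; linear_combination 2 * qz * hM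
  have a3 : z * N2 = 2 * o * (t1 ^ 8 - I * t0 ^ 8) * V := by
    rw [hN2, hV]; linear_combination 2 * qz * hN
  have a4 : t0 * d ^ 6 * N1 = W * (8 * o ^ 2 * t1 ^ 7 * d ^ 6 +
      k * z ^ 2 * t0 ^ 2 * t1 * (6 * (t1 ^ 8) ^ 2 - 2 * (t0 ^ 8) ^ 2)) := by
    rw [hN1, hW]
    linear_combination 8 * p0 * d ^ 6 * hN +
      k * z ^ 2 * t0 ^ 2 * t1 * (6 * p0 * t1 - 2 * t0 * p1) * hCx -
      (1 / 4) * k * z ^ 2 * t0 ^ 3 * t1 ^ 2 * hd'
  intro hdet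
  have g : 4 * o * z ^ 2 * t1 ^ 3 * W * V * (3 * (t1 ^ 8) ^ 3 + I * (t1 ^ 8) ^ 2 * t0 ^ 8 -
      5 * t1 ^ 8 * (t0 ^ 8) ^ 2 + I * (t0 ^ 8) ^ 3) = 0 := by
    have g1 : (t0 * M1) * (z * N2) * d ^ 8 - (z * M2) * (t0 * d ^ 6 * N1) * d ^ 2 = 0 := by
      linear_combination t0 * z * d ^ 8 * hdet
    rw [a1, a2, a3, a4] at g1
    linear_combination g1 + 16 * o * t1 ^ 7 * d ^ 8 * V * W * hM -
      2 * o * V * W * z ^ 2 * t1 * (6 * (t1 ^ 8) ^ 2 - 2 * (t0 ^ 8) ^ 2) * h3 +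
      (8 * o * z ^ 2 * t1 ^ 3 * (t1 ^ 8 - I * t0 ^ 8) * W * V +
        16 * o * z ^ 2 * t1 ^ 11 * V * W) * hCx
  refine mul_ne_zero (mul_ne_zero (mul_ne_zero (mul_ne_zero (mul_ne_zero (mul_ne_zero
    (by norm_num) ho) (pow_ne_zero 2 hz)) (pow_ne_zero 3 h1)) hC) hF) hJ g

end Points

/-! ### differentials -/

section Diff

variable {E : Type*} [NormedAddCommGroup E] [NormedSpace ℂ E] {x : E} {k : ℂ}
  {t0 t1 d z o : E → ℂ}

/-- directional derivative of `s_M` -/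
theorem fderiv_sM (h0 : DifferentiableAt ℂ t0 x) (h1 : DifferentiableAt ℂ t1 x)
    (hz : DifferentiableAt ℂ z x) (ho : DifferentiableAt ℂ o x) :
    ∃ L : E →L[ℂ] ℂ, HasFDerivAt (fun y => sM (t0 y) (t1 y) (z y) (o y)) L x ∧ ∀ v,
      L v = 2 * o x * fderiv ℂ o x v * t0 x ^ 4 + 4 * o x ^ 2 * t0 x ^ 3 * fderiv ℂ t0 x v -
        2 * z x * fderiv ℂ z x v * t1 x ^ 4 - 4 * z x ^ 2 * t1 x ^ 3 * fderiv ℂ t1 x v := by
  refine ⟨_, (((ho.hasFDerivAt.pow 2).mul (h0.hasFDerivAt.pow 4)).sub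
    ((hz.hasFDerivAt.pow 2).mul (h1.hasFDerivAt.pow 4))), fun v => ?_⟩
  simp
  ring

/-- directional derivative of `s_N` -/
theorem fderiv_sN (h0 : DifferentiableAt ℂ t0 x) (h1 : DifferentiableAt ℂ t1 x)
    (hd : DifferentiableAt ℂ d x) (hz : DifferentiableAt ℂ z x) (ho : DifferentiableAt ℂ o x) :
    ∃ L : E →L[ℂ] ℂ, HasFDerivAt (fun y => sN k (t0 y) (t1 y) (d y) (z y) (o y)) L x ∧ ∀ v,
      L v = 2 * o x * fderiv ℂ o x v * (t1 x ^ 8 - I * t0 x ^ 8) +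
        o x ^ 2 * (8 * t1 x ^ 7 * fderiv ℂ t1 x v - 8 * I * t0 x ^ 7 * fderiv ℂ t0 x v) -
        k * z x ^ 2 * (2 * t0 x * fderiv ℂ t0 x v * t1 x ^ 2 * d x ^ 2 +
          2 * t0 x ^ 2 * t1 x * fderiv ℂ t1 x v * d x ^ 2 +
          2 * t0 x ^ 2 * t1 x ^ 2 * d x * fderiv ℂ d x v) -
        2 * k * z x * fderiv ℂ z x v * t0 x ^ 2 * t1 x ^ 2 * d x ^ 2 := by
  refine ⟨_, ((ho.hasFDerivAt.pow 2).mul ((h1.hasFDerivAt.pow 8).sub
    ((h0.hasFDerivAt.pow 8).const_mul I))).sub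
      (((((h0.hasFDerivAt.pow 2).const_mul k).mul (h1.hasFDerivAt.pow 2)).mul
        (hd.hasFDerivAt.pow 2)).mul (hz.hasFDerivAt.pow 2)), fun v => ?_⟩
  simp
  ring

/-- the differential of `d` -/
theorem fderiv_d (h0 : DifferentiableAt ℂ t0 x) (h1 : DifferentiableAt ℂ t1 x)
    (hd : DifferentiableAt ℂ d x) (hC : ∀ᶠ y in 𝓝 x, d y ^ 8 = t0 y ^ 16 - t1 y ^ 16) (v : E) :
    8 * d x ^ 7 * fderiv ℂ d x v =
      16 * t0 x ^ 15 * fderiv ℂ t0 x v - 16 * t1 x ^ 15 * fderiv ℂ t1 x v := by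
  have a1 := (hd.hasFDerivAt.pow 8)
  have a2 := (h0.hasFDerivAt.pow 16).sub (h1.hasFDerivAt.pow 16)
  have a3 := a1.congr_of_eventuallyEq (f₁ := fun y => t0 y ^ 16 - t1 y ^ 16) (by
    filter_upwards [hC] with y hy using hy.symm)
  have a4 := congrArg (fun l : E →L[ℂ] ℂ => l v) (a3.unique a2)
  simpa using a4

variable {r e uM uN : E → ℂ}

/-- **simple normal crossings of `(s_M, s_N)` off the centres** -/
theorem nsnc_vec (P : Pt k (t0 x) (t1 x) (d x) (r x) (z x) (o x) (e x))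
    (hc : ¬ Cen k (t0 x) (t1 x) (d x) (r x) (z x) (o x) (e x))
    (h0 : DifferentiableAt ℂ t0 x) (h1 : DifferentiableAt ℂ t1 x) (hd : DifferentiableAt ℂ d x)
    (hz : DifferentiableAt ℂ z x) (ho : DifferentiableAt ℂ o x)
    (hC : ∀ᶠ y in 𝓝 x, d y ^ 8 = t0 y ^ 16 - t1 y ^ 16) {v1 v2 : E}
    (z1 : fderiv ℂ z x v1 = 0) (o1 : fderiv ℂ o x v1 = 0)
    (t02 : fderiv ℂ t0 x v2 = 0) (t12 : fderiv ℂ t1 x v2 = 0) (d2 : fderiv ℂ d x v2 = 0)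
    (w1 : d x ≠ 0 → r x ≠ 0 → t0 x * fderiv ℂ t1 x v1 - t1 x * fderiv ℂ t0 x v1 ≠ 0)
    (w2 : e x ≠ 0 → z x * fderiv ℂ o x v2 - o x * fderiv ℂ z x v2 ≠ 0)
    (huM : DifferentiableAt ℂ uM x) (huM0 : uM x ≠ 0)
    (huN : DifferentiableAt ℂ uN x) (huN0 : uN x ≠ 0) (w : Fin 2 → ℂ) :
    ∃ v, ∀ a : Fin 2, (![fun y => uM y * sM (t0 y) (t1 y) (z y) (o y),
        fun y => uN y * sN k (t0 y) (t1 y) (d y) (z y) (o y)] a) x = 0 →
      fderiv ℂ (![fun y => uM y * sM (t0 y) (t1 y) (z y) (o y),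
        fun y => uN y * sN k (t0 y) (t1 y) (d y) (z y) (o y)] a) x v = w a := by
  obtain ⟨LM, hLM, eM⟩ := fderiv_sM h0 h1 hz ho
  obtain ⟨LN, hLN, eN⟩ := fderiv_sN (k := k) h0 h1 hd hz ho
  have key : ∃ v, (sM (t0 x) (t1 x) (z x) (o x) = 0 → uM x * LM v = w 0) ∧
      (sN k (t0 x) (t1 x) (d x) (z x) (o x) = 0 → uN x * LN v = w 1) := by
    by_cases hM : sM (t0 x) (t1 x) (z x) (o x) = 0
    · have he := P.e_ne hc (Or.inl hM)
      by_cases hN : sN k (t0 x) (t1 x) (d x) (z x) (o x) = 0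
      · obtain ⟨-, -, -, -, hd0, hr0, -⟩ := P.both hc hM hN
        have hdet := P.det hc hM hN (fderiv_d h0 h1 hd hC v1) (w1 hd0 hr0) (w2 he)
        have hne : (uM x • LM) v1 * (uN x • LN) v2 - (uM x • LM) v2 * (uN x • LN) v1 ≠ 0 := by
          intro h
          refine mul_ne_zero (mul_ne_zero huM0 huN0) hdet ?_
          simp only [smul_apply, smul_eq_mul, eM, eN, z1, o1, t02, t12, d2] at h
          linear_combination h
        obtain ⟨v, hv1, hv2⟩ := lin2 (uM x • LM) (uN x • LN) v1 v2 hne (w 0) (w 1)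
        exact ⟨v, fun _ => hv1, fun _ => hv2⟩
      · have h2 := P.M2 hc hM (w2 he)
        have h3 : LM v2 ≠ 0 := by
          intro h
          refine h2 ?_
          rw [eM, t02, t12] at h
          linear_combination h
        refine ⟨(w 0 / (uM x * LM v2)) • v2, fun _ => ?_, fun h => absurd h hN⟩
        rw [map_smul, smul_eq_mul]
        field_simp
    · by_cases hN : sN k (t0 x) (t1 x) (d x) (z x) (o x) = 0
      · have he := P.e_ne hc (Or.inr hN)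
        by_cases hz0 : z x = 0
        · obtain ⟨-, -, -, hd0, hr0, -⟩ := P.of_z hN hz0
          have h2 := P.N1 hN hz0 (w1 hd0 hr0)
          have h3 : LN v1 ≠ 0 := by
            intro h
            refine h2 ?_
            rw [eN, z1, o1, hz0] at h
            linear_combination h
          refine ⟨(w 1 / (uN x * LN v1)) • v1, fun h => absurd h hM, fun _ => ?_⟩
          rw [map_smul, smul_eq_mul]
          field_simp
        · have h2 := P.N2 hc hN hz0 (w2 he)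
          have h3 : LN v2 ≠ 0 := by
            intro h
            refine h2 ?_
            rw [eN, t02, t12, d2] at h
            linear_combination h
          refine ⟨(w 1 / (uN x * LN v2)) • v2, fun h => absurd h hM, fun _ => ?_⟩
          rw [map_smul, smul_eq_mul]
          field_simp
      · exact ⟨0, fun h => absurd h hM, fun h => absurd h hN⟩
  obtain ⟨v, hv1, hv2⟩ := key
  refine ⟨v, fun a => ?_⟩
  fin_cases a
  · intro h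
    have hM : sM (t0 x) (t1 x) (z x) (o x) = 0 := (mul_eq_zero.1 h).resolve_left huM0
    have := (hasFDerivAt_unit huM hLM hM).fderiv
    change fderiv ℂ (fun y => uM y * sM (t0 y) (t1 y) (z y) (o y)) x v = w 0
    rw [this]
    exact hv1 hM
  · intro h
    have hN : sN k (t0 x) (t1 x) (d x) (z x) (o x) = 0 := (mul_eq_zero.1 h).resolve_left huN0
    have := (hasFDerivAt_unit huN hLN hN).fderiv
    change fderiv ℂ (fun y => uN y * sN k (t0 y) (t1 y) (d y) (z y) (o y)) x v = w 1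
    rw [this]
    exact hv2 hN

end Diff

/-! ### the product version -/

section Prod

variable {E1 E2 : Type*} [NormedAddCommGroup E1] [NormedSpace ℂ E1] [NormedAddCommGroup E2]
  [NormedSpace ℂ E2]

theorem fderiv_fst' {f : E1 → ℂ} {a : E1} (b : E2) (hf : DifferentiableAt ℂ f a) (v : E1 × E2) :
    fderiv ℂ (fun p : E1 × E2 => f p.1) (a, b) v = fderiv ℂ f a v.1 := by
  have h1 : HasFDerivAt (fun p : E1 × E2 => f p.1)
      ((fderiv ℂ f a).comp (ContinuousLinearMap.fst ℂ E1 E2)) (a, b) :=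
    HasFDerivAt.comp (a, b) (g := f) (f := fun p : E1 × E2 => p.1) hf.hasFDerivAt hasFDerivAt_fst
  rw [h1.fderiv]
  rfl

theorem fderiv_snd' {f : E2 → ℂ} (a : E1) {b : E2} (hf : DifferentiableAt ℂ f b) (v : E1 × E2) :
    fderiv ℂ (fun p : E1 × E2 => f p.2) (a, b) v = fderiv ℂ f b v.2 := by
  have h1 : HasFDerivAt (fun p : E1 × E2 => f p.2)
      ((fderiv ℂ f b).comp (ContinuousLinearMap.snd ℂ E1 E2)) (a, b) :=
    HasFDerivAt.comp (a, b) (g := f) (f := fun p : E1 × E2 => p.2) hf.hasFDerivAt hasFDerivAt_snd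
  rw [h1.fderiv]
  rfl

variable {k : ℂ} {a : E1} {b : E2} {t0 t1 d r : E1 → ℂ} {z o e : E2 → ℂ} {uM uN : E1 × E2 → ℂ}

/-- **simple normal crossings off the centres, product form** -/
theorem nsnc_prod (P : Pt k (t0 a) (t1 a) (d a) (r a) (z b) (o b) (e b))
    (hc : ¬ Cen k (t0 a) (t1 a) (d a) (r a) (z b) (o b) (e b))
    (h0 : DifferentiableAt ℂ t0 a) (h1 : DifferentiableAt ℂ t1 a) (hd : DifferentiableAt ℂ d a)
    (hz : DifferentiableAt ℂ z b) (ho : DifferentiableAt ℂ o b)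
    (hC : ∀ᶠ y in 𝓝 a, d y ^ 8 = t0 y ^ 16 - t1 y ^ 16)
    (w1 : d a ≠ 0 → r a ≠ 0 → ∃ v, t0 a * fderiv ℂ t1 a v - t1 a * fderiv ℂ t0 a v ≠ 0)
    (w2 : e b ≠ 0 → ∃ v, z b * fderiv ℂ o b v - o b * fderiv ℂ z b v ≠ 0)
    (huM : DifferentiableAt ℂ uM (a, b)) (huM0 : uM (a, b) ≠ 0)
    (huN : DifferentiableAt ℂ uN (a, b)) (huN0 : uN (a, b) ≠ 0) (w : Fin 2 → ℂ) :
    ∃ v, ∀ i : Fin 2, (![fun y => uM y * sM (t0 y.1) (t1 y.1) (z y.2) (o y.2),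
        fun y => uN y * sN k (t0 y.1) (t1 y.1) (d y.1) (z y.2) (o y.2)] i) (a, b) = 0 →
      fderiv ℂ (![fun y => uM y * sM (t0 y.1) (t1 y.1) (z y.2) (o y.2),
        fun y => uN y * sN k (t0 y.1) (t1 y.1) (d y.1) (z y.2) (o y.2)] i) (a, b) v = w i := by
  obtain ⟨v1, hv1⟩ : ∃ v1, d a ≠ 0 → r a ≠ 0 →
      t0 a * fderiv ℂ t1 a v1 - t1 a * fderiv ℂ t0 a v1 ≠ 0 := by
    by_cases h : d a ≠ 0 ∧ r a ≠ 0
    · obtain ⟨v, hv⟩ := w1 h.1 h.2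
      exact ⟨v, fun _ _ => hv⟩
    · exact ⟨0, fun h1 h2 => absurd ⟨h1, h2⟩ h⟩
  obtain ⟨v2, hv2⟩ : ∃ v2, e b ≠ 0 →
      z b * fderiv ℂ o b v2 - o b * fderiv ℂ z b v2 ≠ 0 := by
    by_cases h : e b ≠ 0
    · obtain ⟨v, hv⟩ := w2 h
      exact ⟨v, fun _ => hv⟩
    · exact ⟨0, fun h1 => absurd h1 h⟩
  have f0 : ∀ {f : E1 → ℂ}, DifferentiableAt ℂ f a →
      DifferentiableAt ℂ (fun p : E1 × E2 => f p.1) (a, b) := fun {f} hf =>
    DifferentiableAt.comp (a, b) (g := f) (f := fun p : E1 × E2 => p.1) hf differentiableAt_fst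
  have g0 : ∀ {f : E2 → ℂ}, DifferentiableAt ℂ f b →
      DifferentiableAt ℂ (fun p : E1 × E2 => f p.2) (a, b) := fun {f} hf =>
    DifferentiableAt.comp (a, b) (g := f) (f := fun p : E1 × E2 => p.2) hf differentiableAt_snd
  refine nsnc_vec (x := (a, b)) (k := k) (t0 := fun p => t0 p.1) (t1 := fun p => t1 p.1)
    (d := fun p => d p.1) (z := fun p => z p.2) (o := fun p => o p.2) (r := fun p => r p.1)
    (e := fun p => e p.2) (uM := uM) (uN := uN) (v1 := (v1, 0)) (v2 := (0, v2)) P hc (f0 h0)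
    (f0 h1) (f0 hd) (g0 hz) (g0 ho) ?_ ?_ ?_ ?_ ?_ ?_ ?_ ?_ huM huM0 huN huN0 w
  · exact (continuous_fst.tendsto (a, b)).eventually hC
  · rw [fderiv_snd' a hz]; exact map_zero _
  · rw [fderiv_snd' a ho]; exact map_zero _
  · rw [fderiv_fst' b h0]; exact map_zero _
  · rw [fderiv_fst' b h1]; exact map_zero _
  · rw [fderiv_fst' b hd]; exact map_zero _
  · rw [fderiv_fst' b h0, fderiv_fst' b h1]
    exact hv1
  · rw [fderiv_snd' a hz, fderiv_snd' a ho]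
    exact hv2

end Prod

/-! ### the centres -/

section Centres

variable {k t0 t1 d r z o e : ℂ}

/-- **the six cases of centres**: which coordinates vanish and which do not; in particular the
other section does not vanish in the cases (Q), (T), (S), (S') -/
theorem Pt.cases (P : Pt k t0 t1 d r z o e) (hc : Cen k t0 t1 d r z o e) :
    (t1 = 0 ∧ o = 0 ∧ t0 ≠ 0 ∧ z ≠ 0 ∧ d ≠ 0 ∧ r ≠ 0 ∧ e ≠ 0 ∧ sM t0 t1 z o = 0 ∧
      sN k t0 t1 d z o = 0) ∨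
    (t0 = 0 ∧ z = 0 ∧ t1 ≠ 0 ∧ o ≠ 0 ∧ d ≠ 0 ∧ r ≠ 0 ∧ e ≠ 0 ∧ sM t0 t1 z o = 0 ∧
      sN k t0 t1 d z o ≠ 0) ∨
    (o = 0 ∧ d = 0 ∧ t0 ≠ 0 ∧ t1 ≠ 0 ∧ z ≠ 0 ∧ r ≠ 0 ∧ e ≠ 0 ∧ sM t0 t1 z o ≠ 0 ∧
      sN k t0 t1 d z o = 0) ∨
    (o = 0 ∧ t0 = 0 ∧ t1 ≠ 0 ∧ z ≠ 0 ∧ d ≠ 0 ∧ r ≠ 0 ∧ e ≠ 0 ∧ sM t0 t1 z o ≠ 0 ∧
      sN k t0 t1 d z o = 0) ∨
    (d = 0 ∧ e = 0 ∧ t0 ≠ 0 ∧ t1 ≠ 0 ∧ z ≠ 0 ∧ o ≠ 0 ∧ r ≠ 0 ∧ sM t0 t1 z o = 0 ∧
      sN k t0 t1 d z o ≠ 0) ∨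
    (r = 0 ∧ e = 0 ∧ t0 ≠ 0 ∧ t1 ≠ 0 ∧ z ≠ 0 ∧ o ≠ 0 ∧ d ≠ 0 ∧ sM t0 t1 z o ≠ 0 ∧
      sN k t0 t1 d z o = 0) := by
  have hC := P.hC
  have hR := P.hR
  have hF := P.hF
  have hI2 : I ^ 2 = -1 := I_sq
  have hk := P.k0
  -- auxiliary facts
  have n1 : t0 = 0 → t1 ≠ 0 := fun h h' => P.ht ⟨h, h'⟩
  have n2 : z = 0 → o ≠ 0 := fun h h' => P.hz ⟨h, h'⟩
  have n3 : o = 0 → z ≠ 0 := fun h h' => P.hz ⟨h', h⟩
  have n4 : t1 = 0 → t0 ≠ 0 := fun h h' => P.ht ⟨h', h⟩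
  have n5 : o = 0 → e ≠ 0 := by
    intro h he
    rw [h, he] at hF
    exact n3 h (pow0 (n := 8) (by norm_num) (by linear_combination -hF))
  have n6 : z = 0 → e ≠ 0 := by
    intro h he
    rw [h, he] at hF
    exact n2 h (pow0 (n := 8) (by norm_num) (by linear_combination hF))
  have n7 : t0 = 0 → d ≠ 0 := by
    intro h he
    rw [h, he] at hC
    exact n1 h (pow0 (n := 16) (by norm_num) (by linear_combination hC))
  have n8 : t1 = 0 → d ≠ 0 := by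
    intro h he
    rw [h, he] at hC
    exact n4 h (pow0 (n := 16) (by norm_num) (by linear_combination -hC))
  have n9 : t0 = 0 → r ≠ 0 := by
    intro h he
    rw [h, he] at hR
    exact n1 h (pow0 (n := 8) (by norm_num) (by linear_combination -hR))
  have n10 : t1 = 0 → r ≠ 0 := by
    intro h he
    rw [h, he] at hR
    have h6 : I * t0 ^ 8 = 0 := by linear_combination -hR
    exact n4 h (pow0 (n := 8) (by norm_num) ((mul_eq_zero.1 h6).resolve_left I_ne_zero))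
  have n11 : d = 0 → r ≠ 0 := by
    intro h he
    rw [h] at hC
    rw [he] at hR
    have h7 : 2 * t0 ^ 16 = 0 := by
      linear_combination -hC + (t1 ^ 8 - I * t0 ^ 8) * (-hR) + t0 ^ 16 * hI2
    have h8 : t0 = 0 := pow0 (by norm_num) ((mul_eq_zero.1 h7).resolve_left two_ne_zero)
    exact n7 h8 h
  rcases hc with ⟨h1, h2⟩ | ⟨h1, h2⟩ | ⟨h1, h2 | h2⟩ | ⟨h1, h2, h3⟩ | ⟨h1, h2, h3⟩
  · left
    exact ⟨h1, h2, n4 h1, n3 h2, n8 h1, n10 h1, n5 h2, by unfold sM; rw [h1, h2]; ring,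
      by unfold sN; rw [h1, h2]; ring⟩
  · right; left
    refine ⟨h1, h2, n1 h1, n2 h2, n7 h1, n9 h1, n6 h2, by unfold sM; rw [h1, h2]; ring, ?_⟩
    unfold sN
    rw [h1, h2]
    intro h
    exact mul_ne_zero (pow_ne_zero 2 (n2 h2)) (pow_ne_zero 8 (n1 h1)) (by linear_combination h)
  · right; right; right; left
    refine ⟨h1, h2, n1 h2, n3 h1, n7 h2, n9 h2, n5 h1, ?_, by unfold sN; rw [h1, h2]; ring⟩
    unfold sM
    rw [h1, h2]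
    intro h
    exact mul_ne_zero (pow_ne_zero 2 (n3 h1)) (pow_ne_zero 4 (n1 h2)) (by linear_combination -h)
  · right; right; left
    have t0' : t0 ≠ 0 := fun h => n7 h h2
    have t1' : t1 ≠ 0 := fun h => n8 h h2
    refine ⟨h1, h2, t0', t1', n3 h1, n11 h2, n5 h1, ?_, by unfold sN; rw [h1, h2]; ring⟩
    unfold sM
    rw [h1]
    intro h
    exact mul_ne_zero (pow_ne_zero 2 (n3 h1)) (pow_ne_zero 4 t1') (by linear_combination -h)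
  · right; right; right; right; left
    have t0' : t0 ≠ 0 := fun h => n7 h h1
    have t1' : t1 ≠ 0 := fun h => n8 h h1
    have z' : z ≠ 0 := fun h => n6 h h2
    have o' : o ≠ 0 := fun h => n5 h h2
    exact ⟨h1, h2, t0', t1', z', o', n11 h1, h3, fun h => n11 h1 (P.r_of h2 h)⟩
  · right; right; right; right; right
    have t0' : t0 ≠ 0 := fun h => n9 h h1
    have t1' : t1 ≠ 0 := fun h => n10 h h1
    have z' : z ≠ 0 := fun h => n6 h h2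
    have o' : o ≠ 0 := fun h => n5 h h2
    exact ⟨h1, h2, t0', t1', z', o', fun h => n11 h h1, fun h => n11 (P.d_of h2 h) h1, h3⟩

end Centres

end Crest.Agent.R272.Tra3_178
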