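import Crest.Agent.R272.P1L2_426
import Crest.Agent.R272.Tra3_178

/-!
# R272 (S0414), NLOC-ASM (B) (helper426), part 0: the set of centres on `C^ × F8`

Homogeneous coordinates in the frame `s : Bool` of 590's `A1`:
`t0 s`, `t1 s`, `dl s` (`δ`), `rh s` (`ρ`) on `Ch.X`, `ze s`, `om s`, `et s` (`η`) on `F8.X`;
`Z k` : the centres ((P), (Q), (T), (S), (S')), defined by 178's `Cen` in SOME pair of frames;
`mem_Z` : in EVERY pair of frames.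
-/

set_option autoImplicit false
set_option linter.unusedSectionVars false

open Set Filter Topology Complex

namespace Crest.Agent.R272.NlB_426

open Crest.Agent.R275.Geo Crest.Agent.R275.Core144
open Crest.Agent.R273.Map_835 Crest.Agent.R273.Fam_835 Crest.Agent.R272.DCov_426
open Crest.Agent.R272.P1F_54 Crest.Agent.R272.P1L_426
open Crest.Agent.R272.P1S_590 (A1 O1 O u0 u1 O_g)

noncomputable section

/-- `t0` in the frame `s` -/
def t0 (s : Bool) (q : Ch.X) : ℂ := u0 s (pc s (Ch.p q))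
/-- `t1` in the frame `s` -/
def t1 (s : Bool) (q : Ch.X) : ℂ := u1 s (pc s (Ch.p q))
/-- `δ` in the frame `s` -/
def dl (s : Bool) (q : Ch.X) : ℂ := Ch.y 0 s q
/-- `ρ` in the frame `s` -/
def rh (s : Bool) (q : Ch.X) : ℂ := Ch.y 1 s q
/-- `ζ` in the frame `s` -/
def ze (s : Bool) (q : F8.X) : ℂ := u0 s (pc s (F8.p q))
/-- `ω` in the frame `s` -/
def om (s : Bool) (q : F8.X) : ℂ := u1 s (pc s (F8.p q))
/-- `η` in the frame `s` -/
def et (s : Bool) (q : F8.X) : ℂ := F8.y 0 s q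

/-- 178's list in the frames `s`, `s'` -/
def CenF (k : ℂ) (s s' : Bool) (q : Ch.X × F8.X) : Prop :=
  Tra3_178.Cen k (t0 s q.1) (t1 s q.1) (dl s q.1) (rh s q.1) (ze s' q.2) (om s' q.2) (et s' q.2)

/-- **the centres** -/
def Z (k : ℂ) : Set (Ch.X × F8.X) :=
  {q | ∃ s s' : Bool, Ch.p q.1 ∈ (A1.e s).source ∧ F8.p q.2 ∈ (A1.e s').source ∧ CenF k s s' q}

theorem g_ne {n : ℕ} {M : Type} [TopologicalSpace M] {A : Atl n M} (L : LB A) {i j : A.ι} {x : M}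
    (hi : x ∈ (A.e i).source) (hj : x ∈ (A.e j).source) : L.g i j x ≠ 0 := by
  intro h0
  have h1 := L.mul i j i x ⟨⟨hi, hj⟩, hi⟩
  rw [h0, zero_mul, L.self] at h1
  exact zero_ne_one h1

/-- change of frame on `C^` -/
theorem frameC {s s1 : Bool} {q : Ch.X} (hs : Ch.p q ∈ (A1.e s).source)
    (hs1 : Ch.p q ∈ (A1.e s1).source) : ∃ l : ℂ, l ≠ 0 ∧ t0 s q = l * t0 s1 q ∧
      t1 s q = l * t1 s1 q ∧ dl s q = l ^ 2 * dl s1 q ∧ rh s q = l ^ 4 * rh s1 q := by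
  refine ⟨O1.g s s1 (Ch.p q), g_ne O1 hs hs1, HP.tr0 s s1 _ ⟨hs, hs1⟩, HP.tr1 s s1 _ ⟨hs, hs1⟩, ?_, ?_⟩
  · have h := Ch.y_tr 0 hs hs1
    have h2 : (Ch.L 0).g s s1 (Ch.p q) = O1.g s s1 (Ch.p q) ^ 2 := O_g 2 s s1 _
    rw [h2] at h
    exact h
  · have h := Ch.y_tr 1 hs hs1
    have h2 : (Ch.L 1).g s s1 (Ch.p q) = O1.g s s1 (Ch.p q) ^ 4 := O_g 4 s s1 _
    rw [h2] at h
    exact h

/-- change of frame on `F8` -/
theorem frameF {s s1 : Bool} {q : F8.X} (hs : F8.p q ∈ (A1.e s).source)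
    (hs1 : F8.p q ∈ (A1.e s1).source) : ∃ l : ℂ, l ≠ 0 ∧ ze s q = l * ze s1 q ∧
      om s q = l * om s1 q ∧ et s q = l * et s1 q := by
  refine ⟨O1.g s s1 (F8.p q), g_ne O1 hs hs1, HP.tr0 s s1 _ ⟨hs, hs1⟩, HP.tr1 s s1 _ ⟨hs, hs1⟩, ?_⟩
  have h := F8.y_tr 0 hs hs1
  have h2 : (F8.L 0).g s s1 (F8.p q) = O1.g s s1 (F8.p q) := by
    have h3 : (F8.L 0).g s s1 (F8.p q) = O1.g s s1 (F8.p q) ^ 1 := O_g 1 s s1 _
    rw [h3, pow_one]
  rw [h2] at h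
  exact h

/-- `Cen` is homogeneous -/
theorem cen_smul {k a0 a1 d r z o e l m : ℂ} (hl : l ≠ 0) (hm : m ≠ 0) :
    Tra3_178.Cen k (l * a0) (l * a1) (l ^ 2 * d) (l ^ 4 * r) (m * z) (m * o) (m * e) ↔
      Tra3_178.Cen k a0 a1 d r z o e := by
  have hM : Tra3_178.sM (l * a0) (l * a1) (m * z) (m * o) =
      (l ^ 4 * m ^ 2) * Tra3_178.sM a0 a1 z o := by
    unfold Tra3_178.sM
    ring
  have hN : Tra3_178.sN k (l * a0) (l * a1) (l ^ 2 * d) (m * z) (m * o) =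
      (l ^ 8 * m ^ 2) * Tra3_178.sN k a0 a1 d z o := by
    unfold Tra3_178.sN
    ring
  have h1 : l ^ 4 * m ^ 2 ≠ 0 := mul_ne_zero (pow_ne_zero _ hl) (pow_ne_zero _ hm)
  have h2 : l ^ 8 * m ^ 2 ≠ 0 := mul_ne_zero (pow_ne_zero _ hl) (pow_ne_zero _ hm)
  unfold Tra3_178.Cen
  rw [hM, hN]
  simp only [mul_eq_zero, hl, hm, h1, h2, pow_eq_zero_iff, ne_eq, OfNat.ofNat_ne_zero,
    not_false_eq_true, false_or]

/-- **the centres in every pair of frames** -/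
theorem mem_Z {k : ℂ} {s s' : Bool} {q : Ch.X × F8.X} (hs : Ch.p q.1 ∈ (A1.e s).source)
    (hs' : F8.p q.2 ∈ (A1.e s').source) : q ∈ Z k ↔ CenF k s s' q := by
  constructor
  · rintro ⟨r, r', hr, hr', h⟩
    obtain ⟨l, hl, e0, e1, e2, e3⟩ := frameC hr hs
    obtain ⟨m, hm, f0, f1, f2⟩ := frameF hr' hs'
    unfold CenF at h ⊢
    rw [e0, e1, e2, e3, f0, f1, f2, cen_smul hl hm] at h
    exact h
  · intro h
    exact ⟨s, s', hs, hs', h⟩

/-- the equations -/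
theorem pt {k : ℂ} (hk : k ^ 4 = 8 * I) {s s' : Bool} {q : Ch.X × F8.X}
    (hs : Ch.p q.1 ∈ (A1.e s).source) (hs' : F8.p q.2 ∈ (A1.e s').source) :
    Tra3_178.Pt k (t0 s q.1) (t1 s q.1) (dl s q.1) (rh s q.1) (ze s' q.2) (om s' q.2)
      (et s' q.2) where
  hk := hk
  ht h := HP.ne s _ hs h.1 h.2
  hz h := HP.ne s' _ hs' h.1 h.2
  hC := Ch_y0 hs
  hR := Ch_y1 hs
  hF := F8_y hs'

end

end Crest.Agent.R272.NlB_426
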