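import Crest.Agent.R272.Nl2_595
import Crest.Agent.R272.NPos2_102
import Crest.Agent.R272.NlB0_426
import Crest.Agent.R272.Asm2_102

/-!
# R272 (S0414), NLOC-ASM (helper595), part 3: the shape of the local analysis on `N = C^ × F8`

* `NLoc k`    : centres `Z k` of 426, nodes, admissibility, normal crossings off the centres;
* `NLoc.D`    : `DCov_426.Data` over the double blow-up (102's `asm`), `NLoc.pos` : positive bundle.
-/

set_option autoImplicit false
set_option linter.unusedSectionVars false

open Set Filter Topology Complex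

namespace Crest.Agent.R272.Nl_595

open Crest.Agent.R275.Geo Crest.Agent.R275.Core144 Crest.Agent.R275.Prod363
open Crest.Agent.R273.Defs_333 Crest.Agent.R273.Map_835 Crest.Agent.R273.PB_835
open Crest.Agent.R273.Fam_835
open Crest.Agent.R272.DCov_426 Crest.Agent.R272.BlA_266 Crest.Agent.R272.Adp_409
open Crest.Agent.R272.Asm2_102 Crest.Agent.R272.Blup1_102
open Crest.Agent.R272.P1L_426 (Ch F8)

noncomputable section

/-- the local analysis of the two sections at all points of `N` -/
structure NLoc (k : ℂ) where
  fin : (NlB_426.Z k).Finite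
  N : ∀ x : NlB_426.Z k, Node (PN k) (x : Ch.X × F8.X)
  adm : ∀ x, Adm (N x).sh
  off : ∀ x, x ∉ NlB_426.Z k → (PN k).Snc x

namespace NLoc

variable {k : ℂ} (h : NLoc k)

/-- the first centres -/
abbrev C1 : Ctr (nodeCen h.N).adp := D1 (PN k) h.fin h.N

/-- the second centres -/
abbrev C2 : Ctr h.C1.atl := D2 (PN k) h.fin h.N

/-- **the data of the surface** -/
def D : DCov_426.Data h.C2.atl (Fin 2) := asm (PN k) (PN_k k) h.fin h.N h.adm h.off

@[simp] theorem D_k (a : Fin 2) : h.D.k a = 2 := PN_k k a

include h in
theorem pos : ∃ (L : LB h.C2.atl) (g : HM L), g.Pos :=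
  pos_asm (PN k) h.fin h.N NPos_102.hposN

end NLoc

end

end Crest.Agent.R272.Nl_595
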