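import Crest.Agent.R272.NlB2_426
import Crest.Agent.R272.Ne0_595
import Crest.Agent.R272.Nl3_595

/-!
# R272 (S0414), the instance of the curves (helper760), part 1: the value of the coefficient of `s_N`

* `cformV`, `node_formV` : 409's centred form of a node with the VALUE of the coefficient;
* `ty_P0`  : the special centre `P0` (595) has type `P` (426);
* `hN_P0`  : at `P0` the section `s_N` is `U (v₁² - v₀² c)` with `c 0 = g0 k ^ 2`.
-/

set_option autoImplicit false
set_option linter.unusedSectionVars false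

open Set Filter Topology Complex

namespace Crest.Agent.R272.CycI_760

open Crest.Agent.R275.Geo Crest.Agent.R275.Core144 Crest.Agent.R275.Prod363
open Crest.Agent.R273.Map_835 Crest.Agent.R273.Fam_835 Crest.Agent.R273.PB_835
open Crest.Agent.R272.DCov_426
open Crest.Agent.R272.Quot_783 Crest.Agent.R272.Root_83 Crest.Agent.R272.Adp_409
open Crest.Agent.R272.Blup1_102 Crest.Agent.R272.BlA_266 Crest.Agent.R272.Asm2_102
open Crest.Agent.R273.Defs_333 Crest.Agent.R272.Refl_246 Crest.Agent.R275.GC293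

noncomputable section

/-- the form `(2, 2)` with the value of the coefficient -/
def FormV (γ : ℂ) (φ : Cn 2 → ℂ) : Prop :=
  ∃ U c : Cn 2 → ℂ, DifferentiableAt ℂ U 0 ∧ DifferentiableAt ℂ c 0 ∧ U 0 ≠ 0 ∧ c 0 = γ ^ 2 ∧
    ∀ᶠ v in 𝓝 0, φ v = U v * (v 1 ^ 2 - v 0 ^ 2 * c v)

/-- the form `(2, 2)` in the centred coordinates of a chart, with the value of the coefficient -/
theorem cformV {M : Type} [TopologicalSpace M] {C : Fam 2 M} {x : M}
    {φ T S U c : M → ℂ} {γ : ℂ} (hU : HG C x U) (hc : HG C x c) (hU0 : U x ≠ 0)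
    (hc0 : c x = γ ^ 2) (h1 : ∀ᶠ y in 𝓝 x, φ y = U y * (S y ^ 2 - T y ^ 2 * c y))
    {e : OpenPartialHomeomorph M (Cn 2)} (he : Cpt C e) (hx : x ∈ e.source) {R : ℂ} (hR : R ≠ 0)
    (hT : ∀ᶠ y in 𝓝 x, T y = R * (e y - e x) 0) (hS : ∀ᶠ y in 𝓝 x, S y = R * (e y - e x) 1) :
    FormV γ fun v => φ (e.symm (e x + v)) := by
  have ha : AnalyticAt ℂ (fun v : Cn 2 => e x + v) 0 := by fun_prop
  have h0 : e.symm (e x + 0) = x := by rw [add_zero, e.left_inv hx]
  refine ⟨fun v => R ^ 2 * U (e.symm (e x + v)), fun v => c (e.symm (e x + v)), ?_, ?_, ?_, ?_, ?_⟩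
  · refine (analyticAt_const.mul ?_).differentiableAt
    have h2 := HG.analyticAt hU he hx
    exact AnalyticAt.fun_comp (g := fun z => U (e.symm z)) (f := fun v : Cn 2 => e x + v)
      (by rw [add_zero]; exact h2) ha
  · refine AnalyticAt.differentiableAt ?_
    have h2 := HG.analyticAt hc he hx
    exact AnalyticAt.fun_comp (g := fun z => c (e.symm z)) (f := fun v : Cn 2 => e x + v)
      (by rw [add_zero]; exact h2) ha
  · simp only [h0]
    exact mul_ne_zero (pow_ne_zero 2 hR) hU0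
  · simp only [h0]
    exact hc0
  · have ht : Tendsto (fun v : Cn 2 => e.symm (e x + v)) (𝓝 0) (𝓝 x) := by
      have h2 : ContinuousAt e.symm (e x) := e.continuousAt_symm (e.map_source hx)
      have h3 : ContinuousAt (fun v : Cn 2 => e.symm (e x + v)) 0 :=
        ContinuousAt.comp (g := e.symm) (f := fun v : Cn 2 => e x + v)
          (by rw [add_zero]; exact h2) ha.continuousAt
      have h4 := h3.tendsto
      rwa [h0] at h4
    have htt : ∀ᶠ v : Cn 2 in 𝓝 0, e x + v ∈ e.target := by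
      refine ha.continuousAt.eventually (e.open_target.mem_nhds ?_)
      show e x + 0 ∈ e.target
      rw [add_zero]
      exact e.map_source hx
    filter_upwards [ht.eventually h1, ht.eventually hT, ht.eventually hS, htt] with v h2 h3 h4 h5
    rw [h2, h3, h4, e.right_inv h5, add_sub_cancel_left]
    ring

section Node

variable {M : Type} [TopologicalSpace M] [T2Space M] {A : Atl 2 M} {ρ : Type} {P : PD A ρ}
  {Z : Set M} (hZ : Z.Finite) (N : ∀ x : Z, Node P (x : M))

/-- the form at a node in the centred coordinates, with the value of the coefficient -/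
theorem node_formV (s : Z) (a : ρ) {i : A.ι} (hi : (s : M) ∈ (A.e i).source)
    {U c : M → ℂ} {γ : ℂ} (hU : HG (fam A) (s : M) U) (hc : HG (fam A) (s : M) c)
    (hU0 : U (s : M) ≠ 0) (hc0 : c (s : M) = γ ^ 2)
    (h1 : ∀ᶠ y in 𝓝 (s : M), P.s a i y = U y * ((N s).S y ^ 2 - (N s).T y ^ 2 * c y)) :
    FormV γ ((D1 P hZ N).phi (((nodeCen N).pd P).s a) s) := by
  set K := nodeCen N with hK
  have hps : (s : M) ∈ (K.c s).source := K.p_mem s
  have hi0 : (s : M) ∈ (A.e (K.i0 s)).source := K.source_sub s hps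
  have h2 : ∀ᶠ y in 𝓝 (s : M), P.s a (K.i0 s) y =
      ((P.L a ^ P.k a).g (K.i0 s) i y * U y) * ((N s).S y ^ 2 - (N s).T y ^ 2 * c y) := by
    filter_upwards [h1, (A.e i).open_source.mem_nhds hi,
      (A.e (K.i0 s)).open_source.mem_nhds hi0] with y h3 h4 h5
    rw [(P.hs a).tr (K.i0 s) i y ⟨h5, h4⟩ (mem_univ _), h3, mul_assoc]
  have h3 := cformV (T := (N s).T) (S := (N s).S) ((hg_g (P.L a ^ P.k a) hi0 hi).mul hU) hc
    (mul_ne_zero ((P.L a ^ P.k a).ne_zero _ _ _) hU0) hc0 h2 (K.cptc s) hps (nodeR_ne N s) (by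
    filter_upwards [(K.c s).open_source.mem_nhds hps] with x hx
    exact nodeCen_T N s hx) (by
    filter_upwards [(K.c s).open_source.mem_nhds hps] with x hx
    exact nodeCen_S' N s hx)
  obtain ⟨U', c', hU', hc', hU0', hc0', h4⟩ := h3
  refine ⟨U', c', hU', hc', hU0', hc0', ?_⟩
  have h5 : ∀ᶠ v : Cn 2 in 𝓝 0, K.c s (s : M) + v ∈ (K.c s).target := by
    have h6 : ContinuousAt (fun v : Cn 2 => K.c s (s : M) + v) 0 := by fun_prop
    refine h6.eventually ((K.c s).open_target.mem_nhds ?_)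
    show K.c s (s : M) + 0 ∈ (K.c s).target
    have h7 := (K.c s).map_source hps
    rwa [← add_zero (K.c s (s : M))] at h7
  filter_upwards [h4, h5] with v h6 h7
  rw [← h6]
  exact K.up_of_mem (i := Sum.inr s) (P.s a) ((K.c s).map_target h7)

end Node

/-! ### the special centre -/

section P0

open Crest.Agent.R272.P1L_426 (Ch F8)
open Crest.Agent.R272.P1S_590 (A1 u0_false u1_false)
open Crest.Agent.R272.NlB_426 Crest.Agent.R272.Nl_595 Crest.Agent.R272.Ne_595

variable {k : ℂ}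

/-- the special centre as a centre -/
def c0 (k : ℂ) : Z k := ⟨P0, mem_P0 k⟩

theorem not_src_p1 : Ch.p p1 ∉ (A1.e true).source := by
  intro h
  have h1 := P1S_590.mem_src_pt (a0 := 1) (a1 := 0) (Or.inl one_ne_zero) (s := true)
  rw [rep_p1.p] at h
  have h2 := h1.1 h
  simp at h2
  norm_num at h2

/-- the type of the special centre -/
theorem ty_P0 (hk : k ^ 4 = 8 * I) : ty hk (c0 k) = .P := by
  have h := is_ty hk (c0 k)
  have hd : dl false p1 ≠ 0 := by
    intro h0
    have h1 := dl_p1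
    rw [h0] at h1
    norm_num at h1
  have hr : rh false p1 ≠ 0 := by
    intro h0
    have h1 := rh_p1
    rw [h0] at h1
    norm_num at h1
    exact I_ne_zero h1.symm
  have m1 := h.m1
  have t0 := h.T0
  generalize ty hk (c0 k) = y at m1 t0
  cases y
  · rfl
  · exact absurd m1 not_src_p1
  · exact absurd t0 hd
  · exact absurd m1 not_src_p1
  · exact absurd t0 hd
  · exact absurd t0 hr

theorem sh_P0 (hk : k ^ 4 = 8 * I) : (node hk (c0 k)).sh = ![.tac, .star 1] := by
  rw [node_sh, ty_P0 hk]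
  rfl

theorem T_P0 (hk : k ^ 4 = 8 * I) : (node hk (c0 k)).T = fun q => t1 false q.1 := by
  rw [node_T, ty_P0 hk]
  rfl

theorem S_P0 (hk : k ^ 4 = 8 * I) : (node hk (c0 k)).S = fun q => om false q.2 := by
  rw [node_S, ty_P0 hk]
  rfl

/-- **the form of `s_N` at the special centre, with the value `g0 k ^ 2` of the coefficient** -/
theorem hN_P0 (hk : k ^ 4 = 8 * I) (hZ : (Z k).Finite) :
    FormV (g0 k) ((D1 (PN k) hZ (node hk)).phi (((nodeCen (node hk)).pd (PN k)).s 1) (c0 k)) := by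
  obtain ⟨i, hi, hri⟩ := exists_chart Ch src_p1
  obtain ⟨j, hj, hrj⟩ := exists_chart F8 src_p2
  have hP : NF_140.Pt (fam (Ch.atlX.prod F8.atlX)) (p1, p2)
    (fun q => t1 false q.1) (fun q => dl false q.1) (fun q => rh false q.1) :=
      ptC (AC := Ch.atlX) (AF := F8.atlX) Ch.cmp_atlX (b := p2) src_p1
  have hU : HG (fam (Ch.atlX.prod F8.atlX)) (p1, p2)
      (fun q : Ch.X × F8.X => t1 false q.1 ^ 8 - I) := NF_140.hg_tI hP.ht
  have hU0 : (fun q : Ch.X × F8.X => t1 false q.1 ^ 8 - I) (p1, p2) ≠ 0 := by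
    show t1 false p1 ^ 8 - I ≠ 0
    rw [t1_p1]
    norm_num
  have hd : HG (fam (Ch.atlX.prod F8.atlX)) (p1, p2) (fun q : Ch.X × F8.X => dl false q.1) := hP.hd
  have hcc : HG (fam (Ch.atlX.prod F8.atlX)) (p1, p2) (fun q : Ch.X × F8.X =>
      k * dl false q.1 ^ 2 * (t1 false q.1 ^ 8 - I)⁻¹) :=
    ((HG.const k).mul (hd.pow 2)).mul (hU.inv hU0)
  refine node_formV hZ (node hk) (c0 k) 1 (i := (i, j)) ⟨hi, hj⟩ hU hcc hU0 ?_ ?_
  · show k * dl false p1 ^ 2 * (t1 false p1 ^ 8 - I)⁻¹ = _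
    rw [t1_p1, dl_p1, g0_sq]
    have : (0 : ℂ) ^ 8 - I = -I := by norm_num
    rw [this, inv_neg, inv_I]
    ring
  · rw [T_P0 hk, S_P0 hk]
    have h1 : ∀ᶠ y : Ch.X × F8.X in 𝓝 (p1, p2), t1 false y.1 ^ 8 - I ≠ 0 :=
      hU.continuousAt.eventually_ne hU0
    filter_upwards [ev_sN (k := k) hi hj hri hrj, h1] with y hy hy0
    refine hy.trans ?_
    simp only [Tra3_178.sN, t0_false, ze_false]
    field_simp

end P0

end

end Crest.Agent.R272.CycI_760
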