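import Crest.Agent.R272.Main14_414
import Crest.Agent.R272.Gm3_235

/-!
# R272, S14-ASM (helper414): the end game of S0414 on the surface `X`

`s14_fin` : any compact T2 surface `X` with `ProjD`, `CurvesOn`, discs, square classes, slope dichotomy, the four
functions `NearD` of helper235 and the four arcs `ArcX` ⟹ S0414.
`s14_main` : the same on the literal model `M : NLoc k`.
-/

set_option autoImplicit false
set_option linter.unusedSectionVars false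

open Set Filter Topology
open scoped unitInterval

namespace Crest.Agent.R272.Main14_414

open Crest.Agent.R275.Geo Crest.Agent.R275.Core144 Crest.Agent.R273.Fam_835 Crest.Agent.R273.Map_835
open Crest.Agent.R275.GC293
open Crest.Agent.R273.Defs_333 Crest.Agent.R273.HM_333
open Root_83 UnB_894 LbExt_259 Gm2_235 Gm3_235 Top14_414 Wall4_275 DCov_426 Blup1_102 G14a_414
open Dt14_414 BlA_266 Adp_409 Asm2_102 CpRat423 Nl_595 P1L_426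

noncomputable section

variable {B C : Type} [TopologicalSpace B] [TopologicalSpace C] {AB : Atl 1 B} {AC : Atl 1 C}
  {h g : B → C} {z0 : B} {w0 : C}

/-- the slope dichotomy on the data of the discs -/
theorem slD_dat {X : Type} [TopologicalSpace X] {n : ℕ} {CX : Fam n X} {π1 : X → B} {π2 : X → C}
    (S : Discs AB AC h g z0 w0) (s : Sq14 CX AB AC h g z0 w0 π1 π2) {f1 : B → ℂ} {f2 : C → ℂ}
    (L : SlD CX AB AC (fun x => (π1 x, π2 x)) z0 w0 f1 f2) :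
    SlD CX AB AC (S.dat s).π ((S.dat s).q o) ((S.dat s).p o) f1 f2 := by
  have h1 : (S.dat s).q o = z0 := S.qo
  have h2 : (S.dat s).p o = w0 := S.po
  rw [h1, h2]
  exact L

/-- **the end game of S0414 on the surface** -/
theorem s14_fin {X : Type} [TopologicalSpace X] [T2Space X] [CompactSpace X] {CX : Fam 2 X}
    {A' : Atl 2 X} [Finite A'.ι] (hcmp : Cmp CX A') (PA : Part A') (P : ProjD A')
    (S : Discs AB AC h g z0 w0) {π1 : X → B} {π2 : X → C}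
    (s : Sq14 CX AB AC h g z0 w0 π1 π2) {Z : Set X} (hcv : CurvesOn CX Z)
    {f1 : B → ℂ} {f2 : C → ℂ} (L : SlD CX AB AC (fun x => (π1 x, π2 x)) z0 w0 f1 f2)
    {γ0 : ℂ} {Sf T0 RM RN : X → ℂ} (N : NearD (S.dat s) f1 f2 γ0 Z Sf T0 RM RN)
    {z₀ z₁ z₂ z₃ : Z} (k₁ : Path z₀ z₁) (r₁ : Path z₁ z₂) (k₂ : Path z₂ z₃) (r₂ : Path z₃ z₀)
    (hk₁ : ArcX γ0 Sf T0 RM RN k₁) (hk₂ : ArcX γ0 Sf T0 RM RN k₂)
    (hr₁ : ∀ t, Rat T0 Sf (r₁ t : X) 0) (hr₂ : ∀ t, Rat T0 Sf (r₂ t : X) 0) : S14 := by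
  have D : DiscD AB AC (S.dat s).q (S.dat s).p (S.dat s).h (S.dat s).g (S.dat s).F := S.discD
  obtain ⟨R, hR, hRc, w₀, w₁, w₂, w₃, k₁', r₁', k₂', r₂', hk₁', hk₂', hr₁', hr₂'⟩ :=
    wall_paths D N k₁ r₁ k₂ r₂ hk₁ hk₂ hr₁ hr₂
  exact s14_gen hcmp PA P hcv (S.dat s).cov_fst ((S.dat s).bd D.hle) ((S.dat s).rsB D.hle)
    (loc14 (S.dat s) D (slD_dat S s L)) (Zh := Zh (S.dat s) Z) (fun y hy => Zh_bd D hy)
    (fun y hy => hy.1) R hR hRc k₁' r₁' k₂' r₂' hk₁' hk₂' hr₁' hr₂'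

/-- helper235's `NearD` without the discs: everything in terms of `z0`, `w0`, `h`, `g`, `π1`, `π2` -/
structure NearX {X : Type} [TopologicalSpace X] {n : ℕ} (CX : Fam n X) (AB : Atl 1 B) (AC : Atl 1 C)
    (h g : B → C) (z0 : B) (w0 : C) (π1 : X → B) (π2 : X → C) (f1 : B → ℂ) (f2 : C → ℂ) (γ0 : ℂ)
    (Z : Set X) (S T0 RM RN : X → ℂ) : Prop where
  lc1 : UnB_894.LC AB z0 f1
  lc2 : UnB_894.LC AC w0 f2
  f1z : f1 z0 = 0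
  f2w : f2 w0 = 0
  ne : γ0 ≠ 0
  he : ∃ e : B → ℂ, HG (fam AB) z0 e ∧ e z0 = γ0 ^ 2 ∧ ∀ᶠ z in 𝓝 z0, f2 (g z) = f1 z * e z
  hZ : ∀ x ∈ Z, π1 x = z0 ∧ π2 x = w0
  hS : ∀ x ∈ Z, HG CX x S
  hT : ∀ x ∈ Z, HG CX x T0
  hM : ∀ x ∈ Z, HG CX x RM
  hN : ∀ x ∈ Z, HG CX x RN
  sS : ∀ x ∈ Z, ∀ᶠ z in 𝓝 x, S z ^ 2 = f2 (π2 z)
  sT : ∀ x ∈ Z, ∀ᶠ z in 𝓝 x, T0 z ^ 2 = f1 (π1 z)
  sM : ∀ x ∈ Z, ∀ᶠ z in 𝓝 x, RM z ^ 2 = f2 (π2 z) - f2 (h (π1 z))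
  sN : ∀ x ∈ Z, ∀ᶠ z in 𝓝 x, RN z ^ 2 = f2 (π2 z) - f2 (g (π1 z))

theorem NearX.nearD {X : Type} [TopologicalSpace X] {n : ℕ} {CX : Fam n X} {π1 : X → B} {π2 : X → C}
    (S : Discs AB AC h g z0 w0) (s : Sq14 CX AB AC h g z0 w0 π1 π2) {f1 : B → ℂ} {f2 : C → ℂ}
    {γ0 : ℂ} {Z : Set X} {Sf T0 RM RN : X → ℂ}
    (N : NearX CX AB AC h g z0 w0 π1 π2 f1 f2 γ0 Z Sf T0 RM RN) :
    NearD (S.dat s) f1 f2 γ0 Z Sf T0 RM RN := by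
  have h1 : (S.dat s).q o = z0 := S.qo
  have h2 : (S.dat s).p o = w0 := S.po
  refine ⟨?_, ?_, ?_, ?_, N.ne, ?_, ?_, N.hS, N.hT, N.hM, N.hN, N.sS, N.sT, N.sM, N.sN⟩
  · rw [h1]; exact N.lc1
  · rw [h2]; exact N.lc2
  · rw [h1]; exact N.f1z
  · rw [h2]; exact N.f2w
  · rw [h1]; exact N.he
  · intro x hx
    rw [h1, h2]
    obtain ⟨h3, h4⟩ := N.hZ x hx
    exact Prod.ext h3 h4

variable {k : ℂ} (M : NLoc k)

/-- **S0414 on the literal model**, everything stated on the surface `M.D.X` -/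
theorem s14_main (S : Discs AB AC h g z0 w0) {π1 : M.D.X → B} {π2 : M.D.X → C}
    (s : Sq14 M.D.famX AB AC h g z0 w0 π1 π2) {Z : Set M.D.X} (hcv : CurvesOn M.D.famX Z)
    {f1 : B → ℂ} {f2 : C → ℂ} (L : SlD M.D.famX AB AC (fun x => (π1 x, π2 x)) z0 w0 f1 f2)
    {γ0 : ℂ} {Sf T0 RM RN : M.D.X → ℂ} (N : NearD (S.dat s) f1 f2 γ0 Z Sf T0 RM RN)
    {z₀ z₁ z₂ z₃ : Z} (k₁ : Path z₀ z₁) (r₁ : Path z₁ z₂) (k₂ : Path z₂ z₃) (r₂ : Path z₃ z₀)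
    (hk₁ : ArcX γ0 Sf T0 RM RN k₁) (hk₂ : ArcX γ0 Sf T0 RM RN k₂)
    (hr₁ : ∀ t, Rat T0 Sf (r₁ t : M.D.X) 0) (hr₂ : ∀ t, Rat T0 Sf (r₂ t : M.D.X) 0) : S14 := by
  obtain ⟨hX1, hX2, A', hcmp, -, hF, -, ⟨PA⟩, ⟨P⟩⟩ := Middle_414.mid' M.D M.pos
  exact s14_fin hcmp PA P S s hcv L N k₁ r₁ k₂ r₂ hk₁ hk₂ hr₁ hr₂

/-- **S0414 on the literal model**, without discs in the hypotheses on the surface -/
theorem s14_mainX (hS : Nonempty (Discs AB AC h g z0 w0)) {π1 : M.D.X → B} {π2 : M.D.X → C}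
    (s : Sq14 M.D.famX AB AC h g z0 w0 π1 π2) {Z : Set M.D.X} (hcv : CurvesOn M.D.famX Z)
    {f1 : B → ℂ} {f2 : C → ℂ} (L : SlD M.D.famX AB AC (fun x => (π1 x, π2 x)) z0 w0 f1 f2)
    {γ0 : ℂ} {Sf T0 RM RN : M.D.X → ℂ}
    (N : NearX M.D.famX AB AC h g z0 w0 π1 π2 f1 f2 γ0 Z Sf T0 RM RN)
    {z₀ z₁ z₂ z₃ : Z} (k₁ : Path z₀ z₁) (r₁ : Path z₁ z₂) (k₂ : Path z₂ z₃) (r₂ : Path z₃ z₀)
    (hk₁ : ArcX γ0 Sf T0 RM RN k₁) (hk₂ : ArcX γ0 Sf T0 RM RN k₂)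
    (hr₁ : ∀ t, Rat T0 Sf (r₁ t : M.D.X) 0) (hr₂ : ∀ t, Rat T0 Sf (r₂ t : M.D.X) 0) : S14 := by
  obtain ⟨S⟩ := hS
  exact s14_main M S s hcv L (N.nearD S s) k₁ r₁ k₂ r₂ hk₁ hk₂ hr₁ hr₂

end

end Crest.Agent.R272.Main14_414
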