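import Crest.Agent.R272.Hom3_839
import Mathlib.Topology.Covering.Quotient

/-!
# R272 (S0414), helper839: the étale map `f : CC → BB` of degree 4

`f [a0 : a1 : b] = [a1⁴ - i a0⁴ : κ a0 a1 b : a1⁴ + i a0⁴]`, `κ⁴ = 8 i`
(`b⁴ = a0⁸ - a1⁸`, `Y⁴ = X0⁴ - X1⁴`), the quotient by `[a0 : a1 : b] ↦ [a0 : i^j a1 : i^{-j} b]`.
-/

set_option autoImplicit false
set_option linter.unusedSectionVars false

open Set Filter Topology Complex

namespace Crest.Agent.R272.Mf_839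

open Crest.Agent.R275.Geo Crest.Agent.R275.Core144
open Crest.Agent.R273.Fam_835 Crest.Agent.R273.Map_835
open Crest.Agent.R272.DCov_426
open Crest.Agent.R272.P1S_590 Crest.Agent.R272.Hom_839
open Crest.Agent.R272.P1L_426 (Ch F8 CC BB f16 f8 f4 g8)

noncomputable section

/-! ### the constant `κ` -/

theorem exists_kap4 : ∃ k : ℂ, k ^ 4 = 8 * I :=
  IsAlgClosed.exists_pow_nat_eq (8 * I) (by norm_num)

/-- `κ⁴ = 8 i` -/
def ka : ℂ := exists_kap4.choose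

theorem ka_pow : ka ^ 4 = 8 * I := exists_kap4.choose_spec

theorem ka_ne : ka ≠ 0 := by
  intro h
  have h1 := ka_pow
  rw [h] at h1
  have h2 : (8 : ℂ) * I ≠ 0 := mul_ne_zero (by norm_num) I_ne_zero
  exact h2 (by rw [← h1]; norm_num)

/-! ### the polynomial data -/

/-- the data of `f` -/
def Tf : HMap CC (fun _ => 2) (fun _ => f8) BB (fun _ => 1) (fun _ => f4) where
  e := 4
  b0 a0 a1 _ := a1 ^ 4 - I * a0 ^ 4
  b1 a0 a1 v := ka * a0 * a1 * v 0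
  w _ a0 a1 _ := a1 ^ 4 + I * a0 ^ 4
  diff0 := by fun_prop
  diff1 := by fun_prop
  diffw _ := by fun_prop
  hom0 c a0 a1 v := by ring
  hom1 c a0 a1 v := by ring
  homw _ c a0 a1 v := by ring
  ne a0 a1 v h hv := by
    have hv0 : v 0 ^ 4 = a0 ^ 8 - a1 ^ 8 := hv 0
    by_contra hc
    push Not at hc
    obtain ⟨h1, h2⟩ := hc
    have h3 : ka * a0 * a1 * v 0 = 0 := h2
    rcases mul_eq_zero.1 h3 with h3 | h3
    · rcases mul_eq_zero.1 h3 with h3 | h3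
      · have h0 : a0 = 0 := (mul_eq_zero.1 h3).resolve_left ka_ne
        have h4 : a1 ^ 4 = 0 := by rw [h0] at h1; simpa using h1
        rcases h with h | h
        · exact h h0
        · exact h (pow_eq_zero_iff (by norm_num) |>.1 h4)
      · have h4 : I * a0 ^ 4 = 0 := by rw [h3] at h1; simpa using h1
        have h5 : a0 ^ 4 = 0 := (mul_eq_zero.1 h4).resolve_left I_ne_zero
        rcases h with h | h
        · exact h (pow_eq_zero_iff (by norm_num) |>.1 h5)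
        · exact h h3
    · rw [h3] at hv0
      have h4 : a0 ^ 8 = a1 ^ 8 := by linear_combination -hv0
      have h5 : a1 ^ 4 = I * a0 ^ 4 := by linear_combination h1
      have h6 : a1 ^ 8 = -a0 ^ 8 := by
        have : a1 ^ 8 = (a1 ^ 4) ^ 2 := by ring
        rw [this, h5, mul_pow, I_sq]
        ring
      have h7 : (2 : ℂ) * a0 ^ 8 = 0 := by linear_combination h4 + h6
      have h8 : a0 = 0 := by
        rcases mul_eq_zero.1 h7 with h7 | h7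
        · exact absurd h7 two_ne_zero
        · exact pow_eq_zero_iff (by norm_num) |>.1 h7
      have h9 : a1 = 0 := by
        rw [h8] at h5
        have : a1 ^ 4 = 0 := by rw [h5]; ring
        exact pow_eq_zero_iff (by norm_num) |>.1 this
      rcases h with h | h
      · exact h h8
      · exact h h9
  eqn a0 a1 v _ hv _ := by
    have hv0 : v 0 ^ 4 = a0 ^ 8 - a1 ^ 8 := hv 0
    show (a1 ^ 4 + I * a0 ^ 4) ^ 4 = (a1 ^ 4 - I * a0 ^ 4) ^ 4 - (ka * a0 * a1 * v 0) ^ 4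
    have h1 : (ka * a0 * a1 * v 0) ^ 4 = 8 * I * a0 ^ 4 * a1 ^ 4 * (a0 ^ 8 - a1 ^ 8) := by
      rw [← hv0, ← ka_pow]
      ring
    rw [h1]
    have h2 : I ^ 2 = -1 := I_sq
    linear_combination (8 * I * a0 ^ 12 * a1 ^ 4) * h2

/-- **the map `f : CC → BB`** -/
def f : CC.X → BB.X := Tf.map isHom_CC isHom_BB

theorem f_rep {q : CC.X} {a0 a1 : ℂ} {v : Fin 1 → ℂ} (r : Rep CC (fun _ => 2) q a0 a1 v) :
    Rep BB (fun _ => 1) (f q) (a1 ^ 4 - I * a0 ^ 4) (ka * a0 * a1 * v 0)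
      (fun _ => a1 ^ 4 + I * a0 ^ 4) := Tf.map_rep isHom_CC isHom_BB r

theorem holC_f : HolC CC.famX BB.famX f := Tf.holC_map isHom_CC isHom_BB

theorem continuous_f : Continuous f := holC_f.cont

/-- `f` in every pair of compatible atlases -/
theorem holMap_f {A' : Atl 1 CC.X} {A : Atl 1 BB.X} (hc' : Cmp CC.famX A')
    (hc : Cmp BB.famX A) : HolMap A' A f :=
  holC_iff.1 ((hc.bwd.comp holC_f).comp hc'.fwd)

/-! ### the deck group -/

/-- the data of the deck transformation `[a0 : a1 : b] ↦ [a0 : z a1 : z³ b]`, `z⁴ = 1` -/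
def Td (z : ℂ) (hz : z ^ 4 = 1) : HMap CC (fun _ => 2) (fun _ => f8) CC (fun _ => 2) (fun _ => f8) where
  e := 1
  b0 a0 _ _ := a0
  b1 _ a1 _ := z * a1
  w _ _ _ v := z ^ 3 * v 0
  diff0 := by fun_prop
  diff1 := by fun_prop
  diffw _ := by fun_prop
  hom0 c a0 a1 v := by ring
  hom1 c a0 a1 v := by ring
  homw _ c a0 a1 v := by ring
  ne a0 a1 v h hv := by
    have hz0 : z ≠ 0 := by
      rintro rfl
      norm_num at hz
    rcases h with h | h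
    · exact Or.inl h
    · exact Or.inr (mul_ne_zero hz0 h)
  eqn a0 a1 v _ hv _ := by
    have hv0 : v 0 ^ 4 = a0 ^ 8 - a1 ^ 8 := hv 0
    show (z ^ 3 * v 0) ^ 4 = a0 ^ 8 - (z * a1) ^ 8
    have h1 : (z ^ 3 * v 0) ^ 4 = (z ^ 4) ^ 3 * v 0 ^ 4 := by ring
    have h2 : (z * a1) ^ 8 = (z ^ 4) ^ 2 * a1 ^ 8 := by ring
    rw [h1, h2, hz, hv0]
    ring

/-- the group of fourth roots of unity -/
abbrev G4 : Type := rootsOfUnity 4 ℂ

theorem g4_pow (z : G4) : ((z : ℂˣ) : ℂ) ^ 4 = 1 := by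
  have h := (_root_.mem_rootsOfUnity 4 _).1 z.2
  rw [← Units.val_pow_eq_pow_val, h, Units.val_one]

/-- the deck transformation -/
def dk (z : G4) : CC.X → CC.X := (Td ((z : ℂˣ) : ℂ) (g4_pow z)).map isHom_CC isHom_CC

theorem dk_rep (z : G4) {q : CC.X} {a0 a1 : ℂ} {v : Fin 1 → ℂ}
    (r : Rep CC (fun _ => 2) q a0 a1 v) :
    Rep CC (fun _ => 2) (dk z q) a0 (((z : ℂˣ) : ℂ) * a1) (fun _ => ((z : ℂˣ) : ℂ) ^ 3 * v 0) :=
  (Td ((z : ℂˣ) : ℂ) (g4_pow z)).map_rep isHom_CC isHom_CC r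

theorem holC_dk (z : G4) : HolC CC.famX CC.famX (dk z) :=
  (Td ((z : ℂˣ) : ℂ) (g4_pow z)).holC_map isHom_CC isHom_CC

instance : MulAction G4 CC.X where
  smul z q := dk z q
  one_smul q := by
    obtain ⟨a0, a1, v, r⟩ := isHom_CC.exists_rep q
    refine IsHom.rep_unique (dk_rep 1 r) ?_
    have h1 : (((1 : G4) : ℂˣ) : ℂ) = 1 := rfl
    have h2 : (fun _ : Fin 1 => (((1 : G4) : ℂˣ) : ℂ) ^ 3 * v 0) = v := by
      funext i
      rw [h1, Subsingleton.elim i 0]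
      ring
    rw [h2, h1, one_mul]
    exact r
  mul_smul z w q := by
    obtain ⟨a0, a1, v, r⟩ := isHom_CC.exists_rep q
    refine IsHom.rep_unique (dk_rep (z * w) r) ?_
    have h0 : (((z * w : G4) : ℂˣ) : ℂ) = ((z : ℂˣ) : ℂ) * ((w : ℂˣ) : ℂ) := rfl
    have h1 := dk_rep z (dk_rep w r)
    have h2 : (fun _ : Fin 1 => (((z * w : G4) : ℂˣ) : ℂ) ^ 3 * v 0) =
        fun _ : Fin 1 => ((z : ℂˣ) : ℂ) ^ 3 * (((w : ℂˣ) : ℂ) ^ 3 * v 0) := by
      funext i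
      rw [h0]
      ring
    rw [h2, h0, mul_assoc]
    exact h1

theorem smul_eq (z : G4) (q : CC.X) : z • q = dk z q := rfl

instance : ContinuousConstSMul G4 CC.X := ⟨fun z => (holC_dk z).cont⟩

theorem free {z : G4} {q : CC.X} (h : z • q = q) : z = 1 := by
  obtain ⟨a0, a1, v, r⟩ := isHom_CC.exists_rep q
  have h1 := dk_rep z r
  rw [← smul_eq, h] at h1
  obtain ⟨c, hc, e0, e1, e2⟩ := isHom_CC.rep_rel r h1
  have e2' : ((z : ℂˣ) : ℂ) ^ 3 * v 0 = c ^ 2 * v 0 := e2 0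
  have hv : v 0 ^ 4 = a0 ^ 8 - a1 ^ 8 := isHom_CC.rep_eqn r 0
  have hz4 := g4_pow z
  suffices hz : ((z : ℂˣ) : ℂ) = 1 by
    ext
    exact hz
  by_cases h0 : a0 = 0
  · have ha1 : a1 ≠ 0 := r.ne.resolve_left fun h => h h0
    have h2 : ((z : ℂˣ) : ℂ) = c := mul_right_cancel₀ ha1 e1
    have hv0 : v 0 ≠ 0 := by
      intro h3
      rw [h3, h0] at hv
      have h4 : a1 ^ 8 = 0 := by linear_combination hv
      exact pow_ne_zero 8 ha1 h4
    have h3 : ((z : ℂˣ) : ℂ) ^ 3 = c ^ 2 := mul_right_cancel₀ hv0 e2'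
    rw [h2] at h3 ⊢
    have h4 : c ^ 2 * (c - 1) = 0 := by linear_combination h3
    exact sub_eq_zero.1 ((mul_eq_zero.1 h4).resolve_left (pow_ne_zero 2 hc))
  · have h2 : c = 1 := by
      have h3 : (c - 1) * a0 = 0 := by linear_combination -e0
      exact sub_eq_zero.1 ((mul_eq_zero.1 h3).resolve_right h0)
    rw [h2, one_mul] at e1
    by_cases ha1 : a1 = 0
    · have hv0 : v 0 ≠ 0 := by
        intro h3
        rw [h3, ha1] at hv
        have h4 : a0 ^ 8 = 0 := by linear_combination -hv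
        exact pow_ne_zero 8 h0 h4
      have h3 : ((z : ℂˣ) : ℂ) ^ 3 = 1 := by
        rw [h2, one_pow] at e2'
        exact mul_right_cancel₀ hv0 e2'
      have h4 : ((z : ℂˣ) : ℂ) ^ 4 = ((z : ℂˣ) : ℂ) ^ 3 * ((z : ℂˣ) : ℂ) := by ring
      rw [h3, one_mul] at h4
      rw [← h4, hz4]
    · have h3 : (((z : ℂˣ) : ℂ) - 1) * a1 = 0 := by linear_combination e1
      exact sub_eq_zero.1 ((mul_eq_zero.1 h3).resolve_right ha1)

instance : IsCancelSMul G4 CC.X :=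
  isCancelSMul_iff_eq_one_of_smul_eq.2 fun _ _ h => free h

/-! ### the fibres of `f` -/

theorem f_smul (z : G4) (q : CC.X) : f (z • q) = f q := by
  obtain ⟨a0, a1, v, r⟩ := isHom_CC.exists_rep q
  have h1 := f_rep (dk_rep z r)
  have h2 := f_rep r
  have hz4 := g4_pow z
  have e0 : (((z : ℂˣ) : ℂ) * a1) ^ 4 = a1 ^ 4 := by rw [mul_pow, hz4, one_mul]
  have e1 : ka * a0 * (((z : ℂˣ) : ℂ) * a1) * (((z : ℂˣ) : ℂ) ^ 3 * v 0) = ka * a0 * a1 * v 0 := by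
    linear_combination (ka * a0 * a1 * v 0) * hz4
  rw [e0, e1] at h1
  exact IsHom.rep_unique h1 h2

/-- the fourth root of unity as an element of `G4` -/
def mkG (z : ℂ) (hz : z ^ 4 = 1) : G4 := rootsOfUnity.mkOfPowEq z hz

theorem mkG_val (z : ℂ) (hz : z ^ 4 = 1) : ((mkG z hz : ℂˣ) : ℂ) = z := rfl

theorem exists_unit {x y : ℂ} (h : x ^ 4 = y ^ 4) (hy : y ≠ 0) : ∃ z, z ^ 4 = 1 ∧ x = z * y :=
  ⟨x / y, by rw [div_pow, h, div_self (pow_ne_zero 4 hy)], (div_mul_cancel₀ _ hy).symm⟩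

theorem orbit_alg {A0 A1 B b0 b1 w : ℂ} (h0 : b0 ^ 4 = A0 ^ 4) (h1 : b1 ^ 4 = A1 ^ 4)
    (hne : A0 ≠ 0 ∨ A1 ≠ 0) (hw : w ^ 4 = B ^ 4) (hB : B ^ 4 = A0 ^ 8 - A1 ^ 8)
    (h : b0 * b1 * w = A0 * A1 * B) :
    ∃ z : ℂ, z ^ 4 = 1 ∧ ∃ u : ℂ, u ≠ 0 ∧ b0 = u * A0 ∧ b1 = u * (z * A1) ∧
      w = u ^ 2 * (z ^ 3 * B) := by
  have hne1 : ∀ x : ℂ, x ^ 4 = 1 → x ≠ 0 := by
    rintro x hx rfl
    norm_num at hx
  by_cases hA0 : A0 = 0
  · have hA1 : A1 ≠ 0 := hne.resolve_left fun h => h hA0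
    have hB0 : B ≠ 0 := by
      intro h3
      rw [h3, hA0] at hB
      have h4 : A1 ^ 8 = 0 := by linear_combination hB
      exact pow_ne_zero 8 hA1 h4
    have hb0 : b0 = 0 := by
      rw [hA0] at h0
      exact pow_eq_zero_iff (n := 4) (by norm_num) |>.1 (by rw [h0]; norm_num)
    obtain ⟨n, hn, rfl⟩ := exists_unit h1 hA1
    obtain ⟨l, hl, rfl⟩ := exists_unit hw hB0
    refine ⟨l * n ^ 2, ?_, l ^ 3 * n ^ 3, ?_, ?_, ?_, ?_⟩
    · rw [show (l * n ^ 2) ^ 4 = l ^ 4 * (n ^ 4) ^ 2 by ring, hl, hn]; norm_num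
    · exact mul_ne_zero (pow_ne_zero _ (hne1 l hl)) (pow_ne_zero _ (hne1 n hn))
    · rw [hb0, hA0, mul_zero]
    · rw [show l ^ 3 * n ^ 3 * (l * n ^ 2 * A1) = l ^ 4 * n ^ 4 * (n * A1) by ring, hl, hn]; ring
    · rw [show (l ^ 3 * n ^ 3) ^ 2 * ((l * n ^ 2) ^ 3 * B) = (l ^ 4) ^ 2 * (n ^ 4) ^ 3 * (l * B) by
        ring, hl, hn]
      ring
  · obtain ⟨m, hm, rfl⟩ := exists_unit h0 hA0
    by_cases hA1 : A1 = 0
    · have hB0 : B ≠ 0 := by
        intro h3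
        rw [h3, hA1] at hB
        have h4 : A0 ^ 8 = 0 := by linear_combination -hB
        exact pow_ne_zero 8 hA0 h4
      have hb1 : b1 = 0 := by
        rw [hA1] at h1
        exact pow_eq_zero_iff (n := 4) (by norm_num) |>.1 (by rw [h1]; norm_num)
      obtain ⟨l, hl, rfl⟩ := exists_unit hw hB0
      refine ⟨l ^ 3 * m ^ 2, ?_, m, hne1 m hm, rfl, ?_, ?_⟩
      · rw [show (l ^ 3 * m ^ 2) ^ 4 = (l ^ 4) ^ 3 * (m ^ 4) ^ 2 by ring, hl, hm]; norm_num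
      · rw [hb1, hA1, mul_zero, mul_zero]
      · rw [show m ^ 2 * ((l ^ 3 * m ^ 2) ^ 3 * B) = (l ^ 4) ^ 2 * (m ^ 4) ^ 2 * (l * B) by
          ring, hl, hm]
        ring
    · obtain ⟨n, hn, rfl⟩ := exists_unit h1 hA1
      have h2 : m * n * w = B := by
        have h3 : A0 * A1 * (m * n * w) = A0 * A1 * B := by linear_combination h
        exact mul_left_cancel₀ (mul_ne_zero hA0 hA1) h3
      refine ⟨n * m ^ 3, ?_, m, hne1 m hm, rfl, ?_, ?_⟩
      · rw [show (n * m ^ 3) ^ 4 = n ^ 4 * (m ^ 4) ^ 3 by ring, hn, hm]; norm_num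
      · rw [show m * (n * m ^ 3 * A1) = m ^ 4 * (n * A1) by ring, hm, one_mul]
      · rw [← h2, show m ^ 2 * ((n * m ^ 3) ^ 3 * (m * n * w)) = (m ^ 4) ^ 3 * n ^ 4 * w by ring,
          hm, hn]
        ring

/-- **the fibres of `f` are the orbits** -/
theorem f_eq_iff {q q' : CC.X} : f q = f q' ↔ ∃ z : G4, z • q = q' := by
  constructor
  swap
  · rintro ⟨z, rfl⟩
    exact (f_smul z q).symm
  intro h
  obtain ⟨a0, a1, v, r⟩ := isHom_CC.exists_rep q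
  obtain ⟨b0, b1, w, r'⟩ := isHom_CC.exists_rep q'
  have h1 := f_rep r
  have h2 := f_rep r'
  rw [← h] at h2
  obtain ⟨c, hc, e0, e1, e2⟩ := isHom_BB.rep_rel h1 h2
  have e2' : b1 ^ 4 + I * b0 ^ 4 = c ^ 1 * (a1 ^ 4 + I * a0 ^ 4) := e2 0
  rw [pow_one] at e2'
  have e1' : b0 * b1 * w 0 = c * (a0 * a1 * v 0) := by
    have h3 : ka * (b0 * b1 * w 0) = ka * (c * (a0 * a1 * v 0)) := by linear_combination e1
    exact mul_left_cancel₀ ka_ne h3
  obtain ⟨s, hs⟩ := IsAlgClosed.exists_pow_nat_eq c (n := 4) (by norm_num)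
  have hs0 : s ≠ 0 := by
    rintro rfl
    apply hc
    rw [← hs]
    norm_num
  have hb1 : b1 ^ 4 = (s * a1) ^ 4 := by
    rw [mul_pow, hs]
    linear_combination (1 / 2) * e0 + (1 / 2) * e2'
  have hb0 : b0 ^ 4 = (s * a0) ^ 4 := by
    have h3 : I * b0 ^ 4 = I * (s * a0) ^ 4 := by
      rw [mul_pow, hs]
      linear_combination (-1 / 2) * e0 + (1 / 2) * e2'
    exact mul_left_cancel₀ I_ne_zero h3
  have rs := IsHom.rep_smul r hs0
  have e3 : b0 * b1 * w 0 = (s * a0) * (s * a1) * (s ^ 2 * v 0) := by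
    rw [e1', ← hs]
    ring
  have hw4 : w 0 ^ 4 = b0 ^ 8 - b1 ^ 8 := isHom_CC.rep_eqn r' 0
  have hv4 : (s ^ 2 * v 0) ^ 4 = (s * a0) ^ 8 - (s * a1) ^ 8 := isHom_CC.rep_eqn rs 0
  have hvw : w 0 ^ 4 = (s ^ 2 * v 0) ^ 4 := by
    have h3 : b0 ^ 8 = (b0 ^ 4) ^ 2 := by ring
    have h4 : b1 ^ 8 = (b1 ^ 4) ^ 2 := by ring
    rw [hw4, hv4, h3, h4, hb0, hb1]
    ring
  obtain ⟨z, hz, u, hu, k0, k1, k2⟩ := orbit_alg hb0 hb1 rs.ne hvw hv4 e3
  refine ⟨mkG z hz, ?_⟩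
  refine (isHom_CC.rep_eq_iff (dk_rep (mkG z hz) rs) r').2 ⟨u, hu, k0, k1, fun a => ?_⟩
  rw [Subsingleton.elim a 0]
  exact k2

/-! ### surjectivity, the covering -/

theorem surjective_f : Function.Surjective f := by
  intro y
  obtain ⟨x0, x1, w, r⟩ := isHom_BB.exists_rep y
  have hw : w 0 ^ 4 = x0 ^ 4 - x1 ^ 4 := isHom_BB.rep_eqn r 0
  obtain ⟨a1, ha1⟩ := IsAlgClosed.exists_pow_nat_eq ((x0 + w 0) / 2) (n := 4) (by norm_num)
  obtain ⟨a0, ha0⟩ := IsAlgClosed.exists_pow_nat_eq ((w 0 - x0) / (2 * I)) (n := 4) (by norm_num)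
  obtain ⟨b, hb⟩ := IsAlgClosed.exists_pow_nat_eq (a0 ^ 8 - a1 ^ 8) (n := 4) (by norm_num)
  have hI : I ^ 2 = -1 := I_sq
  have ha0' : I * a0 ^ 4 = (w 0 - x0) / 2 := by
    rw [ha0]
    field_simp
  have hX0 : a1 ^ 4 - I * a0 ^ 4 = x0 := by rw [ha0', ha1]; ring
  have hY : a1 ^ 4 + I * a0 ^ 4 = w 0 := by rw [ha0', ha1]; ring
  have hX1 : (ka * a0 * a1 * b) ^ 4 = x1 ^ 4 := by
    have h1 : (ka * a0 * a1 * b) ^ 4 = 8 * I * a0 ^ 4 * a1 ^ 4 * (a0 ^ 8 - a1 ^ 8) := by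
      rw [← hb, ← ka_pow]
      ring
    have h2 : x1 ^ 4 = x0 ^ 4 - w 0 ^ 4 := by linear_combination hw
    rw [h1, h2, ← hX0, ← hY]
    linear_combination (8 * I * a0 ^ 12 * a1 ^ 4) * hI
  have hne : a0 ≠ 0 ∨ a1 ≠ 0 := by
    by_contra hc
    push Not at hc
    obtain ⟨h0, h1⟩ := hc
    have hx0 : x0 = 0 := by rw [← hX0, h0, h1]; norm_num
    have hx1 : x1 = 0 := by
      rw [h0] at hX1
      exact pow_eq_zero_iff (n := 4) (by norm_num) |>.1 (by rw [← hX1]; ring)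
    rcases r.ne with h | h
    · exact h hx0
    · exact h hx1
  -- adjust `b`
  have hadj : ∃ b' : ℂ, b' ^ 4 = a0 ^ 8 - a1 ^ 8 ∧ ka * a0 * a1 * b' = x1 := by
    by_cases hx1 : x1 = 0
    · refine ⟨b, hb, ?_⟩
      rw [hx1] at hX1 ⊢
      exact pow_eq_zero_iff (n := 4) (by norm_num) |>.1 (by rw [hX1]; norm_num)
    · have h0 : ka * a0 * a1 * b ≠ 0 := by
        intro h3
        rw [h3] at hX1
        exact pow_ne_zero 4 hx1 (by rw [← hX1]; norm_num)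
      obtain ⟨z, hz, hz'⟩ := exists_unit hX1.symm h0
      exact ⟨z * b, by rw [mul_pow, hz, one_mul, hb], by rw [hz']; ring⟩
  obtain ⟨b', hb', hb1⟩ := hadj
  obtain ⟨q, rq⟩ := isHom_CC.rep_exists (v := fun _ => b') hne fun _ => hb'
  refine ⟨q, ?_⟩
  have h1 := f_rep rq
  rw [hX0, hb1, hY] at h1
  have h2 : (fun _ : Fin 1 => w 0) = w := by
    funext a
    rw [Subsingleton.elim a 0]
  rw [h2] at h1
  exact IsHom.rep_unique h1 r

theorem isQuotientMap_f : IsQuotientMap f :=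
  continuous_f.isClosedMap.isQuotientMap continuous_f surjective_f

/-- **`f` is the quotient covering of the free action of `G4`** -/
theorem isQuotientCoveringMap_f : IsQuotientCoveringMap f G4 := by
  refine isQuotientMap_f.isQuotientCoveringMap_of_properlyDiscontinuousSMul (G := G4) ?_
  intro e₁ e₂
  rw [MulAction.mem_orbit_iff, eq_comm, f_eq_iff]

/-- **`f` is a covering map** -/
theorem isCoveringMap_f : IsCoveringMap f := isQuotientCoveringMap_f.isCoveringMap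

theorem isLocalHomeomorph_f : IsLocalHomeomorph f := isCoveringMap_f.isLocalHomeomorph

/-! ### the base points -/

theorem exists_z0 : ∃ q : CC.X, Rep CC (fun _ => 2) q 1 0 (fun _ => -1) :=
  isHom_CC.rep_exists (Or.inl one_ne_zero) fun _ => by
    show (-1 : ℂ) ^ 4 = 1 ^ 8 - 0 ^ 8
    norm_num

/-- `z0 = [1 : 0 : -1]` on `CC` -/
def z0 : CC.X := exists_z0.choose

theorem rep_z0 : Rep CC (fun _ => 2) z0 1 0 (fun _ => -1) := exists_z0.choose_spec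

theorem exists_w0 : ∃ q : BB.X, Rep BB (fun _ => 1) q 1 0 (fun _ => -1) :=
  isHom_BB.rep_exists (Or.inl one_ne_zero) fun _ => by
    show (-1 : ℂ) ^ 4 = 1 ^ 4 - 0 ^ 4
    norm_num

/-- `w0 = [1 : 0 : -1]` on `BB` -/
def w0 : BB.X := exists_w0.choose

theorem rep_w0 : Rep BB (fun _ => 1) w0 1 0 (fun _ => -1) := exists_w0.choose_spec

theorem f_z0 : f z0 = w0 := by
  have h1 := f_rep rep_z0
  refine (isHom_BB.rep_eq_iff h1 rep_w0).2 ⟨I, I_ne_zero, ?_, ?_, fun a => ?_⟩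
  · have hI : I ^ 2 = -1 := I_sq
    linear_combination hI
  · ring
  · have hI : I ^ 2 = -1 := I_sq
    show (-1 : ℂ) = I ^ 1 * (0 ^ 4 + I * 1 ^ 4)
    linear_combination -hI

end

end Crest.Agent.R272.Mf_839
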