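import Crest.Agent.R272.DCov8_426

/-!
# R272 (S0414), helper426: the branched covers of a projective line of the model #6536 / #6713

`HC A`      : homogeneous coordinates on a Riemann surface (`A : Atl 1 M`): a line bundle `O` and two
              sections `a0 i x`, `a1 i x` without common zero and with `a0 da1 - a1 da0 ≠ 0`;
`HC.sec G`  : the section `G (a0, a1)` of `O ^ m` for `G` holomorphic, homogeneous of degree `m`;
`HC.snc_sec`: it has simple zeros if `dG ≠ 0` on `{G = 0} \ {0}`;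
`HC.mk1`    : `Data A (Fin 1)` from one `G` (homogeneous of degree `d * k`);
`HC.mk2`    : `Data A (Fin 2)` from `G₀`, `G₁` without common zero;
`HC.Chat`   : `δ^8 = t0^16 - t1^16`, `ρ^2 = t1^8 + i t0^8`;
`HC.F8`     : `η^8 = ζ^8 - ω^8`;  `HC.CC` : `β^4 = a0^8 - a1^8`;  `HC.BB` : `Y^4 = X0^4 - X1^4`.
-/

set_option autoImplicit false
set_option linter.unusedSectionVars false

open Set Filter Topology

namespace Crest.Agent.R272.P1L_426

open Crest.Agent.R275.Geo Crest.Agent.R275.Core144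
open Crest.Agent.R273.Map_835 Crest.Agent.R273.Fam_835 Crest.Agent.R272.DCov_426

noncomputable section

variable {M : Type} [TopologicalSpace M] {A : Atl 1 M}

/-- homogeneous coordinates on a Riemann surface -/
structure HC (A : Atl 1 M) where
  O : LB A
  a0 : A.ι → M → ℂ
  a1 : A.ι → M → ℂ
  hol0 : ∀ i, HolAt A i univ (a0 i)
  hol1 : ∀ i, HolAt A i univ (a1 i)
  tr0 : ∀ i j, ∀ x ∈ (A.e i).source ∩ (A.e j).source, a0 i x = O.g i j x * a0 j x
  tr1 : ∀ i j, ∀ x ∈ (A.e i).source ∩ (A.e j).source, a1 i x = O.g i j x * a1 j x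
  ne : ∀ i, ∀ x ∈ (A.e i).source, a0 i x = 0 → a1 i x ≠ 0
  imm : ∀ i, ∀ z ∈ (A.e i).target, ∀ v : Cn 1,
    fderiv ℂ (fun w => a0 i ((A.e i).symm w)) z v * a1 i ((A.e i).symm z) =
      fderiv ℂ (fun w => a1 i ((A.e i).symm w)) z v * a0 i ((A.e i).symm z) → v = 0
  surj : ∀ p q : ℂ, (p = 0 → q ≠ 0) → ∃ i, ∃ x ∈ (A.e i).source, ∃ c : ℂ,
    a0 i x = c * p ∧ a1 i x = c * q

namespace HC

variable (H : HC A)

/-- homogeneous of degree `m` and holomorphic -/
structure Hom (m : ℕ) (G : ℂ → ℂ → ℂ) : Prop where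
  hom : ∀ l a b : ℂ, G (l * a) (l * b) = l ^ m * G a b
  hol : Differentiable ℂ (fun p : ℂ × ℂ => G p.1 p.2)

/-- simple zeros -/
def Simple (G : ℂ → ℂ → ℂ) : Prop :=
  ∀ p : ℂ × ℂ, p ≠ 0 → G p.1 p.2 = 0 → fderiv ℂ (fun p : ℂ × ℂ => G p.1 p.2) p ≠ 0

open Classical in
/-- the section `G (a0, a1)` -/
def sec (G : ℂ → ℂ → ℂ) : A.ι → M → ℂ := fun i x =>
  if x ∈ (A.e i).source then G (H.a0 i x) (H.a1 i x) else 0

theorem sec_eq (G : ℂ → ℂ → ℂ) {i : A.ι} {x : M} (hx : x ∈ (A.e i).source) :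
    H.sec G i x = G (H.a0 i x) (H.a1 i x) := if_pos hx

/-- the two coordinates in the chart `i` -/
def cc (i : A.ι) (w : Cn 1) : ℂ × ℂ := (H.a0 i ((A.e i).symm w), H.a1 i ((A.e i).symm w))

theorem cc_ne {i : A.ι} {w : Cn 1} (hw : w ∈ (A.e i).target) : H.cc i w ≠ 0 := by
  intro h
  have h0 : H.a0 i ((A.e i).symm w) = 0 := congrArg Prod.fst h
  exact H.ne i _ ((A.e i).map_target hw) h0 (congrArg Prod.snd h)

theorem diff_a0 {i : A.ι} {w : Cn 1} (hw : w ∈ (A.e i).target) :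
    DifferentiableAt ℂ (fun z => H.a0 i ((A.e i).symm z)) w :=
  ((H.hol0 i).mono (subset_univ _)).differentiableAt
    ((isOpen_ti isOpen_univ).mem_nhds ⟨hw, mem_univ _⟩)

theorem diff_a1 {i : A.ι} {w : Cn 1} (hw : w ∈ (A.e i).target) :
    DifferentiableAt ℂ (fun z => H.a1 i ((A.e i).symm z)) w :=
  ((H.hol1 i).mono (subset_univ _)).differentiableAt
    ((isOpen_ti isOpen_univ).mem_nhds ⟨hw, mem_univ _⟩)

theorem diff_cc {i : A.ι} {w : Cn 1} (hw : w ∈ (A.e i).target) :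
    DifferentiableAt ℂ (H.cc i) w := (H.diff_a0 hw).prodMk (H.diff_a1 hw)

theorem isHS_sec {m : ℕ} {G : ℂ → ℂ → ℂ} (hG : Hom m G) : IsHS (H.O ^ m) univ (H.sec G) where
  hol i := by
    intro w hw
    have h1 : DifferentiableAt ℂ (fun z => G (H.a0 i ((A.e i).symm z)) (H.a1 i ((A.e i).symm z))) w :=
      (hG.hol (H.cc i w)).comp w (H.diff_cc hw.1)
    refine (h1.congr_of_eventuallyEq ?_).differentiableWithinAt
    filter_upwards [(A.e i).open_target.mem_nhds hw.1] with z hz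
    exact H.sec_eq G ((A.e i).map_target hz)
  off i x hx := if_neg hx
  tr i j x hx _ := by
    rw [H.sec_eq G hx.1, H.sec_eq G hx.2, LB_pow_g, H.tr0 i j x hx, H.tr1 i j x hx, hG.hom]

/-- Euler's identity -/
theorem Hom.euler {m : ℕ} {G : ℂ → ℂ → ℂ} (hG : Hom m G) (p : ℂ × ℂ) :
    fderiv ℂ (fun p : ℂ × ℂ => G p.1 p.2) p p = m * G p.1 p.2 := by
  have h1 : HasDerivAt (fun l : ℂ => G (l * p.1) (l * p.2))
      (fderiv ℂ (fun p : ℂ × ℂ => G p.1 p.2) p p) 1 := by
    have h2 : HasDerivAt (fun l : ℂ => l • p) p 1 := by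
      simpa using (hasDerivAt_id (1 : ℂ)).smul_const p
    have h3 : HasFDerivAt (fun p : ℂ × ℂ => G p.1 p.2)
        (fderiv ℂ (fun p : ℂ × ℂ => G p.1 p.2) p) ((1 : ℂ) • p) := by
      rw [one_smul]
      exact (hG.hol p).hasFDerivAt
    exact h3.comp_hasDerivAt (1 : ℂ) h2
  have h4 : HasDerivAt (fun l : ℂ => l ^ m * G p.1 p.2) (m * G p.1 p.2) 1 := by
    simpa using (hasDerivAt_pow m (1 : ℂ)).mul_const (G p.1 p.2)
  have h5 : (fun l : ℂ => G (l * p.1) (l * p.2)) = fun l : ℂ => l ^ m * G p.1 p.2 := by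
    funext l
    exact hG.hom l p.1 p.2
  rw [h5] at h1
  exact h1.unique h4

/-- a linear form on `ℂ²` which kills `p ≠ 0` and `v` and is not zero: `v` is parallel to `p` -/
theorem parallel {T : ℂ × ℂ →L[ℂ] ℂ} (hT : T ≠ 0) {p v : ℂ × ℂ} (hp : T p = 0)
    (hv : T v = 0) : v.1 * p.2 = v.2 * p.1 := by
  have hx : ∀ q : ℂ × ℂ, T q = q.1 * T (1, 0) + q.2 * T (0, 1) := by
    intro q
    have : q = q.1 • ((1 : ℂ), (0 : ℂ)) + q.2 • ((0 : ℂ), (1 : ℂ)) := by
      ext <;> simp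
    conv_lhs => rw [this]
    rw [map_add, map_smul, map_smul, smul_eq_mul, smul_eq_mul]
  rw [hx] at hp hv
  have hne : T (1, 0) ≠ 0 ∨ T (0, 1) ≠ 0 := by
    by_contra h
    push Not at h
    apply hT
    ext
    · simpa using h.1
    · simpa using h.2
  rcases hne with h | h
  · have h1 : (v.1 * p.2 - v.2 * p.1) * T (1, 0) = 0 := by linear_combination p.2 * hv - v.2 * hp
    rcases mul_eq_zero.1 h1 with h2 | h2
    · exact sub_eq_zero.1 h2
    · exact absurd h2 h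
  · have h1 : (v.1 * p.2 - v.2 * p.1) * T (0, 1) = 0 := by linear_combination v.1 * hp - p.1 * hv
    rcases mul_eq_zero.1 h1 with h2 | h2
    · exact sub_eq_zero.1 h2
    · exact absurd h2 h

theorem fderiv_sec {m : ℕ} {G : ℂ → ℂ → ℂ} (hG : Hom m G) {i : A.ι} {w : Cn 1}
    (hw : w ∈ (A.e i).target) (v : Cn 1) :
    fderiv ℂ (fun z => H.sec G i ((A.e i).symm z)) w v =
      fderiv ℂ (fun p : ℂ × ℂ => G p.1 p.2) (H.cc i w) (fderiv ℂ (H.cc i) w v) := by
  have h1 : (fun z => H.sec G i ((A.e i).symm z)) =ᶠ[𝓝 w]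
      ((fun p : ℂ × ℂ => G p.1 p.2) ∘ H.cc i) := by
    filter_upwards [(A.e i).open_target.mem_nhds hw] with z hz
    exact H.sec_eq G ((A.e i).map_target hz)
  rw [h1.fderiv_eq, fderiv_comp w (hG.hol _) (H.diff_cc hw)]
  rfl

/-- **simple zeros** -/
theorem dsec_ne {m : ℕ} {G : ℂ → ℂ → ℂ} (hG : Hom m G) (hs : Simple G) {i : A.ι} {x : M}
    (hx : x ∈ (A.e i).source) (h0 : H.sec G i x = 0) {v : Cn 1} (hv : v ≠ 0) :
    fderiv ℂ (fun z => H.sec G i ((A.e i).symm z)) (A.e i x) v ≠ 0 := by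
  intro h
  have hw : A.e i x ∈ (A.e i).target := (A.e i).map_source hx
  rw [H.fderiv_sec hG hw] at h
  have hc : G (H.cc i (A.e i x)).1 (H.cc i (A.e i x)).2 = 0 := by
    show G (H.a0 i ((A.e i).symm (A.e i x))) (H.a1 i ((A.e i).symm (A.e i x))) = 0
    rw [(A.e i).left_inv hx, ← H.sec_eq G hx, h0]
  have h1 := parallel (hs _ (H.cc_ne hw) hc) (by rw [hG.euler, hc, mul_zero]) h
  have h2 : fderiv ℂ (H.cc i) (A.e i x) v =
      (fderiv ℂ (fun w => H.a0 i ((A.e i).symm w)) (A.e i x) v,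
        fderiv ℂ (fun w => H.a1 i ((A.e i).symm w)) (A.e i x) v) := by
    have := ((H.diff_a0 hw).hasFDerivAt.prodMk (H.diff_a1 hw).hasFDerivAt).fderiv
    rw [show H.cc i = fun w => (H.a0 i ((A.e i).symm w), H.a1 i ((A.e i).symm w)) from rfl, this]
    rfl
  rw [h2] at h1
  exact hv (H.imm i _ hw v h1)

/-- in dimension one: one non zero value of a linear form gives all values -/
theorem exists_val {T : Cn 1 →L[ℂ] ℂ} (hT : ∀ v, v ≠ 0 → T v ≠ 0) (c : ℂ) : ∃ v, T v = c := by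
  set e : Cn 1 := EuclideanSpace.single 0 1 with he
  have he0 : e ≠ 0 := by
    intro h
    have h2 := congrArg (fun v : Cn 1 => v 0) h
    simp [he] at h2
  have h1 := hT e he0
  exact ⟨(c / T e) • e, by rw [map_smul, smul_eq_mul, div_mul_cancel₀ _ h1]⟩

/-- one root of a binary form with simple zeros -/
def mk1 (d k : ℕ) (hk : 0 < k) (G : ℂ → ℂ → ℂ) (hG : Hom (d * k) G) (hs : Simple G) :
    Data A (Fin 1) where
  L _ := H.O ^ d
  k _ := k
  s _ := H.sec G
  kpos _ := hk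
  hs _ := by rw [← pow_mul]; exact H.isHS_sec hG
  snc i x hx w := by
    by_cases h0 : H.sec G i x = 0
    · obtain ⟨v, hv⟩ := exists_val (fun v hv => H.dsec_ne hG hs hx h0 hv) (w 0)
      exact ⟨v, fun a _ => by rw [hv, Subsingleton.elim a 0]⟩
    · exact ⟨0, fun a h => absurd h h0⟩

/-- two binary forms with simple zeros and without common zero -/
def mk2 (d k : Fin 2 → ℕ) (hk : ∀ a, 0 < k a) (G : Fin 2 → ℂ → ℂ → ℂ)
    (hG : ∀ a, Hom (d a * k a) (G a)) (hs : ∀ a, Simple (G a))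
    (hd : ∀ p q : ℂ, G 0 p q = 0 → G 1 p q = 0 → p = 0 ∧ q = 0) :
    Data A (Fin 2) where
  L a := H.O ^ d a
  k := k
  s a := H.sec (G a)
  kpos := hk
  hs a := by rw [← pow_mul]; exact H.isHS_sec (hG a)
  snc i x hx w := by
    by_cases h0 : H.sec (G 0) i x = 0
    · obtain ⟨v, hv⟩ := exists_val (fun v hv => H.dsec_ne (hG 0) (hs 0) hx h0 hv) (w 0)
      refine ⟨v, fun a ha => ?_⟩
      fin_cases a
      · exact hv
      · exfalso
        have h1 : H.sec (G 1) i x = 0 := ha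
        rw [H.sec_eq _ hx] at h0 h1
        obtain ⟨h2, h3⟩ := hd _ _ h0 h1
        exact H.ne i x hx h2 h3
    · by_cases h1 : H.sec (G 1) i x = 0
      · obtain ⟨v, hv⟩ := exists_val (fun v hv => H.dsec_ne (hG 1) (hs 1) hx h1 hv) (w 1)
        refine ⟨v, fun a ha => ?_⟩
        fin_cases a
        · exact absurd ha h0
        · exact hv
      · refine ⟨0, fun a ha => ?_⟩
        fin_cases a
        · exact absurd ha h0
        · exact absurd ha h1

/-! ### binary forms `α a0^m + β a1^m` -/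

/-- `α a^m + β b^m` -/
def bin (α β : ℂ) (m : ℕ) : ℂ → ℂ → ℂ := fun a b => α * a ^ m + β * b ^ m

theorem hom_bin (α β : ℂ) (m : ℕ) : Hom m (bin α β m) where
  hom l a b := by
    simp only [bin, mul_pow]
    ring
  hol := by
    unfold bin
    fun_prop

theorem simple_bin {α β : ℂ} (hα : α ≠ 0) (hβ : β ≠ 0) {m : ℕ} (hm : 0 < m) :
    Simple (bin α β m) := by
  intro p hp h0 h
  have h1 : HasFDerivAt (fun p : ℂ × ℂ => bin α β m p.1 p.2)
      (α • ((m * p.1 ^ (m - 1)) • ContinuousLinearMap.fst ℂ ℂ ℂ) +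
        β • ((m * p.2 ^ (m - 1)) • ContinuousLinearMap.snd ℂ ℂ ℂ)) p := by
    have ha : HasFDerivAt (fun p : ℂ × ℂ => p.1 ^ m)
        ((m * p.1 ^ (m - 1)) • ContinuousLinearMap.fst ℂ ℂ ℂ) p :=
      (hasDerivAt_pow m p.1).comp_hasFDerivAt p hasFDerivAt_fst
    have hb : HasFDerivAt (fun p : ℂ × ℂ => p.2 ^ m)
        ((m * p.2 ^ (m - 1)) • ContinuousLinearMap.snd ℂ ℂ ℂ) p :=
      (hasDerivAt_pow m p.2).comp_hasFDerivAt p hasFDerivAt_snd
    exact (ha.const_mul α).add (hb.const_mul β)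
  rw [h1.fderiv] at h
  have h2 := congrArg (fun T : ℂ × ℂ →L[ℂ] ℂ => T (1, 0)) h
  have h3 := congrArg (fun T : ℂ × ℂ →L[ℂ] ℂ => T (0, 1)) h
  simp only [add_apply, smul_apply, smul_eq_mul,
    ContinuousLinearMap.coe_fst', ContinuousLinearMap.coe_snd', mul_one, mul_zero, add_zero,
    zero_add, zero_apply] at h2 h3
  have hm' : (m : ℂ) ≠ 0 := by exact_mod_cast hm.ne'
  have hx : p.1 ^ (m - 1) = 0 := by
    rcases mul_eq_zero.1 h2 with h4 | h4
    · exact absurd h4 hα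
    · rcases mul_eq_zero.1 h4 with h5 | h5
      · exact absurd h5 hm'
      · exact h5
  have hy : p.2 ^ (m - 1) = 0 := by
    rcases mul_eq_zero.1 h3 with h4 | h4
    · exact absurd h4 hβ
    · rcases mul_eq_zero.1 h4 with h5 | h5
      · exact absurd h5 hm'
      · exact h5
  exact hp (Prod.ext (pow_eq_zero_iff_of_pos' hx) (pow_eq_zero_iff_of_pos' hy))
where
  pow_eq_zero_iff_of_pos' {x : ℂ} {l : ℕ} (h : x ^ l = 0) : x = 0 := by
    by_contra h'
    exact pow_ne_zero l h' h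

/-- zeros exist -/
theorem exists_zero {m : ℕ} {G : ℂ → ℂ → ℂ} (hG : Hom m G)
    (hz : ∃ p q : ℂ, (p = 0 → q ≠ 0) ∧ G p q = 0) :
    ∃ x, ∃ i, x ∈ (A.e i).source ∧ H.sec G i x = 0 := by
  obtain ⟨p, q, hpq, h0⟩ := hz
  obtain ⟨i, x, hx, c, h1, h2⟩ := H.surj p q hpq
  exact ⟨x, i, hx, by rw [H.sec_eq G hx, h1, h2, hG.hom, h0, mul_zero]⟩

theorem exists_zero_bin {α β : ℂ} (hβ : β ≠ 0) {m : ℕ} (hm : 0 < m) :
    ∃ p q : ℂ, (p = 0 → q ≠ 0) ∧ bin α β m p q = 0 := by
  obtain ⟨z, hz⟩ := IsAlgClosed.exists_pow_nat_eq (-α / β) hm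
  refine ⟨1, z, fun h => absurd h one_ne_zero, ?_⟩
  show α * 1 ^ m + β * z ^ m = 0
  rw [hz]
  field_simp
  ring

/-! ### the four curves -/

/-- `C^` : `δ^8 = t0^16 - t1^16`, `ρ^2 = t1^8 + i t0^8` -/
def Chat : Data A (Fin 2) :=
  H.mk2 ![2, 4] ![8, 2] (by intro a; fin_cases a <;> simp)
    ![bin 1 (-1) 16, bin Complex.I 1 8]
    (by
      intro a
      fin_cases a
      · exact hom_bin 1 (-1) 16
      · exact hom_bin Complex.I 1 8)
    (by
      intro a
      fin_cases a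
      · exact simple_bin one_ne_zero (neg_ne_zero.2 one_ne_zero) (by norm_num)
      · exact simple_bin Complex.I_ne_zero one_ne_zero (by norm_num))
    (by
      intro p q h0 h1
      have h0' : (1 : ℂ) * p ^ 16 + (-1) * q ^ 16 = 0 := h0
      have h1' : Complex.I * p ^ 8 + 1 * q ^ 8 = 0 := h1
      have h2 : q ^ 8 = -(Complex.I * p ^ 8) := by linear_combination h1'
      have h3 : q ^ 16 = -p ^ 16 := by
        have : q ^ 16 = (q ^ 8) ^ 2 := by ring
        rw [this, h2]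
        have : (-(Complex.I * p ^ 8)) ^ 2 = Complex.I ^ 2 * p ^ 16 := by ring
        rw [this, Complex.I_sq]
        ring
      have h4 : (2 : ℂ) * p ^ 16 = 0 := by linear_combination h0' + h3
      have h5 : p = 0 := by
        rcases mul_eq_zero.1 h4 with h6 | h6
        · exact absurd h6 two_ne_zero
        · exact pow_eq_zero_iff (by norm_num) |>.1 h6
      refine ⟨h5, ?_⟩
      rw [h5] at h2
      simpa using h2)

/-- `η^8 = ζ^8 - ω^8`, `(a0, a1) = (ζ, ω)` -/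
def F8 : Data A (Fin 1) :=
  H.mk1 1 8 (by norm_num) (bin 1 (-1) 8) (hom_bin 1 (-1) 8)
    (simple_bin one_ne_zero (neg_ne_zero.2 one_ne_zero) (by norm_num))

/-- `β^4 = a0^8 - a1^8` -/
def CC : Data A (Fin 1) :=
  H.mk1 2 4 (by norm_num) (bin 1 (-1) 8) (hom_bin 1 (-1) 8)
    (simple_bin one_ne_zero (neg_ne_zero.2 one_ne_zero) (by norm_num))

/-- `Y^4 = X0^4 - X1^4` -/
def BB : Data A (Fin 1) :=
  H.mk1 1 4 (by norm_num) (bin 1 (-1) 4) (hom_bin 1 (-1) 4)
    (simple_bin one_ne_zero (neg_ne_zero.2 one_ne_zero) (by norm_num))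

theorem connected_Chat [ConnectedSpace M] : ConnectedSpace H.Chat.X := by
  refine H.Chat.connected_X fun a => ?_
  fin_cases a
  · exact H.exists_zero (hom_bin 1 (-1) 16)
      (exists_zero_bin (neg_ne_zero.2 one_ne_zero) (by norm_num))
  · exact H.exists_zero (hom_bin Complex.I 1 8) (exists_zero_bin one_ne_zero (by norm_num))

theorem connected_F8 [ConnectedSpace M] : ConnectedSpace H.F8.X :=
  H.F8.connected_X fun _ => H.exists_zero (hom_bin 1 (-1) 8)
    (exists_zero_bin (neg_ne_zero.2 one_ne_zero) (by norm_num))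

theorem connected_CC [ConnectedSpace M] : ConnectedSpace H.CC.X :=
  H.CC.connected_X fun _ => H.exists_zero (hom_bin 1 (-1) 8)
    (exists_zero_bin (neg_ne_zero.2 one_ne_zero) (by norm_num))

theorem connected_BB [ConnectedSpace M] : ConnectedSpace H.BB.X :=
  H.BB.connected_X fun _ => H.exists_zero (hom_bin 1 (-1) 4)
    (exists_zero_bin (neg_ne_zero.2 one_ne_zero) (by norm_num))

end HC

/-! ### coordinates at every point of a cover of a curve -/

section Coord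

variable {ρ : Type} [Fintype ρ] (D : Data A ρ) {A' : Atl 1 D.X} (hc : Cmp D.famX A')

theorem y_eq_zero_iff (a : ρ) {j : A.ι} {q : D.X} (hq : D.p q ∈ (A.e j).source) :
    D.y a j q = 0 ↔ D.s a j (D.p q) = 0 := by
  rw [← D.y_pow a hq]
  exact (pow_eq_zero_iff (D.kpos a).ne').symm

include hc in
/-- at a zero of `y a` the function `y a` is a coordinate -/
theorem coord_y {i : A'.ι} {j : A.ι} {q : D.X} (hi : q ∈ (A'.e i).source)
    (hj : D.p q ∈ (A.e j).source) {a : ρ} (ha : D.y a j q = 0) :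
    Function.Injective (fderiv ℂ (fun w => D.y a j ((A'.e i).symm w)) (A'.e i q)) := by
  have hz : A'.e i q ∈ dm A' A D.p i j := mem_dm hi hj
  refine D.coord_one hc hz (a := a) ?_
  rw [(A'.e i).left_inv hi]
  exact (y_eq_zero_iff D a hj).1 ha

include hc in
/-- off the branch points every coordinate of the base is a coordinate -/
theorem coord_base {i : A'.ι} {j : A.ι} {q : D.X} (hi : q ∈ (A'.e i).source)
    (hj : D.p q ∈ (A.e j).source) (ha : ∀ a, D.y a j q ≠ 0) {f : M → ℂ}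
    (hf : DifferentiableAt ℂ (fun w => f ((A.e j).symm w)) (A.e j (D.p q)))
    (hinj : Function.Injective (fderiv ℂ (fun w => f ((A.e j).symm w)) (A.e j (D.p q)))) :
    Function.Injective (fderiv ℂ (fun w => f (D.p ((A'.e i).symm w))) (A'.e i q)) := by
  have hz : A'.e i q ∈ dm A' A D.p i j := mem_dm hi hj
  have hp := D.holMap_p hc
  have h1 := D.inj_of_ne hc hz (by
    intro a h0
    rw [(A'.e i).left_inv hi] at h0
    exact ha a ((y_eq_zero_iff D a hj).2 h0))
  have h2 : rd A' A D.p i j (A'.e i q) = A.e j (D.p q) := by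
    show A.e j (D.p ((A'.e i).symm (A'.e i q))) = _
    rw [(A'.e i).left_inv hi]
  have h3 : (fun w => f (D.p ((A'.e i).symm w))) =ᶠ[𝓝 (A'.e i q)]
      (fun w => f ((A.e j).symm w)) ∘ rd A' A D.p i j := by
    filter_upwards [(hp.isOpen_dm i j).mem_nhds hz] with w hw
    show _ = f ((A.e j).symm (A.e j (D.p ((A'.e i).symm w))))
    rw [(A.e j).left_inv hw.2]
  rw [h3.fderiv_eq, fderiv_comp _ (by rw [h2]; exact hf) (hp.diffAt hz), h2]
  exact hinj.comp h1

include hc in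
/-- functions of the base are differentiable upstairs -/
theorem diff_base {i : A'.ι} {j : A.ι} {q : D.X} (hi : q ∈ (A'.e i).source)
    (hj : D.p q ∈ (A.e j).source) {f : M → ℂ}
    (hf : DifferentiableAt ℂ (fun w => f ((A.e j).symm w)) (A.e j (D.p q))) :
    DifferentiableAt ℂ (fun w => f (D.p ((A'.e i).symm w))) (A'.e i q) := by
  have hz : A'.e i q ∈ dm A' A D.p i j := mem_dm hi hj
  have hp := D.holMap_p hc
  have h2 : rd A' A D.p i j (A'.e i q) = A.e j (D.p q) := by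
    show A.e j (D.p ((A'.e i).symm (A'.e i q))) = _
    rw [(A'.e i).left_inv hi]
  have h3 : (fun w => f (D.p ((A'.e i).symm w))) =ᶠ[𝓝 (A'.e i q)]
      (fun w => f ((A.e j).symm w)) ∘ rd A' A D.p i j := by
    filter_upwards [(hp.isOpen_dm i j).mem_nhds hz] with w hw
    show _ = f ((A.e j).symm (A.e j (D.p ((A'.e i).symm w))))
    rw [(A.e j).left_inv hw.2]
  exact (DifferentiableAt.comp (A'.e i q) (by rw [h2]; exact hf) (hp.diffAt hz)).congr_of_eventuallyEq
    h3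

include hc in
theorem diff_y {i : A'.ι} {j : A.ι} {q : D.X} (hi : q ∈ (A'.e i).source)
    (hj : D.p q ∈ (A.e j).source) (a : ρ) :
    DifferentiableAt ℂ (fun w => D.y a j ((A'.e i).symm w)) (A'.e i q) :=
  D.diffAt_y hc (mem_dm hi hj) a

end Coord

end

end Crest.Agent.R272.P1L_426
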