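import Crest.Agent.R272.BlA1_266
import Crest.Agent.R272.P1L_426
import Crest.Agent.R272.Pr1_414

/-!
# R272 (S0414), NLOC-ASM (helper595), part 1: the two sections on `N = C^ × F8`

* `Two AC AF` : on the first curve a bundle `LC` with sections `t0`, `t1` and a section `d` of `LC²`,
                on the second one a bundle `LF` with sections `z`, `o`;
* `Two.pd k`  : `PD (AC.prod AF) (Fin 2)`, exponents 2, bundles `LC² ⊠ LF`, `LC⁴ ⊠ LF`,
                `s_M = o² t0⁴ - z² t1⁴`, `s_N = o² (t1⁸ - i t0⁸) - k t0² t1² d² z²`;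
* `two H R R'`: the instance for `H.Chat` and `H.F8` (any atlases over the atlas of the line).
-/

set_option autoImplicit false
set_option linter.unusedSectionVars false

open Set Filter Topology Complex

namespace Crest.Agent.R272.Nl_595

open Crest.Agent.R275.Geo Crest.Agent.R275.Core144 Crest.Agent.R275.Prod363
open Crest.Agent.R273.Map_835 Crest.Agent.R273.PB_835 Crest.Agent.R273.Fam_835
open Crest.Agent.R272.DCov_426 Crest.Agent.R272.P1L_426 Crest.Agent.R272.BlA_266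
open Crest.Agent.R272.Pr_414

noncomputable section

/-! ### sections -/

section Sec

variable {n : ℕ} {M : Type} [TopologicalSpace M] {A : Atl n M} {L L' : LB A} {U : Set M}
  {s t : A.ι → M → ℂ}

theorem hs_sub (h : IsHS L U s) (h' : IsHS L U t) : IsHS L U (s - t) := by
  have h1 := h.add (h'.smul (-1))
  have h2 : s + (-1 : ℂ) • t = s - t := by
    funext i x
    simp [sub_eq_add_neg]
  rwa [h2] at h1

theorem hs_pow (h : IsHS L U s) (m : ℕ) : IsHS (L ^ (m + 1)) U (s ^ (m + 1)) := by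
  induction m with
  | zero => simpa using h
  | succ m ih =>
    rw [pow_succ L, pow_succ s]
    exact ih.mul h

theorem pull_mul {m : ℕ} {N : Type} [TopologicalSpace N] {B : Atl m N} {p : M → N}
    (hp : HolMap A B p) (R : Ref A B p) (K K' : LB B) :
    pullLB hp R (K * K') = pullLB hp R K * pullLB hp R K' := by
  ext i j x
  rw [LB.mul_g]
  by_cases hx : x ∈ (A.e i).source ∩ (A.e j).source
  · rw [pullLB_g hp R _ hx, pullLB_g hp R _ hx, pullLB_g hp R _ hx, LB.mul_g]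
  · rw [LB.off _ _ _ _ hx, LB.off _ _ _ _ hx, LB.off _ _ _ _ hx, one_mul]

theorem pull_pow {m : ℕ} {N : Type} [TopologicalSpace N] {B : Atl m N} {p : M → N}
    (hp : HolMap A B p) (R : Ref A B p) (K : LB B) (k : ℕ) :
    pullLB hp R (K ^ k) = (pullLB hp R K) ^ k := by
  induction k with
  | zero =>
    have h := pull_mul hp R 1 1
    rw [mul_one] at h
    rw [pow_zero, pow_zero]
    exact (left_eq_mul.1 h)
  | succ k ih => rw [pow_succ, pow_succ, pull_mul, ih]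

end Sec

variable {XC XF : Type} [TopologicalSpace XC] [TopologicalSpace XF]

/-- the data on the two curves -/
structure Two (AC : Atl 1 XC) (AF : Atl 1 XF) where
  LC : LB AC
  LF : LB AF
  t0 : AC.ι → XC → ℂ
  t1 : AC.ι → XC → ℂ
  d : AC.ι → XC → ℂ
  z : AF.ι → XF → ℂ
  o : AF.ι → XF → ℂ
  ht0 : IsHS LC univ t0
  ht1 : IsHS LC univ t1
  hd : IsHS (LC ^ 2) univ d
  hz : IsHS LF univ z
  ho : IsHS LF univ o

namespace Two

variable {AC : Atl 1 XC} {AF : Atl 1 XF} (T : Two AC AF)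

/-- `s_M = o² t0⁴ - z² t1⁴` -/
def sM : (AC.prod AF).ι → XC × XF → ℂ :=
  extS (T.t0 ^ 4) (T.o ^ 2) - extS (T.t1 ^ 4) (T.z ^ 2)

/-- `s_N = o² (t1⁸ - i t0⁸) - k t0² t1² d² z²` -/
def sN (k : ℂ) : (AC.prod AF).ι → XC × XF → ℂ :=
  extS (T.t1 ^ 8 - Complex.I • T.t0 ^ 8) (T.o ^ 2) -
    k • extS (T.t0 ^ 2 * T.t1 ^ 2 * T.d ^ 2) (T.z ^ 2)

theorem sM_apply (i : AC.ι) (j : AF.ι) (x : XC) (y : XF) : T.sM (i, j) (x, y) =
    T.o j y ^ 2 * T.t0 i x ^ 4 - T.z j y ^ 2 * T.t1 i x ^ 4 := by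
  show T.t0 i x ^ 4 * T.o j y ^ 2 - T.t1 i x ^ 4 * T.z j y ^ 2 = _
  ring

theorem sN_apply (k : ℂ) (i : AC.ι) (j : AF.ι) (x : XC) (y : XF) : T.sN k (i, j) (x, y) =
    T.o j y ^ 2 * (T.t1 i x ^ 8 - Complex.I * T.t0 i x ^ 8) -
      k * (T.t0 i x ^ 2 * T.t1 i x ^ 2 * T.d i x ^ 2 * T.z j y ^ 2) := by
  show (T.t1 i x ^ 8 - Complex.I * T.t0 i x ^ 8) * T.o j y ^ 2 -
    k * ((T.t0 i x ^ 2 * T.t1 i x ^ 2 * T.d i x ^ 2) * T.z j y ^ 2) = _
  ring

theorem ext_eq (a : ℕ) : ext (T.LC ^ (a * 2)) (T.LF ^ 2) = ext (T.LC ^ a) T.LF ^ 2 := by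
  rw [pow_mul, ext_pow]

theorem isHS_sM : IsHS (ext (T.LC ^ 2) T.LF ^ 2) univ T.sM := by
  rw [← T.ext_eq 2]
  exact hs_sub (isHS_extS' (hs_pow T.ht0 3) (hs_pow T.ho 1))
    (isHS_extS' (hs_pow T.ht1 3) (hs_pow T.hz 1))

theorem isHS_sN (k : ℂ) : IsHS (ext (T.LC ^ 4) T.LF ^ 2) univ (T.sN k) := by
  rw [← T.ext_eq 4]
  refine hs_sub (isHS_extS' (hs_sub (hs_pow T.ht1 7) ((hs_pow T.ht0 7).smul Complex.I))
    (hs_pow T.ho 1)) ((isHS_extS' (L := T.LC ^ (4 * 2)) ?_ (hs_pow T.hz 1)).smul k)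
  have h1 := ((hs_pow T.ht0 1).mul (hs_pow T.ht1 1)).mul (hs_pow T.hd 1)
  have h2 : T.LC ^ (1 + 1) * T.LC ^ (1 + 1) * (T.LC ^ 2) ^ (1 + 1) = T.LC ^ (4 * 2) := by
    rw [← pow_mul, ← pow_add, ← pow_add]
  rwa [h2] at h1

/-- the two sections -/
def pd (k : ℂ) : PD (AC.prod AF) (Fin 2) where
  L := ![ext (T.LC ^ 2) T.LF, ext (T.LC ^ 4) T.LF]
  k _ := 2
  s := ![T.sM, T.sN k]
  kpos _ := two_pos
  hs a := by
    fin_cases a
    · exact T.isHS_sM
    · exact T.isHS_sN k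

@[simp] theorem pd_k (k : ℂ) (a : Fin 2) : (T.pd k).k a = 2 := rfl
@[simp] theorem pd_s0 (k : ℂ) : (T.pd k).s 0 = T.sM := rfl
@[simp] theorem pd_s1 (k : ℂ) : (T.pd k).s 1 = T.sN k := rfl

end Two

/-! ### the instance -/

section Inst

variable {M : Type} [TopologicalSpace M] {A : Atl 1 M} (H : HC A)
variable {ρ : Type} [Fintype ρ] (D : Data A ρ) {A' : Atl 1 D.X} (hc : Cmp D.famX A')
  (R : Ref A' A D.p)

open Classical in
/-- pull-back of a section -/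
def upS (s : A.ι → M → ℂ) : A'.ι → D.X → ℂ := fun i q =>
  if q ∈ (A'.e i).source then s (R.r i) (D.p q) else 0

theorem upS_of_mem (s : A.ι → M → ℂ) {i : A'.ι} {q : D.X} (hq : q ∈ (A'.e i).source) :
    upS D R s i q = s (R.r i) (D.p q) := if_pos hq

theorem isHS_upS {L : LB A} {s : A.ι → M → ℂ} (hh : ∀ i, HolAt A i univ (s i))
    (ht : ∀ i j, ∀ x ∈ (A.e i).source ∩ (A.e j).source, s i x = L.g i j x * s j x) :
    IsHS (pullLB (D.holMap_p hc) R L) univ (upS D R s) := by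
  refine ⟨fun i => ?_, fun i x hx => if_neg hx, fun i j x hx _ => ?_⟩
  · intro z hz
    have hx := (A'.e i).map_target hz.1
    have hzd : z ∈ dm A' A D.p i (R.r i) := ⟨hz.1, R.sub i _ hx⟩
    have h1 : DifferentiableAt ℂ (rd A' A D.p i (R.r i)) z :=
      ((D.holMap_p hc).hol i (R.r i)).differentiableAt (((D.holMap_p hc).isOpen_dm _ _).mem_nhds hzd)
    have h2 : DifferentiableAt ℂ (fun w => s (R.r i) ((A.e (R.r i)).symm w))
        (rd A' A D.p i (R.r i) z) :=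
      (hh (R.r i)).differentiableAt ((isOpen_ti isOpen_univ).mem_nhds
        ⟨(A.e (R.r i)).map_source (R.sub i _ hx), mem_univ _⟩)
    refine ((DifferentiableAt.comp z h2 h1).congr_of_eventuallyEq ?_).differentiableWithinAt
    filter_upwards [((D.holMap_p hc).isOpen_dm _ _).mem_nhds hzd] with w hw
    rw [upS_of_mem D R s ((A'.e i).map_target hw.1)]
    show _ = s (R.r i) ((A.e (R.r i)).symm (A.e (R.r i) (D.p ((A'.e i).symm w))))
    rw [(A.e (R.r i)).left_inv hw.2]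
  · rw [upS_of_mem D R s hx.1, upS_of_mem D R s hx.2, pullLB_g (D.holMap_p hc) R L hx]
    exact ht _ _ _ ⟨R.sub i x hx.1, R.sub j x hx.2⟩

end Inst

section Two

variable {M : Type} [TopologicalSpace M] {A : Atl 1 M} (H : HC A)
  {AC : Atl 1 H.Chat.X} (hC : Cmp H.Chat.famX AC) (RC : Ref AC A H.Chat.p)
  {AF : Atl 1 H.F8.X} (hF : Cmp H.F8.famX AF) (RF : Ref AF A H.F8.p)

/-- the data for `C^` and `F8` -/
def two : Two AC AF where
  LC := pullLB (H.Chat.holMap_p hC) RC H.O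
  LF := pullLB (H.F8.holMap_p hF) RF H.O
  t0 := upS H.Chat RC H.a0
  t1 := upS H.Chat RC H.a1
  d := H.Chat.yS RC 0
  z := upS H.F8 RF H.a0
  o := upS H.F8 RF H.a1
  ht0 := isHS_upS H.Chat hC RC H.hol0 H.tr0
  ht1 := isHS_upS H.Chat hC RC H.hol1 H.tr1
  hd := by
    have h1 := H.Chat.isHS_yS hC RC 0
    have h2 : H.Chat.L 0 = H.O ^ 2 := rfl
    rw [h2, pull_pow] at h1
    exact h1
  hz := isHS_upS H.F8 hF RF H.hol0 H.tr0
  ho := isHS_upS H.F8 hF RF H.hol1 H.tr1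

end Two

end

end Crest.Agent.R272.Nl_595
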