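import Crest.Agent.R272.Asm2_102
import Crest.Agent.R272.BlA3_266
import Crest.Agent.R272.Nl1_595

/-!
# R272 (S0414), S14-TOW (helper102): the tower and the coherent roots on it

* generic part, `P : PD A ρ` with `k a = 2`, `Z` finite, `N : ∀ x : Z, Node P x`, `hadm`, `hoff`:
  `TX` (the cover over the double blow-up), `tfam`, `pr : TX → M`, `holC_pr`, properness,
  surjectivity, `mm : RtS P tfam pr`, `mm_sq`, `mm_zero`;
* product part, `T : Two AC AF`, `P := T.pd k` on `XC × XF`: `prC`, `prF`, `mM`, `mN`.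
-/

set_option autoImplicit false
set_option linter.unusedSectionVars false

open Set Filter Topology Complex

namespace Crest.Agent.R272.Tow_102

open Crest.Agent.R275.Geo Crest.Agent.R275.Core144 Crest.Agent.R275.Prod363
open Crest.Agent.R273.Fam_835 Crest.Agent.R273.Map_835 Crest.Agent.R273.PB_835
open Crest.Agent.R272.Blup1_102 Crest.Agent.R272.Two_102 Crest.Agent.R272.Asm2_102
open Crest.Agent.R272.BlA_266 Crest.Agent.R272.Adp_409 Crest.Agent.R272.Root_83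
open Crest.Agent.R272.DCov_426

noncomputable section

section Gen

variable {M : Type} [TopologicalSpace M] [T2Space M] {A : Atl 2 M} {ρ : Type} [Fintype ρ]
  (P : PD A ρ) (hk : ∀ a, P.k a = 2) {Z : Set M} (hZ : Z.Finite) (N : ∀ x : Z, Node P (x : M))
  (hadm : ∀ x, Adm (N x).sh) (hoff : ∀ x, x ∉ Z → P.Snc x)

/-- the cover over the double blow-up -/
abbrev TX : Type := (asm P hk hZ N hadm hoff).X

/-- its family of charts -/
abbrev tfam : Fam 2 (TX P hk hZ N hadm hoff) := (asm P hk hZ N hadm hoff).famX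

/-- the projection to the base -/
def pr (x : TX P hk hZ N hadm hoff) : M := piN P hZ N ((asm P hk hZ N hadm hoff).p x)

theorem holC_p2 : HolC (tfam P hk hZ N hadm hoff) (fam (D2 P hZ N).atl)
    (asm P hk hZ N hadm hoff).p := (asm P hk hZ N hadm hoff).holC_p

theorem holC_p1 : HolC (tfam P hk hZ N hadm hoff) (fam (D1 P hZ N).atl)
    (fun x => (D2 P hZ N).pi ((asm P hk hZ N hadm hoff).p x)) :=
  (holC_iff.2 (D2 P hZ N).holMap_pi).comp (holC_p2 P hk hZ N hadm hoff)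

theorem holC_pr : HolC (tfam P hk hZ N hadm hoff) (fam A) (pr P hk hZ N hadm hoff) :=
  (holC_iff.2 (holMap_piN P hZ N)).comp (holC_p2 P hk hZ N hadm hoff)

theorem continuous_pr : Continuous (pr P hk hZ N hadm hoff) := (holC_pr P hk hZ N hadm hoff).cont

theorem isProperMap_pr : IsProperMap (pr P hk hZ N hadm hoff) :=
  (D1 P hZ N).isProperMap_pi.comp ((D2 P hZ N).isProperMap_pi.comp
    (asm P hk hZ N hadm hoff).isProperMap_p)

theorem surjective_pr : Function.Surjective (pr P hk hZ N hadm hoff) :=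
  (D1 P hZ N).pi_surjective.comp ((D2 P hZ N).pi_surjective.comp
    (asm P hk hZ N hadm hoff).surjective_p)

instance t2_TX : T2Space (TX P hk hZ N hadm hoff) := (asm P hk hZ N hadm hoff).t2_X

instance compact_TX [CompactSpace M] : CompactSpace (TX P hk hZ N hadm hoff) :=
  (asm P hk hZ N hadm hoff).compact_X

include hoff in
/-- normal crossings on the second blow-up -/
theorem snc_asm : ∀ y, (P2 ((nodeCen N).pd P) (D1 P hZ N) (sh1 P hZ N) hk (ok1 P hZ N) hadm).Snc y :=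
  snc2 ((nodeCen N).pd P) (D1 P hZ N) (sh1 P hZ N) hk (ok1 P hZ N) hadm
    fun x hx => (nodeCen N).pd_snc P |>.2 (hoff x (by rwa [D1_Z] at hx))

/-- the roots for the data on the second blow-up -/
def mm2 : RtS (P2 ((nodeCen N).pd P) (D1 P hZ N) (sh1 P hZ N) hk (ok1 P hZ N) hadm)
    (tfam P hk hZ N hadm hoff) (asm P hk hZ N hadm hoff).p :=
  RtS.ofData _ (snc_asm P hk hZ N hadm hoff)

/-- the roots for the data on the first blow-up -/
def mm1 : RtS (P1 ((nodeCen N).pd P) (D1 P hZ N) (sh1 P hZ N) hk (ok1 P hZ N))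
    (tfam P hk hZ N hadm hoff) (fun x => (D2 P hZ N).pi ((asm P hk hZ N hadm hoff).p x)) :=
  RtS.up (P := P1 ((nodeCen N).pd P) (D1 P hZ N) (sh1 P hZ N) hk (ok1 P hZ N)) (C := D2 P hZ N)
    (m := mult (D2 P hZ N) (sh2 (D1 P hZ N) (sh1 P hZ N)))
    (hm := ord_mult _ _ _ hk (ok2 ((nodeCen N).pd P) (D1 P hZ N) (sh1 P hZ N) hk (ok1 P hZ N) hadm))
    (mm2 P hk hZ N hadm hoff) (holC_p2 P hk hZ N hadm hoff)

/-- the roots for the data on the enlarged atlas -/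
def mm0 : RtS ((nodeCen N).pd P) (tfam P hk hZ N hadm hoff) (pr P hk hZ N hadm hoff) :=
  RtS.up (P := (nodeCen N).pd P) (C := D1 P hZ N) (m := mult (D1 P hZ N) (sh1 P hZ N))
    (hm := ord_mult _ _ _ hk (ok1 P hZ N))
    (mm1 P hk hZ N hadm hoff) (holC_p1 P hk hZ N hadm hoff)

/-- **the coherent roots of the sections on the tower** -/
def mm : RtS P (tfam P hk hZ N hadm hoff) (pr P hk hZ N hadm hoff) :=
  (mm0 P hk hZ N hadm hoff).ofPd

variable {P hk hZ N hadm hoff}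

theorem mm_sq (a : ρ) {i : A.ι} {x : TX P hk hZ N hadm hoff}
    (hi : pr P hk hZ N hadm hoff x ∈ (A.e i).source) :
    (mm P hk hZ N hadm hoff).R a i x ^ 2 = P.s a i (pr P hk hZ N hadm hoff x) := by
  have h := (mm P hk hZ N hadm hoff).pow a i x hi
  rwa [hk a] at h

theorem mm_zero (a : ρ) {i : A.ι} {x : TX P hk hZ N hadm hoff}
    (hi : pr P hk hZ N hadm hoff x ∈ (A.e i).source) :
    (mm P hk hZ N hadm hoff).R a i x = 0 ↔ P.s a i (pr P hk hZ N hadm hoff x) = 0 :=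
  (mm P hk hZ N hadm hoff).R_eq_zero hi

theorem mm_tr (a : ρ) {i j : A.ι} {x : TX P hk hZ N hadm hoff}
    (hi : pr P hk hZ N hadm hoff x ∈ (A.e i).source)
    (hj : pr P hk hZ N hadm hoff x ∈ (A.e j).source) :
    (mm P hk hZ N hadm hoff).R a i x =
      (P.L a).g i j (pr P hk hZ N hadm hoff x) * (mm P hk hZ N hadm hoff).R a j x :=
  (mm P hk hZ N hadm hoff).tr a i j x hi hj

theorem mm_hg (a : ρ) {i : A.ι} {x : TX P hk hZ N hadm hoff}
    (hi : pr P hk hZ N hadm hoff x ∈ (A.e i).source) :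
    HG (tfam P hk hZ N hadm hoff) x ((mm P hk hZ N hadm hoff).R a i) :=
  (mm P hk hZ N hadm hoff).hg a i x hi

/-- **explicit form of the roots**: the frames upstairs -/
theorem mm_R (a : ρ) {i : A.ι} {j₁ : (D1 P hZ N).atl.ι} {j₂ : (D2 P hZ N).atl.ι}
    {x : TX P hk hZ N hadm hoff} (hi : pr P hk hZ N hadm hoff x ∈ (A.e i).source)
    (h₁ : (D2 P hZ N).pi ((asm P hk hZ N hadm hoff).p x) ∈ ((D1 P hZ N).atl.e j₁).source)
    (h₂ : (asm P hk hZ N hadm hoff).p x ∈ ((D2 P hZ N).atl.e j₂).source) :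
    (mm P hk hZ N hadm hoff).R a i x =
      (((nodeCen N).pd P).L a).g (Sum.inl i) ((D1 P hZ N).refPi.r j₁) (pr P hk hZ N hadm hoff x) *
        (D1 P hZ N).ese (mult (D1 P hZ N) (sh1 P hZ N) a) j₁
          ((D2 P hZ N).pi ((asm P hk hZ N hadm hoff).p x)) *
      (((P1 ((nodeCen N).pd P) (D1 P hZ N) (sh1 P hZ N) hk (ok1 P hZ N)).L a).g j₁
          ((D2 P hZ N).refPi.r j₂) ((D2 P hZ N).pi ((asm P hk hZ N hadm hoff).p x)) *
        (D2 P hZ N).ese (mult (D2 P hZ N) (sh2 (D1 P hZ N) (sh1 P hZ N)) a) j₂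
          ((asm P hk hZ N hadm hoff).p x) *
      (asm P hk hZ N hadm hoff).y a j₂ x) := by
  have e1 := RtS.up_R (P := (nodeCen N).pd P) (C := D1 P hZ N)
    (m := mult (D1 P hZ N) (sh1 P hZ N)) (hm := ord_mult _ _ _ hk (ok1 P hZ N))
    (mm1 P hk hZ N hadm hoff) (holC_p1 P hk hZ N hadm hoff) a (i := Sum.inl i) (j := j₁) (x := x)
    hi h₁
  have e2 := RtS.up_R (P := P1 ((nodeCen N).pd P) (D1 P hZ N) (sh1 P hZ N) hk (ok1 P hZ N))
    (C := D2 P hZ N) (m := mult (D2 P hZ N) (sh2 (D1 P hZ N) (sh1 P hZ N)))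
    (hm := ord_mult _ _ _ hk (ok2 ((nodeCen N).pd P) (D1 P hZ N) (sh1 P hZ N) hk (ok1 P hZ N) hadm))
    (mm2 P hk hZ N hadm hoff) (holC_p2 P hk hZ N hadm hoff) a (i := j₁) (j := j₂) (x := x) h₁ h₂
  refine e1.trans (congrArg _ e2)

end Gen

/-! ### the product of the two curves -/

section Prod

variable {XC XF : Type} [TopologicalSpace XC] [TopologicalSpace XF] [T2Space XC] [T2Space XF]
  {AC : Atl 1 XC} {AF : Atl 1 XF}

section Pro

variable {ρ : Type} [Fintype ρ] {P : PD (AC.prod AF) ρ} {hk : ∀ a, P.k a = 2} {Z : Set (XC × XF)}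
  {hZ : Z.Finite} {N : ∀ x : Z, Node P (x : XC × XF)} {hadm : ∀ x, Adm (N x).sh}
  {hoff : ∀ x, x ∉ Z → P.Snc x}

/-- the projection to the first curve -/
def prC (x : TX P hk hZ N hadm hoff) : XC := (pr P hk hZ N hadm hoff x).1

/-- the projection to the second curve -/
def prF (x : TX P hk hZ N hadm hoff) : XF := (pr P hk hZ N hadm hoff x).2

theorem pr_eq (x : TX P hk hZ N hadm hoff) : pr P hk hZ N hadm hoff x = (prC x, prF x) := rfl

theorem holC_prC : HolC (tfam P hk hZ N hadm hoff) (fam AC)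
    (prC : TX P hk hZ N hadm hoff → XC) :=
  (holC_iff.2 (Pr_414.fst AC AF)).comp (holC_pr P hk hZ N hadm hoff)

theorem holC_prF : HolC (tfam P hk hZ N hadm hoff) (fam AF)
    (prF : TX P hk hZ N hadm hoff → XF) :=
  (holC_iff.2 (Pr_414.snd AC AF)).comp (holC_pr P hk hZ N hadm hoff)

theorem continuous_prC : Continuous (prC : TX P hk hZ N hadm hoff → XC) := holC_prC.cont

theorem continuous_prF : Continuous (prF : TX P hk hZ N hadm hoff → XF) := holC_prF.cont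

theorem mem_source {i : AC.ι} {j : AF.ι} {x : TX P hk hZ N hadm hoff} :
    pr P hk hZ N hadm hoff x ∈ ((AC.prod AF).e (i, j)).source ↔
      prC x ∈ (AC.e i).source ∧ prF x ∈ (AF.e j).source := Iff.rfl

end Pro

open Nl_595

variable (T : Two AC AF) (k : ℂ) {Z : Set (XC × XF)} {hZ : Z.Finite}
  {N : ∀ x : Z, Node (T.pd k) (x : XC × XF)} {hadm : ∀ x, Adm (N x).sh}
  {hoff : ∀ x, x ∉ Z → (T.pd k).Snc x}

/-- the root of `s_M` in the frame `(i, j)` -/
def mM (i : AC.ι) (j : AF.ι) (x : TX (T.pd k) (T.pd_k k) hZ N hadm hoff) : ℂ :=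
  (mm (T.pd k) (T.pd_k k) hZ N hadm hoff).R 0 (i, j) x

/-- the root of `s_N` in the frame `(i, j)` -/
def mN (i : AC.ι) (j : AF.ι) (x : TX (T.pd k) (T.pd_k k) hZ N hadm hoff) : ℂ :=
  (mm (T.pd k) (T.pd_k k) hZ N hadm hoff).R 1 (i, j) x

variable {T k} {i i' : AC.ι} {j j' : AF.ι} {x : TX (T.pd k) (T.pd_k k) hZ N hadm hoff}

theorem mM_sq (hx : prC x ∈ (AC.e i).source) (hy : prF x ∈ (AF.e j).source) :
    mM T k i j x ^ 2 = T.sM (i, j) (prC x, prF x) :=
  mm_sq (P := T.pd k) 0 (i := (i, j)) (x := x) ⟨hx, hy⟩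

theorem mN_sq (hx : prC x ∈ (AC.e i).source) (hy : prF x ∈ (AF.e j).source) :
    mN T k i j x ^ 2 = T.sN k (i, j) (prC x, prF x) :=
  mm_sq (P := T.pd k) 1 (i := (i, j)) (x := x) ⟨hx, hy⟩

theorem mM_sq' (hx : prC x ∈ (AC.e i).source) (hy : prF x ∈ (AF.e j).source) :
    mM T k i j x ^ 2 = T.o j (prF x) ^ 2 * T.t0 i (prC x) ^ 4 -
      T.z j (prF x) ^ 2 * T.t1 i (prC x) ^ 4 := by
  rw [mM_sq hx hy, T.sM_apply]

theorem mN_sq' (hx : prC x ∈ (AC.e i).source) (hy : prF x ∈ (AF.e j).source) :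
    mN T k i j x ^ 2 = T.o j (prF x) ^ 2 * (T.t1 i (prC x) ^ 8 - Complex.I * T.t0 i (prC x) ^ 8) -
      k * (T.t0 i (prC x) ^ 2 * T.t1 i (prC x) ^ 2 * T.d i (prC x) ^ 2 * T.z j (prF x) ^ 2) := by
  rw [mN_sq hx hy, T.sN_apply]

theorem mM_zero (hx : prC x ∈ (AC.e i).source) (hy : prF x ∈ (AF.e j).source) :
    mM T k i j x = 0 ↔ T.sM (i, j) (prC x, prF x) = 0 :=
  mm_zero (P := T.pd k) 0 (i := (i, j)) (x := x) ⟨hx, hy⟩

theorem mN_zero (hx : prC x ∈ (AC.e i).source) (hy : prF x ∈ (AF.e j).source) :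
    mN T k i j x = 0 ↔ T.sN k (i, j) (prC x, prF x) = 0 :=
  mm_zero (P := T.pd k) 1 (i := (i, j)) (x := x) ⟨hx, hy⟩

theorem mM_hg (hx : prC x ∈ (AC.e i).source) (hy : prF x ∈ (AF.e j).source) :
    HG (tfam (T.pd k) (T.pd_k k) hZ N hadm hoff) x (mM T k i j) :=
  mm_hg (P := T.pd k) 0 (i := (i, j)) (x := x) ⟨hx, hy⟩

theorem mN_hg (hx : prC x ∈ (AC.e i).source) (hy : prF x ∈ (AF.e j).source) :
    HG (tfam (T.pd k) (T.pd_k k) hZ N hadm hoff) x (mN T k i j) :=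
  mm_hg (P := T.pd k) 1 (i := (i, j)) (x := x) ⟨hx, hy⟩

/-- the transition factor of the root of `s_M` -/
theorem mM_tr (hx : prC x ∈ (AC.e i).source) (hy : prF x ∈ (AF.e j).source)
    (hx' : prC x ∈ (AC.e i').source) (hy' : prF x ∈ (AF.e j').source) :
    mM T k i j x = T.LC.g i i' (prC x) ^ 2 * T.LF.g j j' (prF x) * mM T k i' j' x := by
  have h := mm_tr (P := T.pd k) 0 (i := (i, j)) (j := (i', j')) (x := x) ⟨hx, hy⟩ ⟨hx', hy'⟩
  refine h.trans (congrArg (· * mM T k i' j' x) ?_)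
  show (Pr_414.ext (T.LC ^ 2) T.LF).g (i, j) (i', j') (prC x, prF x) = _
  rw [Pr_414.ext_g _ _ (x := (prC x, prF x)) ⟨⟨hx, hy⟩, ⟨hx', hy'⟩⟩, LB_pow_g]

/-- the transition factor of the root of `s_N` -/
theorem mN_tr (hx : prC x ∈ (AC.e i).source) (hy : prF x ∈ (AF.e j).source)
    (hx' : prC x ∈ (AC.e i').source) (hy' : prF x ∈ (AF.e j').source) :
    mN T k i j x = T.LC.g i i' (prC x) ^ 4 * T.LF.g j j' (prF x) * mN T k i' j' x := by
  have h := mm_tr (P := T.pd k) 1 (i := (i, j)) (j := (i', j')) (x := x) ⟨hx, hy⟩ ⟨hx', hy'⟩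
  refine h.trans (congrArg (· * mN T k i' j' x) ?_)
  show (Pr_414.ext (T.LC ^ 4) T.LF).g (i, j) (i', j') (prC x, prF x) = _
  rw [Pr_414.ext_g _ _ (x := (prC x, prF x)) ⟨⟨hx, hy⟩, ⟨hx', hy'⟩⟩, LB_pow_g]

end Prod

end

end Crest.Agent.R272.Tow_102
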