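import Crest.Agent.R272.Ne0_595
import Crest.Agent.R272.Mf_839
import Crest.Agent.R272.Tow_102
import Crest.Agent.R272.Nl3_595
import Crest.Agent.R272.Main14b_414

/-!
# R272 (S0414), NEAR (helper595), part 1: 414's `NearX` for the literal model

For `M : NLoc ka`, `π1 = kC ∘ prC`, `π2 = kF ∘ prF` and any set `Z` over the special centre `P0`:
`T0 = τ`, `Sf = ω`, `RM = mM`, `RN = mN / sqrt (τ⁸ - i)`.
-/

set_option autoImplicit false
set_option linter.unusedSectionVars false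

open Set Filter Topology Complex

namespace Crest.Agent.R272.Ne_595

open Crest.Agent.R275.Geo Crest.Agent.R275.Core144
open Crest.Agent.R273.Fam_835 Crest.Agent.R273.Map_835
open Crest.Agent.R272.FamP_54 Crest.Agent.R272.P1F_54 Crest.Agent.R272.DCov_426
open Crest.Agent.R272.P1S_590 Crest.Agent.R272.Hom_839 Crest.Agent.R272.M14_590
open Crest.Agent.R272.P1L_426 (Ch F8 CC BB f16 f8 f4 g8)
open Crest.Agent.R272.Root_83 Crest.Agent.R272.Nl_595
open Crest.Agent.R272.Mf_839 (ka ka_pow f f_rep)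
open Crest.Agent.R272.Dt14_414 Crest.Agent.R272.Main14_414

noncomputable section

/-! ### the square root of `1 / (τ⁸ - i)` -/

/-- a branch of `(τ⁸ - i)^(-1/2)` near `0` -/
def cN (t : ℂ) : ℂ := sq I * cexp (-(log (1 + I * t ^ 8) / 2))

theorem cN_an : AnalyticAt ℂ cN 0 := by
  unfold cN
  refine analyticAt_const.mul (AnalyticAt.cexp (AnalyticAt.neg (AnalyticAt.div_const
    (AnalyticAt.clog ?_ ?_))))
  · exact analyticAt_const.add (analyticAt_const.mul (analyticAt_id.pow 8))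
  · simp [Complex.one_mem_slitPlane]

theorem cN_zero : cN 0 = sq I := by
  unfold cN
  simp

theorem cN_zero_sq : cN 0 ^ 2 = I := by rw [cN_zero, sq_sq]

theorem cN_sq {t : ℂ} (h : 1 + I * t ^ 8 ≠ 0) : cN t ^ 2 * (t ^ 8 - I) = 1 := by
  have h1 : cexp (-(log (1 + I * t ^ 8) / 2)) ^ 2 = (1 + I * t ^ 8)⁻¹ := by
    rw [← Complex.exp_nat_mul]
    have h2 : ((2 : ℕ) : ℂ) * -(log (1 + I * t ^ 8) / 2) = -log (1 + I * t ^ 8) := by
      push_cast
      ring
    rw [h2, Complex.exp_neg, Complex.exp_log h]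
  unfold cN
  rw [mul_pow, sq_sq, h1]
  have h3 : t ^ 8 - I = -I * (1 + I * t ^ 8) := by
    linear_combination t ^ 8 * I_sq
  rw [h3]
  field_simp
  linear_combination -I_sq

theorem cN_ev : ∀ᶠ t in 𝓝 (0 : ℂ), cN t ^ 2 * (t ^ 8 - I) = 1 ∧ t ^ 8 - I ≠ 0 := by
  have h1 : ContinuousAt (fun t : ℂ => 1 + I * t ^ 8) 0 := by fun_prop
  have h2 : ∀ᶠ t in 𝓝 (0 : ℂ), 1 + I * t ^ 8 ≠ 0 := by
    refine h1.eventually_ne ?_
    simp
  filter_upwards [h2] with t ht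
  refine ⟨cN_sq ht, fun h0 => ?_⟩
  have h3 := cN_sq ht
  rw [h0, mul_zero] at h3
  exact zero_ne_one h3

/-! ### `f` in the coordinates -/

theorem f2_f {c : CC.X} {a v : ℂ} (r : Rep CC (fun _ => 2) c 1 a (fun _ => v))
    (h : a ^ 4 - I ≠ 0) : f2 (f c) = ka * a * v / (a ^ 4 - I) := by
  have r' := f_rep r
  have h' : a ^ 4 - I * 1 ^ 4 ≠ 0 := by
    rw [one_pow, mul_one]
    exact h
  rw [f2_rep r' h', one_pow, mul_one, mul_one]

/-- the factor of `f` -/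
theorem he : ∃ e : CC.X → ℂ, HG (fam CC.atlX) z0 e ∧ e z0 = g0 ka ^ 2 ∧
    ∀ᶠ z in 𝓝 z0, f2 (f z) = f1 z * e z := by
  have hs : CC.p z0 ∈ (A1.e false).source := src_of_rep rep_z0
  have hy : CC.y 0 false z0 = -1 := y_of_rep rep_z0 0
  have hd : HG (fam CC.atlX) z0 (fun c => f1 c ^ 4 - I) := (lc1.1.pow 4).sub (HG.const I)
  have hd0 : (fun c => f1 c ^ 4 - I) z0 ≠ 0 := by
    show f1 z0 ^ 4 - I ≠ 0
    rw [f1_z0]
    simp [I_ne_zero]
  have hd' : ∀ᶠ c in 𝓝 z0, f1 c ^ 4 - I ≠ 0 := hd.continuousAt.eventually_ne hd0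
  refine ⟨fun c => ka * CC.y 0 false c * (f1 c ^ 4 - I)⁻¹,
    ((HG.const ka).mul (NlB_426.hg_y CC CC.cmp_atlX hs 0)).mul (hd.inv hd0), ?_, ?_⟩
  · show ka * CC.y 0 false z0 * (f1 z0 ^ 4 - I)⁻¹ = g0 ka ^ 2
    rw [hy, f1_z0, g0_sq]
    have h1 : ((0 : ℂ) ^ 4 - I)⁻¹ = I := by
      rw [zero_pow (by norm_num), zero_sub, inv_neg, inv_I, neg_neg]
    rw [h1]
    ring
  · filter_upwards [hd', NlB_426.ev_src CC hs] with c h1 h2
    have r := isHom_CC.rep_norm (s := false) h2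
    rw [u0_false, u1_false] at r
    have h3 : (fun a : Fin 1 => CC.y a false c) = fun _ => CC.y 0 false c := by
      funext a
      rw [Fin.fin_one_eq_zero a]
    rw [h3] at r
    have h4 := f2_f r (by exact h1)
    rw [h4]
    show ka * f1 c * CC.y 0 false c / (f1 c ^ 4 - I) = f1 c * (ka * CC.y 0 false c * (f1 c ^ 4 - I)⁻¹)
    field_simp

/-! ### frames at the special point -/

theorem not_src_true : (pt 1 0 : P1) ∉ (A1.e true).source := by
  rw [mem_src_pt (Or.inl one_ne_zero)]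
  simp

/-- a chart at `p1` -/
def i0 : Ch.atlX.ι := (Ch.atlX.cover p1).choose
theorem hi0 : p1 ∈ (Ch.atlX.e i0).source := (Ch.atlX.cover p1).choose_spec

/-- a chart at `p2` -/
def j0 : F8.atlX.ι := (F8.atlX.cover p2).choose
theorem hj0 : p2 ∈ (F8.atlX.e j0).source := (F8.atlX.cover p2).choose_spec

theorem ri0 : Ch.refX.r i0 = false := by
  by_contra h
  have h1 : Ch.refX.r i0 = true := by simpa using h
  have h2 := Ch.refX.sub i0 p1 hi0
  rw [h1, rep_p1.p] at h2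
  exact not_src_true h2

theorem rj0 : F8.refX.r j0 = false := by
  by_contra h
  have h1 : F8.refX.r j0 = true := by simpa using h
  have h2 := F8.refX.sub j0 p2 hj0
  rw [h1, rep_p2.p] at h2
  exact not_src_true h2

theorem src_i0 {q : Ch.X} (hq : q ∈ (Ch.atlX.e i0).source) : Ch.p q ∈ (A1.e false).source := by
  have h := Ch.refX.sub i0 q hq
  rwa [ri0] at h

theorem src_j0 {q : F8.X} (hq : q ∈ (F8.atlX.e j0).source) : F8.p q ∈ (A1.e false).source := by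
  have h := F8.refX.sub j0 q hq
  rwa [rj0] at h

theorem sM_i0 {x : Ch.X} {y : F8.X} (hx : x ∈ (Ch.atlX.e i0).source)
    (hy : y ∈ (F8.atlX.e j0).source) :
    TW.sM (i0, j0) (x, y) = NlB_426.om false y ^ 2 - NlB_426.t1 false x ^ 4 := by
  have h := two14_sM Ch.cmp_atlX Ch.refX F8.cmp_atlX F8.refX hx hy
  rw [ri0, rj0] at h
  refine h.trans ?_
  rw [u0_false, u0_false]
  show NlB_426.om false y ^ 2 * 1 ^ 4 - 1 ^ 2 * NlB_426.t1 false x ^ 4 = _
  ring

theorem sN_i0 (k : ℂ) {x : Ch.X} {y : F8.X} (hx : x ∈ (Ch.atlX.e i0).source)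
    (hy : y ∈ (F8.atlX.e j0).source) :
    TW.sN k (i0, j0) (x, y) = NlB_426.om false y ^ 2 * (NlB_426.t1 false x ^ 8 - I) -
      k * NlB_426.t1 false x ^ 2 * NlB_426.dl false x ^ 2 := by
  have h := two14_sN Ch.cmp_atlX Ch.refX F8.cmp_atlX F8.refX k hx hy
  rw [ri0, rj0] at h
  refine h.trans ?_
  rw [u0_false, u0_false]
  show NlB_426.om false y ^ 2 * (NlB_426.t1 false x ^ 8 - I * 1 ^ 8) -
    k * (1 ^ 2 * NlB_426.t1 false x ^ 2 * NlB_426.dl false x ^ 2 * 1 ^ 2) = _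
  ring

/-! ### the functions on the surface -/

section Inst

variable {k : ℂ} (M : NLoc k)

/-- the projection to `N` -/
def pN (x : M.D.X) : Ch.X × F8.X :=
  Tow_102.pr (TW.pd k) (TW.pd_k k) M.fin M.N M.adm M.off x

/-- the projection to `C^` -/
def pC (x : M.D.X) : Ch.X := (pN M x).1

/-- the projection to `F8` -/
def pF (x : M.D.X) : F8.X := (pN M x).2

theorem holC_pN : HolC M.D.famX (fam AN) (pN M) :=
  Tow_102.holC_pr (TW.pd k) (TW.pd_k k) M.fin M.N M.adm M.off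

theorem holC_pC : HolC M.D.famX (fam Ch.atlX) (pC M) :=
  (holC_iff.2 (Pr_414.fst Ch.atlX F8.atlX)).comp (holC_pN M)

theorem holC_pF : HolC M.D.famX (fam F8.atlX) (pF M) :=
  (holC_iff.2 (Pr_414.snd Ch.atlX F8.atlX)).comp (holC_pN M)

/-- `π1` -/
def π1 (x : M.D.X) : CC.X := kC (pC M x)
/-- `π2` -/
def π2 (x : M.D.X) : BB.X := kF (pF M x)

theorem holC_π1 : HolC M.D.famX (fam CC.atlX) (π1 M) :=
  (holC_iff.2 holMap_kC).comp (holC_pC M)
theorem holC_π2 : HolC M.D.famX (fam BB.atlX) (π2 M) :=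
  (holC_iff.2 holMap_kF).comp (holC_pF M)

/-- `T = τ` -/
def T0 (x : M.D.X) : ℂ := NlB_426.t1 false (pC M x)
/-- `S = ω` -/
def Sf (x : M.D.X) : ℂ := NlB_426.om false (pF M x)
/-- the root of `s_M` -/
def RM (x : M.D.X) : ℂ :=
  Tow_102.mM TW k (hZ := M.fin) (N := M.N) (hadm := M.adm) (hoff := M.off) i0 j0 x
/-- the root of `s_N` -/
def RN0 (x : M.D.X) : ℂ :=
  Tow_102.mN TW k (hZ := M.fin) (N := M.N) (hadm := M.adm) (hoff := M.off) i0 j0 x
/-- the root of `ω² - f` -/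
def RN (x : M.D.X) : ℂ := RN0 M x * cN (T0 M x)

variable {M} {x : M.D.X}

theorem ev_pC (hx : pN M x = P0) : ∀ᶠ z in 𝓝 x, pC M z ∈ (Ch.atlX.e i0).source := by
  refine (holC_pC M).cont.continuousAt.preimage_mem_nhds ((Ch.atlX.e i0).open_source.mem_nhds ?_)
  show (pN M x).1 ∈ _
  rw [hx]
  exact hi0

theorem ev_pF (hx : pN M x = P0) : ∀ᶠ z in 𝓝 x, pF M z ∈ (F8.atlX.e j0).source := by
  refine (holC_pF M).cont.continuousAt.preimage_mem_nhds ((F8.atlX.e j0).open_source.mem_nhds ?_)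
  show (pN M x).2 ∈ _
  rw [hx]
  exact hj0

theorem pC_eq (hx : pN M x = P0) : pC M x = p1 := by
  show (pN M x).1 = p1
  rw [hx]
  rfl

theorem pF_eq (hx : pN M x = P0) : pF M x = p2 := by
  show (pN M x).2 = p2
  rw [hx]
  rfl

theorem π1_eq (hx : pN M x = P0) : π1 M x = z0 := by
  rw [π1, pC_eq hx, kC_p1]

theorem π2_eq (hx : pN M x = P0) : π2 M x = w0 := by
  rw [π2, pF_eq hx, kF_p2]

theorem hg_T0 (hx : pN M x = P0) : HG M.D.famX x (T0 M) := by
  have h : HG (fam Ch.atlX) (pC M x) (NlB_426.t1 false) := by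
    rw [pC_eq hx]
    exact NlB_426.hg_pc Ch Ch.cmp_atlX src_p1
  exact h.comp (holC_pC M)

theorem hg_Sf (hx : pN M x = P0) : HG M.D.famX x (Sf M) := by
  have h : HG (fam F8.atlX) (pF M x) (NlB_426.om false) := by
    rw [pF_eq hx]
    exact NlB_426.hg_pc F8 F8.cmp_atlX src_p2
  exact h.comp (holC_pF M)

theorem T0_zero (hx : pN M x = P0) : T0 M x = 0 := by
  rw [T0, pC_eq hx, t1_p1]

theorem Sf_zero (hx : pN M x = P0) : Sf M x = 0 := by
  rw [Sf, pF_eq hx, om_p2]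

theorem hg_RM (hx : pN M x = P0) : HG M.D.famX x (RM M) :=
  Tow_102.mM_hg (ev_pC hx).self_of_nhds (ev_pF hx).self_of_nhds

theorem hg_RN0 (hx : pN M x = P0) : HG M.D.famX x (RN0 M) :=
  Tow_102.mN_hg (ev_pC hx).self_of_nhds (ev_pF hx).self_of_nhds

theorem hg_RN (hx : pN M x = P0) : HG M.D.famX x (RN M) := by
  refine (hg_RN0 hx).mul (UnB_894.HG.comp1 (g := cN) (hg_T0 hx) ?_)
  rw [T0_zero hx]
  exact cN_an

theorem RM_sq (h1 : pC M x ∈ (Ch.atlX.e i0).source) (h2 : pF M x ∈ (F8.atlX.e j0).source) :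
    RM M x ^ 2 = Sf M x ^ 2 - T0 M x ^ 4 := by
  have h := Tow_102.mM_sq (T := TW) (k := k) (hZ := M.fin) (N := M.N) (hadm := M.adm)
    (hoff := M.off) (x := x) h1 h2
  exact h.trans (sM_i0 h1 h2)

theorem RN0_sq (h1 : pC M x ∈ (Ch.atlX.e i0).source) (h2 : pF M x ∈ (F8.atlX.e j0).source) :
    RN0 M x ^ 2 = Sf M x ^ 2 * (T0 M x ^ 8 - I) -
      k * T0 M x ^ 2 * NlB_426.dl false (pC M x) ^ 2 := by
  have h := Tow_102.mN_sq (T := TW) (k := k) (hZ := M.fin) (N := M.N) (hadm := M.adm)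
    (hoff := M.off) (x := x) h1 h2
  exact h.trans (sN_i0 k h1 h2)

end Inst

variable (M : NLoc ka)

/-- **414's `NearX` for the literal model** -/
theorem nearX {Z : Set M.D.X} (hZ : ∀ x ∈ Z, pN M x = P0) :
    NearX M.D.famX CC.atlX BB.atlX phi f z0 w0 (π1 M) (π2 M) f1 f2 (g0 ka) Z (Sf M) (T0 M)
      (RM M) (RN M) where
  lc1 := lc_iff.1 lc1
  lc2 := lc_iff.1 lc2
  f1z := f1_z0
  f2w := f2_w0
  ne := g0_ne ka_pow
  he := he
  hZ x hx := ⟨π1_eq (hZ x hx), π2_eq (hZ x hx)⟩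
  hS x hx := hg_Sf (hZ x hx)
  hT x hx := hg_T0 (hZ x hx)
  hM x hx := hg_RM (hZ x hx)
  hN x hx := hg_RN (hZ x hx)
  sS x hx := by
    filter_upwards [ev_pF (hZ x hx)] with z h
    exact (f2_kF (src_j0 h)).symm
  sT x hx := by
    filter_upwards [ev_pC (hZ x hx)] with z h
    exact (f1_kC (src_i0 h)).symm
  sM x hx := by
    filter_upwards [ev_pC (hZ x hx), ev_pF (hZ x hx)] with z h1 h2
    have h3 : f2 (π2 M z) = Sf M z ^ 2 := f2_kF (src_j0 h2)
    have h4 : f2 (phi (π1 M z)) = (T0 M z ^ 2) ^ 2 := by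
      have r := rep_phi (rep_kC_norm (src_i0 h1))
      rw [one_pow] at r
      have h5 := f2_rep r one_ne_zero
      rw [div_one] at h5
      exact h5
    rw [h3, h4, RM_sq h1 h2]
    ring
  sN x hx := by
    have hT := (hg_T0 (hZ x hx)).continuousAt
    rw [ContinuousAt, T0_zero (hZ x hx)] at hT
    filter_upwards [ev_pC (hZ x hx), ev_pF (hZ x hx), hT.eventually cN_ev] with z h1 h2 h3
    have h4 : f2 (π2 M z) = Sf M z ^ 2 := f2_kF (src_j0 h2)
    have h5 : (T0 M z ^ 2) ^ 4 - I ≠ 0 := by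
      rw [← pow_mul]
      exact h3.2
    have h6 : f2 (f (π1 M z)) = ka * T0 M z ^ 2 * NlB_426.dl false (pC M z) ^ 2 /
        ((T0 M z ^ 2) ^ 4 - I) := f2_f (rep_kC_norm (src_i0 h1)) h5
    rw [h4, h6]
    show (RN0 M z * cN (T0 M z)) ^ 2 = _
    rw [mul_pow, RN0_sq h1 h2]
    have h7 : cN (T0 M z) ^ 2 = (T0 M z ^ 8 - I)⁻¹ := eq_inv_of_mul_eq_one_left h3.1
    have h8 : (T0 M z ^ 2) ^ 4 - I = T0 M z ^ 8 - I := by ring
    have h9 := h3.2
    rw [h7, h8]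
    field_simp

end

end Crest.Agent.R272.Ne_595
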