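import Crest.Agent.R272.CycI1_760
import Crest.Agent.R272.CyB5_894
import Crest.Agent.R272.Cyc5_760
import Crest.Agent.R272.Ne1_595

/-!
# R272 (S0414), the instance of the curves (helper760), part 2: the cycle on 102's tower

* `cyc`   : `CycD (asm ..)` from the two sheets of helper266;
* `pr_Z`  : the four curves lie over the centre;
* `slopeA`, `slopeB` : the values of `S / T` along the curves (83's (V1), (V2));
* the same for `M : NLoc k` with the node of type `P` at `P0` : `curM`, `pN_curM`, `slopeM`, `slopeM'`.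
-/

set_option autoImplicit false
set_option linter.unusedSectionVars false

open Set Filter Topology Complex

namespace Crest.Agent.R272.CycI_760

open Crest.Agent.R275.Geo Crest.Agent.R275.Core144
open Crest.Agent.R273.Map_835 Crest.Agent.R273.Fam_835 Crest.Agent.R273.PB_835
open Crest.Agent.R272.DCov_426 Crest.Agent.R272.Adp_409
open Crest.Agent.R272.Blup1_102 Crest.Agent.R272.BlA_266 Crest.Agent.R272.Asm2_102
open Crest.Agent.R272.Cyc_760 Crest.Agent.R272.CyB_894 Crest.Agent.R272.Gm3_235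
open Crest.Agent.R272.Top14_414

noncomputable section

section gen

variable {M : Type} [TopologicalSpace M] [T2Space M] {A : Atl 2 M} (P : PD A (Fin 2))
  (hk : ∀ a, P.k a = 2) {Z : Set M} (hZ : Z.Finite) (N : ∀ x : Z, Node P (x : M))
  (hadm : ∀ x, Adm (N x).sh) (hoff : ∀ x, x ∉ Z → P.Snc x)
  (t : (D1 P hZ N).S) (ht : t ∈ tau (D1 P hZ N) (sh1 P hZ N)) {B B' : V2 ≃L[ℂ] V2}
  (Sα : Sheet (asm P hk hZ N hadm hoff) 0 1 ((two14 P hZ N t ht).str.pre B))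
  (Sβ : Sheet (asm P hk hZ N hadm hoff) 1 0 ((exc (D2 P hZ N) (two14 P hZ N t ht).s2).pre B'))

/-- **the cycle on the tower** -/
def cyc : CycD (asm P hk hZ N hadm hoff) := (two14 P hZ N t ht).cycD B B' Sα Sβ

theorem cyc_α : (cyc P hk hZ N hadm hoff t ht Sα Sβ).α = (two14 P hZ N t ht).str.pre B := rfl
theorem cyc_β : (cyc P hk hZ N hadm hoff t ht Sα Sβ).β =
    (exc (D2 P hZ N) (two14 P hZ N t ht).s2).pre B' := rfl
theorem cyc_Sα : (cyc P hk hZ N hadm hoff t ht Sα Sβ).Sα = Sα := rfl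
theorem cyc_Sβ : (cyc P hk hZ N hadm hoff t ht Sα Sβ).Sβ = Sβ := rfl
theorem cyc_w₁ : (cyc P hk hZ N hadm hoff t ht Sα Sβ).w₁ = B.symm Two.e0 := rfl
theorem cyc_w₂ : (cyc P hk hZ N hadm hoff t ht Sα Sβ).w₂ = B'.symm Two.e1 := rfl

/-- the four curves lie over the centre -/
theorem pr_Z {x : (asm P hk hZ N hadm hoff).X} (hx : x ∈ (cyc P hk hZ N hadm hoff t ht Sα Sβ).Z) :
    piN P hZ N ((asm P hk hZ N hadm hoff).p x) = t.1 := by
  rcases (cyc P hk hZ N hadm hoff t ht Sα Sβ).p_mem_of_Z hx with ⟨w, hw, h⟩ | ⟨w, hw, h⟩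
  · rw [← h]
    exact base_str14 P hZ N t ht ((map_ne_zero_iff _ B.injective).2 hw)
  · rw [← h]
    exact base_exc14 P hZ N t ht (B' w)

/-- **(V1)** -/
theorem slopeA {γ : ℂ} {hγ : γ ≠ 0} {x : (asm P hk hZ N hadm hoff).X} {w : V2} (hw : w 0 ≠ w 1)
    (hx : (asm P hk hZ N hadm hoff).p x =
      ((two14 P hZ N t ht).str.pre (BlS_266.Bg γ hγ)).G w) :
    Rat (fun y => (N t).T (piN P hZ N ((asm P hk hZ N hadm hoff).p y)))
      (fun y => (N t).S (piN P hZ N ((asm P hk hZ N hadm hoff).p y))) x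
      (γ * (w 0 + w 1) / (w 0 - w 1)) := by
  have h := rat_strG P hZ N t ht (γ := γ) (hγ := hγ) hw
  rw [← hx] at h
  exact h.up (asm P hk hZ N hadm hoff).continuous_p.continuousAt

/-- **(V2)** -/
theorem slopeB {x : (asm P hk hZ N hadm hoff).X} {w : V2}
    (hx : (asm P hk hZ N hadm hoff).p x =
      ((exc (D2 P hZ N) (two14 P hZ N t ht).s2).pre B').G w) :
    Rat (fun y => (N t).T (piN P hZ N ((asm P hk hZ N hadm hoff).p y)))
      (fun y => (N t).S (piN P hZ N ((asm P hk hZ N hadm hoff).p y))) x 0 := by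
  have h := rat_excB P hZ N t ht B' w
  rw [← hx] at h
  exact h.up (asm P hk hZ N hadm hoff).continuous_p.continuousAt

end gen

/-! ### the literal model -/

section model

open Crest.Agent.R272.P1L_426 (Ch F8)
open Crest.Agent.R272.NlB_426 Crest.Agent.R272.Nl_595 Crest.Agent.R272.Ne_595

variable {k : ℂ} (M : NLoc k)

/-- the node at `P0` is the one of type `P` -/
structure NodeP0 : Prop where
  T : (M.N (c0 k)).T = fun q => t1 false q.1
  S : (M.N (c0 k)).S = fun q => om false q.2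
  sh : (M.N (c0 k)).sh = ![.tac, .star 1]

variable {M} (h : NodeP0 M)

include h in
theorem tau_P0 : c0 k ∈ tau (D1 (PN k) M.fin M.N) (sh1 (PN k) M.fin M.N) := by
  refine ⟨0, ?_⟩
  show (M.N (c0 k)).sh 0 = .tac
  rw [h.sh]
  rfl

/-- the curves of the base -/
def twoM : Two M.C1 M.C2 := two14 (PN k) M.fin M.N (c0 k) (tau_P0 h)

variable {γ : ℂ} {hγ : γ ≠ 0} {B' : V2 ≃L[ℂ] V2}
  (Sα : Sheet M.D 0 1 ((twoM h).str.pre (BlS_266.Bg γ hγ)))
  (Sβ : Sheet M.D 1 0 ((exc M.C2 (twoM h).s2).pre B'))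

/-- **the cycle on the literal model** -/
def curM : CycD M.D := (twoM h).cycD (BlS_266.Bg γ hγ) B' Sα Sβ

theorem curM_curvesOn : CurvesOn M.D.famX (curM h Sα Sβ).Z := (curM h Sα Sβ).curvesOn

theorem curM_w₁ : (curM h Sα Sβ).w₁ = ![γ, -γ] := bg_symm_e0 γ hγ

theorem curM_sum : (curM h Sα Sβ).w₁ 0 + (curM h Sα Sβ).w₁ 1 = 0 := bg_sum γ hγ

/-- the four curves lie over `P0` -/
theorem pN_Z {x : M.D.X} (hx : x ∈ (curM h Sα Sβ).Z) : pN M x = P0 :=
  pr_Z (PN k) (PN_k k) M.fin M.N M.adm M.off (c0 k) (tau_P0 h) Sα Sβ hx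

/-- **(V1) on the literal model** -/
theorem slopeMA {x : M.D.X} {w : V2} (hw : w 0 ≠ w 1) (hx : M.D.p x = (curM h Sα Sβ).α.G w) :
    Rat (T0 M) (Sf M) x (γ * (w 0 + w 1) / (w 0 - w 1)) := by
  have h1 := slopeA (PN k) (PN_k k) M.fin M.N M.adm M.off (c0 k) (tau_P0 h) (γ := γ) (hγ := hγ)
    (x := x) hw hx
  rw [h.T, h.S] at h1
  exact h1

/-- **(V2) on the literal model** -/
theorem slopeMB {x : M.D.X} {w : V2} (hx : M.D.p x = (curM h Sα Sβ).β.G w) :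
    Rat (T0 M) (Sf M) x 0 := by
  have h1 := slopeB (PN k) (PN_k k) M.fin M.N M.adm M.off (c0 k) (tau_P0 h) (B' := B') (x := x)
    (w := w) hx
  rw [h.T, h.S] at h1
  exact h1

/-- (V1) along the lifted curve -/
theorem slopeF {ε : ℂ} (hε : ε ^ 2 = 1) {ζ : V2} (hζ : ζ ≠ 0) (hne : ζ 0 ^ 2 ≠ ζ 1 ^ 2) :
    Rat (T0 M) (Sf M) ((curM h Sα Sβ).Sα.F hε ζ)
      (γ * (ζ 0 ^ 2 + ζ 1 ^ 2) / (ζ 0 ^ 2 - ζ 1 ^ 2)) :=
  slopeMA h Sα Sβ (w := sqv ζ) hne ((curM h Sα Sβ).Sα.p_F hε hζ)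

/-- (V2) along the lifted curve -/
theorem slopeF' {ε : ℂ} (hε : ε ^ 2 = 1) {ζ : V2} (hζ : ζ ≠ 0) :
    Rat (T0 M) (Sf M) ((curM h Sα Sβ).Sβ.F hε ζ) 0 :=
  slopeMB h Sα Sβ (w := sqv ζ) ((curM h Sα Sβ).Sβ.p_F hε hζ)

end model

end

end Crest.Agent.R272.CycI_760
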