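import Crest.Agent.R272.NlB2_426

/-!
# R272 (S0414), NLOC-ASM (B) (helper426), part 3: the type of a centre is unique
-/

set_option autoImplicit false
set_option linter.unusedSectionVars false

open Set Filter Topology Complex

namespace Crest.Agent.R272.NlB_426

open Crest.Agent.R275.Geo Crest.Agent.R275.Core144 Crest.Agent.R275.Prod363
open Crest.Agent.R273.Map_835 Crest.Agent.R273.Fam_835 Crest.Agent.R272.DCov_426
open Crest.Agent.R272.P1F_54 Crest.Agent.R272.P1L_426
open Crest.Agent.R272.P1S_590 (A1 O1 O u0 u1)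
open Crest.Agent.R272.Quot_783 Crest.Agent.R272.Root_83 Crest.Agent.R272.Adp_409
open Crest.Agent.R272.Nl_595 Crest.Agent.R272.Asm2_102

noncomputable section

variable {k : ℂ}

theorem t0_true_ne {x : Ch.X} (h : Ch.p x ∈ (A1.e false).source)
    (h' : Ch.p x ∈ (A1.e true).source) : t0 true x ≠ 0 := by
  intro h0
  obtain ⟨l, -, h1, -⟩ := frameC h h'
  rw [h0, mul_zero, t0_false] at h1
  exact one_ne_zero h1

theorem ze_true_ne {x : F8.X} (h : F8.p x ∈ (A1.e false).source)
    (h' : F8.p x ∈ (A1.e true).source) : ze true x ≠ 0 := by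
  intro h0
  obtain ⟨l, -, h1, -⟩ := frameF h h'
  rw [h0, mul_zero, ze_false] at h1
  exact one_ne_zero h1

/-- the frames agree -/
theorem Is.frames {ty ty' : Ty} {q : Ch.X × F8.X} (h : Is k ty q) (h' : Is k ty' q) :
    ty.f1 = ty'.f1 ∧ ty.f2 = ty'.f2 := by
  have key1 : ∀ {ty ty' : Ty}, Is k ty q → Is k ty' q → ty.f1 = true → ty'.f1 = true := by
    intro ty ty' h h' hf
    by_contra hn
    have m1 := h.m1
    rw [hf] at m1
    have m1' := h'.m1
    rw [Bool.eq_false_of_not_eq_true hn] at m1'
    have h0 := h.T0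
    cases ty
    · exact absurd hf (by decide)
    · exact t0_true_ne m1' m1 h0
    · exact absurd hf (by decide)
    · exact t0_true_ne m1' m1 h0
    · exact absurd hf (by decide)
    · exact absurd hf (by decide)
  have key2 : ∀ {ty ty' : Ty}, Is k ty q → Is k ty' q → ty.f2 = true → ty'.f2 = true := by
    intro ty ty' h h' hf
    by_contra hn
    have m1 := h.m2
    rw [hf] at m1
    have m1' := h'.m2
    rw [Bool.eq_false_of_not_eq_true hn] at m1'
    have h0 := h.S0
    cases ty
    · exact absurd hf (by decide)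
    · exact ze_true_ne m1' m1 h0
    · exact absurd hf (by decide)
    · exact absurd hf (by decide)
    · exact absurd hf (by decide)
    · exact absurd hf (by decide)
  refine ⟨?_, ?_⟩
  · rcases Bool.eq_false_or_eq_true ty.f1 with h1 | h1
    · rw [h1, key1 h h' h1]
    · rcases Bool.eq_false_or_eq_true ty'.f1 with h2 | h2
      · rw [key1 h' h h2, h2]
      · rw [h1, h2]
  · rcases Bool.eq_false_or_eq_true ty.f2 with h1 | h1
    · rw [h1, key2 h h' h1]
    · rcases Bool.eq_false_or_eq_true ty'.f2 with h2 | h2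
      · rw [key2 h' h h2, h2]
      · rw [h1, h2]

/-- **the type of a centre is unique** -/
theorem Is.unique (hk : k ^ 4 = 8 * I) {ty ty' : Ty} {q : Ch.X × F8.X} (h : Is k ty q)
    (h' : Is k ty' q) : ty = ty' := by
  obtain ⟨e1, e2⟩ := h.frames h'
  have hf := (h.pt hk).cases h.cen
  have a1 := h.T0
  have a2 := h.S0
  have b1 := h'.T0
  have b2 := h'.S0
  cases ty <;> cases ty' <;> first
    | rfl
    | exact absurd e1 (by decide)
    | exact absurd e2 (by decide)
    | (exfalso
       simp only [Ty.f1, Ty.f2, Ty.Tf, Ty.Sf] at hf a1 a2 b1 b2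
       tauto)

/-- the type of a centre, by its properties -/
theorem ty_eq (hk : k ^ 4 = 8 * I) {x : Z k} {t : Ty} (h : Is k t (x : Ch.X × F8.X)) :
    ty hk x = t := (is_ty hk x).unique hk h

/-- the node at a (P) point -/
theorem node_P (hk : k ^ 4 = 8 * I) {x : Z k} (h : Is k .P (x : Ch.X × F8.X)) :
    (node hk x).T = (fun q => t1 false q.1) ∧ (node hk x).S = (fun q => om false q.2) ∧
      (node hk x).sh = ![.tac, .star 1] := by
  rw [node_T, node_S, node_sh, ty_eq hk h]
  exact ⟨rfl, rfl, rfl⟩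

/-- the node at a point of type `t` -/
theorem node_of (hk : k ^ 4 = 8 * I) {x : Z k} {t : Ty} (h : Is k t (x : Ch.X × F8.X)) :
    (node hk x).T = (fun q => t.Tf q.1) ∧ (node hk x).S = (fun q => t.Sf q.2) ∧
      (node hk x).sh = t.shp := by
  rw [node_T, node_S, node_sh, ty_eq hk h]
  exact ⟨rfl, rfl, rfl⟩

end

end Crest.Agent.R272.NlB_426
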