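import Crest.Agent.R272.Nl2_595
import Crest.Agent.R272.NlB0_426

/-!
# R272 (S0414), NLOC-ASM (helper409): normal crossings of `(s_M, s_N)` off the centres

* `Nl_409.wron`  : for `H : HC A`, `D : Data A ρ`, at a point of `D.X` where no `y a` vanishes the
  pulled back homogeneous coordinates have non-zero Wronskian;
* `Nl_409.snc_two` : `(T.pd k).Snc (x, y)` for `T : Two AC AF` from the point conditions of
  `Tra3_178` at `(x, y)` (in one pair of charts), the equation of `d` near `x` and the two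
  Wronskians;
* `Nl_409.hoff` : the instance for `Ch`, `F8` (P1L2_426) and 426's set of centres `Z k`.
-/

set_option autoImplicit false
set_option linter.unusedSectionVars false

open Set Filter Topology Complex

namespace Crest.Agent.R272.Nl_409

open Crest.Agent.R275.Geo Crest.Agent.R275.Core144 Crest.Agent.R275.Prod363
open Crest.Agent.R273.Map_835 Crest.Agent.R273.PB_835 Crest.Agent.R273.Fam_835
open Crest.Agent.R272.DCov_426 Crest.Agent.R272.P1L_426 Crest.Agent.R272.BlA_266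
open Crest.Agent.R272.Pr_414 Crest.Agent.R272.Nl_595

noncomputable section

/-! ### Wronskians -/

section Wron

variable {M : Type} [TopologicalSpace M] {A : Atl 1 M} (H : HC A)
variable {ρ : Type} [Fintype ρ] (D : Data A ρ) {A' : Atl 1 D.X} (hc : Cmp D.famX A')
  (R : Ref A' A D.p)

include hc in
/-- **the pulled back homogeneous coordinates have non-zero Wronskian off the branch points** -/
theorem wron {i : A'.ι} {q : D.X} (hq : q ∈ (A'.e i).source) (ha : ∀ a, D.yS R a i q ≠ 0) :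
    ∃ v, upS D R H.a0 i q * fderiv ℂ (fun z => upS D R H.a1 i ((A'.e i).symm z)) (A'.e i q) v -
      upS D R H.a1 i q * fderiv ℂ (fun z => upS D R H.a0 i ((A'.e i).symm z)) (A'.e i q) v
        ≠ 0 := by
  set j := R.r i with hj
  have hqj : D.p q ∈ (A.e j).source := R.sub i q hq
  have hz : A'.e i q ∈ dm A' A D.p i j := mem_dm hq hqj
  have hp := D.holMap_p hc
  have hinj := D.inj_of_ne hc hz (by
    intro a h0
    rw [(A'.e i).left_inv hq] at h0
    exact ha a ((D.yS_eq_zero_iff R a hq).2 h0))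
  have hφ : rd A' A D.p i j (A'.e i q) = A.e j (D.p q) := by
    show A.e j (D.p ((A'.e i).symm (A'.e i q))) = _
    rw [(A'.e i).left_inv hq]
  have hw : A.e j (D.p q) ∈ (A.e j).target := (A.e j).map_source hqj
  -- derivative of a pulled back function
  have key : ∀ s : A.ι → M → ℂ, DifferentiableAt ℂ (fun w => s j ((A.e j).symm w)) (A.e j (D.p q)) →
      ∀ v, fderiv ℂ (fun z => upS D R s i ((A'.e i).symm z)) (A'.e i q) v =
        fderiv ℂ (fun w => s j ((A.e j).symm w)) (A.e j (D.p q))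
          (fderiv ℂ (rd A' A D.p i j) (A'.e i q) v) := by
    intro s hs v
    have h1 : (fun z => upS D R s i ((A'.e i).symm z)) =ᶠ[𝓝 (A'.e i q)]
        (fun w => s j ((A.e j).symm w)) ∘ rd A' A D.p i j := by
      filter_upwards [(hp.isOpen_dm i j).mem_nhds hz] with w hw
      rw [upS_of_mem D R s ((A'.e i).map_target hw.1)]
      show _ = s j ((A.e j).symm (A.e j (D.p ((A'.e i).symm w))))
      rw [(A.e j).left_inv hw.2]
    rw [h1.fderiv_eq, fderiv_comp _ (by rw [hφ]; exact hs) (hp.diffAt hz), hφ]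
    rfl
  set e : Cn 1 := EuclideanSpace.single 0 1 with he
  have he0 : e ≠ 0 := by
    intro h
    have h2 := congrArg (fun v : Cn 1 => v 0) h
    simp [he] at h2
  set v' := fderiv ℂ (rd A' A D.p i j) (A'.e i q) e with hv'
  have hv0 : v' ≠ 0 := by
    intro h
    apply he0
    apply hinj
    rw [← hv', h, map_zero]
  refine ⟨e, fun h => hv0 ?_⟩
  rw [key H.a1 (H.diff_a1 hw), key H.a0 (H.diff_a0 hw), upS_of_mem D R _ hq,
    upS_of_mem D R _ hq, ← hj, ← hv'] at h
  refine H.imm j (A.e j (D.p q)) hw v' ?_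
  rw [(A.e j).left_inv hqj]
  linear_combination -h

end Wron

/-! ### normal crossings from the point conditions -/

section Snc

variable {XC XF : Type} [TopologicalSpace XC] [TopologicalSpace XF]
  {AC : Atl 1 XC} {AF : Atl 1 XF} (T : Two AC AF)

theorem diff_hs {X : Type} [TopologicalSpace X] {A : Atl 1 X} {L : LB A} {s : A.ι → X → ℂ}
    (h : IsHS L univ s) {i : A.ι} {x : X} (hx : x ∈ (A.e i).source) :
    DifferentiableAt ℂ (fun z => s i ((A.e i).symm z)) (A.e i x) :=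
  (h.hol i).diffAt isOpen_univ hx (mem_univ _)

/-- **normal crossings of the two sections at a point which is not a centre** -/
theorem snc_two {k : ℂ} {i : AC.ι} {j : AF.ι} {x : XC} {y : XF} (hx : x ∈ (AC.e i).source)
    (hy : y ∈ (AF.e j).source) {r : ℂ} {e : ℂ}
    (P : Tra3_178.Pt k (T.t0 i x) (T.t1 i x) (T.d i x) r (T.z j y) (T.o j y) e)
    (hc : ¬ Tra3_178.Cen k (T.t0 i x) (T.t1 i x) (T.d i x) r (T.z j y) (T.o j y) e)
    (hC : ∀ᶠ w in 𝓝 x, T.d i w ^ 8 = T.t0 i w ^ 16 - T.t1 i w ^ 16)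
    (w1 : T.d i x ≠ 0 → r ≠ 0 → ∃ v,
      T.t0 i x * fderiv ℂ (fun z => T.t1 i ((AC.e i).symm z)) (AC.e i x) v -
        T.t1 i x * fderiv ℂ (fun z => T.t0 i ((AC.e i).symm z)) (AC.e i x) v ≠ 0)
    (w2 : e ≠ 0 → ∃ v,
      T.z j y * fderiv ℂ (fun z => T.o j ((AF.e j).symm z)) (AF.e j y) v -
        T.o j y * fderiv ℂ (fun z => T.z j ((AF.e j).symm z)) (AF.e j y) v ≠ 0) :
    (T.pd k).Snc (x, y) := by
  have hli : (AC.e i).symm (AC.e i x) = x := (AC.e i).left_inv hx
  have hlj : (AF.e j).symm (AF.e j y) = y := (AF.e j).left_inv hy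
  -- the functions read in the charts
  set t0 : Cn 1 → ℂ := fun z => T.t0 i ((AC.e i).symm z) with ht0
  set t1 : Cn 1 → ℂ := fun z => T.t1 i ((AC.e i).symm z) with ht1
  set d : Cn 1 → ℂ := fun z => T.d i ((AC.e i).symm z) with hd
  set z : Cn 1 → ℂ := fun z => T.z j ((AF.e j).symm z) with hz
  set o : Cn 1 → ℂ := fun z => T.o j ((AF.e j).symm z) with ho
  have dt0 : DifferentiableAt ℂ t0 (AC.e i x) := diff_hs T.ht0 hx
  have dt1 : DifferentiableAt ℂ t1 (AC.e i x) := diff_hs T.ht1 hx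
  have dd : DifferentiableAt ℂ d (AC.e i x) := diff_hs T.hd hx
  have dz : DifferentiableAt ℂ z (AF.e j y) := diff_hs T.hz hy
  have do' : DifferentiableAt ℂ o (AF.e j y) := diff_hs T.ho hy
  have et0 : t0 (AC.e i x) = T.t0 i x := by rw [ht0]; exact congrArg (T.t0 i) hli
  have et1 : t1 (AC.e i x) = T.t1 i x := by rw [ht1]; exact congrArg (T.t1 i) hli
  have ed : d (AC.e i x) = T.d i x := by rw [hd]; exact congrArg (T.d i) hli
  have ez : z (AF.e j y) = T.z j y := by rw [hz]; exact congrArg (T.z j) hlj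
  have eo : o (AF.e j y) = T.o j y := by rw [ho]; exact congrArg (T.o j) hlj
  have hCt : Tendsto (AC.e i).symm (𝓝 (AC.e i x)) (𝓝 x) := by
    have := ((AC.e i).continuousAt_symm ((AC.e i).map_source hx)).tendsto
    rwa [hli] at this
  have hFt : Tendsto (AF.e j).symm (𝓝 (AF.e j y)) (𝓝 y) := by
    have := ((AF.e j).continuousAt_symm ((AF.e j).map_source hy)).tendsto
    rwa [hlj] at this
  set γ : Cn 1 × Cn 1 → XC × XF := fun u => ((AC.e i).symm u.1, (AF.e j).symm u.2) with hγ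
  have hγ0 : γ (AC.e i x, AF.e j y) = (x, y) := by
    rw [hγ]
    exact Prod.ext hli hlj
  have hcγ : ContinuousAt γ (AC.e i x, AF.e j y) := by
    rw [ContinuousAt, hγ0]
    exact ((hCt.comp (continuous_fst.tendsto (AC.e i x, AF.e j y))).prodMk_nhds
      (hFt.comp (continuous_snd.tendsto (AC.e i x, AF.e j y))))
  have htg : ∀ᶠ u : Cn 1 × Cn 1 in 𝓝 (AC.e i x, AF.e j y),
      u.1 ∈ (AC.e i).target ∧ u.2 ∈ (AF.e j).target := by
    have h1 : ∀ᶠ u : Cn 1 × Cn 1 in 𝓝 (AC.e i x, AF.e j y), u.1 ∈ (AC.e i).target :=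
      (continuous_fst.tendsto (AC.e i x, AF.e j y)).eventually
        ((AC.e i).open_target.mem_nhds ((AC.e i).map_source hx))
    have h2 : ∀ᶠ u : Cn 1 × Cn 1 in 𝓝 (AC.e i x, AF.e j y), u.2 ∈ (AF.e j).target :=
      (continuous_snd.tendsto (AC.e i x, AF.e j y)).eventually
        ((AF.e j).open_target.mem_nhds ((AF.e j).map_source hy))
    exact h1.and h2
  have hdγ : DifferentiableAt ℂ (fun u => (AC.prod AF).e (i, j) (γ u)) (AC.e i x, AF.e j y) := by
    have h1 : DifferentiableAt ℂ (fun u : Cn 1 × Cn 1 => appL 1 1 u) (AC.e i x, AF.e j y) :=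
      (appL 1 1).differentiableAt
    refine h1.congr_of_eventuallyEq ?_
    filter_upwards [htg] with u hu
    show app (AC.e i ((AC.e i).symm u.1)) (AF.e j ((AF.e j).symm u.2)) = app u.1 u.2
    rw [(AC.e i).right_inv hu.1, (AF.e j).right_inv hu.2]
  set F : Fin 2 → Cn 1 × Cn 1 → ℂ := ![fun u => 1 * Tra3_178.sM (t0 u.1) (t1 u.1) (z u.2) (o u.2),
    fun u => 1 * Tra3_178.sN k (t0 u.1) (t1 u.1) (d u.1) (z u.2) (o u.2)] with hF
  have hs : Snc0 F (AC.e i x, AF.e j y) := by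
    intro w
    refine Tra3_178.nsnc_prod (k := k) (a := AC.e i x) (b := AF.e j y) (t0 := t0) (t1 := t1)
      (d := d) (r := fun _ => r) (z := z) (o := o) (e := fun _ => e) (uM := fun _ => 1)
      (uN := fun _ => 1) ?_ ?_ dt0 dt1 dd dz do' ?_ ?_ ?_ (differentiableAt_const _) one_ne_zero
      (differentiableAt_const _) one_ne_zero w
    · rw [et0, et1, ed, ez, eo]; exact P
    · rw [et0, et1, ed, ez, eo]; exact hc
    · exact hCt.eventually hC
    · rw [ed, et0, et1]; exact w1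
    · rw [ez, eo]; exact w2
  have gfst : ∀ {f : Cn 1 → ℂ}, DifferentiableAt ℂ f (AC.e i x) →
      DifferentiableAt ℂ (fun u : Cn 1 × Cn 1 => f u.1) (AC.e i x, AF.e j y) := fun {f} hf =>
    DifferentiableAt.comp (AC.e i x, AF.e j y) (g := f) (f := fun u : Cn 1 × Cn 1 => u.1) hf
      differentiableAt_fst
  have gsnd : ∀ {f : Cn 1 → ℂ}, DifferentiableAt ℂ f (AF.e j y) →
      DifferentiableAt ℂ (fun u : Cn 1 × Cn 1 => f u.2) (AC.e i x, AF.e j y) := fun {f} hf =>
    DifferentiableAt.comp (AC.e i x, AF.e j y) (g := f) (f := fun u : Cn 1 × Cn 1 => u.2) hf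
      differentiableAt_snd
  have a1 := gfst dt0
  have a2 := gfst dt1
  have a3 := gfst dd
  have a4 := gsnd dz
  have a5 := gsnd do'
  refine (T.pd k).snc_of_par (i := (i, j)) ⟨hx, hy⟩ hγ0 hcγ hdγ (F := F) (U := fun _ _ => 1)
    (fun a => ?_) (fun _ => differentiableAt_const _) (fun _ => one_ne_zero) (fun a => ?_) hs
  · fin_cases a
    · show DifferentiableAt ℂ (fun u : Cn 1 × Cn 1 =>
        1 * Tra3_178.sM (t0 u.1) (t1 u.1) (z u.2) (o u.2)) _
      unfold Tra3_178.sM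
      exact (differentiableAt_const _).mul (((a5.pow 2).mul (a1.pow 4)).sub
        ((a4.pow 2).mul (a2.pow 4)))
    · show DifferentiableAt ℂ (fun u : Cn 1 × Cn 1 =>
        1 * Tra3_178.sN k (t0 u.1) (t1 u.1) (d u.1) (z u.2) (o u.2)) _
      unfold Tra3_178.sN
      exact (differentiableAt_const _).mul (((a5.pow 2).mul ((a2.pow 8).sub
        ((differentiableAt_const _).mul (a1.pow 8)))).sub
        (((((differentiableAt_const _).mul (a1.pow 2)).mul (a2.pow 2)).mul (a3.pow 2)).mul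
          (a4.pow 2)))
  · refine Eventually.of_forall fun u => ?_
    fin_cases a
    · show T.sM (i, j) (γ u) = 1 * (1 * Tra3_178.sM (t0 u.1) (t1 u.1) (z u.2) (o u.2))
      rw [hγ, T.sM_apply, Tra3_178.sM, one_mul, one_mul]
    · show T.sN k (i, j) (γ u) = 1 * (1 * Tra3_178.sN k (t0 u.1) (t1 u.1) (d u.1) (z u.2) (o u.2))
      rw [hγ, T.sN_apply, Tra3_178.sN, one_mul, one_mul]
      ring

end Snc

/-! ### the instance -/

section Hoff

variable {AC : Atl 1 Ch.X} (hC : Cmp Ch.famX AC) (RC : Ref AC P1S_590.A1 Ch.p)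
  {AF : Atl 1 F8.X} (hF : Cmp F8.famX AF) (RF : Ref AF P1S_590.A1 F8.p)

include hC hF in
/-- **normal crossings off the centres** -/
theorem hoff (T : Two AC AF) (e0 : T.t0 = upS Ch RC HP.a0) (e1 : T.t1 = upS Ch RC HP.a1)
    (ed : T.d = Ch.yS RC 0) (ez : T.z = upS F8 RF HP.a0) (eo : T.o = upS F8 RF HP.a1)
    {k : ℂ} (hk : k ^ 4 = 8 * I) {q : Ch.X × F8.X} (hq : q ∉ NlB_426.Z k) : (T.pd k).Snc q := by
  obtain ⟨x, y⟩ := q
  obtain ⟨i, hx⟩ := AC.cover x
  obtain ⟨j, hy⟩ := AF.cover y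
  have hs : Ch.p x ∈ (P1S_590.A1.e (RC.r i)).source := RC.sub i x hx
  have hs' : F8.p y ∈ (P1S_590.A1.e (RF.r j)).source := RF.sub j y hy
  have v0 : ∀ {w : Ch.X}, w ∈ (AC.e i).source → T.t0 i w = NlB_426.t0 (RC.r i) w := by
    intro w hw
    rw [e0, upS_of_mem Ch RC _ hw]
    rfl
  have v1 : ∀ {w : Ch.X}, w ∈ (AC.e i).source → T.t1 i w = NlB_426.t1 (RC.r i) w := by
    intro w hw
    rw [e1, upS_of_mem Ch RC _ hw]
    rfl
  have vd : ∀ {w : Ch.X}, w ∈ (AC.e i).source → T.d i w = NlB_426.dl (RC.r i) w := by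
    intro w hw
    rw [ed, Ch.yS_of_mem RC 0 hw]
    rfl
  have vz : T.z j y = NlB_426.ze (RF.r j) y := by
    rw [ez, upS_of_mem F8 RF _ hy]
    rfl
  have vo : T.o j y = NlB_426.om (RF.r j) y := by
    rw [eo, upS_of_mem F8 RF _ hy]
    rfl
  refine snc_two T (i := i) (j := j) hx hy (r := NlB_426.rh (RC.r i) x)
    (e := NlB_426.et (RF.r j) y) ?_ ?_ ?_ ?_ ?_
  · rw [v0 hx, v1 hx, vd hx, vz, vo]
    exact NlB_426.pt (q := (x, y)) hk hs hs'
  · rw [v0 hx, v1 hx, vd hx, vz, vo]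
    exact fun h => hq ((NlB_426.mem_Z (q := (x, y)) hs hs').2 h)
  · filter_upwards [(AC.e i).open_source.mem_nhds hx] with w hw
    rw [v0 hw, v1 hw, vd hw]
    exact Ch_y0 (RC.sub i w hw)
  · intro hd hr
    have h1 : ∀ a, Ch.yS RC a i x ≠ 0 := by
      intro a
      fin_cases a
      · have h2 := hd
        rw [ed] at h2
        exact h2
      · show Ch.yS RC 1 i x ≠ 0
        rw [Ch.yS_of_mem RC 1 hx]
        exact hr
    rw [e0, e1]
    exact wron HP Ch hC RC hx h1
  · intro he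
    have h1 : ∀ a, F8.yS RF a j y ≠ 0 := by
      intro a
      fin_cases a
      show F8.yS RF 0 j y ≠ 0
      rw [F8.yS_of_mem RF 0 hy]
      exact he
    obtain ⟨v, hv⟩ := wron HP F8 hF RF hy h1
    rw [ez, eo]
    exact ⟨v, hv⟩

/-- the instance for 595's `two14` -/
theorem hoff14 {k : ℂ} (hk : k ^ 4 = 8 * I) {q : Ch.X × F8.X} (hq : q ∉ NlB_426.Z k) :
    ((two14 hC RC hF RF).pd k).Snc q :=
  hoff hC RC hF RF (two14 hC RC hF RF) rfl rfl rfl rfl rfl hk hq

/-- **the instance for 595's `PN k` (canonical atlases)** -/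
theorem hoffN {k : ℂ} (hk : k ^ 4 = 8 * I) : ∀ q ∉ NlB_426.Z k, (PN k).Snc q :=
  fun _ hq => hoff14 Ch.cmp_atlX Ch.refX F8.cmp_atlX F8.refX hk hq

end Hoff

end

end Crest.Agent.R272.Nl_409
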