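import Crest.Agent.R272.Tra4_178
import Crest.Agent.R272.NlB0_426

/-!
Row 272 (S0414), CENFIN (helper178): 426's set of centres is finite (field `fin` of 595's `NLoc`).
-/

set_option autoImplicit false

namespace Crest.Agent.R272.Tra5_178

open Crest.Agent.R272

theorem cen_finite (k : ℂ) : (NlB_426.Z k).Finite := Tra4_178.finite_ZZ k

end Crest.Agent.R272.Tra5_178
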