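import Crest.Agent.R272.Nl3_595
import Crest.Agent.R272.NlB3_426
import Crest.Agent.R272.Tra5_178
import Crest.Agent.R272.NlC_409

/-!
# R272 (S0414), NLOC-ASM (helper595), part 4: `nloc hk : NLoc k`

Centres finite (178), nodes and admissibility (426), normal crossings off the centres (409).
-/

set_option autoImplicit false

namespace Crest.Agent.R272.Nl_595

noncomputable section

/-- **the local analysis of the two sections on `N = C^ × F8`** -/
def nloc {k : ℂ} (hk : k ^ 4 = 8 * Complex.I) : NLoc k where
  fin := Tra5_178.cen_finite k
  N := NlB_426.node hk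
  adm := NlB_426.hadm hk
  off := Nl_409.hoffN hk

@[simp] theorem nloc_N {k : ℂ} (hk : k ^ 4 = 8 * Complex.I) : (nloc hk).N = NlB_426.node hk := rfl

end

end Crest.Agent.R272.Nl_595
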