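import Crest.Agent.R272.CycI2_760
import Crest.Agent.R272.BlS3_266
import Crest.Agent.R272.Nl4_595

/-!
# R272 (S0414), the instance of the curves (helper760), part 3: existence of the cycle

* `exists_cyc`   : on 102's tower, at a node of shapes `tac`, `star 1` with `FormV γ`;
* `exists_cycM`  : on the literal model `nloc hk`.
-/

set_option autoImplicit false
set_option linter.unusedSectionVars false

open Set Filter Topology Complex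

namespace Crest.Agent.R272.CycI_760

open Crest.Agent.R275.Geo Crest.Agent.R275.Core144
open Crest.Agent.R273.Map_835 Crest.Agent.R273.Fam_835 Crest.Agent.R273.PB_835
open Crest.Agent.R272.DCov_426 Crest.Agent.R272.Adp_409
open Crest.Agent.R272.Blup1_102 Crest.Agent.R272.BlA_266 Crest.Agent.R272.Asm2_102
open Crest.Agent.R272.Cyc_760 Crest.Agent.R272.CyB_894 Crest.Agent.R272.Gm3_235
open Crest.Agent.R272.Top14_414 Crest.Agent.R272.BlS_266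

noncomputable section

section gen

variable {M : Type} [TopologicalSpace M] [T2Space M] {A : Atl 2 M} (P : PD A (Fin 2))
  (hk : ∀ a, P.k a = 2) {Z : Set M} (hZ : Z.Finite) (N : ∀ x : Z, Node P (x : M))
  (hadm : ∀ x, Adm (N x).sh) (hoff : ∀ x, x ∉ Z → P.Snc x)
  (t : (D1 P hZ N).S) (ht : t ∈ tau (D1 P hZ N) (sh1 P hZ N))

theorem exists_sqrt (z : ℂ) : ∃ y : ℂ, y ^ 2 = z := IsAlgClosed.exists_pow_nat_eq z (by norm_num)

theorem sqrt_ne {y z : ℂ} (h : y ^ 2 = z) (hz : z ≠ 0) : y ≠ 0 := by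
  rintro rfl
  exact hz (by rw [← h]; norm_num)

/-- **the two sheets on the tower** -/
theorem exists_sheets (h0 : (N t).sh 0 = .tac) (h1 : (N t).sh 1 = .star 1) {γ : ℂ} (hγ : γ ≠ 0)
    (hF : FormV γ ((D1 P hZ N).phi (((nodeCen N).pd P).s 1) t)) :
    ∃ (γ' : ℂ) (hγ' : γ' ≠ 0),
      Nonempty (Sheet (asm P hk hZ N hadm hoff) 0 1
        ((two14 P hZ N t ht).str.pre (BlS_266.Bg γ hγ))) ∧
      Nonempty (Sheet (asm P hk hZ N hadm hoff) 1 0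
        ((exc (D2 P hZ N) (two14 P hZ N t ht).s2).pre (BlS_266.Bg γ' hγ'))) := by
  have hM := ok1 P hZ N t 0
  have e0 : sh1 P hZ N t 0 = .tac := h0
  have e1 : sh1 P hZ N t 1 = .star 1 := h1
  rw [e0] at hM
  obtain ⟨UM, cM, hUM, hcM, hUM0, hcM0, heM⟩ := hM
  obtain ⟨UN, cN, hUN, hcN, hUN0, hcN0, heN⟩ := hF
  obtain ⟨κM, hκM⟩ := exists_sqrt (UM 0)
  obtain ⟨κN, hκN⟩ := exists_sqrt (UN 0)
  obtain ⟨γ', hγ'⟩ := exists_sqrt (cM 0)
  have m0 : mult (D1 P hZ N) (sh1 P hZ N) 0 t = 1 := by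
    show mu (sh1 P hZ N t 0) = 1
    rw [e0]
    rfl
  have m1 : mult (D1 P hZ N) (sh1 P hZ N) 1 t = 1 := by
    show mu (sh1 P hZ N t 1) = 1
    rw [e1]
    rfl
  have m0' : mult (D2 P hZ N) (sh2 (D1 P hZ N) (sh1 P hZ N)) 0 (two14 P hZ N t ht).s2 = 1 := by
    show mu (sh2 (D1 P hZ N) (sh1 P hZ N) (two14 P hZ N t ht).s2 0) = 1
    have : sh2 (D1 P hZ N) (sh1 P hZ N) (two14 P hZ N t ht).s2 0 = .star 1 := if_pos e0
    rw [this]
    rfl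
  have m1' : mult (D2 P hZ N) (sh2 (D1 P hZ N) (sh1 P hZ N)) 1 (two14 P hZ N t ht).s2 = 0 := by
    show mu (sh2 (D1 P hZ N) (sh1 P hZ N) (two14 P hZ N t ht).s2 1) = 0
    have hne : ¬ (sh1 P hZ N t 1 = .tac) := by
      rw [e1]
      intro h
      cases h
    have : sh2 (D1 P hZ N) (sh1 P hZ N) (two14 P hZ N t ht).s2 1 = .unit := if_neg hne
    rw [this]
    rfl
  have F : Lf ((nodeCen N).pd P) (D1 P hZ N) (two14 P hZ N t ht).s1 UM cM UN cN :=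
    ⟨hUM.continuousAt, hcM.continuousAt, hUN.continuousAt, hcN.continuousAt, heM, heN⟩
  have hg : γ ^ 2 = cN 0 := hcN0.symm
  refine ⟨γ', sqrt_ne hγ' hcM0, ⟨?_⟩, ⟨?_⟩⟩
  · exact F.Sa (snc2 ((nodeCen N).pd P) (D1 P hZ N) (sh1 P hZ N) hk (ok1 P hZ N) hadm
      fun x hx => (nodeCen N).pd_snc P |>.2 (hoff x (by rwa [D1_Z] at hx))) hk m0 m1 m0' m1' hκM
      (sqrt_ne hκM hUM0) hκN (sqrt_ne hκN hUN0) hg hγ
  · exact F.Sb (snc2 ((nodeCen N).pd P) (D1 P hZ N) (sh1 P hZ N) hk (ok1 P hZ N) hadm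
      fun x hx => (nodeCen N).pd_snc P |>.2 (hoff x (by rwa [D1_Z] at hx))) hk m0 m1 m0' m1' hκM
      (sqrt_ne hκM hUM0) hκN (sqrt_ne hκN hUN0) hg hγ hγ' (sqrt_ne hγ' hcM0)

end gen

/-! ### the literal model -/

section model

open Crest.Agent.R272.P1L_426 (Ch F8)
open Crest.Agent.R272.NlB_426 Crest.Agent.R272.Nl_595 Crest.Agent.R272.Ne_595

variable {k : ℂ}

theorem nodeP0 (hk : k ^ 4 = 8 * I) : NodeP0 (nloc hk) := ⟨T_P0 hk, S_P0 hk, sh_P0 hk⟩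

/-- **the cycle of four curves on the literal model** -/
theorem exists_cycM (M : NLoc k) (h : NodeP0 M) (hγ : g0 k ≠ 0)
    (hF : FormV (g0 k) ((D1 (PN k) M.fin M.N).phi (((nodeCen M.N).pd (PN k)).s 1) (c0 k))) :
    ∃ (K : CycD M.D) (B : V2 ≃L[ℂ] V2),
      (∀ w, K.α.G w = ((two14 (PN k) M.fin M.N (c0 k) (tau_P0 h)).str.pre
        (BlS_266.Bg (g0 k) hγ)).G w) ∧
      (∀ w, K.β.G w = ((exc (D2 (PN k) M.fin M.N)
        (two14 (PN k) M.fin M.N (c0 k) (tau_P0 h)).s2).pre B).G w) ∧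
      K.w₁ = ![g0 k, -g0 k] ∧ K.w₂ = ![1, 1] ∧ ∀ x ∈ K.Z, pN M x = P0 := by
  have hs0 : (M.N (c0 k)).sh 0 = .tac := by rw [h.sh]; rfl
  have hs1 : (M.N (c0 k)).sh 1 = .star 1 := by rw [h.sh]; rfl
  obtain ⟨γ', hγ', ⟨Sα⟩, ⟨Sβ⟩⟩ := exists_sheets (PN k) (PN_k k) M.fin M.N M.adm M.off (c0 k)
    (tau_P0 h) hs0 hs1 hγ hF
  exact ⟨curM h Sα Sβ, BlS_266.Bg γ' hγ', fun _ => rfl, fun _ => rfl, bg_symm_e0 _ hγ,
    bg_symm_e1 _ hγ', fun x hx => pN_Z h Sα Sβ hx⟩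

/-- **the cycle of four curves on `nloc hk`** -/
theorem exists_cyc14 (hk : k ^ 4 = 8 * I) :
    ∃ (K : CycD (nloc hk).D) (B : V2 ≃L[ℂ] V2),
      (∀ w, K.α.G w = ((two14 (PN k) (nloc hk).fin (nloc hk).N (c0 k) (tau_P0 (nodeP0 hk))).str.pre
        (BlS_266.Bg (g0 k) (g0_ne hk))).G w) ∧
      (∀ w, K.β.G w = ((exc (D2 (PN k) (nloc hk).fin (nloc hk).N)
        (two14 (PN k) (nloc hk).fin (nloc hk).N (c0 k) (tau_P0 (nodeP0 hk))).s2).pre B).G w) ∧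
      K.w₁ = ![g0 k, -g0 k] ∧ K.w₂ = ![1, 1] ∧ ∀ x ∈ K.Z, pN (nloc hk) x = P0 :=
  exists_cycM (nloc hk) (nodeP0 hk) (g0_ne hk) (hN_P0 hk (nloc hk).fin)

end model

end

end Crest.Agent.R272.CycI_760
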