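import Crest.Agent.R272.Kps4_595
import Crest.Agent.R272.P1L2_426

/-!
# R272 (S0414), KPOS + UNIF for the literal curve `BB` of the model (helper595)
-/

set_option autoImplicit false

open Set Filter Topology Complex

namespace Crest.Agent.R272.Kps_595

open Crest.Agent.R275.Geo Crest.Agent.R275.Core144 Crest.Agent.R273.Defs_333
open Crest.Agent.R273.Fam_835 Crest.Agent.R273.Map_835
open Crest.Agent.R272.P1F_54 Crest.Agent.R272.P1S_590 Crest.Agent.R272.DCov_426
open Crest.Agent.R272.UnB_894
open Crest.Agent.R272.P1L_426 (BB f4)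

/-- **uniformisation of `BB`** (any compatible atlas, any base point) -/
theorem disc_BB {A' : Atl 1 BB.X} (hc : Cmp BB.famX A') (x0 : BB.X) :
    ∃ p : DD → BB.X, IsCoveringMap p ∧ LBD A' p ∧ p o = x0 := by
  refine disc_of BB hc rfl (fun t ht => ?_) (fun t ht => ?_) (fun t ht => ?_) x0
  · show sec f4 false t = _
    rw [sec_of_mem f4 ht]
    show 1 ^ 4 - pc false t ^ 4 = _
    rw [one_pow]
  · show sec f4 true t = _
    rw [sec_of_mem f4 ht]
    show pc true t ^ 4 - 1 ^ 4 = _
    rw [one_pow]
  · show (O 1).g true false t = _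
    rw [O_one, O1_g ht.symm]
    rfl

end Crest.Agent.R272.Kps_595
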