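import Crest.Agent.R272.M14b_590
import Crest.Agent.R272.Dt14_414
import Crest.Agent.R272.Kps5_595
import Crest.Agent.R272.Mf_839

/-!
# R272 (S0414), M14 (helper590), part 3: the discs

* `discs_of`  : 414's `Discs` for `h = φ` and every holomorphic covering `g : CC.X → BB.X`, `g z0 = w0`
* `z0_eq`, `w0_eq`, `f_z0` : the base points are 839's; `f z0 = w0`
* `discs14`   : `Discs CC.atlX BB.atlX φ f z0 w0`
-/

set_option autoImplicit false
set_option linter.unusedSectionVars false

open Set Filter Topology Complex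

namespace Crest.Agent.R272.M14_590

open Crest.Agent.R275.Geo Crest.Agent.R275.Core144
open Crest.Agent.R273.Fam_835 Crest.Agent.R273.Map_835
open Crest.Agent.R272.FamP_54 Crest.Agent.R272.P1F_54 Crest.Agent.R272.DCov_426
open Crest.Agent.R272.P1S_590 Crest.Agent.R272.Hom_839 Crest.Agent.R272.Dt14_414
open Crest.Agent.R272.P1L_426 (Ch F8 CC BB f16 f8 f4 g8)
open Crest.Agent.R272.UnB_894 (DD o LBD)

noncomputable section

/-- the discs for an arbitrary covering `g` -/
theorem discs_of {g : CC.X → BB.X} (hg : HolC CC.famX BB.famX g) (hgc : IsCoveringMap g)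
    (hz : g z0 = w0) : Nonempty (Discs CC.atlX BB.atlX phi g z0 w0) := by
  obtain ⟨p, hp, lp, hpo⟩ := Kps_595.disc_BB BB.cmp_atlX w0
  exact exists_discs hp lp hpo holMap_phi (holMap_of CC.cmp_atlX BB.cmp_atlX hg) hgc phi_z0 hz hram

theorem z0_eq : z0 = Mf_839.z0 := IsHom.rep_unique rep_z0 Mf_839.rep_z0

theorem w0_eq : w0 = Mf_839.w0 := IsHom.rep_unique rep_w0 Mf_839.rep_w0

theorem f_z0 : Mf_839.f z0 = w0 := by
  rw [z0_eq, w0_eq]
  exact Mf_839.f_z0

/-- **the discs of S0414** -/
theorem discs14 : Nonempty (Discs CC.atlX BB.atlX phi Mf_839.f z0 w0) :=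
  discs_of Mf_839.holC_f Mf_839.isCoveringMap_f f_z0

end

end Crest.Agent.R272.M14_590
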