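import Crest.Agent.R272.Sq4a_771
import Crest.Agent.R272.BL2_366
import Crest.Agent.R272.Asm2_102

/-!
# R272 (S0414), helper140: holomorphic slopes on the blow-up

`Slope C x a b` (771): the ratio of `a` and `b` (or of `b` and `a`) is holomorphic at `x`.

* `Slope.comp`  : pull back along a holomorphic map;
* `Slope.dich`  : `b = a g`, or `a = b g` with `g x = 0`;  `Slope.pow`;
* `slope_z`     : over a centre `s` of `K : Ctr A` the two coordinates `z 0`, `z 1` have a holomorphic slope;
* `slope_D1`    : over a node of 102's first blow-up the functions `T`, `S` of 409's `Node`;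
* `slope_piN`   : the same on the second blow-up, and on every space over it.
-/

set_option autoImplicit false
set_option linter.unusedSectionVars false

open Set Filter Topology Complex

namespace Crest.Agent.R272.SlB_140

open Crest.Agent.R275.Geo Crest.Agent.R275.Core144
open Crest.Agent.R273.Fam_835 Crest.Agent.R273.Map_835
open Crest.Agent.R272.Quot_783 Crest.Agent.R272.Root_83 Crest.Agent.R272.Blup1_102
open Crest.Agent.R272.BL_366 Crest.Agent.R272.Sq4_771
open Crest.Agent.R272.BlA_266 Crest.Agent.R272.Adp_409 Crest.Agent.R272.Asm2_102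

noncomputable section

section Comp

variable {n m : ℕ} {X Y : Type} [TopologicalSpace X] [TopologicalSpace Y] {C : Fam n X}
  {D : Fam m Y} {p : Y → X} {y : Y} {a b : X → ℂ}

/-- pull back -/
theorem _root_.Crest.Agent.R272.Sq4_771.Slope.comp (h : Slope C (p y) a b) (hp : HolC D C p) :
    Slope D y (fun z => a (p z)) (fun z => b (p z)) := by
  rcases h with ⟨u, hu, h⟩ | ⟨u, hu, h⟩
  · exact Or.inl ⟨fun z => u (p z), hu.comp hp, hp.cont.continuousAt.eventually h⟩
  · exact Or.inr ⟨fun z => u (p z), hu.comp hp, hp.cont.continuousAt.eventually h⟩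

/-- the dichotomy: `b = a g`, or `a = b g` with `g x = 0` -/
theorem _root_.Crest.Agent.R272.Sq4_771.Slope.dich {x : X} (h : Slope C x a b) :
    (∃ g, HG C x g ∧ ∀ᶠ z in 𝓝 x, b z = a z * g z) ∨
      ∃ g, HG C x g ∧ g x = 0 ∧ ∀ᶠ z in 𝓝 x, a z = b z * g z := by
  rcases h with ⟨u, hu, h⟩ | h
  · by_cases h0 : u x = 0
    · exact Or.inr ⟨u, hu, h0, h⟩
    · refine Or.inl ⟨fun z => (u z)⁻¹, hu.inv h0, ?_⟩
      filter_upwards [h, hu.continuousAt.eventually_ne h0] with z h1 h2
      rw [h1, mul_assoc, mul_inv_cancel₀ h2, mul_one]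
  · exact Or.inl h

/-- powers -/
theorem _root_.Crest.Agent.R272.Sq4_771.Slope.pow {x : X} (h : Slope C x a b) (k : ℕ) :
    Slope C x (fun z => a z ^ k) (fun z => b z ^ k) := by
  rcases h with ⟨u, hu, h⟩ | ⟨u, hu, h⟩
  · refine Or.inl ⟨fun z => u z ^ k, hu.pow k, ?_⟩
    filter_upwards [h] with z h1
    rw [h1, mul_pow]
  · refine Or.inr ⟨fun z => u z ^ k, hu.pow k, ?_⟩
    filter_upwards [h] with z h1
    rw [h1, mul_pow]

end Comp

section Blow

variable {M : Type} [TopologicalSpace M] [T2Space M] {A : Atl 2 M} (K : Ctr A)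

/-- **over a centre the two coordinates have a holomorphic slope** -/
theorem slope_z {s : K.S} {y : K.X} (hy : K.pi y = K.p s) :
    Slope (fam K.atl) y (fun y => K.z s (K.pi y) 0) (fun y => K.z s (K.pi y) 1) := by
  obtain ⟨a, ha⟩ := exists_chart hy
  fin_cases a
  · refine Or.inr ⟨fun y => K.co s 0 y 1, hg_co K ha 1, ?_⟩
    filter_upwards [(K.isOpen_V s 0).mem_nhds ha] with y' h1
    rw [(z_chart0 h1).2, (z_chart0 h1).1]
  · refine Or.inl ⟨fun y => K.co s 1 y 0, hg_co K ha 0, ?_⟩
    filter_upwards [(K.isOpen_V s 1).mem_nhds ha] with y' h1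
    rw [(z_chart1 h1).2, (z_chart1 h1).1]

end Blow

section Nodes

variable {M : Type} [TopologicalSpace M] [T2Space M] {A : Atl 2 M} {ρ : Type} (P : PD A ρ)
  {Z : Set M} (hZ : Z.Finite) (N : ∀ x : Z, Node P (x : M))

/-- **over a node, on the first blow-up** -/
theorem slope_D1 (s : Z) {y : (D1 P hZ N).X} (hy : (D1 P hZ N).pi y = (s : M)) :
    Slope (fam (D1 P hZ N).atl) y (fun y => (N s).T ((D1 P hZ N).pi y))
      (fun y => (N s).S ((D1 P hZ N).pi y)) := by
  have h1 := slope_z (D1 P hZ N) (s := s) (y := y) hy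
  have hc : (s : M) ∈ ((nodeCen N).c s).source := (nodeCen N).p_mem s
  have hev : ∀ᶠ y' in 𝓝 y, (D1 P hZ N).pi y' ∈ ((nodeCen N).c s).source := by
    refine (D1 P hZ N).continuous_pi.continuousAt.eventually ?_
    rw [hy]
    exact ((nodeCen N).c s).open_source.mem_nhds hc
  refine h1.units (v := fun _ => nodeR N s) (w := fun _ => nodeR N s) (HG.const _) (HG.const _)
    (nodeR_ne N s) (nodeR_ne N s) ?_ ?_
  · filter_upwards [hev] with y' h2
    exact nodeCen_T N s h2
  · filter_upwards [hev] with y' h2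
    exact nodeCen_S' N s h2

variable {n : ℕ} {X : Type} [TopologicalSpace X] {CX : Fam n X}

/-- **over a node, on every space over the first blow-up** -/
theorem slope_pi1 {f : X → (D1 P hZ N).X} (hf : HolC CX (fam (D1 P hZ N).atl) f) (s : Z) {x : X}
    (hx : (D1 P hZ N).pi (f x) = (s : M)) :
    Slope CX x (fun x => (N s).T ((D1 P hZ N).pi (f x)))
      (fun x => (N s).S ((D1 P hZ N).pi (f x))) :=
  Slope.comp (p := f) (slope_D1 P hZ N s hx) hf

/-- **over a node, on every space over the second blow-up** -/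
theorem slope_piN {f : X → (D2 P hZ N).X} (hf : HolC CX (fam (D2 P hZ N).atl) f) (s : Z) {x : X}
    (hx : piN P hZ N (f x) = (s : M)) :
    Slope CX x (fun x => (N s).T (piN P hZ N (f x))) (fun x => (N s).S (piN P hZ N (f x))) := by
  have h1 : (D1 P hZ N).pi ((D2 P hZ N).pi (f x)) = (s : M) := hx
  have h2 := slope_D1 P hZ N s h1
  have h3 : HolC CX (fam (D1 P hZ N).atl) (fun x => (D2 P hZ N).pi (f x)) :=
    (holC_iff.2 (D2 P hZ N).holMap_pi).comp hf
  exact Slope.comp (p := fun x => (D2 P hZ N).pi (f x)) h2 h3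

end Nodes

end

end Crest.Agent.R272.SlB_140
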