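import Crest.Agent.R272.Ne0_595
import Crest.Agent.R272.NlB3_426
import Crest.Agent.R272.SlB_140
import Crest.Agent.R272.Cv14_414
import Crest.Agent.R272.Nl3_595

/-!
# R272, S14 end game (helper235): the slope dichotomy `SlD` on the literal model `M : NLoc k`

Every point of `M.D.X` over `(z0, w0)` lies over a centre of type (P), where the node has `T = τ`, `S = ω`; over
the first blow-up `τ` and `ω` have a holomorphic slope (140), and `f1 ∘ κ_C = τ²`, `f2 ∘ κ_F = ω²` (595).
-/

set_option autoImplicit false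
set_option linter.unusedSectionVars false

open Set Filter Topology Complex

namespace Crest.Agent.R272.Sl1_235

open Crest.Agent.R275.Geo Crest.Agent.R275.Core144
open Crest.Agent.R273.Fam_835 Crest.Agent.R273.Map_835
open Crest.Agent.R272.FamP_54 Crest.Agent.R272.P1F_54 Crest.Agent.R272.DCov_426
open Crest.Agent.R272.P1S_590 Crest.Agent.R272.Hom_839 Crest.Agent.R272.M14_590
open Crest.Agent.R272.P1L_426 (Ch F8 CC BB f16 f8 f4 g8)
open Crest.Agent.R272.Quot_783 Crest.Agent.R272.Root_83 Crest.Agent.R272.Ne_595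
open Crest.Agent.R272.Nl_595 Crest.Agent.R272.Asm2_102 Crest.Agent.R272.Sq4_771
open Crest.Agent.R272.SlB_140 Crest.Agent.R272.Gm2_235

noncomputable section

/-- a point of `C^` over `z0` -/
theorem of_kC {q : Ch.X} (h : kC q = z0) :
    Ch.p q ∈ (A1.e false).source ∧ NlB_426.t1 false q = 0 := by
  obtain ⟨a0, a1, v, r⟩ := isHom_Ch.exists_rep q
  have r1 := rep_kC r
  rw [h] at r1
  obtain ⟨c, hc, e0, e1, -⟩ := isHom_CC.rep_rel rep_z0 r1
  have ha1 : a1 = 0 := by
    rw [mul_zero] at e1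
    exact pow_eq_zero_iff two_ne_zero |>.1 e1
  have ha0 : a0 ≠ 0 := by
    intro h0
    rw [h0, mul_one] at e0
    exact hc (by rw [← e0]; simp)
  refine ⟨?_, ?_⟩
  · rw [r.p, mem_src_pt r.ne]
    show ‖a1‖ < 2 * ‖a0‖
    rw [ha1, norm_zero]
    have := norm_pos_iff.2 ha0
    positivity
  · show pc false (Ch.p q) = 0
    rw [rep_pc r ha0, ha1, zero_div]

/-- a point of `F8` over `w0` -/
theorem of_kF {q : F8.X} (h : kF q = w0) :
    F8.p q ∈ (A1.e false).source ∧ NlB_426.om false q = 0 := by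
  obtain ⟨a0, a1, v, r⟩ := isHom_F8.exists_rep q
  have r1 := rep_kF r
  rw [h] at r1
  obtain ⟨c, hc, e0, e1, -⟩ := isHom_BB.rep_rel rep_w0 r1
  have ha1 : a1 = 0 := by
    rw [mul_zero] at e1
    exact pow_eq_zero_iff two_ne_zero |>.1 e1
  have ha0 : a0 ≠ 0 := by
    intro h0
    rw [h0, mul_one] at e0
    exact hc (by rw [← e0]; simp)
  refine ⟨?_, ?_⟩
  · rw [r.p, mem_src_pt r.ne]
    show ‖a1‖ < 2 * ‖a0‖
    rw [ha1, norm_zero]
    have := norm_pos_iff.2 ha0
    positivity
  · show pc false (F8.p q) = 0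
    rw [rep_pc r ha0, ha1, zero_div]

variable {k : ℂ} (M : NLoc k)

/-- the projection of the surface to `N = C^ × F8` -/
def prN (x : M.D.X) : Ch.X × F8.X := piN (PN k) M.fin M.N (M.D.p x)

theorem holC_prN : HolC M.D.famX (fam AN) (prN M) :=
  (holC_iff.2 (holMap_piN (PN k) M.fin M.N)).comp M.D.holC_p

theorem continuous_prN : Continuous (prN M) := (holC_prN M).cont

/-- every point over `(z0, w0)` lies over a centre of type (P) -/
theorem is_P {x : M.D.X} (h1 : kC (prN M x).1 = z0) (h2 : kF (prN M x).2 = w0) :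
    NlB_426.Is k .P (prN M x) :=
  ⟨(of_kC h1).1, (of_kF h2).1, (of_kC h1).2, (of_kF h2).2, trivial⟩

/-- the node at the centres of type (P) -/
def NodeP (M : NLoc k) : Prop := ∀ x : NlB_426.Z k, NlB_426.Is k .P (x : Ch.X × F8.X) →
  (M.N x).T = (fun q => NlB_426.t1 false q.1) ∧ (M.N x).S = fun q => NlB_426.om false q.2

/-- `τ` and `ω` have a holomorphic slope over `(z0, w0)` -/
theorem slope_P (hN : NodeP M) {x : M.D.X} (h1 : kC (prN M x).1 = z0) (h2 : kF (prN M x).2 = w0) :
    Slope M.D.famX x (fun x => NlB_426.t1 false (prN M x).1)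
      (fun x => NlB_426.om false (prN M x).2) := by
  have hP := is_P M h1 h2
  have h3 := slope_piN (PN k) M.fin M.N (f := M.D.p) M.D.holC_p ⟨prN M x, hP.mem_Z⟩ (x := x) rfl
  obtain ⟨e1, e2⟩ := hN ⟨prN M x, hP.mem_Z⟩ hP
  rw [e1, e2] at h3
  exact h3

/-- **the slope dichotomy of S0414** -/
theorem slD (hN : NodeP M) : SlD M.D.famX CC.atlX BB.atlX
    (fun x => (kC (prN M x).1, kF (prN M x).2)) z0 w0 f1 f2 where
  lc1 := Dt14_414.lc_iff.1 Ne_595.lc1
  lc2 := Dt14_414.lc_iff.1 Ne_595.lc2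
  f1z := f1_z0
  f2w := f2_w0
  dich x hx := by
    have h1 : kC (prN M x).1 = z0 := congrArg Prod.fst hx
    have h2 : kF (prN M x).2 = w0 := congrArg Prod.snd hx
    have hc : ContinuousAt (prN M) x := (continuous_prN M).continuousAt
    have ev1 : ∀ᶠ z in 𝓝 x, Ch.p (prN M z).1 ∈ (A1.e false).source :=
      (Ch.continuous_p.comp (continuous_fst.comp (continuous_prN M))).continuousAt.eventually_mem
        ((A1.e false).open_source.mem_nhds (of_kC h1).1)
    have ev2 : ∀ᶠ z in 𝓝 x, F8.p (prN M z).2 ∈ (A1.e false).source :=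
      (F8.continuous_p.comp (continuous_snd.comp (continuous_prN M))).continuousAt.eventually_mem
        ((A1.e false).open_source.mem_nhds (of_kF h2).1)
    have h3 := (slope_P M hN h1 h2).pow 2
    have h4 : Slope M.D.famX x (fun x => f1 (kC (prN M x).1)) (fun x => f2 (kF (prN M x).2)) := by
      refine h3.congr ?_ ?_
      · filter_upwards [ev1] with z hz
        exact (f1_kC hz).symm
      · filter_upwards [ev2] with z hz
        exact (f2_kF hz).symm
    exact h4.dich

end

end Crest.Agent.R272.Sl1_235
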