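import Crest.Agent.R272.As1_235
import Crest.Agent.R272.Sl1_235
import Crest.Agent.R272.Ne1_595
import Crest.Agent.R272.Cyc5_760
import Crest.Agent.R272.M14c_590

/-!
# R272, S14 end game (helper235): the final application of S0414

`s14_of` : S0414 from a model `M : NLoc ka` with the nodes of 426, the square classes `Sq14`, one cycle of curves
`K : CycD M.D` over `P0` and the four arcs.
-/

set_option autoImplicit false
set_option linter.unusedSectionVars false

open Set Filter Topology Complex

namespace Crest.Agent.R272.Fin14_235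

open Crest.Agent.R275.Geo Crest.Agent.R275.Core144
open Crest.Agent.R273.Fam_835 Crest.Agent.R273.Map_835
open Crest.Agent.R272.DCov_426 Crest.Agent.R272.M14_590
open Crest.Agent.R272.P1L_426 (Ch F8 CC BB)
open Crest.Agent.R272.Root_83 Crest.Agent.R272.Ne_595
open Crest.Agent.R272.Nl_595 Crest.Agent.R272.Mf_839
open Crest.Agent.R272.Sl1_235 Crest.Agent.R272.As1_235 Crest.Agent.R272.Cyc_760
open Dt14_414 Main14_414 G14a_414

noncomputable section

/-- **S0414, the final application** -/
theorem s14_of (M : NLoc ka) (hN : NodeP M)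
    (s : Sq14 M.D.famX CC.atlX BB.atlX phi Mf_839.f M14_590.z0 M14_590.w0 (π1 M) (π2 M))
    (K : CycD M.D) (hK : ∀ x ∈ K.Z, pN M x = P0)
    (hA : ArcsX (g0 ka) (Sf M) (T0 M) (RM M) (RN M) K.Z) : S14 := by
  obtain ⟨z₀, z₁, z₂, z₃, k₁, r₁, k₂, r₂, a1, a2, b1, b2⟩ := hA
  exact s14_mainX M discs14 s K.curvesOn (slD M hN) (nearX M hK) k₁ r₁ k₂ r₂ a1 a2 b1 b2

end

end Crest.Agent.R272.Fin14_235
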