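import Crest.Agent.R272.Ne1_595
import Crest.Agent.R272.As1_235
import Crest.Agent.R272.Nl4_595

/-!
# R272 (S0414), NEAR (helper595), part 2: helper235's `NearX` for the literal model
-/

set_option autoImplicit false

open Set Filter Topology Complex

namespace Crest.Agent.R272.Ne_595

open Crest.Agent.R272.M14_590
open Crest.Agent.R272.P1L_426 (Ch F8 CC BB)
open Crest.Agent.R272.Nl_595
open Crest.Agent.R272.Mf_839 (ka ka_pow f)

noncomputable section

/-- helper235's form of `nearX` -/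
theorem nearX' (M : NLoc ka) {Z : Set M.D.X} (hZ : ∀ x ∈ Z, pN M x = P0) :
    As1_235.NearX M.D.famX CC.atlX BB.atlX phi f M14_590.z0 M14_590.w0 (π1 M) (π2 M) f1 f2 (g0 ka)
      Z (Sf M) (T0 M) (RM M) (RN M) := by
  have h := nearX M hZ
  exact ⟨h.lc1, h.lc2, h.f1z, h.f2w, h.ne, h.he, fun x hx => (h.hZ x hx).1,
    fun x hx => (h.hZ x hx).2, h.hS, h.hT, h.hM, h.hN, h.sS, h.sT, h.sM, h.sN⟩

/-- **the model** -/
def MM : NLoc ka := nloc ka_pow

end

end Crest.Agent.R272.Ne_595
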