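import Crest.Agent.R272.Val2_83
import Crest.Agent.R272.Ne2_595
import Crest.Agent.R272.Sl1_235
import Crest.Agent.R272.CyB5_894

/-!
# R272, leaf S14-CYC-VAL (helper83), part 3: the four paths on the literal model `M : NLoc ka`

`mm_deck`: the coherent roots of the tower under the deck transformations;
`arcs14`: 235's `ArcsX` for every cycle `K : CycD M.D` over the special centre with the slopes V1, V2;
`arcs14'`: the same for a cycle whose base curves are 894's `str`, `exc` with 266's parameters.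
-/

set_option autoImplicit false
set_option linter.unusedSectionVars false

open Set Topology Filter

namespace Crest.Agent.R272.Val_83

open Crest.Agent.R275.Geo Crest.Agent.R275.Core144 Crest.Agent.R273.Fam_835
open Crest.Agent.R272.Quot_783 Crest.Agent.R273.Map_835
open Crest.Agent.R272.Root_83 Crest.Agent.R272.Gm1_235 Crest.Agent.R272.Gm2_235
open Crest.Agent.R272.Gm3_235 (Rat ArcX)
open Crest.Agent.R272.As1_235
open Crest.Agent.R272.DCov_426 Crest.Agent.R272.Cyc_760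
open Crest.Agent.R272.Blup1_102 Crest.Agent.R272.BlA_266 Crest.Agent.R272.Adp_409
open Crest.Agent.R272.Asm2_102 Crest.Agent.R272.Tow_102 Crest.Agent.R272.CyB_894

noncomputable section

section gen

variable {M : Type} [TopologicalSpace M] [T2Space M] {A : Atl 2 M} {ρ : Type} [Fintype ρ]
  {P : PD A ρ} {hk : ∀ a, P.k a = 2} {Z : Set M} {hZ : Z.Finite} {N : ∀ x : Z, Node P (x : M)}
  {hadm : ∀ x, Adm (N x).sh} {hoff : ∀ x, x ∉ Z → P.Snc x}

/-- **the coherent roots under the deck transformations** -/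
theorem mm_deck (ζ : ρ → ℂ) (hζ : ∀ a, ζ a ^ (asm P hk hZ N hadm hoff).k a = 1) (a : ρ) {i : A.ι}
    {x : TX P hk hZ N hadm hoff} (hi : pr P hk hZ N hadm hoff x ∈ (A.e i).source) :
    (mm P hk hZ N hadm hoff).R a i ((asm P hk hZ N hadm hoff).deck ζ hζ x) =
      ζ a * (mm P hk hZ N hadm hoff).R a i x := by
  obtain ⟨j₂, h₂⟩ := (D2 P hZ N).atl.cover ((asm P hk hZ N hadm hoff).p x)
  obtain ⟨j₁, h₁⟩ := (D1 P hZ N).atl.cover ((D2 P hZ N).pi ((asm P hk hZ N hadm hoff).p x))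
  rw [mm_R a hi h₁ h₂, mm_R (x := (asm P hk hZ N hadm hoff).deck ζ hζ x) a hi h₁ h₂,
    (asm P hk hZ N hadm hoff).y_deck ζ hζ h₂ a]
  have hA : ∀ a b c d y z : ℂ, a * b * (c * d * (z * y)) = z * (a * b * (c * d * y)) := by
    intros
    ring
  exact hA _ _ _ _ _ _

end gen

open Crest.Agent.R272.P1S_590 Crest.Agent.R272.Hom_839 Crest.Agent.R272.M14_590
open Crest.Agent.R272.P1L_426 (Ch F8 CC BB)
open Crest.Agent.R272.Nl_595 Crest.Agent.R272.Ne_595
open Crest.Agent.R272.Mf_839 (ka)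

section model

variable {k : ℂ} {M : NLoc k}

theorem RM_fl (K : CycD M.D) {x : M.D.X} (h1 : pC M x ∈ (Ch.atlX.e i0).source)
    (h2 : pF M x ∈ (F8.atlX.e j0).source) : RM M (fl K x) = -RM M x := by
  have h := mm_deck (P := TW.pd k) (hk := TW.pd_k k) (hZ := M.fin) (N := M.N) (hadm := M.adm)
    (hoff := M.off) sgn (sgn_pow K) 0 (i := (i0, j0)) (x := x) ⟨h1, h2⟩
  refine h.trans ?_
  rw [sgn_zero, neg_one_mul]
  rfl

theorem RN0_fl (K : CycD M.D) {x : M.D.X} (h1 : pC M x ∈ (Ch.atlX.e i0).source)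
    (h2 : pF M x ∈ (F8.atlX.e j0).source) : RN0 M (fl K x) = RN0 M x := by
  have h := mm_deck (P := TW.pd k) (hk := TW.pd_k k) (hZ := M.fin) (N := M.N) (hadm := M.adm)
    (hoff := M.off) sgn (sgn_pow K) 1 (i := (i0, j0)) (x := x) ⟨h1, h2⟩
  refine h.trans ?_
  rw [sgn_one, one_mul]
  rfl

theorem RN_fl (K : CycD M.D) {x : M.D.X} (h1 : pC M x ∈ (Ch.atlX.e i0).source)
    (h2 : pF M x ∈ (F8.atlX.e j0).source) : RN M (fl K x) = RN M x := by
  show RN0 M (fl K x) * cN (T0 M (fl K x)) = RN0 M x * cN (T0 M x)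
  rw [RN0_fl K h1 h2]
  rfl

end model

theorem he2 : ∃ e : CC.X → ℂ, HG (fam CC.atlX) M14_590.z0 e ∧
    ∀ᶠ z in 𝓝 M14_590.z0, f2 (phi z) = f1 z ^ 2 * e z := by
  refine ⟨fun _ => 1, HG.const 1, ?_⟩
  filter_upwards [NlB_426.ev_src CC (src_of_rep M14_590.rep_z0)] with z hz
  rw [f2_phi hz, mul_one]

/-- **the four paths on the literal model** -/
theorem arcs14 (M : NLoc ka) (hN : Sl1_235.NodeP M) (K : CycD M.D)
    (hK : ∀ x ∈ K.Z, pN M x = P0)
    (ne1 : ∀ x, ∃ᶠ z in 𝓝 x, π2 M z ≠ M14_590.w0) (ne3 : ∀ x, ∃ᶠ z in 𝓝 x, π1 M z ≠ M14_590.z0)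
    (hw : K.w₁ 0 + K.w₁ 1 = 0)
    (V1 : ∀ w : V2, w ≠ 0 → w 0 ≠ w 1 →
      Rat (fun y => NlB_426.t1 false (piN (PN ka) M.fin M.N y).1)
        (fun y => NlB_426.om false (piN (PN ka) M.fin M.N y).2)
        (K.α.G w) (g0 ka * (w 0 + w 1) / (w 0 - w 1)))
    (V2 : ∀ w : V2, w ≠ 0 → Rat (fun y => NlB_426.t1 false (piN (PN ka) M.fin M.N y).1)
        (fun y => NlB_426.om false (piN (PN ka) M.fin M.N y).2) (K.β.G w) 0) :
    ArcsX (g0 ka) (Sf M) (T0 M) (RM M) (RN M) K.Z := by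
  refine arcsX_base K (nearX' M hK) (Sl1_235.slD M hN) he2 (holC_π1 M) (holC_π2 M) ne1 ne3 hw
    (Tb := fun y => NlB_426.t1 false (piN (PN ka) M.fin M.N y).1)
    (Sb := fun y => NlB_426.om false (piN (PN ka) M.fin M.N y).2)
    (fun _ _ => Eventually.of_forall fun _ => rfl) (fun _ _ => Eventually.of_forall fun _ => rfl)
    V1 V2 ?_ ?_
  · intro x hx
    filter_upwards [ev_pC (hK x hx), ev_pF (hK x hx)] with z h1 h2
    exact RN_fl K h1 h2
  · intro x hx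
    filter_upwards [ev_pC (hK x hx), ev_pF (hK x hx)] with z h1 h2
    exact RM_fl K h1 h2

/-- the four paths for a cycle with base curves `str.pre (Bg (g0 ka))`, `exc.pre B` of 894 / 266 -/
theorem arcs14' (M : NLoc ka) (hN : Sl1_235.NodeP M) (K : CycD M.D)
    (hK : ∀ x ∈ K.Z, pN M x = P0)
    (ne1 : ∀ x, ∃ᶠ z in 𝓝 x, π2 M z ≠ M14_590.w0) (ne3 : ∀ x, ∃ᶠ z in 𝓝 x, π1 M z ≠ M14_590.z0)
    (hw : K.w₁ 0 + K.w₁ 1 = 0)
    (t : (D1 (PN ka) M.fin M.N).S) (ht : t ∈ tau (D1 (PN ka) M.fin M.N) (sh1 (PN ka) M.fin M.N))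
    (ht0 : t.1 = P0) (hγ : g0 ka ≠ 0) (B : V2 ≃L[ℂ] V2)
    (hα : ∀ w, K.α.G w =
      (((two14 (PN ka) M.fin M.N t ht).str.pre (BlS_266.Bg (g0 ka) hγ)).G w))
    (hβ : ∀ w, K.β.G w =
      (((exc (D2 (PN ka) M.fin M.N) (two14 (PN ka) M.fin M.N t ht).s2).pre B).G w)) :
    ArcsX (g0 ka) (Sf M) (T0 M) (RM M) (RN M) K.Z := by
  have hP : NlB_426.Is ka .P t.1 := by
    rw [ht0]
    exact ⟨src_p1, src_p2, t1_p1, om_p2, trivial⟩
  obtain ⟨e1, e2⟩ := hN t hP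
  refine arcs14 M hN K hK ne1 ne3 hw (fun w hw0 hw1 => ?_) fun w hw0 => ?_
  · have h := rat_strG (PN ka) M.fin M.N t ht (γ := g0 ka) (hγ := hγ) hw1
    rw [← hα w] at h
    rw [e1, e2] at h
    exact h
  · have h := rat_excB (PN ka) M.fin M.N t ht B w
    rw [← hβ w] at h
    rw [e1, e2] at h
    exact h

end

end Crest.Agent.R272.Val_83
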