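import Crest.Agent.R272.CycI3_760
import Crest.Agent.R272.Val3_83
import Crest.Agent.R272.Fin14_235
import Crest.Agent.R272.NlB3_426

/-!
# R272 (S0414), helper760: everything except the square classes

`s14_of_sq` : S0414 from `Sq14` on the literal model `nloc ka_pow`.
-/

set_option autoImplicit false
set_option linter.unusedSectionVars false

open Set Filter Topology Complex

namespace Crest.Agent.R272.CycI_760

open Crest.Agent.R272.P1L_426 (Ch F8 CC BB)
open Crest.Agent.R272.M14_590
open Crest.Agent.R272.NlB_426 Crest.Agent.R272.Nl_595 Crest.Agent.R272.Ne_595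
open Crest.Agent.R272.Mf_839 (ka ka_pow)
open Dt14_414 Main14_414 G14a_414 Fin14_235

noncomputable section

theorem nodeP : Sl1_235.NodeP (nloc ka_pow) := fun _ h =>
  ⟨(NlB_426.node_P ka_pow h).1, (NlB_426.node_P ka_pow h).2.1⟩

/-- **S0414 from the square classes** -/
theorem s14_of_sq (s : Sq14 (nloc ka_pow).D.famX CC.atlX BB.atlX phi Mf_839.f M14_590.z0
    M14_590.w0 (π1 (nloc ka_pow)) (π2 (nloc ka_pow))) : S14 := by
  obtain ⟨K, B, hα, hβ, h1, -, hK⟩ := exists_cyc14 ka_pow
  exact s14_of (nloc ka_pow) nodeP s K hK (Val_83.arcs14' (nloc ka_pow) nodeP K hK s.ne1 s.ne3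
    (by rw [h1]; simp) (c0 ka) (tau_P0 (nodeP0 ka_pow)) rfl (g0_ne ka_pow) B hα hβ)

end

end Crest.Agent.R272.CycI_760
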