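import Crest.Agent.R273.Fam_835
import Crest.Agent.R272.DCov1_426

/-!
# R272 (S0414, S0415), DCOV (helper426), file 2: abelian covers of complex manifolds

`Data A ρ` : line bundles `L a`, exponents `k a ≥ 1`, holomorphic sections `s a` of `(L a)^(k a)`,
`a : ρ`, with `SNC` zero divisors.
`D.T`      : the total space of `⊕ L a` (a `FiberBundleCore`), charts `D.ch i`
`D.X`      : `{t ∈ T | ∀ a, (t_a)^(k a) = s a}`
`D.famX`   : the holomorphic charts of `X`.
-/

set_option autoImplicit false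
set_option linter.unusedSectionVars false

open Set Filter Topology

namespace Crest.Agent.R272.DCov_426

open Crest.Agent.R275.Geo Crest.Agent.R275.Core144
open Crest.Agent.R273.Map_835 Crest.Agent.R273.Fam_835

noncomputable section

variable {n : ℕ} {M : Type} [TopologicalSpace M]

/-- line bundles with roots of sections -/
structure Data (A : Atl n M) (ρ : Type) where
  L : ρ → LB A
  k : ρ → ℕ
  s : ρ → A.ι → M → ℂ
  kpos : ∀ a, 0 < k a
  hs : ∀ a, IsHS (L a ^ k a) univ (s a)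
  snc : ∀ i, ∀ x ∈ (A.e i).source, ∀ w : ρ → ℂ, ∃ v : Cn n, ∀ a, s a i x = 0 →
    fderiv ℂ (fun z => s a i ((A.e i).symm z)) (A.e i x) v = w a

variable {A : Atl n M} {ρ : Type} [Fintype ρ]

theorem LB_pow_g (L : LB A) (m : ℕ) (i j : A.ι) (x : M) : (L ^ m).g i j x = (L.g i j x) ^ m := by
  induction m with
  | zero => simp
  | succ m ih => rw [pow_succ, LB.mul_g, ih, pow_succ]

theorem continuousOn_g (L : LB A) (i j : A.ι) :
    ContinuousOn (L.g i j) ((A.e i).source ∩ (A.e j).source) := by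
  intro x hx
  have h1 := (L.hol i j).diffAt (A.e j).open_source hx.1 hx.2
  have h2 : ContinuousAt (fun y => L.g i j ((A.e i).symm (A.e i y))) x :=
    ContinuousAt.comp (g := fun z => L.g i j ((A.e i).symm z)) h1.continuousAt
      ((A.e i).continuousAt hx.1)
  refine ContinuousAt.continuousWithinAt (h2.congr ?_)
  filter_upwards [(A.e i).open_source.mem_nhds hx.1] with y hy
  rw [(A.e i).left_inv hy]

namespace Data

variable (D : Data A ρ)

/-- the total space of `⊕ L a` -/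
def core : FiberBundleCore A.ι M (ρ → ℂ) where
  baseSet i := (A.e i).source
  isOpen_baseSet i := (A.e i).open_source
  indexAt x := (A.cover x).choose
  mem_baseSet_at x := (A.cover x).choose_spec
  coordChange i j x v := fun a => (D.L a).g j i x * v a
  coordChange_self i x hx v := by
    funext a
    rw [(D.L a).self, one_mul]
  continuousOn_coordChange i j := by
    rw [continuousOn_pi]
    intro a
    refine ContinuousOn.mul ?_ (by fun_prop)
    exact (continuousOn_g (D.L a) j i).comp continuous_fst.continuousOn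
      (fun p hp => ⟨hp.1.2, hp.1.1⟩)
  coordChange_comp i j k x hx v := by
    funext a
    show (D.L a).g k j x * ((D.L a).g j i x * v a) = (D.L a).g k i x * v a
    rw [← (D.L a).mul k j i x ⟨⟨hx.2, hx.1.2⟩, hx.1.1⟩, mul_assoc]

/-- the total space -/
abbrev T : Type := D.core.TotalSpace

/-- the index chosen at a point -/
def idx (x : M) : A.ι := (A.cover x).choose

theorem idx_mem (x : M) : x ∈ (A.e (idx x)).source := (A.cover x).choose_spec

/-- fibre coordinate in the chart `i` -/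
def cd (i : A.ι) (t : D.T) : ρ → ℂ := fun a => (D.L a).g i (idx t.1) t.1 * t.2 a

/-- the charts of the total space -/
def ch (i : A.ι) : OpenPartialHomeomorph D.T (Cn n × (ρ → ℂ)) :=
  (D.core.localTriv i).toOpenPartialHomeomorph.trans
    ((A.e i).prod (OpenPartialHomeomorph.refl (ρ → ℂ)))

theorem ch_apply (i : A.ι) (t : D.T) : D.ch i t = (A.e i t.1, D.cd i t) := rfl

theorem mem_ch_source {i : A.ι} {t : D.T} : t ∈ (D.ch i).source ↔ t.1 ∈ (A.e i).source := by
  constructor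
  · intro h
    exact h.1
  · intro h
    exact ⟨h, h, mem_univ _⟩

theorem mem_ch_target {i : A.ι} {w : Cn n × (ρ → ℂ)} :
    w ∈ (D.ch i).target ↔ w.1 ∈ (A.e i).target := by
  constructor
  · intro h
    exact h.1.1
  · intro h
    refine ⟨⟨h, mem_univ _⟩, ?_⟩
    show ((A.e i).symm w.1, w.2) ∈ (D.core.localTriv i).toOpenPartialHomeomorph.target
    exact ⟨(A.e i).map_target h, mem_univ _⟩

theorem ch_symm_fst {i : A.ι} {w : Cn n × (ρ → ℂ)} :
    ((D.ch i).symm w).1 = (A.e i).symm w.1 := rfl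

theorem cd_ch_symm {i : A.ι} {w : Cn n × (ρ → ℂ)} (hw : w.1 ∈ (A.e i).target) :
    D.cd i ((D.ch i).symm w) = w.2 := by
  have h1 := (D.ch i).right_inv (D.mem_ch_target.2 hw)
  rw [ch_apply] at h1
  exact congrArg Prod.snd h1

theorem cd_tr (i j : A.ι) (t : D.T) (hi : t.1 ∈ (A.e i).source) (hj : t.1 ∈ (A.e j).source)
    (a : ρ) : D.cd i t a = (D.L a).g i j t.1 * D.cd j t a := by
  show (D.L a).g i (idx t.1) t.1 * t.2 a = (D.L a).g i j t.1 * ((D.L a).g j (idx t.1) t.1 * t.2 a)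
  rw [← (D.L a).mul i j (idx t.1) t.1 ⟨⟨hi, hj⟩, idx_mem _⟩, mul_assoc]

theorem continuous_proj : Continuous (fun t : D.T => t.1) := D.core.continuous_proj

/-- `A.e j (symm z)` and `cd` are holomorphic in the chart `i` -/
theorem diffAt_ch {i j : A.ι} {w : Cn n × (ρ → ℂ)} (hw : w.1 ∈ (A.e i).target)
    (hj : (A.e i).symm w.1 ∈ (A.e j).source) :
    DifferentiableAt ℂ (fun w => D.ch j ((D.ch i).symm w)) w := by
  have h1 : DifferentiableAt ℂ (fun z => A.e j ((A.e i).symm z)) w.1 :=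
    (A.holo i j).differentiableAt
      (((A.e i).isOpen_inter_preimage_symm (A.e j).open_source).mem_nhds ⟨hw, hj⟩)
  have h2 : ∀ a, DifferentiableAt ℂ (fun z => (D.L a).g j i ((A.e i).symm z)) w.1 := by
    intro a
    have h3 := (((D.L a).hol i j).diffAt (A.e j).open_source ((A.e i).map_target hw) hj)
    rw [(A.e i).right_inv hw] at h3
    have h4 : (fun z => (D.L a).g j i ((A.e i).symm z)) =
        fun z => ((D.L a).g i j ((A.e i).symm z))⁻¹ := by
      funext z
      rw [LB.inv_eq]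
    rw [h4]
    exact h3.inv ((D.L a).ne_zero _ _ _)
  have h5 : DifferentiableAt ℂ (fun w : Cn n × (ρ → ℂ) => (A.e j ((A.e i).symm w.1),
      fun a => (D.L a).g j i ((A.e i).symm w.1) * w.2 a)) w := by
    refine DifferentiableAt.prodMk (DifferentiableAt.comp w
      (g := fun z => A.e j ((A.e i).symm z)) h1 differentiableAt_fst) ?_
    rw [differentiableAt_pi]
    intro a
    refine DifferentiableAt.mul (DifferentiableAt.comp w
      (g := fun z => (D.L a).g j i ((A.e i).symm z)) (h2 a) differentiableAt_fst) ?_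
    fun_prop
  refine h5.congr_of_eventuallyEq ?_
  have ho : IsOpen {w : Cn n × (ρ → ℂ) | w.1 ∈ (A.e i).target ∩ (A.e i).symm ⁻¹' (A.e j).source} :=
    ((A.e i).isOpen_inter_preimage_symm (A.e j).open_source).preimage continuous_fst
  filter_upwards [ho.mem_nhds ⟨hw, hj⟩] with u hu
  rw [ch_apply]
  refine Prod.ext rfl ?_
  funext a
  show D.cd j ((D.ch i).symm u) a = (D.L a).g j i ((A.e i).symm u.1) * u.2 a
  rw [D.cd_tr j i ((D.ch i).symm u) hu.2 ((A.e i).map_target hu.1), D.cd_ch_symm hu.1]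
  rfl

/-- the cover, a subset of the total space -/
def X : Set D.T := {t | ∀ a, t.2 a ^ D.k a = D.s a (idx t.1) t.1}

theorem mem_X_iff {i : A.ι} {t : D.T} (hi : t.1 ∈ (A.e i).source) :
    t ∈ D.X ↔ ∀ a, D.cd i t a ^ D.k a = D.s a i t.1 := by
  have h1 : ∀ a, D.s a i t.1 = (D.L a).g i (idx t.1) t.1 ^ D.k a * D.s a (idx t.1) t.1 := by
    intro a
    rw [(D.hs a).tr i (idx t.1) t.1 ⟨hi, idx_mem _⟩ (mem_univ _), LB_pow_g]
  refine forall_congr' fun a => ?_
  rw [h1 a]
  show _ ↔ ((D.L a).g i (idx t.1) t.1 * t.2 a) ^ D.k a = _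
  rw [mul_pow]
  exact (mul_right_inj' (pow_ne_zero _ ((D.L a).ne_zero _ _ _))).symm

/-- the equations in the chart `i` -/
def Φ (i : A.ι) (w : Cn n × (ρ → ℂ)) : ρ → ℂ :=
  fun a => w.2 a ^ D.k a - D.s a i ((A.e i).symm w.1)

theorem diff_s (i : A.ι) (a : ρ) {z : Cn n} (hz : z ∈ (A.e i).target) :
    DifferentiableAt ℂ (fun z => D.s a i ((A.e i).symm z)) z := by
  have h := ((D.hs a).hol i).diffAt isOpen_univ ((A.e i).map_target hz) (mem_univ _)
  rwa [(A.e i).right_inv hz] at h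

theorem isOpen_tg (i : A.ι) : IsOpen {w : Cn n × (ρ → ℂ) | w.1 ∈ (A.e i).target} :=
  (A.e i).open_target.preimage continuous_fst

theorem hasFDerivAt_Φ (i : A.ι) {w : Cn n × (ρ → ℂ)} (hw : w.1 ∈ (A.e i).target) :
    HasFDerivAt (D.Φ i) (ContinuousLinearMap.pi fun a =>
      ((D.k a : ℂ) * w.2 a ^ (D.k a - 1)) •
        ((ContinuousLinearMap.proj a).comp (ContinuousLinearMap.snd ℂ (Cn n) (ρ → ℂ))) -
      (fderiv ℂ (fun z => D.s a i ((A.e i).symm z)) w.1).comp
        (ContinuousLinearMap.fst ℂ (Cn n) (ρ → ℂ))) w := by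
  rw [hasFDerivAt_pi]
  intro a
  have h1 : HasFDerivAt (fun w : Cn n × (ρ → ℂ) => w.2 a)
      ((ContinuousLinearMap.proj a).comp (ContinuousLinearMap.snd ℂ (Cn n) (ρ → ℂ))) w :=
    ((ContinuousLinearMap.proj (R := ℂ) (φ := fun _ : ρ => ℂ) a).comp
      (ContinuousLinearMap.snd ℂ (Cn n) (ρ → ℂ))).hasFDerivAt
  have h2 := h1.pow (D.k a)
  have h3 := (D.diff_s i a hw).hasFDerivAt.comp w (hasFDerivAt_fst (𝕜 := ℂ) (p := w))
  have h4 := h2.sub h3
  refine h4.congr_fderiv ?_
  ext v <;> simp [smul_eq_mul]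

theorem surj_Φ (i : A.ι) {w : Cn n × (ρ → ℂ)} (hw : w.1 ∈ (A.e i).target) (h0 : D.Φ i w = 0) :
    Function.Surjective (fderiv ℂ (D.Φ i) w) := by
  rw [(D.hasFDerivAt_Φ i hw).fderiv]
  intro c
  obtain ⟨v, hv⟩ := D.snc i ((A.e i).symm w.1) ((A.e i).map_target hw) (-c)
  rw [(A.e i).right_inv hw] at hv
  have h0' : ∀ a, w.2 a ^ D.k a = D.s a i ((A.e i).symm w.1) := fun a =>
    sub_eq_zero.1 (congrFun h0 a)
  classical
  refine ⟨(v, fun a => if D.s a i ((A.e i).symm w.1) = 0 then 0 else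
    ((D.k a : ℂ) * w.2 a ^ (D.k a - 1))⁻¹ *
      (c a + fderiv ℂ (fun z => D.s a i ((A.e i).symm z)) w.1 v)), ?_⟩
  funext a
  simp only [ContinuousLinearMap.coe_pi', FunLike.coe_sub, Pi.sub_apply,
    FunLike.coe_smul, Pi.smul_apply, ContinuousLinearMap.coe_comp,
    Function.comp_apply, ContinuousLinearMap.coe_snd', ContinuousLinearMap.proj_apply,
    ContinuousLinearMap.coe_fst', smul_eq_mul]
  by_cases hs : D.s a i ((A.e i).symm w.1) = 0
  · rw [if_pos hs, hv a hs]
    simp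
  · rw [if_neg hs]
    have h1 : w.2 a ≠ 0 := by
      intro h
      apply hs
      rw [← h0' a, h, zero_pow (D.kpos a).ne']
    have h2 : ((D.k a : ℂ) * w.2 a ^ (D.k a - 1)) ≠ 0 :=
      mul_ne_zero (by exact_mod_cast (D.kpos a).ne') (pow_ne_zero _ h1)
    rw [← mul_assoc, mul_inv_cancel₀ h2]
    ring

/-- straightened charts of the total space -/
structure K where
  i : A.ι
  x0 : D.X
  χ : OpenPartialHomeomorph (Cn n × (ρ → ℂ)) (Cn n × (ρ → ℂ))
  sub : ∀ w ∈ χ.source, w.1 ∈ (A.e i).target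
  eq : ∀ w, (χ w).2 = D.Φ i w
  d1 : DifferentiableOn ℂ χ χ.source
  d2 : DifferentiableOn ℂ χ.symm χ.target

theorem exists_K (x : D.X) (i : A.ι) (hi : (x : D.T).1 ∈ (A.e i).source) :
    ∃ c : D.K, c.i = i ∧ D.ch i x ∈ c.χ.source := by
  have h1 : (D.ch i x).1 ∈ (A.e i).target := (A.e i).map_source hi
  have h2 : D.Φ i (D.ch i x) = 0 := by
    funext a
    have h3 := (D.mem_X_iff hi).1 x.2 a
    show D.cd i x a ^ D.k a - D.s a i ((A.e i).symm (A.e i (x : D.T).1)) = 0
    rw [(A.e i).left_inv hi, h3, sub_self]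
  obtain ⟨χ, k1, k2, k3, k4, k5⟩ := straighten (V := Cn n) (F := ρ → ℂ) (isOpen_tg i)
    (fun w hw => (D.hasFDerivAt_Φ i hw).differentiableAt.differentiableWithinAt) h1
    (D.surj_Φ i h1 h2) (by rw [Module.finrank_prod])
  exact ⟨⟨i, x, χ, fun w hw => k2 hw, k3, k4, k5⟩, rfl, k1⟩

variable {D}

/-- the straightened chart on the total space -/
def K.G (c : D.K) : OpenPartialHomeomorph D.T (Cn n × (ρ → ℂ)) := (D.ch c.i).trans c.χ

theorem K.mem_source (c : D.K) {t : D.T} : t ∈ c.G.source ↔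
    t.1 ∈ (A.e c.i).source ∧ D.ch c.i t ∈ c.χ.source := by
  show t ∈ (D.ch c.i).source ∧ _ ↔ _
  rw [D.mem_ch_source]
  rfl

theorem K.mem_X (c : D.K) : ∀ t ∈ c.G.source, t ∈ D.X ↔ (c.G t).2 = 0 := by
  intro t ht
  obtain ⟨h1, h2⟩ := c.mem_source.1 ht
  show _ ↔ (c.χ (D.ch c.i t)).2 = 0
  rw [c.eq, D.mem_X_iff h1]
  constructor
  · intro h
    funext a
    show D.cd c.i t a ^ D.k a - D.s a c.i ((A.e c.i).symm (A.e c.i t.1)) = 0
    rw [(A.e c.i).left_inv h1, h a, sub_self]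
  · intro h a
    have h3 := congrFun h a
    change D.cd c.i t a ^ D.k a - D.s a c.i ((A.e c.i).symm (A.e c.i t.1)) = 0 at h3
    rw [(A.e c.i).left_inv h1] at h3
    exact sub_eq_zero.1 h3

/-- the chart of the cover -/
def K.e (c : D.K) : OpenPartialHomeomorph D.X (Cn n) := slice c.G D.X c.mem_X c.x0

theorem K.e_symm (c : D.K) {z : Cn n} (hz : z ∈ c.e.target) :
    ((c.e.symm z : D.X) : D.T) = (D.ch c.i).symm (c.χ.symm (z, 0)) := slice_symm hz

theorem K.mem_target (c : D.K) {z : Cn n} (hz : z ∈ c.e.target) :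
    (z, (0 : ρ → ℂ)) ∈ c.χ.target := by
  have h : (z, (0 : ρ → ℂ)) ∈ c.G.target := hz
  exact h.1

theorem K.base_mem (c : D.K) {z : Cn n} (hz : z ∈ c.e.target) :
    (c.χ.symm (z, 0)).1 ∈ (A.e c.i).target := c.sub _ (c.χ.map_target (c.mem_target hz))

theorem K.mem_target_of (c : D.K) {z : Cn n} (hz : (z, (0 : ρ → ℂ)) ∈ c.χ.target) :
    z ∈ c.e.target := by
  refine ⟨hz, ?_⟩
  show c.χ.symm (z, 0) ∈ (D.ch c.i).target
  exact D.mem_ch_target.2 (c.sub _ (c.χ.map_target hz))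

/-- `z ↦ χ⁻¹(z, 0)` -/
def K.lift (c : D.K) (z : Cn n) : Cn n × (ρ → ℂ) := c.χ.symm (z, 0)

theorem K.lift_diffAt (c : D.K) {z : Cn n} (hz : z ∈ c.e.target) :
    DifferentiableAt ℂ c.lift z := by
  have h1 : DifferentiableAt ℂ c.χ.symm (z, (0 : ρ → ℂ)) :=
    c.d2.differentiableAt (c.χ.open_target.mem_nhds (c.mem_target hz))
  exact DifferentiableAt.comp z (f := fun z : Cn n => (z, (0 : ρ → ℂ))) h1 (by fun_prop)

theorem K.ch_symm (c : D.K) {z : Cn n} (hz : z ∈ c.e.target) :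
    D.ch c.i (c.e.symm z : D.X) = c.lift z := by
  rw [c.e_symm hz]
  exact (D.ch c.i).right_inv (D.mem_ch_target.2 (c.base_mem hz))

theorem K.proj_symm (c : D.K) {z : Cn n} (hz : z ∈ c.e.target) :
    ((c.e.symm z : D.X) : D.T).1 = (A.e c.i).symm (c.lift z).1 := by
  rw [c.e_symm hz]
  rfl

/-- transition maps through the total space -/
theorem K.diffAt_ch (c : D.K) {j : A.ι} {z : Cn n} (hz : z ∈ c.e.target)
    (hj : ((c.e.symm z : D.X) : D.T).1 ∈ (A.e j).source) :
    DifferentiableAt ℂ (fun z => D.ch j (c.e.symm z : D.X)) z := by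
  rw [c.proj_symm hz] at hj
  have h1 := D.diffAt_ch (w := c.lift z) (i := c.i) (j := j) (c.base_mem hz) hj
  have h2 : DifferentiableAt ℂ (fun z => D.ch j ((D.ch c.i).symm (c.lift z))) z :=
    DifferentiableAt.comp z (g := fun w => D.ch j ((D.ch c.i).symm w)) h1 (c.lift_diffAt hz)
  refine h2.congr_of_eventuallyEq ?_
  filter_upwards [c.e.open_target.mem_nhds hz] with y hy
  rw [c.e_symm hy]
  rfl

variable (D)

/-- **the complex structure of the cover** -/
def famX : Fam n D.X where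
  ι := D.K
  e c := c.e
  cover x := by
    obtain ⟨c, h1, h2⟩ := D.exists_K x (idx (x : D.T).1) (idx_mem _)
    refine ⟨c, ?_⟩
    show (x : D.T) ∈ c.G.source
    rw [c.mem_source, h1]
    exact ⟨idx_mem _, h2⟩
  holo c c' := by
    intro z hz
    have h1 : ((c.e.symm z : D.X) : D.T) ∈ c'.G.source := hz.2
    obtain ⟨h2, h3⟩ := c'.mem_source.1 h1
    have h4 := c.diffAt_ch hz.1 h2
    have h5 : DifferentiableAt ℂ c'.χ (D.ch c'.i (c.e.symm z : D.X)) :=
      c'.d1.differentiableAt (c'.χ.open_source.mem_nhds h3)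
    have h6 : DifferentiableAt ℂ (fun z => c'.χ (D.ch c'.i (c.e.symm z : D.X))) z :=
      DifferentiableAt.comp z (f := fun z => D.ch c'.i (c.e.symm z : D.X)) h5 h4
    exact h6.fst.differentiableWithinAt

/-- the projection -/
def p (q : D.X) : M := (q : D.T).1

theorem continuous_p : Continuous D.p := D.continuous_proj.comp continuous_subtype_val

theorem holC_p : HolC D.famX (fam A) D.p := by
  refine ⟨D.continuous_p, fun c j => ?_⟩
  intro z hz
  exact (c.diffAt_ch hz.1 hz.2).fst.differentiableWithinAt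

/-- the tautological coordinate in the chart `i` of the base -/
def y (a : ρ) (i : A.ι) (q : D.X) : ℂ := D.cd i q a

theorem y_pow (a : ρ) {i : A.ι} {q : D.X} (hi : D.p q ∈ (A.e i).source) :
    D.y a i q ^ D.k a = D.s a i (D.p q) := (D.mem_X_iff hi).1 q.2 a

theorem y_tr (a : ρ) {i j : A.ι} {q : D.X} (hi : D.p q ∈ (A.e i).source)
    (hj : D.p q ∈ (A.e j).source) : D.y a i q = (D.L a).g i j (D.p q) * D.y a j q :=
  D.cd_tr i j q hi hj a

theorem y_diffAt (a : ρ) {j : A.ι} {c : D.K} {z : Cn n} (hz : z ∈ c.e.target)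
    (hj : D.p (c.e.symm z) ∈ (A.e j).source) :
    DifferentiableAt ℂ (fun z => D.y a j (c.e.symm z)) z :=
  (differentiableAt_pi.1 (c.diffAt_ch hz hj).snd) a

end Data

end

end Crest.Agent.R272.DCov_426
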