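import Crest.Agent.R272.DCov2_426

/-!
# R272 (S0414, S0415), DCOV (helper426), file 3: topology of the cover

* `Data.mk'`, `cd_mk'`      : the point of the total space over `x` with coordinates `v` in chart `i`
* `ext_X`, `continuous_iff_X`, `lift`, `continuous_lift`, `holC_iff_X`, `holC_lift`
                            : universal property (continuous and holomorphic)
* `t2_T`, `isProperMap_p`, `compact_X`, `surjective_p`, `finite_fiber`, `isOpenMap_p`
* `deck`                    : deck transformations, transitive on the fibres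
* `connected_X`             : `M` connected, every `s a` has a zero ⇒ `X` connected
-/

set_option autoImplicit false
set_option linter.unusedSectionVars false

open Set Filter Topology

namespace Crest.Agent.R272.DCov_426

open Crest.Agent.R275.Geo Crest.Agent.R275.Core144
open Crest.Agent.R273.Map_835 Crest.Agent.R273.Fam_835

noncomputable section

variable {n : ℕ} {M : Type} [TopologicalSpace M] {A : Atl n M} {ρ : Type} [Fintype ρ]

namespace Data

variable (D : Data A ρ)

/-- the point over `x` with coordinates `v` in the chart `i` -/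
def mk' (i : A.ι) (x : M) (v : ρ → ℂ) : D.T := ⟨x, fun a => (D.L a).g (idx x) i x * v a⟩

@[simp] theorem mk'_fst (i : A.ι) (x : M) (v : ρ → ℂ) : (D.mk' i x v).1 = x := rfl

theorem cd_mk' {i : A.ι} {x : M} (_hx : x ∈ (A.e i).source) (v : ρ → ℂ) :
    D.cd i (D.mk' i x v) = v := by
  funext a
  show (D.L a).g i (idx x) x * ((D.L a).g (idx x) i x * v a) = v a
  rw [← mul_assoc, LB.mul_symm, one_mul]

theorem mk'_cd {i : A.ι} {t : D.T} : D.mk' i t.1 (D.cd i t) = t := by
  obtain ⟨x, v⟩ := t
  show (⟨x, fun a => (D.L a).g (idx x) i x * ((D.L a).g i (idx x) x * v a)⟩ : D.T) = ⟨x, v⟩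
  congr 1
  funext a
  rw [← mul_assoc, LB.mul_symm, one_mul]

theorem ext_T {t t' : D.T} (h : t.1 = t'.1) {i : A.ι}
    (hc : D.cd i t = D.cd i t') : t = t' := by
  rw [← D.mk'_cd (i := i) (t := t), ← D.mk'_cd (i := i) (t := t'), hc, h]

theorem ext_X {q q' : D.X} (h : D.p q = D.p q') {i : A.ι} (_ : D.p q ∈ (A.e i).source)
    (hc : ∀ a, D.y a i q = D.y a i q') : q = q' :=
  Subtype.ext (D.ext_T h (funext hc))

theorem mk'_mem {i : A.ι} {x : M} (hx : x ∈ (A.e i).source) {v : ρ → ℂ}
    (hv : ∀ a, v a ^ D.k a = D.s a i x) : D.mk' i x v ∈ D.X := by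
  rw [D.mem_X_iff (i := i) (t := D.mk' i x v) hx]
  intro a
  rw [D.cd_mk' hx]
  exact hv a

/-- the point of the cover -/
def mkX (i : A.ι) (x : M) (hx : x ∈ (A.e i).source) (v : ρ → ℂ)
    (hv : ∀ a, v a ^ D.k a = D.s a i x) : D.X := ⟨D.mk' i x v, D.mk'_mem hx hv⟩

@[simp] theorem p_mkX {i : A.ι} {x : M} (hx : x ∈ (A.e i).source) {v : ρ → ℂ}
    (hv : ∀ a, v a ^ D.k a = D.s a i x) : D.p (D.mkX i x hx v hv) = x := rfl

theorem y_mkX {i : A.ι} {x : M} (hx : x ∈ (A.e i).source) {v : ρ → ℂ}
    (hv : ∀ a, v a ^ D.k a = D.s a i x) (a : ρ) : D.y a i (D.mkX i x hx v hv) = v a :=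
  congrFun (D.cd_mk' hx v) a

/-! ### maps into the total space -/

theorem continuousAt_ch {i : A.ι} {t : D.T} (hi : t.1 ∈ (A.e i).source) :
    ContinuousAt (D.ch i) t := (D.ch i).continuousAt (D.mem_ch_source.2 hi)

theorem tendsto_T {Y : Type*} {l : Filter Y} {F : Y → D.T} {t : D.T} {i : A.ι}
    (hi : t.1 ∈ (A.e i).source) (h1 : Tendsto (fun q => (F q).1) l (𝓝 t.1))
    (h2 : Tendsto (fun q => D.cd i (F q)) l (𝓝 (D.cd i t))) : Tendsto F l (𝓝 t) := by
  have h3 : Tendsto (fun q => D.ch i (F q)) l (𝓝 (D.ch i t)) :=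
    Tendsto.prodMk_nhds (((A.e i).continuousAt hi).tendsto.comp h1) h2
  have h4 := ((D.ch i).continuousAt_symm ((D.ch i).map_source (D.mem_ch_source.2 hi))).tendsto
  rw [(D.ch i).left_inv (D.mem_ch_source.2 hi)] at h4
  refine (h4.comp h3).congr' ?_
  filter_upwards [h1 ((A.e i).open_source.mem_nhds hi)] with q hq
  exact (D.ch i).left_inv (D.mem_ch_source.2 hq)

theorem continuousAt_y {i : A.ι} {q : D.X} (hi : D.p q ∈ (A.e i).source) (a : ρ) :
    ContinuousAt (D.y a i) q := by
  have h1 : ContinuousAt (fun q : D.X => D.ch i (q : D.T)) q :=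
    ContinuousAt.comp (f := fun q : D.X => (q : D.T)) (D.continuousAt_ch hi)
      continuous_subtype_val.continuousAt
  exact (continuous_apply a).continuousAt.comp h1.snd

theorem continuousAt_X {Y : Type*} [TopologicalSpace Y] {F : Y → D.X} {q : Y} {i : A.ι}
    (hi : D.p (F q) ∈ (A.e i).source) (h1 : ContinuousAt (fun q => D.p (F q)) q)
    (h2 : ∀ a, ContinuousAt (fun q => D.y a i (F q)) q) : ContinuousAt F q := by
  rw [ContinuousAt, tendsto_subtype_rng]
  exact D.tendsto_T hi h1 (tendsto_pi_nhds.2 h2)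

variable {D} in
/-- sections with `t ^ k = f^* s` -/
structure LiftData (D : Data A ρ) {Y : Type*} (f : Y → M) (t : ρ → A.ι → Y → ℂ) : Prop where
  tr : ∀ a i j q, f q ∈ (A.e i).source → f q ∈ (A.e j).source →
    t a i q = (D.L a).g i j (f q) * t a j q
  pw : ∀ a i q, f q ∈ (A.e i).source → t a i q ^ D.k a = D.s a i (f q)

/-- the universal property -/
def lift {Y : Type*} {f : Y → M} {t : ρ → A.ι → Y → ℂ} (h : LiftData D f t) (q : Y) : D.X :=
  ⟨⟨f q, fun a => t a (idx (f q)) q⟩, fun a => h.pw a _ q (idx_mem _)⟩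

theorem p_lift {Y : Type*} {f : Y → M} {t : ρ → A.ι → Y → ℂ} (h : LiftData D f t) (q : Y) :
    D.p (D.lift h q) = f q := rfl

theorem y_lift {Y : Type*} {f : Y → M} {t : ρ → A.ι → Y → ℂ} (h : LiftData D f t) {q : Y}
    {i : A.ι} (hi : f q ∈ (A.e i).source) (a : ρ) : D.y a i (D.lift h q) = t a i q :=
  (h.tr a i (idx (f q)) q hi (idx_mem _)).symm

theorem continuous_lift {Y : Type*} [TopologicalSpace Y] {f : Y → M} {t : ρ → A.ι → Y → ℂ}
    (h : LiftData D f t) (hf : Continuous f)
    (ht : ∀ a i q, f q ∈ (A.e i).source → ContinuousAt (t a i) q) :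
    Continuous (D.lift h) := by
  rw [continuous_iff_continuousAt]
  intro q
  have hi := idx_mem (A := A) (f q)
  refine D.continuousAt_X (i := idx (f q)) (F := D.lift h) hi hf.continuousAt fun a => ?_
  refine (ht a _ q hi).congr ?_
  filter_upwards [hf.continuousAt ((A.e (idx (f q))).open_source.mem_nhds hi)] with q' hq'
  exact (D.y_lift h hq' a).symm

/-- every map into the cover comes from its coordinates -/
theorem liftData_of {Y : Type*} (F : Y → D.X) :
    LiftData D (fun q => D.p (F q)) (fun a i q => D.y a i (F q)) :=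
  ⟨fun a _ _ _ hi hj => D.y_tr a hi hj, fun a _ _ hi => D.y_pow a hi⟩

/-- holomorphic maps into the cover -/
theorem holC_X {m : ℕ} {Y : Type} [TopologicalSpace Y] {E : Fam m Y} {F : Y → D.X}
    (hc : Continuous F) (h1 : HolC E (fam A) (fun q => D.p (F q)))
    (h2 : ∀ a (e : E.ι) (i : A.ι) (z : Cn m), z ∈ (E.e e).target →
      D.p (F ((E.e e).symm z)) ∈ (A.e i).source →
      DifferentiableAt ℂ (fun z => D.y a i (F ((E.e e).symm z))) z) : HolC E D.famX F := by
  refine ⟨hc, fun e c => ?_⟩
  intro z hz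
  have h3 : ((F ((E.e e).symm z) : D.X) : D.T) ∈ c.G.source := hz.2
  obtain ⟨h4, h5⟩ := c.mem_source.1 h3
  have h6 : DifferentiableAt ℂ (fun z => D.ch c.i (F ((E.e e).symm z) : D.X)) z := by
    have h7 : DifferentiableAt ℂ (fun z => A.e c.i (D.p (F ((E.e e).symm z)))) z :=
      h1.diffAt (i := e) (j := c.i) hz.1 h4
    exact h7.prodMk (differentiableAt_pi.2 fun a => h2 a e c.i z hz.1 h4)
  have h7 : DifferentiableAt ℂ c.χ (D.ch c.i (F ((E.e e).symm z) : D.X)) :=
    c.d1.differentiableAt (c.χ.open_source.mem_nhds h5)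
  have h8 : DifferentiableAt ℂ (fun z => c.χ (D.ch c.i (F ((E.e e).symm z) : D.X))) z :=
    DifferentiableAt.comp z (f := fun z => D.ch c.i (F ((E.e e).symm z) : D.X)) h7 h6
  exact h8.fst.differentiableWithinAt

theorem holC_lift {m : ℕ} {Y : Type} [TopologicalSpace Y] {E : Fam m Y} {f : Y → M}
    {t : ρ → A.ι → Y → ℂ} (h : LiftData D f t) (hf : HolC E (fam A) f)
    (ht : ∀ a (e : E.ι) (i : A.ι) (z : Cn m), z ∈ (E.e e).target →
      f ((E.e e).symm z) ∈ (A.e i).source →
      DifferentiableAt ℂ (fun z => t a i ((E.e e).symm z)) z) : HolC E D.famX (D.lift h) := by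
  have hev : ∀ (e : E.ι) (i : A.ι) (z : Cn m), z ∈ (E.e e).target →
      f ((E.e e).symm z) ∈ (A.e i).source →
      ∀ᶠ w in 𝓝 z, f ((E.e e).symm w) ∈ (A.e i).source := by
    intro e i z hz hi
    have h1 : ContinuousAt (fun w => f ((E.e e).symm w)) z :=
      ContinuousAt.comp (g := f) hf.cont.continuousAt ((E.e e).continuousAt_symm hz)
    exact h1 ((A.e i).open_source.mem_nhds hi)
  have hc : Continuous (D.lift h) := by
    refine D.continuous_lift h hf.cont fun a i q hi => ?_
    obtain ⟨e, he⟩ := E.cover q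
    have h1 := ht a e i (E.e e q) ((E.e e).map_source he) (by rw [(E.e e).left_inv he]; exact hi)
    have h2 : ContinuousAt (fun q => t a i ((E.e e).symm (E.e e q))) q :=
      ContinuousAt.comp (g := fun z => t a i ((E.e e).symm z)) h1.continuousAt
        ((E.e e).continuousAt he)
    refine h2.congr ?_
    filter_upwards [(E.e e).open_source.mem_nhds he] with q' hq'
    rw [(E.e e).left_inv hq']
  refine D.holC_X hc hf fun a e i z hz hi => ?_
  refine (ht a e i z hz hi).congr_of_eventuallyEq ?_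
  filter_upwards [hev e i z hz hi] with w hw
  exact D.y_lift h hw a

/-! ### separation, properness -/

theorem t2_T [T2Space M] : T2Space D.T := by
  refine ⟨fun t t' hne => ?_⟩
  by_cases hb : t.1 = t'.1
  · have hi := idx_mem (A := A) t.1
    have hi' : t'.1 ∈ (A.e (idx t.1)).source := hb ▸ hi
    have h1 : D.ch (idx t.1) t ≠ D.ch (idx t.1) t' := fun h =>
      hne ((D.ch (idx t.1)).injOn (D.mem_ch_source.2 hi) (D.mem_ch_source.2 hi') h)
    obtain ⟨U, V, hU, hV, hx, hy, hd⟩ := t2_separation h1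
    refine ⟨_, _, (D.ch (idx t.1)).isOpen_inter_preimage hU,
      (D.ch (idx t.1)).isOpen_inter_preimage hV, ⟨D.mem_ch_source.2 hi, hx⟩,
      ⟨D.mem_ch_source.2 hi', hy⟩, ?_⟩
    rw [Set.disjoint_left]
    intro u hu hu'
    exact (Set.disjoint_left.1 hd) hu.2 hu'.2
  · obtain ⟨U, V, hU, hV, hx, hy, hd⟩ := t2_separation hb
    exact ⟨_, _, hU.preimage D.continuous_proj, hV.preimage D.continuous_proj, hx, hy,
      hd.preimage _⟩

theorem t2_X [T2Space M] : T2Space D.X := by
  have := D.t2_T
  infer_instance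

theorem surjective_p : Function.Surjective D.p := by
  intro x
  have h : ∀ a, ∃ v : ℂ, v ^ D.k a = D.s a (idx x) x := fun a =>
    IsAlgClosed.exists_pow_nat_eq _ (D.kpos a)
  choose v hv using h
  exact ⟨D.mkX (idx x) x (idx_mem x) v hv, rfl⟩

theorem finite_fiber (x : M) : {q : D.X | D.p q = x}.Finite := by
  classical
  have h0 : ∀ a, {v : ℂ | v ^ D.k a = D.s a (idx x) x}.Finite := by
    intro a
    refine ((Polynomial.nthRoots (D.k a) (D.s a (idx x) x)).toFinset.finite_toSet).subset ?_
    intro v hv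
    simp only [Finset.mem_coe, Multiset.mem_toFinset]
    exact (Polynomial.mem_nthRoots (D.kpos a)).2 hv
  have h1 : (Set.univ.pi fun a => {v : ℂ | v ^ D.k a = D.s a (idx x) x}).Finite :=
    Set.Finite.pi h0
  refine Set.Finite.of_injOn (f := fun q : D.X => fun a => D.y a (idx x) q) ?_ ?_ h1
  · intro q hq a _
    have hi : D.p q ∈ (A.e (idx x)).source := by
      rw [show D.p q = x from hq]
      exact idx_mem x
    show D.y a (idx x) q ^ D.k a = _
    rw [D.y_pow a hi, show D.p q = x from hq]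
  · intro q hq q' hq' h
    refine D.ext_X (i := idx x) ((show D.p q = x from hq).trans (show D.p q' = x from hq').symm) ?_
      (fun a => congrFun h a)
    rw [show D.p q = x from hq]
    exact idx_mem x

theorem continuousAt_s (a : ρ) {i : A.ι} {x : M} (hi : x ∈ (A.e i).source) :
    ContinuousAt (D.s a i) x := by
  have h1 := D.diff_s i a ((A.e i).map_source hi)
  have h2 : ContinuousAt (fun y => D.s a i ((A.e i).symm (A.e i y))) x :=
    ContinuousAt.comp (g := fun z => D.s a i ((A.e i).symm z)) h1.continuousAt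
      ((A.e i).continuousAt hi)
  refine h2.congr ?_
  filter_upwards [(A.e i).open_source.mem_nhds hi] with y hy
  rw [(A.e i).left_inv hy]

theorem isProperMap_p : IsProperMap D.p := by
  rw [isProperMap_iff_ultrafilter]
  refine ⟨D.continuous_p, fun 𝒰 x hx => ?_⟩
  set i := idx (A := A) x with hi
  have him : x ∈ (A.e i).source := idx_mem x
  have h1 : ∀ᶠ q in (𝒰 : Filter D.X), D.p q ∈ (A.e i).source :=
    hx ((A.e i).open_source.mem_nhds him)
  have h2 : ∀ a, ∀ᶠ q in (𝒰 : Filter D.X), ‖D.s a i (D.p q)‖ < ‖D.s a i x‖ + 1 := by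
    intro a
    have h3 : Tendsto (fun q => ‖D.s a i (D.p q)‖) (𝒰 : Filter D.X) (𝓝 ‖D.s a i x‖) :=
      ((D.continuousAt_s a him).norm).tendsto.comp hx
    exact h3.eventually (gt_mem_nhds (lt_add_one _))
  let C : Set (ρ → ℂ) := Set.univ.pi fun a => Metric.closedBall (0 : ℂ) (‖D.s a i x‖ + 1)
  have hC : IsCompact C := isCompact_univ_pi fun a => isCompact_closedBall _ _
  have h3 : ∀ᶠ q in (𝒰 : Filter D.X), (fun a => D.y a i q) ∈ C := by
    filter_upwards [h1, eventually_all.2 h2] with q hq1 hq2 a _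
    rw [mem_closedBall_zero_iff]
    by_contra hcon
    push Not at hcon
    have h4 : 1 ≤ ‖D.y a i q‖ := by
      have := norm_nonneg (D.s a i x)
      linarith
    have h5 : ‖D.y a i q‖ ≤ ‖D.y a i q‖ ^ D.k a := le_self_pow₀ h4 (D.kpos a).ne'
    have h6 : ‖D.y a i q‖ ^ D.k a = ‖D.s a i (D.p q)‖ := by rw [← norm_pow, D.y_pow a hq1]
    have h7 := hq2 a
    linarith
  obtain ⟨v, hv, hv'⟩ := hC.ultrafilter_le_nhds (𝒰.map fun q => fun a => D.y a i q)
    (by rw [le_principal_iff]; exact h3)
  have h4 : Tendsto (fun q => fun a => D.y a i q) (𝒰 : Filter D.X) (𝓝 v) := hv'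
  have h5 : ∀ a, v a ^ D.k a = D.s a i x := by
    intro a
    have h6 : Tendsto (fun q => D.y a i q ^ D.k a) (𝒰 : Filter D.X) (𝓝 (v a ^ D.k a)) :=
      ((tendsto_pi_nhds.1 h4 a).pow _)
    have h7 : Tendsto (fun q => D.s a i (D.p q)) (𝒰 : Filter D.X) (𝓝 (D.s a i x)) :=
      (D.continuousAt_s a him).tendsto.comp hx
    refine tendsto_nhds_unique (h6.congr' ?_) h7
    filter_upwards [h1] with q hq
    exact D.y_pow a hq
  refine ⟨D.mkX i x him v h5, rfl, ?_⟩
  have h6 : Tendsto (fun q : D.X => (q : D.T)) (𝒰 : Filter D.X)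
      (𝓝 ((D.mkX i x him v h5 : D.X) : D.T)) := by
    refine D.tendsto_T (i := i) him hx ?_
    have h8 : D.cd i ((D.mkX i x him v h5 : D.X) : D.T) = v := D.cd_mk' him v
    rw [h8]
    exact h4
  have h7 : Tendsto (fun q : D.X => q) (𝒰 : Filter D.X) (𝓝 (D.mkX i x him v h5)) :=
    tendsto_subtype_rng.2 h6
  exact h7

theorem compact_X [CompactSpace M] : CompactSpace D.X :=
  ⟨by simpa using D.isProperMap_p.isCompact_preimage (isCompact_univ (X := M))⟩

end Data

/-- the power map is open -/
theorem isOpenMap_pow {k : ℕ} (hk : 0 < k) : IsOpenMap (fun v : ℂ => v ^ k) := by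
  have h1 : AnalyticOnNhd ℂ (fun v : ℂ => v ^ k) univ := fun v _ => by fun_prop
  rcases h1.is_constant_or_isOpen isPreconnected_univ with ⟨w, hw⟩ | h2
  · exfalso
    have h3 := hw 0 (mem_univ _)
    have h4 := hw 1 (mem_univ _)
    simp only [zero_pow hk.ne', one_pow] at h3 h4
    rw [← h4] at h3
    exact zero_ne_one h3
  · exact fun U hU => h2 U (subset_univ _) hU

namespace Data

variable (D : Data A ρ)

theorem isOpenMap_p : IsOpenMap D.p := by
  rw [isOpenMap_iff_nhds_le]
  intro q U hU
  -- it suffices that the image of every neighbourhood of `q` is a neighbourhood of `p q`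
  rw [mem_map] at hU
  set i := idx (A := A) (D.p q) with hi
  have him : D.p q ∈ (A.e i).source := idx_mem _
  set V := D.p ⁻¹' U with hV
  -- the neighbourhood in coordinates
  have h0 : V ∈ 𝓝 q := hU
  rw [mem_nhds_subtype] at h0
  obtain ⟨V', hV', hVV⟩ := h0
  have h1 : (D.ch i).symm ⁻¹' V' ∈ 𝓝 (D.ch i (q : D.T)) := by
    have h2 := (D.ch i).continuousAt_symm ((D.ch i).map_source (D.mem_ch_source.2 him))
    rw [ContinuousAt, (D.ch i).left_inv (D.mem_ch_source.2 him)] at h2
    exact h2 hV'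
  rw [D.ch_apply, nhds_prod_eq, mem_prod_iff] at h1
  obtain ⟨N, hN, Ω, hΩ, hsub⟩ := h1
  -- powers
  let P : (ρ → ℂ) → (ρ → ℂ) := fun v a => v a ^ D.k a
  have hP : IsOpenMap P := by
    have h3 := IsOpenMap.piMap (f := fun a : ρ => fun v : ℂ => v ^ D.k a)
      (fun a => isOpenMap_pow (D.kpos a)) (by simp)
    exact h3
  have h4 : P '' Ω ∈ 𝓝 (P (D.cd i (q : D.T))) := hP.image_mem_nhds hΩ
  have h5 : P (D.cd i (q : D.T)) = fun a => D.s a i (D.p q) := by
    funext a
    exact D.y_pow a him
  rw [h5] at h4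
  have h6 : ContinuousAt (fun x => fun a => D.s a i x) (D.p q) :=
    continuousAt_pi.2 fun a => D.continuousAt_s a him
  have h7 : A.e i ⁻¹' N ∈ 𝓝 (D.p q) := (A.e i).continuousAt him hN
  have h8 : (fun x => fun a => D.s a i x) ⁻¹' (P '' Ω) ∈ 𝓝 (D.p q) := h6 h4
  filter_upwards [h7, h8, (A.e i).open_source.mem_nhds him] with x hx1 hx2 hx3
  obtain ⟨v, hv, hv'⟩ := hx2
  have hv2 : ∀ a, v a ^ D.k a = D.s a i x := fun a => congrFun hv' a
  have h9 : D.mkX i x hx3 v hv2 ∈ V := by
    apply hVV
    show ((D.mkX i x hx3 v hv2 : D.X) : D.T) ∈ V'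
    have h10 : D.ch i ((D.mkX i x hx3 v hv2 : D.X) : D.T) ∈ N ×ˢ Ω := by
      refine ⟨hx1, ?_⟩
      show D.cd i ((D.mkX i x hx3 v hv2 : D.X) : D.T) ∈ Ω
      rw [show D.cd i ((D.mkX i x hx3 v hv2 : D.X) : D.T) = v from D.cd_mk' hx3 v]
      exact hv
    have h11 := hsub h10
    rw [mem_preimage, (D.ch i).left_inv (D.mem_ch_source.2 hx3)] at h11
    exact h11
  exact h9

/-! ### deck transformations -/

theorem deckData (ζ : ρ → ℂ) (hζ : ∀ a, ζ a ^ D.k a = 1) :
    LiftData D D.p (fun a i q => ζ a * D.y a i q) :=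
  ⟨fun a i j q hi hj => by rw [D.y_tr a hi hj]; ring,
    fun a i q hi => by rw [mul_pow, hζ, one_mul, D.y_pow a hi]⟩

/-- deck transformation -/
def deck (ζ : ρ → ℂ) (hζ : ∀ a, ζ a ^ D.k a = 1) (q : D.X) : D.X :=
  D.lift (D.deckData ζ hζ) q

theorem p_deck (ζ : ρ → ℂ) (hζ : ∀ a, ζ a ^ D.k a = 1) (q : D.X) :
    D.p (D.deck ζ hζ q) = D.p q := rfl

theorem y_deck (ζ : ρ → ℂ) (hζ : ∀ a, ζ a ^ D.k a = 1) {q : D.X} {i : A.ι}
    (hi : D.p q ∈ (A.e i).source) (a : ρ) : D.y a i (D.deck ζ hζ q) = ζ a * D.y a i q :=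
  D.y_lift _ hi a

theorem continuous_deck (ζ : ρ → ℂ) (hζ : ∀ a, ζ a ^ D.k a = 1) :
    Continuous (D.deck ζ hζ) :=
  D.continuous_lift (D.deckData ζ hζ) D.continuous_p fun a _ _ hi =>
    continuousAt_const.mul (D.continuousAt_y hi a)

theorem holC_deck (ζ : ρ → ℂ) (hζ : ∀ a, ζ a ^ D.k a = 1) :
    HolC D.famX D.famX (D.deck ζ hζ) :=
  D.holC_lift (D.deckData ζ hζ) D.holC_p fun a _ _ _ hz hi => (D.y_diffAt a hz hi).const_mul (ζ a)

theorem deck_deck (ζ ξ : ρ → ℂ) (hζ : ∀ a, ζ a ^ D.k a = 1) (hξ : ∀ a, ξ a ^ D.k a = 1)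
    (q : D.X) : D.deck ζ hζ (D.deck ξ hξ q) =
      D.deck (fun a => ζ a * ξ a) (fun a => by rw [mul_pow, hζ, hξ, one_mul]) q := by
  have hi := idx_mem (A := A) (D.p q)
  refine D.ext_X (i := idx (D.p q)) rfl hi fun a => ?_
  rw [D.y_deck _ _ (q := q) hi, D.y_deck _ _ (q := D.deck ξ hξ q) hi, D.y_deck _ _ (q := q) hi,
    mul_assoc]

/-- the deck transformations are transitive on the fibres -/
theorem exists_deck {q q' : D.X} (h : D.p q = D.p q') :
    ∃ (ζ : ρ → ℂ) (hζ : ∀ a, ζ a ^ D.k a = 1), D.deck ζ hζ q = q' := by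
  classical
  set i := idx (A := A) (D.p q) with hidef
  have hi : D.p q ∈ (A.e i).source := idx_mem _
  have hi' : D.p q' ∈ (A.e i).source := h ▸ hi
  have h1 : ∀ a, D.y a i q ^ D.k a = D.y a i q' ^ D.k a := fun a => by
    rw [D.y_pow a hi, D.y_pow a hi', h]
  have h2 : ∀ a, D.y a i q = 0 → D.y a i q' = 0 := by
    intro a h0
    have h3 := h1 a
    rw [h0, zero_pow (D.kpos a).ne'] at h3
    exact pow_eq_zero_iff (D.kpos a).ne' |>.1 h3.symm
  refine ⟨fun a => if D.y a i q = 0 then 1 else D.y a i q' / D.y a i q, fun a => ?_, ?_⟩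
  · show (if D.y a i q = 0 then 1 else D.y a i q' / D.y a i q) ^ D.k a = 1
    split_ifs with h0
    · exact one_pow _
    · rw [div_pow, ← h1 a, div_self (pow_ne_zero _ h0)]
  · refine D.ext_X (i := i) h hi fun a => ?_
    rw [D.y_deck _ _ (q := q) hi]
    show (if D.y a i q = 0 then 1 else D.y a i q' / D.y a i q) * D.y a i q = D.y a i q'
    split_ifs with h0
    · rw [h0, h2 a h0, mul_zero]
    · rw [div_mul_cancel₀ _ h0]

/-! ### connectedness -/

theorem locallyConnected_X : LocallyConnectedSpace D.X := by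
  let _ := D.famX.cs
  exact ChartedSpace.locallyConnectedSpace (Cn n) D.X

/-- **the cover is connected** as soon as every section has a zero -/
theorem connected_X [ConnectedSpace M] (hz : ∀ a, ∃ x, ∃ i, x ∈ (A.e i).source ∧ D.s a i x = 0) :
    ConnectedSpace D.X := by
  classical
  have := D.locallyConnected_X
  obtain ⟨x0⟩ := (inferInstance : Nonempty M)
  obtain ⟨q0, hq0⟩ := D.surjective_p x0
  -- a connected component maps onto `M`
  have hsurj : ∀ q : D.X, D.p '' connectedComponent q = univ := by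
    intro q
    have h1 : IsOpen (D.p '' connectedComponent q) := D.isOpenMap_p _ isOpen_connectedComponent
    have h2 : IsClosed (D.p '' connectedComponent q) :=
      D.isProperMap_p.isClosedMap _ isClosed_connectedComponent
    have h3 : IsClopen (D.p '' connectedComponent q) := ⟨h2, h1⟩
    exact h3.eq_univ ⟨_, mem_image_of_mem _ mem_connectedComponent⟩
  -- single colour deck transformations preserve components
  have hone : ∀ (a : ρ) (z : ℂ) (hz1 : ∀ b, (Function.update (fun _ => (1 : ℂ)) a z) b ^ D.k b = 1)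
      (q : D.X), D.deck (Function.update (fun _ => (1 : ℂ)) a z) hz1 q ∈
        connectedComponent q := by
    intro a z hz1 q
    obtain ⟨x, i, hi, hs⟩ := hz a
    have h1 : x ∈ D.p '' connectedComponent q := by rw [hsurj q]; exact mem_univ _
    obtain ⟨q', hq', rfl⟩ := h1
    have hfix : D.deck (Function.update (fun _ => (1 : ℂ)) a z) hz1 q' = q' := by
      refine D.ext_X (i := i) rfl hi fun b => ?_
      rw [D.y_deck _ _ (q := q') hi]
      by_cases hb : b = a
      · subst hb
        have h2 : D.y b i q' = 0 := by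
          have h3 := D.y_pow b hi
          rw [hs] at h3
          exact pow_eq_zero_iff (D.kpos b).ne' |>.1 h3
        rw [h2, mul_zero]
      · rw [Function.update_of_ne hb, one_mul]
    have hcont := D.continuous_deck (Function.update (fun _ => (1 : ℂ)) a z) hz1
    have h4 : D.deck (Function.update (fun _ => (1 : ℂ)) a z) hz1 '' connectedComponent q ⊆
        connectedComponent q' :=
      (isPreconnected_connectedComponent.image _ hcont.continuousOn).subset_connectedComponent
        ⟨q', hq', hfix⟩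
    rw [← connectedComponent_eq hq'] at h4
    exact h4 (mem_image_of_mem _ mem_connectedComponent)
  -- all deck transformations preserve components
  have hall : ∀ (S : Finset ρ) (ζ : ρ → ℂ) (hζ : ∀ a, ζ a ^ D.k a = 1), (∀ a ∉ S, ζ a = 1) →
      ∀ q, D.deck ζ hζ q ∈ connectedComponent q := by
    intro S
    induction S using Finset.induction_on with
    | empty =>
      intro ζ hζ h1 q
      have h2 : D.deck ζ hζ q = q := by
        refine D.ext_X (i := idx (D.p q)) rfl (idx_mem _) fun b => ?_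
        rw [D.y_deck _ _ (q := q) (idx_mem _), h1 b (by simp), one_mul]
      rw [h2]
      exact mem_connectedComponent
    | insert a S ha ih =>
      intro ζ hζ h1 q
      have hu : ∀ b, (Function.update (fun _ => (1 : ℂ)) a (ζ a)) b ^ D.k b = 1 := by
        intro b
        by_cases hb : b = a
        · subst hb
          rw [Function.update_self]
          exact hζ b
        · rw [Function.update_of_ne hb, one_pow]
      have hw : ∀ b, (Function.update ζ a 1) b ^ D.k b = 1 := by
        intro b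
        by_cases hb : b = a
        · subst hb
          rw [Function.update_self, one_pow]
        · rw [Function.update_of_ne hb]
          exact hζ b
      have h2 := ih (Function.update ζ a 1) hw (fun b hb => by
        by_cases hba : b = a
        · subst hba
          rw [Function.update_self]
        · rw [Function.update_of_ne hba]
          exact h1 b (by simp [hba, hb])) q
      have h3 := hone a (ζ a) hu (D.deck (Function.update ζ a 1) hw q)
      have h4 : D.deck (Function.update (fun _ => (1 : ℂ)) a (ζ a)) hu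
          (D.deck (Function.update ζ a 1) hw q) = D.deck ζ hζ q := by
        refine D.ext_X (i := idx (D.p q)) rfl (idx_mem _) fun b => ?_
        have hi := idx_mem (A := A) (D.p q)
        rw [D.y_deck _ _ (q := D.deck (Function.update ζ a 1) hw q) (i := idx (D.p q)) hi,
          D.y_deck _ _ (q := q) hi, D.y_deck _ _ (q := q) hi]
        by_cases hb : b = a
        · subst hb
          rw [Function.update_self, Function.update_self, one_mul]
        · rw [Function.update_of_ne hb, Function.update_of_ne hb, one_mul]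
      rw [h4] at h3
      rwa [← connectedComponent_eq h2] at h3
  have huniv : connectedComponent q0 = univ := by
    refine eq_univ_of_forall fun q => ?_
    have h1 : D.p q ∈ D.p '' connectedComponent q0 := by rw [hsurj q0]; exact mem_univ _
    obtain ⟨q', hq', he⟩ := h1
    obtain ⟨ζ, hζ, h2⟩ := D.exists_deck he
    have h3 := hall Finset.univ ζ hζ (fun a ha => absurd (Finset.mem_univ a) ha) q'
    rw [h2] at h3
    rwa [← connectedComponent_eq hq'] at h3
  have hpre : PreconnectedSpace D.X := ⟨by rw [← huniv]; exact isPreconnected_connectedComponent⟩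
  exact { toPreconnectedSpace := hpre, toNonempty := ⟨q0⟩ }

end Data

end

end Crest.Agent.R272.DCov_426
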