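import Crest.Agent.R272.DCov4_426

/-!
# R272 (S0414, S0415), DCOV (helper426), file 5: atlases, maps between covers, group actions

* `atlX`, `cmp_atlX`, `refX` : canonical atlas of the cover (no compactness), every chart over a chart of `M`
* `exists_atlX`              : compact case: finite good atlas with `Part` and `Ref`
* `Mor D D'`                 : a holomorphic map `f : M → M'` with colour map `σ : ρ' → ρ` and frame
                               factors `e` such that `f^* s'_a = e_a^k s_(σ a)`; `Mor.map : D.X → D'.X`,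
                               continuous, holomorphic
* `Act G D`                  : a group action on `M` with colour permutations and a cocycle of frame
                               factors; `Act.action : MulAction G D.X`
-/

set_option autoImplicit false
set_option linter.unusedSectionVars false

open Set Filter Topology Metric

namespace Crest.Agent.R272.DCov_426

open Crest.Agent.R275.Geo Crest.Agent.R275.Core144 Crest.Agent.R275.GC293
open Crest.Agent.R273.Map_835 Crest.Agent.R273.Fam_835 Crest.Agent.R273.PB_835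
open Crest.Agent.R273.Defs_333

noncomputable section

variable {n : ℕ} {M : Type} [TopologicalSpace M] {A : Atl n M} {ρ : Type} [Fintype ρ]

namespace Data

variable (D : Data A ρ)

theorem cover_p (x : D.X) : ∃ i : A.ι, x ∈ D.p ⁻¹' (A.e i).source := A.cover (D.p x)

theorem isOpen_pre (i : A.ι) : IsOpen (D.p ⁻¹' (A.e i).source) :=
  (A.e i).open_source.preimage D.continuous_p

/-- canonical atlas of the cover -/
def atlX : Atl n D.X :=
  locAtl D.famX (fun i : A.ι => D.p ⁻¹' (A.e i).source) D.isOpen_pre D.cover_p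

theorem cmp_atlX : Cmp D.famX D.atlX := cmp_locAtl _ _ _ _

/-- every chart of the canonical atlas lies over a chart of the base -/
def refX : Ref D.atlX A D.p := ⟨fun t => t.k, fun t _ hx => t.source_sub hx⟩

theorem exists_atlX [CompactSpace M] [T2Space M] : ∃ A' : Atl n D.X, Finite A'.ι ∧ GoodA A' ∧
    Nonempty (Part A') ∧ Cmp D.famX A' ∧ Nonempty (Ref A' A D.p) := by
  have := D.compact_X
  have := D.t2_X
  obtain ⟨A', h1, h2, h3, h4, h5⟩ := exists_cmp D.famX (fun i : A.ι => D.p ⁻¹' (A.e i).source)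
    D.isOpen_pre D.cover_p
  choose r hr using h4
  exact ⟨A', h1, h2, h3, h5, ⟨⟨r, fun i x hx => hr i hx⟩⟩⟩

end Data

variable {n' : ℕ} {M' : Type} [TopologicalSpace M'] {A₁ : Atl n' M'} {ρ' : Type} [Fintype ρ']

/-- maps between covers -/
structure Mor (D : Data A ρ) (D' : Data A₁ ρ') where
  f : M → M'
  hf : HolMap A A₁ f
  σ : ρ' → ρ
  e : ρ' → A.ι → A₁.ι → M → ℂ
  hk : ∀ a, D'.k a = D.k (σ a)
  hol : ∀ a i j, HolAt A i (f ⁻¹' (A₁.e j).source) (e a i j)
  left : ∀ a i i' j, ∀ x ∈ (A.e i).source ∩ (A.e i').source, f x ∈ (A₁.e j).source →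
    e a i j x * (D.L (σ a)).g i i' x = e a i' j x
  right : ∀ a i j j', ∀ x ∈ (A.e i).source, f x ∈ (A₁.e j).source ∩ (A₁.e j').source →
    (D'.L a).g j j' (f x) * e a i j' x = e a i j x
  hs : ∀ a i j, ∀ x ∈ (A.e i).source, f x ∈ (A₁.e j).source →
    D'.s a j (f x) = e a i j x ^ D.k (σ a) * D.s (σ a) i x

namespace Mor

variable {D : Data A ρ} {D' : Data A₁ ρ'} (φ : Mor D D')

/-- the coordinates of the image -/
def t (a : ρ') (j : A₁.ι) (q : D.X) : ℂ :=
  φ.e a (Data.idx (D.p q)) j (D.p q) * D.y (φ.σ a) (Data.idx (D.p q)) q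

theorem t_eq (a : ρ') {i : A.ι} {j : A₁.ι} {q : D.X} (hi : D.p q ∈ (A.e i).source)
    (hj : φ.f (D.p q) ∈ (A₁.e j).source) :
    φ.t a j q = φ.e a i j (D.p q) * D.y (φ.σ a) i q := by
  have h1 := φ.left a i (Data.idx (D.p q)) j (D.p q) ⟨hi, Data.idx_mem _⟩ hj
  have h2 := D.y_tr (φ.σ a) (i := i) (j := Data.idx (D.p q)) (q := q) hi (Data.idx_mem _)
  rw [h2, ← mul_assoc, h1]
  rfl

theorem liftData : Data.LiftData D' (fun q : D.X => φ.f (D.p q)) φ.t := by
  refine ⟨fun a i j q hi hj => ?_, fun a i q hi => ?_⟩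
  · show φ.e a _ i (D.p q) * _ = _ * (φ.e a _ j (D.p q) * _)
    rw [← φ.right a (Data.idx (D.p q)) i j (D.p q) (Data.idx_mem _) ⟨hi, hj⟩, mul_assoc]
  · show (φ.e a _ i (D.p q) * D.y (φ.σ a) _ q) ^ D'.k a = _
    rw [mul_pow, φ.hk a, D.y_pow _ (Data.idx_mem _),
      ← φ.hs a (Data.idx (D.p q)) i (D.p q) (Data.idx_mem _) hi]

/-- the map between the covers -/
def map (q : D.X) : D'.X := D'.lift φ.liftData q

theorem p_map (q : D.X) : D'.p (φ.map q) = φ.f (D.p q) := rfl

theorem y_map (a : ρ') {i : A.ι} {j : A₁.ι} {q : D.X} (hi : D.p q ∈ (A.e i).source)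
    (hj : φ.f (D.p q) ∈ (A₁.e j).source) :
    D'.y a j (φ.map q) = φ.e a i j (D.p q) * D.y (φ.σ a) i q := by
  rw [← φ.t_eq a hi hj]
  exact D'.y_lift φ.liftData hj a

theorem holC_map : HolC D.famX D'.famX φ.map := by
  refine D'.holC_lift φ.liftData ((holC_iff.2 φ.hf).comp D.holC_p) ?_
  intro a c j z hz hj
  have hz' : z ∈ c.e.target := hz
  set i := c.i with hi
  have hx : D.p (c.e.symm z) ∈ (A.e c.i).source := by
    have h1 := c.proj_symm hz'
    show ((c.e.symm z : D.X) : D.T).1 ∈ _
    rw [h1]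
    exact (A.e c.i).map_target (c.base_mem hz')
  have hj' : φ.f (D.p (c.e.symm z)) ∈ (A₁.e j).source := hj
  have h1 : DifferentiableAt ℂ (fun z => A.e c.i (D.p (c.e.symm z))) z :=
    D.holC_p.diffAt (i := c) (j := c.i) hz' hx
  have h2 : DifferentiableAt ℂ (fun u => φ.e a c.i j ((A.e c.i).symm u))
      (A.e c.i (D.p (c.e.symm z))) :=
    (φ.hol a c.i j).diffAt ((A₁.e j).open_source.preimage φ.hf.cont) hx hj'
  have h3 := DifferentiableAt.comp z (g := fun u => φ.e a c.i j ((A.e c.i).symm u)) h2 h1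
  have h4 := D.y_diffAt (φ.σ a) hz' hx
  refine (h3.mul h4).congr_of_eventuallyEq ?_
  have h5 : ContinuousAt (fun w => D.p (c.e.symm w)) z :=
    ContinuousAt.comp (g := D.p) D.continuous_p.continuousAt (c.e.continuousAt_symm hz')
  have h6 : ∀ᶠ w in 𝓝 z, D.p (c.e.symm w) ∈ (A.e c.i).source :=
    h5 ((A.e c.i).open_source.mem_nhds hx)
  have h7 : ∀ᶠ w in 𝓝 z, φ.f (D.p (c.e.symm w)) ∈ (A₁.e j).source :=
    (φ.hf.cont.continuousAt.comp h5) ((A₁.e j).open_source.mem_nhds hj')
  filter_upwards [h6, h7] with w hw1 hw2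
  show φ.t a j (c.e.symm w) = φ.e a c.i j ((A.e c.i).symm (A.e c.i (D.p (c.e.symm w)))) *
    D.y (φ.σ a) c.i (c.e.symm w)
  rw [(A.e c.i).left_inv hw1]
  exact φ.t_eq a hw1 hw2

theorem continuous_map : Continuous φ.map := φ.holC_map.cont

end Mor

/-- two maps into a cover agree if they agree on the base and on coordinates -/
theorem map_ext {Y : Type*} {D : Data A ρ} {F G : Y → D.X} (h : ∀ q, D.p (F q) = D.p (G q))
    (hy : ∀ q a, ∃ i, D.p (F q) ∈ (A.e i).source ∧ D.y a i (F q) = D.y a i (G q)) : F = G := by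
  funext q
  have hi := Data.idx_mem (A := A) (D.p (F q))
  refine D.ext_X (i := Data.idx (D.p (F q))) (h q) hi fun a => ?_
  obtain ⟨i, hi', hq⟩ := hy q a
  rw [D.y_tr a (q := F q) hi hi', hq, h q]
  have hi2 : D.p (G q) ∈ (A.e (Data.idx (D.p (G q)))).source := Data.idx_mem _
  exact (D.y_tr a (q := G q) (j := i) hi2 (by rw [← h q]; exact hi')).symm

/-- action of a group on the base with colour permutations and frame factors -/
structure Act (G : Type) [Group G] [MulAction G M] (D : Data A ρ) where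
  hf : ∀ g : G, HolMap A A (fun x => g • x)
  σ : G → ρ → ρ
  e : G → ρ → A.ι → A.ι → M → ℂ
  hk : ∀ g a, D.k a = D.k (σ g a)
  hol : ∀ g a i j, HolAt A i ((fun x => g • x) ⁻¹' (A.e j).source) (e g a i j)
  left : ∀ g a i i' j, ∀ x ∈ (A.e i).source ∩ (A.e i').source, g • x ∈ (A.e j).source →
    e g a i j x * (D.L (σ g a)).g i i' x = e g a i' j x
  right : ∀ g a i j j', ∀ x ∈ (A.e i).source, g • x ∈ (A.e j).source ∩ (A.e j').source →
    (D.L a).g j j' (g • x) * e g a i j' x = e g a i j x
  hs : ∀ g a i j, ∀ x ∈ (A.e i).source, g • x ∈ (A.e j).source →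
    D.s a j (g • x) = e g a i j x ^ D.k (σ g a) * D.s (σ g a) i x
  σ_mul : ∀ g h a, σ (g * h) a = σ h (σ g a)
  σ_one : ∀ a, σ 1 a = a
  e_mul : ∀ g h a i j l, ∀ x ∈ (A.e i).source, h • x ∈ (A.e j).source →
    g • h • x ∈ (A.e l).source → e (g * h) a i l x = e g a j l (h • x) * e h (σ g a) i j x
  e_one : ∀ a i, ∀ x ∈ (A.e i).source, e 1 a i i x = 1

namespace Act

variable {G : Type} [Group G] [MulAction G M] {D : Data A ρ} (α : Act G D)

/-- the map of a group element -/
def mor (g : G) : Mor D D where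
  f x := g • x
  hf := α.hf g
  σ := α.σ g
  e := α.e g
  hk := α.hk g
  hol := α.hol g
  left := α.left g
  right := α.right g
  hs := α.hs g

/-- the action on the cover -/
def act (g : G) (q : D.X) : D.X := (α.mor g).map q

theorem p_act (g : G) (q : D.X) : D.p (α.act g q) = g • D.p q := rfl

theorem y_act (g : G) (a : ρ) {i j : A.ι} {q : D.X} (hi : D.p q ∈ (A.e i).source)
    (hj : g • D.p q ∈ (A.e j).source) :
    D.y a j (α.act g q) = α.e g a i j (D.p q) * D.y (α.σ g a) i q := (α.mor g).y_map a hi hj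

theorem act_one (q : D.X) : α.act 1 q = q := by
  have hi := Data.idx_mem (A := A) (D.p q)
  have hi1 : (1 : G) • D.p q ∈ (A.e (Data.idx (D.p q))).source := by rw [one_smul]; exact hi
  refine D.ext_X (i := Data.idx (D.p q)) (by rw [α.p_act, one_smul]) hi1 fun a => ?_
  rw [α.y_act 1 a hi hi1, α.e_one a _ _ hi, one_mul, α.σ_one]

theorem act_mul (g h : G) (q : D.X) : α.act (g * h) q = α.act g (α.act h q) := by
  have hi := Data.idx_mem (A := A) (D.p q)
  have hj := Data.idx_mem (A := A) (h • D.p q)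
  have hl := Data.idx_mem (A := A) (g • h • D.p q)
  have hl' : (g * h) • D.p q ∈ (A.e (Data.idx (g • h • D.p q))).source := by
    rw [mul_smul]; exact hl
  refine D.ext_X (i := Data.idx (g • h • D.p q)) ?_ hl' fun a => ?_
  · rw [α.p_act, α.p_act, α.p_act, mul_smul]
  · rw [α.y_act (g * h) a hi hl', α.y_act g a (q := α.act h q) (i := Data.idx (h • D.p q)) hj hl,
      α.y_act h (α.σ g a) (q := q) hi hj, α.e_mul g h a _ _ _ _ hi hj hl, α.σ_mul, α.p_act,
      mul_assoc]

/-- **the group action on the cover** -/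
@[reducible] def action : MulAction G D.X where
  smul g q := α.act g q
  one_smul q := α.act_one q
  mul_smul g h q := α.act_mul g h q

theorem holC_act (g : G) : HolC D.famX D.famX (α.act g) := (α.mor g).holC_map

theorem continuous_act (g : G) : Continuous (α.act g) := (α.mor g).continuous_map

theorem continuousConstSMul : letI := α.action; ContinuousConstSMul G D.X := by
  let _ := α.action
  exact ⟨fun g => α.continuous_act g⟩

/-- the action is properly discontinuous if the action on the base is -/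
theorem properlyDiscontinuous [ProperlyDiscontinuousSMul G M] :
    letI := α.action; ProperlyDiscontinuousSMul G D.X := by
  let _ := α.action
  refine ⟨fun {K L} hK hL => ?_⟩
  have h1 := ProperlyDiscontinuousSMul.finite_disjoint_inter_image (Γ := G)
    (hK.image D.continuous_p) (hL.image D.continuous_p)
  refine h1.subset ?_
  rintro g ⟨_, ⟨q, hq, rfl⟩, hq'⟩
  exact ⟨g • D.p q, ⟨D.p q, ⟨q, hq, rfl⟩, rfl⟩, ⟨_, hq', α.p_act g q⟩⟩

/-- the action is cocompact if the action on the base is -/
theorem cocompact {K : Set M} (hK : IsCompact K) (hG : ∀ x : M, ∃ g : G, g • x ∈ K) :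
    IsCompact (D.p ⁻¹' K) ∧ ∀ q : D.X, ∃ g : G, α.act g q ∈ D.p ⁻¹' K :=
  ⟨D.isProperMap_p.isCompact_preimage hK, fun q => by
    obtain ⟨g, hg⟩ := hG (D.p q)
    exact ⟨g, hg⟩⟩

/-- fixed points lie over fixed points -/
theorem fix_base {g : G} {q : D.X} (h : α.act g q = q) : g • D.p q = D.p q := by
  rw [← α.p_act, h]

end Act

end

end Crest.Agent.R272.DCov_426
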