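import Crest.Agent.R272.GrAll_54

/-!
# R272 (S0415), MOD-GRAPH (helper54): `X1` over the complement of the flats

At a point `y` of `X1` off the flats (both colours):
* `nhds_le`    : open mapping for functions of the ambient coordinates restricted to `X1`;
* `dense_ne`   : arbitrarily near `y` there are points off the flats with `P_i, Q_i ≠ 0`;
* `open_pz`    : at such points the projection `pz : X1 → N` is open.
-/

set_option autoImplicit false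
set_option linter.unusedSectionVars false

open Set Filter Topology Complex

namespace Crest.Agent.R272.GrFr_54

open Crest.Agent.R275.Geo Crest.Agent.R273.Fam_835 Crest.Agent.R272.FamP_54
  Crest.Agent.R272.SubF_54 Crest.Agent.R272.Lev_54 Crest.Agent.R272.P1A_54
  Crest.Agent.R272.Quot_783 Crest.Agent.R272.Gr_559
open Crest.Agent.R272.P1F_54 (nn ps pc ln ld pinv pch p1Fam lift_rel isOpen_ps differentiable_ln
  differentiable_ld lnd_ne)
open Crest.Agent.R272.Gr_559.GData (Amb)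

noncomputable section

variable {N : Type} [TopologicalSpace N] {F : Fam 3 N} {D : GData F} {q : N}

namespace Dat

variable (H : Dat D q)

/-- inverse of the coordinates -/
def inv (p : E8 3) : Amb N :=
  ((F.e H.i).symm p.1, fun j => pinv (H.s j) (p.2.1 j), pinv H.sv p.2.2.1,
    fun j => pinv (H.r j) (p.2.2.2 j))

theorem inv_In {O : Set N} {p : E8 3} (hp : p ∈ H.Wd O) : H.In (H.inv p) :=
  ⟨(F.e H.i).map_target hp.1, fun _ => P1F_54.pinv_mem _ _, P1F_54.pinv_mem _ _,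
    fun _ => P1F_54.pinv_mem _ _⟩

theorem co_inv {O : Set N} {p : E8 3} (hp : p ∈ H.Wd O) : H.co (H.inv p) = p := by
  refine Prod.ext ((F.e H.i).right_inv hp.1) (Prod.ext (funext fun j => ?_) (Prod.ext ?_
    (funext fun j => ?_)))
  · exact P1F_54.pc_pinv _ _
  · exact P1F_54.pc_pinv _ _
  · exact P1F_54.pc_pinv _ _

theorem inv_co {Q : Amb N} (h : H.In Q) : H.inv (H.co Q) = Q := by
  refine Prod.ext ((F.e H.i).left_inv h.h1) (Prod.ext (funext fun j => ?_) (Prod.ext ?_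
    (funext fun j => ?_)))
  · exact P1F_54.pinv_pc (h.h2 j)
  · exact P1F_54.pinv_pc h.h3
  · exact P1F_54.pinv_pc (h.h4 j)

theorem continuousAt_inv {O : Set N} {p : E8 3} (hp : p ∈ H.Wd O) : ContinuousAt H.inv p := by
  have h1 : ContinuousAt (fun p : E8 3 => (F.e H.i).symm p.1) p :=
    ContinuousAt.comp (g := (F.e H.i).symm) ((F.e H.i).continuousAt_symm hp.1)
      continuous_fst.continuousAt
  have h2 : Continuous (fun p : E8 3 => fun j => pinv (H.s j) (p.2.1 j)) :=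
    continuous_pi fun j => (P1F_54.continuous_pinv _).comp
      ((continuous_apply j).comp (continuous_fst.comp continuous_snd))
  have h3 : Continuous (fun p : E8 3 => pinv H.sv p.2.2.1) :=
    (P1F_54.continuous_pinv _).comp (continuous_fst.comp (continuous_snd.comp continuous_snd))
  have h4 : Continuous (fun p : E8 3 => fun j => pinv (H.r j) (p.2.2.2 j)) :=
    continuous_pi fun j => (P1F_54.continuous_pinv _).comp
      ((continuous_apply j).comp (continuous_snd.comp (continuous_snd.comp continuous_snd)))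
  exact h1.prodMk (h2.continuousAt.prodMk (h3.continuousAt.prodMk h4.continuousAt))

/-- **open mapping on `X1`** -/
theorem nhds_le {Z : Type} [NormedAddCommGroup Z] [NormedSpace ℂ Z] [FiniteDimensional ℂ Z]
    {P : Amb N} (hX : P ∈ D.X1) (hP : H.In P) {O : Set N} (hOo : IsOpen O)
    (hO : ∀ c, O ⊆ (H.C c).U) (hPO : P.1 ∈ O) (g : Fin 2 → E8 3 → ℂ) (h : E8 3 → ℂ)
    (hg : ∀ p ∈ H.Wd O, ∀ c, DifferentiableAt ℂ (g c) p)
    (hh : ∀ p ∈ H.Wd O, DifferentiableAt ℂ h p)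
    (hiff : ∀ Q : Amb N, H.In Q → Q.1 ∈ O → (((∀ c, H.qE c (H.co Q) = 0) ∧
      ∀ c, H.qV c (H.co Q) = 0) ↔ ((∀ c, g c (H.co Q) = 0) ∧ h (H.co Q) = 0)))
    {Ψ : E8 3 → Z} (hΨ : ∀ p ∈ H.Wd O, DifferentiableAt ℂ Ψ p)
    (hsur : ∀ (e : Fin 2 → ℂ) (w : ℂ) (k : Fin 2 → ℂ) (z : Z), ∃ v : E8 3,
      (∀ c, fderiv ℂ (g c) (H.co P) v = e c) ∧ fderiv ℂ h (H.co P) v = w ∧
        (∀ c, fderiv ℂ (H.qK c) (H.co P) v = k c) ∧ fderiv ℂ Ψ (H.co P) v = z) :
    𝓝 (Ψ (H.co P)) ≤ map (fun y : D.X1 => Ψ (H.co y.1)) (𝓝 ⟨P, hX⟩) := by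
  have hPW : H.co P ∈ H.Wd O := (H.co_Wd hP).2 hPO
  let Φ : E8 3 → (Fin 2 → ℂ) × ℂ × (Fin 2 → ℂ) := fun p => (fun c => g c p, h p, fun c => H.qK c p)
  have hΦd : ∀ p ∈ H.Wd O, DifferentiableAt ℂ Φ p := by
    intro p hp
    have d1 : DifferentiableAt ℂ (fun p => fun c => g c p) p := differentiableAt_pi.2 (hg p hp)
    have d2 : DifferentiableAt ℂ (fun p => fun c => H.qK c p) p :=
      differentiableAt_pi.2 (H.dK hO hp)
    exact d1.prodMk ((hh p hp).prodMk d2)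
  have hmem : ∀ Q : Amb N, H.In Q → Q.1 ∈ O → (Q ∈ D.X1 ↔ Φ (H.co Q) = 0) := by
    intro Q hQ hQO
    rw [H.mem_iff hQ fun c => hO c hQO]
    have h1 := hiff Q hQ hQO
    constructor
    · rintro ⟨h2, h3⟩
      obtain ⟨h4, h5⟩ := h1.1 ⟨fun c => (h2 c).1, h3⟩
      exact Prod.ext (funext h4) (Prod.ext h5 (funext fun c => (h2 c).2))
    · intro h2
      have h3 : ∀ c, g c (H.co Q) = 0 := fun c => congrFun (congrArg Prod.fst h2) c
      have h4 : h (H.co Q) = 0 := congrArg (fun z => z.2.1) h2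
      have h5 : ∀ c, H.qK c (H.co Q) = 0 := fun c =>
        congrFun (congrArg (fun z => z.2.2) h2) c
      obtain ⟨h6, h7⟩ := h1.2 ⟨h3, h4⟩
      exact ⟨fun c => ⟨h6 c, h5 c⟩, h7⟩
  let Θ : E8 3 → ((Fin 2 → ℂ) × ℂ × (Fin 2 → ℂ)) × Z := fun p => (Φ p, Ψ p)
  have hΘd : DifferentiableOn ℂ Θ (H.Wd O) := fun p hp =>
    ((hΦd p hp).prodMk (hΨ p hp)).differentiableWithinAt
  have hAn : AnalyticAt ℂ Θ (H.co P) :=
    Crest.Agent.R266.SCV.analyticOnNhd_of_differentiableOn (H.isOpen_Wd hOo) hΘd _ hPW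
  have hstr : HasStrictFDerivAt Θ (fderiv ℂ Θ (H.co P)) (H.co P) := hAn.hasStrictFDerivAt
  have hrange : (fderiv ℂ Θ (H.co P)).range = ⊤ := by
    refine LinearMap.range_eq_top.2 ?_
    rintro ⟨⟨e, w, k⟩, z⟩
    obtain ⟨v, h1, h2, h3, h4⟩ := hsur e w k z
    refine ⟨v, ?_⟩
    have e1 : fderiv ℂ Θ (H.co P) = (fderiv ℂ Φ (H.co P)).prod (fderiv ℂ Ψ (H.co P)) :=
      DifferentiableAt.fderiv_prodMk (hΦd _ hPW) (hΨ _ hPW)
    have e2 := fderiv_tri (g := g) (h := h) (k := H.qK) (hg _ hPW) (hh _ hPW)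
      (fun c => H.dK hO hPW c) v
    show fderiv ℂ Θ (H.co P) v = _
    rw [e1]
    refine Prod.ext ?_ h4
    refine e2.trans ?_
    exact Prod.ext (funext h1) (Prod.ext h2 (funext h3))
  have hopen : map Θ (𝓝 (H.co P)) = 𝓝 (Θ (H.co P)) := hstr.map_nhds_eq_of_surj hrange
  intro S hS
  rw [mem_map] at hS
  -- a neighbourhood in the ambient space
  rw [nhds_subtype_eq_comap, mem_comap] at hS
  obtain ⟨U', hU', hU'S⟩ := hS
  have hG : {p : E8 3 | p ∈ H.Wd O ∧ H.inv p ∈ U'} ∈ 𝓝 (H.co P) := by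
    have h1 : H.inv ⁻¹' U' ∈ 𝓝 (H.co P) := by
      have h2 := H.continuousAt_inv hPW
      refine h2 ?_
      rw [H.inv_co hP]
      exact hU'
    exact (inter_mem ((H.isOpen_Wd hOo).mem_nhds hPW) h1)
  have hΦ0 : Φ (H.co P) = 0 := (hmem P hP hPO).1 hX
  have h1 : Θ '' {p : E8 3 | p ∈ H.Wd O ∧ H.inv p ∈ U'} ∈ 𝓝 (Θ (H.co P)) := by
    rw [← hopen]
    exact image_mem_map hG
  have h2 : (fun z : Z => ((0 : (Fin 2 → ℂ) × ℂ × (Fin 2 → ℂ)), z)) ⁻¹'
      (Θ '' {p : E8 3 | p ∈ H.Wd O ∧ H.inv p ∈ U'}) ∈ 𝓝 (Ψ (H.co P)) := by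
    have h3 : ContinuousAt (fun z : Z => ((0 : (Fin 2 → ℂ) × ℂ × (Fin 2 → ℂ)), z))
        (Ψ (H.co P)) := by fun_prop
    refine h3 ?_
    show Θ '' {p : E8 3 | p ∈ H.Wd O ∧ H.inv p ∈ U'} ∈
      𝓝 ((0 : (Fin 2 → ℂ) × ℂ × (Fin 2 → ℂ)), Ψ (H.co P))
    have h4 : ((0 : (Fin 2 → ℂ) × ℂ × (Fin 2 → ℂ)), Ψ (H.co P)) = Θ (H.co P) :=
      Prod.ext hΦ0.symm rfl
    rw [h4]
    exact h1
  filter_upwards [h2] with z hz
  obtain ⟨p, ⟨hpW, hpU⟩, hpz⟩ := hz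
  have e1 : Φ p = 0 := congrArg Prod.fst hpz
  have e2 : Ψ p = z := congrArg Prod.snd hpz
  have hQ : H.In (H.inv p) := H.inv_In hpW
  have hQO : (H.inv p).1 ∈ O := hpW.2
  have hQX : H.inv p ∈ D.X1 := by
    rw [hmem _ hQ hQO, H.co_inv hpW]
    exact e1
  have h5 : (⟨H.inv p, hQX⟩ : D.X1) ∈ Subtype.val ⁻¹' U' := hpU
  have h6 := hU'S h5
  have h7 : Ψ (H.co (H.inv p)) ∈ S := h6
  rw [H.co_inv hpW, e2] at h7
  exact h7

end Dat

/-! ### off the flats -/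

/-- the data at a point off the flats -/
def Dat.reg (i : F.ι) (hi : q ∈ (F.e i).source) (h : ∀ c, ¬ (D.f0 q = 0 ∧ D.x c q = 0))
    (s : Fin 2 → Bool) (sv : Bool) (r : Fin 2 → Bool) : Dat D q where
  i := i
  hi := hi
  C c := Loc.reg D c q (h c)
  ok c := Loc.reg_ok D c q (h c)
  s := s
  sv := sv
  r := r

theorem fderiv_reg_f {a : Fin 2} (h : ¬ (D.f0 q = 0 ∧ D.x a q = 0)) {i : F.ι}
    (hi : q ∈ (F.e i).source) (b : Bool) (τ : ℂ) (V : Cn 3) (T : ℂ) :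
    fderiv ℂ ((Loc.reg D a q h).fc i b) (F.e i q, τ) (V, T) = Gr_559.dd F i (D.P a) q V := by
  have h1 := (hasFDerivAt_dd isOpen_univ (D.P_hol a) hi (mem_univ _)).comp (F.e i q, τ)
    (hasFDerivAt_fst (𝕜 := ℂ) (E := Cn 3) (F := ℂ))
  have h2 : fderiv ℂ ((Loc.reg D a q h).fc i b) (F.e i q, τ) = _ := h1.fderiv
  rw [h2]
  rfl

theorem fderiv_reg_g {a : Fin 2} (h : ¬ (D.f0 q = 0 ∧ D.x a q = 0)) {i : F.ι}
    (hi : q ∈ (F.e i).source) (b : Bool) (τ : ℂ) (V : Cn 3) (T : ℂ) :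
    fderiv ℂ ((Loc.reg D a q h).gc i b) (F.e i q, τ) (V, T) = Gr_559.dd F i (D.Q a) q V := by
  have h1 := (hasFDerivAt_dd isOpen_univ (D.Q_hol a) hi (mem_univ _)).comp (F.e i q, τ)
    (hasFDerivAt_fst (𝕜 := ℂ) (E := Cn 3) (F := ℂ))
  have h2 : fderiv ℂ ((Loc.reg D a q h).gc i b) (F.e i q, τ) = _ := h1.fderiv
  rw [h2]
  rfl

section off

variable {P : Amb N} (hX : P ∈ D.X1)

/-- data at the point `P` off the flats, with given discs -/
abbrev offD (P : Amb N) (h : ∀ c, ¬ (D.f0 P.1 = 0 ∧ D.x c P.1 = 0)) (s : Fin 2 → Bool) (sv : Bool)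
    (r : Fin 2 → Bool) : Dat D P.1 :=
  Dat.reg (F.cover P.1).choose (F.cover P.1).choose_spec h s sv r

/-- the open set -/
def offO (D : GData F) : Set N := {z | ∀ c, ¬ (D.f0 z = 0 ∧ D.x c z = 0)}

theorem isOpen_offO : IsOpen (offO D) := by
  have h1 : offO D = ⋂ c, ({z | D.f0 z = 0} ∩ {z | D.x c z = 0})ᶜ := by
    ext z
    simp [offO]
  rw [h1]
  exact isOpen_iInter_of_finite fun c => ((isClosed_eq D.continuous_f0 continuous_const).inter
    (isClosed_eq (D.continuous_x c) continuous_const)).isOpen_compl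

variable (h : ∀ c, ¬ (D.f0 P.1 = 0 ∧ D.x c P.1 = 0)) {s : Fin 2 → Bool} {sv : Bool}
  {r : Fin 2 → Bool}

theorem offO_sub (c : Fin 2) : offO D ⊆ ((offD P h s sv r).C c).U := fun _ hz => hz c

/-- redundancy off the flats -/
theorem off_iff (H : Dat D q) (Q : Amb N) (hQ : H.In Q) (hQO : Q.1 ∈ offO D) :
    (((∀ c, H.qE c (H.co Q) = 0) ∧ ∀ c, H.qV c (H.co Q) = 0) ↔
      ((∀ c, H.qE c (H.co Q) = 0) ∧ H.qV 0 (H.co Q) = 0)) := by
  refine ⟨fun h1 => ⟨h1.1, h1.2 0⟩, fun h1 => ⟨h1.1, ?_⟩⟩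
  rw [Fin.forall_fin_two]
  refine ⟨h1.2, ?_⟩
  have ha := h1.1 0
  have hb := h1.1 1
  have hv := h1.2
  rw [H.qE_co hQ] at ha hb
  rw [H.qV_co hQ] at hv ⊢
  exact redund1 (lnd_ne _ _) ha hb hv (hQO 1)

/-- solving the `E` and `V` equations off the flats -/
theorem off_TN {H : Dat D P.1} (hP : H.In P) (hX : P ∈ D.X1)
    (hU : ∀ c, P.1 ∈ (H.C c).U) (h : ∀ c, ¬ (D.f0 P.1 = 0 ∧ D.x c P.1 = 0))
    (V : Cn 3) (e : Fin 2 → ℂ) (w : ℂ) :
    ∃ (T : Fin 2 → ℂ) (ν : ℂ), ∀ K : Fin 2 → ℂ,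
      (∀ c, fderiv ℂ (H.qE c) (H.co P) (V, T, ν, K) = e c) ∧
        fderiv ℂ (H.qV 0) (H.co P) (V, T, ν, K) = w := by
  obtain ⟨hE', hV'⟩ := (H.mem_iff hP hU).1 hX
  have hp : (H.co P).1 = F.e H.i P.1 := rfl
  have hE : ∀ c, D.x c P.1 * ld (H.s c) ((H.co P).2.1 c) -
      D.f0 P.1 * ln (H.s c) ((H.co P).2.1 c) = 0 := fun c => by
    have := (hE' c).1
    rw [H.qE_co hP] at this
    exact this
  have hVe : ln H.sv (H.co P).2.2.1 * ld (H.s 0) ((H.co P).2.1 0) -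
      ld H.sv (H.co P).2.2.1 * ln (H.s 0) ((H.co P).2.1 0) * D.x 1 P.1 = 0 := by
    have := hV' 0
    rw [H.qV_co hP] at this
    exact this
  have hlam : ∀ c, D.x c P.1 * ld' (H.s c) - D.f0 P.1 * ln' (H.s c) ≠ 0 := by
    intro c h0
    have h1 := hE c
    cases hs : H.s c
    · rw [hs] at h0 h1
      simp only [ld'_false, mul_zero, ln'_false, mul_one, zero_sub, neg_eq_zero] at h0
      simp only [P1F_54.ld_false, mul_one, h0, zero_mul, sub_zero] at h1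
      exact h c ⟨h0, h1⟩
    · rw [hs] at h0 h1
      simp only [ld'_true, mul_one, ln'_true, mul_zero, sub_zero] at h0
      simp only [P1F_54.ln_true, mul_one, h0, zero_mul, zero_sub, neg_eq_zero] at h1
      exact h c ⟨h1, h0⟩
  have hmu : ln' H.sv * ld (H.s 0) ((H.co P).2.1 0) -
      ld' H.sv * ln (H.s 0) ((H.co P).2.1 0) * D.x 1 P.1 ≠ 0 := by
    intro h0
    have h1 := hE 0
    have hnd := lnd_ne (H.s 0) ((H.co P).2.1 0)
    have key : ld (H.s 0) ((H.co P).2.1 0) = 0 →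
        ln (H.s 0) ((H.co P).2.1 0) * D.x 1 P.1 = 0 → False := by
      intro h2 h3
      have hn := hnd.resolve_right (fun h => h h2)
      have h4 : D.x 1 P.1 = 0 := (mul_eq_zero.1 h3).resolve_left hn
      rw [h2, mul_zero, zero_sub, neg_eq_zero] at h1
      have h5 : D.f0 P.1 = 0 := (mul_eq_zero.1 h1).resolve_right hn
      exact h 1 ⟨h5, h4⟩
    cases hv : H.sv
    · rw [hv] at h0 hVe
      simp only [ln'_false, one_mul, ld'_false, zero_mul, sub_zero] at h0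
      rw [h0] at hVe
      simp only [mul_zero, P1F_54.ld_false, one_mul, zero_sub, neg_eq_zero] at hVe
      exact key h0 hVe
    · rw [hv] at h0 hVe
      simp only [ln'_true, zero_mul, ld'_true, one_mul, zero_sub, neg_eq_zero] at h0
      rw [mul_assoc, h0] at hVe
      simp only [P1F_54.ln_true, one_mul, mul_zero, sub_zero] at hVe
      exact key hVe h0
  refine ⟨fun c => (e c - (Gr_559.dd F H.i (D.x c) P.1 V * ld (H.s c) ((H.co P).2.1 c) -
    Gr_559.dd F H.i D.f0 P.1 V * ln (H.s c) ((H.co P).2.1 c))) /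
      (D.x c P.1 * ld' (H.s c) - D.f0 P.1 * ln' (H.s c)), ?_⟩
  set T : Fin 2 → ℂ := fun c => (e c - (Gr_559.dd F H.i (D.x c) P.1 V *
    ld (H.s c) ((H.co P).2.1 c) - Gr_559.dd F H.i D.f0 P.1 V * ln (H.s c) ((H.co P).2.1 c))) /
      (D.x c P.1 * ld' (H.s c) - D.f0 P.1 * ln' (H.s c)) with hT
  refine ⟨(w - (ln H.sv (H.co P).2.2.1 * (ld' (H.s 0) * T 0) -
    (ld H.sv (H.co P).2.2.1 * (ln' (H.s 0) * T 0) * D.x 1 P.1 +
      ld H.sv (H.co P).2.2.1 * ln (H.s 0) ((H.co P).2.1 0) *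
        Gr_559.dd F H.i (D.x 1) P.1 V))) /
    (ln' H.sv * ld (H.s 0) ((H.co P).2.1 0) -
      ld' H.sv * ln (H.s 0) ((H.co P).2.1 0) * D.x 1 P.1), fun K => ⟨fun c => ?_, ?_⟩⟩
  · rw [H.fderiv_qE hp]
    have h2 : T c * (D.x c P.1 * ld' (H.s c) - D.f0 P.1 * ln' (H.s c)) =
        e c - (Gr_559.dd F H.i (D.x c) P.1 V * ld (H.s c) ((H.co P).2.1 c) -
          Gr_559.dd F H.i D.f0 P.1 V * ln (H.s c) ((H.co P).2.1 c)) :=
      div_mul_cancel₀ _ (hlam c)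
    show Gr_559.dd F H.i (D.x c) P.1 V * ld (H.s c) ((H.co P).2.1 c) +
      D.x c P.1 * (ld' (H.s c) * T c) - (Gr_559.dd F H.i D.f0 P.1 V *
        ln (H.s c) ((H.co P).2.1 c) + D.f0 P.1 * (ln' (H.s c) * T c)) = e c
    linear_combination h2
  · rw [H.fderiv_qV hp]
    set ν := (w - (ln H.sv (H.co P).2.2.1 * (ld' (H.s 0) * T 0) -
      (ld H.sv (H.co P).2.2.1 * (ln' (H.s 0) * T 0) * D.x 1 P.1 +
        ld H.sv (H.co P).2.2.1 * ln (H.s 0) ((H.co P).2.1 0) *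
          Gr_559.dd F H.i (D.x 1) P.1 V))) /
      (ln' H.sv * ld (H.s 0) ((H.co P).2.1 0) -
        ld' H.sv * ln (H.s 0) ((H.co P).2.1 0) * D.x 1 P.1) with hν
    have h2 : ν * (ln' H.sv * ld (H.s 0) ((H.co P).2.1 0) -
        ld' H.sv * ln (H.s 0) ((H.co P).2.1 0) * D.x 1 P.1) = _ := div_mul_cancel₀ _ hmu
    show ln' H.sv * ν * ld (H.s 0) ((H.co P).2.1 0) + ln H.sv (H.co P).2.2.1 *
      (ld' (H.s 0) * T 0) - ((ld' H.sv * ν * ln (H.s 0) ((H.co P).2.1 0) +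
        ld H.sv (H.co P).2.2.1 * (ln' (H.s 0) * T 0)) * D.x (1 - 0) P.1 +
          ld H.sv (H.co P).2.2.1 * ln (H.s 0) ((H.co P).2.1 0) *
            Gr_559.dd F H.i (D.x (1 - 0)) P.1 V) = w
    rw [sub_zero]
    linear_combination h2

end off

/-! ### moving points -/

section move

variable {P : Amb N}

/-- a chart domain containing `P` -/
theorem exists_In (P : Amb N) (h : ∀ c, ¬ (D.f0 P.1 = 0 ∧ D.x c P.1 = 0)) :
    ∃ (s : Fin 2 → Bool) (sv : Bool) (r : Fin 2 → Bool), (offD (F := F) P h s sv r).In P ∧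
      ∀ j, P.2.2.2 j = ((0 : ℂ) : P1) → r j = false := by
  choose s hs using fun j => P1F_54.ps_cover (P.2.1 j)
  obtain ⟨sv, hsv⟩ := P1F_54.ps_cover P.2.2.1
  have hr : ∀ j, ∃ r, P.2.2.2 j ∈ ps r ∧ (P.2.2.2 j = ((0 : ℂ) : P1) → r = false) := by
    intro j
    by_cases h0 : P.2.2.2 j = ((0 : ℂ) : P1)
    · refine ⟨false, ?_, fun _ => rfl⟩
      rw [h0]
      exact P1F_54.coe_mem_ps_false _
    · obtain ⟨r, hr⟩ := P1F_54.ps_cover (P.2.2.2 j)
      exact ⟨r, hr, fun h1 => absurd h1 h0⟩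
  choose r hr hr0 using hr
  exact ⟨s, sv, r, ⟨(F.cover P.1).choose_spec, hs, hsv, hr⟩, hr0⟩

variable (h : ∀ c, ¬ (D.f0 P.1 = 0 ∧ D.x c P.1 = 0)) {s : Fin 2 → Bool} {sv : Bool}
  {r : Fin 2 → Bool}

theorem off_fc (c : Fin 2) (τ : ℂ) : ((offD (F := F) P h s sv r).C c).fc (F.cover P.1).choose
    (s c) (F.e (F.cover P.1).choose P.1, τ) = D.P c P.1 := by
  show D.P c ((F.e (F.cover P.1).choose).symm (F.e (F.cover P.1).choose P.1)) = _
  rw [(F.e _).left_inv (F.cover P.1).choose_spec]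

theorem off_gc (c : Fin 2) (τ : ℂ) : ((offD (F := F) P h s sv r).C c).gc (F.cover P.1).choose
    (s c) (F.e (F.cover P.1).choose P.1, τ) = D.Q c P.1 := by
  show D.Q c ((F.e (F.cover P.1).choose).symm (F.e (F.cover P.1).choose P.1)) = _
  rw [(F.e _).left_inv (F.cover P.1).choose_spec]

/-- derivative of the `K`-equation off the flats -/
theorem off_DK (hP : (offD (F := F) P h s sv r).In P) (c : Fin 2) (v : E8 3) :
    fderiv ℂ ((offD (F := F) P h s sv r).qK c) ((offD (F := F) P h s sv r).co P) v =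
      (2 * ln (r c) (pc (r c) (P.2.2.2 c)) * (ln' (r c) * v.2.2.2 c) * D.Q c P.1 +
        ln (r c) (pc (r c) (P.2.2.2 c)) ^ 2 * Gr_559.dd F (F.cover P.1).choose (D.Q c) P.1 v.1) -
      (2 * ld (r c) (pc (r c) (P.2.2.2 c)) * (ld' (r c) * v.2.2.2 c) * D.P c P.1 +
        ld (r c) (pc (r c) (P.2.2.2 c)) ^ 2 *
          Gr_559.dd F (F.cover P.1).choose (D.P c) P.1 v.1) := by
  set H := offD (F := F) P h s sv r with hH
  have hPW : H.co P ∈ H.Wd (offO D) := (H.co_Wd hP).2 h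
  have h1 := H.fderiv_qK (H.dgc (offO_sub h) hPW c) (H.dfc (offO_sub h) hPW c) v
  have e1 := fderiv_reg_f (F := F) (h c) (F.cover P.1).choose_spec (s c)
    ((H.co P).2.1 c) v.1 (v.2.1 c)
  have e2 := fderiv_reg_g (F := F) (h c) (F.cover P.1).choose_spec (s c)
    ((H.co P).2.1 c) v.1 (v.2.1 c)
  have e3 := off_fc (F := F) h (s := s) (sv := sv) (r := r) c ((H.co P).2.1 c)
  have e4 := off_gc (F := F) h (s := s) (sv := sv) (r := r) c ((H.co P).2.1 c)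
  have e5 : (H.C c).fc H.i (H.s c) ((H.co P).1, (H.co P).2.1 c) = D.P c P.1 := e3
  have e6 : (H.C c).gc H.i (H.s c) ((H.co P).1, (H.co P).2.1 c) = D.Q c P.1 := e4
  have e7 : fderiv ℂ ((H.C c).fc H.i (H.s c)) ((H.co P).1, (H.co P).2.1 c) (v.1, v.2.1 c) =
    Gr_559.dd F (F.cover P.1).choose (D.P c) P.1 v.1 := e1
  have e8 : fderiv ℂ ((H.C c).gc H.i (H.s c)) ((H.co P).1, (H.co P).2.1 c) (v.1, v.2.1 c) =
    Gr_559.dd F (F.cover P.1).choose (D.Q c) P.1 v.1 := e2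
  rw [h1, e5, e6, e7, e8]
  rfl

/-- the `K`-relation at `P` -/
theorem off_K0 (hX : P ∈ D.X1) (hP : (offD (F := F) P h s sv r).In P) (c : Fin 2) :
    ln (r c) (pc (r c) (P.2.2.2 c)) ^ 2 * D.Q c P.1 -
      ld (r c) (pc (r c) (P.2.2.2 c)) ^ 2 * D.P c P.1 = 0 := by
  have h1 := (((offD (F := F) P h s sv r).mem_iff hP (fun c => h c)).1 hX).1 c |>.2
  rw [Dat.qK_co _ hP] at h1
  exact h1

/-- the differential of the equations is onto -/
theorem off_sur (hX : P ∈ D.X1) (hP : (offD (F := F) P h s sv r).In P) (e : Fin 2 → ℂ) (w : ℂ)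
    (k : Fin 2 → ℂ) : ∃ v : E8 3,
      (∀ c, fderiv ℂ ((offD (F := F) P h s sv r).qE c)
        ((offD (F := F) P h s sv r).co P) v = e c) ∧
      fderiv ℂ ((offD (F := F) P h s sv r).qV 0) ((offD (F := F) P h s sv r).co P) v = w ∧
      ∀ c, fderiv ℂ ((offD (F := F) P h s sv r).qK c)
        ((offD (F := F) P h s sv r).co P) v = k c := by
  choose φ γ hφ using fun c => K_solve (r c) (pc (r c) (P.2.2.2 c)) (D.P c P.1) (D.Q c P.1) (k c)
    (off_K0 h hX hP c)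
  obtain ⟨V, hV⟩ := D.rr' h (F.cover P.1).choose_spec φ γ
  obtain ⟨T, ν, hT⟩ := off_TN hP hX (fun c => h c) h V e w
  choose K hK using fun c => hφ c _ _ (hV c).1 (hV c).2
  refine ⟨(V, T, ν, K), (hT K).1, (hT K).2, fun c => ?_⟩
  rw [off_DK h hP]
  exact hK c

/-- a kernel vector on which the differential of `Ψ` does not vanish -/
theorem off_nhds (hX : P ∈ D.X1) (hP : (offD (F := F) P h s sv r).In P) {Ψ : E8 3 → ℂ}
    (hΨ : ∀ p ∈ (offD (F := F) P h s sv r).Wd (offO D), DifferentiableAt ℂ Ψ p) (v : E8 3)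
    (h1 : ∀ c, fderiv ℂ ((offD (F := F) P h s sv r).qE c)
      ((offD (F := F) P h s sv r).co P) v = 0)
    (h2 : fderiv ℂ ((offD (F := F) P h s sv r).qV 0) ((offD (F := F) P h s sv r).co P) v = 0)
    (h3 : ∀ c, fderiv ℂ ((offD (F := F) P h s sv r).qK c)
      ((offD (F := F) P h s sv r).co P) v = 0)
    (h4 : fderiv ℂ Ψ ((offD (F := F) P h s sv r).co P) v ≠ 0) :
    𝓝 (Ψ ((offD (F := F) P h s sv r).co P)) ≤
      map (fun y : D.X1 => Ψ ((offD (F := F) P h s sv r).co y.1)) (𝓝 ⟨P, hX⟩) := by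
  set H := offD (F := F) P h s sv r with hH
  refine H.nhds_le hX hP isOpen_offO (offO_sub h) h (fun c => H.qE c) (H.qV 0)
    (fun p hp c => H.dE hp c) (fun p hp => H.dV hp 0) (fun Q hQ hQO => off_iff H Q hQ hQO) hΨ ?_
  intro e w k z
  obtain ⟨v0, g1, g2, g3⟩ := off_sur h hX hP e w k
  set t : ℂ := (z - fderiv ℂ Ψ (H.co P) v0) / fderiv ℂ Ψ (H.co P) v with ht
  have ht' : t * fderiv ℂ Ψ (H.co P) v = z - fderiv ℂ Ψ (H.co P) v0 := div_mul_cancel₀ _ h4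
  refine ⟨v0 + t • v, fun c => ?_, ?_, fun c => ?_, ?_⟩
  · rw [map_add, map_smul, g1 c, h1 c, smul_zero, add_zero]
  · rw [map_add, map_smul, g2, h2, smul_zero, add_zero]
  · rw [map_add, map_smul, g3 c, h3 c, smul_zero, add_zero]
  · rw [map_add, map_smul, smul_eq_mul, ht']
    ring

theorem exists_ne_of_nhds {Y : Type} [TopologicalSpace Y] {f : Y → ℂ} {y : Y} {c : ℂ}
    (hf : 𝓝 c ≤ map f (𝓝 y)) {U : Set Y} (hU : U ∈ 𝓝 y) : ∃ y' ∈ U, f y' ≠ c := by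
  by_contra hcon
  push Not at hcon
  have h1 : f '' U ∈ 𝓝 c := hf (image_mem_map hU)
  have h2 : f '' U ⊆ {c} := by
    rintro _ ⟨y', hy', rfl⟩
    exact hcon y' hy'
  have h3 : ({c} : Set ℂ) ∈ 𝓝 c := mem_of_superset h1 h2
  exact (NeBot.ne (inferInstance : (𝓝[≠] c).NeBot)) (by
    rw [nhdsWithin, inf_principal_eq_bot, compl_compl]
    exact h3)

end move

section dense

/-- the points off the flats -/
def offX (D : GData F) : Set D.X1 := {y | ∀ c, ¬ (D.f0 (D.pz y) = 0 ∧ D.x c (D.pz y) = 0)}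

theorem continuous_pz' : Continuous D.pz := continuous_fst.comp continuous_subtype_val

theorem isOpen_offX : IsOpen (offX D) := isOpen_offO.preimage continuous_pz'

/-- `k_a` different from `0` and `∞` -/
def kX (D : GData F) (a : Fin 2) : Set D.X1 := {y | D.k a y ∈ ps false ∧ D.k a y ∈ ps true}

theorem isOpen_kX (a : Fin 2) : IsOpen (kX D a) := by
  have hk : Continuous (D.k a) :=
    (continuous_apply a).comp (continuous_snd.comp (continuous_snd.comp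
      (continuous_snd.comp continuous_subtype_val)))
  exact ((isOpen_ps false).preimage hk).inter ((isOpen_ps true).preimage hk)

/-- moving `k_a` away from `0`, `∞` -/
theorem move_k (a : Fin 2) (y : D.X1) (hy : y ∈ offX D) {U : Set D.X1} (hU : IsOpen U)
    (hyU : y ∈ U) : ∃ y' ∈ U, y' ∈ offX D ∧ y' ∈ kX D a := by
  by_cases hk : y ∈ kX D a
  · exact ⟨y, hyU, hy, hk⟩
  obtain ⟨s, sv, r, hP, hr0⟩ := exists_In (F := F) (D := D) y.1 hy
  set H := offD (F := F) y.1 hy s sv r with hH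
  -- the coordinate of `k_a` is zero
  have hkap : pc (r a) (y.1.2.2.2 a) = 0 := by
    have hmem : y.1.2.2.2 a ∈ ps (r a) := hP.h4 a
    by_cases h0 : y.1.2.2.2 a = ((0 : ℂ) : P1)
    · rw [hr0 a h0, h0]
      exact P1F_54.pc_false_coe 0
    · have h1 : y.1.2.2.2 a ∈ ps true := P1F_54.mem_ps_true.2 h0
      have h2 : ¬ y.1.2.2.2 a ∈ ps false := fun h2 => hk ⟨h2, h1⟩
      have h3 : y.1.2.2.2 a = OnePoint.infty := by
        by_contra h3
        exact h2 (P1F_54.mem_ps_false.2 h3)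
      have h4 : r a = true := by
        cases hra : r a
        · rw [hra] at hmem
          exact absurd hmem h2
        · rfl
      rw [h4, h3]
      exact P1F_54.pc_true_infty
  have hPQ : ln (r a) (pc (r a) (y.1.2.2.2 a)) * ln' (r a) * D.Q a y.1.1 = 0 ∧
      ld (r a) (pc (r a) (y.1.2.2.2 a)) * ld' (r a) * D.P a y.1.1 = 0 := by
    rw [hkap]
    cases r a
    · simp
    · simp
  have hΨd : ∀ p ∈ H.Wd (offO D), DifferentiableAt ℂ (fun p : E8 3 => p.2.2.2 a) p :=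
    fun p _ => by fun_prop
  have hn := off_nhds hy y.2 hP hΨd ((0 : Cn 3), (0 : Fin 2 → ℂ), (0 : ℂ), Pi.single a (1 : ℂ))
    (fun c => by
      rw [Dat.fderiv_qE _ rfl]
      simp) (by
      rw [Dat.fderiv_qV _ rfl]
      simp) (fun c => by
      rw [off_DK hy hP]
      by_cases hc : c = a
      · subst hc
        simp only [map_zero, mul_zero, add_zero, Pi.single_eq_same, mul_one]
        linear_combination 2 * hPQ.1 - 2 * hPQ.2
      · simp [hc]) (by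
      have h1 : fderiv ℂ (fun p : E8 3 => p.2.2.2 a) (H.co y.1)
          ((0 : Cn 3), (0 : Fin 2 → ℂ), (0 : ℂ), Pi.single a (1 : ℂ)) = 1 := by
        refine fderiv_eq_of_line (by fun_prop) ?_
        have h2 : HasDerivAt (fun ε : ℂ => (H.co y.1).2.2.2 a + ε) 1 0 := by
          simpa using (hasDerivAt_id (0 : ℂ)).const_add ((H.co y.1).2.2.2 a)
        refine h2.congr_of_eventuallyEq (Eventually.of_forall fun ε => ?_)
        simp
      rw [h1]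
      exact one_ne_zero)
  have hval : (H.co y.1).2.2.2 a = 0 := hkap
  have hdom : U ∩ offX D ∩ {y' : D.X1 | D.k a y' ∈ ps (r a)} ∈ 𝓝 y := by
    have hk : Continuous (D.k a) :=
      (continuous_apply a).comp (continuous_snd.comp (continuous_snd.comp
        (continuous_snd.comp continuous_subtype_val)))
    exact ((hU.inter isOpen_offX).inter ((isOpen_ps (r a)).preimage hk)).mem_nhds
      ⟨⟨hyU, hy⟩, hP.h4 a⟩
  obtain ⟨y', ⟨⟨hy1, hy2⟩, hy3⟩, hy4⟩ := exists_ne_of_nhds hn hdom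
  rw [hval] at hy4
  refine ⟨y', hy1, hy2, ?_⟩
  have h5 : pc (r a) (D.k a y') ≠ 0 := hy4
  have h6 : D.k a y' ∈ ps (r a) := hy3
  obtain ⟨c, hc, e1, e2⟩ := lift_rel h6
  cases hra : r a
  · rw [hra] at e1 e2 h5 h6
    refine ⟨h6, ?_⟩
    show nn (D.k a y') ≠ 0
    rw [e1]
    exact mul_ne_zero hc h5
  · rw [hra] at e1 e2 h5 h6
    refine ⟨?_, h6⟩
    show Crest.Agent.R272.P1F_54.dd (D.k a y') ≠ 0
    rw [e2]
    exact mul_ne_zero hc h5

/-- the `K`-relation off the flats -/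
theorem off_rel (y : D.X1) (hy : y ∈ offX D) (a : Fin 2) :
    (D.k a y).n ^ 2 * D.Q a (D.pz y) = (D.k a y).d ^ 2 * D.P a (D.pz y) :=
  ((Gr_559.GData.mem_Y_reg D (hy a) _ _).1 (y.2.1 a)).2

/-- moving to `P_a, Q_a ≠ 0` -/
theorem move_PQ (a : Fin 2) (y : D.X1) (hy : y ∈ offX D) {U : Set D.X1} (hU : IsOpen U)
    (hyU : y ∈ U) : ∃ y' ∈ U, y' ∈ offX D ∧ D.P a (D.pz y') ≠ 0 ∧ D.Q a (D.pz y') ≠ 0 := by
  obtain ⟨y, hyU, hy, hyk⟩ := move_k a y hy hU hyU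
  have key : ∀ y' : D.X1, y' ∈ offX D → y' ∈ kX D a → D.Q a (D.pz y') ≠ 0 →
      D.P a (D.pz y') ≠ 0 := by
    intro y' h1 h2 h3 h4
    have h5 := off_rel y' h1 a
    rw [h4, mul_zero] at h5
    have h6 : (D.k a y').n ≠ 0 := h2.2
    exact (mul_ne_zero (pow_ne_zero 2 h6) h3) h5
  by_cases hQ : D.Q a (D.pz y) = 0
  swap
  · exact ⟨y, hyU, hy, key y hy hyk hQ, hQ⟩
  have hPz : D.P a (D.pz y) = 0 := by
    have h5 := off_rel y hy a
    rw [hQ, mul_zero] at h5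
    have h6 : (D.k a y).d ≠ 0 := hyk.1
    exact (mul_eq_zero.1 h5.symm).resolve_left (pow_ne_zero 2 h6)
  obtain ⟨s, sv, r, hP, -⟩ := exists_In (F := F) (D := D) y.1 hy
  set H := offD (F := F) y.1 hy s sv r with hH
  set κ := pc (r a) (y.1.2.2.2 a) with hκ
  have hld : ld (r a) κ ≠ 0 := by
    obtain ⟨c, hc, e1, e2⟩ := lift_rel (hP.h4 a)
    intro h0
    have h6 : Crest.Agent.R272.P1F_54.dd (y.1.2.2.2 a) ≠ 0 := hyk.1
    have e2' : Crest.Agent.R272.P1F_54.dd (y.1.2.2.2 a) = c * ld (r a) κ := e2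
    rw [h0, mul_zero] at e2'
    exact h6 e2'
  have hsol : ∀ c, ∃ φ γ : ℂ, (c = a → φ = ln (r a) κ ^ 2 ∧ γ = ld (r a) κ ^ 2) ∧
      ∀ Df Dg : ℂ, (D.P c y.1.1 = 0 → Df = φ) → (D.Q c y.1.1 = 0 → Dg = γ) →
      ∃ K : ℂ, (2 * ln (r c) (pc (r c) (y.1.2.2.2 c)) * (ln' (r c) * K) * D.Q c y.1.1 +
          ln (r c) (pc (r c) (y.1.2.2.2 c)) ^ 2 * Dg) -
        (2 * ld (r c) (pc (r c) (y.1.2.2.2 c)) * (ld' (r c) * K) * D.P c y.1.1 +
          ld (r c) (pc (r c) (y.1.2.2.2 c)) ^ 2 * Df) = 0 := by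
    intro c
    by_cases hc : c = a
    · subst hc
      refine ⟨_, _, fun _ => ⟨rfl, rfl⟩, fun Df Dg h1 h2 => ⟨0, ?_⟩⟩
      rw [h1 hPz, h2 hQ]
      ring
    · obtain ⟨φ, γ, h1⟩ := K_solve (r c) (pc (r c) (y.1.2.2.2 c)) (D.P c y.1.1) (D.Q c y.1.1) 0
        (off_K0 hy y.2 hP c)
      exact ⟨φ, γ, fun h => absurd h hc, h1⟩
  choose φ γ h1 h2 using hsol
  obtain ⟨V, hV⟩ := D.rr' hy (F.cover y.1.1).choose_spec φ γ
  obtain ⟨T, ν, hT⟩ := off_TN hP y.2 (fun c => hy c) hy V 0 0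
  choose K hK using fun c => h2 c _ _ (hV c).1 (hV c).2
  have hΨd : ∀ p ∈ H.Wd (offO D), DifferentiableAt ℂ
      (fun p : E8 3 => rd F H.i (D.Q a) p.1) p := fun p hp =>
    diff_fst (rd_diffAt' isOpen_univ (D.Q_hol a) hp.1 trivial)
  have hPW : H.co y.1 ∈ H.Wd (offO D) := (H.co_Wd hP).2 hy
  have hn := off_nhds hy y.2 hP hΨd (V, T, ν, K) (hT K).1 (hT K).2
    (fun c => by rw [off_DK hy hP]; exact hK c) (by
      have h3 : fderiv ℂ (fun p : E8 3 => rd F H.i (D.Q a) p.1) (H.co y.1) (V, T, ν, K) =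
          Gr_559.dd F (F.cover y.1.1).choose (D.Q a) y.1.1 V := by
        refine fderiv_eq_of_line (hΨd _ hPW) ?_
        exact line_of_fderiv (v := V) (rd_diffAt' isOpen_univ (D.Q_hol a) hPW.1 trivial)
      have h4 : fderiv ℂ (fun p : E8 3 => rd F H.i (D.Q a) p.1) (H.co y.1) (V, T, ν, K) =
          ld (r a) κ ^ 2 := h3.trans (((hV a).2 hQ).trans (h1 a rfl).2)
      rw [h4]
      exact pow_ne_zero 2 hld)
  have hdom : U ∩ offX D ∩ kX D a ∩ {y' : D.X1 | D.pz y' ∈ (F.e H.i).source} ∈ 𝓝 y :=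
    (((hU.inter isOpen_offX).inter (isOpen_kX a)).inter
      ((F.e H.i).open_source.preimage continuous_pz')).mem_nhds ⟨⟨⟨hyU, hy⟩, hyk⟩, hP.h1⟩
  obtain ⟨y', ⟨⟨⟨g1, g2⟩, g3⟩, g4⟩, g5⟩ := exists_ne_of_nhds hn hdom
  have hv0 : rd F H.i (D.Q a) (H.co y.1).1 = 0 := by
    show D.Q a ((F.e H.i).symm (F.e H.i y.1.1)) = 0
    rw [(F.e H.i).left_inv hP.h1]
    exact hQ
  have hv1 : rd F H.i (D.Q a) (H.co y'.1).1 = D.Q a (D.pz y') := by
    have e1 : (F.e H.i).symm (F.e H.i (D.pz y')) = D.pz y' := (F.e H.i).left_inv g4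
    show D.Q a ((F.e H.i).symm (F.e H.i (D.pz y'))) = _
    rw [e1]
  have g5' : rd F H.i (D.Q a) (H.co y'.1).1 ≠ rd F H.i (D.Q a) (H.co y.1).1 := g5
  rw [hv0, hv1] at g5'
  exact ⟨y', g1, g2, key y' g2 g3 g5', g5'⟩

/-- **(D2)**: arbitrarily near a point off the flats there are points with `P_i, Q_i ≠ 0` -/
theorem dense_ne (y : D.X1) (hy : y ∈ offX D) {U : Set D.X1} (hU : IsOpen U) (hyU : y ∈ U) :
    ∃ y' ∈ U, y' ∈ offX D ∧ ∀ i, D.P i (D.pz y') ≠ 0 ∧ D.Q i (D.pz y') ≠ 0 := by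
  obtain ⟨y1, h1, h2, h3, h4⟩ := move_PQ 0 y hy hU hyU
  have hc : ∀ i, Continuous fun y : D.X1 => D.P i (D.pz y) := fun i =>
    (D.continuous_P i).comp continuous_pz'
  have hc' : ∀ i, Continuous fun y : D.X1 => D.Q i (D.pz y) := fun i =>
    (D.continuous_Q i).comp continuous_pz'
  have hU1 : IsOpen (U ∩ ({y | D.P 0 (D.pz y) ≠ 0} ∩ {y | D.Q 0 (D.pz y) ≠ 0})) :=
    hU.inter ((isOpen_ne_fun (hc 0) continuous_const).inter
      (isOpen_ne_fun (hc' 0) continuous_const))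
  obtain ⟨y2, g1, g2, g3, g4⟩ := move_PQ 1 y1 h2 hU1 ⟨h1, h3, h4⟩
  refine ⟨y2, g1.1, g2, ?_⟩
  rw [Fin.forall_fin_two]
  exact ⟨⟨g1.2.1, g1.2.2⟩, ⟨g3, g4⟩⟩

/-- **(D3)**: `pz` is open at such points -/
theorem open_pz (y : D.X1) (hy : y ∈ offX D)
    (hPQ : ∀ i, D.P i (D.pz y) ≠ 0 ∧ D.Q i (D.pz y) ≠ 0) :
    𝓝 (D.pz y) ≤ map D.pz (𝓝 y) := by
  obtain ⟨s, sv, r, hP, -⟩ := exists_In (F := F) (D := D) y.1 hy
  set H := offD (F := F) y.1 hy s sv r with hH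
  have hn := H.nhds_le (Z := Cn 3) y.2 hP isOpen_offO (offO_sub hy) hy (fun c => H.qE c) (H.qV 0)
    (fun p hp c => H.dE hp c) (fun p hp => H.dV hp 0) (fun Q hQ hQO => off_iff H Q hQ hQO)
    (Ψ := Prod.fst) (fun p _ => differentiableAt_fst) (by
      intro e w k z
      obtain ⟨T, ν, hT⟩ := off_TN hP y.2 (fun c => hy c) hy z e w
      have hK : ∀ c, ∃ K : ℂ, (2 * ln (r c) (pc (r c) (y.1.2.2.2 c)) * (ln' (r c) * K) *
            D.Q c y.1.1 + ln (r c) (pc (r c) (y.1.2.2.2 c)) ^ 2 *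
            Gr_559.dd F (F.cover y.1.1).choose (D.Q c) y.1.1 z) -
          (2 * ld (r c) (pc (r c) (y.1.2.2.2 c)) * (ld' (r c) * K) * D.P c y.1.1 +
            ld (r c) (pc (r c) (y.1.2.2.2 c)) ^ 2 *
            Gr_559.dd F (F.cover y.1.1).choose (D.P c) y.1.1 z) = k c := by
        intro c
        obtain ⟨φ, γ, h1⟩ := K_solve (r c) (pc (r c) (y.1.2.2.2 c)) (D.P c y.1.1)
          (D.Q c y.1.1) (k c) (off_K0 hy y.2 hP c)
        exact h1 _ _ (fun h => absurd h (hPQ c).1) (fun h => absurd h (hPQ c).2)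
      choose K hK using hK
      refine ⟨(z, T, ν, K), (hT K).1, (hT K).2, fun c => ?_, ?_⟩
      · rw [off_DK hy hP]
        exact hK c
      · rw [(hasFDerivAt_fst (𝕜 := ℂ) (p := H.co y.1)).fderiv]
        rfl)
  have hn' : 𝓝 (F.e H.i (D.pz y)) ≤ map (fun y : D.X1 => F.e H.i (D.pz y)) (𝓝 y) := hn
  have h1 : map (F.e H.i).symm (𝓝 (F.e H.i (D.pz y))) = 𝓝 (D.pz y) := by
    have h2 := (F.e H.i).symm.map_nhds_eq ((F.e H.i).map_source hP.h1)
    rw [(F.e H.i).left_inv hP.h1] at h2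
    exact h2
  rw [← h1]
  refine (map_mono hn').trans (le_of_eq ?_)
  rw [map_map]
  refine Filter.map_congr ?_
  filter_upwards [((F.e H.i).open_source.preimage continuous_pz').mem_nhds hP.h1] with y' hy'
  exact (F.e H.i).left_inv hy'

/-- **(D4)**: `pz` is open at points arbitrarily near every point, given (D1) -/
theorem open_dense (hd : ∀ (y : D.X1) (U : Set D.X1), IsOpen U → y ∈ U → ∃ y' ∈ U, y' ∈ offX D)
    (y : D.X1) {U : Set D.X1} (hU : IsOpen U) (hyU : y ∈ U) :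
    ∃ y' ∈ U, y' ∈ offX D ∧ (∀ i, D.P i (D.pz y') ≠ 0 ∧ D.Q i (D.pz y') ≠ 0) ∧
      𝓝 (D.pz y') ≤ map D.pz (𝓝 y') := by
  obtain ⟨y1, h1, h2⟩ := hd y U hU hyU
  obtain ⟨y2, g1, g2, g3⟩ := dense_ne y1 h2 hU h1
  exact ⟨y2, g1, g2, g3, open_pz y2 g2 g3⟩

/-- a function which is nowhere locally zero on the base is nowhere locally zero on `X_1` -/
theorem nz_pz (hd : ∀ (y : D.X1) (U : Set D.X1), IsOpen U → y ∈ U → ∃ y' ∈ U, y' ∈ offX D)
    {f : N → ℂ} (hf : ∀ z, ¬ ∀ᶠ w in 𝓝 z, f w = 0) (y : D.X1) :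
    ¬ ∀ᶠ y' in 𝓝 y, f (D.pz y') = 0 := by
  intro h
  obtain ⟨U, hUh, hU, hyU⟩ := eventually_nhds_iff.1 h
  obtain ⟨y', h1, -, -, h2⟩ := open_dense hd y hU hyU
  refine hf (D.pz y') (h2 ?_)
  show D.pz ⁻¹' {w | f w = 0} ∈ 𝓝 y'
  exact mem_of_superset (hU.mem_nhds h1) hUh

end dense

end

end Crest.Agent.R272.GrFr_54
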