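import Crest.Agent.R272.SlC_140
import Crest.Agent.R272.Tow_102

/-!
# R272 (S0414), helper140: the projection of the tower is dominant, sections are nowhere locally zero

* `freq_off`  : the complement of a finite set is dense (positive dimension);
* `freq_s`    : `P : PD A ρ` with normal crossings off a finite set: no `s a` is locally zero;
* `dom_pr`    : `Dom tfam (fam A) pr x` for 102's tower;
* `mm_freq`   : 102's roots `mm` are nowhere locally zero;
* `sqE_s`     : `s a ∘ pr` is a square class everywhere.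
-/

set_option autoImplicit false
set_option linter.unusedSectionVars false

open Set Filter Topology Complex

namespace Crest.Agent.R272.DomT_140

open Crest.Agent.R275.Geo Crest.Agent.R275.Core144
open Crest.Agent.R273.Fam_835 Crest.Agent.R273.Map_835
open Crest.Agent.R272.Quot_783 Crest.Agent.R272.Root_83 Crest.Agent.R272.Blup1_102
open Crest.Agent.R272.BL_366 Crest.Agent.R272.Sq4_771
open Crest.Agent.R272.BlA_266 Crest.Agent.R272.Adp_409 Crest.Agent.R272.Asm2_102
open Crest.Agent.R272.Tow_102 Crest.Agent.R272.SlB_140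

noncomputable section

section Gen

variable {n : ℕ} [NeZero n] {M : Type} [TopologicalSpace M] {A : Atl n M}

/-- no isolated points -/
theorem neBot_ne (A : Atl n M) (x : M) : (𝓝[≠] x).NeBot := by
  obtain ⟨i, hi⟩ := A.cover x
  have : Nontrivial (Cn n) := by
    refine ⟨0, EuclideanSpace.single 0 1, fun h => ?_⟩
    have h1 := congrArg (fun v : Cn n => v 0) h
    simp at h1
  have h1 : (𝓝[≠] (A.e i x)).NeBot := Module.punctured_nhds_neBot ℂ (Cn n) (A.e i x)
  rw [← mem_closure_iff_nhdsWithin_neBot, mem_closure_iff_frequently] at h1 ⊢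
  have h2 : Tendsto (A.e i).symm (𝓝 (A.e i x)) (𝓝 x) := by
    have := ((A.e i).continuousAt_symm ((A.e i).map_source hi)).tendsto
    rwa [(A.e i).left_inv hi] at this
  refine h2.frequently ((h1.and_eventually
    ((A.e i).open_target.mem_nhds ((A.e i).map_source hi))).mono fun z hz h3 => ?_)
  rw [mem_singleton_iff] at h3
  apply hz.1
  rw [mem_singleton_iff, ← h3, (A.e i).right_inv hz.2]

/-- the complement of a finite set is dense -/
theorem freq_off [T1Space M] (A : Atl n M) {Z : Set M} (hZ : Z.Finite) (x : M) :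
    ∃ᶠ y in 𝓝 x, y ∉ Z := by
  have h1 : ∀ x : M, (𝓝[≠] x).NeBot := neBot_ne A
  have h2 : Dense (univ \ Z) := dense_univ.sdiff_finite hZ
  have h3 := mem_closure_iff_frequently.1 (h2 x)
  exact h3.mono fun y hy => hy.2

/-- **no section is locally zero** -/
theorem freq_s [T1Space M] {ρ : Type} (P : PD A ρ) {Z : Set M} (hZ : Z.Finite)
    (hoff : ∀ x, x ∉ Z → P.Snc x) (a : ρ) {i : A.ι} {x : M} (hi : x ∈ (A.e i).source) :
    ∃ᶠ y in 𝓝 x, P.s a i y ≠ 0 := by
  intro hcon
  obtain ⟨O, hO1, hO, hxO⟩ := _root_.mem_nhds_iff.1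
    (Filter.inter_mem hcon ((A.e i).open_source.mem_nhds hi))
  obtain ⟨y, hyZ, hyO⟩ := ((freq_off A hZ x).and_eventually (hO.mem_nhds hxO)).exists
  have hyi : y ∈ (A.e i).source := (hO1 hyO).2
  obtain ⟨v, hv⟩ := (hoff y hyZ).all P hyi fun _ => 1
  have h0 : P.rd i a =ᶠ[𝓝 (A.e i y)] fun _ => 0 := by
    have h2 : Tendsto (A.e i).symm (𝓝 (A.e i y)) (𝓝 y) := by
      have := ((A.e i).continuousAt_symm ((A.e i).map_source hyi)).tendsto
      rwa [(A.e i).left_inv hyi] at this
    filter_upwards [h2.eventually (hO.mem_nhds hyO)] with z hz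
    by_contra h
    exact (hO1 hz).1 h
  have h1 := hv a h0.self_of_nhds
  rw [h0.fderiv_eq] at h1
  simp at h1

end Gen

section Tower

variable {M : Type} [TopologicalSpace M] [T2Space M] {A : Atl 2 M} {ρ : Type} [Fintype ρ]
  (P : PD A ρ) (hk : ∀ a, P.k a = 2) {Z : Set M} (hZ : Z.Finite) (N : ∀ x : Z, Node P (x : M))
  (hadm : ∀ x, Adm (N x).sh) (hoff : ∀ x, x ∉ Z → P.Snc x)

/-- **the projection of the tower is dominant** -/
theorem dom_pr (x : TX P hk hZ N hadm hoff) :
    Dom (tfam P hk hZ N hadm hoff) (fam A) (pr P hk hZ N hadm hoff) x := by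
  have d0 : Dom (tfam P hk hZ N hadm hoff) (fam (D2 P hZ N).atl) (asm P hk hZ N hadm hoff).p x :=
    dom_of_open (asm P hk hZ N hadm hoff).isOpenMap_p (asm P hk hZ N hadm hoff).continuous_p
  have d2 := dom_pi (D2 P hZ N) ((asm P hk hZ N hadm hoff).p x)
  have d1 := dom_pi (D1 P hZ N) ((D2 P hZ N).pi ((asm P hk hZ N hadm hoff).p x))
  have d12 := Dom.comp (holC_pi (D2 P hZ N)) d2 d0
  have d11 := Dom.comp (p := (D1 P hZ N).pi)
    (r := fun w => (D2 P hZ N).pi ((asm P hk hZ N hadm hoff).p w)) (holC_pi (D1 P hZ N)) d1 d12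
  intro a ha hf
  refine d11 a ?_ hf
  exact HG.comp (p := id) (y := pr P hk hZ N hadm hoff x) ha (holC_iff.2 (nodeCen N).hol)

/-- **the roots are nowhere locally zero** -/
theorem mm_freq (a : ρ) {i : A.ι} {x : TX P hk hZ N hadm hoff}
    (hi : pr P hk hZ N hadm hoff x ∈ (A.e i).source) :
    ∃ᶠ y in 𝓝 x, (mm P hk hZ N hadm hoff).R a i y ≠ 0 := by
  have h1 := freq_s P hZ hoff a hi
  have h2 : HG (fam A) (pr P hk hZ N hadm hoff x) (P.s a i) :=
    hg_of_holAt ((P.hs a).hol i) isOpen_univ (mem_univ _) hi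
  have h3 := dom_pr P hk hZ N hadm hoff x _ h2 h1
  have h4 : ∀ᶠ y in 𝓝 x, pr P hk hZ N hadm hoff y ∈ (A.e i).source :=
    (continuous_pr P hk hZ N hadm hoff).continuousAt.eventually ((A.e i).open_source.mem_nhds hi)
  refine (h3.and_eventually h4).mono fun y hy h5 => hy.1 ?_
  exact (mm_zero a hy.2).1 h5

/-- **the sections are square classes on the tower** -/
theorem sqE_s (a : ρ) {i : A.ι} {x : TX P hk hZ N hadm hoff}
    (hi : pr P hk hZ N hadm hoff x ∈ (A.e i).source) :
    SqE (tfam P hk hZ N hadm hoff) x (fun y => P.s a i (pr P hk hZ N hadm hoff y))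
      (fun _ => 1) := by
  have h4 : ∀ᶠ y in 𝓝 x, pr P hk hZ N hadm hoff y ∈ (A.e i).source :=
    (continuous_pr P hk hZ N hadm hoff).continuousAt.eventually ((A.e i).open_source.mem_nhds hi)
  refine SqE.of_sq (mm_hg a hi) (mm_freq P hk hZ N hadm hoff a hi) ?_
  filter_upwards [h4] with y hy
  exact (mm_sq a hy).symm

/-- **slopes on the tower**: any coordinates at a centre -/
theorem slope_pr {s : M} (hs : s ∈ Z) {x : TX P hk hZ N hadm hoff}
    (hx : pr P hk hZ N hadm hoff x = s) {u : Fin 2 → M → ℂ} (hu : Crd A s u)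
    (h0 : u 0 s = 0) (h1 : u 1 s = 0) :
    Slope (tfam P hk hZ N hadm hoff) x (fun y => u 0 (pr P hk hZ N hadm hoff y))
      (fun y => u 1 (pr P hk hZ N hadm hoff y)) :=
  slope_crdN P hZ N (holC_p2 P hk hZ N hadm hoff) hs hx hu h0 h1

end Tower

end

end Crest.Agent.R272.DomT_140
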