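import Mathlib

/-!
R272, division E, step (S) = LIM (helper528).

Real valued 2-cocycles on a finitely presented group: a pointwise limit of 2-cocycles that are
virtually (sum of cup products of homomorphisms to `ℝ`) + coboundary is of the same kind.
-/

set_option autoImplicit false

noncomputable section

namespace Crest.Agent.R272.E5_528

open Filter Topology

variable {G : Type*} [Group G] {A : Type*} [AddCommGroup A]

/-- inhomogeneous 2-cocycles (trivial action) -/
def IsCoc (c : G → G → A) : Prop :=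
  ∀ g h k, c g h + c (g * h) k = c h k + c g (h * k)

theorem IsCoc.one_left {c : G → G → A} (hc : IsCoc c) (g : G) : c 1 g = c 1 1 := by
  have := hc 1 1 g
  simp only [one_mul] at this
  exact (add_right_cancel this).symm

theorem IsCoc.one_right {c : G → G → A} (hc : IsCoc c) (g : G) : c g 1 = c 1 1 := by
  have := hc g 1 1
  simp only [mul_one] at this
  exact add_right_cancel this

/-- the central extension of `G` by `A` defined by `c` -/
@[ext] structure Ext (c : G → G → A) where
  g : G
  t : A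

namespace Ext

variable {c : G → G → A}

/-- group structure of the central extension -/
@[reducible] def group (hc : IsCoc c) : Group (Ext c) where
  mul x y := ⟨x.g * y.g, x.t + y.t + c x.g y.g⟩
  mul_assoc x y z := by
    apply Ext.ext
    · exact mul_assoc _ _ _
    · show x.t + y.t + c x.g y.g + z.t + c (x.g * y.g) z.g
        = x.t + (y.t + z.t + c y.g z.g) + c x.g (y.g * z.g)
      have := hc x.g y.g z.g
      calc x.t + y.t + c x.g y.g + z.t + c (x.g * y.g) z.g
          = x.t + y.t + z.t + (c x.g y.g + c (x.g * y.g) z.g) := by abel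
        _ = x.t + y.t + z.t + (c y.g z.g + c x.g (y.g * z.g)) := by rw [this]
        _ = _ := by abel
  one := ⟨1, -c 1 1⟩
  one_mul x := by
    apply Ext.ext
    · exact one_mul _
    · show -c 1 1 + x.t + c 1 x.g = x.t
      have := hc.one_left x.g
      rw [this]; abel
  mul_one x := by
    apply Ext.ext
    · exact mul_one _
    · show x.t + -c 1 1 + c x.g 1 = x.t
      have := hc.one_right x.g
      rw [this]; abel
  inv x := ⟨x.g⁻¹, -x.t - c x.g⁻¹ x.g - c 1 1⟩
  inv_mul_cancel x := by
    apply Ext.ext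
    · exact inv_mul_cancel _
    · show -x.t - c x.g⁻¹ x.g - c 1 1 + x.t + c x.g⁻¹ x.g = -c 1 1
      abel

theorem mul_g (hc : IsCoc c) (x y : Ext c) :
    (letI := group hc; (x * y : Ext c)).g = x.g * y.g := rfl

theorem mul_t (hc : IsCoc c) (x y : Ext c) :
    (letI := group hc; (x * y : Ext c)).t = x.t + y.t + c x.g y.g := rfl

theorem one_g (hc : IsCoc c) : (letI := group hc; (1 : Ext c)).g = 1 := rfl

theorem one_t (hc : IsCoc c) : (letI := group hc; (1 : Ext c)).t = -c 1 1 := rfl

theorem inv_g (hc : IsCoc c) (x : Ext c) :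
    (letI := group hc; (x⁻¹ : Ext c)).g = x.g⁻¹ := rfl

theorem inv_t (hc : IsCoc c) (x : Ext c) :
    (letI := group hc; (x⁻¹ : Ext c)).t = -x.t - c x.g⁻¹ x.g - c 1 1 := rfl

end Ext

/-- A finite presentation of `G`. -/
structure Pres (G : Type*) [Group G] where
  S : Type
  fin : Finite S
  π : FreeGroup S →* G
  surj : Function.Surjective π
  R : Finset (FreeGroup S)
  ker : π.ker = Subgroup.normalClosure (R : Set (FreeGroup S))

section eval

variable (P : Pres G)

/-- the lift of the free group to the central extension, generators go to `(π s, 0)` -/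
def lft {c : G → G → A} (hc : IsCoc c) : letI := Ext.group hc; FreeGroup P.S →* Ext c :=
  let _ := Ext.group hc
  FreeGroup.lift (fun s => (⟨P.π (FreeGroup.of s), 0⟩ : Ext c))

theorem lft_of {c : G → G → A} (hc : IsCoc c) (s : P.S) :
    lft P hc (FreeGroup.of s) = ⟨P.π (FreeGroup.of s), 0⟩ := by
  let _ := Ext.group hc
  exact FreeGroup.lift_apply_of

theorem lft_g {c : G → G → A} (hc : IsCoc c) (x : FreeGroup P.S) : (lft P hc x).g = P.π x := by
  let _ := Ext.group hc
  let p : Ext c →* G :=
    { toFun := Ext.g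
      map_one' := rfl
      map_mul' := fun _ _ => rfl }
  have : p.comp (lft P hc) = P.π := by
    apply FreeGroup.ext_hom
    intro s
    show (lft P hc (FreeGroup.of s)).g = _
    rw [lft_of]
  exact DFunLike.congr_fun this x

/-- evaluation of a cocycle on a word -/
def ev {c : G → G → A} (hc : IsCoc c) (x : FreeGroup P.S) : A := (lft P hc x).t

theorem ev_one {c : G → G → A} (hc : IsCoc c) : ev P hc 1 = -c 1 1 := by
  let _ := Ext.group hc
  show (lft P hc 1).t = _
  rw [map_one]; rfl

theorem ev_of {c : G → G → A} (hc : IsCoc c) (s : P.S) : ev P hc (FreeGroup.of s) = 0 := by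
  let _ := Ext.group hc
  show (lft P hc (FreeGroup.of s)).t = _
  rw [lft_of]

theorem ev_mul {c : G → G → A} (hc : IsCoc c) (x y : FreeGroup P.S) :
    ev P hc (x * y) = ev P hc x + ev P hc y + c (P.π x) (P.π y) := by
  let _ := Ext.group hc
  show (lft P hc (x * y)).t = _
  rw [map_mul]
  show (lft P hc x).t + (lft P hc y).t + c (lft P hc x).g (lft P hc y).g = _
  rw [lft_g, lft_g]; rfl

theorem ev_inv {c : G → G → A} (hc : IsCoc c) (x : FreeGroup P.S) :
    ev P hc x⁻¹ = -ev P hc x - c (P.π x)⁻¹ (P.π x) - c 1 1 := by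
  let _ := Ext.group hc
  show (lft P hc x⁻¹).t = _
  rw [map_inv]
  show -(lft P hc x).t - c (lft P hc x).g⁻¹ (lft P hc x).g - c 1 1 = _
  rw [lft_g]; rfl

theorem IsCoc.add {c c' : G → G → A} (hc : IsCoc c) (hc' : IsCoc c') : IsCoc (c + c') := by
  intro g h k
  have h1 := hc g h k
  have h2 := hc' g h k
  simp only [Pi.add_apply]
  calc c g h + c' g h + (c (g * h) k + c' (g * h) k)
      = (c g h + c (g * h) k) + (c' g h + c' (g * h) k) := by abel
    _ = (c h k + c g (h * k)) + (c' h k + c' g (h * k)) := by rw [h1, h2]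
    _ = _ := by abel

theorem IsCoc.smul {c : G → G → ℝ} (a : ℝ) (hc : IsCoc c) : IsCoc (a • c) := by
  intro g h k
  have h1 := hc g h k
  simp only [Pi.smul_apply, smul_eq_mul]
  linear_combination a * h1

theorem IsCoc.zero : IsCoc (0 : G → G → A) := by
  intro g h k; simp

theorem ev_add {c c' : G → G → A} (hc : IsCoc c) (hc' : IsCoc c') (x : FreeGroup P.S) :
    ev P (hc.add hc') x = ev P hc x + ev P hc' x := by
  induction x using FreeGroup.induction_on with
  | C1 => rw [ev_one, ev_one, ev_one]; simp only [Pi.add_apply]; abel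
  | of s => rw [ev_of, ev_of, ev_of, add_zero]
  | inv_of s hs =>
      change ev P (hc.add hc') (FreeGroup.of s) = ev P hc (FreeGroup.of s)
        + ev P hc' (FreeGroup.of s) at hs
      change ev P (hc.add hc') (FreeGroup.of s)⁻¹ = ev P hc (FreeGroup.of s)⁻¹
        + ev P hc' (FreeGroup.of s)⁻¹
      rw [ev_inv, ev_inv, ev_inv, hs]; simp only [Pi.add_apply]; abel
  | mul x y hx hy => rw [ev_mul, ev_mul, ev_mul, hx, hy]; simp only [Pi.add_apply]; abel

theorem ev_smul {c : G → G → ℝ} (a : ℝ) (hc : IsCoc c) (x : FreeGroup P.S) :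
    ev P (hc.smul a) x = a * ev P hc x := by
  induction x using FreeGroup.induction_on with
  | C1 => rw [ev_one, ev_one]; simp only [Pi.smul_apply, smul_eq_mul]; ring
  | of s => rw [ev_of, ev_of, mul_zero]
  | inv_of s hs =>
      change ev P (hc.smul a) (FreeGroup.of s) = a * ev P hc (FreeGroup.of s) at hs
      change ev P (hc.smul a) (FreeGroup.of s)⁻¹ = a * ev P hc (FreeGroup.of s)⁻¹
      rw [ev_inv, ev_inv, hs]; simp only [Pi.smul_apply, smul_eq_mul]; ring
  | mul x y hx hy =>
      rw [ev_mul, ev_mul, hx, hy]; simp only [Pi.smul_apply, smul_eq_mul]; ring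

theorem ev_tendsto {c : ℕ → G → G → ℝ} {d : G → G → ℝ} (hc : ∀ n, IsCoc (c n)) (hd : IsCoc d)
    (h : ∀ g g', Tendsto (fun n => c n g g') atTop (𝓝 (d g g'))) (x : FreeGroup P.S) :
    Tendsto (fun n => ev P (hc n) x) atTop (𝓝 (ev P hd x)) := by
  induction x using FreeGroup.induction_on with
  | C1 => simp only [ev_one]; exact (h 1 1).neg
  | of s => simp only [ev_of]; exact tendsto_const_nhds
  | inv_of s hs =>
      change Tendsto (fun n => ev P (hc n) (FreeGroup.of s)) atTop
        (𝓝 (ev P hd (FreeGroup.of s))) at hs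
      change Tendsto (fun n => ev P (hc n) (FreeGroup.of s)⁻¹) atTop
        (𝓝 (ev P hd (FreeGroup.of s)⁻¹))
      simp only [ev_inv]
      exact (hs.neg.sub (h _ _)).sub (h 1 1)
  | mul x y hx hy => simp only [ev_mul]; exact (hx.add hy).add (h _ _)

/-- A cocycle which evaluates trivially on all relators is a coboundary. -/
theorem cobound {c : G → G → A} (hc : IsCoc c) (h : ∀ r ∈ P.R, ev P hc r = -c 1 1) :
    ∃ φ : G → A, ∀ g g', c g g' = φ g + φ g' - φ (g * g') := by
  let _ := Ext.group hc
  have hker : P.π.ker ≤ (lft P hc).ker := by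
    rw [P.ker]
    apply Subgroup.normalClosure_le_normal
    intro r hr
    have hr' : r ∈ P.R := hr
    rw [SetLike.mem_coe, MonoidHom.mem_ker]
    apply Ext.ext
    · rw [lft_g]
      have : r ∈ P.π.ker := by rw [P.ker]; exact Subgroup.subset_normalClosure hr
      exact this
    · exact h r hr'
  obtain ⟨σ, hσ⟩ : ∃ σ : G →* Ext c, ∀ x, σ (P.π x) = lft P hc x := by
    refine ⟨P.π.liftOfSurjective P.surj ⟨lft P hc, hker⟩, fun x => ?_⟩
    exact MonoidHom.liftOfRightInverse_comp_apply _ _ _ _ _
  have hσg : ∀ g, (σ g).g = g := by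
    intro g
    obtain ⟨x, rfl⟩ := P.surj g
    rw [hσ, lft_g]
  refine ⟨fun g => -(σ g).t, fun g g' => ?_⟩
  have := congrArg Ext.t (map_mul σ g g')
  change (σ (g * g')).t = (σ g).t + (σ g').t + c (σ g).g (σ g').g at this
  rw [hσg, hσg] at this
  simp only [this]; abel

end eval

/-- `c` is, on the subgroup `H`, a sum of cup products of homomorphisms to `ℝ` plus a
coboundary. -/
def CupOn (H : Subgroup G) (c : G → G → ℝ) : Prop :=
  ∃ (r : ℕ) (a b : Fin r → H →* Multiplicative ℝ) (φ : H → ℝ), ∀ g h : H,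
    c g h = (∑ i, (a i g).toAdd * (b i h).toAdd) + φ g + φ h - φ (g * h)

/-- virtually (cup products + coboundary) -/
def Virt (c : G → G → ℝ) : Prop := ∃ H : Subgroup G, H.FiniteIndex ∧ CupOn H c

theorem CupOn.mono {H K : Subgroup G} (hHK : K ≤ H) {c : G → G → ℝ} (h : CupOn H c) :
    CupOn K c := by
  obtain ⟨r, a, b, φ, h⟩ := h
  refine ⟨r, fun i => (a i).comp (Subgroup.inclusion hHK),
    fun i => (b i).comp (Subgroup.inclusion hHK), fun g => φ (Subgroup.inclusion hHK g),
    fun g g' => ?_⟩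
  exact h (Subgroup.inclusion hHK g) (Subgroup.inclusion hHK g')

theorem CupOn.add {H : Subgroup G} {c d : G → G → ℝ} (h : CupOn H c) (h' : CupOn H d) :
    CupOn H (c + d) := by
  obtain ⟨r, a, b, φ, h⟩ := h
  obtain ⟨r', a', b', φ', h'⟩ := h'
  refine ⟨r + r', Fin.append a a', Fin.append b b', φ + φ', fun g g' => ?_⟩
  rw [Fin.sum_univ_add]
  simp only [Fin.append_left, Fin.append_right, Pi.add_apply]
  rw [h, h']; ring

theorem CupOn.smul {H : Subgroup G} {c : G → G → ℝ} (t : ℝ) (h : CupOn H c) :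
    CupOn H (t • c) := by
  obtain ⟨r, a, b, φ, h⟩ := h
  let m : Multiplicative ℝ →* Multiplicative ℝ := AddMonoidHom.toMultiplicative
    (AddMonoidHom.mulLeft t)
  refine ⟨r, fun i => m.comp (a i), b, t • φ, fun g g' => ?_⟩
  have hm : ∀ x : Multiplicative ℝ, (m x).toAdd = t * x.toAdd := fun x => rfl
  simp only [Pi.smul_apply, smul_eq_mul, MonoidHom.comp_apply, hm]
  rw [h, mul_sub, mul_add, mul_add, Finset.mul_sum]
  simp only [mul_assoc]

theorem CupOn.of_cobound {H : Subgroup G} {c : G → G → ℝ} (φ : G → ℝ)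
    (h : ∀ g g', c g g' = φ g + φ g' - φ (g * g')) : CupOn H c := by
  refine ⟨0, Fin.elim0, Fin.elim0, fun g => φ g, fun g g' => ?_⟩
  simp [h]

theorem Virt.add {c d : G → G → ℝ} (h : Virt c) (h' : Virt d) : Virt (c + d) := by
  obtain ⟨H, hH, h⟩ := h
  obtain ⟨H', hH', h'⟩ := h'
  exact ⟨H ⊓ H', inferInstance, (h.mono inf_le_left).add (h'.mono inf_le_right)⟩

theorem Virt.smul {c : G → G → ℝ} (t : ℝ) (h : Virt c) : Virt (t • c) := by
  obtain ⟨H, hH, h⟩ := h
  exact ⟨H, hH, h.smul t⟩

theorem Virt.of_cobound {c : G → G → ℝ} (φ : G → ℝ)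
    (h : ∀ g g', c g g' = φ g + φ g' - φ (g * g')) : Virt c :=
  ⟨⊤, inferInstance, CupOn.of_cobound φ h⟩

theorem Virt.zero : Virt (0 : G → G → ℝ) := Virt.of_cobound 0 (by simp)

theorem isCoc_of_tendsto {c : ℕ → G → G → ℝ} {d : G → G → ℝ} (hc : ∀ n, IsCoc (c n))
    (h : ∀ g g', Tendsto (fun n => c n g g') atTop (𝓝 (d g g'))) : IsCoc d := by
  intro g g' g''
  have h1 := (h g g').add (h (g * g') g'')
  have h2 := (h g' g'').add (h g (g' * g''))
  refine tendsto_nhds_unique h1 (h2.congr fun n => ?_)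
  exact (hc n g g' g'').symm

/-- **LIM.** -/
theorem lim (P : Pres G) {c : ℕ → G → G → ℝ} {d : G → G → ℝ} (hc : ∀ n, IsCoc (c n))
    (h : ∀ g g', Tendsto (fun n => c n g g') atTop (𝓝 (d g g')))
    (hv : ∀ n, Virt (c n)) : Virt d := by
  have hd : IsCoc d := isCoc_of_tendsto hc h
  -- submodule of cocycles
  let Z : Submodule ℝ (G → G → ℝ) :=
    { carrier := {c | IsCoc c}
      add_mem' := fun ha hb => IsCoc.add ha hb
      zero_mem' := IsCoc.zero
      smul_mem' := fun a _ hb => IsCoc.smul a hb }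
  let e : Z →ₗ[ℝ] (P.R → ℝ) :=
    { toFun := fun c r => ev P (c := c.1) c.2 r.1 + c.1 1 1
      map_add' := by
        intro x y
        funext r
        have := ev_add P x.2 y.2 r.1
        show ev P (hc := _) r.1 + (x.1 + y.1) 1 1 = _
        simp only [Pi.add_apply]
        change ev P (IsCoc.add x.2 y.2) r.1 + (x.1 1 1 + y.1 1 1) = _
        rw [this]; ring
      map_smul' := by
        intro t x
        funext r
        have := ev_smul P t x.2 r.1
        simp only [Pi.smul_apply, smul_eq_mul, RingHom.id_apply]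
        change ev P (IsCoc.smul t x.2) r.1 + (t * x.1 1 1) = _
        rw [this]; ring }
  let W : Submodule ℝ Z :=
    { carrier := {c | Virt c.1}
      add_mem' := fun ha hb => Virt.add ha hb
      zero_mem' := Virt.zero
      smul_mem' := fun a _ hb => Virt.smul a hb }
  have hcl : ∀ V : Submodule ℝ (P.R → ℝ), IsClosed (V : Set (P.R → ℝ)) := fun V =>
    Submodule.closed_of_finiteDimensional V
  have hmem : e ⟨d, hd⟩ ∈ W.map e := by
    have ht : Tendsto (fun n => e ⟨c n, hc n⟩) atTop (𝓝 (e ⟨d, hd⟩)) := by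
      rw [tendsto_pi_nhds]
      intro r
      exact (ev_tendsto P hc hd h r.1).add (h 1 1)
    exact (hcl (W.map e)).mem_of_tendsto ht (Eventually.of_forall fun n =>
      Submodule.mem_map_of_mem (hv n))
  obtain ⟨w, hw, hwe⟩ := hmem
  have hz : e ((⟨d, hd⟩ : Z) - w) = 0 := by rw [map_sub, hwe, sub_self]
  have hdw : IsCoc (d - w.1) := ((⟨d, hd⟩ : Z) - w).2
  obtain ⟨φ, hφ⟩ := cobound P (c := d - w.1) hdw (by
    intro r hr
    have := congrFun hz ⟨r, hr⟩
    change ev P (c := d - w.1) hdw r + (d - w.1) 1 1 = 0 at this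
    linarith)
  have hd2 : d = w.1 + (d - w.1) := by simp
  rw [hd2]
  exact Virt.add hw (Virt.of_cobound φ hφ)

end Crest.Agent.R272.E5_528
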