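import Mathlib

/-!
# Row 272, division E, T3: Gaussian integrals `∫ exp(-π x* M x) dx` over `ι → ℂ`

`gauss_pos`: if `Re (x* M x) > 0` for `x ≠ 0`, the integral times `det M` is a positive real.
-/

set_option autoImplicit false

noncomputable section

open MeasureTheory Complex Matrix
open scoped ComplexOrder

namespace Crest.Agent.R272.EChi1_307

variable {ι : Type*} [Fintype ι] [DecidableEq ι]

/-- simultaneous diagonalisation: `S* M S = diag (1 + i d)` -/
theorem exists_diag (M : Matrix ι ι ℂ) (hM : ∀ x : ι → ℂ, x ≠ 0 → 0 < (star x ⬝ᵥ (M *ᵥ x)).re) :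
    ∃ (S : Matrix ι ι ℂ) (d : ι → ℝ), IsUnit S.det ∧
      Sᴴ * M * S = diagonal (fun i => 1 + (d i : ℂ) * I) := by
  classical
  -- Hermitian part
  let P : Matrix ι ι ℂ := (2⁻¹ : ℂ) • (M + Mᴴ)
  let Q : Matrix ι ι ℂ := (-(I * 2⁻¹) : ℂ) • (M - Mᴴ)
  have hMPQ : M = P + I • Q := by
    simp only [P, Q, smul_smul]
    have : I * -(I * 2⁻¹) = (2⁻¹ : ℂ) := by
      rw [mul_neg, ← mul_assoc, I_mul_I]; ring
    rw [this, ← smul_add]
    have h2 : M + Mᴴ + (M - Mᴴ) = (2 : ℂ) • M := by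
      rw [two_smul]; abel
    rw [h2, smul_smul]; norm_num
  have hPh : P.IsHermitian := by
    simp only [P, IsHermitian, conjTranspose_smul, conjTranspose_add, conjTranspose_conjTranspose]
    rw [add_comm]
    congr 1
    simp
  have hQh : Q.IsHermitian := by
    simp only [Q, IsHermitian, conjTranspose_smul, conjTranspose_sub, conjTranspose_conjTranspose]
    have : star (-(I * 2⁻¹) : ℂ) = (I * 2⁻¹ : ℂ) := by simp
    rw [this, neg_smul, ← smul_neg]
    congr 1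
    abel
  have hPpos : P.PosDef := by
    refine Matrix.PosDef.of_dotProduct_mulVec_pos hPh ?_
    intro x hx
    have h1 := hM x hx
    have h2 : star x ⬝ᵥ (P *ᵥ x) = (((star x ⬝ᵥ (M *ᵥ x)).re : ℝ) : ℂ) := by
      have h3 : star x ⬝ᵥ (Mᴴ *ᵥ x) = star (star x ⬝ᵥ (M *ᵥ x)) := by
        rw [Matrix.star_dotProduct, star_mulVec, ← dotProduct_mulVec, conjTranspose_conjTranspose]
      simp only [P, smul_mulVec, add_mulVec, dotProduct_smul, dotProduct_add, h3, smul_eq_mul]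
      rw [show star (star x ⬝ᵥ (M *ᵥ x)) = (starRingEnd ℂ) (star x ⬝ᵥ (M *ᵥ x)) from rfl,
        Complex.add_conj]
      push_cast
      ring
    rw [h2]
    exact_mod_cast h1
  obtain ⟨R, hR, hRP⟩ : ∃ R : Matrix ι ι ℂ, IsUnit R.det ∧ Rᴴ * P * R = 1 := by
    have hsp := hPh.spectral_theorem
    set U : Matrix ι ι ℂ := (hPh.eigenvectorUnitary : Matrix ι ι ℂ) with hU
    have hUU : Uᴴ * U = 1 := Unitary.coe_star_mul_self hPh.eigenvectorUnitary
    have hUdet : IsUnit U.det := isUnit_det_of_left_inverse hUU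
    have hlam : ∀ i, 0 < hPh.eigenvalues i := fun i => hPpos.eigenvalues_pos i
    let D : Matrix ι ι ℂ := diagonal (fun i => (((Real.sqrt (hPh.eigenvalues i))⁻¹ : ℝ) : ℂ))
    have hP' : P = U * diagonal (fun i => ((hPh.eigenvalues i : ℝ) : ℂ)) * Uᴴ := by
      rw [Unitary.conjStarAlgAut_apply] at hsp
      exact hsp
    refine ⟨U * D, ?_, ?_⟩
    · rw [det_mul]
      refine hUdet.mul ?_
      simp only [D, det_diagonal]
      rw [isUnit_iff_ne_zero, Finset.prod_ne_zero_iff]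
      intro i _
      have := Real.sqrt_pos.2 (hlam i)
      exact_mod_cast (inv_pos.2 this).ne'
    · have hDD : Dᴴ = D := by
        simp only [D, diagonal_conjTranspose]
        congr 1
        funext i
        simp
      rw [conjTranspose_mul, hDD, hP']
      have e1 : D * Uᴴ * (U * diagonal (fun i => ((hPh.eigenvalues i : ℝ) : ℂ)) * Uᴴ) * (U * D) =
          D * (Uᴴ * U) * diagonal (fun i => ((hPh.eigenvalues i : ℝ) : ℂ)) * (Uᴴ * U) * D := by
        simp only [Matrix.mul_assoc]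
      rw [e1, hUU, Matrix.mul_one, Matrix.mul_one]
      simp only [D, diagonal_mul_diagonal]
      rw [← diagonal_one]
      congr 1
      funext i
      have h0 := Real.sqrt_pos.2 (hlam i)
      have h1 := Real.mul_self_sqrt (hlam i).le
      have h2 : (Real.sqrt (hPh.eigenvalues i))⁻¹ * hPh.eigenvalues i * (Real.sqrt (hPh.eigenvalues i))⁻¹ = 1 := by
        field_simp
        nlinarith
      exact_mod_cast h2
  have hQ' : (Rᴴ * Q * R).IsHermitian := by
    simp only [IsHermitian, conjTranspose_mul, conjTranspose_conjTranspose, hQh.eq, Matrix.mul_assoc]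
  have hsp := hQ'.spectral_theorem
  set U : Matrix ι ι ℂ := (hQ'.eigenvectorUnitary : Matrix ι ι ℂ) with hU
  have hUU : Uᴴ * U = 1 := Unitary.coe_star_mul_self hQ'.eigenvectorUnitary
  have hUdet : IsUnit U.det := isUnit_det_of_left_inverse hUU
  obtain ⟨ev, hev⟩ : ∃ ev : ι → ℝ, ev = hQ'.eigenvalues := ⟨_, rfl⟩
  have hQ'' : Rᴴ * Q * R = U * diagonal (fun i => ((ev i : ℝ) : ℂ)) * Uᴴ := by
    rw [Unitary.conjStarAlgAut_apply] at hsp
    rw [hev]
    exact hsp
  refine ⟨R * U, ev, ?_, ?_⟩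
  · rw [det_mul]; exact hR.mul hUdet
  · rw [conjTranspose_mul]
    have e1 : Uᴴ * Rᴴ * M * (R * U) = Uᴴ * (Rᴴ * P * R + I • (Rᴴ * Q * R)) * U := by
      rw [hMPQ]
      simp only [Matrix.mul_add, Matrix.add_mul, Matrix.mul_smul, Matrix.smul_mul, Matrix.mul_assoc]
    rw [e1, hRP, hQ'']
    have e2 : Uᴴ * (1 + I • (U * diagonal (fun i => ((ev i : ℝ) : ℂ)) * Uᴴ)) * U =
        Uᴴ * U + I • ((Uᴴ * U) * diagonal (fun i => ((ev i : ℝ) : ℂ)) * (Uᴴ * U)) := by
      simp only [Matrix.mul_add, Matrix.add_mul, Matrix.mul_smul, Matrix.smul_mul, Matrix.mul_assoc,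
        Matrix.mul_one, Matrix.one_mul]
    rw [e2, hUU, Matrix.mul_one, Matrix.one_mul]
    ext i j
    by_cases hij : i = j
    · subst hij; simp [mul_comm]
    · simp [hij]

/-- one-dimensional Gaussian -/
theorem gauss_one {b : ℂ} (hb : 0 < b.re) :
    ∫ u : ℂ, cexp (-Real.pi * b * (‖u‖ ^ 2 : ℝ)) = b⁻¹ := by
  have hb' : 0 < ((Real.pi : ℂ) * b).re := by
    rw [Complex.re_ofReal_mul]; positivity
  have h := GaussianFourier.integral_cexp_neg_mul_sq_norm (V := ℂ) hb'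
  have hfin : (Module.finrank ℝ ℂ : ℂ) / 2 = 1 := by
    rw [Complex.finrank_real_complex]; norm_num
  rw [hfin, Complex.cpow_one] at h
  have e : (fun u : ℂ => cexp (-Real.pi * b * (‖u‖ ^ 2 : ℝ))) =
      fun u : ℂ => cexp (-(Real.pi * b) * ‖u‖ ^ 2) := by
    funext u; congr 1; push_cast; ring
  rw [e, h]
  have hpi : (Real.pi : ℂ) ≠ 0 := by exact_mod_cast Real.pi_ne_zero
  have hb0 : b ≠ 0 := by rintro rfl; simp at hb
  field_simp

/-- diagonal Gaussian on `ι → ℂ` -/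
theorem gauss_diag (d : ι → ℝ) :
    ∫ y : ι → ℂ, cexp (-Real.pi * (star y ⬝ᵥ (diagonal (fun i => 1 + (d i : ℂ) * I) *ᵥ y))) =
      ∏ i, (1 + (d i : ℂ) * I)⁻¹ := by
  have e : (fun y : ι → ℂ => cexp (-Real.pi * (star y ⬝ᵥ (diagonal (fun i => 1 + (d i : ℂ) * I) *ᵥ y)))) =
      fun y : ι → ℂ => ∏ i, cexp (-Real.pi * (1 + (d i : ℂ) * I) * (‖y i‖ ^ 2 : ℝ)) := by
    funext y
    rw [← Complex.exp_sum]
    congr 1
    simp only [dotProduct, mulVec_diagonal, Pi.star_apply, Finset.mul_sum]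
    refine Finset.sum_congr rfl fun i _ => ?_
    have : star (y i) * y i = ((‖y i‖ ^ 2 : ℝ) : ℂ) := by
      have h := Complex.conj_mul' (y i)
      push_cast
      exact h
    calc -(Real.pi : ℂ) * (star (y i) * ((1 + (d i : ℂ) * I) * y i))
        = -(Real.pi : ℂ) * (1 + (d i : ℂ) * I) * (star (y i) * y i) := by ring
      _ = _ := by rw [this]
  rw [e]
  have h := integral_fintype_prod_volume_eq_prod (𝕜 := ℂ) (ι := ι) (E := fun _ => ℂ)
    (fun i u => cexp (-Real.pi * (1 + (d i : ℂ) * I) * (‖u‖ ^ 2 : ℝ)))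
  rw [h]
  refine Finset.prod_congr rfl fun i _ => ?_
  exact gauss_one (by simp)

/-- change of variables by an invertible complex matrix: a positive constant -/
theorem integral_mulVec (S : Matrix ι ι ℂ) (hS : IsUnit S.det) :
    ∃ c : ℝ, 0 < c ∧ ∀ f : (ι → ℂ) → ℂ, ∫ x, f (S *ᵥ x) = (c : ℂ) * ∫ x, f x := by
  have hinj : Function.Injective (S.mulVecLin.restrictScalars ℝ) := by
    intro x y hxy
    have h1 : S *ᵥ x = S *ᵥ y := hxy
    exact Matrix.mulVec_injective_iff_isUnit.2 ((isUnit_iff_isUnit_det S).2 hS) h1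
  let T : (ι → ℂ) →ₗ[ℝ] (ι → ℂ) := S.mulVecLin.restrictScalars ℝ
  have hdet : LinearMap.det T ≠ 0 := by
    have hu : IsUnit T := by
      rw [Module.End.isUnit_iff]
      refine ⟨hinj, ?_⟩
      exact (LinearMap.injective_iff_surjective (f := T)).1 hinj
    exact (hu.map LinearMap.det).ne_zero
  refine ⟨|(LinearMap.det T)⁻¹|, abs_pos.2 (inv_ne_zero hdet), ?_⟩
  intro f
  have h := MeasureTheory.Measure.map_linearMap_addHaar_eq_smul_addHaar (μ := (volume : Measure (ι → ℂ))) hdet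
  let eT : (ι → ℂ) ≃ₗ[ℝ] (ι → ℂ) := LinearEquiv.ofBijective T
    ⟨hinj, (LinearMap.injective_iff_surjective (f := T)).1 hinj⟩
  have hemb : MeasurableEmbedding (T : (ι → ℂ) → (ι → ℂ)) :=
    (eT.toContinuousLinearEquiv.toHomeomorph.toMeasurableEquiv).measurableEmbedding
  have h2 : ∫ x, f x ∂(Measure.map T volume) = ∫ x, f (T x) := hemb.integral_map f
  rw [h] at h2
  rw [integral_smul_measure] at h2
  have h3 : ∫ x, f (T x) = ∫ x, f (S *ᵥ x) := rfl
  rw [← h3, ← h2]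
  rw [ENNReal.toReal_ofReal (abs_nonneg _)]
  rw [Complex.real_smul]

/-- **Gaussian integral**: phase of `∫ exp (-π x* M x)`. -/
theorem gauss_pos (M : Matrix ι ι ℂ) (hM : ∀ x : ι → ℂ, x ≠ 0 → 0 < (star x ⬝ᵥ (M *ᵥ x)).re) :
    ∃ c : ℝ, 0 < c ∧ (∫ x : ι → ℂ, cexp (-Real.pi * (star x ⬝ᵥ (M *ᵥ x)))) * M.det = c := by
  obtain ⟨S, d, hS, hSd⟩ := exists_diag M hM
  obtain ⟨c, hc, hint⟩ := integral_mulVec S hS
  have h1 := hint (fun x => cexp (-Real.pi * (star x ⬝ᵥ (M *ᵥ x))))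
  have h2 : (fun y : ι → ℂ => cexp (-Real.pi * (star (S *ᵥ y) ⬝ᵥ (M *ᵥ (S *ᵥ y))))) =
      fun y : ι → ℂ => cexp (-Real.pi * (star y ⬝ᵥ (diagonal (fun i => 1 + (d i : ℂ) * I) *ᵥ y))) := by
    funext y
    rw [← hSd, star_mulVec, ← dotProduct_mulVec, mulVec_mulVec, mulVec_mulVec, Matrix.mul_assoc]
  rw [h2, gauss_diag] at h1
  have hdet : star S.det * M.det * S.det = ∏ i, (1 + (d i : ℂ) * I) := by
    rw [← det_conjTranspose, ← det_mul, ← det_mul, hSd, det_diagonal]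
  have hne : ∀ i, (1 + (d i : ℂ) * I) ≠ 0 := by
    intro i h
    have := congrArg Complex.re h
    simp at this
  have hprod : (∏ i, (1 + (d i : ℂ) * I)) ≠ 0 := Finset.prod_ne_zero_iff.2 fun i _ => hne i
  have hSn : 0 < Complex.normSq S.det := Complex.normSq_pos.2 hS.ne_zero
  refine ⟨(c * Complex.normSq S.det)⁻¹, by positivity, ?_⟩
  have hcc : (c : ℂ) ≠ 0 := by exact_mod_cast hc.ne'
  have hnn : ((Complex.normSq S.det : ℝ) : ℂ) ≠ 0 := by exact_mod_cast hSn.ne'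
  have hint2 : (∫ x : ι → ℂ, cexp (-Real.pi * (star x ⬝ᵥ (M *ᵥ x)))) = (c : ℂ)⁻¹ * (∏ i, (1 + (d i : ℂ) * I))⁻¹ := by
    rw [← Finset.prod_inv_distrib, h1]
    field_simp
  have hns : star S.det * S.det = ((Complex.normSq S.det : ℝ) : ℂ) := by
    rw [Complex.normSq_eq_conj_mul_self]
    rfl
  have hMd : M.det * ((Complex.normSq S.det : ℝ) : ℂ) = ∏ i, (1 + (d i : ℂ) * I) := by
    rw [← hns, ← hdet]; ring
  rw [hint2, ← hMd]
  have hMdet : M.det ≠ 0 := by
    intro h0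
    rw [h0, zero_mul] at hMd
    exact hprod hMd.symm
  push_cast
  field_simp

end Crest.Agent.R272.EChi1_307
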