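import Crest.Agent.R272.Poi_307

/-!
# Row 272, division E, T3: unfolding lemma

`unfold`: if `∑ₘ q(m) Ψ(m + B y) = ∑ₖ c(k) e(k·y)` for all `y`, `q` periodic mod `β(ℤ^κ)`,
`B` the real extension of `β`, then `c 0 = (∑_{a ∈ ℤ^κ/β} q(a)) ∫ Ψ(B y) dy`.
-/

set_option autoImplicit false
set_option linter.unusedSectionVars false

noncomputable section

open MeasureTheory Complex Set Filter Topology Module
open Crest.Agent.R272.Poi307

namespace Crest.Agent.R272.EChi2_307

variable {κ : Type*} [Fintype κ]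

lemma integral_ch (k : κ → ℤ) : ∫ x in cubeM (0 : κ → ℤ), ch k x = if k = 0 then 1 else 0 := by
  classical
  have h1 := UnitAddTorus.integral_preimage (fun t : UnitAddTorus κ => UnitAddTorus.mFourier k t)
    (0 : κ → ℝ)
  have hcube : {x : κ → ℝ | ∀ i, x i ∈ Set.Ioc ((0 : κ → ℝ) i) ((0 : κ → ℝ) i + 1)} = cubeM 0 := by
    ext x; simp [cubeM]
  rw [hcube] at h1
  have h0 : ∫ x in cubeM (0 : κ → ℤ), ch k x =
      ∫ x in cubeM (0 : κ → ℤ), UnitAddTorus.mFourier k (fun i => (x i : UnitAddCircle)) := by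
    refine integral_congr_ae (Filter.Eventually.of_forall fun x => ?_)
    exact (mFourier_pj k x).symm
  have h2 := h0.trans h1.symm
  rw [h2]
  have h3 := (orthonormal_iff_ite.mp (UnitAddTorus.orthonormal_mFourier (d := κ))) 0 k
  rw [ContinuousMap.inner_toLp] at h3
  have h5 : (0 : κ → ℤ) = k ↔ k = 0 := eq_comm
  simp only [h5, UnitAddTorus.mFourier_zero, ContinuousMap.one_apply, map_one, mul_one] at h3
  exact h3

lemma vol_cube : volume (cubeM (0 : κ → ℤ)) ≠ ⊤ := by
  have : cubeM (0 : κ → ℤ) = Set.pi Set.univ (fun _ : κ => Set.Ioc (0:ℝ) (0 + 1)) := by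
    ext x; simp [cubeM]
  rw [this, Real.volume_pi_Ioc]
  simp

/-- constant term of an absolutely convergent Fourier series -/
lemma integral_series {c : (κ → ℤ) → ℂ} (hc : Summable fun k => ‖c k‖) :
    ∫ x in cubeM (0 : κ → ℤ), ∑' k, c k * ch k x = c 0 := by
  classical
  have hint : ∀ k, IntegrableOn (fun x => c k * ch k x) (cubeM (0 : κ → ℤ)) := by
    intro k
    refine Measure.integrableOn_of_bounded (M := ‖c k‖) vol_cube
      ((continuous_const.mul (continuous_ch k)).aestronglyMeasurable) ?_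
    refine Filter.Eventually.of_forall fun x => ?_
    rw [norm_mul, norm_ch, mul_one]
  rw [← integral_tsum_of_summable_integral_norm hint]
  · rw [tsum_eq_single 0]
    · rw [integral_const_mul, integral_ch, if_pos rfl, mul_one]
    · intro k hk
      rw [integral_const_mul, integral_ch, if_neg hk, mul_zero]
  · refine (hc.mul_left ((volume (cubeM (0 : κ → ℤ))).toReal)).congr fun k => ?_
    have : (fun x => ‖c k * ch k x‖) = fun _ : κ → ℝ => ‖c k‖ := by
      funext x; rw [norm_mul, norm_ch, mul_one]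
    rw [this, setIntegral_const, smul_eq_mul, Measure.real]

/-- integral of a periodization -/
lemma integral_per {C : ℝ} {n : ℕ} {g : (κ → ℝ) → ℂ} (hc : Continuous g) (hC : 0 ≤ C)
    (hn : Fintype.card κ < n) (hg : Dec C n g) :
    ∫ x in cubeM (0 : κ → ℤ), per g x = ∫ x, g x := by
  have h1 := coeff_perT hc hC hn hg 0
  rw [UnitAddTorus.mFourierCoeff_eq_integral _ _ (0 : κ → ℝ)] at h1
  have hcube : {x : κ → ℝ | ∀ i, x i ∈ Set.Ioc ((0 : κ → ℝ) i) ((0 : κ → ℝ) i + 1)} = cubeM 0 := by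
    ext x; simp [cubeM]
  rw [hcube] at h1
  have h2 : ∫ x in cubeM (0 : κ → ℤ), per g x =
      ∫ x in cubeM (0 : κ → ℤ), UnitAddTorus.mFourier (-(0 : κ → ℤ)) (fun i => (x i : UnitAddCircle)) •
      perT hc hC hn hg (fun i => (x i : UnitAddCircle)) := by
    refine integral_congr_ae (Filter.Eventually.of_forall fun x => ?_)
    have e1 : (fun i => (x i : UnitAddCircle)) = pj x := rfl
    simp only
    rw [e1, perT_pj, neg_zero, UnitAddTorus.mFourier_zero]
    simp
  rw [h2, h1, FTp]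
  refine integral_congr_ae (Filter.Eventually.of_forall fun x => ?_)
  simp [ch, dot]

variable (β : (κ → ℤ) →ₗ[ℤ] (κ → ℤ)) (B : (κ → ℝ) ≃ₗ[ℝ] (κ → ℝ))

/-- the quotient is finite -/
lemma finite_quot (hβ : Function.Injective β) : Finite ((κ → ℤ) ⧸ LinearMap.range β) := by
  classical
  refine Module.finite_of_fg_torsion _ ?_
  intro x
  obtain ⟨x, rfl⟩ := Submodule.Quotient.mk_surjective _ x
  let M : Matrix κ κ ℤ := LinearMap.toMatrix' β
  have hM : ∀ v, M.mulVec v = β v := fun v => by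
    show (LinearMap.toMatrix' β).mulVec v = β v
    rw [← Matrix.toLin'_apply, Matrix.toLin'_toMatrix']
  have hdet : M.det ≠ 0 := by
    intro h0
    obtain ⟨v, hv, hv0⟩ := Matrix.exists_mulVec_eq_zero_iff.2 h0
    rw [hM] at hv0
    exact hv (hβ (by rw [hv0, map_zero]))
  refine ⟨⟨M.det, mem_nonZeroDivisors_of_ne_zero hdet⟩, ?_⟩
  show M.det • Submodule.Quotient.mk (p := LinearMap.range β) x = 0
  rw [← Submodule.Quotient.mk_smul, Submodule.Quotient.mk_eq_zero]
  refine ⟨M.adjugate.mulVec x, ?_⟩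
  rw [← hM, Matrix.mulVec_mulVec, Matrix.mul_adjugate, Matrix.smul_mulVec, Matrix.one_mulVec]

/-- the bijection `A × ℤ^κ → ℤ^κ`, `(a,k) ↦ a.out + β k` -/
def eqA (hβ : Function.Injective β) :
    (((κ → ℤ) ⧸ LinearMap.range β) × (κ → ℤ)) ≃ (κ → ℤ) :=
  Equiv.ofBijective (fun p => p.1.out + β p.2) (by
    constructor
    · rintro ⟨a, k⟩ ⟨a', k'⟩ h
      simp only at h
      have h1 : a = a' := by
        have e1 : Submodule.Quotient.mk (p := LinearMap.range β) (a.out + β k) = a := by
          rw [Submodule.Quotient.mk_add]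
          rw [(Submodule.Quotient.mk_eq_zero (LinearMap.range β)).2 ⟨k, rfl⟩, add_zero]
          exact Quotient.out_eq a
        have e2 : Submodule.Quotient.mk (p := LinearMap.range β) (a'.out + β k') = a' := by
          rw [Submodule.Quotient.mk_add]
          rw [(Submodule.Quotient.mk_eq_zero (LinearMap.range β)).2 ⟨k', rfl⟩, add_zero]
          exact Quotient.out_eq a'
        rw [← e1, ← e2, h]
      subst h1
      have h2 : β k = β k' := add_left_cancel h
      rw [hβ h2]
    · intro m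
      have h1 : Submodule.Quotient.mk (p := LinearMap.range β)
          (Submodule.Quotient.mk (p := LinearMap.range β) m).out = Submodule.Quotient.mk m :=
        Quotient.out_eq _
      rw [Submodule.Quotient.eq] at h1
      obtain ⟨k, hk⟩ := h1
      refine ⟨(Submodule.Quotient.mk m, -k), ?_⟩
      simp only [map_neg, hk]
      abel)

lemma eqA_apply (hβ : Function.Injective β) (a : (κ → ℤ) ⧸ LinearMap.range β) (k : κ → ℤ) :
    eqA β hβ (a, k) = a.out + β k := rfl

lemma dec_shift {C : ℝ} {n : ℕ} {Ψ : (κ → ℝ) → ℂ} (hC : 0 ≤ C) (hΨ : Dec C n Ψ) (s : κ → ℝ) :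
    ∃ C', 0 ≤ C' ∧ Dec C' n (fun x => Ψ (s + B x)) := by
  let Bs : (κ → ℝ) →L[ℝ] (κ → ℝ) := (B.symm.toLinearMap).toContinuousLinearMap
  have hBs : ∀ x, Bs (B x) = x := fun x => B.symm_apply_apply x
  let K : ℝ := 1 + ‖Bs‖ * (1 + ‖s‖)
  have hK : 0 ≤ K := by positivity
  refine ⟨C * K ^ n, by positivity, fun x => ?_⟩
  refine (hΨ _).trans ?_
  rw [mul_assoc]
  refine mul_le_mul_of_nonneg_left ?_ hC
  rw [← mul_pow]
  refine pow_le_pow_left₀ (by positivity) ?_ n
  rw [← div_eq_mul_inv, le_div_iff₀ (by positivity), inv_mul_le_iff₀ (by positivity)]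
  have h1 : ‖x‖ ≤ ‖Bs‖ * (‖s + B x‖ + ‖s‖) := by
    calc ‖x‖ = ‖Bs (B x)‖ := by rw [hBs]
      _ ≤ ‖Bs‖ * ‖B x‖ := Bs.le_opNorm _
      _ ≤ _ := by
          refine mul_le_mul_of_nonneg_left ?_ (norm_nonneg _)
          calc ‖B x‖ = ‖(s + B x) - s‖ := by congr 1; abel
            _ ≤ _ := norm_sub_le _ _
  have h2 := norm_nonneg (s + B x)
  have h3 := norm_nonneg s
  have h4 := norm_nonneg Bs
  simp only [K]
  nlinarith [mul_nonneg h4 h2, mul_nonneg h4 h3, mul_nonneg (mul_nonneg h4 h2) h3]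

lemma ic_eq_map_add (m k : κ → ℤ) : ic (m + k) = ic m + ic k := ic_add m k

/-- **unfolding** -/
theorem unfold (hβ : Function.Injective β) (hB : ∀ m, B (ic m) = ic (β m))
    {q : (κ → ℤ) → ℂ} (hq : ∀ m k, q (m + β k) = q m)
    {Ψ : (κ → ℝ) → ℂ} {C : ℝ} {n : ℕ} (hc : Continuous Ψ) (hC : 0 ≤ C)
    (hn : Fintype.card κ < n) (hΨ : Dec C n Ψ)
    {c : (κ → ℤ) → ℂ} (hcs : Summable fun k => ‖c k‖)
    (H : ∀ y, HasSum (fun m => q m * Ψ (ic m + B y)) (∑' k, c k * ch k y))
    [Fintype ((κ → ℤ) ⧸ LinearMap.range β)] :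
    c 0 = (∑ a : (κ → ℤ) ⧸ LinearMap.range β, q a.out) * ∫ y, Ψ (B y) := by
  classical
  have hBc : Continuous B := B.toLinearMap.continuous_of_finiteDimensional
  let g : ((κ → ℤ) ⧸ LinearMap.range β) → (κ → ℝ) → ℂ := fun a x => Ψ (ic a.out + B x)
  have hgc : ∀ a, Continuous (g a) := fun a => hc.comp (continuous_const.add hBc)
  have key : ∀ y, (∑' k, c k * ch k y) = ∑ a : (κ → ℤ) ⧸ LinearMap.range β, q a.out * per (g a) y := by
    intro y
    have h1 := (eqA β hβ).hasSum_iff.2 (H y)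
    rw [← h1.tsum_eq, h1.summable.tsum_prod, tsum_fintype]
    refine Finset.sum_congr rfl fun a _ => ?_
    rw [per, ← tsum_mul_left]
    refine tsum_congr fun k => ?_
    simp only [Function.comp, eqA_apply, hq, g]
    rw [ic_add, map_add, hB]
    congr 2
    abel
  rw [← integral_series hcs]
  have h2 : ∫ x in cubeM (0 : κ → ℤ), ∑' k, c k * ch k x =
      ∫ x in cubeM (0 : κ → ℤ), ∑ a : (κ → ℤ) ⧸ LinearMap.range β, q a.out * per (g a) x := by
    refine integral_congr_ae (Filter.Eventually.of_forall fun x => ?_)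
    exact key x
  rw [h2]
  choose C' hC' hdec using fun a : (κ → ℤ) ⧸ LinearMap.range β => dec_shift B hC hΨ (ic a.out)
  have hper : ∀ a, Continuous (per (g a)) := fun a => continuous_per (hgc a) (hC' a) hn (hdec a)
  rw [integral_finset_sum]
  · rw [Finset.sum_mul]
    refine Finset.sum_congr rfl fun a _ => ?_
    rw [integral_const_mul, integral_per (hgc a) (hC' a) hn (hdec a)]
    congr 1
    have h3 : ∀ x, g a x = (fun y => Ψ (B y)) (x + B.symm (ic a.out)) := by
      intro x
      simp only [g, map_add, LinearEquiv.apply_symm_apply]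
      rw [add_comm]
    simp_rw [h3]
    exact integral_add_right_eq_self (μ := volume) (fun y => Ψ (B y)) (B.symm (ic a.out))
  · intro a _
    have hcont : Continuous fun x => q a.out * per (g a) x := continuous_const.mul (hper a)
    have hsub : cubeM (0 : κ → ℤ) ⊆ Set.Icc (0 : κ → ℝ) (fun _ => 1) := by
      intro x hx
      refine ⟨fun i => ?_, fun i => ?_⟩
      · have := (hx i).1; simpa using this.le
      · have := (hx i).2; simpa using this
    exact (hcont.continuousOn.integrableOn_compact isCompact_Icc).mono_set hsub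

end Crest.Agent.R272.EChi2_307
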