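import Crest.Agent.R272.EChi1_307
import Crest.Agent.R272.EBase_641

/-!
# Row 272, division E, T3: the Gaussian integral attached to a unitary `g`

* `det_Mp` : determinant of the matrix of the quadratic exponent
* `psi`, `hV`, `gauss_phase`
-/

set_option autoImplicit false

noncomputable section

open MeasureTheory Complex Matrix
open scoped ComplexConjugate

namespace Crest.Agent.R272.EChi3_307

open Crest.Agent.R272.EBase_641 Crest.Agent.R272.EChi1_307

section mat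

variable {ι : Type*} [Fintype ι] [DecidableEq ι] (o : ι)

/-- the diagonal Hermitian form of signature (N-1,1) -/
def Hm : Matrix ι ι ℂ := diagonal (fun i => if i = o then -1 else 1)

theorem Hm_mul_self : Hm o * Hm o = (1 : Matrix ι ι ℂ) := by
  unfold Hm
  rw [diagonal_mul_diagonal, ← diagonal_one]
  congr 1
  funext i
  split_ifs <;> norm_num

theorem det_Hm_real : conj ((-Hm o : Matrix ι ι ℂ).det) = (-Hm o).det ∧ (-Hm o : Matrix ι ι ℂ).det ≠ 0 := by
  have h : (-Hm o : Matrix ι ι ℂ) = diagonal (fun i => if i = o then 1 else -1) := by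
    unfold Hm
    rw [diagonal_neg]
    congr 1
    funext i
    by_cases hi : i = o <;> simp [hi]
  rw [h, det_diagonal]
  constructor
  · rw [map_prod]
    refine Finset.prod_congr rfl fun i _ => ?_
    split_ifs <;> simp
  · rw [Finset.prod_ne_zero_iff]
    intro i _
    split_ifs <;> norm_num

/-- the matrix of the exponent -/
def Mp (G : Matrix ι ι ℂ) (p : ι → ℂ) : Matrix ι ι ℂ :=
  -(Hm o * (G - 1)) + (G - 1)ᴴ * vecMulVec p (Pi.single o 1) * (G - 1)

theorem det_Mp (G : Matrix ι ι ℂ) (hG : Gᴴ * Hm o * G = Hm o) (hoo : G o o ≠ 0) (p : ι → ℂ)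
    (hp : p o = 1) (hp' : ∀ i, i ≠ o → p i = -(G i o) / G o o) :
    (Mp o G p).det * G o o = (-Hm o).det * (G - 1).det := by
  classical
  let B := G - 1
  let u : ι → ℂ := Bᴴ *ᵥ p
  have h1 : Mp o G p = -Hm o * (1 + replicateCol Unit (-Hm o *ᵥ u) * replicateRow Unit (Pi.single o (1 : ℂ))) * B := by
    have e1 : (G - 1)ᴴ * vecMulVec p (Pi.single o 1) = vecMulVec u (Pi.single o 1) := by
      rw [mul_vecMulVec]
    have e2 : replicateCol Unit (-Hm o *ᵥ u) * replicateRow Unit (Pi.single o (1 : ℂ)) =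
        (-Hm o) * vecMulVec u (Pi.single o 1) := by
      rw [mul_vecMulVec, vecMulVec_eq Unit]
    rw [Mp, e1, e2]
    simp only [B]
    rw [Matrix.mul_add, Matrix.mul_one, ← Matrix.mul_assoc, neg_mul_neg, Hm_mul_self, Matrix.one_mul,
      Matrix.add_mul, Matrix.neg_mul]
  rw [h1, det_mul, det_mul, det_one_add_replicateCol_mul_replicateRow]
  have h2 : (Pi.single o 1 : ι → ℂ) ⬝ᵥ (-Hm o *ᵥ u) = u o := by
    rw [single_one_dotProduct]
    have : (-Hm o : Matrix ι ι ℂ) = diagonal (fun i => if i = o then 1 else -1) := by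
      unfold Hm
      rw [diagonal_neg]
      congr 1
      funext i
      by_cases hi : i = o <;> simp [hi]
    rw [this, mulVec_diagonal]
    simp
  rw [h2]
  have h3 : (1 + u o) * G o o = 1 := by
    have e1 : u o = ∑ j, conj (B j o) * p j := by
      simp only [u, mulVec, dotProduct, conjTranspose_apply]
      rfl
    have e2 : (Gᴴ * Hm o * G) o o = -1 := by rw [hG]; simp [Hm]
    have e3 : (Gᴴ * Hm o * G) o o = ∑ j, conj (G j o) * (if j = o then -1 else 1) * G j o := by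
      rw [mul_apply]
      refine Finset.sum_congr rfl fun j _ => ?_
      rw [Hm, mul_diagonal, conjTranspose_apply]
      rfl
    rw [e3] at e2
    rw [← Finset.add_sum_erase _ _ (Finset.mem_univ o)] at e2
    rw [e1, ← Finset.add_sum_erase _ _ (Finset.mem_univ o)]
    have e4 : ∑ j ∈ Finset.univ.erase o, conj (B j o) * p j =
        -(∑ j ∈ Finset.univ.erase o, conj (G j o) * (if j = o then -1 else 1) * G j o) / G o o := by
      rw [← Finset.sum_neg_distrib, Finset.sum_div]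
      refine Finset.sum_congr rfl fun j hj => ?_
      have hjo : j ≠ o := (Finset.mem_erase.1 hj).1
      rw [hp' j hjo, if_neg hjo]
      simp only [B, Matrix.sub_apply, Matrix.one_apply, if_neg hjo, sub_zero]
      ring
    rw [e4, hp]
    have e5 : ∑ j ∈ Finset.univ.erase o, conj (G j o) * (if j = o then -1 else 1) * G j o =
        -1 + conj (G o o) * G o o := by
      simp only [if_true] at e2
      linear_combination e2
    rw [e5]
    simp only [B, Matrix.sub_apply, Matrix.one_apply, if_true, map_sub, map_one, mul_one]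
    field_simp
    ring
  simp only [B]
  linear_combination (-Hm o).det * (G - 1).det * h3

end mat

section vsp

variable {n m : ℕ}

/-- index type of coordinates: time, space, definite part -/
abbrev Ix (n m : ℕ) := Unit ⊕ (Fin n ⊕ Fin m)

/-- the time index -/
abbrev oo (n m : ℕ) : Ix n m := Sum.inl ()

/-- coordinates -/
def Φ : (Ix n m → ℂ) ≃ₗ[ℂ] (V1 n × W m) where
  toFun x := ((WithLp.toLp 2 (fun k => x (Sum.inr (Sum.inl k))), x (Sum.inl ())),
    WithLp.toLp 2 (fun k => x (Sum.inr (Sum.inr k))))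
  invFun v := Sum.elim (fun _ => v.1.2) (Sum.elim (fun k => v.1.1 k) (fun k => v.2 k))
  map_add' x y := rfl
  map_smul' c x := rfl
  left_inv x := by
    ext i
    rcases i with i | i | i <;> rfl
  right_inv v := rfl

/-- the full Hermitian form -/
def hV (x y : V1 n × W m) : ℂ := hh x.1 y.1 + inner ℂ y.2 x.2

theorem ee_eq (x y : V1 n × W m) : ee x y = (hV x y).im := by
  simp [ee, hV]

theorem hV_conj (x y : V1 n × W m) : conj (hV x y) = hV y x := by
  simp only [hV, map_add, hh_conj, inner_conj_symm]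

theorem hV_add_left (x x' y : V1 n × W m) : hV (x + x') y = hV x y + hV x' y := by
  simp only [hV, Prod.fst_add, Prod.snd_add, hh_add_left, inner_add_right]; ring

theorem hV_smul_left (c : ℂ) (x y : V1 n × W m) : hV (c • x) y = c * hV x y := by
  simp only [hV, Prod.smul_fst, Prod.smul_snd, hh_smul_left, inner_smul_right]; ring

theorem hV_sub_left (x x' y : V1 n × W m) : hV (x - x') y = hV x y - hV x' y := by
  have h : x - x' = x + (-1 : ℂ) • x' := by simp [sub_eq_add_neg]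
  rw [h, hV_add_left, hV_smul_left]; ring

theorem hV_sub_right (x y y' : V1 n × W m) : hV x (y - y') = hV x y - hV x y' := by
  rw [← hV_conj, hV_sub_left, map_sub, hV_conj, hV_conj]

theorem hV_self (v : V1 n × W m) :
    hV v v = ((‖v.1.1‖ ^ 2 - ‖v.1.2‖ ^ 2 + ‖v.2‖ ^ 2 : ℝ) : ℂ) := by
  rw [hV, hh_self, inner_self_eq_norm_sq_to_K]
  push_cast
  simp

theorem Φ_time (x : Ix n m → ℂ) : (Φ x).1.2 = x (Sum.inl ()) := rfl
theorem Φ_space (x : Ix n m → ℂ) (k : Fin n) : (Φ x).1.1 k = x (Sum.inr (Sum.inl k)) := rfl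
theorem Φ_def (x : Ix n m → ℂ) (k : Fin m) : (Φ x).2 k = x (Sum.inr (Sum.inr k)) := rfl

theorem hV_Φ (x y : Ix n m → ℂ) : hV (Φ x) (Φ y) = star y ⬝ᵥ (Hm (oo n m) *ᵥ x) := by
  simp only [hV, hh, PiLp.inner_apply, Φ_time, Φ_space, Φ_def, Hm]
  simp only [dotProduct, mulVec_diagonal, Fintype.sum_sum_type, Pi.star_apply]
  simp only [RCLike.inner_apply, Finset.univ_unique, Finset.sum_singleton, if_true,
    reduceCtorEq, if_false, one_mul]
  have h : ∀ z w : ℂ, z * conj w = star w * z := fun z w => mul_comm _ _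
  simp only [h]
  ring

/-- pairing of coherent vectors `<π(v) vac_z, vac_w>` -/
def psi (v : V1 n × W m) (z w : E n) : ℂ :=
  (1 - inner ℂ w z)⁻¹ * cexp (-(Real.pi / 2) * ((‖v.1.1‖ ^ 2 - ‖v.1.2‖ ^ 2 + ‖v.2‖ ^ 2 : ℝ) : ℂ)
    - Real.pi * lin v.1 z * conj (lin v.1 w) / (1 - inner ℂ w z))

theorem psi_zero (v : V1 n × W m) (z : E n) :
    psi v z 0 = cexp (-(Real.pi / 2) * hV v v
      + Real.pi * v.1.2 * (inner ℂ v.1.1 z - conj v.1.2)) := by
  rw [psi, hV_self]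
  simp only [lin, inner_zero_left, inner_zero_right, sub_zero, inv_one, one_mul, zero_sub, map_neg,
    Complex.conj_conj, div_one]
  congr 1
  ring

/-- the linear map `(g1, g2)` -/
def gV (g₁ : V1 n →ₗ[ℂ] V1 n) (g₂ : W m →ₗ[ℂ] W m) : (V1 n × W m) →ₗ[ℂ] (V1 n × W m) :=
  g₁.prodMap g₂

/-- matrix of a linear map in the coordinates `Φ` -/
def mat (T : (V1 n × W m) →ₗ[ℂ] (V1 n × W m)) : Matrix (Ix n m) (Ix n m) ℂ :=
  LinearMap.toMatrix' ((Φ (n := n) (m := m)).symm.toLinearMap ∘ₗ T ∘ₗ (Φ (n := n) (m := m)).toLinearMap)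

theorem mat_mulVec (T : (V1 n × W m) →ₗ[ℂ] (V1 n × W m)) (x : Ix n m → ℂ) :
    mat T *ᵥ x = Φ.symm (T (Φ x)) := by
  rw [mat, ← toLin'_apply, toLin'_toMatrix']
  rfl

theorem mat_det (T : (V1 n × W m) →ₗ[ℂ] (V1 n × W m)) : (mat T).det = LinearMap.det T := by
  rw [mat, LinearMap.det_toMatrix']
  exact LinearMap.det_conj T (Φ (n := n) (m := m)).symm

theorem mat_sub_one (T : (V1 n × W m) →ₗ[ℂ] (V1 n × W m)) : mat T - 1 = mat (T - 1) := by
  refine Matrix.ext_of_mulVec_single fun i => ?_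
  rw [Matrix.sub_mulVec, mat_mulVec, mat_mulVec, Matrix.one_mulVec]
  simp

theorem dot_star (x y : Ix n m → ℂ) (T : (V1 n × W m) →ₗ[ℂ] (V1 n × W m)) (A : Matrix (Ix n m) (Ix n m) ℂ) :
    star y ⬝ᵥ (((mat T)ᴴ * A) *ᵥ x) = star (Φ.symm (T (Φ y))) ⬝ᵥ (A *ᵥ x) := by
  rw [← mulVec_mulVec, dotProduct_mulVec, ← star_mulVec, mat_mulVec]

theorem mat_unitary (T : (V1 n × W m) →ₗ[ℂ] (V1 n × W m)) (hT : ∀ x y, hV (T x) (T y) = hV x y) :
    (mat T)ᴴ * Hm (oo n m) * mat T = Hm (oo n m) := by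
  refine Matrix.ext_of_mulVec_single fun i => ?_
  refine dotProduct_eq _ _ fun w => ?_
  have h1 : ((mat T)ᴴ * Hm (oo n m) * mat T) *ᵥ Pi.single i 1 ⬝ᵥ w =
      hV (T (Φ (Pi.single i 1))) (T (Φ (star w))) := by
    rw [dotProduct_comm]
    have : w = star (star w) := (star_star w).symm
    rw [this, Matrix.mul_assoc, dot_star, ← mulVec_mulVec, mat_mulVec, ← hV_Φ]
    simp
  have h2 : Hm (oo n m) *ᵥ Pi.single i 1 ⬝ᵥ w = hV (Φ (Pi.single i 1)) (Φ (star w)) := by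
    rw [dotProduct_comm, hV_Φ, star_star]
  rw [h1, h2, hT]

/-- the vector `p = e_o - z'` -/
def pv (z : E n) : Ix n m → ℂ := Sum.elim (fun _ => 1) (Sum.elim (fun k => -z k) (fun _ => 0))

theorem mat_hV (T : (V1 n × W m) →ₗ[ℂ] (V1 n × W m)) (x : Ix n m → ℂ) :
    star x ⬝ᵥ ((Hm (oo n m) * (mat T - 1)) *ᵥ x) = hV (T (Φ x) - Φ x) (Φ x) := by
  rw [mat_sub_one, ← mulVec_mulVec, mat_mulVec, ← hV_Φ]
  simp

theorem star_dot_pv (x : Ix n m → ℂ) (z : E n) :
    star x ⬝ᵥ pv z = conj (Φ x).1.2 - inner ℂ (Φ x).1.1 z := by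
  simp only [dotProduct, Fintype.sum_sum_type, Pi.star_apply, pv, Sum.elim_inl, Sum.elim_inr,
    PiLp.inner_apply, Φ_space, Φ_time, RCLike.inner_apply, Finset.univ_unique, Finset.sum_singleton]
  simp [Finset.sum_neg_distrib, mul_comm, sub_eq_add_neg]

theorem mat_vec (T : (V1 n × W m) →ₗ[ℂ] (V1 n × W m)) (z : E n) (x : Ix n m → ℂ) :
    star x ⬝ᵥ (((mat T - 1)ᴴ * vecMulVec (pv z) (Pi.single (oo n m) 1) * (mat T - 1)) *ᵥ x) =
      (conj (T (Φ x) - Φ x).1.2 - inner ℂ (T (Φ x) - Φ x).1.1 z) * (T (Φ x) - Φ x).1.2 := by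
  rw [mat_sub_one, Matrix.mul_assoc, dot_star, ← mulVec_mulVec, mat_mulVec]
  set y : Ix n m → ℂ := Φ.symm ((T - 1) (Φ x)) with hy
  have hy2 : Φ y = T (Φ x) - Φ x := by rw [hy]; simp
  have h1 : vecMulVec (pv (m := m) z) (Pi.single (oo n m) (1:ℂ)) *ᵥ y = (y (oo n m)) • pv (m := m) z := by
    rw [vecMulVec_mulVec]
    try simp
  rw [h1, dotProduct_smul, star_dot_pv, hy2, smul_eq_mul, mul_comm]
  congr 1

/-- the exponent is the quadratic form of `Mp` -/
theorem exponent (T : (V1 n × W m) →ₗ[ℂ] (V1 n × W m)) (hT : ∀ x y, hV (T x) (T y) = hV x y)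
    (z : E n) (x : Ix n m → ℂ) :
    cexp (-(Real.pi * I * ee (Φ x) (T (Φ x)))) * psi (T (Φ x) - Φ x) z 0 =
      cexp (-Real.pi * (star x ⬝ᵥ (Mp (oo n m) (mat T) (pv z) *ᵥ x))) := by
  rw [psi_zero, ← Complex.exp_add]
  congr 1
  rw [Mp, Matrix.add_mulVec, dotProduct_add, Matrix.neg_mulVec, dotProduct_neg, mat_hV, mat_vec]
  set y := Φ x with hy
  have h1 : (2 * I) * ((ee y (T y) : ℝ) : ℂ) = hV y (T y) - hV (T y) y := by
    rw [ee_eq, ← hV_conj y (T y), Complex.sub_conj]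
    push_cast
    ring
  have h2 : hV (T y - y) (T y - y) = 2 * hV y y - hV (T y) y - hV y (T y) := by
    rw [hV_sub_left, hV_sub_right, hV_sub_right, hT]
    ring
  rw [h2, hV_sub_left]
  linear_combination (-(Real.pi : ℂ) / 2) * h1

theorem quad_eq (T : (V1 n × W m) →ₗ[ℂ] (V1 n × W m)) (z : E n) (x : Ix n m → ℂ) :
    star x ⬝ᵥ (Mp (oo n m) (mat T) (pv z) *ᵥ x) =
      -hV (T (Φ x) - Φ x) (Φ x) +
      (conj (T (Φ x) - Φ x).1.2 - inner ℂ (T (Φ x) - Φ x).1.1 z) * (T (Φ x) - Φ x).1.2 := by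
  rw [Mp, Matrix.add_mulVec, dotProduct_add, Matrix.neg_mulVec, dotProduct_neg, mat_hV, mat_vec]

theorem quad_pos (T : (V1 n × W m) →ₗ[ℂ] (V1 n × W m)) (hT : ∀ x y, hV (T x) (T y) = hV x y)
    (hinj : ∀ v, T v = v → v = 0) {z : E n} (hz : ‖z‖ < 1) (x : Ix n m → ℂ) (hx : x ≠ 0) :
    0 < (star x ⬝ᵥ (Mp (oo n m) (mat T) (pv z) *ᵥ x)).re := by
  rw [quad_eq]
  set y := Φ x with hy
  have hy0 : y ≠ 0 := by
    intro h
    exact hx ((LinearEquiv.map_eq_zero_iff Φ).1 h)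
  set w := T y - y with hw
  have hw0 : w ≠ 0 := by
    intro h
    exact hy0 (hinj y (sub_eq_zero.1 h))
  have h2 : hV w w = 2 * hV y y - hV (T y) y - hV y (T y) := by
    rw [hw, hV_sub_left, hV_sub_right, hV_sub_right, hT]
    ring
  have h3 : (hV w w).re = 2 * (hV y y).re - 2 * (hV (T y) y).re := by
    have h4 : (hV y (T y)).re = (hV (T y) y).re := by
      rw [← hV_conj y (T y), Complex.conj_re]
    rw [h2]
    simp only [Complex.sub_re, Complex.mul_re, Complex.re_ofNat, Complex.im_ofNat, zero_mul, sub_zero, h4]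
    ring
  have h5 : (-hV w y).re = (hV w w).re / 2 := by
    rw [hw, hV_sub_left, ← hw, h3]
    simp only [Complex.neg_re, Complex.sub_re]
    ring
  have h6 : (hV w w).re = ‖w.1.1‖ ^ 2 - ‖w.1.2‖ ^ 2 + ‖w.2‖ ^ 2 := by
    rw [hV_self, Complex.ofReal_re]
  have h7 : ((conj w.1.2 - inner ℂ w.1.1 z) * w.1.2).re =
      ‖w.1.2‖ ^ 2 - (inner ℂ w.1.1 z * w.1.2).re := by
    rw [sub_mul, Complex.sub_re]
    congr 1
    rw [mul_comm, Complex.mul_conj, Complex.ofReal_re, Complex.normSq_eq_norm_sq]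
  have h8 : (inner ℂ w.1.1 z * w.1.2).re ≤ ‖w.1.1‖ * ‖z‖ * ‖w.1.2‖ := by
    refine (Complex.re_le_norm _).trans ?_
    rw [norm_mul]
    exact mul_le_mul_of_nonneg_right (norm_inner_le_norm _ _) (norm_nonneg _)
  rw [Complex.add_re, h5, h6, h7]
  have h9 : 0 < ‖w.1.1‖ ^ 2 + ‖w.1.2‖ ^ 2 + ‖w.2‖ ^ 2 := by
    by_contra hcon
    have a1 := sq_nonneg ‖w.1.1‖
    have a2 := sq_nonneg ‖w.1.2‖
    have a3 := sq_nonneg ‖w.2‖
    have b1 : ‖w.1.1‖ ^ 2 = 0 := by linarith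
    have b2 : ‖w.1.2‖ ^ 2 = 0 := by linarith
    have b3 : ‖w.2‖ ^ 2 = 0 := by linarith
    apply hw0
    ext1
    · ext1
      · exact norm_eq_zero.1 (pow_eq_zero_iff (two_ne_zero)|>.1 b1)
      · exact norm_eq_zero.1 (pow_eq_zero_iff (two_ne_zero)|>.1 b2)
    · exact norm_eq_zero.1 (pow_eq_zero_iff (two_ne_zero)|>.1 b3)
  have n1 := norm_nonneg w.1.1
  have n2 := norm_nonneg w.1.2
  have n3 := norm_nonneg w.2
  have nz := norm_nonneg z
  by_cases h10 : ‖w.1.1‖ * ‖w.1.2‖ = 0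
  · have : ‖w.1.1‖ * ‖z‖ * ‖w.1.2‖ = 0 := by
      calc ‖w.1.1‖ * ‖z‖ * ‖w.1.2‖ = (‖w.1.1‖ * ‖w.1.2‖) * ‖z‖ := by ring
        _ = 0 := by rw [h10, zero_mul]
    nlinarith
  · have h11 : 0 < ‖w.1.1‖ * ‖w.1.2‖ := lt_of_le_of_ne (by positivity) (Ne.symm h10)
    have h12 : ‖w.1.1‖ * ‖z‖ * ‖w.1.2‖ < ‖w.1.1‖ * ‖w.1.2‖ := by
      calc ‖w.1.1‖ * ‖z‖ * ‖w.1.2‖ = (‖w.1.1‖ * ‖w.1.2‖) * ‖z‖ := by ring
        _ < (‖w.1.1‖ * ‖w.1.2‖) * 1 := mul_lt_mul_of_pos_left hz h11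
        _ = _ := by ring
    nlinarith [sq_nonneg (‖w.1.1‖ - ‖w.1.2‖), sq_nonneg ‖w.2‖]

/-- **Phase of the Gaussian integral.** -/
theorem gauss_phase (T : (V1 n × W m) →ₗ[ℂ] (V1 n × W m)) (hT : ∀ x y, hV (T x) (T y) = hV x y)
    (hinj : ∀ v, T v = v → v = 0) {z : E n} (hz : ‖z‖ < 1) {j : ℂ} (hj : j ≠ 0)
    (hTz : T ((0, 1), 0) = j • ((z, 1), 0)) :
    ∃ c : ℝ, 0 < c ∧ (∫ x : Ix n m → ℂ,
        cexp (-(Real.pi * I * ee (Φ x) (T (Φ x)))) * psi (T (Φ x) - Φ x) z 0) *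
      ((-Hm (oo n m)).det * LinearMap.det (T - 1)) = c * j := by
  obtain ⟨c, hc, h1⟩ := gauss_pos (Mp (oo n m) (mat T) (pv z)) (quad_pos T hT hinj hz)
  have hG : mat T (oo n m) (oo n m) = j ∧ ∀ i, i ≠ oo n m → pv (m := m) z i = -(mat T i (oo n m)) / mat T (oo n m) (oo n m) := by
    have e1 : ∀ i, mat T i (oo n m) = (Φ.symm (T ((0, 1), 0)) : Ix n m → ℂ) i := by
      intro i
      have h2 := congrFun (mat_mulVec T (Pi.single (oo n m) 1)) i
      rw [mulVec_single_one] at h2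
      have h3 : Φ (Pi.single (oo n m) (1:ℂ)) = (((0, 1), 0) : V1 n × W m) := by
        ext k
        · simp [Φ_space]
        · simp [Φ_time]
        · simp [Φ_def]
      rw [h3] at h2
      exact h2
    have e2 : (Φ.symm (T ((0, 1), 0)) : Ix n m → ℂ) = j • Sum.elim (fun _ => 1) (Sum.elim (fun k => z k) (fun _ => 0)) := by
      rw [hTz, map_smul]
      congr 1
    have e3 : mat T (oo n m) (oo n m) = j := by
      rw [e1, e2]; simp
    refine ⟨e3, fun i hi => ?_⟩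
    rw [e3, e1, e2]
    rcases i with i | i | i
    · exact absurd rfl hi
    · simp only [pv, Sum.elim_inr, Sum.elim_inl, Pi.smul_apply, smul_eq_mul]
      field_simp
    · simp [pv]
  have h2 := det_Mp (oo n m) (mat T) (mat_unitary T hT) (by rw [hG.1]; exact hj) (pv z) rfl hG.2
  refine ⟨c, hc, ?_⟩
  simp_rw [exponent T hT z]
  rw [mat_sub_one, mat_det, hG.1] at h2
  rw [← h2, ← h1]
  ring

end vsp

end Crest.Agent.R272.EChi3_307
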