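import Crest.Agent.R272.Gauss8_981

/-!
# Row 272, division E, T3: Gauss sums of quadratic characters on `M ⧸ N`
-/

set_option autoImplicit false

noncomputable section

open Complex
open scoped ComplexConjugate

namespace Crest.Agent.R272.EChi4_307

open Crest.Agent.R272.Gauss8_981

section grp

variable {M C : Type*} [AddCommGroup M] [CommGroup C] {q : M → C} {bb : M → M → C}

theorem bb_zsmul (hadd : ∀ m m' k, bb (m + m') k = bb m k * bb m' k) (n : ℤ) (m k : M) :
    bb (n • m) k = bb m k ^ n := by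
  let f : M →+ Additive C := AddMonoidHom.mk' (fun m => Additive.ofMul (bb m k)) (fun a b => by
    rw [hadd]; rfl)
  have := map_zsmul f n m
  exact this

theorem q_zero (hadd : ∀ m m' k, bb (m + m') k = bb m k * bb m' k)
    (hq : ∀ m m', q (m + m') = q m * q m' * bb m m') : q 0 = 1 := by
  have h0 : bb 0 0 = 1 := by
    have := bb_zsmul hadd 0 (0 : M) 0
    simpa using this
  have h1 := hq 0 0
  rw [h0, add_zero, mul_one] at h1
  exact (mul_eq_left.1 h1.symm)

theorem q_zsmul (hadd : ∀ m m' k, bb (m + m') k = bb m k * bb m' k)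
    (hq : ∀ m m', q (m + m') = q m * q m' * bb m m') (hq2 : ∀ m, q m ^ (2 : ℤ) = bb m m)
    (n : ℤ) (m : M) : q (n • m) = q m ^ (n * n) := by
  have step : ∀ k : ℤ, q ((k + 1) • m) = q (k • m) * q m ^ (2 * k + 1) := by
    intro k
    rw [add_smul, one_smul, hq, bb_zsmul hadd, ← hq2, ← zpow_mul, mul_assoc, zpow_add, zpow_one,
      mul_comm (q m)]
  induction n using Int.induction_on with
  | zero => simp [q_zero hadd hq]
  | succ i ih =>
    rw [step, ih, ← zpow_add]
    congr 1
    ring
  | pred i ih =>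
    have h := step (-(i : ℤ) - 1)
    rw [sub_add_cancel, ih] at h
    have h2 : q ((-(i : ℤ) - 1) • m) = q m ^ (-(i : ℤ) * -(i : ℤ)) * (q m ^ (2 * (-(i : ℤ) - 1) + 1))⁻¹ := by
      rw [h, mul_inv_cancel_right]
    rw [h2, ← zpow_neg, ← zpow_add]
    congr 1
    ring

end grp

section desc

variable {M : Type*} [AddCommGroup M] (N : Submodule ℤ M) {q : M → Circle} {bb : M → M → Circle}

theorem q_out (hper : ∀ m, ∀ n ∈ N, q (m + n) = q m) (m : M) :
    q (Quotient.out (Submodule.Quotient.mk m : M ⧸ N)) = q m := by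
  have h : (Submodule.Quotient.mk (Quotient.out (Submodule.Quotient.mk m : M ⧸ N)) : M ⧸ N) =
      Submodule.Quotient.mk m := Quotient.out_eq _
  rw [Submodule.Quotient.eq] at h
  have := hper m _ h
  rw [← this]
  congr 1
  abel

/-- the quadratic map on the quotient -/
def Qd (hadd : ∀ m m' k, bb (m + m') k = bb m k * bb m' k)
    (hq : ∀ m m', q (m + m') = q m * q m' * bb m m') (hq2 : ∀ m, q m ^ (2 : ℤ) = bb m m)
    (hper : ∀ m, ∀ n ∈ N, q (m + n) = q m) : QuadraticMap ℤ (M ⧸ N) (Additive Circle) :=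
  have hpol : ∀ m m', QuadraticMap.polar (fun a : M ⧸ N => Additive.ofMul (q a.out))
      (Submodule.Quotient.mk m) (Submodule.Quotient.mk m') = Additive.ofMul (bb m m') := by
    intro m m'
    unfold QuadraticMap.polar
    simp only
    rw [← Submodule.Quotient.mk_add, q_out N hper, q_out N hper, q_out N hper, hq, ofMul_mul, ofMul_mul]
    abel
  have hadd' : ∀ x x' y : M ⧸ N, QuadraticMap.polar (fun a : M ⧸ N => Additive.ofMul (q a.out)) (x + x') y =
      QuadraticMap.polar (fun a : M ⧸ N => Additive.ofMul (q a.out)) x y +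
      QuadraticMap.polar (fun a : M ⧸ N => Additive.ofMul (q a.out)) x' y := by
    intro x x' y
    obtain ⟨x, rfl⟩ := Submodule.Quotient.mk_surjective _ x
    obtain ⟨x', rfl⟩ := Submodule.Quotient.mk_surjective _ x'
    obtain ⟨y, rfl⟩ := Submodule.Quotient.mk_surjective _ y
    rw [← Submodule.Quotient.mk_add, hpol, hpol, hpol, hadd, ofMul_mul]
  QuadraticMap.ofPolar (fun a => Additive.ofMul (q a.out))
    (by
      intro n a
      obtain ⟨m, rfl⟩ := Submodule.Quotient.mk_surjective _ a
      rw [← Submodule.Quotient.mk_smul, q_out N hper, q_out N hper, q_zsmul hadd hq hq2]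
      rfl)
    hadd'
    (by
      intro n x y
      let f : (M ⧸ N) →+ Additive Circle := AddMonoidHom.mk'
        (fun x => QuadraticMap.polar (fun a : M ⧸ N => Additive.ofMul (q a.out)) x y)
        (fun a b => hadd' a b y)
      exact map_zsmul f n x)

/-- the additive character -/
def ψ : AddChar (Additive Circle) ℂ where
  toFun z := ((Additive.toMul z : Circle) : ℂ)
  map_zero_eq_one' := by simp
  map_add_eq_mul' a b := by simp

theorem ψ_conj (v : Additive Circle) : conj (ψ v) = ψ (-v) := by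
  show conj ((Additive.toMul v : Circle) : ℂ) = ((Additive.toMul (-v) : Circle) : ℂ)
  rw [toMul_neg, Circle.coe_inv_eq_conj]

end desc

/-- **Fourth power of a Gauss sum is real.** -/
theorem gauss_four {M : Type*} [AddCommGroup M] (N : Submodule ℤ M) [Fintype (M ⧸ N)]
    {q : M → ℂ} {bb : M → M → ℂ} (hn : ∀ m, ‖q m‖ = 1)
    (hadd : ∀ m m' k, bb (m + m') k = bb m k * bb m' k)
    (hq : ∀ m m', q (m + m') = q m * q m' * bb m m') (hq2 : ∀ m, q m ^ 2 = bb m m)
    (hper : ∀ m, ∀ n ∈ N, q (m + n) = q m) :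
    conj ((∑ a : M ⧸ N, q a.out) ^ 4) = (∑ a : M ⧸ N, q a.out) ^ 4 := by
  have hnb : ∀ m m', ‖bb m m'‖ = 1 := by
    intro m m'
    have := congrArg norm (hq m m')
    rw [norm_mul, norm_mul, hn, hn, hn, one_mul, one_mul] at this
    exact this.symm
  let q' : M → Circle := fun m => ⟨q m, by simp [Submonoid.unitSphere, hn]⟩
  let bb' : M → M → Circle := fun m m' => ⟨bb m m', by simp [Submonoid.unitSphere, hnb]⟩
  have e1 : ∀ m m' k, bb' (m + m') k = bb' m k * bb' m' k := by
    intro m m' k
    ext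
    exact hadd m m' k
  have e2 : ∀ m m', q' (m + m') = q' m * q' m' * bb' m m' := by
    intro m m'
    ext
    exact hq m m'
  have e3 : ∀ m, q' m ^ (2 : ℤ) = bb' m m := by
    intro m
    ext
    have := hq2 m
    rw [zpow_ofNat]
    exact this
  have e4 : ∀ m, ∀ n ∈ N, q' (m + n) = q' m := by
    intro m n hn'
    ext
    exact hper m n hn'
  have h := G_pow_four_conj (Qd N e1 e2 e3 e4) ψ ψ_conj
  have h2 : G (Qd N e1 e2 e3 e4) ψ = ∑ a : M ⧸ N, q a.out := by
    unfold G
    rfl
  rw [h2] at h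
  exact h

end Crest.Agent.R272.EChi4_307
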