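import Crest.Agent.R272.EBase2_641

/-!
# Row 272, division E (helper445): interface of the theta leaf T2 (rank one + series).

`psi v z w  = ⟨π(v)vac_z, vac_w⟩`, `psiF v z w X = ⟨π(v)F_z(X), vac_w⟩`,
`psiFF v z w X Y = ⟨π(v)F_z(X), F_w(Y)⟩ = (1/π) wt v Kp v z w X Y`,
`π(v)π(w) = e^{πi ee(v,w)} π(v+w)`.
`TData L` is the output of T2 for an `ee`-self-dual lattice `L`.
-/

set_option autoImplicit false

open scoped ComplexConjugate Topology Real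

namespace Crest.Agent.R272.EThDefs_445

open Crest.Agent.R272.EBase_641 Crest.Agent.R272.EBase2_641

noncomputable section

variable {n m : ℕ}

/-- `⟨π(v)vac_z, vac_w⟩` -/
def psi (v : V1 n × W m) (z w : E n) : ℂ :=
  (ss z w)⁻¹ * ((wt v : ℝ) : ℂ) * Complex.exp (-Real.pi * Rp v.1 z w)

/-- `⟨π(v)F_z(X), vac_w⟩` -/
def psiF (v : V1 n × W m) (z w X : E n) : ℂ :=
  (inner ℂ v.1.1 X + lin v.1 z * inner ℂ w X / ss z w) * psi v z w

/-- `⟨π(v)F_z(X), F_w(Y)⟩` -/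
def psiFF (v : V1 n × W m) (z w X Y : E n) : ℂ :=
  (Real.pi : ℂ)⁻¹ * ((wt v : ℝ) : ℂ) * Kp v.1 z w X Y

/-- the phase `e^{πi x}` of a real number -/
def ph (x : ℝ) : ℂ := Complex.exp (Real.pi * Complex.I * (x : ℂ))

/-- **Output of T2** for a lattice `L`. -/
structure TData (L : AddSubgroup (V1 n × W m)) where
  /-- the quadratic character -/
  ε : V1 n × W m → ℂ
  ε_pm : ∀ l ∈ L, ε l = 1 ∨ ε l = -1
  ε_add : ∀ l ∈ L, ∀ l' ∈ L, ε (l + l') = ε l * ε l' * ph (ee l l')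
  /-- `t a z = θ(π(a)vac_z)` -/
  t : V1 n × W m → E n → ℂ
  /-- `A a` is the primitive, zero at `0`, of `η_a(z) = θ(π(a)F_z)` -/
  A : V1 n × W m → E n → ℂ
  t_hol : ∀ a, DifferentiableOn ℂ (t a) (Ball n)
  A_hol : ∀ a, DifferentiableOn ℂ (A a) (Ball n)
  A_zero : ∀ a, A a 0 = 0
  t_ne : ∃ a, t a 0 ≠ 0
  t_add : ∀ l ∈ L, ∀ a, ∀ z ∈ Ball n, t (l + a) z = ε l * ph (-ee l a) * t a z
  A_add : ∀ l ∈ L, ∀ a, ∀ z ∈ Ball n, A (l + a) z = ε l * ph (-ee l a) * A a z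
  vv : ∀ a b, ∀ z ∈ Ball n, ∀ w ∈ Ball n,
    HasSum (fun l : L => ε l * ph (ee (l : V1 n × W m) (a + b)) * psi ((l : V1 n × W m) + a - b) z w)
      (ph (ee b a) * (t a z * conj (t b w)))
  Fv : ∀ a b, ∀ z ∈ Ball n, ∀ w ∈ Ball n, ∀ X : E n,
    HasSum (fun l : L => ε l * ph (ee (l : V1 n × W m) (a + b)) * psiF ((l : V1 n × W m) + a - b) z w X)
      (ph (ee b a) * (fderiv ℂ (A a) z X * conj (t b w)))
  FF : ∀ a b, ∀ z ∈ Ball n, ∀ w ∈ Ball n, ∀ X Y : E n,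
    HasSum (fun l : L => ε l * ph (ee (l : V1 n × W m) (a + b)) * psiFF ((l : V1 n × W m) + a - b) z w X Y)
      (ph (ee b a) * (fderiv ℂ (A a) z X * conj (fderiv ℂ (A b) w Y)))

/-- the statement of leaf T2 (to be proved in `ETh*_445`) -/
def T2 : Prop :=
  ∀ (n m : ℕ) (L : AddSubgroup (V1 n × W m)),
    (∀ r : ℝ, {v : V1 n × W m | v ∈ L ∧ ‖v‖ ≤ r}.Finite) →
    Submodule.span ℝ (L : Set (V1 n × W m)) = ⊤ →
    (∀ v ∈ L, ∀ w ∈ L, ∃ k : ℤ, ee v w = k) →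
    (∀ v, (∀ w ∈ L, ∃ k : ℤ, ee v w = k) → v ∈ L) →
    Nonempty (TData L)

end

end Crest.Agent.R272.EThDefs_445
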