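import Crest.Agent.R272.EChi3_307
import Crest.Agent.R272.EThDefs_445

/-!
# Row 272, division E, T3: the law of `t` under an automorphism of `(L, ε)`
-/

set_option autoImplicit false

noncomputable section

open Complex
open scoped ComplexConjugate

namespace Crest.Agent.R272.EChi5_307

open Crest.Agent.R272.EBase_641 Crest.Agent.R272.EBase2_641 Crest.Agent.R272.EThDefs_445
  Crest.Agent.R272.EChi3_307

variable {n m : ℕ}

/-- the group of pairs -/
abbrev GG (n m : ℕ) := UG n × (W m ≃ₗᵢ[ℂ] W m)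

/-- the action on vectors -/
def gA (g : GG n m) : (V1 n × W m) ≃ₗ[ℂ] (V1 n × W m) :=
  LinearEquiv.prodCongr g.1.1 g.2.toLinearEquiv

@[simp] theorem gA_apply (g : GG n m) (v : V1 n × W m) : gA g v = (g.1.1 v.1, g.2 v.2) := rfl

theorem gA_mul (g h : GG n m) (v : V1 n × W m) : gA (g * h) v = gA g (gA h v) := rfl

theorem gA_one (v : V1 n × W m) : gA (1 : GG n m) v = v := rfl

theorem ee_gA (g : GG n m) (v w : V1 n × W m) : ee (gA g v) (gA g w) = ee v w := by
  simp only [ee, gA_apply, UG_hh, LinearIsometryEquiv.inner_map_map]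

theorem hV_gA (g : GG n m) (v w : V1 n × W m) : hV (gA g v) (gA g w) = hV v w := by
  simp only [hV, gA_apply, UG_hh, LinearIsometryEquiv.inner_map_map]

theorem wt_gA (g : GG n m) (v : V1 n × W m) : wt (gA g v) = wt v := by
  have h := hV_gA g v v
  rw [hV_self, hV_self] at h
  have h2 := Complex.ofReal_injective h
  simp only [wt]
  rw [h2]

theorem ss_eq (z w : E n) : ss z w = -hh (z, 1) (w, 1) := by
  simp [ss, hh]

theorem ss_act (g : UG n) {z w : E n} (hz : z ∈ Ball n) (hw : w ∈ Ball n) :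
    ss z w = jj g z * conj (jj g w) * ss (act g z) (act g w) := by
  rw [ss_eq, ss_eq, ← UG_hh g (z, 1) (w, 1), apply_eq g hz, apply_eq g hw, hh_smul_left,
    hh_smul_right]
  ring

theorem ss_ne {z w : E n} (hz : z ∈ Ball n) (hw : w ∈ Ball n) : ss z w ≠ 0 := by
  intro h
  have h1 : (inner ℂ w z : ℂ) = 1 := by
    unfold ss at h
    exact (sub_eq_zero.1 h).symm
  have h2 := norm_inner_le_norm (𝕜 := ℂ) w z
  rw [h1, norm_one] at h2
  have h3 := mem_Ball.1 hz
  have h4 := mem_Ball.1 hw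
  have h5 := norm_nonneg z
  have h6 := norm_nonneg w
  nlinarith

theorem Rp_gA (g : GG n m) (v : V1 n × W m) {z w : E n} (hz : z ∈ Ball n) (hw : w ∈ Ball n) :
    Rp (gA g v).1 (act g.1 z) (act g.1 w) = Rp v.1 z w := by
  have hjz := jj_ne_zero g.1 hz
  have hjw : conj (jj g.1 w) ≠ 0 := by
    rw [Ne, map_eq_zero]
    exact jj_ne_zero g.1 hw
  have hs := ss_ne (act_mem g.1 hz) (act_mem g.1 hw)
  unfold Rp
  have h1 : (gA g v).1 = g.1.1 v.1 := rfl
  rw [h1, lin_act _ _ hz, lin_act _ _ hw, map_div₀, ss_act g.1 hz hw]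
  field_simp

theorem psi_gA (g : GG n m) (v : V1 n × W m) {z w : E n} (hz : z ∈ Ball n) (hw : w ∈ Ball n) :
    EThDefs_445.psi (gA g v) (act g.1 z) (act g.1 w) =
      jj g.1 z * conj (jj g.1 w) * EThDefs_445.psi v z w := by
  have hjz := jj_ne_zero g.1 hz
  have hjw : conj (jj g.1 w) ≠ 0 := by
    rw [Ne, map_eq_zero]
    exact jj_ne_zero g.1 hw
  have hs := ss_ne (act_mem g.1 hz) (act_mem g.1 hw)
  unfold EThDefs_445.psi
  rw [Rp_gA g v hz hw, wt_gA, ss_act g.1 hz hw]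
  field_simp

theorem ph_ne (x : ℝ) : ph x ≠ 0 := Complex.exp_ne_zero _

theorem norm_ph (x : ℝ) : ‖ph x‖ = 1 := by
  unfold ph
  have : (Real.pi : ℂ) * I * x = ((Real.pi * x : ℝ) : ℂ) * I := by push_cast; ring
  rw [this, Complex.norm_exp_ofReal_mul_I]

theorem ph_add (x y : ℝ) : ph (x + y) = ph x * ph y := by
  unfold ph
  rw [← Complex.exp_add]
  congr 1
  push_cast
  ring

theorem ph_zero : ph 0 = 1 := by simp [ph]

theorem ph_two_int (k : ℤ) : ph (2 * k) = 1 := by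
  unfold ph
  have : (Real.pi : ℂ) * I * ((2 * k : ℝ) : ℂ) = k * (2 * Real.pi * I) := by push_cast; ring
  rw [this, Complex.exp_int_mul_two_pi_mul_I]

theorem ph_neg (x : ℝ) : ph (-x) = (ph x)⁻¹ := by
  have h : ph (-x) * ph x = 1 := by rw [← ph_add, neg_add_cancel, ph_zero]
  exact eq_inv_of_mul_eq_one_left h

theorem ee_self (v : V1 n × W m) : ee v v = 0 := by
  rw [ee_eq, hV_self, Complex.ofReal_im]

theorem ee_swap (v w : V1 n × W m) : ee v w = -ee w v := by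
  rw [ee_eq, ee_eq, ← hV_conj, Complex.conj_im]

theorem ee_add_left (u v w : V1 n × W m) : ee (u + v) w = ee u w + ee v w := by
  simp only [ee_eq, hV_add_left, Complex.add_im]

theorem ee_add_right (u v w : V1 n × W m) : ee u (v + w) = ee u v + ee u w := by
  rw [ee_swap, ee_add_left, ee_swap v u, ee_swap w u]
  ring

theorem ee_smul_left (r : ℝ) (v w : V1 n × W m) : ee (r • v) w = r * ee v w := by
  have h : r • v = (r : ℂ) • v := rfl
  rw [ee_eq, ee_eq, h, hV_smul_left]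
  simp

theorem ee_smul_right (r : ℝ) (v w : V1 n × W m) : ee v (r • w) = r * ee v w := by
  rw [ee_swap, ee_smul_left, ee_swap w v]
  ring

theorem ee_neg_left (v w : V1 n × W m) : ee (-v) w = -ee v w := by
  have := ee_smul_left (-1) v w
  simpa using this

theorem ee_neg_right (v w : V1 n × W m) : ee v (-w) = -ee v w := by
  have := ee_smul_right (-1) v w
  simpa using this

theorem ee_sub_left (u v w : V1 n × W m) : ee (u - v) w = ee u w - ee v w := by
  rw [sub_eq_add_neg, ee_add_left, ee_neg_left]; ring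

theorem ee_sub_right (u v w : V1 n × W m) : ee u (v - w) = ee u v - ee u w := by
  rw [sub_eq_add_neg, ee_add_right, ee_neg_right]; ring

theorem ee_zero_left (v : V1 n × W m) : ee 0 v = 0 := by
  have := ee_smul_left 0 v v
  simpa using this

theorem ee_zero_right (v : V1 n × W m) : ee v 0 = 0 := by
  rw [ee_swap, ee_zero_left, neg_zero]

section law

variable {L : AddSubgroup (V1 n × W m)} (T : TData L)

include T in
theorem eps_sq (l : V1 n × W m) (hl : l ∈ L) : T.ε l * T.ε l = 1 := by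
  rcases T.ε_pm l hl with h | h <;> rw [h] <;> norm_num

theorem eps_ne (l : V1 n × W m) (hl : l ∈ L) : T.ε l ≠ 0 := by
  intro h
  have := eps_sq T l hl
  rw [h] at this
  norm_num at this

theorem eps_zero : T.ε 0 = 1 := by
  have h := T.ε_add 0 L.zero_mem 0 L.zero_mem
  rw [add_zero, ee_zero_left, ph_zero, mul_one] at h
  exact (mul_eq_left₀ (eps_ne T 0 L.zero_mem)).1 h.symm

theorem eps_neg (l : V1 n × W m) (hl : l ∈ L) : T.ε (-l) = T.ε l := by
  have h := T.ε_add l hl (-l) (L.neg_mem hl)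
  rw [add_neg_cancel, eps_zero, ee_neg_right, ee_self, neg_zero, ph_zero, mul_one] at h
  have h2 := eps_sq T l hl
  have h3 := eps_ne T l hl
  exact mul_left_cancel₀ h3 (h.symm.trans h2.symm)

/-- automorphisms of `(L, ε)` -/
def Sg : Subgroup (GG n m) where
  carrier := {g | (∀ v, gA g v ∈ L ↔ v ∈ L) ∧ ∀ v ∈ L, T.ε (gA g v) = T.ε v}
  mul_mem' := by
    intro a b ha hb
    refine ⟨fun v => ?_, fun v hv => ?_⟩
    · rw [gA_mul, ha.1, hb.1]
    · rw [gA_mul, ha.2 _ ((hb.1 v).2 hv), hb.2 v hv]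
  one_mem' := ⟨fun v => Iff.rfl, fun v _ => rfl⟩
  inv_mem' := by
    intro a ha
    have key : ∀ v, gA a (gA a⁻¹ v) = v := by
      intro v
      rw [← gA_mul, mul_inv_cancel, gA_one]
    refine ⟨fun v => ?_, fun v hv => ?_⟩
    · rw [← ha.1 (gA a⁻¹ v), key]
    · have h1 : gA a⁻¹ v ∈ L := by rw [← ha.1 (gA a⁻¹ v), key]; exact hv
      rw [← ha.2 _ h1, key]

/-- the equivalence of `L` induced by `g` -/
def eL (g : Sg T) : L ≃ L where
  toFun l := ⟨gA g.1 l.1, (g.2.1 l.1).2 l.2⟩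
  invFun l := ⟨gA g.1⁻¹ l.1, ((g⁻¹).2.1 l.1).2 l.2⟩
  left_inv l := by
    ext1
    show gA g.1⁻¹ (gA g.1 l.1) = l.1
    rw [← gA_mul, inv_mul_cancel, gA_one]
  right_inv l := by
    ext1
    show gA g.1 (gA g.1⁻¹ l.1) = l.1
    rw [← gA_mul, mul_inv_cancel, gA_one]

theorem prod_law (g : Sg T) (a b : V1 n × W m) {z w : E n} (hz : z ∈ Ball n) (hw : w ∈ Ball n) :
    T.t (gA g.1 a) (act g.1.1 z) * conj (T.t (gA g.1 b) (act g.1.1 w)) =
      jj g.1.1 z * conj (jj g.1.1 w) * (T.t a z * conj (T.t b w)) := by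
  have h1 := T.vv (gA g.1 a) (gA g.1 b) _ (act_mem g.1.1 hz) _ (act_mem g.1.1 hw)
  have h2 := (T.vv a b z hz w hw).mul_left (jj g.1.1 z * conj (jj g.1.1 w))
  rw [← (eL T g).hasSum_iff] at h1
  have h3 : (fun l : L => T.ε l * ph (ee (l : V1 n × W m) (gA g.1 a + gA g.1 b)) *
      EThDefs_445.psi ((l : V1 n × W m) + gA g.1 a - gA g.1 b) (act g.1.1 z) (act g.1.1 w)) ∘ (eL T g) =
      fun l : L => jj g.1.1 z * conj (jj g.1.1 w) *
        (T.ε l * ph (ee (l : V1 n × W m) (a + b)) * EThDefs_445.psi ((l : V1 n × W m) + a - b) z w) := by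
    funext l
    have e1 : ((eL T g l : L) : V1 n × W m) = gA g.1 l.1 := rfl
    simp only [Function.comp_apply, e1]
    rw [← map_add, ← map_add, ← map_sub, ee_gA, psi_gA _ _ hz hw, g.2.2 _ l.2]
    ring
  rw [h3] at h1
  have h4 := h1.unique h2
  rw [ee_gA] at h4
  have h5 := ph_ne (ee b a)
  apply mul_left_cancel₀ h5
  rw [h4]
  ring

/-- the law of `t` -/
def Law (g : GG n m) (χ : ℂ) : Prop :=
  ∀ a, ∀ z ∈ Ball n, T.t (gA g a) (act g.1 z) = χ * jj g.1 z * T.t a z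

theorem zero_mem_Ball : (0 : E n) ∈ Ball n := by rw [mem_Ball]; simp

theorem exists_law (g : Sg T) : ∃ χ : ℂ, ‖χ‖ = 1 ∧ Law T g.1 χ := by
  obtain ⟨a0, ha0⟩ := T.t_ne
  set j0 := jj g.1.1 (0 : E n) with hj0
  have hj0' : j0 ≠ 0 := jj_ne_zero g.1.1 zero_mem_Ball
  have h1 := prod_law T g a0 a0 zero_mem_Ball zero_mem_Ball
  set t0 := T.t (gA g.1 a0) (act g.1.1 0) with ht0
  have hc : ∀ x : ℂ, x * conj x = ((‖x‖ ^ 2 : ℝ) : ℂ) := by
    intro x
    rw [Complex.mul_conj, Complex.normSq_eq_norm_sq]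
  have hn : ‖t0‖ = ‖j0‖ * ‖T.t a0 0‖ := by
    have h2 : ((‖t0‖ ^ 2 : ℝ) : ℂ) = ((‖j0‖ ^ 2 * ‖T.t a0 0‖ ^ 2 : ℝ) : ℂ) := by
      rw [Complex.ofReal_mul, ← hc, ← hc, ← hc]
      exact h1
    have h3 := Complex.ofReal_injective h2
    rw [← mul_pow] at h3
    exact (pow_left_inj₀ (norm_nonneg _) (by positivity) two_ne_zero).1 h3
  refine ⟨t0 / (j0 * T.t a0 0), ?_, ?_⟩
  · rw [norm_div, norm_mul, hn, div_self]
    exact mul_ne_zero (norm_ne_zero_iff.2 hj0') (norm_ne_zero_iff.2 ha0)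
  · intro a z hz
    have h2 := prod_law T g a a0 hz zero_mem_Ball
    rw [← hj0, ← ht0] at h2
    have ht0' : t0 ≠ 0 := by
      rw [← norm_ne_zero_iff, hn]
      exact mul_ne_zero (norm_ne_zero_iff.2 hj0') (norm_ne_zero_iff.2 ha0)
    have ht0c : conj t0 ≠ 0 := by rwa [Ne, map_eq_zero]
    apply mul_right_cancel₀ ht0c
    rw [h2]
    have h3 : t0 * conj t0 = j0 * conj j0 * (T.t a0 0 * conj (T.t a0 0)) := h1
    field_simp
    linear_combination (-(jj g.1.1 z * T.t a z)) * h3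

theorem law_unique {g : GG n m} {χ χ' : ℂ} (h : Law T g χ) (h' : Law T g χ') : χ = χ' := by
  obtain ⟨a0, ha0⟩ := T.t_ne
  have h1 := (h a0 0 zero_mem_Ball).symm.trans (h' a0 0 zero_mem_Ball)
  have hj0' := jj_ne_zero g.1 (zero_mem_Ball (n := n))
  have h2 : (jj g.1 (0 : E n) * T.t a0 0) ≠ 0 := mul_ne_zero hj0' ha0
  apply mul_right_cancel₀ h2
  linear_combination h1

theorem law_mul {g h : GG n m} {χ χ' : ℂ} (hg : Law T g χ) (hh : Law T h χ') :
    Law T (g * h) (χ * χ') := by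
  intro a z hz
  have e1 : act (g * h).1 z = act g.1 (act h.1 z) := act_mul g.1 h.1 hz
  have e2 : jj (g * h).1 z = jj g.1 (act h.1 z) * jj h.1 z := jj_mul g.1 h.1 hz
  rw [gA_mul, e1, hg _ _ (act_mem h.1 hz), hh _ _ hz, e2]
  ring

theorem law_one : Law T (1 : GG n m) 1 := by
  intro a z hz
  have e1 : act (1 : GG n m).1 z = z := act_one z
  have e2 : jj (1 : GG n m).1 z = 1 := jj_one z
  rw [gA_one, e1, e2]
  ring

/-- the character -/
def χ (g : Sg T) : ℂ := (exists_law T g).choose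

theorem norm_χ (g : Sg T) : ‖χ T g‖ = 1 := (exists_law T g).choose_spec.1

theorem law_χ (g : Sg T) : Law T g.1 (χ T g) := (exists_law T g).choose_spec.2

theorem χ_eq (g : Sg T) {x : ℂ} (h : Law T g.1 x) : χ T g = x := law_unique T (law_χ T g) h

theorem χ_mul (g h : Sg T) : χ T (g * h) = χ T g * χ T h :=
  χ_eq T _ (law_mul T (law_χ T g) (law_χ T h))

theorem χ_one : χ T 1 = 1 := χ_eq T _ (law_one T)

/-- `-1` -/
def mn (n m : ℕ) : GG n m :=
  (⟨LinearEquiv.neg ℂ, by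
    intro v w
    simp only [LinearEquiv.neg_apply]
    have h1 : -v = (-1 : ℂ) • v := by simp
    have h2 : -w = (-1 : ℂ) • w := by simp
    rw [h1, h2, hh_smul_left, hh_smul_right]
    simp⟩, LinearIsometryEquiv.neg ℂ)

theorem gA_mn (v : V1 n × W m) : gA (mn n m) v = -v := by
  ext1
  · show (LinearEquiv.neg ℂ : V1 n ≃ₗ[ℂ] V1 n) v.1 = -v.1
    simp
  · rfl

theorem mn_mem : mn n m ∈ Sg T := by
  refine ⟨fun v => ?_, fun v hv => ?_⟩
  · rw [gA_mn]; exact neg_mem_iff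
  · rw [gA_mn, eps_neg T v hv]

theorem mn_sq : mn n m * mn n m = 1 := by
  ext1
  · ext1
    refine LinearEquiv.ext fun v => ?_
    show (LinearEquiv.neg ℂ : V1 n ≃ₗ[ℂ] V1 n) ((LinearEquiv.neg ℂ : V1 n ≃ₗ[ℂ] V1 n) v) = v
    simp
  · refine LinearIsometryEquiv.ext fun v => ?_
    show (LinearIsometryEquiv.neg ℂ : W m ≃ₗᵢ[ℂ] W m) ((LinearIsometryEquiv.neg ℂ : W m ≃ₗᵢ[ℂ] W m) v) = v
    simp

theorem χ_mn_sq : χ T ⟨mn n m, mn_mem T⟩ ^ 2 = 1 := by
  rw [pow_two, ← χ_mul]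
  have h : (⟨mn n m, mn_mem T⟩ * ⟨mn n m, mn_mem T⟩ : Sg T) = 1 := by
    ext1
    exact mn_sq
  rw [h, χ_one]

end law

end Crest.Agent.R272.EChi5_307
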