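import Crest.Agent.R272.EChi2_307
import Crest.Agent.R272.EChi5_307

/-!
# Row 272, division E, T3: coordinates of a lattice, duality
-/

set_option autoImplicit false

noncomputable section

open Complex MeasureTheory
open scoped ComplexConjugate

namespace Crest.Agent.R272.EChi6_307

open Crest.Agent.R272.Poi307

theorem exists_crd {E : Type} [NormedAddCommGroup E] [NormedSpace ℝ E] [FiniteDimensional ℝ E]
    (L : AddSubgroup E) (disc : ∀ r : ℝ, {v : E | v ∈ L ∧ ‖v‖ ≤ r}.Finite)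
    (span : Submodule.span ℝ (L : Set E) = ⊤) :
    ∃ (κ : Type) (_ : Fintype κ) (Λ : (κ → ℝ) ≃ₗ[ℝ] E),
      (∀ m, Λ (ic m) ∈ L) ∧ ∀ v ∈ L, ∃ m, Λ (ic m) = v := by
  classical
  have : ProperSpace E := FiniteDimensional.proper ℝ E
  let L' : Submodule ℤ E := L.toIntSubmodule
  have hL' : ∀ v, v ∈ L' ↔ v ∈ L := fun v => Iff.rfl
  have : DiscreteTopology L' := by
    have h1 : Filter.Tendsto ((↑) : L' → E) Filter.cofinite (Filter.cocompact E) := by
      rw [tendsto_cofinite_cocompact_iff]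
      intro K hK
      obtain ⟨r, hr⟩ := hK.isBounded.exists_norm_le
      have h2 : (((↑) : L' → E) ⁻¹' K) ⊆ ((↑) : L' → E) ⁻¹' {v : E | v ∈ L ∧ ‖v‖ ≤ r} := by
        intro x hx
        exact ⟨x.2, hr _ hx⟩
      exact (Set.Finite.preimage (Subtype.coe_injective.injOn) (disc r)).subset h2
    exact Continuous.discrete_of_tendsto_cofinite_cocompact continuous_subtype_val h1
  have hz : IsZLattice ℝ L' := ⟨span⟩
  have : Module.Finite ℤ L' := ZLattice.module_finite ℝ L'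
  have : Module.Free ℤ L' := ZLattice.module_free ℝ L'
  let b := Module.Free.chooseBasis ℤ L'
  let b' := b.ofZLatticeBasis ℝ L'
  refine ⟨_, inferInstance, b'.equivFun.symm, ?_, ?_⟩
  · intro m
    rw [Module.Basis.equivFun_symm_apply]
    refine L.sum_mem fun i _ => ?_
    have : b' i = b i := b.ofZLatticeBasis_apply ℝ L' i
    rw [this, ic_apply, Int.cast_smul_eq_zsmul]
    exact L.zsmul_mem (b i).2 _
  · intro v hv
    refine ⟨fun i => b.repr ⟨v, hv⟩ i, ?_⟩
    rw [LinearEquiv.symm_apply_eq]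
    ext i
    rw [Module.Basis.equivFun_apply]
    exact (b.ofZLatticeBasis_repr_apply ℝ L' ⟨v, hv⟩ i).symm

/-- `exp(-δ r²)` decays faster than any power -/
theorem exp_dec (δ : ℝ) (hδ : 0 < δ) (n : ℕ) {r : ℝ} (hr : 0 ≤ r) :
    Real.exp (-δ * r ^ 2) ≤ (n.factorial * Real.exp (1 + 1 / (4 * δ))) * ((1 + r)⁻¹) ^ n := by
  have h1 := Real.pow_div_factorial_le_exp (1 + r) (by positivity) n
  have h2 : (0:ℝ) < n.factorial := by exact_mod_cast n.factorial_pos
  rw [div_le_iff₀ h2] at h1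
  rw [inv_pow, ← div_eq_mul_inv, le_div_iff₀ (by positivity)]
  calc Real.exp (-δ * r ^ 2) * (1 + r) ^ n ≤ Real.exp (-δ * r ^ 2) * (Real.exp (1 + r) * n.factorial) :=
        mul_le_mul_of_nonneg_left h1 (Real.exp_pos _).le
    _ = n.factorial * Real.exp (-δ * r ^ 2 + (1 + r)) := by
      rw [Real.exp_add (-δ * r ^ 2) (1 + r)]; ring
    _ ≤ _ := by
      refine mul_le_mul_of_nonneg_left (Real.exp_le_exp.2 ?_) h2.le
      have h3 : 0 ≤ (2 * δ * r - 1) ^ 2 / (4 * δ) := by positivity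
      have h4 : (2 * δ * r - 1) ^ 2 / (4 * δ) = δ * r ^ 2 - r + 1 / (4 * δ) := by
        field_simp
        ring
      linarith

section dual

open Crest.Agent.R272.EBase_641 Crest.Agent.R272.EBase2_641 Crest.Agent.R272.EThDefs_445
  Crest.Agent.R272.EChi3_307 Crest.Agent.R272.EChi5_307

variable {n m : ℕ}

theorem psi_eq (v : V1 n × W m) (z w : E n) : EThDefs_445.psi v z w = EChi3_307.psi v z w := by
  unfold EThDefs_445.psi EChi3_307.psi ss wt Rp ss
  rw [mul_assoc, Complex.ofReal_exp, ← Complex.exp_add]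
  congr 2
  push_cast
  ring

/-- `ee` is nondegenerate -/
theorem ee_nondeg (v : V1 n × W m) (h : ∀ w, ee v w = 0) : v = 0 := by
  have h1 : ee v (I • ((v.1.1, -v.1.2), v.2)) = -(‖v.1.1‖ ^ 2 + ‖v.1.2‖ ^ 2 + ‖v.2‖ ^ 2) := by
    rw [ee_eq, ← hV_conj, hV_smul_left, map_mul, hV_conj]
    have h2 : hV v ((v.1.1, -v.1.2), v.2) = ((‖v.1.1‖ ^ 2 + ‖v.1.2‖ ^ 2 + ‖v.2‖ ^ 2 : ℝ) : ℂ) := by
      simp only [hV, hh, inner_self_eq_norm_sq_to_K, map_neg, mul_neg, sub_neg_eq_add]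
      rw [Complex.mul_conj, Complex.normSq_eq_norm_sq]
      push_cast
      simp
    rw [h2, Complex.conj_I, neg_mul, Complex.neg_im, Complex.I_mul_im, Complex.ofReal_re]
  rw [h] at h1
  have a1 := sq_nonneg ‖v.1.1‖
  have a2 := sq_nonneg ‖v.1.2‖
  have a3 := sq_nonneg ‖v.2‖
  have b1 : ‖v.1.1‖ ^ 2 = 0 := by linarith
  have b2 : ‖v.1.2‖ ^ 2 = 0 := by linarith
  have b3 : ‖v.2‖ ^ 2 = 0 := by linarith
  ext1
  · ext1
    · exact norm_eq_zero.1 (pow_eq_zero_iff (two_ne_zero)|>.1 b1)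
    · exact norm_eq_zero.1 (pow_eq_zero_iff (two_ne_zero)|>.1 b2)
  · exact norm_eq_zero.1 (pow_eq_zero_iff (two_ne_zero)|>.1 b3)

variable {κ : Type} [Fintype κ] (Λ : (κ → ℝ) ≃ₗ[ℝ] (V1 n × W m))

/-- `ee v (Λ y) = ∑ y_i ee v (Λ e_i)` -/
theorem ee_Λ [DecidableEq κ] (v : V1 n × W m) (y : κ → ℝ) :
    ee v (Λ y) = ∑ i, ee v (Λ (Pi.single i 1)) * y i := by
  let f : (κ → ℝ) →ₗ[ℝ] ℝ :=
    { toFun := fun y => ee v (Λ y)
      map_add' := fun a b => by rw [map_add, ee_add_right]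
      map_smul' := fun r a => by rw [map_smul, ee_smul_right]; rfl }
  have h := LinearMap.pi_apply_eq_sum_univ f y
  show f y = _
  rw [h]
  refine Finset.sum_congr rfl fun i _ => ?_
  have h2 : (fun j => if i = j then (1:ℝ) else 0) = Pi.single i 1 := by
    funext j
    simp [Pi.single_apply, eq_comm]
  rw [smul_eq_mul, mul_comm, h2]
  rfl

/-- the dual coordinates -/
def dmap [DecidableEq κ] : (V1 n × W m) →ₗ[ℝ] (κ → ℝ) where
  toFun v i := ee v (Λ (Pi.single i 1))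
  map_add' a b := by funext i; exact ee_add_left _ _ _
  map_smul' r a := by funext i; exact ee_smul_left _ _ _

theorem dmap_inj [DecidableEq κ] : Function.Injective (dmap Λ) := by
  rw [injective_iff_map_eq_zero]
  intro v hv
  refine ee_nondeg v fun w => ?_
  obtain ⟨y, rfl⟩ := Λ.surjective w
  rw [ee_Λ]
  refine Finset.sum_eq_zero fun i _ => ?_
  have : dmap Λ v i = 0 := by rw [hv]; rfl
  have h2 : ee v (Λ (Pi.single i 1)) = 0 := this
  rw [h2, zero_mul]

theorem dmap_surj [DecidableEq κ] : Function.Surjective (dmap Λ) := by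
  have h1 : Function.Injective (dmap Λ ∘ₗ Λ.toLinearMap) := (dmap_inj Λ).comp Λ.injective
  have h2 := LinearMap.injective_iff_surjective.1 h1
  intro y
  obtain ⟨x, hx⟩ := h2 y
  exact ⟨Λ x, hx⟩

variable {Λ} {L : AddSubgroup (V1 n × W m)}

theorem exists_dual [DecidableEq κ] (h1 : ∀ m, Λ (ic m) ∈ L) (h2 : ∀ v ∈ L, ∃ m, Λ (ic m) = v)
    (int : ∀ v ∈ L, ∀ w ∈ L, ∃ k : ℤ, ee v w = k)
    (dual : ∀ v, (∀ w ∈ L, ∃ k : ℤ, ee v w = k) → v ∈ L) :
    ∃ e : L ≃ (κ → ℤ), ∀ (l : L) (y : κ → ℝ), ee (l : V1 n × W m) (Λ y) = dot (e l) y := by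
  have hs : ∀ i : κ, Λ (Pi.single i 1) ∈ L := by
    intro i
    have h := h1 (Pi.single i 1)
    have h3 : ic (Pi.single i 1 : κ → ℤ) = (Pi.single i 1 : κ → ℝ) := by
      funext j
      by_cases hj : j = i
      · subst hj; simp
      · simp [hj]
    rwa [h3] at h
  choose f hf using fun (l : L) (i : κ) => int l.1 l.2 _ (hs i)
  have hd : ∀ l : L, dmap Λ l.1 = ic (f l) := fun l => by funext i; exact hf l i
  have hinj : Function.Injective f := by
    intro l l' h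
    have h3 : dmap Λ l.1 = dmap Λ l'.1 := by rw [hd, hd, h]
    exact Subtype.ext (dmap_inj Λ h3)
  have hsurj : Function.Surjective f := by
    intro k
    obtain ⟨v, hv⟩ := dmap_surj Λ (ic k)
    have hvL : v ∈ L := by
      refine dual v fun w hw => ?_
      obtain ⟨x, rfl⟩ := h2 w hw
      refine ⟨∑ i, k i * x i, ?_⟩
      rw [ee_Λ]
      push_cast
      refine Finset.sum_congr rfl fun i _ => ?_
      have h4 : dmap Λ v i = k i := by rw [hv]; rfl
      have h5 : ee v (Λ (Pi.single i 1)) = k i := h4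
      rw [h5, ic_apply]
    refine ⟨⟨v, hvL⟩, ?_⟩
    funext i
    have h6 := congrFun (hd ⟨v, hvL⟩) i
    have h7 : dmap Λ v i = k i := by rw [hv]; rfl
    have h8 : ((f ⟨v, hvL⟩ i : ℤ) : ℝ) = ((k i : ℤ) : ℝ) := h6.symm.trans h7
    exact_mod_cast h8
  refine ⟨Equiv.ofBijective f ⟨hinj, hsurj⟩, fun l y => ?_⟩
  rw [ee_Λ]
  refine Finset.sum_congr rfl fun i _ => ?_
  rw [hf]
  rfl

end dual

end Crest.Agent.R272.EChi6_307
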