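import Crest.Agent.R272.EChi4_307
import Crest.Agent.R272.EChi6_307

/-!
# Row 272, division E, T3: the main lemma
-/

set_option autoImplicit false

noncomputable section

open Complex MeasureTheory
open scoped ComplexConjugate

namespace Crest.Agent.R272.EChi7_307

open Crest.Agent.R272.Poi307
open Crest.Agent.R272.EBase_641 Crest.Agent.R272.EBase2_641 Crest.Agent.R272.EThDefs_445
  Crest.Agent.R272.EChi3_307 Crest.Agent.R272.EChi5_307 Crest.Agent.R272.EChi6_307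
  Crest.Agent.R272.EChi4_307 Crest.Agent.R272.EChi2_307

/-- change of variables up to a positive constant -/
theorem haar_cmp {κ ι : Type} [Fintype κ] [Fintype ι] (Λ : (κ → ℝ) ≃ₗ[ℝ] (ι → ℂ)) :
    ∃ c : ℝ, 0 < c ∧ ∀ F : (ι → ℂ) → ℂ, ∫ y, F (Λ y) = c * ∫ x, F x := by
  let Λ' : (κ → ℝ) ≃L[ℝ] (ι → ℂ) := Λ.toContinuousLinearEquiv
  let μ : Measure (ι → ℂ) := Measure.map Λ' volume
  have hμ : μ.IsAddHaarMeasure := Λ'.isAddHaarMeasure_map volume
  obtain ⟨c, h2, h1⟩ : ∃ c : NNReal, 0 < c ∧ μ = c • (volume : Measure (ι → ℂ)) :=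
    ⟨_, Measure.addHaarScalarFactor_pos_of_isAddHaarMeasure μ (volume : Measure (ι → ℂ)),
      Measure.isAddLeftInvariant_eq_smul μ (volume : Measure (ι → ℂ))⟩
  refine ⟨c, by exact_mod_cast h2, ?_⟩
  intro F
  have h3 : ∫ x, F x ∂μ = ∫ y, F (Λ y) := by
    have h4 : MeasurableEmbedding (Λ' : (κ → ℝ) → (ι → ℂ)) := Λ'.toHomeomorph.measurableEmbedding
    exact h4.integral_map F
  rw [← h3, h1, integral_smul_nnreal_measure]
  rfl

variable {n m : ℕ}

section bound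

theorem norm_psi_le (v : V1 n × W m) {z : E n} (hz : ‖z‖ < 1) :
    ‖EChi3_307.psi v z 0‖ ≤ Real.exp (-(Real.pi / 2 * (1 - ‖z‖)) * ‖v‖ ^ 2) := by
  rw [psi_zero, Complex.norm_exp]
  refine Real.exp_le_exp.2 ?_
  rw [hV_self]
  have h1 : (-((Real.pi : ℂ) / 2) * ((‖v.1.1‖ ^ 2 - ‖v.1.2‖ ^ 2 + ‖v.2‖ ^ 2 : ℝ) : ℂ) +
      Real.pi * v.1.2 * (inner ℂ v.1.1 z - conj v.1.2)).re =
      -(Real.pi / 2) * (‖v.1.1‖ ^ 2 - ‖v.1.2‖ ^ 2 + ‖v.2‖ ^ 2) +
      Real.pi * ((v.1.2 * inner ℂ v.1.1 z).re - ‖v.1.2‖ ^ 2) := by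
    have e1 : -((Real.pi : ℂ) / 2) * ((‖v.1.1‖ ^ 2 - ‖v.1.2‖ ^ 2 + ‖v.2‖ ^ 2 : ℝ) : ℂ) =
        ((-(Real.pi / 2) * (‖v.1.1‖ ^ 2 - ‖v.1.2‖ ^ 2 + ‖v.2‖ ^ 2) : ℝ) : ℂ) := by push_cast; ring
    have e2 : (Real.pi : ℂ) * v.1.2 * (inner ℂ v.1.1 z - conj v.1.2) =
        (Real.pi : ℝ) * (v.1.2 * inner ℂ v.1.1 z - ((‖v.1.2‖ ^ 2 : ℝ) : ℂ)) := by
      rw [← Complex.normSq_eq_norm_sq, ← Complex.mul_conj]; ring
    rw [Complex.add_re, e1, e2, Complex.ofReal_re, Complex.re_ofReal_mul, Complex.sub_re,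
      Complex.ofReal_re]
  rw [h1]
  have h2 : (v.1.2 * inner ℂ v.1.1 z).re ≤ ‖v.1.2‖ * (‖v.1.1‖ * ‖z‖) := by
    refine (Complex.re_le_norm _).trans ?_
    rw [norm_mul]
    exact mul_le_mul_of_nonneg_left (norm_inner_le_norm _ _) (norm_nonneg _)
  have h3 : ‖v‖ ^ 2 ≤ ‖v.1.1‖ ^ 2 + ‖v.1.2‖ ^ 2 + ‖v.2‖ ^ 2 := by
    have a1 := sq_nonneg ‖v.1.1‖
    have a2 := sq_nonneg ‖v.1.2‖
    have a3 := sq_nonneg ‖v.2‖
    rw [Prod.norm_def, Prod.norm_def]
    rcases max_choice (max ‖v.1.1‖ ‖v.1.2‖) ‖v.2‖ with h | h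
    · rw [h]
      rcases max_choice ‖v.1.1‖ ‖v.1.2‖ with h | h <;> rw [h] <;> linarith
    · rw [h]; linarith
  have hp := Real.pi_pos
  have n1 := norm_nonneg v.1.1
  have n2 := norm_nonneg v.1.2
  have n3 := norm_nonneg v.2
  have nz := norm_nonneg z
  have h4 : ‖v.1.2‖ * (‖v.1.1‖ * ‖z‖) ≤ ‖z‖ * ((‖v.1.1‖ ^ 2 + ‖v.1.2‖ ^ 2) / 2) := by
    nlinarith [mul_nonneg nz (sq_nonneg (‖v.1.1‖ - ‖v.1.2‖))]
  have h5 : (1 - ‖z‖) * ‖v‖ ^ 2 ≤ (1 - ‖z‖) * (‖v.1.1‖ ^ 2 + ‖v.1.2‖ ^ 2 + ‖v.2‖ ^ 2) :=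
    mul_le_mul_of_nonneg_left h3 (by linarith)
  have h6 : 0 ≤ ‖z‖ * ‖v.2‖ ^ 2 := by positivity
  have h7 : -(‖v.1.1‖ ^ 2 - ‖v.1.2‖ ^ 2 + ‖v.2‖ ^ 2) / 2 + ((v.1.2 * inner ℂ v.1.1 z).re - ‖v.1.2‖ ^ 2)
      ≤ -((1 - ‖z‖) * ‖v‖ ^ 2) / 2 := by
    nlinarith
  calc _ = Real.pi * (-(‖v.1.1‖ ^ 2 - ‖v.1.2‖ ^ 2 + ‖v.2‖ ^ 2) / 2 +
        ((v.1.2 * inner ℂ v.1.1 z).re - ‖v.1.2‖ ^ 2)) := by ring
    _ ≤ Real.pi * (-((1 - ‖z‖) * ‖v‖ ^ 2) / 2) := mul_le_mul_of_nonneg_left h7 hp.le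
    _ = _ := by ring

theorem continuous_psi (z : E n) : Continuous fun v : V1 n × W m => EChi3_307.psi v z 0 := by
  simp_rw [psi_zero, hV_self]
  have h1 : Continuous fun v : V1 n × W m => inner ℂ v.1.1 z :=
    (continuous_fst.comp continuous_fst).inner continuous_const
  have h2 : Continuous fun v : V1 n × W m => v.1.2 := continuous_snd.comp continuous_fst
  have h3 : Continuous fun v : V1 n × W m => (‖v.1.1‖ ^ 2 - ‖v.1.2‖ ^ 2 + ‖v.2‖ ^ 2 : ℝ) := by
    fun_prop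
  have h4 : Continuous fun v : V1 n × W m => conj v.1.2 := Complex.continuous_conj.comp h2
  exact Complex.continuous_exp.comp
    ((continuous_const.mul (Complex.continuous_ofReal.comp h3)).add
      ((continuous_const.mul h2).mul (h1.sub h4)))

end bound

section endo

/-- the endomorphism `g - 1` -/
def Bg (g : GG n m) : (V1 n × W m) →ₗ[ℝ] (V1 n × W m) where
  toFun v := gA g v - v
  map_add' a b := by rw [map_add]; abel
  map_smul' r a := by
    have h : gA g (r • a) = r • gA g a := by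
      have h2 : r • a = (r : ℂ) • a := rfl
      rw [h2, map_smul]; rfl
    rw [h, RingHom.id_apply, smul_sub]

/-- `g - 1` as an equivalence -/
def BE (g : GG n m) (hinj : ∀ v, gA g v = v → v = 0) : (V1 n × W m) ≃ₗ[ℝ] (V1 n × W m) :=
  LinearEquiv.ofInjectiveEndo (Bg g) (by
    rw [injective_iff_map_eq_zero]
    intro v hv
    exact hinj v (sub_eq_zero.1 hv))

variable {g : GG n m} (hinj : ∀ v, gA g v = v → v = 0)

theorem BE_apply (v : V1 n × W m) : BE g hinj v = gA g v - v := rfl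

/-- `q(l) = ph (ee (B⁻¹ l) l)` -/
def q0 (l : V1 n × W m) : ℂ := ph (ee ((BE g hinj).symm l) l)

theorem phase_id (l v : V1 n × W m) :
    ph (-ee v (gA g v)) * ph (ee l (gA g v + v)) =
      q0 hinj l * ph (-ee ((BE g hinj).symm (l + BE g hinj v)) (l + BE g hinj v)) := by
  obtain ⟨u, rfl⟩ := (BE g hinj).surjective l
  rw [q0, ← map_add, LinearEquiv.symm_apply_apply, LinearEquiv.symm_apply_apply, ← ph_add, ← ph_add]
  congr 1
  simp only [BE_apply, ee_add_left, ee_add_right, ee_sub_left, ee_sub_right, ee_gA, ee_self, map_add]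
  have h1 := ee_swap v u
  have h2 := ee_swap (gA g v) u
  have h3 := ee_swap (gA g u) v
  have h4 := ee_swap (gA g v) v
  have h5 := ee_swap (gA g u) u
  linarith

theorem q0_add (l l' : V1 n × W m) :
    ph (ee l l') * q0 hinj (l + l') = q0 hinj l * q0 hinj l' *
      (ph (ee l l') * ph (ee ((BE g hinj).symm l) l') * ph (ee ((BE g hinj).symm l') l)) := by
  unfold q0
  rw [map_add, ee_add_left, ee_add_right, ee_add_right, ph_add, ph_add, ph_add]
  ring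

theorem bb_eq (l l' : V1 n × W m) :
    ph (ee l l') * ph (ee ((BE g hinj).symm l) l') * ph (ee ((BE g hinj).symm l') l) =
      ph (2 * ee ((BE g hinj).symm l') l) := by
  obtain ⟨u, rfl⟩ := (BE g hinj).surjective l
  obtain ⟨u', rfl⟩ := (BE g hinj).surjective l'
  rw [LinearEquiv.symm_apply_apply, LinearEquiv.symm_apply_apply, ← ph_add, ← ph_add]
  congr 1
  simp only [BE_apply, ee_sub_left, ee_sub_right, ee_gA]
  have h1 := ee_swap u' u
  have h2 := ee_swap u' (gA g u)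
  linarith

end endo

section main

variable {L : AddSubgroup (V1 n × W m)} (T : TData L) (g : Sg T)
  (hinj : ∀ v, gA g.1 v = v → v = 0)

/-- the quadratic character -/
def qq (l : V1 n × W m) : ℂ := T.ε l * q0 hinj l

theorem norm_qq (l : V1 n × W m) (hl : l ∈ L) : ‖qq T g hinj l‖ = 1 := by
  unfold qq q0
  rw [norm_mul, norm_ph, mul_one]
  rcases T.ε_pm l hl with h | h <;> rw [h] <;> simp

/-- bilinear form -/
def bq (l l' : V1 n × W m) : ℂ := ph (2 * ee ((BE g.1 hinj).symm l') l)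

theorem bq_add (a b c : V1 n × W m) : bq T g hinj (a + b) c = bq T g hinj a c * bq T g hinj b c := by
  unfold bq
  rw [ee_add_right, mul_add, ph_add]

theorem qq_add (l : V1 n × W m) (hl : l ∈ L) (l' : V1 n × W m) (hl' : l' ∈ L) :
    qq T g hinj (l + l') = qq T g hinj l * qq T g hinj l' * bq T g hinj l l' := by
  unfold qq bq
  rw [T.ε_add l hl l' hl', mul_assoc, q0_add, bb_eq]
  ring

theorem qq_sq (l : V1 n × W m) (hl : l ∈ L) : qq T g hinj l ^ 2 = bq T g hinj l l := by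
  unfold qq bq q0
  rw [two_mul, ph_add]
  linear_combination (ph (ee ((BE g.1 hinj).symm l) l)) ^ 2 * eps_sq T l hl

theorem qq_per (int : ∀ v ∈ L, ∀ w ∈ L, ∃ k : ℤ, ee v w = k) (l : V1 n × W m) (hl : l ∈ L)
    (k : V1 n × W m) (hk : k ∈ L) : qq T g hinj (l + BE g.1 hinj k) = qq T g hinj l := by
  have hgk : gA g.1 k ∈ L := (g.2.1 k).2 hk
  have hB : BE g.1 hinj k ∈ L := L.sub_mem hgk hk
  rw [qq_add T g hinj l hl _ hB]
  have h1 : bq T g hinj l (BE g.1 hinj k) = 1 := by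
    unfold bq
    rw [LinearEquiv.symm_apply_apply]
    obtain ⟨j, hj⟩ := int k hk l hl
    rw [hj, ph_two_int]
  have h2 : qq T g hinj (BE g.1 hinj k) = 1 := by
    unfold qq q0
    rw [LinearEquiv.symm_apply_apply, BE_apply, sub_eq_add_neg, T.ε_add _ hgk _ (L.neg_mem hk),
      eps_neg T k hk, g.2.2 k hk, eps_sq T k hk, one_mul, ← ph_add, ee_add_right, ee_neg_right,
      ee_neg_right, ee_self]
    obtain ⟨j, hj⟩ := int k hk _ hgk
    have h3 := ee_swap (gA g.1 k) k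
    have h4 : -ee (gA g.1 k) k + (ee k (gA g.1 k) + -0) = 2 * j := by rw [h3, hj]; ring
    rw [h4, ph_two_int]
  rw [h1, h2, mul_one, mul_one]

theorem main_series (v : V1 n × W m) :
    HasSum (fun l : L => qq T g hinj l *
      (ph (-ee ((BE g.1 hinj).symm (l + BE g.1 hinj v)) (l + BE g.1 hinj v)) *
        EChi3_307.psi ((l : V1 n × W m) + BE g.1 hinj v) (act g.1.1 0) 0))
      (χ T g * jj g.1.1 0 * ∑' l : L, T.ε l * EChi3_307.psi (l : V1 n × W m) 0 0 * ph (2 * ee (l : V1 n × W m) v)) := by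
  have h1 := T.vv (gA g.1 v) v _ (act_mem g.1.1 zero_mem_Ball) _ zero_mem_Ball
  have h2 := T.vv v v 0 zero_mem_Ball 0 zero_mem_Ball
  rw [law_χ T g v 0 zero_mem_Ball] at h1
  rw [ee_self, ph_zero, one_mul] at h2
  have h3 : ∑' l : L, T.ε l * EChi3_307.psi (l : V1 n × W m) 0 0 * ph (2 * ee (l : V1 n × W m) v) =
      T.t v 0 * conj (T.t v 0) := by
    rw [← h2.tsum_eq]
    refine tsum_congr fun l => ?_
    rw [psi_eq, add_sub_cancel_right, ee_add_right, two_mul]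
    ring
  rw [h3]
  have h4 := h1.mul_left (ph (-ee v (gA g.1 v)))
  have h5 : ph (-ee v (gA g.1 v)) * ph (ee v (gA g.1 v)) = 1 := by
    rw [← ph_add, neg_add_cancel, ph_zero]
  have h6 : ph (-ee v (gA g.1 v)) * (ph (ee v (gA g.1 v)) *
      (χ T g * jj g.1.1 0 * T.t v 0 * conj (T.t v 0))) =
      χ T g * jj g.1.1 0 * (T.t v 0 * conj (T.t v 0)) := by
    linear_combination (χ T g * jj g.1.1 0 * T.t v 0 * conj (T.t v 0)) * h5
  rw [h6] at h4
  have h9 : ∀ l : L, qq T g hinj l *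
      (ph (-ee ((BE g.1 hinj).symm (l + BE g.1 hinj v)) (l + BE g.1 hinj v)) *
        EChi3_307.psi ((l : V1 n × W m) + BE g.1 hinj v) (act g.1.1 0) 0) =
      ph (-ee v (gA g.1 v)) * (T.ε l * ph (ee (l : V1 n × W m) (gA g.1 v + v)) *
        EThDefs_445.psi ((l : V1 n × W m) + gA g.1 v - v) (act g.1.1 0) 0) := ?_
  · simp_rw [h9]
    exact h4
  intro l
  have h7 := phase_id (g := g.1) hinj l v
  have h8 : (l : V1 n × W m) + gA g.1 v - v = l + BE g.1 hinj v := by rw [BE_apply]; abel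
  rw [psi_eq, h8]
  unfold qq
  linear_combination (-(T.ε l * EChi3_307.psi ((l : V1 n × W m) + BE g.1 hinj v) (act g.1.1 0) 0)) * h7

theorem hT_time : (gA g.1).toLinearMap ((0, 1), 0) = jj g.1.1 (0 : E n) • (((act g.1.1 0, 1), 0) : V1 n × W m) := by
  have h := apply_eq g.1.1 (zero_mem_Ball (n := n))
  show ((g.1.1.1 (0, 1), g.1.2 0) : V1 n × W m) = _
  rw [h, map_zero]
  ext1
  · rfl
  · simp

/-- **Main lemma** -/
theorem phase_main (disc : ∀ r : ℝ, {v : V1 n × W m | v ∈ L ∧ ‖v‖ ≤ r}.Finite)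
    (span : Submodule.span ℝ (L : Set (V1 n × W m)) = ⊤)
    (int : ∀ v ∈ L, ∀ w ∈ L, ∃ k : ℤ, ee v w = k)
    (dual : ∀ v, (∀ w ∈ L, ∃ k : ℤ, ee v w = k) → v ∈ L) (hinj : ∀ v, gA g.1 v = v → v = 0) :
    ∃ (c : ℝ) (S : ℂ), 0 < c ∧ conj (S ^ 4) = S ^ 4 ∧
      χ T g * ((-Hm (oo n m)).det * LinearMap.det ((gA g.1).toLinearMap - 1)) = c * S := by
  classical
  obtain ⟨κ, _, Λ, hΛ1, hΛ2⟩ := exists_crd L disc span
  obtain ⟨e, he⟩ := exists_dual hΛ1 hΛ2 int dual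
  -- coordinates of the lattice
  have hicinj : Function.Injective (fun k : κ → ℤ => Λ (ic k)) := by
    intro a b h
    have h1 : ic a = ic b := Λ.injective h
    funext i
    have h2 : (a i : ℝ) = b i := congrFun h1 i
    exact_mod_cast h2
  let eK : (κ → ℤ) ≃ L := Equiv.ofBijective (fun k => ⟨Λ (ic k), hΛ1 k⟩)
    ⟨fun a b h => hicinj (congrArg Subtype.val h), fun l => by
      obtain ⟨k, hk⟩ := hΛ2 l.1 l.2
      exact ⟨k, Subtype.ext hk⟩⟩
  have hBL : ∀ k : κ → ℤ, BE g.1 hinj (Λ (ic k)) ∈ L := fun k =>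
    L.sub_mem ((g.2.1 _).2 (hΛ1 k)) (hΛ1 k)
  choose β0 hβ0 using fun k : κ → ℤ => hΛ2 _ (hBL k)
  let β : (κ → ℤ) →ₗ[ℤ] (κ → ℤ) := (AddMonoidHom.mk' β0 (fun a b => by
    apply hicinj
    show Λ (ic (β0 (a + b))) = Λ (ic (β0 a + β0 b))
    rw [ic_add, map_add, hβ0, hβ0, hβ0, ic_add, map_add, map_add])).toIntLinearMap
  have hβ : ∀ k, Λ (ic (β k)) = BE g.1 hinj (Λ (ic k)) := hβ0
  let B : (κ → ℝ) ≃ₗ[ℝ] (κ → ℝ) := (Λ.trans (BE g.1 hinj)).trans Λ.symm
  have hΛB : ∀ y, Λ (B y) = BE g.1 hinj (Λ y) := fun y => Λ.apply_symm_apply _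
  have hB : ∀ k, B (ic k) = ic (β k) := by
    intro k
    apply Λ.injective
    rw [hΛB, hβ]
  have hβinj : Function.Injective β := by
    intro a b h
    apply hicinj
    apply (BE g.1 hinj).injective
    show BE g.1 hinj (Λ (ic a)) = BE g.1 hinj (Λ (ic b))
    rw [← hβ, ← hβ, h]
  have : Finite ((κ → ℤ) ⧸ LinearMap.range β) := finite_quot β hβinj
  let _ : Fintype ((κ → ℤ) ⧸ LinearMap.range β) := Fintype.ofFinite _
  -- the data
  let z0 : E n := act g.1.1 0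
  have hz0 : ‖z0‖ < 1 := mem_Ball.1 (act_mem g.1.1 zero_mem_Ball)
  let q : (κ → ℤ) → ℂ := fun k => qq T g hinj (Λ (ic k))
  let Ψ : (κ → ℝ) → ℂ := fun x => ph (-ee ((BE g.1 hinj).symm (Λ x)) (Λ x)) * EChi3_307.psi (Λ x) z0 0
  let c : (κ → ℤ) → ℂ := fun k => χ T g * jj g.1.1 0 *
    (T.ε (e.symm k) * EChi3_307.psi (e.symm k : V1 n × W m) 0 0)
  have hΛc : Continuous Λ := Λ.toLinearMap.continuous_of_finiteDimensional
  have hΨc : Continuous Ψ := by
    have h1 : Continuous fun x : κ → ℝ => ee ((BE g.1 hinj).symm (Λ x)) (Λ x) := by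
      have h2 : ∀ x, ee ((BE g.1 hinj).symm (Λ x)) (Λ x) =
          (hV ((BE g.1 hinj).symm (Λ x)) (Λ x)).im := fun x => ee_eq _ _
      simp_rw [h2]
      have h3 : Continuous fun x => (BE g.1 hinj).symm (Λ x) :=
        ((BE g.1 hinj).symm.toLinearMap.continuous_of_finiteDimensional).comp hΛc
      refine Complex.continuous_im.comp ?_
      unfold hV hh
      have a1 : Continuous fun x => (Λ x).1.1 := (continuous_fst.comp continuous_fst).comp hΛc
      have a2 : Continuous fun x => (Λ x).1.2 := (continuous_snd.comp continuous_fst).comp hΛc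
      have a3 : Continuous fun x => (Λ x).2 := continuous_snd.comp hΛc
      have b1 : Continuous fun x => ((BE g.1 hinj).symm (Λ x)).1.1 :=
        (continuous_fst.comp continuous_fst).comp h3
      have b2 : Continuous fun x => ((BE g.1 hinj).symm (Λ x)).1.2 :=
        (continuous_snd.comp continuous_fst).comp h3
      have b3 : Continuous fun x => ((BE g.1 hinj).symm (Λ x)).2 := continuous_snd.comp h3
      exact ((a1.inner b1).sub (b2.mul (Complex.continuous_conj.comp a2))).add (a3.inner b3)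
    refine Continuous.mul ?_ ((continuous_psi z0).comp hΛc)
    unfold ph
    exact Complex.continuous_exp.comp (continuous_const.mul (Complex.continuous_ofReal.comp h1.neg))
  obtain ⟨K, hK0, hK⟩ : ∃ K : ℝ, 0 < K ∧ ∀ x : κ → ℝ, ‖x‖ ≤ K * ‖Λ x‖ := by
    let Λ' : (κ → ℝ) ≃L[ℝ] (V1 n × W m) := Λ.toContinuousLinearEquiv
    refine ⟨‖(Λ'.symm : (V1 n × W m) →L[ℝ] (κ → ℝ))‖ + 1, by positivity, fun x => ?_⟩
    have h1 : ‖x‖ ≤ ‖(Λ'.symm : (V1 n × W m) →L[ℝ] (κ → ℝ))‖ * ‖Λ x‖ := by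
      have h2 := (Λ'.symm : (V1 n × W m) →L[ℝ] (κ → ℝ)).le_opNorm (Λ x)
      have h3 : (Λ'.symm : (V1 n × W m) →L[ℝ] (κ → ℝ)) (Λ x) = x := Λ'.symm_apply_apply x
      rwa [h3] at h2
    nlinarith [norm_nonneg (Λ x)]
  let δ : ℝ := Real.pi / 2 * (1 - ‖z0‖) / K ^ 2
  have hδ : 0 < δ := by
    have : 0 < 1 - ‖z0‖ := by linarith
    have := Real.pi_pos
    positivity
  let N : ℕ := Fintype.card κ + 1
  have hΨ : Dec (N.factorial * Real.exp (1 + 1 / (4 * δ))) N Ψ := by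
    intro x
    refine le_trans ?_ (exp_dec δ hδ N (norm_nonneg x))
    simp only [Ψ]
    rw [norm_mul, norm_ph, one_mul]
    refine (norm_psi_le (Λ x) hz0).trans (Real.exp_le_exp.2 ?_)
    have h1 := hK x
    have h2 : ‖x‖ ^ 2 ≤ K ^ 2 * ‖Λ x‖ ^ 2 := by
      rw [← mul_pow]
      exact pow_le_pow_left₀ (norm_nonneg x) h1 2
    have h3 : δ * ‖x‖ ^ 2 ≤ Real.pi / 2 * (1 - ‖z0‖) * ‖Λ x‖ ^ 2 := by
      calc δ * ‖x‖ ^ 2 ≤ δ * (K ^ 2 * ‖Λ x‖ ^ 2) := mul_le_mul_of_nonneg_left h2 hδ.le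
        _ = _ := by simp only [δ]; field_simp
    linarith
  have hcs : Summable fun k => ‖c k‖ := by
    have h1 := (T.vv 0 0 0 zero_mem_Ball 0 zero_mem_Ball).summable
    have h2 := h1.norm
    have h3 := (h2.mul_left ‖χ T g * jj g.1.1 0‖)
    rw [← e.symm.summable_iff] at h3
    refine h3.congr fun k => ?_
    simp only [Function.comp, c, norm_mul, norm_ph, mul_one, add_zero, sub_zero, psi_eq]
  have H : ∀ y, HasSum (fun k => q k * Ψ (ic k + B y)) (∑' k, c k * ch k y) := by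
    intro y
    have h1 := main_series T g hinj (Λ y)
    rw [← eK.hasSum_iff] at h1
    have h2 : (∑' k, c k * ch k y) = χ T g * jj g.1.1 0 * ∑' l : L, T.ε l *
        EChi3_307.psi (l : V1 n × W m) 0 0 * ph (2 * ee (l : V1 n × W m) (Λ y)) := by
      rw [← e.tsum_eq, ← tsum_mul_left]
      refine tsum_congr fun l => ?_
      simp only [c, Equiv.symm_apply_apply]
      have h3 : ch (e l) y = ph (2 * ee (l : V1 n × W m) (Λ y)) := by
        unfold ch ph
        rw [he]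
        congr 1
        push_cast
        ring
      rw [h3]
      ring
    rw [h2]
    convert h1 using 1
    funext k
    have h4 : ((eK k : L) : V1 n × W m) = Λ (ic k) := rfl
    simp only [Function.comp, q, Ψ, h4, map_add, hΛB]
    rfl
  have hmain := unfold β B hβinj hB
    (q := q) (by
      intro a b
      simp only [q]
      rw [ic_add, map_add, hβ]
      exact qq_per T g hinj int _ (hΛ1 a) _ (hΛ1 b))
    hΨc (by positivity) (Nat.lt_succ_self _) hΨ hcs H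
  -- the Gauss sum
  have hS : conj ((∑ a : (κ → ℤ) ⧸ LinearMap.range β, q a.out) ^ 4) =
      (∑ a : (κ → ℤ) ⧸ LinearMap.range β, q a.out) ^ 4 := by
    refine gauss_four (LinearMap.range β) (q := q)
      (bb := fun a b => bq T g hinj (Λ (ic a)) (Λ (ic b))) ?_ ?_ ?_ ?_ ?_
    · exact fun k => norm_qq T g hinj _ (hΛ1 k)
    · intro a b k
      rw [ic_add, map_add, bq_add]
    · intro a b
      simp only [q]
      rw [ic_add, map_add]
      exact qq_add T g hinj _ (hΛ1 a) _ (hΛ1 b)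
    · exact fun k => qq_sq T g hinj _ (hΛ1 k)
    · rintro a _ ⟨b, rfl⟩
      simp only [q]
      rw [ic_add, map_add, hβ]
      exact qq_per T g hinj int _ (hΛ1 a) _ (hΛ1 b)
  set S := ∑ a : (κ → ℤ) ⧸ LinearMap.range β, q a.out with hSdef
  -- the constant term
  have hc0 : c 0 = χ T g * jj g.1.1 0 := by
    have he0 : ((e.symm 0 : L) : V1 n × W m) = 0 := by
      refine ee_nondeg _ fun w => ?_
      obtain ⟨y, rfl⟩ := Λ.surjective w
      rw [he, Equiv.apply_symm_apply]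
      simp [dot]
    simp only [c]
    rw [he0, eps_zero, psi_zero]
    have h1 : hV (0 : V1 n × W m) 0 = 0 := by rw [hV_self]; simp
    rw [h1]
    simp
  -- the integral
  let Λ' : (κ → ℝ) ≃ₗ[ℝ] (Ix n m → ℂ) := Λ.trans ((Φ (n := n) (m := m)).symm.restrictScalars ℝ)
  obtain ⟨c1, hc1, hint⟩ := haar_cmp Λ'
  have hI : ∫ y, Ψ (B y) = c1 * ∫ x : Ix n m → ℂ,
      cexp (-(Real.pi * I * ee (Φ x) ((gA g.1).toLinearMap (Φ x)))) *
        EChi3_307.psi ((gA g.1).toLinearMap (Φ x) - Φ x) z0 0 := by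
    rw [← hint]
    refine integral_congr_ae (Filter.Eventually.of_forall fun y => ?_)
    have h1 : Φ (Λ' y) = Λ y := Φ.apply_symm_apply _
    simp only [Ψ]
    rw [h1, hΛB, LinearEquiv.symm_apply_apply]
    have h2 : ee (Λ y) (BE g.1 hinj (Λ y)) = ee (Λ y) ((gA g.1).toLinearMap (Λ y)) := by
      rw [BE_apply, ee_sub_right, ee_self, sub_zero]
      rfl
    rw [h2]
    unfold ph
    congr 1
    congr 1
    push_cast
    ring
  obtain ⟨c2, hc2, hG⟩ := gauss_phase (gA g.1).toLinearMap (fun x y => hV_gA g.1 x y)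
    (fun v hv => hinj v hv) hz0 (jj_ne_zero g.1.1 zero_mem_Ball) (hT_time T g)
  rw [hc0, hI] at hmain
  refine ⟨c1 * c2, S, by positivity, hS, ?_⟩
  have hj := jj_ne_zero g.1.1 (zero_mem_Ball (n := n))
  apply mul_left_cancel₀ hj
  push_cast
  linear_combination ((-Hm (oo n m)).det * LinearMap.det ((gA g.1).toLinearMap - 1)) * hmain +
    S * c1 * hG

end main

end Crest.Agent.R272.EChi7_307
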