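import Crest.Agent.R272.EChi7_307

/-!
# Row 272, division E, T3: `χ(g)⁸ = 1`
-/

set_option autoImplicit false

noncomputable section

open Complex Matrix
open scoped ComplexConjugate

namespace Crest.Agent.R272.EChi8_307

open Crest.Agent.R272.EBase_641 Crest.Agent.R272.EBase2_641 Crest.Agent.R272.EThDefs_445
  Crest.Agent.R272.EChi3_307 Crest.Agent.R272.EChi5_307 Crest.Agent.R272.EChi7_307

variable {n m : ℕ}

theorem gA_mn_mul (g : GG n m) (v : V1 n × W m) : gA (mn n m * g) v = -gA g v := by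
  rw [gA_mul, gA_mn]

theorem mat_neg (T : (V1 n × W m) →ₗ[ℂ] (V1 n × W m)) : mat (-T) = -mat T := by
  refine Matrix.ext_of_mulVec_single fun i => ?_
  rw [Matrix.neg_mulVec, mat_mulVec, mat_mulVec]
  simp

theorem det_real (g : GG n m) (hdet : LinearMap.det (gA g).toLinearMap = 1) :
    conj (LinearMap.det ((gA (mn n m * g)).toLinearMap - 1)) =
      LinearMap.det ((gA (mn n m * g)).toLinearMap - 1) := by
  have h0 : (gA (mn n m * g)).toLinearMap = -(gA g).toLinearMap := by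
    refine LinearMap.ext fun v => ?_
    exact gA_mn_mul g v
  set T := (gA (mn n m * g)).toLinearMap with hT
  have hU := mat_unitary T (fun x y => hV_gA (mn n m * g) x y)
  have hdG : (mat T).det = (-1) ^ Fintype.card (Ix n m) := by
    rw [h0, mat_neg, Matrix.det_neg, mat_det, hdet, mul_one]
  rw [← mat_det, ← mat_sub_one]
  set G := mat T
  have h1 : (G - 1)ᴴ * (Hm (oo n m) * G) = -Hm (oo n m) * (G - 1) := by
    rw [Matrix.conjTranspose_sub, Matrix.conjTranspose_one, Matrix.sub_mul, ← Matrix.mul_assoc, hU,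
      Matrix.one_mul, Matrix.mul_sub, Matrix.mul_one, Matrix.neg_mul]
    abel
  have h2 := congrArg Matrix.det h1
  rw [det_mul, det_mul, det_mul, hdG, Matrix.det_conjTranspose, Matrix.det_neg] at h2
  have h3 : (Hm (oo n m)).det ≠ 0 := by
    intro h
    have := (det_Hm_real (oo n m)).2
    rw [Matrix.det_neg, h, mul_zero] at this
    exact this rfl
  have h4 : ((-1 : ℂ) ^ Fintype.card (Ix n m)) ≠ 0 := pow_ne_zero _ (by norm_num)
  have h5 : ((-1 : ℂ) ^ Fintype.card (Ix n m)) * (Hm (oo n m)).det ≠ 0 := mul_ne_zero h4 h3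
  apply mul_left_cancel₀ h5
  have h6 : conj (G - 1).det = star (G - 1).det := rfl
  rw [h6]
  linear_combination h2

theorem χ_eight {L : AddSubgroup (V1 n × W m)} (T : TData L) (g : Sg T)
    (disc : ∀ r : ℝ, {v : V1 n × W m | v ∈ L ∧ ‖v‖ ≤ r}.Finite)
    (span : Submodule.span ℝ (L : Set (V1 n × W m)) = ⊤)
    (int : ∀ v ∈ L, ∀ w ∈ L, ∃ k : ℤ, ee v w = k)
    (dual : ∀ v, (∀ w ∈ L, ∃ k : ℤ, ee v w = k) → v ∈ L)
    (hdet : LinearMap.det (gA g.1).toLinearMap = 1)
    (hinj : ∀ v, gA g.1 v = -v → v = 0) : χ T g ^ 8 = 1 := by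
  set g' : Sg T := ⟨mn n m, mn_mem T⟩ * g with hg'
  have e1 : g'.1 = mn n m * g.1 := rfl
  have hinj' : ∀ v, gA g'.1 v = v → v = 0 := by
    intro v hv
    rw [e1, gA_mn_mul] at hv
    apply hinj v
    rw [← hv, neg_neg, hv]
  obtain ⟨c, S, hc, hS, h⟩ := phase_main T g' disc span int dual hinj'
  set D := (-Hm (oo n m)).det * LinearMap.det ((gA g'.1).toLinearMap - 1) with hD
  have hDr : conj D = D := by
    rw [hD, map_mul, (det_Hm_real (oo n m)).1, e1, det_real g.1 hdet]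
  have hD0 : D ≠ 0 := by
    refine mul_ne_zero (det_Hm_real (oo n m)).2 ?_
    let f : (V1 n × W m) →ₗ[ℂ] (V1 n × W m) := (gA g'.1).toLinearMap - 1
    have h1 : Function.Injective f := by
      rw [injective_iff_map_eq_zero]
      intro v hv
      exact hinj' v (sub_eq_zero.1 hv)
    exact (LinearEquiv.isUnit_det' (LinearEquiv.ofInjectiveEndo f h1)).ne_zero
  have h2 : χ T g' ^ 4 * D ^ 4 = c ^ 4 * S ^ 4 := by
    rw [← mul_pow, h, mul_pow]
  have h3 : conj (χ T g') ^ 4 * D ^ 4 = c ^ 4 * S ^ 4 := by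
    have := congrArg conj h2
    rw [map_mul, map_mul, hS, map_pow, map_pow, map_pow, Complex.conj_ofReal, hDr] at this
    exact this
  have h4 : χ T g' ^ 4 = conj (χ T g') ^ 4 := by
    apply mul_right_cancel₀ (pow_ne_zero 4 hD0)
    rw [h2, h3]
  have h5 : χ T g' * conj (χ T g') = 1 := by
    rw [Complex.mul_conj, Complex.normSq_eq_norm_sq, norm_χ]
    norm_num
  have h6 : χ T g' ^ 8 = 1 := by
    calc χ T g' ^ 8 = χ T g' ^ 4 * χ T g' ^ 4 := by ring
      _ = χ T g' ^ 4 * conj (χ T g') ^ 4 := by rw [h4]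
      _ = (χ T g' * conj (χ T g')) ^ 4 := by ring
      _ = 1 := by rw [h5, one_pow]
  rw [hg', χ_mul, mul_pow] at h6
  have h7 : χ T ⟨mn n m, mn_mem T⟩ ^ 8 = 1 := by
    calc χ T ⟨mn n m, mn_mem T⟩ ^ 8 = (χ T ⟨mn n m, mn_mem T⟩ ^ 2) ^ 4 := by ring
      _ = 1 := by rw [χ_mn_sq, one_pow]
  rw [h7, one_mul] at h6
  exact h6

end Crest.Agent.R272.EChi8_307
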