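import Crest.Agent.R272.EChi8_307

/-!
# Row 272, division E, T3: the finite index subgroup on which `χ = 1`
-/

set_option autoImplicit false

noncomputable section

open Complex Matrix
open scoped ComplexConjugate

namespace Crest.Agent.R272.EChi9_307

open Crest.Agent.R272.Poi307
open Crest.Agent.R272.EBase_641 Crest.Agent.R272.EBase2_641 Crest.Agent.R272.EThDefs_445
  Crest.Agent.R272.EChi3_307 Crest.Agent.R272.EChi5_307 Crest.Agent.R272.EChi6_307
  Crest.Agent.R272.EChi7_307 Crest.Agent.R272.EChi8_307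

/-- the action of the group of `EDat` -/
def hom (D : EDat) : D.G →* GG D.n D.m := D.ρ.prod D.σ

theorem gA_hom (D : EDat) (g : D.G) (v : V1 D.n × W D.m) :
    gA (hom D g) v = ((D.ρ g).1 v.1, D.σ g v.2) := rfl

theorem gA_hom_mem (D : EDat) (g : D.G) (v : V1 D.n × W D.m) :
    gA (hom D g) v ∈ D.L ↔ v ∈ D.L := by
  constructor
  · intro h
    have h1 := D.stab g⁻¹ _ h
    rw [← gA_hom, ← gA_mul, ← map_mul, inv_mul_cancel, map_one, gA_one] at h1
    exact h1
  · intro h
    exact D.stab g v h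

theorem det_hom (D : EDat) (g : D.G) : LinearMap.det (gA (hom D g)).toLinearMap = 1 := by
  have h1 : (gA (hom D g)).toLinearMap =
      ((D.ρ g).1 : V1 D.n →ₗ[ℂ] V1 D.n).prodMap ((D.σ g).toLinearEquiv : W D.m →ₗ[ℂ] W D.m) := rfl
  rw [h1, LinearMap.det_prodMap, D.det1]

/-- congruence subgroup -/
theorem exists_cong (D : EDat) : ∃ H : Subgroup D.G, H.FiniteIndex ∧ ∀ g ∈ H,
    (∀ v ∈ D.L, ∃ w ∈ D.L, gA (hom D g) v = v + (4:ℤ) • w) ∧
    ∀ v, gA (hom D g) v = -v → v = 0 := by
  classical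
  obtain ⟨κ, _, Λ, hΛ1, hΛ2⟩ := exists_crd D.L D.disc D.span
  have hicinj : Function.Injective (fun k : κ → ℤ => Λ (ic k)) := by
    intro a b h
    have h1 : ic a = ic b := Λ.injective h
    funext i
    have h2 : (a i : ℝ) = b i := congrFun h1 i
    exact_mod_cast h2
  choose β0 hβ0 using fun (g : D.G) (k : κ → ℤ) => hΛ2 _ ((gA_hom_mem D g _).2 (hΛ1 k))
  let β : D.G → (κ → ℤ) →ₗ[ℤ] (κ → ℤ) := fun g => (AddMonoidHom.mk' (β0 g) (fun a b => by
    apply hicinj
    show Λ (ic (β0 g (a + b))) = Λ (ic (β0 g a + β0 g b))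
    rw [ic_add, map_add, hβ0, hβ0, hβ0, ic_add, map_add, map_add])).toIntLinearMap
  have hβ : ∀ g k, Λ (ic (β g k)) = gA (hom D g) (Λ (ic k)) := hβ0
  let F : D.G →* Matrix κ κ ℤ :=
    { toFun := fun g => LinearMap.toMatrix' (β g)
      map_one' := by
        have : β 1 = LinearMap.id := by
          refine LinearMap.ext fun k => ?_
          apply hicinj
          show Λ (ic (β 1 k)) = Λ (ic k)
          rw [hβ, map_one, gA_one]
        rw [this, LinearMap.toMatrix'_id]
      map_mul' := by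
        intro g h
        have : β (g * h) = (β g).comp (β h) := by
          refine LinearMap.ext fun k => ?_
          apply hicinj
          show Λ (ic (β (g * h) k)) = Λ (ic (β g (β h k)))
          rw [hβ, hβ, hβ, map_mul, gA_mul]
        rw [this, LinearMap.toMatrix'_comp] }
  let F4 : D.G →* (Matrix κ κ (ZMod 4))ˣ :=
    (((Int.castRingHom (ZMod 4)).mapMatrix : Matrix κ κ ℤ →+* Matrix κ κ (ZMod 4)).toMonoidHom.comp F).toHomUnits
  refine ⟨F4.ker, inferInstance, fun g hg => ?_⟩
  have h1 : (Int.castRingHom (ZMod 4)).mapMatrix (F g) = 1 := by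
    have := congrArg Units.val (MonoidHom.mem_ker.1 hg)
    exact this
  have h2 : ∀ i j, ∃ x : ℤ, F g i j = (1 : Matrix κ κ ℤ) i j + 4 * x := by
    intro i j
    have h3 := congrFun (congrFun h1 i) j
    have h4 : ((F g i j : ℤ) : ZMod 4) = (((1 : Matrix κ κ ℤ) i j : ℤ) : ZMod 4) := by
      have h5 : (Int.castRingHom (ZMod 4)).mapMatrix (1 : Matrix κ κ ℤ) = 1 := map_one _
      have h6 := congrFun (congrFun h5 i) j
      exact h3.trans h6.symm
    rw [ZMod.intCast_eq_intCast_iff_dvd_sub] at h4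
    obtain ⟨x, hx⟩ := h4
    refine ⟨-x, ?_⟩
    push_cast at hx
    linarith
  choose X hX using h2
  have hFX : F g = 1 + (4:ℤ) • (Matrix.of X) := by
    ext i j
    rw [hX]
    rfl
  have hFk : ∀ k : κ → ℤ, β g k = k + (4:ℤ) • (Matrix.of X *ᵥ k) := by
    intro k
    have h3 : β g k = F g *ᵥ k := by
      show _ = LinearMap.toMatrix' (β g) *ᵥ k
      rw [← Matrix.toLin'_apply, Matrix.toLin'_toMatrix']
    rw [h3, hFX, Matrix.add_mulVec, Matrix.one_mulVec, Matrix.smul_mulVec]
  refine ⟨fun v hv => ?_, fun v hv => ?_⟩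
  · obtain ⟨k, rfl⟩ := hΛ2 v hv
    refine ⟨_, hΛ1 (Matrix.of X *ᵥ k), ?_⟩
    rw [← hβ, hFk, ic_add, map_add]
    congr 1
    have : ic ((4:ℤ) • (Matrix.of X *ᵥ k)) = (4:ℤ) • ic (Matrix.of X *ᵥ k) := by
      funext i
      simp
    rw [this, map_zsmul]
  · obtain ⟨y, rfl⟩ := Λ.surjective v
    -- real matrix
    let Xr : Matrix κ κ ℝ := (Matrix.of X).map (fun x : ℤ => (x : ℝ))
    have h3 : ∀ y : κ → ℝ, gA (hom D g) (Λ y) = Λ (y + (4:ℝ) • (Xr *ᵥ y)) := by
      intro y
      let A1 : (κ → ℝ) →ₗ[ℝ] (V1 D.n × W D.m) :=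
        { toFun := fun y => gA (hom D g) (Λ y)
          map_add' := fun a b => by rw [map_add, map_add]
          map_smul' := fun r a => by
            rw [map_smul]
            have h4 : gA (hom D g) (r • Λ a) = r • gA (hom D g) (Λ a) := by
              have h2 : r • Λ a = (r : ℂ) • Λ a := rfl
              rw [h2, map_smul]; rfl
            rw [h4]; rfl }
      let A2 : (κ → ℝ) →ₗ[ℝ] (V1 D.n × W D.m) :=
        Λ.toLinearMap ∘ₗ (LinearMap.id + (4:ℝ) • Xr.mulVecLin)
      have h5 : A1 = A2 := by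
        refine (Pi.basisFun ℝ κ).ext fun i => ?_
        rw [Pi.basisFun_apply]
        have h6 : (Pi.single i 1 : κ → ℝ) = ic (Pi.single i 1 : κ → ℤ) := by
          funext j
          by_cases hj : j = i
          · subst hj; simp
          · simp [hj]
        show gA (hom D g) (Λ (Pi.single i 1)) = Λ (Pi.single i 1 + (4:ℝ) • (Xr *ᵥ Pi.single i 1))
        rw [h6, ← hβ, hFk, ic_add]
        congr 2
        funext j
        have h7 : (Xr *ᵥ ic (Pi.single i 1 : κ → ℤ)) j = (((Matrix.of X *ᵥ Pi.single i 1) j : ℤ) : ℝ) := by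
          simp only [Matrix.mulVec, dotProduct, Xr, Matrix.map_apply, ic_apply]
          push_cast
          rfl
        rw [Pi.smul_apply, h7]
        simp
      exact LinearMap.congr_fun h5 y
    rw [h3, ← map_neg] at hv
    have h4 := Λ.injective hv
    have h5 : (1 + (2:ℝ) • Xr) *ᵥ y = 0 := by
      rw [Matrix.add_mulVec, Matrix.one_mulVec, Matrix.smul_mulVec]
      have h6 : (2:ℝ) • (y + (2:ℝ) • (Xr *ᵥ y)) = 0 := by
        have h7 : y + (4:ℝ) • (Xr *ᵥ y) + y = 0 := by rw [h4]; simp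
        rw [smul_add, smul_smul, ← h7]
        norm_num
        module
      exact (smul_eq_zero.1 h6).resolve_left (by norm_num)
    have h6 : (1 + (2:ℝ) • Xr).det ≠ 0 := by
      have e1 : (1 + (2:ℝ) • Xr) = (Int.castRingHom ℝ).mapMatrix (1 + (2:ℤ) • Matrix.of X) := by
        ext i j
        simp [Xr, Matrix.one_apply]
      rw [e1, ← RingHom.map_det]
      have e2 : (1 + (2:ℤ) • Matrix.of X).det ≠ 0 := by
        intro h0
        have e3 : (Int.castRingHom (ZMod 2)).mapMatrix (1 + (2:ℤ) • Matrix.of X) = 1 := by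
          ext i j
          have : (2 : ZMod 2) = 0 := by decide
          simp [Matrix.one_apply, this]
        have e4 := congrArg Matrix.det e3
        rw [← RingHom.map_det, h0, map_zero, Matrix.det_one] at e4
        exact zero_ne_one e4
      simpa using e2
    rw [Matrix.eq_zero_of_mulVec_eq_zero h6 h5, map_zero]

end Crest.Agent.R272.EChi9_307
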