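import Mathlib

/-!
# Row 272, division E, leaf E-FP, part 1 (helper896): Macbeath's theorem

`G` acts by homeomorphisms on a simply connected, locally path connected space `X`, `U` is open,
connected, nonempty, `G U = X` and `{g | gU meets U}` is finite: then `G` is finitely presented
(`macbeath`).  The key statement is `exists_hom`.
-/

set_option autoImplicit false
set_option linter.unusedSectionVars false
set_option linter.style.haveILetI false

open Topology Bundle Set

namespace Crest.Agent.R272.EFp_896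

variable {X : Type*} [TopologicalSpace X] {G : Type*} [Group G] [MulAction G X]

/-- the chart `gU` -/
def ch (U : Set X) (g : G) : Set X := {x | g⁻¹ • x ∈ U}

theorem mem_ch {U : Set X} {g : G} {x : X} : x ∈ ch U g ↔ g⁻¹ • x ∈ U := Iff.rfl

theorem smul_mem_ch {U : Set X} {g γ : G} {x : X} : γ • x ∈ ch U (γ * g) ↔ x ∈ ch U g := by
  simp only [mem_ch, mul_inv_rev, mul_smul, inv_smul_smul]

theorem isOpen_ch [ContinuousConstSMul G X] {U : Set X} (hU : IsOpen U) (g : G) :
    IsOpen (ch U g) := hU.preimage (continuous_const_smul g⁻¹)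

/-- the relations of the charts -/
def Rels {H : Type*} [Group H] (U : Set X) (h : G → H) : Prop :=
  ∀ s t : G, ∀ x ∈ U, s⁻¹ • x ∈ U → (s * t)⁻¹ • x ∈ U → h s * h t = h (s * t)

theorem Rels.one {H : Type*} [Group H] {U : Set X} {h : G → H} (hr : Rels U h) {x : X}
    (hx : x ∈ U) : h 1 = 1 := by
  have := hr 1 1 x hx (by simpa using hx) (by simpa using hx)
  simpa using this

/-- relation in the form used for the bundle -/
theorem Rels.comp {H : Type*} [Group H] {U : Set X} {h : G → H} (hr : Rels U h) {i j k : G}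
    {x : X} (hi : x ∈ ch U i) (hj : x ∈ ch U j) (hk : x ∈ ch U k) :
    h (i⁻¹ * j) * h (j⁻¹ * k) = h (i⁻¹ * k) := by
  have h1 : (i⁻¹ * j)⁻¹ • i⁻¹ • x ∈ U := by
    rw [← mul_smul]; simpa [mem_ch] using hj
  have h2 : ((i⁻¹ * j) * (j⁻¹ * k))⁻¹ • i⁻¹ • x ∈ U := by
    rw [← mul_smul]; simpa [mem_ch, mul_assoc] using hk
  have := hr (i⁻¹ * j) (j⁻¹ * k) (i⁻¹ • x) hi h1 h2
  simpa [mul_assoc] using this

/-- the `H`-torsor with the transition functions `h (i⁻¹ j)` -/
noncomputable def core [ContinuousConstSMul G X] {U : Set X} (hU : IsOpen U)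
    (hcov : ∀ x : X, ∃ g : G, x ∈ ch U g) {H : Type*} [Group H] [TopologicalSpace H]
    [DiscreteTopology H] (h : G → H) (hr : Rels U h) : FiberBundleCore G X H where
  baseSet g := ch U g
  isOpen_baseSet g := isOpen_ch hU g
  indexAt x := (hcov x).choose
  mem_baseSet_at x := (hcov x).choose_spec
  coordChange i j _ y := y * h (i⁻¹ * j)
  coordChange_self i x hx y := by
    have : h 1 = 1 := hr.one (x := i⁻¹ • x) hx
    simp [this]
  continuousOn_coordChange i j := by
    have : Continuous (fun p : X × H => p.2 * h (i⁻¹ * j)) :=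
      (continuous_of_discreteTopology (f := fun y : H => y * h (i⁻¹ * j))).comp continuous_snd
    exact this.continuousOn
  coordChange_comp i j k x hx y := by
    rw [mul_assoc, hr.comp hx.1.1 hx.1.2 hx.2]

/-- a global section of the torsor -/
theorem exists_section [ContinuousConstSMul G X] [SimplyConnectedSpace X]
    [LocallyPathConnectedSpace X] {U : Set X} (hU : IsOpen U)
    (hcov : ∀ x : X, ∃ g : G, x ∈ ch U g) {H : Type*} [Group H] (h : G → H) (hr : Rels U h)
    (a : X) (ha : a ∈ U) :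
    ∃ φ : G → X → H, φ 1 a = 1 ∧
      (∀ i j x, x ∈ ch U i → x ∈ ch U j → φ j x = φ i x * h (i⁻¹ * j)) ∧
      (∀ i, ∀ x ∈ ch U i, ∀ᶠ y in 𝓝 x, φ i y = φ i x) := by
  letI : TopologicalSpace H := ⊥
  haveI : DiscreteTopology H := ⟨rfl⟩
  let Z := core hU hcov h hr
  have cov : IsCoveringMap (π H Z.Fiber) := FiberBundle.isCoveringMap
  have ha1 : a ∈ ch U (1 : G) := by simpa [mem_ch] using ha
  let y0 : H := (h ((Z.indexAt a : G)⁻¹ * 1))⁻¹
  let e0 : Z.TotalSpace := ⟨a, y0⟩
  obtain ⟨F, ⟨hF0, hF⟩, -⟩ := cov.existsUnique_continuousMap_lifts (ContinuousMap.id X) a e0 rfl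
  have hF' : ∀ x, (F x).1 = x := fun x => congrFun hF x
  refine ⟨fun i x => (Z.localTriv i (F x)).2, ?_, ?_, ?_⟩
  · show (Z.localTriv 1 (F a)).2 = 1
    rw [hF0, Z.localTriv_apply]
    show y0 * h ((Z.indexAt a : G)⁻¹ * 1) = 1
    simp [y0]
  · intro i j x hi hj
    show (Z.localTriv j (F x)).2 = (Z.localTriv i (F x)).2 * h (i⁻¹ * j)
    rw [Z.localTriv_apply, Z.localTriv_apply]
    let y : H := (F x).2
    show y * h ((Z.indexAt (F x).1 : G)⁻¹ * j) =
      y * h ((Z.indexAt (F x).1 : G)⁻¹ * i) * h (i⁻¹ * j)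
    have h1 : (F x).1 ∈ ch U (Z.indexAt (F x).1) := Z.mem_baseSet_at _
    have h2 : (F x).1 ∈ ch U i := by rw [hF']; exact hi
    have h3 : (F x).1 ∈ ch U j := by rw [hF']; exact hj
    rw [mul_assoc, hr.comp h1 h2 h3]
  · intro i x hx
    have hcont : ContinuousAt (fun y => (Z.localTriv i (F y)).2) x := by
      have h1 : ContinuousAt (Z.localTriv i) (F x) := by
        refine (Z.localTriv i).continuousOn_toFun.continuousAt
          ((Z.localTriv i).open_source.mem_nhds ?_)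
        show (F x).1 ∈ ch U i
        rw [hF']; exact hx
      have h2 : ContinuousAt (fun y => Z.localTriv i (F y)) x :=
        ContinuousAt.comp (f := F) h1 F.continuous.continuousAt
      exact continuous_snd.continuousAt.comp h2
    have : {((Z.localTriv i (F x)).2 : H)} ∈ 𝓝 ((Z.localTriv i (F x)).2) := by
      rw [nhds_discrete]; exact Filter.mem_pure.2 rfl
    exact hcont this

/-- two sections of the torsor differ by a constant -/
theorem sections_eq [PreconnectedSpace X] {U : Set X} (hcov : ∀ x : X, ∃ g : G, x ∈ ch U g)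
    {H : Type*} [Group H] (h : G → H) (φ ψ : G → X → H)
    (hφ : ∀ i j x, x ∈ ch U i → x ∈ ch U j → φ j x = φ i x * h (i⁻¹ * j))
    (hψ : ∀ i j x, x ∈ ch U i → x ∈ ch U j → ψ j x = ψ i x * h (i⁻¹ * j))
    (hφ' : ∀ i, ∀ x ∈ ch U i, ∀ᶠ y in 𝓝 x, y ∈ ch U i ∧ φ i y = φ i x)
    (hψ' : ∀ i, ∀ x ∈ ch U i, ∀ᶠ y in 𝓝 x, ψ i y = ψ i x) (a : X) (i₀ : G)
    (ha : a ∈ ch U i₀) (i : G) (x : X) (hx : x ∈ ch U i) :
    ψ i x * (φ i x)⁻¹ = ψ i₀ a * (φ i₀ a)⁻¹ := by
  choose I hI using hcov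
  let D : X → H := fun x => ψ (I x) x * (φ (I x) x)⁻¹
  have key : ∀ j y, y ∈ ch U j → ψ j y * (φ j y)⁻¹ = D y := by
    intro j y hy
    show _ = ψ (I y) y * (φ (I y) y)⁻¹
    rw [hφ (I y) j y (hI y) hy, hψ (I y) j y (hI y) hy]
    group
  have hD : IsLocallyConstant D := by
    rw [IsLocallyConstant.iff_eventually_eq]
    intro x
    filter_upwards [hφ' (I x) x (hI x), hψ' (I x) x (hI x)] with y h1 h2
    rw [← key (I x) y h1.1, h1.2, h2]
  rw [key i x hx, key i₀ a ha]
  exact hD.apply_eq_of_isPreconnected isPreconnected_univ (mem_univ _) (mem_univ _)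

/-- **lifting of homomorphisms defined on the generators `{s | sU meets U}`** -/
theorem exists_hom [ContinuousConstSMul G X] [SimplyConnectedSpace X]
    [LocallyPathConnectedSpace X] {U : Set X} (hU : IsOpen U) (hUc : IsPreconnected U)
    (hcov : ∀ x : X, ∃ g : G, x ∈ ch U g) {H : Type*} [Group H] (h : G → H) (hr : Rels U h) :
    ∃ ρ : G →* H, ∀ s : G, (∃ y ∈ U, s⁻¹ • y ∈ U) → ρ s = h s := by
  obtain ⟨a, ha⟩ : U.Nonempty := by
    obtain ⟨x⟩ : Nonempty X := inferInstance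
    obtain ⟨g, hg⟩ := hcov x
    exact ⟨_, hg⟩
  obtain ⟨φ, hφ1, hφ, hφ'⟩ := exists_section hU hcov h hr a ha
  have ha1 : a ∈ ch U (1 : G) := by simpa [mem_ch] using ha
  have hφ'' : ∀ i, ∀ x ∈ ch U i, ∀ᶠ y in 𝓝 x, y ∈ ch U i ∧ φ i y = φ i x := fun i x hx =>
    Filter.Eventually.and ((isOpen_ch hU i).mem_nhds hx) (hφ' i x hx)
  -- the twisted sections
  have tw : ∀ γ : G, ∀ i x, x ∈ ch U i →
      φ (γ * i) (γ • x) * (φ i x)⁻¹ = φ (γ * 1) (γ • a) * (φ 1 a)⁻¹ := by
    intro γ i x hx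
    refine sections_eq hcov h φ (fun i x => φ (γ * i) (γ • x)) hφ ?_ hφ'' ?_ a 1 ha1 i x hx
    · intro i j x hi hj
      have := hφ (γ * i) (γ * j) (γ • x) (smul_mem_ch.2 hi) (smul_mem_ch.2 hj)
      simpa [mul_assoc] using this
    · intro i x hx
      have := hφ' (γ * i) (γ • x) (smul_mem_ch.2 hx)
      exact (continuous_const_smul γ).continuousAt.eventually this
  let ρ : G → H := fun γ => φ γ (γ • a)
  have hρ : ∀ γ i x, x ∈ ch U i → φ (γ * i) (γ • x) = ρ γ * φ i x := by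
    intro γ i x hx
    have := tw γ i x hx
    rw [hφ1] at this
    rw [mul_inv_eq_iff_eq_mul] at this
    simpa [ρ] using this
  have hmul : ∀ γ δ, ρ (γ * δ) = ρ γ * ρ δ := by
    intro γ δ
    have h1 : δ • a ∈ ch U (δ * 1) := smul_mem_ch.2 ha1
    have := hρ γ (δ * 1) (δ • a) h1
    simpa [ρ, mul_smul] using this
  have hone : ρ 1 = 1 := by simpa [ρ] using hφ1
  -- `φ 1` is constant on `U`
  have hconst : ∀ x ∈ U, φ 1 x = 1 := by
    intro x hx
    letI : TopologicalSpace H := ⊥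
    haveI : DiscreteTopology H := ⟨rfl⟩
    have hc : ContinuousOn (φ 1) U := by
      intro y hy
      have hy1 : y ∈ ch U (1 : G) := by simpa [mem_ch] using hy
      have := hφ' 1 y hy1
      refine ContinuousAt.continuousWithinAt ?_
      rw [ContinuousAt, nhds_discrete H, Filter.tendsto_pure]
      exact this
    have := hUc.constant hc hx ha
    rw [this, hφ1]
  refine ⟨{ toFun := ρ, map_one' := hone, map_mul' := hmul }, ?_⟩
  rintro s ⟨y, hy, hsy⟩
  show ρ s = h s
  have hy1 : y ∈ ch U (1 : G) := by simpa [mem_ch] using hy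
  have hs1 : s⁻¹ • y ∈ ch U (1 : G) := by simpa [mem_ch] using hsy
  have e1 : φ s y = φ 1 y * h (1⁻¹ * s) := hφ 1 s y hy1 hsy
  have e2 := hρ s 1 (s⁻¹ • y) hs1
  rw [mul_one, smul_inv_smul, e1, hconst y hy, hconst _ hsy] at e2
  simpa using e2.symm

/-- **Macbeath's theorem** -/
theorem macbeath [ContinuousConstSMul G X] [SimplyConnectedSpace X]
    [LocallyPathConnectedSpace X] {U : Set X} (hU : IsOpen U) (hUc : IsPreconnected U)
    (hcov : ∀ x : X, ∃ g : G, g⁻¹ • x ∈ U) (hfin : {g : G | ∃ y ∈ U, g⁻¹ • y ∈ U}.Finite) :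
    Group.IsFinitelyPresented G := by
  classical
  obtain ⟨a, ha⟩ : U.Nonempty := by
    obtain ⟨x⟩ : Nonempty X := inferInstance
    obtain ⟨g, hg⟩ := hcov x
    exact ⟨_, hg⟩
  set S : Set G := {g : G | ∃ y ∈ U, g⁻¹ • y ∈ U} with hS
  haveI : Finite S := hfin
  let T : S → S → Prop := fun s t => ∃ x ∈ U, (s : G)⁻¹ • x ∈ U ∧ ((s : G) * t)⁻¹ • x ∈ U
  have hT : ∀ s t, T s t → (s : G) * t ∈ S := fun s t ⟨x, h1, _, h3⟩ => ⟨x, h1, h3⟩
  -- the relations
  let rel : {p : S × S // T p.1 p.2} → FreeGroup S := fun p =>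
    FreeGroup.of p.1.1 * FreeGroup.of p.1.2 *
      (FreeGroup.of ⟨(p.1.1 : G) * p.1.2, hT _ _ p.2⟩)⁻¹
  let R : Set (FreeGroup S) := range rel
  haveI : Finite R := (Set.finite_range rel)
  let P := PresentedGroup R
  let pr : P →* G := PresentedGroup.toGroup (f := fun s : S => (s : G)) (by
    rintro _ ⟨⟨⟨s, t⟩, hst⟩, rfl⟩
    simp [rel])
  have hq : ∀ s : S, pr (PresentedGroup.of s) = s := fun s => PresentedGroup.toGroup.of _
  let h : G → P := fun g => if hg : g ∈ S then PresentedGroup.of ⟨g, hg⟩ else 1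
  have hr : Rels U h := by
    intro s t x hx hsx hstx
    have hs : s ∈ S := ⟨x, hx, hsx⟩
    have ht : t ∈ S := by
      refine ⟨s⁻¹ • x, hsx, ?_⟩
      rw [← mul_smul, ← mul_inv_rev]; exact hstx
    have hst : s * t ∈ S := ⟨x, hx, hstx⟩
    have hTst : T ⟨s, hs⟩ ⟨t, ht⟩ := ⟨x, hx, hsx, hstx⟩
    have h1 : PresentedGroup.mk R (rel ⟨(⟨s, hs⟩, ⟨t, ht⟩), hTst⟩) = 1 :=
      PresentedGroup.one_of_mem ⟨_, rfl⟩
    have h2 : (PresentedGroup.of ⟨s, hs⟩ * PresentedGroup.of ⟨t, ht⟩ *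
        (PresentedGroup.of ⟨s * t, hst⟩)⁻¹ : P) = 1 := h1
    simp only [h, dif_pos hs, dif_pos ht, dif_pos hst]
    exact mul_inv_eq_one.1 h2
  obtain ⟨ρ, hρ⟩ := exists_hom hU hUc hcov h hr
  have hρq : ρ.comp pr = MonoidHom.id P := by
    refine PresentedGroup.ext ?_
    rintro ⟨s, hs⟩
    show ρ (pr (PresentedGroup.of ⟨s, hs⟩)) = PresentedGroup.of ⟨s, hs⟩
    rw [hq]
    show ρ s = _
    rw [hρ s hs]
    simp [h, hs]
  have hinj : Function.Injective pr := by
    intro x y hxy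
    have := congrArg ρ hxy
    have e : ∀ z, ρ (pr z) = z := fun z => DFunLike.congr_fun hρq z
    rwa [e, e] at this
  have hgen : ∀ g : G, g ∈ Subgroup.closure S := by
    set K := Subgroup.closure S
    let A : Set X := ⋃ g ∈ (K : Set G), ch U g
    let B : Set X := ⋃ g ∈ ((K : Set G))ᶜ, ch U g
    have hA : IsOpen A := isOpen_biUnion fun g _ => isOpen_ch hU g
    have hB : IsOpen B := isOpen_biUnion fun g _ => isOpen_ch hU g
    have hAB : (univ : Set X) ⊆ A ∪ B := by
      intro x _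
      obtain ⟨g, hg⟩ := hcov x
      by_cases hgK : g ∈ (K : Set G)
      · exact Or.inl (mem_biUnion hgK hg)
      · exact Or.inr (mem_biUnion hgK hg)
    intro g
    by_contra hg
    have hAne : ((univ : Set X) ∩ A).Nonempty :=
      ⟨a, mem_univ _, mem_biUnion (show (1 : G) ∈ (K : Set G) from K.one_mem)
        (by simpa [mem_ch] using ha)⟩
    have hBne : ((univ : Set X) ∩ B).Nonempty :=
      ⟨g • a, mem_univ _, mem_biUnion (show g ∈ ((K : Set G))ᶜ from hg)
        (by simpa [mem_ch] using ha)⟩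
    obtain ⟨x, -, hxA, hxB⟩ := isPreconnected_univ A B hA hB hAB hAne hBne
    simp only [A, B, mem_iUnion, exists_prop] at hxA hxB
    obtain ⟨k, hk, hkx⟩ := hxA
    obtain ⟨l, hl, hlx⟩ := hxB
    apply hl
    have : k⁻¹ * l ∈ S := by
      refine ⟨k⁻¹ • x, hkx, ?_⟩
      rw [← mul_smul]; simpa [mem_ch] using hlx
    have h2 := K.mul_mem hk (Subgroup.subset_closure this)
    simpa using h2
  have hsurj : Function.Surjective pr := by
    intro g
    have : (⊤ : Subgroup G) ≤ pr.range := by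
      intro g _
      refine (Subgroup.closure_le _).2 ?_ (hgen g)
      intro s hs
      exact ⟨PresentedGroup.of ⟨s, hs⟩, hq ⟨s, hs⟩⟩
    exact this (Subgroup.mem_top g)
  exact Group.IsFinitelyPresented.equiv (MulEquiv.ofBijective pr ⟨hinj, hsurj⟩)

end Crest.Agent.R272.EFp_896
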