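import Mathlib

/-!
# Row 272, division E, leaf E-FP, part 2 (helper896): limits of decomposable cocycles

`IsCoc c` : real 2-cocycles.  `Dec H c` : on the subgroup `H` the cocycle is a finite sum of cup
products of homomorphisms `H → ℝ` plus a coboundary.  `dec_lim` : `G` finitely presented,
`c N → c` pointwise, every `c N` decomposable on some subgroup of finite index: then `c` is
decomposable on one subgroup of finite index.
-/

set_option autoImplicit false
set_option linter.unusedSectionVars false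
set_option linter.style.haveILetI false

open Filter Topology

namespace Crest.Agent.R272.EFp_896

/-! ## central extensions -/

/-- 2-cocycles with values in an abelian group with trivial action -/
def IsCocA {G A : Type*} [Group G] [AddCommGroup A] (c : G → G → A) : Prop :=
  ∀ g h k, c g h + c (g * h) k = c h k + c g (h * k)

section ext
variable {G A : Type*} [Group G] [AddCommGroup A]

theorem IsCocA.one_left {c : G → G → A} (hc : IsCocA c) (h0 : c 1 1 = 0) (h : G) :
    c 1 h = 0 := by
  have := hc 1 1 h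
  simp only [one_mul, h0, zero_add] at this
  simpa using this

theorem IsCocA.one_right {c : G → G → A} (hc : IsCocA c) (h0 : c 1 1 = 0) (g : G) :
    c g 1 = 0 := by
  have := hc g 1 1
  simp only [mul_one, h0, zero_add] at this
  simpa using this

/-- the central extension of a normalised cocycle -/
@[ext] structure Ext (c : G → G → A) where
  fst : G
  snd : A

/-- group law of the extension -/
@[reducible] def Ext.group {c : G → G → A} (hc : IsCocA c) (h0 : c 1 1 = 0) : Group (Ext c) where
  mul x y := ⟨x.fst * y.fst, x.snd + y.snd + c x.fst y.fst⟩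
  one := ⟨1, 0⟩
  inv x := ⟨x.fst⁻¹, -x.snd - c x.fst⁻¹ x.fst⟩
  mul_assoc x y z := by
    show Ext.mk _ _ = Ext.mk _ _
    congr 1
    · exact mul_assoc _ _ _
    · show x.snd + y.snd + c x.fst y.fst + z.snd + c (x.fst * y.fst) z.fst =
        x.snd + (y.snd + z.snd + c y.fst z.fst) + c x.fst (y.fst * z.fst)
      have h1 := hc x.fst y.fst z.fst
      have : x.snd + y.snd + c x.fst y.fst + z.snd + c (x.fst * y.fst) z.fst =
        x.snd + y.snd + z.snd + (c x.fst y.fst + c (x.fst * y.fst) z.fst) := by abel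
      rw [this, h1]; abel
  one_mul x := by
    show Ext.mk _ _ = x
    ext
    · exact one_mul _
    · show 0 + x.snd + c 1 x.fst = x.snd
      rw [hc.one_left h0]; simp
  mul_one x := by
    show Ext.mk _ _ = x
    ext
    · exact mul_one _
    · show x.snd + 0 + c x.fst 1 = x.snd
      rw [hc.one_right h0]; simp
  inv_mul_cancel x := by
    show Ext.mk _ _ = Ext.mk _ _
    congr 1
    · exact inv_mul_cancel _
    · show -x.snd - c x.fst⁻¹ x.fst + x.snd + c x.fst⁻¹ x.fst = 0
      abel

/-- lifting of generators: `u (w w') = u w + u w' + c (p w) (p w')`, `u = 0` on generators -/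
theorem exists_u {S : Type*} (p : FreeGroup S →* G) {c : G → G → A} (hc : IsCocA c)
    (h0 : c 1 1 = 0) :
    ∃ u : FreeGroup S → A, u 1 = 0 ∧ (∀ s, u (FreeGroup.of s) = 0) ∧
      ∀ w w', u (w * w') = u w + u w' + c (p w) (p w') := by
  letI := Ext.group hc h0
  let Φ : FreeGroup S →* Ext c := FreeGroup.lift fun s => ⟨p (FreeGroup.of s), 0⟩
  let q : Ext c →* G := { toFun := Ext.fst, map_one' := rfl, map_mul' := fun _ _ => rfl }
  have hq : ∀ w, (Φ w).fst = p w := by
    have : q.comp Φ = p := by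
      ext s
      show (Φ (FreeGroup.of s)).fst = _
      simp [Φ]
    exact fun w => DFunLike.congr_fun this w
  refine ⟨fun w => (Φ w).snd, ?_, ?_, ?_⟩
  · show (Φ 1).snd = 0
    rw [map_one]; rfl
  · intro s
    show (Φ (FreeGroup.of s)).snd = 0
    simp [Φ]
  · intro w w'
    show (Φ (w * w')).snd = _
    rw [map_mul]
    show (Φ w).snd + (Φ w').snd + c (Φ w).fst (Φ w').fst = _
    rw [hq, hq]

/-- if `u` vanishes on normal generators of `ker p` the cocycle is a coboundary -/
theorem coboundary_of_u {S : Type*} (p : FreeGroup S →* G) (hp : Function.Surjective p)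
    {c : G → G → A} (hc : IsCocA c) (h0 : c 1 1 = 0) (u : FreeGroup S → A) (hu1 : u 1 = 0)
    (hu : ∀ w w', u (w * w') = u w + u w' + c (p w) (p w')) (R : Set (FreeGroup S))
    (hR : Subgroup.normalClosure R = p.ker) (hRu : ∀ r ∈ R, u r = 0) :
    ∃ f : G → A, ∀ g h, c g h = f g + f h - f (g * h) := by
  letI := Ext.group hc h0
  let Φ : FreeGroup S →* Ext c :=
    { toFun := fun w => ⟨p w, u w⟩
      map_one' := by
        show Ext.mk _ _ = Ext.mk _ _
        rw [map_one, hu1]
      map_mul' := fun w w' => by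
        show Ext.mk _ _ = Ext.mk _ _
        rw [map_mul, hu] }
  have hΦ : p.ker ≤ Φ.ker := by
    rw [← hR]
    refine Subgroup.normalClosure_le_normal ?_
    intro r hr
    show Φ r = 1
    have hpr : p r = 1 := by
      have : r ∈ p.ker := hR ▸ Subgroup.subset_normalClosure hr
      exact this
    show Ext.mk _ _ = Ext.mk _ _
    rw [hpr, hRu r hr]
  have key : ∀ w w', p w = p w' → u w = u w' := by
    intro w w' h
    have h1 : w⁻¹ * w' ∈ p.ker := by
      rw [MonoidHom.mem_ker, map_mul, map_inv, h]; simp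
    have h2 : Φ w = Φ w' := by
      have : Φ (w⁻¹ * w') = 1 := hΦ h1
      rw [map_mul, map_inv] at this
      exact inv_mul_eq_one.1 this
    exact congrArg Ext.snd h2
  choose σ hσ using hp
  refine ⟨fun g => - u (σ g), fun g h => ?_⟩
  have : u (σ (g * h)) = u (σ g * σ h) := key _ _ (by rw [hσ, map_mul, hσ, hσ])
  show c g h = -u (σ g) + -u (σ h) - -u (σ (g * h))
  rw [this, hu, hσ, hσ]
  abel

end ext

/-! ## real cocycles -/

variable {G : Type*} [Group G]

/-- real 2-cocycles -/
def IsCoc (c : G → G → ℝ) : Prop := ∀ g h k, c g h + c (g * h) k = c h k + c g (h * k)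

/-- decomposable on the subgroup `H` -/
def Dec (H : Subgroup G) (c : G → G → ℝ) : Prop :=
  ∃ (m : ℕ) (α β : Fin m → (H →* Multiplicative ℝ)) (f : H → ℝ), ∀ g h : H,
    c g h = ∑ i, (α i g).toAdd * (β i h).toAdd + f g + f h - f (g * h)

theorem Dec.mono {H K : Subgroup G} (hKH : K ≤ H) {c : G → G → ℝ} (hc : Dec H c) : Dec K c := by
  obtain ⟨m, α, β, f, hf⟩ := hc
  refine ⟨m, fun i => (α i).comp (Subgroup.inclusion hKH),
    fun i => (β i).comp (Subgroup.inclusion hKH), fun g => f (Subgroup.inclusion hKH g), ?_⟩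
  intro g h
  have := hf (Subgroup.inclusion hKH g) (Subgroup.inclusion hKH h)
  simpa using this

theorem Dec.add {H : Subgroup G} {c c' : G → G → ℝ} (hc : Dec H c) (hc' : Dec H c') :
    Dec H (fun g h => c g h + c' g h) := by
  obtain ⟨m, α, β, f, hf⟩ := hc
  obtain ⟨m', α', β', f', hf'⟩ := hc'
  refine ⟨m + m', Fin.append α α', Fin.append β β', fun g => f g + f' g, ?_⟩
  intro g h
  show c g h + c' g h = _
  rw [hf, hf', Fin.sum_univ_add]
  simp only [Fin.append_left, Fin.append_right]
  ring

theorem Dec.smul {H : Subgroup G} {c : G → G → ℝ} (a : ℝ) (hc : Dec H c) :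
    Dec H (fun g h => a * c g h) := by
  obtain ⟨m, α, β, f, hf⟩ := hc
  let μ : Multiplicative ℝ →* Multiplicative ℝ := (AddMonoidHom.mulLeft a).toMultiplicative
  refine ⟨m, fun i => μ.comp (α i), β, fun g => a * f g, ?_⟩
  intro g h
  show a * c g h = _
  rw [hf]
  have : ∀ i, ((μ.comp (α i)) g).toAdd = a * (α i g).toAdd := fun i => rfl
  simp only [this]
  rw [show ∑ i, a * (α i g).toAdd * (β i h).toAdd = a * ∑ i, (α i g).toAdd * (β i h).toAdd by
    rw [Finset.mul_sum]; exact Finset.sum_congr rfl fun i _ => by ring]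
  ring

/-- coboundaries are decomposable -/
theorem Dec.coboundary (H : Subgroup G) {c : G → G → ℝ} (f : G → ℝ)
    (hf : ∀ g h, c g h = f g + f h - f (g * h)) : Dec H c :=
  ⟨0, Fin.elim0, Fin.elim0, fun g => f g, fun g h => by simp [hf]⟩

/-- one cup product -/
theorem Dec.cup (H : Subgroup G) {c : G → G → ℝ} (α β : H →* Multiplicative ℝ)
    (h : ∀ g h : H, c g h = (α g).toAdd * (β h).toAdd) : Dec H c :=
  ⟨1, fun _ => α, fun _ => β, fun _ => 0, fun g h' => by simp [h]⟩

theorem Dec.congr {H : Subgroup G} {c c' : G → G → ℝ} (h : ∀ g ∈ H, ∀ k ∈ H, c' g k = c g k)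
    (hc : Dec H c) : Dec H c' := by
  obtain ⟨m, α, β, f, hf⟩ := hc
  exact ⟨m, α, β, f, fun g k => by rw [h g g.2 k k.2, hf]⟩

/-- virtually decomposable -/
def VDec (c : G → G → ℝ) : Prop := ∃ H : Subgroup G, H.FiniteIndex ∧ Dec H c

theorem VDec.add {c c' : G → G → ℝ} (hc : VDec c) (hc' : VDec c') :
    VDec (fun g h => c g h + c' g h) := by
  obtain ⟨H, hH, h1⟩ := hc
  obtain ⟨K, hK, h2⟩ := hc'
  exact ⟨H ⊓ K, inferInstance, (h1.mono inf_le_left).add (h2.mono inf_le_right)⟩

theorem VDec.smul {c : G → G → ℝ} (a : ℝ) (hc : VDec c) : VDec (fun g h => a * c g h) := by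
  obtain ⟨H, hH, h1⟩ := hc
  exact ⟨H, hH, h1.smul a⟩

theorem VDec.coboundary {c : G → G → ℝ} (f : G → ℝ)
    (hf : ∀ g h, c g h = f g + f h - f (g * h)) : VDec c :=
  ⟨⊤, inferInstance, Dec.coboundary ⊤ f hf⟩

/-- the space of normalised cocycles -/
def NCoc (G : Type*) [Group G] : Submodule ℝ (G → G → ℝ) where
  carrier := {c | IsCoc c ∧ c 1 1 = 0}
  add_mem' := by
    rintro a b ⟨ha, ha0⟩ ⟨hb, hb0⟩
    refine ⟨fun g h k => ?_, by simp [ha0, hb0]⟩
    have h1 := ha g h k
    have h2 := hb g h k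
    simp only [Pi.add_apply]
    linarith
  zero_mem' := ⟨fun _ _ _ => by simp, rfl⟩
  smul_mem' := by
    rintro r a ⟨ha, ha0⟩
    refine ⟨fun g h k => ?_, by simp [ha0]⟩
    have h1 := ha g h k
    simp only [Pi.smul_apply, smul_eq_mul]
    rw [← mul_add, ← mul_add, h1]

/-- the subspace of virtually decomposable cocycles -/
def DCoc (G : Type*) [Group G] : Submodule ℝ (NCoc G) where
  carrier := {c | VDec (c : G → G → ℝ)}
  add_mem' := by
    intro a b ha hb
    exact VDec.add ha hb
  zero_mem' := VDec.coboundary (fun _ => 0) (fun g h => by simp)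
  smul_mem' := by
    intro r a ha
    exact VDec.smul r ha

/-- functionals on `NCoc G` which are linear and sequentially continuous for pointwise
convergence -/
def LF (G : Type*) [Group G] : AddSubgroup (NCoc G → ℝ) where
  carrier := {l | (∀ a b, l (a + b) = l a + l b) ∧ (∀ (r : ℝ) a, l (r • a) = r * l a) ∧
    ∀ (s : ℕ → NCoc G) (a : NCoc G), (∀ g h, Tendsto (fun n => (s n : G → G → ℝ) g h) atTop
      (𝓝 ((a : G → G → ℝ) g h))) → Tendsto (fun n => l (s n)) atTop (𝓝 (l a))}
  add_mem' := by
    rintro l l' ⟨h1, h2, h3⟩ ⟨h1', h2', h3'⟩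
    refine ⟨fun a b => ?_, fun r a => ?_, fun s a hs => (h3 s a hs).add (h3' s a hs)⟩
    · simp only [Pi.add_apply]; rw [h1, h1']; ring
    · simp only [Pi.add_apply]; rw [h2, h2']; ring
  zero_mem' := ⟨fun _ _ => by simp, fun _ _ => by simp, fun _ _ _ => tendsto_const_nhds⟩
  neg_mem' := by
    rintro l ⟨h1, h2, h3⟩
    refine ⟨fun a b => ?_, fun r a => ?_, fun s a hs => (h3 s a hs).neg⟩
    · simp only [Pi.neg_apply]; rw [h1]; ring
    · simp only [Pi.neg_apply]; rw [h2]; ring

/-- the universal cocycle -/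
def cu (G : Type*) [Group G] : G → G → (NCoc G → ℝ) := fun g h c => (c : G → G → ℝ) g h

theorem cu_mem (g h : G) : cu G g h ∈ LF G :=
  ⟨fun _ _ => rfl, fun _ _ => rfl, fun _ _ hs => hs g h⟩

theorem cu_coc : IsCocA (cu G) := by
  intro g h k
  funext c
  exact c.2.1 g h k

theorem cu_one : cu G 1 1 = 0 := by
  funext c
  exact c.2.2

theorem closed_sub {ι : Type*} [Fintype ι] (W : Submodule ℝ (ι → ℝ)) :
    IsClosed (W : Set (ι → ℝ)) := Submodule.closed_of_finiteDimensional W

/-- **limits of virtually decomposable cocycles of a finitely presented group**, normalised -/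
theorem dec_lim_norm [hG : Group.IsFinitelyPresented G] (s : ℕ → NCoc G) (a : NCoc G)
    (hs : ∀ n, VDec (s n : G → G → ℝ))
    (hlim : ∀ g h, Tendsto (fun n => (s n : G → G → ℝ) g h) atTop
      (𝓝 ((a : G → G → ℝ) g h))) : VDec (a : G → G → ℝ) := by
  obtain ⟨n, p, hp, R, hRf, hR⟩ := hG.out
  haveI : Finite R := hRf
  haveI : Fintype R := Fintype.ofFinite R
  obtain ⟨u, hu1, hus, hu⟩ := exists_u p (cu_coc (G := G)) cu_one
  have huL : ∀ w, u w ∈ LF G := by
    intro w
    induction w using FreeGroup.induction_on with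
    | C1 => rw [hu1]; exact (LF G).zero_mem
    | of x => rw [hus]; exact (LF G).zero_mem
    | inv_of x _ =>
      have h1 := hu (FreeGroup.of x) (FreeGroup.of x)⁻¹
      rw [mul_inv_cancel, hu1, hus, zero_add] at h1
      have h2 : u (FreeGroup.of x)⁻¹ = -(cu G (p (FreeGroup.of x)) (p (FreeGroup.of x)⁻¹)) :=
        eq_neg_of_add_eq_zero_left h1.symm
      rw [h2]
      exact (LF G).neg_mem (cu_mem _ _)
    | mul x y hx hy =>
      rw [hu]
      exact (LF G).add_mem ((LF G).add_mem hx hy) (cu_mem _ _)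
  let ev : NCoc G →ₗ[ℝ] (R → ℝ) :=
    { toFun := fun c r => u r c
      map_add' := fun c c' => by funext r; exact (huL r).1 c c'
      map_smul' := fun t c => by funext r; exact (huL r).2.1 t c }
  have hcl : IsClosed ((Submodule.map ev (DCoc G) : Submodule ℝ (R → ℝ)) : Set (R → ℝ)) :=
    closed_sub _
  have hmem : ev a ∈ Submodule.map ev (DCoc G) := by
    refine hcl.mem_of_tendsto (b := atTop) (f := fun n => ev (s n)) ?_ ?_
    · rw [tendsto_pi_nhds]
      intro r
      exact (huL r).2.2 s a hlim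
    · exact Eventually.of_forall fun n => Submodule.mem_map_of_mem (hs n)
  obtain ⟨c', hc', hev⟩ := hmem
  -- the difference is a coboundary
  have h0 : ev (a - c') = 0 := by rw [map_sub, hev, sub_self]
  have hu' : ∀ w w', u (w * w') (a - c') =
      u w (a - c') + u w' (a - c') + ((a - c' : NCoc G) : G → G → ℝ) (p w) (p w') := by
    intro w w'
    have := congrFun (hu w w') (a - c')
    exact this
  have hcoc : IsCocA ((a - c' : NCoc G) : G → G → ℝ) := (a - c').2.1
  obtain ⟨f, hf⟩ := coboundary_of_u p hp hcoc (a - c').2.2 (fun w => u w (a - c'))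
    (congrFun hu1 _) hu' R hR (fun r hr => congrFun h0 ⟨r, hr⟩)
  have h1 : VDec ((a - c' : NCoc G) : G → G → ℝ) := VDec.coboundary f hf
  have h2 := VDec.add h1 hc'
  have e : (fun g h => ((a - c' : NCoc G) : G → G → ℝ) g h + (c' : G → G → ℝ) g h) =
      (a : G → G → ℝ) := by
    funext g h
    simp
  rw [e] at h2
  exact h2

theorem IsCoc.of_tendsto {c : ℕ → G → G → ℝ} {a : G → G → ℝ} (hc : ∀ n, IsCoc (c n))
    (hlim : ∀ g h, Tendsto (fun n => c n g h) atTop (𝓝 (a g h))) : IsCoc a := by
  intro g h k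
  refine tendsto_nhds_unique ((hlim g h).add (hlim (g * h) k)) ?_
  refine ((hlim h k).add (hlim g (h * k))).congr fun n => ?_
  exact (hc n g h k).symm

/-- **limits of virtually decomposable cocycles of a finitely presented group** -/
theorem dec_lim [hG : Group.IsFinitelyPresented G] (c : ℕ → G → G → ℝ) (a : G → G → ℝ)
    (hc : ∀ n, IsCoc (c n)) (hs : ∀ n, VDec (c n))
    (hlim : ∀ g h, Tendsto (fun n => c n g h) atTop (𝓝 (a g h))) : VDec a := by
  have ha : IsCoc a := IsCoc.of_tendsto hc hlim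
  have norm : ∀ b : G → G → ℝ, IsCoc b → (fun g h => b g h - b 1 1) ∈ NCoc G := by
    intro b hb
    refine ⟨fun g h k => ?_, by simp⟩
    have := hb g h k
    show b g h - b 1 1 + (b (g * h) k - b 1 1) = b h k - b 1 1 + (b g (h * k) - b 1 1)
    linarith
  have vn : ∀ b : G → G → ℝ, VDec b → VDec (fun g h => b g h - b 1 1) := by
    intro b hb
    have h1 : VDec (fun _ _ : G => -b 1 1) :=
      VDec.coboundary (fun _ => -b 1 1) (fun _ _ => by ring)
    simpa [sub_eq_add_neg] using hb.add h1
  have h1 : VDec (fun g h => a g h - a 1 1) :=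
    dec_lim_norm (fun n => ⟨_, norm (c n) (hc n)⟩) ⟨_, norm a ha⟩ (fun n => vn _ (hs n))
      (fun g h => (hlim g h).sub (hlim 1 1))
  have h2 : VDec (fun _ _ : G => a 1 1) :=
    VDec.coboundary (fun _ => a 1 1) (fun _ _ => by ring)
  simpa using h1.add h2

end Crest.Agent.R272.EFp_896
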