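import Crest.Agent.R272.EFp1_896
import Crest.Agent.R272.E5_528

/-!
# Finite presentation of groups acting properly and cocompactly

Adapters of `macbeath`: cocompact form, form for an open convex set of a finite dimensional
real normed space (raw maps, no `MulAction` instance on the subtype), `Pres` form of `E5_528`.
-/

namespace Crest.Agent.R272.EFp_896

open Topology Set

/-- Mathlib's finite presentation gives the structure `Pres` of `E5_528`. -/
theorem nonempty_pres (G : Type*) [Group G] [h : Group.IsFinitelyPresented G] :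
    Nonempty (E5_528.Pres G) := by
  obtain ⟨n, φ, hφ, s, hs, hsφ⟩ := h.out
  exact ⟨{ S := Fin n, fin := inferInstance, π := φ, surj := hφ, R := hs.toFinset
           ker := by simpa using hsφ.symm }⟩

section nhd

variable {X : Type*} [TopologicalSpace X] [LocallyConnectedSpace X] [WeaklyLocallyCompactSpace X]

theorem exists_small (x : X) : ∃ V : Set X, IsOpen V ∧ IsPreconnected V ∧ x ∈ V ∧
    ∃ L : Set X, IsCompact L ∧ V ⊆ L := by
  obtain ⟨C, hC, hx⟩ := exists_compact_mem_nhds x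
  refine ⟨connectedComponentIn (interior C) x, isOpen_interior.connectedComponentIn,
    isPreconnected_connectedComponentIn, mem_connectedComponentIn (mem_interior_iff_mem_nhds.2 hx),
    C, hC, (connectedComponentIn_subset _ _).trans interior_subset⟩

/-- in a connected, locally connected, locally compact space every compact set is contained in a
connected open set with compact closure (contained in a compact set) -/
theorem exists_connected_nhd [PreconnectedSpace X] {K : Set X} (hK : IsCompact K) :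
    ∃ U : Set X, IsOpen U ∧ IsPreconnected U ∧ K ⊆ U ∧ ∃ L : Set X, IsCompact L ∧ U ⊆ L := by
  rcases isEmpty_or_nonempty X with hX | ⟨⟨x0⟩⟩
  · exact ⟨∅, isOpen_empty, isPreconnected_empty, fun x => (hX.false x).elim, ∅, isCompact_empty,
      subset_rfl⟩
  set A : Set X := {x | ∃ U : Set X, IsOpen U ∧ IsPreconnected U ∧ x0 ∈ U ∧ x ∈ U ∧
    ∃ L : Set X, IsCompact L ∧ U ⊆ L} with hA
  have h0 : x0 ∈ A := by
    obtain ⟨V, h1, h2, h3, h4⟩ := exists_small x0
    exact ⟨V, h1, h2, h3, h3, h4⟩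
  have hAo : IsOpen A := by
    rw [isOpen_iff_forall_mem_open]
    rintro x ⟨U, h1, h2, h3, h4, h5⟩
    exact ⟨U, fun y hy => ⟨U, h1, h2, h3, hy, h5⟩, h1, h4⟩
  have hAc : IsClosed A := by
    rw [← closure_subset_iff_isClosed]
    intro y hy
    obtain ⟨V, v1, v2, v3, L, v4, v5⟩ := exists_small y
    obtain ⟨x, hxV, U, h1, h2, h3, h4, L', h5, h6⟩ := mem_closure_iff.1 hy V v1 v3
    exact ⟨U ∪ V, h1.union v1, h2.union x h4 hxV v2, Or.inl h3, Or.inr v3, L' ∪ L, h5.union v4,
      union_subset_union h6 v5⟩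
  have hAu : A = univ := IsClopen.eq_univ ⟨hAc, hAo⟩ ⟨x0, h0⟩
  have hall : ∀ x : X, ∃ U : Set X, IsOpen U ∧ IsPreconnected U ∧ x0 ∈ U ∧ x ∈ U ∧
      ∃ L : Set X, IsCompact L ∧ U ⊆ L := fun x => by
    have : x ∈ A := hAu ▸ mem_univ x
    exact this
  choose U h1 h2 h3 h4 L h5 h6 using hall
  obtain ⟨t, -, ht⟩ := hK.elim_nhds_subcover U fun x _ => (h1 x).mem_nhds (h4 x)
  refine ⟨⋃ x ∈ t, U x, isOpen_biUnion fun x _ => h1 x, ?_, ht, ⋃ x ∈ t, L x,
    t.isCompact_biUnion fun x _ => h5 x, iUnion₂_mono fun x _ => h6 x⟩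
  have hS : (⋃ x ∈ t, U x) = ⋃₀ (U '' (t : Set X)) := by
    rw [sUnion_image]; rfl
  rw [hS]
  refine isPreconnected_sUnion x0 _ ?_ ?_
  · rintro _ ⟨x, -, rfl⟩; exact h3 x
  · rintro _ ⟨x, -, rfl⟩; exact h2 x

end nhd

/-- **Cocompact form.** -/
theorem fp_of_cocompact {X : Type*} [TopologicalSpace X] {G : Type*} [Group G] [MulAction G X]
    [ContinuousConstSMul G X] [SimplyConnectedSpace X] [LocallyPathConnectedSpace X]
    [WeaklyLocallyCompactSpace X] {K : Set X} (hK : IsCompact K) (hcov : ∀ x : X, ∃ g : G, g • x ∈ K)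
    (hfin : ∀ L : Set X, IsCompact L → {g : G | ∃ y ∈ L, g • y ∈ L}.Finite) :
    Group.IsFinitelyPresented G := by
  obtain ⟨U, hU, hUc, hKU, L, hL, hUL⟩ := exists_connected_nhd hK
  refine macbeath (X := X) (G := G) hU hUc (fun x => ?_) ?_
  · obtain ⟨g, hg⟩ := hcov x
    exact ⟨g⁻¹, by simpa using hKU hg⟩
  · refine (hfin L hL).subset ?_
    rintro g ⟨y, hy, hgy⟩
    exact ⟨g⁻¹ • y, hUL hgy, by simpa using hUL hy⟩

/-- **Raw form on a convex open set** of a finite dimensional real normed space. -/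
theorem fp_convex {E : Type*} [NormedAddCommGroup E] [NormedSpace ℝ E] [FiniteDimensional ℝ E]
    {Ω : Set E} (hΩ : IsOpen Ω) (hconv : Convex ℝ Ω) (hne : Ω.Nonempty)
    {G : Type*} [Group G] (ρ : G → E → E)
    (hcont : ∀ g, ContinuousOn (ρ g) Ω) (hmaps : ∀ g, MapsTo (ρ g) Ω Ω)
    (hone : ∀ x ∈ Ω, ρ 1 x = x) (hmul : ∀ g h, ∀ x ∈ Ω, ρ (g * h) x = ρ g (ρ h x))
    {K : Set E} (hK : IsCompact K) (hKΩ : K ⊆ Ω) (hcov : ∀ x ∈ Ω, ∃ g, ρ g x ∈ K)
    (hfin : ∀ L ⊆ Ω, IsCompact L → {g : G | ∃ y ∈ L, ρ g y ∈ L}.Finite) :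
    Group.IsFinitelyPresented G := by
  letI : MulAction G Ω :=
    { smul := fun g x => ⟨ρ g x, hmaps g x.2⟩
      one_smul := fun x => Subtype.ext (hone x x.2)
      mul_smul := fun g h x => Subtype.ext (hmul g h x x.2) }
  have hsm : ∀ (g : G) (x : Ω), ((g • x : Ω) : E) = ρ g x := fun g x => rfl
  haveI : ContinuousConstSMul G Ω := ⟨fun g => by
    refine Continuous.subtype_mk (f := fun x : Ω => ρ g x) ?_ _
    exact (hcont g).comp_continuous continuous_subtype_val fun x => x.2⟩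
  haveI : ContractibleSpace Ω := hconv.contractibleSpace hne
  haveI : LocallyPathConnectedSpace Ω := hΩ.locallyPathConnectedSpace
  haveI : LocallyCompactSpace Ω := hΩ.locallyCompactSpace
  refine fp_of_cocompact (X := Ω) (G := G) (K := Subtype.val ⁻¹' K) ?_ ?_ ?_
  · rw [Subtype.isCompact_iff, Subtype.image_preimage_coe, inter_eq_right.2 hKΩ]
    exact hK
  · intro x
    obtain ⟨g, hg⟩ := hcov x x.2
    exact ⟨g, hg⟩
  · intro L hL
    refine (hfin (Subtype.val '' L) (Subtype.coe_image_subset _ _)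
      (hL.image continuous_subtype_val)).subset ?_
    rintro g ⟨y, hy, hgy⟩
    exact ⟨y, ⟨y, hy, rfl⟩, ⟨g • y, hgy, rfl⟩⟩

/-- The unit ball of a finite dimensional complex normed space. -/
theorem fp_ball {E : Type*} [NormedAddCommGroup E] [NormedSpace ℂ E] [FiniteDimensional ℂ E]
    {G : Type*} [Group G] (ρ : G → E → E)
    (hcont : ∀ g, ContinuousOn (ρ g) (Metric.ball 0 1))
    (hmaps : ∀ g, MapsTo (ρ g) (Metric.ball 0 1) (Metric.ball 0 1))
    (hone : ∀ x ∈ Metric.ball (0 : E) 1, ρ 1 x = x)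
    (hmul : ∀ g h, ∀ x ∈ Metric.ball (0 : E) 1, ρ (g * h) x = ρ g (ρ h x))
    {r : ℝ} (hr : r < 1) (hcov : ∀ x ∈ Metric.ball (0 : E) 1, ∃ g, ‖ρ g x‖ ≤ r)
    (hfin : ∀ s < 1, {g : G | ∃ y : E, ‖y‖ ≤ s ∧ ‖ρ g y‖ ≤ s}.Finite) :
    Group.IsFinitelyPresented G := by
  letI : NormedSpace ℝ E := NormedSpace.complexToReal
  haveI : FiniteDimensional ℝ E := FiniteDimensional.complexToReal E
  haveI : ProperSpace E := FiniteDimensional.proper_real E
  refine fp_convex (E := E) (Ω := Metric.ball 0 1) Metric.isOpen_ball (convex_ball _ _)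
    ⟨0, by simp⟩ ρ hcont hmaps hone hmul (K := Metric.closedBall 0 r)
    (isCompact_closedBall _ _) (Metric.closedBall_subset_ball hr) ?_ ?_
  · intro x hx
    obtain ⟨g, hg⟩ := hcov x hx
    exact ⟨g, by simpa using hg⟩
  · intro L hL hLc
    rcases L.eq_empty_or_nonempty with rfl | hLn
    · simp
    obtain ⟨z, hz, hmax⟩ := hLc.exists_isMaxOn hLn continuous_norm.continuousOn
    refine (hfin ‖z‖ (by simpa using hL hz)).subset ?_
    rintro g ⟨y, hy, hgy⟩
    exact ⟨y, hmax hy, hmax hgy⟩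

end Crest.Agent.R272.EFp_896
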