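import Crest.Agent.R272.EFp3_896
import Crest.Agent.R272.EBase_641

/-!
# The group of an arithmetic datum `EDat` is finitely presented
-/

namespace Crest.Agent.R272.EFp_896

open Topology Set Crest.Agent.R272.EBase_641

theorem continuousOn_act {n : ℕ} (g : UG n) : ContinuousOn (act g) (Ball n) := by
  have hg : Continuous g.1 := LinearMap.continuous_of_finiteDimensional (g.1 : V1 n →ₗ[ℂ] V1 n)
  have hp : Continuous fun z : E n => g.1 ((z, 1) : V1 n) :=
    hg.comp (Continuous.prodMk continuous_id continuous_const)
  have hj : Continuous (jj g) := continuous_snd.comp hp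
  exact (hj.continuousOn.inv₀ fun z hz => jj_ne_zero g hz).smul
    (continuous_fst.comp hp).continuousOn

theorem edat_fp (D : EDat) : Group.IsFinitelyPresented D.G := by
  obtain ⟨r, hr, hcov⟩ := D.cocpt
  refine fp_ball (E := E D.n) (fun g => act (D.ρ g)) (fun g => continuousOn_act _)
    (fun g z hz => act_mem _ hz) (fun z _ => by simp) (fun g h z hz => ?_) hr hcov D.proper
  simp only [map_mul]
  exact act_mul _ _ hz

theorem edat_pres (D : EDat) : Nonempty (E5_528.Pres D.G) :=
  have := edat_fp D
  nonempty_pres D.G

theorem fg_of_fp (G : Type*) [Group G] [h : Group.IsFinitelyPresented G] : Group.FG G := by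
  obtain ⟨n, φ, hφ, -⟩ := h.out
  exact Group.fg_of_surjective hφ

theorem edat_fg (D : EDat) : Group.FG D.G :=
  have := edat_fp D
  fg_of_fp D.G

/-- finite index subgroups of the group of an arithmetic datum are finitely generated -/
theorem edat_fg_subgroup (D : EDat) (H : Subgroup D.G) [H.FiniteIndex] : Group.FG H :=
  have := edat_fg D
  inferInstance

end Crest.Agent.R272.EFp_896
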