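import Mathlib

/-!
# Row 272, division E (helper445): Heisenberg operators on entire functions, definitions and
Gaussian summability.
-/

set_option autoImplicit false

open Complex MeasureTheory Filter Topology
open scoped ComplexConjugate Real

namespace Crest.Agent.R272.ETh445

noncomputable section

variable {ι J : Type} [Fintype ι] [Fintype J]

/-- `|u|²` -/
def nsq (u : ι → ℂ) : ℝ := ∑ k, ‖u k‖ ^ 2

/-- `∑ u_k conj (w_k)` -/
def hp (u w : ι → ℂ) : ℂ := ∑ k, u k * conj (w k)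

/-- the Heisenberg operator `(π(v)f)(u) = exp(-π|v|²/2 - π ⟨u,v⟩) f(u+v)` -/
def hei (v : ι → ℂ) (f : (ι → ℂ) → ℂ) (u : ι → ℂ) : ℂ :=
  cexp (-(π / 2) * (nsq v : ℂ) - π * hp u v) * f (u + v)

/-- entire functions of growth `≤ C exp(π r |u|²/2)` with `r < 1` -/
structure State (f : (ι → ℂ) → ℂ) : Prop where
  cont : Continuous f
  hol : ∀ u d : ι → ℂ, Differentiable ℂ (fun s : ℂ => f (u + s • d))
  growth : ∃ C r : ℝ, 0 ≤ C ∧ r < 1 ∧ ∀ u, ‖f u‖ ≤ C * Real.exp (π / 2 * r * nsq u)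

/-- the Fock pairing -/
def pair (f g : (ι → ℂ) → ℂ) : ℂ :=
  ∫ u : ι → ℂ, f u * conj (g u) * (Real.exp (-π * nsq u) : ℂ)

/-- the combination `∑ σ_j P_j` -/
def lc (P : J → ι → ℂ) (σ : J → ℂ) : ι → ℂ := fun k => ∑ j, σ j * P j k

/-- the lattice point `∑ m_j P_j + ∑ n_j Q_j` -/
def lv (P Q : J → ι → ℂ) (p : (J → ℤ) × (J → ℤ)) : ι → ℂ :=
  lc P (fun j => (p.1 j : ℂ)) + lc Q (fun j => (p.2 j : ℂ))

/-- the sign `(-1)^{m·n}` -/
def sg (p : (J → ℤ) × (J → ℤ)) : ℂ := cexp (π * I * ((∑ i, p.1 i * p.2 i : ℤ) : ℂ))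

/-- symplectic families: `Im⟨Q_i,P_j⟩ = δ_ij`, all other products real -/
structure Symp [DecidableEq J] (P Q : J → ι → ℂ) : Prop where
  pp : ∀ i j, (hp (P i) (P j)).im = 0
  qq : ∀ i j, (hp (Q i) (Q j)).im = 0
  qp : ∀ i j, (hp (Q i) (P j)).im = if i = j then 1 else 0

/-- the lattice average `P f = ∑ ε(v) π(v) f` -/
def avg (P Q : J → ι → ℂ) (f : (ι → ℂ) → ℂ) (u : ι → ℂ) : ℂ :=
  ∑' p : (J → ℤ) × (J → ℤ), sg p * hei (lv P Q p) f u

/-! ### Gaussian summability -/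

lemma summable_exp_int {c : ℝ} (hc : 0 < c) :
    Summable fun n : ℤ => Real.exp (-c * (n : ℝ) ^ 2) := by
  have h := summable_pow_mul_jacobiTheta₂_term_bound 0 (T := c / π) (by positivity) 0
  refine h.congr fun n => ?_
  rw [pow_zero, one_mul]
  congr 1
  field_simp
  simp

lemma summable_exp_pi (κ : Type) [Fintype κ] :
    ∀ {c : ℝ}, 0 < c → Summable fun n : κ → ℤ => Real.exp (-c * ∑ i, (n i : ℝ) ^ 2) := by
  classical
  refine Fintype.induction_empty_option (P := fun κ _ =>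
    ∀ {c : ℝ}, 0 < c → Summable fun n : κ → ℤ => Real.exp (-c * ∑ i, (n i : ℝ) ^ 2))
    ?_ ?_ ?_ κ
  · intro α β _ e ih c hc
    have h := @ih c hc
    refine ((Equiv.arrowCongr e (Equiv.refl ℤ)).symm.summable_iff.2 h).congr fun n => ?_
    simp only [Function.comp_apply]
    congr 2
    exact @Fintype.sum_equiv α β _ (Fintype.ofEquiv β e.symm) _ _ e _ _ (fun x => rfl)
  · intro c hc
    exact Summable.of_finite
  · intro α _ ih c hc
    have h := (summable_exp_int hc).mul_of_nonneg (ih hc) (fun _ => (Real.exp_pos _).le)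
      (fun _ => (Real.exp_pos _).le)
    refine ((Equiv.piOptionEquivProd (β := fun _ : Option α => ℤ)).summable_iff.2 h).congr
      fun n => ?_
    simp only [Function.comp_apply, Equiv.piOptionEquivProd_apply, Fintype.sum_option, mul_add,
      Real.exp_add]

/-! ### elementary identities -/

lemma nsq_nonneg (u : ι → ℂ) : 0 ≤ nsq u := Finset.sum_nonneg fun _ _ => sq_nonneg _

@[simp] lemma nsq_zero : nsq (0 : ι → ℂ) = 0 := by simp [nsq]

@[simp] lemma nsq_neg (u : ι → ℂ) : nsq (-u) = nsq u := by simp [nsq]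

lemma nsq_add (u v : ι → ℂ) : nsq (u + v) = nsq u + 2 * (hp u v).re + nsq v := by
  simp only [nsq, hp, re_sum, Finset.mul_sum, ← Finset.sum_add_distrib]
  refine Finset.sum_congr rfl fun k _ => ?_
  simp only [Pi.add_apply, ← Complex.normSq_eq_norm_sq, Complex.normSq_add]
  simp [Complex.normSq_apply]
  ring

lemma hp_add_left (u v w : ι → ℂ) : hp (u + v) w = hp u w + hp v w := by
  simp [hp, add_mul, Finset.sum_add_distrib]

lemma hp_add_right (u v w : ι → ℂ) : hp u (v + w) = hp u v + hp u w := by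
  simp [hp, mul_add, Finset.sum_add_distrib]

@[simp] lemma hp_zero_left (w : ι → ℂ) : hp 0 w = 0 := by simp [hp]

@[simp] lemma hp_zero_right (w : ι → ℂ) : hp w 0 = 0 := by simp [hp]

@[simp] lemma hp_neg_right (u w : ι → ℂ) : hp u (-w) = -hp u w := by simp [hp]

@[simp] lemma hp_neg_left (u w : ι → ℂ) : hp (-u) w = -hp u w := by simp [hp]

lemma hp_conj (u w : ι → ℂ) : conj (hp u w) = hp w u := by
  simp [hp, mul_comm]

lemma hp_re_symm (u w : ι → ℂ) : (hp u w).re = (hp w u).re := by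
  rw [← hp_conj]; simp

lemma hp_im_symm (u w : ι → ℂ) : (hp u w).im = -(hp w u).im := by
  rw [← hp_conj]; simp

/-- composition of Heisenberg operators -/
lemma hei_hei (v w : ι → ℂ) (f : (ι → ℂ) → ℂ) (u : ι → ℂ) :
    hei v (hei w f) u = cexp (-(π * I) * ((hp v w).im : ℂ)) * hei (v + w) f u := by
  unfold hei
  rw [← mul_assoc, ← mul_assoc, ← Complex.exp_add, ← Complex.exp_add, add_assoc u v w]
  congr 2
  rw [nsq_add, hp_add_left, hp_add_right]
  have h : hp v w = ((hp v w).re : ℂ) + ((hp v w).im : ℂ) * I := (Complex.re_add_im _).symm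
  push_cast
  linear_combination (-π) * h

lemma norm_hei (v : ι → ℂ) (f : (ι → ℂ) → ℂ) (u : ι → ℂ) :
    ‖hei v f u‖ * Real.exp (-(π / 2) * nsq u)
      = Real.exp (-(π / 2) * nsq (u + v)) * ‖f (u + v)‖ := by
  unfold hei
  rw [norm_mul, Complex.norm_exp, mul_right_comm, ← Real.exp_add]
  congr 2
  rw [nsq_add]
  have : (-(π / 2 : ℂ) * (nsq v : ℂ) - π * hp u v).re = -(π / 2) * nsq v - π * (hp u v).re := by
    have h1 : (-(π / 2 : ℂ) * (nsq v : ℂ)) = ((-(π / 2) * nsq v : ℝ) : ℂ) := by push_cast; ring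
    rw [sub_re, h1, ofReal_re, re_ofReal_mul]
  rw [this]; ring

lemma hp_sum_left {α : Type} (s : Finset α) (F : α → ι → ℂ) (w : ι → ℂ) :
    hp (∑ i ∈ s, F i) w = ∑ i ∈ s, hp (F i) w := by
  classical
  induction s using Finset.induction_on with
  | empty => simp
  | insert a s ha ih => rw [Finset.sum_insert ha, Finset.sum_insert ha, hp_add_left, ih]

lemma hp_lc_left (P : J → ι → ℂ) (σ : J → ℂ) (w : ι → ℂ) :
    hp (lc P σ) w = ∑ j, σ j * hp (P j) w := by
  simp only [hp, lc, Finset.sum_mul, Finset.mul_sum]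
  rw [Finset.sum_comm]
  simp only [mul_assoc]

lemma hp_lc_right (P : J → ι → ℂ) (σ : J → ℂ) (w : ι → ℂ) :
    hp w (lc P σ) = ∑ j, conj (σ j) * hp w (P j) := by
  rw [← hp_conj, hp_lc_left]
  simp only [map_sum, map_mul, hp_conj]

omit [Fintype ι] in
lemma lc_add (P : J → ι → ℂ) (σ τ : J → ℂ) : lc P (σ + τ) = lc P σ + lc P τ := by
  funext k
  simp [lc, add_mul, Finset.sum_add_distrib]

lemma nsq_eq_hp (u : ι → ℂ) : (nsq u : ℂ) = hp u u := by
  simp only [nsq, hp, ofReal_sum]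
  refine Finset.sum_congr rfl fun k _ => ?_
  rw [Complex.mul_conj, Complex.normSq_eq_norm_sq]

lemma norm_hp_sq_le (u w : ι → ℂ) : ‖hp u w‖ ^ 2 ≤ nsq u * nsq w := by
  have h1 : ‖hp u w‖ ≤ ∑ k, ‖u k‖ * ‖w k‖ := by
    refine (norm_sum_le _ _).trans (le_of_eq ?_)
    simp
  have h2 : (∑ k, ‖u k‖ * ‖w k‖) ^ 2 ≤ (∑ k, ‖u k‖ ^ 2) * ∑ k, ‖w k‖ ^ 2 :=
    Finset.sum_mul_sq_le_sq_mul_sq _ _ _
  refine le_trans ?_ h2
  exact pow_le_pow_left₀ (norm_nonneg _) h1 2

lemma sq_im_hp_le (u w : ι → ℂ) : (hp u w).im ^ 2 ≤ nsq u * nsq w := by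
  refine le_trans ?_ (norm_hp_sq_le u w)
  rw [← sq_abs]
  exact pow_le_pow_left₀ (abs_nonneg _) (Complex.abs_im_le_norm _) 2

variable [DecidableEq J] {P Q : J → ι → ℂ}

omit [Fintype J] in
lemma Symp.pq (h : Symp P Q) (i j : J) : (hp (P i) (Q j)).im = if i = j then -1 else 0 := by
  rw [hp_im_symm, h.qp]
  by_cases hij : i = j
  · simp [hij]
  · simp [hij, Ne.symm hij]

/-- the imaginary part of the product of two real combinations -/
lemma Symp.im_lc (h : Symp P Q) (x y x' y' : J → ℝ) :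
    (hp (lc P (fun j => (x j : ℂ)) + lc Q (fun j => (y j : ℂ)))
      (lc P (fun j => (x' j : ℂ)) + lc Q (fun j => (y' j : ℂ)))).im
      = ∑ j, (y j * x' j - x j * y' j) := by
  simp only [hp_add_left, hp_add_right, add_im, hp_lc_left, hp_lc_right, conj_ofReal, im_sum,
    im_ofReal_mul, h.pp, h.qq, h.qp, h.pq]
  simp only [mul_ite, mul_one, mul_zero, mul_neg, Finset.sum_ite_eq',
    Finset.mem_univ, if_true, Finset.sum_const_zero, add_zero, zero_add, Finset.sum_sub_distrib]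
  have e1 : ∑ j, x' j * y j = ∑ j, y j * x' j := Finset.sum_congr rfl fun _ _ => mul_comm _ _
  have e2 : ∑ j, y' j * x j = ∑ j, x j * y' j := Finset.sum_congr rfl fun _ _ => mul_comm _ _
  simp
  linarith

lemma Symp.im_lv (h : Symp P Q) (p q : (J → ℤ) × (J → ℤ)) :
    (hp (lv P Q q) (lv P Q p)).im
      = ((∑ i, p.1 i * q.2 i : ℤ) : ℝ) - ((∑ i, q.1 i * p.2 i : ℤ) : ℝ) := by
  have := h.im_lc (fun j => (q.1 j : ℝ)) (fun j => (q.2 j : ℝ)) (fun j => (p.1 j : ℝ))
    (fun j => (p.2 j : ℝ))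
  simp only [ofReal_intCast] at this
  unfold lv
  rw [this, Finset.sum_sub_distrib]
  push_cast
  congr 1
  refine Finset.sum_congr rfl fun j _ => mul_comm _ _

lemma Symp.exists_delta (h : Symp P Q) :
    ∃ δ : ℝ, 0 < δ ∧ ∀ p : (J → ℤ) × (J → ℤ),
      δ * (∑ i, (p.1 i : ℝ) ^ 2 + ∑ i, (p.2 i : ℝ) ^ 2) ≤ nsq (lv P Q p) := by
  set T : ℝ := ∑ i, (nsq (Q i) + nsq (P i)) with hT
  have hT0 : 0 ≤ T := Finset.sum_nonneg fun _ _ => add_nonneg (nsq_nonneg _) (nsq_nonneg _)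
  refine ⟨(T + 1)⁻¹, by positivity, fun p => ?_⟩
  have h1 : ∀ i, (hp (lv P Q p) (Q i)).im = -(p.1 i : ℝ) := by
    intro i
    unfold lv
    simp only [hp_add_left, add_im, hp_lc_left, im_sum]
    simp only [← ofReal_intCast, im_ofReal_mul, h.pq, h.qq]
    simp
  have h2 : ∀ i, (hp (lv P Q p) (P i)).im = (p.2 i : ℝ) := by
    intro i
    unfold lv
    simp only [hp_add_left, add_im, hp_lc_left, im_sum]
    simp only [← ofReal_intCast, im_ofReal_mul, h.qp, h.pp]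
    simp
  rw [inv_mul_le_iff₀ (by positivity)]
  have h3 : ∑ i, (p.1 i : ℝ) ^ 2 + ∑ i, (p.2 i : ℝ) ^ 2 ≤ T * nsq (lv P Q p) := by
    rw [hT, Finset.sum_mul, ← Finset.sum_add_distrib]
    refine Finset.sum_le_sum fun i _ => ?_
    have e1 := sq_im_hp_le (lv P Q p) (Q i)
    have e2 := sq_im_hp_le (lv P Q p) (P i)
    rw [h1] at e1
    rw [h2] at e2
    nlinarith
  refine h3.trans ?_
  have := nsq_nonneg (lv P Q p)
  nlinarith

lemma summable_gauss (h : Symp P Q) {c : ℝ} (hc : 0 < c) :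
    Summable fun p : (J → ℤ) × (J → ℤ) => Real.exp (-c * nsq (lv P Q p)) := by
  obtain ⟨δ, hδ, hδ'⟩ := h.exists_delta
  have hs := summable_exp_pi J (c := c * δ) (by positivity)
  have h2 := hs.mul_of_nonneg hs (fun _ => (Real.exp_pos _).le) (fun _ => (Real.exp_pos _).le)
  refine Summable.of_nonneg_of_le (fun _ => (Real.exp_pos _).le) (fun p => ?_) h2
  rw [← Real.exp_add]
  refine Real.exp_le_exp.2 ?_
  have := mul_le_mul_of_nonneg_left (hδ' p) hc.le
  nlinarith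

end

end Crest.Agent.R272.ETh445
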