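import Crest.Agent.R272.ETh1_445

/-!
# Row 272, division E (helper445): the lattice average `avg` : convergence, continuity,
holomorphy on complex lines, quasi-periodicity.
-/

set_option autoImplicit false
set_option linter.unusedSectionVars false

open Complex MeasureTheory Filter Topology
open scoped ComplexConjugate Real

namespace Crest.Agent.R272.ETh445

noncomputable section

variable {ι J : Type} [Fintype ι] [Fintype J] {P Q : J → ι → ℂ}

lemma norm_sg (p : (J → ℤ) × (J → ℤ)) : ‖sg p‖ = 1 := by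
  rw [sg, show (π * I * ((∑ i, p.1 i * p.2 i : ℤ) : ℂ))
    = ((π * (∑ i, p.1 i * p.2 i : ℤ) : ℝ) : ℂ) * I by push_cast; ring]
  exact Complex.norm_exp_ofReal_mul_I _

lemma nsq_half (u v : ι → ℂ) : nsq v / 2 ≤ nsq (u + v) + nsq u := by
  simp only [nsq, Finset.sum_div, ← Finset.sum_add_distrib]
  refine Finset.sum_le_sum fun k _ => ?_
  have h : ‖v k‖ ≤ ‖(u + v) k‖ + ‖u k‖ := by
    have : v k = (u + v) k - u k := by simp
    rw [this]; exact norm_sub_le _ _
  have h0 := norm_nonneg (v k)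
  have h1 := norm_nonneg ((u + v) k)
  have h2 := norm_nonneg (u k)
  nlinarith [sq_nonneg (‖(u + v) k‖ - ‖u k‖)]

/-- the basic bound of one term -/
lemma norm_hei_le {f : (ι → ℂ) → ℂ} {C r : ℝ} (hC : 0 ≤ C)
    (hf : ∀ u, ‖f u‖ ≤ C * Real.exp (π / 2 * r * nsq u)) (v u : ι → ℂ) :
    ‖hei v f u‖ ≤ C * Real.exp (π / 2 * nsq u) *
      Real.exp (-(π / 2 * (1 - r)) * nsq (u + v)) := by
  have h := norm_hei v f u
  have h1 : ‖hei v f u‖ = Real.exp (π / 2 * nsq u) *
      (Real.exp (-(π / 2) * nsq (u + v)) * ‖f (u + v)‖) := by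
    rw [← h, mul_comm, mul_assoc, ← Real.exp_add]
    simp
  rw [h1, mul_comm C, mul_assoc]
  refine mul_le_mul_of_nonneg_left ?_ (Real.exp_pos _).le
  refine (mul_le_mul_of_nonneg_left (hf _) (Real.exp_pos _).le).trans (le_of_eq ?_)
  rw [mul_left_comm, ← Real.exp_add]
  ring_nf

lemma norm_hei_le' {f : (ι → ℂ) → ℂ} {C r : ℝ} (hC : 0 ≤ C) (hr : r < 1)
    (hf : ∀ u, ‖f u‖ ≤ C * Real.exp (π / 2 * r * nsq u)) (v u : ι → ℂ) :
    ‖hei v f u‖ ≤ C * Real.exp ((π / 2 + π / 2 * (1 - r)) * nsq u) *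
      Real.exp (-(π / 4 * (1 - r)) * nsq v) := by
  refine (norm_hei_le hC hf v u).trans ?_
  rw [mul_assoc, mul_assoc, ← Real.exp_add, ← Real.exp_add]
  refine mul_le_mul_of_nonneg_left (Real.exp_le_exp.2 ?_) hC
  have h := nsq_half u v
  have h2 : 0 < π / 2 * (1 - r) := mul_pos (by positivity) (by linarith)
  nlinarith

lemma continuous_nsq : Continuous (nsq (ι := ι)) := by
  unfold nsq; fun_prop

lemma continuous_hp_left (v : ι → ℂ) : Continuous fun u => hp u v := by
  unfold hp; fun_prop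

lemma State.continuous_hei {f : (ι → ℂ) → ℂ} (hf : State f) (v : ι → ℂ) :
    Continuous (hei v f) := by
  unfold hei
  refine Continuous.mul ?_ (hf.cont.comp (continuous_id.add continuous_const))
  refine Complex.continuous_exp.comp ?_
  exact continuous_const.sub (continuous_const.mul (continuous_hp_left v))

lemma State.hol_hei {f : (ι → ℂ) → ℂ} (hf : State f) (v u d : ι → ℂ) :
    Differentiable ℂ (fun s : ℂ => hei v f (u + s • d)) := by
  unfold hei
  refine Differentiable.mul ?_ ?_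
  · refine Differentiable.cexp ?_
    refine (differentiable_const _).sub ((differentiable_const _).mul ?_)
    have : (fun s : ℂ => hp (u + s • d) v) = fun s => hp u v + s * hp d v := by
      funext s
      simp [hp, add_mul, Finset.sum_add_distrib, Finset.mul_sum, mul_assoc]
    rw [this]
    exact (differentiable_const _).add (differentiable_id.mul (differentiable_const _))
  · have : (fun s : ℂ => f (u + s • d + v)) = fun s => f ((u + v) + s • d) := by
      funext s; congr 1; abel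
    rw [this]
    exact hf.hol _ _

lemma State.hei_state {f : (ι → ℂ) → ℂ} (hf : State f) (v : ι → ℂ) : State (hei v f) := by
  obtain ⟨C, r, hC, hr, hb⟩ := hf.growth
  refine ⟨hf.continuous_hei v, hf.hol_hei v, ?_⟩
  -- exp(-(π/2)(1-r)|u+v|²) ≤ exp(-(π/2)(1-r)(1-ε)|u|² + K)
  set c := π / 2 * (1 - r) with hc
  have hc0 : 0 < c := mul_pos (by positivity) (by linarith)
  refine ⟨C * Real.exp (c * nsq v), (1 + r) / 2, by positivity, by linarith, fun u => ?_⟩
  refine (norm_hei_le hC hb v u).trans ?_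
  rw [mul_assoc, mul_assoc, ← Real.exp_add, ← Real.exp_add]
  refine mul_le_mul_of_nonneg_left (Real.exp_le_exp.2 ?_) hC
  have h := nsq_half v u
  rw [add_comm v u] at h
  rw [← hc]
  have h3 : c * nsq (u + v) ≥ c * (nsq u / 2 - nsq v) :=
    mul_le_mul_of_nonneg_left (by linarith) hc0.le
  have h4 : π / 2 * ((1 + r) / 2) * nsq u = π / 2 * nsq u - c * (nsq u / 2) := by
    rw [hc]; ring
  rw [h4]
  nlinarith

variable [DecidableEq J]

lemma State.summable {f : (ι → ℂ) → ℂ} (hf : State f) (h : Symp P Q) (u : ι → ℂ) :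
    Summable fun p : (J → ℤ) × (J → ℤ) => sg p * hei (lv P Q p) f u := by
  obtain ⟨C, r, hC, hr, hb⟩ := hf.growth
  have hc : 0 < π / 4 * (1 - r) := mul_pos (by positivity) (by linarith)
  refine Summable.of_norm_bounded
    ((summable_gauss h hc).mul_left (C * Real.exp ((π / 2 + π / 2 * (1 - r)) * nsq u)))
    fun p => ?_
  rw [norm_mul, norm_sg, one_mul]
  exact norm_hei_le' hC hr hb _ _

lemma State.norm_term_le {f : (ι → ℂ) → ℂ} {C r : ℝ} (hC : 0 ≤ C) (hr : r < 1)
    (hb : ∀ u, ‖f u‖ ≤ C * Real.exp (π / 2 * r * nsq u)) {R : ℝ} (p : (J → ℤ) × (J → ℤ))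
    {u : ι → ℂ} (hu : nsq u ≤ R) :
    ‖sg p * hei (lv P Q p) f u‖ ≤ C * Real.exp ((π / 2 + π / 2 * (1 - r)) * R) *
      Real.exp (-(π / 4 * (1 - r)) * nsq (lv P Q p)) := by
  rw [norm_mul, norm_sg, one_mul]
  refine (norm_hei_le' hC hr hb _ _).trans ?_
  refine mul_le_mul_of_nonneg_right (mul_le_mul_of_nonneg_left (Real.exp_le_exp.2 ?_) hC)
    (Real.exp_pos _).le
  refine mul_le_mul_of_nonneg_left hu ?_
  have : 0 < π / 2 * (1 - r) := mul_pos (by positivity) (by linarith)
  positivity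

lemma State.continuous_avg {f : (ι → ℂ) → ℂ} (hf : State f) (h : Symp P Q) :
    Continuous (avg P Q f) := by
  obtain ⟨C, r, hC, hr, hb⟩ := hf.growth
  have hc : 0 < π / 4 * (1 - r) := mul_pos (by positivity) (by linarith)
  rw [continuous_iff_continuousAt]
  intro u0
  have hopen : IsOpen {u : ι → ℂ | nsq u < nsq u0 + 1} :=
    isOpen_lt continuous_nsq continuous_const
  have hmem : u0 ∈ {u : ι → ℂ | nsq u < nsq u0 + 1} := by simp
  refine ContinuousOn.continuousAt (s := {u : ι → ℂ | nsq u < nsq u0 + 1}) ?_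
    (hopen.mem_nhds hmem)
  refine continuousOn_tsum (fun p => ?_)
    ((summable_gauss h hc).mul_left
      (C * Real.exp ((π / 2 + π / 2 * (1 - r)) * (nsq u0 + 1)))) ?_
  · exact (continuous_const.mul (hf.continuous_hei _)).continuousOn
  · intro p u hu
    exact State.norm_term_le hC hr hb p (le_of_lt hu)

lemma State.hol_avg {f : (ι → ℂ) → ℂ} (hf : State f) (h : Symp P Q)
    (u d : ι → ℂ) : Differentiable ℂ (fun s : ℂ => avg P Q f (u + s • d)) := by
  obtain ⟨C, r, hC, hr, hb⟩ := hf.growth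
  have hc : 0 < π / 4 * (1 - r) := mul_pos (by positivity) (by linarith)
  intro s0
  have hcont : Continuous fun s : ℂ => nsq (u + s • d) :=
    continuous_nsq.comp (by fun_prop)
  set R := nsq (u + s0 • d) + 1 with hR
  have hopen : IsOpen {s : ℂ | nsq (u + s • d) < R} := isOpen_lt hcont continuous_const
  have hmem : s0 ∈ {s : ℂ | nsq (u + s • d) < R} := by simp [hR]
  refine DifferentiableOn.differentiableAt (s := {s : ℂ | nsq (u + s • d) < R}) ?_
    (hopen.mem_nhds hmem)
  refine differentiableOn_tsum_of_summable_norm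
    ((summable_gauss h hc).mul_left
      (C * Real.exp ((π / 2 + π / 2 * (1 - r)) * R)))
    (fun p => ?_) hopen ?_
  · exact ((differentiable_const _).mul (hf.hol_hei _ _ _)).differentiableOn
  · intro p s hs
    exact State.norm_term_le hC hr hb p (le_of_lt hs)

/-! ### quasi-periodicity -/

lemma lv_add (p q : (J → ℤ) × (J → ℤ)) : lv P Q (p + q) = lv P Q p + lv P Q q := by
  funext k
  simp only [lv, lc, Prod.fst_add, Prod.snd_add, Pi.add_apply, Int.cast_add, add_mul,
    Finset.sum_add_distrib]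
  ring

lemma exp_int_pi_sq (z : ℤ) : cexp (π * I * (z : ℂ)) * cexp (π * I * (z : ℂ)) = 1 := by
  rw [← Complex.exp_add, ← Complex.exp_int_mul_two_pi_mul_I z]
  congr 1; ring

lemma sg_sq (p : (J → ℤ) × (J → ℤ)) : sg p * sg p = 1 := exp_int_pi_sq _

/-- the cocycle rule of the sign -/
lemma sg_add (h : Symp P Q) (p q : (J → ℤ) × (J → ℤ)) :
    sg p * cexp (-(π * I) * ((hp (lv P Q q) (lv P Q p)).im : ℂ)) = sg (p + q) * sg q := by
  rw [h.im_lv]
  have h1 : sg (p + q) = sg p * sg q * cexp (π * I * ((∑ i, p.1 i * q.2 i : ℤ) : ℂ))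
      * cexp (π * I * ((∑ i, q.1 i * p.2 i : ℤ) : ℂ)) := by
    unfold sg
    rw [← Complex.exp_add, ← Complex.exp_add, ← Complex.exp_add]
    congr 1
    have : (∑ i, (p + q).1 i * (p + q).2 i : ℤ) = ∑ i, p.1 i * p.2 i + ∑ i, q.1 i * q.2 i
        + ∑ i, p.1 i * q.2 i + ∑ i, q.1 i * p.2 i := by
      rw [← Finset.sum_add_distrib, ← Finset.sum_add_distrib, ← Finset.sum_add_distrib]
      refine Finset.sum_congr rfl fun i _ => ?_
      simp only [Prod.fst_add, Prod.snd_add, Pi.add_apply]; ring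
    rw [this]; push_cast; ring
  rw [h1]
  have h2 : cexp (-(π * I) * (((((∑ i, p.1 i * q.2 i : ℤ) : ℝ) - ((∑ i, q.1 i * p.2 i : ℤ) : ℝ) : ℝ)) : ℂ))
      = cexp (π * I * ((∑ i, p.1 i * q.2 i : ℤ) : ℂ)) * cexp (π * I * ((∑ i, q.1 i * p.2 i : ℤ) : ℂ))
        := by
    have h3 : cexp (-(π * I) * (((((∑ i, p.1 i * q.2 i : ℤ) : ℝ)
        - ((∑ i, q.1 i * p.2 i : ℤ) : ℝ) : ℝ)) : ℂ))
        * (cexp (π * I * ((∑ i, p.1 i * q.2 i : ℤ) : ℂ))
          * cexp (π * I * ((∑ i, p.1 i * q.2 i : ℤ) : ℂ)))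
        = cexp (π * I * ((∑ i, p.1 i * q.2 i : ℤ) : ℂ))
          * cexp (π * I * ((∑ i, q.1 i * p.2 i : ℤ) : ℂ)) := by
      rw [← Complex.exp_add, ← Complex.exp_add, ← Complex.exp_add]
      congr 1; push_cast; ring
    rwa [exp_int_pi_sq, mul_one] at h3
  rw [h2]
  linear_combination (-(sg p) * cexp (π * I * ((∑ i, p.1 i * q.2 i : ℤ) : ℂ))
    * cexp (π * I * ((∑ i, q.1 i * p.2 i : ℤ) : ℂ))) * sg_sq q

/-- invariance of `avg` under the lattice -/
lemma hei_avg (h : Symp P Q) (q : (J → ℤ) × (J → ℤ)) (f : (ι → ℂ) → ℂ) (u : ι → ℂ) :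
    hei (lv P Q q) (avg P Q f) u = sg q * avg P Q f u := by
  have h1 : hei (lv P Q q) (avg P Q f) u
      = ∑' p : (J → ℤ) × (J → ℤ), sg p * hei (lv P Q q) (hei (lv P Q p) f) u := by
    unfold avg hei
    rw [← tsum_mul_left]
    refine tsum_congr fun p => ?_
    ring
  have h2 : ∀ p : (J → ℤ) × (J → ℤ), sg p * hei (lv P Q q) (hei (lv P Q p) f) u
      = sg q * (sg (p + q) * hei (lv P Q (p + q)) f u) := by
    intro p
    rw [hei_hei, ← mul_assoc, sg_add h, lv_add, add_comm (lv P Q q)]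
    ring
  rw [h1, tsum_congr h2, tsum_mul_left]
  congr 1
  exact (Equiv.addRight q).tsum_eq (fun p => sg p * hei (lv P Q p) f u)

end

end Crest.Agent.R272.ETh445
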