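import Mathlib

/-!
# Row 272, division E (helper445): periodic functions that are holomorphic on complex coordinate
lines: the integral over the real period cube does not change under imaginary translations.
-/

set_option autoImplicit false

open Complex MeasureTheory Filter Topology Set
open scoped ComplexConjugate Real

namespace Crest.Agent.R272.ETh445

noncomputable section

/-- measure of total mass one on `ℝ/ℤ` (same as in Mathlib's AddCircleMulti) -/
local instance : MeasureSpace UnitAddCircle := ⟨AddCircle.haarAddCircle⟩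

local instance : Measure.IsAddHaarMeasure (volume : Measure UnitAddCircle) :=
  inferInstanceAs (Measure.IsAddHaarMeasure AddCircle.haarAddCircle)

local instance : IsProbabilityMeasure (volume : Measure UnitAddCircle) :=
  inferInstanceAs (IsProbabilityMeasure AddCircle.haarAddCircle)

variable {ι : Type}

/-- lift of a periodic continuous function to the torus -/
lemma exists_torus_lift {g : (ι → ℝ) → ℂ} (hg : Continuous g)
    (hp : ∀ (t : ι → ℝ) (m : ι → ℤ), g (t + fun i => (m i : ℝ)) = g t) :
    ∃ G : C(UnitAddTorus ι, ℂ), ∀ t : ι → ℝ, G (fun i => (t i : UnitAddCircle)) = g t := by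
  have hq : IsOpenQuotientMap
      (Pi.map (fun (_ : ι) (x : ℝ) => (x : UnitAddCircle))) :=
    IsOpenQuotientMap.piMap fun i => QuotientAddGroup.isOpenQuotientMap_mk
  let π' : C(ι → ℝ, UnitAddTorus ι) :=
    ⟨Pi.map (fun (_ : ι) (x : ℝ) => (x : UnitAddCircle)), hq.continuous⟩
  have hq' : Topology.IsQuotientMap π' := hq.isQuotientMap
  have hf : Function.FactorsThrough (⟨g, hg⟩ : C(ι → ℝ, ℂ)) π' := by
    intro a b hab
    have h1 : ∀ i, ∃ n : ℤ, n • (1 : ℝ) = a i - b i := by
      intro i
      have := congrFun hab i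
      have h2 : ((a i : ℝ) : UnitAddCircle) = ((b i : ℝ) : UnitAddCircle) := this
      rw [← AddCircle.coe_eq_zero_iff, AddCircle.coe_sub, h2, sub_self]
    choose n hn using h1
    have h3 : a = b + fun i => (n i : ℝ) := by
      funext i
      have := hn i
      simp only [zsmul_eq_mul, mul_one] at this
      simp [this]
    change g a = g b
    rw [h3]; exact hp b n
  refine ⟨hq'.lift ⟨g, hg⟩ hf, fun t => ?_⟩
  exact congrArg (fun φ : C(ι → ℝ, ℂ) => φ t) (hq'.lift_comp ⟨g, hg⟩ hf)

variable [Fintype ι]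

/-- the period cube -/
def cube (ι : Type) : Set (ι → ℝ) := {x : ι → ℝ | ∀ i, x i ∈ Ioc (0 : ℝ) (0 + 1)}

lemma integral_cube_shift {g : (ι → ℝ) → ℂ} (hg : Continuous g)
    (hp : ∀ (t : ι → ℝ) (m : ι → ℤ), g (t + fun i => (m i : ℝ)) = g t) (s : ι → ℝ) :
    ∫ t in cube ι, g (t + s) = ∫ t in cube ι, g t := by
  obtain ⟨G, hG⟩ := exists_torus_lift hg hp
  have h1 := UnitAddTorus.integral_preimage (fun x => G x) (0 : ι → ℝ)
  have h2 := UnitAddTorus.integral_preimage
    (fun x => G (x + fun i => (s i : UnitAddCircle))) (0 : ι → ℝ)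
  have h3 : ∫ x : UnitAddTorus ι, G (x + fun i => (s i : UnitAddCircle))
      = ∫ x : UnitAddTorus ι, G x := integral_add_right_eq_self (fun x => G x) _
  have h4 := h2.symm.trans (h3.trans h1)
  simp only [cube]
  simp only [Pi.zero_apply] at h4
  convert h4 using 2
  · funext t
    rw [← hG]; congr 1
  · funext t
    rw [← hG]

/-- Cauchy for one periodic variable -/
lemma integral_period_shift {F : ℂ → ℂ} (hF : Differentiable ℂ F) (hp : ∀ z, F (z + 1) = F z)
    (s : ℝ) : ∫ x in (0 : ℝ)..1, F (x + s * I) = ∫ x in (0 : ℝ)..1, F x := by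
  have h := integral_boundary_rect_eq_zero_of_differentiableOn F 0 (1 + s * I)
    hF.differentiableOn
  have h1 : ∀ y : ℝ, F (1 + y * I) = F (0 + y * I) := fun y => by
    rw [add_comm, hp, zero_add]
  simp only [zero_re, zero_im, add_re, one_re, mul_re, ofReal_re, I_re, mul_zero, ofReal_im, I_im,
    mul_one, sub_self, add_zero, add_im, one_im, mul_im, zero_add, ofReal_zero, zero_mul,
    ofReal_one] at h
  have h2 : ∫ y in (0 : ℝ)..s, F (1 + y * I) = ∫ y in (0 : ℝ)..s, F (y * I) := by
    refine intervalIntegral.integral_congr fun y _ => ?_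
    simpa using h1 y
  rw [h2] at h
  linear_combination -h

lemma isCompact_ccube : IsCompact {x : ι → ℝ | ∀ i, x i ∈ Icc (0 : ℝ) 1} := by
  have : {x : ι → ℝ | ∀ i, x i ∈ Icc (0 : ℝ) 1} = Set.pi univ fun _ => Icc (0 : ℝ) 1 := by
    ext x; exact ⟨fun h i _ => h i, fun h i => h i (mem_univ i)⟩
  rw [this]
  exact isCompact_univ_pi fun _ => isCompact_Icc

variable [DecidableEq ι]

/-- the function `t ↦ F (t + i η)` -/
def tr (F : (ι → ℂ) → ℂ) (η t : ι → ℝ) : ℂ := F fun i => (t i : ℂ) + I * (η i : ℂ)

lemma tr_single {F : (ι → ℂ) → ℂ} (η t : ι → ℝ) (j : ι) (x s : ℝ) :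
    tr F (η + Pi.single j s) (t + Pi.single j x)
      = F ((fun i => (t i : ℂ) + I * (η i : ℂ)) + ((x : ℂ) + s * I) • Pi.single j 1) := by
  unfold tr
  congr 1
  funext i
  by_cases h : i = j
  · subst h; simp; ring
  · simp [h]

theorem integral_cube_single {F : (ι → ℂ) → ℂ} (hF : Continuous F)
    (hol : ∀ σ (j : ι), Differentiable ℂ fun s : ℂ => F (σ + s • Pi.single j 1))
    (hp : ∀ (σ : ι → ℂ) (m : ι → ℤ), F (σ + fun i => (m i : ℂ)) = F σ)
    (η : ι → ℝ) (j : ι) (s : ℝ) :
    ∫ t in cube ι, tr F (η + Pi.single j s) t = ∫ t in cube ι, tr F η t := by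
  have hcont : ∀ η : ι → ℝ, Continuous (tr F η) := fun η => by
    unfold tr; fun_prop
  have hper : ∀ (η t : ι → ℝ) (m : ι → ℤ), tr F η (t + fun i => (m i : ℝ)) = tr F η t := by
    intro η t m
    unfold tr
    rw [← hp (fun i => (t i : ℂ) + I * (η i : ℂ)) m]
    congr 1
    funext i
    simp; ring
  -- average over the translations by `x e_j`
  have key : ∀ η : ι → ℝ, ∫ t in cube ι, tr F η t
      = ∫ t in cube ι, ∫ x in (0 : ℝ)..1, tr F η (t + Pi.single j x) := by
    intro η
    have h1 : ∫ t in cube ι, tr F η t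
        = ∫ x in (0 : ℝ)..1, ∫ t in cube ι, tr F η (t + Pi.single j x) := by
      have : ∀ x : ℝ, ∫ t in cube ι, tr F η (t + Pi.single j x) = ∫ t in cube ι, tr F η t :=
        fun x => integral_cube_shift (hcont η) (hper η) _
      simp [this]
    rw [h1, intervalIntegral.integral_of_le zero_le_one]
    simp_rw [intervalIntegral.integral_of_le (zero_le_one' ℝ)]
    refine integral_integral_swap ?_
    have hc : Continuous (Function.uncurry fun (x : ℝ) (t : ι → ℝ) =>
        tr F η (t + Pi.single j x)) := by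
      have h2 : Continuous fun p : ℝ × (ι → ℝ) => p.2 + Pi.single j p.1 := by
        refine continuous_snd.add ?_
        exact (continuous_single j).comp continuous_fst
      exact (hcont η).comp h2
    rw [Measure.prod_restrict]
    have hcomp : IsCompact (Icc (0 : ℝ) 1 ×ˢ {x : ι → ℝ | ∀ i, x i ∈ Icc (0 : ℝ) 1}) :=
      isCompact_Icc.prod isCompact_ccube
    refine (hc.continuousOn.integrableOn_compact hcomp).mono_set ?_
    rintro ⟨x, t⟩ ⟨hx, ht⟩
    refine ⟨⟨hx.1.le, hx.2⟩, fun i => ?_⟩
    have := ht i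
    exact ⟨this.1.le, by simpa using this.2⟩
  rw [key, key η]
  congr 1
  funext t
  have h3 := integral_period_shift (F := fun z : ℂ =>
    F ((fun i => (t i : ℂ) + I * (η i : ℂ)) + z • Pi.single j 1)) (hol _ j) ?_ s
  · rw [show (∫ x in (0 : ℝ)..1, tr F (η + Pi.single j s) (t + Pi.single j x))
      = ∫ x in (0 : ℝ)..1, F ((fun i => (t i : ℂ) + I * (η i : ℂ))
        + ((x : ℂ) + s * I) • Pi.single j 1) from
      intervalIntegral.integral_congr fun x _ => tr_single η t j x s, h3]
    refine intervalIntegral.integral_congr fun x _ => ?_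
    have := tr_single (F := F) η t j x 0
    simp only [Pi.single_zero, add_zero, ofReal_zero, zero_mul] at this
    exact this.symm
  · intro z
    have h4 := hp ((fun i => (t i : ℂ) + I * (η i : ℂ)) + z • Pi.single j 1)
      (Pi.single j 1)
    rw [← h4]
    congr 1
    funext i
    by_cases h : i = j
    · subst h; simp; ring
    · simp [h]

theorem integral_cube_eq {F : (ι → ℂ) → ℂ} (hF : Continuous F)
    (hol : ∀ σ (j : ι), Differentiable ℂ fun s : ℂ => F (σ + s • Pi.single j 1))
    (hp : ∀ (σ : ι → ℂ) (m : ι → ℤ), F (σ + fun i => (m i : ℂ)) = F σ)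
    (η : ι → ℝ) :
    ∫ t in cube ι, tr F η t = ∫ t in cube ι, tr F 0 t := by
  have h : ∀ s : Finset ι, ∫ t in cube ι, tr F (∑ j ∈ s, Pi.single j (η j)) t
      = ∫ t in cube ι, tr F 0 t := by
    intro s
    induction s using Finset.induction_on with
    | empty => simp
    | insert j s hj ih =>
      rw [Finset.sum_insert hj, add_comm, integral_cube_single hF hol hp, ih]
  have := h Finset.univ
  rwa [Finset.univ_sum_single] at this

end

end Crest.Agent.R272.ETh445
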