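import Crest.Agent.R272.ETh2_445
import Crest.Agent.R272.ETh3_445

/-!
# Row 272, division E (helper445): one-dimensionality of the space of quasi-periodic entire
functions.
-/

set_option autoImplicit false
set_option linter.unusedSectionVars false

open Complex MeasureTheory Filter Topology Set
open scoped ComplexConjugate Real

namespace Crest.Agent.R272.ETh445

noncomputable section

local instance : MeasureSpace UnitAddCircle := ⟨AddCircle.haarAddCircle⟩

local instance : Measure.IsAddHaarMeasure (volume : Measure UnitAddCircle) :=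
  inferInstanceAs (Measure.IsAddHaarMeasure AddCircle.haarAddCircle)

local instance : IsProbabilityMeasure (volume : Measure UnitAddCircle) :=
  inferInstanceAs (IsProbabilityMeasure AddCircle.haarAddCircle)

variable {ι J : Type} [Fintype ι] [Fintype J] {P Q : J → ι → ℂ}

/-- the character `exp(-2πi n·t)` -/
def ch (n : J → ℤ) (t : J → ℝ) : ℂ := cexp (-(2 * π * I) * ∑ j, (n j : ℂ) * (t j : ℂ))

lemma mFourier_neg_coe (n : J → ℤ) (t : J → ℝ) :
    UnitAddTorus.mFourier (-n) (fun j => (t j : UnitAddCircle)) = ch n t := by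
  simp only [UnitAddTorus.mFourier, ContinuousMap.coe_mk, ch, Finset.mul_sum, Complex.exp_sum]
  refine Finset.prod_congr rfl fun j _ => ?_
  rw [fourier_coe_apply]
  congr 1
  simp
  ring

/-- a continuous periodic function with vanishing Fourier coefficients is zero -/
lemma eq_zero_of_coeff {g : (J → ℝ) → ℂ} (hg : Continuous g)
    (hp : ∀ (t : J → ℝ) (m : J → ℤ), g (t + fun i => (m i : ℝ)) = g t)
    (h0 : ∀ n : J → ℤ, ∫ t in cube J, ch n t * g t = 0) (t : J → ℝ) : g t = 0 := by
  obtain ⟨G, hG⟩ := exists_torus_lift hg hp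
  have hc : ∀ n, UnitAddTorus.mFourierCoeff G n = 0 := by
    intro n
    rw [UnitAddTorus.mFourierCoeff_eq_integral G n 0, ← h0 n]
    simp only [cube, mFourier_neg_coe, hG, smul_eq_mul, Pi.zero_apply]
  have hs : Summable (UnitAddTorus.mFourierCoeff G) := by
    have : (UnitAddTorus.mFourierCoeff G) = fun _ => 0 := funext hc
    rw [this]; exact summable_zero
  have h2 := UnitAddTorus.hasSum_mFourier_series_apply_of_summable hs
    (fun j => (t j : UnitAddCircle))
  simp only [hc, zero_smul] at h2
  rw [← hG]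
  exact h2.unique hasSum_zero

/-- identity theorem on one complex line -/
lemma eq_zero_of_real {F : (J → ℂ) → ℂ}
    (hol : ∀ u d : J → ℂ, Differentiable ℂ fun s : ℂ => F (u + s • d))
    (h0 : ∀ t : J → ℝ, F (fun j => (t j : ℂ)) = 0) (σ : J → ℂ) : F σ = 0 := by
  set φ : ℂ → ℂ := fun s => F ((fun j => ((σ j).re : ℂ)) + s • fun j => ((σ j).im : ℂ)) with hφ
  have h1 : Differentiable ℂ φ := hol _ _
  have h2 : ∀ x : ℝ, φ x = 0 := by
    intro x
    have := h0 (fun j => (σ j).re + x * (σ j).im)
    rw [hφ]
    simp only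
    rw [← this]
    congr 1
    funext j
    simp
  have h3 : AnalyticOnNhd ℂ φ univ := fun s _ => h1.analyticAt s
  have h4 : ∃ᶠ z in 𝓝[≠] (0 : ℂ), φ z = 0 := by
    rw [frequently_nhdsWithin_iff]
    rw [Metric.nhds_basis_ball.frequently_iff]
    intro r hr
    refine ⟨((r / 2 : ℝ) : ℂ), ?_, h2 _, ?_⟩
    · simp only [Metric.mem_ball, dist_zero_right, Complex.norm_real, Real.norm_eq_abs]
      rw [abs_of_pos (by positivity)]; linarith
    · simp only [mem_compl_iff, mem_singleton_iff, ofReal_eq_zero]
      positivity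
  have h5 := h3.eqOn_zero_of_preconnected_of_frequently_eq_zero isPreconnected_univ
    (mem_univ 0) h4 (mem_univ I)
  have h6 : φ I = F σ := by
    rw [hφ]
    simp only
    congr 1
    funext j
    have := Complex.re_add_im (σ j)
    simp only [Pi.add_apply, Pi.smul_apply, smul_eq_mul]
    rw [mul_comm I]; exact this
  rw [← h6]; exact h5

/-- quasi-periodic entire functions -/
structure Good (P Q : J → ι → ℂ) (h : (ι → ℂ) → ℂ) : Prop where
  cont : Continuous h
  hol : ∀ u d : ι → ℂ, Differentiable ℂ (fun s : ℂ => h (u + s • d))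
  per : ∀ (p : (J → ℤ) × (J → ℤ)) (u : ι → ℂ), hei (lv P Q p) h u = sg p * h u

/-- the symmetric bilinear form -/
def bl (P : J → ι → ℂ) (a b : J → ℂ) : ℂ := hp (lc P a) (lc P fun j => conj (b j))

/-- the function in the coordinates of `P`, made periodic -/
def kf (P : J → ι → ℂ) (h : (ι → ℂ) → ℂ) (σ : J → ℂ) : ℂ :=
  cexp (-(π / 2) * bl P σ σ) * h (lc P σ)

lemma bl_eq (a b : J → ℂ) : bl P a b = ∑ i, ∑ j, a i * (b j * hp (P i) (P j)) := by
  unfold bl
  rw [hp_lc_left]
  refine Finset.sum_congr rfl fun i _ => ?_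
  rw [hp_lc_right, Finset.mul_sum]
  simp

lemma continuous_lc : Continuous (lc P) := by
  unfold lc; fun_prop

lemma continuous_bl : Continuous fun σ => bl P σ σ := by
  simp only [bl_eq]; fun_prop

variable [DecidableEq J]

lemma Symp.hp_symm (hS : Symp P Q) (i j : J) : hp (P i) (P j) = hp (P j) (P i) := by
  rw [← hp_conj, Complex.conj_eq_iff_im]
  exact hS.pp j i

lemma Symp.bl_symm (hS : Symp P Q) (a b : J → ℂ) : bl P a b = bl P b a := by
  rw [bl_eq, bl_eq, Finset.sum_comm]
  refine Finset.sum_congr rfl fun i _ => Finset.sum_congr rfl fun j _ => ?_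
  rw [hS.hp_symm]; ring

lemma bl_add_left (a b c : J → ℂ) : bl P (a + b) c = bl P a c + bl P b c := by
  unfold bl; rw [lc_add, hp_add_left]

lemma bl_add_right (a b c : J → ℂ) : bl P a (b + c) = bl P a b + bl P a c := by
  unfold bl
  rw [← hp_add_right, ← lc_add]
  congr 2
  funext j; simp

lemma kf_add (hS : Symp P Q) {h : (ι → ℂ) → ℂ} {ω : J → ℂ} {n : J → ℂ}
    (hn : ∀ j, hp (P j) (lc P fun i => ((ω i).im : ℂ)) = n j)
    (hv : ∀ u, h (u + lc P ω) = cexp (π / 2 * nsq (lc P ω) + π * hp u (lc P ω)) * h u)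
    (σ : J → ℂ) :
    kf P h (σ + ω) = cexp (-(2 * π * I) * ∑ j, σ j * n j - π * I * ∑ j, ω j * n j)
      * kf P h σ := by
  -- `⟨lc a, lc ω⟩ = bl a ω - 2 i a·n`
  have key : ∀ a : J → ℂ, hp (lc P a) (lc P ω) = bl P a ω - 2 * I * ∑ j, a j * n j := by
    intro a
    have h1 : lc P ω = lc P (fun j => conj (ω j)) + lc P fun j => 2 * I * ((ω j).im : ℂ) := by
      rw [← lc_add]
      congr 1
      funext j
      simp only [Pi.add_apply]
      apply Complex.ext <;> simp
      ring
    have h2 : hp (lc P a) (lc P fun j => 2 * I * ((ω j).im : ℂ))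
        = -(2 * I) * ∑ j, a j * n j := by
      rw [hp_lc_left, Finset.mul_sum]
      refine Finset.sum_congr rfl fun j _ => ?_
      rw [← hn j, hp_lc_right, hp_lc_right, Finset.mul_sum, Finset.mul_sum, Finset.mul_sum]
      refine Finset.sum_congr rfl fun i _ => ?_
      have e2 : conj (2 : ℂ) = 2 := map_ofNat (starRingEnd ℂ) 2
      simp [e2]
      ring
    rw [h1, hp_add_right, h2]
    unfold bl
    ring
  unfold kf
  rw [lc_add, hv, ← mul_assoc, ← mul_assoc, ← Complex.exp_add, ← Complex.exp_add]
  congr 2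
  rw [nsq_eq_hp, key, key, bl_add_left, bl_add_right, bl_add_right, hS.bl_symm ω σ]
  ring

/-! ### coordinates -/

/-- `σ ↦ ∑ σ_j P_j` is bijective -/
lemma Symp.lc_injective (hS : Symp P Q) : Function.Injective (lc P) := by
  have h0 : ∀ x : J → ℝ, (∀ k, hp (lc P fun j => (x j : ℂ)) (P k) = 0) → x = 0 := by
    intro x hx
    have h1 : nsq (lc P fun j => (x j : ℂ)) = 0 := by
      have : (nsq (lc P fun j => (x j : ℂ)) : ℂ) = 0 := by
        rw [nsq_eq_hp, hp_lc_right]
        simp [hx]
      exact_mod_cast this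
    funext i
    have h2 := sq_im_hp_le (Q i) (lc P fun j => (x j : ℂ))
    rw [h1, mul_zero, hp_lc_right] at h2
    simp only [conj_ofReal, im_sum, im_ofReal_mul, hS.qp] at h2
    simp only [mul_ite, mul_one, mul_zero, Finset.sum_ite_eq, Finset.mem_univ, if_true] at h2
    simpa using pow_eq_zero_iff (two_ne_zero) |>.1 (le_antisymm h2 (sq_nonneg _))
  have hlin : ∀ σ τ : J → ℂ, lc P (σ - τ) = lc P σ - lc P τ := by
    intro σ τ; funext k; simp [lc, sub_mul, Finset.sum_sub_distrib]
  intro σ τ h
  have h1 : lc P (σ - τ) = 0 := by rw [hlin, h, sub_self]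
  have h2 : ∀ k, ∑ j, (σ - τ) j * hp (P j) (P k) = 0 := by
    intro k
    rw [← hp_lc_left, h1, hp_zero_left]
  have h3 : ∀ k j, hp (P j) (P k) = (((hp (P j) (P k)).re : ℝ) : ℂ) := by
    intro k j
    apply Complex.ext
    · simp
    · simpa using hS.pp j k
  have h4 : (fun j => ((σ - τ) j).re) = 0 := by
    refine h0 _ fun k => ?_
    have := congrArg Complex.re (h2 k)
    rw [hp_lc_left]
    apply Complex.ext
    · rw [re_sum] at this ⊢
      rw [← this]
      refine Finset.sum_congr rfl fun j _ => ?_
      rw [h3 k j]; simp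
    · rw [im_sum]
      simp [hS.pp]
  have h5 : (fun j => ((σ - τ) j).im) = 0 := by
    refine h0 _ fun k => ?_
    have := congrArg Complex.im (h2 k)
    rw [hp_lc_left]
    apply Complex.ext
    · rw [im_sum] at this
      rw [re_sum]
      simp only [zero_re]
      rw [← zero_im, ← this]
      refine Finset.sum_congr rfl fun j _ => ?_
      rw [h3 k j]; simp
    · rw [im_sum]
      simp [hS.pp]
  funext j
  have e1 := congrFun h4 j
  have e2 := congrFun h5 j
  simp only [Pi.sub_apply, sub_re, sub_im, Pi.zero_apply] at e1 e2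
  apply Complex.ext
  · linarith
  · linarith

lemma Symp.lc_surjective (hS : Symp P Q) (hc : Fintype.card J = Fintype.card ι) :
    Function.Surjective (lc P) := by
  let L : (J → ℂ) →ₗ[ℂ] (ι → ℂ) :=
    { toFun := lc P
      map_add' := lc_add P
      map_smul' := by
        intro c σ; funext k
        simp [lc, Finset.mul_sum, mul_assoc] }
  have h1 : Function.Injective L := hS.lc_injective
  have h2 : Module.finrank ℂ (J → ℂ) = Module.finrank ℂ (ι → ℂ) := by
    rw [Module.finrank_pi, Module.finrank_pi, hc]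
  exact (LinearMap.injective_iff_surjective_of_finrank_eq_finrank h2).1 h1

lemma hol_kf {h : (ι → ℂ) → ℂ}
    (hh : ∀ u d : ι → ℂ, Differentiable ℂ (fun s : ℂ => h (u + s • d))) (σ d : J → ℂ) :
    Differentiable ℂ fun s : ℂ => kf P h (σ + s • d) := by
  unfold kf
  refine Differentiable.mul ?_ ?_
  · simp only [bl_eq]
    simp only [Pi.add_apply, Pi.smul_apply, smul_eq_mul]
    fun_prop
  · have : ∀ s : ℂ, lc P (σ + s • d) = lc P σ + s • lc P d := by
      intro s; funext k
      simp [lc, add_mul, Finset.sum_add_distrib, Finset.mul_sum, mul_assoc]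
    simp only [this]
    exact hh _ _

lemma Good.shift {h : (ι → ℂ) → ℂ} (hg : Good P Q h) (p : (J → ℤ) × (J → ℤ)) (hp1 : sg p = 1)
    (u : ι → ℂ) :
    h (u + lv P Q p) = cexp (π / 2 * nsq (lv P Q p) + π * hp u (lv P Q p)) * h u := by
  have h1 := hg.per p u
  rw [hp1, one_mul] at h1
  rw [← h1]
  unfold hei
  rw [← mul_assoc, ← Complex.exp_add]
  rw [show (π : ℂ) / 2 * (nsq (lv P Q p) : ℂ) + π * hp u (lv P Q p)
    + (-(π / 2) * (nsq (lv P Q p) : ℂ) - π * hp u (lv P Q p)) = 0 by ring, Complex.exp_zero,
    one_mul]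

/-- **uniqueness**: a quasi-periodic entire function with vanishing mean is zero -/
theorem Good.eq_zero (hS : Symp P Q) (hc : Fintype.card J = Fintype.card ι)
    {h : (ι → ℂ) → ℂ} (hg : Good P Q h)
    (h0 : ∫ t in cube J, kf P h (fun j => (t j : ℂ)) = 0) (u : ι → ℂ) : h u = 0 := by
  have hcont : Continuous (kf P h) := by
    unfold kf
    exact (Complex.continuous_exp.comp (continuous_const.mul continuous_bl)).mul
      (hg.cont.comp continuous_lc)
  have hhol : ∀ σ d : J → ℂ, Differentiable ℂ fun s : ℂ => kf P h (σ + s • d) := hol_kf hg.hol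
  -- periodicity
  have hper : ∀ (σ : J → ℂ) (m : J → ℤ), kf P h (σ + fun i => (m i : ℂ)) = kf P h σ := by
    intro σ m
    have h1 : lv P Q (m, 0) = lc P fun i => (m i : ℂ) := by
      funext k; simp [lv, lc]
    have h2 : sg ((m, 0) : (J → ℤ) × (J → ℤ)) = 1 := by simp [sg]
    have h3 := kf_add hS (ω := fun i => (m i : ℂ)) (n := 0) (h := h) ?_ ?_ σ
    · simpa using h3
    · intro j
      rw [hp_lc_right]; simp
    · intro u
      rw [← h1]; exact hg.shift _ h2 u
  have hreal : ∀ t : J → ℝ, kf P h (fun j => (t j : ℂ)) = 0 := by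
    have hcr : Continuous fun t : J → ℝ => kf P h (fun j => (t j : ℂ)) :=
      hcont.comp (by fun_prop)
    have hpr : ∀ (t : J → ℝ) (m : J → ℤ), kf P h (fun j => ((t + fun i => (m i : ℝ)) j : ℂ))
        = kf P h (fun j => (t j : ℂ)) := by
      intro t m
      rw [← hper (fun j => (t j : ℂ)) m]
      congr 1
      funext j; simp
    refine eq_zero_of_coeff hcr hpr fun n => ?_
    -- the period `ω(n)`
    obtain ⟨ω, hω⟩ := hS.lc_surjective hc (lc Q fun j => (n j : ℂ))
    have h1 : lv P Q (0, n) = lc P ω := by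
      rw [hω]; funext k; simp [lv, lc]
    have h2 : sg ((0, n) : (J → ℤ) × (J → ℤ)) = 1 := by simp [sg]
    have hn : ∀ j, hp (P j) (lc P fun i => ((ω i).im : ℂ)) = (n j : ℂ) := by
      intro j
      -- imaginary part of `⟨P_j, lc ω⟩`
      have e1 : (hp (P j) (lc P ω)).im = -(hp (P j) (lc P fun i => ((ω i).im : ℂ))).re := by
        rw [hp_lc_right, hp_lc_right, im_sum, re_sum, ← Finset.sum_neg_distrib]
        refine Finset.sum_congr rfl fun i _ => ?_
        simp [hS.pp]
      have e2 : (hp (P j) (lc P ω)).im = -(n j : ℝ) := by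
        rw [hω, hp_lc_right, im_sum]
        have : ∀ i, (conj ((n i : ℤ) : ℂ) * hp (P j) (Q i)).im
            = (n i : ℝ) * (if j = i then -1 else 0) := by
          intro i
          rw [← hS.pq, ← im_ofReal_mul]
          simp
        simp only [this]
        simp
      have e3 : (hp (P j) (lc P fun i => ((ω i).im : ℂ))).im = 0 := by
        rw [hp_lc_right, im_sum]
        simp [hS.pp]
      apply Complex.ext
      · simp only [intCast_re]; linarith
      · simpa using e3
    have h3 := kf_add hS (ω := ω) (n := fun j => (n j : ℂ)) (h := h) hn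
      (fun u => by rw [← h1]; exact hg.shift _ h2 u)
    have h4 := integral_cube_eq hcont (fun σ j => hhol σ _) hper (fun j => (ω j).im)
    have h5 : ∫ t in cube J, tr (kf P h) 0 t = 0 := by
      rw [← h0]
      congr 1
      funext t
      simp [tr]
    rw [h5] at h4
    have hct : Continuous (tr (kf P h) fun j => (ω j).im) := by
      unfold tr; fun_prop
    have hpt : ∀ (t : J → ℝ) (m : J → ℤ), tr (kf P h) (fun j => (ω j).im)
        (t + fun i => (m i : ℝ)) = tr (kf P h) (fun j => (ω j).im) t := by
      intro t m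
      unfold tr
      rw [← hper (fun j => (t j : ℂ) + I * ((ω j).im : ℂ)) m]
      congr 1
      funext i; simp; ring
    have h6 := integral_cube_shift hct hpt (fun j => (ω j).re)
    rw [h4] at h6
    have h7 : ∀ t : J → ℝ, tr (kf P h) (fun j => (ω j).im) (t + fun j => (ω j).re)
        = cexp (-(π * I) * ∑ j, ω j * (n j : ℂ)) * (ch n t * kf P h fun j => (t j : ℂ)) := by
      intro t
      have e1 : tr (kf P h) (fun j => (ω j).im) (t + fun j => (ω j).re)
          = kf P h ((fun j => (t j : ℂ)) + ω) := by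
        unfold tr
        congr 1
        funext j
        have := Complex.re_add_im (ω j)
        simp only [Pi.add_apply, ofReal_add]
        linear_combination this
      rw [e1, h3, ← mul_assoc, ch, ← Complex.exp_add]
      congr 2
      have : ∑ j, (t j : ℂ) * (n j : ℂ) = ∑ j, (n j : ℂ) * (t j : ℂ) :=
        Finset.sum_congr rfl fun _ _ => mul_comm _ _
      rw [this]
      ring
    simp only [h7] at h6
    rw [integral_const_mul] at h6
    exact (mul_eq_zero.1 h6).resolve_left (Complex.exp_ne_zero _)
  have hall := eq_zero_of_real hhol hreal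
  obtain ⟨σ, rfl⟩ := hS.lc_surjective hc u
  have := hall σ
  unfold kf at this
  exact (mul_eq_zero.1 this).resolve_left (Complex.exp_ne_zero _)

/-- **one-dimensionality** -/
theorem Good.proportional (hS : Symp P Q) (hc : Fintype.card J = Fintype.card ι)
    {h h₁ : (ι → ℂ) → ℂ} (hg : Good P Q h) (hg₁ : Good P Q h₁) (u₀ : ι → ℂ) (u : ι → ℂ) :
    h₁ u₀ * h u = h u₀ * h₁ u := by
  set c : ((ι → ℂ) → ℂ) → ℂ := fun f => ∫ t in cube J, kf P f (fun j => (t j : ℂ)) with hcdef
  have hint : ∀ f : (ι → ℂ) → ℂ, Continuous f →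
      IntegrableOn (fun t : J → ℝ => kf P f (fun j => (t j : ℂ))) (cube J) := by
    intro f hf
    have h1 : Continuous fun t : J → ℝ => kf P f (fun j => (t j : ℂ)) := by
      have h2 : Continuous (kf P f) := by
        unfold kf
        exact (Complex.continuous_exp.comp (continuous_const.mul continuous_bl)).mul
          (hf.comp continuous_lc)
      exact h2.comp (by fun_prop)
    refine (h1.continuousOn.integrableOn_compact isCompact_ccube).mono_set ?_
    intro t ht i
    have := ht i
    exact ⟨this.1.le, by simpa using this.2⟩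
  -- the combination with mean zero
  have key : ∀ u, c h * h₁ u = c h₁ * h u := by
    have hgood : Good P Q (fun u => c h * h₁ u - c h₁ * h u) := by
      refine ⟨(continuous_const.mul hg₁.cont).sub (continuous_const.mul hg.cont),
        fun u d => ((hg₁.hol u d).const_mul _).sub ((hg.hol u d).const_mul _), fun p u => ?_⟩
      have e1 := hg₁.per p u
      have e2 := hg.per p u
      unfold hei at e1 e2 ⊢
      linear_combination (c h) * e1 - (c h₁) * e2
    have h0 : c (fun u => c h * h₁ u - c h₁ * h u) = 0 := by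
      have e1 : c (fun u => c h * h₁ u - c h₁ * h u)
          = ∫ t in cube J, (c h * kf P h₁ (fun j => (t j : ℂ))
            - c h₁ * kf P h (fun j => (t j : ℂ))) := by
        rw [hcdef]
        simp only
        congr 1
        funext t
        unfold kf
        ring
      rw [e1, integral_sub ((hint h₁ hg₁.cont).const_mul _) ((hint h hg.cont).const_mul _),
        integral_const_mul, integral_const_mul]
      rw [show (∫ t in cube J, kf P h₁ (fun j => (t j : ℂ))) = c h₁ from rfl,
        show (∫ t in cube J, kf P h (fun j => (t j : ℂ))) = c h from rfl]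
      ring
    intro u
    have := Good.eq_zero hS hc hgood h0 u
    linear_combination this
  by_cases h0 : c h = 0
  · have hz := Good.eq_zero hS hc hg h0
    rw [hz u, hz u₀]; ring
  · have e1 := key u
    have e0 := key u₀
    have : c h * (h₁ u₀ * h u) = c h * (h u₀ * h₁ u) := by
      linear_combination (h u) * e0 - (h u₀) * e1
    exact mul_left_cancel₀ h0 this

end

end Crest.Agent.R272.ETh445
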