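/-
helper295, row 272, division E, glue: `TData` (T2, EThDefs_445) + `ChiOut` (T3) ==> `TIn` (T4),
with the equivariance (T1) of `psi` and `psiF`.
-/
import Crest.Agent.R272.ETh4_295
import Crest.Agent.R272.EThDefs_445

set_option autoImplicit false
set_option linter.unusedSectionVars false
set_option linter.unusedVariables false

open scoped ComplexConjugate Topology

namespace Crest.Agent.R272.ETh5_295

open Crest.Agent.R272.EBase_641 Crest.Agent.R272.EBase2_641 Crest.Agent.R272.ETh4Defs_295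
open Crest.Agent.R272.ETh4Fin_295 Crest.Agent.R272.ETh4_295 Crest.Agent.R272.EThDefs_445

noncomputable section

variable {n m : ℕ}

theorem ss_eq_hh (z w : E n) : ss z w = - hh (z, 1) (w, 1) := by
  simp [ss, hh]

theorem ss_act (g : UG n) {z w : E n} (hz : z ∈ Ball n) (hw : w ∈ Ball n) :
    ss z w = (jj g z * conj (jj g w)) * ss (act g z) (act g w) := by
  rw [ss_eq_hh, ss_eq_hh, ← UG_hh g (z, 1) (w, 1), apply_eq g hz, apply_eq g hw, hh_smul_left,
    hh_smul_right]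
  ring

theorem ss_ne {z w : E n} (hz : z ∈ Ball n) (hw : w ∈ Ball n) : ss z w ≠ 0 := by
  have h1 : ‖z‖ < 1 := mem_Ball.1 hz
  have h2 : ‖w‖ < 1 := mem_Ball.1 hw
  intro h
  have h3 : (inner ℂ w z : ℂ) = 1 := by
    rw [ss, sub_eq_zero] at h; exact h.symm
  have h4 := norm_inner_le_norm (𝕜 := ℂ) w z
  rw [h3, norm_one] at h4
  nlinarith [norm_nonneg z, norm_nonneg w]

theorem Rp_act (g : UG n) (v : V1 n) {z w : E n} (hz : z ∈ Ball n) (hw : w ∈ Ball n) :
    Rp (g.1 v) (act g z) (act g w) = Rp v z w := by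
  have h1 := jj_ne_zero g hz
  have h2 : conj (jj g w) ≠ 0 := by simpa using jj_ne_zero g hw
  have h3 := ss_ne (act_mem g hz) (act_mem g hw)
  rw [Rp, Rp, lin_act g v hz, lin_act g v hw, ss_act g hz hw, map_div₀]
  field_simp

theorem hh_nrm (g : UG n) (v : V1 n) : ‖(g.1 v).1‖ ^ 2 - ‖(g.1 v).2‖ ^ 2 = ‖v.1‖ ^ 2 - ‖v.2‖ ^ 2 := by
  have h := UG_hh g v v
  rw [hh_self, hh_self] at h
  exact Complex.ofReal_injective h

theorem wt_act (g : UG n) (s : W m ≃ₗᵢ[ℂ] W m) (v : V1 n × W m) : wt ((g.1 v.1, s v.2) : V1 n × W m) = wt v := by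
  simp only [wt, hh_nrm, LinearIsometryEquiv.norm_map]

theorem ee_act (g : UG n) (s : W m ≃ₗᵢ[ℂ] W m) (v w : V1 n × W m) :
    ee ((g.1 v.1, s v.2) : V1 n × W m) (g.1 w.1, s w.2) = ee v w := by
  simp only [ee, UG_hh, LinearIsometryEquiv.inner_map_map]

theorem psi_act (g : UG n) (s : W m ≃ₗᵢ[ℂ] W m) (v : V1 n × W m) {z w : E n} (hz : z ∈ Ball n)
    (hw : w ∈ Ball n) :
    psi ((g.1 v.1, s v.2) : V1 n × W m) (act g z) (act g w) =
      jj g z * conj (jj g w) * psi v z w := by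
  have h1 := jj_ne_zero g hz
  have h2 : conj (jj g w) ≠ 0 := by simpa using jj_ne_zero g hw
  have h3 := ss_ne (act_mem g hz) (act_mem g hw)
  rw [psi, psi, wt_act, Rp_act g v.1 hz hw, ss_act g hz hw]
  field_simp

/-- derivative of the action -/
def dact (g : UG n) (z X : E n) : E n := (jj g z)⁻¹ • ((g.1 (X, 0)).1 - (g.1 (X, 0)).2 • act g z)

theorem dact_spec (g : UG n) {z : E n} (hz : z ∈ Ball n) (X : E n) :
    g.1 (X, 0) = jj g z • ((dact g z X, 0) : V1 n) + (g.1 (X, 0)).2 • ((act g z, 1) : V1 n) := by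
  have hj := jj_ne_zero g hz
  ext1
  · simp [dact, smul_smul, hj]
  · simp

theorem hasFDerivAt_act (g : UG n) {z : E n} (hz : z ∈ Ball n) :
    ∃ D : E n →L[ℂ] E n, HasFDerivAt (act g) D z ∧ ∀ X, D X = dact g z X := by
  have hj := jj_ne_zero g hz
  set Gc : V1 n →L[ℂ] V1 n := LinearMap.toContinuousLinearMap (g.1 : V1 n →ₗ[ℂ] V1 n) with hGc
  have hG : ∀ v, Gc v = g.1 v := fun v => rfl
  have h0 : HasFDerivAt (fun y : E n => ((y, 1) : V1 n)) (ContinuousLinearMap.inl ℂ (E n) ℂ) z := by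
    have h1 := (hasFDerivAt_id (𝕜 := ℂ) z).prodMk (hasFDerivAt_const (1 : ℂ) z)
    exact h1
  have h1 : HasFDerivAt (fun y : E n => g.1 (y, 1)) (Gc ∘L ContinuousLinearMap.inl ℂ (E n) ℂ) z :=
    Gc.hasFDerivAt.comp z h0
  have h2 : HasFDerivAt (fun y : E n => (g.1 (y, 1)).2)
      ((ContinuousLinearMap.snd ℂ (E n) ℂ) ∘L (Gc ∘L ContinuousLinearMap.inl ℂ (E n) ℂ)) z :=
    (ContinuousLinearMap.snd ℂ (E n) ℂ).hasFDerivAt.comp z h1
  have h3 : HasFDerivAt (fun y : E n => (g.1 (y, 1)).1)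
      ((ContinuousLinearMap.fst ℂ (E n) ℂ) ∘L (Gc ∘L ContinuousLinearMap.inl ℂ (E n) ℂ)) z :=
    (ContinuousLinearMap.fst ℂ (E n) ℂ).hasFDerivAt.comp z h1
  have h4 := (hasDerivAt_inv (show (g.1 (z, 1)).2 ≠ 0 from hj)).comp_hasFDerivAt z h2
  have h5 := h4.smul h3
  refine ⟨_, h5, fun X => ?_⟩
  have e1 : (g.1 (z, 1)).2 = jj g z := rfl
  have e2 : (g.1 (z, 1)).1 = jj g z • act g z := by
    rw [apply_eq g hz]; rfl
  simp only [Function.comp, add_apply, smul_apply,
    ContinuousLinearMap.comp_apply, ContinuousLinearMap.smulRight_apply,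
    ContinuousLinearMap.inl_apply, ContinuousLinearMap.coe_fst', ContinuousLinearMap.coe_snd', hG,
    e1, e2, dact, smul_sub, smul_smul, smul_eq_mul]
  rw [sub_eq_add_neg, ← neg_smul]
  congr 2
  field_simp

theorem fac_eq (v : V1 n) (z w X : E n) :
    inner ℂ v.1 X + lin v z * inner ℂ w X / ss z w =
      hh ((X, 0) + (hh (X, 0) (w, 1) / ss z w) • ((z, 1) : V1 n)) v := by
  rw [hh_add_left, hh_smul_left, ← lin_eq_hh]
  simp only [hh]
  simp
  ring

theorem fac_act (g : UG n) (v : V1 n) {z w : E n} (hz : z ∈ Ball n) (hw : w ∈ Ball n) (X : E n) :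
    jj g z * (inner ℂ (g.1 v).1 (dact g z X) +
      lin (g.1 v) (act g z) * inner ℂ (act g w) (dact g z X) / ss (act g z) (act g w)) =
      inner ℂ v.1 X + lin v z * inner ℂ w X / ss z w := by
  have h1 := jj_ne_zero g hz
  have h2 : conj (jj g w) ≠ 0 := by simpa using jj_ne_zero g hw
  have h3 := ss_ne (act_mem g hz) (act_mem g hw)
  set c := (g.1 (X, 0)).2 with hc
  -- components
  have e1 : inner ℂ v.1 X = jj g z * inner ℂ (g.1 v).1 (dact g z X) + c * lin (g.1 v) (act g z) := by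
    have : inner ℂ v.1 X = hh (X, 0) v := by simp [hh]
    rw [this, ← UG_hh g (X, 0) v, dact_spec g hz X, hh_add_left, hh_smul_left, hh_smul_left,
      ← lin_eq_hh]
    simp [hh, hc]
  have e2 : inner ℂ w X = conj (jj g w) * (jj g z * inner ℂ (act g w) (dact g z X) -
      c * ss (act g z) (act g w)) := by
    have : inner ℂ w X = hh (X, 0) (w, 1) := by simp [hh]
    rw [this, ← UG_hh g (X, 0) (w, 1), dact_spec g hz X, apply_eq g hw, hh_smul_right, hh_add_left,
      hh_smul_left, hh_smul_left, ss_eq_hh]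
    have : hh (dact g z X, 0) (act g w, 1) = inner ℂ (act g w) (dact g z X) := by simp [hh]
    rw [this]
    ring
  have e3 : lin v z = jj g z * lin (g.1 v) (act g z) := by
    rw [lin_act g v hz]; field_simp
  rw [e1, e2, e3, ss_act g hz hw]
  field_simp
  ring

theorem psiF_act (g : UG n) (s : W m ≃ₗᵢ[ℂ] W m) (v : V1 n × W m) {z w : E n} (hz : z ∈ Ball n)
    (hw : w ∈ Ball n) (X : E n) :
    psiF ((g.1 v.1, s v.2) : V1 n × W m) (act g z) (act g w) (dact g z X) =
      conj (jj g w) * psiF v z w X := by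
  have h1 := jj_ne_zero g hz
  rw [psiF, psiF, psi_act g s v hz hw]
  have := fac_act g v.1 hz hw X
  rw [← this]
  ring

/-- the input from T3 (CHI): weight one law of the theta values, without character, on a finite
index subgroup. -/
def ChiOut (D : EDat) (T : TData D.L) : Prop :=
  ∃ H : Subgroup D.G, H.FiniteIndex ∧ ∀ g ∈ H, ∀ a : V1 D.n × W D.m, ∀ z ∈ Ball D.n,
    T.t (gact D g a) (act (D.ρ g) z) = jj (D.ρ g) z * T.t a z

section glue

variable {D : EDat}

theorem ph_eq (x : ℝ) : ph x = XH x := rfl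

theorem tε_sq (T : TData D.L) {l : V1 D.n × W D.m} (hl : l ∈ D.L) : T.ε l * T.ε l = 1 := by
  rcases T.ε_pm l hl with h | h <;> rw [h] <;> norm_num

theorem tε_even (T : TData D.L) {l y : V1 D.n × W D.m} (hl : l ∈ D.L) (hy : y ∈ D.L) :
    T.ε (l + 2 • y) = T.ε l := by
  have h1 : T.ε (2 • y) = 1 := by
    rw [two_smul, T.ε_add _ hy _ hy, tε_sq T hy, ee_self]
    simp [ph]
  rw [T.ε_add _ hl _ (D.L.nsmul_mem hy _), h1, mul_one]
  obtain ⟨j, hj⟩ := D.int l hl y hy
  have h3 : ee l (2 • y) = 2 * ((j : ℤ) : ℝ) := by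
    rw [(pair D).nsmul_right, hj]; push_cast; ring
  rw [h3, ph_eq, XH_two, X_int, mul_one]

theorem tε_g (T : TData D.L) {g : D.G} (hg : g ∈ Hc D 2) {l : V1 D.n × W D.m} (hl : l ∈ D.L) :
    T.ε (gact D g l) = T.ε l := by
  set v : V1 D.n × W D.m := (1 / 2 : ℝ) • l with hv
  have e1 : 2 • v = l := by
    rw [hv, two_smul, ← add_smul]; norm_num
  have hy := Hc_spec D hg (v := v) (by rw [e1]; exact hl)
  have e2 : gact D g l = l + 2 • (gact D g v - v) := by
    have : gact D g l = 2 • gact D g v := by rw [← gact_nsmul, e1]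
    rw [this, smul_sub, e1]; abel
  rw [e2, tε_even T hl hy]

/-- `g` as a permutation of the lattice -/
def gL (D : EDat) (g : D.G) : D.L ≃ D.L where
  toFun l := ⟨gact D g l, gact_mem D g l.2⟩
  invFun l := ⟨gact D g⁻¹ l, gact_mem D g⁻¹ l.2⟩
  left_inv l := by
    apply Subtype.ext
    show gact D g⁻¹ (gact D g l) = l
    rw [← gact_mul, inv_mul_cancel, gact_one]
  right_inv l := by
    apply Subtype.ext
    show gact D g (gact D g⁻¹ l) = l
    rw [← gact_mul, mul_inv_cancel, gact_one]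

theorem ee_gact (g : D.G) (v w : V1 D.n × W D.m) : ee (gact D g v) (gact D g w) = ee v w :=
  ee_act (D.ρ g) (D.σ g) v w

theorem der_law (T : TData D.L) {g : D.G} (hg : g ∈ Hc D 2)
    (ht : ∀ a : V1 D.n × W D.m, ∀ z ∈ Ball D.n,
      T.t (gact D g a) (act (D.ρ g) z) = jj (D.ρ g) z * T.t a z)
    (a : V1 D.n × W D.m) {z : E D.n} (hz : z ∈ Ball D.n) (X : E D.n) :
    fderiv ℂ (T.A (gact D g a)) (act (D.ρ g) z) (dact (D.ρ g) z X) = fderiv ℂ (T.A a) z X := by
  obtain ⟨b, hb⟩ := T.t_ne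
  have h0 : (0 : E D.n) ∈ Ball D.n := by simp [Ball]
  have h1 := T.Fv (gact D g a) (gact D g b) _ (act_mem (D.ρ g) hz) _ (act_mem (D.ρ g) h0)
    (dact (D.ρ g) z X)
  have h2 := (gL D g).hasSum_iff.2 h1
  have h3 : HasSum (fun l : D.L => conj (jj (D.ρ g) 0) * (T.ε l *
      ph (ee (l : V1 D.n × W D.m) (a + b)) * psiF ((l : V1 D.n × W D.m) + a - b) z 0 X))
      (ph (ee (gact D g b) (gact D g a)) *
        (fderiv ℂ (T.A (gact D g a)) (act (D.ρ g) z) (dact (D.ρ g) z X) *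
          conj (T.t (gact D g b) (act (D.ρ g) 0)))) := by
    refine h2.congr_fun ?_ |> fun h => h
    intro l
    have e0 : (((gL D g) l : D.L) : V1 D.n × W D.m) = gact D g l := rfl
    simp only [Function.comp, e0]
    rw [tε_g T hg l.2, ← gact_add, ee_gact, ← gact_add, ← gact_sub]
    have e1 := psiF_act (D.ρ g) (D.σ g) ((l : V1 D.n × W D.m) + a - b) hz h0 X
    have e2 : psiF (gact D g ((l : V1 D.n × W D.m) + a - b)) (act (D.ρ g) z) (act (D.ρ g) 0)
        (dact (D.ρ g) z X) = conj (jj (D.ρ g) 0) * psiF ((l : V1 D.n × W D.m) + a - b) z 0 X := e1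
    rw [e2]
    ring
  have h4 := h3.unique ((T.Fv a b z hz 0 h0 X).mul_left (conj (jj (D.ρ g) 0)))
  rw [ee_gact, ht b 0 h0, map_mul] at h4
  have hj : conj (jj (D.ρ g) 0) ≠ 0 := by simpa using jj_ne_zero (D.ρ g) h0
  have hb' : conj (T.t b 0) ≠ 0 := by simpa using hb
  have hp : ph (ee b a) ≠ 0 := XH_ne _
  refine mul_left_cancel₀ (mul_ne_zero hp (mul_ne_zero hj hb')) ?_
  linear_combination h4

theorem A_law (T : TData D.L) {g : D.G} (hg : g ∈ Hc D 2)
    (ht : ∀ a : V1 D.n × W D.m, ∀ z ∈ Ball D.n,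
      T.t (gact D g a) (act (D.ρ g) z) = jj (D.ρ g) z * T.t a z) (a : V1 D.n × W D.m) :
    ∃ c : ℂ, ∀ z ∈ Ball D.n, T.A (gact D g a) (act (D.ρ g) z) = T.A a z + c := by
  have hd : ∀ z ∈ Ball D.n, HasFDerivAt (fun y => T.A (gact D g a) (act (D.ρ g) y))
      (fderiv ℂ (T.A a) z) z := by
    intro z hz
    obtain ⟨D', hD, hD'⟩ := hasFDerivAt_act (D.ρ g) hz
    have h1 : DifferentiableAt ℂ (T.A (gact D g a)) (act (D.ρ g) z) :=
      (T.A_hol _).differentiableAt (isOpen_Ball.mem_nhds (act_mem (D.ρ g) hz))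
    have h2 := h1.hasFDerivAt.comp z hD
    have h3 : (fderiv ℂ (T.A (gact D g a)) (act (D.ρ g) z)) ∘L D' = fderiv ℂ (T.A a) z := by
      ext1 X
      rw [ContinuousLinearMap.comp_apply, hD']
      exact der_law T hg ht a hz X
    rw [h3] at h2
    exact h2
  have h1 : DifferentiableOn ℂ (fun y => T.A (gact D g a) (act (D.ρ g) y)) (Ball D.n) :=
    fun z hz => (hd z hz).differentiableAt.differentiableWithinAt
  have h2 : Set.EqOn (fderiv ℂ (fun y => T.A (gact D g a) (act (D.ρ g) y))) (fderiv ℂ (T.A a))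
      (Ball D.n) := fun z hz => (hd z hz).fderiv
  obtain ⟨c, hc⟩ := isOpen_Ball.exists_eq_add_of_fderiv_eq preconn_Ball h1 (T.A_hol _) h2
  exact ⟨c, fun z hz => hc hz⟩

/-- **glue T2 + T3 => input of T4** -/
theorem tin (T : TData D.L) (hχ : ChiOut D T) : Nonempty (TIn D) := by
  obtain ⟨H, hH, hh⟩ := hχ
  refine ⟨{ ε := T.ε, ε_sq := fun l hl => tε_sq T hl, ε_add := T.ε_add, A := T.A, A_hol := T.A_hol,
            κ := Real.pi, κ_ne := by exact_mod_cast Real.pi_ne_zero, rank := ?_, H0 := H ⊓ Hc D 2,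
            H0_fin := ?_, A_act := ?_ }⟩
  · intro a b z hz w hw X Y
    have h1 := (T.FF a b z hz w hw X Y).mul_left (Real.pi : ℂ)
    have hπ : (Real.pi : ℂ) ≠ 0 := by exact_mod_cast Real.pi_ne_zero
    have e1 : (Real.pi : ℂ) * (ph (ee b a) * (fderiv ℂ (T.A a) z X * conj (fderiv ℂ (T.A b) w Y))) =
        Real.pi * Complex.exp (Real.pi * Complex.I * (ee b a : ℝ)) *
        (fderiv ℂ (T.A a) z X * conj (fderiv ℂ (T.A b) w Y)) := by
      rw [ph]; ring
    rw [e1] at h1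
    refine h1.congr_fun ?_ |> fun h => h
    intro l
    rw [ph, psiFF]
    field_simp
  · have h4 := Hc_fin D (K := 2) (by norm_num)
    infer_instance
  · intro g hg a
    obtain ⟨h1, h2⟩ := Subgroup.mem_inf.1 hg
    exact A_law T h2 (hh g h1) a

end glue

/-- per element form of T3 => `ChiOut` (kernel of the finite character). -/
theorem chiOut_of {D : EDat} (T : TData D.L) (H0 : Subgroup D.G) (hfin : H0.FiniteIndex) (N : ℕ)
    (hN : 0 < N)
    (h : ∀ g ∈ H0, ∃ χ : ℂ, χ ^ N = 1 ∧ ∀ a : V1 D.n × W D.m, ∀ z ∈ Ball D.n,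
      T.t (gact D g a) (act (D.ρ g) z) = χ * jj (D.ρ g) z * T.t a z) : ChiOut D T := by
  classical
  obtain ⟨b, hb⟩ := T.t_ne
  have h0 : (0 : E D.n) ∈ Ball D.n := by simp [Ball]
  have hNe : NeZero N := ⟨hN.ne'⟩
  choose! χ hχ1 hχ2 using h
  have hne : ∀ g ∈ H0, χ g ≠ 0 := by
    intro g hg h1
    have := hχ1 g hg
    rw [h1, zero_pow hN.ne'] at this
    exact zero_ne_one this
  have hmul : ∀ g ∈ H0, ∀ g' ∈ H0, χ (g * g') = χ g * χ g' := by
    intro g hg g' hg'
    have e1 := hχ2 (g * g') (H0.mul_mem hg hg') b 0 h0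
    have e2 := hχ2 g' hg' b 0 h0
    have e3 := hχ2 g hg (gact D g' b) _ (act_mem (D.ρ g') h0)
    rw [← gact_mul, ← act_mul _ _ h0, ← map_mul, e1, e2, map_mul, jj_mul _ _ h0] at e3
    have hj1 := jj_ne_zero (D.ρ g') h0
    have hj2 := jj_ne_zero (D.ρ g) (act_mem (D.ρ g') h0)
    refine mul_right_cancel₀ (mul_ne_zero (mul_ne_zero hj2 hj1) hb) ?_
    linear_combination e3
  let f : H0 →* rootsOfUnity N ℂ :=
    { toFun := fun g => rootsOfUnity.mkOfPowEq (χ g.1) (hχ1 g.1 g.2)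
      map_one' := by
        have e1 := hmul 1 H0.one_mem 1 H0.one_mem
        rw [mul_one] at e1
        have e2 : χ 1 = 1 := by
          have := hne 1 H0.one_mem
          refine mul_left_cancel₀ this ?_
          rw [← e1, mul_one]
        apply Subtype.ext
        apply Units.ext
        simp [e2]
      map_mul' := fun g g' => by
        apply Subtype.ext
        apply Units.ext
        simp [hmul g.1 g.2 g'.1 g'.2] }
  have hk : f.ker.FiniteIndex := Subgroup.finiteIndex_ker f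
  refine ⟨f.ker.map H0.subtype, ?_, ?_⟩
  · refine ⟨?_⟩
    rw [Subgroup.index_map_subtype]
    exact mul_ne_zero hk.index_ne_zero hfin.index_ne_zero
  · rintro g ⟨g', hg', rfl⟩ a z hz
    have e1 : f g' = 1 := MonoidHom.mem_ker.1 hg'
    have e2 : χ g'.1 = 1 := by
      have := congrArg (fun u : rootsOfUnity N ℂ => ((u : ℂˣ) : ℂ)) e1
      simpa [f] using this
    have e3 := hχ2 g'.1 g'.2 a z hz
    rw [e2, one_mul] at e3
    exact e3

/-- **ETheta2 from T2 + T3.** -/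
theorem etheta2_of (h2 : T2) (h3 : ∀ (D : EDat) (T : TData D.L), ChiOut D T) : ETheta2 := by
  refine etheta2 fun D => ?_
  obtain ⟨T⟩ := h2 D.n D.m D.L D.disc D.span D.int D.dual
  exact tin T (h3 D T)

/-- **EThetaK from T2 + T3.** -/
theorem ethetaK_of (h2 : T2) (h3 : ∀ (D : EDat) (T : TData D.L), ChiOut D T) :
    EPol_429.EThetaK := by
  refine ethetaK fun D => ?_
  obtain ⟨T⟩ := h2 D.n D.m D.L D.disc D.span D.int D.dual
  exact tin T (h3 D T)

end

end Crest.Agent.R272.ETh5_295
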