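import Crest.Agent.R272.ETh4_445

/-!
# Row 272, division E (helper445): rank one identity for coherent states.
-/

set_option autoImplicit false
set_option linter.unusedSectionVars false

open Complex MeasureTheory Filter Topology Set
open scoped ComplexConjugate Real

namespace Crest.Agent.R272.ETh445

noncomputable section

variable {ι J : Type} [Fintype ι] [Fintype J] {P Q : J → ι → ℂ}

/-- the coherent state `u ↦ exp(π⟨u,B⟩)` -/
def eS (B : ι → ℂ) (u : ι → ℂ) : ℂ := cexp (π * hp u B)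

lemma state_eS (B : ι → ℂ) : State (eS B) := by
  refine ⟨?_, ?_, ?_⟩
  · unfold eS
    exact Complex.continuous_exp.comp (continuous_const.mul (continuous_hp_left B))
  · intro u d
    unfold eS
    refine Differentiable.cexp ((differentiable_const _).mul ?_)
    have : (fun s : ℂ => hp (u + s • d) B) = fun s => hp u B + s * hp d B := by
      funext s
      simp [hp, add_mul, Finset.sum_add_distrib, Finset.mul_sum, mul_assoc]
    rw [this]
    exact (differentiable_const _).add (differentiable_id.mul (differentiable_const _))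
  · refine ⟨Real.exp (π * nsq B), 1 / 2, (Real.exp_pos _).le, by norm_num, fun u => ?_⟩
    unfold eS
    rw [Complex.norm_exp, ← Real.exp_add]
    refine Real.exp_le_exp.2 ?_
    rw [Complex.re_ofReal_mul]
    have h1 : (hp u B).re ≤ ‖hp u B‖ := Complex.re_le_norm _
    have h2 := norm_hp_sq_le u B
    have h3 := nsq_nonneg u
    have h4 := nsq_nonneg B
    have h5 : ‖hp u B‖ ≤ nsq u / 4 + nsq B := by
      nlinarith [sq_nonneg (nsq u / 4 - nsq B), norm_nonneg (hp u B)]
    have hpi := Real.pi_pos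
    nlinarith

variable [DecidableEq J]

lemma State.good_avg {f : (ι → ℂ) → ℂ} (hf : State f) (hS : Symp P Q) : Good P Q (avg P Q f) :=
  ⟨hf.continuous_avg hS, hf.hol_avg hS, fun p u => hei_avg hS p f u⟩

/-- `P(A,B) = ∑ ε(l) ⟨π(l)e_A, e_B⟩` -/
def PP (P Q : J → ι → ℂ) (A B : ι → ℂ) : ℂ := avg P Q (eS B) A

lemma hasSum_PP (hS : Symp P Q) (A B : ι → ℂ) :
    HasSum (fun p => sg p * hei (lv P Q p) (eS B) A) (PP P Q A B) :=
  ((state_eS B).summable hS A).hasSum

/-- the rank one identity -/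
theorem PP_rank (hS : Symp P Q) (hc : Fintype.card J = Fintype.card ι) (A B C D : ι → ℂ) :
    PP P Q A B * PP P Q C D = PP P Q A D * PP P Q C B := by
  have := Good.proportional hS hc ((state_eS B).good_avg hS) ((state_eS D).good_avg hS) C A
  unfold PP
  linear_combination this

lemma hei_eS (v A B : ι → ℂ) :
    hei v (eS B) A = cexp (π * (-(nsq v : ℂ) / 2 + hp A B - hp A v + hp v B)) := by
  unfold hei eS
  rw [← Complex.exp_add, hp_add_left]
  congr 1
  ring

lemma sg_neg (p : (J → ℤ) × (J → ℤ)) : sg (-p) = sg p := by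
  simp [sg]

lemma conj_sg (p : (J → ℤ) × (J → ℤ)) : conj (sg p) = sg p := by
  have h1 : sg p * conj (sg p) = 1 := by
    rw [Complex.mul_conj, Complex.normSq_eq_norm_sq, norm_sg]; simp
  have h2 := sg_sq p
  have h3 : sg p ≠ 0 := by
    intro h; rw [h] at h2; simp at h2
  exact mul_left_cancel₀ h3 (h1.trans h2.symm)

lemma lv_neg (p : (J → ℤ) × (J → ℤ)) : lv P Q (-p) = -lv P Q p := by
  funext k
  simp only [lv, lc, Prod.fst_neg, Prod.snd_neg, Pi.neg_apply, Int.cast_neg, neg_mul,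
    Finset.sum_neg_distrib, Pi.add_apply]
  ring

theorem PP_conj (hS : Symp P Q) (A B : ι → ℂ) : conj (PP P Q A B) = PP P Q B A := by
  have h1 := (hasSum_PP hS A B).map (starRingEnd ℂ).toAddMonoidHom Complex.continuous_conj
  have h2 := (Equiv.neg ((J → ℤ) × (J → ℤ))).hasSum_iff.2 (hasSum_PP hS B A)
  refine h1.unique ?_
  convert h2 using 1
  funext p
  simp only [Function.comp_apply, Equiv.neg_apply, RingHom.toAddMonoidHom_eq_coe,
    AddMonoidHom.coe_coe, map_mul, conj_sg, sg_neg, lv_neg, hei_eS, ← Complex.exp_conj, nsq_neg,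
    hp_neg_left, hp_neg_right]
  congr 2
  simp only [map_add, map_sub, map_neg, map_div₀, hp_conj, conj_ofReal]
  have e2 : conj (2 : ℂ) = 2 := map_ofNat (starRingEnd ℂ) 2
  rw [e2]
  ring

/-- the sign `(-1)^k` as an exponential -/
lemma exp_neg_pi_int (k : ℤ) : cexp (-(π * I) * (k : ℂ)) = if Even k then 1 else -1 := by
  split_ifs with h
  · obtain ⟨r, rfl⟩ := h
    rw [show (-(π * I) * ((r + r : ℤ) : ℂ)) = ((-r : ℤ) : ℂ) * (2 * π * I) by push_cast; ring]
    exact Complex.exp_int_mul_two_pi_mul_I _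
  · obtain ⟨r, rfl⟩ := Int.not_even_iff_odd.1 h
    rw [show (-(π * I) * ((2 * r + 1 : ℤ) : ℂ)) = ((-r - 1 : ℤ) : ℂ) * (2 * π * I) + π * I by
      push_cast; ring]
    rw [Complex.exp_add, Complex.exp_int_mul_two_pi_mul_I, Complex.exp_pi_mul_I, one_mul]

lemma exp_pi_int (k : ℤ) : cexp (π * I * (k : ℂ)) = if Even k then 1 else -1 := by
  have := exp_neg_pi_int (-k)
  simp only [even_neg] at this
  rw [← this]
  congr 1; push_cast; ring

/-- the half lattice point -/
def hc (Q : J → ι → ℂ) (t : Finset J) : ι → ℂ :=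
  lc Q fun j => (((if j ∈ t then 1 / 2 else 0 : ℝ)) : ℂ)

lemma term_eq (hS : Symp P Q) (t : Finset J) (p : (J → ℤ) × (J → ℤ)) :
    cexp (-(π * (nsq (hc Q t) : ℂ))) * (sg p * hei (lv P Q p) (eS (hc Q t)) (hc Q t))
      = sg p * cexp (-(π / 2) * (nsq (lv P Q p) : ℂ))
        * ∏ j ∈ t, cexp (-(π * I) * (p.1 j : ℂ)) := by
  rw [hei_eS, ← nsq_eq_hp]
  have h1 : hp (lv P Q p) (hc Q t) - hp (hc Q t) (lv P Q p)
      = 2 * I * ((hp (lv P Q p) (hc Q t)).im : ℂ) := by
    rw [← hp_conj (lv P Q p)]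
    apply Complex.ext <;> simp
    ring
  have h2 : (hp (lv P Q p) (hc Q t)).im = ∑ j ∈ t, -((p.1 j : ℝ) / 2) := by
    have h3 := hS.im_lc (fun j => (p.1 j : ℝ)) (fun j => (p.2 j : ℝ)) (fun _ => 0)
      (fun j => if j ∈ t then 1 / 2 else 0)
    have h4 : (lc P fun _ : J => ((0 : ℝ) : ℂ)) = 0 := by funext k; simp [lc]
    rw [h4, zero_add] at h3
    simp only [ofReal_intCast] at h3
    unfold lv hc
    rw [h3]
    simp only [mul_zero, zero_sub, mul_ite, mul_one_div]
    rw [← Finset.sum_filter_add_sum_filter_not Finset.univ (fun j => j ∈ t)]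
    simp only [Finset.filter_mem_eq_inter, Finset.univ_inter]
    rw [Finset.sum_congr rfl (fun j (hj : j ∈ t) => by rw [if_pos hj])]
    rw [Finset.sum_eq_zero (s := Finset.univ.filter fun j => j ∉ t), add_zero]
    intro j hj
    rw [if_neg (Finset.mem_filter.1 hj).2, neg_zero]
  rw [← Complex.exp_sum, mul_left_comm, mul_assoc, ← Complex.exp_add, ← Complex.exp_add]
  congr 2
  have h5 : (((hp (lv P Q p) (hc Q t)).im : ℝ) : ℂ) = ∑ j ∈ t, -((p.1 j : ℂ) / 2) := by
    rw [h2]; push_cast; rfl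
  rw [h5] at h1
  have h6 : ∑ j ∈ t, -(π * I) * (p.1 j : ℂ) = π * (2 * I * ∑ j ∈ t, -((p.1 j : ℂ) / 2)) := by
    rw [Finset.mul_sum, Finset.mul_sum]
    refine Finset.sum_congr rfl fun j _ => ?_
    ring
  rw [h6, ← h1]
  ring

theorem exists_PP_pos (hS : Symp P Q) : ∃ C : ι → ℂ, 0 < (PP P Q C C).re := by
  by_contra hcon
  push Not at hcon
  -- the sum over the half lattice points
  have h1 : HasSum (fun p : (J → ℤ) × (J → ℤ) => ∑ t ∈ (Finset.univ : Finset J).powerset,
      cexp (-(π * (nsq (hc Q t) : ℂ))) * (sg p * hei (lv P Q p) (eS (hc Q t)) (hc Q t)))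
      (∑ t ∈ (Finset.univ : Finset J).powerset,
        cexp (-(π * (nsq (hc Q t) : ℂ))) * PP P Q (hc Q t) (hc Q t)) :=
    hasSum_sum fun t _ => (hasSum_PP hS _ _).mul_left _
  have h2 : ∀ p : (J → ℤ) × (J → ℤ), ∑ t ∈ (Finset.univ : Finset J).powerset,
      cexp (-(π * (nsq (hc Q t) : ℂ))) * (sg p * hei (lv P Q p) (eS (hc Q t)) (hc Q t))
      = sg p * cexp (-(π / 2) * (nsq (lv P Q p) : ℂ))
        * ∏ j, (1 + cexp (-(π * I) * (p.1 j : ℂ))) := by
    intro p
    rw [Finset.prod_one_add, Finset.mul_sum]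
    exact Finset.sum_congr rfl fun t _ => term_eq hS t p
  have h3 : ∀ p : (J → ℤ) × (J → ℤ), ((sg p * cexp (-(π / 2) * (nsq (lv P Q p) : ℂ))
        * ∏ j, (1 + cexp (-(π * I) * (p.1 j : ℂ)))).re)
      = if (∀ j, Even (p.1 j)) then Real.exp (-(π / 2) * nsq (lv P Q p)) * 2 ^ Fintype.card J
        else 0 := by
    intro p
    split_ifs with he
    · have e1 : sg p = 1 := by
        rw [sg, exp_pi_int, if_pos]
        exact Finset.even_sum _ fun j _ => (he j).mul_right _
      have e2 : ∏ j, (1 + cexp (-(π * I) * (p.1 j : ℂ))) = 2 ^ Fintype.card J := by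
        rw [Finset.prod_congr rfl (fun j _ => by rw [exp_neg_pi_int, if_pos (he j)]),
          Finset.prod_const]
        norm_num
      rw [e1, e2, one_mul]
      rw [show (-(π / 2) * (nsq (lv P Q p) : ℂ) : ℂ) = ((-(π / 2) * nsq (lv P Q p) : ℝ) : ℂ) by
        push_cast; ring, ← Complex.ofReal_exp]
      rw [show ((2 : ℂ) ^ Fintype.card J) = (((2 : ℝ) ^ Fintype.card J : ℝ) : ℂ) by push_cast; rfl,
        ← Complex.ofReal_mul, Complex.ofReal_re]
    · push Not at he
      obtain ⟨j, hj⟩ := he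
      rw [Finset.prod_eq_zero (Finset.mem_univ j)]
      · simp
      · rw [exp_neg_pi_int, if_neg hj]; ring
  have h4 := Complex.hasSum_re h1
  simp only [h2, h3] at h4
  have h5 := le_hasSum h4 0 (fun p _ => by split_ifs <;> positivity)
  have h6 : (∑ t ∈ (Finset.univ : Finset J).powerset,
        cexp (-(π * (nsq (hc Q t) : ℂ))) * PP P Q (hc Q t) (hc Q t)).re ≤ 0 := by
    rw [re_sum]
    refine Finset.sum_nonpos fun t _ => ?_
    rw [show (-(π * (nsq (hc Q t) : ℂ)) : ℂ) = ((-(π * nsq (hc Q t)) : ℝ) : ℂ) by push_cast; ring,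
      ← Complex.ofReal_exp, Complex.re_ofReal_mul]
    exact mul_nonpos_of_nonneg_of_nonpos (Real.exp_pos _).le (hcon _)
  have h7 : (0 : ℝ) < if (∀ j, Even ((0 : (J → ℤ) × (J → ℤ)).1 j)) then
      Real.exp (-(π / 2) * nsq (lv P Q (0 : (J → ℤ) × (J → ℤ)))) * 2 ^ Fintype.card J
        else 0 := by
    rw [if_pos]
    · positivity
    · intro j; simp
  linarith

/-- **the core**: `P(A,B) = T(A) conj T(B)` -/
theorem exists_T (hS : Symp P Q) (hc : Fintype.card J = Fintype.card ι) :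
    ∃ T : (ι → ℂ) → ℂ, (∃ A, T A ≠ 0) ∧
      ∀ A B, HasSum (fun p => sg p * hei (lv P Q p) (eS B) A) (T A * conj (T B)) := by
  obtain ⟨C, hC⟩ := exists_PP_pos hS
  set r := (PP P Q C C).re with hr
  have hreal : PP P Q C C = (r : ℂ) := by
    have h1 := PP_conj hS C C
    rw [Complex.conj_eq_iff_re] at h1
    rw [hr, h1]
  have hr0 : ((Real.sqrt r : ℝ) : ℂ) ≠ 0 := by
    have : Real.sqrt r ≠ 0 := (Real.sqrt_pos.2 hC).ne'
    exact_mod_cast this
  have hrr : ((Real.sqrt r : ℝ) : ℂ) * ((Real.sqrt r : ℝ) : ℂ) = (r : ℂ) := by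
    rw [← Complex.ofReal_mul, Real.mul_self_sqrt hC.le]
  refine ⟨fun A => PP P Q A C / ((Real.sqrt r : ℝ) : ℂ), ⟨C, ?_⟩, fun A B => ?_⟩
  · simp only
    rw [hreal, ← hrr]
    field_simp
    exact hr0
  · have h1 := hasSum_PP hS A B
    convert h1 using 1
    simp only [map_div₀, conj_ofReal, PP_conj hS]
    rw [div_mul_div_comm, hrr, div_eq_iff (by rw [← hreal]; rw [hreal]; exact_mod_cast hC.ne')]
    rw [← hreal]
    have := PP_rank hS hc A B C C
    linear_combination -this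

end

end Crest.Agent.R272.ETh445
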