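/-
helper295, row 272, division E: `1 + g` is injective for `g` in the congruence subgroup `Hc D 4`.
-/
import Crest.Agent.R272.ETh5_295

set_option autoImplicit false
set_option linter.unusedSectionVars false
set_option linter.unusedVariables false

open scoped ComplexConjugate Topology

namespace Crest.Agent.R272.ETh6_295

open Crest.Agent.R272.EBase_641 Crest.Agent.R272.EBase2_641 Crest.Agent.R272.ETh4Defs_295
open Crest.Agent.R272.ETh4Fin_295 Crest.Agent.R272.ETh4_295 Crest.Agent.R272.EThDefs_445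
open Crest.Agent.R272.ETh5_295

noncomputable section

/-- a linear map which is `1 + 2 y` on a lattice, `y` mapping the lattice to itself, is injective -/
theorem inj_of_even {V : Type*} [NormedAddCommGroup V] [NormedSpace ℝ V] [FiniteDimensional ℝ V]
    (L : AddSubgroup V) (disc : {x : V | x ∈ L ∧ ‖x‖ ≤ 1}.Finite)
    (span : Submodule.span ℝ (L : Set V) = ⊤) (T : V →ₗ[ℝ] V)
    (hT : ∀ l ∈ L, ∃ y ∈ L, T l = l + 2 • y) : Function.Injective T := by
  classical
  set Lz : Submodule ℤ V := AddSubgroup.toIntSubmodule L with hLz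
  have hd : DiscreteTopology Lz := Lat_368.discrete_of_finite Lz disc
  have hz : IsZLattice ℝ Lz := ⟨span⟩
  have hfin : Module.Finite ℤ Lz := ZLattice.module_finite ℝ Lz
  have hfree : Module.Free ℤ Lz := ZLattice.module_free ℝ Lz
  let b := Module.Free.chooseBasis ℤ Lz
  let bR := b.ofZLatticeBasis ℝ Lz
  have hT' : ∀ i, ∃ y : Lz, T (b i : V) = (b i : V) + 2 • (y : V) := by
    intro i
    obtain ⟨y, hy, h⟩ := hT (b i : V) (b i).2
    exact ⟨⟨y, hy⟩, h⟩
  choose y hy using hT'
  let Y : Matrix _ _ ℤ := fun i j => b.repr (y j) i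
  set Z : Matrix (Module.Free.ChooseBasisIndex ℤ Lz) (Module.Free.ChooseBasisIndex ℤ Lz) ℤ :=
    1 + (Y + Y) with hZ
  have hZij : ∀ i j, Z i j = (if i = j then 1 else 0) + 2 * Y i j := by
    intro i j
    rw [hZ, Matrix.add_apply, Matrix.add_apply, Matrix.one_apply]
    ring
  have hM : LinearMap.toMatrix bR bR T = Z.map (Int.castRingHom ℝ) := by
    ext i j
    rw [LinearMap.toMatrix_apply]
    have e1 : bR j = (b j : V) := b.ofZLatticeBasis_apply ℝ Lz j
    have e2 : T (bR j) = (((b j + 2 • y j : Lz)) : V) := by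
      rw [e1, hy]; rfl
    rw [e2]
    have e3 : bR.repr (((b j + 2 • y j : Lz)) : V) i = ((b.repr (b j + 2 • y j) i : ℤ) : ℝ) :=
      b.ofZLatticeBasis_repr_apply ℝ Lz _ i
    rw [e3]
    have e4 : b.repr (b j + 2 • y j) i = Z i j := by
      rw [map_add, map_nsmul, Finsupp.add_apply, Finsupp.smul_apply, Module.Basis.repr_self,
        Finsupp.single_apply, hZij]
      simp only [Y, nsmul_eq_mul, Nat.cast_ofNat]
      by_cases hij : i = j
      · subst hij; simp
      · simp [hij, Ne.symm hij]
    rw [e4]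
    rfl
  have hdet : ((Z.det : ℤ) : ZMod 2) = 1 := by
    have h1 : (Int.castRingHom (ZMod 2)) Z.det = (Z.map (Int.castRingHom (ZMod 2))).det :=
      RingHom.map_det _ _
    have h2 : Z.map (Int.castRingHom (ZMod 2)) = 1 := by
      ext i j
      have h3 : (2 : ZMod 2) = 0 := by decide
      rw [Matrix.map_apply, hZij, Matrix.one_apply]
      by_cases hij : i = j
      · subst hij; simp [h3]
      · simp [hij, h3]
    rw [h2, Matrix.det_one] at h1
    exact h1
  have hdet0 : Z.det ≠ 0 := by
    intro h0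
    rw [h0] at hdet
    simp at hdet
  have hTdet : IsUnit (LinearMap.det T) := by
    rw [← LinearMap.det_toMatrix bR, hM]
    have h1 : (Int.castRingHom ℝ) Z.det = (Z.map (Int.castRingHom ℝ)).det := RingHom.map_det _ _
    rw [← h1]
    refine IsUnit.mk0 _ ?_
    show ((Z.det : ℤ) : ℝ) ≠ 0
    exact_mod_cast hdet0
  have hu := (LinearMap.isUnit_iff_isUnit_det T).2 hTdet
  exact ((Module.End.isUnit_iff T).1 hu).1

/-- `g` as a real linear map -/
def gR (D : EDat) (g : D.G) : (V1 D.n × W D.m) →ₗ[ℝ] (V1 D.n × W D.m) where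
  toFun := gact D g
  map_add' := gact_add D g
  map_smul' := by
    intro c v
    have h1 : (D.ρ g).1 (((c : ℝ) : ℂ) • v.1) = ((c : ℝ) : ℂ) • (D.ρ g).1 v.1 := map_smul _ _ _
    have h2 : D.σ g (((c : ℝ) : ℂ) • v.2) = ((c : ℝ) : ℂ) • D.σ g v.2 := map_smul _ _ _
    have e1 : (c • v : V1 D.n × W D.m) = (((c : ℝ) : ℂ) • v.1, ((c : ℝ) : ℂ) • v.2) := by
      ext1
      · ext1
        · show c • v.1.1 = (c : ℂ) • v.1.1
          exact (Complex.coe_smul c v.1.1).symm
        · show c • v.1.2 = (c : ℂ) • v.1.2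
          exact (Complex.coe_smul c v.1.2).symm
      · show c • v.2 = (c : ℂ) • v.2
        exact (Complex.coe_smul c v.2).symm
    rw [e1]
    show gact D g (((c : ℝ) : ℂ) • v.1, ((c : ℝ) : ℂ) • v.2) = c • gact D g v
    simp only [gact, h1, h2]
    ext1
    · ext1
      · exact Complex.coe_smul c _
      · exact Complex.coe_smul c _
    · exact Complex.coe_smul c _

/-- `1 + g` is injective -/
theorem inj4 {D : EDat} {g : D.G} (hg : g ∈ Hc D 4) :
    Function.Injective (fun v => v + gact D g v) := by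
  set T : (V1 D.n × W D.m) →ₗ[ℝ] (V1 D.n × W D.m) := (1 / 2 : ℝ) • (LinearMap.id + gR D g) with hT
  have hTv : ∀ v, T v = (1 / 2 : ℝ) • (v + gact D g v) := fun v => rfl
  have h1 : Function.Injective T := by
    refine inj_of_even D.L (D.disc 1) D.span T ?_
    intro l hl
    set v : V1 D.n × W D.m := (1 / 4 : ℝ) • l with hv
    have e1 : 4 • v = l := by
      rw [hv, ← Nat.cast_smul_eq_nsmul ℝ, smul_smul]; norm_num
    have hy := Hc_spec D hg (v := v) (by rw [e1]; exact hl)
    refine ⟨gact D g v - v, hy, ?_⟩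
    have e2 : gact D g l = 4 • gact D g v := by rw [← gact_nsmul, e1]
    rw [hTv, e2]
    have e3 : l + 4 • gact D g v = (2 : ℝ) • (l + 2 • (gact D g v - v)) := by
      rw [← e1]
      simp only [← Nat.cast_smul_eq_nsmul ℝ, smul_add, smul_sub, smul_smul]
      module
    rw [e3, smul_smul]
    norm_num
  intro v w h
  apply h1
  rw [hTv, hTv]
  exact congrArg _ h

/-- `g v = -v` has only the zero solution -/
theorem no_neg {D : EDat} {g : D.G} (hg : g ∈ Hc D 4) {v : V1 D.n × W D.m}
    (h : gact D g v = -v) : v = 0 := by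
  have h1 := inj4 hg
  apply h1
  show v + gact D g v = 0 + gact D g 0
  rw [h]
  have : gact D g 0 = 0 := (gR D g).map_zero
  rw [this]; simp

end

end Crest.Agent.R272.ETh6_295
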