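/-
helper295, row 272, division E: existence of the scalar `χ(g)` in the transformation law of the
theta values `t a z`, for a general pair `(g₁, g₂)` preserving `L` and `ε`.
-/
import Crest.Agent.R272.ETh5_295

set_option autoImplicit false
set_option linter.unusedSectionVars false
set_option linter.unusedVariables false

open scoped ComplexConjugate Topology

namespace Crest.Agent.R272.ETh7_295

open Crest.Agent.R272.EBase_641 Crest.Agent.R272.EBase2_641 Crest.Agent.R272.ETh4_295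
open Crest.Agent.R272.EThDefs_445 Crest.Agent.R272.ETh5_295

noncomputable section

variable {n m : ℕ}

/-- the pair `(g₁, g₂)` on vectors -/
def gp (g : UG n) (s : W m ≃ₗᵢ[ℂ] W m) (v : V1 n × W m) : V1 n × W m := (g.1 v.1, s v.2)

theorem gp_add (g : UG n) (s : W m ≃ₗᵢ[ℂ] W m) (v w : V1 n × W m) :
    gp g s (v + w) = gp g s v + gp g s w := by simp [gp]

theorem gp_sub (g : UG n) (s : W m ≃ₗᵢ[ℂ] W m) (v w : V1 n × W m) :
    gp g s (v - w) = gp g s v - gp g s w := by simp [gp]

theorem gp_inv (g : UG n) (s : W m ≃ₗᵢ[ℂ] W m) (v : V1 n × W m) : gp g⁻¹ s⁻¹ (gp g s v) = v := by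
  have h1 : g⁻¹.1 (g.1 v.1) = v.1 := LinearEquiv.symm_apply_apply g.1 v.1
  have h2 : s⁻¹ (s v.2) = v.2 := LinearIsometryEquiv.symm_apply_apply s v.2
  ext1
  · exact h1
  · exact h2

theorem gp_inv' (g : UG n) (s : W m ≃ₗᵢ[ℂ] W m) (v : V1 n × W m) : gp g s (gp g⁻¹ s⁻¹ v) = v := by
  have h1 : g.1 (g⁻¹.1 v.1) = v.1 := LinearEquiv.apply_symm_apply g.1 v.1
  have h2 : s (s⁻¹ v.2) = v.2 := LinearIsometryEquiv.apply_symm_apply s v.2
  ext1
  · exact h1
  · exact h2

theorem ee_gp (g : UG n) (s : W m ≃ₗᵢ[ℂ] W m) (v w : V1 n × W m) :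
    ee (gp g s v) (gp g s w) = ee v w := ee_act g s v w

variable {L : AddSubgroup (V1 n × W m)}

/-- the permutation of `L` -/
def pL (g : UG n) (s : W m ≃ₗᵢ[ℂ] W m) (hL : ∀ v, gp g s v ∈ L ↔ v ∈ L) : L ≃ L where
  toFun l := ⟨gp g s l, (hL _).2 l.2⟩
  invFun l := ⟨gp g⁻¹ s⁻¹ l, (hL _).1 (by rw [gp_inv']; exact l.2)⟩
  left_inv l := Subtype.ext (gp_inv g s _)
  right_inv l := Subtype.ext (gp_inv' g s _)

/-- equivariance of the products of theta values -/
theorem tt_law (T : TData L) (g : UG n) (s : W m ≃ₗᵢ[ℂ] W m) (hL : ∀ v, gp g s v ∈ L ↔ v ∈ L)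
    (hε : ∀ l ∈ L, T.ε (gp g s l) = T.ε l) (a b : V1 n × W m) {z w : E n} (hz : z ∈ Ball n)
    (hw : w ∈ Ball n) :
    T.t (gp g s a) (act g z) * conj (T.t (gp g s b) (act g w)) =
      (jj g z * conj (jj g w)) * (T.t a z * conj (T.t b w)) := by
  have h1 := T.vv (gp g s a) (gp g s b) _ (act_mem g hz) _ (act_mem g hw)
  have h2 := (pL g s hL).hasSum_iff.2 h1
  have h3 : HasSum (fun l : L => (jj g z * conj (jj g w)) * (T.ε l *
      ph (ee (l : V1 n × W m) (a + b)) * psi ((l : V1 n × W m) + a - b) z w))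
      (ph (ee (gp g s b) (gp g s a)) *
        (T.t (gp g s a) (act g z) * conj (T.t (gp g s b) (act g w)))) := by
    refine h2.congr_fun ?_ |> fun h => h
    intro l
    have e0 : (((pL g s hL) l : L) : V1 n × W m) = gp g s l := rfl
    simp only [Function.comp, e0]
    rw [hε _ l.2, ← gp_add, ee_gp, ← gp_add, ← gp_sub]
    have e1 : psi (gp g s ((l : V1 n × W m) + a - b)) (act g z) (act g w) =
      jj g z * conj (jj g w) * psi ((l : V1 n × W m) + a - b) z w := psi_act g s _ hz hw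
    rw [e1]
    ring
  have h4 := h3.unique ((T.vv a b z hz w hw).mul_left (jj g z * conj (jj g w)))
  rw [ee_gp] at h4
  have hp : ph (ee b a) ≠ 0 := XH_ne _
  refine mul_left_cancel₀ hp ?_
  linear_combination h4

/-- **existence of the scalar.** -/
theorem exists_chi (T : TData L) (g : UG n) (s : W m ≃ₗᵢ[ℂ] W m) (hL : ∀ v, gp g s v ∈ L ↔ v ∈ L)
    (hε : ∀ l ∈ L, T.ε (gp g s l) = T.ε l) :
    ∃ χ : ℂ, χ * conj χ = 1 ∧ ∀ a : V1 n × W m, ∀ z ∈ Ball n,
      T.t (gp g s a) (act g z) = χ * jj g z * T.t a z := by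
  obtain ⟨b, hb⟩ := T.t_ne
  have h0 : (0 : E n) ∈ Ball n := by simp [Ball]
  have hj := jj_ne_zero g h0
  have hj' : conj (jj g 0) ≠ 0 := by simpa using hj
  have hb' : conj (T.t b 0) ≠ 0 := by simpa using hb
  have h1 := tt_law T g s hL hε b b h0 h0
  set u := T.t (gp g s b) (act g 0) with hu
  have hu0 : u ≠ 0 := by
    intro h
    rw [h, zero_mul] at h1
    exact (mul_ne_zero (mul_ne_zero hj hj') (mul_ne_zero hb hb')) h1.symm
  have hu' : conj u ≠ 0 := by simpa using hu0
  refine ⟨u / (jj g 0 * T.t b 0), ?_, ?_⟩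
  · rw [map_div₀, map_mul, div_mul_div_comm, h1]
    field_simp
  · intro a z hz
    have h2 := tt_law T g s hL hε a b hz h0
    rw [← hu] at h2
    have h3 : u * conj u = (jj g 0 * conj (jj g 0)) * (T.t b 0 * conj (T.t b 0)) := h1
    refine mul_right_cancel₀ hu' ?_
    rw [h2]
    field_simp
    linear_combination (-(jj g z * T.t a z)) * h3

theorem psi_neg (v : V1 n × W m) (z w : E n) : psi (-v) z w = psi v z w := by
  have h1 : ∀ y : E n, lin (-v.1) y = - lin v.1 y := by
    intro y; simp [lin]; ring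
  simp only [psi, wt, Rp, Prod.fst_neg, Prod.snd_neg, norm_neg]
  have h2 : lin (-v.1) z = - lin v.1 z := h1 z
  have h3 : lin (-v.1) w = - lin v.1 w := h1 w
  rw [h2, h3, map_neg]
  congr 3
  ring

/-- parity: `t (-a) = η t a` with `η² = 1`. -/
theorem t_neg (T : TData L) (hεn : ∀ l ∈ L, T.ε (-l) = T.ε l) :
    ∃ η : ℂ, η * η = 1 ∧ ∀ a : V1 n × W m, ∀ z ∈ Ball n, T.t (-a) z = η * T.t a z := by
  obtain ⟨b, hb⟩ := T.t_ne
  have h0 : (0 : E n) ∈ Ball n := by simp [Ball]
  have hb' : conj (T.t b 0) ≠ 0 := by simpa using hb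
  have key : ∀ a b : V1 n × W m, ∀ z ∈ Ball n, ∀ w ∈ Ball n,
      T.t (-a) z * conj (T.t (-b) w) = T.t a z * conj (T.t b w) := by
    intro a b z hz w hw
    have h1 := T.vv (-a) (-b) z hz w hw
    have h2 := (Equiv.neg L).hasSum_iff.2 h1
    have h3 : HasSum (fun l : L => T.ε l * ph (ee (l : V1 n × W m) (a + b)) *
        psi ((l : V1 n × W m) + a - b) z w) (ph (ee (-b) (-a)) * (T.t (-a) z * conj (T.t (-b) w))) := by
      refine h2.congr_fun ?_ |> fun h => h
      intro l
      have e0 : (((Equiv.neg L) l : L) : V1 n × W m) = -l := rfl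
      simp only [Function.comp, e0]
      rw [hεn _ l.2]
      have e1 : -(l : V1 n × W m) + -a - -b = -((l : V1 n × W m) + a - b) := by abel
      have e2 : ee (-(l : V1 n × W m)) (-a + -b) = ee (l : V1 n × W m) (a + b) := by
        have : -a + -b = -(a + b) := by abel
        rw [this]
        simp only [ee, hh, Prod.fst_neg, Prod.snd_neg, inner_neg_neg, map_neg, neg_mul_neg]
      rw [e1, e2, psi_neg]
    have h4 := h3.unique (T.vv a b z hz w hw)
    have e3 : ee (-b) (-a) = ee b a := by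
      simp only [ee, hh, Prod.fst_neg, Prod.snd_neg, inner_neg_neg, map_neg, neg_mul_neg]
    rw [e3] at h4
    exact mul_left_cancel₀ (XH_ne _) h4
  have hk := key b b 0 h0 0 h0
  have hk2 := key b (-b) 0 h0 0 h0
  rw [neg_neg] at hk2
  set u := T.t (-b) 0 with hu
  have hu0 : u ≠ 0 := by
    intro h
    rw [h, zero_mul] at hk
    exact (mul_ne_zero hb hb') hk.symm
  have hu' : conj u ≠ 0 := by simpa using hu0
  refine ⟨u / T.t b 0, ?_, ?_⟩
  · field_simp
    -- `u^2 = (t b 0)^2`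
    have e1 : u * u * conj (T.t b 0) = T.t b 0 * (T.t b 0 * conj (T.t b 0)) := by
      have : u * conj (T.t b 0) = T.t b 0 * conj u := hk2
      linear_combination u * this + T.t b 0 * hk
    have e2 : u * u = T.t b 0 * T.t b 0 := by
      refine mul_right_cancel₀ hb' ?_
      rw [e1]; ring
    linear_combination e2
  · intro a z hz
    have h2 := key a b z hz 0 h0
    rw [← hu] at h2
    refine mul_right_cancel₀ hu' ?_
    rw [h2]
    field_simp
    linear_combination (-(T.t a z)) * hk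

end

end Crest.Agent.R272.ETh7_295
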