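import Mathlib

set_option autoImplicit false

/-!
# Gauss sums of nondegenerate quadratic forms on finite abelian groups

`A` finite abelian group, `Q : A → V` a quadratic map over `ℤ`, `ψ : V → ℂ` a unitary additive
character, the bilinear form `ψ (polar Q a b)` nondegenerate.  Then `G = ∑ ψ (Q a)` satisfies
`|G|² = |A|` and `(G/|G|)⁸ = 1` (quaternion trick of helper295, post 5229).
-/

namespace Crest.Agent.R272.Gauss8_981

open QuadraticMap

variable {A V : Type*} [AddCommGroup A] [AddCommGroup V]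

section quat

variable (Q : QuadraticMap ℤ A V) (a b c d : ℤ)

/-- left multiplication by the quaternion `a + bi + cj + dk` on `A⁴` -/
def M (x : A × A × A × A) : A × A × A × A :=
  (a • x.1 - b • x.2.1 - c • x.2.2.1 - d • x.2.2.2,
   b • x.1 + a • x.2.1 - d • x.2.2.1 + c • x.2.2.2,
   c • x.1 + d • x.2.1 + a • x.2.2.1 - b • x.2.2.2,
   d • x.1 - c • x.2.1 + b • x.2.2.1 + a • x.2.2.2)

theorem M_conj (x : A × A × A × A) :
    M a (-b) (-c) (-d) (M a b c d x) = (a ^ 2 + b ^ 2 + c ^ 2 + d ^ 2) • x := by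
  obtain ⟨x, y, z, w⟩ := x
  simp only [M, Prod.smul_mk]
  refine Prod.ext ?_ (Prod.ext ?_ (Prod.ext ?_ ?_)) <;> simp only <;> module

/-- the quadratic map on `A⁴` -/
def Q4 (x : A × A × A × A) : V := Q x.1 + Q x.2.1 + Q x.2.2.1 + Q x.2.2.2

theorem Q_lin (x y z w : A) (p q r s : ℤ) :
    Q (p • x + q • y + r • z + s • w) =
      (p ^ 2) • Q x + (q ^ 2) • Q y + (r ^ 2) • Q z + (s ^ 2) • Q w
      + (p * q) • polar Q x y + (p * r) • polar Q x z + (p * s) • polar Q x w
      + (q * r) • polar Q y z + (q * s) • polar Q y w + (r * s) • polar Q z w := by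
  have e : ∀ u v : A, Q (u + v) = Q u + Q v + polar Q u v := fun u v => QuadraticMap.map_add Q u v
  have sm : ∀ (n : ℤ) (u : A), Q (n • u) = (n ^ 2) • Q u := fun n u => by
    rw [QuadraticMap.map_smul, _root_.sq]
  rw [e, e, e, sm, sm, sm, sm]
  simp only [QuadraticMap.polar_add_left, QuadraticMap.polar_smul_left,
    QuadraticMap.polar_smul_right]
  module

theorem Q4_M (x : A × A × A × A) :
    Q4 Q (M a b c d x) = (a ^ 2 + b ^ 2 + c ^ 2 + d ^ 2) • Q4 Q x := by
  obtain ⟨x, y, z, w⟩ := x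
  simp only [Q4, M]
  have h1 : a • x - b • y - c • z - d • w = a • x + (-b) • y + (-c) • z + (-d) • w := by module
  have h2 : b • x + a • y - d • z + c • w = b • x + a • y + (-d) • z + c • w := by module
  have h3 : c • x + d • y + a • z - b • w = c • x + d • y + a • z + (-b) • w := by module
  have h4 : d • x - c • y + b • z + a • w = d • x + (-c) • y + b • z + a • w := by module
  rw [h1, h2, h3, h4, Q_lin, Q_lin, Q_lin, Q_lin]
  module

end quat

section gauss

variable [Fintype A] (Q : QuadraticMap ℤ A V) (ψ : AddChar V ℂ)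

/-- The Gauss sum. -/
noncomputable def G : ℂ := ∑ a : A, ψ (Q a)

theorem exists_four (x : A) : (Fintype.card A ^ 2) • Q x = 0 := by
  have h : (Fintype.card A : ℤ) • x = 0 := by
    rw [natCast_zsmul]; exact card_nsmul_eq_zero
  have h2 := Q.map_smul (Fintype.card A : ℤ) x
  rw [h, Q.map_zero] at h2
  have : ((Fintype.card A : ℤ) * (Fintype.card A : ℤ)) • Q x = (Fintype.card A ^ 2) • Q x := by
    rw [← natCast_zsmul]; congr 1; push_cast; ring
  rw [← this, ← h2]

theorem G_pow_four_conj (hψ : ∀ v, (starRingEnd ℂ) (ψ v) = ψ (-v)) :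
    (starRingEnd ℂ) (G Q ψ ^ 4) = G Q ψ ^ 4 := by
  classical
  have hcard : 0 < Fintype.card A := Fintype.card_pos
  obtain ⟨a, b, c, d, h⟩ := Nat.sum_four_squares (Fintype.card A ^ 2 - 1)
  have hN : (a : ℤ) ^ 2 + (b : ℤ) ^ 2 + (c : ℤ) ^ 2 + (d : ℤ) ^ 2 = (Fintype.card A : ℤ) ^ 2 - 1 := by
    have h1 : 1 ≤ Fintype.card A ^ 2 := Nat.one_le_pow _ _ hcard
    zify [h1] at h
    exact h
  have hkill : ∀ x : A × A × A × A, ((Fintype.card A : ℤ) ^ 2) • x = 0 := by
    intro x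
    have : ∀ y : A, ((Fintype.card A : ℤ) ^ 2) • y = 0 := by
      intro y
      rw [_root_.sq, mul_smul]
      have : (Fintype.card A : ℤ) • y = 0 := by rw [natCast_zsmul]; exact card_nsmul_eq_zero
      rw [this, smul_zero]
    obtain ⟨x, y, z, w⟩ := x
    simp only [Prod.smul_mk, this]; rfl
  have hkillQ : ∀ x : A × A × A × A, ((Fintype.card A : ℤ) ^ 2) • Q4 Q x = 0 := by
    intro x
    have : ∀ y : A, ((Fintype.card A : ℤ) ^ 2) • Q y = 0 := by
      intro y
      have := exists_four Q y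
      rw [← natCast_zsmul] at this; push_cast at this; exact this
    simp only [Q4, smul_add, this]; simp
  have hinj : Function.Injective (M (A := A) a b c d) := by
    intro x y hxy
    have h1 := M_conj (a : ℤ) b c d x
    have h2 := M_conj (a : ℤ) b c d y
    rw [hxy, h2, hN, sub_smul, sub_smul, hkill, hkill] at h1
    simpa using h1.symm
  have hbij : Function.Bijective (M (A := A) a b c d) :=
    Finite.injective_iff_bijective.mp hinj
  have hG4 : G Q ψ ^ 4 = ∑ x : A × A × A × A, ψ (Q4 Q x) := by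
    simp only [Fintype.sum_prod_type, Q4, AddChar.map_add_eq_mul, ← Finset.mul_sum,
      ← Finset.sum_mul]
    unfold G
    ring
  rw [hG4, map_sum]
  rw [← Function.Bijective.sum_comp hbij (fun x => ψ (Q4 Q x))]
  refine Finset.sum_congr rfl (fun x _ => ?_)
  rw [hψ, Q4_M, hN, sub_smul, hkillQ]
  simp

theorem G_normSq (hψ : ∀ v, (starRingEnd ℂ) (ψ v) = ψ (-v))
    (hnd : ∀ c : A, c ≠ 0 → ∃ b : A, ψ (polar Q c b) ≠ 1) :
    G Q ψ * (starRingEnd ℂ) (G Q ψ) = (Fintype.card A : ℂ) := by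
  classical
  have hmul : ∀ v, ψ v * ψ (-v) = 1 := fun v => by
    rw [← AddChar.map_add_eq_mul, add_neg_cancel, AddChar.map_zero_eq_one]
  have h1 : G Q ψ * (starRingEnd ℂ) (G Q ψ) = ∑ c : A, ψ (Q c) * ∑ b : A, ψ (polar Q c b) := by
    unfold G
    rw [map_sum, Finset.sum_mul_sum, Finset.sum_comm]
    have : ∀ b : A, ∑ a : A, ψ (Q a) * (starRingEnd ℂ) (ψ (Q b)) =
        ∑ c : A, ψ (Q c) * ψ (polar Q c b) := by
      intro b
      rw [← Equiv.sum_comp (Equiv.addRight b)]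
      refine Finset.sum_congr rfl (fun c _ => ?_)
      rw [hψ, Equiv.coe_addRight, QuadraticMap.map_add Q c b, AddChar.map_add_eq_mul,
        AddChar.map_add_eq_mul]
      calc ψ (Q c) * ψ (Q b) * ψ (polar Q c b) * ψ (-Q b)
          = ψ (Q c) * ψ (polar Q c b) * (ψ (Q b) * ψ (-Q b)) := by ring
        _ = _ := by rw [hmul, mul_one]
    rw [Finset.sum_congr rfl (fun b _ => this b), Finset.sum_comm]
    exact Finset.sum_congr rfl (fun c _ => by rw [Finset.mul_sum])
  rw [h1, Finset.sum_eq_single 0]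
  · rw [QuadraticMap.map_zero, AddChar.map_zero_eq_one, one_mul]
    simp [QuadraticMap.polar_zero_left]
  · intro c _ hc
    obtain ⟨b₀, hb₀⟩ := hnd c hc
    have : ∑ b : A, ψ (polar Q c b) = 0 := by
      have h2 : ψ (polar Q c b₀) * ∑ b : A, ψ (polar Q c b) = ∑ b : A, ψ (polar Q c b) := by
        rw [Finset.mul_sum, ← Equiv.sum_comp (Equiv.addRight b₀) (fun b => ψ (polar Q c b))]
        refine Finset.sum_congr rfl (fun b _ => ?_)
        rw [Equiv.coe_addRight, QuadraticMap.polar_add_right, AddChar.map_add_eq_mul, mul_comm]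
      have h3 : (ψ (polar Q c b₀) - 1) * ∑ b : A, ψ (polar Q c b) = 0 := by
        rw [sub_mul, h2, one_mul, sub_self]
      exact (mul_eq_zero.mp h3).resolve_left (sub_ne_zero.mpr hb₀)
    rw [this, mul_zero]
  · intro h; exact (h (Finset.mem_univ _)).elim

theorem G_ne_zero (hψ : ∀ v, (starRingEnd ℂ) (ψ v) = ψ (-v))
    (hnd : ∀ c : A, c ≠ 0 → ∃ b : A, ψ (polar Q c b) ≠ 1) : G Q ψ ≠ 0 := by
  intro h
  have := G_normSq Q ψ hψ hnd
  rw [h, zero_mul] at this
  have hc : (Fintype.card A : ℂ) ≠ 0 := by exact_mod_cast Fintype.card_ne_zero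
  exact hc this.symm

/-- **The phase of a Gauss sum is an 8-th root of unity.** -/
theorem G_phase (hψ : ∀ v, (starRingEnd ℂ) (ψ v) = ψ (-v))
    (hnd : ∀ c : A, c ≠ 0 → ∃ b : A, ψ (polar Q c b) ≠ 1) :
    (G Q ψ / (‖G Q ψ‖ : ℂ)) ^ 8 = 1 := by
  have hne := G_ne_zero Q ψ hψ hnd
  have hn : (‖G Q ψ‖ : ℂ) ≠ 0 := by exact_mod_cast (norm_ne_zero_iff.mpr hne)
  rw [div_pow, div_eq_one_iff_eq (pow_ne_zero _ hn)]
  have h1 := G_pow_four_conj Q ψ hψ
  have h2 : G Q ψ * (starRingEnd ℂ) (G Q ψ) = (‖G Q ψ‖ : ℂ) ^ 2 := by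
    rw [Complex.mul_conj, Complex.normSq_eq_norm_sq]; push_cast; rfl
  calc G Q ψ ^ 8 = G Q ψ ^ 4 * G Q ψ ^ 4 := by ring
    _ = G Q ψ ^ 4 * (starRingEnd ℂ) (G Q ψ ^ 4) := by rw [h1]
    _ = (G Q ψ * (starRingEnd ℂ) (G Q ψ)) ^ 4 := by rw [map_pow]; ring
    _ = (‖G Q ψ‖ : ℂ) ^ 8 := by rw [h2]; ring

end gauss

end Crest.Agent.R272.Gauss8_981
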