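/-
helper295, row 272, division E, T3: the Gauss sum of a quadratic phase on a finite quotient of a
lattice is a positive multiple of an 8-th root of unity (application of `Gauss8_981.G_phase`).
-/
import Crest.Agent.R272.ETh7_295
import Crest.Agent.R272.Gauss8_981

set_option autoImplicit false
set_option linter.unusedSectionVars false
set_option linter.unusedVariables false

open scoped ComplexConjugate Topology

namespace Crest.Agent.R272.ETh8_295

open Crest.Agent.R272.EBase_641 Crest.Agent.R272.ETh4_295 Crest.Agent.R272.ETh4Fin_295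
open Crest.Agent.R272.EThDefs_445 Crest.Agent.R272.ETh5_295 Crest.Agent.R272.ETh7_295
open Crest.Agent.R272.Gauss8_981

noncomputable section

/-- the character `x ↦ e^{πi x}` of `ℝ/2ℤ` -/
def ψ2 : AddChar (AddCircle (2 : ℝ)) ℂ where
  toFun x := ((AddCircle.toCircle x : Circle) : ℂ)
  map_zero_eq_one' := by simp
  map_add_eq_mul' x y := by simp [AddCircle.toCircle_add]

theorem ψ2_mk (x : ℝ) : ψ2 (x : AddCircle (2 : ℝ)) = ph x := by
  show ((AddCircle.toCircle (x : AddCircle (2 : ℝ)) : Circle) : ℂ) = ph x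
  rw [AddCircle.toCircle_apply_mk, Circle.coe_exp, ph]
  congr 1
  push_cast
  ring

theorem ψ2_conj (v : AddCircle (2 : ℝ)) : conj (ψ2 v) = ψ2 (-v) := by
  show conj ((AddCircle.toCircle v : Circle) : ℂ) = ((AddCircle.toCircle (-v) : Circle) : ℂ)
  rw [AddCircle.toCircle_neg, Circle.coe_inv_eq_conj]

theorem mk_eq_of {x y : ℝ} (h : ∃ k : ℤ, x = y + 2 * k) :
    (x : AddCircle (2 : ℝ)) = (y : AddCircle (2 : ℝ)) := by
  obtain ⟨k, hk⟩ := h
  have h1 : ((x - y : ℝ) : AddCircle (2 : ℝ)) = 0 := by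
    rw [AddCircle.coe_eq_zero_iff]
    exact ⟨k, by rw [hk]; simp; ring⟩
  rw [AddCircle.coe_sub] at h1
  exact sub_eq_zero.1 h1

/-- **Gauss sums of quadratic phases on finite quotients.** -/
theorem gauss_quot {M : Type*} [AddCommGroup M] (N : Submodule ℤ M) [Fintype (M ⧸ N)]
    (θ : M → ℝ) (P : M →ₗ[ℤ] M →ₗ[ℤ] ℝ)
    (hadd : ∀ x y, ∃ k : ℤ, θ (x + y) = θ x + θ y + 2 * P x y + 2 * k)
    (hsmul : ∀ (c : ℤ) (x : M), ∃ k : ℤ, θ (c • x) = c * c * θ x + 2 * k)
    (hper : ∀ x, ∀ y ∈ N, ∃ k : ℤ, θ (x + y) = θ x + 2 * k)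
    (hnd : ∀ x, (∀ y, ∃ k : ℤ, P x y = k) → x ∈ N) :
    (∑ a : M ⧸ N, ph (θ (Quotient.out a))) ≠ 0 ∧
      ((∑ a : M ⧸ N, ph (θ (Quotient.out a))) /
        (‖∑ a : M ⧸ N, ph (θ (Quotient.out a))‖ : ℂ)) ^ 8 = 1 := by
  classical
  set Qf : M ⧸ N → AddCircle (2 : ℝ) := fun a => ((θ (Quotient.out a) : ℝ) : AddCircle (2 : ℝ))
    with hQf
  have hQ : ∀ x : M, Qf (Submodule.Quotient.mk x) = (θ x : AddCircle (2 : ℝ)) := by
    intro x
    have h1 : (Submodule.Quotient.mk (Quotient.out (Submodule.Quotient.mk x : M ⧸ N)) : M ⧸ N) =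
        Submodule.Quotient.mk x := Quotient.out_eq _
    rw [Submodule.Quotient.eq] at h1
    have h2 := hper x _ h1
    rw [add_sub_cancel] at h2
    exact mk_eq_of h2
  set pol : M ⧸ N → M ⧸ N → AddCircle (2 : ℝ) := fun a b => Qf (a + b) - Qf a - Qf b with hpol
  have hp : ∀ x y : M, pol (Submodule.Quotient.mk x) (Submodule.Quotient.mk y) =
      ((2 * P x y : ℝ) : AddCircle (2 : ℝ)) := by
    intro x y
    simp only [hpol]
    rw [← Submodule.Quotient.mk_add, hQ, hQ, hQ]
    obtain ⟨k, hk⟩ := hadd x y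
    rw [← AddCircle.coe_sub, ← AddCircle.coe_sub]
    exact mk_eq_of ⟨k, by rw [hk]; ring⟩
  have hz : ∀ (c : ℤ) (t : ℝ), c • ((t : ℝ) : AddCircle (2 : ℝ)) = ((c * t : ℝ) : AddCircle (2 : ℝ)) := by
    intro c t
    rw [← AddCircle.coe_zsmul, zsmul_eq_mul]
  let BQ : (M ⧸ N) →ₗ[ℤ] (M ⧸ N) →ₗ[ℤ] AddCircle (2 : ℝ) := LinearMap.mk₂ ℤ pol
    (by
      intro a a' b
      obtain ⟨x, rfl⟩ := Submodule.Quotient.mk_surjective _ a
      obtain ⟨x', rfl⟩ := Submodule.Quotient.mk_surjective _ a'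
      obtain ⟨y, rfl⟩ := Submodule.Quotient.mk_surjective _ b
      rw [← Submodule.Quotient.mk_add, hp, hp, hp, ← AddCircle.coe_add, map_add,
        LinearMap.add_apply, mul_add])
    (by
      intro c a b
      obtain ⟨x, rfl⟩ := Submodule.Quotient.mk_surjective _ a
      obtain ⟨y, rfl⟩ := Submodule.Quotient.mk_surjective _ b
      rw [← Submodule.Quotient.mk_smul, hp, hp, hz, map_smul, LinearMap.smul_apply, zsmul_eq_mul]
      congr 1; ring)
    (by
      intro b a a'
      obtain ⟨x, rfl⟩ := Submodule.Quotient.mk_surjective _ a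
      obtain ⟨x', rfl⟩ := Submodule.Quotient.mk_surjective _ a'
      obtain ⟨y, rfl⟩ := Submodule.Quotient.mk_surjective _ b
      rw [← Submodule.Quotient.mk_add, hp, hp, hp, ← AddCircle.coe_add, map_add, mul_add])
    (by
      intro c b a
      obtain ⟨x, rfl⟩ := Submodule.Quotient.mk_surjective _ a
      obtain ⟨y, rfl⟩ := Submodule.Quotient.mk_surjective _ b
      rw [← Submodule.Quotient.mk_smul, hp, hp, hz, map_smul, zsmul_eq_mul]
      congr 1; ring)
  let Q : QuadraticMap ℤ (M ⧸ N) (AddCircle (2 : ℝ)) :=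
    { toFun := Qf
      toFun_smul := by
        intro c a
        obtain ⟨x, rfl⟩ := Submodule.Quotient.mk_surjective _ a
        rw [← Submodule.Quotient.mk_smul, hQ, hQ, hz]
        obtain ⟨k, hk⟩ := hsmul c x
        exact mk_eq_of ⟨k, by rw [hk]; push_cast; ring⟩
      exists_companion' := by
        refine ⟨BQ, fun a b => ?_⟩
        show Qf (a + b) = Qf a + Qf b + pol a b
        simp only [hpol]
        abel }
  have hQa : ∀ a, Q a = Qf a := fun a => rfl
  have hpolar : ∀ a b, QuadraticMap.polar Q a b = pol a b := fun a b => rfl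
  have hnd' : ∀ c : M ⧸ N, c ≠ 0 → ∃ b : M ⧸ N, ψ2 (QuadraticMap.polar Q c b) ≠ 1 := by
    intro c hc
    by_contra hcon
    push Not at hcon
    apply hc
    obtain ⟨x, rfl⟩ := Submodule.Quotient.mk_surjective _ c
    rw [Submodule.Quotient.mk_eq_zero]
    refine hnd x fun y => ?_
    have h1 := hcon (Submodule.Quotient.mk y)
    rw [hpolar, hp, ψ2_mk, ph_eq, XH_two] at h1
    exact X_eq_one h1
  have hG : G Q ψ2 = ∑ a : M ⧸ N, ph (θ (Quotient.out a)) := by
    unfold G
    refine Finset.sum_congr rfl fun a _ => ?_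
    rw [hQa]
    exact ψ2_mk _
  rw [← hG]
  exact ⟨G_ne_zero Q ψ2 ψ2_conj hnd', G_phase Q ψ2 ψ2_conj hnd'⟩

theorem ph_add (a b : ℝ) : ph (a + b) = ph a * ph b := XH_add a b

theorem ph_zero : ph 0 = 1 := XH_zero

theorem ph_two_int {t : ℝ} (h : ∃ k : ℤ, t = k) : ph (2 * t) = 1 := by
  obtain ⟨k, rfl⟩ := h
  rw [ph_eq, XH_two, X_int]

theorem ph_inj {a b : ℝ} (h : ph a = ph b) : ∃ k : ℤ, a = b + 2 * k := by
  have h1 : ph (a - b) = 1 := by
    have h2 : ph (a - b) * ph b = ph b := by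
      rw [← ph_add, sub_add_cancel, h]
    exact mul_right_cancel₀ (XH_ne b) (by rw [one_mul]; exact h2)
  have h3 : X ((a - b) / 2) = 1 := by
    rw [← XH_two]
    have : 2 * ((a - b) / 2) = a - b := by ring
    rw [this]; exact h1
  obtain ⟨k, hk⟩ := X_eq_one h3
  exact ⟨k, by linarith⟩

section S

variable {n m : ℕ} {L : AddSubgroup (V1 n × W m)}

/-- the real symplectic form, elementary rules -/
theorem eal (a b c : V1 n × W m) : ee (a + b) c = ee a c + ee b c := ee_add_left a b c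
theorem ear (a b c : V1 n × W m) : ee a (b + c) = ee a b + ee a c := ee_add_right a b c

theorem enl (a c : V1 n × W m) : ee (-a) c = - ee a c := by
  have h1 := ee_add_left a (-a) c
  have h2 := ee_add_left (0 : V1 n × W m) 0 c
  rw [add_neg_cancel] at h1
  rw [add_zero] at h2
  linarith

theorem enr (a c : V1 n × W m) : ee a (-c) = - ee a c := by
  rw [ee_swap a (-c), enl, ← ee_swap a c]

theorem esl (a b c : V1 n × W m) : ee (a - b) c = ee a c - ee b c := by
  rw [sub_eq_add_neg, eal, enl]; ring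

theorem esr (a b c : V1 n × W m) : ee a (b - c) = ee a b - ee a c := by
  rw [sub_eq_add_neg, ear, enr]; ring

/-- hypotheses on a quadratic character and a symplectic automorphism `S` with `S - 1` invertible -/
structure SData (L : AddSubgroup (V1 n × W m)) (ε : V1 n × W m → ℂ) (S Bi : (V1 n × W m) →ₗ[ℝ] (V1 n × W m)) :
    Prop where
  int : ∀ v ∈ L, ∀ w ∈ L, ∃ k : ℤ, ee v w = k
  dual : ∀ v, (∀ w ∈ L, ∃ k : ℤ, ee v w = k) → v ∈ L
  pm : ∀ l ∈ L, ε l = 1 ∨ ε l = -1
  add : ∀ l ∈ L, ∀ l' ∈ L, ε (l + l') = ε l * ε l' * ph (ee l l')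
  symp : ∀ x y, ee (S x) (S y) = ee x y
  surj : ∀ v, ∃ u, S u = v
  stab : ∀ v, S v ∈ L ↔ v ∈ L
  inv : ∀ l ∈ L, ε (S l) = ε l
  left : ∀ v, Bi (S v - v) = v
  right : ∀ v, S (Bi v) - Bi v = v

variable {ε : V1 n × W m → ℂ} {S Bi : (V1 n × W m) →ₗ[ℝ] (V1 n × W m)}

theorem SData.sq (h : SData L ε S Bi) {l : V1 n × W m} (hl : l ∈ L) : ε l * ε l = 1 := by
  rcases h.pm l hl with h | h <;> rw [h] <;> norm_num

theorem SData.zero (h : SData L ε S Bi) : ε 0 = 1 := by
  have h1 := h.add 0 L.zero_mem 0 L.zero_mem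
  rw [add_zero, ee_self, ph_zero, mul_one, h.sq L.zero_mem] at h1
  exact h1

theorem SData.neg (h : SData L ε S Bi) {l : V1 n × W m} (hl : l ∈ L) : ε (-l) = ε l := by
  have h1 := h.add l hl (-l) (L.neg_mem hl)
  rw [add_neg_cancel, h.zero, enr, ee_self, neg_zero, ph_zero, mul_one] at h1
  have h2 := h.sq hl
  linear_combination (-(ε (-l))) * h2 + (- ε l) * h1 + 0 * h2

/-- the phase `q` -/
def qq (ε : V1 n × W m → ℂ) (S Bi : (V1 n × W m) →ₗ[ℝ] (V1 n × W m)) (l : V1 n × W m) : ℂ :=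
  ε l * ph (ee (Bi l) (S (Bi l)))

/-- `q (l + l') = q l * q l' * e(-ee l (B⁻¹ l'))` -/
theorem SData.qq_add (h : SData L ε S Bi) {l l' : V1 n × W m} (hl : l ∈ L) (hl' : l' ∈ L) :
    qq ε S Bi (l + l') = qq ε S Bi l * qq ε S Bi l' * ph (2 * (-(ee l (Bi l')))) := by
  unfold qq
  rw [h.add l hl l' hl', map_add, map_add]
  set b := Bi l with hb
  set b' := Bi l' with hb'
  have e1 : l = S b - b := (h.right l).symm
  have e2 : l' = S b' - b' := (h.right l').symm
  have e3 : ee l l' = 2 * ee b b' - ee (S b) b' - ee b (S b') := by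
    rw [e1, e2]
    simp only [esl, esr, h.symp]
    ring
  have e4 : ee l b' = ee (S b) b' - ee b b' := by rw [e1, esl]
  have e5 : ee b' (S b) = - ee (S b) b' := ee_swap _ _
  have e6 : ee l l' + ee (b + b') (S b + S b') = ee b (S b) + ee b' (S b') + 2 * (-(ee l b')) := by
    rw [e3, e4, eal, ear, ear, e5]
    ring
  have e7 : ph (ee l l') * ph (ee (b + b') (S b + S b')) =
      ph (ee b (S b)) * ph (ee b' (S b')) * ph (2 * (-(ee l b'))) := by
    rw [← ph_add, e6, ph_add, ph_add]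
  linear_combination (ε l * ε l') * e7

theorem SData.eps_B (h : SData L ε S Bi) {u : V1 n × W m} (hu : u ∈ L) :
    ε (S u - u) = ph (ee u (S u)) := by
  have hSu := (h.stab u).2 hu
  have h1 := h.add (S u) hSu (-u) (L.neg_mem hu)
  rw [← sub_eq_add_neg, h.inv u hu, h.neg hu, h.sq hu, one_mul, enr, ← ee_swap u (S u)] at h1
  exact h1

/-- `q` is periodic under `B L` -/
theorem SData.qq_per (h : SData L ε S Bi) {l u : V1 n × W m} (hl : l ∈ L) (hu : u ∈ L) :
    qq ε S Bi (l + (S u - u)) = qq ε S Bi l := by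
  have hSu := (h.stab u).2 hu
  have hBu : S u - u ∈ L := L.sub_mem hSu hu
  rw [h.qq_add hl hBu]
  have h1 : qq ε S Bi (S u - u) = 1 := by
    unfold qq
    rw [h.left, h.eps_B hu, ← ph_add, ← two_mul]
    exact ph_two_int (h.int u hu _ hSu)
  have h2 : ph (2 * (-(ee l (Bi (S u - u))))) = 1 := by
    rw [h.left]
    apply ph_two_int
    obtain ⟨k, hk⟩ := h.int l hl u hu
    exact ⟨-k, by rw [hk]; push_cast; ring⟩
  rw [h1, h2, mul_one, mul_one]

theorem SData.qq_zero (h : SData L ε S Bi) : qq ε S Bi 0 = 1 := by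
  unfold qq
  rw [h.zero, map_zero, map_zero, ee_self, ph_zero, mul_one]

/-- nondegeneracy -/
theorem SData.nondeg (h : SData L ε S Bi) {l : V1 n × W m} (hl : l ∈ L)
    (hz : ∀ l' ∈ L, ∃ k : ℤ, ee l (Bi l') = k) : ∃ u ∈ L, l = S u - u := by
  set v := Bi (S l) with hv
  have e1 : S v - v = S l := h.right (S l)
  have e2 : ∀ x, ee l x = - ee v (S x - x) := by
    intro x
    rw [← h.symp l x, ← e1, esl, h.symp, esr]
    ring
  have hvL : v ∈ L := by
    apply h.dual
    intro w hw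
    obtain ⟨k, hk⟩ := hz w hw
    refine ⟨-k, ?_⟩
    have := e2 (Bi w)
    rw [h.right, hk] at this
    push_cast
    linarith
  obtain ⟨u, hu⟩ := h.surj v
  have huL : u ∈ L := (h.stab u).1 (by rw [hu]; exact hvL)
  refine ⟨u, huL, ?_⟩
  -- `S l = S v - v = S (S u) - S u = S (S u - u)`
  have e3 : S l = S (S u - u) := by rw [map_sub, hu, e1]
  have hinj : Function.Injective S := by
    have := LinearMap.injective_iff_surjective (f := S)
    exact this.2 h.surj
  exact hinj e3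

/-- the angle of `q` -/
theorem SData.angle (h : SData L ε S Bi) {l : V1 n × W m} (hl : l ∈ L) :
    ∃ t : ℝ, ph t = qq ε S Bi l := by
  rcases h.pm l hl with h1 | h1
  · exact ⟨ee (Bi l) (S (Bi l)), by rw [qq, h1, one_mul]⟩
  · refine ⟨1 + ee (Bi l) (S (Bi l)), ?_⟩
    rw [ph_add, qq, h1]
    congr 1
    rw [ph]
    push_cast
    rw [mul_one]
    exact Complex.exp_pi_mul_I

/-- **(eps): the Gauss sum of `S`.** -/
theorem SData.gauss (h : SData L ε S Bi) {M : Type*} [AddCommGroup M] (i : M →+ (V1 n × W m))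
    (hi : Function.Injective i) (hiL : ∀ v, v ∈ L ↔ ∃ x, i x = v) (β : M →ₗ[ℤ] M)
    (hβ : ∀ x, i (β x) = S (i x) - i x) [Fintype (M ⧸ LinearMap.range β)] :
    (∑ a : M ⧸ LinearMap.range β, qq ε S Bi (i (Quotient.out a))) ≠ 0 ∧
      ((∑ a : M ⧸ LinearMap.range β, qq ε S Bi (i (Quotient.out a))) /
        (‖∑ a : M ⧸ LinearMap.range β, qq ε S Bi (i (Quotient.out a))‖ : ℂ)) ^ 8 = 1 := by
  classical
  have hiM : ∀ x, i x ∈ L := fun x => (hiL _).2 ⟨x, rfl⟩
  choose θ hθ using fun x : M => h.angle (hiM x)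
  let P : M →ₗ[ℤ] M →ₗ[ℤ] ℝ := LinearMap.mk₂ ℤ (fun x y => -(ee (i x) (Bi (i y))))
    (by intro x x' y; rw [map_add, eal]; ring)
    (by
      intro c x y
      rw [map_zsmul]
      have hz : ∀ (c : ℤ) (a b : V1 n × W m), ee (c • a) b = c * ee a b := by
        intro c a b
        let f : (V1 n × W m) →+ ℝ := AddMonoidHom.mk' (fun a => ee a b) (fun a a' => eal a a' b)
        have := map_zsmul f c a
        simpa [f] using this
      rw [hz, zsmul_eq_mul]; ring)
    (by intro x y y'; rw [map_add, map_add, ear]; ring)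
    (by
      intro c x y
      rw [map_zsmul, map_zsmul]
      have hz : ∀ (c : ℤ) (a b : V1 n × W m), ee a (c • b) = c * ee a b := by
        intro c a b
        let f : (V1 n × W m) →+ ℝ := AddMonoidHom.mk' (fun b => ee a b) (fun b b' => ear a b b')
        have := map_zsmul f c b
        simpa [f] using this
      rw [hz, zsmul_eq_mul]; ring)
  have hP : ∀ x y, P x y = -(ee (i x) (Bi (i y))) := fun x y => rfl
  have hq2 : ∀ x, P x x = - (ee (i x) (Bi (i x))) := fun x => rfl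
  -- `q (c x) = q(x)^{c²}` in terms of angles
  have key_add : ∀ x y, ph (θ (x + y)) = ph (θ x + θ y + 2 * P x y) := by
    intro x y
    rw [hθ, map_add, h.qq_add (hiM x) (hiM y), ph_add, ph_add, hθ, hθ, hP]
  have hself : ∀ x, ∃ k : ℤ, P x x = θ x + 2 * k ∨ True := fun x => ⟨0, Or.inr trivial⟩
  -- polar of `q` on the diagonal: `q(2x) = q(x)^4`
  have hdiag : ∀ x, ph (2 * P x x) = ph (2 * θ x) := by
    intro x
    have e1 : ph (2 * θ x) = qq ε S Bi (i x) * qq ε S Bi (i x) := by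
      rw [two_mul, ph_add, hθ]
    rw [e1, hP]
    unfold qq
    set b := Bi (i x) with hb
    have e2 : i x = S b - b := (h.right (i x)).symm
    have e3 : 2 * (-(ee (i x) b)) = ee b (S b) + ee b (S b) := by
      rw [e2, esl, ee_self, ee_swap (S b) b]; ring
    rw [e3, ph_add]
    have e4 := h.sq (hiM x)
    linear_combination (-(ph (ee b (S b)) * ph (ee b (S b)))) * e4
  have hsm : ∀ (c : ℤ) (x : M), ph (θ (c • x)) = ph (c * c * θ x) := by
    intro c x
    have hzero : ph (θ 0) = 1 := by rw [hθ, map_zero, h.qq_zero]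
    have hPs : ∀ (c : ℤ), P (c • x) x = c * P x x := by
      intro c; rw [map_smul, LinearMap.smul_apply, zsmul_eq_mul]
    have hd : ∀ c : ℤ, ph (2 * (c * P x x)) = ph (2 * (c * θ x)) := by
      intro c
      have e1 : ∀ t : ℝ, ph (2 * (c * t)) = ph (2 * t) ^ c := by
        intro t
        unfold ph
        rw [← Complex.exp_int_mul]
        congr 1
        push_cast
        ring
      rw [e1, e1, hdiag]
    induction c using Int.induction_on with
    | zero => simpa using hzero.trans ph_zero.symm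
    | succ c ih =>
      rw [add_smul, one_smul, key_add, ph_add, ph_add, ih, hPs, hd]
      rw [← ph_add, ← ph_add]
      congr 1
      push_cast
      ring
    | pred c ih =>
      have e1 := key_add ((-(c : ℤ) - 1) • x) x
      have e2 : (-(c : ℤ) - 1) • x + x = (-(c : ℤ)) • x := by
        rw [sub_smul, one_smul]; abel
      rw [e2, ih, ph_add, ph_add, hPs, hd] at e1
      have e3 : ph ((-(c : ℤ) : ℤ) * (-(c : ℤ) : ℤ) * θ x) =
          ph (((-(c : ℤ) - 1 : ℤ) : ℝ) * ((-(c : ℤ) - 1 : ℤ) : ℝ) * θ x) * ph (θ x) *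
            ph (2 * (((-(c : ℤ) - 1 : ℤ) : ℝ) * θ x)) := by
        rw [← ph_add, ← ph_add]
        congr 1
        push_cast
        ring
      rw [e3] at e1
      have n1 : ph (θ x) ≠ 0 := XH_ne _
      have n2 : ph (2 * (((-(c : ℤ) - 1 : ℤ) : ℝ) * θ x)) ≠ 0 := XH_ne _
      refine mul_right_cancel₀ n1 (mul_right_cancel₀ n2 ?_)
      exact e1.symm
  have hres := gauss_quot (LinearMap.range β) θ P
    (fun x y => ph_inj (key_add x y)) (fun c x => ph_inj (hsm c x))
    (by
      rintro x _ ⟨y, rfl⟩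
      apply ph_inj
      rw [hθ, hθ, map_add, hβ, h.qq_per (hiM x) (hiM y)])
    (by
      intro x hx
      obtain ⟨u, hu, hxu⟩ := h.nondeg (hiM x) (by
        intro l' hl'
        obtain ⟨y, rfl⟩ := (hiL l').1 hl'
        obtain ⟨k, hk⟩ := hx y
        rw [hP] at hk
        exact ⟨-k, by push_cast; linarith⟩)
      obtain ⟨y, rfl⟩ := (hiL u).1 hu
      exact ⟨y, hi (by rw [hβ, hxu])⟩)
  have hsum : (∑ a : M ⧸ LinearMap.range β, ph (θ (Quotient.out a))) =
      ∑ a : M ⧸ LinearMap.range β, qq ε S Bi (i (Quotient.out a)) :=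
    Finset.sum_congr rfl fun a _ => hθ _
  rw [hsum] at hres
  exact hres

end S

end

end Crest.Agent.R272.ETh8_295
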