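import Mathlib

/-!
Row 272, division E (helper429): locally uniformly convergent series of holomorphic functions in
several variables.
-/

set_option autoImplicit false

open Metric

namespace Crest.Agent.R272.EXD_429

variable {V : Type*} [NormedAddCommGroup V] [NormedSpace ℂ V]

/-- Cauchy estimate for the Fréchet derivative -/
theorem norm_fderiv_le {F : V → ℂ} {z : V} {δ C : ℝ} (hδ : 0 < δ)
    (hF : DifferentiableOn ℂ F (ball z δ)) (hC : ∀ w ∈ ball z δ, ‖F w‖ ≤ C) :
    ‖fderiv ℂ F z‖ ≤ 2 * C / δ := by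
  have hC0 : 0 ≤ C := (norm_nonneg _).trans (hC z (mem_ball_self hδ))
  refine ContinuousLinearMap.opNorm_le_bound _ (by positivity) fun X => ?_
  by_cases hX : X = 0
  · simp [hX]
  have hX' : 0 < ‖X‖ := norm_pos_iff.2 hX
  set s : ℝ := δ / (2 * ‖X‖) with hs
  have hs0 : 0 < s := by positivity
  have hmem : ∀ t : ℂ, ‖t‖ ≤ s → z + t • X ∈ ball z δ := by
    intro t ht
    rw [mem_ball, dist_eq_norm, add_sub_cancel_left, norm_smul]
    calc ‖t‖ * ‖X‖ ≤ s * ‖X‖ := by gcongr
      _ = δ / 2 := by rw [hs]; field_simp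
      _ < δ := by linarith
  have hd : ∀ t : ℂ, ‖t‖ ≤ s → DifferentiableAt ℂ (fun t : ℂ => F (z + t • X)) t := by
    intro t ht
    have h1 : DifferentiableAt ℂ F (z + t • X) :=
      (hF _ (hmem t ht)).differentiableAt (isOpen_ball.mem_nhds (hmem t ht))
    exact h1.comp t (by fun_prop)
  have hdc : DiffContOnCl ℂ (fun t : ℂ => F (z + t • X)) (ball 0 s) := by
    apply DifferentiableOn.diffContOnCl
    rw [closure_ball _ hs0.ne']
    intro t ht
    exact (hd t (by simpa using ht)).differentiableWithinAt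
  have h1 := Complex.norm_deriv_le_of_forall_mem_sphere_norm_le hs0 hdc (C := C) fun t ht => by
    have : ‖t‖ = s := by simpa using ht
    exact hC _ (hmem t this.le)
  have h2 : deriv (fun t : ℂ => F (z + t • X)) 0 = fderiv ℂ F z X := by
    have h3 : HasFDerivAt F (fderiv ℂ F z) (z + (0:ℂ) • X) := by
      rw [zero_smul, add_zero]
      exact ((hF z (mem_ball_self hδ)).differentiableAt
        (isOpen_ball.mem_nhds (mem_ball_self hδ))).hasFDerivAt
    have h4 : HasDerivAt (fun t : ℂ => z + t • X) X 0 := by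
      simpa using ((hasDerivAt_id (0:ℂ)).smul_const X).const_add z
    exact (h3.comp_hasDerivAt (0:ℂ) h4).deriv
  rw [h2] at h1
  calc ‖fderiv ℂ F z X‖ ≤ C / s := h1
    _ = 2 * C / δ * ‖X‖ := by rw [hs]; field_simp

/-- Weierstrass M-test in several complex variables -/
theorem differentiableOn_tsum {ι : Type*} {F : ι → V → ℂ} {U : Set V} (hU : IsOpen U)
    (hF : ∀ i, DifferentiableOn ℂ (F i) U)
    (hb : ∀ z ∈ U, ∃ δ > 0, ∃ u : ι → ℝ, Summable u ∧ ∀ i, ∀ w ∈ ball z δ, w ∈ U → ‖F i w‖ ≤ u i) :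
    DifferentiableOn ℂ (fun z => ∑' i, F i z) U := by
  intro z hz
  obtain ⟨δ, hδ, u, hu, hle⟩ := hb z hz
  obtain ⟨ε, hε, hεU⟩ := Metric.isOpen_iff.1 hU z hz
  set η : ℝ := min δ ε with hη
  have hη0 : 0 < η := lt_min hδ hε
  have hηU : ball z η ⊆ U := (ball_subset_ball (min_le_right _ _)).trans hεU
  have hηδ : ball z η ⊆ ball z δ := ball_subset_ball (min_le_left _ _)
  have hsub : ∀ w ∈ ball z (η / 2), ball w (η / 2) ⊆ ball z η := by
    intro w hw
    refine ball_subset_ball' ?_
    have := mem_ball.1 hw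
    linarith
  have hzs : z ∈ ball z (η / 2) := mem_ball_self (by positivity)
  have hwU : ∀ w ∈ ball z (η / 2), w ∈ U := fun w hw =>
    hηU (hsub w hw (mem_ball_self (by positivity)))
  have key := hasFDerivAt_tsum_of_isPreconnected (𝕜 := ℂ) (f := F)
    (f' := fun i w => fderiv ℂ (F i) w)
    (u := fun i => 2 * u i / (η / 2)) (s := ball z (η / 2)) (x₀ := z) (x := z)
    ((hu.mul_left 2).div_const _) isOpen_ball (convex_ball z _).isPreconnected
    (fun i w hw => ((hF i w (hwU w hw)).differentiableAt (hU.mem_nhds (hwU w hw))).hasFDerivAt)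
    (fun i w hw => norm_fderiv_le (by positivity)
      ((hF i).mono ((hsub w hw).trans hηU)) fun w' hw' =>
        hle i w' (hηδ (hsub w hw hw')) (hηU (hsub w hw hw')))
    hzs
    (Summable.of_norm_bounded hu fun i => hle i z (mem_ball_self hδ) hz)
    hzs
  exact key.differentiableAt.differentiableWithinAt

end Crest.Agent.R272.EXD_429
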