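import Mathlib

/-!
Row 272, division E (helper429): the explicit product `f_p` and its automorphy factor.

Abstract data: points `X`, an index set `I` of hyperplanes, a kernel `x i z w` (`= π R(v_i;z,w)`),
`L z w` (`= log (1 - z·w̄)`), with `x i z w = l i z * a i w * exp (- L z w)`.
`EE y = y * exp (c - Ein y)`; `Q i z w = - Ein (x i z w) - L z w`; `Psi p i z w` its second
difference at `p`; `S p z w = ∑' i, Psi p i z w`; `fp p z = ∏' i, EE (x i z p)`.
-/

set_option autoImplicit false

open Complex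

namespace Crest.Agent.R272.Ex_429

variable {X I : Type*}

/-- the entire factor -/
noncomputable def EEc (Ein : ℂ → ℂ) (c : ℂ) (y : ℂ) : ℂ := y * cexp (c - Ein y)

/-- the potential -/
noncomputable def Q (Ein : ℂ → ℂ) (L : X → X → ℂ) (x : I → X → X → ℂ) (i : I) (z w : X) : ℂ :=
  - Ein (x i z w) - L z w

/-- second difference at `p` of a kernel -/
def dd (K : X → X → ℂ) (p z w : X) : ℂ := K z w - K z p - K p w + K p p

@[simp] theorem dd_left (K : X → X → ℂ) (p w : X) : dd K p p w = 0 := by
  simp [dd]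

@[simp] theorem dd_right (K : X → X → ℂ) (p z : X) : dd K p z p = 0 := by
  simp only [dd]; ring

/-- factorisation hypothesis of the kernel -/
def Fac (L : X → X → ℂ) (x : I → X → X → ℂ) : Prop :=
  ∃ l a : I → X → ℂ, ∀ i z w, x i z w = l i z * a i w * cexp (- L z w)

/-- the factorwise identity -/
theorem star {Ein : ℂ → ℂ} {c : ℂ} {L : X → X → ℂ} {x : I → X → X → ℂ} (h : Fac L x)
    (i : I) (p q z : X) :
    EEc Ein c (x i z q) * EEc Ein c (x i p p) =
      EEc Ein c (x i z p) * EEc Ein c (x i p q) * cexp (dd (Q Ein L x i) p z q) := by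
  obtain ⟨l, a, h⟩ := h
  have key : ∀ z w, EEc Ein c (x i z w) = l i z * a i w * cexp c * cexp (Q Ein L x i z w) := by
    intro z w
    have h1 : cexp (c - Ein (x i z w)) * cexp (- L z w) = cexp c * cexp (Q Ein L x i z w) := by
      rw [← Complex.exp_add, ← Complex.exp_add]
      congr 1
      simp only [Q]; ring
    calc EEc Ein c (x i z w) = (l i z * a i w * cexp (- L z w)) * cexp (c - Ein (x i z w)) := by
          simp only [EEc]; rw [← h i z w]
      _ = l i z * a i w * (cexp (c - Ein (x i z w)) * cexp (- L z w)) := by ring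
      _ = _ := by rw [h1]; ring
  rw [key z q, key p p, key z p, key p q]
  have h2 : cexp (Q Ein L x i z q) * cexp (Q Ein L x i p p) =
      cexp (Q Ein L x i z p) * cexp (Q Ein L x i p q) * cexp (dd (Q Ein L x i) p z q) := by
    rw [← Complex.exp_add, ← Complex.exp_add, ← Complex.exp_add]
    congr 1
    simp only [dd]; ring
  calc l i z * a i q * cexp c * cexp (Q Ein L x i z q) *
        (l i p * a i p * cexp c * cexp (Q Ein L x i p p))
      = (l i z * a i q * cexp c * (l i p * a i p * cexp c)) *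
        (cexp (Q Ein L x i z q) * cexp (Q Ein L x i p p)) := by ring
    _ = _ := by rw [h2]; ring

/-- the product -/
noncomputable def fp (Ein : ℂ → ℂ) (c : ℂ) (x : I → X → X → ℂ) (p z : X) : ℂ :=
  ∏' i, EEc Ein c (x i z p)

/-- the sum of the polarised potentials -/
noncomputable def S (Ein : ℂ → ℂ) (L : X → X → ℂ) (x : I → X → X → ℂ) (p z w : X) : ℂ :=
  ∑' i, dd (Q Ein L x i) p z w

/-- change of base point -/
theorem fp_change {Ein : ℂ → ℂ} {c : ℂ} {L : X → X → ℂ} {x : I → X → X → ℂ} (h : Fac L x)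
    (hm : ∀ z w : X, Multipliable fun i => EEc Ein c (x i z w))
    {p q z : X} (hs : Summable fun i => dd (Q Ein L x i) p z q) :
    fp Ein c x q z * fp Ein c x p p =
      fp Ein c x p z * fp Ein c x q p * cexp (S Ein L x p z q) := by
  have hS : HasProd (fun i => cexp (dd (Q Ein L x i) p z q)) (cexp (S Ein L x p z q)) :=
    hs.hasSum.cexp
  unfold fp
  rw [← (hm z q).tprod_mul (hm p p), ← hS.tprod_eq, ← (hm z p).tprod_mul (hm p q),
    ← ((hm z p).mul (hm p q)).tprod_mul hS.multipliable]
  exact tprod_congr fun i => star h i p q z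

section Grp

variable {G : Type*} [Group G] [MulAction G X] [MulAction G I]

/-- equivariance of the kernel -/
def Equiv' (G : Type*) [Group G] [MulAction G X] [MulAction G I] (x : I → X → X → ℂ) : Prop :=
  ∀ (g : G) (i : I) (z w : X), x (g • i) (g • z) (g • w) = x i z w

theorem fp_smul {Ein : ℂ → ℂ} {c : ℂ} {x : I → X → X → ℂ} (hx : Equiv' G x) (g : G) (p z : X) :
    fp Ein c x p (g • z) = fp Ein c x (g⁻¹ • p) z := by
  unfold fp
  rw [← (MulAction.toPerm g : Equiv.Perm I).tprod_eq]
  refine tprod_congr fun i => ?_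
  have := hx g i z (g⁻¹ • p)
  rw [smul_inv_smul] at this
  rw [← this]
  rfl

/-- **the automorphy formula** -/
theorem fp_automorphy {Ein : ℂ → ℂ} {c : ℂ} {L : X → X → ℂ} {x : I → X → X → ℂ} (h : Fac L x)
    (hm : ∀ z w : X, Multipliable fun i => EEc Ein c (x i z w)) (hx : Equiv' G x) (g : G)
    {p z : X} (hs : Summable fun i => dd (Q Ein L x i) p z (g⁻¹ • p))
    (hp : fp Ein c x p p ≠ 0) :
    fp Ein c x p (g • z) =
      fp Ein c x p z * (fp Ein c x p (g • p) / fp Ein c x p p) *
        cexp (S Ein L x p z (g⁻¹ • p)) := by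
  have h1 := fp_change h hm hs (p := p) (q := g⁻¹ • p) (z := z)
  rw [← fp_smul hx g p z, ← fp_smul hx g p p] at h1
  field_simp
  rw [h1]

/-- second differences of `L` are invariant -/
def LInv (G : Type*) [Group G] [MulAction G X] (L : X → X → ℂ) : Prop :=
  ∀ (g : G) (p z w : X), dd L (g • p) (g • z) (g • w) = dd L p z w

/-- `(INV)` for one vector -/
theorem dd_Q_smul {Ein : ℂ → ℂ} {L : X → X → ℂ} {x : I → X → X → ℂ} (hx : Equiv' G x)
    (hL : LInv G L) (g : G) (i : I) (p z w : X) :
    dd (Q Ein L x (g • i)) (g • p) (g • z) (g • w) = dd (Q Ein L x i) p z w := by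
  have h1 := hL g p z w
  simp only [dd] at h1
  simp only [dd, Q, hx g i]
  linear_combination - h1

theorem dd_dd (K : X → X → ℂ) (p q z w : X) : dd (dd K p) q z w = dd K q z w := by
  simp only [dd]; ring

/-- **(INV)** for the sum -/
theorem S_inv {Ein : ℂ → ℂ} {L : X → X → ℂ} {x : I → X → X → ℂ} (hx : Equiv' G x)
    (hL : LInv G L) (hs : ∀ p z w, Summable fun i => dd (Q Ein L x i) p z w) (g : G) (p z w : X) :
    dd (S Ein L x p) (g • p) (g • z) (g • w) = S Ein L x p z w := by
  have h1 : dd (S Ein L x p) (g • p) (g • z) (g • w) =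
      ∑' i, dd (Q Ein L x i) (g • p) (g • z) (g • w) := by
    have e : ∀ i, dd (Q Ein L x i) (g • p) (g • z) (g • w) =
        dd (dd (Q Ein L x i) p) (g • p) (g • z) (g • w) := fun i => (dd_dd _ _ _ _ _).symm
    simp_rw [e]
    have s1 := hs p (g • z) (g • w)
    have s2 := hs p (g • z) (g • p)
    have s3 := hs p (g • p) (g • w)
    have s4 := hs p (g • p) (g • p)
    show S Ein L x p (g • z) (g • w) - S Ein L x p (g • z) (g • p) - S Ein L x p (g • p) (g • w)
      + S Ein L x p (g • p) (g • p) = _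
    unfold S
    rw [← s1.tsum_sub s2, ← (s1.sub s2).tsum_sub s3, ← ((s1.sub s2).sub s3).tsum_add s4]
    rfl
  rw [h1, ← (MulAction.toPerm g : Equiv.Perm I).tsum_eq]
  unfold S
  exact tsum_congr fun i => dd_Q_smul hx hL g i p z w

/-- kernels with `(INV)`, vanishing at the base point -/
structure Inv (G : Type*) [Group G] [MulAction G X] (p : X) (K : X → X → ℂ) : Prop where
  left : ∀ w, K p w = 0
  right : ∀ z, K z p = 0
  inv : ∀ (g : G) (z w : X), dd K (g • p) (g • z) (g • w) = K z w

theorem S_Inv {Ein : ℂ → ℂ} {L : X → X → ℂ} {x : I → X → X → ℂ} (hx : Equiv' G x)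
    (hL : LInv G L) (hs : ∀ p z w, Summable fun i => dd (Q Ein L x i) p z w) (p : X) :
    Inv G p (S Ein L x p) where
  left w := by simp [S]
  right z := by simp [S]
  inv g z w := S_inv hx hL hs g p z w

/-- the 2-cocycle of an invariant kernel -/
def sig (K : X → X → ℂ) (p : X) (g h : G) : ℂ := K (h • p) (g⁻¹ • p)

theorem Inv.smul_base {p : X} {K : X → X → ℂ} (hK : Inv G p K) (g : G) (z : X) :
    K (g • z) (g • p) = K (g • p) (g • p) - K z (g⁻¹ • p) := by
  have h := hK.inv g z (g⁻¹ • p)
  simp only [dd, smul_inv_smul, hK.right] at h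
  linear_combination - h

/-- the basic identity -/
theorem Inv.key {p : X} {K : X → X → ℂ} (hK : Inv G p K) (g h : G) (z : X) :
    K (h • z) (g⁻¹ • p) + K z (h⁻¹ • p) = K z ((g * h)⁻¹ • p) + sig K p g h := by
  have h1 := hK.inv h z ((g * h)⁻¹ • p)
  have e : h • ((g * h)⁻¹ • p) = g⁻¹ • p := by
    rw [mul_inv_rev, mul_smul, smul_inv_smul]
  simp only [dd, e] at h1
  have h2 := hK.smul_base h z
  simp only [sig]
  linear_combination h1 + h2

theorem Inv.sig_coc {p : X} {K : X → X → ℂ} (hK : Inv G p K) (g h k : G) :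
    sig K p g h + sig K p (g * h) k = sig K p h k + sig K p g (h * k) := by
  have h1 := hK.key g h (k • p)
  simp only [sig, mul_smul] at h1 ⊢
  linear_combination - h1

end Grp

end Crest.Agent.R272.Ex_429
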