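import Crest.Agent.R272.EBase2_641
import Crest.Agent.R272.Pol3_898
import Crest.Agent.R272.Ex3_429

/-!
Row 272, division E (helper429): the function `f_p` and the kernel `K = Σ_{v∈S} Psi_v` of a class,
group action and automorphy. Convergence is a hypothesis here.
-/

set_option autoImplicit false

open Complex Set Filter Topology
open scoped ComplexConjugate Real

namespace Crest.Agent.R272.EXD_429

open Crest.Agent.R272.EBase_641
open Crest.Agent.R272.Pol_898 (qq RR QQ Psi)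

noncomputable section

variable {D : EDat}

/-- the action of `G` on `V × W` -/
def gv (D : EDat) (g : D.G) (v : V1 D.n × W D.m) : V1 D.n × W D.m :=
  ((D.ρ g).1 v.1, D.σ g v.2)

theorem gv_mul (g h : D.G) (v : V1 D.n × W D.m) : gv D (g * h) v = gv D g (gv D h v) := by
  simp only [gv, map_mul]; rfl

theorem gv_one (v : V1 D.n × W D.m) : gv D 1 v = v := by
  simp only [gv, map_one]; rfl

theorem gv_inv_gv (g : D.G) (v : V1 D.n × W D.m) : gv D g⁻¹ (gv D g v) = v := by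
  rw [← gv_mul, inv_mul_cancel, gv_one]

theorem gv_gv_inv (g : D.G) (v : V1 D.n × W D.m) : gv D g (gv D g⁻¹ v) = v := by
  rw [← gv_mul, mul_inv_cancel, gv_one]

/-- permutation of an invariant set -/
def perm (D : EDat) (S : Set (V1 D.n × W D.m)) (hS : ∀ g, ∀ v ∈ S, gv D g v ∈ S) (g : D.G) :
    S ≃ S where
  toFun v := ⟨gv D g v.1, hS g _ v.2⟩
  invFun v := ⟨gv D g⁻¹ v.1, hS g⁻¹ _ v.2⟩
  left_inv v := Subtype.ext (gv_inv_gv g v.1)
  right_inv v := Subtype.ext (gv_gv_inv g v.1)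

theorem wt_gv (g : D.G) (v : V1 D.n × W D.m) : wt (gv D g v) = wt v := by
  have h1 : ‖((D.ρ g).1 v.1).1‖ ^ 2 - ‖((D.ρ g).1 v.1).2‖ ^ 2 = ‖v.1.1‖ ^ 2 - ‖v.1.2‖ ^ 2 := by
    have h := UG_hh (D.ρ g) v.1 v.1
    rw [hh_self, hh_self] at h
    exact Complex.ofReal_injective h
  have h2 : ‖D.σ g v.2‖ = ‖v.2‖ := (D.σ g).norm_map v.2
  simp only [wt, gv, h1, h2]

/-- the polarised sum with coefficients -/
def KS (Ein : ℂ → ℂ) (D : EDat) (S : Set (V1 D.n × W D.m)) (c : V1 D.n × W D.m → ℂ)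
    (p z w : E D.n) : ℂ := ∑' v : S, c v.1 * Psi Ein p v.1.1 z w

variable {S : Set (V1 D.n × W D.m)} {c : V1 D.n × W D.m → ℂ} {Ein : ℂ → ℂ}

theorem KS_left (p w : E D.n) : KS Ein D S c p p w = 0 := by
  simp [KS, Pol_898.Psi_left]

theorem KS_right (p z : E D.n) : KS Ein D S c p z p = 0 := by
  simp [KS, Pol_898.Psi_right]

/-- **(INV)** for the sum -/
theorem KS_inv (hS : ∀ g, ∀ v ∈ S, gv D g v ∈ S) (hc : ∀ g v, c (gv D g v) = c v) {p : E D.n}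
    (hp : p ∈ Ball D.n)
    (hs : ∀ z ∈ Ball D.n, ∀ w ∈ Ball D.n, Summable fun v : S => c v.1 * Psi Ein p v.1.1 z w)
    (g : D.G) {z w : E D.n} (hz : z ∈ Ball D.n) (hw : w ∈ Ball D.n) :
    KS Ein D S c p (act (D.ρ g) z) (act (D.ρ g) w) - KS Ein D S c p (act (D.ρ g) z) (act (D.ρ g) p)
      - KS Ein D S c p (act (D.ρ g) p) (act (D.ρ g) w)
      + KS Ein D S c p (act (D.ρ g) p) (act (D.ρ g) p) = KS Ein D S c p z w := by
  have gz := act_mem (D.ρ g) hz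
  have gw := act_mem (D.ρ g) hw
  have gp := act_mem (D.ρ g) hp
  unfold KS
  rw [← (hs _ gz _ gw).tsum_sub (hs _ gz _ gp),
    ← ((hs _ gz _ gw).sub (hs _ gz _ gp)).tsum_sub (hs _ gp _ gw),
    ← (((hs _ gz _ gw).sub (hs _ gz _ gp)).sub (hs _ gp _ gw)).tsum_add (hs _ gp _ gp),
    ← (perm D S hS g).tsum_eq]
  refine tsum_congr fun v => ?_
  have h := Pol_898.Psi_inv Ein (D.ρ g) v.1.1 hp hz hw
  show c (gv D g v.1) * Psi Ein p ((D.ρ g).1 v.1.1) _ _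
    - c (gv D g v.1) * Psi Ein p ((D.ρ g).1 v.1.1) _ _
    - c (gv D g v.1) * Psi Ein p ((D.ρ g).1 v.1.1) _ _
    + c (gv D g v.1) * Psi Ein p ((D.ρ g).1 v.1.1) _ _ = _
  rw [hc]
  linear_combination (c v.1) * h

theorem KS_inv' (hS : ∀ g, ∀ v ∈ S, gv D g v ∈ S) (hc : ∀ g v, c (gv D g v) = c v) {p : E D.n}
    (hp : p ∈ Ball D.n)
    (hs : ∀ z ∈ Ball D.n, ∀ w ∈ Ball D.n, Summable fun v : S => c v.1 * Psi Ein p v.1.1 z w)
    (g : D.G) {z w : E D.n} (hz : z ∈ Ball D.n) (hw : w ∈ Ball D.n) :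
    Pol_898.dd (KS Ein D S c p) (act (D.ρ g) p) (act (D.ρ g) z) (act (D.ρ g) w)
      = KS Ein D S c p z w := KS_inv hS hc hp hs g hz hw

/-! ### the product -/

/-- `f_p(z) = ∏_{v ∈ S} EE(π R(v;z,p))` -/
def FP (EE : ℂ → ℂ) (D : EDat) (S : Set (V1 D.n × W D.m)) (p z : E D.n) : ℂ :=
  ∏' v : S, EE (π * RR v.1.1 z p)

/-- the kernel `π R` on the subtype -/
def xk (D : EDat) (S : Set (V1 D.n × W D.m)) (v : S) (z w : Ball D.n) : ℂ :=
  π * RR v.1.1 z.1 w.1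

def Lk (D : EDat) (z w : Ball D.n) : ℂ := log (qq z.1 w.1)

theorem fac_xk (D : EDat) (S : Set (V1 D.n × W D.m)) : Ex_429.Fac (Lk D) (xk D S) := by
  refine ⟨fun v z => π * lin v.1.1 z.1, fun v w => conj (lin v.1.1 w.1), fun v z w => ?_⟩
  simp only [xk, Lk, RR]
  rw [Complex.exp_neg, exp_log (Pol_898.qq_ne z.2 w.2)]
  ring

theorem FP_eq (ec : ℂ) (S : Set (V1 D.n × W D.m)) {p z : E D.n} (hp : p ∈ Ball D.n)
    (hz : z ∈ Ball D.n) :
    FP (Ex_429.EEc Ein ec) D S p z = Ex_429.fp Ein ec (xk D S) ⟨p, hp⟩ ⟨z, hz⟩ := rfl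

theorem S_eq (S : Set (V1 D.n × W D.m)) {p z w : E D.n} (hp : p ∈ Ball D.n)
    (hz : z ∈ Ball D.n) (hw : w ∈ Ball D.n) :
    KS Ein D S (fun _ => 1) p z w = Ex_429.S Ein (Lk D) (xk D S) ⟨p, hp⟩ ⟨z, hz⟩ ⟨w, hw⟩ := by
  unfold KS Ex_429.S
  refine tsum_congr fun v => ?_
  rw [one_mul]; rfl

/-- change of base point -/
theorem FP_change (ec : ℂ) {p q z : E D.n} (hp : p ∈ Ball D.n) (hq : q ∈ Ball D.n)
    (hz : z ∈ Ball D.n)
    (hm : ∀ z ∈ Ball D.n, ∀ w ∈ Ball D.n,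
      Multipliable fun v : S => Ex_429.EEc Ein ec (π * RR v.1.1 z w))
    (hs : Summable fun v : S => Psi Ein p v.1.1 z q) :
    FP (Ex_429.EEc Ein ec) D S q z * FP (Ex_429.EEc Ein ec) D S p p =
      FP (Ex_429.EEc Ein ec) D S p z * FP (Ex_429.EEc Ein ec) D S q p *
        cexp (KS Ein D S (fun _ => 1) p z q) := by
  rw [FP_eq ec S hq hz, FP_eq ec S hp hp, FP_eq ec S hp hz, FP_eq ec S hq hp, S_eq S hp hz hq]
  refine Ex_429.fp_change (fac_xk D S) ?_ ?_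
  · intro z w
    exact hm z.1 z.2 w.1 w.2
  · exact hs

/-- `f_p(g z) = f_{g⁻¹ p}(z)` -/
theorem FP_act (EE : ℂ → ℂ) (hS : ∀ g, ∀ v ∈ S, gv D g v ∈ S) (g : D.G) {p z : E D.n}
    (hp : p ∈ Ball D.n) (hz : z ∈ Ball D.n) :
    FP EE D S p (act (D.ρ g) z) = FP EE D S (act (D.ρ g)⁻¹ p) z := by
  unfold FP
  rw [← (perm D S hS g).tprod_eq]
  refine tprod_congr fun v => ?_
  have h := RR_act' g v.1.1 hz (act_mem (D.ρ g)⁻¹ hp)
  rw [act_act_inv _ hp] at h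
  show EE (π * RR ((D.ρ g).1 v.1.1) (act (D.ρ g) z) p) = _
  rw [h]
where
  RR_act' (g : D.G) (v : V1 D.n) {z w : E D.n} (hz : z ∈ Ball D.n) (hw : w ∈ Ball D.n) :
      RR ((D.ρ g).1 v) (act (D.ρ g) z) (act (D.ρ g) w) = RR v z w :=
    Pol_898.RR_act (D.ρ g) v hz hw

/-- **the automorphy formula** -/
theorem FP_automorphy (ec : ℂ) (hS : ∀ g, ∀ v ∈ S, gv D g v ∈ S) (g : D.G) {p z : E D.n}
    (hp : p ∈ Ball D.n) (hz : z ∈ Ball D.n)
    (hm : ∀ z ∈ Ball D.n, ∀ w ∈ Ball D.n,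
      Multipliable fun v : S => Ex_429.EEc Ein ec (π * RR v.1.1 z w))
    (hs : ∀ z ∈ Ball D.n, ∀ w ∈ Ball D.n, Summable fun v : S => Psi Ein p v.1.1 z w)
    (h0 : FP (Ex_429.EEc Ein ec) D S p p ≠ 0) :
    FP (Ex_429.EEc Ein ec) D S p (act (D.ρ g) z) =
      FP (Ex_429.EEc Ein ec) D S p z *
        (FP (Ex_429.EEc Ein ec) D S p (act (D.ρ g) p) / FP (Ex_429.EEc Ein ec) D S p p) *
        cexp (KS Ein D S (fun _ => 1) p z (act (D.ρ g)⁻¹ p)) := by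
  have hq : act (D.ρ g)⁻¹ p ∈ Ball D.n := act_mem _ hp
  have h1 := FP_change ec hp hq hz hm (hs z hz _ hq)
  rw [← FP_act _ hS g hp hz, ← FP_act _ hS g hp hp] at h1
  field_simp
  rw [h1]

end

end Crest.Agent.R272.EXD_429
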