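import Mathlib

/-!
Row 272 (S0414, S0415), division E, leaf E-GB (helper368).
The off-diagonal Gaussian bound: for `|z|, |w| ≤ r < 1`

`(1/2) (|v'|^2 - |v₀|^2) + Re (l_v(z) conj l_v(w) / (1 - z·w̄)) ≥ ((1-r^2)^3 / 256) (|v'|^2 + |v₀|^2)`,

`l_v(z) = v'·z - v₀`.
-/

set_option autoImplicit false

open ComplexConjugate

namespace Crest.Agent.R272.GB_368

variable {V : Type*} [NormedAddCommGroup V] [InnerProductSpace ℂ V]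

/-- the numerator of the squared length of the projection to the span of `z` and `w`. -/
noncomputable def NN (a b ζ : ℂ) : ℝ :=
  Complex.normSq a + Complex.normSq b - 2 * (conj ζ * a * conj b).re

theorem NN_ge (a b ζ : ℂ) :
    (1 - ‖ζ‖) * (Complex.normSq a + Complex.normSq b) ≤ NN a b ζ := by
  have h1 : (conj ζ * a * conj b).re ≤ ‖ζ‖ * (‖a‖ * ‖b‖) := by
    refine (Complex.re_le_norm _).trans ?_
    rw [norm_mul, norm_mul, Complex.norm_conj, Complex.norm_conj, mul_assoc]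
  have h2 : 2 * (‖a‖ * ‖b‖) ≤ Complex.normSq a + Complex.normSq b := by
    rw [Complex.normSq_eq_norm_sq, Complex.normSq_eq_norm_sq]
    nlinarith [sq_nonneg (‖a‖ - ‖b‖)]
  have h3 : 2 * (‖ζ‖ * (‖a‖ * ‖b‖)) ≤ ‖ζ‖ * (Complex.normSq a + Complex.normSq b) := by
    nlinarith [norm_nonneg ζ]
  unfold NN
  linarith

/-- the key estimate (one Cauchy-Schwarz). -/
theorem NN_le {r : ℝ} (hr0 : 0 ≤ r) (hr1 : r < 1) (x z w : V) (hz : ‖z‖ ≤ r) (hw : ‖w‖ ≤ r) :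
    NN (inner ℂ x z) (inner ℂ x w) (inner ℂ w z) ≤
      (1 - ‖(inner ℂ w z : ℂ)‖) * (r ^ 2 + ‖(inner ℂ w z : ℂ)‖) * ‖x‖ ^ 2 := by
  set a : ℂ := inner ℂ x z with ha
  set b : ℂ := inner ℂ x w with hb
  set ζ : ℂ := inner ℂ w z with hζ
  have hγ0 : 0 ≤ ‖ζ‖ := norm_nonneg _
  have hγ : ‖ζ‖ ≤ r ^ 2 := by
    refine (norm_inner_le_norm w z).trans ?_
    rw [sq]
    exact mul_le_mul hw hz (norm_nonneg _) hr0
  have hr2 : r ^ 2 < 1 := by nlinarith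
  set u : V := (conj a - conj ζ * conj b) • z + (conj b - ζ * conj a) • w with hu
  have hxu : (inner ℂ x u : ℂ).re = NN a b ζ := by
    rw [hu, inner_add_right, inner_smul_right, inner_smul_right, ← ha, ← hb]
    unfold NN
    simp only [Complex.normSq_apply, Complex.add_re, Complex.mul_re, Complex.sub_re,
      Complex.sub_im, Complex.conj_re, Complex.conj_im, Complex.mul_im]
    ring
  have hzz : (inner ℂ z z : ℂ) = ((‖z‖ ^ 2 : ℝ) : ℂ) := by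
    rw [inner_self_eq_norm_sq_to_K]; norm_cast
  have hww : (inner ℂ w w : ℂ) = ((‖w‖ ^ 2 : ℝ) : ℂ) := by
    rw [inner_self_eq_norm_sq_to_K]; norm_cast
  have hzw : (inner ℂ z w : ℂ) = conj ζ := by rw [hζ]; exact (inner_conj_symm z w).symm
  have huu : ‖u‖ ^ 2 = Complex.normSq (conj a - conj ζ * conj b) * ‖z‖ ^ 2 +
      Complex.normSq (conj b - ζ * conj a) * ‖w‖ ^ 2 +
      2 * ((a - ζ * b) * (conj b - ζ * conj a) * conj ζ).re := by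
    have h1 : ‖u‖ ^ 2 = (inner ℂ u u : ℂ).re := by
      rw [inner_self_eq_norm_sq_to_K]; norm_cast
    rw [h1, hu]
    simp only [inner_add_left, inner_add_right, inner_smul_left, inner_smul_right, hzz, hww, hzw,
      ← hζ]
    simp only [map_sub, map_mul, Complex.conj_conj, Complex.normSq_apply, Complex.add_re,
      Complex.mul_re, Complex.sub_re, Complex.sub_im, Complex.conj_re, Complex.conj_im,
      Complex.mul_im, Complex.add_im, Complex.ofReal_re, Complex.ofReal_im]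
    ring
  have hγsq : ‖ζ‖ ^ 2 = ζ.re * ζ.re + ζ.im * ζ.im := by
    rw [← Complex.normSq_eq_norm_sq, Complex.normSq_apply]
  have hu_le : ‖u‖ ^ 2 ≤ (Complex.normSq a + Complex.normSq b) * (1 - ‖ζ‖ ^ 2) * (1 - r ^ 2) +
      NN a b ζ * (2 * r ^ 2 - 1 - ‖ζ‖ ^ 2) := by
    have hz2 : ‖z‖ ^ 2 ≤ r ^ 2 := pow_le_pow_left₀ (norm_nonneg _) hz 2
    have hw2 : ‖w‖ ^ 2 ≤ r ^ 2 := pow_le_pow_left₀ (norm_nonneg _) hw 2
    have h1 : Complex.normSq (conj a - conj ζ * conj b) * ‖z‖ ^ 2 ≤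
        Complex.normSq (conj a - conj ζ * conj b) * r ^ 2 :=
      mul_le_mul_of_nonneg_left hz2 (Complex.normSq_nonneg _)
    have h2 : Complex.normSq (conj b - ζ * conj a) * ‖w‖ ^ 2 ≤
        Complex.normSq (conj b - ζ * conj a) * r ^ 2 :=
      mul_le_mul_of_nonneg_left hw2 (Complex.normSq_nonneg _)
    have h3 : Complex.normSq (conj a - conj ζ * conj b) * r ^ 2 +
        Complex.normSq (conj b - ζ * conj a) * r ^ 2 +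
        2 * ((a - ζ * b) * (conj b - ζ * conj a) * conj ζ).re =
        (Complex.normSq a + Complex.normSq b) * (1 - ‖ζ‖ ^ 2) * (1 - r ^ 2) +
          NN a b ζ * (2 * r ^ 2 - 1 - ‖ζ‖ ^ 2) := by
      rw [hγsq]
      unfold NN
      simp only [Complex.normSq_apply, Complex.mul_re, Complex.sub_re,
        Complex.sub_im, Complex.conj_re, Complex.conj_im, Complex.mul_im]
      ring
    rw [huu]
    linarith
  have hNge := NN_ge a b ζ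
  have hA : 0 ≤ Complex.normSq a + Complex.normSq b :=
    add_nonneg (Complex.normSq_nonneg _) (Complex.normSq_nonneg _)
  have hN0 : 0 ≤ NN a b ζ := (mul_nonneg (by linarith) hA).trans hNge
  have hcs : NN a b ζ ≤ ‖x‖ * ‖u‖ := by
    rw [← hxu]
    exact (Complex.re_le_norm _).trans (norm_inner_le_norm x u)
  have hcs2 : NN a b ζ ^ 2 ≤ ‖x‖ ^ 2 * ‖u‖ ^ 2 := by
    rw [← mul_pow]
    exact pow_le_pow_left₀ hN0 hcs 2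
  have hx0 : 0 ≤ ‖x‖ ^ 2 := sq_nonneg _
  have hA2 : (Complex.normSq a + Complex.normSq b) * (1 - ‖ζ‖ ^ 2) * (1 - r ^ 2) ≤
      (1 + ‖ζ‖) * NN a b ζ * (1 - r ^ 2) := by
    refine mul_le_mul_of_nonneg_right ?_ (by linarith)
    nlinarith
  have hfin : NN a b ζ * NN a b ζ ≤
      ((1 - ‖ζ‖) * (r ^ 2 + ‖ζ‖) * ‖x‖ ^ 2) * NN a b ζ := by
    calc NN a b ζ * NN a b ζ = NN a b ζ ^ 2 := by ring
      _ ≤ ‖x‖ ^ 2 * ‖u‖ ^ 2 := hcs2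
      _ ≤ ‖x‖ ^ 2 * ((1 + ‖ζ‖) * NN a b ζ * (1 - r ^ 2) +
          NN a b ζ * (2 * r ^ 2 - 1 - ‖ζ‖ ^ 2)) :=
        mul_le_mul_of_nonneg_left (hu_le.trans (by linarith)) hx0
      _ = ((1 - ‖ζ‖) * (r ^ 2 + ‖ζ‖) * ‖x‖ ^ 2) * NN a b ζ := by ring
  rcases hN0.eq_or_lt with h0 | hpos
  · rw [← h0]
    exact mul_nonneg (mul_nonneg (by linarith) (by positivity)) hx0
  · exact le_of_mul_le_mul_right hfin hpos

/-- the quadratic expression `(1/2)(|x|^2 - |v₀|^2) + Re((a - v₀) conj(b - v₀)/(1 - ζ))`. -/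
noncomputable def QQ (x z w : V) (v0 : ℂ) : ℝ :=
  (1 / 2) * (‖x‖ ^ 2 - ‖v0‖ ^ 2) +
    ((inner ℂ x z - v0) * conj (inner ℂ x w - v0) / (1 - inner ℂ w z)).re

set_option maxHeartbeats 1000000 in
theorem QQ_ge {r : ℝ} (hr0 : 0 ≤ r) (hr1 : r < 1) (x z w : V) (v0 : ℂ)
    (hz : ‖z‖ ≤ r) (hw : ‖w‖ ≤ r) :
    (1 - r ^ 2) ^ 3 / 256 * (‖x‖ ^ 2 + ‖v0‖ ^ 2) ≤ QQ x z w v0 := by
  have hN := NN_le hr0 hr1 x z w hz hw
  unfold QQ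
  set a : ℂ := inner ℂ x z with ha
  set b : ℂ := inner ℂ x w with hb
  set ζ : ℂ := inner ℂ w z with hζ
  have hγ0 : 0 ≤ ‖ζ‖ := norm_nonneg _
  have hγ : ‖ζ‖ ≤ r ^ 2 := by
    refine (norm_inner_le_norm w z).trans ?_
    rw [sq]
    exact mul_le_mul hw hz (norm_nonneg _) hr0
  have hr2 : r ^ 2 < 1 := by nlinarith
  set D : ℝ := Complex.normSq (1 - ζ) with hD
  have hDpos : 0 < D := by
    rw [hD, Complex.normSq_pos]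
    intro h
    have h1 : ζ = 1 := (sub_eq_zero.1 h).symm
    rw [h1, norm_one] at hγ
    linarith
  have hγsq : ‖ζ‖ ^ 2 = ζ.re * ζ.re + ζ.im * ζ.im := by
    rw [← Complex.normSq_eq_norm_sq, Complex.normSq_apply]
  set σ : ℂ := (1 - conj ζ) * a + (1 - ζ) * b with hσ
  set q : ℝ := ((a - v0) * conj (b - v0) / (1 - ζ)).re with hq
  have hqD : q * D = ((a - v0) * conj (b - v0) * (1 - conj ζ)).re := by
    have h1 : (a - v0) * conj (b - v0) / (1 - ζ) * (D : ℂ) =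
        (a - v0) * conj (b - v0) * (1 - conj ζ) := by
      have hne : (1 - ζ : ℂ) ≠ 0 := by
        intro h
        rw [h] at hD
        simp at hD
        linarith
      have h2 : (D : ℂ) = (1 - ζ) * (1 - conj ζ) := by
        rw [hD, ← Complex.mul_conj]
        simp
      rw [h2]
      field_simp
    rw [← h1, hq, Complex.re_mul_ofReal]
  -- the main identity
  have hmain : (1 - ‖ζ‖ ^ 2) * (D * (‖x‖ ^ 2 - ‖v0‖ ^ 2) + 2 * (q * D)) =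
      D * ((1 - ‖ζ‖ ^ 2) * ‖x‖ ^ 2 - NN a b ζ) +
        Complex.normSq ((1 - ‖ζ‖ ^ 2 : ℝ) * v0 - σ) := by
    have hv0 : ‖v0‖ ^ 2 = v0.re * v0.re + v0.im * v0.im := by
      rw [← Complex.normSq_eq_norm_sq, Complex.normSq_apply]
    rw [hqD, hγsq, hv0, hσ, hD]
    unfold NN
    simp only [Complex.normSq_apply, Complex.add_re, Complex.mul_re, Complex.sub_re,
      Complex.sub_im, Complex.conj_re, Complex.conj_im, Complex.mul_im, Complex.add_im,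
      Complex.one_re, Complex.one_im, map_sub, Complex.ofReal_re, Complex.ofReal_im]
    ring
  have hx0 : 0 ≤ ‖x‖ ^ 2 := sq_nonneg _
  have hDle : D ≤ 4 := by
    rw [hD, Complex.normSq_eq_norm_sq]
    have h1 : ‖(1 : ℂ) - ζ‖ ≤ 2 := by
      refine (norm_sub_le _ _).trans ?_
      rw [norm_one]
      linarith
    nlinarith [norm_nonneg ((1 : ℂ) - ζ)]
  set S : ℝ := Complex.normSq ((1 - ‖ζ‖ ^ 2 : ℝ) * v0 - σ) with hS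
  have hS0 : 0 ≤ S := Complex.normSq_nonneg _
  set Y : ℝ := ‖x‖ ^ 2 - ‖v0‖ ^ 2 + 2 * q with hY
  have hY1 : (1 - ‖ζ‖ ^ 2) * D * Y = D * ((1 - ‖ζ‖ ^ 2) * ‖x‖ ^ 2 - NN a b ζ) + S := by
    rw [← hmain, hY]; ring
  set δ : ℝ := 1 - r ^ 2 with hδ
  have hδ0 : 0 < δ := by rw [hδ]; linarith
  have hδ1 : δ ≤ 1 := by rw [hδ]; nlinarith
  have hN2 : (1 - ‖ζ‖) * δ * ‖x‖ ^ 2 ≤ (1 - ‖ζ‖ ^ 2) * ‖x‖ ^ 2 - NN a b ζ := by
    have h1 : (1 - ‖ζ‖ ^ 2) * ‖x‖ ^ 2 - (1 - ‖ζ‖) * (r ^ 2 + ‖ζ‖) * ‖x‖ ^ 2 =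
        (1 - ‖ζ‖) * δ * ‖x‖ ^ 2 := by rw [hδ]; ring
    linarith
  have hP0 : 0 < 1 - ‖ζ‖ ^ 2 := by nlinarith
  have hP1 : 1 - ‖ζ‖ ^ 2 ≤ 1 := by nlinarith
  have hPδ : δ ≤ 1 - ‖ζ‖ ^ 2 := by rw [hδ]; nlinarith
  -- lower bound for `Y`
  have hY2 : δ / 2 * ‖x‖ ^ 2 + S / 4 ≤ Y := by
    have h1 : D * ((1 - ‖ζ‖) * δ * ‖x‖ ^ 2) + S ≤ (1 - ‖ζ‖ ^ 2) * D * Y := by
      rw [hY1]
      have := mul_le_mul_of_nonneg_left hN2 hDpos.le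
      linarith
    have h2 : (1 - ‖ζ‖ ^ 2) * D * (δ / 2 * ‖x‖ ^ 2 + S / 4) ≤
        D * ((1 - ‖ζ‖) * δ * ‖x‖ ^ 2) + S := by
      have h3 : (1 - ‖ζ‖ ^ 2) * (δ / 2 * ‖x‖ ^ 2) ≤ (1 - ‖ζ‖) * δ * ‖x‖ ^ 2 := by
        have : (1 - ‖ζ‖ ^ 2) / 2 ≤ 1 - ‖ζ‖ := by nlinarith
        calc (1 - ‖ζ‖ ^ 2) * (δ / 2 * ‖x‖ ^ 2) = (1 - ‖ζ‖ ^ 2) / 2 * (δ * ‖x‖ ^ 2) := by ring
          _ ≤ (1 - ‖ζ‖) * (δ * ‖x‖ ^ 2) := mul_le_mul_of_nonneg_right this (by positivity)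
          _ = (1 - ‖ζ‖) * δ * ‖x‖ ^ 2 := by ring
      have h4 : (1 - ‖ζ‖ ^ 2) * D * (S / 4) ≤ S := by
        have h41 : (1 - ‖ζ‖ ^ 2) * D ≤ 1 * 4 := mul_le_mul hP1 hDle hDpos.le zero_le_one
        calc (1 - ‖ζ‖ ^ 2) * D * (S / 4) ≤ 1 * 4 * (S / 4) :=
              mul_le_mul_of_nonneg_right h41 (by positivity)
          _ = S := by ring
      calc (1 - ‖ζ‖ ^ 2) * D * (δ / 2 * ‖x‖ ^ 2 + S / 4) =
          D * ((1 - ‖ζ‖ ^ 2) * (δ / 2 * ‖x‖ ^ 2)) + (1 - ‖ζ‖ ^ 2) * D * (S / 4) := by ring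
        _ ≤ D * ((1 - ‖ζ‖) * δ * ‖x‖ ^ 2) + S :=
          add_le_add (mul_le_mul_of_nonneg_left h3 hDpos.le) h4
    have h5 : (1 - ‖ζ‖ ^ 2) * D * (δ / 2 * ‖x‖ ^ 2 + S / 4) ≤ (1 - ‖ζ‖ ^ 2) * D * Y :=
      h2.trans h1
    exact le_of_mul_le_mul_left h5 (mul_pos hP0 hDpos)
  -- bound for `σ`
  have hσn : ‖σ‖ ≤ 4 * ‖x‖ := by
    have h1 : ‖a‖ ≤ ‖x‖ := by
      refine (norm_inner_le_norm x z).trans ?_
      nlinarith [norm_nonneg x, norm_nonneg z]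
    have h2 : ‖b‖ ≤ ‖x‖ := by
      refine (norm_inner_le_norm x w).trans ?_
      nlinarith [norm_nonneg x, norm_nonneg w]
    have h3 : ‖(1 : ℂ) - conj ζ‖ ≤ 2 := by
      refine (norm_sub_le _ _).trans ?_
      rw [norm_one, Complex.norm_conj]
      linarith
    have h4 : ‖(1 : ℂ) - ζ‖ ≤ 2 := by
      refine (norm_sub_le _ _).trans ?_
      rw [norm_one]
      linarith
    calc ‖σ‖ ≤ ‖(1 - conj ζ) * a‖ + ‖(1 - ζ) * b‖ := norm_add_le _ _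
      _ = ‖(1 : ℂ) - conj ζ‖ * ‖a‖ + ‖(1 : ℂ) - ζ‖ * ‖b‖ := by rw [norm_mul, norm_mul]
      _ ≤ 2 * ‖x‖ + 2 * ‖x‖ := by
        gcongr
      _ = 4 * ‖x‖ := by ring
  have hSσ : δ ^ 2 * ‖v0‖ ^ 2 / 2 - 16 * ‖x‖ ^ 2 ≤ S := by
    have h1 : (1 - ‖ζ‖ ^ 2) * ‖v0‖ ≤ ‖((1 - ‖ζ‖ ^ 2 : ℝ) : ℂ) * v0 - σ‖ + ‖σ‖ := by
      have h2 : ‖((1 - ‖ζ‖ ^ 2 : ℝ) : ℂ) * v0‖ = (1 - ‖ζ‖ ^ 2) * ‖v0‖ := by
        rw [norm_mul, Complex.norm_real, Real.norm_of_nonneg hP0.le]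
      rw [← h2]
      calc ‖((1 - ‖ζ‖ ^ 2 : ℝ) : ℂ) * v0‖ = ‖(((1 - ‖ζ‖ ^ 2 : ℝ) : ℂ) * v0 - σ) + σ‖ := by
            congr 1; ring
        _ ≤ _ := norm_add_le _ _
    set m : ℝ := ‖((1 - ‖ζ‖ ^ 2 : ℝ) : ℂ) * v0 - σ‖ with hm
    have hSm : S = m ^ 2 := by rw [hS, hm, Complex.normSq_eq_norm_sq]
    have hm0 : 0 ≤ m := norm_nonneg _
    have h3 : δ * ‖v0‖ ≤ m + 4 * ‖x‖ := by
      have : δ * ‖v0‖ ≤ (1 - ‖ζ‖ ^ 2) * ‖v0‖ := mul_le_mul_of_nonneg_right hPδ (norm_nonneg _)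
      linarith
    have h4 : (δ * ‖v0‖) ^ 2 ≤ (m + 4 * ‖x‖) ^ 2 :=
      pow_le_pow_left₀ (by positivity) h3 2
    rw [hSm]
    have h5 : (m + 4 * ‖x‖) ^ 2 ≤ 2 * m ^ 2 + 32 * ‖x‖ ^ 2 := by
      have := sq_nonneg (m - 4 * ‖x‖)
      linarith [this, show (m + 4 * ‖x‖) ^ 2 + (m - 4 * ‖x‖) ^ 2 = 2 * m ^ 2 + 32 * ‖x‖ ^ 2 by ring]
    have h6 : (δ * ‖v0‖) ^ 2 = δ ^ 2 * ‖v0‖ ^ 2 := by ring
    linarith
  have hfinal : δ ^ 3 / 128 * (‖x‖ ^ 2 + ‖v0‖ ^ 2) ≤ Y := by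
    have h1 : δ / 16 * S ≤ S := by nlinarith
    have h2 : δ / 2 * ‖x‖ ^ 2 + δ / 16 * (δ ^ 2 * ‖v0‖ ^ 2 / 2 - 16 * ‖x‖ ^ 2) / 4 ≤ Y := by
      have h3 : δ / 16 * (δ ^ 2 * ‖v0‖ ^ 2 / 2 - 16 * ‖x‖ ^ 2) ≤ δ / 16 * S :=
        mul_le_mul_of_nonneg_left hSσ (by positivity)
      linarith
    have h4 : δ ^ 3 / 128 * ‖x‖ ^ 2 ≤ δ / 4 * ‖x‖ ^ 2 := by
      refine mul_le_mul_of_nonneg_right ?_ hx0
      have : δ ^ 3 ≤ δ := by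
        calc δ ^ 3 = δ * (δ * δ) := by ring
          _ ≤ δ * 1 := mul_le_mul_of_nonneg_left (by nlinarith) hδ0.le
          _ = δ := mul_one _
      linarith
    calc δ ^ 3 / 128 * (‖x‖ ^ 2 + ‖v0‖ ^ 2) = δ ^ 3 / 128 * ‖x‖ ^ 2 + δ ^ 3 / 128 * ‖v0‖ ^ 2 := by
          ring
      _ ≤ δ / 4 * ‖x‖ ^ 2 + δ ^ 3 / 128 * ‖v0‖ ^ 2 := by linarith
      _ = δ / 2 * ‖x‖ ^ 2 + δ / 16 * (δ ^ 2 * ‖v0‖ ^ 2 / 2 - 16 * ‖x‖ ^ 2) / 4 := by ring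
      _ ≤ Y := h2
  have : (1 / 2) * (‖x‖ ^ 2 - ‖v0‖ ^ 2) + q = Y / 2 := by rw [hY]; ring
  rw [this]
  linarith

/-! ### coordinate forms -/

open scoped BigOperators

section coord

variable {n : ℕ}

/-- the vector with conjugate coordinates. -/
noncomputable def cj (v : EuclideanSpace ℂ (Fin n)) : EuclideanSpace ℂ (Fin n) :=
  WithLp.toLp 2 fun k => conj (v k)

theorem cj_apply (v : EuclideanSpace ℂ (Fin n)) (k : Fin n) : cj v k = conj (v k) := rfl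

theorem norm_cj (v : EuclideanSpace ℂ (Fin n)) : ‖cj v‖ = ‖v‖ := by
  rw [EuclideanSpace.norm_eq, EuclideanSpace.norm_eq]
  congr 1
  exact Finset.sum_congr rfl fun k _ => by rw [cj_apply, Complex.norm_conj]

theorem inner_cj (v z : EuclideanSpace ℂ (Fin n)) : inner ℂ (cj v) z = ∑ k, v k * z k := by
  rw [PiLp.inner_apply]
  refine Finset.sum_congr rfl fun k _ => ?_
  rw [RCLike.inner_apply, cj_apply, Complex.conj_conj, mul_comm]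

theorem inner_eq_sum (w z : EuclideanSpace ℂ (Fin n)) :
    inner ℂ w z = ∑ k, z k * conj (w k) := by
  rw [PiLp.inner_apply]
  refine Finset.sum_congr rfl fun k _ => ?_
  rw [RCLike.inner_apply]

/-- the off-diagonal Gaussian bound. -/
theorem gb {r : ℝ} (hr0 : 0 ≤ r) (hr1 : r < 1) (v z w : EuclideanSpace ℂ (Fin n)) (v0 : ℂ)
    (hz : ‖z‖ ≤ r) (hw : ‖w‖ ≤ r) :
    (1 - r ^ 2) ^ 3 / 256 * (‖v‖ ^ 2 + ‖v0‖ ^ 2) ≤
      (1 / 2) * (‖v‖ ^ 2 - ‖v0‖ ^ 2) +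
        ((∑ k, v k * z k - v0) * conj (∑ k, v k * w k - v0) / (1 - ∑ k, z k * conj (w k))).re := by
  have h := QQ_ge hr0 hr1 (cj v) z w v0 hz hw
  unfold QQ at h
  rwa [norm_cj, inner_cj, inner_cj, inner_eq_sum] at h

/-- the Gaussian bound in the form `|exp(-(π/2) h(v,v) - π R(v;z,w))| ≤ exp(-π c_r |v|^2)`. -/
theorem norm_exp_le {r : ℝ} (hr0 : 0 ≤ r) (hr1 : r < 1) (v z w : EuclideanSpace ℂ (Fin n))
    (v0 : ℂ) (hz : ‖z‖ ≤ r) (hw : ‖w‖ ≤ r) :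
    ‖Complex.exp (-(Real.pi : ℂ) * ((1 / 2 * (‖v‖ ^ 2 - ‖v0‖ ^ 2) : ℝ) +
      (∑ k, v k * z k - v0) * conj (∑ k, v k * w k - v0) / (1 - ∑ k, z k * conj (w k))))‖ ≤
      Real.exp (-(Real.pi * ((1 - r ^ 2) ^ 3 / 256) * (‖v‖ ^ 2 + ‖v0‖ ^ 2))) := by
  rw [Complex.norm_exp]
  refine Real.exp_le_exp.2 ?_
  have h := gb hr0 hr1 v z w v0 hz hw
  have h1 : (-(Real.pi : ℂ) * ((1 / 2 * (‖v‖ ^ 2 - ‖v0‖ ^ 2) : ℝ) +
      (∑ k, v k * z k - v0) * conj (∑ k, v k * w k - v0) / (1 - ∑ k, z k * conj (w k)))).re =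
      -(Real.pi * ((1 / 2) * (‖v‖ ^ 2 - ‖v0‖ ^ 2) +
        ((∑ k, v k * z k - v0) * conj (∑ k, v k * w k - v0) /
          (1 - ∑ k, z k * conj (w k))).re)) := by
    rw [← Complex.ofReal_neg, Complex.re_ofReal_mul, Complex.add_re, Complex.ofReal_re]
    ring
  rw [h1]
  have := mul_le_mul_of_nonneg_left h Real.pi_pos.le
  linarith

/-- on the diagonal: `R(v;z,z) ≥ c_r |v|^2 - h(v,v)/2`. -/
theorem gb_diag {r : ℝ} (hr0 : 0 ≤ r) (hr1 : r < 1) (v z : EuclideanSpace ℂ (Fin n)) (v0 : ℂ)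
    (hz : ‖z‖ ≤ r) :
    (1 - r ^ 2) ^ 3 / 256 * (‖v‖ ^ 2 + ‖v0‖ ^ 2) - (1 / 2) * (‖v‖ ^ 2 - ‖v0‖ ^ 2) ≤
        ‖∑ k, v k * z k - v0‖ ^ 2 / (1 - ‖z‖ ^ 2) := by
  have h := gb hr0 hr1 v z z v0 hz hz
  have h1 : (∑ k, z k * conj (z k) : ℂ) = ((‖z‖ ^ 2 : ℝ) : ℂ) := by
    rw [← inner_eq_sum, inner_self_eq_norm_sq_to_K]; norm_cast
  have h2 : ((∑ k, v k * z k - v0) * conj (∑ k, v k * z k - v0) /
      (1 - ∑ k, z k * conj (z k))).re = ‖∑ k, v k * z k - v0‖ ^ 2 / (1 - ‖z‖ ^ 2) := by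
    rw [h1, Complex.mul_conj, Complex.normSq_eq_norm_sq]
    norm_cast
  rw [h2] at h
  linarith

/-- with `w = 0`: `Re (|v₀|^2 - conj v₀ (v'·z)) ≥ (1 - r) |v₀|^2 - r m / 2`. -/
theorem re_zero_ge {r m : ℝ} (hr0 : 0 ≤ r) (v z : EuclideanSpace ℂ (Fin n)) (v0 : ℂ)
    (hm : ‖v‖ ^ 2 - ‖v0‖ ^ 2 = m) (hz : ‖z‖ ≤ r) :
    (1 - r) * ‖v0‖ ^ 2 - r * m / 2 ≤ ((‖v0‖ ^ 2 : ℝ) - conj v0 * ∑ k, v k * z k : ℂ).re := by
  have h1 : (conj v0 * ∑ k, v k * z k : ℂ).re ≤ ‖v0‖ * (‖v‖ * r) := by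
    refine (Complex.re_le_norm _).trans ?_
    rw [norm_mul, Complex.norm_conj, ← inner_cj]
    refine mul_le_mul_of_nonneg_left ?_ (norm_nonneg _)
    refine (norm_inner_le_norm _ _).trans ?_
    rw [norm_cj]
    exact mul_le_mul_of_nonneg_left hz (norm_nonneg _)
  have h2 : ‖v0‖ * ‖v‖ ≤ ‖v0‖ ^ 2 + m / 2 := by
    nlinarith [sq_nonneg (‖v‖ - ‖v0‖)]
  have h3 : ‖v0‖ * (‖v‖ * r) ≤ r * (‖v0‖ ^ 2 + m / 2) := by
    calc ‖v0‖ * (‖v‖ * r) = r * (‖v0‖ * ‖v‖) := by ring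
      _ ≤ _ := mul_le_mul_of_nonneg_left h2 hr0
  rw [Complex.sub_re, Complex.ofReal_re]
  linarith

end coord

end Crest.Agent.R272.GB_368
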