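import Crest.Agent.R272.Pol3_898
import Crest.Agent.R272.EPolDefs_429
import Crest.Agent.R272.EBase2_641
import Crest.Agent.R272.GB_368

/-!
Row 272, (E): `Psi` is the double integral of the polarized kernel `K2` along segments
(FTC twice) and the resulting Gaussian bound.
-/
set_option autoImplicit false

namespace Crest.Agent.R272.Pol_898

open Complex Set Filter Topology MeasureTheory
open scoped ComplexConjugate Real
open Crest.Agent.R272.EBase_641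
open Crest.Agent.R272.EPol_429 (sp R2 om2 K2)

noncomputable section

variable {n : ℕ}

theorem sp_eq (z w : E n) : sp z w = qq z w := rfl
theorem R2_eq (v : V1 n) (z w : E n) : R2 v z w = RR v z w := rfl
theorem Kp_eq (v : V1 n) (z w X Y : E n) : EBase2_641.Kp v z w X Y = K2 v z w X Y := rfl

theorem K2_eq_kerS (v : V1 n) (z w X Y : E n) :
    K2 v z w X Y = kerS (lin v z) (inner ℂ v.1 X) (conj (lin v w)) (conj (inner ℂ v.1 Y)) (qq z w)
      (-inner ℂ w X) (-inner ℂ Y z) (-inner ℂ Y X) := by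
  simp only [K2, kerS, om2, R2, sp_eq]
  by_cases h : qq z w = 0
  · simp [h]
  · congr 1
    · ring_nf
    · field_simp; ring

/-- segment from `p` to `z` -/
def seg (p z : E n) (s : ℝ) : E n := p + (s : ℂ) • (z - p)

theorem seg_zero (p z : E n) : seg p z 0 = p := by simp [seg]
theorem seg_one (p z : E n) : seg p z 1 = z := by simp [seg]

theorem norm_seg_le {r : ℝ} {p z : E n} (hp : ‖p‖ ≤ r) (hz : ‖z‖ ≤ r) {s : ℝ}
    (hs : s ∈ Icc (0:ℝ) 1) : ‖seg p z s‖ ≤ r := by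
  have h1 : seg p z s = ((1 - s : ℝ) : ℂ) • p + (s : ℂ) • z := by
    simp only [seg, smul_sub]; push_cast; rw [sub_smul, one_smul]; abel
  rw [h1]
  refine (norm_add_le _ _).trans ?_
  rw [norm_smul, norm_smul, norm_real, norm_real, Real.norm_of_nonneg hs.1,
    Real.norm_of_nonneg (by linarith [hs.2])]
  nlinarith [hs.1, hs.2]

theorem seg_mem {p z : E n} (hp : p ∈ Ball n) (hz : z ∈ Ball n) {s : ℝ}
    (hs : s ∈ Icc (0:ℝ) 1) : seg p z s ∈ Ball n := by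
  rw [mem_Ball] at *
  have := norm_seg_le (r := max ‖p‖ ‖z‖) (le_max_left _ _) (le_max_right _ _) hs
  exact lt_of_le_of_lt this (max_lt hp hz)

theorem lin_seg (v : V1 n) (p z : E n) (s : ℝ) :
    lin v (seg p z s) = lin v p + s * inner ℂ v.1 (z - p) := by
  simp only [lin, seg, inner_add_right, inner_smul_right]; ring

theorem qq_seg (p z p' w : E n) (s t : ℝ) :
    qq (seg p z s) (seg p' w t) = qq p p' - s * inner ℂ p' (z - p) - t * inner ℂ (w - p') p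
      - s * t * inner ℂ (w - p') (z - p) := by
  simp only [qq, seg, inner_add_right, inner_smul_right, inner_add_left, inner_smul_left,
    conj_ofReal]; ring

theorem hasDerivAt_lin_seg (v : V1 n) (p z : E n) (s : ℝ) :
    HasDerivAt (fun s : ℝ => lin v (seg p z s)) (inner ℂ v.1 (z - p)) s := by
  simp only [lin_seg]
  have h : HasDerivAt (fun s : ℝ => (s : ℂ)) 1 s := ofRealCLM.hasDerivAt
  simpa using (h.mul_const (inner ℂ v.1 (z - p))).const_add (lin v p)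

theorem hasDerivAt_conj_lin_seg (v : V1 n) (p w : E n) (t : ℝ) :
    HasDerivAt (fun t : ℝ => conj (lin v (seg p w t))) (conj (inner ℂ v.1 (w - p))) t := by
  have : (fun t : ℝ => conj (lin v (seg p w t)))
      = fun t : ℝ => conj (lin v p) + t * conj (inner ℂ v.1 (w - p)) := by
    funext t; rw [lin_seg]; simp
  rw [this]
  have h : HasDerivAt (fun s : ℝ => (s : ℂ)) 1 t := ofRealCLM.hasDerivAt
  simpa using (h.mul_const (conj (inner ℂ v.1 (w - p)))).const_add (conj (lin v p))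

theorem hasDerivAt_qq_seg1 (p z w : E n) (s : ℝ) :
    HasDerivAt (fun s : ℝ => qq (seg p z s) w) (-inner ℂ w (z - p)) s := by
  have : (fun s : ℝ => qq (seg p z s) w) = fun s : ℝ => qq p w - s * inner ℂ w (z - p) := by
    funext s; simp only [qq, seg, inner_add_right, inner_smul_right]; ring
  rw [this]
  have h : HasDerivAt (fun s : ℝ => (s : ℂ)) 1 s := ofRealCLM.hasDerivAt
  simpa using (h.mul_const (inner ℂ w (z - p))).const_sub (qq p w)

theorem hasDerivAt_qq_seg2 (z p w : E n) (t : ℝ) :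
    HasDerivAt (fun t : ℝ => qq z (seg p w t)) (-inner ℂ (w - p) z) t := by
  have : (fun t : ℝ => qq z (seg p w t)) = fun t : ℝ => qq z p - t * inner ℂ (w - p) z := by
    funext t; simp only [qq, seg, inner_add_left, inner_smul_left, conj_ofReal]; ring
  rw [this]
  have h : HasDerivAt (fun s : ℝ => (s : ℂ)) 1 t := ofRealCLM.hasDerivAt
  simpa using (h.mul_const (inner ℂ (w - p) z)).const_sub (qq z p)

theorem hasDerivAt_inner_seg (p w X : E n) (t : ℝ) :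
    HasDerivAt (fun t : ℝ => -(inner ℂ (seg p w t) X : ℂ)) (-inner ℂ (w - p) X) t := by
  have : (fun t : ℝ => -(inner ℂ (seg p w t) X : ℂ))
      = fun t : ℝ => -inner ℂ p X - t * inner ℂ (w - p) X := by
    funext t; simp only [seg, inner_add_left, inner_smul_left, conj_ofReal]; ring
  rw [this]
  have h : HasDerivAt (fun s : ℝ => (s : ℂ)) 1 t := ofRealCLM.hasDerivAt
  simpa using (h.mul_const (inner ℂ (w - p) X)).const_sub (-inner ℂ p X)

variable {Ein : ℂ → ℂ}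

/-- the derivative of `-QQ` in the direction `X` -/
def D1 (Ein : ℂ → ℂ) (v : V1 n) (z w X : E n) : ℂ :=
  π * deriv Ein (π * (lin v z * conj (lin v w) / qq z w)) *
    (conj (lin v w) / qq z w * (inner ℂ v.1 X - lin v z * (-inner ℂ w X) / qq z w))
    + (-inner ℂ w X) / qq z w

theorem hasDerivAt_QQ_seg (h : EinLike Ein) (v : V1 n) {p z w : E n} (hp : p ∈ Ball n)
    (hz : z ∈ Ball n) (hw : w ∈ Ball n) {s : ℝ} (hs : s ∈ Icc (0:ℝ) 1) :
    HasDerivAt (fun s : ℝ => QQ Ein v (seg p z s) w) (- D1 Ein v (seg p z s) w (z - p)) s := by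
  have h1 := hasDerivAt_pot1 h (b := conj (lin v w)) (hasDerivAt_lin_seg v p z s)
    (hasDerivAt_qq_seg1 p z w s) (qq_slit (seg_mem hp hz hs) hw)
  refine (h1.neg).congr_of_eventuallyEq (Eventually.of_forall fun s => ?_)
  simp only [QQ, RR, Pi.neg_apply]; ring

theorem hasDerivAt_D1_seg (h : EinLike Ein) (v : V1 n) {p z w : E n} (X : E n) (hp : p ∈ Ball n)
    (hz : z ∈ Ball n) (hw : w ∈ Ball n) {t : ℝ} (ht : t ∈ Icc (0:ℝ) 1) :
    HasDerivAt (fun t : ℝ => D1 Ein v z (seg p w t) X) (- K2 v z (seg p w t) X (w - p)) t := by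
  have h1 := hasDerivAt_pot2 h (a := lin v z) (a1 := inner ℂ v.1 X)
    (hasDerivAt_conj_lin_seg v p w t) (hasDerivAt_qq_seg2 z p w t) (hasDerivAt_inner_seg p w X t)
    (qq_ne hz (seg_mem hp hw ht))
  rw [K2_eq_kerS]
  exact h1

theorem continuous_seg (p z : E n) : Continuous (seg p z) := by
  unfold seg
  exact continuous_const.add ((continuous_ofReal).smul continuous_const)

theorem continuous_lin (v : V1 n) : Continuous (lin v) := (differentiable_lin v).continuous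

theorem continuousOn_K2 (v : V1 n) (X Y : E n) :
    ContinuousOn (fun x : E n × E n => K2 v x.1 x.2 X Y) (Ball n ×ˢ Ball n) := by
  have hq : ContinuousOn (fun x : E n × E n => sp x.1 x.2) (Ball n ×ˢ Ball n) :=
    continuous_qq.continuousOn
  have hq0 : ∀ x ∈ Ball n ×ˢ Ball n, sp x.1 x.2 ≠ 0 := fun x hx => qq_ne hx.1 hx.2
  have hl1 : ContinuousOn (fun x : E n × E n => lin v x.1) (Ball n ×ˢ Ball n) :=
    ((continuous_lin v).comp continuous_fst).continuousOn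
  have hl2 : ContinuousOn (fun x : E n × E n => conj (lin v x.2)) (Ball n ×ˢ Ball n) :=
    (continuous_conj.comp ((continuous_lin v).comp continuous_snd)).continuousOn
  have hi1 : ContinuousOn (fun x : E n × E n => (inner ℂ x.2 X : ℂ)) (Ball n ×ˢ Ball n) :=
    (continuous_inner.comp (continuous_snd.prodMk continuous_const)).continuousOn
  have hi2 : ContinuousOn (fun x : E n × E n => (inner ℂ Y x.1 : ℂ)) (Ball n ×ˢ Ball n) :=
    (continuous_inner.comp (continuous_const.prodMk continuous_fst)).continuousOn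
  unfold K2 R2 om2
  refine ContinuousOn.mul ?_ (ContinuousOn.sub ?_ ?_)
  · exact (continuousOn_const.mul ((hl1.mul hl2).div hq hq0)).cexp
  · exact (continuousOn_const.div hq hq0).add ((hi1.mul hi2).div (hq.pow 2)
      fun x hx => pow_ne_zero _ (hq0 x hx))
  · refine continuousOn_const.mul (ContinuousOn.div (ContinuousOn.mul ?_ ?_) hq hq0)
    · exact continuousOn_const.add ((hl1.mul hi1).div hq hq0)
    · exact continuousOn_const.add ((hl2.mul hi2).div hq hq0)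

theorem continuousOn_D1 (h : EinLike Ein) (v : V1 n) (X w : E n) (hw : w ∈ Ball n) :
    ContinuousOn (fun z : E n => D1 Ein v z w X) (Ball n) := by
  have hq : ContinuousOn (fun z : E n => qq z w) (Ball n) :=
    (continuous_qq.comp (continuous_id.prodMk continuous_const)).continuousOn
  have hq0 : ∀ z ∈ Ball n, qq z w ≠ 0 := fun z hz => qq_ne hz hw
  have hl1 : ContinuousOn (fun z : E n => lin v z) (Ball n) := (continuous_lin v).continuousOn
  unfold D1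
  refine ContinuousOn.add (ContinuousOn.mul (continuousOn_const.mul ?_) ?_)
    (continuousOn_const.div hq hq0)
  · exact h.diff'.continuous.comp_continuousOn
      (continuousOn_const.mul ((hl1.mul continuousOn_const).div hq hq0))
  · refine ContinuousOn.mul (continuousOn_const.div hq hq0) ?_
    exact continuousOn_const.sub ((hl1.mul continuousOn_const).div hq hq0)

/-- **kernel formula**: `Psi` is the double integral of the polarized kernel. -/
theorem Psi_eq_integral (h : EinLike Ein) (v : V1 n) {p z w : E n} (hp : p ∈ Ball n)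
    (hz : z ∈ Ball n) (hw : w ∈ Ball n) :
    Psi Ein p v z w = ∫ s in (0:ℝ)..1, ∫ t in (0:ℝ)..1,
      K2 v (seg p z s) (seg p w t) (z - p) (w - p) := by
  have hIcc : uIcc (0:ℝ) 1 = Icc 0 1 := uIcc_of_le zero_le_one
  -- FTC in `s`
  have key : ∀ w' ∈ Ball n, ∫ s in (0:ℝ)..1, - D1 Ein v (seg p z s) w' (z - p)
      = QQ Ein v z w' - QQ Ein v p w' := by
    intro w' hw'
    have h1 := intervalIntegral.integral_eq_sub_of_hasDerivAt
      (f := fun s : ℝ => QQ Ein v (seg p z s) w')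
      (f' := fun s : ℝ => - D1 Ein v (seg p z s) w' (z - p)) (a := 0) (b := 1)
      (fun s hs => hasDerivAt_QQ_seg h v hp hz hw' (by rwa [hIcc] at hs)) ?_
    · rw [h1, seg_zero, seg_one]
    · refine ContinuousOn.intervalIntegrable ?_
      rw [hIcc]
      exact ((continuousOn_D1 h v (z - p) w' hw').comp (continuous_seg p z).continuousOn
        fun s hs => seg_mem hp hz hs).neg
  have key2 : ∀ s ∈ Icc (0:ℝ) 1, ∫ t in (0:ℝ)..1, K2 v (seg p z s) (seg p w t) (z - p) (w - p)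
      = - D1 Ein v (seg p z s) w (z - p) - - D1 Ein v (seg p z s) p (z - p) := by
    intro s hs
    have hzs := seg_mem hp hz hs
    have h1 := intervalIntegral.integral_eq_sub_of_hasDerivAt
      (f := fun t : ℝ => - D1 Ein v (seg p z s) (seg p w t) (z - p))
      (f' := fun t : ℝ => K2 v (seg p z s) (seg p w t) (z - p) (w - p)) (a := 0) (b := 1)
      (fun t ht => ?_) ?_
    · rw [h1, seg_zero, seg_one]
    · exact (hasDerivAt_D1_seg h v (z - p) hp hzs hw (by rwa [hIcc] at ht)).fun_neg.congr_deriv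
        (neg_neg _)
    · refine ContinuousOn.intervalIntegrable ?_
      rw [hIcc]
      refine (continuousOn_K2 v (z - p) (w - p)).comp
        (f := fun t : ℝ => (seg p z s, seg p w t)) ?_ fun t ht => ⟨hzs, seg_mem hp hw ht⟩
      exact (continuous_const.prodMk (continuous_seg p w)).continuousOn
  have hint : ∀ w' ∈ Ball n, IntervalIntegrable (fun s : ℝ => - D1 Ein v (seg p z s) w' (z - p))
      volume 0 1 := by
    intro w' hw'
    refine ContinuousOn.intervalIntegrable ?_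
    rw [hIcc]
    exact ((continuousOn_D1 h v (z - p) w' hw').comp (continuous_seg p z).continuousOn
        fun s hs => seg_mem hp hz hs).neg
  rw [intervalIntegral.integral_congr (g := fun s =>
    - D1 Ein v (seg p z s) w (z - p) - - D1 Ein v (seg p z s) p (z - p))
    (fun s hs => key2 s (by rwa [hIcc] at hs)),
    intervalIntegral.integral_sub (hint w hw) (hint p hp), key w hw, key p hp]
  simp only [Psi, dd]; ring

/-! ### Gaussian bound -/

/-- total squared norm at the distinguished place -/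
def N1 (v : V1 n) : ℝ := ‖v.1‖ ^ 2 + ‖v.2‖ ^ 2

theorem N1_nonneg (v : V1 n) : 0 ≤ N1 v := by unfold N1; positivity

theorem norm_le_of_sq {a b : ℝ} (hb : 0 ≤ b) (h : a ^ 2 ≤ b ^ 2) : a ≤ b := by
  nlinarith [sq_nonneg (a + b), sq_nonneg (a - b)]

theorem le_qq {r : ℝ} {z w : E n} (hz : ‖z‖ ≤ r) (hw : ‖w‖ ≤ r) :
    1 - r ^ 2 ≤ ‖qq z w‖ := by
  have h1 : ‖(inner ℂ w z : ℂ)‖ ≤ r ^ 2 := by
    refine (norm_inner_le_norm w z).trans ?_
    nlinarith [norm_nonneg z, norm_nonneg w]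
  have h2 : 1 ≤ ‖qq z w‖ + ‖(inner ℂ w z : ℂ)‖ := by
    have : (1:ℂ) = qq z w + inner ℂ w z := by simp [qq]
    calc (1:ℝ) = ‖(1:ℂ)‖ := by simp
      _ = ‖qq z w + inner ℂ w z‖ := by rw [← this]
      _ ≤ _ := norm_add_le _ _
  linarith

theorem norm_lin_le (v : V1 n) {z : E n} (hz : ‖z‖ ≤ 1) : ‖lin v z‖ ≤ ‖v.1‖ + ‖v.2‖ := by
  unfold lin
  refine (norm_sub_le _ _).trans ?_
  rw [RCLike.norm_conj]
  have := norm_inner_le_norm (𝕜 := ℂ) v.1 z
  nlinarith [norm_nonneg v.1]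

/-- the algebraic factor of `K2` -/
theorem norm_K2_le {r : ℝ} (_hr0 : 0 ≤ r) (hr1 : r < 1) (v : V1 n) (X Y : E n) {z w : E n}
    (hz : ‖z‖ ≤ r) (hw : ‖w‖ ≤ r) :
    ‖K2 v z w X Y‖ ≤ Real.exp (-π * (RR v z w).re) *
      (8 * π / (1 - r ^ 2) ^ 3 * (1 + N1 v) * (‖X‖ * ‖Y‖)) := by
  have hd0 : 0 < 1 - r ^ 2 := by nlinarith
  have hd1 : 1 - r ^ 2 ≤ 1 := by nlinarith
  set d := 1 - r ^ 2 with hd
  have hq : d ≤ ‖sp z w‖ := le_qq hz hw
  have hqi : ‖sp z w‖⁻¹ ≤ d⁻¹ := inv_anti₀ hd0 hq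
  have hqi0 : 0 ≤ ‖sp z w‖⁻¹ := by positivity
  have hdi : 1 ≤ d⁻¹ := (one_le_inv₀ hd0).2 hd1
  have hz1 : ‖z‖ ≤ 1 := hz.trans hr1.le
  have hw1 : ‖w‖ ≤ 1 := hw.trans hr1.le
  have hX := norm_nonneg X
  have hY := norm_nonneg Y
  have hwX : ‖(inner ℂ w X : ℂ)‖ ≤ ‖X‖ := by
    refine (norm_inner_le_norm w X).trans ?_; nlinarith
  have hYz : ‖(inner ℂ Y z : ℂ)‖ ≤ ‖Y‖ := by
    refine (norm_inner_le_norm Y z).trans ?_; nlinarith
  have hYX : ‖(inner ℂ Y X : ℂ)‖ ≤ ‖X‖ * ‖Y‖ := by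
    refine (norm_inner_le_norm Y X).trans ?_; nlinarith
  have h1 : ‖om2 z w X Y‖ ≤ 2 * d⁻¹ ^ 2 * (‖X‖ * ‖Y‖) := by
    unfold om2
    refine (norm_add_le _ _).trans ?_
    rw [norm_div, norm_div, norm_mul, norm_pow, div_eq_mul_inv, div_eq_mul_inv, ← inv_pow]
    have e1 : ‖(inner ℂ Y X : ℂ)‖ * ‖sp z w‖⁻¹ ≤ (‖X‖ * ‖Y‖) * d⁻¹ ^ 2 := by
      refine mul_le_mul hYX ?_ hqi0 (by positivity)
      exact hqi.trans (by nlinarith)
    have e2 : ‖(inner ℂ w X : ℂ)‖ * ‖(inner ℂ Y z : ℂ)‖ * ‖sp z w‖⁻¹ ^ 2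
        ≤ (‖X‖ * ‖Y‖) * d⁻¹ ^ 2 := by
      refine mul_le_mul ?_ (pow_le_pow_left₀ hqi0 hqi 2) (by positivity) (by positivity)
      exact mul_le_mul hwX hYz (norm_nonneg _) hX
    linarith
  have hA : ‖inner ℂ v.1 X + lin v z * inner ℂ w X / sp z w‖ ≤
      2 * (‖v.1‖ + ‖v.2‖) * d⁻¹ * ‖X‖ := by
    refine (norm_add_le _ _).trans ?_
    rw [norm_div, norm_mul, div_eq_mul_inv]
    have e1 : ‖(inner ℂ v.1 X : ℂ)‖ ≤ (‖v.1‖ + ‖v.2‖) * d⁻¹ * ‖X‖ := by
      refine (norm_inner_le_norm _ _).trans ?_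
      refine mul_le_mul_of_nonneg_right ?_ hX
      nlinarith [norm_nonneg v.1, norm_nonneg v.2]
    have e2 : ‖lin v z‖ * ‖(inner ℂ w X : ℂ)‖ * ‖sp z w‖⁻¹ ≤ (‖v.1‖ + ‖v.2‖) * ‖X‖ * d⁻¹ :=
      mul_le_mul (mul_le_mul (norm_lin_le v hz1) hwX (norm_nonneg _) (by positivity)) hqi hqi0
        (by positivity)
    nlinarith
  have hB : ‖conj (inner ℂ v.1 Y : ℂ) + conj (lin v w) * inner ℂ Y z / sp z w‖ ≤
      2 * (‖v.1‖ + ‖v.2‖) * d⁻¹ * ‖Y‖ := by
    refine (norm_add_le _ _).trans ?_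
    rw [norm_div, norm_mul, div_eq_mul_inv, RCLike.norm_conj, RCLike.norm_conj]
    have e1 : ‖(inner ℂ v.1 Y : ℂ)‖ ≤ (‖v.1‖ + ‖v.2‖) * d⁻¹ * ‖Y‖ := by
      refine (norm_inner_le_norm _ _).trans ?_
      refine mul_le_mul_of_nonneg_right ?_ hY
      nlinarith [norm_nonneg v.1, norm_nonneg v.2]
    have e2 : ‖lin v w‖ * ‖(inner ℂ Y z : ℂ)‖ * ‖sp z w‖⁻¹ ≤ (‖v.1‖ + ‖v.2‖) * ‖Y‖ * d⁻¹ :=
      mul_le_mul (mul_le_mul (norm_lin_le v hw1) hYz (norm_nonneg _) (by positivity)) hqi hqi0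
        (by positivity)
    nlinarith
  have h2 : ‖(inner ℂ v.1 X + lin v z * inner ℂ w X / sp z w) *
      (conj (inner ℂ v.1 Y : ℂ) + conj (lin v w) * inner ℂ Y z / sp z w) / sp z w‖ ≤
      8 * N1 v * d⁻¹ ^ 3 * (‖X‖ * ‖Y‖) := by
    rw [norm_div, norm_mul, div_eq_mul_inv]
    have e1 := mul_le_mul (mul_le_mul hA hB (norm_nonneg _) (by positivity)) hqi hqi0
      (by positivity)
    refine e1.trans ?_
    have e2 : (‖v.1‖ + ‖v.2‖) ^ 2 ≤ 2 * N1 v := by unfold N1; nlinarith [sq_nonneg (‖v.1‖ - ‖v.2‖)]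
    have e3 : 2 * (‖v.1‖ + ‖v.2‖) * d⁻¹ * ‖X‖ * (2 * (‖v.1‖ + ‖v.2‖) * d⁻¹ * ‖Y‖) * d⁻¹
        = (‖v.1‖ + ‖v.2‖) ^ 2 * (4 * d⁻¹ ^ 3 * (‖X‖ * ‖Y‖)) := by ring
    rw [e3]
    calc (‖v.1‖ + ‖v.2‖) ^ 2 * (4 * d⁻¹ ^ 3 * (‖X‖ * ‖Y‖))
        ≤ (2 * N1 v) * (4 * d⁻¹ ^ 3 * (‖X‖ * ‖Y‖)) := mul_le_mul_of_nonneg_right e2 (by positivity)
      _ = _ := by ring
  unfold K2
  rw [norm_mul, norm_exp]
  have e0 : (-(π:ℂ) * R2 v z w).re = -π * (RR v z w).re := by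
    rw [R2_eq, ← ofReal_neg, re_ofReal_mul]
  rw [e0]
  refine mul_le_mul_of_nonneg_left ?_ (Real.exp_nonneg _)
  refine (norm_sub_le _ _).trans ?_
  rw [norm_mul, norm_real, Real.norm_of_nonneg Real.pi_pos.le]
  have hN := N1_nonneg v
  have hXY : 0 ≤ ‖X‖ * ‖Y‖ := by positivity
  have hdi3 : d⁻¹ ^ 2 ≤ d⁻¹ ^ 3 := pow_le_pow_right₀ hdi (by norm_num)
  have hd3 : 8 * π / d ^ 3 = 8 * π * d⁻¹ ^ 3 := by rw [inv_pow]; ring
  rw [hd3]
  have hpi := Real.pi_gt_three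
  have e4 : π * ‖(inner ℂ v.1 X + lin v z * inner ℂ w X / sp z w) *
      (conj (inner ℂ v.1 Y : ℂ) + conj (lin v w) * inner ℂ Y z / sp z w) / sp z w‖
      ≤ π * (8 * N1 v * d⁻¹ ^ 3 * (‖X‖ * ‖Y‖)) := mul_le_mul_of_nonneg_left h2 Real.pi_pos.le
  have e5 : 2 * d⁻¹ ^ 2 * (‖X‖ * ‖Y‖) ≤ 8 * π * d⁻¹ ^ 3 * (‖X‖ * ‖Y‖) := by
    refine mul_le_mul_of_nonneg_right ?_ hXY
    have : 0 ≤ d⁻¹ ^ 3 := by positivity
    nlinarith
  calc _ ≤ 8 * π * d⁻¹ ^ 3 * (‖X‖ * ‖Y‖) + π * (8 * N1 v * d⁻¹ ^ 3 * (‖X‖ * ‖Y‖)) :=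
        add_le_add (h1.trans e5) e4
    _ = _ := by ring

/-- Gaussian decay constant -/
def cr (r : ℝ) : ℝ := π * (1 - r ^ 2) ^ 3 / 256

theorem cr_pos {r : ℝ} (hr0 : 0 ≤ r) (hr1 : r < 1) : 0 < cr r := by
  have : 0 < 1 - r ^ 2 := by nlinarith
  unfold cr; positivity

theorem cr_le {r : ℝ} (hr0 : 0 ≤ r) (hr1 : r < 1) : cr r ≤ π / 2 := by
  have h1 : 0 < 1 - r ^ 2 := by nlinarith
  have h2 : 1 - r ^ 2 ≤ 1 := by nlinarith
  have h3 : (1 - r ^ 2) ^ 3 ≤ 1 := pow_le_one₀ h1.le h2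
  unfold cr
  have := Real.pi_pos
  nlinarith

/-- (GB) in the language of `EBase_641` -/
theorem gb_RR {r : ℝ} (hr0 : 0 ≤ r) (hr1 : r < 1) (v : V1 n) {z w : E n}
    (hz : ‖z‖ ≤ r) (hw : ‖w‖ ≤ r) :
    cr r * N1 v ≤ π / 2 * (‖v.1‖ ^ 2 - ‖v.2‖ ^ 2) + π * (RR v z w).re := by
  have h := GB_368.QQ_ge hr0 hr1 v.1 z w (conj v.2) hz hw
  unfold GB_368.QQ at h
  rw [RCLike.norm_conj] at h
  have e : ((inner ℂ v.1 z - conj v.2) * conj (inner ℂ v.1 w - conj v.2) / (1 - inner ℂ w z) : ℂ)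
      = RR v z w := rfl
  rw [e] at h
  have := mul_le_mul_of_nonneg_left h Real.pi_pos.le
  unfold cr N1
  nlinarith

theorem wt_mul_exp_le {m : ℕ} {r : ℝ} (hr0 : 0 ≤ r) (hr1 : r < 1) (v : V1 n × W m) {z w : E n}
    (hz : ‖z‖ ≤ r) (hw : ‖w‖ ≤ r) :
    wt v * Real.exp (-π * (RR v.1 z w).re) ≤ Real.exp (-cr r * (N1 v.1 + ‖v.2‖ ^ 2)) := by
  unfold wt
  rw [← Real.exp_add]
  refine Real.exp_le_exp.2 ?_
  have h1 := gb_RR hr0 hr1 v.1 hz hw
  have h2 := cr_le hr0 hr1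
  nlinarith [sq_nonneg ‖v.2‖]

/-- bound for the kernel -/
theorem norm_wt_K2_le {m : ℕ} {r : ℝ} (hr0 : 0 ≤ r) (hr1 : r < 1) (v : V1 n × W m) (X Y : E n)
    {z w : E n} (hz : ‖z‖ ≤ r) (hw : ‖w‖ ≤ r) :
    ‖(wt v : ℂ) * K2 v.1 z w X Y‖ ≤ 8 * π / (1 - r ^ 2) ^ 3 * (1 + N1 v.1) *
      Real.exp (-cr r * (N1 v.1 + ‖v.2‖ ^ 2)) * (‖X‖ * ‖Y‖) := by
  have hw0 : 0 ≤ wt v := by unfold wt; positivity
  have hd0 : 0 < 1 - r ^ 2 := by nlinarith
  have hN := N1_nonneg v.1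
  rw [norm_mul, norm_real, Real.norm_of_nonneg hw0]
  calc wt v * ‖K2 v.1 z w X Y‖
      ≤ wt v * (Real.exp (-π * (RR v.1 z w).re) *
        (8 * π / (1 - r ^ 2) ^ 3 * (1 + N1 v.1) * (‖X‖ * ‖Y‖))) :=
        mul_le_mul_of_nonneg_left (norm_K2_le hr0 hr1 v.1 X Y hz hw) hw0
    _ = (wt v * Real.exp (-π * (RR v.1 z w).re)) *
        (8 * π / (1 - r ^ 2) ^ 3 * (1 + N1 v.1) * (‖X‖ * ‖Y‖)) := by ring
    _ ≤ Real.exp (-cr r * (N1 v.1 + ‖v.2‖ ^ 2)) *
        (8 * π / (1 - r ^ 2) ^ 3 * (1 + N1 v.1) * (‖X‖ * ‖Y‖)) :=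
        mul_le_mul_of_nonneg_right (wt_mul_exp_le hr0 hr1 v hz hw) (by positivity)
    _ = _ := by ring

/-- **bound for the potential** -/
theorem norm_wt_Psi_le (h : EinLike Ein) {m : ℕ} {r : ℝ} (hr0 : 0 ≤ r) (hr1 : r < 1)
    (v : V1 n × W m) {p z w : E n} (hp : ‖p‖ ≤ r) (hz : ‖z‖ ≤ r) (hw : ‖w‖ ≤ r) :
    ‖(wt v : ℂ) * Psi Ein p v.1 z w‖ ≤ 32 * π / (1 - r ^ 2) ^ 3 * (1 + N1 v.1) *
      Real.exp (-cr r * (N1 v.1 + ‖v.2‖ ^ 2)) := by
  have hd0 : 0 < 1 - r ^ 2 := by nlinarith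
  have hN := N1_nonneg v.1
  have hpB : p ∈ Ball n := mem_Ball.2 (hp.trans_lt hr1)
  have hzB : z ∈ Ball n := mem_Ball.2 (hz.trans_lt hr1)
  have hwB : w ∈ Ball n := mem_Ball.2 (hw.trans_lt hr1)
  have hX : ‖z - p‖ ≤ 2 := (norm_sub_le _ _).trans (by linarith)
  have hY : ‖w - p‖ ≤ 2 := (norm_sub_le _ _).trans (by linarith)
  set C : ℝ := 8 * π / (1 - r ^ 2) ^ 3 * (1 + N1 v.1) *
      Real.exp (-cr r * (N1 v.1 + ‖v.2‖ ^ 2)) with hC
  have hC0 : 0 ≤ C := by positivity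
  have hI : ∀ s : ℝ, s ∈ uIoc (0:ℝ) 1 → s ∈ Icc (0:ℝ) 1 := by
    intro s hs
    rw [uIoc_of_le zero_le_one] at hs
    exact ⟨hs.1.le, hs.2⟩
  rw [Psi_eq_integral h v.1 hpB hzB hwB, ← intervalIntegral.integral_const_mul]
  have h1 : ∀ s ∈ uIoc (0:ℝ) 1, ‖(wt v : ℂ) * ∫ t in (0:ℝ)..1,
      K2 v.1 (seg p z s) (seg p w t) (z - p) (w - p)‖ ≤ C * 4 := by
    intro s hs
    rw [← intervalIntegral.integral_const_mul]
    have h2 : ∀ t ∈ uIoc (0:ℝ) 1, ‖(wt v : ℂ) * K2 v.1 (seg p z s) (seg p w t) (z - p) (w - p)‖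
        ≤ C * 4 := by
      intro t ht
      refine (norm_wt_K2_le hr0 hr1 v (z - p) (w - p) (norm_seg_le hp hz (hI s hs))
        (norm_seg_le hp hw (hI t ht))).trans ?_
      rw [← hC]
      refine mul_le_mul_of_nonneg_left ?_ hC0
      nlinarith [norm_nonneg (z - p), norm_nonneg (w - p)]
    have := intervalIntegral.norm_integral_le_of_norm_le_const h2
    simpa using this
  have h3 := intervalIntegral.norm_integral_le_of_norm_le_const h1
  have h4 : C * 4 * |(1:ℝ) - 0| = 32 * π / (1 - r ^ 2) ^ 3 * (1 + N1 v.1) *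
      Real.exp (-cr r * (N1 v.1 + ‖v.2‖ ^ 2)) := by
    rw [hC]; simp only [sub_zero, abs_one, mul_one]; ring
  rwa [h4] at h3

end

end Crest.Agent.R272.Pol_898
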