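import Crest.Agent.R272.Z2_939

/-!
# EZ2-TAIL part 2: geometry of a class of special vectors
-/

set_option autoImplicit false
set_option linter.unusedSectionVars false

open scoped ComplexConjugate Topology
open Filter Set

namespace Crest.Agent.R272.Z2_939

open Crest.Agent.R272.EBase_641

noncomputable section

variable {n m : ℕ}

theorem lin_lower (v : V1 n) (z : E n) : ‖v.2‖ - ‖v.1‖ * ‖z‖ ≤ ‖lin v z‖ := by
  have h1 : ‖(inner ℂ v.1 z : ℂ)‖ ≤ ‖v.1‖ * ‖z‖ := norm_inner_le_norm _ _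
  have h2 : ‖conj v.2‖ ≤ ‖(inner ℂ v.1 z : ℂ)‖ + ‖lin v z‖ := by
    have : conj v.2 = inner ℂ v.1 z - lin v z := by simp [lin]
    rw [this]; exact norm_sub_le _ _
  rw [RCLike.norm_conj] at h2
  linarith

theorem lin_upper (v : V1 n) (z : E n) : ‖lin v z‖ ≤ ‖v.1‖ * ‖z‖ + ‖v.2‖ := by
  have h1 : ‖(inner ℂ v.1 z : ℂ)‖ ≤ ‖v.1‖ * ‖z‖ := norm_inner_le_norm _ _
  have h2 := norm_sub_le (inner ℂ v.1 z : ℂ) (conj v.2)
  rw [RCLike.norm_conj] at h2
  unfold lin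
  linarith

/-- for vectors of fixed norm `m1 > 0`: the space part is at most `√m1 +` the time part. -/
theorem space_le {v : V1 n} {m1 : ℝ} (h0 : 0 ≤ m1) (h : ‖v.1‖ ^ 2 - ‖v.2‖ ^ 2 = m1) :
    ‖v.1‖ ≤ Real.sqrt m1 + ‖v.2‖ := by
  have h1 := Real.sq_sqrt h0
  have h2 := Real.sqrt_nonneg m1
  have h3 := norm_nonneg v.2
  have h4 : ‖v.1‖ ^ 2 ≤ (Real.sqrt m1 + ‖v.2‖) ^ 2 := by nlinarith
  exact le_of_sq_le_sq₀ h4 (by positivity)
  where
    le_of_sq_le_sq₀ {a b : ℝ} (h : a ^ 2 ≤ b ^ 2) (hb : 0 ≤ b) : a ≤ b := by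
      exact le_of_not_gt fun hlt => by nlinarith

theorem lin_lower' {v : V1 n} {m1 r : ℝ} (h0 : 0 ≤ m1) (h : ‖v.1‖ ^ 2 - ‖v.2‖ ^ 2 = m1)
    {z : E n} (hz : ‖z‖ ≤ r) : (1 - r) * ‖v.2‖ - r * Real.sqrt m1 ≤ ‖lin v z‖ := by
  have h1 := lin_lower v z
  have h2 := space_le h0 h
  have h3 : ‖v.1‖ * ‖z‖ ≤ (Real.sqrt m1 + ‖v.2‖) * r := by
    have : 0 ≤ Real.sqrt m1 + ‖v.2‖ := by positivity
    calc ‖v.1‖ * ‖z‖ ≤ (Real.sqrt m1 + ‖v.2‖) * ‖z‖ := by gcongr
      _ ≤ (Real.sqrt m1 + ‖v.2‖) * r := by gcongr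
  nlinarith

variable {D : EDat} (C : ECls D)

theorem nrm2_S {v : VV D} (hv : v ∈ C.S) : nrm2 v = C.m1 + C.m2 + 2 * ‖v.1.2‖ ^ 2 := by
  have h1 := C.norm1 v hv
  have h2 := C.norm2 v hv
  unfold nrm2
  linarith

theorem finite_S (T : ℝ) : {v : VV D | v ∈ C.S ∧ ‖v.1.2‖ ≤ T}.Finite := by
  refine (finite_LM (D := D) (den_pos C) (C.m1 + C.m2 + 2 * T ^ 2)).subset ?_
  rintro v ⟨hv, hT⟩
  refine ⟨S_sub C hv, ?_⟩
  rw [nrm2_S C hv]
  have h1 := norm_nonneg v.1.2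
  have h2 : ‖v.1.2‖ ^ 2 ≤ T ^ 2 := pow_le_pow_left₀ h1 hT 2
  linarith

/-- only finitely many hyperplanes of the class meet a smaller ball. -/
theorem finite_meet {r : ℝ} (hr : r < 1) :
    {v : VV D | v ∈ C.S ∧ ∃ z : E D.n, ‖z‖ ≤ r ∧ lin v.1 z = 0}.Finite := by
  refine (finite_S C (r * Real.sqrt C.m1 / (1 - r))).subset ?_
  rintro v ⟨hv, z, hz, h0⟩
  refine ⟨hv, ?_⟩
  have h1 := lin_lower' C.m1_pos.le (C.norm1 v hv) hz
  rw [h0, norm_zero] at h1
  rw [le_div_iff₀ (by linarith)]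
  linarith

/-- quantitative: away from finitely many vectors `|lin v z| ≥ ((1-r)/2) |v_0|`, and `|v_0| ≥ 1`. -/
theorem eventually_lin_lower {r : ℝ} (hr : r < 1) :
    {v : VV D | v ∈ C.S ∧ ¬ (1 ≤ ‖v.1.2‖ ∧ ∀ z : E D.n, ‖z‖ ≤ r →
      (1 - r) / 2 * ‖v.1.2‖ ≤ ‖lin v.1 z‖)}.Finite := by
  refine (finite_S C (max 1 (2 * r * Real.sqrt C.m1 / (1 - r)))).subset ?_
  rintro v ⟨hv, hn⟩
  refine ⟨hv, ?_⟩
  by_contra hlt
  rw [not_le, max_lt_iff] at hlt
  apply hn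
  refine ⟨hlt.1.le, fun z hz => ?_⟩
  have h1 := lin_lower' C.m1_pos.le (C.norm1 v hv) hz
  have h2 := hlt.2
  rw [div_lt_iff₀ (by linarith)] at h2
  nlinarith

theorem fst_injOn : Set.InjOn (Prod.fst : VV D → V1 D.n) C.S := by
  intro v hv v' hv' h
  exact (C.simple v hv v' hv' 1 (by rw [one_smul]; exact h.symm)).symm

theorem space_ne_zero {v : VV D} (hv : v ∈ C.S) : v.1.1 ≠ 0 := by
  intro h
  have h1 := C.norm1 v hv
  rw [h, norm_zero] at h1
  have h2 := C.m1_pos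
  nlinarith [sq_nonneg ‖v.1.2‖]

theorem isClosed_lin_zero (v : V1 n) : IsClosed {z : E n | lin v z = 0} :=
  isClosed_eq (differentiable_lin v).continuous continuous_const

theorem dense_lin_ne {v : V1 n} (hv : v.1 ≠ 0) : Dense {z : E n | lin v z ≠ 0} := by
  intro z
  by_cases h : lin v z = 0
  · rw [mem_closure_iff_seq_limit]
    refine ⟨fun k : ℕ => z + ((1 : ℂ) / ((k : ℂ) + 1)) • v.1, fun k => ?_, ?_⟩
    · have h1 : lin v (z + ((1 : ℂ) / ((k : ℂ) + 1)) • v.1)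
          = ((1 : ℂ) / ((k : ℂ) + 1)) * inner ℂ v.1 v.1 := by
        have h2 : lin v z = inner ℂ v.1 z - conj v.2 := rfl
        rw [h2] at h
        simp only [lin, inner_add_right, inner_smul_right]
        linear_combination h
      show lin v _ ≠ 0
      rw [h1]
      have h3 : ((k : ℂ) + 1) ≠ 0 := by exact_mod_cast Nat.succ_ne_zero k
      have h4 : (inner ℂ v.1 v.1 : ℂ) ≠ 0 := inner_self_ne_zero.mpr hv
      exact mul_ne_zero (one_div_ne_zero h3) h4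
    · have h5 : Tendsto (fun k : ℕ => (1 : ℂ) / ((k : ℂ) + 1)) atTop (𝓝 0) :=
        tendsto_one_div_add_atTop_nhds_zero_nat (𝕜 := ℂ)
      have h6 := (h5.smul_const v.1).const_add z
      simpa using h6
  · exact subset_closure h

/-- **base point**: for countably many classes there is a point of the ball off all hyperplanes
(even dense many). -/
theorem dense_base {ι : Type*} [Countable ι] (C : ι → ECls D) :
    Dense {z : E D.n | ∀ i, ∀ v ∈ (C i).S, lin v.1 z ≠ 0} := by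
  have hc : ∀ i, Countable (C i).S := fun i => (S_countable (C i)).to_subtype
  have h1 : {z : E D.n | ∀ i, ∀ v ∈ (C i).S, lin v.1 z ≠ 0}
      = ⋂ x : (Σ i, (C i).S), {z : E D.n | lin (x.2 : VV D).1 z ≠ 0} := by
    ext z
    simp only [mem_ofPred_eq, mem_iInter]
    constructor
    · rintro h ⟨i, v, hv⟩; exact h i v hv
    · intro h i v hv; exact h ⟨i, v, hv⟩
  rw [h1]
  refine dense_iInter_of_isOpen (fun x => ?_) (fun x => ?_)
  · exact (isClosed_lin_zero (x.2 : VV D).1).isOpen_compl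
  · exact dense_lin_ne (space_ne_zero (C x.1) x.2.2)

theorem exists_base {ι : Type*} [Countable ι] (C : ι → ECls D) {U : Set (E D.n)} (hU : IsOpen U)
    (hne : U.Nonempty) : ∃ p ∈ U, ∀ i, ∀ v ∈ (C i).S, lin v.1 p ≠ 0 := by
  obtain ⟨p, hp1, hp2⟩ := (dense_base C).inter_open_nonempty U hU hne
  exact ⟨p, hp1, hp2⟩

theorem exists_base_ball {ι : Type*} [Countable ι] (C : ι → ECls D) :
    ∃ p ∈ Ball D.n, ∀ i, ∀ v ∈ (C i).S, lin v.1 p ≠ 0 :=
  exists_base C Metric.isOpen_ball ⟨0, Metric.mem_ball_self one_pos⟩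

/-- the action of `g` on the vectors of the datum -/
def actV (D : EDat) (g : D.G) (v : VV D) : VV D := ((D.ρ g).1 v.1, D.σ g v.2)

theorem actV_one (v : VV D) : actV D 1 v = v := by
  simp [actV]

theorem actV_mul (g h : D.G) (v : VV D) : actV D (g * h) v = actV D g (actV D h v) := by
  simp [actV]

theorem actV_mem (g : D.G) {v : VV D} (hv : v ∈ C.S) : actV D g v ∈ C.S := C.inv g v hv

/-- the permutation of the class. -/
def permS (g : D.G) : C.S ≃ C.S where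
  toFun v := ⟨actV D g v, actV_mem C g v.2⟩
  invFun v := ⟨actV D g⁻¹ v, actV_mem C g⁻¹ v.2⟩
  left_inv v := by
    apply Subtype.ext
    show actV D g⁻¹ (actV D g v) = v
    rw [← actV_mul, inv_mul_cancel, actV_one]
  right_inv v := by
    apply Subtype.ext
    show actV D g (actV D g⁻¹ v) = v
    rw [← actV_mul, mul_inv_cancel, actV_one]

theorem permS_fst (g : D.G) (v : C.S) : ((permS C g v : VV D)).1 = (D.ρ g).1 (v : VV D).1 := rfl

theorem lin_act_ne {p : E D.n} (hp : p ∈ Ball D.n) (h : ∀ v ∈ C.S, lin v.1 p ≠ 0) (g : D.G) :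
    ∀ v ∈ C.S, lin v.1 (act (D.ρ g) p) ≠ 0 := by
  intro v hv
  obtain ⟨w, hw⟩ : ∃ w : C.S, permS C g w = ⟨v, hv⟩ := (permS C g).surjective _
  have h1 : v = (permS C g w : VV D) := by rw [hw]
  rw [h1, permS_fst, lin_act (D.ρ g) _ hp]
  exact div_ne_zero (h _ w.2) (jj_ne_zero _ hp)

/-- summability in the time coordinate. -/
theorem summable_time (k : ℕ) {c : ℝ} (hc : 0 < c) :
    Summable fun v : C.S => (1 + ‖(v : VV D).1.2‖) ^ k * Real.exp (-c * ‖(v : VV D).1.2‖ ^ 2) := by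
  have hc2 : 0 < c / 2 := by positivity
  have h1 := (summable_S C k hc2).mul_left (2 ^ k * Real.exp (c / 2 * (C.m1 + C.m2)))
  refine Summable.of_nonneg_of_le (fun v => by positivity) (fun v => ?_) h1
  unfold gm
  have h2 := nrm2_S C v.2
  have hm1 := C.m1_pos
  have hm2 : 0 ≤ C.m2 := by rw [← C.norm2 v v.2]; positivity
  have h3 : (1 + ‖(v : VV D).1.2‖) ^ k ≤ 2 ^ k * (1 + nrm2 (v : VV D)) ^ k := by
    rw [← mul_pow]
    apply pow_le_pow_left₀ (by positivity)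
    have := norm_nonneg (v : VV D).1.2
    nlinarith [sq_nonneg (‖(v : VV D).1.2‖ - 1)]
  have h4 : Real.exp (-c * ‖(v : VV D).1.2‖ ^ 2)
      = Real.exp (c / 2 * (C.m1 + C.m2)) * Real.exp (-(c / 2) * nrm2 (v : VV D)) := by
    rw [← Real.exp_add, h2]
    congr 1
    ring
  rw [h4]
  calc (1 + ‖(v : VV D).1.2‖) ^ k * (Real.exp (c / 2 * (C.m1 + C.m2)) *
        Real.exp (-(c / 2) * nrm2 (v : VV D)))
      ≤ (2 ^ k * (1 + nrm2 (v : VV D)) ^ k) * (Real.exp (c / 2 * (C.m1 + C.m2)) *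
        Real.exp (-(c / 2) * nrm2 (v : VV D))) := by gcongr
    _ = _ := by ring

/-- the weight in terms of the square norm: `wt v = exp(-(π/2)(m1 + m2))` on the class. -/
theorem wt_S {v : VV D} (hv : v ∈ C.S) :
    wt v = Real.exp (-(Real.pi / 2) * (C.m1 + C.m2)) := by
  unfold wt
  rw [C.norm1 v hv, C.norm2 v hv]

end

end Crest.Agent.R272.Z2_939
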