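import Crest.Agent.R272.EXD1_429
import Crest.Agent.R272.EXD2_429
import Crest.Agent.R272.Pol4_898
import Crest.Agent.R272.Z2_939
import Crest.Agent.R272.Z3_939

/-!
Row 272, division E (helper429): convergence of `K = Σ_{v∈S} Psi_v`, holomorphy, approximation by the
theta kernels.
-/

set_option autoImplicit false

open Complex Set Filter Topology
open scoped ComplexConjugate Real

namespace Crest.Agent.R272.EXD_429

open Crest.Agent.R272.EBase_641
open Crest.Agent.R272.Pol_898 (qq RR QQ Psi EinLike cr N1)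
open Crest.Agent.R272.Z2_939 (VV nrm2 gm LM den)

noncomputable section

variable {D : EDat} {Ein : ℂ → ℂ}

/-- the constant of the bound -/
def Acst (r : ℝ) : ℝ := 32 * π / (1 - r ^ 2) ^ 3

theorem Acst_nonneg {r : ℝ} (hr0 : 0 ≤ r) (hr1 : r < 1) : 0 ≤ Acst r := by
  have : 0 < 1 - r ^ 2 := by nlinarith
  unfold Acst; positivity

theorem norm_wt_Psi_le' (h : EinLike Ein) {r : ℝ} (hr0 : 0 ≤ r) (hr1 : r < 1) (v : VV D)
    {p z w : E D.n} (hp : ‖p‖ ≤ r) (hz : ‖z‖ ≤ r) (hw : ‖w‖ ≤ r) :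
    ‖(wt v : ℂ) * Psi Ein p v.1 z w‖ ≤ Acst r * gm D 1 (cr r) v := by
  refine (Pol_898.norm_wt_Psi_le h hr0 hr1 v hp hz hw).trans ?_
  have h1 : nrm2 v = N1 v.1 + ‖v.2‖ ^ 2 := rfl
  have hN := Pol_898.N1_nonneg v.1
  have hd : 0 < 1 - r ^ 2 := by nlinarith
  have e : Acst r * gm D 1 (cr r) v = 32 * π / (1 - r ^ 2) ^ 3 * (1 + (N1 v.1 + ‖v.2‖ ^ 2)) *
      Real.exp (-cr r * (N1 v.1 + ‖v.2‖ ^ 2)) := by
    simp only [Acst, gm, pow_one, h1]; ring
  rw [e]
  have h2 : 0 ≤ 32 * π / (1 - r ^ 2) ^ 3 := by positivity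
  refine mul_le_mul_of_nonneg_right (mul_le_mul_of_nonneg_left ?_ h2) (Real.exp_nonneg _)
  nlinarith [sq_nonneg ‖v.2‖]

/-- a common radius -/
theorem exists_r {n : ℕ} {p z w : E n} (hp : p ∈ Ball n) (hz : z ∈ Ball n) (hw : w ∈ Ball n) :
    ∃ r : ℝ, 0 ≤ r ∧ r < 1 ∧ ‖p‖ ≤ r ∧ ‖z‖ ≤ r ∧ ‖w‖ ≤ r := by
  rw [mem_Ball] at *
  refine ⟨max ‖p‖ (max ‖z‖ ‖w‖), (norm_nonneg p).trans (le_max_left _ _),
    max_lt hp (max_lt hz hw), le_max_left _ _,
    (le_max_left _ _).trans (le_max_right _ _), (le_max_right _ _).trans (le_max_right _ _)⟩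

variable (C : ECls D)

/-- `wt` on the class -/
def w0 (C : ECls D) : ℝ := Real.exp (-(Real.pi / 2) * (C.m1 + C.m2))

theorem w0_pos : 0 < w0 C := Real.exp_pos _

theorem summable_wt_Psi_S (h : EinLike Ein) {p z w : E D.n} (hp : p ∈ Ball D.n)
    (hz : z ∈ Ball D.n) (hw : w ∈ Ball D.n) :
    Summable fun v : C.S => (wt v.1 : ℂ) * Psi Ein p v.1.1 z w := by
  obtain ⟨r, hr0, hr1, h1, h2, h3⟩ := exists_r hp hz hw
  exact Z2_939.summable_S_smul C (Pol_898.cr_pos hr0 hr1)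
    (κ := fun v : VV D => (wt v : ℂ) * Psi Ein p v.1 z w)
    fun v _ => norm_wt_Psi_le' h hr0 hr1 v h1 h2 h3

theorem Psi_eq_S (p z w : E D.n) (v : C.S) :
    Psi Ein p v.1.1 z w = ((w0 C)⁻¹ : ℂ) * ((wt v.1 : ℂ) * Psi Ein p v.1.1 z w) := by
  have h1 : wt v.1 = w0 C := Z2_939.wt_S C v.2
  have h2 : (w0 C : ℂ) ≠ 0 := by exact_mod_cast (w0_pos C).ne'
  rw [h1]
  field_simp

theorem summable_Psi_S (h : EinLike Ein) {p z w : E D.n} (hp : p ∈ Ball D.n)
    (hz : z ∈ Ball D.n) (hw : w ∈ Ball D.n) :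
    Summable fun v : C.S => Psi Ein p v.1.1 z w := by
  have := (summable_wt_Psi_S C h hp hz hw).mul_left ((w0 C)⁻¹ : ℂ)
  exact this.congr fun v => (Psi_eq_S C p z w v).symm

theorem summable_wt_Psi_φ (h : EinLike Ein) (N : ℕ) {p z w : E D.n} (hp : p ∈ Ball D.n)
    (hz : z ∈ Ball D.n) (hw : w ∈ Ball D.n) :
    Summable fun v : {v : VV D // C.φ N v ≠ 0} =>
      ((C.φ N v.1 * wt v.1 : ℝ) : ℂ) * Psi Ein p v.1.1 z w := by
  obtain ⟨r, hr0, hr1, h1, h2, h3⟩ := exists_r hp hz hw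
  have := Z2_939.summable_φ_smul C (Acst_nonneg hr0 hr1) (Pol_898.cr_pos hr0 hr1)
    (κ := fun v : VV D => (wt v : ℂ) * Psi Ein p v.1 z w)
    (fun v _ => norm_wt_Psi_le' h hr0 hr1 v h1 h2 h3) N
  refine (this.comp_injective (Subtype.val_injective (p := fun v : VV D => C.φ N v ≠ 0))).congr
    fun v => ?_
  simp only [Function.comp_apply, Complex.real_smul, Complex.ofReal_mul]
  ring

/-- holomorphy of a single potential -/
theorem differentiableOn_Psi (h : EinLike Ein) (v : V1 D.n) {p w : E D.n} (hp : p ∈ Ball D.n)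
    (hw : w ∈ Ball D.n) : DifferentiableOn ℂ (fun z => Psi Ein p v z w) (Ball D.n) := by
  have hq : ∀ w' ∈ Ball D.n, DifferentiableOn ℂ (fun z => QQ Ein v z w') (Ball D.n) := by
    intro w' hw'
    have h1 : Differentiable ℂ fun z : E D.n => qq z w' := by
      have : (fun z : E D.n => qq z w') = fun z => 1 - (innerSL ℂ w') z := by
        funext z; simp [qq]
      rw [this]
      exact ((innerSL ℂ w').differentiable).const_sub _
    have h2 : DifferentiableOn ℂ (fun z : E D.n => log (qq z w')) (Ball D.n) :=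
      h1.differentiableOn.clog fun z hz => Pol_898.qq_slit hz hw'
    have h3 : DifferentiableOn ℂ (fun z : E D.n => (π : ℂ) * RR v z w') (Ball D.n) := by
      simp only [Pol_898.RR, div_eq_mul_inv]
      exact ((((differentiable_lin v).differentiableOn).mul_const _).mul
        (h1.differentiableOn.inv fun z hz => Pol_898.qq_ne hz hw')).const_mul _
    exact ((h.diff.comp_differentiableOn h3).neg).sub h2
  unfold Pol_898.Psi Pol_898.dd
  exact (((hq w hw).sub (hq p hp)).sub_const _).add_const _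

/-- the kernel of the class -/
def KK (Ein : ℂ → ℂ) (C : ECls D) (p z w : E D.n) : ℂ := KS Ein D C.S (fun _ => 1) p z w

theorem KK_eq (p z w : E D.n) :
    KK Ein C p z w = ∑' v : C.S, Psi Ein p v.1.1 z w := by
  unfold KK KS; simp

theorem KK_hol (h : EinLike Ein) {p w : E D.n} (hp : p ∈ Ball D.n) (hw : w ∈ Ball D.n) :
    DifferentiableOn ℂ (fun z => KK Ein C p z w) (Ball D.n) := by
  simp_rw [KK_eq]
  refine differentiableOn_tsum Metric.isOpen_ball
    (fun v => differentiableOn_Psi h v.1.1 hp hw) fun z hz => ?_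
  have hz' := mem_Ball.1 hz
  have hp' := mem_Ball.1 hp
  have hw' := mem_Ball.1 hw
  set r : ℝ := max ‖p‖ (max ((1 + ‖z‖) / 2) ‖w‖) with hr
  have hr0 : 0 ≤ r := (norm_nonneg p).trans (le_max_left _ _)
  have hr1 : r < 1 := max_lt hp' (max_lt (by linarith) hw')
  refine ⟨(1 - ‖z‖) / 2, by linarith, fun v => (w0 C)⁻¹ * (Acst r * gm D 1 (cr r) v.1), ?_,
    fun v w' hw' _ => ?_⟩
  · exact ((Z2_939.summable_S C 1 (Pol_898.cr_pos hr0 hr1)).mul_left (Acst r)).mul_left _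
  · have h1 : ‖w'‖ ≤ r := by
      have : ‖w'‖ ≤ ‖z‖ + ‖w' - z‖ := by
        calc ‖w'‖ = ‖z + (w' - z)‖ := by congr 1; abel
          _ ≤ _ := norm_add_le _ _
      have h3 := mem_ball_iff_norm.1 hw'
      refine le_trans ?_ ((le_max_left ((1 + ‖z‖) / 2) ‖w‖).trans (le_max_right _ _))
      linarith
    rw [Psi_eq_S C, norm_mul, norm_inv, Complex.norm_real, Real.norm_of_nonneg (w0_pos C).le]
    refine mul_le_mul_of_nonneg_left ?_ (by have := w0_pos C; positivity)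
    exact norm_wt_Psi_le' h hr0 hr1 v.1 (le_max_left _ _) h1
      ((le_max_right ((1 + ‖z‖) / 2) ‖w‖).trans (le_max_right _ _))

theorem KK_left (p w : E D.n) : KK Ein C p p w = 0 := KS_left p w
theorem KK_right (p z : E D.n) : KK Ein C p z p = 0 := KS_right p z

theorem KK_inv (h : EinLike Ein) {p : E D.n} (hp : p ∈ Ball D.n) (g : D.G) {z w : E D.n}
    (hz : z ∈ Ball D.n) (hw : w ∈ Ball D.n) :
    Pol_898.dd (KK Ein C p) (act (D.ρ g) p) (act (D.ρ g) z) (act (D.ρ g) w) = KK Ein C p z w :=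
  KS_inv' (fun g v hv => C.inv g v hv) (fun _ _ => rfl) hp
    (fun z hz w hw => by simpa using summable_Psi_S C h hp hz hw) g hz hw

/-- the approximating kernels (normalised) -/
def KN (Ein : ℂ → ℂ) (C : ECls D) (p : E D.n) (N : ℕ) (z w : E D.n) : ℂ :=
  KS Ein D {v | C.φ N v ≠ 0} (fun v => ((w0 C)⁻¹ : ℂ) * ((C.φ N v * wt v : ℝ) : ℂ)) p z w

theorem KN_eq (p : E D.n) (N : ℕ) (z w : E D.n) :
    KN Ein C p N z w = ((w0 C)⁻¹ : ℂ) * ∑' v : {v : VV D // C.φ N v ≠ 0},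
      ((C.φ N v.1 * wt v.1 : ℝ) : ℂ) * Psi Ein p v.1.1 z w := by
  unfold KN KS
  rw [← tsum_mul_left]
  refine tsum_congr fun v => ?_
  rw [mul_assoc]

theorem KN_left (p : E D.n) (N : ℕ) (w : E D.n) : KN Ein C p N p w = 0 := KS_left p w
theorem KN_right (p : E D.n) (N : ℕ) (z : E D.n) : KN Ein C p N z p = 0 := KS_right p z

theorem KN_inv (h : EinLike Ein) {p : E D.n} (hp : p ∈ Ball D.n) (N : ℕ) (g : D.G) {z w : E D.n}
    (hz : z ∈ Ball D.n) (hw : w ∈ Ball D.n) :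
    Pol_898.dd (KN Ein C p N) (act (D.ρ g) p) (act (D.ρ g) z) (act (D.ρ g) w)
      = KN Ein C p N z w := by
  have hφ : ∀ g v, C.φ N (gv D g v) = C.φ N v := fun g v => C.φ_inv N g v
  refine KS_inv' (fun g v hv => ?_) (fun g v => ?_) hp (fun z hz w hw => ?_) g hz hw
  · show C.φ N (gv D g v) ≠ 0
    rw [hφ]; exact hv
  · show ((w0 C)⁻¹ : ℂ) * ((C.φ N (gv D g v) * wt (gv D g v) : ℝ) : ℂ) = _
    rw [hφ, wt_gv]
  · refine ((summable_wt_Psi_φ C h N hp hz hw).mul_left ((w0 C)⁻¹ : ℂ)).congr fun v => ?_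
    rw [mul_assoc]

theorem KN_lim (h : EinLike Ein) {p : E D.n} (hp : p ∈ Ball D.n) {z w : E D.n}
    (hz : z ∈ Ball D.n) (hw : w ∈ Ball D.n) :
    Tendsto (fun N => KN Ein C p N z w) atTop (𝓝 (KK Ein C p z w)) := by
  obtain ⟨r, hr0, hr1, h1, h2, h3⟩ := exists_r hp hz hw
  have := Z2_939.tendsto_φ' C (Acst_nonneg hr0 hr1) (Pol_898.cr_pos hr0 hr1)
    (κ := fun v : VV D => (wt v : ℂ) * Psi Ein p v.1 z w)
    (fun v _ => norm_wt_Psi_le' h hr0 hr1 v h1 h2 h3)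
  have h4 := this.const_mul ((w0 C)⁻¹ : ℂ)
  have e1 : KK Ein C p z w = ((w0 C)⁻¹ : ℂ) * ∑' v : C.S, (wt v.1 : ℂ) * Psi Ein p v.1.1 z w := by
    rw [KK_eq, ← tsum_mul_left]
    exact tsum_congr fun v => Psi_eq_S C p z w v
  rw [e1]
  refine h4.congr fun N => ?_
  rw [KN_eq]
  congr 1
  refine tsum_congr fun v => ?_
  rw [Complex.real_smul, Complex.ofReal_mul]
  ring

end

end Crest.Agent.R272.EXD_429
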