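import Crest.Agent.R272.Root4_83

/-!
# R272 (S0414), S14-EVB (helper140), part 1: the parity lemma in `ℂⁿ`

* `exists_zero_near`, `div_smooth`: division by a holomorphic function with non vanishing
  differential on its zero set;
* `parity_ne`, `exists_unit_cn`: if `h P² = h' Q²` and `h`, `h'` are both *reduced and smooth*
  then `Q = t P` with a nowhere vanishing holomorphic function `t`.
-/

set_option autoImplicit false

open Set Filter Topology Metric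

namespace Crest.Agent.R272.Evb_140

open Crest.Agent.R275.Geo Crest.Agent.R266.SCV

noncomputable section

variable {n : ℕ}

/-- near a zero with non vanishing differential the distance to the zero set is bounded by the
value -/
theorem exists_zero_near {g : Cn n → ℂ} {z0 : Cn n} (hg : AnalyticAt ℂ g z0) (h0 : g z0 = 0)
    (hd : fderiv ℂ g z0 ≠ 0) {W : Set (Cn n)} (hW : W ∈ 𝓝 z0) :
    ∃ C : ℝ, 0 ≤ C ∧ ∀ᶠ z in 𝓝 z0, ∃ w ∈ W, g w = 0 ∧ ‖z - w‖ ≤ C * ‖g z‖ := by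
  have hs : HasStrictFDerivAt g (fderiv ℂ g z0) z0 := hg.hasStrictFDerivAt
  have hsurj : (fderiv ℂ g z0).range = ⊤ := by
    rw [LinearMap.range_eq_top]
    intro c
    obtain ⟨v, hv⟩ : ∃ v, fderiv ℂ g z0 v ≠ 0 := by
      by_contra hcon
      push Not at hcon
      exact hd (ContinuousLinearMap.ext fun v => by simpa using hcon v)
    refine ⟨(c / fderiv ℂ g z0 v) • v, ?_⟩
    show fderiv ℂ g z0 ((c / fderiv ℂ g z0 v) • v) = c
    rw [map_smul, smul_eq_mul, div_mul_cancel₀ _ hv]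
  set S := (fderiv ℂ g z0).nonlinearRightInverseOfSurjective hsurj with hSdef
  have hSpos : 0 < S.nnnorm :=
    (fderiv ℂ g z0).nonlinearRightInverseOfSurjective_nnnorm_pos hsurj
  have hSpos' : (0 : ℝ) < (S.nnnorm : ℝ)⁻¹ := inv_pos.2 (by exact_mod_cast hSpos)
  obtain ⟨s, hs1, hs2⟩ := hs.approximates_deriv_on_nhds (c := S.nnnorm⁻¹ / 2)
    (Or.inr (half_pos (inv_pos.2 hSpos)))
  obtain ⟨δ, hδ, hball⟩ := Metric.mem_nhds_iff.1 (inter_mem hs1 hW)
  set K : ℝ := (S.nnnorm : ℝ)⁻¹ / 2 with hK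
  have hKpos : 0 < K := half_pos hSpos'
  refine ⟨K⁻¹, (inv_pos.2 hKpos).le, ?_⟩
  have h1 : ∀ᶠ z in 𝓝 z0, ‖g z‖ < K * (δ / 2) := by
    have hc : ContinuousAt (fun z => ‖g z‖) z0 := hg.continuousAt.norm
    refine hc.eventually_lt continuousAt_const ?_
    simp only [h0, norm_zero]
    positivity
  filter_upwards [h1, ball_mem_nhds z0 (half_pos hδ)] with z hz1 hz2
  have hε : K⁻¹ * ‖g z‖ < δ / 2 := by
    rw [inv_mul_lt_iff₀ hKpos]
    exact hz1
  have hsub : closedBall z (K⁻¹ * ‖g z‖) ⊆ s ∩ W := by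
    intro w hw
    apply hball
    rw [mem_ball] at hz2 ⊢
    rw [mem_closedBall] at hw
    calc dist w z0 ≤ dist w z + dist z z0 := dist_triangle _ _ _
      _ < δ := by linarith
  have h2 := hs2.surjOn_closedBall_of_nonlinearRightInverse S (b := z) (ε := K⁻¹ * ‖g z‖)
    (by positivity) (hsub.trans inter_subset_left)
  have h3 : (0 : ℂ) ∈ closedBall (g z) (((S.nnnorm : ℝ)⁻¹ - ((S.nnnorm⁻¹ / 2 : NNReal) : ℝ)) *
      (K⁻¹ * ‖g z‖)) := by
    have h4 : ((S.nnnorm : ℝ)⁻¹ - ((S.nnnorm⁻¹ / 2 : NNReal) : ℝ)) = K := by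
      rw [hK]
      push_cast
      ring
    rw [h4, ← mul_assoc, mul_inv_cancel₀ hKpos.ne', one_mul, mem_closedBall, dist_eq_norm,
      zero_sub, norm_neg]
  obtain ⟨w, hw, hgw⟩ := h2 h3
  refine ⟨w, (hsub hw).2, hgw, ?_⟩
  rw [← dist_eq_norm, dist_comm]
  exact hw

theorem frequently_ne_of_smooth {U : Set (Cn n)} {g : Cn n → ℂ}
    (hg : ∀ z ∈ U, ContinuousAt g z) (hd : ∀ z ∈ U, g z = 0 → fderiv ℂ g z ≠ 0) {z : Cn n}
    (hz : z ∈ U) : ∃ᶠ w in 𝓝 z, g w ≠ 0 := by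
  by_cases h0 : g z = 0
  · intro hcon
    apply hd z hz h0
    have h1 : g =ᶠ[𝓝 z] fun _ => 0 := by
      filter_upwards [hcon] with w hw
      by_contra h
      exact hw h
    rw [h1.fderiv_eq, fderiv_fun_const]
    rfl
  · exact ((hg z hz).eventually_ne h0).frequently

/-- **division by a smooth equation** -/
theorem div_smooth {U : Set (Cn n)} (hU : IsOpen U) {r g : Cn n → ℂ} (hr : DifferentiableOn ℂ r U)
    (hg : DifferentiableOn ℂ g U) (hd : ∀ z ∈ U, g z = 0 → fderiv ℂ g z ≠ 0)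
    (hv : ∀ z ∈ U, g z = 0 → r z = 0) :
    ∃ u : Cn n → ℂ, DifferentiableOn ℂ u U ∧ ∀ z ∈ U, r z = u z * g z := by
  have hgc : ∀ z ∈ U, ContinuousAt g z := fun z hz =>
    (hg.differentiableAt (hU.mem_nhds hz)).continuousAt
  have hrc : ∀ z ∈ U, ContinuousAt r z := fun z hz =>
    (hr.differentiableAt (hU.mem_nhds hz)).continuousAt
  refine Crest.Agent.R273.Cic769.exists_quot hU hr hg
    (fun a ha => frequently_ne_of_smooth hgc hd ha) fun a ha => ?_
  by_cases h0 : g a = 0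
  · have hA : AnalyticAt ℂ g a := analyticOnNhd_of_differentiableOn hU hg a ha
    have hR : AnalyticAt ℂ r a := analyticOnNhd_of_differentiableOn hU hr a ha
    obtain ⟨K, s, hs, hK⟩ := hR.hasStrictFDerivAt.exists_lipschitzOnWith
    obtain ⟨C, hC, hev⟩ := exists_zero_near hA h0 (hd a ha h0) (W := U ∩ s)
      (inter_mem (hU.mem_nhds ha) hs)
    refine ⟨K * C, ?_⟩
    filter_upwards [hev, hs] with z hz hzs
    obtain ⟨w, hw, hgw, hzw⟩ := hz
    have h1 := hK.norm_sub_le hzs hw.2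
    rw [hv w hw.1 hgw, sub_zero] at h1
    calc ‖r z‖ ≤ K * ‖z - w‖ := h1
      _ ≤ K * (C * ‖g z‖) := by gcongr
      _ = K * C * ‖g z‖ := by ring
  · have h1 : ∀ᶠ z in 𝓝 a, ‖g a‖ / 2 < ‖g z‖ :=
      continuousAt_const.eventually_lt (hgc a ha).norm (half_lt_self (norm_pos_iff.2 h0))
    have h2 : ∀ᶠ z in 𝓝 a, ‖r z‖ < ‖r a‖ + 1 :=
      (hrc a ha).norm.eventually_lt continuousAt_const (by linarith)
    refine ⟨(‖r a‖ + 1) / (‖g a‖ / 2), ?_⟩
    filter_upwards [h1, h2] with z hz1 hz2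
    have h3 : 0 < ‖g a‖ / 2 := half_pos (norm_pos_iff.2 h0)
    rw [div_mul_eq_mul_div, le_div_iff₀ h3]
    calc ‖r z‖ * (‖g a‖ / 2) ≤ (‖r a‖ + 1) * ‖g z‖ := by
          have := norm_nonneg (r a)
          gcongr

/-- parity: a unit is not a smooth equation times a square -/
theorem parity_ne {U : Set (Cn n)} (hU : IsOpen U) {h h' P Q : Cn n → ℂ}
    (hh : DifferentiableOn ℂ h U) (hh' : DifferentiableOn ℂ h' U) (hP : DifferentiableOn ℂ P U)
    (hQ : DifferentiableOn ℂ Q U) (eq : ∀ z ∈ U, h z * P z ^ 2 = h' z * Q z ^ 2)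
    (hPn : ∀ z ∈ U, ∃ᶠ w in 𝓝 z, P w ≠ 0) {z0 : Cn n} (hz0 : z0 ∈ U) (h1 : h z0 ≠ 0)
    (h2 : h' z0 = 0) (h3 : fderiv ℂ h' z0 ≠ 0) : False := by
  obtain ⟨ε, hε, hball⟩ := Metric.isOpen_iff.1 hU z0 hz0
  obtain ⟨y, hy, hyU⟩ := ((hPn z0 hz0).and_eventually (ball_mem_nhds z0 hε)).exists
  obtain ⟨r, hr, hr2, -⟩ := Crest.Agent.R272.Root_83.exists_root_frac_cn (U := ball z0 ε)
    isOpen_ball (convex_ball z0 ε).isPreconnected (f := fun z => h z * h' z) (a := P)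
    (b := fun z => h' z * Q z) ((hh.mono hball).mul (hh'.mono hball)) (hP.mono hball)
    ((hh'.mono hball).mul (hQ.mono hball)) (fun z hz => by
      have := eq z (hball hz)
      show h z * h' z * P z ^ 2 = (h' z * Q z) ^ 2
      linear_combination h' z * this) ⟨y, hyU, hy⟩
  have hmem : ball z0 ε ∈ 𝓝 z0 := ball_mem_nhds z0 hε
  have hr0 : r z0 = 0 := by
    have := hr2 z0 (mem_ball_self hε)
    rw [h2, mul_zero] at this
    exact pow_eq_zero_iff (two_ne_zero) |>.1 this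
  have hd1 : HasFDerivAt (fun z => r z ^ 2) (0 : Cn n →L[ℂ] ℂ) z0 := by
    have h4 := ((hr.differentiableAt hmem).hasFDerivAt).mul ((hr.differentiableAt hmem).hasFDerivAt)
    have h5 : (fun z => r z ^ 2) = fun z => r z * r z := by
      funext z
      ring
    rw [h5]
    refine h4.congr_fderiv (ContinuousLinearMap.ext fun v => ?_)
    show r z0 * fderiv ℂ r z0 v + r z0 * fderiv ℂ r z0 v = 0
    rw [hr0, zero_mul, add_zero]
  have hd2 : HasFDerivAt (fun z => h z * h' z) (h z0 • fderiv ℂ h' z0) z0 := by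
    have h4 := ((hh.differentiableAt (hU.mem_nhds hz0)).hasFDerivAt).mul
      ((hh'.differentiableAt (hU.mem_nhds hz0)).hasFDerivAt)
    refine h4.congr_fderiv (ContinuousLinearMap.ext fun v => ?_)
    show h z0 * fderiv ℂ h' z0 v + h' z0 * fderiv ℂ h z0 v = h z0 * fderiv ℂ h' z0 v
    rw [h2, zero_mul, add_zero]
  have hd3 : HasFDerivAt (fun z => h z * h' z) (0 : Cn n →L[ℂ] ℂ) z0 := by
    refine hd1.congr_of_eventuallyEq ?_
    filter_upwards [hmem] with z hz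
    exact (hr2 z hz).symm
  have h6 := hd2.unique hd3
  exact (smul_ne_zero h1 h3) h6

/-- **the parity lemma** -/
theorem exists_unit_cn {U : Set (Cn n)} (hU : IsOpen U) {h h' P Q : Cn n → ℂ}
    (hh : DifferentiableOn ℂ h U) (hh' : DifferentiableOn ℂ h' U) (hP : DifferentiableOn ℂ P U)
    (hQ : DifferentiableOn ℂ Q U) (eq : ∀ z ∈ U, h z * P z ^ 2 = h' z * Q z ^ 2)
    (hPn : ∀ z ∈ U, ∃ᶠ w in 𝓝 z, P w ≠ 0) (hQn : ∀ z ∈ U, ∃ᶠ w in 𝓝 z, Q w ≠ 0)
    (hd : ∀ z ∈ U, h z = 0 → fderiv ℂ h z ≠ 0) (hd' : ∀ z ∈ U, h' z = 0 → fderiv ℂ h' z ≠ 0)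
    {z0 : Cn n} (hz0 : z0 ∈ U) :
    ∃ V, IsOpen V ∧ z0 ∈ V ∧ V ⊆ U ∧ ∃ t : Cn n → ℂ, DifferentiableOn ℂ t V ∧
      (∀ z ∈ V, t z ≠ 0) ∧ ∀ z ∈ V, t z * P z = Q z := by
  -- the zero sets coincide
  have hz : ∀ z ∈ U, h' z = 0 → h z = 0 := fun z hz h0 => by
    by_contra hne
    exact parity_ne hU hh hh' hP hQ eq hPn hz hne h0 (hd' z hz h0)
  have hz' : ∀ z ∈ U, h z = 0 → h' z = 0 := fun z hz h0 => by
    by_contra hne
    exact parity_ne hU hh' hh hQ hP (fun z hz => (eq z hz).symm) hQn hz hne h0 (hd z hz h0)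
  have hc' : ∀ z ∈ U, ContinuousAt h' z := fun z hz =>
    (hh'.differentiableAt (hU.mem_nhds hz)).continuousAt
  -- `h = u h'`
  obtain ⟨u, hu, hu2⟩ := div_smooth hU hh hh' hd' hz
  have hu0 : u z0 ≠ 0 := by
    intro h0
    have h1 : h z0 = 0 := by rw [hu2 z0 hz0, h0, zero_mul]
    have h2 : HasFDerivAt (fun z => u z * h' z) (0 : Cn n →L[ℂ] ℂ) z0 := by
      have h4 := ((hu.differentiableAt (hU.mem_nhds hz0)).hasFDerivAt).mul
        ((hh'.differentiableAt (hU.mem_nhds hz0)).hasFDerivAt)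
      refine h4.congr_fderiv (ContinuousLinearMap.ext fun v => ?_)
      show u z0 * fderiv ℂ h' z0 v + h' z0 * fderiv ℂ u z0 v = 0
      rw [h0, hz' z0 hz0 h1, zero_mul, zero_mul, add_zero]
    have h3 : HasFDerivAt h (0 : Cn n →L[ℂ] ℂ) z0 := by
      refine h2.congr_of_eventuallyEq ?_
      filter_upwards [hU.mem_nhds hz0] with z hz
      exact hu2 z hz
    exact hd z0 hz0 h1 h3.fderiv
  -- a ball where `u ≠ 0`
  have huc : ContinuousAt u z0 := (hu.differentiableAt (hU.mem_nhds hz0)).continuousAt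
  obtain ⟨ε, hε, hball⟩ := Metric.mem_nhds_iff.1 (inter_mem (hU.mem_nhds hz0)
    (huc.eventually_ne hu0))
  have hbU : ball z0 ε ⊆ U := fun z hz => (hball hz).1
  have hbu : ∀ z ∈ ball z0 ε, u z ≠ 0 := fun z hz => (hball hz).2
  have eq2 : ∀ z ∈ ball z0 ε, u z * P z ^ 2 = Q z ^ 2 := by
    intro z hz
    by_contra hne
    have hcu : ContinuousAt (fun z => u z * P z ^ 2 - Q z ^ 2) z :=
      (((hu.differentiableAt (hU.mem_nhds (hbU hz))).continuousAt).mul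
        (((hP.differentiableAt (hU.mem_nhds (hbU hz))).continuousAt).pow 2)).sub
        (((hQ.differentiableAt (hU.mem_nhds (hbU hz))).continuousAt).pow 2)
    have h1 : ∀ᶠ w in 𝓝 z, u w * P w ^ 2 - Q w ^ 2 ≠ 0 := hcu.eventually_ne (sub_ne_zero.2 hne)
    obtain ⟨w, hw1, hw2, hw3⟩ := ((frequently_ne_of_smooth hc' hd' (hbU hz)).and_eventually
      (h1.and (hU.mem_nhds (hbU hz)))).exists
    apply hw2
    have h2 := eq w hw3
    rw [hu2 w hw3] at h2
    have h3 : h' w * (u w * P w ^ 2 - Q w ^ 2) = 0 := by linear_combination h2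
    exact (mul_eq_zero.1 h3).resolve_left hw1
  obtain ⟨y, hy, hyU⟩ := ((hPn z0 hz0).and_eventually (ball_mem_nhds z0 hε)).exists
  obtain ⟨r, hr, hr2, hra⟩ := Crest.Agent.R272.Root_83.exists_root_frac_cn (U := ball z0 ε)
    isOpen_ball (convex_ball z0 ε).isPreconnected (f := u) (a := P) (b := Q) (hu.mono hbU)
    (hP.mono hbU) (hQ.mono hbU) eq2 ⟨y, hyU, hy⟩
  refine ⟨ball z0 ε, isOpen_ball, mem_ball_self hε, hbU, r, hr, fun z hz h0 => hbu z hz ?_, hra⟩
  rw [← hr2 z hz, h0]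
  ring

end

end Crest.Agent.R272.Evb_140
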