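import Crest.Agent.R272.Evb1_140
import Crest.Agent.R272.DCov4_426

/-!
# R272 (S0414), S14-EVB (helper140), part 2: `DCov.Data` from local square classes

* `Loc C φ U`: on the open set `U` the functions `φ a` are `h a` times a square of a meromorphic
  function, `h a` holomorphic with independent differentials (`snc`);
* `exists_t`: the transition functions;
* `mkData`, `evb`, `evb_compact`: the line bundles `L a`, sections `s a` of `(L a) ^ 2`
  (`DCov_426.Data` with `k = 2`), for a compatible atlas.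
-/

set_option autoImplicit false
set_option linter.unusedSectionVars false

open Set Filter Topology Metric

namespace Crest.Agent.R272.Evb_140

open Crest.Agent.R275.Geo Crest.Agent.R275.Core144 Crest.Agent.R275.GC293
open Crest.Agent.R273.Map_835 Crest.Agent.R273.Fam_835 Crest.Agent.R273.PB_835
open Crest.Agent.R272.Quot_783 Crest.Agent.R272.Root_83 Crest.Agent.R272.DCov_426

noncomputable section

variable {n : ℕ} {M : Type} [TopologicalSpace M]

/-! ### functions which vanish nowhere identically -/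

theorem freq_mul {U : Set M} (hU : IsOpen U) {p q : M → ℂ} (hp : ContinuousOn p U)
    (np : ∀ x ∈ U, ∃ᶠ y in 𝓝 x, p y ≠ 0) (nq : ∀ x ∈ U, ∃ᶠ y in 𝓝 x, q y ≠ 0) :
    ∀ x ∈ U, ∃ᶠ y in 𝓝 x, p y * q y ≠ 0 := by
  intro x hx hcon
  have h1 : ∀ᶠ y in 𝓝 x, ∀ᶠ z in 𝓝 y, p z * q z = 0 := by
    rw [eventually_eventually_nhds]
    filter_upwards [hcon] with y hy
    by_contra h
    exact hy h
  obtain ⟨y, hy, hy1, hyU⟩ := ((np x hx).and_eventually (h1.and (hU.mem_nhds hx))).exists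
  apply nq y hyU
  have h2 : ∀ᶠ z in 𝓝 y, p z ≠ 0 := (hp.continuousAt (hU.mem_nhds hyU)).eventually_ne hy
  filter_upwards [h2, hy1] with z hz hz1
  exact not_not.2 ((mul_eq_zero.1 hz1).resolve_left hz)

/-- two continuous functions which agree where `P ≠ 0` agree -/
theorem eq_of_freq {x : M} {t t' P : M → ℂ} (ht : ContinuousAt t x) (ht' : ContinuousAt t' x)
    (hP : ∃ᶠ y in 𝓝 x, P y ≠ 0) (h : ∀ᶠ y in 𝓝 x, t y * P y = t' y * P y) : t x = t' x := by
  by_contra hne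
  have h1 : ∀ᶠ y in 𝓝 x, t y - t' y ≠ 0 := (ht.sub ht').eventually_ne (sub_ne_zero.2 hne)
  obtain ⟨y, hy, hy1, hy2⟩ := (hP.and_eventually (h1.and h)).exists
  exact hy1 (sub_eq_zero.2 (mul_right_cancel₀ hy hy2))

theorem freq_chart {e : OpenPartialHomeomorph M (Cn n)} {x : M} (hx : x ∈ e.source) {p : M → ℂ}
    (hp : ∃ᶠ y in 𝓝 x, p y ≠ 0) : ∃ᶠ z in 𝓝 (e x), p (e.symm z) ≠ 0 := by
  rw [← e.map_nhds_eq hx, frequently_map]
  refine (hp.and_eventually (e.open_source.mem_nhds hx)).mono fun y hy => ?_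
  rw [e.left_inv hy.2]
  exact hy.1

/-! ### local data -/

variable {ρ : Type}

/-- on `U` the function `φ a` is `h a` times the square of the meromorphic function `p a / q a`,
and the `h a` have independent differentials on their zero sets -/
structure Loc (C : Fam n M) (φ : ρ → M → ℂ) (U : Set M) where
  h : ρ → M → ℂ
  p : ρ → M → ℂ
  q : ρ → M → ℂ
  hh : ∀ a, HolF C U (h a)
  hp : ∀ a, HolF C U (p a)
  hq : ∀ a, HolF C U (q a)
  np : ∀ a, ∀ x ∈ U, ∃ᶠ y in 𝓝 x, p a y ≠ 0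
  nq : ∀ a, ∀ x ∈ U, ∃ᶠ y in 𝓝 x, q a y ≠ 0
  eq : ∀ a, ∀ x ∈ U, p a x ≠ 0 → q a x ≠ 0 → φ a x * q a x ^ 2 = h a x * p a x ^ 2
  snc : ∀ x ∈ U, ∃ i, x ∈ (C.e i).source ∧ ∀ w : ρ → ℂ, ∃ v : Cn n, ∀ a, h a x = 0 →
    fderiv ℂ (fun z => h a ((C.e i).symm z)) (C.e i x) v = w a

variable {C : Fam n M} {φ : ρ → M → ℂ} {U U' U'' : Set M}

theorem HolF.contAt {W : Set M} (hW : IsOpen W) {r : M → ℂ} (h : HolF C W r) {x : M}
    (hx : x ∈ W) : ContinuousAt r x :=
  (HolF.continuousOn hW h).continuousAt (hW.mem_nhds hx)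

/-- differential of a holomorphic function in another chart -/
theorem fderiv_chart {A : Fam n M} (hfwd : HolC A C id) {W : Set M} (hW : IsOpen W) {f : M → ℂ}
    (hf : HolF C W f) {x : M} (hxW : x ∈ W) {i : A.ι} {c : C.ι} (hi : x ∈ (A.e i).source)
    (hc : x ∈ (C.e c).source) (v : Cn n) :
    fderiv ℂ (fun z => f ((A.e i).symm z)) (A.e i x) v =
      fderiv ℂ (fun z => f ((C.e c).symm z)) (C.e c x)
        (fderiv ℂ (fun z => C.e c ((A.e i).symm z)) (A.e i x) v) := by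
  have hz : A.e i x ∈ (A.e i).target := (A.e i).map_source hi
  have hxx : (A.e i).symm (A.e i x) = x := (A.e i).left_inv hi
  have h1 : DifferentiableAt ℂ (fun z => C.e c ((A.e i).symm z)) (A.e i x) := by
    have := hfwd.diffAt (i := i) (j := c) hz (by rw [hxx]; exact hc)
    exact this
  have h2 : DifferentiableAt ℂ (fun z => f ((C.e c).symm z)) (C.e c ((A.e i).symm (A.e i x))) := by
    rw [hxx]
    exact HolF.diffAt hW hf hc hxW
  have h3 : (fun z => f ((A.e i).symm z)) =ᶠ[𝓝 (A.e i x)]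
      fun z => (fun z => f ((C.e c).symm z)) (C.e c ((A.e i).symm z)) := by
    have h4 : ∀ᶠ z in 𝓝 (A.e i x), (A.e i).symm z ∈ (C.e c).source :=
      (A.e i).continuousAt_symm hz ((C.e c).open_source.mem_nhds (by rw [hxx]; exact hc))
    filter_upwards [h4] with z hz
    show _ = f ((C.e c).symm (C.e c ((A.e i).symm z)))
    rw [(C.e c).left_inv hz]
  rw [h3.fderiv_eq, fderiv_fun_comp (A.e i x) h2 h1]
  show fderiv ℂ (fun z => f ((C.e c).symm z)) (C.e c ((A.e i).symm (A.e i x))) _ = _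
  rw [hxx]
  rfl

/-- the change of charts is onto on tangent vectors -/
theorem chg_surj {A : Fam n M} (hfwd : HolC A C id) (hbwd : HolC C A id) {x : M} {i : A.ι}
    {c : C.ι} (hi : x ∈ (A.e i).source) (hc : x ∈ (C.e c).source) (v : Cn n) :
    ∃ v', fderiv ℂ (fun z => C.e c ((A.e i).symm z)) (A.e i x) v' = v := by
  have hz : A.e i x ∈ (A.e i).target := (A.e i).map_source hi
  have hxx : (A.e i).symm (A.e i x) = x := (A.e i).left_inv hi
  have hz' : C.e c x ∈ (C.e c).target := (C.e c).map_source hc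
  have hxx' : (C.e c).symm (C.e c x) = x := (C.e c).left_inv hc
  have h1 : DifferentiableAt ℂ (fun z => A.e i ((C.e c).symm z)) (C.e c x) :=
    hbwd.diffAt (i := c) (j := i) hz' (by rw [hxx']; exact hi)
  have h2 : DifferentiableAt ℂ (fun z => C.e c ((A.e i).symm z))
      (A.e i ((C.e c).symm (C.e c x))) := by
    rw [hxx']
    exact hfwd.diffAt (i := i) (j := c) hz (by rw [hxx]; exact hc)
  refine ⟨fderiv ℂ (fun z => A.e i ((C.e c).symm z)) (C.e c x) v, ?_⟩
  have h3 := fderiv_fun_comp (C.e c x) h2 h1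
  have h4 : (fun z => (fun z => C.e c ((A.e i).symm z)) (A.e i ((C.e c).symm z)))
      =ᶠ[𝓝 (C.e c x)] fun z => z := by
    have h5 : ∀ᶠ z in 𝓝 (C.e c x), (C.e c).symm z ∈ (A.e i).source :=
      (C.e c).continuousAt_symm hz' ((A.e i).open_source.mem_nhds (by rw [hxx']; exact hi))
    filter_upwards [h5, (C.e c).open_target.mem_nhds hz'] with z hz1 hz2
    show C.e c ((A.e i).symm (A.e i ((C.e c).symm z))) = z
    rw [(A.e i).left_inv hz1, (C.e c).right_inv hz2]
  rw [h4.fderiv_eq, fderiv_fun_id] at h3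
  have h6 := congrArg (fun T : Cn n →L[ℂ] Cn n => T v) h3
  simp only [ContinuousLinearMap.id_apply, ContinuousLinearMap.comp_apply] at h6
  rw [hxx'] at h6
  exact h6.symm

/-- one colour: smooth -/
theorem Loc.smooth (l : Loc C φ U) (hU : IsOpen U) (a : ρ) {x : M} (hx : x ∈ U) {j : C.ι}
    (hj : x ∈ (C.e j).source) (h0 : l.h a x = 0) :
    fderiv ℂ (fun z => l.h a ((C.e j).symm z)) (C.e j x) ≠ 0 := by
  obtain ⟨i, hi, hs⟩ := l.snc x hx
  obtain ⟨v, hv⟩ := hs fun _ => 1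
  have h1 := hv a h0
  intro hcon
  have h2 := fderiv_chart (HolC.id C) hU (l.hh a) hx hi hj v
  rw [hcon, h1] at h2
  exact one_ne_zero h2

theorem exists_glue {W : Set M} {P Q : M → ℂ}
    (hloc : ∀ x ∈ W, ∃ V, IsOpen V ∧ x ∈ V ∧ V ⊆ W ∧ ∃ t : M → ℂ, HolF C V t ∧
      (∀ y ∈ V, t y ≠ 0) ∧ ∀ y ∈ V, t y * P y = Q y)
    (nP : ∀ x ∈ W, ∃ᶠ y in 𝓝 x, P y ≠ 0) :
    ∃ t : M → ℂ, HolF C W t ∧ (∀ y ∈ W, t y ≠ 0) ∧ ∀ y ∈ W, t y * P y = Q y := by
  classical
  choose! V hVo hxV hVW t ht hne htP using hloc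
  have key : ∀ x ∈ W, ∀ y ∈ V x, t y y = t x y := by
    intro x hx y hy
    have hyW : y ∈ W := hVW x hx hy
    refine eq_of_freq (HolF.contAt (hVo y hyW) (ht y hyW) (hxV y hyW))
      (HolF.contAt (hVo x hx) (ht x hx) hy) (nP y hyW) ?_
    filter_upwards [(hVo y hyW).mem_nhds (hxV y hyW), (hVo x hx).mem_nhds hy] with z hz1 hz2
    rw [htP y hyW z hz1, htP x hx z hz2]
  refine ⟨fun y => t y y, fun j z hz => ?_, fun y hy => hne y hy y (hxV y hy),
    fun y hy => htP y hy y (hxV y hy)⟩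
  have hx : (C.e j).symm z ∈ W := hz.2
  have hxV' := hxV _ hx
  have h1 : DifferentiableAt ℂ (fun w => t ((C.e j).symm z) ((C.e j).symm w)) z :=
    ((ht _ hx) j).differentiableAt (((C.e j).isOpen_inter_preimage_symm (hVo _ hx)).mem_nhds
      ⟨hz.1, hxV'⟩)
  refine (h1.congr_of_eventuallyEq ?_).differentiableWithinAt
  filter_upwards [((C.e j).isOpen_inter_preimage_symm (hVo _ hx)).mem_nhds ⟨hz.1, hxV'⟩]
    with w hw
  exact key _ hx _ hw.2

/-- the two local equations agree up to the square of `t` -/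
theorem Loc.eq2 (hU : IsOpen U) (hU' : IsOpen U') (l : Loc C φ U) (l' : Loc C φ U') (a : ρ)
    {x : M} (hx : x ∈ U ∩ U') :
    l.h a x * (l.p a x * l'.q a x) ^ 2 = l'.h a x * (l'.p a x * l.q a x) ^ 2 := by
  have hO : IsOpen (U ∩ U') := hU.inter hU'
  have c1 : ∀ {f : M → ℂ}, HolF C U f → ContinuousAt f x := fun hf => HolF.contAt hU hf hx.1
  have c2 : ∀ {f : M → ℂ}, HolF C U' f → ContinuousAt f x := fun hf => HolF.contAt hU' hf hx.2
  have n1 := freq_mul hO ((HolF.continuousOn hU (l.hp a)).mono inter_subset_left)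
    (fun y hy => l.np a y hy.1) (fun y hy => l'.nq a y hy.2)
  have n2 := freq_mul hO ((HolF.continuousOn hU' (l'.hp a)).mono inter_subset_right)
    (fun y hy => l'.np a y hy.2) (fun y hy => l.nq a y hy.1)
  have n3 := freq_mul hO (((HolF.continuousOn hU (l.hp a)).mono inter_subset_left).mul
    ((HolF.continuousOn hU' (l'.hq a)).mono inter_subset_right)) n1 n2
  refine eq_of_freq (t := fun x => l.h a x * (l.p a x * l'.q a x) ^ 2)
    (t' := fun x => l'.h a x * (l'.p a x * l.q a x) ^ 2) ((c1 (l.hh a)).mul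
    (((c1 (l.hp a)).mul (c2 (l'.hq a))).pow 2)) ((c2 (l'.hh a)).mul
    (((c2 (l'.hp a)).mul (c1 (l.hq a))).pow 2)) (n3 x hx) ?_
  filter_upwards [hO.mem_nhds hx] with y hy
  by_cases h0 : (l.p a y * l'.q a y) * (l'.p a y * l.q a y) = 0
  · simp only [Pi.mul_apply, h0, mul_zero]
  · simp only [mul_eq_zero, not_or] at h0
    have e1 := l.eq a y hy.1 h0.1.1 h0.2.2
    have e2 := l'.eq a y hy.2 h0.2.1 h0.1.2
    congr 1
    linear_combination (-(l'.q a y) ^ 2) * e1 + (l.q a y) ^ 2 * e2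

/-- **the transition functions** -/
theorem exists_t (hU : IsOpen U) (hU' : IsOpen U') (l : Loc C φ U) (l' : Loc C φ U') (a : ρ) :
    ∃ t : M → ℂ, HolF C (U ∩ U') t ∧ (∀ y ∈ U ∩ U', t y ≠ 0) ∧
      ∀ y ∈ U ∩ U', t y * (l.p a y * l'.q a y) = l'.p a y * l.q a y := by
  have hO : IsOpen (U ∩ U') := hU.inter hU'
  have n1 := freq_mul hO ((HolF.continuousOn hU (l.hp a)).mono inter_subset_left)
    (fun y hy => l.np a y hy.1) (fun y hy => l'.nq a y hy.2)
  have n2 := freq_mul hO ((HolF.continuousOn hU' (l'.hp a)).mono inter_subset_right)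
    (fun y hy => l'.np a y hy.2) (fun y hy => l.nq a y hy.1)
  refine exists_glue (fun x hx => ?_) n1
  obtain ⟨i, hi⟩ := C.cover x
  set Ω := (C.e i).target ∩ (C.e i).symm ⁻¹' (U ∩ U') with hΩ
  have hΩo : IsOpen Ω := (C.e i).isOpen_inter_preimage_symm hO
  have hz0 : C.e i x ∈ Ω := ⟨(C.e i).map_source hi, by
    rw [mem_preimage, (C.e i).left_inv hi]; exact hx⟩
  have r1 : ∀ {f : M → ℂ}, HolF C U f → DifferentiableOn ℂ (fun z => f ((C.e i).symm z)) Ω :=
    fun hf => (hf i).mono fun z hz => ⟨hz.1, hz.2.1⟩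
  have r2 : ∀ {f : M → ℂ}, HolF C U' f → DifferentiableOn ℂ (fun z => f ((C.e i).symm z)) Ω :=
    fun hf => (hf i).mono fun z hz => ⟨hz.1, hz.2.2⟩
  have fr : ∀ {f : M → ℂ}, (∀ x ∈ U ∩ U', ∃ᶠ y in 𝓝 x, f y ≠ 0) → ∀ z ∈ Ω,
      ∃ᶠ w in 𝓝 z, f ((C.e i).symm w) ≠ 0 := by
    intro f hf z hz
    have h1 := freq_chart ((C.e i).map_target hz.1) (hf _ hz.2)
    rwa [(C.e i).right_inv hz.1] at h1
  obtain ⟨V, hV, hxV, hVΩ, t, ht, hne, htP⟩ := exists_unit_cn (U := Ω) hΩo
    (h := fun z => l.h a ((C.e i).symm z)) (h' := fun z => l'.h a ((C.e i).symm z))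
    (P := fun z => l.p a ((C.e i).symm z) * l'.q a ((C.e i).symm z))
    (Q := fun z => l'.p a ((C.e i).symm z) * l.q a ((C.e i).symm z))
    (r1 (l.hh a)) (r2 (l'.hh a)) ((r1 (l.hp a)).mul (r2 (l'.hq a)))
    ((r2 (l'.hp a)).mul (r1 (l.hq a))) (fun z hz => Loc.eq2 hU hU' l l' a hz.2)
    (fr n1) (fr n2) (fun z hz h0 => by
      have h1 := l.smooth hU a hz.2.1 ((C.e i).map_target hz.1) h0
      rwa [(C.e i).right_inv hz.1] at h1) (fun z hz h0 => by
      have h1 := l'.smooth hU' a hz.2.2 ((C.e i).map_target hz.1) h0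
      rwa [(C.e i).right_inv hz.1] at h1) hz0
  have hVs : ∀ y ∈ (C.e i).source ∩ (C.e i) ⁻¹' V, y ∈ U ∩ U' := fun y hy => by
    have := (hVΩ hy.2).2
    rwa [mem_preimage, (C.e i).left_inv hy.1] at this
  refine ⟨(C.e i).source ∩ (C.e i) ⁻¹' V, (C.e i).isOpen_inter_preimage hV, ⟨hi, hxV⟩, hVs,
    fun y => t (C.e i y), holF_of_chart C i ht fun y hy => hy, fun y hy => hne _ hy.2,
    fun y hy => ?_⟩
  have := htP _ hy.2
  simpa only [(C.e i).left_inv hy.1] using this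

/-! ### the line bundles -/

section Build

variable [Fintype ρ] {A : Atl n M} (hc : Cmp C A) {κ : Type*} {O : κ → Set M}
  (hO : ∀ k, IsOpen (O k)) (l : ∀ k, Loc C φ (O k)) (k : A.ι → κ)
  (hk : ∀ i, (A.e i).source ⊆ O (k i))

theorem holAt_of_holF (hc : Cmp C A) {W : Set M} (hW : IsOpen W) {f : M → ℂ} (hf : HolF C W f)
    (i : A.ι) : HolAt A i W f := by
  intro z hz
  obtain ⟨c, hcx⟩ := C.cover ((A.e i).symm z)
  have h1 : DifferentiableAt ℂ (fun z => C.e c ((A.e i).symm z)) z :=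
    hc.fwd.diffAt (i := i) (j := c) hz.1 hcx
  have h2 : DifferentiableAt ℂ (fun z => f ((C.e c).symm z)) (C.e c ((A.e i).symm z)) :=
    HolF.diffAt hW hf hcx hz.2
  have h3 := DifferentiableAt.comp z (g := fun z => f ((C.e c).symm z)) h2 h1
  refine (h3.congr_of_eventuallyEq ?_).differentiableWithinAt
  have h4 : ∀ᶠ w in 𝓝 z, (A.e i).symm w ∈ (C.e c).source :=
    (A.e i).continuousAt_symm hz.1 ((C.e c).open_source.mem_nhds hcx)
  filter_upwards [h4] with w hw
  show _ = f ((C.e c).symm (C.e c ((A.e i).symm w)))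
  rw [(C.e c).left_inv hw]

/-- transition function (chosen) -/
def T (a : ρ) (j j' : κ) : M → ℂ := (exists_t (hO j) (hO j') (l j) (l j') a).choose

theorem T_hol (a : ρ) (j j' : κ) : HolF C (O j ∩ O j') (T hO l a j j') :=
  (exists_t (hO j) (hO j') (l j) (l j') a).choose_spec.1

theorem T_ne (a : ρ) (j j' : κ) : ∀ y ∈ O j ∩ O j', T hO l a j j' y ≠ 0 :=
  (exists_t (hO j) (hO j') (l j) (l j') a).choose_spec.2.1

theorem T_eq (a : ρ) (j j' : κ) : ∀ y ∈ O j ∩ O j',
    T hO l a j j' y * ((l j).p a y * (l j').q a y) = (l j').p a y * (l j).q a y :=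
  (exists_t (hO j) (hO j') (l j) (l j') a).choose_spec.2.2

theorem T_cont (a : ρ) (j j' : κ) {x : M} (hx : x ∈ O j ∩ O j') :
    ContinuousAt (T hO l a j j') x :=
  HolF.contAt ((hO j).inter (hO j')) (T_hol hO l a j j') hx

include hO in
theorem freq_pq (a : ρ) (j j' : κ) : ∀ x ∈ O j ∩ O j',
    ∃ᶠ y in 𝓝 x, (l j).p a y * (l j').q a y ≠ 0 :=
  freq_mul ((hO j).inter (hO j')) ((HolF.continuousOn (hO j) ((l j).hp a)).mono inter_subset_left)
    (fun y hy => (l j).np a y hy.1) (fun y hy => (l j').nq a y hy.2)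

theorem T_self (a : ρ) (j : κ) {x : M} (hx : x ∈ O j) : T hO l a j j x = 1 := by
  refine eq_of_freq (t' := fun _ => 1) (T_cont hO l a j j ⟨hx, hx⟩) continuousAt_const
    (freq_pq hO l a j j x ⟨hx, hx⟩) ?_
  filter_upwards [(hO j).mem_nhds hx] with y hy
  rw [T_eq hO l a j j y ⟨hy, hy⟩, one_mul]

theorem T_mul (a : ρ) (j j' j'' : κ) {x : M} (hx : x ∈ O j) (hx' : x ∈ O j') (hx'' : x ∈ O j'') :
    T hO l a j j' x * T hO l a j' j'' x = T hO l a j j'' x := by
  have hop : IsOpen (O j ∩ O j' ∩ O j'') := ((hO j).inter (hO j')).inter (hO j'')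
  have n3 := freq_mul hop (((HolF.continuousOn (hO j) ((l j).hp a)).mono
    (fun y (hy : y ∈ O j ∩ O j' ∩ O j'') => hy.1.1)).mul
    ((HolF.continuousOn (hO j') ((l j').hq a)).mono fun y hy => hy.1.2))
    (fun y hy => freq_pq hO l a j j' y hy.1) (fun y hy => freq_pq hO l a j' j'' y ⟨hy.1.2, hy.2⟩)
  refine eq_of_freq (t := fun x => T hO l a j j' x * T hO l a j' j'' x)
    ((T_cont hO l a j j' ⟨hx, hx'⟩).mul (T_cont hO l a j' j'' ⟨hx', hx''⟩))
    (T_cont hO l a j j'' ⟨hx, hx''⟩) (n3 x ⟨⟨hx, hx'⟩, hx''⟩) ?_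
  filter_upwards [hop.mem_nhds ⟨⟨hx, hx'⟩, hx''⟩] with y hy
  have e1 := T_eq hO l a j j' y hy.1
  have e2 := T_eq hO l a j' j'' y ⟨hy.1.2, hy.2⟩
  have e3 := T_eq hO l a j j'' y ⟨hy.1.1, hy.2⟩
  simp only [Pi.mul_apply]
  linear_combination (T hO l a j' j'' y * (l j').p a y * (l j'').q a y) * e1 +
    ((l j').p a y * (l j).q a y) * e2 - ((l j').p a y * (l j').q a y) * e3

theorem T_sq (a : ρ) (j j' : κ) {x : M} (hx : x ∈ O j ∩ O j') :
    (l j).h a x = T hO l a j j' x ^ 2 * (l j').h a x := by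
  have hop : IsOpen (O j ∩ O j') := (hO j).inter (hO j')
  have n1 := freq_pq hO l a j j'
  have n2 := freq_mul hop (((HolF.continuousOn (hO j) ((l j).hp a)).mono
    (fun y (hy : y ∈ O j ∩ O j') => hy.1)).mul
    ((HolF.continuousOn (hO j') ((l j').hq a)).mono fun y hy => hy.2)) n1 n1
  refine eq_of_freq (t' := fun x => T hO l a j j' x ^ 2 * (l j').h a x)
    (HolF.contAt (hO j) ((l j).hh a) hx.1) (((T_cont hO l a j j' hx).pow 2).mul
    (HolF.contAt (hO j') ((l j').hh a) hx.2)) (n2 x hx) ?_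
  filter_upwards [hop.mem_nhds hx] with y hy
  have e1 := T_eq hO l a j j' y hy
  have e2 := Loc.eq2 (hO j) (hO j') (l j) (l j') a hy
  simp only [Pi.mul_apply]
  linear_combination e2 - ((l j').h a y) * (T hO l a j j' y * ((l j).p a y * (l j').q a y) +
    (l j').p a y * (l j).q a y) * e1

open Classical in
/-- **the line bundle** -/
def mkLB (a : ρ) : LB A where
  g i j x := if x ∈ (A.e i).source ∩ (A.e j).source then T hO l a (k i) (k j) x else 1
  hol i j := by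
    have h1 := holAt_of_holF hc ((hO (k i)).inter (hO (k j))) (T_hol hO l a (k i) (k j)) i
    have h2 : HolAt A i ((A.e i).source ∩ (A.e j).source) (T hO l a (k i) (k j)) :=
      h1.mono fun x hx => ⟨hk i hx.1, hk j hx.2⟩
    intro z hz
    have h3 := h2 z ⟨hz.1, (A.e i).map_target hz.1, hz.2⟩
    have hop : IsOpen ((A.e i).target ∩ (A.e i).symm ⁻¹' (A.e j).source) :=
      (A.e i).isOpen_inter_preimage_symm (A.e j).open_source
    refine DifferentiableWithinAt.congr (h3.mono fun w hw =>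
      ⟨hw.1, (A.e i).map_target hw.1, hw.2⟩) (fun w hw => ?_) ?_
    · exact if_pos ⟨(A.e i).map_target hw.1, hw.2⟩
    · exact if_pos ⟨(A.e i).map_target hz.1, hz.2⟩
  off i j x hx := if_neg hx
  self i x := by
    by_cases hx : x ∈ (A.e i).source ∩ (A.e i).source
    · rw [if_pos hx]
      exact T_self hO l a (k i) (hk i hx.1)
    · exact if_neg hx
  mul i j m x hx := by
    rw [if_pos hx.1, if_pos ⟨hx.1.2, hx.2⟩, if_pos ⟨hx.1.1, hx.2⟩]
    exact T_mul hO l a (k i) (k j) (k m) (hk i hx.1.1) (hk j hx.1.2) (hk m hx.2)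

theorem mkLB_g (a : ρ) {i j : A.ι} {x : M} (hx : x ∈ (A.e i).source ∩ (A.e j).source) :
    (mkLB hc hO l k hk a).g i j x = T hO l a (k i) (k j) x := if_pos hx

open Classical in
/-- the section -/
def mkS (a : ρ) : A.ι → M → ℂ := fun i x => if x ∈ (A.e i).source then (l (k i)).h a x else 0

theorem mkS_eq (a : ρ) {i : A.ι} {x : M} (hx : x ∈ (A.e i).source) :
    mkS l k a i x = (l (k i)).h a x := if_pos hx

/-- **`DCov.Data` from local square classes** -/
def mkData : Data A ρ where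
  L := mkLB hc hO l k hk
  k _ := 2
  s := mkS l k
  kpos _ := two_pos
  hs a := by
    refine ⟨fun i => ?_, fun i x hx => if_neg hx, fun i j x hx _ => ?_⟩
    · have h1 := holAt_of_holF hc (hO (k i)) ((l (k i)).hh a) i
      have h2 : HolAt A i (A.e i).source (mkS l k a i) :=
        (h1.mono (hk i)).congr fun x hx _ => (mkS_eq l k a hx).symm
      exact DifferentiableOn.mono h2 fun z hz => ⟨hz.1, (A.e i).map_target hz.1⟩
    · rw [LB_pow_g, mkS_eq l k a hx.1, mkS_eq l k a hx.2, mkLB_g hc hO l k hk a hx]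
      exact T_sq hO l a (k i) (k j) ⟨hk i hx.1, hk j hx.2⟩
  snc i x hx w := by
    obtain ⟨c, hcx, hs⟩ := (l (k i)).snc x (hk i hx)
    obtain ⟨v, hv⟩ := hs w
    obtain ⟨v', hv'⟩ := chg_surj hc.fwd hc.bwd (i := i) (c := c) hx hcx v
    refine ⟨v', fun a h0 => ?_⟩
    rw [mkS_eq l k a hx] at h0
    have h1 : (fun z => mkS l k a i ((A.e i).symm z)) =ᶠ[𝓝 (A.e i x)]
        fun z => (l (k i)).h a ((A.e i).symm z) := by
      filter_upwards [(A.e i).open_target.mem_nhds ((A.e i).map_source hx)] with z hz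
      exact mkS_eq l k a ((A.e i).map_target hz)
    rw [h1.fderiv_eq]
    have h2 := fderiv_chart (A := fam A) hc.fwd (hO (k i)) ((l (k i)).hh a) (hk i hx) (i := i)
      (c := c) hx hcx v'
    refine h2.trans ?_
    have h3 := hv a h0
    rw [← h3, ← hv']

theorem mkData_k (a : ρ) : (mkData hc hO l k hk).k a = 2 := rfl

theorem mkData_s (a : ρ) {i : A.ι} {x : M} (hx : x ∈ (A.e i).source) :
    (mkData hc hO l k hk).s a i x = (l (k i)).h a x := if_pos hx

/-- the meromorphic identity `φ a = s a * (p a / q a) ^ 2` -/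
theorem mkData_eq (a : ρ) {i : A.ι} {x : M} (hx : x ∈ (A.e i).source)
    (hp : (l (k i)).p a x ≠ 0) (hq : (l (k i)).q a x ≠ 0) :
    φ a x * (l (k i)).q a x ^ 2 = (mkData hc hO l k hk).s a i x * (l (k i)).p a x ^ 2 := by
  rw [mkData_s hc hO l k hk a hx]
  exact (l (k i)).eq a x (hk i hx) hp hq

/-- the frames: `g i j * (p i * q j) = p j * q i` -/
theorem mkData_g (a : ρ) {i j : A.ι} {x : M} (hx : x ∈ (A.e i).source ∩ (A.e j).source) :
    ((mkData hc hO l k hk).L a).g i j x * ((l (k i)).p a x * (l (k j)).q a x) =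
      (l (k j)).p a x * (l (k i)).q a x := by
  have h1 : ((mkData hc hO l k hk).L a).g i j x = T hO l a (k i) (k j) x := if_pos hx
  rw [h1]
  exact T_eq hO l a (k i) (k j) x ⟨hk i hx.1, hk j hx.2⟩

end Build

/-- **EVB**: line bundles and sections from local square classes (any manifold) -/
theorem evb [Fintype ρ] (hloc : ∀ x, ∃ U, IsOpen U ∧ x ∈ U ∧ Nonempty (Loc C φ U)) :
    ∃ (A : Atl n M) (_ : Cmp C A) (D : Data A ρ), (∀ a, D.k a = 2) ∧
      ∀ i, ∃ U, IsOpen U ∧ (A.e i).source ⊆ U ∧ ∃ l : Loc C φ U, ∀ a, ∀ x ∈ (A.e i).source,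
        D.s a i x = l.h a x := by
  choose O hO hxO hl using hloc
  let l : ∀ x, Loc C φ (O x) := fun x => (hl x).some
  have hOc : ∀ x, ∃ k, x ∈ O k := fun x => ⟨x, hxO x⟩
  refine ⟨locAtl C O hO hOc, cmp_locAtl C O hO hOc,
    mkData (cmp_locAtl C O hO hOc) hO l (fun i => LI.k i) (fun i => LI.source_sub i),
    fun a => rfl, fun i => ⟨O (LI.k i), hO _, LI.source_sub i, l (LI.k i), fun a x hx => ?_⟩⟩
  exact mkData_s (cmp_locAtl C O hO hOc) hO l (fun i => LI.k i) (fun i => LI.source_sub i) a hx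

/-- **EVB**, compact case: finite good atlas with partition of unity -/
theorem evb_compact [Fintype ρ] [CompactSpace M] [T2Space M]
    (hloc : ∀ x, ∃ U, IsOpen U ∧ x ∈ U ∧ Nonempty (Loc C φ U)) :
    ∃ (A : Atl n M) (_ : Cmp C A) (D : Data A ρ), Finite A.ι ∧ GoodA A ∧ Nonempty (Part A) ∧
      (∀ a, D.k a = 2) ∧
      ∀ i, ∃ U, IsOpen U ∧ (A.e i).source ⊆ U ∧ ∃ l : Loc C φ U, ∀ a, ∀ x ∈ (A.e i).source,
        D.s a i x = l.h a x := by
  choose O hO hxO hl using hloc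
  let l : ∀ x, Loc C φ (O x) := fun x => (hl x).some
  obtain ⟨A, h1, h2, h3, h4, h5⟩ := exists_cmp C O hO fun x => ⟨x, hxO x⟩
  choose k hk using h4
  exact ⟨A, h5, mkData h5 hO l k hk, h1, h2, h3, fun a => rfl,
    fun i => ⟨O (k i), hO _, hk i, l (k i), fun a x hx => mkData_s h5 hO l k hk a hx⟩⟩

end

end Crest.Agent.R272.Evb_140
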