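import Crest.Agent.R272.Evb2_140
import Crest.Agent.R272.Root5_83

/-!
# R272 (S0414), S14-EVB (helper140), part 3: coherence and the root functions

* `Coh C φ A D` : one choice of local square classes, one for each chart of `A`, coherent with the
  transition functions of the line bundles of `D : DCov_426.Data A ρ`;
* `exists_coh`, `exists_coh_compact`;
* `Coh.exists_m` : on the cover `D.X` the function `φ a ∘ p` has a holomorphic square root `m` over
  the open set where `φ a` is holomorphic, and `m * q = y a i * p` in every chart `i`.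
-/

set_option autoImplicit false
set_option linter.unusedSectionVars false

open Set Filter Topology Metric

namespace Crest.Agent.R272.Evb_140

open Crest.Agent.R275.Geo Crest.Agent.R275.Core144 Crest.Agent.R275.GC293
open Crest.Agent.R273.Map_835 Crest.Agent.R273.Fam_835 Crest.Agent.R273.PB_835
open Crest.Agent.R272.Quot_783 Crest.Agent.R272.Root_83 Crest.Agent.R272.DCov_426

noncomputable section

variable {n : ℕ} {M : Type} [TopologicalSpace M] {ρ : Type} [Fintype ρ]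

/-- coherent local square classes -/
structure Coh (C : Fam n M) (φ : ρ → M → ℂ) (A : Atl n M) (D : Data A ρ) where
  U : A.ι → Set M
  l : ∀ i, Loc C φ (U i)
  hU : ∀ i, IsOpen (U i)
  sub : ∀ i, (A.e i).source ⊆ U i
  cmp : Cmp C A
  k2 : ∀ a, D.k a = 2
  s_eq : ∀ a i, ∀ x ∈ (A.e i).source, D.s a i x = (l i).h a x
  coh : ∀ a i j, ∀ x ∈ (A.e i).source ∩ (A.e j).source,
    (D.L a).g i j x * ((l i).p a x * (l j).q a x) = (l j).p a x * (l i).q a x

variable {C : Fam n M} {φ : ρ → M → ℂ}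

/-- the coherent data of `mkData` -/
def mkCoh {A : Atl n M} (hc : Cmp C A) {κ : Type*} {O : κ → Set M} (hO : ∀ k, IsOpen (O k))
    (l : ∀ k, Loc C φ (O k)) (k : A.ι → κ) (hk : ∀ i, (A.e i).source ⊆ O (k i)) :
    Coh C φ A (mkData hc hO l k hk) where
  U i := O (k i)
  l i := l (k i)
  hU i := hO (k i)
  sub := hk
  cmp := hc
  k2 _ := rfl
  s_eq a _ _ hx := mkData_s hc hO l k hk a hx
  coh a _ _ _ hx := mkData_g hc hO l k hk a hx

theorem exists_coh (hloc : ∀ x, ∃ U, IsOpen U ∧ x ∈ U ∧ Nonempty (Loc C φ U)) :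
    ∃ (A : Atl n M) (D : Data A ρ), Nonempty (Coh C φ A D) := by
  choose O hO hxO hl using hloc
  exact ⟨locAtl C O hO fun x => ⟨x, hxO x⟩, _, ⟨mkCoh (cmp_locAtl C O hO fun x => ⟨x, hxO x⟩) hO
    (fun x => (hl x).some) (fun i => LI.k i) fun i => LI.source_sub i⟩⟩

theorem exists_coh_compact [CompactSpace M] [T2Space M]
    (hloc : ∀ x, ∃ U, IsOpen U ∧ x ∈ U ∧ Nonempty (Loc C φ U)) :
    ∃ (A : Atl n M) (D : Data A ρ), Nonempty (Coh C φ A D) ∧ Finite A.ι ∧ GoodA A ∧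
      Nonempty (Part A) := by
  choose O hO hxO hl using hloc
  obtain ⟨A, h1, h2, h3, h4, h5⟩ := exists_cmp C O hO fun x => ⟨x, hxO x⟩
  choose k hk using h4
  exact ⟨A, _, ⟨mkCoh h5 hO (fun x => (hl x).some) k hk⟩, h1, h2, h3⟩

theorem holF_of_HG {X : Type} [TopologicalSpace X] {B : Fam n X} {W : Set X} {f : X → ℂ}
    (h : ∀ x ∈ W, HG B x f) : HolF B W f := by
  intro j z hz
  obtain ⟨U, hU, hx, h1⟩ := h _ hz.2
  exact ((h1 j).differentiableAt (((B.e j).isOpen_inter_preimage_symm hU).mem_nhds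
    ⟨hz.1, hx⟩)).differentiableWithinAt

namespace Coh

variable {A : Atl n M} {D : Data A ρ} (E : Coh C φ A D)

/-- the local identity `φ q² = s p²` at all points where `φ` is holomorphic -/
theorem eq_all (a : ρ) {W : Set M} (hW : IsOpen W) (hφ : HolF C W (φ a)) {i : A.ι} {x : M}
    (hx : x ∈ (A.e i).source) (hxW : x ∈ W) :
    φ a x * (E.l i).q a x ^ 2 = D.s a i x * (E.l i).p a x ^ 2 := by
  rw [E.s_eq a i x hx]
  have hxU := E.sub i hx
  have c1 : ∀ {f : M → ℂ}, HolF C (E.U i) f → ContinuousAt f x := fun hf =>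
    HolF.contAt (E.hU i) hf hxU
  refine eq_of_freq (t := fun x => φ a x * (E.l i).q a x ^ 2)
    (t' := fun x => (E.l i).h a x * (E.l i).p a x ^ 2) ((HolF.contAt hW hφ hxW).mul
    ((c1 ((E.l i).hq a)).pow 2)) ((c1 ((E.l i).hh a)).mul ((c1 ((E.l i).hp a)).pow 2))
    (freq_mul (E.hU i) (HolF.continuousOn (E.hU i) ((E.l i).hp a)) (fun y hy => (E.l i).np a y hy)
      (fun y hy => (E.l i).nq a y hy) x hxU) ?_
  filter_upwards [(E.hU i).mem_nhds hxU] with y hy
  by_cases h0 : (E.l i).p a y * (E.l i).q a y = 0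
  · simp only [h0, mul_zero]
  · simp only [mul_eq_zero, not_or] at h0
    rw [(E.l i).eq a y hy h0.1 h0.2]

include E in
theorem holC_p' : HolC D.famX C D.p := E.cmp.fwd.comp D.holC_p


theorem hG_y (a : ρ) {i : A.ι} {x : D.X} (hx : D.p x ∈ (A.e i).source) :
    HG D.famX x (D.y a i) := by
  refine ⟨D.p ⁻¹' (A.e i).source, (A.e i).open_source.preimage D.continuous_p, hx, fun c => ?_⟩
  intro z hz
  exact (D.y_diffAt a hz.1 hz.2).differentiableWithinAt

theorem freq_p (f : M → ℂ) {W : Set M} (hW : IsOpen W) (hf : HolF C W f)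
    (hn : ∀ x ∈ W, ∃ᶠ y in 𝓝 x, f y ≠ 0) {x : D.X} (hx : D.p x ∈ W) :
    ∃ᶠ y in 𝓝 x, f (D.p y) ≠ 0 :=
  (dom_of_open (C := C) (D := D.famX) D.isOpenMap_p D.continuous_p).freq ⟨W, hW, hx, hf⟩ (hn _ hx)

/-- **the root of `φ a` on the cover** -/
theorem exists_m (a : ρ) {W : Set M} (hW : IsOpen W) (hφ : HolF C W (φ a)) :
    ∃ m : D.X → ℂ, HolF D.famX (D.p ⁻¹' W) m ∧ (∀ x, D.p x ∈ W → m x ^ 2 = φ a (D.p x)) ∧
      ∀ (i : A.ι) (x : D.X), D.p x ∈ (A.e i).source → D.p x ∈ W →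
        m x * (E.l i).q a (D.p x) = D.y a i x * (E.l i).p a (D.p x) := by
  classical
  have hcp : HolC D.famX C D.p := E.holC_p'
  -- local roots
  have hloc : ∀ x : {x : D.X // D.p x ∈ W}, ∃ (i : A.ι) (V : Set D.X) (r : D.X → ℂ),
      IsOpen V ∧ x.1 ∈ V ∧
      (∀ y ∈ V, D.p y ∈ (A.e i).source ∧ D.p y ∈ W) ∧ HolF D.famX V r ∧
      (∀ y ∈ V, r y ^ 2 = φ a (D.p y)) ∧
      ∀ y ∈ V, r y * (E.l i).q a (D.p y) = D.y a i y * (E.l i).p a (D.p y) := by
    rintro ⟨x, hxW⟩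
    obtain ⟨i, hi⟩ := A.cover (D.p x)
    set O : Set D.X := D.p ⁻¹' (W ∩ (A.e i).source) with hO
    have hOo : IsOpen O := (hW.inter (A.e i).open_source).preimage D.continuous_p
    have g : ∀ {f : M → ℂ} {W' : Set M}, IsOpen W' → HolF C W' f → (W ∩ (A.e i).source) ⊆ W' →
        HolF D.famX O (fun y => f (D.p y)) := fun hW' hf hs =>
      holF_of_HG fun y hy => HG.comp ⟨_, hW', hs hy, hf⟩ hcp
    have hsU : (W ∩ (A.e i).source) ⊆ E.U i := fun y hy => E.sub i hy.2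
    have hyO : HolF D.famX O (D.y a i) := holF_of_HG fun y hy => hG_y a hy.2
    obtain ⟨V, hV, hxV, hVO, r, hr, hr2, hra⟩ := exists_root_frac D.famX hOo
      (f := fun y => φ a (D.p y)) (a := fun y => (E.l i).q a (D.p y))
      (b := fun y => D.y a i y * (E.l i).p a (D.p y))
      (g hW hφ inter_subset_left) (g (E.hU i) ((E.l i).hq a) hsU)
      (Root_83.HolF.mul hyO (g (E.hU i) ((E.l i).hp a) hsU)) (fun y hy => by
        have h1 := E.eq_all a hW hφ hy.2 hy.1
        have h2 := D.y_pow a hy.2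
        rw [E.k2 a] at h2
        rw [h1, ← h2]
        ring) (x := x) ⟨hxW, hi⟩
      (freq_p _ (E.hU i) ((E.l i).hq a) ((E.l i).nq a) (hsU ⟨hxW, hi⟩))
    exact ⟨i, V, r, hV, hxV, fun y hy => ⟨(hVO hy).2, (hVO hy).1⟩, hr, hr2, hra⟩
  choose i V r hV hxV hVs hr hr2 hra using hloc
  -- comparison of the charts
  have cmp : ∀ (x : {x : D.X // D.p x ∈ W}) (y : D.X) (_ : y ∈ V x) (j : A.ι)
      (_ : D.p y ∈ (A.e j).source),
      r x y * (E.l (i x)).q a (D.p y) * (E.l j).q a (D.p y) =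
        D.y a j y * (E.l j).p a (D.p y) * (E.l (i x)).q a (D.p y) := by
    intro x y hy j hj
    have h1 := hra x y hy
    have h2 := E.coh a (i x) j (D.p y) ⟨(hVs x y hy).1, hj⟩
    have h3 := D.y_tr a (q := y) (hVs x y hy).1 hj
    rw [h1, h3]
    linear_combination (D.y a j y) * h2
  have key : ∀ (x : {x : D.X // D.p x ∈ W}) (y : D.X) (_ : y ∈ V x) (j : A.ι)
      (_ : D.p y ∈ (A.e j).source),
      r x y * (E.l j).q a (D.p y) = D.y a j y * (E.l j).p a (D.p y) := by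
    intro x y hy j hj
    have hyW := (hVs x y hy).2
    have hcq : ∀ (j : A.ι) (_ : D.p y ∈ (A.e j).source) {f : M → ℂ}, HolF C (E.U j) f →
        ContinuousAt (fun y => f (D.p y)) y := fun j hj f hf =>
      (HG.comp (C := C) ⟨_, E.hU j, E.sub j hj, hf⟩ hcp).continuousAt
    refine eq_of_freq (t := fun y => r x y * (E.l j).q a (D.p y))
      (t' := fun y => D.y a j y * (E.l j).p a (D.p y))
      (P := fun y => (E.l (i x)).q a (D.p y))
      ((HolF.contAt (hV x) (hr x) hy).mul (hcq j hj ((E.l j).hq a)))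
      ((hG_y a hj).continuousAt.mul (hcq j hj ((E.l j).hp a)))
      (freq_p _ (E.hU _) ((E.l _).hq a) ((E.l _).nq a) (E.sub _ (hVs x y hy).1)) ?_
    filter_upwards [(hV x).mem_nhds hy,
      ((A.e j).open_source.preimage D.continuous_p).mem_nhds hj] with z hz hzj
    have := cmp x z hz j hzj
    linear_combination this
  have glue : ∀ (x x' : {x : D.X // D.p x ∈ W}) (y : D.X) (_ : y ∈ V x) (_ : y ∈ V x'),
      r x y = r x' y := by
    intro x x' y hy hy'
    refine eq_of_freq (P := fun y' => (E.l (i x)).q a (D.p y'))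
      (HolF.contAt (hV x) (hr x) hy) (HolF.contAt (hV x') (hr x') hy')
      (freq_p _ (E.hU _) ((E.l _).hq a) ((E.l _).nq a) (E.sub _ (hVs x y hy).1)) ?_
    filter_upwards [(hV x).mem_nhds hy, (hV x').mem_nhds hy'] with z hz1 hz2
    rw [hra x z hz1, key x' z hz2 (i x) (hVs x z hz1).1]
  set m : D.X → ℂ := fun y => if h : D.p y ∈ W then r ⟨y, h⟩ y else 0 with hm
  have hmr : ∀ (x : {x : D.X // D.p x ∈ W}) (y : D.X) (_ : y ∈ V x), m y = r x y := by
    intro x y hy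
    have hyW := (hVs x y hy).2
    simp only [hm, dif_pos hyW]
    exact glue _ _ y (hxV ⟨y, hyW⟩) hy
  refine ⟨m, holF_of_HG fun x hx => ?_, fun x hx => ?_, fun j x hj hx => ?_⟩
  · refine HG.congr (f := r ⟨x, hx⟩) ⟨V ⟨x, hx⟩, hV _, hxV ⟨x, hx⟩, hr _⟩ ?_
    filter_upwards [(hV ⟨x, hx⟩).mem_nhds (hxV ⟨x, hx⟩)] with y hy
    exact (hmr ⟨x, hx⟩ y hy).symm
  · rw [hmr ⟨x, hx⟩ x (hxV ⟨x, hx⟩)]
    exact hr2 ⟨x, hx⟩ x (hxV ⟨x, hx⟩)
  · rw [hmr ⟨x, hx⟩ x (hxV ⟨x, hx⟩)]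
    exact key ⟨x, hx⟩ x (hxV ⟨x, hx⟩) j hj

end Coh

end

end Crest.Agent.R272.Evb_140
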