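import Mathlib

/-!
Row 272 (helper92): Gaussian integrals over `ℂ` and over `ι → ℂ`, `Option κ → ℂ`.
-/

set_option autoImplicit false

open MeasureTheory Complex
open scoped ComplexConjugate Real Topology

namespace Crest.Agent.R272.FInt_92

noncomputable section

/-- the one variable integrand -/
def gf (s b c : ℂ) (a : ℂ) : ℂ :=
  cexp (-(π * s) * (a * conj a) + π * a * b + π * conj a * c)

theorem gf_split (s b c : ℂ) (x y : ℝ) :
    gf s b c (x + y * I) =
      cexp (-(π * s) * (x : ℂ) ^ 2 + (π * (b + c)) * x + 0) *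
        cexp (-(π * s) * (y : ℂ) ^ 2 + (π * I * (b - c)) * y + 0) := by
  rw [gf, ← Complex.exp_add]
  congr 1
  simp only [map_add, map_mul, conj_ofReal, conj_I]
  linear_combination (π * s * (y:ℂ)^2) * I_sq

theorem measPres : MeasurePreserving Complex.measurableEquivRealProd.symm :=
  Complex.volume_preserving_equiv_real_prod.symm

theorem re_pi_mul {s : ℂ} (hs : 0 < s.re) : 0 < ((π : ℂ) * s).re := by
  rw [re_ofReal_mul]
  positivity

theorem integrable_gf {s : ℂ} (hs : 0 < s.re) (b c : ℂ) : Integrable (gf s b c) := by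
  rw [← measPres.integrable_comp_emb (MeasurableEquiv.measurableEmbedding _)]
  have h1 := (integrable_cexp_quadratic (re_pi_mul hs) (π * (b + c)) 0)
  have h2 := (integrable_cexp_quadratic (re_pi_mul hs) (π * I * (b - c)) 0)
  have h3 := Integrable.mul_prod h1 h2
  refine h3.congr (Filter.Eventually.of_forall fun p => ?_)
  show _ = gf s b c (Complex.measurableEquivRealProd.symm p)
  have : Complex.measurableEquivRealProd.symm p = (p.1 : ℂ) + p.2 * I := by
    rw [Complex.measurableEquivRealProd_symm_apply]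
    apply Complex.ext <;> simp
  rw [this, gf_split]

theorem integral_gf {s : ℂ} (hs : 0 < s.re) (b c : ℂ) :
    ∫ a : ℂ, gf s b c a = s⁻¹ * cexp (π * b * c / s) := by
  rw [← measPres.integral_comp']
  have e : ∀ p : ℝ × ℝ, gf s b c (Complex.measurableEquivRealProd.symm p) =
      cexp (-(π * s) * (p.1 : ℂ) ^ 2 + (π * (b + c)) * p.1 + 0) *
        cexp (-(π * s) * (p.2 : ℂ) ^ 2 + (π * I * (b - c)) * p.2 + 0) := by
    intro p
    have : Complex.measurableEquivRealProd.symm p = (p.1 : ℂ) + p.2 * I := by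
      rw [Complex.measurableEquivRealProd_symm_apply]
      apply Complex.ext <;> simp
    rw [this, gf_split]
  simp_rw [e]
  have hneg : (-((π : ℂ) * s)).re < 0 := by
    have := re_pi_mul hs
    simpa using this
  have key := integral_prod_mul (μ := (volume : Measure ℝ)) (ν := (volume : Measure ℝ))
    (fun x : ℝ => cexp (-(π * s) * (x : ℂ) ^ 2 + (π * (b + c)) * x + 0))
    (fun y : ℝ => cexp (-(π * s) * (y : ℂ) ^ 2 + (π * I * (b - c)) * y + 0))
  rw [Measure.volume_eq_prod, key, integral_cexp_quadratic hneg, integral_cexp_quadratic hneg]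
  have hs0 : s ≠ 0 := by
    rintro rfl
    simp at hs
  have hpi : (π : ℂ) ≠ 0 := by exact_mod_cast Real.pi_ne_zero
  have e1 : (π : ℂ) / - -(π * s) = s⁻¹ := by
    field_simp
  rw [e1]
  have e2 : (s⁻¹ : ℂ) ^ (1 / 2 : ℂ) * (s⁻¹ : ℂ) ^ (1 / 2 : ℂ) = s⁻¹ := by
    rw [← Complex.cpow_add _ _ (inv_ne_zero hs0)]
    norm_num
  rw [mul_mul_mul_comm, e2, ← Complex.exp_add]
  congr 2
  field_simp
  linear_combination (π * (b - c) ^ 2) * I_sq

theorem norm_gf_le (s b c a : ℂ) :
    ‖gf s b c a‖ ≤ Real.exp (-(π * s.re) * ‖a‖ ^ 2 + π * (‖b‖ + ‖c‖) * ‖a‖) := by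
  rw [gf, Complex.norm_exp]
  apply Real.exp_le_exp.2
  have h1 : (-((π : ℂ) * s) * (a * conj a)).re = -(π * s.re) * ‖a‖ ^ 2 := by
    rw [Complex.mul_conj, Complex.normSq_eq_norm_sq, re_mul_ofReal, neg_re, re_ofReal_mul]
  have h2 : ((π : ℂ) * a * b).re ≤ π * ‖b‖ * ‖a‖ := by
    calc ((π : ℂ) * a * b).re ≤ ‖(π : ℂ) * a * b‖ := Complex.re_le_norm _
      _ = π * ‖b‖ * ‖a‖ := by
        rw [norm_mul, norm_mul, Complex.norm_real, Real.norm_of_nonneg Real.pi_pos.le]; ring
  have h3 : ((π : ℂ) * conj a * c).re ≤ π * ‖c‖ * ‖a‖ := by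
    calc ((π : ℂ) * conj a * c).re ≤ ‖(π : ℂ) * conj a * c‖ := Complex.re_le_norm _
      _ = π * ‖c‖ * ‖a‖ := by
        rw [norm_mul, norm_mul, Complex.norm_real, Real.norm_of_nonneg Real.pi_pos.le,
          Complex.norm_conj]; ring
  rw [add_re, add_re, h1]
  linarith

theorem continuous_gf (s b c : ℂ) : Continuous (gf s b c) := by
  unfold gf
  fun_prop

theorem integrable_of_bound {f : ℂ → ℂ} (hf : Continuous f) {σ M K : ℝ} (hσ : 0 < σ)
    (h : ∀ a, ‖f a‖ ≤ K * Real.exp (-σ * ‖a‖ ^ 2 + M * ‖a‖)) : Integrable f := by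
  have hs : 0 < (((σ / (2 * π) : ℝ) : ℂ)).re := by
    rw [ofReal_re]; positivity
  have h1 := (integrable_gf hs 0 0).norm
  have h2 := h1.const_mul (K * Real.exp (M ^ 2 / (2 * σ)))
  have hK : 0 ≤ K := by
    have := (norm_nonneg _).trans (h 0)
    have h3 := Real.exp_pos (-σ * ‖(0:ℂ)‖ ^ 2 + M * ‖(0:ℂ)‖)
    exact nonneg_of_mul_nonneg_left this h3
  refine h2.mono' hf.aestronglyMeasurable (Filter.Eventually.of_forall fun a => ?_)
  refine (h a).trans ?_
  rw [mul_assoc]
  apply mul_le_mul_of_nonneg_left _ hK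
  have e : ‖gf ((σ / (2 * π) : ℝ) : ℂ) 0 0 a‖ = Real.exp (-(σ / 2) * ‖a‖ ^ 2) := by
    rw [gf, Complex.norm_exp]
    congr 1
    have h1 : (-((π : ℂ) * ((σ / (2 * π) : ℝ) : ℂ)) * (a * conj a)).re = -(σ / 2) * ‖a‖ ^ 2 := by
      rw [Complex.mul_conj, Complex.normSq_eq_norm_sq, ← ofReal_mul, ← ofReal_neg, ← ofReal_mul,
        ofReal_re]
      field_simp
    simp only [mul_zero, add_zero]
    exact h1
  rw [e, ← Real.exp_add]
  apply Real.exp_le_exp.2
  have : M * ‖a‖ ≤ M ^ 2 / (2 * σ) + σ / 2 * ‖a‖ ^ 2 := by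
    have h5 : 0 ≤ (M - σ * ‖a‖) ^ 2 / (2 * σ) := by positivity
    have h6 : (M - σ * ‖a‖) ^ 2 / (2 * σ) = M ^ 2 / (2 * σ) + σ / 2 * ‖a‖ ^ 2 - M * ‖a‖ := by
      field_simp
      ring
    linarith
  linarith

theorem le_exp_self (x : ℝ) : x ≤ Real.exp x := by
  have := Real.add_one_le_exp x
  linarith

/-- differentiation in the first linear parameter -/
theorem deriv_gf {s : ℂ} (hs : 0 < s.re) (b c : ℂ) {P : ℂ → ℂ} (hP : Continuous P) {k : ℝ}
    (hk : ∀ a, ‖P a‖ ≤ Real.exp (k * ‖a‖)) :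
    Integrable (fun a => a * (P a * gf s b c a)) ∧
    HasDerivAt (fun b' => ∫ a : ℂ, P a * gf s b' c a) (π * ∫ a : ℂ, a * (P a * gf s b c a)) b := by
  have hpi : (π : ℂ) ≠ 0 := by exact_mod_cast Real.pi_ne_zero
  have hσ : 0 < π * s.re := by positivity
  set M : ℝ := π * (‖b‖ + 1 + ‖c‖) + 1 + k with hM
  have hPg : ∀ b', Continuous (fun a => P a * gf s b' c a) := fun b' => hP.mul (continuous_gf s b' c)
  have hint0 : Integrable (fun a => P a * gf s b c a) := by
    refine integrable_of_bound (σ := π * s.re) (M := k + π * (‖b‖ + ‖c‖)) (K := 1) (hPg b) hσ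
      fun a => ?_
    rw [norm_mul, one_mul]
    refine (mul_le_mul (hk a) (norm_gf_le _ _ _ _) (norm_nonneg _) (Real.exp_pos _).le).trans ?_
    rw [← Real.exp_add]
    apply Real.exp_le_exp.2
    linarith
  have hb : ∀ a : ℂ, ∀ b' ∈ Metric.ball b 1, ‖(π : ℂ) * a * (P a * gf s b' c a)‖ ≤
      π * Real.exp (-(π * s.re) * ‖a‖ ^ 2 + M * ‖a‖) := by
    intro a b' hb'
    have h1 : ‖b'‖ ≤ ‖b‖ + 1 := by
      have : ‖b' - b‖ < 1 := by simpa [dist_eq_norm] using hb'
      have h2 := norm_le_norm_add_norm_sub b b'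
      have h3 : ‖b - b'‖ = ‖b' - b‖ := norm_sub_rev _ _
      linarith
    rw [norm_mul, norm_mul, Complex.norm_real, Real.norm_of_nonneg Real.pi_pos.le, mul_assoc]
    apply mul_le_mul_of_nonneg_left _ Real.pi_pos.le
    rw [norm_mul]
    calc ‖a‖ * (‖P a‖ * ‖gf s b' c a‖) ≤ Real.exp ‖a‖ * (Real.exp (k * ‖a‖) *
        Real.exp (-(π * s.re) * ‖a‖ ^ 2 + π * (‖b'‖ + ‖c‖) * ‖a‖)) :=
          mul_le_mul (le_exp_self _) (mul_le_mul (hk a) (norm_gf_le _ _ _ _) (norm_nonneg _)
            (Real.exp_pos _).le) (by positivity) (Real.exp_pos _).le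
      _ ≤ _ := by
        rw [← Real.exp_add, ← Real.exp_add]
        apply Real.exp_le_exp.2
        have : π * (‖b'‖ + ‖c‖) * ‖a‖ ≤ π * (‖b‖ + 1 + ‖c‖) * ‖a‖ := by
          apply mul_le_mul_of_nonneg_right _ (norm_nonneg _)
          apply mul_le_mul_of_nonneg_left _ Real.pi_pos.le
          linarith
        rw [hM]
        linarith
  have hbi : Integrable (fun a : ℂ => π * Real.exp (-(π * s.re) * ‖a‖ ^ 2 + M * ‖a‖)) := by
    have h1 : Integrable (fun a : ℂ => ((π * Real.exp (-(π * s.re) * ‖a‖ ^ 2 + M * ‖a‖) : ℝ) : ℂ)) := by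
      refine integrable_of_bound (σ := π * s.re) (M := M) (K := π) (by fun_prop) hσ fun a => ?_
      rw [Complex.norm_real, Real.norm_of_nonneg (by positivity)]
    exact_mod_cast h1.re
  have key := hasDerivAt_integral_of_dominated_loc_of_deriv_le
    (μ := (volume : Measure ℂ)) (F := fun b' a => P a * gf s b' c a)
    (F' := fun b' a => (π : ℂ) * a * (P a * gf s b' c a)) (x₀ := b)
    (bound := fun a => π * Real.exp (-(π * s.re) * ‖a‖ ^ 2 + M * ‖a‖))
    (Metric.ball_mem_nhds b one_pos)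
    (Filter.Eventually.of_forall fun b' => (hPg b').aestronglyMeasurable)
    hint0
    (by
      have : Continuous (fun a => (π : ℂ) * a * (P a * gf s b c a)) :=
        (continuous_const.mul continuous_id).mul (hPg b)
      exact this.aestronglyMeasurable)
    (Filter.Eventually.of_forall fun a => hb a)
    hbi
    (Filter.Eventually.of_forall fun a b' _ => by
      have h1 : HasDerivAt (fun b' => -(π * s) * (a * conj a) + π * a * b' + π * conj a * c)
          ((π : ℂ) * a) b' := by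
        have := ((hasDerivAt_id b').const_mul ((π : ℂ) * a)).const_add (-(π * s) * (a * conj a))
        simpa using this.add_const (π * conj a * c)
      refine (h1.cexp.const_mul (P a)).congr_deriv ?_
      show _ = (π : ℂ) * a * (P a * gf s b' c a)
      simp only [gf]
      ring)
  obtain ⟨k1, k2⟩ := key
  have k5 : (fun a => (π : ℂ) * a * (P a * gf s b c a)) =
      fun a => (π : ℂ) * (a * (P a * gf s b c a)) := by
    funext a; ring
  constructor
  · rw [k5] at k1
    have := k1.const_mul (π : ℂ)⁻¹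
    refine this.congr (Filter.Eventually.of_forall fun a => ?_)
    simp only []
    field_simp
  · simp only [k5] at k2
    rw [integral_const_mul] at k2
    exact k2

theorem ne_zero_of_re {s : ℂ} (hs : 0 < s.re) : s ≠ 0 := by
  rintro rfl
  simp at hs

theorem hasDerivAt_closed {s : ℂ} (b c : ℂ) :
    HasDerivAt (fun b' => s⁻¹ * cexp (π * b' * c / s)) (s⁻¹ * (cexp (π * b * c / s) * (π * c / s))) b := by
  have h1 : HasDerivAt (fun b' : ℂ => π * b' * c / s) (π * c / s) b := by
    have := (((hasDerivAt_id b).const_mul (π : ℂ)).mul_const c).div_const s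
    simpa using this
  exact (h1.cexp).const_mul s⁻¹

theorem integral_mul_gf {s : ℂ} (hs : 0 < s.re) (b c : ℂ) :
    ∫ a : ℂ, a * gf s b c a = (c / s) * (s⁻¹ * cexp (π * b * c / s)) := by
  have hpi : (π : ℂ) ≠ 0 := by exact_mod_cast Real.pi_ne_zero
  have hs0 := ne_zero_of_re hs
  have k2 := (deriv_gf hs b c (P := fun _ => 1) continuous_const (k := 0)
    (fun a => by simp)).2
  simp only [one_mul] at k2
  have e : (fun b' => ∫ a : ℂ, gf s b' c a) = fun b' => s⁻¹ * cexp (π * b' * c / s) := by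
    funext b'
    exact integral_gf hs b' c
  rw [e] at k2
  have k4 := k2.unique (hasDerivAt_closed b c)
  have : ∫ a : ℂ, a * gf s b c a = (π : ℂ)⁻¹ * (s⁻¹ * (cexp (π * b * c / s) * (π * c / s))) := by
    rw [← k4]
    field_simp
  rw [this]
  field_simp

theorem integrable_mul_gf {s : ℂ} (hs : 0 < s.re) (b c : ℂ) :
    Integrable (fun a => a * gf s b c a) := by
  have := (deriv_gf hs b c (P := fun _ => 1) continuous_const (k := 0) (fun a => by simp)).1
  simpa using this

theorem gf_conj (s b c a : ℂ) : gf s b c (conj a) = gf s c b a := by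
  simp only [gf, Complex.conj_conj]
  congr 1
  ring

theorem integral_comp_conj (f : ℂ → ℂ) : ∫ a : ℂ, f (conj a) = ∫ a : ℂ, f a := by
  have h := Complex.conjLIE.measurePreserving.integral_comp
    Complex.conjLIE.toHomeomorph.measurableEmbedding f
  simpa using h

theorem integral_conj_mul_gf {s : ℂ} (hs : 0 < s.re) (b c : ℂ) :
    ∫ a : ℂ, conj a * gf s b c a = (b / s) * (s⁻¹ * cexp (π * b * c / s)) := by
  have h := integral_comp_conj (fun a => a * gf s c b a)
  simp only [gf_conj] at h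
  rw [h, integral_mul_gf hs c b]
  congr 3
  ring

theorem norm_conj_le (a : ℂ) : ‖conj a‖ ≤ Real.exp (1 * ‖a‖) := by
  rw [Complex.norm_conj, one_mul]
  exact le_exp_self _

theorem integral_mul_conj_mul_gf {s : ℂ} (hs : 0 < s.re) (b c : ℂ) :
    ∫ a : ℂ, a * (conj a * gf s b c a) =
      (1 / (π * s) + b * c / s ^ 2) * (s⁻¹ * cexp (π * b * c / s)) := by
  have hpi : (π : ℂ) ≠ 0 := by exact_mod_cast Real.pi_ne_zero
  have hs0 := ne_zero_of_re hs
  have k2 := (deriv_gf hs b c (P := fun a => conj a) Complex.continuous_conj (k := 1)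
    norm_conj_le).2
  have e : (fun b' => ∫ a : ℂ, conj a * gf s b' c a) =
      fun b' => (b' / s) * (s⁻¹ * cexp (π * b' * c / s)) := by
    funext b'
    exact integral_conj_mul_gf hs b' c
  rw [e] at k2
  have h1 : HasDerivAt (fun b' : ℂ => b' / s) (1 / s) b := (hasDerivAt_id b).div_const s
  have k4 := k2.unique (h1.mul (hasDerivAt_closed b c))
  have : ∫ a : ℂ, a * (conj a * gf s b c a) = (π : ℂ)⁻¹ * (1 / s * (s⁻¹ * cexp (π * b * c / s)) +
      b / s * (s⁻¹ * (cexp (π * b * c / s) * (π * c / s)))) := by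
    rw [← k4]
    field_simp
  rw [this]
  field_simp

theorem integrable_conj_mul_gf {s : ℂ} (hs : 0 < s.re) (b c : ℂ) :
    Integrable (fun a => conj a * gf s b c a) := by
  refine integrable_of_bound (σ := π * s.re) (M := 1 + π * (‖b‖ + ‖c‖)) (K := 1)
    (Complex.continuous_conj.mul (continuous_gf s b c)) (by positivity) fun a => ?_
  rw [norm_mul, one_mul]
  refine (mul_le_mul (norm_conj_le a) (norm_gf_le _ _ _ _) (norm_nonneg _)
    (Real.exp_pos _).le).trans ?_
  rw [← Real.exp_add]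
  apply Real.exp_le_exp.2
  linarith

theorem integrable_mul_conj_mul_gf {s : ℂ} (hs : 0 < s.re) (b c : ℂ) :
    Integrable (fun a => a * (conj a * gf s b c a)) :=
  (deriv_gf hs b c (P := fun a => conj a) Complex.continuous_conj (k := 1) norm_conj_le).1

end

end Crest.Agent.R272.FInt_92
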