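import Crest.Agent.R272.FInt1_92

/-!
Row 272 (helper92): Gaussian integrals over `κ → ℂ` and `Option κ → ℂ` with the coupling
`u_0 ∑ z_j u_j`.
-/

set_option autoImplicit false

open MeasureTheory Complex
open scoped ComplexConjugate Real Topology

namespace Crest.Agent.R272.FInt_92

noncomputable section

variable {κ : Type*} [Fintype κ]

/-- real part version of the one variable bound -/
theorem integrable_rexp {σ M : ℝ} (hσ : 0 < σ) :
    Integrable (fun a : ℂ => Real.exp (-σ * ‖a‖ ^ 2 + M * ‖a‖)) := by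
  have h1 : Integrable (fun a : ℂ => ((Real.exp (-σ * ‖a‖ ^ 2 + M * ‖a‖) : ℝ) : ℂ)) := by
    refine integrable_of_bound (σ := σ) (M := M) (K := 1) (by fun_prop) hσ fun a => ?_
    rw [Complex.norm_real, Real.norm_of_nonneg (Real.exp_pos _).le, one_mul]
  exact_mod_cast h1.re

theorem integrable_rexp_pi {σ M : ℝ} (hσ : 0 < σ) :
    Integrable (fun u : κ → ℂ => Real.exp (-σ * ∑ i, ‖u i‖ ^ 2 + M * ∑ i, ‖u i‖)) := by
  have h := Integrable.fintype_prod (μ := fun _ : κ => (volume : Measure ℂ))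
    (f := fun (_ : κ) (a : ℂ) => Real.exp (-σ * ‖a‖ ^ 2 + M * ‖a‖)) fun _ => integrable_rexp hσ
  refine h.congr (Filter.Eventually.of_forall fun u => ?_)
  simp only []
  rw [← Real.exp_sum]
  congr 1
  rw [Finset.sum_add_distrib, ← Finset.mul_sum, ← Finset.mul_sum]

theorem integrable_of_bound_pi {f : (κ → ℂ) → ℂ} (hf : Continuous f) {σ M K : ℝ} (hσ : 0 < σ)
    (h : ∀ u, ‖f u‖ ≤ K * Real.exp (-σ * ∑ i, ‖u i‖ ^ 2 + M * ∑ i, ‖u i‖)) : Integrable f :=
  ((integrable_rexp_pi hσ).const_mul K).mono' hf.aestronglyMeasurable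
    (Filter.Eventually.of_forall h)

/-- the integrand -/
def Gk (z wc b c : κ → ℂ) (b0 c0 : ℂ) (u : Option κ → ℂ) : ℂ :=
  cexp (-(π * ∑ i, (u i * conj (u i))) + π * (u none * (b0 + ∑ j, z j * u (some j)) +
    conj (u none) * (c0 + ∑ j, wc j * conj (u (some j))) +
    ∑ j, (u (some j) * b j + conj (u (some j)) * c j)))

theorem continuous_Gk (z wc b c : κ → ℂ) (b0 c0 : ℂ) : Continuous (Gk z wc b c b0 c0) := by
  unfold Gk
  fun_prop

theorem cs_bound {z : κ → ℂ} {ρ : ℝ} (hρ : 0 ≤ ρ) (hz : ∑ j, ‖z j‖ ^ 2 ≤ ρ ^ 2) (a : ℂ)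
    (x : κ → ℂ) : ‖a * ∑ j, z j * x j‖ ≤ ρ / 2 * (‖a‖ ^ 2 + ∑ j, ‖x j‖ ^ 2) := by
  have h1 : ‖∑ j, z j * x j‖ ≤ ∑ j, ‖z j‖ * ‖x j‖ := by
    refine (norm_sum_le _ _).trans (le_of_eq ?_)
    simp
  have h2 : (∑ j, ‖z j‖ * ‖x j‖) ^ 2 ≤ (∑ j, ‖z j‖ ^ 2) * ∑ j, ‖x j‖ ^ 2 :=
    Finset.sum_mul_sq_le_sq_mul_sq _ _ _
  set S : ℝ := ∑ j, ‖x j‖ ^ 2 with hS
  have hS0 : 0 ≤ S := Finset.sum_nonneg fun j _ => by positivity
  have h3 : (∑ j, ‖z j‖ * ‖x j‖) ^ 2 ≤ ρ ^ 2 * S :=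
    h2.trans (mul_le_mul_of_nonneg_right hz hS0)
  have h4 : ∑ j, ‖z j‖ * ‖x j‖ ≤ ρ * Real.sqrt S := by
    apply le_of_sq_le_sq _ (by positivity) 
    rw [mul_pow, Real.sq_sqrt hS0]
    exact h3
  rw [norm_mul]
  calc ‖a‖ * ‖∑ j, z j * x j‖ ≤ ‖a‖ * (ρ * Real.sqrt S) :=
        mul_le_mul_of_nonneg_left (h1.trans h4) (norm_nonneg _)
    _ ≤ ρ / 2 * (‖a‖ ^ 2 + S) := by
      have h5 : 0 ≤ (‖a‖ - Real.sqrt S) ^ 2 := sq_nonneg _
      have h6 : Real.sqrt S ^ 2 = S := Real.sq_sqrt hS0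
      nlinarith [mul_nonneg hρ h5]

/-- growth bound -/
theorem norm_Gk_le {z wc : κ → ℂ} {ρ : ℝ} (hρ : 0 ≤ ρ) (hz : ∑ j, ‖z j‖ ^ 2 ≤ ρ ^ 2)
    (hw : ∑ j, ‖wc j‖ ^ 2 ≤ ρ ^ 2) {b c : κ → ℂ} {b0 c0 : ℂ} {B : ℝ}
    (hb0 : ‖b0‖ ≤ B) (hc0 : ‖c0‖ ≤ B) (hb : ∀ j, ‖b j‖ ≤ B) (hc : ∀ j, ‖c j‖ ≤ B)
    (u : Option κ → ℂ) :
    ‖Gk z wc b c b0 c0 u‖ ≤
      Real.exp (-(π * (1 - ρ)) * ∑ i, ‖u i‖ ^ 2 + 2 * π * B * ∑ i, ‖u i‖) := by
  rw [Gk, Complex.norm_exp]
  apply Real.exp_le_exp.2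
  have h1 : (-((π : ℂ) * ∑ i, (u i * conj (u i)))).re = -π * ∑ i, ‖u i‖ ^ 2 := by
    have : ∑ i, (u i * conj (u i)) = ((∑ i, ‖u i‖ ^ 2 : ℝ) : ℂ) := by
      push_cast
      refine Finset.sum_congr rfl fun i _ => ?_
      rw [Complex.mul_conj, Complex.normSq_eq_norm_sq]
      push_cast
      rfl
    rw [this, neg_re, re_ofReal_mul, ofReal_re]
    ring
  rw [add_re, h1, re_ofReal_mul]
  have hpi := Real.pi_pos
  set S : ℝ := ∑ i, ‖u i‖ ^ 2 with hS
  set N : ℝ := ∑ i, ‖u i‖ with hN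
  have hS' : S = ‖u none‖ ^ 2 + ∑ j, ‖u (some j)‖ ^ 2 := by rw [hS, Fintype.sum_option]
  have hN' : N = ‖u none‖ + ∑ j, ‖u (some j)‖ := by rw [hN, Fintype.sum_option]
  have h2 : (u none * (b0 + ∑ j, z j * u (some j)) +
    conj (u none) * (c0 + ∑ j, wc j * conj (u (some j))) +
    ∑ j, (u (some j) * b j + conj (u (some j)) * c j)).re ≤ ρ * S + 2 * B * N := by
    refine (Complex.re_le_norm _).trans ?_
    have e1 : ‖u none * (b0 + ∑ j, z j * u (some j))‖ ≤ B * ‖u none‖ + ρ / 2 * S := by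
      rw [mul_add]
      refine (norm_add_le _ _).trans (add_le_add ?_ ?_)
      · rw [norm_mul, mul_comm]
        exact mul_le_mul_of_nonneg_right hb0 (norm_nonneg _)
      · rw [hS']
        exact cs_bound hρ hz _ _
    have e2 : ‖conj (u none) * (c0 + ∑ j, wc j * conj (u (some j)))‖ ≤
        B * ‖u none‖ + ρ / 2 * S := by
      rw [mul_add]
      refine (norm_add_le _ _).trans (add_le_add ?_ ?_)
      · rw [norm_mul, Complex.norm_conj, mul_comm]
        exact mul_le_mul_of_nonneg_right hc0 (norm_nonneg _)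
      · rw [hS']
        have := cs_bound hρ hw (conj (u none)) (fun j => conj (u (some j)))
        simpa using this
    have e3 : ‖∑ j, (u (some j) * b j + conj (u (some j)) * c j)‖ ≤
        2 * B * ∑ j, ‖u (some j)‖ := by
      refine (norm_sum_le _ _).trans ?_
      rw [Finset.mul_sum]
      refine Finset.sum_le_sum fun j _ => ?_
      refine (norm_add_le _ _).trans ?_
      rw [norm_mul, norm_mul, Complex.norm_conj]
      have := mul_le_mul_of_nonneg_left (hb j) (norm_nonneg (u (some j)))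
      have := mul_le_mul_of_nonneg_left (hc j) (norm_nonneg (u (some j)))
      linarith
    refine (norm_add_le _ _).trans ?_
    refine (add_le_add (norm_add_le _ _) le_rfl).trans ?_
    rw [hN']
    linarith
  have h3 := mul_le_mul_of_nonneg_left h2 hpi.le
  linarith

/-- integrability with a weight -/
theorem integrable_weight_Gk {z wc : κ → ℂ} {ρ : ℝ} (hρ : 0 ≤ ρ) (hρ1 : ρ < 1)
    (hz : ∑ j, ‖z j‖ ^ 2 ≤ ρ ^ 2)
    (hw : ∑ j, ‖wc j‖ ^ 2 ≤ ρ ^ 2) (b c : κ → ℂ) (b0 c0 : ℂ)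
    {P : (Option κ → ℂ) → ℂ} (hP : Continuous P) {k : ℝ}
    (hk : ∀ u, ‖P u‖ ≤ Real.exp (k * ∑ i, ‖u i‖)) :
    Integrable (fun u => P u * Gk z wc b c b0 c0 u) := by
  set B : ℝ := ‖b0‖ + ‖c0‖ + ∑ j, ‖b j‖ + ∑ j, ‖c j‖ with hB
  have hb' : ∀ j, ‖b j‖ ≤ ∑ j, ‖b j‖ := fun j =>
    Finset.single_le_sum (f := fun j => ‖b j‖) (fun _ _ => norm_nonneg _) (Finset.mem_univ j)
  have hc' : ∀ j, ‖c j‖ ≤ ∑ j, ‖c j‖ := fun j =>
    Finset.single_le_sum (f := fun j => ‖c j‖) (fun _ _ => norm_nonneg _) (Finset.mem_univ j)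
  have hbs : 0 ≤ ∑ j, ‖b j‖ := Finset.sum_nonneg fun _ _ => norm_nonneg _
  have hcs : 0 ≤ ∑ j, ‖c j‖ := Finset.sum_nonneg fun _ _ => norm_nonneg _
  have hn1 := norm_nonneg b0
  have hn2 := norm_nonneg c0
  have hσ : 0 < π * (1 - ρ) := mul_pos Real.pi_pos (by linarith)
  refine integrable_of_bound_pi (σ := π * (1 - ρ)) (M := k + 2 * π * B) (K := 1)
    (hP.mul (continuous_Gk _ _ _ _ _ _)) hσ fun u => ?_
  rw [norm_mul, one_mul]
  refine (mul_le_mul (hk u) (norm_Gk_le hρ hz hw (B := B) ?_ ?_ ?_ ?_ u) (norm_nonneg _)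
    (Real.exp_pos _).le).trans ?_
  · linarith
  · linarith
  · intro j; have := hb' j; linarith
  · intro j; have := hc' j; linarith
  · rw [← Real.exp_add]
    apply Real.exp_le_exp.2
    linarith

/-- Fubini on `Option κ → ℂ` -/
theorem integral_option {f : (Option κ → ℂ) → ℂ} (hf : Integrable f) :
    ∫ u, f u = ∫ a : ℂ, ∫ x : κ → ℂ, f ((MeasurableEquiv.piOptionEquivProd (fun _ => ℂ)).symm (x, a)) := by
  have h0 := Measure.pi_map_piOptionEquivProd (β := fun _ : Option κ => ℂ)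
    (fun _ => (volume : Measure ℂ))
  have hmp : MeasurePreserving (MeasurableEquiv.piOptionEquivProd (fun _ : Option κ => ℂ)).symm
      ((Measure.pi fun _ : κ => (volume : Measure ℂ)).prod (volume : Measure ℂ))
      (Measure.pi fun _ : Option κ => (volume : Measure ℂ)) :=
    ⟨MeasurableEquiv.measurable _, h0⟩
  have h1 : ∫ u, f u = ∫ p, f ((MeasurableEquiv.piOptionEquivProd (fun _ => ℂ)).symm p)
      ∂((Measure.pi fun _ : κ => (volume : Measure ℂ)).prod (volume : Measure ℂ)) :=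
    (hmp.integral_comp' f).symm
  rw [h1, integral_prod_symm]
  · rfl
  · have := hmp.integrable_comp_emb (MeasurableEquiv.measurableEmbedding _) (g := f)
    exact this.2 hf

omit [Fintype κ] in
theorem symm_none (x : κ → ℂ) (a : ℂ) :
    (MeasurableEquiv.piOptionEquivProd (fun _ : Option κ => ℂ)).symm (x, a) none = a := rfl

omit [Fintype κ] in
theorem symm_some (x : κ → ℂ) (a : ℂ) (j : κ) :
    (MeasurableEquiv.piOptionEquivProd (fun _ : Option κ => ℂ)).symm (x, a) (some j) = x j := rfl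

theorem Gk_symm (z wc b c : κ → ℂ) (b0 c0 : ℂ) (x : κ → ℂ) (a : ℂ) :
    Gk z wc b c b0 c0 ((MeasurableEquiv.piOptionEquivProd (fun _ => ℂ)).symm (x, a)) =
      cexp (-(π * (a * conj a)) + π * (a * b0 + conj a * c0)) *
      ∏ j, gf 1 (b j + a * z j) (c j + conj a * wc j) (x j) := by
  simp only [gf, Gk]
  rw [← Complex.exp_sum, ← Complex.exp_add]
  congr 1
  rw [Fintype.sum_option]
  simp only [symm_none, symm_some]
  simp only [Finset.sum_add_distrib, Finset.mul_sum, mul_add, mul_one]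
  have e1 : ∀ j, (π : ℂ) * x j * (a * z j) = π * (a * (z j * x j)) := fun j => by ring
  have e2 : ∀ j, (π : ℂ) * conj (x j) * (conj a * wc j) = π * (conj a * (wc j * conj (x j))) :=
    fun j => by ring
  have e3 : ∀ j, (π : ℂ) * x j * b j = π * (x j * b j) := fun j => by ring
  have e4 : ∀ j, (π : ℂ) * conj (x j) * c j = π * (conj (x j) * c j) := fun j => by ring
  have e5 : ∀ j, -(π : ℂ) * (x j * conj (x j)) = -(π * (x j * conj (x j))) := fun j => by ring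
  simp only [e1, e2, e3, e4, e5, Finset.sum_neg_distrib]
  ring

theorem integral_Gk {z wc : κ → ℂ} {ρ : ℝ} (hρ : 0 ≤ ρ) (hρ1 : ρ < 1)
    (hz : ∑ j, ‖z j‖ ^ 2 ≤ ρ ^ 2)
    (hw : ∑ j, ‖wc j‖ ^ 2 ≤ ρ ^ 2) (b c : κ → ℂ) (b0 c0 : ℂ) :
    ∫ u, Gk z wc b c b0 c0 u = (1 - ∑ j, z j * wc j)⁻¹ *
      cexp (π * ((b0 + ∑ j, z j * c j) * (c0 + ∑ j, wc j * b j) / (1 - ∑ j, z j * wc j) +
        ∑ j, b j * c j)) := by
  have hint : Integrable (Gk z wc b c b0 c0) := by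
    have := integrable_weight_Gk hρ hρ1 hz hw b c b0 c0 (P := fun _ => 1) continuous_const (k := 0)
      (fun u => by simp)
    simpa using this
  rw [integral_option hint]
  have hs : 0 < (1 - ∑ j, z j * wc j).re := by
    have h1 : ‖∑ j, z j * wc j‖ ≤ ρ ^ 2 := by
      have h3 : ‖∑ j, z j * wc j‖ ≤ ∑ j, ‖z j‖ * ‖wc j‖ := by
        refine (norm_sum_le _ _).trans (le_of_eq ?_)
        simp
      have h4 : (∑ j, ‖z j‖ * ‖wc j‖) ^ 2 ≤ (∑ j, ‖z j‖ ^ 2) * ∑ j, ‖wc j‖ ^ 2 :=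
        Finset.sum_mul_sq_le_sq_mul_sq _ _ _
      have h5 : (∑ j, ‖z j‖ ^ 2) * ∑ j, ‖wc j‖ ^ 2 ≤ ρ ^ 2 * ρ ^ 2 :=
        mul_le_mul hz hw (Finset.sum_nonneg fun _ _ => by positivity) (by positivity)
      exact h3.trans (le_of_sq_le_sq (by nlinarith) (by positivity))
    have h6 : (∑ j, z j * wc j).re ≤ ρ ^ 2 := (Complex.re_le_norm _).trans h1
    have h7 : ρ ^ 2 < 1 := by nlinarith
    simp only [sub_re, one_re]
    linarith
  have hin : ∀ a : ℂ, ∫ x : κ → ℂ,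
      Gk z wc b c b0 c0 ((MeasurableEquiv.piOptionEquivProd (fun _ => ℂ)).symm (x, a)) =
      cexp (π * ∑ j, b j * c j) *
        gf (1 - ∑ j, z j * wc j) (b0 + ∑ j, z j * c j) (c0 + ∑ j, wc j * b j) a := by
    intro a
    simp only [Gk_symm]
    rw [integral_const_mul, integral_fintype_prod_volume_eq_prod
      (f := fun j => gf 1 (b j + a * z j) (c j + conj a * wc j))]
    have h1 : ∀ j, ∫ x, gf 1 (b j + a * z j) (c j + conj a * wc j) x =
        cexp (π * ((b j + a * z j) * (c j + conj a * wc j))) := by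
      intro j
      rw [integral_gf (by simp)]
      simp only [inv_one, one_mul, div_one]
      congr 1
      ring
    simp only [h1]
    rw [← Complex.exp_sum, gf, ← Complex.exp_add, ← Complex.exp_add]
    congr 1
    have e1 : ∀ j, (π : ℂ) * ((b j + a * z j) * (c j + conj a * wc j)) =
        π * (b j * c j) + π * a * (z j * c j) + π * conj a * (wc j * b j) +
          π * (a * conj a) * (z j * wc j) := fun j => by ring
    simp only [e1, Finset.sum_add_distrib, ← Finset.mul_sum]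
    ring
  simp only [hin]
  rw [integral_const_mul, integral_gf hs, mul_left_comm, ← Complex.exp_add]
  congr 2
  ring

/-- differentiation of a weighted integral along `cexp (π t L(u))` at `t = 0` -/
theorem deriv_weight {z wc : κ → ℂ} {ρ : ℝ} (hρ : 0 ≤ ρ) (hρ1 : ρ < 1)
    (hz : ∑ j, ‖z j‖ ^ 2 ≤ ρ ^ 2)
    (hw : ∑ j, ‖wc j‖ ^ 2 ≤ ρ ^ 2) (b c : κ → ℂ) (b0 c0 : ℂ)
    {P : (Option κ → ℂ) → ℂ} (hP : Continuous P) {k : ℝ}
    (hk : ∀ u, ‖P u‖ ≤ Real.exp (k * ∑ i, ‖u i‖))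
    {L : (Option κ → ℂ) → ℂ} (hL : Continuous L) {K : ℝ}
    (hK : ∀ u, ‖L u‖ ≤ K * ∑ i, ‖u i‖) :
    HasDerivAt (fun t : ℂ => ∫ u, P u * (Gk z wc b c b0 c0 u * cexp (π * t * L u)))
      (π * ∫ u, L u * (P u * Gk z wc b c b0 c0 u)) 0 := by
  have hσ : 0 < π * (1 - ρ) := mul_pos Real.pi_pos (by linarith)
  set B : ℝ := ‖b0‖ + ‖c0‖ + ∑ j, ‖b j‖ + ∑ j, ‖c j‖ with hB
  have hb' : ∀ j, ‖b j‖ ≤ ∑ j, ‖b j‖ := fun j =>
    Finset.single_le_sum (f := fun j => ‖b j‖) (fun _ _ => norm_nonneg _) (Finset.mem_univ j)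
  have hc' : ∀ j, ‖c j‖ ≤ ∑ j, ‖c j‖ := fun j =>
    Finset.single_le_sum (f := fun j => ‖c j‖) (fun _ _ => norm_nonneg _) (Finset.mem_univ j)
  have hbs : 0 ≤ ∑ j, ‖b j‖ := Finset.sum_nonneg fun _ _ => norm_nonneg _
  have hcs : 0 ≤ ∑ j, ‖c j‖ := Finset.sum_nonneg fun _ _ => norm_nonneg _
  have hn1 := norm_nonneg b0
  have hn2 := norm_nonneg c0
  have hG : ∀ u, ‖Gk z wc b c b0 c0 u‖ ≤
      Real.exp (-(π * (1 - ρ)) * ∑ i, ‖u i‖ ^ 2 + 2 * π * B * ∑ i, ‖u i‖) := by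
    intro u
    refine norm_Gk_le hρ hz hw ?_ ?_ ?_ ?_ u
    · linarith
    · linarith
    · intro j; have := hb' j; linarith
    · intro j; have := hc' j; linarith
  have hL' : ∀ u, ‖L u‖ ≤ Real.exp (K * ∑ i, ‖u i‖) := fun u => (hK u).trans (le_exp_self _)
  have hcG := continuous_Gk z wc b c b0 c0
  have hFc : ∀ t : ℂ, Continuous (fun u => P u * (Gk z wc b c b0 c0 u * cexp (π * t * L u))) := by
    intro t
    fun_prop
  have hFc' : ∀ t : ℂ, Continuous (fun u => (π : ℂ) * (L u * (P u * (Gk z wc b c b0 c0 u *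
      cexp (π * t * L u))))) := by
    intro t
    fun_prop
  have hexp : ∀ (u : Option κ → ℂ) (t : ℂ), ‖t‖ ≤ 1 →
      ‖cexp (π * t * L u)‖ ≤ Real.exp (π * K * ∑ i, ‖u i‖) := by
    intro u t ht
    rw [Complex.norm_exp]
    apply Real.exp_le_exp.2
    refine (Complex.re_le_norm _).trans ?_
    rw [norm_mul, norm_mul, Complex.norm_real, Real.norm_of_nonneg Real.pi_pos.le]
    have h1 : ‖t‖ * ‖L u‖ ≤ 1 * (K * ∑ i, ‖u i‖) :=
      mul_le_mul ht (hK u) (norm_nonneg _) zero_le_one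
    have := mul_le_mul_of_nonneg_left h1 Real.pi_pos.le
    linarith
  have key := hasDerivAt_integral_of_dominated_loc_of_deriv_le
    (μ := (volume : Measure (Option κ → ℂ)))
    (F := fun (t : ℂ) u => P u * (Gk z wc b c b0 c0 u * cexp (π * t * L u)))
    (F' := fun (t : ℂ) u => (π : ℂ) * (L u * (P u * (Gk z wc b c b0 c0 u * cexp (π * t * L u)))))
    (x₀ := 0)
    (bound := fun u => π * Real.exp (-(π * (1 - ρ)) * ∑ i, ‖u i‖ ^ 2 +
      (K + k + 2 * π * B + π * K) * ∑ i, ‖u i‖))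
    (Metric.ball_mem_nhds 0 one_pos)
    (Filter.Eventually.of_forall fun t => (hFc t).aestronglyMeasurable)
    (by
      have := integrable_weight_Gk hρ hρ1 hz hw b c b0 c0 hP hk
      simpa using this)
    (hFc' 0).aestronglyMeasurable
    (Filter.Eventually.of_forall fun u t ht => by
      have ht' : ‖t‖ ≤ 1 := by
        have : ‖t‖ < 1 := by simpa using ht
        exact this.le
      rw [norm_mul, Complex.norm_real, Real.norm_of_nonneg Real.pi_pos.le]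
      apply mul_le_mul_of_nonneg_left _ Real.pi_pos.le
      rw [norm_mul, norm_mul, norm_mul]
      refine (mul_le_mul (hL' u) (mul_le_mul (hk u) (mul_le_mul (hG u) (hexp u t ht')
        (norm_nonneg _) (Real.exp_pos _).le) (by positivity) (Real.exp_pos _).le) (by positivity)
        (Real.exp_pos _).le).trans ?_
      rw [← Real.exp_add, ← Real.exp_add, ← Real.exp_add]
      apply Real.exp_le_exp.2
      linarith)
    ((integrable_rexp_pi hσ).const_mul π)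
    (Filter.Eventually.of_forall fun u t _ => by
      have h1 : HasDerivAt (fun t : ℂ => (π : ℂ) * t * L u) ((π : ℂ) * L u) t := by
        have := ((hasDerivAt_id t).const_mul (π : ℂ)).mul_const (L u)
        simpa using this
      refine ((h1.cexp.const_mul (Gk z wc b c b0 c0 u)).const_mul (P u)).congr_deriv ?_
      ring)
  have k2 := key.2
  refine k2.congr_deriv ?_
  rw [← integral_const_mul]
  simp

theorem Gk_shift_b (z wc b c X : κ → ℂ) (b0 c0 t : ℂ) (u : Option κ → ℂ) :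
    Gk z wc (b + t • X) c b0 c0 u =
      Gk z wc b c b0 c0 u * cexp (π * t * ∑ j, X j * u (some j)) := by
  rw [Gk, Gk, ← Complex.exp_add]
  congr 1
  have : ∑ j, (u (some j) * (b + t • X) j + conj (u (some j)) * c j) =
      ∑ j, (u (some j) * b j + conj (u (some j)) * c j) + t * ∑ j, X j * u (some j) := by
    rw [Finset.mul_sum, ← Finset.sum_add_distrib]
    refine Finset.sum_congr rfl fun j _ => ?_
    simp only [Pi.add_apply, Pi.smul_apply, smul_eq_mul]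
    ring
  rw [this]
  ring

theorem Gk_shift_c (z wc b c Y : κ → ℂ) (b0 c0 t : ℂ) (u : Option κ → ℂ) :
    Gk z wc b (c + t • Y) b0 c0 u =
      Gk z wc b c b0 c0 u * cexp (π * t * ∑ j, Y j * conj (u (some j))) := by
  rw [Gk, Gk, ← Complex.exp_add]
  congr 1
  have : ∑ j, (u (some j) * b j + conj (u (some j)) * (c + t • Y) j) =
      ∑ j, (u (some j) * b j + conj (u (some j)) * c j) + t * ∑ j, Y j * conj (u (some j)) := by
    rw [Finset.mul_sum, ← Finset.sum_add_distrib]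
    refine Finset.sum_congr rfl fun j _ => ?_
    simp only [Pi.add_apply, Pi.smul_apply, smul_eq_mul]
    ring
  rw [this]
  ring

theorem lin_bound (X : κ → ℂ) (u : Option κ → ℂ) :
    ‖∑ j, X j * u (some j)‖ ≤ (∑ j, ‖X j‖) * ∑ i, ‖u i‖ := by
  refine (norm_sum_le _ _).trans ?_
  rw [Finset.sum_mul]
  refine Finset.sum_le_sum fun j _ => ?_
  rw [norm_mul]
  exact mul_le_mul_of_nonneg_left (Finset.single_le_sum (f := fun i => ‖u i‖)
    (fun _ _ => norm_nonneg _) (Finset.mem_univ (some j))) (norm_nonneg _)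

theorem clin_bound (Y : κ → ℂ) (u : Option κ → ℂ) :
    ‖∑ j, Y j * conj (u (some j))‖ ≤ (∑ j, ‖Y j‖) * ∑ i, ‖u i‖ := by
  have := lin_bound Y (fun i => conj (u i))
  simpa using this

/-- closed form -/
def J0 (z wc b c : κ → ℂ) (b0 c0 : ℂ) : ℂ :=
  (1 - ∑ j, z j * wc j)⁻¹ *
      cexp (π * ((b0 + ∑ j, z j * c j) * (c0 + ∑ j, wc j * b j) / (1 - ∑ j, z j * wc j) +
        ∑ j, b j * c j))

/-- logarithmic derivative in the direction `X` of `b` (without `π`) -/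
def Lb (z wc c X : κ → ℂ) (b0 : ℂ) : ℂ :=
  (b0 + ∑ j, z j * c j) * (∑ j, wc j * X j) / (1 - ∑ j, z j * wc j) + ∑ j, X j * c j

/-- logarithmic derivative in the direction `Y` of `c` (without `π`) -/
def Lc (z wc b Y : κ → ℂ) (c0 : ℂ) : ℂ :=
  (∑ j, z j * Y j) * (c0 + ∑ j, wc j * b j) / (1 - ∑ j, z j * wc j) + ∑ j, b j * Y j

theorem sum_add_smul (a b X : κ → ℂ) (t : ℂ) :
    ∑ j, a j * (b + t • X) j = ∑ j, a j * b j + t * ∑ j, a j * X j := by
  rw [Finset.mul_sum, ← Finset.sum_add_distrib]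
  refine Finset.sum_congr rfl fun j _ => ?_
  simp only [Pi.add_apply, Pi.smul_apply, smul_eq_mul]
  ring

theorem J0_shift_b (z wc b c X : κ → ℂ) (b0 c0 t : ℂ) :
    J0 z wc (b + t • X) c b0 c0 = J0 z wc b c b0 c0 * cexp (t * (π * Lb z wc c X b0)) := by
  rw [J0, J0, mul_assoc, ← Complex.exp_add, Lb]
  congr 2
  have e : ∑ j, (b + t • X) j * c j = ∑ j, b j * c j + t * ∑ j, X j * c j := by
    rw [Finset.mul_sum, ← Finset.sum_add_distrib]
    refine Finset.sum_congr rfl fun j _ => ?_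
    simp only [Pi.add_apply, Pi.smul_apply, smul_eq_mul]
    ring
  rw [sum_add_smul, e]
  ring

theorem J0_shift_c (z wc b c Y : κ → ℂ) (b0 c0 t : ℂ) :
    J0 z wc b (c + t • Y) b0 c0 = J0 z wc b c b0 c0 * cexp (t * (π * Lc z wc b Y c0)) := by
  rw [J0, J0, mul_assoc, ← Complex.exp_add, Lc]
  congr 2
  rw [sum_add_smul, sum_add_smul]
  ring

theorem Lb_shift_c (z wc c X Y : κ → ℂ) (b0 t : ℂ) :
    Lb z wc (c + t • Y) X b0 = Lb z wc c X b0 +
      t * ((∑ j, z j * Y j) * (∑ j, wc j * X j) / (1 - ∑ j, z j * wc j) + ∑ j, X j * Y j) := by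
  rw [Lb, Lb, sum_add_smul, sum_add_smul]
  ring

theorem hasDerivAt_cexp_lin (A l : ℂ) : HasDerivAt (fun t : ℂ => A * cexp (t * l)) (A * l) 0 := by
  have h1 : HasDerivAt (fun t : ℂ => t * l) l 0 := by
    simpa using (hasDerivAt_id (0:ℂ)).mul_const l
  have := h1.cexp.const_mul A
  simpa using this

/-- first moment -/
theorem integral_lin_Gk {z wc : κ → ℂ} {ρ : ℝ} (hρ : 0 ≤ ρ) (hρ1 : ρ < 1)
    (hz : ∑ j, ‖z j‖ ^ 2 ≤ ρ ^ 2)
    (hw : ∑ j, ‖wc j‖ ^ 2 ≤ ρ ^ 2) (b c X : κ → ℂ) (b0 c0 : ℂ) :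
    ∫ u, (∑ j, X j * u (some j)) * Gk z wc b c b0 c0 u =
      Lb z wc c X b0 * J0 z wc b c b0 c0 := by
  have hpi : (π : ℂ) ≠ 0 := by exact_mod_cast Real.pi_ne_zero
  have h1 := deriv_weight hρ hρ1 hz hw b c b0 c0 (P := fun _ => 1) continuous_const (k := 0)
    (fun u => by simp) (L := fun u => ∑ j, X j * u (some j)) (by fun_prop) (lin_bound X)
  simp only [one_mul] at h1
  have h2 : (fun t : ℂ => ∫ u, Gk z wc b c b0 c0 u * cexp (π * t * ∑ j, X j * u (some j))) =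
      fun t => J0 z wc b c b0 c0 * cexp (t * (π * Lb z wc c X b0)) := by
    funext t
    simp only [← Gk_shift_b]
    rw [integral_Gk hρ hρ1 hz hw, ← J0, J0_shift_b]
  rw [h2] at h1
  have h3 := h1.unique (hasDerivAt_cexp_lin _ _)
  have h4 : ∫ u, (∑ j, X j * u (some j)) * Gk z wc b c b0 c0 u =
      (π : ℂ)⁻¹ * (J0 z wc b c b0 c0 * (π * Lb z wc c X b0)) := by
    rw [← h3]; field_simp
  rw [h4]
  field_simp

/-- second mixed moment -/
theorem integral_clin_lin_Gk {z wc : κ → ℂ} {ρ : ℝ} (hρ : 0 ≤ ρ) (hρ1 : ρ < 1)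
    (hz : ∑ j, ‖z j‖ ^ 2 ≤ ρ ^ 2)
    (hw : ∑ j, ‖wc j‖ ^ 2 ≤ ρ ^ 2) (b c X Y : κ → ℂ) (b0 c0 : ℂ) :
    ∫ u, (∑ j, Y j * conj (u (some j))) * ((∑ j, X j * u (some j)) * Gk z wc b c b0 c0 u) =
      (Lb z wc c X b0 * Lc z wc b Y c0 +
        (π : ℂ)⁻¹ * ((∑ j, z j * Y j) * (∑ j, wc j * X j) / (1 - ∑ j, z j * wc j) +
          ∑ j, X j * Y j)) * J0 z wc b c b0 c0 := by
  have hpi : (π : ℂ) ≠ 0 := by exact_mod_cast Real.pi_ne_zero
  have h1 := deriv_weight hρ hρ1 hz hw b c b0 c0 (P := fun u => ∑ j, X j * u (some j))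
    (by fun_prop) (k := ∑ j, ‖X j‖) (fun u => (lin_bound X u).trans (le_exp_self _))
    (L := fun u => ∑ j, Y j * conj (u (some j))) (by fun_prop) (clin_bound Y)
  set D : ℂ := (∑ j, z j * Y j) * (∑ j, wc j * X j) / (1 - ∑ j, z j * wc j) + ∑ j, X j * Y j
    with hD
  have h2 : (fun t : ℂ => ∫ u, (∑ j, X j * u (some j)) *
      (Gk z wc b c b0 c0 u * cexp (π * t * ∑ j, Y j * conj (u (some j))))) =
      fun t => (Lb z wc c X b0 + t * D) *
        (J0 z wc b c b0 c0 * cexp (t * (π * Lc z wc b Y c0))) := by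
    funext t
    simp only [← Gk_shift_c]
    rw [integral_lin_Gk hρ hρ1 hz hw, J0_shift_c, Lb_shift_c]
  rw [h2] at h1
  have h5 : HasDerivAt (fun t : ℂ => Lb z wc c X b0 + t * D) D 0 := by
    have := ((hasDerivAt_id (0:ℂ)).mul_const D).const_add (Lb z wc c X b0)
    simpa using this
  have h3 := h1.unique (h5.mul (hasDerivAt_cexp_lin _ _))
  have h4 : ∫ u, (∑ j, Y j * conj (u (some j))) *
      ((∑ j, X j * u (some j)) * Gk z wc b c b0 c0 u) =
      (π : ℂ)⁻¹ * (D * (J0 z wc b c b0 c0 * cexp (0 * (π * Lc z wc b Y c0))) +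
        (Lb z wc c X b0 + 0 * D) * (J0 z wc b c b0 c0 * (π * Lc z wc b Y c0))) := by
    rw [← h3]; field_simp
  rw [h4]
  simp only [zero_mul, Complex.exp_zero, mul_one, add_zero]
  field_simp
  ring

/-- conjugate first moment -/
theorem integral_clin_Gk {z wc : κ → ℂ} {ρ : ℝ} (hρ : 0 ≤ ρ) (hρ1 : ρ < 1)
    (hz : ∑ j, ‖z j‖ ^ 2 ≤ ρ ^ 2)
    (hw : ∑ j, ‖wc j‖ ^ 2 ≤ ρ ^ 2) (b c Y : κ → ℂ) (b0 c0 : ℂ) :
    ∫ u, (∑ j, Y j * conj (u (some j))) * Gk z wc b c b0 c0 u =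
      Lc z wc b Y c0 * J0 z wc b c b0 c0 := by
  have hpi : (π : ℂ) ≠ 0 := by exact_mod_cast Real.pi_ne_zero
  have h1 := deriv_weight hρ hρ1 hz hw b c b0 c0 (P := fun _ => 1) continuous_const (k := 0)
    (fun u => by simp) (L := fun u => ∑ j, Y j * conj (u (some j))) (by fun_prop) (clin_bound Y)
  simp only [one_mul] at h1
  have h2 : (fun t : ℂ => ∫ u, Gk z wc b c b0 c0 u * cexp (π * t * ∑ j, Y j * conj (u (some j)))) =
      fun t => J0 z wc b c b0 c0 * cexp (t * (π * Lc z wc b Y c0)) := by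
    funext t
    simp only [← Gk_shift_c]
    rw [integral_Gk hρ hρ1 hz hw, ← J0, J0_shift_c]
  rw [h2] at h1
  have h3 := h1.unique (hasDerivAt_cexp_lin _ _)
  have h4 : ∫ u, (∑ j, Y j * conj (u (some j))) * Gk z wc b c b0 c0 u =
      (π : ℂ)⁻¹ * (J0 z wc b c b0 c0 * (π * Lc z wc b Y c0)) := by
    rw [← h3]; field_simp
  rw [h4]
  field_simp

end

end Crest.Agent.R272.FInt_92
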