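import Crest.Agent.R272.H2b_140
import Crest.Agent.R272.Ne1_595
import Crest.Agent.R272.M14c_590
import Crest.Agent.R272.Cv14_414

/-!
# R272 (S0414), leaf S14-H2 (helper140), part 3: the structure `Sq14` of 414 on the literal model

`sq14 (M : NLoc k)` (for `k = ka`): all four square classes for `π1 = kC ∘ prC`, `π2 = kF ∘ prF`
(`sq1`, `sq3`, `sq4` from 771's generic theorems of `Sq4c`, `sq2` from `H2b`).
-/

set_option autoImplicit false
set_option linter.unusedSectionVars false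

open Set Topology Filter Complex

namespace Crest.Agent.R272.H2_140

open Crest.Agent.R275.Geo Crest.Agent.R275.Core144 Crest.Agent.R273.Fam_835
open Crest.Agent.R273.Map_835 Crest.Agent.R272.Quot_783
open Crest.Agent.R272.Root_83 Crest.Agent.R272.DCov_426 Crest.Agent.R272.P1F_54
open Crest.Agent.R272.P1S_590 Crest.Agent.R272.Hom_839 Crest.Agent.R272.Lc_771
open Crest.Agent.R272.P1L_426 (Ch F8 CC BB f16 f8 f4 g8)
open Crest.Agent.R272.Sq4_771 Crest.Agent.R272.M14_590 Crest.Agent.R272.Nl_595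
open Crest.Agent.R272.Adp_409 Crest.Agent.R272.Asm2_102 Crest.Agent.R272.BlA_266
open Crest.Agent.R272.Tow_102 Crest.Agent.R272.Dt14_414
open Crest.Agent.R272.Mf_839 (ka ka_pow f_rep)

noncomputable section

variable {k : ℂ} (M : NLoc k)

/-- `s_N` is a square class -/
theorem sqE_sN {x : M.D.X} {i : Ch.atlX.ι} {j : F8.atlX.ι} (hi : prCM M x ∈ (Ch.atlX.e i).source)
    (hj : prFM M x ∈ (F8.atlX.e j).source) :
    SqE M.D.famX x (fun y => sNf k (Ch.refX.r i) (F8.refX.r j) (prCM M y) (prFM M y))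
      (fun _ => 1) := by
  have h1 := DomT_140.sqE_s (PN k) (PN_k k) M.fin M.N M.adm M.off 1 (i := (i, j)) (x := x)
    ⟨hi, hj⟩
  refine (SqE.of_eq ?_).trans h1
  have h2 : ∀ᶠ y in 𝓝 x, prCM M y ∈ (Ch.atlX.e i).source :=
    (holC_prCM M).cont.continuousAt.eventually ((Ch.atlX.e i).open_source.mem_nhds hi)
  have h3 : ∀ᶠ y in 𝓝 x, prFM M y ∈ (F8.atlX.e j).source :=
    (holC_prFM M).cont.continuousAt.eventually ((F8.atlX.e j).open_source.mem_nhds hj)
  filter_upwards [h2, h3] with y h4 h5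
  exact (two14_sN Ch.cmp_atlX Ch.refX F8.cmp_atlX F8.refX k h4 h5).symm

/-- the field `sq1` -/
theorem sq1M (x : M.D.X) (hx : pi2 M x = w0) :
    ∃ f, LC BB.atlX (pi2 M x) f ∧ SqE M.D.famX x (fun z => f (pi2 M z) - f w0) (fun _ => 1) :=
  sq1 F8.cmp_atlX (holC_prFM M) (dom_prFM M x) (fun _ _ _ _ r => rep_kF r) BB.cmp_atlX
    ⟨_, _, rep_w0⟩ hx

/-- the field `sq3` -/
theorem sq3M (x : M.D.X) (hx : pi1 M x = z0) :
    ∃ f, LC CC.atlX (pi1 M x) f ∧ SqE M.D.famX x (fun z => f (pi1 M z) - f z0) (fun _ => 1) :=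
  sq3 Ch.cmp_atlX (holC_prCM M) (dom_prCM M x) (fun _ _ _ _ r => rep_kC r) CC.cmp_atlX
    ⟨_, _, rep_z0⟩ hx

/-- the field `sq4` -/
theorem sq4M (M : NLoc ka) (x : M.D.X) (hx : pi2 M x = Mf_839.f (pi1 M x)) :
    ∃ f, LC BB.atlX (pi2 M x) f ∧
      SqE M.D.famX x (fun z => f (pi2 M z) - f (Mf_839.f (pi1 M z))) (fun _ => 1) := by
  obtain ⟨i, j, hi, hj, hs, hs'⟩ := exists_frames M x
  refine sq4 (k := ka) (f := Mf_839.f) Ch.cmp_atlX F8.cmp_atlX (holC_prCM M) (holC_prFM M)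
    (dom_prCM M x)
    (dom_prFM M x) (fun _ _ _ _ r => rep_kC r) (fun _ _ _ _ r => rep_kF r)
    (fun _ _ _ _ r => f_rep r) BB.cmp_atlX hs hs' (sqE_sN M hi hj) ?_ hx
  intro hr he h0
  have hZ : (prCM M x, prFM M x) ∈ NlB_426.Z ka :=
    (NlB_426.mem_Z (q := (prCM M x, prFM M x)) hs hs').2 (Or.inr (Or.inr (Or.inr (Or.inr
      ⟨hr, he, by
        refine Eq.trans ?_ h0
        simp only [Tra3_178.sN, sNf, NlB_426.om, NlB_426.t1, NlB_426.t0, NlB_426.dl, NlB_426.ze]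
        ring⟩))))
  have hcrd := crd_prod (NlB_426.cr_rh Ch.cmp_atlX hs hr) (NlB_426.cr_et F8.cmp_atlX hs' he)
  exact (DomT_140.slope_pr (PN ka) (PN_k ka) M.fin M.N M.adm M.off hZ (x := x) rfl hcrd hr
    he).symm

/-- **414's `Sq14` on the literal model** -/
theorem sq14 (M : NLoc ka) : Sq14 M.D.famX CC.atlX BB.atlX phi Mf_839.f z0 w0
    (Ne_595.π1 M) (Ne_595.π2 M) :=
  Sq14.of (holC_pi1 M) (holC_pi2 M) (Tphi.continuous_map isHom_CC isHom_BB)
    Mf_839.continuous_f (sq1M M) (sq2M M) (sq3M M) (sq4M M)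

end

end Crest.Agent.R272.H2_140
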