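import Crest.Agent.R272.Fin14_235
import Crest.Agent.R272.Val3_83
import Crest.Agent.R272.CycI3_760
import Crest.Agent.R272.H2c_140
import Crest.Agent.R272.NlB3_426

/-!
# R272, S14-ASM (helper414): S0414
-/

set_option autoImplicit false

open Set Filter Topology Complex

namespace Crest.Agent.R272.Fin14_414

open Crest.Agent.R272.Nl_595 Crest.Agent.R272.Mf_839 Crest.Agent.R272.Ne_595
open Crest.Agent.R272.Sl1_235 Crest.Agent.R272.CycI_760

/-- **S0414** -/
theorem s14 : G14a_414.S14 := by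
  have hk : ka ^ 4 = 8 * I := ka_pow
  have hN : NodeP (nloc hk) := fun x h =>
    ⟨(NlB_426.node_P hk h).1, (NlB_426.node_P hk h).2.1⟩
  obtain ⟨K, B, hα, hβ, hw1, hw2, hZ⟩ := exists_cyc14 hk
  have s := H2_140.sq14 (nloc hk)
  refine Fin14_235.s14_of (nloc hk) hN s K hZ ?_
  refine Val_83.arcs14' (nloc hk) hN K hZ s.ne1 s.ne3 ?_ (c0 ka) (tau_P0 (nodeP0 hk)) rfl
    (g0_ne hk) B hα hβ
  rw [hw1]
  simp

end Crest.Agent.R272.Fin14_414
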