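import Crest.Agent.R272.LBWord_585

/-!
# R272 / LB-GR, part 2: the windmill (Zorn) in the form (GR)
-/

set_option autoImplicit false
set_option linter.unusedSectionVars false

open Complex ComplexConjugate

namespace Crest.Agent.R272.LBGR_585

open Crest.Agent.R272.LBForm_585 Crest.Agent.R272.LBWord_585

variable {V : Type*} [AddCommGroup V] [Module ℂ V] {L : Lor V}

/-- The windmill predicate, relative to a start `M₀`. -/
structure WM (L : Lor V) (𝓦 M₀ M : Set V) : Prop where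
  ext : M₀ ⊆ M
  sub : ∀ x ∈ M, x ∈ 𝓦 ∨ L.h x x = -1
  par : ∀ w ∈ M, ∀ w' ∈ 𝓦, Par w w' → w' ∈ M
  refl : ∀ w ∈ M, w ∈ 𝓦 → ∀ x ∈ M, rho L w x ∈ M
  far : ∀ v ∈ 𝓦, v ∉ M → ∀ e ∈ M, ∀ e' ∈ M,
    (10 : ℝ) ^ 4 * ‖L.h e e'‖ ≤ ‖L.h e v‖ * ‖L.h e' v‖
  gr : ∀ l : List V, (∀ w ∈ l, w ∈ M ∧ w ∈ 𝓦) →
    (∃ l₀ : List V, (∀ w ∈ l₀, w ∈ M₀ ∧ w ∈ 𝓦) ∧ ∀ x, W L l x = W L l₀ x) ∨
    ∀ o ∈ M₀, L.h o o = -1 → ∀ o' ∈ M₀, L.h o' o' = -1 →
      ∃ w ∈ 𝓦, w ∉ M₀ ∧ W L l.reverse w ∉ M₀ ∧ 1 / 12 ≤ D L w o (W L l o')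

section step

variable {𝓦 M₀ M S : Set V} (hW : Sys L 𝓦)

include hW

theorem point_notMem {x : V} (hx : L.h x x = -1) : x ∉ 𝓦 := by
  intro h
  have := hW.norm x h
  rw [hx] at this
  norm_num at this

theorem not_par_point {x w : V} (hx : L.h x x = -1) (hw : w ∈ 𝓦) : ¬ Par w x := by
  intro h
  have := h.self (L := L)
  rw [hx, hW.norm w hw] at this
  norm_num at this

/-- Decomposition of a word in the new mirrors. -/
theorem decomp (hT : Stp L 𝓦 M S) (l : List V) : (∀ w ∈ l, w ∈ Mp L M S ∧ w ∈ 𝓦) →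
    ∃ lS lM : List V, (∀ w ∈ lS, w ∈ S) ∧ (∀ w ∈ lM, w ∈ M ∧ w ∈ 𝓦) ∧
      ∀ x, W L l x = W L lS (W L lM x) := by
  induction l with
  | nil => intro _; exact ⟨[], [], by simp, by simp, fun x => rfl⟩
  | cons w l ih =>
    intro h
    obtain ⟨lS, lM, hS, hM, he⟩ := ih (fun x hx => h x (List.mem_cons_of_mem _ hx))
    obtain ⟨hw, hwW⟩ := h w List.mem_cons_self
    obtain ⟨p, hp, a, ha, rfl⟩ := hw
    have hn := SW hW hT hp
    have hpr : ∀ t ∈ p.reverse, t ∈ S := fun t ht => hp t (List.mem_reverse.1 ht)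
    have haW : a ∈ 𝓦 := by
      have := hW.W_mem (L := L) (l := p.reverse) (fun w hw => hT.Ssub (hpr w hw)) hwW
      rwa [W_reverse hn] at this
    rcases ha with ha | ha
    · refine ⟨p ++ (p.reverse ++ lS).map (rho L a), a :: lM, ?_, ?_, ?_⟩
      · intro t ht
        rcases List.mem_append.1 ht with h | h
        · exact hp t h
        · obtain ⟨s, hs, rfl⟩ := List.mem_map.1 h
          apply hT.Srefl a ha haW
          rcases List.mem_append.1 hs with h | h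
          · exact hpr s h
          · exact hS s h
      · intro t ht
        rcases List.mem_cons.1 ht with h | h
        · rw [h]; exact ⟨ha, haW⟩
        · exact hM t h
      · intro x
        rw [W_cons, rho_W hn, he x, W_append, W_cons, ← W_append, rho_map (hW.norm a haW)]
    · refine ⟨p ++ a :: (p.reverse ++ lS), lM, ?_, hM, ?_⟩
      · intro t ht
        simp only [List.mem_append, List.mem_cons, List.mem_reverse] at ht
        rcases ht with h | h | h | h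
        · exact hp t h
        · rw [h]; exact ha
        · exact hp t h
        · exact hS t h
      · intro x
        rw [W_cons, rho_W hn, he x, W_append, W_cons, W_append]

/-- Reduction of a word. -/
theorem reduce (hT : Stp L 𝓦 M S) (l : List V) : (∀ w ∈ l, w ∈ S) →
    ∃ l' : List V, (∀ w ∈ l', w ∈ S) ∧ List.IsChain (fun x y => ¬ Par x y) l' ∧
      ∀ x, W L l x = W L l' x := by
  induction l with
  | nil => intro _; exact ⟨[], by simp, List.isChain_nil, fun x => rfl⟩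
  | cons t l ih =>
    intro h
    obtain ⟨l', h1, h2, h3⟩ := ih (fun x hx => h x (List.mem_cons_of_mem _ hx))
    have ht : t ∈ S := h t List.mem_cons_self
    rcases l' with _ | ⟨s, q⟩
    · refine ⟨[t], by simpa using ht, List.isChain_singleton t, fun x => ?_⟩
      rw [W_cons, h3]; rfl
    · by_cases hp : Par t s
      · have hs : s ∈ S := h1 s List.mem_cons_self
        refine ⟨q, fun x hx => h1 x (List.mem_cons_of_mem _ hx), ?_, fun x => ?_⟩
        · exact h2.tail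
        · rw [W_cons, h3, W_cons, ← hp.rho, hp.rho, ← hp.rho (L := L)]
          rw [hp.rho, hp.rho (L := L)]
          rw [rho_rho L (hW.norm t (hT.Ssub ht))]
      · refine ⟨t :: s :: q, ?_, ?_, fun x => ?_⟩
        · intro x hx
          rcases List.mem_cons.1 hx with h | h
          · rw [h]; exact ht
          · exact h1 x h
        · rw [List.isChain_cons_cons]; exact ⟨hp, h2⟩
        · rw [W_cons, h3]; rfl

/-- `rho`-moves of the form. -/
theorem W_invM (hM : WM L 𝓦 M₀ M) {l : List V} (hl : ∀ w ∈ l, w ∈ M ∧ w ∈ 𝓦) {x : V}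
    (hx : x ∈ M) : W L l x ∈ M := by
  induction l with
  | nil => exact hx
  | cons w l ih =>
    obtain ⟨h1, h2⟩ := hl w List.mem_cons_self
    exact hM.refl w h1 h2 _ (ih (fun v hv => hl v (List.mem_cons_of_mem _ hv)))

theorem W_reverse_congr {l l' : List V} (hl : N2 L l) (hl' : N2 L l')
    (h : ∀ x, W L l x = W L l' x) (x : V) : W L l.reverse x = W L l'.reverse x := by
  have h1 : W L l' (W L l'.reverse x) = x := W_reverse' hl' x
  rw [← h] at h1
  have h2 := W_reverse (L := L) hl (W L l'.reverse x)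
  rw [h1] at h2
  exact h2

/-- The windmill step. -/
theorem step (hM : WM L 𝓦 M₀ M) (hT : Stp L 𝓦 M S) (hSM : ∀ s ∈ S, s ∉ M) :
    WM L 𝓦 M₀ (Mp L M S) where
  ext := fun x hx => mem_Mp (Or.inl (hM.ext hx))
  sub := fun x hx => Mp_sub hW hT hx
  par := fun w hw w' hw' hp => Mp_par hW hT hw hw' hp
  refl := fun w hw hw' x hx => Mp_refl hW hT hw hw' hx
  far := fun v hv hv' e he e' he' => far_Mp hW hT hv hv' he he'
  gr := by
    intro l hl
    obtain ⟨lS0, lM, hS0, hlM, he0⟩ := decomp hW hT l hl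
    obtain ⟨lS, hS, hch, he1⟩ := reduce hW hT lS0 hS0
    have he : ∀ x, W L l x = W L lS (W L lM x) := fun x => by rw [he0, he1]
    have nl : N2 L l := fun w hw => hW.norm w (hl w hw).2
    have nM : N2 L lM := fun w hw => hW.norm w (hlM w hw).2
    have nS : N2 L lS := SW hW hT hS
    rcases lS with _ | ⟨t, q⟩
    · rcases hM.gr lM hlM with ⟨l₀, h1, h2⟩ | h
      · left
        exact ⟨l₀, h1, fun x => by rw [he, W_nil, h2]⟩
      · right
        intro o ho hoo o' ho' hoo'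
        obtain ⟨w, w1, w2, w3, w4⟩ := h o ho hoo o' ho' hoo'
        refine ⟨w, w1, w2, ?_, ?_⟩
        · rw [W_reverse_congr hW nl nM (fun x => by rw [he, W_nil])]
          exact w3
        · rw [he, W_nil]; exact w4
    · right
      intro o ho hoo o' ho' hoo'
      have ht : t ∈ S := hS t List.mem_cons_self
      have htW : t ∈ 𝓦 := hT.Ssub ht
      have hqS : ∀ x ∈ q, x ∈ S := fun x hx => hS x (List.mem_cons_of_mem _ hx)
      refine ⟨t, htW, fun h => hSM t ht (hM.ext h), ?_, ?_⟩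
      · -- `g⁻¹ t ∉ M₀`
        intro hcon
        have hrev : W L l.reverse t = W L lM.reverse (W L (t :: q).reverse t) := by
          have : W L l.reverse t = W L ((t :: q) ++ lM).reverse t :=
            W_reverse_congr hW nl (nS.append nM) (fun x => by rw [he, W_append]) t
          rw [this, List.reverse_append, W_append]
        have h1 : W L (t :: q).reverse t ∈ M := by
          have h2 := hM.ext hcon
          rw [hrev] at h2
          have h3 := W_invM hW hM hlM h2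
          rwa [W_reverse' nM] at h3
        rw [List.reverse_cons, W_append, W_cons, W_nil, rho_self L (hW.norm t htW), W_neg] at h1
        have hqr : ∀ x ∈ q.reverse, x ∈ S := fun x hx => hqS x (List.mem_reverse.1 hx)
        have h4 : W L q.reverse t ∈ M := by
          apply hM.par _ h1 _ (hW.W_mem (fun w hw => hT.Ssub (hqr w hw)) htW)
          have := Par.neg (-(W L q.reverse t))
          rwa [neg_neg] at this
        rcases hq : q.reverse with _ | ⟨r, q'⟩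
        · rw [hq, W_nil] at h4
          exact hSM t ht h4
        · rw [hq] at h4
          have hr : r ∈ S := hqr r (by rw [hq]; simp)
          have hq' : ∀ x ∈ q', x ∈ S := fun x hx => hqr x (by rw [hq]; simp [hx])
          have hc : List.IsChain (fun x y => ¬ Par x y) (r :: (q' ++ [t])) := by
            have e : r :: (q' ++ [t]) = (t :: q).reverse := by
              rw [List.reverse_cons, hq]; rfl
            rw [e, List.isChain_reverse]
            exact hch.imp (fun x y hxy h => hxy h.symm)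
          obtain ⟨c1, c2, c3⟩ := chain_one hW hT q' r t (by
            intro x hx
            rcases List.mem_cons.1 hx with h | h
            · rw [h]; exact hr
            · exact hq' x h) (Or.inr ht) hc
          have hoM : o ∈ M := hM.ext ho
          have c4 := c1 o (Or.inl hoM) (not_par_point hW hoo (hT.Ssub hr))
          rw [W_cons] at h4
          have c5 := hM.far r (hT.Ssub hr) (hSM r hr) o hoM _ h4
          have nrr : L.h r r = 2 := hW.norm r (hT.Ssub hr)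
          have c6 : ‖L.h (rho L r (W L q' t)) r‖ = ‖L.h (W L q' t) r‖ := by
            rw [h_rho_w L nrr, norm_neg]
          have c7 : 1 ≤ ‖L.h o r‖ := hT.s0 r hr o (Or.inl hoM) (not_par_point hW hoo (hT.Ssub hr))
          unfold D at c4
          rw [le_div_iff₀ (by rw [c6]; positivity)] at c4
          have c8 : 0 < ‖L.h o r‖ * ‖L.h (rho L r (W L q' t)) r‖ := by rw [c6]; positivity
          norm_num at c5
          linarith
      · rw [he]
        have hb : W L lM o' ∈ M := W_invM hW hM hlM (hM.ext ho')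
        have hbb : L.h (W L lM o') (W L lM o') = -1 := by rw [h_W_W nM]; exact hoo'
        have hc : List.IsChain (fun x y => ¬ Par x y) (t :: (q ++ [W L lM o'])) := by
          rw [← List.cons_append, List.isChain_append]
          refine ⟨hch, List.isChain_singleton _, ?_⟩
          intro x hx y hy
          have hxS : x ∈ S := hS x (List.mem_of_mem_getLast? hx)
          have : y = W L lM o' := by simpa using hy.symm
          rw [this]
          exact not_par_point hW hbb (hT.Ssub hxS)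
        obtain ⟨c1, -, -⟩ := chain_one hW hT q t (W L lM o') (by
            intro x hx
            rcases List.mem_cons.1 hx with h | h
            · rw [h]; exact ht
            · exact hqS x h) (Or.inl hb) hc
        exact c1 o (Or.inl (hM.ext ho)) (not_par_point hW hoo htW)

/-! ### Expansion by points -/

omit hW in
/-- Pairings with a point close to `o`. -/
theorem near {x o w : V} (hx : L.h x x = -1) (ho : L.h o o = -1) (hxo : ‖L.h x o‖ ≤ 3 / 2)
    (hw : (L.h w w).re ≤ 2) : ‖L.h x w‖ ≤ 27 / 10 * ‖L.h o w‖ + 8 / 5 := by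
  have pb := point_bound L (a := x) (b := w) ho
  have e1 : (L.h x x).re = -1 := by rw [hx]; simp
  rw [e1, L.norm_symm w o] at pb
  set n := ‖L.h o w‖ with hn
  have hn0 : 0 ≤ n := norm_nonneg _
  have h2 : ‖L.h x w + L.h x o * L.h o w‖ ^ 2 ≤ (8 / 5 + 112 / 100 * n) ^ 2 := by
    refine pb.trans ?_
    have h3 : -1 + ‖L.h x o‖ ^ 2 ≤ 5 / 4 := by nlinarith [norm_nonneg (L.h x o)]
    have h5 := one_le_points L ho hx
    have h4 : 0 ≤ -1 + ‖L.h x o‖ ^ 2 := by nlinarith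
    calc (-1 + ‖L.h x o‖ ^ 2) * ((L.h w w).re + n ^ 2)
        ≤ (-1 + ‖L.h x o‖ ^ 2) * (2 + n ^ 2) := by gcongr
      _ ≤ 5 / 4 * (2 + n ^ 2) := by gcongr
      _ ≤ _ := by nlinarith
  have h3 : ‖L.h x w + L.h x o * L.h o w‖ ≤ 8 / 5 + 112 / 100 * n :=
    abs_le_of_sq_le_sq' h2 (by positivity) |>.2
  have h4 : ‖L.h x w‖ ≤ ‖L.h x w + L.h x o * L.h o w‖ + ‖L.h x o * L.h o w‖ := by
    have := norm_sub_le (L.h x w + L.h x o * L.h o w) (L.h x o * L.h o w)
    simpa using this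
  have h5 : ‖L.h x o * L.h o w‖ ≤ 3 / 2 * n := by
    rw [norm_mul]; gcongr
  linarith

/-- Close to an element of `M`. -/
def Nr (L : Lor V) (x y : V) : Prop :=
  x = y ∨ (L.h x x = -1 ∧ L.h y y = -1 ∧ ‖L.h x y‖ ≤ 3 / 2)

omit hW in
theorem Nr.le {x y w : V} (h : Nr L x y) (hw : (L.h w w).re ≤ 2) :
    ‖L.h x w‖ ≤ 27 / 10 * ‖L.h y w‖ + 8 / 5 := by
  rcases h with rfl | ⟨h1, h2, h3⟩
  · have := norm_nonneg (L.h x w)
    linarith
  · exact near h1 h2 h3 hw

omit hW in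
theorem Nr.symm {x y : V} (h : Nr L x y) : Nr L y x := by
  rcases h with rfl | ⟨h1, h2, h3⟩
  · exact Or.inl rfl
  · exact Or.inr ⟨h2, h1, by rw [L.norm_symm]; exact h3⟩

/-- Expanded set. -/
def Ex (L : Lor V) (M : Set V) : Set V :=
  M ∪ {x | L.h x x = -1 ∧ ∃ o ∈ M, L.h o o = -1 ∧ ‖L.h x o‖ ≤ 3 / 2}

omit hW in
theorem Ex_near {x : V} (hx : x ∈ Ex L M) : ∃ y ∈ M, Nr L x y := by
  rcases hx with h | ⟨h1, o, h2, h3, h4⟩
  · exact ⟨x, h, Or.inl rfl⟩
  · exact ⟨o, h2, Or.inr ⟨h1, h3, h4⟩⟩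

theorem expand (hM : WM L 𝓦 M₀ M)
    (hf : ∀ v ∈ 𝓦, v ∉ M → ∀ e ∈ M, ∀ e' ∈ M,
      (10 : ℝ) ^ 9 * ‖L.h e e'‖ ≤ ‖L.h e v‖ * ‖L.h e' v‖) :
    WM L 𝓦 M₀ (Ex L M) := by
  have re2 : ∀ x ∈ M, (L.h x x).re ≤ 2 := by
    intro x hx
    rcases hM.sub x hx with h | h
    · rw [hW.norm x h]; norm_num
    · rw [h]; norm_num
  have one : ∀ x ∈ M, 1 ≤ ‖L.h x x‖ := by
    intro x hx
    rcases hM.sub x hx with h | h
    · rw [hW.norm x h]; norm_num
    · rw [h]; norm_num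
  have re2' : ∀ x ∈ Ex L M, (L.h x x).re ≤ 2 := by
    intro x hx
    rcases hx with h | ⟨h, -⟩
    · exact re2 x h
    · rw [h]; norm_num
  have memW : ∀ x ∈ Ex L M, x ∈ 𝓦 → x ∈ M := by
    intro x hx hxW
    rcases hx with h | ⟨h, -⟩
    · exact h
    · exact absurd hxW (point_notMem hW h)
  constructor
  · exact fun x hx => Or.inl (hM.ext hx)
  · intro x hx
    rcases hx with h | ⟨h, -⟩
    · exact hM.sub x h
    · exact Or.inr h
  · intro w hw w' hw' hp
    rcases hw with h | ⟨h, -⟩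
    · exact Or.inl (hM.par w h w' hw' hp)
    · exact absurd hp.symm (not_par_point hW h hw')
  · intro w hw hwW x hx
    have hwM := memW w hw hwW
    rcases hx with h | ⟨h, o, h2, h3, h4⟩
    · exact Or.inl (hM.refl w hwM hwW x h)
    · right
      have nw := hW.norm w hwW
      exact ⟨by rw [h_rho_rho L nw, h], rho L w o, hM.refl w hwM hwW o h2,
        by rw [h_rho_rho L nw, h3], by rw [h_rho_rho L nw]; exact h4⟩
  · intro v hv hvM e he e' he'
    have hvM' : v ∉ M := fun h => hvM (Or.inl h)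
    obtain ⟨y, hy, hey⟩ := Ex_near he
    obtain ⟨y', hy', hey'⟩ := Ex_near he'
    have nv : (L.h v v).re ≤ 2 := by rw [hW.norm v hv]; norm_num
    have f := hf v hv hvM' y hy y' hy'
    have f1 := hf v hv hvM' y hy y hy
    have f2 := hf v hv hvM' y' hy' y' hy'
    have big : ∀ z ∈ M, (10 : ℝ) ^ 9 * ‖L.h z z‖ ≤ ‖L.h z v‖ * ‖L.h z v‖ →
        (10 : ℝ) ^ 4 ≤ ‖L.h z v‖ := by
      intro z hz hf
      have h1 := one z hz
      by_contra hcon
      push Not at hcon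
      have h3 : (10 : ℝ) ^ 9 * 1 ≤ (10 : ℝ) ^ 9 * ‖L.h z z‖ := by gcongr
      have := norm_nonneg (L.h z v)
      norm_num at h3 hcon hf
      nlinarith
    have b1 := big y hy f1
    have b2 := big y' hy' f2
    have l1 := (hey.symm).le (w := v) nv
    have l2 := (hey'.symm).le (w := v) nv
    have l1' : ‖L.h y v‖ / 3 ≤ ‖L.h e v‖ := by norm_num at b1; linarith
    have l2' : ‖L.h y' v‖ / 3 ≤ ‖L.h e' v‖ := by norm_num at b2; linarith
    have u1 := hey.le (w := e') (re2' e' he')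
    have u2 := hey'.le (w := y) (re2 y hy)
    rw [L.norm_symm e' y, L.norm_symm y' y] at u2
    have hP : (‖L.h y v‖ / 3) * (‖L.h y' v‖ / 3) ≤ ‖L.h e v‖ * ‖L.h e' v‖ := by gcongr
    have hP2 : (10 : ℝ) ^ 4 * (10 : ℝ) ^ 4 ≤ ‖L.h y v‖ * ‖L.h y' v‖ := by gcongr
    have h0 := norm_nonneg (L.h y y')
    norm_num at f hP2 ⊢
    nlinarith
  · intro l hl
    exact hM.gr l (fun w hw => ⟨memW w (hl w hw).1 (hl w hw).2, (hl w hw).2⟩)

omit hW in
/-- Moving a point towards a mirror. -/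
theorem move {o v : V} (ho : L.h o o = -1) (hv : L.h v v = 2)
    (ha : (100 : ℝ) ≤ ‖L.h o v‖ ^ 2) :
    ∃ x, L.h x x = -1 ∧ ‖L.h x o‖ ≤ 3 / 2 ∧ ‖L.h x v‖ ^ 2 ≤ ‖L.h o v‖ ^ 2 / 4 := by
  set β := L.h o v with hβ
  set a := ‖β‖ ^ 2 with haa
  have ha0 : (0 : ℝ) < a := by linarith
  have hac : (a : ℂ) ≠ 0 := by exact_mod_cast ha0.ne'
  have hββ : β * conj β = (a : ℂ) := by
    rw [Complex.mul_conj, Complex.normSq_eq_norm_sq]
  have hvo : L.h v o = conj β := by rw [hβ, ← L.symm]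
  set c : ℂ := ((2 / a : ℝ) : ℂ) * β with hc
  set y : V := o - c • v with hy
  have h1 : L.h y v = β * ((1 - 4 / a : ℝ) : ℂ) := by
    rw [hy, L.sub_left, L.smul_left, hv, ← hβ, hc]
    push_cast
    field_simp
    ring
  have h2 : L.h y o = -3 := by
    rw [hy, L.sub_left, L.smul_left, ho, hvo, hc]
    have : ((2 / a : ℝ) : ℂ) * β * conj β = 2 := by
      rw [mul_assoc, hββ]; push_cast; field_simp
    rw [this]; norm_num
  have h3 : L.h y y = ((-(5 - 8 / a) : ℝ) : ℂ) := by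
    have e : L.h y y = L.h y o - conj c * L.h y v := by
      conv_lhs => rw [hy]
      rw [← hy, L.sub_right, L.smul_right]
    rw [e, h2, h1, hc]
    have e2 : conj (((2 / a : ℝ) : ℂ) * β) * (β * ((1 - 4 / a : ℝ) : ℂ))
        = ((2 / a : ℝ) : ℂ) * ((1 - 4 / a : ℝ) : ℂ) * (β * conj β) := by
      rw [map_mul, Complex.conj_ofReal]; ring
    rw [e2, hββ]
    push_cast
    field_simp
    ring
  set N := Real.sqrt (5 - 8 / a) with hN
  have h8 : 8 / a ≤ 8 / 100 := by gcongr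
  have hNp : 0 < 5 - 8 / a := by linarith
  have hN2 : N ^ 2 = 5 - 8 / a := Real.sq_sqrt hNp.le
  have hNge : 2 ≤ N := by
    apply Real.le_sqrt_of_sq_le
    linarith
  have hN0 : 0 < N := by linarith
  have hNc : (N : ℂ) ≠ 0 := by exact_mod_cast hN0.ne'
  refine ⟨((N⁻¹ : ℝ) : ℂ) • y, ?_, ?_, ?_⟩
  · rw [L.smul_left, L.smul_right, h3, Complex.conj_ofReal, ← hN2]
    push_cast
    field_simp
  · rw [L.smul_left, h2, norm_mul, Complex.norm_real, Real.norm_eq_abs, abs_of_pos (by positivity)]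
    rw [norm_neg]
    have : ‖(3 : ℂ)‖ = 3 := by simp
    rw [this]
    have : N⁻¹ ≤ 2⁻¹ := by gcongr
    linarith
  · rw [L.smul_left, h1, norm_mul, norm_mul, Complex.norm_real, Complex.norm_real,
      Real.norm_eq_abs, Real.norm_eq_abs, abs_of_pos (by positivity : 0 < N⁻¹), mul_pow, mul_pow,
      ← haa, sq_abs]
    have h4 : (N⁻¹) ^ 2 ≤ (2⁻¹) ^ 2 := by gcongr
    have h5 : 0 < 4 / a := by positivity
    have h6 : 4 / a ≤ 4 / 100 := by gcongr
    have h7 : (1 - 4 / a) ^ 2 ≤ 1 := by nlinarith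
    have h9 : 0 ≤ (1 - 4 / a) ^ 2 := by positivity
    calc (N⁻¹) ^ 2 * (a * (1 - 4 / a) ^ 2) ≤ (2⁻¹) ^ 2 * (a * 1) := by gcongr
      _ = a / 4 := by ring

/-- A set closed under expansion and far from an outer mirror contains no point. -/
theorem descend {v : V} (hv : v ∈ 𝓦)
    (hf : ∀ o ∈ M, L.h o o = -1 → (100 : ℝ) ≤ ‖L.h o v‖ ^ 2)
    (hE : ∀ o ∈ M, L.h o o = -1 → ∀ x, L.h x x = -1 → ‖L.h x o‖ ≤ 3 / 2 → x ∈ M)
    {o : V} (ho : o ∈ M) (hoo : L.h o o = -1) : False := by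
  set T : Set ℝ := {r | ∃ o ∈ M, L.h o o = -1 ∧ r = ‖L.h o v‖ ^ 2} with hT
  have hne : T.Nonempty := ⟨_, o, ho, hoo, rfl⟩
  have hbdd : BddBelow T := ⟨100, by rintro r ⟨p, hp, hpp, rfl⟩; exact hf p hp hpp⟩
  have h100 : 100 ≤ sInf T := le_csInf hne (by rintro r ⟨p, hp, hpp, rfl⟩; exact hf p hp hpp)
  obtain ⟨r, hr, hr2⟩ := exists_lt_of_csInf_lt hne (show sInf T < 2 * sInf T by linarith)
  obtain ⟨p, hp, hpp, rfl⟩ := hr
  obtain ⟨x, hx1, hx2, hx3⟩ := move hpp (hW.norm v hv) (hf p hp hpp)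
  have hxM := hE p hp hpp x hx1 hx2
  have := csInf_le hbdd (show ‖L.h x v‖ ^ 2 ∈ T from ⟨x, hxM, hx1, rfl⟩)
  linarith

/-! ### The set of close outer mirrors -/

/-- Close outer mirrors. -/
def Cl (L : Lor V) (𝓦 M : Set V) : Set V :=
  {v | v ∈ 𝓦 ∧ v ∉ M ∧ ∃ e1 ∈ M, ∃ e2 ∈ M,
    ‖L.h e1 v‖ * ‖L.h e2 v‖ < (10 : ℝ) ^ 9 * ‖L.h e1 e2‖}

omit hW in
theorem ne_of {c : ℝ} {z : ℂ} (hc0 : 0 < c) (hz : c ≤ ‖z‖) : z ≠ 0 := by
  intro h0
  rw [h0, norm_zero] at hz
  linarith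

section facts

variable (hM : WM L 𝓦 M₀ M)

include hM

theorem M_cases {e : V} (he : e ∈ M) : 1 ≤ ‖L.h e e‖ ∧ |(L.h e e).re| ≤ 2 := by
  rcases hM.sub e he with h | h
  · rw [hW.norm e h]; norm_num
  · rw [h]; norm_num

theorem out_big {v e : V} (hv : v ∈ 𝓦) (hvM : v ∉ M) (he : e ∈ M) : 100 ≤ ‖L.h e v‖ := by
  have h1 := hM.far v hv hvM e he e he
  have h2 := (M_cases hW hM he).1
  by_contra hcon
  push Not at hcon
  have h3 : (10 : ℝ) ^ 4 * 1 ≤ (10 : ℝ) ^ 4 * ‖L.h e e‖ := by gcongr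
  have := norm_nonneg (L.h e v)
  norm_num at h3 h1
  nlinarith

theorem out_par {v e : V} (hv : v ∈ 𝓦) (hvM : v ∉ M) (he : e ∈ M) : ¬ Par v e := by
  intro h
  apply hvM
  exact hM.par e he v hv h.symm

theorem out_sm {v e : V} (hv : v ∈ 𝓦) (hvM : v ∉ M) (he : e ∈ M) :
    (L.h e e).re ≤ 1 / 10 ^ 15 * ‖L.h e v‖ ^ 2 := by
  rcases hM.sub e he with h | h
  · rcases hW.sep v hv e h with h' | h'
    · exact absurd h' (out_par hW hM hv hvM he)
    · rw [hW.norm e h]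
      rw [L.norm_symm v e] at h'
      have : ((10 : ℝ) ^ 10) ^ 2 ≤ ‖L.h e v‖ ^ 2 := by gcongr
      norm_num at this ⊢
      linarith
  · rw [h]
    have : 0 ≤ ‖L.h e v‖ ^ 2 := by positivity
    norm_num
    linarith

theorem out_mid {v e : V} (hv : v ∈ 𝓦) (hvM : v ∉ M) (he : e ∈ M) :
    |(L.h e e).re| ≤ 1 / 10 ^ 4 * ‖L.h e v‖ ^ 2 := by
  have h1 := hM.far v hv hvM e he e he
  have h2 := Complex.abs_re_le_norm (L.h e e)
  norm_num at h1 ⊢
  nlinarith

theorem out_D {v e e' : V} (hv : v ∈ 𝓦) (hvM : v ∉ M) (he : e ∈ M) (he' : e' ∈ M) :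
    D L v e e' ≤ 1 / 10 ^ 4 := by
  have h1 := hM.far v hv hvM e he e' he'
  have h2 := out_big hW hM hv hvM he
  have h3 := out_big hW hM hv hvM he'
  unfold D
  rw [div_le_iff₀ (by positivity)]
  norm_num at h1 ⊢
  linarith

omit hM in
theorem mir_sm {u v : V} (hu : u ∈ 𝓦) (h : (10 : ℝ) ^ 10 ≤ ‖L.h u v‖) :
    |(L.h u u).re| ≤ 1 / 10 ^ 15 * ‖L.h u v‖ ^ 2 := by
  rw [hW.norm u hu]
  have : ((10 : ℝ) ^ 10) ^ 2 ≤ ‖L.h u v‖ ^ 2 := by gcongr
  norm_num at this ⊢
  linarith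

omit hM in
theorem sep' {u v : V} (hu : u ∈ 𝓦) (hv : v ∈ 𝓦) (hp : ¬ Par u v) :
    (10 : ℝ) ^ 10 ≤ ‖L.h u v‖ := by
  rcases hW.sep u hu v hv with h | h
  · exact absurd h hp
  · exact h

/-- Common part of Claims 1 and 3: a mirror `s` with witnesses `e1`, `e2`, seen from a second
mirror `u` (not parallel): `D u s e` cannot be large for `e ∈ M`. -/
theorem claim {u s e1 e2 e : V} {γ β : ℝ} (hu : u ∈ 𝓦) (huM : u ∉ M) (hs : s ∈ 𝓦)
    (hsM : s ∉ M) (hp : ¬ Par u s) (he1 : e1 ∈ M) (he2 : e2 ∈ M)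
    (hwit : 1 / 10 ^ 9 ≤ D L s e1 e2) (he : e ∈ M) (hγ : γ ≤ 1 / 10 ^ 4)
    (hD : ∀ x ∈ M, D L u e x ≤ γ) (hmid : ∀ x ∈ M, |(L.h x x).re| ≤ γ * ‖L.h x u‖ ^ 2)
    (hβ : β ≤ 1) (hβ0 : 1 / 10 ^ 8 ≤ β) (hγβ : 15 / 2 * γ + 1 / 10 ^ 10 ≤ β / 6) :
    D L u s e ≤ β := by
  by_contra hcon
  push Not at hcon
  have nu := hW.norm u hu
  have ns := hW.norm s hs
  have hsu : (10 : ℝ) ^ 10 ≤ ‖L.h s u‖ := by
    rw [L.norm_symm]; exact sep' hW hu hs hp
  have hus : (10 : ℝ) ^ 10 ≤ ‖L.h u s‖ := sep' hW hu hs hp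
  have key : ∀ x ∈ M, D L s x u ≤ 1 / 10 ^ 11 := by
    intro x hx
    have h1 := ql L (u := u) (x := s) (y := x) (z := e) (sx := 1 / 10 ^ 15) (sy := γ)
      (sz := 1 / 10 ^ 15) (β := β) nu
      (ne_of (by norm_num) hsu) (ne_of (by norm_num) (out_big hW hM hu huM hx))
      (ne_of (by norm_num) (out_big hW hM hu huM he))
      (hmid x hx) (hγ.trans (by norm_num))
      ((le_abs_self _).trans (mir_sm hW hs hsu)) (out_sm hW hM hu huM he)
      (hβ.trans (by norm_num)) (by linarith [hD x hx])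
      (by have := hD x hx; norm_num at hγβ ⊢; linarith) hcon.le
    have h2 := ident L (u := u) (v := s) (x := x) (ne_of (by norm_num) hus)
      (ne_of (by norm_num) (out_big hW hM hu huM hx))
      (ne_of (by norm_num) (out_big hW hM hs hsM hx))
    have h3 : 1 / ‖L.h u s‖ ^ 2 ≤ 1 / ((10 : ℝ) ^ 10) ^ 2 := by gcongr
    have h4 : 0 ≤ D L s u x := D_nonneg L _ _ _
    have h5 : 1 / 10 ^ 9 ≤ D L u s x := by
      norm_num at hβ0 ⊢
      linarith
    have h6 : 1 / 10 ^ 9 * D L s u x ≤ 1 / ‖L.h u s‖ ^ 2 := by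
      rw [← h2]; gcongr
    rw [D_symm]
    norm_num at h6 h3 ⊢
    linarith
  have h7 := qm L (u := s) (x := e1) (y := u) (z := e2) (sx := 1 / 10 ^ 15)
    (sy := 1 / 10 ^ 15) (sz := 1 / 10 ^ 15) ns
    (ne_of (by norm_num) (out_big hW hM hs hsM he1)) (ne_of (by norm_num) hus)
    (ne_of (by norm_num) (out_big hW hM hs hsM he2)) (mir_sm hW hu hus) (by norm_num)
    (out_sm hW hM hs hsM he1) (out_sm hW hM hs hsM he2)
    ((key e1 he1).trans (by norm_num)) ((key e2 he2).trans (by norm_num))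
  have k1 := key e1 he1
  have k2 := key e2 he2
  norm_num at h7 k1 k2 hwit
  linarith

theorem wit {s : V} (hs : s ∈ Cl L 𝓦 M) : ∃ e1 ∈ M, ∃ e2 ∈ M, 1 / 10 ^ 9 ≤ D L s e1 e2 := by
  obtain ⟨h1, h2, e1, he1, e2, he2, h⟩ := hs
  refine ⟨e1, he1, e2, he2, ?_⟩
  have b1 := out_big hW hM h1 h2 he1
  have b2 := out_big hW hM h1 h2 he2
  unfold D
  rw [le_div_iff₀ (by positivity)]
  norm_num at h ⊢
  linarith

/-- Claim 1. -/
theorem claim1 {s s' e : V} (hs : s ∈ Cl L 𝓦 M) (hs' : s' ∈ Cl L 𝓦 M) (hp : ¬ Par s s')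
    (he : e ∈ M) : D L s s' e ≤ 1 / 100 := by
  obtain ⟨e1, he1, e2, he2, hw⟩ := wit hW hM hs'
  exact claim hW hM (γ := 1 / 10 ^ 4) hs.1 hs.2.1 hs'.1 hs'.2.1 hp he1 he2 hw he le_rfl
    (fun x hx => out_D hW hM hs.1 hs.2.1 he hx) (fun x hx => out_mid hW hM hs.1 hs.2.1 hx)
    (by norm_num) (by norm_num) (by norm_num)

theorem far_D {v e e' : V} (hv : v ∈ 𝓦) (hvM : v ∉ M) (hvS : v ∉ Cl L 𝓦 M) (he : e ∈ M)
    (he' : e' ∈ M) : (10 : ℝ) ^ 9 * ‖L.h e e'‖ ≤ ‖L.h e v‖ * ‖L.h e' v‖ := by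
  by_contra hcon
  push Not at hcon
  exact hvS ⟨hv, hvM, e, he, e', he', hcon⟩

/-- Claim 3. -/
theorem claim3 {v s e : V} (hv : v ∈ 𝓦) (hvM : v ∉ M) (hvS : v ∉ Cl L 𝓦 M)
    (hs : s ∈ Cl L 𝓦 M) (hp : ¬ Par v s) (he : e ∈ M) : D L v s e ≤ 5 / 10 ^ 8 := by
  obtain ⟨e1, he1, e2, he2, hw⟩ := wit hW hM hs
  refine claim hW hM (γ := 1 / 10 ^ 9) hv hvM hs.1 hs.2.1 hp he1 he2 hw he (by norm_num)
    (fun x hx => ?_) (fun x hx => ?_) (by norm_num) (by norm_num) (by norm_num)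
  · have h1 := far_D hW hM hv hvM hvS he hx
    have b1 := out_big hW hM hv hvM he
    have b2 := out_big hW hM hv hvM hx
    unfold D
    rw [div_le_iff₀ (by positivity)]
    norm_num at h1 ⊢
    linarith
  · have h1 := far_D hW hM hv hvM hvS hx hx
    have h2 := Complex.abs_re_le_norm (L.h x x)
    norm_num at h1 ⊢
    nlinarith

theorem stp_Cl : Stp L 𝓦 M (Cl L 𝓦 M) := by
  have parS : ∀ s ∈ Cl L 𝓦 M, ∀ w' ∈ 𝓦, Par s w' → w' ∈ Cl L 𝓦 M := by
    rintro s ⟨h1, h2, e1, he1, e2, he2, h⟩ w' hw' hp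
    refine ⟨hw', fun h' => h2 (hM.par w' h' s h1 hp.symm), e1, he1, e2, he2, ?_⟩
    rw [hp.norm_right, hp.norm_right]
    exact h
  constructor
  · exact hM.sub
  · exact hM.par
  · exact hM.refl
  · exact fun s hs => hs.1
  · exact parS
  · rintro w hw hwW s ⟨h1, h2, e1, he1, e2, he2, h⟩
    have nw := hW.norm w hwW
    refine ⟨hW.refl w hwW s h1, ?_, rho L w e1, hM.refl w hw hwW e1 he1, rho L w e2,
      hM.refl w hw hwW e2 he2, ?_⟩
    · intro h'
      apply h2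
      have := hM.refl w hw hwW _ h'
      rwa [rho_rho L nw] at this
    · rw [h_rho_rho L nw, h_rho_rho L nw, h_rho_rho L nw]
      exact h
  · intro s hs e he hp
    rcases he with he | he
    · have := out_big hW hM hs.1 hs.2.1 he
      linarith
    · have := sep' hW hs.1 he.1 hp
      rw [L.norm_symm]
      refine le_trans ?_ this
      norm_num
  · intro s hs e he e' he' hpe hpe'
    have ns := hW.norm s hs.1
    have big : ∀ x ∈ M ∪ Cl L 𝓦 M, ¬ Par s x → 1 ≤ ‖L.h x s‖ := by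
      intro x hx hp
      rcases hx with hx | hx
      · have := out_big hW hM hs.1 hs.2.1 hx
        linarith
      · have := sep' hW hs.1 hx.1 hp
        rw [L.norm_symm]
        refine le_trans ?_ this
        norm_num
    have hD : D L s e e' ≤ 1 / 2 := by
      rcases he with he | he <;> rcases he' with he' | he'
      · exact (out_D hW hM hs.1 hs.2.1 he he').trans (by norm_num)
      · rw [D_symm]
        exact (claim1 hW hM hs he' hpe' he).trans (by norm_num)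
      · exact (claim1 hW hM hs he hpe he').trans (by norm_num)
      · obtain ⟨e1, he1, -⟩ := wit hW hM hs
        have c1 := claim1 hW hM hs he hpe he1
        have c2 := claim1 hW hM hs he' hpe' he1
        have s1 : (10 : ℝ) ^ 10 ≤ ‖L.h e s‖ := by
          rw [L.norm_symm]; exact sep' hW hs.1 he.1 hpe
        have s2 : (10 : ℝ) ^ 10 ≤ ‖L.h e' s‖ := by
          rw [L.norm_symm]; exact sep' hW hs.1 he'.1 hpe'
        have := qm L (u := s) (x := e) (y := e1) (z := e') (sx := 1 / 10 ^ 15)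
          (sy := 1 / 10 ^ 4) (sz := 1 / 10 ^ 15) ns
          (ne_of (by norm_num) s1) (ne_of (by norm_num) (out_big hW hM hs.1 hs.2.1 he1))
          (ne_of (by norm_num) s2) (out_mid hW hM hs.1 hs.2.1 he1) (by norm_num)
          ((le_abs_self _).trans (mir_sm hW he.1 s1))
          ((le_abs_self _).trans (mir_sm hW he'.1 s2))
          (c1.trans (by norm_num)) (c2.trans (by norm_num))
        norm_num at this c1 c2 ⊢
        linarith
    have := D_refl L (s := s) (x := e) (y := e') ns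
      (ne_of (by norm_num) (big e he hpe)) (ne_of (by norm_num) (big e' he' hpe'))
    linarith
  · intro v hv hvM hvS e he e' he'
    have nv := hW.norm v hv
    have notp : ∀ x ∈ Cl L 𝓦 M, ¬ Par v x := fun x hx hp => hvS (parS x hx v hv hp.symm)
    have sv : ∀ x ∈ Cl L 𝓦 M, (10 : ℝ) ^ 10 ≤ ‖L.h x v‖ := by
      intro x hx
      rw [L.norm_symm]; exact sep' hW hv hx.1 (notp x hx)
    have conv : ∀ x y : V, 0 < ‖L.h x v‖ → 0 < ‖L.h y v‖ → D L v x y ≤ 1 / 10 ^ 6 →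
        (10 : ℝ) ^ 6 * ‖L.h x y‖ ≤ ‖L.h x v‖ * ‖L.h y v‖ := by
      intro x y hx hy h
      unfold D at h
      rw [div_le_iff₀ (by positivity)] at h
      norm_num at h ⊢
      linarith
    have posM : ∀ x ∈ M, 0 < ‖L.h x v‖ := fun x hx => by
      have := out_big hW hM hv hvM hx
      linarith
    have posS : ∀ x ∈ Cl L 𝓦 M, 0 < ‖L.h x v‖ := fun x hx =>
      lt_of_lt_of_le (by norm_num) (sv x hx)
    rcases he with he | he <;> rcases he' with he' | he'
    · have := far_D hW hM hv hvM hvS he he'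
      have h0 := norm_nonneg (L.h e e')
      norm_num at this ⊢
      linarith
    · apply conv e e' (posM e he) (posS e' he')
      rw [D_symm]
      exact (claim3 hW hM hv hvM hvS he' (notp e' he') he).trans (by norm_num)
    · apply conv e e' (posS e he) (posM e' he')
      exact (claim3 hW hM hv hvM hvS he (notp e he) he').trans (by norm_num)
    · apply conv e e' (posS e he) (posS e' he')
      obtain ⟨e1, he1, -⟩ := wit hW hM he
      have c1 := claim3 hW hM hv hvM hvS he (notp e he) he1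
      have c2 := claim3 hW hM hv hvM hvS he' (notp e' he') he1
      have hmid : |(L.h e1 e1).re| ≤ 1 / 10 ^ 9 * ‖L.h e1 v‖ ^ 2 := by
        have h1 := far_D hW hM hv hvM hvS he1 he1
        have h2 := Complex.abs_re_le_norm (L.h e1 e1)
        norm_num at h1 ⊢
        nlinarith
      have := qm L (u := v) (x := e) (y := e1) (z := e') (sx := 1 / 10 ^ 15)
        (sy := 1 / 10 ^ 9) (sz := 1 / 10 ^ 15) nv
        (ne_of (by norm_num) (sv e he)) (ne_of (by norm_num) (out_big hW hM hv hvM he1))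
        (ne_of (by norm_num) (sv e' he')) hmid (by norm_num)
        ((le_abs_self _).trans (mir_sm hW he.1 (sv e he)))
        ((le_abs_self _).trans (mir_sm hW he'.1 (sv e' he')))
        (c1.trans (by norm_num)) (c2.trans (by norm_num))
      norm_num at this c1 c2 ⊢
      linarith

end facts

omit hW in
/-- The start. -/
theorem WM.start (sub : ∀ x ∈ M, x ∈ 𝓦 ∨ L.h x x = -1)
    (par : ∀ w ∈ M, ∀ w' ∈ 𝓦, Par w w' → w' ∈ M)
    (refl : ∀ w ∈ M, w ∈ 𝓦 → ∀ x ∈ M, rho L w x ∈ M)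
    (far : ∀ v ∈ 𝓦, v ∉ M → ∀ e ∈ M, ∀ e' ∈ M,
      (10 : ℝ) ^ 4 * ‖L.h e e'‖ ≤ ‖L.h e v‖ * ‖L.h e' v‖) : WM L 𝓦 M M :=
  ⟨le_rfl, sub, par, refl, far, fun l hl => Or.inl ⟨l, hl, fun _ => rfl⟩⟩

/-- **The windmill theorem**, form (GR). -/
theorem gr (h0 : WM L 𝓦 M₀ M₀) (hpt : ∃ o ∈ M₀, L.h o o = -1) (l : List V)
    (hl : ∀ w ∈ l, w ∈ 𝓦) :
    (∃ l₀ : List V, (∀ w ∈ l₀, w ∈ M₀ ∧ w ∈ 𝓦) ∧ ∀ x, W L l x = W L l₀ x) ∨
    ∀ o ∈ M₀, L.h o o = -1 → ∀ o' ∈ M₀, L.h o' o' = -1 →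
      ∃ w ∈ 𝓦, w ∉ M₀ ∧ W L l.reverse w ∉ M₀ ∧ 1 / 12 ≤ D L w o (W L l o') := by
  obtain ⟨o, ho, hoo⟩ := hpt
  obtain ⟨M, hM₀M, hmax⟩ := zorn_subset_nonempty {M | WM L 𝓦 M₀ M} (by
    intro c hc hchain hcne
    have two : ∀ x ∈ ⋃₀ c, ∀ y ∈ ⋃₀ c, ∃ A ∈ c, x ∈ A ∧ y ∈ A := by
      rintro x ⟨A, hA, hx⟩ y ⟨B, hB, hy⟩
      rcases hchain.total hA hB with h | h
      · exact ⟨B, hB, h hx, hy⟩
      · exact ⟨A, hA, hx, h hy⟩
    have fin : ∀ l : List V, (∀ w ∈ l, w ∈ ⋃₀ c ∧ w ∈ 𝓦) →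
        ∃ A ∈ c, ∀ w ∈ l, w ∈ A ∧ w ∈ 𝓦 := by
      intro l
      induction l with
      | nil =>
        intro _
        obtain ⟨A, hA⟩ := hcne
        exact ⟨A, hA, by simp⟩
      | cons w l ih =>
        intro h
        obtain ⟨A, hA, hAl⟩ := ih (fun x hx => h x (List.mem_cons_of_mem _ hx))
        obtain ⟨⟨B, hB, hwB⟩, hwW⟩ := h w List.mem_cons_self
        rcases hchain.total hA hB with h' | h'
        · refine ⟨B, hB, ?_⟩
          intro x hx
          rcases List.mem_cons.1 hx with h1 | h1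
          · rw [h1]; exact ⟨hwB, hwW⟩
          · exact ⟨h' (hAl x h1).1, (hAl x h1).2⟩
        · refine ⟨A, hA, ?_⟩
          intro x hx
          rcases List.mem_cons.1 hx with h1 | h1
          · rw [h1]; exact ⟨h' hwB, hwW⟩
          · exact hAl x h1
    refine ⟨⋃₀ c, ?_, fun s hs => Set.subset_sUnion_of_mem hs⟩
    constructor
    · obtain ⟨A, hA⟩ := hcne
      exact fun x hx => ⟨A, hA, (hc hA).ext hx⟩
    · rintro x ⟨A, hA, hx⟩
      exact (hc hA).sub x hx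
    · rintro w ⟨A, hA, hw⟩ w' hw' hp
      exact ⟨A, hA, (hc hA).par w hw w' hw' hp⟩
    · intro w hw hwW x hx
      obtain ⟨A, hA, h1, h2⟩ := two w hw x hx
      exact ⟨A, hA, (hc hA).refl w h1 hwW x h2⟩
    · intro v hv hvn e he e' he'
      obtain ⟨A, hA, h1, h2⟩ := two e he e' he'
      exact (hc hA).far v hv (fun h => hvn ⟨A, hA, h⟩) e h1 e' h2
    · intro l hl
      obtain ⟨A, hA, h⟩ := fin l hl
      exact (hc hA).gr l h) M₀ h0
  obtain ⟨hM, hmx⟩ := hmax
  have hM' : WM L 𝓦 M₀ M := hM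
  -- no close outer mirror
  have hS : Cl L 𝓦 M = ∅ := by
    by_contra hne
    obtain ⟨s, hs⟩ := Set.nonempty_iff_ne_empty.2 hne
    have hst := step hW hM' (stp_Cl hW hM') (fun s hs => hs.2.1)
    have hle : M ⊆ Mp L M (Cl L 𝓦 M) := fun x hx => mem_Mp (Or.inl hx)
    have := hmx hst hle
    exact hs.2.1 (this (mem_Mp (Or.inr hs)))
  have hfar9 : ∀ v ∈ 𝓦, v ∉ M → ∀ e ∈ M, ∀ e' ∈ M,
      (10 : ℝ) ^ 9 * ‖L.h e e'‖ ≤ ‖L.h e v‖ * ‖L.h e' v‖ := by
    intro v hv hvM e he e' he'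
    exact far_D hW hM' hv hvM (by rw [hS]; exact Set.notMem_empty v) he he'
  have hex := expand hW hM' hfar9
  have hEx : Ex L M ⊆ M := hmx hex (fun x hx => Or.inl hx)
  have hall : ∀ v ∈ 𝓦, v ∈ M := by
    intro v hv
    by_contra hvM
    refine descend (M := M) hW hv ?_ ?_ (hM'.ext ho) hoo
    · intro p hp hpp
      have := out_big hW hM' hv hvM hp
      nlinarith
    · intro p hp hpp x hx hxp
      exact hEx (Or.inr ⟨hx, p, hp, hpp, hxp⟩)
  exact hM'.gr l (fun w hw => ⟨hall w (hl w hw), hl w hw⟩)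

end step

end Crest.Agent.R272.LBGR_585
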