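import Crest.Agent.R272.LbFin_990
import Crest.Agent.R272.LBGR_585

/-!
# Row 272, leaf LB-PPFIN, version with mirrors closed under unit scalars (helper990)

Same theorem as `LbFin_990.sep_final`, from helper585's windmill `gr` (mirrors up to unit scalars).
-/

set_option autoImplicit false

open scoped ComplexConjugate Topology
open Crest.Agent.R272.EBase_641 Crest.Agent.R272.LbPP_990 Crest.Agent.R272.LbSep_990
open Crest.Agent.R272.LbGood_990 Crest.Agent.R272.St2_702
open Crest.Agent.R272.LbFin_990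
open Crest.Agent.R272.LBWord_585 (Par W_cons Mp Stp Sys)
open Crest.Agent.R272.LBGR_585 (WM)

namespace Crest.Agent.R272.LbFin2_990

noncomputable section

/-- the system of mirrors, closed under any unit scalars -/
structure WSysP (W : Set (V1 3)) (Λ : ℝ) : Prop where
  norm : ∀ w ∈ W, hh w w = 2
  stab : ∀ w ∈ W, ∀ w' ∈ W, w' - hh w' w • w ∈ W
  sep : ∀ w ∈ W, ∀ w' ∈ W, (∃ c : ℂ, ‖c‖ = 1 ∧ w' = c • w) ∨ Λ ≤ ‖hh w w'‖
  typ : ∀ w ∈ W, TypeA w ∨ TypeB Λ w

variable {W : Set (V1 3)} {Λ : ℝ}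

theorem WSysP.inv (h : WSysP W Λ) {g : UG 3} (hg : g ∈ Subgroup.closure (LbSep_990.refl '' W)) :
    ∀ w ∈ W, g.1 w ∈ W := by
  induction hg using Subgroup.closure_induction_left with
  | one => intro w hw; exact hw
  | mul_left x hx y hy ih =>
    obtain ⟨v, hv, rfl⟩ := hx
    intro w hw
    show (LbSep_990.refl v).1 (y.1 w) ∈ W
    rw [refl_apply (h.norm v hv)]
    exact h.stab v hv _ (ih w hw)
  | inv_mul_cancel x hx y hy ih =>
    obtain ⟨v, hv, rfl⟩ := hx
    intro w hw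
    have e : (LbSep_990.refl v)⁻¹ = LbSep_990.refl v := by
      rw [inv_eq_iff_mul_eq_one]; exact refl_mul_self v
    rw [e]
    show (LbSep_990.refl v).1 (y.1 w) ∈ W
    rw [refl_apply (h.norm v hv)]
    exact h.stab v hv _ (ih w hw)

theorem WSysP.sys (h : WSysP W Λ) (hΛ : (10 : ℝ) ^ 10 ≤ Λ) : Sys (LH 3) W where
  norm := h.norm
  refl := fun w hw w' hw' => h.stab w hw w' hw'
  sep := fun w hw w' hw' => (h.sep w hw w' hw').imp id fun h1 => hΛ.trans h1

/-- start points -/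
def M0 (W : Set (V1 3)) : Set (V1 3) := {x | IsPt x ∧ ∀ s ∈ WA W, 1 ≤ ‖hh x s‖}

theorem typeA_par {w w' : V1 3} (hw : TypeA w) (hp : Par w w') : TypeA w' := by
  obtain ⟨c, hc, rfl⟩ := hp
  have hcc : conj c * c = 1 := by
    rw [mul_comm, Complex.mul_conj, Complex.normSq_eq_norm_sq, hc]; norm_num
  refine ⟨?_, ?_, ?_⟩
  · rw [hh_smul_left, hh_smul_right, hw.1, ← mul_assoc, mul_comm c, hcc, one_mul]
  · simp [hw.2.1]
  · simp [hw.2.2, hc]

theorem pt_ne {x : V1 3} (hx : IsPt x) (hA : TypeA x) : False := by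
  have h1 := hx.2.2
  rw [hA.1] at h1
  norm_num at h1

theorem stp (h : WSysP W Λ) (hΛ : (10 : ℝ) ^ 10 ≤ Λ) : Stp (LH 3) W (M0 W) (WA W) := by
  have hΛ' : (10000000000 : ℝ) ≤ Λ := by norm_num at hΛ; exact hΛ
  have hM : ∀ x ∈ M0 W, x ∉ W := by
    intro x hx hxW
    have h1 := h.norm x hxW
    rw [hx.1.2.2] at h1
    norm_num at h1
  have ob : ∀ x, x ∈ M0 W ∪ WA W → Obj x := by
    rintro x (hx | hx)
    · exact Or.inl hx.1
    · exact Or.inr hx.2
  have inA : ∀ x, x ∈ M0 W ∪ WA W → TypeA x → x ∈ WA W := by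
    rintro x (hx | hx) tx
    · exact (pt_ne hx.1 tx).elim
    · exact hx
  have far : ∀ s ∈ WA W, ∀ x, x ∈ M0 W ∪ WA W → ¬ Par s x → TypeA x → 11 ≤ ‖hh x s‖ := by
    intro s hs x hx hp tx
    rcases h.sep s hs.1 x (inA x hx tx).1 with h3 | h3
    · exact absurd h3 hp
    · rw [norm_hh_symm] at h3; linarith
  have s0 : ∀ s ∈ WA W, ∀ e ∈ M0 W ∪ WA W, ¬ Par s e → 1 ≤ ‖hh e s‖ := by
    rintro s hs e (he | he) hp
    · exact he.2 s hs
    · have := far s hs e (Or.inr he) hp he.2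
      linarith
  refine ⟨fun x hx => Or.inr hx.1.2.2, ?_, ?_, fun x hx => hx.1, ?_, ?_, s0, ?_, ?_⟩
  · rintro w hw w' hw' ⟨c, hc, rfl⟩
    exfalso
    have h1 := h.norm _ hw'
    rw [hh_smul_left, hh_smul_right, hw.1.2.2] at h1
    have h2 : c * conj c = 1 := by
      rw [Complex.mul_conj, Complex.normSq_eq_norm_sq, hc]; norm_num
    rw [← mul_assoc, h2] at h1
    norm_num at h1
  · intro w hw hwW
    exact absurd hwW (hM w hw)
  · intro s hs w' hw' hp
    exact ⟨hw', typeA_par hs.2 hp⟩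
  · intro w hw hwW
    exact absurd hwW (hM w hw)
  · intro s hs e he e' he' hp hp'
    have key := refl_straight hs.2 (ob e he) (ob e' he') (far s hs e he hp) (far s hs e' he' hp')
    have p1 : 0 < ‖hh e s‖ := lt_of_lt_of_le one_pos (s0 s hs e he hp)
    have p2 : 0 < ‖hh e' s‖ := lt_of_lt_of_le one_pos (s0 s hs e' he' hp')
    have e1 : ‖hh (LBForm_585.rho (LH 3) s e') s‖ = ‖hh e' s‖ := by
      have := LBForm_585.h_rho_w (LH 3) (w := s) hs.2.1 e'
      show ‖(LH 3).h _ _‖ = _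
      rw [this, norm_neg]; rfl
    show 1 / 2 ≤ ‖hh e (LBForm_585.rho (LH 3) s e')‖ /
      (‖hh e s‖ * ‖hh (LBForm_585.rho (LH 3) s e') s‖)
    rw [e1, le_div_iff₀ (by positivity)]
    rw [norm_hh_symm e' s] at key
    have key' : ‖hh e s‖ * ‖hh e' s‖ ≤ 2 * ‖hh e (LBForm_585.rho (LH 3) s e')‖ := key
    linarith
  · intro v hv _ hvA x hx y hy
    have tv : TypeB Λ v := by
      rcases h.typ v hv with h1 | h1
      · exact absurd ⟨hv, h1⟩ hvA
      · exact h1
    have farv : ∀ x, x ∈ M0 W ∪ WA W → TypeA x → Λ ≤ ‖hh x v‖ := by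
      intro x hx tx
      rcases h.sep x (inA x hx tx).1 v hv with h3 | h3
      · exact absurd ⟨hv, typeA_par tx h3⟩ hvA
      · exact h3
    have key := typeB_V (by linarith) tv (ob x hx) (ob y hy) (farv x hx) (farv y hy)
    show (10 : ℝ) ^ 6 * ‖hh x y‖ ≤ ‖hh x v‖ * ‖hh y v‖
    rw [norm_hh_symm y v] at key
    have h1 : (10 : ℝ) ^ 6 * 100 ≤ Λ ^ 2 := by nlinarith
    have h2 := mul_le_mul_of_nonneg_right h1 (norm_nonneg (hh x y))
    linarith

/-- words of reflections as group elements -/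
theorem exists_word {S : Set (V1 3)} (hS : ∀ w ∈ S, hh w w = 2) {g : UG 3}
    (hg : g ∈ Subgroup.closure (LbSep_990.refl '' S)) :
    ∃ l : List (V1 3), (∀ w ∈ l, w ∈ S) ∧ ∀ x, LBWord_585.W (LH 3) l x = g.1 x := by
  induction hg using Subgroup.closure_induction_left with
  | one => exact ⟨[], by simp, fun x => rfl⟩
  | mul_left x hx y hy ih =>
    obtain ⟨v, hv, rfl⟩ := hx
    obtain ⟨l, hl, he⟩ := ih
    refine ⟨v :: l, ?_, fun x => ?_⟩
    · intro w hw
      rcases List.mem_cons.1 hw with rfl | hw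
      · exact hv
      · exact hl w hw
    · show _ = (LbSep_990.refl v).1 (y.1 x)
      rw [refl_apply (hS v hv), W_cons, he]
      rfl
  | inv_mul_cancel x hx y hy ih =>
    obtain ⟨v, hv, rfl⟩ := hx
    obtain ⟨l, hl, he⟩ := ih
    have e : (LbSep_990.refl v)⁻¹ = LbSep_990.refl v := by
      rw [inv_eq_iff_mul_eq_one]; exact refl_mul_self v
    refine ⟨v :: l, ?_, fun x => ?_⟩
    · intro w hw
      rcases List.mem_cons.1 hw with rfl | hw
      · exact hv
      · exact hl w hw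
    · rw [e]
      show _ = (LbSep_990.refl v).1 (y.1 x)
      rw [refl_apply (hS v hv), W_cons, he]
      rfl

/-- a word in `S` is a group element of the closure -/
theorem word_mem {S : Set (V1 3)} (hS : ∀ w ∈ S, hh w w = 2) (l : List (V1 3))
    (hl : ∀ w ∈ l, w ∈ S) : ∃ g ∈ Subgroup.closure (LbSep_990.refl '' S),
      ∀ x, LBWord_585.W (LH 3) l x = g.1 x := by
  induction l with
  | nil => exact ⟨1, one_mem _, fun x => rfl⟩
  | cons v l ih =>
    obtain ⟨g, hg, he⟩ := ih (fun w hw => hl w (List.mem_cons_of_mem _ hw))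
    have hv : v ∈ S := hl v (by simp)
    refine ⟨LbSep_990.refl v * g, mul_mem (Subgroup.subset_closure ⟨v, hv, rfl⟩) hg, fun x => ?_⟩
    show _ = (LbSep_990.refl v).1 (g.1 x)
    rw [refl_apply (hS v hv), W_cons, he]
    rfl

/-- **separation theorem, final form, mirrors closed under unit scalars.** -/
theorem sep_final' (h : WSysP W Λ) (hΛ : (10 : ℝ) ^ 10 ≤ Λ) {r C : ℝ} (hr : 0 ≤ r)
    (hC : 16512 < C) (hCΛ : 6 * C ≤ Λ ^ 2) (hrΛ : 9 * (1 + r) ^ 2 < Λ - 1) {g : UG 3}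
    (hg : g ∈ Subgroup.closure (LbSep_990.refl '' W)) {x y : V1 3} (hx : GoodW W r C Λ x)
    (hy : GoodW W r C Λ y) (hxy : ‖hh x (g.1 y)‖ ≤ 2) :
    g = 1 ∨ ∃ w ∈ W, TypeA w ∧ g = LbSep_990.refl w := by
  have hΛ' : (10000000000 : ℝ) ≤ Λ := by norm_num at hΛ; exact hΛ
  -- the system of all unit multiples
  set W1 : Set (V1 3) := {w1 | ∃ u : ℂ, ‖u‖ = 1 ∧ ∃ w ∈ W, w1 = u • w} with hW1
  have hWW1 : ∀ w ∈ W, w ∈ W1 := fun w hw => ⟨1, by simp, w, hw, by simp⟩
  have nrm : ∀ {u : ℂ}, ‖u‖ = 1 → ∀ w : V1 3, hh (u • w) (u • w) = hh w w := by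
    intro u hu w
    have huu : conj u * u = 1 := by
      rw [mul_comm, Complex.mul_conj, Complex.normSq_eq_norm_sq, hu]; norm_num
    rw [hh_smul_left, hh_smul_right, ← mul_assoc, mul_comm u, huu, one_mul]
  have good : ∀ x, GoodW W r C Λ x → Good hh (sp ea) (sp eb) W1 r C Λ x := by
    intro x hx
    refine ⟨hx.norm, ?_, ?_⟩
    · rw [hh_eb, hh_ea]; exact hx.slope
    · rintro w1 ⟨u, hu, w, hw, rfl⟩ hP
      rw [P2_eq3] at hP
      have e0 : ‖(u • w).1 0‖ = ‖w.1 0‖ := by simp [hu]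
      have e1 : ‖(u • w).1 1‖ = ‖w.1 1‖ := by simp [hu]
      rw [e0, e1] at hP
      have h1 := hx.cap w hw ⟨h.norm w hw, hP⟩
      rw [P2_eq3, P2_eq3, e0, e1, hh_smul_right, norm_mul, Complex.norm_conj, hu, one_mul]
      exact h1
  have hgi : g⁻¹ ∈ Subgroup.closure (LbSep_990.refl '' W) := inv_mem hg
  have key := pp_ball (n := 3) (W := W1) (e0 := sp ea) (e1 := sp eb) h00 h11 h01
    (r := r) (C := C) (Λ := Λ) (T := 1) (c := 1 / 12) ?_ ?_ hr (by norm_num) (by norm_num)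
    (by norm_num) (by norm_num; exact hC) (by linarith) hrΛ (by norm_num; linarith)
    (by linarith) (g := g) ?_ (good x hx) (good y hy) hxy
  · rcases key with h1 | ⟨w1, ⟨u, hu, w, hw, rfl⟩, tw, h2⟩
    · exact Or.inl h1
    · right
      refine ⟨w, hw, ⟨h.norm w hw, ?_, ?_⟩, ?_⟩
      · have := tw.w0
        rw [hh_ea] at this
        have hu0 : u ≠ 0 := by
          intro h0; rw [h0, norm_zero] at hu; norm_num at hu
        simpa [hu0] using this
      · have := tw.w1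
        rw [hh_eb] at this
        have h3 : ‖(u • w).1 1‖ = 1 := by rw [this, norm_one]
        simpa [hu] using h3
      · rw [h2, refl_smul hu]
  · rintro w1 ⟨u, hu, w, hw, rfl⟩
    rw [nrm hu, h.norm w hw]
  · rintro w1 ⟨u, hu, w, hw, rfl⟩ w1' ⟨u', hu', w', hw', rfl⟩
    have hu0 : u ≠ 0 := by
      intro h0; rw [h0, norm_zero] at hu; norm_num at hu
    rcases h.sep w hw w' hw' with ⟨c, _, h1⟩ | h1
    · left
      refine ⟨u' * c / u, ?_⟩
      rw [h1, smul_smul, smul_smul, div_mul_cancel₀ _ hu0]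
    · right
      rw [hh_smul_left, hh_smul_right, norm_mul, norm_mul, Complex.norm_conj, hu, hu']
      simpa using h1
  · intro hg1 o o' ho ho'
    have conjA : ∀ w, w ∈ WA W → ‖conj (w.1 1)‖ = 1 ∧ conj (w.1 1) • w ∈ W1 ∧
        TA hh (sp ea) (sp eb) (conj (w.1 1) • w) := by
      rintro w ⟨hw, tw⟩
      have hu : ‖conj (w.1 1)‖ = 1 := by rw [Complex.norm_conj, tw.2.2]
      refine ⟨hu, ⟨_, hu, w, hw, rfl⟩, ⟨by rw [nrm hu, h.norm w hw], ?_, ?_⟩⟩
      · rw [hh_ea]; simp [tw.2.1]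
      · rw [hh_eb]
        have : conj (w.1 1) * w.1 1 = 1 := by
          rw [mul_comm, Complex.mul_conj, Complex.normSq_eq_norm_sq, tw.2.2]; norm_num
        simpa using this
    have hgA : g ∉ Subgroup.closure (LbSep_990.refl '' WA W) := by
      intro hcon
      apply hg1
      refine (Subgroup.closure_le _).2 ?_ hcon
      rintro _ ⟨w, hw, rfl⟩
      obtain ⟨hu, h1, h2⟩ := conjA w hw
      rw [← refl_smul hu w]
      exact Subgroup.subset_closure ⟨_, ⟨h1, h2⟩, rfl⟩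
    have pt : ∀ o, Start hh (sp ea) (sp eb) W1 1 o → o ∈ M0 W := by
      intro o ho
      refine ⟨⟨?_, ?_, ho.norm⟩, ?_⟩
      · have := ho.o0; rwa [hh_ea] at this
      · have := ho.o1; rwa [hh_eb] at this
      · intro s hs
        obtain ⟨hu, h1, h2⟩ := conjA s hs
        have h3 := ho.far _ h1 h2
        rwa [hh_smul_right, norm_mul, Complex.norm_conj, hu, one_mul] at h3
    have hS := h.sys hΛ
    have hT := stp h hΛ
    have hn2 : ∀ w ∈ WA W, hh w w = 2 := fun w hw => h.norm w hw.1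
    have hwm : WM (LH 3) W (Mp (LH 3) (M0 W) (WA W)) (Mp (LH 3) (M0 W) (WA W)) :=
      WM.start (fun x hx => LBWord_585.Mp_sub hS hT hx)
        (fun w hw w' hw' hp => LBWord_585.Mp_par hS hT hw hw' hp)
        (fun w hw hw' x hx => LBWord_585.Mp_refl hS hT hw hw' hx)
        (fun v hv hv' e he e' he' => LBWord_585.far_Mp hS hT hv hv' he he')
    obtain ⟨l, hl, hle⟩ := exists_word h.norm hg
    have hpt : ∃ o ∈ Mp (LH 3) (M0 W) (WA W), (LH 3).h o o = -1 :=
      ⟨o, LBWord_585.mem_Mp (Or.inl (pt o ho)), ho.norm⟩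
    rcases LBGR_585.gr hS hwm hpt l hl with ⟨l0, hl0, he0⟩ | hall
    · -- the word lies in the group of type A
      exfalso
      apply hgA
      have hletters : ∀ w ∈ l0, LbSep_990.refl w ∈ Subgroup.closure (LbSep_990.refl '' WA W) := by
        intro w hw
        obtain ⟨⟨p, hp, a, ha, rfl⟩, hwW⟩ := hl0 w hw
        obtain ⟨k, hk, hke⟩ := word_mem hn2 p hp
        have haA : a ∈ WA W := by
          rcases ha with ha | ha
          · exfalso
            have h1 := h.norm _ hwW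
            rw [hke, UG_hh, ha.1.2.2] at h1
            norm_num at h1
          · exact ha
        rw [hke, refl_conj]
        exact mul_mem (mul_mem hk (Subgroup.subset_closure ⟨a, haA, rfl⟩)) (inv_mem hk)
      have hl0n : ∀ w ∈ l0, hh w w = 2 := fun w hw => h.norm w (hl0 w hw).2
      obtain ⟨g0, hg0, hge⟩ := word_mem (S := {w | w ∈ l0}) hl0n l0 (fun w hw => hw)
      have hgg : g = g0 := by
        apply Subtype.ext
        apply LinearEquiv.ext
        intro x
        rw [← hle, he0, hge]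
      rw [hgg]
      refine (Subgroup.closure_le _).2 ?_ hg0
      rintro _ ⟨w, hw, rfl⟩
      exact hletters w hw
    · obtain ⟨w, hw, hw1, hw2, hD⟩ := hall o (LBWord_585.mem_Mp (Or.inl (pt o ho))) ho.norm o'
        (LBWord_585.mem_Mp (Or.inl (pt o' ho'))) ho'.norm
      have hrev : LBWord_585.W (LH 3) l.reverse w = (g⁻¹).1 w := by
        have h1 : g.1 (LBWord_585.W (LH 3) l.reverse w) = w := by
          rw [← hle]
          exact LBWord_585.W_reverse' (L := LH 3) (fun v hv => h.norm v (hl v hv)) w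
        have h2 : (g⁻¹).1 (g.1 (LBWord_585.W (LH 3) l.reverse w)) = LBWord_585.W (LH 3) l.reverse w := by
          show (g⁻¹ * g).1 _ = _
          rw [inv_mul_cancel]; rfl
        rw [← h2, h1]
      rw [hrev] at hw2
      have tB : ∀ v ∈ W, v ∉ Mp (LH 3) (M0 W) (WA W) → Λ ^ 2 ≤ P2 hh (sp ea) (sp eb) v := by
        intro v hv hvs
        rw [P2_eq3]
        rcases h.typ v hv with h1 | h1
        · have hA : v ∈ WA W := ⟨hv, h1⟩
          exact absurd (LBWord_585.mem_Mp (Or.inr hA)) hvs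
        · exact h1.2
      have hgiw : (g⁻¹).1 w ∈ W := h.inv hgi w hw
      refine ⟨w, hWW1 w hw, tB w hw hw1, hWW1 _ hgiw, tB _ hgiw hw2, ?_⟩
      rw [hle] at hD
      have hD' : 1 / 12 ≤ ‖hh o (g.1 o')‖ / (‖hh o w‖ * ‖hh (g.1 o') w‖) := hD
      rw [norm_hh_symm (g.1 o') w]
      rcases (mul_nonneg (norm_nonneg (hh o w)) (norm_nonneg (hh (g.1 o') w))).eq_or_lt
        with h0 | h0
      · rw [← h0]; simp
      · rw [le_div_iff₀ h0] at hD'
        exact hD'

end

end Crest.Agent.R272.LbFin2_990
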