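import Mathlib

/-!
# LB-START (helper702), part 1: the numerical core

`H2` is the Hermitian form of signature (1,1) on `ℂ × ℂ`, `dt` the determinant.  An object is a pair
`(κ, x)`, `κ = 0` : a point of the flat (`H2 x x = -1`), `κ = 1` : a mirror `e1 + x` (`H2 x x = 1`).
-/

namespace Crest.Agent.R272.St1_702

open Complex ComplexConjugate

/-- the form of signature (1,1) -/
def H2 (x y : ℂ × ℂ) : ℂ := x.1 * conj y.1 - x.2 * conj y.2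

/-- the determinant -/
def dt (x y : ℂ × ℂ) : ℂ := x.1 * y.2 - x.2 * y.1

theorem gram (x y s : ℂ × ℂ) :
    H2 x y * H2 s s = H2 x s * H2 s y - dt x s * conj (dt y s) := by
  simp only [H2, dt, map_sub, map_mul]
  ring

theorem H2_symm (x y : ℂ × ℂ) : H2 y x = conj (H2 x y) := by
  simp only [H2, map_sub, map_mul, Complex.conj_conj]
  ring

theorem norm_H2_symm (x y : ℂ × ℂ) : ‖H2 y x‖ = ‖H2 x y‖ := by
  rw [H2_symm, Complex.norm_conj]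

/-- `|det(x,s)|² = |H2 x s|² - H2 x x · H2 s s` with real values of the diagonal terms -/
theorem norm_dt_sq (x s : ℂ × ℂ) {a c : ℝ} (hx : H2 x x = a) (hs : H2 s s = c) :
    ‖dt x s‖ ^ 2 = ‖H2 x s‖ ^ 2 - a * c := by
  have h := gram x x s
  rw [hx, hs, H2_symm x s, Complex.mul_conj, Complex.mul_conj, Complex.normSq_eq_norm_sq,
    Complex.normSq_eq_norm_sq] at h
  have h2 : a * c = ‖H2 x s‖ ^ 2 - ‖dt x s‖ ^ 2 := by exact_mod_cast h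
  linarith

theorem le_of_sq_le {a b : ℝ} (h : a ^ 2 ≤ b ^ 2) (hb : 0 ≤ b) : a ≤ b := by
  by_contra hc
  have hc := not_le.mp hc
  nlinarith

/-- **Numerical core of the reflected straightness (S1).**
`s` is a mirror `e1 + s`, `(κ,x)`, `(κ',y)` are points or mirrors. -/
theorem refl_core {x y s : ℂ × ℂ} {κ κ' : ℝ} (hs : H2 s s = ((1 : ℝ) : ℂ))
    (hx : H2 x x = ((2 * κ - 1 : ℝ) : ℂ)) (hy : H2 y y = ((2 * κ' - 1 : ℝ) : ℂ))
    (hκ : κ = 0 ∨ (κ = 1 ∧ 10 ≤ ‖H2 x s‖)) (hκ' : κ' = 0 ∨ (κ' = 1 ∧ 10 ≤ ‖H2 y s‖)) :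
    (1 / 2) * (‖(κ : ℂ) + H2 x s‖ * ‖(κ' : ℂ) + H2 s y‖) ≤
      ‖((κ : ℂ) * κ' + H2 x y) - (κ + H2 x s) * (κ' + H2 s y)‖ := by
  set X := ‖H2 x s‖ with hX
  set Y := ‖H2 y s‖ with hY
  have hX0 : 0 ≤ X := norm_nonneg _
  have hY0 : 0 ≤ Y := norm_nonneg _
  have hdx : ‖dt x s‖ ^ 2 = X ^ 2 - (2 * κ - 1) * 1 := norm_dt_sq x s hx hs
  have hdy : ‖dt y s‖ ^ 2 = Y ^ 2 - (2 * κ' - 1) * 1 := norm_dt_sq y s hy hs
  have hκ0 : 0 ≤ κ := by rcases hκ with h | h <;> simp [h]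
  have hκ0' : 0 ≤ κ' := by rcases hκ' with h | h <;> simp [h]
  have hid : ((κ : ℂ) * κ' + H2 x y) - (κ + H2 x s) * (κ' + H2 s y)
      = -(dt x s * conj (dt y s) + (κ : ℂ) * H2 s y + (κ' : ℂ) * H2 x s) := by
    have h := gram x y s
    rw [hs] at h
    push_cast at h
    rw [mul_one] at h
    rw [h]; ring
  rw [hid, norm_neg]
  have hsy : ‖H2 s y‖ = Y := by rw [hY, norm_H2_symm]
  have h1 : ‖dt x s‖ * ‖dt y s‖ - κ * Y - κ' * X ≤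
      ‖dt x s * conj (dt y s) + (κ : ℂ) * H2 s y + (κ' : ℂ) * H2 x s‖ := by
    have e1 : ‖dt x s * conj (dt y s)‖ = ‖dt x s‖ * ‖dt y s‖ := by
      rw [norm_mul, Complex.norm_conj]
    have e2 : ‖(κ : ℂ) * H2 s y‖ = κ * Y := by
      rw [norm_mul, hsy, Complex.norm_real, Real.norm_of_nonneg hκ0]
    have e3 : ‖(κ' : ℂ) * H2 x s‖ = κ' * X := by
      rw [norm_mul, Complex.norm_real, Real.norm_of_nonneg hκ0']
    have t1 := norm_sub_le (dt x s * conj (dt y s) + (κ : ℂ) * H2 s y + (κ' : ℂ) * H2 x s)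
      ((κ : ℂ) * H2 s y + (κ' : ℂ) * H2 x s)
    have t2 := norm_add_le ((κ : ℂ) * H2 s y) ((κ' : ℂ) * H2 x s)
    have t3 : dt x s * conj (dt y s) + (κ : ℂ) * H2 s y + (κ' : ℂ) * H2 x s
        - ((κ : ℂ) * H2 s y + (κ' : ℂ) * H2 x s) = dt x s * conj (dt y s) := by ring
    rw [t3, e1] at t1
    rw [e2, e3] at t2
    linarith
  refine le_trans ?_ h1
  have hux : ‖(κ : ℂ) + H2 x s‖ ≤ κ + X := by
    refine (norm_add_le _ _).trans ?_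
    rw [Complex.norm_real, Real.norm_of_nonneg hκ0]
  have huy : ‖(κ' : ℂ) + H2 s y‖ ≤ κ' + Y := by
    refine (norm_add_le _ _).trans ?_
    rw [Complex.norm_real, Real.norm_of_nonneg hκ0', hsy]
  have hprod : ‖(κ : ℂ) + H2 x s‖ * ‖(κ' : ℂ) + H2 s y‖ ≤ (κ + X) * (κ' + Y) :=
    mul_le_mul hux huy (norm_nonneg _) (by positivity)
  have hdx' : X - κ ≤ ‖dt x s‖ := by
    apply le_of_sq_le ?_ (norm_nonneg _)
    rw [hdx]
    rcases hκ with h | h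
    · rw [h]; nlinarith
    · rw [h.1]; nlinarith [h.2]
  have hdy' : Y - κ' ≤ ‖dt y s‖ := by
    apply le_of_sq_le ?_ (norm_nonneg _)
    rw [hdy]
    rcases hκ' with h | h
    · rw [h]; nlinarith
    · rw [h.1]; nlinarith [h.2]
  have hXκ : 0 ≤ X - κ := by
    rcases hκ with h | h
    · rw [h]; linarith
    · rw [h.1]; linarith [h.2]
  have hYκ : 0 ≤ Y - κ' := by
    rcases hκ' with h | h
    · rw [h]; linarith
    · rw [h.1]; linarith [h.2]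
  have hdd : (X - κ) * (Y - κ') ≤ ‖dt x s‖ * ‖dt y s‖ :=
    mul_le_mul hdx' hdy' hYκ (norm_nonneg _)
  have hfin : (1 / 2) * ((κ + X) * (κ' + Y)) ≤ (X - κ) * (Y - κ') - κ * Y - κ' * X := by
    rcases hκ with h | ⟨h, hx10⟩ <;> rcases hκ' with h' | ⟨h', hy10⟩ <;> rw [h, h']
    · nlinarith
    · nlinarith
    · nlinarith
    · nlinarith [mul_nonneg (sub_nonneg.mpr hx10) (sub_nonneg.mpr hy10)]
  linarith
/-- **Numerical core of (S2).** `v = p0 e0 + p1 e1 + v_F` a mirror of type B, `q = -H2 v v > 0`,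
`ℓ ≤ √q`; the objects `(κ,x)`, `(κ',y)` are points or mirrors of type A far from `v`. -/
theorem typeB_core {x y v : ℂ × ℂ} {p : ℂ} {κ κ' q ℓ : ℝ} (hq1 : 1 ≤ q) (hℓ0 : 0 < ℓ)
    (hℓq : ℓ ^ 2 ≤ q)
    (hv : H2 v v = ((-q : ℝ) : ℂ)) (hp : ‖p‖ ^ 2 ≤ q + 2)
    (hx : H2 x x = ((2 * κ - 1 : ℝ) : ℂ)) (hy : H2 y y = ((2 * κ' - 1 : ℝ) : ℂ))
    (hκ : κ = 0 ∨ (κ = 1 ∧ ℓ ≤ ‖(κ : ℂ) * conj p + H2 x v‖))
    (hκ' : κ' = 0 ∨ (κ' = 1 ∧ ℓ ≤ ‖(κ' : ℂ) * conj p + H2 y v‖)) :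
    ℓ ^ 2 * ‖(κ : ℂ) * κ' + H2 x y‖ ≤
      50 * (‖(κ : ℂ) * conj p + H2 x v‖ * ‖(κ' : ℂ) * conj p + H2 y v‖) := by
  set r := Real.sqrt q with hr
  have hq0 : 0 < q := by linarith
  have hr0 : 0 < r := Real.sqrt_pos.mpr hq0
  have hrr : r ^ 2 = q := Real.sq_sqrt hq0.le
  have hr1 : 1 ≤ r := by nlinarith
  have hℓr : ℓ ≤ r := by nlinarith
  have hpr : ‖p‖ ≤ 2 * r := by
    have : 0 ≤ ‖p‖ := norm_nonneg _
    nlinarith
  -- one object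
  have one : ∀ {z : ℂ × ℂ} {k : ℝ}, H2 z z = ((2 * k - 1 : ℝ) : ℂ) →
      (k = 0 ∨ (k = 1 ∧ ℓ ≤ ‖(k : ℂ) * conj p + H2 z v‖)) →
      0 ≤ k ∧ ‖dt z v‖ ≤ ‖H2 z v‖ + k * r ∧
      ℓ * (‖H2 z v‖ + k * r) ≤ 5 * r * ‖(k : ℂ) * conj p + H2 z v‖ := by
    intro z k hz hk
    have hZ0 : 0 ≤ ‖H2 z v‖ := norm_nonneg _
    have hd := norm_dt_sq z v hz hv
    rcases hk with h | ⟨h, hfar⟩
    · subst h
      refine ⟨le_refl _, ?_, ?_⟩
      · rw [zero_mul, add_zero]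
        have : ‖dt z v‖ ^ 2 ≤ ‖H2 z v‖ ^ 2 := by rw [hd]; nlinarith
        exact le_of_sq_le this hZ0
      · simp only [Complex.ofReal_zero, zero_mul, zero_add, add_zero]
        nlinarith
    · subst h
      refine ⟨zero_le_one, ?_, ?_⟩
      · have : ‖dt z v‖ ^ 2 ≤ (‖H2 z v‖ + 1 * r) ^ 2 := by rw [hd]; nlinarith
        exact le_of_sq_le this (by positivity)
      · simp only [Complex.ofReal_one, one_mul] at hfar ⊢
        have hlow : ‖H2 z v‖ - 2 * r ≤ ‖conj p + H2 z v‖ := by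
          have t := norm_sub_le (conj p + H2 z v) (conj p)
          rw [add_sub_cancel_left, Complex.norm_conj] at t
          linarith
        by_cases hc : 4 * r ≤ ‖H2 z v‖
        · -- `|h| ≥ Z - 2r ≥ Z/2`
          have h2 : ‖H2 z v‖ / 2 ≤ ‖conj p + H2 z v‖ := by linarith
          nlinarith [mul_le_mul_of_nonneg_right hℓr hZ0, mul_le_mul_of_nonneg_left h2 hr0.le]
        · have hc := not_le.mp hc
          nlinarith [mul_le_mul_of_nonneg_left hfar hr0.le, mul_pos hℓ0 hr0]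
  obtain ⟨hk0, hdx, hbx⟩ := one hx hκ
  obtain ⟨hk0', hdy, hby⟩ := one hy hκ'
  -- `|h x y| ≤ 2 m m'`
  have hX0 : 0 ≤ ‖H2 x v‖ := norm_nonneg _
  have hY0 : 0 ≤ ‖H2 y v‖ := norm_nonneg _
  have hgram : q * ‖H2 x y‖ ≤ ‖H2 x v‖ * ‖H2 y v‖ + ‖dt x v‖ * ‖dt y v‖ := by
    have h := gram x y v
    rw [hv] at h
    have h2 : ‖H2 x y * ((-q : ℝ) : ℂ)‖ = q * ‖H2 x y‖ := by
      rw [norm_mul, Complex.norm_real, Real.norm_eq_abs, abs_neg, abs_of_pos hq0, mul_comm]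
    rw [← h2, h]
    refine (norm_sub_le _ _).trans ?_
    rw [norm_mul, norm_mul, Complex.norm_conj, norm_H2_symm y v]
  have hxy : q * ‖(κ : ℂ) * κ' + H2 x y‖ ≤
      2 * ((‖H2 x v‖ + κ * r) * (‖H2 y v‖ + κ' * r)) := by
    have t1 : ‖(κ : ℂ) * κ' + H2 x y‖ ≤ κ * κ' + ‖H2 x y‖ := by
      refine (norm_add_le _ _).trans ?_
      rw [norm_mul, Complex.norm_real, Complex.norm_real, Real.norm_of_nonneg hk0,
        Real.norm_of_nonneg hk0']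
    have t2 : ‖dt x v‖ * ‖dt y v‖ ≤ (‖H2 x v‖ + κ * r) * (‖H2 y v‖ + κ' * r) :=
      mul_le_mul hdx hdy (norm_nonneg _) (by positivity)
    have t3 : q * (κ * κ') + ‖H2 x v‖ * ‖H2 y v‖ ≤ (‖H2 x v‖ + κ * r) * (‖H2 y v‖ + κ' * r) := by
      rw [← hrr]
      have a1 : 0 ≤ ‖H2 x v‖ * (κ' * r) := by positivity
      have a2 : 0 ≤ κ * r * ‖H2 y v‖ := by positivity
      nlinarith
    nlinarith
  have hbb : (ℓ * (‖H2 x v‖ + κ * r)) * (ℓ * (‖H2 y v‖ + κ' * r)) ≤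
      (5 * r * ‖(κ : ℂ) * conj p + H2 x v‖) * (5 * r * ‖(κ' : ℂ) * conj p + H2 y v‖) :=
    mul_le_mul hbx hby (by positivity) (by positivity)
  -- multiply `hxy` by `ℓ²` and divide by `q = r²`
  have key : q * (ℓ ^ 2 * ‖(κ : ℂ) * κ' + H2 x y‖) ≤
      q * (50 * (‖(κ : ℂ) * conj p + H2 x v‖ * ‖(κ' : ℂ) * conj p + H2 y v‖)) := by
    have e1 : q * (ℓ ^ 2 * ‖(κ : ℂ) * κ' + H2 x y‖) ≤
        ℓ ^ 2 * (2 * ((‖H2 x v‖ + κ * r) * (‖H2 y v‖ + κ' * r))) := by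
      have := mul_le_mul_of_nonneg_left hxy (sq_nonneg ℓ)
      linarith
    refine e1.trans ?_
    have e2 : q * (50 * (‖(κ : ℂ) * conj p + H2 x v‖ * ‖(κ' : ℂ) * conj p + H2 y v‖)) =
        2 * ((5 * r * ‖(κ : ℂ) * conj p + H2 x v‖) * (5 * r * ‖(κ' : ℂ) * conj p + H2 y v‖)) := by
      rw [← hrr]; ring
    rw [e2]
    nlinarith
  exact le_of_mul_le_mul_left key hq0

end Crest.Agent.R272.St1_702
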