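import Crest.Agent.R272.EBase_641
import Crest.Agent.R272.St1_702

/-!
# LB-START (helper702), part 2: type A / type B mirrors in the language of `EBase_641`, `V1 3`

* `IsPt x`   : `x` a point of the flat `f1 = {x0 = x1 = 0}` (`hh x x = -1`);
* `TypeA w`  : `hh w w = 2`, `w0 = 0`, `|w1| = 1`;
* `TypeB Λ v`: `hh v v = 2`, `Λ² ≤ |v0|² + |v1|²`;
* `Obj x := IsPt x ∨ TypeA x`.

`refl_straight` = (S1) in reflected form, `typeB_V` = (S2)/(V) for `M ∪ S`, `typeB_far` : `|h(o,v)|`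
is huge for points of the flat.
-/

set_option autoImplicit false

open scoped ComplexConjugate

namespace Crest.Agent.R272.St2_702

open EBase_641 St1_702

noncomputable section

/-- the part of a vector in the (1,1)-plane `F = ⟨e2, n⟩` -/
def fl (x : V1 3) : ℂ × ℂ := (x.1 2, x.2)

theorem hh_eq (x y : V1 3) :
    hh x y = x.1 0 * conj (y.1 0) + x.1 1 * conj (y.1 1) + H2 (fl x) (fl y) := by
  have h1 : inner ℂ y.1 x.1 = x.1 0 * conj (y.1 0) + x.1 1 * conj (y.1 1)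
      + x.1 2 * conj (y.1 2) := by
    rw [PiLp.inner_apply, Fin.sum_univ_three]
    simp only [RCLike.inner_apply]
  simp only [hh, h1, H2, fl]
  ring

/-- points of the flat `f1` -/
def IsPt (x : V1 3) : Prop := x.1 0 = 0 ∧ x.1 1 = 0 ∧ hh x x = -1

/-- mirrors of type A (norm 2, cross the flat) -/
def TypeA (w : V1 3) : Prop := hh w w = 2 ∧ w.1 0 = 0 ∧ ‖w.1 1‖ = 1

/-- mirrors of type B -/
def TypeB (Λ : ℝ) (v : V1 3) : Prop := hh v v = 2 ∧ Λ ^ 2 ≤ ‖v.1 0‖ ^ 2 + ‖v.1 1‖ ^ 2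

def Obj (x : V1 3) : Prop := IsPt x ∨ TypeA x

theorem fl_smul (c : ℂ) (x : V1 3) : fl (c • x) = (c * (fl x).1, c * (fl x).2) := by
  simp [fl]

theorem norm_hh_symm (x y : V1 3) : ‖hh y x‖ = ‖hh x y‖ := by
  rw [← hh_conj x y, Complex.norm_conj]

/-- normal form of an object: a unimodular multiple is `κ e1 + x_F`. -/
theorem Obj.norm {x : V1 3} (hx : Obj x) : ∃ (c : ℂ) (κ : ℝ), ‖c‖ = 1 ∧
    (c • x).1 0 = 0 ∧ (c • x).1 1 = (κ : ℂ) ∧ H2 (fl (c • x)) (fl (c • x)) = ((2 * κ - 1 : ℝ) : ℂ) ∧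
    ((κ = 0 ∧ IsPt x) ∨ (κ = 1 ∧ TypeA x)) := by
  rcases hx with h | h
  · refine ⟨1, 0, by simp, ?_, ?_, ?_, Or.inl ⟨rfl, h⟩⟩
    · simp [h.1]
    · simp [h.2.1]
    · have e := h.2.2
      rw [hh_eq, h.1, h.2.1] at e
      simp only [zero_mul, zero_add] at e
      rw [one_smul, e]; norm_num
  · have hu : x.1 1 * conj (x.1 1) = 1 := by
      rw [Complex.mul_conj, Complex.normSq_eq_norm_sq, h.2.2]; norm_num
    refine ⟨conj (x.1 1), 1, by rw [Complex.norm_conj, h.2.2], ?_, ?_, ?_, Or.inr ⟨rfl, h⟩⟩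
    · simp [h.2.1]
    · simp only [Prod.smul_fst, PiLp.smul_apply, smul_eq_mul]
      rw [mul_comm, hu]; norm_num
    · have e := h.1
      rw [hh_eq, h.2.1, hu] at e
      simp only [zero_mul, zero_add] at e
      have e2 : H2 (fl (conj (x.1 1) • x)) (fl (conj (x.1 1) • x))
          = (x.1 1 * conj (x.1 1)) * H2 (fl x) (fl x) := by
        rw [fl_smul]
        simp only [H2, map_mul, Complex.conj_conj]
        ring
      rw [e2, hu, one_mul]
      have e3 : H2 (fl x) (fl x) = 1 := by linear_combination e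
      rw [e3]; norm_num

theorem hh_of_norm {x y : V1 3} {κ κ' : ℝ} (h0 : x.1 0 = 0) (h1 : x.1 1 = (κ : ℂ))
    (h0' : y.1 0 = 0) (h1' : y.1 1 = (κ' : ℂ)) : hh x y = (κ : ℂ) * κ' + H2 (fl x) (fl y) := by
  rw [hh_eq, h0, h1, h0', h1', Complex.conj_ofReal]
  simp

theorem hh_of_norm' {x v : V1 3} {κ : ℝ} (h0 : x.1 0 = 0) (h1 : x.1 1 = (κ : ℂ)) :
    hh x v = (κ : ℂ) * conj (v.1 1) + H2 (fl x) (fl v) := by
  rw [hh_eq, h0, h1]
  simp

/-- the reflection in the norm 2 vector `w` -/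
def rho (w x : V1 3) : V1 3 := x - hh x w • w

theorem hh_rho (x s y : V1 3) : hh x (rho s y) = hh x y - hh x s * hh s y := by
  have : rho s y = y + (-(hh y s)) • s := by simp [rho, sub_eq_add_neg]
  rw [this, hh_add_right, hh_smul_right, map_neg, hh_conj]
  ring

/-- **(S1), reflected form**: `D_s(x, ρ_s y) ≥ 1/2` for points of the flat and type A mirrors. -/
theorem refl_straight {x y s : V1 3} (hs : TypeA s) (hx : Obj x) (hy : Obj y)
    (hxs : TypeA x → 11 ≤ ‖hh x s‖) (hys : TypeA y → 11 ≤ ‖hh y s‖) :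
    ‖hh x s‖ * ‖hh s y‖ ≤ 2 * ‖hh x (rho s y)‖ := by
  obtain ⟨c, κ, hc, h0, h1, hxx, hk⟩ := hx.norm
  obtain ⟨c', κ', hc', h0', h1', hyy, hk'⟩ := hy.norm
  obtain ⟨d, μ, hd, hd0, hd1, hss, hkd⟩ := (show Obj s from Or.inr hs).norm
  have hμ : μ = 1 := by
    rcases hkd with h | h
    · exfalso
      have := h.2.2.2
      rw [hs.1] at this
      norm_num at this
    · exact h.1
  subst hμ
  have e1 : hh (c • x) (d • s) = c * conj d * hh x s := by
    rw [hh_smul_left, hh_smul_right]; ring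
  have e2 : hh (d • s) (c' • y) = d * conj c' * hh s y := by
    rw [hh_smul_left, hh_smul_right]; ring
  have e3 : hh (c • x) (c' • y) = c * conj c' * hh x y := by
    rw [hh_smul_left, hh_smul_right]; ring
  have e4 : hh (c' • y) (d • s) = c' * conj d * hh y s := by
    rw [hh_smul_left, hh_smul_right]; ring
  have n1 : ‖hh (c • x) (d • s)‖ = ‖hh x s‖ := by
    rw [e1, norm_mul, norm_mul, Complex.norm_conj, hc, hd]; ring
  have n2 : ‖hh (d • s) (c' • y)‖ = ‖hh s y‖ := by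
    rw [e2, norm_mul, norm_mul, Complex.norm_conj, hc', hd]; ring
  have n4 : ‖hh (c' • y) (d • s)‖ = ‖hh y s‖ := by
    rw [e4, norm_mul, norm_mul, Complex.norm_conj, hc', hd]; ring
  have f1 := hh_of_norm h0 h1 hd0 hd1
  have f2 := hh_of_norm hd0 hd1 h0' h1'
  have f3 := hh_of_norm h0 h1 h0' h1'
  have f4 := hh_of_norm h0' h1' hd0 hd1
  have far : ∀ {z : V1 3} {k : ℝ}, k = 1 → 11 ≤ ‖(k : ℂ) * ((1 : ℝ) : ℂ) + H2 (fl z) (fl (d • s))‖ →
      10 ≤ ‖H2 (fl z) (fl (d • s))‖ := by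
    intro z k hk1 hz
    have t := norm_add_le ((k : ℂ) * ((1 : ℝ) : ℂ)) (H2 (fl z) (fl (d • s)))
    rw [hk1] at hz t
    rw [norm_mul, Complex.norm_real, norm_one] at t
    linarith
  have core := refl_core (x := fl (c • x)) (y := fl (c' • y)) (s := fl (d • s)) (κ := κ) (κ' := κ')
    (by rw [hss]; norm_num) hxx hyy
    (by
      rcases hk with h | h
      · exact Or.inl h.1
      · refine Or.inr ⟨h.1, far h.1 ?_⟩
        rw [← f1, n1]; exact hxs h.2)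
    (by
      rcases hk' with h | h
      · exact Or.inl h.1
      · refine Or.inr ⟨h.1, far h.1 ?_⟩
        rw [← f4, n4]; exact hys h.2)
  have g1 : (κ : ℂ) + H2 (fl (c • x)) (fl (d • s)) = hh (c • x) (d • s) := by
    rw [f1]; norm_num
  have g2 : (κ' : ℂ) + H2 (fl (d • s)) (fl (c' • y)) = hh (d • s) (c' • y) := by
    rw [f2]; norm_num
  rw [g1, g2, ← f3, n1, n2] at core
  have e5 : hh (c • x) (c' • y) - hh (c • x) (d • s) * hh (d • s) (c' • y)
      = c * conj c' * hh x (rho s y) := by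
    rw [e1, e2, e3, hh_rho]
    have hdd : d * conj d = 1 := by
      rw [Complex.mul_conj, Complex.normSq_eq_norm_sq, hd]; norm_num
    linear_combination (-(c * conj c' * hh x s * hh s y)) * hdd
  rw [e5, norm_mul, norm_mul, Complex.norm_conj, hc, hc'] at core
  linarith

/-- `H2` of the flat part of a type B mirror -/
theorem typeB_fl {Λ : ℝ} {v : V1 3} (hv : TypeB Λ v) :
    H2 (fl v) (fl v) = ((-(‖v.1 0‖ ^ 2 + ‖v.1 1‖ ^ 2 - 2) : ℝ) : ℂ) := by
  have h := hv.1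
  rw [hh_eq, Complex.mul_conj, Complex.mul_conj, Complex.normSq_eq_norm_sq,
    Complex.normSq_eq_norm_sq] at h
  push_cast at h ⊢
  linear_combination h

/-- **(S2) = (V) for `f1 ∪ typeA`**: `D_v(x,y) ≤ 100/Λ²` for `v` of type B. -/
theorem typeB_V {Λ : ℝ} (hΛ : 2 ≤ Λ) {x y v : V1 3} (hv : TypeB Λ v) (hx : Obj x) (hy : Obj y)
    (hxv : TypeA x → Λ ≤ ‖hh x v‖) (hyv : TypeA y → Λ ≤ ‖hh y v‖) :
    Λ ^ 2 * ‖hh x y‖ ≤ 100 * (‖hh x v‖ * ‖hh v y‖) := by
  obtain ⟨c, κ, hc, h0, h1, hxx, hk⟩ := hx.norm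
  obtain ⟨c', κ', hc', h0', h1', hyy, hk'⟩ := hy.norm
  set q := ‖v.1 0‖ ^ 2 + ‖v.1 1‖ ^ 2 - 2 with hq
  set ℓ := Real.sqrt (Λ ^ 2 - 2) with hℓ
  have hΛ2 : (2 : ℝ) ≤ Λ ^ 2 - 2 := by nlinarith
  have hℓ2 : ℓ ^ 2 = Λ ^ 2 - 2 := Real.sq_sqrt (by linarith)
  have hℓ0 : 0 < ℓ := Real.sqrt_pos.mpr (by linarith)
  have hℓΛ : ℓ ≤ Λ := by nlinarith
  have hqΛ : Λ ^ 2 - 2 ≤ q := by have := hv.2; rw [hq]; linarith
  have e1 : hh (c • x) v = c * hh x v := hh_smul_left _ _ _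
  have e4 : hh (c' • y) v = c' * hh y v := hh_smul_left _ _ _
  have e3 : hh (c • x) (c' • y) = c * conj c' * hh x y := by
    rw [hh_smul_left, hh_smul_right]; ring
  have n1 : ‖hh (c • x) v‖ = ‖hh x v‖ := by rw [e1, norm_mul, hc, one_mul]
  have n4 : ‖hh (c' • y) v‖ = ‖hh v y‖ := by rw [e4, norm_mul, hc', one_mul, norm_hh_symm]
  have n3 : ‖hh (c • x) (c' • y)‖ = ‖hh x y‖ := by
    rw [e3, norm_mul, norm_mul, Complex.norm_conj, hc, hc']; ring
  have f1 := hh_of_norm' (v := v) h0 h1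
  have f4 := hh_of_norm' (v := v) h0' h1'
  have f3 := hh_of_norm h0 h1 h0' h1'
  have core := typeB_core (x := fl (c • x)) (y := fl (c' • y)) (v := fl v) (p := v.1 1)
    (κ := κ) (κ' := κ') (q := q) (ℓ := ℓ) (by linarith) hℓ0 (by rw [hℓ2]; exact hqΛ)
    (typeB_fl hv) (by rw [hq]; nlinarith [sq_nonneg ‖v.1 0‖]) hxx hyy
    (by
      rcases hk with h | h
      · exact Or.inl h.1
      · refine Or.inr ⟨h.1, ?_⟩
        rw [← f1, n1]; exact hℓΛ.trans (hxv h.2))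
    (by
      rcases hk' with h | h
      · exact Or.inl h.1
      · refine Or.inr ⟨h.1, ?_⟩
        rw [← f4, n4, norm_hh_symm]; exact hℓΛ.trans (hyv h.2))
  rw [← f1, ← f4, ← f3, n1, n4, n3, hℓ2] at core
  have : (Λ ^ 2) * ‖hh x y‖ ≤ 2 * ((Λ ^ 2 - 2) * ‖hh x y‖) := by
    have := norm_nonneg (hh x y)
    nlinarith
  linarith

/-- `|h(o,v)|² ≥ Λ² - 2` for a point of the flat and a type B mirror -/
theorem typeB_far {Λ : ℝ} {o v : V1 3} (hv : TypeB Λ v) (ho : IsPt o) :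
    Λ ^ 2 - 2 ≤ ‖hh o v‖ ^ 2 := by
  have ho' : H2 (fl o) (fl o) = ((-1 : ℝ) : ℂ) := by
    have := ho.2.2
    rw [hh_eq, ho.1, ho.2.1] at this
    simp only [zero_mul, zero_add] at this
    rw [this]; norm_num
  have h := norm_dt_sq (fl o) (fl v) ho' (typeB_fl hv)
  have e : hh o v = H2 (fl o) (fl v) := by
    rw [hh_eq, ho.1, ho.2.1]; simp
  rw [e]
  have h2 := sq_nonneg ‖dt (fl o) (fl v)‖
  have h3 := hv.2
  nlinarith

end

end Crest.Agent.R272.St2_702
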