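import Crest.Agent.R272.WmD_181

/-!
# The windmill, part E: the start windmill in `Lor` language

Points `P` (may lie on mirrors) and a first family `A` of mirrors, straight in the reflected form
(helper702 `refl_straight`), far from all other mirrors (`typeB_V`): the set
`M0 = <A> (P ∪ A)` is a start windmill and its group is `<A>`.
-/

set_option autoImplicit false

namespace Crest.Agent.R272.WmD181

open Complex ComplexConjugate Subgroup
open Crest.Agent.R272.LBForm_585 Crest.Agent.R272.LBForm_585.Lor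

variable {V : Type*} [AddCommGroup V] [Module ℂ V] {L : Lor V} {W : Set V} {Λ : ℝ}

/-- the orbit of `P ∪ A` under the group generated by the reflections of `A` -/
def startSet (L : Lor V) (P A : Set V) : Set V :=
  {y | ∃ g ∈ closure (sE L '' A), ∃ x ∈ P ∪ A, y = g x}

/-- hypotheses for the start -/
structure StartData (L : Lor V) (W P A : Set V) : Prop where
  pt : ∀ x ∈ P, L.h x x = -1
  sub : A ⊆ W
  neg : ∀ s ∈ A, -s ∈ A
  refl : ∀ s ∈ A, ∀ x ∈ P ∪ A, ∀ y ∈ P ∪ A, (x ∈ A → x ≠ s ∧ x ≠ -s) → (y ∈ A → y ≠ s ∧ y ≠ -s) →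
    ‖L.h x s‖ * ‖L.h s y‖ ≤ 2 * ‖L.h x (rho L s y)‖
  far : ∀ v ∈ W, v ∉ A → ∀ x ∈ P ∪ A, ∀ y ∈ P ∪ A,
    20000000000 * ‖L.h x y‖ ≤ ‖L.h x v‖ * ‖L.h v y‖

lemma StartData.rl {P A : Set V} (hD : StartData L W P A) (hS : MSys L W Λ)
    (hΛ : 100000000000 ≤ Λ) : (hS.toSys hΛ).RL P A where
  nomir := by
    intro x hx hW
    have h1 := hD.pt x hx
    have h2 := hS.norm x hW
    rw [h1] at h2
    norm_num at h2
  subO := fun x hx => Or.inr (hD.pt x hx)
  sub := hD.sub
  sat := by
    intro x hx r hr h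
    rcases hS.eq_of_sE (by linarith) (hD.sub hx) hr (Eq.symm h) with h1 | h1
    · rw [h1]; exact hx
    · rw [h1]; exact hD.neg x hx
  zero := by
    intro x hx a ha h z
    have hxx := hS.norm x (hD.sub hx)
    change cc L a x = 0 at h
    change cc L (sE L x • a) z = cc L a z
    have h1 : L.h a x = 0 := by
      unfold cc at h
      have h2 := hS.nn_pos (x := a) (Or.inr (hD.pt a ha))
      have h3 := nn_mir_pos L hxx
      rcases mul_eq_zero.1 h with h | h
      · rcases mul_eq_zero.1 h with h | h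
        · simpa using h
        · exact absurd h h2.ne'
      · exact absurd h h3.ne'
    rw [sE_smul L hxx]
    unfold rho
    rw [h1]; simp
  refl := by
    intro x hx y hy z hz hyx hzx
    have hxx := hS.norm x (hD.sub hx)
    change cc L y x * cc L x z ≤ cc L y (sE L x • z)
    rw [sE_smul L hxx]
    have conv : ∀ u ∈ P ∪ A, (hS.toSys hΛ).Off u x → (u ∈ A → u ≠ x ∧ u ≠ -x) := by
      intro u _ hux huA
      have h1 := hux (hD.sub huA)
      change sE L u ≠ sE L x at h1
      refine ⟨fun h => h1 (by rw [h]), fun h => h1 ?_⟩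
      rw [h, hS.sE_neg (hD.sub hx)]
    have h1 := hD.refl x hx y hy z hz (conv y hy hyx) (conv z hz hzx)
    unfold cc
    rw [nn_rho L hxx]
    have e : ‖L.h y x‖ * nn L y * nn L x * (‖L.h x z‖ * nn L x * nn L z) =
        (nn L x * nn L x) * (‖L.h y x‖ * ‖L.h x z‖) * (nn L y * nn L z) := by ring
    rw [e, nn_mir L hxx]
    have h2 : 0 ≤ nn L y * nn L z := mul_nonneg (nn_nonneg _ _) (nn_nonneg _ _)
    have h3 := mul_le_mul_of_nonneg_right h1 h2
    linarith
  far := by
    intro r hr hrA a ha b hb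
    have hO : ∀ x ∈ P ∪ A, x ∈ Obj L W := by
      rintro x (hx | hx)
      · exact Or.inr (hD.pt x hx)
      · exact Or.inl (hD.sub hx)
    refine (hS.nr_iff hΛ hr (hO a ha) (hO b hb)).2 ?_
    have h1 := hD.far r hr hrA a ha b hb
    have h2 : (hS.toSys hΛ).e1 = 1 / 10000 / 1000000 := rfl
    rw [h2]
    linarith

lemma StartData.nxt_eq {P A : Set V} (hD : StartData L W P A) (hS : MSys L W Λ)
    (hΛ : 100000000000 ≤ Λ) : (hS.toSys hΛ).nxt P A = startSet L P A := by
  ext y
  exact WmA181.Sys.mem_start (hD.rl hS hΛ)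

/-- **the start windmill** -/
theorem StartData.start {P A : Set V} (hD : StartData L W P A) (hS : MSys L W Λ)
    (hΛ : 100000000000 ≤ Λ) : Start L W (startSet L P A) 20000 := by
  have hm := WmA181.Sys.mill_start (hD.rl hS hΛ)
  rw [hD.nxt_eq hS hΛ] at hm
  refine ⟨hm.sub, ?_, ?_⟩
  · intro w hw hwW x hx
    have := hm.inv w hw hwW x hx
    change sE L w • x ∈ _ at this
    rwa [sE_smul L (hS.norm w hwW)] at this
  · intro v hv hvM a ha b hb
    have h1 := (hS.nr_iff hΛ hv (hm.sub ha) (hm.sub hb)).1 (hm.small v hv hvM a ha b hb)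
    change _ ≤ 1 / 10000 / 2 * _ at h1
    linarith

/-- the group of the start windmill -/
theorem StartData.group {P A : Set V} (hD : StartData L W P A) (hS : MSys L W Λ)
    (hΛ : 100000000000 ≤ Λ) :
    closure (sE L '' (startSet L P A ∩ W)) = closure (sE L '' A) := by
  have h := WmA181.Sys.GW_start (hD.rl hS hΛ)
  rw [hD.nxt_eq hS hΛ] at h
  exact h

/-- **separation relative to the start family**: output consumed by LB-PP. -/
theorem StartData.gr {P A : Set V} (hD : StartData L W P A) (hS : MSys L W Λ)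
    (hΛ : 100000000000 ≤ Λ) (hne : P.Nonempty) {g : V ≃ₗ[ℂ] V}
    (hg : g ∈ closure (sE L '' W)) (hg0 : g ∉ closure (sE L '' A)) :
    ∃ w ∈ W, w ∉ startSet L P A ∧ g⁻¹ w ∉ startSet L P A ∧
      ∀ o ∈ startSet L P A, ∀ o' ∈ startSet L P A,
      ‖L.h o w‖ * ‖L.h w (g o')‖ ≤ 2 * ‖L.h o (g o')‖ := by
  obtain ⟨x, hx⟩ := hne
  refine WmD181.gr hS hΛ le_rfl (hD.start hS hΛ) ⟨x, 1, one_mem _, x, Or.inl hx, rfl⟩ hg ?_
  rw [hD.group hS hΛ]
  exact hg0

lemma mem_startSet {P A : Set V} {x : V} (hx : x ∈ P ∪ A) : x ∈ startSet L P A :=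
  ⟨1, one_mem _, x, hx, rfl⟩

end Crest.Agent.R272.WmD181
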