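import Crest.Agent.R272.LbSep_990
import Crest.Agent.R272.WmE_181
import Crest.Agent.R272.St2_702

/-!
# LB-START, final (helper702): instance of 181's `MSys` / `StartData` on `V1 3`, and (PP+) with NO
`GR` hypothesis left.

`Mir W Λ` : `W` a set of vectors of norm 2, closed under `-` and its reflections, pairwise `±` or
`Λ ≤ |h|`, (F2) : `w = ±(e1 - s)` (type A) or `Λ² ≤ |w0|² + |w1|²` (type B).
`Mir.gr` : (GR) in the form of 990.  `Mir.pp` : separation of good points by the group generated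
by ALL reflections.
-/

set_option autoImplicit false

open scoped ComplexConjugate

namespace Crest.Agent.R272.St4_702

open EBase_641 St2_702 LBForm_585 WmD181 LbPP_990 LbSep_990

noncomputable section

/-- `(V1 n, hh)` as a `Lor` -/
def lorV (n : ℕ) : Lor (V1 n) where
  h := hh
  add_left := hh_add_left
  smul_left := hh_smul_left
  symm x y := (hh_conj x y).symm
  neg b x hb hx := hF.sig b x hb hx

def E0 : V1 3 := (EuclideanSpace.single 0 1, 0)
def E1 : V1 3 := (EuclideanSpace.single 1 1, 0)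

theorem hh_E0 (x : V1 3) : hh x E0 = x.1 0 := by
  simp [hh, E0, EuclideanSpace.inner_single_left]

theorem hh_E1 (x : V1 3) : hh x E1 = x.1 1 := by
  simp [hh, E1, EuclideanSpace.inner_single_left]

theorem h00 : hh E0 E0 = 1 := by rw [hh_E0]; simp [E0]
theorem h11 : hh E1 E1 = 1 := by rw [hh_E1]; simp [E1]
theorem h01 : hh E0 E1 = 0 := by rw [hh_E1]; simp [E0]

/-- the system of mirrors of the lower bound -/
structure Mir (W : Set (V1 3)) (Λ : ℝ) : Prop where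
  norm : ∀ w ∈ W, hh w w = 2
  neg : ∀ w ∈ W, -w ∈ W
  refl : ∀ w ∈ W, ∀ w' ∈ W, w' - hh w' w • w ∈ W
  sep : ∀ w ∈ W, ∀ w' ∈ W, w' = w ∨ w' = -w ∨ Λ ≤ ‖hh w w'‖
  F2 : ∀ w ∈ W, (w.1 0 = 0 ∧ (w.1 1 = 1 ∨ w.1 1 = -1)) ∨ Λ ^ 2 ≤ ‖w.1 0‖ ^ 2 + ‖w.1 1‖ ^ 2

variable {W : Set (V1 3)} {Λ : ℝ}

theorem Mir.msys (h : Mir W Λ) : MSys (lorV 3) W Λ where
  norm := h.norm
  neg := h.neg
  refl := h.refl
  sep := h.sep

theorem Mir.ab (h : Mir W Λ) {w : V1 3} (hw : w ∈ W) : TypeA w ∨ TypeB Λ w := by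
  rcases h.F2 w hw with h1 | h1
  · left
    refine ⟨h.norm w hw, h1.1, ?_⟩
    rcases h1.2 with h2 | h2 <;> rw [h2] <;> simp
  · exact Or.inr ⟨h.norm w hw, h1⟩

theorem typeA_neg {w : V1 3} (h : TypeA w) : TypeA (-w) := by
  refine ⟨?_, ?_, ?_⟩
  · have := h.1
    rw [hF.neg_left, hF.neg_right, neg_neg]; exact this
  · simp [h.2.1]
  · simpa using h.2.2

/-- type A and type B exclude each other -/
theorem not_ab (hΛ : 2 ≤ Λ) {w : V1 3} (h : TypeA w) (h' : TypeB Λ w) : False := by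
  have h1 := h'.2
  rw [h.2.1, h.2.2, norm_zero] at h1
  nlinarith

/-- **181's start data** -/
theorem Mir.startData (h : Mir W Λ) (hΛ : 10000000 ≤ Λ) :
    StartData (lorV 3) W {x | IsPt x} {w | w ∈ W ∧ TypeA w} where
  pt := fun x hx => hx.2.2
  sub := fun w hw => hw.1
  neg := fun w hw => ⟨h.neg w hw.1, typeA_neg hw.2⟩
  refl := by
    intro s hs x hx y hy ax ay
    have obj : ∀ z : V1 3, z ∈ {x | IsPt x} ∪ {w | w ∈ W ∧ TypeA w} → Obj z := by
      intro z hz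
      rcases hz with h1 | h1
      · exact Or.inl h1
      · exact Or.inr h1.2
    have far : ∀ z : V1 3, z ∈ {x | IsPt x} ∪ {w | w ∈ W ∧ TypeA w} →
        (z ∈ {w | w ∈ W ∧ TypeA w} → z ≠ s ∧ z ≠ -s) → TypeA z → 11 ≤ ‖hh z s‖ := by
      intro z hz hne hA
      have hzA : z ∈ {w | w ∈ W ∧ TypeA w} := by
        rcases hz with h1 | h1
        · exfalso
          have e1 := hA.1
          rw [h1.2.2] at e1
          norm_num at e1
        · exact h1
      obtain ⟨h1, h2⟩ := hne hzA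
      rcases h.sep s hs.1 z hzA.1 with h3 | h3 | h3
      · exact absurd h3 h1
      · exact absurd h3 h2
      · rw [norm_hh_symm] at h3
        linarith
    exact refl_straight hs.2 (obj x hx) (obj y hy) (far x hx ax) (far y hy ay)
  far := by
    intro v hv hvA x hx y hy
    have hB : TypeB Λ v := by
      rcases h.ab hv with h1 | h1
      · exact absurd ⟨hv, h1⟩ hvA
      · exact h1
    have obj : ∀ z : V1 3, z ∈ {x | IsPt x} ∪ {w | w ∈ W ∧ TypeA w} → Obj z := by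
      intro z hz
      rcases hz with h1 | h1
      · exact Or.inl h1
      · exact Or.inr h1.2
    have far : ∀ z : V1 3, z ∈ {x | IsPt x} ∪ {w | w ∈ W ∧ TypeA w} → TypeA z →
        Λ ≤ ‖hh z v‖ := by
      intro z hz hA
      have hzA : z ∈ {w | w ∈ W ∧ TypeA w} := by
        rcases hz with h1 | h1
        · exfalso
          have e1 := hA.1
          rw [h1.2.2] at e1
          norm_num at e1
        · exact h1
      rcases h.sep z hzA.1 v hv with h3 | h3 | h3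
      · exact (not_ab (by linarith) hzA.2 (h3 ▸ hB)).elim
      · exact (not_ab (by linarith) (typeA_neg hzA.2) (h3 ▸ hB)).elim
      · exact h3
    have key := typeB_V (by linarith) hB (obj x hx) (obj y hy) (far x hx) (far y hy)
    have h1 : (10000000 : ℝ) ^ 2 ≤ Λ ^ 2 := by gcongr
    show 20000000000 * ‖hh x y‖ ≤ ‖hh x v‖ * ‖hh v y‖
    have h2 := norm_nonneg (hh x y)
    nlinarith

theorem refl_eq_sE {w : V1 3} (hw : hh w w = 2) : (LbSep_990.refl w).1 = sE (lorV 3) w := by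
  apply LinearEquiv.ext
  intro x
  rw [refl_apply hw, sE_apply (lorV 3) hw]
  rfl

/-- elements of the group generated by the reflections preserve `W` -/
theorem Mir.pres (h : Mir W Λ) {g : UG 3} (hg : g ∈ Subgroup.closure (LbSep_990.refl '' W)) :
    ∀ w ∈ W, g.1 w ∈ W ∧ (g⁻¹).1 w ∈ W := by
  induction hg using Subgroup.closure_induction with
  | mem x hx =>
    obtain ⟨r, hr, rfl⟩ := hx
    intro w hw
    have e : (LbSep_990.refl r)⁻¹ = LbSep_990.refl r := inv_eq_of_mul_eq_one_left (refl_mul_self r)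
    rw [e, refl_apply (h.norm r hr)]
    exact ⟨h.refl r hr w hw, h.refl r hr w hw⟩
  | one => intro w hw; simpa using hw
  | mul x y _ _ hx hy =>
    intro w hw
    refine ⟨?_, ?_⟩
    · exact (hx _ (hy w hw).1).1
    · rw [mul_inv_rev]
      exact (hy _ (hx w hw).2).2
  | inv x _ hx =>
    intro w hw
    rw [inv_inv]
    exact ⟨(hx w hw).2, (hx w hw).1⟩

/-- **(GR) in the form consumed by LB-PP (T = 0, c = 1/2).** -/
theorem Mir.gr (h : Mir W Λ) (hΛ : 100000000000 ≤ Λ) {g : UG 3}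
    (hg : g ∈ Subgroup.closure (LbSep_990.refl '' W))
    (hg0 : g ∉ Subgroup.closure (LbSep_990.refl '' {w | w ∈ W ∧ TA hh E0 E1 w}))
    (o o' : V1 3) (ho : LbPP_990.Start hh E0 E1 W 0 o) (ho' : LbPP_990.Start hh E0 E1 W 0 o') :
    ∃ w ∈ W, Λ ^ 2 ≤ P2 hh E0 E1 w ∧ (g⁻¹).1 w ∈ W ∧ Λ ^ 2 ≤ P2 hh E0 E1 ((g⁻¹).1 w) ∧
      (1 / 2) * (‖hh o w‖ * ‖hh w (g.1 o')‖) ≤ ‖hh o (g.1 o')‖ := by
  have isPt : ∀ z, LbPP_990.Start hh E0 E1 W 0 z → IsPt z := by
    intro z hz
    have h0 := hz.o0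
    have h1 := hz.o1
    rw [hh_E0] at h0
    rw [hh_E1] at h1
    exact ⟨h0, h1, hz.norm⟩
  have hD := h.startData (by linarith)
  have hgc : (g.1 : V1 3 ≃ₗ[ℂ] V1 3) ∈ Subgroup.closure (sE (lorV 3) '' W) := by
    have h1 : g.1 ∈ (Subgroup.closure (LbSep_990.refl '' W)).map (UG 3).subtype := ⟨g, hg, rfl⟩
    rw [MonoidHom.map_closure] at h1
    refine Subgroup.closure_mono ?_ h1
    rintro _ ⟨_, ⟨w, hw, rfl⟩, rfl⟩
    exact ⟨w, hw, (refl_eq_sE (h.norm w hw)).symm⟩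
  have hgc0 : (g.1 : V1 3 ≃ₗ[ℂ] V1 3) ∉
      Subgroup.closure (sE (lorV 3) '' {w | w ∈ W ∧ TypeA w}) := by
    intro hc
    apply hg0
    have h1 : g.1 ∈ (Subgroup.closure
        (LbSep_990.refl '' {w | w ∈ W ∧ TA hh E0 E1 w})).map (UG 3).subtype := by
      rw [MonoidHom.map_closure]
      refine Subgroup.closure_mono ?_ hc
      rintro _ ⟨w, ⟨hw, hA⟩, rfl⟩
      rcases h.F2 w hw with h2 | h2
      · rcases h2.2 with h3 | h3
        · have hTA : TA hh E0 E1 w :=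
            ⟨h.norm w hw, by rw [hh_E0]; exact h2.1, by rw [hh_E1]; exact h3⟩
          have hm : LbSep_990.refl w ∈ LbSep_990.refl '' {w | w ∈ W ∧ TA hh E0 E1 w} :=
            ⟨w, ⟨hw, hTA⟩, rfl⟩
          exact ⟨LbSep_990.refl w, hm, refl_eq_sE (h.norm w hw)⟩
        · have hn := h.neg w hw
          have hTA : TA hh E0 E1 (-w) :=
            ⟨h.norm _ hn, by rw [hh_E0]; simp [h2.1], by rw [hh_E1]; simp [h3]⟩
          have hm : LbSep_990.refl (-w) ∈ LbSep_990.refl '' {w | w ∈ W ∧ TA hh E0 E1 w} :=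
            ⟨-w, ⟨hn, hTA⟩, rfl⟩
          refine ⟨LbSep_990.refl (-w), hm, ?_⟩
          show (LbSep_990.refl (-w)).1 = _
          rw [refl_eq_sE (h.norm _ hn)]
          apply LinearEquiv.ext
          intro x
          rw [sE_apply (lorV 3) (h.norm _ hn), sE_apply (lorV 3) (h.norm w hw), rho_neg]
      · exact (not_ab (by linarith) hA ⟨h.norm w hw, h2⟩).elim
    obtain ⟨g', hg', he⟩ := h1
    have : g' = g := Subtype.ext he
    rw [← this]; exact hg'
  obtain ⟨w, hw, hw0, hw1, hall⟩ := hD.gr h.msys hΛ ⟨o, isPt o ho⟩ hgc hgc0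
  have nB : ∀ v ∈ W, v ∉ startSet (lorV 3) {x | IsPt x} {w | w ∈ W ∧ TypeA w} →
      Λ ^ 2 ≤ P2 hh E0 E1 v := by
    intro v hv hn
    rcases h.ab hv with h1 | h1
    · have hm : v ∈ {x | IsPt x} ∪ {w | w ∈ W ∧ TypeA w} := Or.inr ⟨hv, h1⟩
      exact absurd (mem_startSet hm) hn
    · rw [P2, hh_E0, hh_E1]; exact h1.2
  have hgw : (g⁻¹).1 w ∈ W := (h.pres hg w hw).2
  have hmo : o ∈ {x | IsPt x} ∪ {w | w ∈ W ∧ TypeA w} := Or.inl (isPt o ho)
  have hmo' : o' ∈ {x | IsPt x} ∪ {w | w ∈ W ∧ TypeA w} := Or.inl (isPt o' ho')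
  have key := hall o (mem_startSet hmo) o' (mem_startSet hmo')
  refine ⟨w, hw, nB w hw hw0, hgw, nB _ hgw hw1, ?_⟩
  change ‖hh o w‖ * ‖hh w (g.1 o')‖ ≤ 2 * ‖hh o (g.1 o')‖ at key
  linarith

/-- **(PP+), no hypothesis left**: an element of the group generated by all reflections which moves
a good point close to a good point is `1` or a type A reflection. -/
theorem Mir.pp (h : Mir W Λ) (hΛ : 100000000000 ≤ Λ) {r C : ℝ} (hr : 0 ≤ r) (hC : 2752 < C)
    (hΛr : 9 * (1 + r) ^ 2 < Λ - 1) (hΛC : 2 * C ≤ Λ ^ 2) {g : UG 3}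
    (hg : g ∈ Subgroup.closure (LbSep_990.refl '' W)) {x y : V1 3}
    (hx : Good hh E0 E1 W r C Λ x) (hy : Good hh E0 E1 W r C Λ y)
    (hxy : ‖hh x (g.1 y)‖ ≤ 2) :
    g = 1 ∨ ∃ w ∈ W, TA hh E0 E1 w ∧ g = LbSep_990.refl w := by
  refine pp_ball h00 h11 h01 (T := 0) (c := 1 / 2) h.norm ?_ hr le_rfl (by norm_num) (by norm_num)
    (by norm_num; linarith) (by linarith) hΛr (by norm_num; linarith) (by norm_num; linarith)
    (fun h0 o o' ho ho' => h.gr hΛ hg h0 o o' ho ho') hx hy hxy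
  intro w hw w' hw'
  rcases h.sep w hw w' hw' with h1 | h1 | h1
  · exact Or.inl ⟨1, by rw [h1, one_smul]⟩
  · exact Or.inl ⟨-1, by rw [h1, neg_smul, one_smul]⟩
  · exact Or.inr h1

end

end Crest.Agent.R272.St4_702
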