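import Crest.Agent.R272.LbAsm1_990
import Crest.Agent.R272.LbFin2_990
import Crest.Agent.R272.St4_702

/-!
# Row 272, LB-ASM-2 (helper990): group data and the invariant circle valued function

`GrpData`: the group `Γ` (= `G^`), its representation, the colour preserving subgroup `K`, the swap
`σ`, the mirrors `W`.  `R` = group generated by all reflections, `R0 = R ∩ K`.
-/

set_option autoImplicit false

open scoped ComplexConjugate Topology
open Crest.Agent.R272.EBase_641 Crest.Agent.R272.LbPP_990 Crest.Agent.R272.LbSep_990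
open Crest.Agent.R272.LbGood_990 Crest.Agent.R272.St2_702 Crest.Agent.R272.LbCap_382
open Crest.Agent.R272.LbFin_990 Crest.Agent.R272.LbFin2_990 Crest.Agent.R272.Per_939

namespace Crest.Agent.R272.LbAsm_990

noncomputable section

/-- the set of good points of the ball -/
def OO (W : Set (V1 3)) (r C Λ : ℝ) : Set (E 3) := {z | z ∈ Ball 3 ∧ GoodW W r C Λ (xx z)}

theorem OO_ball {W : Set (V1 3)} {r C Λ : ℝ} {z : E 3} (h : z ∈ OO W r C Λ) : z ∈ Ball 3 := h.1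

/-- points of `f1` are good -/
theorem mem_OO_of_flat {W : Set (V1 3)} {r C Λ : ℝ} {z : E 3} (hz : z ∈ Ball 3)
    (h0 : z 0 = 0) (h1 : z 1 = 0) : z ∈ OO W r C Λ := by
  have e0 : (xx z).1 0 = 0 := by simp [xx, h0]
  have e1 : (xx z).1 1 = 0 := by simp [xx, h1]
  refine ⟨hz, ⟨xx_self hz, ?_, ?_⟩⟩
  · rw [e0, e1]; simp
  · intro w _ _
    rw [e0, e1]
    simp
    positivity

/-- good points from the slope and the caps of the type B mirrors -/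
theorem mem_OO {W : Set (V1 3)} {r C Λ k : ℝ} (hC : 0 ≤ C) (hΛ : 0 < Λ) (hk : 0 < k)
    (hkC : 1 + C + 2 * C / Λ * k ≤ k ^ 2)
    (hPv : ∀ w ∈ W, TypeB Λ w → Pv 2 w ∧ k ^ 2 * ep w ^ 2 < 1)
    {z : E 3} (hz : z ∈ Ball 3) (hslope : ‖z 1‖ ≤ r * ‖z 0‖)
    (hcap : ∀ w ∈ W, TypeB Λ w → z ∉ Cap k w) (hW2 : ∀ w ∈ W, hh w w = 2) :
    z ∈ OO W r C Λ := by
  have key := good_xx norm_ea norm_eb inner_ea_eb (W := W) (r := r) hC hΛ hk hkC
    (fun w hw hP => hPv w hw ⟨hW2 w hw, by rw [P2_eq3] at hP; exact hP⟩) hz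
    (by rw [inner_ea, inner_eb]; exact hslope)
    (fun w hw hP => hcap w hw ⟨hW2 w hw, by rw [P2_eq3] at hP; exact hP⟩)
  refine ⟨hz, ⟨key.norm, ?_, ?_⟩⟩
  · have := key.slope
    rwa [hh_ea, hh_eb] at this
  · intro w hw hB
    have := key.cap w hw (by rw [P2_eq3]; exact hB.2)
    rwa [P2_eq3, P2_eq3] at this

/-- helper702's mirror systems are mirror systems -/
theorem wsysP_of_mir {W : Set (V1 3)} {Λ : ℝ} (h : St4_702.Mir W Λ) : WSysP W Λ where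
  norm := h.norm
  stab := h.refl
  sep := by
    intro w hw w' hw'
    rcases h.sep w hw w' hw' with h1 | h1 | h1
    · exact Or.inl ⟨1, by simp, by simp [h1]⟩
    · exact Or.inl ⟨-1, by simp, by simp [h1]⟩
    · exact Or.inr h1
  typ := by
    intro w hw
    rcases h.F2 w hw with ⟨h1, h2⟩ | h1
    · left
      refine ⟨h.norm w hw, h1, ?_⟩
      rcases h2 with h2 | h2 <;> rw [h2] <;> simp
    · exact Or.inr ⟨h.norm w hw, h1⟩

/-- group data of the lower bound -/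
structure GrpData {Γ : Type*} [Group Γ] (φ : Γ →* UG 3) (W : Set (V1 3)) (Λ : ℝ) where
  /-- colour preserving subgroup -/
  K : Subgroup Γ
  /-- the base swap -/
  σ : Γ
  inj : Function.Injective φ
  wsys : WSysP W Λ
  Knorm : K.Normal
  two : σ * σ = 1
  idx : ∀ g, g ∈ K ∨ g * σ⁻¹ ∈ K
  σrefl : ∃ w ∈ W, φ σ = LbSep_990.refl w
  notK : ∀ g, ∀ w ∈ W, φ g = LbSep_990.refl w → g ∉ K

namespace GrpData

variable {Γ : Type*} [Group Γ] {φ : Γ →* UG 3} {W : Set (V1 3)} {Λ : ℝ} (D : GrpData φ W Λ)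

/-- the group generated by all reflections -/
def R (_ : GrpData φ W Λ) : Subgroup Γ :=
  Subgroup.closure {g | ∃ w ∈ W, φ g = LbSep_990.refl w}

/-- even part -/
def R0 : Subgroup Γ := D.R ⊓ D.K

theorem σ_mem : D.σ ∈ D.R := Subgroup.subset_closure D.σrefl

theorem map_R {g : Γ} (hg : g ∈ D.R) : φ g ∈ Subgroup.closure (LbSep_990.refl '' W) := by
  have h1 : D.R ≤ (Subgroup.closure (LbSep_990.refl '' W)).comap φ := by
    rw [R, Subgroup.closure_le]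
    rintro g ⟨w, hw, e⟩
    show φ g ∈ Subgroup.closure (LbSep_990.refl '' W)
    rw [e]
    exact Subgroup.subset_closure ⟨w, hw, rfl⟩
  exact h1 hg

theorem mem_R0_or {g : Γ} (hg : g ∈ D.R) : g ∈ D.R0 ∨ g * D.σ⁻¹ ∈ D.R0 := by
  rcases D.idx g with h | h
  · exact Or.inl (Subgroup.mem_inf.2 ⟨hg, h⟩)
  · exact Or.inr (Subgroup.mem_inf.2 ⟨D.R.mul_mem hg (D.R.inv_mem D.σ_mem), h⟩)

theorem conj_R0 : ∀ g ∈ D.R0, D.σ * g * D.σ⁻¹ ∈ D.R0 := by
  intro g hg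
  obtain ⟨h1, h2⟩ := Subgroup.mem_inf.1 hg
  exact Subgroup.mem_inf.2 ⟨D.R.mul_mem (D.R.mul_mem D.σ_mem h1) (D.R.inv_mem D.σ_mem),
    D.Knorm.conj_mem g h2 D.σ⟩

theorem sq_mem : D.σ * D.σ ∈ D.R0 := by rw [D.two]; exact one_mem _

/-- `R` is normal if the mirrors are stable under `Γ` -/
theorem R_normal (h : ∀ g : Γ, ∀ w ∈ W, (φ g).1 w ∈ W) : D.R.Normal := by
  refine ⟨fun r hr g => ?_⟩
  have h1 : D.R ≤ D.R.comap (MulAut.conj g).toMonoidHom := by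
    conv_lhs => rw [R]
    rw [Subgroup.closure_le]
    rintro x ⟨w, hw, e⟩
    show g * x * g⁻¹ ∈ D.R
    refine Subgroup.subset_closure ⟨(φ g).1 w, h g w hw, ?_⟩
    rw [map_mul, map_mul, map_inv, e, refl_conj]
  exact h1 hr

/-- separation for the even part -/
theorem hpp (hΛ : (10 : ℝ) ^ 10 ≤ Λ) {r C : ℝ} (hr : 0 ≤ r) (hC : 16512 < C)
    (hCΛ : 6 * C ≤ Λ ^ 2) (hrΛ : 9 * (1 + r) ^ 2 < Λ - 1) :
    ∀ g ∈ D.R0, ∀ x ∈ OO W r C Λ, ∀ y ∈ OO W r C Λ, x ∈ Ball 3 → y ∈ Ball 3 →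
      ‖hh (xx x) ((φ g).1 (xx y))‖ ≤ 2 → g = 1 := by
  rintro g ⟨hg, hgK⟩ x hx y hy _ _ h
  rcases sep_final' D.wsys hΛ hr hC hCΛ hrΛ (D.map_R hg) hx.2 hy.2 h with h1 | ⟨w, hw, _, h1⟩
  · exact D.inj (h1.trans (map_one φ).symm)
  · exact absurd hgK (D.notK g w hw h1)

/-- **LB-ASM-2**: the invariant function on any space over the ball. -/
theorem exists_F {Y : Type*} [TopologicalSpace Y] [MulAction Γ Y] [ContinuousConstSMul Γ Y]
    (hΛ : (10 : ℝ) ^ 10 ≤ Λ) {r C : ℝ} (hr : 0 ≤ r) (hC : 16512 < C)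
    (hCΛ : 6 * C ≤ Λ ^ 2) (hrΛ : 9 * (1 + r) ^ 2 < Λ - 1)
    (q : Y → E 3) (hq : Continuous q)
    (hmem : ∀ y, q y ∈ Ball 3) (heq : ∀ (g : Γ) y, q (g • y) = act (φ g) (q y))
    (th : Y → Cir) (hth : Continuous th) (hO : ∀ y, th y ≠ 0 → q y ∈ OO W r C Λ) :
    ∃ F : Y → Cir, Continuous F ∧ (∀ g ∈ D.R, ∀ y, F (g • y) = F y) ∧
      ∀ y, q y ∈ OO W r C Λ → q (D.σ • y) ∈ OO W r C Λ → F y = th y + th (D.σ • y) := by
  obtain ⟨F, h1, h2, h3⟩ := exists_Th φ q hq hmem heq D.R0 D.σ D.conj_R0 D.sq_mem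
    (D.hpp hΛ hr hC hCΛ hrΛ) th hth hO
  exact ⟨F, h1, fun g hg y => h2 g (D.mem_R0_or hg) y, h3⟩

end GrpData

end

end Crest.Agent.R272.LbAsm_990
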