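import Crest.Agent.R272.In2_68
import Crest.Agent.R272.Cls8_620

/-!
helper74, row 272: the set of mirror vectors of the swap coset in `V1 3`, scaled to norm 2.
-/

set_option autoImplicit false
set_option linter.unusedSectionVars false
set_option linter.unusedVariables false

open scoped ComplexConjugate
open Matrix

namespace Crest.Agent.R272.WM_74

open Crest.Agent.R272.In_68 Crest.Agent.R272.EBase_641

noncomputable section

variable {O : Subring (Fin 2 → ℂ)} {z : Fin 2 → ℂ}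

variable (z) in
/-- the scaling factor -/
def sc : ℝ := (Real.sqrt (dd z 0))⁻¹

theorem sc_pos (h : Z5r O z) : 0 < sc z := inv_pos.2 (Real.sqrt_pos.2 (dd_pos h 0))

theorem sc_sq (h : Z5r O z) : sc z * sc z * dd z 0 = 1 := by
  have h1 := dd_pos h 0
  have h2 : Real.sqrt (dd z 0) * Real.sqrt (dd z 0) = dd z 0 := Real.mul_self_sqrt h1.le
  have h3 : Real.sqrt (dd z 0) ≠ 0 := (Real.sqrt_pos.2 h1).ne'
  unfold sc
  have h4 : (√(dd z 0))⁻¹ * (√(dd z 0))⁻¹ * (√(dd z 0) * √(dd z 0)) = 1 := by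
    field_simp
  rwa [h2] at h4

theorem sc_ww (h : Z5r O z) {i : Fin 4} (hi : Cls_620.HH z i 0 = 1) : sc z * ww z i 0 = 1 := by
  have h1 := dd_pos h 0
  have h3 : Real.sqrt (dd z 0) ≠ 0 := (Real.sqrt_pos.2 h1).ne'
  unfold sc ww rr
  rw [hi, Complex.one_re, abs_one, mul_one, inv_mul_cancel₀ h3]

/-- the vector of `r` in `V1 3`, scaled such that norms are those of `hh (HH z)` at the place `0`. -/
def wv (h : Z5r O z) (r : Fin 4 → Fin 2 → ℂ) : V1 3 := (sc z : ℂ) • (io h r).1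

theorem hh_wv (h : Z5r O z) (r r' : Fin 4 → Fin 2 → ℂ) :
    hh (wv h r) (wv h r') = Cls_620.hh (Cls_620.HH z) r r' 0 := by
  rw [wv, wv, hh_smul_left, hh_smul_right, hh_io, Complex.conj_ofReal]
  have h1 : ((sc z * sc z * dd z 0 : ℝ) : ℂ) = 1 := by rw [sc_sq h]; simp
  push_cast at h1
  linear_combination (Cls_620.hh (Cls_620.HH z) r r' 0) * h1

theorem wv_zero (h : Z5r O z) (r : Fin 4 → Fin 2 → ℂ) : (wv h r).1 0 = r 0 0 := by
  have h1 : ((sc z * ww z 0 0 : ℝ) : ℂ) = 1 := by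
    rw [sc_ww h (by simp [Cls_620.HH])]; simp
  push_cast at h1
  show (sc z : ℂ) * ((ww z 0 0 : ℂ) * r 0 0) = r 0 0
  linear_combination r 0 0 * h1

theorem wv_one (h : Z5r O z) (r : Fin 4 → Fin 2 → ℂ) : (wv h r).1 1 = r 1 0 := by
  have h1 : ((sc z * ww z 1 0 : ℝ) : ℂ) = 1 := by
    rw [sc_ww h (by simp [Cls_620.HH])]; simp
  push_cast at h1
  show (sc z : ℂ) * ((ww z 1 0 : ℂ) * r 1 0) = r 1 0
  linear_combination r 1 0 * h1

theorem wv_two (h : Z5r O z) (r : Fin 4 → Fin 2 → ℂ) : (wv h r).1 2 = r 2 0 := by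
  have h1 : ((sc z * ww z 2 0 : ℝ) : ℂ) = 1 := by
    rw [sc_ww h (by simp [Cls_620.HH])]; simp
  push_cast at h1
  show (sc z : ℂ) * ((ww z 2 0 : ℂ) * r 2 0) = r 2 0
  linear_combination r 2 0 * h1

theorem lin_smul' (c : ℂ) (v : V1 3) (ζ : E 3) : lin (c • v) ζ = conj c * lin v ζ := by
  rw [lin_eq_hh, lin_eq_hh, hh_smul_right]

theorem lin_wv (h : Z5r O z) (r : Fin 4 → Fin 2 → ℂ) (ζ : E 3) :
    lin (wv h r) ζ = sc z * lin (io h r).1 ζ := by
  rw [wv, lin_smul', Complex.conj_ofReal]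

theorem lin_wv_zero (h : Z5r O z) (r : Fin 4 → Fin 2 → ℂ) (ζ : E 3) :
    lin (wv h r) ζ = 0 ↔ lin (io h r).1 ζ = 0 := by
  have h1 : (sc z : ℂ) ≠ 0 := by exact_mod_cast (sc_pos h).ne'
  rw [lin_wv, mul_eq_zero]
  tauto

theorem rho_wv (h : Z5r O z) (g : GU O z) (r : Fin 4 → Fin 2 → ℂ) :
    (rho h g).1 (wv h r) = wv h (((g : Mtˣ) : Mt) *ᵥ r) := by
  rw [wv, wv, map_smul, io_mulVec]

/-- every vector of `V1 3` is `wv` of something -/
theorem exists_wv (h : Z5r O z) (x : V1 3) : ∃ v : Fin 4 → Fin 2 → ℂ, wv h v = x := by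
  have h1 : (sc z : ℂ) ≠ 0 := by exact_mod_cast (sc_pos h).ne'
  refine ⟨(io h).symm ((sc z : ℂ)⁻¹ • x, 0), ?_⟩
  rw [wv, LinearEquiv.apply_symm_apply]
  simp [smul_smul, h1]

theorem wv_sub (h : Z5r O z) (v w : Fin 4 → Fin 2 → ℂ) : wv h (v - w) = wv h v - wv h w := by
  rw [wv, wv, wv, map_sub, Prod.fst_sub, smul_sub]

theorem wv_smul (h : Z5r O z) (c : Fin 2 → ℂ) (v : Fin 4 → Fin 2 → ℂ) :
    wv h (c • v) = c 0 • wv h v := by
  have e1 : (io h (c • v)).1 = c 0 • (io h v).1 := by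
    rw [io_fst, io_fst, ← map_smul]; rfl
  rw [wv, wv, e1, smul_comm]

/-- **the mirror vectors** -/
def WM (h : Z5r O z) (μ : Fin 2 → ℂ) : Set (V1 3) := wv h '' {r | Cls_620.Mir O z μ r}

theorem mem_WM (h : Z5r O z) {μ : Fin 2 → ℂ} {w : V1 3} :
    w ∈ WM h μ ↔ ∃ r, Cls_620.Mir O z μ r ∧ wv h r = w := Iff.rfl

theorem WM_norm (h : Z5r O z) {μ : Fin 2 → ℂ} : ∀ w ∈ WM h μ, hh w w = 2 := by
  rintro _ ⟨r, hr, rfl⟩
  rw [hh_wv, hr.two]; rfl

end

end Crest.Agent.R272.WM_74
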