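import Crest.Agent.R272.O5b_74
import Crest.Agent.R272.WMdef_74
import Crest.Agent.R272.LbFin2_990

/-!
# Row 272, AR-MIRW (helper702): the mirrors of the arithmetic group are a `WSysP`

`WM h μ` (74) = all vectors `(dd z 0)^(-1/2) • (io h r).1`, `r` with `Mir O z μ r` (620).
`wsysP`: if `4 Λ² + 16 ≤ ∏ ‖(pz z * μ) t‖` then `WSysP (WM h μ) Λ` (990).
-/

set_option autoImplicit false

open scoped ComplexConjugate

namespace Crest.Agent.R272.MirW_702

open EBase_641 In_68 Cls_620 WM_74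
open LbFin2_990 (WSysP)

noncomputable section

variable {O : Subring (Fin 2 → ℂ)} {z μ : Fin 2 → ℂ}

/-! ### the reflection of a mirror in a mirror -/

lemma rf_rf_rf (h : Z5 O z) {r r' : Fin 4 → Fin 2 → ℂ} (h2 : hh (HH z) r r = 2)
    (x : Fin 4 → Fin 2 → ℂ) :
    rf (HH z) (rf (HH z) r r') x = rf (HH z) r (rf (HH z) r' (rf (HH z) r x)) := by
  have e1 : hh (HH z) x (rf (HH z) r r') = hh (HH z) (rf (HH z) r x) r' := by
    conv_lhs => rw [← rf_rf (H := HH z) h2 x]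
    exact rf_hh h.frm h2 _ _
  have lin1 : ∀ (c : Fin 2 → ℂ) (u v : Fin 4 → Fin 2 → ℂ),
      rf (HH z) r (u - c • v) = rf (HH z) r u - c • rf (HH z) r v := by
    intro c u v
    simp only [rf, Cls_620.hh_sub_left, Cls_620.hh_smul_left]
    funext i
    simp only [Pi.sub_apply, Pi.smul_apply, smul_eq_mul]
    ring
  have e2 : rf (HH z) r' (rf (HH z) r x) = rf (HH z) r x - hh (HH z) (rf (HH z) r x) r' • r' := rfl
  rw [e2, lin1, rf_rf h2]
  show x - hh (HH z) x (rf (HH z) r r') • rf (HH z) r r' = _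
  rw [e1]

lemma rf_int (h : Z5 O z) {r x : Fin 4 → Fin 2 → ℂ} (hr : Int' O r) (hx : Int' O x) :
    Int' O (rf (HH z) r x) :=
  hx.sub (hr.smul (Cls_620.hh_mem h.ord h.frm hx hr))

/-- mirrors are stable under their reflections -/
theorem mir_rf (h : Z5 O z) {r r' : Fin 4 → Fin 2 → ℂ} (hr : Mir O z μ r) (hr' : Mir O z μ r') :
    Mir O z μ (rf (HH z) r r') where
  int := rf_int h hr.int hr'.int
  two := by rw [rf_hh h.frm hr.two, hr'.two]
  cong := by
    intro x hx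
    rw [rf_rf_rf h hr.two]
    have i1 := rf_int h hr.int hx
    have i2 := rf_int h hr'.int i1
    have c1 := hr.cong _ i2
    have c2 := cg_rf_mi (z := z) (hr'.cong _ i1)
    have c3 : rf (HH z) mi (rf (HH z) mi (rf (HH z) r x)) = rf (HH z) r x := rf_rf g_mm _
    rw [c3] at c2
    exact (c1.trans c2).trans (hr.cong x hx)

/-! ### types -/

lemma norm_ge_of {ν x u : Fin 2 → ℂ} (h : Z5 O z) (hu : u ∈ O) (hu0 : u ≠ 0) (e : x = ν * u) :
    ∏ t, ‖ν t‖ ≤ ∏ t, ‖x t‖ := by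
  have h1 := h.ord.norm_ge u hu hu0
  have h2 : ∏ t, ‖x t‖ = (∏ t, ‖ν t‖) * ∏ t, ‖u t‖ := by
    rw [← Finset.prod_mul_distrib]
    refine Finset.prod_congr rfl fun t _ => ?_
    rw [e, Pi.mul_apply, norm_mul]
  rw [h2]
  have h3 : (0 : ℝ) ≤ ∏ t, ‖ν t‖ := Finset.prod_nonneg fun _ _ => norm_nonneg _
  nlinarith

lemma hh_e (h : Z5 O z) (r : Fin 4 → Fin 2 → ℂ) :
    hh (HH z) e0 r = star (r 0) ∧ hh (HH z) e1 r = star (r 1) := by
  constructor
  · simp [Cls_620.hh, Fin.sum_univ_four, HH, e0]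
  · simp [Cls_620.hh, Fin.sum_univ_four, HH, e1]

lemma int_e0 : Int' O e0 := by
  intro i; fin_cases i <;> simp [e0, O.one_mem, O.zero_mem]

lemma int_e1 : Int' O e1 := by
  intro i; fin_cases i <;> simp [e1, O.one_mem, O.zero_mem]

/-- the coordinates `0`, `1` of a mirror at the definite place are at most `√2` -/
lemma le_two (h : Z5 O z) {r : Fin 4 → Fin 2 → ℂ} (h2 : hh (HH z) r r = 2) :
    ‖r 0 1‖ ^ 2 ≤ 2 ∧ ‖r 1 1‖ ^ 2 ≤ 2 := by
  have hne : (1 : Fin 2) ≠ 0 := by decide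
  have c0 := cs_def h.frm hne e0 r
  have c1 := cs_def h.frm hne e1 r
  rw [(hh_e h r).1, (hh_e h e0).1, h2] at c0
  rw [(hh_e h r).2, (hh_e h e1).2, h2] at c1
  have n0 : ‖(star (r 0)) 1‖ = ‖r 0 1‖ := by rw [Pi.star_apply, norm_star]
  have n1 : ‖(star (r 1)) 1‖ = ‖r 1 1‖ := by rw [Pi.star_apply, norm_star]
  rw [n0] at c0
  rw [n1] at c1
  simp only [e0, e1, Matrix.cons_val_zero, Matrix.cons_val_one, Pi.star_apply, Pi.one_apply,
    star_one, Complex.one_re, one_mul, Pi.ofNat_apply] at c0 c1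
  have t2 : (2 : ℂ).re = 2 := by norm_num
  rw [t2] at c0 c1
  exact ⟨c0, c1⟩

/-- **type A / type B** -/
theorem mir_typ (h : Z5 O z) {r : Fin 4 → Fin 2 → ℂ} (hr : Mir O z μ r) :
    (r 0 = 0 ∧ ∀ t, ‖r 1 t‖ = 1) ∨
      ∏ t, ‖(pz z * μ) t‖ ≤ 2 * (‖r 0 0‖ ^ 2 + ‖r 1 0‖ ^ 2) + 1 := by
  obtain ⟨b0, b1⟩ := le_two h hr.two
  -- coordinate 0
  obtain ⟨u, hu, eu⟩ := hr.cong e0 int_e0 0
  obtain ⟨w, hw, ew⟩ := hr.cong e1 int_e1 1
  have eu' : -(star (r 0) * r 0) = (pz z * μ) * u := by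
    rw [← eu, rf_mi, rf, (hh_e h r).1]
    simp [e0]
  have ew' : 1 - star (r 1) * r 1 = (pz z * μ) * w := by
    rw [← ew, rf_mi, rf, (hh_e h r).2]
    simp [e1]
  by_cases hu0 : u = 0
  · by_cases hw0 : w = 0
    · left
      rw [hu0, mul_zero] at eu'
      rw [hw0, mul_zero] at ew'
      constructor
      · funext t
        have h1 := congrFun eu' t
        simp only [Pi.neg_apply, Pi.mul_apply, Pi.star_apply, Pi.zero_apply, neg_eq_zero,
          mul_eq_zero] at h1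
        rcases h1 with h1 | h1
        · exact star_eq_zero.mp h1
        · exact h1
      · intro t
        have h1 := congrFun ew' t
        simp only [Pi.sub_apply, Pi.one_apply, Pi.mul_apply, Pi.star_apply, Pi.zero_apply] at h1
        have h2 : star (r 1 t) * r 1 t = 1 := by linear_combination -h1
        have h3 : ((‖r 1 t‖ ^ 2 : ℝ) : ℂ) = 1 := by
          rw [← Complex.normSq_eq_norm_sq, ← Complex.mul_conj, mul_comm]
          exact h2
        have h4 : ‖r 1 t‖ ^ 2 = 1 := by exact_mod_cast h3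
        have h5 := norm_nonneg (r 1 t)
        nlinarith
    · right
      have h1 := norm_ge_of h hw hw0 ew'
      refine h1.trans ?_
      rw [Fin.prod_univ_two]
      have e : ∀ t, ‖(1 - star (r 1) * r 1) t‖ = |1 - ‖r 1 t‖ ^ 2| := by
        intro t
        have : (1 - star (r 1) * r 1) t = ((1 - ‖r 1 t‖ ^ 2 : ℝ) : ℂ) := by
          simp only [Pi.sub_apply, Pi.one_apply, Pi.mul_apply, Pi.star_apply]
          rw [Complex.ofReal_sub, ← Complex.normSq_eq_norm_sq, ← Complex.mul_conj, mul_comm]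
          rfl
        rw [this, Complex.norm_real, Real.norm_eq_abs]
      rw [e, e]
      have p1 : |1 - ‖r 1 1‖ ^ 2| ≤ 1 := by
        rw [abs_le]; constructor <;> nlinarith [sq_nonneg ‖r 1 1‖]
      have p0 : |1 - ‖r 1 0‖ ^ 2| ≤ 1 + ‖r 1 0‖ ^ 2 := by
        rw [abs_le]; constructor <;> nlinarith [sq_nonneg ‖r 1 0‖]
      have p2 : |1 - ‖r 1 0‖ ^ 2| * |1 - ‖r 1 1‖ ^ 2| ≤ (1 + ‖r 1 0‖ ^ 2) * 1 :=
        mul_le_mul p0 p1 (abs_nonneg _) (by positivity)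
      nlinarith [sq_nonneg ‖r 0 0‖, sq_nonneg ‖r 1 0‖]
  · right
    have h1 := norm_ge_of h hu hu0 eu'
    refine h1.trans ?_
    rw [Fin.prod_univ_two]
    have e : ∀ t, ‖(-(star (r 0) * r 0)) t‖ = ‖r 0 t‖ ^ 2 := by
      intro t
      simp only [Pi.neg_apply, Pi.mul_apply, Pi.star_apply, norm_neg, norm_mul, norm_star]
      ring
    rw [e, e]
    have p2 : ‖r 0 0‖ ^ 2 * ‖r 0 1‖ ^ 2 ≤ ‖r 0 0‖ ^ 2 * 2 :=
      mul_le_mul_of_nonneg_left b0 (sq_nonneg _)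
    nlinarith [sq_nonneg ‖r 0 0‖, sq_nonneg ‖r 1 0‖]

/-! ### the vectors of `V1 3` -/

lemma wv_rf (h : Z5r O z) (r x : Fin 4 → Fin 2 → ℂ) :
    wv h (rf (HH z) r x) = wv h x - EBase_641.hh (wv h x) (wv h r) • wv h r := by
  rw [hh_wv, rf, wv_sub, wv_smul]

/-- **AR-MIRW** -/
theorem wsysP (h : Z5r O z) (hμ : μ ∈ O) {Λ : ℝ}
    (hN : 4 * Λ ^ 2 + 16 ≤ ∏ t, ‖(pz z * μ) t‖) : WSysP (WM h μ) Λ where
  norm := WM_norm h
  stab := by
    rintro _ ⟨r, hr, rfl⟩ _ ⟨r', hr', rfl⟩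
    exact ⟨rf (HH z) r r', mir_rf h.toZ5 hr hr', wv_rf h r r'⟩
  sep := by
    rintro _ ⟨r, hr, rfl⟩ _ ⟨r', hr', rfl⟩
    rcases O5_74.mir_sparse h hμ hr' hr with ⟨-, c, hc⟩ | h1
    · left
      have e : wv h r' = c • wv h r := by
        rw [wv, wv, io_fst, io_fst]
        have : at' r' 0 = c • at' r 0 := by
          funext i; exact hc i
        rw [this, map_smul, smul_comm]
      refine ⟨c, ?_, e⟩
      have h2 : EBase_641.hh (wv h r') (wv h r') = 2 := by rw [hh_wv, hr'.two]; rfl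
      have h3 : EBase_641.hh (wv h r) (wv h r) = 2 := by rw [hh_wv, hr.two]; rfl
      rw [e, EBase_641.hh_smul_left, EBase_641.hh_smul_right, h3, ← mul_assoc, Complex.mul_conj,
        Complex.normSq_eq_norm_sq] at h2
      have h4 : ((‖c‖ ^ 2 : ℝ) : ℂ) * 2 = 1 * 2 := by rw [h2, one_mul]
      have h5 : ((‖c‖ ^ 2 : ℝ) : ℂ) = 1 := mul_right_cancel₀ two_ne_zero h4
      have h6 : ‖c‖ ^ 2 = 1 := by exact_mod_cast h5
      have h7 := norm_nonneg c
      nlinarith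
    · right
      rw [hh_wv]
      have h2 : ‖Cls_620.hh (HH z) r r' 0‖ = ‖Cls_620.hh (HH z) r' r 0‖ := by
        rw [← Cls_620.hh_star (HH z) h.toZ5.frm.real r' r, Pi.star_apply, norm_star]
      rw [h2]
      have h3 : Λ ^ 2 ≤ ‖Cls_620.hh (HH z) r' r 0‖ ^ 2 := by linarith
      exact le_of_sq_le_sq'' h3 (norm_nonneg _)
  typ := by
    rintro _ ⟨r, hr, rfl⟩
    have h2 : EBase_641.hh (wv h r) (wv h r) = 2 := by rw [hh_wv, hr.two]; rfl
    have c0 := wv_zero h r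
    have c1 := wv_one h r
    rcases mir_typ h.toZ5 hr with ⟨h3, h4⟩ | h3
    · left
      refine ⟨h2, ?_, ?_⟩
      · rw [c0, h3]; rfl
      · rw [c1]; exact h4 0
    · right
      refine ⟨h2, ?_⟩
      rw [c0, c1]
      nlinarith [sq_nonneg Λ]
where
  le_of_sq_le_sq'' {a b : ℝ} (hab : a ^ 2 ≤ b ^ 2) (hb : 0 ≤ b) : a ≤ b := by
    by_contra hc
    have hc := not_le.mp hc
    nlinarith

end

end Crest.Agent.R272.MirW_702
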