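import Crest.Agent.R272.GrpA_74
import Crest.Agent.R272.GInG2_502
import Crest.Agent.R272.MirW_702
import Crest.Agent.R272.LbAsm2_990
import Crest.Agent.R272.Quot3_783

/-!
helper74, row 272, AR-GRP, part 2: the group data `GrpData` (990) of the lower bound for
`Gh = K ∪ K s` (502) and the mirrors `WM h μ`; stabilisers are in the group generated by the
reflections (259); `WM` is stable under `Gh`.
-/

set_option autoImplicit false
set_option linter.unusedSectionVars false
set_option linter.unusedVariables false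

open scoped ComplexConjugate
open Matrix

namespace Crest.Agent.R272.GrpB_74

open Crest.Agent.R272.In_68 Crest.Agent.R272.EBase_641 Crest.Agent.R272.O5_74
open Crest.Agent.R272.WM_74 Crest.Agent.R272.Ball7_916 Crest.Agent.R272.GInG_502
open Crest.Agent.R272.LbAsm_990 (GrpData)
open Crest.Agent.R272.GrpA_74 (inj0 mat_ext rho_inj)

noncomputable section

variable {O : Subring (Fin 2 → ℂ)} {z μ : Fin 2 → ℂ}

/-- a matrix acting as the reflection `rf r` is `refl (wv r)` at the ball place -/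
theorem rho_eq_refl (h : Z5r O z) {r : Fin 4 → Fin 2 → ℂ}
    (h2 : Cls_620.hh (Cls_620.HH z) r r = 2) {g : GU O z}
    (hg : ∀ v, ((g : Mtˣ) : Mt) *ᵥ v = Cls_620.rf (Cls_620.HH z) r v) :
    rho h g = LbSep_990.refl (wv h r) := by
  have h2' : EBase_641.hh (wv h r) (wv h r) = 2 := by rw [hh_wv, h2]; rfl
  apply Subtype.ext
  apply LinearEquiv.ext
  intro x
  obtain ⟨v, rfl⟩ := exists_wv h x
  rw [rho_wv, hg, LbSep_990.refl_apply h2', MirW_702.wv_rf]

/-- conversely -/
theorem mulVec_of_refl (h : Z5r O z) {r : Fin 4 → Fin 2 → ℂ}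
    (h2 : Cls_620.hh (Cls_620.HH z) r r = 2) {g : GU O z}
    (hg : rho h g = LbSep_990.refl (wv h r)) (v : Fin 4 → Fin 2 → ℂ) (i : Fin 4) :
    (((g : Mtˣ) : Mt) *ᵥ v) i 0 = Cls_620.rf (Cls_620.HH z) r v i 0 := by
  have h2' : EBase_641.hh (wv h r) (wv h r) = 2 := by rw [hh_wv, h2]; rfl
  have h1 : wv h (((g : Mtˣ) : Mt) *ᵥ v) = wv h (Cls_620.rf (Cls_620.HH z) r v) := by
    rw [← rho_wv, hg, LbSep_990.refl_apply h2', MirW_702.wv_rf]
  have h3 : (sc z : ℂ) ≠ 0 := by exact_mod_cast (sc_pos h).ne'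
  have h4 := smul_right_injective (V1 3) h3 h1
  simp only [io_fst] at h4
  exact congrFun ((P0 h).injective h4) i

/-- an element of `GU` acting as a mirror reflection at the ball place lies in the swap coset -/
theorem div_of_refl (h : Z5r O z) {r : Fin 4 → Fin 2 → ℂ} (hr : Cls_620.Mir O z μ r)
    {g : GU O z} (hg : rho h g = LbSep_990.refl (wv h r)) :
    Div O (Cls_620.pz z * μ) (((g : Mtˣ) : Mt) - swp) := by
  intro i j
  have hint : Cls_620.Int' O (Pi.single j 1 : Fin 4 → Fin 2 → ℂ) := by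
    intro k
    rw [Pi.single_apply]
    split_ifs
    · exact O.one_mem
    · exact O.zero_mem
  have e1 : ((g : Mtˣ) : Mt) i j = Cls_620.rf (Cls_620.HH z) r (Pi.single j 1) i := by
    apply inj0 h (g.2.1 i j) (MirW_702.rf_int h.toZ5 hr.int hint i)
    have := mulVec_of_refl h hr.two hg (Pi.single j 1) i
    rw [Matrix.mulVec_single_one] at this
    exact this
  have e2 : swp i j = Cls_620.rf (Cls_620.HH z) Cls_620.mi (Pi.single j 1) i := by
    rw [← GInG_502.swp_rf h, Matrix.mulVec_single_one]; rfl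
  obtain ⟨u, hu, e⟩ := hr.cong _ hint i
  refine ⟨u, hu, ?_⟩
  rw [Matrix.sub_apply, e1, e2]
  exact e

/-- elements of `K` are not reflections -/
theorem refl_not_mem (h : Z5r O z) {K : Subgroup (GU O z)}
    (hKν : ∀ g ∈ K, (g : Mtˣ) ∈ GC O z (Cls_620.pz z * μ))
    (hN : 1 < ∏ t, ‖(Cls_620.pz z * μ) t‖) {w : V1 3} (hw : w ∈ WM h μ)
    {g : GU O z} (hg : rho h g = LbSep_990.refl w) : g ∉ K := by
  obtain ⟨r, hr, rfl⟩ := hw
  intro hK
  have h1 := div_of_refl h hr hg
  have h2 := (hKν g hK).2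
  have h3 : Div O (Cls_620.pz z * μ) (swp - 1) := by
    have e : swp - 1 = (((g : Mtˣ) : Mt) - 1) + -(((g : Mtˣ) : Mt) - swp) := by abel
    rw [e]
    exact h2.add h1.neg
  exact GrpA_74.not_div_swp h hN h3

section grp

variable (h : Z5r O z) {K : Subgroup (GU O z)} (D : SwD K (swG h))

/-- the representation -/
abbrev phi : D.Gh →* UG 3 := (rho h).comp D.Gh.subtype

theorem phi_inj : Function.Injective (phi h D) := fun a b e => Subtype.ext (rho_inj h e)

theorem phi_sw : phi h D ⟨swG h, D.s_mem⟩ = LbSep_990.refl (wv h Cls_620.mi) :=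
  rho_eq_refl h Cls_620.g_mm (GInG_502.swp_rf h)

/-- **the group data of the lower bound** -/
def grpData (hμ : μ ∈ O) {Λ : ℝ} (hKν : ∀ g ∈ K, (g : Mtˣ) ∈ GC O z (Cls_620.pz z * μ))
    (hΛ : 4 * Λ ^ 2 + 16 ≤ ∏ t, ‖(Cls_620.pz z * μ) t‖) : GrpData (phi h D) (WM h μ) Λ where
  K := K.subgroupOf D.Gh
  σ := ⟨swG h, D.s_mem⟩
  inj := phi_inj h D
  wsys := MirW_702.wsysP h hμ hΛ
  Knorm := by
    have := D.nrm
    infer_instance
  two := Subtype.ext (swG_sq h)
  idx := by
    intro g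
    rcases D.mem_Gh.1 g.2 with hg | hg
    · exact Or.inl hg
    · right
      have e : (⟨swG h, D.s_mem⟩ : D.Gh)⁻¹ = ⟨swG h, D.s_mem⟩ := Subtype.ext D.inv
      rw [e]
      exact hg
  σrefl := ⟨_, ⟨Cls_620.mi, mir_mi h, rfl⟩, phi_sw h D⟩
  notK := by
    intro g w hw hg hgK
    refine refl_not_mem h hKν ?_ hw (g := g.1) hg hgK
    nlinarith [sq_nonneg Λ]

variable {h D}

/-- the mirrors are stable under `Gh` -/
theorem WM_smul (hKν : ∀ g ∈ K, (g : Mtˣ) ∈ GC O z (Cls_620.pz z * μ)) (g : D.Gh) {w : V1 3}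
    (hw : w ∈ WM h μ) : (phi h D g).1 w ∈ WM h μ := by
  obtain ⟨r, hr, rfl⟩ := hw
  refine ⟨((g.1 : Mtˣ) : Mt) *ᵥ r, ⟨?_, ?_, ?_⟩, (rho_wv h g.1 r).symm⟩
  · intro i
    simp only [Matrix.mulVec, dotProduct]
    exact O.sum_mem fun j _ => O.mul_mem (g.1.2.1 i j) (hr.int j)
  · rw [g.1.2.2.2, hr.two]
  · intro x hx
    -- `rf (g r) = g rf(r) g⁻¹`
    set G : Mt := ((g.1 : Mtˣ) : Mt) with hG
    set G' : Mt := (((g.1 : Mtˣ)⁻¹ : Mtˣ) : Mt) with hG'
    have hGG' : G * G' = 1 := by rw [hG, hG', ← Units.val_mul, mul_inv_cancel, Units.val_one]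
    have hx' : Cls_620.Int' O (G' *ᵥ x) := by
      intro i
      simp only [Matrix.mulVec, dotProduct]
      exact O.sum_mem fun j _ => O.mul_mem (g.1.2.2.1 i j) (hx j)
    have ex : G *ᵥ (G' *ᵥ x) = x := by rw [Matrix.mulVec_mulVec, hGG', Matrix.one_mulVec]
    have e1 : Cls_620.rf (Cls_620.HH z) (G *ᵥ r) x = G *ᵥ Cls_620.rf (Cls_620.HH z) r (G' *ᵥ x) := by
      have e2 : Cls_620.hh (Cls_620.HH z) x (G *ᵥ r) = Cls_620.hh (Cls_620.HH z) (G' *ᵥ x) r := by
        conv_lhs => rw [← ex]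
        exact g.1.2.2.2 _ _
      rw [Cls_620.rf, Cls_620.rf, e2, Matrix.mulVec_sub, ex]
      congr 1
      funext i
      simp only [Matrix.mulVec, dotProduct, Pi.smul_apply, smul_eq_mul, Finset.mul_sum]
      refine Finset.sum_congr rfl fun j _ => ?_
      ring
    have c1 : Cls_620.Cg O (Cls_620.pz z * μ) (G *ᵥ Cls_620.rf (Cls_620.HH z) r (G' *ᵥ x))
        (G *ᵥ Cls_620.rf (Cls_620.HH z) Cls_620.mi (G' *ᵥ x)) := by
      intro i
      have h1 := hr.cong _ hx'
      choose u hu e using h1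
      refine ⟨∑ j, G i j * u j, O.sum_mem fun j _ => O.mul_mem (g.1.2.1 i j) (hu j), ?_⟩
      have e3 : (G *ᵥ Cls_620.rf (Cls_620.HH z) r (G' *ᵥ x)) i
          - (G *ᵥ Cls_620.rf (Cls_620.HH z) Cls_620.mi (G' *ᵥ x)) i
          = (G *ᵥ (Cls_620.rf (Cls_620.HH z) r (G' *ᵥ x)
            - Cls_620.rf (Cls_620.HH z) Cls_620.mi (G' *ᵥ x))) i := by
        rw [Matrix.mulVec_sub]; rfl
      rw [e3]
      simp only [Matrix.mulVec, dotProduct]
      rw [Finset.mul_sum]
      refine Finset.sum_congr rfl fun j _ => ?_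
      have e4 := e j
      rw [Pi.sub_apply, e4]
      ring
    rw [e1]
    refine c1.trans ?_
    -- `g swp g⁻¹ ≡ swp`
    have c2 : Div O (Cls_620.pz z * μ) (G * swp * G' - swp) := by
      rcases D.mem_Gh.1 g.2 with hg | hg
      · have h1 : Div O (Cls_620.pz z * μ) (G - 1) := (hKν _ hg).2
        have e5 : G * swp * G' - swp = (G - 1) * (swp * G') + -(swp * (G - 1) * G') := by
          have : swp * (G - 1) * G' = swp * (G * G') - swp * G' := by
            rw [mul_sub, mul_one, sub_mul, mul_assoc]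
          rw [this, hGG', mul_one, sub_mul, one_mul, mul_assoc]
          abel
        rw [e5]
        have hsG : ∀ i j, (swp * G') i j ∈ O := fun i j => by
          rw [Matrix.mul_apply]
          exact O.sum_mem fun k _ => O.mul_mem (GInG_502.swp_mem O i k) (g.1.2.2.1 k j)
        exact (h1.mul_right hsG).add
          ((h1.mul_left (GInG_502.swp_mem O)).mul_right g.1.2.2.1).neg
      · have h1 : Div O (Cls_620.pz z * μ) (G - swp) := coset_div h (hKν _ hg)
        have hG'G : G' * G = 1 := by rw [hG, hG', ← Units.val_mul, inv_mul_cancel, Units.val_one]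
        have e5 : G * swp * G' - swp = (G - swp) * (swp * G') + -(G' * (G - swp) * swp) := by
          have e6 : (G - swp) * (swp * G') = G * swp * G' - G' := by
            rw [sub_mul, ← mul_assoc swp swp G', swp_mul_self, one_mul, mul_assoc]
          have e7 : G' * (G - swp) * swp = swp - G' := by
            rw [mul_sub, hG'G, sub_mul, one_mul, mul_assoc, swp_mul_self, mul_one]
          rw [e6, e7]
          abel
        rw [e5]
        have hsG : ∀ i j, (swp * G') i j ∈ O := fun i j => by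
          rw [Matrix.mul_apply]
          exact O.sum_mem fun k _ => O.mul_mem (GInG_502.swp_mem O i k) (g.1.2.2.1 k j)
        exact (h1.mul_right hsG).add
          ((h1.mul_left g.1.2.2.1).mul_right (GInG_502.swp_mem O)).neg
    have c3 : G *ᵥ Cls_620.rf (Cls_620.HH z) Cls_620.mi (G' *ᵥ x) = (G * swp * G') *ᵥ x := by
      rw [← GInG_502.swp_rf h, Matrix.mulVec_mulVec, Matrix.mulVec_mulVec, mul_assoc]
    rw [c3, ← GInG_502.swp_rf h]
    intro i
    choose u hu e using c2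
    refine ⟨∑ j, u i j * x j, O.sum_mem fun j _ => O.mul_mem (hu i j) (hx j), ?_⟩
    have e8 : ((G * swp * G') *ᵥ x) i - (swp *ᵥ x) i = ((G * swp * G' - swp) *ᵥ x) i := by
      rw [Matrix.sub_mulVec]; rfl
    rw [e8]
    simp only [Matrix.mulVec, dotProduct]
    rw [Finset.mul_sum]
    refine Finset.sum_congr rfl fun j _ => ?_
    rw [e]; ring

/-- stabilisers of points of the ball lie in the group generated by the reflections -/
theorem stab_mem_R (hμ : μ ∈ O) (hN : 64 < ∏ t, ‖(Cls_620.pz z * μ) t‖)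
    (h2 : ∃ c ∈ O, μ = 2 * c) (hKν : ∀ g ∈ K, (g : Mtˣ) ∈ GC O z (Cls_620.pz z * μ)) {Λ : ℝ}
    (GD : GrpData (phi h D) (WM h μ) Λ) {g : D.Gh} {ζ : E 3} (hζ : ζ ∈ Ball 3)
    (hf : act (phi h D g) ζ = ζ) : g ∈ GD.R := by
  rcases fix_Gh h D hμ hN h2 hKν g.2 hζ hf with h1 | ⟨-, -, r, hr, hact, -, -⟩
  · have : g = 1 := Subtype.ext h1
    rw [this]; exact GD.R.one_mem
  · exact Subgroup.subset_closure ⟨wv h r, ⟨r, hr, rfl⟩, rho_eq_refl h hr.two hact⟩

/-- the same on the type `BX` of 783 = hypothesis `hstab` of 259 -/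
theorem hstab (hμ : μ ∈ O) (hN : 64 < ∏ t, ‖(Cls_620.pz z * μ) t‖)
    (h2 : ∃ c ∈ O, μ = 2 * c) (hKν : ∀ g ∈ K, (g : Mtˣ) ∈ GC O z (Cls_620.pz z * μ)) {Λ : ℝ}
    (GD : GrpData (phi h D) (WM h μ) Λ) (b : Quot_783.BX (phi h D)) (g : D.Gh)
    (hf : g • b = b) : g ∈ GD.R := by
  refine stab_mem_R hμ hN h2 hKν GD b.mem ?_
  have := congrArg Quot_783.BX.val hf
  rwa [Quot_783.BX.val_smul] at this

/-- the reflection group is normal -/
theorem R_normal (hKν : ∀ g ∈ K, (g : Mtˣ) ∈ GC O z (Cls_620.pz z * μ)) {Λ : ℝ}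
    (GD : GrpData (phi h D) (WM h μ) Λ) : GD.R.Normal :=
  GD.R_normal fun g _ hw => WM_smul hKν g hw

end grp

end

end Crest.Agent.R272.GrpB_74
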