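import Crest.Agent.R272.Ins1_939
import Crest.Agent.R272.GrpB_74
import Crest.Agent.R272.LbAsm3_990

/-!
# R272 (S0415), M15: the group and space arguments of the lower bound (helper939)

Over `M : Ar`: `Gd`, `hW`, `hstab`, `zz`, `heq`, `kact`, and the quotient `X⁻ = XM M.A`.
-/

set_option autoImplicit false
set_option linter.unusedSectionVars false
set_option linter.unusedVariables false

open Set Filter Topology
open scoped ComplexConjugate

namespace Crest.Agent.R272.M15_939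

open Crest.Agent.R275.Geo Crest.Agent.R273.Fam_835
open Crest.Agent.R272 Crest.Agent.R272.EBase_641 Crest.Agent.R272.In_68
open Crest.Agent.R272.Quot_783 Crest.Agent.R272.MQ_783 Crest.Agent.R272.Refl_246
open Crest.Agent.R272.LbAsm_990 Crest.Agent.R272.Gr_559 Crest.Agent.R272.Act_302
open Crest.Agent.R272.P1F_54 (nn dd mulP mulP_rel)
open Crest.Agent.R272.P1A_54 (n_eq d_eq)

noncomputable section

/-- multiplication by scalars respects `k ↦ -k` -/
theorem mulP_neg_rel {a b : ℂ} (ha : a ≠ 0) (hb : b ≠ 0) {x y : P1}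
    (h : P1.n y * P1.d x = -(P1.n x * P1.d y)) :
    P1.n (mulP a b y) * P1.d (mulP a b x) = -(P1.n (mulP a b x) * P1.d (mulP a b y)) := by
  obtain ⟨c, hc, h1, h2⟩ := mulP_rel ha hb x
  obtain ⟨c', hc', h3, h4⟩ := mulP_rel ha hb y
  rw [n_eq, d_eq, n_eq, d_eq] at *
  apply mul_left_cancel₀ (mul_ne_zero hc hc')
  have e1 : c * c' * (nn (mulP a b y) * dd (mulP a b x)) =
      (c' * nn (mulP a b y)) * (c * dd (mulP a b x)) := by ring
  have e2 : c * c' * -(nn (mulP a b x) * dd (mulP a b y)) =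
      -((c * nn (mulP a b x)) * (c' * dd (mulP a b y))) := by ring
  rw [e1, e2, ← h1, ← h2, ← h3, ← h4]
  linear_combination a * b * h

namespace Ar

variable (M : Ar)

/-- **the group data of the lower bound** -/
def Gd (Λ : ℝ) (hΛ : 4 * Λ ^ 2 + 16 ≤ 10 ^ 200) : GrpData M.ρ (WM_74.WM hz M.μ) Λ :=
  GrpB_74.grpData hz M.D M.kd.mem M.kd.lev (hΛ.trans M.level_big)

variable (Λ : ℝ) (hΛ : 4 * Λ ^ 2 + 16 ≤ 10 ^ 200)

theorem Gd_K : (M.Gd Λ hΛ).K = M.KG := rfl

theorem Gd_σ : (M.Gd Λ hΛ).σ = M.s := rfl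

/-- the mirrors are stable -/
theorem hW : ∀ g : M.G, ∀ w ∈ WM_74.WM hz M.μ, (M.ρ g).1 w ∈ WM_74.WM hz M.μ :=
  fun g _ hw => GrpB_74.WM_smul M.kd.lev g hw

/-- stabilisers of the base are generated by reflections -/
theorem hstab (b : M.N) (g : M.G) (hg : g • b = b) : g ∈ (M.Gd Λ hΛ).R :=
  GrpB_74.hstab M.kd.mem M.kd.big M.kd.two M.kd.lev (M.Gd Λ hΛ) b g hg

theorem hpc : Continuous M.A.pz := M.A.continuous_pz

theorem hp (g : M.G) (x : M.X) : M.A.pz (g • x) = g • M.A.pz x := M.A.pz_smul g x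

/-- the projection to the ball, with values in `E 3` -/
def zz (y : M.X) : E 3 := (M.A.pz y).val

theorem zz_cont : Continuous M.zz := BX.continuous_val.comp M.hpc

theorem zz_mem (y : M.X) : M.zz y ∈ Ball 3 := (M.A.pz y).mem

theorem zz_norm (y : M.X) : ‖M.zz y‖ < 1 := mem_Ball.1 (M.zz_mem y)

theorem heq (g : M.G) (y : M.X) : M.zz (g • y) = act (M.ρ g) (M.zz y) := rfl

theorem pz_eq_of {x y : M.X} (h : M.zz x = M.zz y) : M.A.pz x = M.A.pz y := BX.ext h

theorem σ_of_mem {g : M.G} (hg : g ∈ M.KG) : M.A.σ g = 1 := GInG_502.sgH_of_mem M.D hg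

/-- `t` of colour `i` under `K` -/
theorem t_K {g : M.G} (hg : g ∈ M.KG) (i : Fin 2) (y : M.X) : M.DX.t i (g • y : M.X) =
    mulP (M.A.j g i (M.A.pz y)) (M.A.j0 g (M.A.pz y)) (M.DX.t i y) := by
  have h := M.A.t_smul g y i
  rwa [M.σ_of_mem hg, Equiv.Perm.one_apply] at h

/-- `k` of colour `i` under `K` -/
theorem k_K {g : M.G} (hg : g ∈ M.KG) (i : Fin 2) (y : M.X) : M.DX.k i (g • y : M.X) =
    mulP (M.A.p g i (M.A.pz y)) (M.A.q g i (M.A.pz y)) (M.DX.k i y) := by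
  have h := M.A.k_smul g y i
  rwa [M.σ_of_mem hg, Equiv.Perm.one_apply] at h

/-- **`KAct`** for colour `i` -/
theorem kact' (i : Fin 2) : KAct M.KG P1.n P1.d M.zz (M.DX.t i) (M.DX.k i) where
  kz g _ x y h := by rw [M.heq, M.heq, h]
  kt g hg x y h ht := by
    rw [M.t_K hg, M.t_K hg, M.pz_eq_of h, ht]
  kk g hg x y h hk := by
    rw [M.k_K hg, M.k_K hg, M.pz_eq_of h]
    exact mulP_neg_rel (M.A.p_ne _ _ _) (M.A.q_ne _ _ _) hk

/-- **the hypothesis `hK` of `lb_live`** -/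
theorem kact : KAct (M.Gd Λ hΛ).K P1.n P1.d M.zz (M.DX.t 0) (M.DX.k 0) := M.kact' 0

/-- the algebraic data of 585 -/
theorem alg : LBAsm_585.Alg (M.Gd Λ hΛ).K (M.Gd Λ hΛ).R (M.Gd Λ hΛ).σ := (M.Gd Λ hΛ).alg M.hW

/-! ### the swap -/

theorem σ_s : M.A.σ M.s = Equiv.swap 0 1 := GInG_502.sgH_of_not M.D M.s_not_mem

theorem t_s0 (y : M.X) : M.DX.t 1 (M.s • y : M.X) =
    mulP (M.A.j M.s 0 (M.A.pz y)) (M.A.j0 M.s (M.A.pz y)) (M.DX.t 0 y) := by
  have h := M.A.t_smul M.s y 0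
  rwa [M.σ_s, Equiv.swap_apply_left] at h

theorem t_s1 (y : M.X) : M.DX.t 0 (M.s • y : M.X) =
    mulP (M.A.j M.s 1 (M.A.pz y)) (M.A.j0 M.s (M.A.pz y)) (M.DX.t 1 y) := by
  have h := M.A.t_smul M.s y 1
  rwa [M.σ_s, Equiv.swap_apply_right] at h

theorem k_s0 (y : M.X) : M.DX.k 1 (M.s • y : M.X) =
    mulP (M.A.p M.s 0 (M.A.pz y)) (M.A.q M.s 0 (M.A.pz y)) (M.DX.k 0 y) := by
  have h := M.A.k_smul M.s y 0
  rwa [M.σ_s, Equiv.swap_apply_left] at h

theorem k_s1 (y : M.X) : M.DX.k 0 (M.s • y : M.X) =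
    mulP (M.A.p M.s 1 (M.A.pz y)) (M.A.q M.s 1 (M.A.pz y)) (M.DX.k 1 y) := by
  have h := M.A.k_smul M.s y 1
  rwa [M.σ_s, Equiv.swap_apply_right] at h

/-! ### the orbit spaces -/

/-- the singular base -/
abbrev NQ : Type := Orb M.G M.N

/-- `X⁻` -/
abbrev XQ : Type := XM M.A

instance : T2Space M.NQ := (Gi_295.base M.kd M.D).1

instance : ConnectedSpace M.NQ := (Gi_295.base M.kd M.D).2.2.1

instance : T2Space M.XQ := t2_XM M.A

instance : CompactSpace M.XQ := compact_XM M.A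

/-- the projection `X⁻ → Orb G N` -/
abbrev piQ : M.XQ → M.NQ := piM M.A

theorem piQ_cont : Continuous M.piQ := continuous_piM M.A

theorem piQ_proper : IsProperMap M.piQ := isProperMap_piM M.A

theorem piQ_surj : Function.Surjective M.piQ := surjective_piM M.A

/-- **the projective base** (295, 246): the atlas with a positive line bundle -/
theorem exists_baseQ : ∃ B : Crest.Agent.R275.Geo.Atl 3 M.NQ, Finite B.ι ∧
    Crest.Agent.R275.GC293.GoodA B ∧ Nonempty (Crest.Agent.R275.Geo.Part B) ∧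
    HolC (fam B) M.ra.fam id ∧ HolC M.ra.fam (fam B) id ∧
    Nonempty (Crest.Agent.R273.Defs_333.ProjD B) := by
  have h := (Gi_295.base M.kd M.D).2.2.2
  exact h

end Ar

end

end Crest.Agent.R272.M15_939
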