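import Mathlib
import Crest.Agent.R272.LbSq5_936

/-!
# LB-FDATA (row 272, lower bound for S0415; helper936)

The numbers of the wall for the arrangement over `ℚ(ζ₅)` (74 #5564, 559 #5971, 499 #6489):
base vectors `v_j = e1 - ζ^j e0` (`j ∈ ℤ/5`), `e1`; bridges `E_1, E_2, E_4`.
`c = -3 ζ`, `r1 = 27/10`, `r2 = 3`, so `m1 = 27/37`, `m2 = 3/4`.
-/

set_option autoImplicit false

open Set Filter Topology
open Crest.Agent.R272.EBase_641 Crest.Agent.R272.LbCap_382 Crest.Agent.R272.LbClu_382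
  Crest.Agent.R272.Wei_392
open scoped ComplexConjugate

noncomputable section

namespace Crest.Agent.R272.LbSq_936

/-- golden ratio -/
def gr : ℝ := (1 + Real.sqrt 5) / 2

theorem gr_sq : gr ^ 2 = gr + 1 := by
  unfold gr
  have h := Real.sq_sqrt (show (0:ℝ) ≤ 5 by norm_num)
  nlinarith

theorem gr_lo : 1.618 < gr := by
  unfold gr
  have h : (2.236 : ℝ) < Real.sqrt 5 := by
    rw [Real.lt_sqrt (by norm_num)]
    norm_num
  linarith

theorem gr_hi : gr < 1.6181 := by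
  unfold gr
  have h : Real.sqrt 5 < (2.2362 : ℝ) := by
    rw [Real.sqrt_lt' (by norm_num)]
    norm_num
  linarith

/-- the primitive fifth root of unity at the ball place -/
structure RZ (ζ : ℂ) : Prop where
  pow5 : ζ ^ 5 = 1
  neg : ζ ^ 2 + ζ ^ 3 = -(gr : ℂ)

variable {ζ : ℂ}

theorem RZ.norm (h : RZ ζ) : ‖ζ‖ = 1 := by
  have h1 : ‖ζ‖ ^ 5 = 1 := by rw [← norm_pow, h.pow5, norm_one]
  exact (pow_eq_one_iff_of_nonneg (norm_nonneg _) (by norm_num)).1 h1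

theorem RZ.ne (h : RZ ζ) : ζ ≠ 0 := by
  rintro rfl
  have := h.pow5
  norm_num at this

theorem RZ.conj (h : RZ ζ) : conj ζ = ζ ^ 4 := by
  have h1 : ζ * conj ζ = 1 := by
    rw [Complex.mul_conj, Complex.normSq_eq_norm_sq, h.norm]
    norm_num
  have h2 : ζ * ζ ^ 4 = 1 := by rw [← h.pow5]; ring
  exact mul_left_cancel₀ h.ne (h1.trans h2.symm)

theorem RZ.conj2 (h : RZ ζ) : (starRingEnd ℂ) (ζ ^ 2) = ζ ^ 3 := by
  rw [map_pow, h.conj]
  calc (ζ ^ 4) ^ 2 = ζ ^ 5 * ζ ^ 3 := by ring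
    _ = ζ ^ 3 := by rw [h.pow5, one_mul]

theorem RZ.re2 (h : RZ ζ) : (ζ ^ 2).re = -gr / 2 := by
  have h1 : ζ ^ 2 + (starRingEnd ℂ) (ζ ^ 2) = -(gr : ℂ) := by rw [h.conj2, h.neg]
  rw [Complex.add_conj] at h1
  have h2 : (2 * (ζ ^ 2).re : ℝ) = -gr := by exact_mod_cast h1
  linarith

theorem RZ.re3 (h : RZ ζ) : (ζ ^ 3).re = -gr / 2 := by
  rw [← h.conj2, Complex.conj_re, h.re2]

theorem RZ.re1 (h : RZ ζ) : ζ.re = (gr - 1) / 2 := by
  have e1 : (1 - ζ) * (1 + ζ + ζ ^ 2 + ζ ^ 3 + ζ ^ 4) = 0 := by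
    have : (1 - ζ) * (1 + ζ + ζ ^ 2 + ζ ^ 3 + ζ ^ 4) = 1 - ζ ^ 5 := by ring
    rw [this, h.pow5, sub_self]
  have e2 : 1 - ζ ≠ 0 := by
    intro h0
    have h1 : ζ = 1 := (sub_eq_zero.1 h0).symm
    have h2 := h.neg
    rw [h1] at h2
    have h3 := congrArg Complex.re h2
    simp at h3
    have := gr_lo
    linarith
  have e3 : 1 + ζ + ζ ^ 2 + ζ ^ 3 + ζ ^ 4 = 0 := (mul_eq_zero.1 e1).resolve_left e2
  have e4 : ζ + (starRingEnd ℂ) ζ = ((gr - 1 : ℝ) : ℂ) := by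
    rw [h.conj]
    push_cast
    linear_combination e3 - h.neg
  rw [Complex.add_conj] at e4
  have h2 : (2 * ζ.re : ℝ) = gr - 1 := by exact_mod_cast e4
  linarith

theorem norm_sq_add (a b : ℂ) : ‖a + b‖ ^ 2 = ‖a‖ ^ 2 + ‖b‖ ^ 2 + 2 * (a * conj b).re := by
  rw [← Complex.normSq_eq_norm_sq, ← Complex.normSq_eq_norm_sq, ← Complex.normSq_eq_norm_sq,
    Complex.normSq_add]

/-- `|ζ^a + 3ζ|²` -/
theorem RZ.dist_c (h : RZ ζ) (w : ℂ) (hw : ‖w‖ = 1) :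
    ‖w - -3 * ζ‖ ^ 2 = 10 + 6 * (w * ζ ^ 4).re := by
  have e : w - -3 * ζ = w + 3 * ζ := by ring
  rw [e, norm_sq_add, hw, norm_mul, h.norm, map_mul, h.conj]
  have e2 : w * ((starRingEnd ℂ) 3 * ζ ^ 4) = (3 : ℝ) * (w * ζ ^ 4) := by
    have : (starRingEnd ℂ) 3 = 3 := by
      have := Complex.conj_ofReal 3
      push_cast at this
      exact this
    rw [this]; push_cast; ring
  rw [e2, Complex.re_ofReal_mul]
  norm_num
  ring

/-- real slope small -/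
theorem mm_le_of {c : ℂ} {r : ℝ} (hr : 0 ≤ r) {z : E3} (h0 : ¬ (z 0 = 0 ∧ z 1 = 0))
    (h : ‖z 1 - c * z 0‖ ≤ r * ‖z 0‖) : mm c z ≤ r / (1 + r) := by
  have hd : 0 < de c z := lt_of_le_of_ne (de_nonneg c z) (fun h1 => h0 (de_eq_zero.1 h1.symm))
  rw [mm, div_le_div_iff₀ hd (by linarith)]
  unfold nu de
  nlinarith

theorem le_mm_of {c : ℂ} {r : ℝ} (hr : 0 ≤ r) {z : E3} (h0 : ¬ (z 0 = 0 ∧ z 1 = 0))
    (h : r * ‖z 0‖ ≤ ‖z 1 - c * z 0‖) : r / (1 + r) ≤ mm c z := by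
  have hd : 0 < de c z := lt_of_le_of_ne (de_nonneg c z) (fun h1 => h0 (de_eq_zero.1 h1.symm))
  rw [mm, div_le_div_iff₀ (by linarith) hd]
  unfold nu de
  nlinarith

/-- a vector whose first two components are those of the bridge `E_k` -/
structure IsBr (ζ : ℂ) (k : ℕ) (v : V1 3) : Prop where
  v0 : v.1 0 = -ζ ^ k
  v1 : v.1 1 = 1
  sz : ‖v.2‖ ^ 2 - ‖v.1 2‖ ^ 2 = gr

/-- the slopes of a bridge lie in the disc of centre `φ s₀`, radius `√φ`, `s₀ = -conj ζ^k` -/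
theorem IsBr.disc {k : ℕ} {v : V1 3} (hv : IsBr ζ k v) (hζ : RZ ζ) {z : E3} (hz : ‖z‖ < 1)
    (h : lin v z = 0) :
    ¬ (z 0 = 0 ∧ z 1 = 0) ∧ ‖z 1 - gr * (-conj ζ ^ k) * z 0‖ ^ 2 ≤ gr * ‖z 0‖ ^ 2 := by
  have hg := gr_lo
  have hn : ‖z‖ ^ 2 = ‖z 0‖ ^ 2 + ‖z 1‖ ^ 2 + ‖z 2‖ ^ 2 := by
    rw [EuclideanSpace.norm_sq_eq, Fin.sum_univ_three]
  have hn1 : ‖z 0‖ ^ 2 + ‖z 1‖ ^ 2 + ‖z 2‖ ^ 2 < 1 := by
    rw [← hn]
    nlinarith [norm_nonneg z]
  set s0 : ℂ := -conj ζ ^ k with hs0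
  have hs0n : ‖s0‖ = 1 := by
    rw [hs0, norm_neg, norm_pow, Complex.norm_conj, hζ.norm, one_pow]
  have e1 : z 1 + s0 * z 0 = conj v.2 - conj (v.1 2) * z 2 := by
    have h' := h
    unfold lin at h'
    rw [PiLp.inner_apply, Fin.sum_univ_three, hv.v0, hv.v1] at h'
    simp only [RCLike.inner_apply, map_one, map_neg, map_pow] at h'
    rw [hs0]
    linear_combination h'
  -- reversed Cauchy-Schwarz
  have e2 : ‖v.2‖ - ‖v.1 2‖ * ‖z 2‖ ≤ ‖z 1 + s0 * z 0‖ := by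
    rw [e1]
    have := norm_sub_norm_le (conj v.2) (conj (v.1 2) * z 2)
    rw [norm_mul, Complex.norm_conj, Complex.norm_conj] at this
    exact this
  have hz2 : ‖z 2‖ < 1 := by
    nlinarith [norm_nonneg (z 2), sq_nonneg ‖z 0‖, sq_nonneg ‖z 1‖]
  have hv2 : ‖v.1 2‖ < ‖v.2‖ := by
    have := hv.sz
    nlinarith [norm_nonneg (v.1 2), norm_nonneg v.2]
  have e3 : 0 ≤ ‖v.2‖ - ‖v.1 2‖ * ‖z 2‖ := by
    nlinarith [norm_nonneg (v.1 2), norm_nonneg (z 2)]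
  have e4 : gr * (1 - ‖z 2‖ ^ 2) ≤ (‖v.2‖ - ‖v.1 2‖ * ‖z 2‖) ^ 2 := by
    rw [← hv.sz]
    nlinarith [sq_nonneg (‖v.2‖ * ‖z 2‖ - ‖v.1 2‖)]
  have e5 : gr * (1 - ‖z 2‖ ^ 2) ≤ ‖z 1 + s0 * z 0‖ ^ 2 :=
    e4.trans (pow_le_pow_left₀ e3 e2 2)
  have e6 : gr * (‖z 0‖ ^ 2 + ‖z 1‖ ^ 2) < ‖z 1 + s0 * z 0‖ ^ 2 := by
    refine lt_of_lt_of_le ?_ e5
    have : ‖z 0‖ ^ 2 + ‖z 1‖ ^ 2 < 1 - ‖z 2‖ ^ 2 := by linarith
    nlinarith
  have e7 : ‖z 1 + s0 * z 0‖ ^ 2 = ‖z 1‖ ^ 2 + ‖z 0‖ ^ 2 + 2 * (z 1 * conj (s0 * z 0)).re := by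
    rw [norm_sq_add, norm_mul, hs0n, one_mul]
  have e8 : ‖z 1 - gr * s0 * z 0‖ ^ 2 =
      ‖z 1‖ ^ 2 + gr ^ 2 * ‖z 0‖ ^ 2 - 2 * gr * (z 1 * conj (s0 * z 0)).re := by
    have e : z 1 - gr * s0 * z 0 = z 1 + ((-gr : ℝ) : ℂ) * (s0 * z 0) := by push_cast; ring
    rw [e, norm_sq_add, norm_mul, Complex.norm_real, norm_mul, hs0n, one_mul, map_mul,
      Complex.conj_ofReal]
    have e' : z 1 * (((-gr : ℝ) : ℂ) * conj (s0 * z 0)) =
        ((-gr : ℝ) : ℂ) * (z 1 * conj (s0 * z 0)) := by ring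
    rw [e', Complex.re_ofReal_mul, mul_pow, Real.norm_eq_abs, sq_abs]
    ring
  constructor
  · rintro ⟨h0, h1⟩
    rw [h0, h1] at e6
    simp at e6
  · rw [e8]
    rw [e7] at e6
    have hgs := gr_sq
    -- multiply `e6` by `gr`
    set X := (z 1 * conj (s0 * z 0)).re
    set A := ‖z 0‖ ^ 2
    set B := ‖z 1‖ ^ 2
    have hA : 0 ≤ A := sq_nonneg _
    have hB : 0 ≤ B := sq_nonneg _
    have e9 : gr * (gr * (A + B)) < gr * (B + A + 2 * X) := by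
      apply mul_lt_mul_of_pos_left e6
      linarith
    have e10 : gr * (gr * (A + B)) = gr ^ 2 * (A + B) := by ring
    rw [e10] at e9
    rw [hgs] at e9 ⊢
    nlinarith

theorem IsBr.bound {k : ℕ} {v : V1 3} (hv : IsBr ζ k v) (hζ : RZ ζ) {z : E3} (hz : ‖z‖ < 1)
    (h : lin v z = 0) : ‖z 1 - gr * (-conj ζ ^ k) * z 0‖ ≤ 1.2721 * ‖z 0‖ := by
  have h1 := (hv.disc hζ hz h).2
  have h2 := gr_hi
  have h3 : ‖z 1 - gr * (-conj ζ ^ k) * z 0‖ ^ 2 ≤ (1.2721 * ‖z 0‖) ^ 2 := by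
    refine h1.trans ?_
    rw [mul_pow]
    apply mul_le_mul_of_nonneg_right _ (sq_nonneg _)
    norm_num
    linarith
  exact le_of_sq_le_sq h3 (by positivity)

/-- the bridge `E_4` is inside -/
theorem bridge4 {v : V1 3} (hζ : RZ ζ) (hv : IsBr ζ 4 v) : Bridge (-3 * ζ) (27 / 37) (3 / 4) v := by
  intro z hz h
  obtain ⟨h0, -⟩ := hv.disc hζ hz h
  refine ⟨h0, Or.inl ?_⟩
  have h1 := hv.bound hζ hz h
  have hc : conj ζ ^ 4 = ζ := by
    rw [hζ.conj]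
    calc (ζ ^ 4) ^ 4 = (ζ ^ 5) ^ 3 * ζ := by ring
      _ = ζ := by rw [hζ.pow5]; ring
  rw [hc] at h1
  have e : z 1 - -3 * ζ * z 0 = (z 1 - gr * (-ζ) * z 0) + ((3 - gr : ℝ) : ℂ) * ζ * z 0 := by
    push_cast; ring
  have h2 : ‖z 1 - -3 * ζ * z 0‖ ≤ 27 / 10 * ‖z 0‖ := by
    rw [e]
    refine (norm_add_le _ _).trans ?_
    rw [norm_mul, norm_mul, hζ.norm, mul_one, Complex.norm_real, Real.norm_eq_abs,
      abs_of_pos (by have := gr_hi; linarith)]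
    have := gr_lo
    nlinarith [norm_nonneg (z 0)]
  have h3 := mm_le_of (c := -3 * ζ) (by norm_num : (0:ℝ) ≤ 27 / 10) h0 h2
  norm_num at h3 ⊢
  exact h3

/-- the bridges `E_1`, `E_2` are outside -/
theorem bridge_out {k : ℕ} {v : V1 3} (hζ : RZ ζ) (hk : k = 1 ∨ k = 2) (hv : IsBr ζ k v) :
    Bridge (-3 * ζ) (27 / 37) (3 / 4) v := by
  intro z hz h
  obtain ⟨h0, -⟩ := hv.disc hζ hz h
  refine ⟨h0, Or.inr ?_⟩
  have h1 := hv.bound hζ hz h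
  have hre : (conj ζ ^ k * ζ ^ 4).re = -gr / 2 := by
    rcases hk with rfl | rfl
    · rw [pow_one, hζ.conj]
      have : ζ ^ 4 * ζ ^ 4 = ζ ^ 5 * ζ ^ 3 := by ring
      rw [this, hζ.pow5, one_mul, hζ.re3]
    · rw [hζ.conj]
      have : (ζ ^ 4) ^ 2 * ζ ^ 4 = (ζ ^ 5) ^ 2 * ζ ^ 2 := by ring
      rw [this, hζ.pow5, one_pow, one_mul, hζ.re2]
  set w := conj ζ ^ k with hw
  have hwn : ‖w‖ = 1 := by rw [hw, norm_pow, Complex.norm_conj, hζ.norm, one_pow]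
  have hg1 := gr_lo
  have hg2 := gr_hi
  -- `|3 ζ - φ w|² = 9 + 4 φ²`
  have e1 : ‖(-(gr : ℂ)) * w + 3 * ζ‖ ^ 2 = 9 + 4 * gr ^ 2 := by
    rw [norm_sq_add, norm_mul, norm_neg, Complex.norm_real, hwn, mul_one, norm_mul, hζ.norm,
      map_mul, hζ.conj]
    have h3 : (starRingEnd ℂ) 3 = 3 := by
      have := Complex.conj_ofReal 3
      push_cast at this
      exact this
    have e2 : -(gr : ℂ) * w * ((starRingEnd ℂ) 3 * ζ ^ 4) = ((-3 * gr : ℝ) : ℂ) * (w * ζ ^ 4) := by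
      rw [h3]; push_cast; ring
    rw [e2, Complex.re_ofReal_mul, hre, Real.norm_eq_abs, sq_abs]
    norm_num
    ring
  have e3 : (4.3 : ℝ) ≤ ‖(-(gr : ℂ)) * w + 3 * ζ‖ := by
    apply le_of_sq_le_sq _ (norm_nonneg _)
    rw [e1]
    nlinarith
  have h2 : 3 * ‖z 0‖ ≤ ‖z 1 - -3 * ζ * z 0‖ := by
    have e : z 1 - -3 * ζ * z 0 =
        (-(gr : ℂ) * w + 3 * ζ) * z 0 + (z 1 - gr * (-w) * z 0) := by ring
    rw [e]
    have h4 := norm_sub_norm_le ((-(gr : ℂ) * w + 3 * ζ) * z 0) (-(z 1 - gr * (-w) * z 0))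
    rw [sub_neg_eq_add, norm_neg, norm_mul] at h4
    have h5 := mul_le_mul_of_nonneg_right e3 (norm_nonneg (z 0))
    nlinarith [norm_nonneg (z 0)]
  have h3 := le_mm_of (c := -3 * ζ) (by norm_num : (0:ℝ) ≤ 3) h0 h2
  norm_num at h3 ⊢
  exact h3

/-! ### the base vectors -/

/-- `v_j = e1 - ζ^j e0` -/
def bv (ζ : ℂ) (j : ℕ) : V1 3 := (WithLp.toLp 2 ![-ζ ^ j, 1, 0], 0)

/-- `e1` -/
def be : V1 3 := (WithLp.toLp 2 ![0, 1, 0], 0)

open Classical in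
/-- the six base vectors -/
def S0 (ζ : ℂ) : Finset (V1 3) := insert be ((Finset.range 5).image (bv ζ))

theorem mem_S0 {v : V1 3} : v ∈ S0 ζ ↔ v = be ∨ ∃ j < 5, bv ζ j = v := by
  classical
  simp [S0, Finset.mem_insert, Finset.mem_image]

@[simp] theorem ca_bv (j : ℕ) : ca (bv ζ j) = -conj ζ ^ j := by simp [ca, bv]
@[simp] theorem cb_bv (j : ℕ) : cb (bv ζ j) = 1 := by simp [cb, bv]
@[simp] theorem ca_be : ca be = 0 := by simp [ca, be]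
@[simp] theorem cb_be : cb be = 1 := by simp [cb, be]

theorem RZ.conj_pow (h : RZ ζ) (j : ℕ) : (starRingEnd ℂ) ζ ^ j = ζ ^ (4 * j) := by
  rw [h.conj, ← pow_mul]

theorem RZ.inj (h : RZ ζ) : ∀ i < 5, ∀ j < 5, ζ ^ i = ζ ^ j → i = j := by
  have hre1 := h.re1
  have hre2 := h.re2
  have hre3 := h.re3
  have hg1 := gr_lo
  have hg2 := gr_hi
  have hne1 : ζ ≠ 1 := by
    intro h1
    rw [h1] at hre1
    simp at hre1
    linarith
  have : Fact (Nat.Prime 5) := ⟨by norm_num⟩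
  have hprime : orderOf ζ = 5 := orderOf_eq_prime h.pow5 hne1
  intro i hi j hj hij
  exact pow_injOn_Iio_orderOf (by rw [hprime]; exact hi) (by rw [hprime]; exact hj) hij

theorem bv_inj (h : RZ ζ) {i j : ℕ} (hi : i < 5) (hj : j < 5) (e : bv ζ i = bv ζ j) : i = j := by
  have h1 : (bv ζ i).1 0 = (bv ζ j).1 0 := by rw [e]
  simp only [bv, PiLp.toLp_apply, Matrix.cons_val_zero, neg_inj] at h1
  exact h.inj i hi j hj h1

theorem be_ne_bv (h : RZ ζ) (j : ℕ) : be ≠ bv ζ j := by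
  intro e
  have h1 : (be : V1 3).1 0 = (bv ζ j).1 0 := by rw [e]
  simp only [be, bv, PiLp.toLp_apply, Matrix.cons_val_zero] at h1
  have := pow_ne_zero j h.ne
  apply this
  rw [eq_comm, neg_eq_zero] at h1
  exact h1

theorem card_S0 (h : RZ ζ) : (S0 ζ).card = 6 := by
  classical
  rw [S0, Finset.card_insert_of_notMem, Finset.card_image_of_injOn]
  · simp
  · intro i hi j hj e
    exact bv_inj h (by simpa using hi) (by simpa using hj) e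
  · intro h1
    obtain ⟨j, -, hj⟩ := Finset.mem_image.1 h1
    exact be_ne_bv h j hj.symm

/-- `(ζ^a) ζ^4` real parts -/
theorem RZ.re_conj_pow (h : RZ ζ) (j : ℕ) (hj : j < 5) :
    ((starRingEnd ℂ) ζ ^ j * ζ ^ 4).re =
      if j = 1 ∨ j = 2 then -gr / 2 else if j = 4 then 1 else (gr - 1) / 2 := by
  rw [h.conj_pow, ← pow_add]
  have h4 : (ζ ^ 4).re = (gr - 1) / 2 := by rw [← h.conj, Complex.conj_re, h.re1]
  interval_cases j
  · simpa using h4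
  · have : ζ ^ (4 * 1 + 4) = ζ ^ 5 * ζ ^ 3 := by ring
    rw [this, h.pow5, one_mul, h.re3]
    simp
  · have : ζ ^ (4 * 2 + 4) = (ζ ^ 5) ^ 2 * ζ ^ 2 := by ring
    rw [this, h.pow5, one_pow, one_mul, h.re2]
    simp
  · have : ζ ^ (4 * 3 + 4) = (ζ ^ 5) ^ 3 * ζ := by ring
    rw [this, h.pow5, one_pow, one_mul, h.re1]
    simp
  · have : ζ ^ (4 * 4 + 4) = (ζ ^ 5) ^ 4 := by ring
    rw [this, h.pow5, one_pow]
    simp

/-- distance of the slopes of the planes `v_j` to the centre of the wall -/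
theorem RZ.dist_bv (h : RZ ζ) (j : ℕ) (hj : j < 5) :
    ‖(starRingEnd ℂ) ζ ^ j - -3 * ζ‖ ^ 2 =
      10 + 6 * (if j = 1 ∨ j = 2 then -gr / 2 else if j = 4 then 1 else (gr - 1) / 2) := by
  rw [h.dist_c _ (by rw [norm_pow, Complex.norm_conj, h.norm, one_pow]), h.re_conj_pow j hj]

/-- **FData for the base arrangement.** -/
theorem fdata (hζ : RZ ζ) {S : Set (V1 3)} {F : E3 → ℂ} (hdiv : Div 3 S F)
    (hsub : ∀ v ∈ S0 ζ, v ∈ S) {ι : Type*} (V : ι → V1 3)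
    (hrest : ∀ v ∈ S, v ∉ S0 ζ → (∃ i, V i = v) ∨ IsBr ζ 4 v ∨ IsBr ζ 1 v ∨ IsBr ζ 2 v) :
    FData S F (S0 ζ) (bv ζ 1) (bv ζ 2) V (-3 * ζ) (27 / 10) 3 (27 / 37) (3 / 4) where
  div := hdiv
  sub := hsub
  base := by
    intro v hv
    rcases mem_S0.1 hv with rfl | ⟨j, -, rfl⟩
    · refine ⟨?_, rfl, by simp [be]⟩
      intro h0
      have : (be : V1 3).1 1 = (0 : E3) 1 := by rw [h0]
      simp [be] at this
    · refine ⟨?_, rfl, by simp [bv]⟩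
      intro h0
      have : (bv ζ j : V1 3).1 1 = (0 : E3) 1 := by rw [h0]
      simp [bv] at this
  r1_nonneg := by norm_num
  r2_pos := by norm_num
  mem1 := mem_S0.2 (Or.inr ⟨1, by norm_num, rfl⟩)
  mem2 := mem_S0.2 (Or.inr ⟨2, by norm_num, rfl⟩)
  ne12 := fun e => by
    have := bv_inj hζ (by norm_num) (by norm_num) e
    norm_num at this
  b1 := by simp
  b2 := by simp
  in1 := by
    rw [ca_bv, cb_bv, neg_neg, div_one]
    have h := hζ.dist_bv 1 (by norm_num)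
    simp only [true_or, if_true] at h
    apply le_of_sq_le_sq _ (by norm_num)
    rw [h]
    have := gr_lo
    nlinarith
  in2 := by
    rw [ca_bv, cb_bv, neg_neg, div_one]
    have h := hζ.dist_bv 2 (by norm_num)
    simp only [or_true, if_true] at h
    apply le_of_sq_le_sq _ (by norm_num)
    rw [h]
    have := gr_lo
    nlinarith
  out := by
    intro v hv h1 h2 s hs h0
    rcases mem_S0.1 hv with rfl | ⟨j, hj, rfl⟩
    · rw [ca_be, cb_be, zero_add, one_mul] at h0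
      rw [h0, zero_sub, norm_neg, norm_mul, hζ.norm] at hs
      norm_num at hs
    · rw [ca_bv, cb_bv, one_mul] at h0
      have e : s = (starRingEnd ℂ) ζ ^ j := by linear_combination h0
      rw [e] at hs
      have h := hζ.dist_bv j hj
      have hj1 : j ≠ 1 := fun e => h1 (by rw [e])
      have hj2 : j ≠ 2 := fun e => h2 (by rw [e])
      have h3 : ‖(starRingEnd ℂ) ζ ^ j - -3 * ζ‖ ^ 2 < 3 ^ 2 :=
        pow_lt_pow_left₀ hs (norm_nonneg _) (by norm_num)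
      rw [h] at h3
      have := gr_lo
      simp only [hj1, hj2, or_self, if_false] at h3
      split_ifs at h3 <;> linarith
  rest := by
    intro v hv hv0
    rcases hrest v hv hv0 with h | h | h | h
    · exact Or.inl h
    · exact Or.inr (bridge4 hζ h)
    · exact Or.inr (bridge_out hζ (Or.inl rfl) h)
    · exact Or.inr (bridge_out hζ (Or.inr rfl) h)

end Crest.Agent.R272.LbSq_936
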