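import Mathlib
import Crest.Agent.R272.LbAd3_936
import Crest.Agent.R272.LbFd_936
import Crest.Agent.R272.Cls4_620

/-!
# LB-ADAPT, part 4 (row 272, lower bound for S0415; helper936)

Products and scalings of divisors; the data of the colour 1 double cover from one root function
per class.
-/

set_option autoImplicit false
set_option linter.unusedSectionVars false

open Set Filter Topology
open Crest.Agent.R272.EBase_641 Crest.Agent.R272.Wei_392
open Crest.Agent.R272.Cls_620 (Lb)
open scoped ComplexConjugate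

noncomputable section

namespace Crest.Agent.R272.LbSq_936

variable {n : ℕ}

/-- divisor of the constant one -/
theorem Div.one : Div n (∅ : Set (V1 n)) (fun _ => 1) := by
  refine ⟨differentiableOn_const _, fun z hz => by simp, fun z hz => ?_⟩
  refine ⟨univ, univ_mem, fun _ => 1, differentiableOn_const _, by simp, ∅, by simp, by simp⟩

/-- divisor of a product -/
theorem Div.mul {S S' : Set (V1 n)} {f f' : E n → ℂ} (h : Div n S f) (h' : Div n S' f')
    (hd : Disjoint S S') : Div n (S ∪ S') (fun z => f z * f' z) := by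
  classical
  refine ⟨h.hol.mul h'.hol, fun z hz => ?_, fun z hz => ?_⟩
  · refine ((h.fin z hz).union (h'.fin z hz)).subset ?_
    rintro v ⟨hv | hv, h0⟩
    · exact Or.inl ⟨hv, h0⟩
    · exact Or.inr ⟨hv, h0⟩
  · obtain ⟨U, hU, u, hu, hu0, F, hF, hf⟩ := h.div z hz
    obtain ⟨U', hU', u', hu', hu0', F', hF', hf'⟩ := h'.div z hz
    refine ⟨U ∩ U', inter_mem hU hU', fun w => u w * u' w,
      (hu.mono inter_subset_left).mul (hu'.mono inter_subset_right),
      fun w hw => mul_ne_zero (hu0 w hw.1) (hu0' w hw.2), F ∪ F', fun v => ?_, fun w hw => ?_⟩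
    · rw [Finset.mem_union, hF, hF', Set.mem_union]
      tauto
    · have hdF : Disjoint F F' := by
        rw [Finset.disjoint_left]
        intro v hv hv'
        exact (Set.disjoint_left.1 hd) ((hF v).1 hv).1 ((hF' v).1 hv').1
      show f w * f' w = _
      rw [hf w hw.1, hf' w hw.2, Finset.prod_union hdF]
      ring

theorem lin_smul (c : ℂ) (v : V1 n) (w : E n) : lin (c • v) w = conj c * lin v w := by
  rw [lin_eq_hh, lin_eq_hh, hh_smul_right]

/-- scaling of the vectors of a divisor -/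
theorem Div.scale {S : Set (V1 n)} {f : E n → ℂ} (h : Div n S f) {c : ℂ} (hc : c ≠ 0) :
    Div n ((fun v => c • v) '' S) f := by
  classical
  have hcc : conj c ≠ 0 := by simpa using hc
  have hz0 : ∀ (v : V1 n) (w : E n), lin (c • v) w = 0 ↔ lin v w = 0 := by
    intro v w
    rw [lin_smul]
    simp [hcc]
  refine ⟨h.hol, fun z hz => ?_, fun z hz => ?_⟩
  · refine ((h.fin z hz).image (fun v => c • v)).subset ?_
    rintro _ ⟨⟨v, hv, rfl⟩, h0⟩
    exact ⟨v, ⟨hv, (hz0 v z).1 h0⟩, rfl⟩
  · obtain ⟨U, hU, u, hu, hu0, F, hF, hf⟩ := h.div z hz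
    have hinj : Function.Injective (fun v : V1 n => c • v) := smul_right_injective _ hc
    refine ⟨U, hU, fun w => ((conj c) ^ F.card)⁻¹ * u w,
      (differentiableOn_const _).mul hu, fun w hw => mul_ne_zero
        (inv_ne_zero (pow_ne_zero _ hcc)) (hu0 w hw), F.image (fun v => c • v), fun v => ?_,
      fun w hw => ?_⟩
    · simp only [Finset.mem_image, Set.mem_image]
      constructor
      · rintro ⟨v, hv, rfl⟩
        exact ⟨⟨v, ((hF v).1 hv).1, rfl⟩, (hz0 v z).2 ((hF v).1 hv).2⟩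
      · rintro ⟨⟨v, hv, rfl⟩, h0⟩
        exact ⟨v, (hF v).2 ⟨hv, (hz0 v z).1 h0⟩, rfl⟩
    · rw [hf w hw, Finset.prod_image (fun a _ b _ hab => hinj hab)]
      have : ∏ v ∈ F, lin (c • v) w = (conj c) ^ F.card * ∏ v ∈ F, lin v w := by
        rw [← Finset.prod_const, ← Finset.prod_mul_distrib]
        exact Finset.prod_congr rfl fun v _ => lin_smul c v w
      rw [this]
      have hp : (conj c) ^ F.card ≠ 0 := pow_ne_zero _ hcc
      field_simp

/-! ### the classes -/

/-- `e0` -/
def bo : V1 3 := (WithLp.toLp 2 ![1, 0, 0], 0)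

/-- the base vector of a label (colour false only) -/
def bl (ζ : ℂ) : Lb → V1 3
  | .o => bo
  | .n _ => be
  | .v _ j => bv ζ j
  | .b _ _ => be

/-- branch labels of colour `false` -/
def isBr : Lb → Prop
  | .n false => True
  | .v false _ => True
  | .b false k => k = 1 ∨ k = 2 ∨ k = 4
  | _ => False

/-- all the branch planes of colour `false` -/
def Sall (C : Lb → Set (V1 3)) : Set (V1 3) := {v | ∃ a, isBr a ∧ v ∈ C a}

/-- One root function per class, and the elementary facts about the classes. -/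
structure Cla (ζ : ℂ) (C : Lb → Set (V1 3)) (Fn : Lb → E3 → ℂ) : Prop where
  rz : RZ ζ
  div : ∀ a, (a = .o ∨ isBr a) → Div 3 (C a) (Fn a)
  mo : bo ∈ C .o
  mn : be ∈ C (.n false)
  mv : ∀ j : Fin 5, bv ζ j ∈ C (.v false j)
  disj : ∀ a b, isBr a → isBr b → a ≠ b → Disjoint (C a) (C b)
  ne : ∀ a, (a = .o ∨ isBr a) → ∀ v ∈ C a, v.1 ≠ 0
  uo : ∀ w : E3, ‖w‖ < 1 → w 0 = 0 → w 1 = 0 → ∀ v ∈ C .o, lin v w = 0 → v = bo
  uv : ∀ w : E3, ‖w‖ < 1 → w 0 = 0 → w 1 = 0 → ∀ v ∈ C (.v false 0), lin v w = 0 → v = bv ζ 0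

variable {ζ : ℂ} {C : Lb → Set (V1 3)} {Fn : Lb → E3 → ℂ}

theorem isBr_v (j : Fin 5) : isBr (.v false j) := trivial
theorem isBr_n : isBr (.n false) := trivial
theorem isBr_b1 : isBr (.b false 1) := Or.inl rfl
theorem isBr_b2 : isBr (.b false 2) := Or.inr (Or.inl rfl)
theorem isBr_b4 : isBr (.b false 4) := Or.inr (Or.inr rfl)

/-- the numerator / denominator functions -/
def PF (Fn : Lb → E3 → ℂ) (w : E3) : ℂ :=
  Fn (.v false 1) w * Fn (.v false 2) w * Fn (.n false) w * Fn (.b false 1) w * Fn (.b false 2) w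
def QF (Fn : Lb → E3 → ℂ) (w : E3) : ℂ :=
  Fn (.v false 3) w * Fn (.v false 4) w * Fn (.v false 0) w * Fn (.b false 4) w

open Classical in
def SNf (ζ : ℂ) : Finset (V1 3) := insert (bv ζ 1) (insert (bv ζ 2) {be})
open Classical in
def SDf (ζ : ℂ) : Finset (V1 3) := insert (bv ζ 3) (insert (bv ζ 4) {bv ζ 0})

theorem mem_SNf {v : V1 3} : v ∈ SNf ζ ↔ v = bv ζ 1 ∨ v = bv ζ 2 ∨ v = be := by
  simp [SNf]
theorem mem_SDf {v : V1 3} : v ∈ SDf ζ ↔ v = bv ζ 3 ∨ v = bv ζ 4 ∨ v = bv ζ 0 := by
  simp [SDf]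

theorem RZ.bvne (h : RZ ζ) {i j : ℕ} (hi : i < 5) (hj : j < 5) (hij : i ≠ j) :
    bv ζ i ≠ bv ζ j := fun e => hij (bv_inj h hi hj e)

theorem prod_SNf (h : RZ ζ) (f : V1 3 → ℂ) :
    ∏ v ∈ SNf ζ, f v = f (bv ζ 1) * f (bv ζ 2) * f be := by
  classical
  rw [SNf, Finset.prod_insert, Finset.prod_insert, Finset.prod_singleton]
  · ring
  · rw [Finset.mem_singleton]
    exact (be_ne_bv h 2).symm
  · rw [Finset.mem_insert, Finset.mem_singleton]
    rintro (h1 | h1)
    · exact h.bvne (by norm_num) (by norm_num) (by norm_num) h1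
    · exact (be_ne_bv h 1) h1.symm

theorem prod_SDf (h : RZ ζ) (f : V1 3 → ℂ) :
    ∏ v ∈ SDf ζ, f v = f (bv ζ 3) * f (bv ζ 4) * f (bv ζ 0) := by
  classical
  rw [SDf, Finset.prod_insert, Finset.prod_insert, Finset.prod_singleton]
  · ring
  · rw [Finset.mem_singleton]
    exact h.bvne (by norm_num) (by norm_num) (by norm_num)
  · rw [Finset.mem_insert, Finset.mem_singleton]
    rintro (h1 | h1)
    · exact h.bvne (by norm_num) (by norm_num) (by norm_num) h1
    · exact h.bvne (by norm_num) (by norm_num) (by norm_num) h1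

theorem prod_S0 (h : RZ ζ) (f : V1 3 → ℂ) :
    ∏ v ∈ S0 ζ, f v = (∏ v ∈ SNf ζ, f v) * ∏ v ∈ SDf ζ, f v := by
  classical
  rw [prod_SNf h, prod_SDf h, S0, Finset.prod_insert, Finset.prod_image]
  · simp only [Finset.prod_range_succ, Finset.prod_range_zero, one_mul]
    ring
  · intro i hi j hj e
    exact bv_inj h (by simpa using hi) (by simpa using hj) e
  · intro h1
    obtain ⟨j, -, hj⟩ := Finset.mem_image.1 h1
    exact be_ne_bv h j hj.symm

theorem card_SNf (h : RZ ζ) : (SNf ζ).card = 3 := by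
  classical
  rw [SNf, Finset.card_insert_of_notMem, Finset.card_insert_of_notMem, Finset.card_singleton]
  · rw [Finset.mem_singleton]
    exact (be_ne_bv h 2).symm
  · rw [Finset.mem_insert, Finset.mem_singleton]
    rintro (h1 | h1)
    · exact h.bvne (by norm_num) (by norm_num) (by norm_num) h1
    · exact (be_ne_bv h 1) h1.symm

theorem card_SDf (h : RZ ζ) : (SDf ζ).card = 3 := by
  classical
  rw [SDf, Finset.card_insert_of_notMem, Finset.card_insert_of_notMem, Finset.card_singleton]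
  · rw [Finset.mem_singleton]
    exact h.bvne (by norm_num) (by norm_num) (by norm_num)
  · rw [Finset.mem_insert, Finset.mem_singleton]
    rintro (h1 | h1)
    · exact h.bvne (by norm_num) (by norm_num) (by norm_num) h1
    · exact h.bvne (by norm_num) (by norm_num) (by norm_num) h1

theorem Cla.base_mem (D : Cla ζ C Fn) {v : V1 3} (hv : v ∈ S0 ζ) : v ∈ Sall C := by
  rcases mem_S0.1 hv with rfl | ⟨j, hj, rfl⟩
  · exact ⟨_, isBr_n, D.mn⟩
  · exact ⟨.v false ⟨j, hj⟩, trivial, D.mv ⟨j, hj⟩⟩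

/-- a base vector in a branch class is the base vector of this class -/
theorem Cla.base_unique (D : Cla ζ C Fn) {a : Lb} (ha : isBr a) {v : V1 3} (hv : v ∈ S0 ζ)
    (hva : v ∈ C a) : (a = .n false ∧ v = be) ∨ ∃ j : Fin 5, a = .v false j ∧ v = bv ζ j := by
  rcases mem_S0.1 hv with rfl | ⟨j, hj, rfl⟩
  · left
    refine ⟨?_, rfl⟩
    by_contra h
    exact (Set.disjoint_left.1 (D.disj a _ ha isBr_n h)) hva D.mn
  · right
    refine ⟨⟨j, hj⟩, ?_, rfl⟩
    by_contra h
    exact (Set.disjoint_left.1 (D.disj a _ ha (isBr_v _) h)) hva (D.mv ⟨j, hj⟩)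

/-- the divisor of the product of all the branch functions -/
theorem Cla.divPQ (D : Cla ζ C Fn) : Div 3 (Sall C) (fun w => PF Fn w * QF Fn w) := by
  have hd := D.disj
  have d1 := D.div (.v false 1) (Or.inr trivial)
  have d2 := D.div (.v false 2) (Or.inr trivial)
  have dn := D.div (.n false) (Or.inr trivial)
  have e1 := D.div (.b false 1) (Or.inr isBr_b1)
  have e2 := D.div (.b false 2) (Or.inr isBr_b2)
  have d3 := D.div (.v false 3) (Or.inr trivial)
  have d4 := D.div (.v false 4) (Or.inr trivial)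
  have d0 := D.div (.v false 0) (Or.inr trivial)
  have e4 := D.div (.b false 4) (Or.inr isBr_b4)
  have p1 := Div.mul d1 d2 (hd _ _ trivial trivial (by decide))
  have p2 := Div.mul p1 dn (Set.disjoint_union_left.2
    ⟨hd _ _ trivial trivial (by decide), hd _ _ trivial trivial (by decide)⟩)
  have p3 := Div.mul p2 e1 (Set.disjoint_union_left.2 ⟨Set.disjoint_union_left.2
    ⟨hd _ _ trivial isBr_b1 (by decide), hd _ _ trivial isBr_b1 (by decide)⟩,
    hd _ _ trivial isBr_b1 (by decide)⟩)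
  have p4 := Div.mul p3 e2 (Set.disjoint_union_left.2 ⟨Set.disjoint_union_left.2
    ⟨Set.disjoint_union_left.2
    ⟨hd _ _ trivial isBr_b2 (by decide), hd _ _ trivial isBr_b2 (by decide)⟩,
    hd _ _ trivial isBr_b2 (by decide)⟩, hd _ _ isBr_b1 isBr_b2 (by decide)⟩)
  have q1 := Div.mul d3 d4 (hd _ _ trivial trivial (by decide))
  have q2 := Div.mul q1 d0 (Set.disjoint_union_left.2
    ⟨hd _ _ trivial trivial (by decide), hd _ _ trivial trivial (by decide)⟩)
  have q3 := Div.mul q2 e4 (Set.disjoint_union_left.2 ⟨Set.disjoint_union_left.2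
    ⟨hd _ _ trivial isBr_b4 (by decide), hd _ _ trivial isBr_b4 (by decide)⟩,
    hd _ _ trivial isBr_b4 (by decide)⟩)
  have dd : ∀ a, isBr a → (a = .v false 1 ∨ a = .v false 2 ∨ a = .n false ∨ a = .b false 1 ∨
      a = .b false 2) → ∀ b, isBr b → (b = .v false 3 ∨ b = .v false 4 ∨ b = .v false 0 ∨
      b = .b false 4) → Disjoint (C a) (C b) := by
    intro a ha ha' b hb hb'
    refine hd a b ha hb ?_
    rcases ha' with rfl | rfl | rfl | rfl | rfl <;> rcases hb' with rfl | rfl | rfl | rfl <;>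
      decide
  have key : ∀ a, isBr a → (a = .v false 1 ∨ a = .v false 2 ∨ a = .n false ∨ a = .b false 1 ∨
      a = .b false 2) → Disjoint (C a)
        (((C (.v false 3) ∪ C (.v false 4)) ∪ C (.v false 0)) ∪ C (.b false 4)) := by
    intro a ha ha'
    refine Set.disjoint_union_right.2 ⟨Set.disjoint_union_right.2 ⟨Set.disjoint_union_right.2
      ⟨?_, ?_⟩, ?_⟩, ?_⟩
    · exact dd a ha ha' _ trivial (Or.inl rfl)
    · exact dd a ha ha' _ trivial (Or.inr (Or.inl rfl))
    · exact dd a ha ha' _ trivial (Or.inr (Or.inr (Or.inl rfl)))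
    · exact dd a ha ha' _ isBr_b4 (Or.inr (Or.inr (Or.inr rfl)))
  have r := Div.mul p4 q3 (Set.disjoint_union_left.2 ⟨Set.disjoint_union_left.2
    ⟨Set.disjoint_union_left.2 ⟨Set.disjoint_union_left.2
    ⟨key _ trivial (Or.inl rfl), key _ trivial (Or.inr (Or.inl rfl))⟩,
    key _ trivial (Or.inr (Or.inr (Or.inl rfl)))⟩,
    key _ isBr_b1 (Or.inr (Or.inr (Or.inr (Or.inl rfl))))⟩,
    key _ isBr_b2 (Or.inr (Or.inr (Or.inr (Or.inr rfl))))⟩)
  have hS : Sall C = ((((C (.v false 1) ∪ C (.v false 2)) ∪ C (.n false)) ∪ C (.b false 1)) ∪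
      C (.b false 2)) ∪ (((C (.v false 3) ∪ C (.v false 4)) ∪ C (.v false 0)) ∪
      C (.b false 4)) := by
    ext v
    simp only [Sall, Set.mem_union, Set.mem_ofPred_eq]
    constructor
    · rintro ⟨a, ha, hv⟩
      cases a with
      | o => exact ha.elim
      | n i =>
        cases i with
        | false => tauto
        | true => exact ha.elim
      | v i j =>
        cases i with
        | false =>
          fin_cases j
          · exact Or.inr (Or.inl (Or.inr hv))
          · exact Or.inl (Or.inl (Or.inl (Or.inl (Or.inl hv))))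
          · exact Or.inl (Or.inl (Or.inl (Or.inl (Or.inr hv))))
          · exact Or.inr (Or.inl (Or.inl (Or.inl hv)))
          · exact Or.inr (Or.inl (Or.inl (Or.inr hv)))
        | true => exact ha.elim
      | b i k =>
        cases i with
        | false =>
          rcases ha with rfl | rfl | rfl
          · exact Or.inl (Or.inl (Or.inr hv))
          · exact Or.inl (Or.inr hv)
          · exact Or.inr (Or.inr hv)
        | true => exact ha.elim
    · rintro (((((h | h) | h) | h) | h) | (((h | h) | h) | h))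
      · exact ⟨_, isBr_v 1, h⟩
      · exact ⟨_, isBr_v 2, h⟩
      · exact ⟨_, isBr_n, h⟩
      · exact ⟨_, isBr_b1, h⟩
      · exact ⟨_, isBr_b2, h⟩
      · exact ⟨_, isBr_v 3, h⟩
      · exact ⟨_, isBr_v 4, h⟩
      · exact ⟨_, isBr_v 0, h⟩
      · exact ⟨_, isBr_b4, h⟩
  rw [hS]
  exact r

end Crest.Agent.R272.LbSq_936
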