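import Mathlib
import Crest.Agent.R272.LbAd4_936
import Crest.Agent.R272.GrDefs_559

/-!
# LB-ADAPT, part 5 (row 272, lower bound for S0415; helper936)

From `Cla` (one root function per class) to `AD` and to `Gm` for 559's `GData.Y 0`.
-/

set_option autoImplicit false
set_option linter.unusedSectionVars false

open Set Filter Topology
open Crest.Agent.R272.EBase_641 Crest.Agent.R272.Wei_392
open Crest.Agent.R272.Cls_620 (Lb)
open scoped ComplexConjugate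

noncomputable section

namespace Crest.Agent.R272.LbSq_936

variable {ζ : ℂ} {C : Lb → Set (V1 3)} {Fn : Lb → E3 → ℂ}

/-- division of one root function by its base factor -/
theorem Cla.split (D : Cla ζ C Fn) {a : Lb} (ha : a = .o ∨ isBr a) {b : V1 3} (hb : b ∈ C a) :
    ∃ q : E3 → ℂ, ContinuousOn q (Metric.ball 0 1) ∧
      (∀ w : E3, ‖w‖ < 1 → q w = 0 → ∃ v ∈ C a, v ≠ b ∧ lin v w = 0) ∧
      ∀ w : E3, ‖w‖ < 1 → Fn a w = lin b w * q w := by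
  classical
  obtain ⟨q, hq, hF⟩ := LbSq_936.Div.split (D.div a ha) {b}
    (by intro v hv; rw [Finset.mem_singleton] at hv; rw [hv]; exact hb)
    (by intro v hv; rw [Finset.mem_singleton] at hv; rw [hv]; exact D.ne a ha b hb)
  refine ⟨q, hq.hol.continuousOn, fun w hw h0 => ?_, fun w hw => ?_⟩
  · obtain ⟨v, hv, hv0⟩ := (hq.eq_zero_iff (mem_Ball.2 hw)).1 h0
    refine ⟨v, hv.1, ?_, hv0⟩
    rintro rfl
    exact hv.2 (by simp)
  · rw [hF w (mem_Ball.2 hw), Finset.prod_singleton]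

/-- all the factors of the adapter -/
structure Fac (ζ : ℂ) (C : Lb → Set (V1 3)) (Fn : Lb → E3 → ℂ) (a0 b0 qN qD : E3 → ℂ) : Prop where
  ca0 : ContinuousOn a0 (Metric.ball 0 1)
  cb0 : ContinuousOn b0 (Metric.ball 0 1)
  cqN : ContinuousOn qN (Metric.ball 0 1)
  cqD : ContinuousOn qD (Metric.ball 0 1)
  a0n : ∀ w : E3, ‖w‖ < 1 → w 0 = 0 → w 1 = 0 → a0 w ≠ 0
  b0n : ∀ w : E3, ‖w‖ < 1 → w 0 = 0 → w 1 = 0 → b0 w ≠ 0
  e0 : ∀ w : E3, ‖w‖ < 1 → Fn .o w = a0 w * w 0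
  e1 : ∀ w : E3, ‖w‖ < 1 → Fn (.v false 0) w = b0 w * (w 1 - 1 * w 0)
  eN : ∀ w : E3, ‖w‖ < 1 → PF Fn w = (∏ v ∈ SNf ζ, lin v w) * qN w
  eD : ∀ w : E3, ‖w‖ < 1 → QF Fn w = (∏ v ∈ SDf ζ, lin v w) * qD w
  zN : ∀ w : E3, ‖w‖ < 1 → qN w = 0 → ∃ v ∈ Sall C, v ∉ S0 ζ ∧ lin v w = 0
  zD : ∀ w : E3, ‖w‖ < 1 → qD w = 0 → ∃ v ∈ Sall C, v ∉ S0 ζ ∧ lin v w = 0

theorem lin_bo (w : E3) : lin bo w = w 0 := by
  unfold lin bo
  rw [PiLp.inner_apply, Fin.sum_univ_three]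
  simp

theorem lin_bv0 (w : E3) : lin (bv ζ 0) w = w 1 - w 0 := by
  unfold lin bv
  rw [PiLp.inner_apply, Fin.sum_univ_three]
  simp
  ring

theorem Cla.fac (D : Cla ζ C Fn) : ∃ a0 b0 qN qD : E3 → ℂ, Fac ζ C Fn a0 b0 qN qD := by
  obtain ⟨a0, ca, za, ea⟩ := D.split (Or.inl rfl) D.mo
  obtain ⟨b0, cb, zb, eb⟩ := D.split (Or.inr (isBr_v 0)) (D.mv 0)
  obtain ⟨q1, c1, z1, e1⟩ := D.split (Or.inr (isBr_v 1)) (D.mv 1)
  obtain ⟨q2, c2, z2, e2⟩ := D.split (Or.inr (isBr_v 2)) (D.mv 2)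
  obtain ⟨q3, c3, z3, e3⟩ := D.split (Or.inr (isBr_v 3)) (D.mv 3)
  obtain ⟨q4, c4, z4, e4⟩ := D.split (Or.inr (isBr_v 4)) (D.mv 4)
  obtain ⟨qn, cn, zn, en⟩ := D.split (Or.inr isBr_n) D.mn
  have hsub : Metric.ball (0 : E3) 1 = Ball 3 := rfl
  have cB1 := (D.div _ (Or.inr isBr_b1)).hol.continuousOn
  have cB2 := (D.div _ (Or.inr isBr_b2)).hol.continuousOn
  have cB4 := (D.div _ (Or.inr isBr_b4)).hol.continuousOn
  -- bridges: zeros
  have zB : ∀ k : Fin 5, isBr (.b false k) → ∀ w : E3, ‖w‖ < 1 → Fn (.b false k) w = 0 →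
      ∃ v ∈ Sall C, v ∉ S0 ζ ∧ lin v w = 0 := by
    intro k hk w hw h0
    obtain ⟨v, hv, hv0⟩ := ((D.div _ (Or.inr hk)).eq_zero_iff (mem_Ball.2 hw)).1 h0
    refine ⟨v, ⟨_, hk, hv⟩, fun h => ?_, hv0⟩
    rcases D.base_unique hk h hv with ⟨h1, -⟩ | ⟨j, h1, -⟩
    · cases h1
    · cases h1
  -- the quotients: zeros
  have zq : ∀ (a : Lb) (b : V1 3), isBr a → b ∈ S0 ζ → b ∈ C a → ∀ q : E3 → ℂ,
      (∀ w : E3, ‖w‖ < 1 → q w = 0 → ∃ v ∈ C a, v ≠ b ∧ lin v w = 0) →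
      ∀ w : E3, ‖w‖ < 1 → q w = 0 → ∃ v ∈ Sall C, v ∉ S0 ζ ∧ lin v w = 0 := by
    intro a b ha hb hba q hq w hw h0
    obtain ⟨v, hv, hvb, hv0⟩ := hq w hw h0
    refine ⟨v, ⟨a, ha, hv⟩, fun h => hvb ?_, hv0⟩
    rcases D.base_unique ha h hv with ⟨h1, h2⟩ | ⟨j, h1, h2⟩
    · rcases D.base_unique ha hb hba with ⟨-, h4⟩ | ⟨j', h3, -⟩
      · rw [h2, h4]
      · rw [h1] at h3; cases h3
    · rcases D.base_unique ha hb hba with ⟨h3, -⟩ | ⟨j', h3, h4⟩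
      · rw [h1] at h3; cases h3
      · rw [h1] at h3
        have : j = j' := by injection h3
        rw [h2, h4, this]
  have hm : ∀ j : ℕ, j < 5 → bv ζ j ∈ S0 ζ := fun j hj => mem_S0.2 (Or.inr ⟨j, hj, rfl⟩)
  have hme : be ∈ S0 ζ := mem_S0.2 (Or.inl rfl)
  refine ⟨a0, b0, fun w => q1 w * q2 w * qn w * Fn (.b false 1) w * Fn (.b false 2) w,
    fun w => q3 w * q4 w * b0 w * Fn (.b false 4) w, ca, cb,
    ((((c1.mul c2).mul cn).mul cB1).mul cB2), (((c3.mul c4).mul cb).mul cB4), ?_, ?_, ?_, ?_,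
    ?_, ?_, ?_, ?_⟩
  · intro w hw h0 h1 hz
    obtain ⟨v, hv, hvb, hv0⟩ := za w hw hz
    exact hvb (D.uo w hw h0 h1 v hv hv0)
  · intro w hw h0 h1 hz
    obtain ⟨v, hv, hvb, hv0⟩ := zb w hw hz
    exact hvb (D.uv w hw h0 h1 v hv hv0)
  · intro w hw
    rw [ea w hw, lin_bo]
    ring
  · intro w hw
    rw [eb w hw]
    show lin (bv ζ 0) w * b0 w = _
    rw [lin_bv0]
    ring
  · intro w hw
    show Fn (.v false 1) w * Fn (.v false 2) w * Fn (.n false) w * Fn (.b false 1) w *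
      Fn (.b false 2) w = _
    rw [prod_SNf D.rz, e1 w hw, e2 w hw, en w hw]
    show lin (bv ζ 1) w * q1 w * (lin (bv ζ 2) w * q2 w) * _ * _ * _ = _
    ring
  · intro w hw
    show Fn (.v false 3) w * Fn (.v false 4) w * Fn (.v false 0) w * Fn (.b false 4) w = _
    rw [prod_SDf D.rz, e3 w hw, e4 w hw, eb w hw]
    show lin (bv ζ 3) w * q3 w * (lin (bv ζ 4) w * q4 w) * (lin (bv ζ 0) w * b0 w) * _ = _
    ring
  · intro w hw h0
    rcases mul_eq_zero.1 h0 with h0 | h0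
    · rcases mul_eq_zero.1 h0 with h0 | h0
      · rcases mul_eq_zero.1 h0 with h0 | h0
        · rcases mul_eq_zero.1 h0 with h0 | h0
          · exact zq _ _ (isBr_v 1) (hm 1 (by norm_num)) (D.mv 1) q1 z1 w hw h0
          · exact zq _ _ (isBr_v 2) (hm 2 (by norm_num)) (D.mv 2) q2 z2 w hw h0
        · exact zq _ _ isBr_n hme D.mn qn zn w hw h0
      · exact zB 1 isBr_b1 w hw h0
    · exact zB 2 isBr_b2 w hw h0
  · intro w hw h0
    rcases mul_eq_zero.1 h0 with h0 | h0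
    · rcases mul_eq_zero.1 h0 with h0 | h0
      · rcases mul_eq_zero.1 h0 with h0 | h0
        · exact zq _ _ (isBr_v 3) (hm 3 (by norm_num)) (D.mv 3) q3 z3 w hw h0
        · exact zq _ _ (isBr_v 4) (hm 4 (by norm_num)) (D.mv 4) q4 z4 w hw h0
      · exact zq _ _ (isBr_v 0) (hm 0 (by norm_num)) (D.mv 0) b0 zb w hw h0
    · exact zB 4 isBr_b4 w hw h0

theorem Fac.ad {a0 b0 qN qD : E3 → ℂ} (hζ : RZ ζ) (H : Fac ζ C Fn a0 b0 qN qD) :
    Gm.AD (Sall C) (fun w => PF Fn w * QF Fn w) (S0 ζ) (SNf ζ) (SDf ζ) qN qD where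
  split := fun w hw => by
    show PF Fn w * QF Fn w = _
    rw [H.eN w hw, H.eD w hw]
  subN := by
    intro v hv
    rcases mem_SNf.1 hv with rfl | rfl | rfl
    · exact mem_S0.2 (Or.inr ⟨1, by norm_num, rfl⟩)
    · exact mem_S0.2 (Or.inr ⟨2, by norm_num, rfl⟩)
    · exact mem_S0.2 (Or.inl rfl)
  subD := by
    intro v hv
    rcases mem_SDf.1 hv with rfl | rfl | rfl
    · exact mem_S0.2 (Or.inr ⟨3, by norm_num, rfl⟩)
    · exact mem_S0.2 (Or.inr ⟨4, by norm_num, rfl⟩)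
    · exact mem_S0.2 (Or.inr ⟨0, by norm_num, rfl⟩)
  cardN := card_SNf hζ
  cardD := card_SDf hζ
  card0 := card_S0 hζ
  zN := H.zN
  zD := H.zD

/-- FData from `Cla` and the far/bridge dichotomy. -/
theorem Cla.fdata (D : Cla ζ C Fn) {ι : Type*} (V : ι → V1 3)
    (hrest : ∀ v ∈ Sall C, v ∉ S0 ζ → (∃ i, V i = v) ∨ IsBr ζ 4 v ∨ IsBr ζ 1 v ∨ IsBr ζ 2 v) :
    FData (Sall C) (fun w => PF Fn w * QF Fn w) (S0 ζ) (bv ζ 1) (bv ζ 2) V (-3 * ζ) (27 / 10) 3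
      (27 / 37) (3 / 4) :=
  LbSq_936.fdata D.rz D.divPQ (fun _ hv => D.base_mem hv) V hrest

/-! ### 559's model -/

open Crest.Agent.R272.Gr_559 Crest.Agent.R275.Geo Crest.Agent.R273.Fam_835

variable {N : Type} [TopologicalSpace N] {Fm : Fam 3 N}

theorem pco_P1 : PCo (P := P1) P1.n P1.d := pco_onePoint

/-- **the graph model of colour 0 of 559 is a `Gm`** -/
theorem gm_Y (_D : Cla ζ C Fn) {a0 b0 qN qD : E3 → ℂ} (H : Fac ζ C Fn a0 b0 qN qD)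
    (GD : GData Fm) (zN : N → E3) (hz : Continuous zN) (hz1 : ∀ p, ‖zN p‖ < 1)
    (h0 : ∀ p, GD.f0 p = Fn .o (zN p)) (hx : ∀ p, GD.x 0 p = Fn (.v false 0) (zN p))
    (hP : ∀ p, GD.P 0 p = PF Fn (zN p)) (hQ : ∀ p, GD.Q 0 p = QF Fn (zN p))
    (hcx : Continuous (GD.x 0)) (hc0 : Continuous GD.f0) (hcP : Continuous (GD.P 0))
    (hcQ : Continuous (GD.Q 0)) :
    Gm (GD.Y 0) P1.n P1.d (fun y => zN y.1.1) (fun y => y.1.2.1) (fun y => y.1.2.2) 1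
      a0 b0 qN qD (SNf ζ) (SDf ζ) := by
  -- projectively continuous relations are closed
  have clos : ∀ (A B : N × P1 × P1 → ℂ) (κ : N × P1 × P1 → P1) (m : ℕ), Continuous A →
      Continuous B → Continuous κ →
      IsClosed {p | A p * (P1.d (κ p)) ^ m = B p * (P1.n (κ p)) ^ m} := by
    intro A B κ m hA hB hκ
    rw [← closure_subset_iff_isClosed]
    intro p hp
    obtain ⟨U, hU, l, h1, h2, h3⟩ := pco_P1 (κ p)
    have hn : ContinuousAt (fun p => l (κ p) * P1.n (κ p)) p :=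
      ContinuousAt.comp (f := κ) (h1.continuousAt hU) hκ.continuousAt
    have hd : ContinuousAt (fun p => l (κ p) * P1.d (κ p)) p :=
      ContinuousAt.comp (f := κ) (h2.continuousAt hU) hκ.continuousAt
    have hΦ : ContinuousAt (fun p => A p * (l (κ p) * P1.d (κ p)) ^ m -
        B p * (l (κ p) * P1.n (κ p)) ^ m) p :=
      (hA.continuousAt.mul (hd.pow m)).sub (hB.continuousAt.mul (hn.pow m))
    have h4 : A p * (l (κ p) * P1.d (κ p)) ^ m - B p * (l (κ p) * P1.n (κ p)) ^ m ∈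
        closure ({0} : Set ℂ) :=
      hΦ.continuousWithinAt.mem_closure hp (by
        intro q hq
        have hq' : A q * (P1.d (κ q)) ^ m = B q * (P1.n (κ q)) ^ m := hq
        show A q * (l (κ q) * P1.d (κ q)) ^ m - B q * (l (κ q) * P1.n (κ q)) ^ m = 0
        rw [mul_pow, mul_pow]
        linear_combination (l (κ q)) ^ m * hq')
    rw [closure_singleton] at h4
    have h5 : A p * (l (κ p) * P1.d (κ p)) ^ m - B p * (l (κ p) * P1.n (κ p)) ^ m = 0 := h4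
    have hl : l (κ p) ^ m ≠ 0 := pow_ne_zero _ (h3 _ (mem_of_mem_nhds hU)).1
    show A p * (P1.d (κ p)) ^ m = B p * (P1.n (κ p)) ^ m
    apply mul_left_cancel₀ hl
    rw [mul_pow, mul_pow] at h5
    linear_combination h5
  have hY1 : GD.Y 0 ⊆ {p | GD.x 0 p.1 * (P1.d p.2.1) ^ 1 = GD.f0 p.1 * (P1.n p.2.1) ^ 1} := by
    refine closure_minimal ?_ (clos (fun p => GD.x 0 p.1) (fun p => GD.f0 p.1)
      (fun p => p.2.1) 1 (hcx.comp continuous_fst) (hc0.comp continuous_fst) (by fun_prop))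
    rintro p ⟨-, h1, -⟩
    show GD.x 0 p.1 * (P1.d p.2.1) ^ 1 = GD.f0 p.1 * (P1.n p.2.1) ^ 1
    rw [pow_one, pow_one]
    exact h1
  have hY2 : GD.Y 0 ⊆ {p | GD.P 0 p.1 * (P1.d p.2.2) ^ 2 = GD.Q 0 p.1 * (P1.n p.2.2) ^ 2} := by
    refine closure_minimal ?_ (clos (fun p => GD.P 0 p.1) (fun p => GD.Q 0 p.1)
      (fun p => p.2.2) 2 (hcP.comp continuous_fst) (hcQ.comp continuous_fst) (by fun_prop))
    rintro p ⟨-, -, h2⟩
    show GD.P 0 p.1 * (P1.d p.2.2) ^ 2 = GD.Q 0 p.1 * (P1.n p.2.2) ^ 2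
    linear_combination -h2
  refine ⟨pco_P1, by fun_prop, fun y => hz1 _, by fun_prop, by fun_prop, H.ca0, H.cb0, H.cqN,
    H.cqD, H.a0n, H.b0n, ?_, ?_, ?_⟩
  · intro y
    have h1 : GD.x 0 y.1.1 * (P1.d y.1.2.1) ^ 1 = GD.f0 y.1.1 * (P1.n y.1.2.1) ^ 1 := hY1 y.2
    rw [hx, h0, H.e0 _ (hz1 _), H.e1 _ (hz1 _)] at h1
    linear_combination h1
  · intro y
    have h1 : GD.P 0 y.1.1 * (P1.d y.1.2.2) ^ 2 = GD.Q 0 y.1.1 * (P1.n y.1.2.2) ^ 2 := hY2 y.2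
    rw [hP, hQ, H.eN _ (hz1 _), H.eD _ (hz1 _)] at h1
    linear_combination -h1
  · intro y hy0 hy1
    rw [closure_subtype]
    have hy : y.1 ∈ closure (GD.G 0) := y.2
    rw [mem_closure_iff_nhds] at hy ⊢
    intro U hU
    -- near `y` the factors do not vanish
    have hB : Metric.ball (0 : E3) 1 ∈ 𝓝 (zN y.1.1) :=
      Metric.isOpen_ball.mem_nhds (by simpa using hz1 y.1.1)
    have hzc : Continuous fun p : N × P1 × P1 => zN p.1 := by fun_prop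
    have hca : ContinuousAt (fun p : N × P1 × P1 => a0 (zN p.1)) y.1 :=
      ContinuousAt.comp (f := fun p : N × P1 × P1 => zN p.1) (H.ca0.continuousAt hB)
        hzc.continuousAt
    have hcb : ContinuousAt (fun p : N × P1 × P1 => b0 (zN p.1)) y.1 :=
      ContinuousAt.comp (f := fun p : N × P1 × P1 => zN p.1) (H.cb0.continuousAt hB)
        hzc.continuousAt
    have hea := hca.eventually_ne (H.a0n _ (hz1 _) hy0 hy1)
    have heb := hcb.eventually_ne (H.b0n _ (hz1 _) hy0 hy1)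
    obtain ⟨p, hpU, hpG⟩ := hy _ (inter_mem hU (inter_mem hea heb))
    refine ⟨p, hpU.1, ⟨p, subset_closure hpG⟩, ?_, rfl⟩
    rintro ⟨h2, h3⟩
    apply hpG.1
    rw [h0, hx, H.e0 _ (hz1 _), H.e1 _ (hz1 _)]
    have h2' : zN p.1 0 = 0 := h2
    have h3' : zN p.1 1 = 0 := h3
    rw [h2', h3']
    simp

end Crest.Agent.R272.LbSq_936
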