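import Mathlib
import Crest.Agent.R272.LbAd5_936
import Crest.Agent.R272.Per2_939

/-!
# LB-ADAPT, part 6 (row 272, lower bound for S0415; helper936)

The degree of `θ'` on the lift of the segment between the slopes `ζ^-2` and `ζ^-3`.
-/

set_option autoImplicit false
set_option linter.unusedSectionVars false

open Set Filter Topology
open Crest.Agent.R272.EBase_641 Crest.Agent.R272.LbCap_382 Crest.Agent.R272.LbClu_382
  Crest.Agent.R272.Wei_392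
open Crest.Agent.R272.Per_939 (HasDeg)
open scoped ComplexConjugate unitInterval

noncomputable section

namespace Crest.Agent.R272.LbSq_936

/-! ### the loop `γ · (ιγ)⁻¹` -/

theorem hasDeg_loop {Y : Type*} [TopologicalSpace Y] {a b : Y} (γ γ' : Path a b)
    (θ : Y → AddCircle (1 : ℝ)) {sg : ℝ} {T : I → ℝ} (hT : Continuous T) (h0 : T 0 = 0)
    (h1 : T 1 = 1) (hsg : sg = 1 ∨ sg = -1)
    (hγ : ∀ τ, θ (γ τ) = ((sg * T τ : ℝ) : AddCircle (1 : ℝ)))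
    (hγ' : ∀ τ, θ (γ' τ) = ((-(sg * T τ) : ℝ) : AddCircle (1 : ℝ))) :
    HasDeg (fun τ => θ ((γ.trans γ'.symm) τ)) (2 * sg) := by
  classical
  -- the lift
  let L : I → ℝ := fun τ => if (τ : ℝ) ≤ 1 / 2 then sg * T (Set.projIcc 0 1 zero_le_one (2 * τ))
    else 2 * sg - sg * T (Set.projIcc 0 1 zero_le_one (2 - 2 * τ))
  have hp : Continuous (Set.projIcc (0:ℝ) 1 zero_le_one) := continuous_projIcc
  have hL : Continuous L := by
    refine Continuous.if_le ?_ ?_ (by fun_prop) (by fun_prop) ?_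
    · exact continuous_const.mul (hT.comp (hp.comp (by fun_prop)))
    · exact continuous_const.sub (continuous_const.mul (hT.comp (hp.comp (by fun_prop))))
    · intro τ hτ
      rw [hτ]
      have e1 : Set.projIcc (0:ℝ) 1 zero_le_one (2 * (1 / 2)) = 1 :=
        Set.projIcc_of_right_le _ (by norm_num)
      have e2 : Set.projIcc (0:ℝ) 1 zero_le_one (2 - 2 * (1 / 2)) = 1 :=
        Set.projIcc_of_right_le _ (by norm_num)
      rw [e1, e2, h1]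
      ring
  refine ⟨L, hL, fun τ => ?_, ?_⟩
  · show ((L τ : ℝ) : AddCircle (1 : ℝ)) = θ ((γ.trans γ'.symm) τ)
    rw [Path.trans_apply]
    by_cases h : (τ : ℝ) ≤ 1 / 2
    · simp only [L, h, if_true, dif_pos]
      rw [hγ]
      congr 3
      apply Subtype.ext
      rw [Set.projIcc_of_mem zero_le_one ⟨by have := τ.2.1; linarith, by linarith⟩]
    · simp only [L, h, if_false, dif_neg, not_false_eq_true]
      show _ = θ (γ' (unitInterval.symm _))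
      rw [hγ']
      have e : (unitInterval.symm ⟨2 * (τ : ℝ) - 1, by
          constructor
          · push Not at h; linarith
          · have := τ.2.2; linarith⟩ : I) = Set.projIcc 0 1 zero_le_one (2 - 2 * (τ : ℝ)) := by
        apply Subtype.ext
        rw [Set.projIcc_of_mem zero_le_one ⟨by have := τ.2.2; linarith,
          by push Not at h; linarith⟩]
        show 1 - (2 * (τ : ℝ) - 1) = 2 - 2 * τ
        ring
      rw [← e]
      have h2 : ((2 * sg : ℝ) : AddCircle (1 : ℝ)) = 0 := by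
        rw [AddCircle.coe_eq_zero_iff]
        rcases hsg with rfl | rfl
        · exact ⟨2, by simp⟩
        · exact ⟨-2, by simp⟩
      rw [sub_eq_add_neg, AddCircle.coe_add, h2, zero_add]
  · have e0 : ((0 : I) : ℝ) ≤ 1 / 2 := by norm_num
    have e1 : ¬ ((1 : I) : ℝ) ≤ 1 / 2 := by norm_num
    simp only [L, e0, e1, if_true, if_false]
    have p0 : Set.projIcc (0:ℝ) 1 zero_le_one (2 * ((0 : I) : ℝ)) = 0 := by
      rw [Set.Icc.coe_zero, mul_zero]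
      exact Set.projIcc_of_le_left _ le_rfl
    have p1 : Set.projIcc (0:ℝ) 1 zero_le_one (2 - 2 * ((1 : I) : ℝ)) = 0 := by
      rw [Set.Icc.coe_one]
      exact Set.projIcc_of_le_left _ (by norm_num)
    rw [p0, p1, h0]
    ring

/-! ### the segment -/

variable {ζ : ℂ}

/-- the segment from `ζ^-2` to `ζ^-3` -/
def sgm (ζ : ℂ) (x : ℝ) : ℂ := (1 - x) * (starRingEnd ℂ) ζ ^ 2 + x * (starRingEnd ℂ) ζ ^ 3

theorem sgm_sq' (h : RZ ζ) (x : ℝ) : ‖sgm ζ x - -3 * ζ‖ ^ 2 =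
    (10 - 3 * gr) + (7 * gr - 6) * x + (3 - gr) * x ^ 2 := by
  have hc := h.conj
  have e5 : ζ ^ 5 = 1 := h.pow5
  have e2 : (starRingEnd ℂ) ζ ^ 2 = ζ ^ 3 := by
    rw [hc]
    calc (ζ ^ 4) ^ 2 = ζ ^ 5 * ζ ^ 3 := by ring
      _ = _ := by rw [e5, one_mul]
  have e3 : (starRingEnd ℂ) ζ ^ 3 = ζ ^ 2 := by
    rw [hc]
    calc (ζ ^ 4) ^ 3 = ζ ^ 5 * ζ ^ 5 * ζ ^ 2 := by ring
      _ = _ := by rw [e5, one_mul, one_mul]
  have hA : ‖ζ ^ 3 - -3 * ζ‖ ^ 2 = 10 - 3 * gr := by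
    have := h.dist_bv 2 (by norm_num)
    rw [e2] at this
    rw [this]
    simp only [or_true, if_true]
    ring
  have hB : ‖ζ ^ 2 - ζ ^ 3‖ ^ 2 = 3 - gr := by
    have e : ζ ^ 2 - ζ ^ 3 = ζ ^ 2 * (1 - ζ) := by ring
    rw [e, norm_mul, norm_pow, h.norm, one_pow, one_mul]
    have e' : (1 : ℂ) - ζ = 1 + -ζ := by ring
    rw [e', norm_sq_add, norm_neg, h.norm, norm_one, map_neg, one_mul, Complex.neg_re,
      Complex.conj_re, h.re1]
    ring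
  have hX : ((ζ ^ 3 - -3 * ζ) * (starRingEnd ℂ) (ζ ^ 2 - ζ ^ 3)).re = (7 * gr - 6) / 2 := by
    have e6 : (starRingEnd ℂ) (ζ ^ 2 - ζ ^ 3) = ζ ^ 3 - ζ ^ 2 := by
      rw [map_sub, map_pow, map_pow, e2, e3]
    rw [e6]
    have e7 : (ζ ^ 3 - -3 * ζ) * (ζ ^ 3 - ζ ^ 2) = ζ - 1 + ((3 : ℝ) : ℂ) * (ζ ^ 4 - ζ ^ 3) := by
      push_cast
      linear_combination (ζ - 1) * e5
    have e8 : (ζ ^ 4).re = (gr - 1) / 2 := by rw [← hc, Complex.conj_re, h.re1]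
    rw [e7, Complex.add_re, Complex.sub_re, Complex.re_ofReal_mul, Complex.sub_re, h.re1, e8,
      h.re3, Complex.one_re]
    ring
  have e : sgm ζ x - -3 * ζ = (ζ ^ 3 - -3 * ζ) + (x : ℂ) * (ζ ^ 2 - ζ ^ 3) := by
    unfold sgm
    rw [e2, e3]
    ring
  rw [e, norm_sq_add, norm_mul, Complex.norm_real, mul_pow, Real.norm_eq_abs, sq_abs, map_mul,
    Complex.conj_ofReal, hA, hB]
  have e9 : (ζ ^ 3 - -3 * ζ) * ((x : ℂ) * (starRingEnd ℂ) (ζ ^ 2 - ζ ^ 3)) =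
      (x : ℂ) * ((ζ ^ 3 - -3 * ζ) * (starRingEnd ℂ) (ζ ^ 2 - ζ ^ 3)) := by ring
  rw [e9, Complex.re_ofReal_mul, hX]
  ring

theorem sgm_mono (h : RZ ζ) {x y : ℝ} (hx : 0 ≤ x) (hxy : x ≤ y) :
    ‖sgm ζ x - -3 * ζ‖ ≤ ‖sgm ζ y - -3 * ζ‖ := by
  apply le_of_sq_le_sq _ (norm_nonneg _)
  rw [sgm_sq' h, sgm_sq' h]
  have h1 := gr_lo
  have h2 := gr_hi
  have h3 : 0 ≤ (7 * gr - 6) * (y - x) := mul_nonneg (by linarith) (by linarith)
  have h4 : 0 ≤ (3 - gr) * (y ^ 2 - x ^ 2) := mul_nonneg (by linarith) (by nlinarith)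
  linarith

theorem sgm_zero (h : RZ ζ) : ‖sgm ζ 0 - -3 * ζ‖ ≤ 27 / 10 := by
  apply le_of_sq_le_sq _ (by norm_num)
  rw [sgm_sq' h]
  have h1 := gr_lo
  nlinarith

theorem sgm_one (h : RZ ζ) : 3 ≤ ‖sgm ζ 1 - -3 * ζ‖ := by
  apply le_of_sq_le_sq _ (norm_nonneg _)
  rw [sgm_sq' h]
  have h1 := gr_lo
  nlinarith

theorem sgm_pre (h : RZ ζ) (m1 m2 : ℝ) :
    IsPreconnected {τ : I | m1 < ‖sgm ζ τ - -3 * ζ‖ / (1 + ‖sgm ζ τ - -3 * ζ‖) ∧
      ‖sgm ζ τ - -3 * ζ‖ / (1 + ‖sgm ζ τ - -3 * ζ‖) < m2} := by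
  have hmono : ∀ x y : ℝ, 0 ≤ x → x ≤ y →
      ‖sgm ζ x - -3 * ζ‖ / (1 + ‖sgm ζ x - -3 * ζ‖) ≤
        ‖sgm ζ y - -3 * ζ‖ / (1 + ‖sgm ζ y - -3 * ζ‖) := by
    intro x y hx hxy
    have h1 := sgm_mono h hx hxy
    rw [div_le_div_iff₀ (by positivity) (by positivity)]
    nlinarith
  rw [← IsInducing.subtypeVal.isPreconnected_image]
  have e : (Subtype.val '' {τ : I | m1 < ‖sgm ζ τ - -3 * ζ‖ / (1 + ‖sgm ζ τ - -3 * ζ‖) ∧
      ‖sgm ζ τ - -3 * ζ‖ / (1 + ‖sgm ζ τ - -3 * ζ‖) < m2}) =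
      {x : ℝ | (0 ≤ x ∧ x ≤ 1) ∧ m1 < ‖sgm ζ x - -3 * ζ‖ / (1 + ‖sgm ζ x - -3 * ζ‖) ∧
      ‖sgm ζ x - -3 * ζ‖ / (1 + ‖sgm ζ x - -3 * ζ‖) < m2} := by
    ext x
    constructor
    · rintro ⟨τ, hτ, rfl⟩
      exact ⟨τ.2, hτ⟩
    · rintro ⟨hx, hx'⟩
      exact ⟨⟨x, hx⟩, hx', rfl⟩
  rw [e]
  apply Set.OrdConnected.isPreconnected
  rw [Set.ordConnected_iff]
  rintro x hx y hy hxy w ⟨hw1, hw2⟩
  exact ⟨⟨hx.1.1.trans hw1, hw2.trans hy.1.2⟩, lt_of_lt_of_le hx.2.1 (hmono x w hx.1.1 hw1),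
    lt_of_le_of_lt (hmono w y (hx.1.1.trans hw1) hw2) hy.2.2⟩

/-! ### the degree on the graph model -/

namespace Gm

variable {P : Type*} [TopologicalSpace P] {n d : P → ℂ}
variable {Y : Type*} [TopologicalSpace Y] {z : Y → E3} {t k : Y → P}
    {e : ℂ} {a0 b0 qN qD : E3 → ℂ} {SN SD : Finset (V1 3)}

/-- over the origin, at finite slope `s`, the real slope is `|s-c|/(1+|s-c|)` -/
theorem aa_fib (G : Gm Y n d z t k e a0 b0 qN qD SN SD) (c : ℂ) {y : Y} (hy : z y = 0) {s : ℂ}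
    (hs : a0 0 * n (t y) = (s - e) * (b0 0 * d (t y))) (hd : d (t y) ≠ 0) :
    aa c n d e a0 b0 z t y = ‖s - c‖ / (1 + ‖s - c‖) := by
  have hF : F1 z y := by
    unfold F1
    rw [hy]
    exact ⟨rfl, rfl⟩
  have hb : b0 0 ≠ 0 := by
    have := G.b0n (z y) (G.zB y) hF.1 hF.2
    rwa [hy] at this
  have h0 : sg0 b0 d z t y ≠ 0 := by
    unfold sg0
    rw [hy]
    exact mul_ne_zero hb hd
  have h1 : sg1 n d e a0 b0 z t y = s * sg0 b0 d z t y := by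
    unfold sg0 sg1
    rw [hy]
    linear_combination hs
  unfold aa
  rw [if_pos hF, h1]
  have e1 : ms c (sg0 b0 d z t y) (s * sg0 b0 d z t y) =
      ms c (sg0 b0 d z t y * 1) (sg0 b0 d z t y * s) := by
    rw [mul_one, mul_comm s]
  rw [e1, ms_smul h0]
  unfold ms
  rw [norm_one, mul_one]

/-- **DEGREE TWO**: `γ`, `γ'` two lifts over the origin of the segment `[ζ^-2, ζ^-3]`, exchanged by
`κ ↦ -κ`, with the same end points. -/
theorem hasDeg_segment (G : Gm Y n d z t k e a0 b0 qN qD SN SD) {ζ : ℂ} (hζ : RZ ζ)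
    {ι : Type*} {V : ι → V1 3} {kc : ℝ} {T : C(Q0 (-3 * ζ), ℝ)}
    (hT : IsWall V kc (-3 * ζ) (27 / 10 / (1 + 27 / 10)) (3 / (1 + 3)) T)
    {θ : Y → AddCircle (1 : ℝ)}
    (hneg : ∀ y y', z y = z y' → t y = t y' →
        n (k y') * d (k y) = -(n (k y) * d (k y')) → θ y' = -θ y)
    (hdeg : ∀ α : I → Y, Continuous α → (∀ τ, z (α τ) = 0) →
        IsPreconnected {τ | (27 / 10 : ℝ) / (1 + 27 / 10) < aa (-3 * ζ) n d e a0 b0 z t (α τ) ∧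
          aa (-3 * ζ) n d e a0 b0 z t (α τ) < 3 / (1 + 3)} →
        ∃ sg' : ℝ, (sg' = 1 ∨ sg' = -1) ∧
          ∀ τ, θ (α τ) = ((sg' * T (G.pi (-3 * ζ) (α τ)) : ℝ) : AddCircle (1 : ℝ)))
    {a b : Y} (γ γ' : Path a b) (hz : ∀ τ, z (γ τ) = 0) (hz' : ∀ τ, z (γ' τ) = 0)
    (hd : ∀ τ, d (t (γ τ)) ≠ 0)
    (hs : ∀ τ, a0 0 * n (t (γ τ)) = (sgm ζ τ - e) * (b0 0 * d (t (γ τ))))
    (ht : ∀ τ, t (γ' τ) = t (γ τ))
    (hk : ∀ τ, n (k (γ' τ)) * d (k (γ τ)) = -(n (k (γ τ)) * d (k (γ' τ)))) :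
    ∃ sg' : ℝ, (sg' = 1 ∨ sg' = -1) ∧
      HasDeg (fun τ => θ ((γ.trans γ'.symm) τ)) (2 * sg') := by
  have haa : ∀ τ : I, aa (-3 * ζ) n d e a0 b0 z t (γ τ) =
      ‖sgm ζ τ - -3 * ζ‖ / (1 + ‖sgm ζ τ - -3 * ζ‖) := fun τ =>
    G.aa_fib (-3 * ζ) (hz τ) (hs τ) (hd τ)
  obtain ⟨sg', hsg, h1⟩ := hdeg γ γ.continuous hz (by
    have := sgm_pre hζ ((27 / 10 : ℝ) / (1 + 27 / 10)) (3 / (1 + 3))
    convert this using 4 with τ
    · rw [haa τ]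
    · rw [haa τ])
  refine ⟨sg', hsg, ?_⟩
  have hc : Continuous fun τ : I => T (G.pi (-3 * ζ) (γ τ)) :=
    T.continuous.comp ((G.continuous_pi _).comp γ.continuous)
  have hmono : ∀ {x y : ℝ}, 0 ≤ x → x ≤ y → x / (1 + x) ≤ y / (1 + y) := by
    intro x y hx hxy
    rw [div_le_div_iff₀ (by linarith) (by linarith)]
    nlinarith
  refine hasDeg_loop γ γ' θ hc ?_ ?_ hsg h1 ?_
  · apply hT.lo
    rw [pi_snd, haa 0]
    exact hmono (norm_nonneg _) (by simpa using sgm_zero hζ)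
  · apply hT.hi
    rw [pi_snd, haa 1]
    exact hmono (by norm_num) (by simpa using sgm_one hζ)
  · intro τ
    rw [hneg (γ τ) (γ' τ) (by rw [hz, hz']) (ht τ).symm (hk τ), h1 τ, AddCircle.coe_neg]

end Gm

end Crest.Agent.R272.LbSq_936
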