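import Mathlib
import Crest.Agent.R272.LbAd6_936
import Crest.Agent.R272.WMdef_74
import Crest.Agent.R272.GLoc2_620

/-!
# LB-ADAPT, part 7 (row 272, lower bound for S0415; helper936)

The classes of 620 with the root functions of 641 form a `Cla`.
-/

set_option autoImplicit false
set_option linter.unusedSectionVars false

open Set Filter Topology
open Crest.Agent.R272.EBase_641 Crest.Agent.R272.Wei_392
open Crest.Agent.R272.Cls_620 (Lb Z5 VV base Deep Perp Neg Meet pt at0 c0 h1 HH e0 e1 e2 e3 ei SS)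
open Crest.Agent.R272.In_68 (Z5r io)
open Crest.Agent.R272.WM_74 (sc wv)
open scoped ComplexConjugate

noncomputable section

namespace Crest.Agent.R272.LbSq_936

variable {O : Subring (Fin 2 → ℂ)} {z μ : Fin 2 → ℂ}

theorem rz_of (h : Z5r O z) : RZ (z 0) where
  pow5 := by
    have := congrFun h.toZ5.z5 0
    simpa using this
  neg := by
    rw [h.toZ5.at0', gr]
    push_cast
    ring

/-- the classes at the ball place, scaled -/
def CC (h : Z5r O z) (μ : Fin 2 → ℂ) (a : Lb) : Set (V1 3) := wv h '' VV O z μ a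

theorem CC_eq (h : Z5r O z) (a : Lb) : CC h μ a = (fun v => (sc z : ℂ) • v) '' SS h μ a := by
  ext v
  constructor
  · rintro ⟨r, hr, rfl⟩
    exact ⟨_, ⟨_, ⟨r, hr, rfl⟩, rfl⟩, rfl⟩
  · rintro ⟨_, ⟨_, ⟨r, hr, rfl⟩, rfl⟩, rfl⟩
    exact ⟨r, hr, rfl⟩

theorem wv_snd (h : Z5r O z) (r : Fin 4 → Fin 2 → ℂ) (h3 : r 3 0 = 0) : (wv h r).2 = 0 := by
  show (sc z : ℂ) * (io h r).1.2 = 0
  rw [In_68.io_fst, In_68.P0_snd]
  have : In_68.at' r 0 3 = 0 := h3
  rw [this]
  simp

theorem wv_ext (h : Z5r O z) {r : Fin 4 → Fin 2 → ℂ} {w : V1 3} (h0 : r 0 0 = w.1 0)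
    (h1 : r 1 0 = w.1 1) (h2 : r 2 0 = w.1 2) (h3 : r 3 0 = 0) (hw : w.2 = 0) : wv h r = w := by
  apply Prod.ext
  · ext i
    fin_cases i
    · exact (WM_74.wv_zero h r).trans h0
    · exact (WM_74.wv_one h r).trans h1
    · exact (WM_74.wv_two h r).trans h2
  · rw [wv_snd h r h3, hw]

theorem wv_o (h : Z5r O z) : wv h (base z .o) = bo := by
  apply wv_ext h <;> simp [base, e0, bo]

theorem wv_n (h : Z5r O z) : wv h (base z (.n false)) = be := by
  apply wv_ext h <;> simp [base, ei, e1, be]

theorem wv_v (h : Z5r O z) (j : Fin 5) : wv h (base z (.v false j)) = bv (z 0) j := by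
  apply wv_ext h <;> simp [base, ei, e1, e0, bv]

theorem base_mem (h : Z5r O z) (a : Lb) : base z a ∈ VV O z μ a :=
  ⟨Cls_620.base_mem h.toZ5 a, Cls_620.Cg.refl _ _, rfl⟩

/-- integral vectors are determined by the ball place -/
theorem wv_inj (h : Z5r O z) {v w : Fin 4 → Fin 2 → ℂ} (hv : Cls_620.Int' O v)
    (hw : Cls_620.Int' O w) (e : wv h v = wv h w) : v = w := by
  have hs : (sc z : ℂ) ≠ 0 := by exact_mod_cast (WM_74.sc_pos h).ne'
  have e1 : (io h v).1 = (io h w).1 := by
    have : (sc z : ℂ) • (io h v).1 = (sc z : ℂ) • (io h w).1 := e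
    exact smul_right_injective _ hs this
  rw [In_68.io_fst, In_68.io_fst] at e1
  have e2 := (In_68.P0 h).injective e1
  funext i
  by_contra hne
  have h3 := h.toZ5.ord.norm_ge (v i - w i) (O.sub_mem (hv i) (hw i)) (sub_ne_zero.2 hne)
  rw [Fin.prod_univ_two] at h3
  have h4 : (v i - w i) 0 = 0 := by
    have := congrFun e2 i
    show v i 0 - w i 0 = 0
    rw [sub_eq_zero]
    exact this
  rw [h4, norm_zero, zero_mul] at h3
  linarith

/-- the hyperplane of a positive vector meets the ball -/
theorem meet_self (h : Z5 O z) {v : Fin 4 → Fin 2 → ℂ}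
    (hv : 0 < (Cls_620.hh (HH z) v v 0).re) : Meet z v v := by
  classical
  set c := c0 0 (HH z) with hc
  set x := at0 (0 : Fin 2) v with hx
  have hxx : 0 < (h1 c x x).re := by
    rw [← Cls_620.hh_at0 h.frm.real]; exact hv
  have hxr := Cls_620.h1_self_real c x
  set A := (h1 c x x).re with hA
  have hA0 : (A : ℂ) ≠ 0 := by exact_mod_cast hxx.ne'
  let p0 : Fin 4 → ℂ := Pi.single 3 1
  have hp0 : h1 c p0 p0 = (c 3 : ℂ) := by
    unfold h1
    rw [Finset.sum_eq_single 3]
    · simp [p0]
    · intro b _ hb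
      simp [p0, hb]
    · simp
  have hc3 : c 3 < 0 := h.sgn.neg
  set s := h1 c x p0 with hs
  have hps : h1 c p0 x = star s := (Cls_620.h1_star c x p0).symm
  let t : ℂ := -(star s / (A : ℂ))
  have htA : t * (A : ℂ) = -star s := by
    simp only [t]
    field_simp
  have hst : star t = -(s / (A : ℂ)) := by
    simp only [t]
    rw [star_neg, star_div₀, star_star]
    congr 2
    rw [Complex.star_def, Complex.conj_ofReal]
  have hstA : star t * (A : ℂ) = -s := by
    rw [hst]
    field_simp
  have hperp : h1 c x (p0 + t • x) = 0 := by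
    rw [Cls_620.h1_add_right, Cls_620.h1_smul_right, ← hs, hxr]
    linear_combination hstA
  refine ⟨p0 + t • x, ?_, hperp, hperp⟩
  have e : h1 c (p0 + t • x) (p0 + t • x) = ((c 3 - ‖s‖ ^ 2 / A : ℝ) : ℂ) := by
    have hss : s * star s = ((‖s‖ ^ 2 : ℝ) : ℂ) := by
      rw [Complex.star_def, Complex.mul_conj, Complex.normSq_eq_norm_sq]
    have hdiv : (s * star s) / (A : ℂ) * (A : ℂ) = s * star s := div_mul_cancel₀ _ hA0
    rw [Cls_620.h1_add_left, Cls_620.h1_smul_left, hperp, mul_zero, add_zero,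
      Cls_620.h1_add_right, Cls_620.h1_smul_right, hp0, hps, hst]
    push_cast
    push_cast at hss
    rw [← hss]
    ring
  rw [e, Complex.ofReal_re]
  have : 0 ≤ ‖s‖ ^ 2 / A := by positivity
  linarith

theorem pow_z (h : Z5 O z) {n : ℕ} (hn : z 0 ^ n = 1) : n % 5 = 0 := by
  have h1 := (Cls_620.re_pow h n).1
  rw [hn, Complex.one_re] at h1
  have hs := Cls_620.sqrt5_bd
  unfold Cls_620.rn at h1
  split_ifs at h1 with h5 h6
  · exact h5
  · linarith
  · linarith

/-- the branch classes are disjoint -/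
theorem VV_disj (h : Z5r O z) (hD : Deep O z μ 2) {a b : Lb} (ha : isBr a) (hb : isBr b)
    {v : Fin 4 → Fin 2 → ℂ} (hva : v ∈ VV O z μ a) (hvb : v ∈ VV O z μ b) : a = b := by
  have hpos := Cls_620.nrm_ne h.toZ5 hva
  have hm := meet_self h.toZ5 hpos
  have hs := Cls_620.sqrt5_bd
  have n_n : ∀ {i}, v ∈ VV O z μ (.n i) → (Cls_620.hh (HH z) v v 0).re = 1 := by
    intro i hv
    rw [Cls_620.nrm_n hv]; simp
  have n_v : ∀ {i j}, v ∈ VV O z μ (.v i j) → (Cls_620.hh (HH z) v v 0).re = 2 := by
    intro i j hv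
    rw [Cls_620.nrm_v h.toZ5 hv]; simp
  have n_b : ∀ {i k}, v ∈ VV O z μ (.b i k) →
      (Cls_620.hh (HH z) v v 0).re = (3 - Real.sqrt 5) / 2 := by
    intro i k hv
    exact Cls_620.nrm_b h.toZ5 hv
  cases a with
  | o => exact ha.elim
  | n i =>
    cases i with
    | true => exact ha.elim
    | false =>
      cases b with
      | o => exact hb.elim
      | n i' =>
        cases i' with
        | true => exact hb.elim
        | false => rfl
      | v i' j =>
        exfalso
        have := n_n hva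
        rw [n_v hvb] at this
        norm_num at this
      | b i' k =>
        exfalso
        have := n_n hva
        rw [n_b hvb] at this
        linarith
  | v i j =>
    cases i with
    | true => exact ha.elim
    | false =>
      cases b with
      | o => exact hb.elim
      | n i' =>
        exfalso
        have := n_n hvb
        rw [n_v hva] at this
        norm_num at this
      | v i' k =>
        cases i' with
        | true => exact hb.elim
        | false =>
          have h2 := Cls_620.meet_std h.toZ5 hD hva hvb hm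
          rw [Cls_620.nrm_v h.toZ5 hva, Cls_620.g_vv h.toZ5, Cls_620.dl_self] at h2
          have h3 := congrFun h2 0
          have h4 : (2 : ℂ) = 1 + z 0 ^ ((j : ℕ) + 4 * k) := by simpa using h3
          have h5 : z 0 ^ ((j : ℕ) + 4 * k) = 1 := by linear_combination -h4
          have h6 := pow_z h.toZ5 h5
          have hj := j.isLt
          have hk := k.isLt
          have : j = k := Fin.ext (by omega)
          rw [this]
      | b i' k =>
        exfalso
        have := n_b hvb
        rw [n_v hva] at this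
        linarith
  | b i k =>
    cases b with
    | o => exact hb.elim
    | n i' =>
      exfalso
      have := n_n hvb
      rw [n_b hva] at this
      linarith
    | v i' j =>
      exfalso
      have := n_b hva
      rw [n_v hvb] at this
      linarith
    | b i' l =>
      obtain ⟨e1, e2, -⟩ := Cls_620.meet_bb h.toZ5 hD hva hvb hm
      rw [e1, e2]

/-- uniqueness of the member through a point -/
theorem uni (h : Z5r O z) (hD : Deep O z μ 2) {w : E3} (hw : ‖w‖ < 1) {a : Lb}
    (h0 : lin (wv h (base z a)) w = 0) : ∀ v ∈ CC h μ a, lin v w = 0 → v = wv h (base z a) := by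
  rintro _ ⟨r, hr, rfl⟩ hr0
  have hB : w ∈ Ball 3 := mem_Ball.2 hw
  rw [WM_74.lin_wv_zero] at h0 hr0
  rw [Cls_620.occ_unique h.toZ5 hD (Cls_620.neg_pt h hB) hr (base_mem h a)
    ((Cls_620.perp_iff h r w).2 hr0) ((Cls_620.perp_iff h (base z a) w).2 h0)]

/-- **the classes of 620 and the root functions of 641 form a `Cla`** -/
theorem cla (h : Z5r O z) (hD : Deep O z μ 2) {G : Type} [Group G] {ρ : G →* UG 3} {kk : ℕ}
    (R : ∀ a : Lb, Root 3 kk ρ (SS h μ a)) : Cla (z 0) (CC h μ) (fun a => (R a).f) where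
  rz := rz_of h
  div := by
    intro a _
    rw [CC_eq]
    exact Div.scale (Root.div (R a)) (by exact_mod_cast (WM_74.sc_pos h).ne')
  mo := ⟨_, base_mem h .o, wv_o h⟩
  mn := ⟨_, base_mem h (.n false), wv_n h⟩
  mv := fun j => ⟨_, base_mem h (.v false j), wv_v h j⟩
  disj := by
    intro a b ha hb hab
    rw [Set.disjoint_left]
    rintro _ ⟨r, hr, rfl⟩ ⟨r', hr', e⟩
    have e' : r' = r := wv_inj h hr'.1 hr.1 e
    subst e'
    exact hab (VV_disj h hD ha hb hr hr')
  ne := by
    rintro a - _ ⟨r, hr, rfl⟩ h0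
    have h1 := Cls_620.nrm_ne h.toZ5 hr
    rw [← WM_74.hh_wv h, hh_self, h0, Complex.ofReal_re, norm_zero] at h1
    nlinarith [sq_nonneg ‖(wv h r).2‖]
  uo := by
    intro w hw h0 h1 v hv hv0
    rw [← wv_o h]
    refine uni h hD hw ?_ v hv hv0
    rw [wv_o, lin_bo, h0]
  uv := by
    intro w hw h0 h1 v hv hv0
    have e := wv_v h 0
    have e' : bv (z 0) 0 = wv h (base z (.v false 0)) := e.symm
    rw [e']
    refine uni h hD hw ?_ v hv hv0
    rw [e]
    show lin (bv (z 0) 0) w = 0
    rw [lin_bv0, h0, h1, sub_zero]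

end Crest.Agent.R272.LbSq_936
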