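import Crest.Agent.R272.Tp2_60
import Crest.Agent.R272.Cur1_297

/-!
# R272 (S0415), MODEL, type tp (helper60): the local equations of `X₁` over a cluster point

`Loc P N` : local data at a cluster point (`sh = (S₀,S₁,S₂)`, `f0 = a S₀`, `x i = b i (S_i - c₅ S₀)`,
`m i ² = u i / w i`);
`RelX` : the equations of `X₁ ⊂ N × P1^5` (order `(z,t₁,t₂,v,k₁,k₂)`) over the cluster;
`Loc.toS`, `Loc.fro` : the coordinate change to the standard model, `Loc.hom` the homeomorphism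
`{s ∈ Std | s₁ ∈ sh.target} ≃ₜ {y ∈ X | z ∈ sh.source}`.
-/

set_option autoImplicit false
set_option linter.unusedSectionVars false

open Set Filter Topology OnePoint

namespace Crest.Agent.R272.Tp3_60

open Crest.Agent.R272.Tp1_60 Crest.Agent.R272.Tp2_60
open Crest.Agent.R272.Cur_297 (Par Cv Cset Eqn hA hB tt kk continuous_tt continuous_kk)

noncomputable section

/-- the ambient of `X₁`: `(z,t₁,t₂,v,k₁,k₂)` -/
abbrev E6 (N : Type) : Type := N × P1 × P1 × P1 × P1 × P1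

variable {N : Type} [TopologicalSpace N] {P : Par}

/-- local data at a cluster point -/
structure Loc (P : Par) (N : Type) [TopologicalSpace N] where
  sh : OpenPartialHomeomorph N (ℂ × ℂ × ℂ)
  a : N → ℂ
  b : Fin 2 → N → ℂ
  m : Fin 2 → N → ℂ
  ca : ContinuousOn a sh.source
  cb : ∀ i, ContinuousOn (b i) sh.source
  cm : ∀ i, ContinuousOn (m i) sh.source
  a0 : ∀ z ∈ sh.source, a z ≠ 0
  b0 : ∀ i, ∀ z ∈ sh.source, b i z ≠ 0
  m0 : ∀ i, ∀ z ∈ sh.source, m i z ≠ 0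

/-- `L_j (t)` -/
def Lj (P : Par) (a b : ℂ) (j : Fin 6) (t : P1) : ℂ := nn t / b + (P.c 5 - P.c j) * (dd t / a)

theorem hA_eq (t : P1) : hA P t = (nn t - P.c 3 * dd t) * (nn t - P.c 4 * dd t) *
    (nn t - P.c 5 * dd t) := rfl

theorem hB_eq (t : P1) : hB P t = (nn t - P.c 0 * dd t) * (nn t - P.c 1 * dd t) *
    (nn t - P.c 2 * dd t) := rfl

theorem eqn_eq (t k : P1) : Eqn P t k ↔ nn k ^ 2 * hA P t = dd k ^ 2 * hB P t := Iff.rfl

/-- `T = (a/b) t + c₅` -/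
def Tm (P : Par) (a b : ℂ) (t : P1) : P1 := mob a (P.c 5 * b) 0 b t
/-- `t = (b/a) (T - c₅)` -/
def tm (P : Par) (a b : ℂ) (T : P1) : P1 := mob b (-(P.c 5 * b)) 0 a T

theorem tm_Tm {a b : ℂ} (ha : a ≠ 0) (hb : b ≠ 0) (t : P1) : tm P a b (Tm P a b t) = t := by
  unfold tm Tm
  rw [mob_mob (by rw [mul_zero, sub_zero]; exact mul_ne_zero ha hb)]
  have e1 : b * a + -(P.c 5 * b) * 0 = a * b := by ring
  have e2 : b * (P.c 5 * b) + -(P.c 5 * b) * b = 0 := by ring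
  have e3 : (0 : ℂ) * a + a * 0 = 0 := by ring
  have e4 : 0 * (P.c 5 * b) + a * b = a * b := by ring
  rw [e1, e2, e3, e4]
  exact mob_smul (mul_ne_zero ha hb) t

theorem Tm_tm {a b : ℂ} (ha : a ≠ 0) (hb : b ≠ 0) (t : P1) : Tm P a b (tm P a b t) = t := by
  unfold tm Tm
  rw [mob_mob (by rw [mul_zero, sub_zero]; exact mul_ne_zero hb ha)]
  have e1 : a * b + P.c 5 * b * 0 = a * b := by ring
  have e2 : a * -(P.c 5 * b) + P.c 5 * b * a = 0 := by ring
  have e3 : 0 * b + b * 0 = 0 := by ring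
  have e4 : 0 * -(P.c 5 * b) + b * a = a * b := by ring
  rw [e1, e2, e3, e4]
  exact mob_smul (mul_ne_zero ha hb) t

/-- `K = k / m` -/
def Km (m : ℂ) (k : P1) : P1 := mob 1 0 0 m k
/-- `k = m K` -/
def km (m : ℂ) (K : P1) : P1 := mob m 0 0 1 K

theorem km_Km {m : ℂ} (hm : m ≠ 0) (k : P1) : km m (Km m k) = k := by
  unfold km Km
  rw [mob_mob (by simpa using hm)]
  have e1 : m * 1 + 0 * 0 = m := by ring
  have e2 : m * 0 + 0 * m = 0 := by ring
  have e3 : (0 : ℂ) * 1 + 1 * 0 = 0 := by ring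
  have e4 : 0 * 0 + 1 * m = m := by ring
  rw [e1, e2, e3, e4]
  exact mob_smul hm k

theorem Km_km {m : ℂ} (hm : m ≠ 0) (k : P1) : Km m (km m k) = k := by
  unfold km Km
  rw [mob_mob (by simpa using hm)]
  have e1 : 1 * m + 0 * 0 = m := by ring
  have e2 : 1 * 0 + 0 * 1 = (0 : ℂ) := by ring
  have e3 : 0 * m + m * 0 = 0 := by ring
  have e4 : 0 * 0 + m * 1 = m := by ring
  rw [e1, e2, e3, e4]
  exact mob_smul hm k

/-- `V = (a/β) v - e` (`β = b₀ b₁`) -/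
def Vm (a β e : ℂ) (v : P1) : P1 := mob a (-(e * β)) 0 β v
/-- `v = (β/a) (V + e)` -/
def vm (a β e : ℂ) (V : P1) : P1 := mob β (e * β) 0 a V

theorem vm_Vm {a β : ℂ} (e : ℂ) (ha : a ≠ 0) (hb : β ≠ 0) (t : P1) :
    vm a β e (Vm a β e t) = t := by
  unfold vm Vm
  rw [mob_mob (by rw [mul_zero, sub_zero]; exact mul_ne_zero ha hb)]
  have e1 : β * a + e * β * 0 = a * β := by ring
  have e2 : β * -(e * β) + e * β * β = 0 := by ring
  have e3 : (0 : ℂ) * a + a * 0 = 0 := by ring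
  have e4 : 0 * -(e * β) + a * β = a * β := by ring
  rw [e1, e2, e3, e4]
  exact mob_smul (mul_ne_zero ha hb) t

theorem Vm_vm {a β : ℂ} (e : ℂ) (ha : a ≠ 0) (hb : β ≠ 0) (t : P1) :
    Vm a β e (vm a β e t) = t := by
  unfold vm Vm
  rw [mob_mob (by rw [mul_zero, sub_zero]; exact mul_ne_zero hb ha)]
  have e1 : a * β + -(e * β) * 0 = a * β := by ring
  have e2 : a * (e * β) + -(e * β) * a = 0 := by ring
  have e3 : 0 * β + β * 0 = 0 := by ring
  have e4 : 0 * (e * β) + β * a = a * β := by ring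
  rw [e1, e2, e3, e4]
  exact mob_smul (mul_ne_zero ha hb) t

/-- the curve equation in the coordinates `t, k` -/
theorem curve_iff {a b m : ℂ} (ha : a ≠ 0) (hb : b ≠ 0) (hm : m ≠ 0) (t k : P1) :
    Eqn P (Tm P a b t) (Km m k) ↔
      nn k ^ 2 * (Lj P a b 3 t * Lj P a b 4 t * Lj P a b 5 t) =
        dd k ^ 2 * (m ^ 2 * (Lj P a b 0 t * Lj P a b 1 t * Lj P a b 2 t)) := by
  have hne := mob_ne (α := a) (β := P.c 5 * b) (γ := 0) (δ := b)
    (by rw [mul_zero, sub_zero]; exact mul_ne_zero ha hb) t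
  obtain ⟨c, hc, h1, h2⟩ := exists_rat hne
  change _ = c * nn (Tm P a b t) at h1
  change _ = c * dd (Tm P a b t) at h2
  have key : ∀ j, c * (nn (Tm P a b t) - P.c j * dd (Tm P a b t)) = a * b * Lj P a b j t := by
    intro j
    have : a * b * Lj P a b j t = a * nn t + (P.c 5 - P.c j) * (b * dd t) := by
      unfold Lj; field_simp
    rw [this]
    linear_combination -h1 + P.c j * h2
  have hab : a * b ≠ 0 := mul_ne_zero ha hb
  have kA : c ^ 3 * hA P (Tm P a b t) =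
      (a * b) ^ 3 * (Lj P a b 3 t * Lj P a b 4 t * Lj P a b 5 t) := by
    rw [hA_eq]
    calc _ = (c * (nn (Tm P a b t) - P.c 3 * dd (Tm P a b t))) *
          (c * (nn (Tm P a b t) - P.c 4 * dd (Tm P a b t))) *
          (c * (nn (Tm P a b t) - P.c 5 * dd (Tm P a b t))) := by ring
      _ = _ := by rw [key, key, key]; ring
  have kB : c ^ 3 * hB P (Tm P a b t) =
      (a * b) ^ 3 * (Lj P a b 0 t * Lj P a b 1 t * Lj P a b 2 t) := by
    rw [hB_eq]
    calc _ = (c * (nn (Tm P a b t) - P.c 0 * dd (Tm P a b t))) *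
          (c * (nn (Tm P a b t) - P.c 1 * dd (Tm P a b t))) *
          (c * (nn (Tm P a b t) - P.c 2 * dd (Tm P a b t))) := by ring
      _ = _ := by rw [key, key, key]; ring
  have hne2 := mob_ne (α := 1) (β := 0) (γ := 0) (δ := m) (by simpa using hm) k
  rw [eqn_eq]
  have e1 : Km m k = rat (1 * nn k + 0 * dd k) (0 * nn k + m * dd k) := rfl
  rw [e1, rel2 hne2]
  rw [show 1 * nn k + 0 * dd k = nn k by ring, show 0 * nn k + m * dd k = m * dd k by ring]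
  constructor
  · intro h
    refine mul_left_cancel₀ (pow_ne_zero 3 hab) ?_
    calc (a * b) ^ 3 * (nn k ^ 2 * (Lj P a b 3 t * Lj P a b 4 t * Lj P a b 5 t)) =
        nn k ^ 2 * (c ^ 3 * hA P (Tm P a b t)) := by rw [kA]; ring
      _ = c ^ 3 * (nn k ^ 2 * hA P (Tm P a b t)) := by ring
      _ = c ^ 3 * ((m * dd k) ^ 2 * hB P (Tm P a b t)) := by rw [h]
      _ = (m * dd k) ^ 2 * (c ^ 3 * hB P (Tm P a b t)) := by ring
      _ = _ := by rw [kB]; ring
  · intro h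
    refine mul_left_cancel₀ (pow_ne_zero 3 hc) ?_
    calc c ^ 3 * (nn k ^ 2 * hA P (Tm P a b t)) = nn k ^ 2 * (c ^ 3 * hA P (Tm P a b t)) := by ring
      _ = (a * b) ^ 3 * (nn k ^ 2 * (Lj P a b 3 t * Lj P a b 4 t * Lj P a b 5 t)) := by
        rw [kA]; ring
      _ = (a * b) ^ 3 * (dd k ^ 2 * (m ^ 2 * (Lj P a b 0 t * Lj P a b 1 t * Lj P a b 2 t))) := by
        rw [h]
      _ = (m * dd k) ^ 2 * ((a * b) ^ 3 * (Lj P a b 0 t * Lj P a b 1 t * Lj P a b 2 t)) := by ring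
      _ = _ := by rw [← kB]; ring

/-- the graph relation -/
theorem graph_iff {a b S0 S : ℂ} (ha : a ≠ 0) (hb : b ≠ 0) (t : P1) :
    S * dd (Tm P a b t) = S0 * nn (Tm P a b t) ↔
      b * (S - P.c 5 * S0) * dd t = a * S0 * nn t := by
  have hne := mob_ne (α := a) (β := P.c 5 * b) (γ := 0) (δ := b)
    (by rw [mul_zero, sub_zero]; exact mul_ne_zero ha hb) t
  have h := rel1 (X := S0) (Y := S) hne
  change nn (Tm P a b t) * S0 = dd (Tm P a b t) * S ↔ _ at h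
  constructor
  · intro h1
    have h2 := h.1 (by linear_combination -h1)
    linear_combination -h2
  · intro h1
    have h2 := h.2 (by linear_combination -h1)
    linear_combination -h2

/-- the relation between `t` and `v` -/
theorem vrel_iff {a b b' S0 S S' : ℂ} (ha : a ≠ 0) (hb : b ≠ 0) (hb' : b' ≠ 0) (t v : P1)
    (hx : b * (S - P.c 5 * S0) * dd t = a * S0 * nn t) :
    nn (Vm a (b * b') (-(P.c 5 * (S + S')) + P.c 5 ^ 2 * S0) v) * dd (Tm P a b t) =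
        dd (Vm a (b * b') (-(P.c 5 * (S + S')) + P.c 5 ^ 2 * S0) v) * (nn (Tm P a b t) * S') ↔
      nn v * dd t = dd v * (nn t * (b' * (S' - P.c 5 * S0))) := by
  have hne := mob_ne (α := a) (β := P.c 5 * b) (γ := 0) (δ := b)
    (by rw [mul_zero, sub_zero]; exact mul_ne_zero ha hb) t
  have hne2 := mob_ne (α := a) (β := -((-(P.c 5 * (S + S')) + P.c 5 ^ 2 * S0) * (b * b')))
    (γ := 0) (δ := b * b')
    (by rw [mul_zero, sub_zero]; exact mul_ne_zero ha (mul_ne_zero hb hb')) v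
  unfold Vm
  have e1 := rel1 (X := dd (Tm P a b t)) (Y := nn (Tm P a b t) * S') hne2
  change nn (mob a (-((-(P.c 5 * (S + S')) + P.c 5 ^ 2 * S0) * (b * b'))) 0 (b * b') v) * _ =
    dd (mob a (-((-(P.c 5 * (S + S')) + P.c 5 ^ 2 * S0) * (b * b'))) 0 (b * b') v) * _ ↔ _ at e1
  rw [e1]
  set α := a * nn v + -((-(P.c 5 * (S + S')) + P.c 5 ^ 2 * S0) * (b * b')) * dd v with hα
  set β := 0 * nn v + b * b' * dd v with hβ
  have e2 := rel1 (X := β * S') (Y := α) hne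
  change nn (Tm P a b t) * (β * S') = dd (Tm P a b t) * α ↔ _ at e2
  have e3 : α * dd (Tm P a b t) = β * (nn (Tm P a b t) * S') ↔
      nn (Tm P a b t) * (β * S') = dd (Tm P a b t) * α := by
    constructor <;> intro h <;> linear_combination -h
  rw [e3, e2, hα, hβ]
  constructor
  · intro h
    refine mul_left_cancel₀ (mul_ne_zero ha hb) ?_
    linear_combination -h - b * b' * dd v * P.c 5 * hx
  · intro h
    linear_combination (-(a * b)) * h - b * b' * dd v * P.c 5 * hx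

/-- the equations of `X₁` over a cluster point, `(f0, x₀, x₁)` computed from the local data -/
structure RelX (L : Loc P N) (y : E6 N) : Prop where
  r1 : L.b 0 y.1 * ((L.sh y.1).2.1 - P.c 5 * (L.sh y.1).1) * dd y.2.1 =
    L.a y.1 * (L.sh y.1).1 * nn y.2.1
  r2 : L.b 1 y.1 * ((L.sh y.1).2.2 - P.c 5 * (L.sh y.1).1) * dd y.2.2.1 =
    L.a y.1 * (L.sh y.1).1 * nn y.2.2.1
  v1 : nn y.2.2.2.1 * dd y.2.1 = dd y.2.2.2.1 *
    (nn y.2.1 * (L.b 1 y.1 * ((L.sh y.1).2.2 - P.c 5 * (L.sh y.1).1)))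
  v2 : nn y.2.2.2.1 * dd y.2.2.1 = dd y.2.2.2.1 *
    (nn y.2.2.1 * (L.b 0 y.1 * ((L.sh y.1).2.1 - P.c 5 * (L.sh y.1).1)))
  c1 : nn y.2.2.2.2.1 ^ 2 * (Lj P (L.a y.1) (L.b 0 y.1) 3 y.2.1 * Lj P (L.a y.1) (L.b 0 y.1) 4 y.2.1 *
      Lj P (L.a y.1) (L.b 0 y.1) 5 y.2.1) =
    dd y.2.2.2.2.1 ^ 2 * (L.m 0 y.1 ^ 2 * (Lj P (L.a y.1) (L.b 0 y.1) 0 y.2.1 *
      Lj P (L.a y.1) (L.b 0 y.1) 1 y.2.1 * Lj P (L.a y.1) (L.b 0 y.1) 2 y.2.1))
  c2 : nn y.2.2.2.2.2 ^ 2 * (Lj P (L.a y.1) (L.b 1 y.1) 3 y.2.2.1 *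
      Lj P (L.a y.1) (L.b 1 y.1) 4 y.2.2.1 * Lj P (L.a y.1) (L.b 1 y.1) 5 y.2.2.1) =
    dd y.2.2.2.2.2 ^ 2 * (L.m 1 y.1 ^ 2 * (Lj P (L.a y.1) (L.b 1 y.1) 0 y.2.2.1 *
      Lj P (L.a y.1) (L.b 1 y.1) 1 y.2.2.1 * Lj P (L.a y.1) (L.b 1 y.1) 2 y.2.2.1))

namespace Loc

variable (L : Loc P N)

/-- `e = -c₅ (S₁ + S₂) + c₅² S₀` -/
def ee (P : Par) (S : ℂ × ℂ × ℂ) : ℂ := -(P.c 5 * (S.2.1 + S.2.2)) + P.c 5 ^ 2 * S.1

/-- `V` -/
def vv (z : N) (v : P1) : P1 := Vm (L.a z) (L.b 0 z * L.b 1 z) (ee P (L.sh z)) v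

/-- the standard coordinates of a point over the cluster (without the curve structure) -/
structure RelS (S : ℂ × ℂ × ℂ) (T T' V : P1) : Prop where
  r1 : S.2.1 * dd T = S.1 * nn T
  r2 : S.2.2 * dd T' = S.1 * nn T'
  v1 : nn V * dd T = dd V * (nn T * S.2.2)
  v2 : nn V * dd T' = dd V * (nn T' * S.2.1)

theorem vrel' {a b b' S0 S S' : ℂ} (ha : a ≠ 0) (hb : b ≠ 0) (hb' : b' ≠ 0) (t v : P1)
    (hx : b * (S - P.c 5 * S0) * dd t = a * S0 * nn t) :
    nn (Vm a (b' * b) (-(P.c 5 * (S' + S)) + P.c 5 ^ 2 * S0) v) * dd (Tm P a b t) =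
        dd (Vm a (b' * b) (-(P.c 5 * (S' + S)) + P.c 5 ^ 2 * S0) v) * (nn (Tm P a b t) * S') ↔
      nn v * dd t = dd v * (nn t * (b' * (S' - P.c 5 * S0))) := by
  rw [mul_comm b' b, add_comm S' S]
  exact vrel_iff ha hb hb' t v hx

theorem relX_iff {y : E6 N} (hy : y.1 ∈ L.sh.source) : RelX L y ↔
    RelS (L.sh y.1) (Tm P (L.a y.1) (L.b 0 y.1) y.2.1) (Tm P (L.a y.1) (L.b 1 y.1) y.2.2.1)
      (L.vv y.1 y.2.2.2.1) ∧
    Eqn P (Tm P (L.a y.1) (L.b 0 y.1) y.2.1) (Km (L.m 0 y.1) y.2.2.2.2.1) ∧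
    Eqn P (Tm P (L.a y.1) (L.b 1 y.1) y.2.2.1) (Km (L.m 1 y.1) y.2.2.2.2.2) := by
  have ha := L.a0 _ hy
  have hb := L.b0 0 _ hy
  have hb' := L.b0 1 _ hy
  rw [curve_iff ha hb (L.m0 0 _ hy), curve_iff ha hb' (L.m0 1 _ hy)]
  constructor
  · rintro ⟨r1, r2, v1, v2, c1, c2⟩
    exact ⟨⟨(graph_iff ha hb _).2 r1, (graph_iff ha hb' _).2 r2,
      (vrel_iff ha hb hb' _ _ r1).2 v1, (vrel' ha hb' hb _ _ r2).2 v2⟩, c1, c2⟩
  · rintro ⟨⟨r1, r2, v1, v2⟩, c1, c2⟩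
    have r1' := (graph_iff ha hb _).1 r1
    have r2' := (graph_iff ha hb' _).1 r2
    exact ⟨r1', r2', (vrel_iff ha hb hb' _ _ r1').1 v1, (vrel' ha hb' hb _ _ r2').1 v2, c1, c2⟩

/-- the point of `N × P1^5` with the given standard coordinates -/
def fro (s : Amb (Cv P)) : E6 N :=
  (L.sh.symm s.1, tm P (L.a (L.sh.symm s.1)) (L.b 0 (L.sh.symm s.1)) (tt s.2.1),
    tm P (L.a (L.sh.symm s.1)) (L.b 1 (L.sh.symm s.1)) (tt s.2.2.1),
    vm (L.a (L.sh.symm s.1)) (L.b 0 (L.sh.symm s.1) * L.b 1 (L.sh.symm s.1)) (ee P s.1) s.2.2.2,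
    km (L.m 0 (L.sh.symm s.1)) (kk s.2.1), km (L.m 1 (L.sh.symm s.1)) (kk s.2.2.1))

theorem fro_rel {s : Amb (Cv P)} (hs : s ∈ Std (tt : Cv P → P1)) (h : s.1 ∈ L.sh.target) :
    RelX L (L.fro s) := by
  have hz := L.sh.map_target h
  have ha := L.a0 _ hz
  have hb := L.b0 0 _ hz
  have hb' := L.b0 1 _ hz
  rw [L.relX_iff (y := L.fro s) hz]
  have e0 : L.sh (L.fro s).1 = s.1 := L.sh.right_inv h
  have e1 : Tm P (L.a (L.fro s).1) (L.b 0 (L.fro s).1) (L.fro s).2.1 = tt s.2.1 := Tm_tm ha hb _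
  have e2 : Tm P (L.a (L.fro s).1) (L.b 1 (L.fro s).1) (L.fro s).2.2.1 = tt s.2.2.1 :=
    Tm_tm ha hb' _
  have e3 : L.vv (L.fro s).1 (L.fro s).2.2.2.1 = s.2.2.2 := by
    unfold vv
    rw [e0]
    exact Vm_vm _ ha (mul_ne_zero hb hb') _
  have e4 : Km (L.m 0 (L.fro s).1) (L.fro s).2.2.2.2.1 = kk s.2.1 := Km_km (L.m0 0 _ hz) _
  have e5 : Km (L.m 1 (L.fro s).1) (L.fro s).2.2.2.2.2 = kk s.2.2.1 := Km_km (L.m0 1 _ hz) _
  rw [e0, e1, e2, e3, e4, e5]
  exact ⟨⟨hs.r1, hs.r2, hs.v1, hs.v2⟩, s.2.1.2, s.2.2.1.2⟩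

/-- the standard coordinates of a point over the cluster -/
def toS (y : E6 N) (hy : y.1 ∈ L.sh.source) (h : RelX L y) : Amb (Cv P) :=
  (L.sh y.1, ⟨(Tm P (L.a y.1) (L.b 0 y.1) y.2.1, Km (L.m 0 y.1) y.2.2.2.2.1),
      ((L.relX_iff hy).1 h).2.1⟩,
    ⟨(Tm P (L.a y.1) (L.b 1 y.1) y.2.2.1, Km (L.m 1 y.1) y.2.2.2.2.2),
      ((L.relX_iff hy).1 h).2.2⟩, L.vv y.1 y.2.2.2.1)

theorem toS_mem {y : E6 N} (hy : y.1 ∈ L.sh.source) (h : RelX L y) :
    L.toS y hy h ∈ Std (tt : Cv P → P1) := by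
  have h1 := ((L.relX_iff hy).1 h).1
  exact ⟨h1.r1, h1.r2, h1.v1, h1.v2⟩

theorem fro_toS {y : E6 N} (hy : y.1 ∈ L.sh.source) (h : RelX L y) : L.fro (L.toS y hy h) = y := by
  have ha := L.a0 _ hy
  have hb := L.b0 0 _ hy
  have hb' := L.b0 1 _ hy
  have e0 : L.sh.symm (L.sh y.1) = y.1 := L.sh.left_inv hy
  unfold fro toS
  simp only [e0]
  refine Prod.ext rfl (Prod.ext (tm_Tm ha hb _) (Prod.ext (tm_Tm ha hb' _)
    (Prod.ext ?_ (Prod.ext (km_Km (L.m0 0 _ hy) _) (km_Km (L.m0 1 _ hy) _)))))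
  exact vm_Vm _ ha (mul_ne_zero hb hb') _

theorem toS_fro {s : Amb (Cv P)} (hs : s ∈ Std (tt : Cv P → P1)) (h : s.1 ∈ L.sh.target) :
    L.toS (L.fro s) (L.sh.map_target h) (L.fro_rel hs h) = s := by
  have hz := L.sh.map_target h
  have ha := L.a0 _ hz
  have hb := L.b0 0 _ hz
  have hb' := L.b0 1 _ hz
  have e0 : L.sh (L.fro s).1 = s.1 := L.sh.right_inv h
  refine Prod.ext e0 (Prod.ext (Subtype.ext (Prod.ext (Tm_tm ha hb _) (Km_km (L.m0 0 _ hz) _)))
    (Prod.ext (Subtype.ext (Prod.ext (Tm_tm ha hb' _) (Km_km (L.m0 1 _ hz) _))) ?_))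
  show L.vv (L.fro s).1 (L.fro s).2.2.2.1 = s.2.2.2
  unfold vv
  rw [e0]
  exact Vm_vm _ ha (mul_ne_zero hb hb') _

theorem contAt_a {z : N} (h : z ∈ L.sh.source) : ContinuousAt L.a z :=
  L.ca.continuousAt (L.sh.open_source.mem_nhds h)

theorem contAt_b (i : Fin 2) {z : N} (h : z ∈ L.sh.source) : ContinuousAt (L.b i) z :=
  (L.cb i).continuousAt (L.sh.open_source.mem_nhds h)

theorem contAt_m (i : Fin 2) {z : N} (h : z ∈ L.sh.source) : ContinuousAt (L.m i) z :=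
  (L.cm i).continuousAt (L.sh.open_source.mem_nhds h)

theorem contAt_tm {X : Type*} [TopologicalSpace X] {z : X → N} {t : X → P1} {x : X} (i : Fin 2)
    (hz : ContinuousAt z x) (h : z x ∈ L.sh.source) (ht : ContinuousAt t x) :
    ContinuousAt (fun y => tm P (L.a (z y)) (L.b i (z y)) (t y)) x := by
  have c1 : ContinuousAt (fun y => L.a (z y)) x := ContinuousAt.comp (g := L.a) (L.contAt_a h) hz
  have c2 : ContinuousAt (fun y => L.b i (z y)) x :=
    ContinuousAt.comp (g := L.b i) (L.contAt_b i h) hz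
  refine ContinuousAt.mob60 c2 (continuousAt_const.mul c2).neg continuousAt_const c1 ht ?_
  rw [mul_zero, sub_zero]
  exact mul_ne_zero (L.b0 i _ h) (L.a0 _ h)

theorem contAt_Tm {X : Type*} [TopologicalSpace X] {z : X → N} {t : X → P1} {x : X} (i : Fin 2)
    (hz : ContinuousAt z x) (h : z x ∈ L.sh.source) (ht : ContinuousAt t x) :
    ContinuousAt (fun y => Tm P (L.a (z y)) (L.b i (z y)) (t y)) x := by
  have c1 : ContinuousAt (fun y => L.a (z y)) x := ContinuousAt.comp (g := L.a) (L.contAt_a h) hz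
  have c2 : ContinuousAt (fun y => L.b i (z y)) x :=
    ContinuousAt.comp (g := L.b i) (L.contAt_b i h) hz
  refine ContinuousAt.mob60 c1 (continuousAt_const.mul c2) continuousAt_const c2 ht ?_
  rw [mul_zero, sub_zero]
  exact mul_ne_zero (L.a0 _ h) (L.b0 i _ h)

theorem contAt_km {X : Type*} [TopologicalSpace X] {z : X → N} {t : X → P1} {x : X} (i : Fin 2)
    (hz : ContinuousAt z x) (h : z x ∈ L.sh.source) (ht : ContinuousAt t x) :
    ContinuousAt (fun y => km (L.m i (z y)) (t y)) x := by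
  have c2 : ContinuousAt (fun y => L.m i (z y)) x :=
    ContinuousAt.comp (g := L.m i) (L.contAt_m i h) hz
  refine ContinuousAt.mob60 c2 continuousAt_const continuousAt_const continuousAt_const ht ?_
  rw [mul_zero, sub_zero, mul_one]
  exact L.m0 i _ h

theorem contAt_Km {X : Type*} [TopologicalSpace X] {z : X → N} {t : X → P1} {x : X} (i : Fin 2)
    (hz : ContinuousAt z x) (h : z x ∈ L.sh.source) (ht : ContinuousAt t x) :
    ContinuousAt (fun y => Km (L.m i (z y)) (t y)) x := by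
  have c2 : ContinuousAt (fun y => L.m i (z y)) x :=
    ContinuousAt.comp (g := L.m i) (L.contAt_m i h) hz
  refine ContinuousAt.mob60 continuousAt_const continuousAt_const continuousAt_const c2 ht ?_
  rw [mul_zero, sub_zero, one_mul]
  exact L.m0 i _ h

theorem contAt_Vm {X : Type*} [TopologicalSpace X] {z : X → N} {S : X → ℂ × ℂ × ℂ} {t : X → P1}
    {x : X} (hz : ContinuousAt z x) (h : z x ∈ L.sh.source) (hS : ContinuousAt S x)
    (ht : ContinuousAt t x) :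
    ContinuousAt (fun y => Vm (L.a (z y)) (L.b 0 (z y) * L.b 1 (z y)) (ee P (S y)) (t y)) x := by
  have c1 : ContinuousAt (fun y => L.a (z y)) x := ContinuousAt.comp (g := L.a) (L.contAt_a h) hz
  have c2 : ContinuousAt (fun y => L.b 0 (z y)) x :=
    ContinuousAt.comp (g := L.b 0) (L.contAt_b 0 h) hz
  have c3 : ContinuousAt (fun y => L.b 1 (z y)) x :=
    ContinuousAt.comp (g := L.b 1) (L.contAt_b 1 h) hz
  have c4 : ContinuousAt (fun y => ee P (S y)) x := by unfold ee; fun_prop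
  refine ContinuousAt.mob60 c1 (c4.mul (c2.mul c3)).neg continuousAt_const (c2.mul c3) ht ?_
  rw [mul_zero, sub_zero]
  exact mul_ne_zero (L.a0 _ h) (mul_ne_zero (L.b0 0 _ h) (L.b0 1 _ h))

theorem contAt_vm {X : Type*} [TopologicalSpace X] {z : X → N} {S : X → ℂ × ℂ × ℂ} {t : X → P1}
    {x : X} (hz : ContinuousAt z x) (h : z x ∈ L.sh.source) (hS : ContinuousAt S x)
    (ht : ContinuousAt t x) :
    ContinuousAt (fun y => vm (L.a (z y)) (L.b 0 (z y) * L.b 1 (z y)) (ee P (S y)) (t y)) x := by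
  have c1 : ContinuousAt (fun y => L.a (z y)) x := ContinuousAt.comp (g := L.a) (L.contAt_a h) hz
  have c2 : ContinuousAt (fun y => L.b 0 (z y)) x :=
    ContinuousAt.comp (g := L.b 0) (L.contAt_b 0 h) hz
  have c3 : ContinuousAt (fun y => L.b 1 (z y)) x :=
    ContinuousAt.comp (g := L.b 1) (L.contAt_b 1 h) hz
  have c4 : ContinuousAt (fun y => ee P (S y)) x := by unfold ee; fun_prop
  refine ContinuousAt.mob60 (c2.mul c3) (c4.mul (c2.mul c3)) continuousAt_const c1 ht ?_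
  rw [mul_zero, sub_zero]
  exact mul_ne_zero (mul_ne_zero (L.b0 0 _ h) (L.b0 1 _ h)) (L.a0 _ h)

theorem contAt_fro {s : Amb (Cv P)} (h : s.1 ∈ L.sh.target) : ContinuousAt L.fro s := by
  have hz : ContinuousAt (fun s : Amb (Cv P) => L.sh.symm s.1) s :=
    ContinuousAt.comp (g := L.sh.symm) (L.sh.continuousAt_symm h) continuousAt_fst
  have hm := L.sh.map_target h
  have hc : ContinuousAt (fun s : Amb (Cv P) => s.2.1) s := by fun_prop
  have hc' : ContinuousAt (fun s : Amb (Cv P) => s.2.2.1) s := by fun_prop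
  have h1 : ContinuousAt (fun s : Amb (Cv P) => tt s.2.1) s :=
    continuous_tt.continuousAt.comp hc
  have h2 : ContinuousAt (fun s : Amb (Cv P) => tt s.2.2.1) s :=
    continuous_tt.continuousAt.comp hc'
  have h3 : ContinuousAt (fun s : Amb (Cv P) => kk s.2.1) s :=
    continuous_kk.continuousAt.comp hc
  have h4 : ContinuousAt (fun s : Amb (Cv P) => kk s.2.2.1) s :=
    continuous_kk.continuousAt.comp hc'
  unfold fro
  exact hz.prodMk ((L.contAt_tm 0 hz hm h1).prodMk ((L.contAt_tm 1 hz hm h2).prodMk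
    ((L.contAt_vm hz hm (by fun_prop) (by fun_prop)).prodMk
      ((L.contAt_km 0 hz hm h3).prodMk (L.contAt_km 1 hz hm h4)))))

variable (X : Set (E6 N)) (hX : ∀ y : E6 N, y.1 ∈ L.sh.source → (y ∈ X ↔ RelX L y))

/-- **the homeomorphism of the part of the standard model over `sh.target` with the part of `X`
over `sh.source`** -/
def hom : {s : Std (tt : Cv P → P1) | s.1.1 ∈ L.sh.target} ≃ₜ
    {y : X | y.1.1 ∈ L.sh.source} where
  toFun s := ⟨⟨L.fro s.1.1, (hX _ (L.sh.map_target s.2)).2 (L.fro_rel s.1.2 s.2)⟩,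
    L.sh.map_target s.2⟩
  invFun y := ⟨⟨L.toS y.1.1 y.2 ((hX _ y.2).1 y.1.2), L.toS_mem y.2 ((hX _ y.2).1 y.1.2)⟩,
    L.sh.map_source y.2⟩
  left_inv s := Subtype.ext (Subtype.ext (L.toS_fro s.1.2 s.2))
  right_inv y := Subtype.ext (Subtype.ext (L.fro_toS y.2 ((hX _ y.2).1 y.1.2)))
  continuous_toFun := by
    refine Continuous.subtype_mk (Continuous.subtype_mk ?_ _) _
    rw [continuous_iff_continuousAt]
    intro s
    exact ContinuousAt.comp (g := L.fro) (L.contAt_fro s.2)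
      (continuous_subtype_val.comp continuous_subtype_val).continuousAt
  continuous_invFun := by
    refine Continuous.subtype_mk (Continuous.subtype_mk ?_ _) _
    rw [continuous_iff_continuousAt]
    intro y
    have hz : ContinuousAt (fun y : {y : X | y.1.1 ∈ L.sh.source} => y.1.1.1) y := by fun_prop
    have h1 : ContinuousAt (fun y : {y : X | y.1.1 ∈ L.sh.source} => L.sh y.1.1.1) y :=
      ContinuousAt.comp (g := L.sh) (L.sh.continuousAt y.2) hz
    refine h1.prodMk (ContinuousAt.prodMk ?_ (ContinuousAt.prodMk ?_ ?_))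
    · rw [Topology.IsInducing.subtypeVal.continuousAt_iff]
      exact (L.contAt_Tm 0 hz y.2 (by fun_prop)).prodMk (L.contAt_Km 0 hz y.2 (by fun_prop))
    · rw [Topology.IsInducing.subtypeVal.continuousAt_iff]
      exact (L.contAt_Tm 1 hz y.2 (by fun_prop)).prodMk (L.contAt_Km 1 hz y.2 (by fun_prop))
    · exact L.contAt_Vm hz y.2 h1 (by fun_prop)

@[simp] theorem hom_val (s : {s : Std (tt : Cv P → P1) | s.1.1 ∈ L.sh.target}) :
    ((L.hom X hX s).1).1 = L.fro s.1.1 := rfl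

end Loc

end

end Crest.Agent.R272.Tp3_60
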