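import Mathlib
import Crest.Agent.R272.LbAd7_936
import Crest.Agent.R272.LbAsm4_990
import Crest.Agent.R272.GLoc5_620
import Crest.Agent.R272.Tp3_60
import Crest.Agent.R272.Cur5_297

/-!
# LB-ADAPT, part 8 (row 272, lower bound for S0415; helper936)

The hypotheses `G : Gm`, `hj : Fib`, `hγ : Arc` of 990's `lb_live`.
-/

set_option autoImplicit false
set_option linter.unusedSectionVars false

open Set Filter Topology
open Crest.Agent.R272.EBase_641 Crest.Agent.R272.Wei_392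
open Crest.Agent.R272.Cls_620 (Lb Z5 VV base Deep SS)
open Crest.Agent.R272.In_68 (Z5r io)
open scoped ComplexConjugate unitInterval

noncomputable section

namespace Crest.Agent.R272.LbSq_936

/-! ### any space over the graph model of colour 0 -/

section overY

open Crest.Agent.R272.Gr_559 Crest.Agent.R275.Geo Crest.Agent.R273.Fam_835

variable {ζ : ℂ} {C : Lb → Set (V1 3)} {Fn : Lb → E3 → ℂ}
variable {N : Type} [TopologicalSpace N] {Fm : Fam 3 N}

theorem gm_over (D : Cla ζ C Fn) {a0 b0 qN qD : E3 → ℂ} (H : Fac ζ C Fn a0 b0 qN qD)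
    (GD : GData Fm) (zN : N → E3) (hz : Continuous zN) (hz1 : ∀ p, ‖zN p‖ < 1)
    (h0 : ∀ p, GD.f0 p = Fn .o (zN p)) (hx : ∀ p, GD.x 0 p = Fn (.v false 0) (zN p))
    (hP : ∀ p, GD.P 0 p = PF Fn (zN p)) (hQ : ∀ p, GD.Q 0 p = QF Fn (zN p))
    (hcx : Continuous (GD.x 0)) (hc0 : Continuous GD.f0) (hcP : Continuous (GD.P 0))
    (hcQ : Continuous (GD.Q 0)) {X : Type*} [TopologicalSpace X] (q : X → N × P1 × P1)
    (hq : Continuous q) (hY : ∀ x, q x ∈ GD.Y 0)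
    (hcl : ∀ x, x ∈ closure {x' | ¬ (GD.f0 (q x').1 = 0 ∧ GD.x 0 (q x').1 = 0)}) :
    Gm X P1.n P1.d (fun x => zN (q x).1) (fun x => (q x).2.1) (fun x => (q x).2.2) 1
      a0 b0 qN qD (SNf ζ) (SDf ζ) := by
  have G := gm_Y D H GD zN hz hz1 h0 hx hP hQ hcx hc0 hcP hcQ
  refine ⟨G.pco, by fun_prop, fun x => hz1 _, by fun_prop, by fun_prop, H.ca0, H.cb0, H.cqN,
    H.cqD, H.a0n, H.b0n, fun x => G.r1 ⟨q x, hY x⟩, fun x => G.r2 ⟨q x, hY x⟩, fun x _ _ => ?_⟩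
  refine closure_mono ?_ (hcl x)
  rintro x' hx' ⟨h2, h3⟩
  apply hx'
  rw [h0, hx, H.e0 _ (hz1 _), H.e1 _ (hz1 _), h2, h3]
  simp

end overY

/-! ### the fibre and the arc -/

section fibre

open Crest.Agent.R272.LbAsm_990
open Crest.Agent.R272.Tp3_60 (tm km)
open Crest.Agent.R272.Tp1_60 (rat rat_ne rel1 mob nn dd)
open Crest.Agent.R272.Cur_297 (Par Cv tt kk cur)

variable {P : Par} {Y : Type} [TopologicalSpace Y] {z : Y → E3} {t k : Y → OnePoint ℂ}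

/-- `k ↦ m k` commutes with the sign -/
theorem km_neg {m : ℂ} (_hm : m ≠ 0) (K : OnePoint ℂ) :
    nn (km m (Cur_297.negP K)) * dd (km m K) = -(nn (km m K) * dd (km m (Cur_297.negP K))) := by
  induction K using OnePoint.rec with
  | infty =>
    have : km m (Cur_297.negP OnePoint.infty) = OnePoint.infty := by
      show rat (m * 1 + 0 * 0) (0 * 1 + 1 * 0) = _
      rw [show (0 : ℂ) * 1 + 1 * 0 = 0 by ring, Tp1_60.rat_zero]
    have h' : km m (OnePoint.infty : OnePoint ℂ) = OnePoint.infty := this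
    rw [this, h']
    simp
  | coe x =>
    have e : ∀ y : ℂ, km m (y : OnePoint ℂ) = ((m * y : ℂ) : OnePoint ℂ) := by
      intro y
      show rat (m * y + 0 * 1) (0 * y + 1 * 1) = _
      rw [show (0 : ℂ) * y + 1 * 1 = 1 by ring, Tp1_60.rat_one]
      congr 1
      ring
    rw [Cur_297.negP_coe, e, e]
    simp

/-- **the fibre over the origin** -/
theorem fib_of {j : Cv P × Cv P → Y} (hj : Continuous j) (hz : ∀ x, z (j x) = 0)
    {a b m : ℂ} (hm : m ≠ 0) (ht : ∀ x, t (j x) = tm P a b (tt x.1))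
    (hk : ∀ x, k (j x) = km m (kk x.1)) :
    Fib (cur P).iv nn dd z t k j where
  cont := hj
  jz := hz
  jt x y y' := by rw [ht, ht]
  jk x y y' := by rw [hk, hk]
  it x y := by
    rw [ht, ht]
    rfl
  ik x y := by
    rw [hk, hk]
    exact km_neg hm _

variable {e : ℂ} {a0 b0 qN qD : E3 → ℂ} {SN SD : Finset (V1 3)}

/-- real slope of a point of the fibre -/
theorem aa_fibre (G : Gm Y nn dd z t k e a0 b0 qN qD SN SD) (c : ℂ) {y : Y} (hy : z y = 0)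
    {a b s : ℂ} (ha : a ≠ 0) (hb : b ≠ 0) (hab : a0 0 * b = b0 0 * a) (h5 : P.c 5 = e)
    (ht : t y = tm P a b (s : OnePoint ℂ)) :
    Gm.aa c nn dd e a0 b0 z t y = ‖s - c‖ / (1 + ‖s - c‖) := by
  have e1 : tm P a b (s : OnePoint ℂ) = ((b * (s - P.c 5) / a : ℂ) : OnePoint ℂ) := by
    show rat (b * s + -(P.c 5 * b) * 1) (0 * s + a * 1) = _
    rw [show (0 : ℂ) * s + a * 1 = a by ring, rat_ne ha]
    congr 2
    ring
  have _ := hb
  apply G.aa_fib c hy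
  · rw [ht, e1, ← h5]
    simp only [Tp1_60.nn_coe, Tp1_60.dd_coe, mul_one]
    have : a0 0 * (b * (s - P.c 5) / a) = (s - P.c 5) * (a0 0 * b / a) := by ring
    rw [this, hab]
    field_simp
  · rw [ht, e1]
    simp

/-- **the arc** from the slope `ζ^-2` to the slope `ζ^-3` -/
theorem arc_of (G : Gm Y nn dd z t k e a0 b0 qN qD SN SD) {ζ : ℂ} (hζ : RZ ζ)
    {j : Cv P × Cv P → Y} (hz : ∀ x, z (j x) = 0)
    {a b : ℂ} (ha : a ≠ 0) (hb : b ≠ 0) (ht : ∀ x, t (j x) = tm P a b (tt x.1))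
    (hab : a0 0 * b = b0 0 * a) (h5 : P.c 5 = e) (P₀ : Cv P) {γ : C(I, Cv P)}
    (hγ : ∀ τ, tt (γ τ) = ((sgm ζ τ : ℂ) : OnePoint ℂ)) :
    Arc (fun x => Gm.aa (-3 * ζ) nn dd e a0 b0 z t (j (x, P₀)))
      (27 / 10 / (1 + 27 / 10)) (3 / (1 + 3)) γ := by
  have haa : ∀ τ : I, Gm.aa (-3 * ζ) nn dd e a0 b0 z t (j (γ τ, P₀)) =
      ‖sgm ζ τ - -3 * ζ‖ / (1 + ‖sgm ζ τ - -3 * ζ‖) := fun τ =>
    aa_fibre G (-3 * ζ) (hz _) ha hb hab h5 (by rw [ht, hγ])
  have hmono : ∀ {x y : ℝ}, 0 ≤ x → x ≤ y → x / (1 + x) ≤ y / (1 + y) := by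
    intro x y hx hxy
    rw [div_le_div_iff₀ (by linarith) (by linarith)]
    nlinarith
  refine ⟨?_, Or.inl ⟨?_, ?_⟩⟩
  · have := sgm_pre hζ ((27 / 10 : ℝ) / (1 + 27 / 10)) (3 / (1 + 3))
    convert this using 4 with τ
    · rw [haa τ]
    · rw [haa τ]
  · show Gm.aa (-3 * ζ) nn dd e a0 b0 z t (j (γ 0, P₀)) ≤ _
    rw [haa 0]
    exact hmono (norm_nonneg _) (by simpa using sgm_zero hζ)
  · show _ ≤ Gm.aa (-3 * ζ) nn dd e a0 b0 z t (j (γ 1, P₀))
    rw [haa 1]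
    exact hmono (by norm_num) (by simpa using sgm_one hζ)

end fibre

end Crest.Agent.R272.LbSq_936
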