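import Crest.Agent.R272.Tp4_60
import Crest.Agent.R272.Tq1_916

/-!
# R272 (S0415), MOD-TP (helper916): all charts of `X₁` over a cluster point

* `exists_Eij` : the charts `(c, c', ξ)` for all pairs of frames, as `OpenPartialHomeomorph`s;
* `exists_Em`  : the `m`-charts;
* `zs`         : the zero section `C × C → X`, continuous, injective, `= Eij (·, 0)`;
* `coverX`     : the charts cover the part of `X` over the ball.
-/

set_option autoImplicit false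
set_option linter.unusedSectionVars false

open Set Filter Topology OnePoint

namespace Crest.Agent.R272.Tq3_916

open Crest.Agent.R272.Tp1_60 Crest.Agent.R272.Tp2_60 Crest.Agent.R272.Tp3_60
  Crest.Agent.R272.Tp4_60 Crest.Agent.R272.Tq1_916
open Crest.Agent.R272.Cur_297 (Par Cv Cset Eqn hA hB tt kk continuous_tt continuous_kk)

noncomputable section

variable {N : Type} [TopologicalSpace N] {P : Par}

theorem norm_prod_lt {S : ℂ × ℂ × ℂ} {r : ℝ} : S ∈ Metric.ball (0 : ℂ × ℂ × ℂ) r ↔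
    ‖S.1‖ < r ∧ ‖S.2.1‖ < r ∧ ‖S.2.2‖ < r := by
  rw [Metric.mem_ball, dist_zero_right, Prod.norm_def, Prod.norm_def, max_lt_iff, max_lt_iff]

theorem prod_bound {x a b c d r : ℝ} (hx : 0 ≤ x) (ha : 0 ≤ a) (hb : 0 ≤ b) (hc : 0 ≤ c)
    (hd : 0 ≤ d) (h : x * (a + b) * (c + d) < r) :
    x * a * c < r ∧ x * b * c < r ∧ x * a * d < r := by
  have h1 := mul_nonneg (mul_nonneg hx ha) hc
  have h2 := mul_nonneg (mul_nonneg hx hb) hc
  have h3 := mul_nonneg (mul_nonneg hx ha) hd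
  have h4 := mul_nonneg (mul_nonneg hx hb) hd
  refine ⟨?_, ?_, ?_⟩ <;> nlinarith

theorem ball_of_Oij {i j : Fin 2} {r : ℝ} {s : Std (tt : Cv P → P1)} (hs : s ∈ Oij tt i j r) :
    s.1.1 ∈ Metric.ball (0 : ℂ × ℂ × ℂ) r := by
  obtain ⟨h1, h2, h3, h4⟩ := hs
  have e0 := fij_eq s.2 h1 h2 h3
  rw [← e0, norm_prod_lt]
  simp only [fij, norm_mul]
  exact prod_bound (norm_nonneg _) (norm_nonneg _) (norm_nonneg _) (norm_nonneg _)
    (norm_nonneg _) h4

/-- the source of `Eij` -/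
def DEij (P : Par) (r : ℝ) (i j : Fin 2) : Set ((Cv P × Cv P) × ℂ) :=
  {p | (p.1.1, p.1.2, p.2) ∈ Dij (tt : Cv P → P1) i j r}

/-- the standard coordinates of `Eij p` -/
def FEij (P : Par) (i j : Fin 2) (p : (Cv P × Cv P) × ℂ) : Amb (Cv P) :=
  fij tt i j (p.1.1, p.1.2, p.2)

variable (L : Loc P N) (X : Set (E6 N)) (hX : ∀ y : E6 N, y.1 ∈ L.sh.source → (y ∈ X ↔ RelX L y))
  {r : ℝ} (hr : 0 < r) (hb : Metric.ball (0 : ℂ × ℂ × ℂ) r ⊆ L.sh.target)

include hX hr hb in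
theorem exists_Eij (i j : Fin 2) (hc : ∃ c : Cv P, tt c ≠ ∞ ∧ tt c ≠ ((0 : ℂ) : P1)) :
    ∃ E : OpenPartialHomeomorph ((Cv P × Cv P) × ℂ) X, E.source = DEij P r i j ∧
      ∀ p ∈ DEij P r i j, (E p).1 = L.fro (FEij P i j p) ∧
        FEij P i j p ∈ Std (tt : Cv P → P1) ∧
        (FEij P i j p).1 ∈ Metric.ball (0 : ℂ × ℂ × ℂ) r := by
  obtain ⟨c, hc1, hc2⟩ := hc
  have hcp : ∀ i, tt c ≠ pole i := fun i => by
    fin_cases i
    · exact hc1
    · exact hc2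
  have hT := continuous_tt (P := P)
  have hD : DEij P r i j = (asc (Cv P)) ⁻¹' (Dij tt i j r) := by
    ext p; rfl
  have hDo : IsOpen (DEij P r i j) := by
    rw [hD]; exact (isOpen_Dij hT i j r).preimage (asc _).continuous
  have hne : (DEij P r i j).Nonempty := ⟨((c, c), 0), hcp i, hcp j, by simpa using hr⟩
  have g1 : IsOpenEmbedding fun s : Oij tt i j r => (L.hom X hX ⟨s.1, hb (ball_of_Oij s.2)⟩).1 :=
    emb_of_open L X hX (isOpen_Oij hT i j r) fun s hs => hb (ball_of_Oij hs)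
  have g2 : IsOpenEmbedding
      fun p : DEij P r i j => (⟨asc _ p.1, p.2⟩ : Dij (tt : Cv P → P1) i j r) := by
    refine IsOpenEmbedding.of_comp _ (isOpen_Dij hT i j r).isOpenEmbedding_subtypeVal ?_
    exact (asc _).isOpenEmbedding.comp hDo.isOpenEmbedding_subtypeVal
  have g3 := g1.comp ((eij tt hT i j r).isOpenEmbedding.comp g2)
  obtain ⟨E, h1, h2, -⟩ := exists_oph hDo hne g3
  refine ⟨E, h1, fun p hp => ⟨?_, fij_mem hp.1 hp.2.1, ?_⟩⟩
  · show (E p).1 = _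
    rw [h2 ⟨p, hp⟩]
    rfl
  · exact ball_of_Oij (s := (eij tt hT i j r ⟨asc _ p, hp⟩).1) (eij tt hT i j r ⟨asc _ p, hp⟩).2

/-- the source of `Em` -/
def DEm (a a' : Inf (tt : Cv P → P1)) (r : ℝ) : Set (ℂ × ℂ × ℂ) :=
  {p | p ∈ Dm a a' ∧ (p.1 * p.2.1 * p.2.2, p.2.1, p.2.2) ∈ Metric.ball (0 : ℂ × ℂ × ℂ) r}

theorem isOpen_DEm (a a' : Inf (tt : Cv P → P1)) (r : ℝ) : IsOpen (DEm a a' r) :=
  (isOpen_Dm a a').inter (Metric.isOpen_ball.preimage (by fun_prop))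

include hX hr hb in
theorem exists_Em (a a' : Inf (tt : Cv P → P1)) :
    ∃ E : OpenPartialHomeomorph (ℂ × ℂ × ℂ) X, E.source = DEm a a' r ∧
      ∀ p ∈ DEm a a' r, (E p).1 = L.fro (fm a a' p) ∧ fm a a' p ∈ Std (tt : Cv P → P1) ∧
        (fm a a' p).1 ∈ Metric.ball (0 : ℂ × ℂ × ℂ) r := by
  have hne : (DEm a a' r).Nonempty := by
    refine ⟨(0, 0, 0), ⟨?_, ?_⟩, ?_⟩
    · simpa using a.r_pos
    · simpa using a'.r_pos
    · rw [norm_prod_lt]; simpa using hr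
  have hDo := isOpen_DEm a a' r
  have hO : IsOpen {s : Om a a' | s.1.1.1 ∈ Metric.ball (0 : ℂ × ℂ × ℂ) r} :=
    Metric.isOpen_ball.preimage (continuous_fst.comp
      (continuous_subtype_val.comp continuous_subtype_val))
  have hO' : IsOpen {s : Std (tt : Cv P → P1) | s ∈ Om a a' ∧
      s.1.1 ∈ Metric.ball (0 : ℂ × ℂ × ℂ) r} :=
    (isOpen_Om a a').inter (Metric.isOpen_ball.preimage (continuous_fst.comp
      continuous_subtype_val))
  have g1 : IsOpenEmbedding fun s : {s : Std (tt : Cv P → P1) | s ∈ Om a a' ∧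
      s.1.1 ∈ Metric.ball (0 : ℂ × ℂ × ℂ) r} => (L.hom X hX ⟨s.1, hb s.2.2⟩).1 :=
    emb_of_open L X hX hO' fun s hs => hb hs.2
  have g2 : IsOpenEmbedding fun p : DEm a a' r =>
      (⟨(em a a' ⟨p.1, p.2.1⟩).1, (em a a' ⟨p.1, p.2.1⟩).2, p.2.2⟩ :
        {s : Std (tt : Cv P → P1) | s ∈ Om a a' ∧ s.1.1 ∈ Metric.ball (0 : ℂ × ℂ × ℂ) r}) := by
    refine IsOpenEmbedding.of_comp _ hO'.isOpenEmbedding_subtypeVal ?_
    have k1 : IsOpenEmbedding fun p : DEm a a' r => (⟨p.1, p.2.1⟩ : Dm a a') := by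
      refine IsOpenEmbedding.of_comp _ (isOpen_Dm a a').isOpenEmbedding_subtypeVal ?_
      exact hDo.isOpenEmbedding_subtypeVal
    exact (isOpen_Om a a').isOpenEmbedding_subtypeVal.comp ((em a a').isOpenEmbedding.comp k1)
  have g3 := g1.comp g2
  obtain ⟨E, h1, h2, -⟩ := exists_oph hDo hne g3
  refine ⟨E, h1, fun p hp => ⟨?_, fm_mem a a' hp.1, hp.2⟩⟩
  show (E p).1 = _
  rw [h2 ⟨p, hp⟩]
  rfl

/-! ### zero section -/

/-- the point `(0; c, c'; 0)` of the standard model -/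
def zst (x : Cv P × Cv P) : Amb (Cv P) := ((0, 0, 0), x.1, x.2, ((0 : ℂ) : P1))

theorem zst_mem (x : Cv P × Cv P) : zst x ∈ Std (tt : Cv P → P1) := by
  constructor <;> simp [zst]

theorem zst_eq (i j : Fin 2) (x : Cv P × Cv P) : FEij P i j (x, 0) = zst x := by
  simp [FEij, fij, zst]

theorem zst_eq_FE (i : Fin 2) (x : Cv P × Cv P) : FE P i (x, 0) = zst x := by
  fin_cases i <;> simp [FE, f0, fi, zst]

theorem swA_zst (x : Cv P × Cv P) : swA (zst x) = zst x.swap := rfl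

variable (h0 : (0 : ℂ × ℂ × ℂ) ∈ L.sh.target)

/-- the zero section -/
def zs (x : Cv P × Cv P) : X := (L.hom X hX ⟨⟨zst x, zst_mem x⟩, h0⟩).1

theorem zs_val (x : Cv P × Cv P) : (zs L X hX h0 x).1 = L.fro (zst x) := rfl

theorem continuous_zs : Continuous (zs L X hX h0) := by
  unfold zs
  refine continuous_subtype_val.comp ((L.hom X hX).continuous.comp ?_)
  refine Continuous.subtype_mk (Continuous.subtype_mk ?_ _) _
  unfold zst
  fun_prop

theorem zs_inj : Function.Injective (zs L X hX h0) := by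
  intro x x' h
  have h1 : L.fro (zst x) = L.fro (zst x') := congrArg Subtype.val h
  have h2 := fro_inj L (zst_mem x) h0 (zst_mem x') h0 h1
  exact Prod.ext (congrArg (fun y : Amb (Cv P) => y.2.1) h2)
    (congrArg (fun y : Amb (Cv P) => y.2.2.1) h2)

/-- the zero section over `0` -/
theorem zs_fst (x : Cv P × Cv P) : (zs L X hX h0 x).1.1 = L.sh.symm 0 := rfl

include hX in
/-- the charts cover the part of `X` over the ball -/
theorem coverX {I : Type*} (a : I → Inf (tt : Cv P → P1))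
    (ha : ∀ c, tt c = ∞ → ∃ i, c ∈ (a i).e.source) {y : X} (hy : y.1.1 ∈ L.sh.source)
    (hyb : L.sh y.1.1 ∈ Metric.ball (0 : ℂ × ℂ × ℂ) r) :
    (∃ (i j : Fin 2) (p : (Cv P × Cv P) × ℂ), tt p.1.1 ≠ pole i ∧ tt p.1.2 ≠ pole j ∧
        (FEij P i j p).1 = L.sh y.1.1 ∧ y.1 = L.fro (FEij P i j p)) ∨
      ∃ (i j : I) (p : ℂ × ℂ × ℂ), p ∈ DEm (a i) (a j) r ∧ (fm (a i) (a j) p).1 = L.sh y.1.1 ∧
        y.1 = L.fro (fm (a i) (a j) p) := by
  have hR := (hX _ hy).1 y.2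
  have hs := L.toS_mem hy hR
  have hf := L.fro_toS hy hR
  set s := L.toS y.1 hy hR with hsd
  have hs1 : s.1 = L.sh y.1.1 := rfl
  rcases cover a ha ⟨s, hs⟩ with ⟨i, j, h1, h2, h3⟩ | ⟨i, j, h1, h2, h3⟩
  · left
    have e := fij_eq hs h1 h2 h3
    refine ⟨i, j, ((s.2.1, s.2.2.1), xi i j s), h1, h2, ?_, ?_⟩
    · show (fij tt i j (s.2.1, s.2.2.1, xi i j s)).1 = _
      rw [e, hs1]
    · show _ = L.fro (fij tt i j (s.2.1, s.2.2.1, xi i j s))
      rw [e, hf]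
  · right
    have e := fm_eq (a i) (a j) hs h1 h2 h3
    have hm2 : (iv s.2.2.2, s.1.2.1, s.1.2.2) ∈ Dm (a i) (a j) :=
      ((em (a i) (a j)).symm ⟨⟨s, hs⟩, h1, h2, h3⟩).2
    refine ⟨i, j, (iv s.2.2.2, s.1.2.1, s.1.2.2), ⟨hm2, ?_⟩, ?_, ?_⟩
    · have : (fm (a i) (a j) (iv s.2.2.2, s.1.2.1, s.1.2.2)).1 ∈
          Metric.ball (0 : ℂ × ℂ × ℂ) r := by
        rw [e, hs1]; exact hyb
      exact this
    · rw [e, hs1]
    · rw [e, hf]

end

end Crest.Agent.R272.Tq3_916
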