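import Mathlib
import Crest.Agent.R272.LbAd8_936
import Crest.Agent.R272.P0a_939
import Crest.Agent.R272.CB1_232
import Crest.Agent.R272.Tq2_916
import Crest.Agent.R272.Tq3_916

/-!
# LB-ADAPT, part 9 (row 272, lower bound for S0415; helper936)

The instance of parts 5 and 8 for 620's `gdata` on 559's `X1`, the values of the factors at the
base cluster point, the fibre and the arc for 916's zero section.
-/

set_option autoImplicit false
set_option linter.unusedSectionVars false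

open Set Filter Topology
open Crest.Agent.R272.EBase_641 Crest.Agent.R272.Wei_392
open Crest.Agent.R272.Cls_620 (Lb Z5 VV base Deep SS)
open Crest.Agent.R272.In_68 (Z5r io)
open scoped ComplexConjugate unitInterval

noncomputable section

namespace Crest.Agent.R272.LbSq_936

open Crest.Agent.R272.Gr_559 Crest.Agent.R272.Quot_783 Crest.Agent.R272.GI_620
open Crest.Agent.R272.P0_939 (o3 cc cc_ne par)
open Crest.Agent.R272.LbAsm_990
open Crest.Agent.R272.Tp3_60 (Loc E6 tm km)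
open Crest.Agent.R272.Tp1_60 (nn dd)
open Crest.Agent.R272.Tq2_916 (toA)
open Crest.Agent.R272.Tq3_916 (zst)
open Crest.Agent.R272.Cur_297 (Par Cv tt kk cur)

variable {O : Subring (Fin 2 → ℂ)} {z μ : Fin 2 → ℂ} (h : Z5r O z)
variable {G : Type} [Group G] {ρ : G →* UG 3} {kk' : ℕ} (R : ∀ a : Lb, Root 3 kk' ρ (SS h μ a))
variable {Γ : Type} [Group Γ] (ρ' : Γ →* UG 3) (hμ : μ ∈ O) (hD : Deep O z μ 2)

/-- the root functions -/
abbrev FR : Lb → E3 → ℂ := fun a => (R a).f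

theorem continuous_root (a : Lb) : Continuous fun y : BX ρ' => (R a).f y.val :=
  (R a).f_hol.continuousOn.comp_continuous BX.continuous_val fun y => y.mem

/-- the data of the graph model -/
abbrev GD : GData (ballFam ρ') := gdata h R ρ' hμ hD

variable {a0 b0 qN qD : E3 → ℂ}

/-- any space over the double cover of colour 0 of `gdata` -/
theorem gm_any (H : Fac (z 0) (CC h μ) (FR h R) a0 b0 qN qD) {X : Type*} [TopologicalSpace X]
    (q : X → BX ρ' × P1 × P1) (hq : Continuous q) (hY : ∀ x, q x ∈ (GD h R ρ' hμ hD).Y 0)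
    (hd : ∀ x, x ∈ closure {x' | (R .o).f (q x').1.val ≠ 0}) :
    Gm X P1.n P1.d (fun x => (q x).1.val) (fun x => (q x).2.1) (fun x => (q x).2.2) 1
      a0 b0 qN qD (SNf (z 0)) (SDf (z 0)) := by
  have hP : ∀ p : BX ρ', (GD h R ρ' hμ hD).P 0 p = PF (FR h R) p.val := by
    intro p
    show (R (.v false 1)).f p.val * (R (.v false 2)).f p.val * (R (.n false)).f p.val *
      ((R (.b false 1)).f p.val * (R (.b false 2)).f p.val) = _
    unfold PF
    ring
  have hQ : ∀ p : BX ρ', (GD h R ρ' hμ hD).Q 0 p = QF (FR h R) p.val := fun p => rfl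
  refine gm_over (cla h hD R) H (GD h R ρ' hμ hD) BX.val BX.continuous_val
    (fun p => p.norm_lt) (fun p => rfl) (fun p => rfl) hP hQ (continuous_root h R ρ' _)
    (continuous_root h R ρ' _) ?_ ?_ q hq hY ?_
  · exact (((continuous_root h R ρ' _).mul (continuous_root h R ρ' _)).mul
      (continuous_root h R ρ' _)).mul ((continuous_root h R ρ' _).mul (continuous_root h R ρ' _))
  · exact (((continuous_root h R ρ' _).mul (continuous_root h R ρ' _)).mul
      (continuous_root h R ρ' _)).mul (continuous_root h R ρ' _)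
  · intro x
    refine closure_mono ?_ (hd x)
    intro x' hx' h1
    exact hx' h1.1

/-- **`Gm` for 559's `X1`** -/
theorem gm_X1 (H : Fac (z 0) (CC h μ) (FR h R) a0 b0 qN qD)
    (hd : ∀ y : (GD h R ρ' hμ hD).X1,
      y ∈ closure {y' : (GD h R ρ' hμ hD).X1 | (GD h R ρ' hμ hD).f0 y'.1.1 ≠ 0}) :
    Gm (GD h R ρ' hμ hD).X1 P1.n P1.d (fun y => y.1.1.val) ((GD h R ρ' hμ hD).t 0)
      ((GD h R ρ' hμ hD).k 0) 1 a0 b0 qN qD (SNf (z 0)) (SDf (z 0)) :=
  gm_any h R ρ' hμ hD H (fun y : (GD h R ρ' hμ hD).X1 => (y.1.1, y.1.2.1 0, y.1.2.2.2 0))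
    (by fun_prop) (fun y => y.2.1 0) hd

/-! ### values at the base point -/

theorem freq_E3 : ∃ᶠ w : E3 in 𝓝 0, w 0 ≠ 0 ∧ w 1 = 0 := by
  have hc : Continuous fun x : ℂ => (WithLp.toLp 2 ![x, 0, 0] : E3) := by
    refine (PiLp.continuous_toLp 2 _).comp (continuous_pi fun i => ?_)
    fin_cases i
    · exact continuous_id
    · exact continuous_const
    · exact continuous_const
  have ht : Tendsto (fun x : ℂ => (WithLp.toLp 2 ![x, 0, 0] : E3)) (𝓝[≠] 0) (𝓝 0) := by
    have h1 := hc.tendsto 0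
    have e : (WithLp.toLp 2 ![(0 : ℂ), 0, 0] : E3) = 0 := by
      ext i
      fin_cases i <;> rfl
    rw [e] at h1
    exact h1.mono_left nhdsWithin_le_nhds
  refine ht.frequently (Eventually.frequently ?_)
  filter_upwards [self_mem_nhdsWithin] with x hx
  exact ⟨hx, rfl⟩

theorem freq_BX : ∃ᶠ y : BX ρ' in 𝓝 (o3 ρ'), y.val 0 ≠ 0 ∧ y.val 1 = 0 := by
  have h1 := (BX.isOpenEmbedding_val (ρ := ρ')).map_nhds_eq (o3 ρ')
  have h2 := freq_E3
  rw [P0_939.o3_val] at h1
  rw [← h1, Filter.frequently_map] at h2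
  exact h2

/-- two continuous functions which agree at points accumulating at the centre -/
theorem eq_of_freq {f g : BX ρ' → ℂ} (hf : ContinuousAt f (o3 ρ')) (hg : ContinuousAt g (o3 ρ'))
    (hfg : ∀ᶠ y : BX ρ' in 𝓝 (o3 ρ'), y.val 0 ≠ 0 → y.val 1 = 0 → f y = g y) :
    f (o3 ρ') = g (o3 ρ') := by
  by_contra hne
  have h1 : ∀ᶠ y in 𝓝 (o3 ρ'), f y - g y ≠ 0 :=
    (hf.sub hg).eventually_ne (sub_ne_zero.2 hne)
  obtain ⟨y, ⟨hy1, hy2⟩, hy3, hy4⟩ := ((freq_BX ρ').and_eventually (h1.and hfg)).exists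
  exact hy3 (sub_eq_zero.2 (hy4 hy1 hy2))

theorem contAt_val {q : E3 → ℂ} (hq : ContinuousOn q (Metric.ball 0 1)) (y : BX ρ') :
    ContinuousAt (fun y : BX ρ' => q y.val) y :=
  ContinuousAt.comp (f := BX.val) (g := q)
    (hq.continuousAt (Metric.isOpen_ball.mem_nhds (by simpa using y.norm_lt)))
    BX.continuous_val.continuousAt

theorem par5 : (par h).c 5 = 1 := by
  show conj (z 0 ^ 0) = 1
  simp

section vals

variable (H : Fac (z 0) (CC h μ) (FR h R) a0 b0 qN qD)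
  (p : Pen (ballFam ρ') (GD h R ρ' hμ hD).f0 ((GD h R ρ' hμ hD).x 0) ((GD h R ρ' hμ hD).P 0)
    ((GD h R ρ' hμ hD).Q 0) (o3 ρ'))
  (hs0 : p.s0 = (fun y => cc z * y.val 0)) (hs1 : p.s1 = (fun y => cc z * y.val 1))
  (hc : p.c = (par h).c)

include H hs0 in
theorem val_a : a0 0 = p.a (o3 ρ') * cc z := by
  refine eq_of_freq ρ' (f := fun y => a0 y.val) (g := fun y => p.a y * cc z)
    (contAt_val ρ' H.ca0 _)
    ((CB_232.holF_contAt p.U_open p.a_hol p.mem).mul continuousAt_const) ?_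
  filter_upwards [p.U_open.mem_nhds p.mem] with y hy h0 _
  have h1 := p.ef y hy
  have h2 : (GD h R ρ' hμ hD).f0 y = a0 y.val * y.val 0 := H.e0 _ y.norm_lt
  rw [h2, hs0] at h1
  apply mul_right_cancel₀ h0
  rw [h1]
  ring

include H hs0 hs1 hc in
theorem val_b : b0 0 = p.b (o3 ρ') * cc z := by
  refine eq_of_freq ρ' (f := fun y => b0 y.val) (g := fun y => p.b y * cc z)
    (contAt_val ρ' H.cb0 _)
    ((CB_232.holF_contAt p.U_open p.b_hol p.mem).mul continuousAt_const) ?_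
  filter_upwards [p.U_open.mem_nhds p.mem] with y hy h0 h00
  have h1 := p.ex y hy
  have h2 : (GD h R ρ' hμ hD).x 0 y = b0 y.val * (y.val 1 - 1 * y.val 0) := H.e1 _ y.norm_lt
  rw [h2, hs0, hs1, hc, par5, h00] at h1
  apply mul_right_cancel₀ h0
  linear_combination -h1 - p.b y * cc z * h00

include H hs0 hs1 hc in
/-- the hypothesis `hab` of `arc_of` -/
theorem val_ab : a0 0 * p.b (o3 ρ') = b0 0 * p.a (o3 ρ') := by
  rw [val_a h R ρ' hμ hD H p hs0, val_b h R ρ' hμ hD H p hs0 hs1 hc]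
  ring

end vals

/-! ### the zero section -/

section zero

variable {P : Par} (L : Loc P (BX ρ')) (hL : o3 ρ' ∈ L.sh.source) (hL0 : L.sh (o3 ρ') = 0)
  {X1 : Set (GData.Amb (BX ρ'))}
  {j : Cv P × Cv P → X1} (hj : Continuous j) (hjv : ∀ x, (j x).1 = toA (L.fro (zst x)))

include hL hL0

theorem symm_zero : L.sh.symm 0 = o3 ρ' := by
  rw [← hL0, L.sh.left_inv hL]

include hjv

theorem j_z (x : Cv P × Cv P) : (j x).1.1.val = 0 := by
  rw [hjv]
  show (L.sh.symm (zst x).1).val = 0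
  rw [show (zst x).1 = (0 : ℂ × ℂ × ℂ) from rfl, symm_zero ρ' L hL hL0]
  rfl

theorem j_t (x : Cv P × Cv P) :
    (j x).1.2.1 0 = tm P (L.a (o3 ρ')) (L.b 0 (o3 ρ')) (tt x.1) := by
  rw [hjv]
  show tm P (L.a (L.sh.symm (zst x).1)) (L.b 0 (L.sh.symm (zst x).1)) (tt x.1) = _
  rw [show (zst x).1 = (0 : ℂ × ℂ × ℂ) from rfl, symm_zero ρ' L hL hL0]

theorem j_k (x : Cv P × Cv P) :
    (j x).1.2.2.2 0 = km (L.m 0 (o3 ρ')) (Cur_297.kk x.1) := by
  rw [hjv]
  show km (L.m 0 (L.sh.symm (zst x).1)) (Cur_297.kk x.1) = _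
  rw [show (zst x).1 = (0 : ℂ × ℂ × ℂ) from rfl, symm_zero ρ' L hL hL0]

include hj

/-- **the fibre for the zero section** -/
theorem fib_zs : Fib (cur P).iv nn dd (fun y : X1 => y.1.1.val) (fun y => y.1.2.1 0)
    (fun y => y.1.2.2.2 0) j :=
  fib_of hj (j_z ρ' L hL hL0 hjv) (L.m0 0 _ hL) (j_t ρ' L hL hL0 hjv) (j_k ρ' L hL hL0 hjv)

end zero

end Crest.Agent.R272.LbSq_936
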