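import Crest.Agent.R272.LbAsm5_990
import Crest.Agent.R272.LbAd6_936
import Crest.Agent.R272.Act1_302
import Crest.Agent.R272.Quot3_783

/-!
# Row 272, LB-ASM (helper990), part 6: the lower bound on 559's model `X_1` with 302's action

`A : GAct GD Γ` (302) over the ball `BX φ` (783), `GD : GData (ballFam φ)` (559), one root function per
class (`LbSq_936.Cla`).  `exists_wl_X`: the wall function on `A.X`; `kact`; `arc_of`: the arc
`[ζ⁻², ζ⁻³]`; `a0_eq`, `b0_eq`: the factors at the base point; `lb_X`: the lower bound.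
-/

set_option autoImplicit false
set_option linter.unusedSectionVars false

open scoped ComplexConjugate Topology unitInterval
open Crest.Agent.R272.EBase_641 Crest.Agent.R272.LbPP_990 Crest.Agent.R272.LbSep_990
open Crest.Agent.R272.St2_702 Crest.Agent.R272.LbCap_382
open Crest.Agent.R272.LbFin_990 Crest.Agent.R272.LbFin2_990 Crest.Agent.R272.Per_939
open Crest.Agent.R272.CovOrd_463 Crest.Agent.R272.LbExt_259 Crest.Agent.R272.TLoop_463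
open Crest.Agent.R272.UB_20 Crest.Agent.R272.MQ_783 Crest.Agent.R272.Refl_246
open Crest.Agent.R272.AJ_956
open Crest.Agent.R272.Gr_559 Crest.Agent.R272.Act_302 Crest.Agent.R272.Quot_783
open Crest.Agent.R272.Cls_620 (Lb)

namespace Crest.Agent.R272.LbAsm_990

noncomputable section

variable {Γ : Type} [Group Γ] {φ : Γ →* UG 3} {GD : GData (ballFam φ)} (A : GAct GD Γ)

/-- the ball coordinate -/
def zX (y : A.X) : E 3 := (A.pz y).val

/-- the coordinates of colour `0` -/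
def tX (y : A.X) : P1 := GD.t 0 y
def kX (y : A.X) : P1 := GD.k 0 y

theorem continuous_zX : Continuous (zX A) := BX.continuous_val.comp A.continuous_pz

theorem zX_lt (y : A.X) : ‖zX A y‖ < 1 := BX.norm_lt _

theorem zX_smul (g : Γ) (y : A.X) : zX A (g • y) = act (φ g) (zX A y) := by
  show (A.pz (g • y)).val = _
  rw [A.pz_smul, BX.val_smul]
  rfl

/-- the projection to the double cover of colour `0` -/
def pY (y : A.X) : GD.Y 0 := ⟨(A.pz y, GD.t 0 y, GD.k 0 y), (A.val_mem y).1 0⟩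

theorem continuous_pY : Continuous (pY A) := by
  have h : Continuous A.val := A.continuous_val
  refine Continuous.subtype_mk ?_ _
  have h1 : Continuous fun y : A.X => (A.val y).1 := continuous_fst.comp h
  have h2 : Continuous fun y : A.X => (A.val y).2.1 0 :=
    (continuous_apply 0).comp (continuous_fst.comp (continuous_snd.comp h))
  have h3 : Continuous fun y : A.X => (A.val y).2.2.2 0 :=
    (continuous_apply 0).comp (continuous_snd.comp (continuous_snd.comp (continuous_snd.comp h)))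
  exact h1.prodMk (h2.prodMk h3)

/-- the colour preserving subgroup acts by factors depending on the base point only -/
theorem kact {K : Subgroup Γ} (hK : ∀ g ∈ K, A.σ g 0 = 0) :
    KAct K P1.n P1.d (zX A) (tX A) (kX A) where
  kz g _ x y h := by rw [zX_smul, zX_smul, h]
  kt g hg x y h ht := by
    have hp : A.pz x = A.pz y := BX.ext h
    have h1 := A.t_smul g x 0
    have h2 := A.t_smul g y 0
    rw [hK g hg] at h1 h2
    have ht' : GD.t 0 x = GD.t 0 y := ht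
    show GD.t 0 (g • x : A.X) = GD.t 0 (g • y : A.X)
    rw [h1, h2, hp, ht']
  kk g hg x y h hk := by
    have hp : A.pz x = A.pz y := BX.ext h
    have h1 := A.k_smul g x 0
    have h2 := A.k_smul g y 0
    rw [hK g hg] at h1 h2
    show P1.n (GD.k 0 (g • y : A.X)) * P1.d (GD.k 0 (g • x : A.X)) =
      -(P1.n (GD.k 0 (g • x : A.X)) * P1.d (GD.k 0 (g • y : A.X)))
    rw [h1, h2, hp]
    have hk' : P1.n (GD.k 0 y) * P1.d (GD.k 0 x) = -(P1.n (GD.k 0 x) * P1.d (GD.k 0 y)) := hk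
    obtain ⟨c, hc, e1, e2⟩ := P1F_54.mulP_rel (A.p_ne g 0 (A.pz y)) (A.q_ne g 0 (A.pz y))
      (GD.k 0 x)
    obtain ⟨c', hc', e3, e4⟩ := P1F_54.mulP_rel (A.p_ne g 0 (A.pz y)) (A.q_ne g 0 (A.pz y))
      (GD.k 0 y)
    simp only [P1A_54.n_eq, P1A_54.d_eq] at *
    apply mul_left_cancel₀ (mul_ne_zero hc hc')
    generalize P1F_54.mulP (A.p g 0 (A.pz y)) (A.q g 0 (A.pz y)) (GD.k 0 x) = mx at *
    generalize P1F_54.mulP (A.p g 0 (A.pz y)) (A.q g 0 (A.pz y)) (GD.k 0 y) = my at *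
    have s1 : c * c' * (P1F_54.nn my * P1F_54.dd mx) = (c' * P1F_54.nn my) * (c * P1F_54.dd mx) := by
      ring
    have s2 : c * c' * -(P1F_54.nn mx * P1F_54.dd my) =
        -((c * P1F_54.nn mx) * (c' * P1F_54.dd my)) := by ring
    rw [s1, s2, ← e1, ← e2, ← e3, ← e4]
    linear_combination (A.p g 0 (A.pz y) * A.q g 0 (A.pz y)) * hk'

/-- **the wall function on `X_1`.** -/
theorem exists_wl_X {ζ : ℂ} {Cc : Lb → Set (V1 3)} {Fn : Lb → E 3 → ℂ}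
    (D : LbSq_936.Cla ζ Cc Fn)
    (h0 : ∀ p : BX φ, GD.f0 p = Fn .o p.val) (hx : ∀ p : BX φ, GD.x 0 p = Fn (.v false 0) p.val)
    (hP : ∀ p : BX φ, GD.P 0 p = LbSq_936.PF Fn p.val)
    (hQ : ∀ p : BX φ, GD.Q 0 p = LbSq_936.QF Fn p.val)
    {W : Set (V1 3)} {Λ : ℝ} (hW2 : ∀ w ∈ W, hh w w = 2)
    {ι : Type*} {V : ι → V1 3} (hL : Link W Λ V)
    {Nn : ι → ℝ} {Nmin Nmax c0 Lam Lam' kc : ℝ}
    (Wd : LbSq_936.WData ι V Nn Nmin Nmax c0 Lam Lam' kc)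
    (hrest : ∀ v ∈ LbSq_936.Sall Cc, v ∉ LbSq_936.S0 ζ → (∃ i, V i = v) ∨
      LbSq_936.IsBr ζ 4 v ∨ LbSq_936.IsBr ζ 1 v ∨ LbSq_936.IsBr ζ 2 v)
    (hδ : slopeδ kc (capA Nmin c0) Nmax Lam' < 7 / 100000)
    (hΛ : 0 < Λ) {C0 : ℝ} (hC : 0 ≤ C0) (hkC : 1 + C0 + 2 * C0 / Λ * kc ≤ kc ^ 2) :
    ∃ (a0 b0 : E 3 → ℂ) (θ : A.X → Cir), ContinuousOn a0 (Metric.ball 0 1) ∧
      ContinuousOn b0 (Metric.ball 0 1) ∧ b0 0 ≠ 0 ∧
      (∀ w : E 3, ‖w‖ < 1 → Fn .o w = a0 w * w 0) ∧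
      (∀ w : E 3, ‖w‖ < 1 → Fn (.v false 0) w = b0 w * (w 1 - w 0)) ∧
      Wl P1.n P1.d (zX A) (tX A) (kX A)
        (fun y => LbSq_936.Gm.aa (-3 * ζ) P1.n P1.d 1 a0 b0 (zX A) (tX A) y) (27 / 37) (3 / 4)
        (OO W 6 C0 Λ) θ := by
  obtain ⟨a0, b0, qN, qD, H⟩ := D.fac
  have G := LbSq_936.gm_Y D H GD (fun p : BX φ => p.val) BX.continuous_val (fun p => p.norm_lt)
    h0 hx hP hQ (Flat2_302.cont_of (GD.x_hol 0)) (Flat2_302.cont_of GD.f0_hol)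
    (Flat2_302.cont_of (GD.P_hol 0)) (Flat2_302.cont_of (GD.Q_hol 0))
  have hζ := D.rz.norm
  have hc : ‖(-3 * ζ : ℂ)‖ = 3 := by
    rw [norm_mul, hζ, mul_one, norm_neg]
    norm_num
  have e1 : (27 / 10 : ℝ) / (1 + 27 / 10) = 27 / 37 := by norm_num
  have e2 : (3 : ℝ) / (1 + 3) = 3 / 4 := by norm_num
  have Fd := D.fdata V hrest
  rw [← e1, ← e2] at Fd
  obtain ⟨θ, hθ⟩ := exists_wl hW2 G hL Wd Fd (H.ad D.rz) (LbSq_936.prod_S0 D.rz)
    (by norm_num) (by linarith) (by rw [hc]; norm_num; linarith) hΛ (r := 6)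
    (by rw [hc]; norm_num) hC hkC
  rw [e1, e2] at hθ
  refine ⟨a0, b0, fun y => θ (pY A y), H.ca0, H.cb0, ?_, H.e0, fun w hw => ?_, ?_⟩
  · exact H.b0n 0 (by rw [norm_zero]; exact one_pos) rfl rfl
  · rw [H.e1 w hw, one_mul]
  · exact hθ.comap (continuous_pY A)

/-! ### the factors at the base point -/

/-- points off a hyperplane accumulate at the origin -/
theorem neBot_of (l : E 3 →L[ℂ] ℂ) {v : E 3} (hv : l v ≠ 0) {p₀ : BX φ} (hp0 : p₀.val = 0) :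
    (𝓝[{q : BX φ | l q.val ≠ 0}] p₀).NeBot := by
  rw [← mem_closure_iff_nhdsWithin_neBot, mem_closure_iff_nhds]
  intro U hU
  rw [BX.isOpenEmbedding_val.isInducing.nhds_eq_comap, hp0] at hU
  obtain ⟨U', hU', hUU⟩ := hU
  have hc : ContinuousAt (fun s : ℂ => s • v) 0 := by fun_prop
  have h1 : ∀ᶠ s : ℂ in 𝓝 0, s • v ∈ U' ∩ Metric.ball (0 : E 3) 1 := by
    apply hc
    show U' ∩ Metric.ball (0 : E 3) 1 ∈ 𝓝 ((0 : ℂ) • v)
    rw [zero_smul]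
    exact Filter.inter_mem hU' (Metric.ball_mem_nhds 0 one_pos)
  have h2 : ∀ᶠ s : ℂ in 𝓝[≠] 0, s • v ∈ U' ∩ Metric.ball (0 : E 3) 1 :=
    h1.filter_mono nhdsWithin_le_nhds
  have h3 : ∀ᶠ s : ℂ in 𝓝[≠] 0, s ≠ 0 := eventually_mem_nhdsWithin
  obtain ⟨s, hs, hs0⟩ := (h2.and h3).exists
  refine ⟨BX.mk φ (s • v) hs.2, hUU ?_, ?_⟩
  · exact hs.1
  · show l (s • v) ≠ 0
    rw [map_smul, smul_eq_mul]
    exact mul_ne_zero hs0 hv

/-- comparison of two unit factors -/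
theorem factor_eq (l : E 3 →L[ℂ] ℂ) {v : E 3} (hv : l v ≠ 0) {p₀ : BX φ} (hp0 : p₀.val = 0)
    {a0 : E 3 → ℂ} (ha : ContinuousOn a0 (Metric.ball 0 1)) {f : BX φ → ℂ} {U : Set (BX φ)}
    (hU : U ∈ 𝓝 p₀) (hf : ContinuousAt f p₀)
    (h : ∀ q ∈ U, a0 q.val * l q.val = f q * l q.val) : a0 0 = f p₀ := by
  have := neBot_of (φ := φ) l hv hp0
  have hB : Metric.ball (0 : E 3) 1 ∈ 𝓝 p₀.val := by
    rw [hp0]; exact Metric.ball_mem_nhds 0 one_pos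
  have h1 : ContinuousAt (fun q : BX φ => a0 q.val) p₀ :=
    ContinuousAt.comp (f := fun q : BX φ => q.val) (ha.continuousAt hB)
      BX.continuous_val.continuousAt
  have h2 : (fun q : BX φ => a0 q.val) =ᶠ[𝓝[{q : BX φ | l q.val ≠ 0}] p₀] f := by
    filter_upwards [mem_nhdsWithin_of_mem_nhds hU, self_mem_nhdsWithin] with q hq hq0
    exact mul_right_cancel₀ hq0 (h q hq)
  have h3 : Filter.Tendsto f (𝓝[{q : BX φ | l q.val ≠ 0}] p₀) (𝓝 (a0 p₀.val)) :=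
    (h1.mono_left nhdsWithin_le_nhds).congr' h2
  have h4 := tendsto_nhds_unique h3 (hf.mono_left nhdsWithin_le_nhds)
  rwa [hp0] at h4

/-- real slope over the origin (936's `aa_fib` without the graph model) -/
theorem aa_fib' {Y P : Type*} {n d : P → ℂ} {z : Y → E 3} {t : Y → P} {e c : ℂ}
    {a0 b0 : E 3 → ℂ} (hb : b0 0 ≠ 0) {y : Y} (hy : z y = 0) {s : ℂ}
    (hs : a0 0 * n (t y) = (s - e) * (b0 0 * d (t y))) (hd : d (t y) ≠ 0) :
    LbSq_936.Gm.aa c n d e a0 b0 z t y = ‖s - c‖ / (1 + ‖s - c‖) := by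
  have hF : LbSq_936.Gm.F1 z y := by
    unfold LbSq_936.Gm.F1
    rw [hy]
    exact ⟨rfl, rfl⟩
  have h0 : LbSq_936.Gm.sg0 b0 d z t y ≠ 0 := by
    unfold LbSq_936.Gm.sg0
    rw [hy]
    exact mul_ne_zero hb hd
  have h1 : LbSq_936.Gm.sg1 n d e a0 b0 z t y = s * LbSq_936.Gm.sg0 b0 d z t y := by
    unfold LbSq_936.Gm.sg0 LbSq_936.Gm.sg1
    rw [hy]
    linear_combination hs
  unfold LbSq_936.Gm.aa
  rw [if_pos hF, h1]
  have e1 : LbSq_936.ms c (LbSq_936.Gm.sg0 b0 d z t y) (s * LbSq_936.Gm.sg0 b0 d z t y) =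
      LbSq_936.ms c (LbSq_936.Gm.sg0 b0 d z t y * 1) (LbSq_936.Gm.sg0 b0 d z t y * s) := by
    rw [mul_one, mul_comm s]
  rw [e1, LbSq_936.ms_smul h0]
  unfold LbSq_936.ms
  rw [norm_one, mul_one]

/-- the arc over the segment `[ζ⁻², ζ⁻³]` -/
theorem arc_of {C : Type} [TopologicalSpace C] {ζ : ℂ} (hζ : LbSq_936.RZ ζ) {f : C → ℝ}
    {γ : C(I, C)}
    (hf : ∀ τ : I, f (γ τ) = ‖LbSq_936.sgm ζ τ - -3 * ζ‖ / (1 + ‖LbSq_936.sgm ζ τ - -3 * ζ‖)) :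
    Arc f (27 / 37) (3 / 4) γ := by
  have hmono : ∀ {x y : ℝ}, 0 ≤ x → x ≤ y → x / (1 + x) ≤ y / (1 + y) := by
    intro x y hx hxy
    rw [div_le_div_iff₀ (by linarith) (by linarith)]
    nlinarith
  refine ⟨?_, Or.inl ⟨?_, ?_⟩⟩
  · have := LbSq_936.sgm_pre hζ (27 / 37) (3 / 4)
    convert this using 4 with τ
    · rw [hf τ]
    · rw [hf τ]
  · rw [hf 0]
    have h1 := hmono (norm_nonneg _) (LbSq_936.sgm_zero hζ)
    refine (le_of_eq ?_).trans (h1.trans (by norm_num))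
    simp
  · rw [hf 1]
    have h1 := hmono (by norm_num) (LbSq_936.sgm_one hζ)
    refine le_trans (by norm_num) (h1.trans (le_of_eq ?_))
    simp

/-- **THE LOWER BOUND ON `X_1`.** -/
theorem lb_X
    -- the group
    {W : Set (V1 3)} {Λ : ℝ} (Gd : GrpData φ W Λ) (hW : ∀ g : Γ, ∀ w ∈ W, (φ g).1 w ∈ W)
    [ContinuousConstSMul Γ (BX φ)] [ProperlyDiscontinuousSMul Γ (BX φ)]
    (hstab : ∀ (b : BX φ) (g : Γ), g • b = b → g ∈ Gd.R) (hKσ : ∀ g ∈ Gd.K, A.σ g 0 = 0)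
    -- the classes
    {ζ : ℂ} {Cc : Lb → Set (V1 3)} {Fn : Lb → E 3 → ℂ} (D : LbSq_936.Cla ζ Cc Fn)
    (h0 : ∀ p : BX φ, GD.f0 p = Fn .o p.val) (hx : ∀ p : BX φ, GD.x 0 p = Fn (.v false 0) p.val)
    (hP : ∀ p : BX φ, GD.P 0 p = LbSq_936.PF Fn p.val)
    (hQ : ∀ p : BX φ, GD.Q 0 p = LbSq_936.QF Fn p.val)
    -- the base point
    {p₀ : BX φ} (hp0 : p₀.val = 0) (p : Pen (ballFam φ) GD.f0 (GD.x 0) (GD.P 0) (GD.Q 0) p₀)
    {cc : ℂ} (hs0 : ∀ q, p.s0 q = cc * q.val 0) (hs1 : ∀ q, p.s1 q = cc * q.val 1)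
    (hc5 : p.c 5 = 1)
    -- the far vectors
    {ι : Type*} {V : ι → V1 3} (hL : Link W Λ V)
    {Nn : ι → ℝ} {Nmin Nmax c0 Lam Lam' kc : ℝ}
    (Wd : LbSq_936.WData ι V Nn Nmin Nmax c0 Lam Lam' kc)
    (hrest : ∀ v ∈ LbSq_936.Sall Cc, v ∉ LbSq_936.S0 ζ → (∃ i, V i = v) ∨
      LbSq_936.IsBr ζ 4 v ∨ LbSq_936.IsBr ζ 1 v ∨ LbSq_936.IsBr ζ 2 v)
    (hδ : slopeδ kc (capA Nmin c0) Nmax Lam' < 7 / 100000)
    (hΛ : (10 : ℝ) ^ 10 ≤ Λ) {C0 : ℝ} (hC : 16512 < C0) (hCΛ : 6 * C0 ≤ Λ ^ 2)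
    (hkC : 1 + C0 + 2 * C0 / Λ * kc ≤ kc ^ 2)
    -- the curve and the torus
    {C A' : Type} [TopologicalSpace C] [TopologicalSpace A'] {𝒞 : Cur C} {q : C × C → A'}
    {L : AddSubgroup E2} {πA : E2 → A'} (J : 𝒞.IsJac q L πA) (hq : Continuous q)
    -- the fibre over the origin
    {j : C × C → A.X} (hj : Fib 𝒞.iv P1.n P1.d (zX A) (tX A) (kX A) j)
    (hsw : ∀ x, Gd.σ • j x = j x.swap)
    -- the surgery
    {X' : Type} [TopologicalSpace X'] {π' : X' → Orb Γ (BX φ)} {Vs : Set X'}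
    {ψ : X' → Orb Γ A.X} {eX : Set (Orb Γ A.X)} (Sg : Surg (orbMap A.pz A.pz_smul) π' Vs ψ eX)
    (heX : ∀ y : A.X, pr Γ y ∈ eX → ∃ (g : Γ) (x : C), y = g • j (x, 𝒞.iv x))
    -- the torus map
    {F : C(E2, X')} {inc : A' → X'} (hF : ∀ v, F v = inc (πA v)) (hper : Per F L)
    {P₀ : C} (hVs : ∀ x, x ≠ 𝒞.iv P₀ → inc (q (x, P₀)) ∈ Vs)
    (hψ : ∀ x, x ≠ 𝒞.iv P₀ → ψ (inc (q (x, P₀))) = pr Γ (j (x, P₀)))
    -- the arc
    {γ : C(I, C)} (hγP : ∀ τ, γ τ ≠ P₀ ∧ γ τ ≠ 𝒞.iv P₀)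
    (hγd : ∀ τ, P1.d (tX A (j (γ τ, P₀))) ≠ 0)
    (hγs : ∀ τ : I, p.a p₀ * P1.n (tX A (j (γ τ, P₀))) =
      (LbSq_936.sgm ζ τ - 1) * (p.b p₀ * P1.d (tX A (j (γ τ, P₀)))))
    {hh : C(I, E2)} (H : IsInt 𝒞 γ hh) (hs : 𝒞.iv (γ 0) = γ 0) (he : 𝒞.iv (γ 1) = γ 1)
    (v₀ : E2) :
    ¬ IsOfFinOrder (perHom hper v₀
      (Multiplicative.ofAdd (⟨hh 1 + hh 1, two_mem J hq H hs he⟩ : L))) := by
  have hΛ0 : 0 < Λ := lt_of_lt_of_le (by norm_num) hΛ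
  obtain ⟨a0, b0, θ, ca, cb, hb0, e0, e1, hθ⟩ := exists_wl_X A D h0 hx hP hQ
    (fun w hw => Gd.wsys.norm w hw) hL Wd hrest hδ hΛ0 (by linarith) hkC
  -- the factors at the base point
  have hU : p.U ∈ 𝓝 p₀ := p.U_open.mem_nhds p.mem
  have hpa : ContinuousAt p.a p₀ := ((P1A_54.holF_iff p.U_open).1 p.a_hol p₀ p.mem).continuousAt
  have hpb : ContinuousAt p.b p₀ := ((P1A_54.holF_iff p.U_open).1 p.b_hol p₀ p.mem).continuousAt
  have ea : a0 0 = cc * p.a p₀ := by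
    refine factor_eq (EuclideanSpace.proj (𝕜 := ℂ) (0 : Fin 3)) (v := EuclideanSpace.single 0 1)
      (by simp) hp0 ca (f := fun q => cc * p.a q) hU (continuousAt_const.mul hpa) ?_
    intro q hq
    have h1 := p.ef q hq
    rw [h0, e0 _ q.norm_lt, hs0] at h1
    show a0 q.val * q.val 0 = cc * p.a q * q.val 0
    linear_combination h1
  have eb : b0 0 = cc * p.b p₀ := by
    refine factor_eq (EuclideanSpace.proj (𝕜 := ℂ) (1 : Fin 3) -
      EuclideanSpace.proj (𝕜 := ℂ) (0 : Fin 3)) (v := EuclideanSpace.single 1 1)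
      (by simp) hp0 cb (f := fun q => cc * p.b q) hU (continuousAt_const.mul hpb) ?_
    intro q hq
    have h1 := p.ex q hq
    rw [hx, e1 _ q.norm_lt, hs0, hs1, hc5] at h1
    show b0 q.val * (q.val 1 - q.val 0) = cc * p.b q * (q.val 1 - q.val 0)
    linear_combination h1
  have harc : Arc (fun x => LbSq_936.Gm.aa (-3 * ζ) P1.n P1.d 1 a0 b0 (zX A) (tX A)
      (j (x, P₀))) (27 / 37) (3 / 4) γ := by
    refine arc_of D.rz fun τ => ?_
    refine aa_fib' hb0 (hj.jz _) ?_ (hγd τ)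
    rw [ea, eb]
    linear_combination cc * hγs τ
  refine lb_wl hθ (fun y y' hz ht => aa_congr hz ht) (continuous_zX A) (zX_lt A) Gd hW hstab
    A.continuous_pz A.pz_smul (zX_smul A) (kact A hKσ) hΛ (by norm_num) hC hCΛ ?_ J hq hj hsw Sg
    heX hF hper hVs hψ hγP harc H hs he v₀
  have : (1000 : ℝ) < Λ := lt_of_lt_of_le (by norm_num) hΛ
  linarith

end

end Crest.Agent.R272.LbAsm_990
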