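import Mathlib
import Crest.Agent.R272.LbFd_936
import Crest.Agent.R272.MirW_702

/-!
# LB-WDATA, the numbers (row 272, lower bound for S0415; helper702)

`k = 129`, `Nmin = 3/8`, `Nmax = 2`, `c0 = 4`, `c = -3 ζ`, `m1 = 27/37`, `m2 = 3/4`, `r = 6`,
`C = 16513`; `Lam`, `Lam'` are arbitrary numbers `≥ 10^10`.
-/

set_option autoImplicit false

open Crest.Agent.R272.EBase_641 Crest.Agent.R272.LbCap_382 Crest.Agent.R272.LbClu_382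
open Crest.Agent.R272.LbSq_936 (RZ gr mm E3 Q0 IsWall WData)
open Crest.Agent.R272.Cls_620 (Z5)

namespace Crest.Agent.R272.WDn_702

theorem capA_le : capA (3 / 8) 4 ≤ 5 := by
  unfold capA
  rw [Real.sqrt_le_left (by norm_num)]
  norm_num

theorem capA_nonneg : 0 ≤ capA (3 / 8) 4 := Real.sqrt_nonneg _

theorem hLam {Lam : ℝ} (h : (10 : ℝ) ^ 10 ≤ Lam) :
    4 * 2 * (2 + (3 * (2 * (2 * 129) + capA (3 / 8) 4)) ^ 2) < Lam := by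
  have h1 := capA_le
  have h2 := capA_nonneg
  have h3 : (3 * (2 * (2 * 129) + capA (3 / 8) 4)) ^ 2 ≤ 1563 ^ 2 :=
    pow_le_pow_left₀ (by linarith) (by linarith) 2
  linarith

theorem hkLam {Lam' : ℝ} (h : (10 : ℝ) ^ 10 ≤ Lam') : (129 : ℝ) ^ 2 * 2 < Lam' ^ 2 := by
  nlinarith

theorem slope_le {Lam' : ℝ} (h : (10 : ℝ) ^ 10 ≤ Lam') :
    slopeδ 129 (capA (3 / 8) 4) 2 Lam' ≤ 1 / 1000000 := by
  have h0 : (0 : ℝ) < Lam' := lt_of_lt_of_le (by norm_num) h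
  have h1 := capA_le
  have h2 := capA_nonneg
  have h3 : Real.sqrt 2 ≤ 3 / 2 := by
    rw [Real.sqrt_le_left (by norm_num)]
    norm_num
  have h4 := Real.sqrt_nonneg 2
  unfold slopeδ capC
  rw [div_le_iff₀ h0]
  have h5 : (4 * 129 + 2 * (2 * 1 ^ 3 * (2 * (2 * 129) + capA (3 / 8) 4)) : ℝ) ≤ 2600 := by
    linarith
  have h6 : (4 * 129 + 2 * (2 * 1 ^ 3 * (2 * (2 * 129) + capA (3 / 8) 4)) : ℝ) * Real.sqrt 2 ≤
      2600 * (3 / 2) := mul_le_mul h5 h3 h4 (by norm_num)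
  linarith

theorem hδ {Lam' : ℝ} (h : (10 : ℝ) ^ 10 ≤ Lam') :
    slopeδ 129 (capA (3 / 8) 4) 2 Lam' ≤ 1 / 2 :=
  (slope_le h).trans (by norm_num)

theorem norm_c {ζ : ℂ} (hζ : RZ ζ) : ‖-3 * ζ‖ = 3 := by
  rw [norm_mul, hζ.norm]
  norm_num

theorem hδ2 {ζ : ℂ} (hζ : RZ ζ) {Lam' : ℝ} (h : (10 : ℝ) ^ 10 ≤ Lam') :
    4 * slopeδ 129 (capA (3 / 8) 4) 2 Lam' * (1 + ‖-3 * ζ‖) * (3 + 2 * ‖-3 * ζ‖) <
      ((3 / 4 : ℝ) - 27 / 37) / 2 := by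
  have h1 := slope_le h
  rw [norm_c hζ]
  linarith

/-- **existence of the wall** for these numbers. -/
theorem exists_wall {ζ : ℂ} (hζ : RZ ζ) {ι : Type*} {V : ι → V1 3} {Nn : ι → ℝ} {Lam Lam' : ℝ}
    (W : WData ι V Nn (3 / 8) 2 4 Lam Lam' 129) (hL' : (10 : ℝ) ^ 10 ≤ Lam') :
    ∃ T : C(Q0 (-3 * ζ), ℝ), IsWall V 129 (-3 * ζ) (27 / 37) (3 / 4) T :=
  LbSq_936.exists_isWall W (-3 * ζ) (by norm_num) (hδ hL') (hδ2 hζ hL')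

/-! ### the numbers of `mem_OO_of_wall` and of `sep_final` (990) -/

theorem n_r {ζ : ℂ} (hζ : RZ ζ) : ‖-3 * ζ‖ + 3 ≤ 6 := by rw [norm_c hζ]; norm_num
theorem n_C : (16512 : ℝ) < 16513 := by norm_num

theorem n_CΛ {Λ : ℝ} (h : (10 : ℝ) ^ 10 ≤ Λ) : 6 * 16513 ≤ Λ ^ 2 := by nlinarith

theorem n_rΛ {Λ : ℝ} (h : (10 : ℝ) ^ 10 ≤ Λ) : 9 * (1 + 6) ^ 2 < Λ - 1 := by
  norm_num at h ⊢; linarith

theorem n_kC {Λ : ℝ} (h : (10 : ℝ) ^ 10 ≤ Λ) : 1 + 16513 + 2 * 16513 / Λ * 129 ≤ (129 : ℝ) ^ 2 := by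
  have h0 : (0 : ℝ) < Λ := lt_of_lt_of_le (by norm_num) h
  have h1 : (2 * 16513 / Λ * 129 : ℝ) ≤ 1 := by
    rw [div_mul_eq_mul_div, div_le_one h0]
    norm_num at h ⊢; linarith
  norm_num at h1 ⊢
  linarith

theorem m1_eq : (27 / 10 : ℝ) / (1 + 27 / 10) = 27 / 37 := by norm_num
theorem m2_eq : (3 : ℝ) / (1 + 3) = 3 / 4 := by norm_num

/-! ### the root of unity at the ball place -/

variable {O : Subring (Fin 2 → ℂ)} {z : Fin 2 → ℂ}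

theorem rz (h : Z5 O z) : RZ (z 0) where
  pow5 := by
    have := congrFun h.z5 0
    simpa using this
  neg := by
    rw [h.at0', gr]
    push_cast
    ring

end Crest.Agent.R272.WDn_702
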