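import Crest.Agent.R272.LbAd7_936
import Crest.Agent.R272.LbAsm3_990
import Crest.Agent.R272.MirW_702

/-!
# LB-WDATA (row 272, lower bound for S0415; helper620): dichotomies and the family of far vectors
-/

set_option autoImplicit false
set_option linter.unusedSectionVars false
set_option linter.unusedVariables false

open scoped ComplexConjugate

noncomputable section

namespace Crest.Agent.R272.WDt_620

open Crest.Agent.R272.EBase_641 Crest.Agent.R272.LbSq_936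
open Crest.Agent.R272.Cls_620 (Lb Z5 VV base Deep Cl Mir Int' HH pz e0 e1 e2 e3 ei rf mi Cg)
open Crest.Agent.R272.In_68 (Z5r io)
open Crest.Agent.R272.WM_74 (sc wv WM hh_wv wv_zero wv_one wv_two)

variable {O : Subring (Fin 2 → ℂ)} {z μ : Fin 2 → ℂ}

local notation "H" => Cls_620.hh (HH z)

/-! ### the dichotomies -/

/-- (D1) -/
theorem dich_vv (h : Z5 O z) {K : ℝ} (hD : Deep O z μ K) {a b : Lb}
    {v w : Fin 4 → Fin 2 → ℂ} (hv : v ∈ VV O z μ a) (hw : w ∈ VV O z μ b) :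
    ‖H v w 0‖ ≤ 4 ∨ K < ‖H v w 0‖ := by
  by_cases hle : ‖H v w 0‖ ≤ K
  · left
    rw [hD a b v (Cls_620.VV.low h hv) w (Cls_620.VV.low h hw) hle]
    exact Cls_620.gram_le h a b
  · right
    exact not_le.1 hle

theorem nrm_real (h : Z5 O z) (v : Fin 4 → Fin 2 → ℂ) : H v v 0 = (((H v v 0).re : ℝ) : ℂ) := by
  have h1 : star (H v v) = H v v := Cls_620.hh_star (HH z) h.frm.real v v
  have h2 := congrFun h1 0
  simp only [Pi.star_apply] at h2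
  exact (Complex.conj_eq_iff_re.mp h2).symm

theorem nrm_bd (h : Z5 O z) {a : Lb} {v : Fin 4 → Fin 2 → ℂ} (hv : v ∈ VV O z μ a) :
    ‖H v v 0‖ ≤ 2 := by
  have h1 := Cls_620.n_at0 h a
  rw [← hv.2.2] at h1
  rw [nrm_real h, Complex.norm_real, Real.norm_eq_abs, abs_of_nonneg h1.2]
  exact h1.1

/-- (D2) -/
theorem dich_vm (h : Z5 O z) {K Λ : ℝ} (hΛ : 0 ≤ Λ) (hK : Λ ^ 2 + 2 ≤ K) (hD : Deep O z μ K)
    {a : Lb} {v r : Fin 4 → Fin 2 → ℂ} (hv : v ∈ VV O z μ a) (hr : Mir O z μ r) :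
    ‖H v r 0‖ ≤ 4 ∨ Λ ≤ ‖H v r 0‖ := by
  have h1 := dich_vv h hD hv (hr.map h hv)
  have e : H v (rf (HH z) r v) 0 = H v v 0 - ((‖H v r 0‖ ^ 2 : ℝ) : ℂ) := by
    rw [rf, Cls_620.hh_sub_right, Cls_620.hh_smul_right]
    simp only [Pi.sub_apply, Pi.mul_apply, Pi.star_apply]
    congr 1
    rw [mul_comm, ← Complex.normSq_eq_norm_sq, ← Complex.mul_conj]
    rfl
  have h2 := nrm_bd h hv
  rw [e] at h1
  have h3 : ‖(((‖H v r 0‖ ^ 2 : ℝ)) : ℂ)‖ = ‖H v r 0‖ ^ 2 := by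
    rw [Complex.norm_real, Real.norm_eq_abs, abs_of_nonneg (sq_nonneg _)]
  have h4 := norm_nonneg (H v r 0)
  rcases h1 with h1 | h1
  · left
    have h5 : ‖(((‖H v r 0‖ ^ 2 : ℝ)) : ℂ)‖ ≤ ‖H v v 0‖ + ‖H v v 0 - ((‖H v r 0‖ ^ 2 : ℝ) : ℂ)‖ := by
      have := norm_sub_le (H v v 0) (H v v 0 - ((‖H v r 0‖ ^ 2 : ℝ) : ℂ))
      rwa [sub_sub_cancel] at this
    rw [h3] at h5
    nlinarith
  · right
    have h5 := norm_sub_le (H v v 0) ((‖H v r 0‖ ^ 2 : ℝ) : ℂ)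
    rw [h3] at h5
    have h6 : Λ ^ 2 ≤ ‖H v r 0‖ ^ 2 := by linarith
    exact le_of_sq_le_sq h6 h4

/-- (D3) -/
theorem dich_mm (h : Z5r O z) (hμ : μ ∈ O) {Λ : ℝ}
    (hN : 4 * Λ ^ 2 + 16 ≤ ∏ t, ‖(pz z * μ) t‖) {w w' : V1 3} (hw : w ∈ WM h μ)
    (hw' : w' ∈ WM h μ) : ‖hh w w'‖ ≤ 4 ∨ Λ ≤ ‖hh w w'‖ := by
  rcases (MirW_702.wsysP h hμ hN).sep w hw w' hw' with ⟨c, hc, e⟩ | h1
  · left
    rw [e, hh_smul_right, WM_74.WM_norm h w hw, norm_mul, Complex.norm_conj, hc]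
    norm_num
  · exact Or.inr h1

/-! ### the coordinates 0 and 1 -/

theorem hh_e0' (v : Fin 4 → Fin 2 → ℂ) : H v e0 = v 0 := by
  simp [Cls_620.hh, Fin.sum_univ_four, HH, e0]

theorem hh_e1' (v : Fin 4 → Fin 2 → ℂ) : H v e1 = v 1 := by
  simp [Cls_620.hh, Fin.sum_univ_four, HH, e1]

/-- (D4) -/
theorem far_or_std (h : Z5 O z) {K : ℝ} (hD : Deep O z μ K) {a : Lb}
    {v : Fin 4 → Fin 2 → ℂ} (hv : v ∈ VV O z μ a) :
    K < ‖v 0 0‖ ∨ K < ‖v 1 0‖ ∨ (v 0 = base z a 0 ∧ v 1 = base z a 1) := by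
  have b0 : base z .o ∈ VV O z μ .o := ⟨Cls_620.base_mem h .o, Cg.refl _ _, rfl⟩
  have b1 : base z (.n false) ∈ VV O z μ (.n false) :=
    ⟨Cls_620.base_mem h (.n false), Cg.refl _ _, rfl⟩
  have e0' : base z .o = e0 := rfl
  have e1' : base z (.n false) = e1 := rfl
  by_cases h0 : ‖v 0 0‖ ≤ K
  · by_cases h1 : ‖v 1 0‖ ≤ K
    · right; right
      have g0 := hD a .o v (Cls_620.VV.low h hv) _ (Cls_620.VV.low h b0)
      have g1 := hD a (.n false) v (Cls_620.VV.low h hv) _ (Cls_620.VV.low h b1)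
      rw [e0', hh_e0', hh_e0'] at g0
      rw [e1', hh_e1', hh_e1'] at g1
      exact ⟨g0 h0, g1 h1⟩
    · exact Or.inr (Or.inl (not_le.1 h1))
  · exact Or.inl (not_le.1 h0)

/-- the vectors of the classes `n false`, `v false j` which are not far are the base vectors -/
theorem eq_base (h : Z5 O z) {a : Lb} (ha : a = .n false ∨ ∃ j, a = .v false j)
    {v : Fin 4 → Fin 2 → ℂ} (hv : v ∈ VV O z μ a) (h0 : v 0 = base z a 0)
    (h1 : v 1 = base z a 1) : v = base z a := by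
  have hb : base z a ∈ VV O z μ a := ⟨Cls_620.base_mem h a, Cg.refl _ _, rfl⟩
  refine Cls_620.uniq h.ord h.frm (t := 1) (by decide) hv hb ?_
  rcases ha with rfl | ⟨j, rfl⟩
  · have e : base z (.n false) = e1 := rfl
    rw [e] at h1 ⊢
    rw [hh_e1', hh_e1', h1]
  · have e : base z (.v false j) = e1 - z ^ (j : ℕ) • e0 := rfl
    have k0 : ∀ u : Fin 4 → Fin 2 → ℂ, H u (base z (.v false j)) =
        u 1 - star (z ^ (j : ℕ)) * u 0 := by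
      intro u
      rw [e, Cls_620.hh_sub_right, Cls_620.hh_smul_right, hh_e0', hh_e1']
    rw [k0, k0, h0, h1]

/-- the bridges -/
theorem isBr_of (h : Z5r O z) {k : Fin 5} {v : Fin 4 → Fin 2 → ℂ}
    (hv : v ∈ VV O z μ (.b false k)) (h0 : v 0 = base z (.b false k) 0)
    (h1 : v 1 = base z (.b false k) 1) : IsBr (z 0) k (wv h v) := by
  have c0 : v 0 0 = -(z 0) ^ (k : ℕ) := by
    rw [h0]; simp [base, ei, e1, e0, e3]
  have c1 : v 1 0 = 1 := by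
    rw [h1]; simp [base, ei, e1, e0, e3]
  refine ⟨by rw [wv_zero, c0], by rw [wv_one, c1], ?_⟩
  have n1 := Cls_620.nrm_b h.toZ5 hv
  have e := hh_self (wv h v)
  rw [hh_wv] at e
  have e' := congrArg Complex.re e
  rw [Complex.ofReal_re, n1, EuclideanSpace.norm_sq_eq, Fin.sum_univ_three, wv_zero, wv_one,
    c0, c1, norm_neg, norm_pow, (rz_of h).norm] at e'
  simp only [one_pow, norm_one] at e'
  unfold gr
  linarith

/-! ### norms -/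

theorem nrm_lo (h : Z5 O z) {a : Lb} {v : Fin 4 → Fin 2 → ℂ} (hv : v ∈ VV O z μ a) :
    3 / 8 ≤ (H v v 0).re ∧ (H v v 0).re ≤ 2 := by
  have hs := Cls_620.sqrt5_bd
  refine ⟨?_, by have := (Cls_620.n_at0 h a).2; rw [hv.2.2]; exact (Cls_620.n_at0 h a).1⟩
  cases a with
  | o => rw [Cls_620.nrm_o hv]; norm_num
  | n i => rw [Cls_620.nrm_n hv]; norm_num
  | v i j => rw [Cls_620.nrm_v h hv]; norm_num
  | b i k => rw [Cls_620.nrm_b h hv]; linarith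

/-- bound at the definite place -/
theorem nrm_at1 (h : Z5 O z) {a : Lb} {v : Fin 4 → Fin 2 → ℂ} (hv : v ∈ VV O z μ a) :
    (H v v 1).re ≤ 3 := by
  rw [hv.2.2]; exact Cls_620.n_at1 h a

theorem H3_0 (h : Z5 O z) : (HH z 3 0).re = -(Real.sqrt 5 + 1) / 2 := by
  have : HH z 3 0 = z 0 ^ 2 + z 0 ^ 3 := rfl
  rw [this, h.at0', Complex.ofReal_re]

theorem H3_1 (h : Z5 O z) : (HH z 3 1).re = (Real.sqrt 5 - 1) / 2 := by
  have : HH z 3 1 = z 1 ^ 2 + z 1 ^ 3 := rfl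
  rw [this, h.at1', Complex.ofReal_re]

theorem Hi_t (z : Fin 2 → ℂ) {i : Fin 4} (hi : i ≠ 3) (t : Fin 2) : (HH z i t).re = 1 := by
  fin_cases i
  · simp [HH]
  · simp [HH]
  · simp [HH]
  · exact absurd rfl hi

/-- (D6) finiteness -/
theorem fin_of (h : Z5r O z) (T : ℝ) : {v : Fin 4 → Fin 2 → ℂ | Int' O v ∧ 0 ≤ (H v v 0).re ∧
    (H v v 1).re ≤ 3 ∧ ‖(wv h v).1‖ ≤ T}.Finite := by
  have hs := Cls_620.sqrt5_bd
  have h1 : (Set.pi Set.univ fun _ : Fin 4 =>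
      {x : Fin 2 → ℂ | x ∈ O ∧ ∀ t, ‖x t‖ ≤ T + 3}).Finite :=
    Set.Finite.pi fun _ => In_68.finite_O h _
  refine h1.subset ?_
  rintro v ⟨hv, hn0, hn1, hT⟩ i -
  have hT0 : 0 ≤ T := (norm_nonneg _).trans hT
  refine ⟨hv i, fun t => ?_⟩
  have r0 := Cls_620.re_diag h.toZ5.frm.real v 0
  have r1 := Cls_620.re_diag h.toZ5.frm.real v 1
  rw [Fin.sum_univ_four, Hi_t z (by decide), Hi_t z (by decide), Hi_t z (by decide),
    H3_0 h.toZ5] at r0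
  rw [Fin.sum_univ_four, Hi_t z (by decide), Hi_t z (by decide), Hi_t z (by decide),
    H3_1 h.toZ5] at r1
  have e : ‖(wv h v).1‖ ^ 2 = ‖v 0 0‖ ^ 2 + ‖v 1 0‖ ^ 2 + ‖v 2 0‖ ^ 2 := by
    rw [EuclideanSpace.norm_sq_eq, Fin.sum_univ_three, wv_zero, wv_one, wv_two]
  have hT2 : ‖(wv h v).1‖ ^ 2 ≤ T ^ 2 := pow_le_pow_left₀ (norm_nonneg _) hT 2
  have p00 := sq_nonneg ‖v 0 0‖
  have p10 := sq_nonneg ‖v 1 0‖
  have p20 := sq_nonneg ‖v 2 0‖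
  have p30 := sq_nonneg ‖v 3 0‖
  have p01 := sq_nonneg ‖v 0 1‖
  have p11 := sq_nonneg ‖v 1 1‖
  have p21 := sq_nonneg ‖v 2 1‖
  have p31 := sq_nonneg ‖v 3 1‖
  have q30 : ‖v 3 0‖ ^ 2 ≤ T ^ 2 := by nlinarith
  have q31 : ‖v 3 1‖ ^ 2 ≤ 9 := by nlinarith
  have q31' : 0 ≤ (Real.sqrt 5 - 1) / 2 * ‖v 3 1‖ ^ 2 := mul_nonneg (by linarith) p31
  refine le_of_sq_le_sq ?_ (by linarith)
  have b0 : ∀ x : ℝ, x ≤ T ^ 2 → x ≤ (T + 3) ^ 2 := fun x hx => by nlinarith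
  have b1 : ∀ x : ℝ, x ≤ 9 → x ≤ (T + 3) ^ 2 := fun x hx => by nlinarith
  fin_cases t
  · apply b0
    fin_cases i
    · show ‖v 0 0‖ ^ 2 ≤ _; linarith
    · show ‖v 1 0‖ ^ 2 ≤ _; linarith
    · show ‖v 2 0‖ ^ 2 ≤ _; linarith
    · exact q30
  · apply b1
    fin_cases i
    · show ‖v 0 1‖ ^ 2 ≤ _; linarith
    · show ‖v 1 1‖ ^ 2 ≤ _; linarith
    · show ‖v 2 1‖ ^ 2 ≤ _; linarith
    · exact q31

/-! ### the family -/

/-- the far vectors: of the branch classes of colour `false`, or mirrors -/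
def Far (h : Z5r O z) (μ : Fin 2 → ℂ) (Λ : ℝ) (x : V1 3) : Prop :=
  (x ∈ Sall (CC h μ) ∨ x ∈ WM h μ) ∧ Λ ^ 2 ≤ ‖x.1 0‖ ^ 2 + ‖x.1 1‖ ^ 2

/-- the index type -/
abbrev Ix (h : Z5r O z) (μ : Fin 2 → ℂ) (Λ : ℝ) : Type := {x : V1 3 // Far h μ Λ x}

/-- the norm -/
def Nn (x : V1 3) : ℝ := ‖x.1‖ ^ 2 - ‖x.2‖ ^ 2

theorem Nn_wv (h : Z5r O z) (v : Fin 4 → Fin 2 → ℂ) : Nn (wv h v) = (H v v 0).re := by
  have e := hh_self (wv h v)
  rw [hh_wv] at e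
  rw [e, Complex.ofReal_re]
  rfl

/-- what is known of the elements of the family -/
theorem Far.exists {h : Z5r O z} {Λ : ℝ} {x : V1 3} (hx : Far h μ Λ x) :
    ∃ v : Fin 4 → Fin 2 → ℂ, wv h v = x ∧ Int' O v ∧ 3 / 8 ≤ (H v v 0).re ∧
      (H v v 0).re ≤ 2 ∧ (H v v 1).re ≤ 3 ∧ ((∃ a, v ∈ VV O z μ a) ∨ Mir O z μ v) := by
  rcases hx.1 with ⟨a, -, v, hv, rfl⟩ | ⟨v, hv, rfl⟩
  · obtain ⟨n1, n2⟩ := nrm_lo h.toZ5 hv
    exact ⟨v, rfl, hv.1, n1, n2, nrm_at1 h.toZ5 hv, Or.inl ⟨a, hv⟩⟩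
  · refine ⟨v, rfl, hv.int, ?_, ?_, ?_, Or.inr hv⟩
    · rw [hv.two]; norm_num
    · rw [hv.two]; norm_num
    · rw [hv.two]; norm_num

theorem dich (h : Z5r O z) (hμ : μ ∈ O) {K Λ : ℝ} (hD : Deep O z μ K) (hΛ : 2 ≤ Λ)
    (hK : Λ ^ 2 + 2 ≤ K) (hN : 4 * Λ ^ 2 + 16 ≤ ∏ t, ‖(pz z * μ) t‖) {x y : V1 3}
    (hx : Far h μ Λ x) (hy : Far h μ Λ y) : ‖hh x y‖ ≤ 4 ∨ Λ ≤ ‖hh x y‖ := by
  have hΛ0 : 0 ≤ Λ := by linarith
  have hΛK : Λ ≤ K := by nlinarith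
  obtain ⟨v, rfl, -, -, -, -, hv⟩ := hx.exists
  obtain ⟨w, rfl, -, -, -, -, hw⟩ := hy.exists
  rcases hv with ⟨a, hv⟩ | hv
  · rcases hw with ⟨b, hw⟩ | hw
    · rw [hh_wv]
      rcases dich_vv h.toZ5 hD hv hw with h1 | h1
      · exact Or.inl h1
      · exact Or.inr (hΛK.trans h1.le)
    · rw [hh_wv]
      exact dich_vm h.toZ5 hΛ0 hK hD hv hw
  · rcases hw with ⟨b, hw⟩ | hw
    · rw [St2_702.norm_hh_symm, hh_wv]
      exact dich_vm h.toZ5 hΛ0 hK hD hw hv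
    · exact dich_mm h hμ hN ⟨v, hv, rfl⟩ ⟨w, hw, rfl⟩

/-- **WData** -/
theorem wdata (h : Z5r O z) (hμ : μ ∈ O) {K Λ : ℝ} (hD : Deep O z μ K) (hΛ : 2 ≤ Λ)
    (hK : Λ ^ 2 + 2 ≤ K) (hN : 4 * Λ ^ 2 + 16 ≤ ∏ t, ‖(pz z * μ) t‖) {Lam Lam' k : ℝ}
    (hk : 1 ≤ k) (hL : Lam ≤ Λ)
    (hLam : 4 * 2 * (2 + (3 * (2 * (2 * k) + LbCap_382.capA (3 / 8) 4)) ^ 2) < Lam)
    (hL0 : 0 < Lam') (hL' : Lam' ≤ Λ) (hkLam : k ^ 2 * 2 < Lam' ^ 2) :
    WData (Ix h μ Λ) (fun i => i.1) (fun i => Nn i.1) (3 / 8) 2 4 Lam Lam' k where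
  pv := by
    rintro ⟨x, hx⟩
    obtain ⟨v, rfl, -, n1, n2, -, -⟩ := hx.exists
    refine ⟨?_, rfl, ?_⟩
    · show 0 < Nn (wv h v)
      rw [Nn_wv]; linarith
    · intro h0
      have h1 : Nn (wv h v) ≤ 2 := by rw [Nn_wv]; exact n2
      have h0' : (wv h v).2 = 0 := h0
      have h2 := hx.2
      have h3 : ‖(wv h v).1‖ ^ 2 = ‖(wv h v).1 0‖ ^ 2 + ‖(wv h v).1 1‖ ^ 2 +
          ‖(wv h v).1 2‖ ^ 2 := by
        rw [EuclideanSpace.norm_sq_eq, Fin.sum_univ_three]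
      unfold Nn at h1
      rw [h0', norm_zero, h3] at h1
      nlinarith [sq_nonneg ‖(wv h v).1 2‖]
  min_pos := by norm_num
  le_min := by
    rintro ⟨x, hx⟩
    obtain ⟨v, rfl, -, n1, n2, -, -⟩ := hx.exists
    show _ ≤ Nn (wv h v)
    rw [Nn_wv]; exact n1
  le_max := by
    rintro ⟨x, hx⟩
    obtain ⟨v, rfl, -, n1, n2, -, -⟩ := hx.exists
    show Nn (wv h v) ≤ _
    rw [Nn_wv]; exact n2
  hk := hk
  hc0 := by norm_num
  dich := by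
    rintro ⟨x, hx⟩ ⟨y, hy⟩ -
    rcases dich h hμ hD hΛ hK hN hx hy with h1 | h1
    · exact Or.inl h1
    · exact Or.inr (hL.trans h1)
  hLam := hLam
  disc := by
    intro T
    have h1 := (fin_of h T).image (wv h)
    refine Set.Finite.of_finite_image (f := Subtype.val) (h1.subset ?_)
      Subtype.val_injective.injOn
    rintro _ ⟨⟨x, hx⟩, hT, rfl⟩
    obtain ⟨v, rfl, i, n1, n2, n3, -⟩ := hx.exists
    exact ⟨v, ⟨i, by linarith, n3, hT⟩, rfl⟩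
  hLam' := hL0
  far := by
    rintro ⟨x, hx⟩
    refine hL'.trans (le_of_sq_le_sq ?_ (norm_nonneg _))
    rw [norm_PP_sq]
    exact hx.2
  hkLam := hkLam

/-- **hrest** -/
theorem hrest (h : Z5r O z) {K Λ : ℝ} (hD : Deep O z μ K) (hΛ : 0 ≤ Λ) (hK : Λ ≤ K) :
    ∀ v ∈ Sall (CC h μ), v ∉ S0 (z 0) → (∃ i : Ix h μ Λ, i.1 = v) ∨ IsBr (z 0) 4 v ∨
      IsBr (z 0) 1 v ∨ IsBr (z 0) 2 v := by
  rintro v hS h0
  obtain ⟨a, ha, r, hr, e⟩ := id hS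
  by_cases hf : Λ ^ 2 ≤ ‖v.1 0‖ ^ 2 + ‖v.1 1‖ ^ 2
  · exact Or.inl ⟨⟨v, Or.inl hS, hf⟩, rfl⟩
  right
  have c0 := wv_zero h r
  have c1 := wv_one h r
  rw [e] at c0 c1
  have key : r 0 = base z a 0 ∧ r 1 = base z a 1 := by
    rcases far_or_std h.toZ5 hD hr with h1 | h1 | h1
    · exfalso
      apply hf
      rw [← c0] at h1
      nlinarith [norm_nonneg (v.1 0), sq_nonneg ‖v.1 1‖]
    · exfalso
      apply hf
      rw [← c1] at h1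
      nlinarith [norm_nonneg (v.1 1), sq_nonneg ‖v.1 0‖]
    · exact h1
  cases a with
  | o => exact ha.elim
  | n i =>
    cases i with
    | true => exact ha.elim
    | false =>
      exfalso
      have e1 := eq_base h.toZ5 (Or.inl rfl) hr key.1 key.2
      rw [e1, wv_n] at e
      exact h0 (mem_S0.2 (Or.inl e.symm))
  | v i j =>
    cases i with
    | true => exact ha.elim
    | false =>
      exfalso
      have e1 := eq_base h.toZ5 (Or.inr ⟨j, rfl⟩) hr key.1 key.2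
      rw [e1, wv_v] at e
      exact h0 (mem_S0.2 (Or.inr ⟨j, j.isLt, e⟩))
  | b i k =>
    cases i with
    | true => exact ha.elim
    | false =>
      have hB := isBr_of h hr key.1 key.2
      rw [e] at hB
      rcases ha with rfl | rfl | rfl
      · exact Or.inr (Or.inl hB)
      · exact Or.inr (Or.inr hB)
      · exact Or.inl hB

/-- **Link** -/
theorem link (h : Z5r O z) {Λ : ℝ} :
    LbAsm_990.Link (WM h μ) Λ (fun i : Ix h μ Λ => i.1) := by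
  intro w hw hB
  exact ⟨⟨w, Or.inr hw, hB.2⟩, 1, one_ne_zero, (one_smul ℂ w).symm⟩

end Crest.Agent.R272.WDt_620
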