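import Mathlib
import Crest.Agent.R272.LbX1_990
import Crest.Agent.R272.LbAd9_936
import Crest.Agent.R272.Ins2_939
import Crest.Agent.R272.WDt1_620
import Crest.Agent.R272.WDn1_702
import Crest.Agent.R272.As157_338
import Crest.Agent.R272.Arc2_297
import Crest.Agent.R272.Tq4_916

/-!
# The lower bound of S0415 over 939's `M : Ar` (row 272; helper936)

`lives`, `livesQ` : the period of the arc `Cur_297.arc 2` has infinite order in `π₁(X')`.
-/

set_option autoImplicit false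
set_option linter.unusedSectionVars false

open Set Filter Topology
open Crest.Agent.R272.EBase_641
open Crest.Agent.R272.Cls_620 (Lb Z5 VV base Deep SS)
open Crest.Agent.R272.In_68 (Z5r io)
open scoped ComplexConjugate unitInterval

noncomputable section

namespace Crest.Agent.R272.LbIn_936

open Crest.Agent.R272.M15_939 Crest.Agent.R272.LbSq_936 Crest.Agent.R272.LbAsm_990
open Crest.Agent.R272.Gr_559 Crest.Agent.R272.Quot_783 Crest.Agent.R272.MQ_783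
open Crest.Agent.R272.Refl_246
open Crest.Agent.R272.P0_939 (o3 cc cc_ne par)
open Crest.Agent.R272.Tp3_60 (Loc E6 tm km)
open Crest.Agent.R272.Tp1_60 (nn dd rat rat_ne)
open Crest.Agent.R272.Tq2_916 (toA)
open Crest.Agent.R272.Tq3_916 (zst)
open Crest.Agent.R272.Cur_297 (Par Cv Cz Pz tt kk cur seg ze)
open Crest.Agent.R272.AJ_956 Crest.Agent.R272.UB_20
open Crest.Agent.R272.Per_939 Crest.Agent.R272.CovOrd_463 Crest.Agent.R272.LbExt_259
open Crest.Agent.R272.TLoop_463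
open Crest.Agent.R272.As15_338 (Lives LivesQ)

/-- the threshold -/
def L0 : ℝ := 10 ^ 10

theorem L0_le : (10 : ℝ) ^ 10 ≤ L0 := le_refl _

theorem L0_big : 4 * L0 ^ 2 + 16 ≤ 10 ^ 200 := by unfold L0; norm_num

variable (M : Ar)

theorem mu_mem : M.μ ∈ O5_74.O5 := M.kd.mem

theorem claM : Cla (O5_74.z5v 0) (CC hz M.μ) (fun a => (M.R a).f) := cla hz M.deep2 M.R

theorem h0M : ∀ p : M.N, M.DX.f0 p = (M.R .o).f p.val := fun _ => rfl

theorem hxM : ∀ p : M.N, M.DX.x 0 p = (M.R (.v false 0)).f p.val := fun _ => rfl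

theorem hPM : ∀ p : M.N, M.DX.P 0 p = PF (fun a => (M.R a).f) p.val := by
  intro p
  show (M.R (.v false 1)).f p.val * (M.R (.v false 2)).f p.val * (M.R (.n false)).f p.val *
    ((M.R (.b false 1)).f p.val * (M.R (.b false 2)).f p.val) = _
  unfold PF
  ring

theorem hQM : ∀ p : M.N, M.DX.Q 0 p = QF (fun a => (M.R a).f) p.val := fun _ => rfl

/-! ### the numbers -/

theorem wd : WData (WDt_620.Ix hz M.μ L0) (fun i => i.1) (fun i => WDt_620.Nn i.1) (3 / 8) 2 4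
    L0 L0 129 :=
  WDt_620.wdata (K := L0 ^ 2 + 2) hz M.kd.mem (M.deep (by unfold L0; norm_num))
    (by unfold L0; norm_num) le_rfl (L0_big.trans M.level_big) (by norm_num) le_rfl
    (WDn_702.hLam L0_le) (by unfold L0; norm_num) le_rfl (WDn_702.hkLam L0_le)

theorem hrestM : ∀ v ∈ Sall (CC hz M.μ), v ∉ S0 (O5_74.z5v 0) →
    (∃ i : WDt_620.Ix hz M.μ L0, i.1 = v) ∨ IsBr (O5_74.z5v 0) 4 v ∨ IsBr (O5_74.z5v 0) 1 v ∨
      IsBr (O5_74.z5v 0) 2 v :=
  WDt_620.hrest (K := L0) hz (M.deep (by unfold L0; norm_num)) (by unfold L0; norm_num) le_rfl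

theorem linkM : Link (WM_74.WM hz M.μ) L0 (fun i : WDt_620.Ix hz M.μ L0 => i.1) :=
  WDt_620.link hz

/-! ### the segment -/

theorem sgm_seg (t : ℝ) : sgm (O5_74.z5v 0) t = Cur_297.seg 2 t := by
  unfold sgm Cur_297.seg
  rw [Ref_246.conj_z0' hz]
  ring

/-! ### the zero section -/

/-- the zero section of 916 over the local data `L` -/
structure ZS (L : Loc Pz M.N) (j : Cz × Cz → M.X) : Prop where
  src : M.p0 ∈ L.sh.source
  zero : L.sh M.p0 = 0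
  a : L.a M.p0 = M.bpt.p.a M.p0
  b : L.b 0 M.p0 = M.bpt.p.b M.p0
  val : ∀ x, M.A.val (j x) = toA (L.fro (zst x))

variable {M} {L : Loc Pz M.N} {j : Cz × Cz → M.X}

theorem ZS.fib (Z : ZS M L j) (hj : Continuous j) :
    Fib (cur Pz).iv P1.n P1.d (zX M.A) (tX M.A) (kX M.A) j :=
  fib_zs M.ρ L Z.src Z.zero (X1 := M.DX.X1) (j := j) hj Z.val

theorem ZS.t (Z : ZS M L j) (x : Cz × Cz) :
    tX M.A (j x) = tm Pz (M.bpt.p.a M.p0) (M.bpt.p.b M.p0) (tt x.1) := by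
  rw [← Z.a, ← Z.b]
  exact j_t M.ρ L Z.src Z.zero (X1 := M.DX.X1) (j := j) Z.val x

theorem tm_fin {P : Par} {a b : ℂ} (ha : a ≠ 0) (s : ℂ) :
    tm P a b (s : OnePoint ℂ) = ((b * (s - P.c 5) / a : ℂ) : OnePoint ℂ) := by
  show rat (b * s + -(P.c 5 * b) * 1) (0 * s + a * 1) = _
  rw [show (0 : ℂ) * s + a * 1 = a by ring, rat_ne ha]
  congr 2
  ring

theorem arc_ne (τ : I) (b : Bool) : Cur_297.arc 2 τ ≠ Tq4_916.pinf Pz b := by
  intro h
  have h1 := Cur_297.tt_arc 2 τ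
  rw [h, Tq4_916.tt_pinf] at h1
  exact OnePoint.infty_ne_coe _ h1

theorem arc_ne_iv (τ : I) (b : Bool) : Cur_297.arc 2 τ ≠ (cur Pz).iv (Tq4_916.pinf Pz b) := by
  intro h
  have h1 := Cur_297.tt_arc 2 τ
  rw [h] at h1
  have h2 : tt ((cur Pz).iv (Tq4_916.pinf Pz b)) = OnePoint.infty := rfl
  rw [h2] at h1
  exact OnePoint.infty_ne_coe _ h1

/-- **THE LOWER BOUND over `M : Ar`.** -/
theorem lives (Z : ZS M L j) (hj : Continuous j) (hsw : ∀ x, M.s • j x = j x.swap)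
    -- the surgery
    {X' : Type} [TopologicalSpace X'] {π' : X' → Orb M.G M.N} {Vs : Set X'}
    {ψ : X' → Orb M.G M.X} {eX : Set (Orb M.G M.X)}
    (Sg : Surg (orbMap M.A.pz M.A.pz_smul) π' Vs ψ eX)
    (heX : ∀ y : M.X, pr M.G y ∈ eX → ∃ (g : M.G) (x : Cz), y = g • j (x, (cur Pz).iv x))
    -- the torus
    {T : Type} [TopologicalSpace T] {q : Cz × Cz → T} (hq : Continuous q) {inc : T → X'}
    (hV : ∀ x : Cz × Cz, x ∉ (cur Pz).Gam →
      inc (q x) ∈ Vs ∧ ψ (inc (q x)) = pr M.G (j x)) :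
    Lives (cur Pz) hq inc (Cur_297.arc 2) := by
  intro Λ π J F hF hper v₀ hh H hs he
  have hg : ∀ x : Cz, x ≠ (cur Pz).iv (Tq4_916.pinf Pz true) →
      (x, Tq4_916.pinf Pz true) ∉ (cur Pz).Gam := by
    intro x hx h
    apply hx
    have h' : Tq4_916.pinf Pz true = (cur Pz).iv x := h
    rw [h', (cur Pz).iv_iv]
  have ha : M.bpt.p.a M.p0 ≠ 0 := M.bpt.p.a_ne _ M.bpt.p.mem
  have ht : ∀ τ : I, tX M.A (j (Cur_297.arc 2 τ, Tq4_916.pinf Pz true)) =
      ((M.bpt.p.b M.p0 * (sgm (O5_74.z5v 0) τ - 1) / M.bpt.p.a M.p0 : ℂ) : OnePoint ℂ) := by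
    intro τ
    rw [Z.t]
    show tm Pz _ _ (tt (Cur_297.arc 2 τ)) = _
    rw [Cur_297.tt_arc, tm_fin ha, sgm_seg]
    rfl
  refine lb_X M.A (M.Gd L0 L0_big) M.hW (M.hstab L0 L0_big)
    (fun g hg => ?_) (claM M) (h0M M) (hxM M) (hPM M) (hQM M) (p₀ := M.p0) ?_ M.bpt.p
    (cc := cc O5_74.z5v) (fun q => congrFun M.bpt_s0 q) (fun q => congrFun M.bpt_s1 q) ?_
    (linkM M) (wd M) (hrestM M) ?_ L0_le (C0 := 16513) WDn_702.n_C (WDn_702.n_CΛ L0_le)
    (WDn_702.n_kC L0_le) J hq (Z.fib hj) hsw Sg heX hF hper (P₀ := Tq4_916.pinf Pz true)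
    (fun x hx => (hV _ (hg x hx)).1) (fun x hx => (hV _ (hg x hx)).2)
    (γ := Cur_297.arc 2) (fun τ => ⟨arc_ne τ true, ?_⟩) (fun τ => ?_) (fun τ => ?_) H hs he v₀
  · rw [M.σ_of_mem hg]
    rfl
  · exact P0_939.o3_val M.ρ
  · rw [M.bpt.c_eq]
    rfl
  · exact lt_of_le_of_lt (WDn_702.slope_le L0_le) (by norm_num)
  · exact arc_ne_iv τ true
  · rw [ht]
    show dd (((_ : ℂ)) : OnePoint ℂ) ≠ 0
    rw [Tp1_60.dd_coe]
    exact one_ne_zero
  · rw [ht]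
    show M.bpt.p.a M.p0 * nn (((_ : ℂ)) : OnePoint ℂ) =
      _ * (M.bpt.p.b M.p0 * dd (((_ : ℂ)) : OnePoint ℂ))
    rw [Tp1_60.nn_coe, Tp1_60.dd_coe]
    field_simp

/-- the same in 338's form for a map `q : C × C → X'` -/
theorem livesQ (Z : ZS M L j) (hj : Continuous j) (hsw : ∀ x, M.s • j x = j x.swap)
    {X' : Type} [TopologicalSpace X'] {π' : X' → Orb M.G M.N} {Vs : Set X'}
    {ψ : X' → Orb M.G M.X} {eX : Set (Orb M.G M.X)}
    (Sg : Surg (orbMap M.A.pz M.A.pz_smul) π' Vs ψ eX)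
    (heX : ∀ y : M.X, pr M.G y ∈ eX → ∃ (g : M.G) (x : Cz), y = g • j (x, (cur Pz).iv x))
    {q : Cz × Cz → X'}
    (hV : ∀ x : Cz × Cz, x ∉ (cur Pz).Gam → q x ∈ Vs ∧ ψ (q x) = pr M.G (j x)) :
    LivesQ (cur Pz) q (Cur_297.arc 2) :=
  fun hq => lives Z hj hsw Sg heX hq (inc := (Subtype.val : range q → X')) hV

end Crest.Agent.R272.LbIn_936
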