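import Crest.Agent.R272.Md1_834
import Crest.Agent.R272.LbIn1_936
import Crest.Agent.R272.Lc12_220
import Crest.Agent.R272.Arc2_297

/-!
# R272, S15-ASM (helper338): final composition of S0415 over 834's `W : Md M`

`s15_W` : S0415 from `W : Md M`, 936's `ZS` (value of the zero section), 220's `germ` (the line bundle
near the new fibre) and the three dying arcs (20).
-/

set_option autoImplicit false
set_option linter.unusedSectionVars false

open Set Filter Topology

namespace Crest.Agent.R272.Fin_338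

open Crest.Agent.R275.Geo Crest.Agent.R273.Fam_835
open Crest.Agent.R272.MQ_783 Crest.Agent.R272.Refl_246
open Crest.Agent.R272.HFam_342 Crest.Agent.R272.Sur_342 Crest.Agent.R272.Flop_66
open Crest.Agent.R272.AJ_956 Crest.Agent.R272.Idn_834 Crest.Agent.R272.Ax_834
open Crest.Agent.R272.Cur_297 Crest.Agent.R272.K3E_227 Crest.Agent.R272.M15_939
open Crest.Agent.R272.LbExt_259 Crest.Agent.R272.As15_338 Crest.Agent.R272.Comp_259
open Crest.Agent.R272.Md_834 Crest.Agent.R272.Tp3_60 Crest.Agent.R272.CB_232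

noncomputable section

variable {M : Ar} (W : Md M)

/-- 990's `heX` -/
theorem heX (y : M.X) (hy : pr M.G y ∈ W.S.K) :
    ∃ (g : M.G) (x : Cz), y = g • W.z (x, (cur Pz).iv x) := W.mem_K_pr.1 hy

/-- **the living arc** -/
theorem live2 {L : Loc Pz M.N} (ZS : LbIn_936.ZS M L W.z) :
    Lives (cur Pz) W.hq.cont W.inc (Cur_297.arc 2) :=
  LbIn_936.lives ZS W.Z.cont W.Z.swap W.surg (heX W) W.hq.cont W.hpsi

/-- **S0415 over the model** -/
theorem s15_W {L : Loc Pz M.N} (ZS : LbIn_936.ZS M L W.z) (k : ℕ)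
    (germ : ∀ m₀ : ℕ, ∃ mm : ℕ, m₀ ≤ mm ∧ Nonempty (PEnd_732.PhiS W.S W.ra.fam Up.fam (piM M.A)
      (Pos15_220.q0 M) (Pos15_220.JM W.ra) (Pos15_220.R W.ra) mm k))
    (die1 : Dies (cur Pz) W.hq.cont W.inc (Cur_297.arc 1))
    (die3 : Dies (cur Pz) W.hq.cont W.inc (Cur_297.arc 3))
    (die4 : Dies (cur Pz) W.hq.cont W.inc (Cur_297.arc 4)) : S15 :=
  W.s15 _ k germ (Cur_297.arc 1) (iv_arc_zero 1) (iv_arc_one 1) die1 (live2 W ZS) die3 die4

end

end Crest.Agent.R272.Fin_338
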