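import Crest.Agent.R272.UB11_20

/-!
# R272, leaf UB-DISC (helper20), part 12: the upper bound over the arithmetic instance

`dies_j1`, `dies_j3`, `dies_j4` : the periods of the arcs 1, 3, 4 die in `π₁(XP)`.
-/

set_option autoImplicit false
set_option linter.unusedSectionVars false

open Set Filter Topology OnePoint

namespace Crest.Agent.R272.UB_20

open Crest.Agent.R272.EBase_641 Crest.Agent.R272.GLoc_620
open Crest.Agent.R272.Cls_620 Crest.Agent.R272.Quot_783 Crest.Agent.R272.GI_620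
open Crest.Agent.R272.In_68 (Z5r io)
open Crest.Agent.R272.Gr_559 (GData)
open Crest.Agent.R273.Fam_835
open Crest.Agent.R272.Tp3_60 Crest.Agent.R272.Tq2_916 Crest.Agent.R272.Tq3_916
open Crest.Agent.R272.Cur_297 (Par Cv Cset Eqn tt kk iv negP continuous_tt continuous_kk Pz Cz cur
  seg ze arc tt_arc eq_arc)
open Crest.Agent.R272.Act_302 (GAct)
open Crest.Agent.R272.AJ_956 Crest.Agent.R272.As15_338
open Crest.Agent.R272.P0_939 (o3 o3_val)

noncomputable section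

local notation "I" => unitInterval

/-- the two slopes -/
def slp (z : Fin 2 → ℂ) (k : Fin 5) (i : Fin 2) (t : ℝ) : ℂ :=
  if i = 0 then uv (et z) k t else 1 / 10

theorem uv_seg (η : ℂ) (k : Fin 5) (t : ℝ) : uv η k t = η ^ ((k : ℕ) + 2) * (1 + t * (η - 1)) := by
  unfold uv wv
  ring

section inst

variable {O : Subring (Fin 2 → ℂ)} {z μ : Fin 2 → ℂ} (h : Z5r O z)
variable {G : Type} [Group G] {ρ : G →* UG 3} {kk : ℕ} (R : ∀ a : Lb, Root 3 kk ρ (SS h μ a))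
variable {Γ : Type} [Group Γ] (ρ' : Γ →* UG 3) (hμ : μ ∈ O) (hD : Deep O z μ 2)

theorem et_eq (h : Z5r O z) : et z = ze := Ref_246.conj_z0' h

theorem uv_ne (h : Z5r O z) (k : Fin 5) (t : ℝ) : uv (et z) k t ≠ 1 / 10 := by
  intro h0
  have h1 := congrArg Complex.normSq h0
  have e : (1 / 10 : ℂ) = ((1 / 10 : ℝ) : ℂ) := by push_cast; ring
  rw [uv, map_mul, normSq_pow1 (eta_et h), one_mul, normSq_wv (eta_et h), e,
    Complex.normSq_ofReal] at h1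
  have h2 := gr_lo
  have h3 := gr_hi
  have h4 : 0 ≤ (1 - 2 * t) ^ 2 * ((3 - gr) / 4) := mul_nonneg (sq_nonneg _) (by linarith)
  nlinarith

/-- the coordinates of the cluster point -/
structure LData (L : Loc Pz (BX ρ')) : Prop where
  mem : o3 ρ' ∈ L.sh.source
  sh : ∃ κ : ℂ, κ ≠ 0 ∧ ∀ y ∈ L.sh.source, L.sh y = (κ * y.val 0, κ * y.val 1, κ * y.val 2)

variable {ρ'} {L : Loc Pz (BX ρ')} (hL : LData ρ' L)
include hL

theorem LData.zero : L.sh (o3 ρ') = 0 := by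
  obtain ⟨κ, hκ, h1⟩ := hL.sh
  rw [h1 _ hL.mem]
  show (κ * (0 : E 3) 0, κ * (0 : E 3) 1, κ * (0 : E 3) 2) = 0
  simp

theorem LData.h0 : (0 : ℂ × ℂ × ℂ) ∈ L.sh.target := by
  rw [← hL.zero]
  exact L.sh.map_source hL.mem

theorem LData.symm : L.sh.symm 0 = o3 ρ' := by
  rw [← hL.zero]
  exact L.sh.left_inv hL.mem

theorem adp_bz {k : Fin 5} {sw : Bool} {S : SqD (gdata h R ρ' hμ hD) sw}
    (hz : S.z = bz h ρ' k) : Adp S L (slp z k) where
  h0 := hL.h0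
  z0 t ht := by
    have hp : ((0 : ℝ), t) ∈ sqr := ⟨⟨le_refl _, zero_le_one⟩, ht⟩
    rw [hz, hL.symm]
    apply BX.ext
    rw [bz_val h ρ' k hp, o3_val]
    ext i
    fin_cases i <;> simp [zz]
  sh := by
    obtain ⟨κ, hκ, h1⟩ := hL.sh
    refine ⟨fun t => κ * Lv (et z) k t, fun t => mul_ne_zero hκ (Lv_ne (eta_et h) k t), ?_⟩
    intro p hp hps
    rw [h1 _ hps, hz, bz_val h ρ' k hp]
    show (κ * ((p.1 : ℂ) * Lv (et z) k p.2), κ * ((p.1 : ℂ) * Lv (et z) k p.2 * uv (et z) k p.2),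
      κ * ((p.1 : ℂ) * Lv (et z) k p.2 * (1 / 10))) =
      ((p.1 : ℂ) * (κ * Lv (et z) k p.2), (p.1 : ℂ) * (κ * Lv (et z) k p.2) * uv (et z) k p.2,
        (p.1 : ℂ) * (κ * Lv (et z) k p.2) * (1 / 10))
    refine Prod.ext ?_ (Prod.ext ?_ ?_) <;> simp only <;> ring

variable {A : GAct (gdata h R ρ' hμ hD) Γ} {s₀ : Γ} {zE : Cz × Cz → A.X}
  (H : ZData A L s₀ zE) (hD' : Deep O z μ 13)
include H hD'

/-- **the period of the arc `j` dies**, `(j, k)` with `ζ^(k+2) = ζ^j` -/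
theorem dies_gen (X : Set (E6 (BX ρ')))
    (hX : ∀ y : E6 (BX ρ'), y.1 ∈ L.sh.source → (y ∈ X ↔ RelX L y))
    (hXD : ∀ y : E6 (BX ρ'), y ∈ X ↔ toA y ∈ (gdata h R ρ' hμ hD).X1)
    {M : Type} [TopologicalSpace M] (f : A.X → M)
    (hf : ContinuousOn f {y | ∀ (g : Γ) (c : Cz), y ≠ g • zE (c, iv c)})
    {T : Type} [TopologicalSpace T] {q : Cz × Cz → T} (hq : Continuous q) (inc : T → M)
    (hinc : ∀ x : Cz × Cz, x.2 ≠ iv x.1 → inc (q x) = f (zE x)) {k : Fin 5} {sw : Bool}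
    (hk : Adm k sw) {j : ℕ} (hj : ze ^ ((k : ℕ) + 2) = ze ^ j) :
    Dies (cur Pz) hq inc (arc j) := by
  obtain ⟨U, hU⟩ := exists_isUU h R hD hD'
  obtain ⟨S, hz, -, -⟩ := exists_sqd h R ρ' hU k hμ hD hk
  have hA := adp_bz h R hμ hD hL hz
  refine dies_sq H X hX hXD hA (x := 1 / 10) (fun t _ => rfl) (fun t _ => uv_ne h k t) f hf hq inc
    hinc (fun t _ => ?_)
  show uv (et z) k t = seg j t
  rw [uv_seg, et_eq h, hj]
  rfl

theorem dies_j (X : Set (E6 (BX ρ')))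
    (hX : ∀ y : E6 (BX ρ'), y.1 ∈ L.sh.source → (y ∈ X ↔ RelX L y))
    (hXD : ∀ y : E6 (BX ρ'), y ∈ X ↔ toA y ∈ (gdata h R ρ' hμ hD).X1)
    {M : Type} [TopologicalSpace M] (f : A.X → M)
    (hf : ContinuousOn f {y | ∀ (g : Γ) (c : Cz), y ≠ g • zE (c, iv c)})
    {T : Type} [TopologicalSpace T] {q : Cz × Cz → T} (hq : Continuous q) (inc : T → M)
    (hinc : ∀ x : Cz × Cz, x.2 ≠ iv x.1 → inc (q x) = f (zE x)) :
    Dies (cur Pz) hq inc (arc 1) ∧ Dies (cur Pz) hq inc (arc 3) ∧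
      Dies (cur Pz) hq inc (arc 4) := by
  have h5 := Cur_297.ze_pow
  refine ⟨?_, ?_, ?_⟩
  · refine dies_gen h R hμ hD hL H hD' X hX hXD f hf hq inc hinc (k := 4) (sw := false)
      (Or.inl ⟨rfl, rfl⟩) ?_
    show ze ^ 6 = ze ^ 1
    rw [pow_succ, h5, one_mul, pow_one]
  · exact dies_gen h R hμ hD hL H hD' X hX hXD f hf hq inc hinc (k := 1) (sw := true)
      (Or.inr (Or.inl ⟨rfl, rfl⟩)) rfl
  · exact dies_gen h R hμ hD hL H hD' X hX hXD f hf hq inc hinc (k := 2) (sw := true)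
      (Or.inr (Or.inr ⟨rfl, rfl⟩)) rfl

end inst

end

end Crest.Agent.R272.UB_20
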