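import Crest.Agent.R272.Fin4_338
import Crest.Agent.R272.UB12_20

/-!
# R272, S15-ASM (helper338): the three dying arcs over `W : Md M`

`die15` : 20's `dies_j` over 939's `M : Ar`, 916's `Γ : GE M`, 834's `W : Md M`.
-/

set_option autoImplicit false
set_option linter.unusedSectionVars false
set_option linter.unusedVariables false

open Set Filter Topology OnePoint

namespace Crest.Agent.R272.Fin_338

open Crest.Agent.R275.Geo Crest.Agent.R273.Fam_835
open Crest.Agent.R272 Crest.Agent.R272.MQ_783 Crest.Agent.R272.Refl_246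
open Crest.Agent.R272.HFam_342 Crest.Agent.R272.Sur_342 Crest.Agent.R272.Flop_66
open Crest.Agent.R272.AJ_956 Crest.Agent.R272.Idn_834 Crest.Agent.R272.Ax_834
open Crest.Agent.R272.Cur_297 Crest.Agent.R272.K3E_227 Crest.Agent.R272.M15_939
open Crest.Agent.R272.LbExt_259 Crest.Agent.R272.As15_338 Crest.Agent.R272.Comp_259
open Crest.Agent.R272.Md_834 Crest.Agent.R272.Tp3_60 Crest.Agent.R272.CB_232
open Crest.Agent.R272.Tq12_916 Crest.Agent.R272.Tq11_916 Crest.Agent.R272.Lc_220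
open Crest.Agent.R272.Tq3_916 (zst FEij DEij DEm)
open Crest.Agent.R272.Tp6_60 (toA)

noncomputable section

variable {M : Ar} {Γ : GE M}

theorem symm_zero (Γ : GE M) : Γ.L.sh.symm 0 = M.p0 := by
  rw [← Γ.sh_q]
  exact Γ.L.sh.left_inv Γ.q_mem

/-- 20's zero section -/
theorem zData (hΓ : Pens M Γ) : UB_20.ZData M.A Γ.L M.s (zG Γ) where
  val _ := rfl
  swap := (zsecM Γ).swap
  stab := by
    rw [symm_zero]
    exact M.bpt.stab
  f0 := by
    rw [symm_zero]
    exact M.bpt.f0_zero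
  h0 := by
    rw [← Γ.sh_q]
    exact Γ.L.sh.map_source Γ.q_mem

/-- 20's chart at the cluster point -/
theorem lData (hΓ : Pens M Γ) : UB_20.LData M.ρ Γ.L where
  mem := Γ.q_mem
  sh := ⟨P0_939.cc O5_74.z5v, P0_939.cc_ne hz, fun y hy => by
    rw [(hΓ.eq y hy).1, M.bpt_s0, M.bpt_s1, M.bpt_s1']⟩

/-- **the three dying arcs** -/
theorem die15 (M : Ar) (Γ : GE M) (hΓ : Pens M Γ) (W : Md M) (w1 : W.Ge = Γ.g) (w2 : W.z = zG Γ) :
    Dies (cur Pz) W.hq.cont W.inc (Cur_297.arc 1) ∧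
      Dies (cur Pz) W.hq.cont W.inc (Cur_297.arc 3) ∧
      Dies (cur Pz) W.hq.cont W.inc (Cur_297.arc 4) := by
  refine UB_20.dies_j hz M.R M.kd.mem M.deep2 (lData hΓ) (zData hΓ) (M.deep (by norm_num))
    {y | toA M.N y ∈ M.DX.X1} Γ.hX (fun y => Iff.rfl) (fun y => W.S.iota (pr M.G y)) ?_
    W.hq.cont W.inc ?_
  · have hc : Continuous (pr M.G : M.X → Orb M.G M.X) := continuous_quotient_mk'
    refine ContinuousOn.comp (s := {y : M.X | ∀ (g : M.G) (c : Cz), y ≠ g • zG Γ (c, iv c)})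
      (f := (pr M.G : M.X → Orb M.G M.X)) W.S.iota.continuousOn hc.continuousOn fun y hy => ?_
    rw [W.S.mem_iota_source, W.mem_K_pr]
    rintro ⟨g, c, h⟩
    rw [w2] at h
    exact hy g c h
  · intro x hx
    show W.inc (W.q x) = W.S.iota (pr M.G (zG Γ x))
    rw [W.inc_q x hx, w2]

end

end Crest.Agent.R272.Fin_338
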