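import Crest.Agent.R272.Fin5_338
import Crest.Agent.R272.CmG_220

/-!
# R272, S15-ASM (helper338): S0415 from the collar alone

`s15_col` : `cmp` = 220's `cmp15`, `die` = `die15` (20), so only 92's collar is an argument.
-/

set_option autoImplicit false
set_option linter.unusedSectionVars false
set_option linter.unusedVariables false

namespace Crest.Agent.R272.Fin_338

open Crest.Agent.R272.M15_939 Crest.Agent.R272.Comp_259 Crest.Agent.R272.Md_834
open Crest.Agent.R272.Tq12_916 Crest.Agent.R272.Tq11_916

/-- **S0415 from the collar** -/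
theorem s15_col (M : Ar)
    (col : ∀ Γ : GE M, Pens M Γ → ∀ Y : YB M Γ, ∀ W : Md M, W.Ge = Γ.g → W.z = zG Γ → COL Y W) :
    S15 :=
  s15_of' M (Cm_220.cmp15 M) col (die15 M)

end Crest.Agent.R272.Fin_338
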