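import Crest.Agent.R272.FinPos3_876

/-!
# R272, model division (helper876), FIN-POS, file 4: the main theorem

`fin_pos`     : finitely many holomorphic sections `y_a` of `L` over the open `W`, `K ⊆ W` compact,
                no common zero on `K`, finite fibres of `[y]` on `K` ⟹ for all large `k` a metric of
                `L ^ k` over a neighbourhood `W'` of `K`, positive in ALL directions.
`fin_pos_map` : `K = p ⁻¹' {q}`, `p` proper: the metric lives over `p ⁻¹' V`, `V` open, `q ∈ V`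
                (input of `glue` / `glue_pos` of `PosGlue_232`).
-/

set_option autoImplicit false
set_option linter.unusedSectionVars false

open Set Filter Topology Complex
open scoped ContDiff Matrix ComplexConjugate Manifold

namespace Crest.Agent.R272.FinPos4_876

open Crest.Agent.R275.Geo Crest.Agent.R275.Core144 Crest.Agent.R273.Defs_333
open Crest.Agent.R273.Map_835 Crest.Agent.R273
open Crest.Agent.R272.PosGlue_232 Crest.Agent.R272.FinPos1_876 Crest.Agent.R272.FinPos2_876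
open Crest.Agent.R272.FinPos3_876

noncomputable section

variable {n m : ℕ} {M : Type} [TopologicalSpace M] {A : Atl n M} {L : LB A} {W K : Set M}
  {y : Fin m → A.ι → M → ℂ}

/-- no common zero on `K` -/
def NoZero (A : Atl n M) (y : Fin m → A.ι → M → ℂ) (K : Set M) : Prop :=
  ∀ x ∈ K, ∃ i a, x ∈ (A.e i).source ∧ y a i x ≠ 0

/-- finite fibres on `K`: for every `q ∈ K` and some chart at `q`, only finitely many `x ∈ K` have
`y(x)` proportional to `y(q)` -/
def FinFib (A : Atl n M) (y : Fin m → A.ι → M → ℂ) (K : Set M) : Prop :=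
  ∀ q ∈ K, ∃ i, q ∈ (A.e i).source ∧
    {x | x ∈ K ∧ ∀ j, x ∈ (A.e j).source → ∀ a b, y a i q * y b j x = y b i q * y a j x}.Finite

/-- data at one point -/
theorem exists_local [T2Space M] (hW : IsOpen W) (hy : ∀ a, IsHS L W (y a)) (hK : IsCompact K)
    (hKN : K ⊆ NZ y W) {q : M} (hq : q ∈ K) (hf : ∃ i, q ∈ (A.e i).source ∧
      {x | x ∈ K ∧ ∀ j, x ∈ (A.e j).source → ∀ a b, y a i q * y b j x = y b i q * y a j x}.Finite) :
    ∃ (U : Set M) (θ : M → ℝ) (ε : ℝ), IsOpen U ∧ 0 < ε ∧ Psh A θ U ∧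
      ∀ x ∈ K, x ∉ U → ε ≤ dd (yv y q) (yv y x) := by
  obtain ⟨i, hi, hfin⟩ := hf
  obtain ⟨U, θ, hU, hFU, hθ⟩ := exists_theta A hfin
  have hne : ∀ x ∈ K, x ∉ U → 0 < dd (yv y q) (yv y x) := by
    intro x hx hxU
    refine (dd_nonneg _ _).lt_of_ne' fun h0 => hxU (hFU ⟨hx, fun j hj a b => ?_⟩)
    have hxN := hKN hx
    have h1 : dd (yv y q) (fun a => y a j x) = 0 := by rw [← dd_yv hy hxN.1 hj, h0]
    have h2 := dd_eq_zero (nz_chart hy hxN hj) h1 a b
    rw [yv_eq hy (hKN hq).1 hi] at h2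
    have h3 := L.ne_zero (cx A q) i q
    have h4 : L.g (cx A q) i q * (y a i q * y b j x) =
        L.g (cx A q) i q * (y b i q * y a j x) := by linear_combination h2
    exact mul_left_cancel₀ h3 h4
  have hKU : IsCompact (K \ U) := hK.diff hU
  have hcont : ContinuousOn (fun x => dd (yv y q) (yv y x)) (K \ U) := fun x hx =>
    (dd_cont hW hy (yv y q) (hKN hx.1)).continuousWithinAt
  rcases (K \ U).eq_empty_or_nonempty with he | hne'
  · refine ⟨U, θ, 1, hU, one_pos, hθ, fun x hx hxU => ?_⟩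
    exact absurd (show x ∈ K \ U from ⟨hx, hxU⟩) (by rw [he]; exact notMem_empty x)
  · obtain ⟨x₀, hx₀, hmin⟩ := hKU.exists_isMinOn hne' hcont
    exact ⟨U, θ, _, hU, hne x₀ hx₀.1 hx₀.2, hθ, fun x hx hxU => hmin ⟨hx, hxU⟩⟩

/-- **FIN-POS** -/
theorem fin_pos [T2Space M] (hW : IsOpen W) (hK : IsCompact K) (hKW : K ⊆ W)
    (hy : ∀ a, IsHS L W (y a)) (hnz : NoZero A y K) (hfin : FinFib A y K) :
    ∃ k₀ : ℕ, ∀ k, k₀ ≤ k → ∃ W' : Set M, IsOpen W' ∧ K ⊆ W' ∧ W' ⊆ W ∧
      ∃ h : HMo (L ^ k) W', ∀ x ∈ W', PosAtO h x := by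
  classical
  have hKN : K ⊆ NZ y W := fun x hx => ⟨hKW hx, hnz x hx⟩
  have hNo := isOpen_nz hW hy
  have hloc := fun (q : M) (hq : q ∈ K) => exists_local hW hy hK hKN hq (hfin q hq)
  choose! U θ ε hUo hε hθ hbd using hloc
  -- finitely many points
  have hcov : ∀ q ∈ K, {x | x ∈ NZ y W ∧ dd (yv y q) (yv y x) < ε q / 4} ∈ 𝓝 q := by
    intro q hq
    have h1 : dd (yv y q) (yv y q) < ε q / 4 := by
      rw [dd_self]
      have := hε q hq
      positivity
    filter_upwards [hNo.mem_nhds (hKN hq),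
      (dd_cont hW hy (yv y q) (hKN hq)).eventually (gt_mem_nhds h1)] with x h2 h3
    exact ⟨h2, h3⟩
  obtain ⟨t, htK, hKt⟩ := hK.elim_nhds_subcover _ hcov
  -- the neighbourhood
  let G : M → Set M := fun q => {x | x ∈ NZ y W ∧ (x ∈ U q ∨ ε q / 2 < dd (yv y q) (yv y x))}
  have hGo : ∀ q ∈ K, IsOpen (G q) := by
    intro q hq
    rw [isOpen_iff_mem_nhds]
    rintro x ⟨hx, hx'⟩
    rcases hx' with h | h
    · filter_upwards [hNo.mem_nhds hx, (hUo q hq).mem_nhds h] with x' h1 h2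
      exact ⟨h1, Or.inl h2⟩
    · filter_upwards [hNo.mem_nhds hx,
        (dd_cont hW hy (yv y q) hx).eventually (lt_mem_nhds h)] with x' h1 h2
      exact ⟨h1, Or.inr h2⟩
  let W₁ : Set M := NZ y W ∩ ⋂ q ∈ t, G q
  have hW₁o : IsOpen W₁ := hNo.inter (isOpen_biInter_finset fun q hq => hGo q (htK q hq))
  have hW₁ : W₁ ⊆ NZ y W := inter_subset_left
  have hKW₁ : K ⊆ W₁ := by
    intro x hx
    refine ⟨hKN hx, mem_iInter₂.2 fun q hq => ⟨hKN hx, ?_⟩⟩
    by_cases hxU : x ∈ U q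
    · exact Or.inl hxU
    · refine Or.inr ?_
      have h1 := hbd q (htK q hq) x hx hxU
      have h2 := hε q (htK q hq)
      linarith
  let ψ : M → ℝ := fun x => ∑ q ∈ t, chi (yv y q) (ε q) (yv y x) * θ q x
  have hterm : ∀ x ∈ W₁, ∀ i, x ∈ (A.e i).source → ∀ q ∈ t,
      ContDiffAt ℝ ∞ (fun w => chi (yv y q) (ε q) (yv y ((A.e i).symm w)) *
        θ q ((A.e i).symm w)) (A.e i x) := by
    intro x hx i hi q hq
    exact term_smooth hW hy (hε q (htK q hq)) (hθ q (htK q hq)) hi hx.1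
      ((mem_iInter₂.1 hx.2 q hq).2)
  have hψ : ∀ x ∈ W₁, ∀ i, x ∈ (A.e i).source →
      ContDiffAt ℝ ∞ (fun w => ψ ((A.e i).symm w)) (A.e i x) := fun x hx i hi =>
    ContDiffAt.sum fun q hq => hterm x hx i hi q hq
  -- smoothness on the chart domains
  have hu1 : ∀ i, ContDiffOn ℝ ∞ (fun w => ψ ((A.e i).symm w))
      ((A.e i).target ∩ (A.e i).symm ⁻¹' W₁) := by
    rintro i z ⟨hz, hzW⟩
    have := hψ _ hzW i ((A.e i).map_target hz)
    rw [(A.e i).right_inv hz] at this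
    exact this.contDiffWithinAt
  have hya : ∀ i, ∀ z ∈ (A.e i).target ∩ (A.e i).symm ⁻¹' W₁, ∀ a,
      AnalyticAt ℂ (fun w => y a i ((A.e i).symm w)) z := by
    rintro i z ⟨hz, hzW⟩ a
    have := y_diff hW hy ((A.e i).map_target hz) (hW₁ hzW).1 a
    rwa [(A.e i).right_inv hz] at this
  have hnz' : ∀ i, ∀ z ∈ (A.e i).target ∩ (A.e i).symm ⁻¹' W₁,
      ∃ a, y a i ((A.e i).symm z) ≠ 0 := fun i z hz =>
    nz_chart hy (hW₁ hz.2) ((A.e i).map_target hz.1)
  have hu2 : ∀ i, ContDiffOn ℝ ∞ (fun w => Real.log (ss (fun a => y a i ((A.e i).symm w))))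
      ((A.e i).target ∩ (A.e i).symm ⁻¹' W₁) := by
    intro i z hz
    have k3 : ContDiffAt ℝ ∞ (fun w => ss (fun a => y a i ((A.e i).symm w))) z :=
      ContDiffAt.sum fun a _ => Levi_145.c2_normSq (hya i z hz a) ∞
    exact (k3.log (ss_pos (hnz' i z hz)).ne').contDiffWithinAt
  -- local statement
  have hloc : ∀ x ∈ K, ∃ m₀ : ℕ, ∀ᶠ x' in 𝓝[K] x, ∀ k : ℕ, m₀ ≤ k →
      PosAtO (met hy hW hW₁ ψ hψ k) x' := by
    intro x hx
    obtain ⟨i, hi⟩ := A.cover x
    have ho := isOpen_tU hW₁o i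
    have hz0 : A.e i x ∈ (A.e i).target ∩ (A.e i).symm ⁻¹' W₁ := by
      refine ⟨(A.e i).map_source hi, ?_⟩
      rw [mem_preimage, (A.e i).left_inv hi]
      exact hKW₁ hx
    obtain ⟨r, hr, hball⟩ := Metric.nhds_basis_closedBall.mem_iff.1 (ho.mem_nhds hz0)
    set C : Set (Cn n) := Metric.closedBall (A.e i x) r ∩ (A.e i).symm ⁻¹' K with hC
    have hCc : IsCompact C := by
      have h1 : ContinuousOn (A.e i).symm (Metric.closedBall (A.e i x) r) :=
        (A.e i).continuousOn_symm.mono fun z hz => (hball hz).1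
      exact (isCompact_closedBall (A.e i x) r).of_isClosed_subset
        (h1.preimage_isClosed_of_isClosed Metric.isClosed_closedBall hK.isClosed) inter_subset_left
    have hCt : C ⊆ (A.e i).target ∩ (A.e i).symm ⁻¹' W₁ := fun z hz => hball hz.1
    set S : Set (Cn n) := Metric.sphere 0 1 with hS
    have hSc : IsCompact S := isCompact_sphere 0 1
    have ca := lev_continuousOn ho (hu1 i)
    have cb := lev_continuousOn ho (hu2 i)
    have hsub : C ×ˢ S ⊆ ((A.e i).target ∩ (A.e i).symm ⁻¹' W₁) ×ˢ (univ : Set (Cn n)) :=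
      fun q hq => ⟨hCt hq.1, mem_univ _⟩
    have h0 : ∀ z ∈ (A.e i).target ∩ (A.e i).symm ⁻¹' W₁,
        ∃ a, (fun (a : Fin m) w => y a i ((A.e i).symm w)) a z ≠ 0 := fun z hz => hnz' i z hz
    obtain ⟨m₀, hm₀⟩ := exists_large (hCc.prod hSc) (ca.mono hsub) (cb.mono hsub)
      (fun q hq => by
        rw [PB_835.lev_bridge]
        have := Levi_145.lev_log_sumSq_nonneg (F := fun (a : Fin m) w => y a i ((A.e i).symm w))
          (hya i q.1 (hCt hq.1)) (h0 q.1 (hCt hq.1)) q.2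
        exact mul_nonneg (by norm_num) this)
      (by
        intro q hq hb
        have hv : q.2 ≠ 0 := by
          intro h1
          have h2 : ‖q.2‖ = 1 := by simpa [hS] using hq.2
          rw [h1, norm_zero] at h2
          exact zero_ne_one h2
        have hq1 := hCt hq.1
        rw [PB_835.lev_bridge] at hb
        have hb' : Levi_145.lev (fun w => Real.log (Levi_145.sumSq
            (fun (a : Fin m) w => y a i ((A.e i).symm w)) w)) q.1 q.2 = 0 := by
          have : (4 : ℝ) ≠ 0 := by norm_num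
          exact (mul_eq_zero.1 hb).resolve_left this
        obtain ⟨c, hc⟩ := Levi_145.lev_log_sumSq_eq_zero
          (hya i q.1 hq1) (h0 q.1 hq1) hb'
        -- the point of `K`
        have hxK : (A.e i).symm q.1 ∈ K := hq.1.2
        have hxs : (A.e i).symm q.1 ∈ (A.e i).source := (A.e i).map_target hq1.1
        have ez : A.e i ((A.e i).symm q.1) = q.1 := (A.e i).right_inv hq1.1
        have hlev : ∀ p ∈ t, _ := fun p hp => term_lev (U := U p) (θ := θ p) (ε := ε p)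
          (Y := yv y p) (c := c) hW hy (hε p (htK p hp)) (hθ p (htK p hp)) hxs
          (hW₁ hq1.2) ((mem_iInter₂.1 hq1.2.2 p hp).2) hv (fun a => by rw [ez]; exact hc a)
        rw [ez] at hlev
        have hsum : Levi_145.lev (fun w => ψ ((A.e i).symm w)) q.1 q.2 =
            ∑ p ∈ t, Levi_145.lev (fun w => chi (yv y p) (ε p) (yv y ((A.e i).symm w)) *
              θ p ((A.e i).symm w)) q.1 q.2 := by
          refine Levi_145.lev_sum t (f := fun p w => chi (yv y p) (ε p) (yv y ((A.e i).symm w)) *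
              θ p ((A.e i).symm w)) (fun p hp => ?_) q.2
          have := hterm _ hq1.2 i hxs p hp
          rw [ez] at this
          exact this.of_le (by norm_cast)
        show 0 < lev (fun w => ψ ((A.e i).symm w)) q.1 q.2
        rw [PB_835.lev_bridge, hsum]
        obtain ⟨p, hp, hxp⟩ := mem_iUnion₂.1 (hKt hxK)
        have h4 : 0 < ∑ p ∈ t, Levi_145.lev (fun w => chi (yv y p) (ε p)
            (yv y ((A.e i).symm w)) * θ p ((A.e i).symm w)) q.1 q.2 :=
          Finset.sum_pos' (fun p hp => (hlev p hp).1) ⟨p, hp, (hlev p hp).2 hxp.2⟩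
        positivity)
    refine ⟨m₀, ?_⟩
    have hev : ∀ᶠ x' in 𝓝[K] x, x' ∈ (A.e i).source ∧
        A.e i x' ∈ Metric.closedBall (A.e i x) r := by
      refine nhdsWithin_le_nhds ?_
      filter_upwards [(A.e i).open_source.mem_nhds hi,
        (A.e i).continuousAt hi (Metric.closedBall_mem_nhds _ hr)] with x' h1 h2 using ⟨h1, h2⟩
    filter_upwards [hev, self_mem_nhdsWithin] with x' hx' hxK'
    intro k hk'
    refine posAtO_of hW₁o (hKW₁ hxK') hx'.1 fun v hv => ?_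
    have hmt : A.e i x' ∈ (A.e i).target := (A.e i).map_source hx'.1
    have hsx : (A.e i).symm (A.e i x') = x' := (A.e i).left_inv hx'.1
    rw [met_lev hy hW hW₁o hW₁ ψ hψ k hmt (by rw [hsx]; exact hKW₁ hxK') v]
    have hvn : (0 : ℝ) < ‖v‖ := norm_pos_iff.2 hv
    have hmem : ((A.e i x', ((‖v‖⁻¹ : ℝ) : ℂ) • v) : Cn n × Cn n) ∈ C ×ˢ S := by
      refine ⟨⟨hx'.2, ?_⟩, ?_⟩
      · show (A.e i).symm (A.e i x') ∈ K
        rw [hsx]
        exact hxK'
      · show _ ∈ Metric.sphere (0 : Cn n) 1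
        rw [mem_sphere_zero_iff_norm, norm_smul, Complex.norm_real, norm_inv, norm_norm,
          inv_mul_cancel₀ hvn.ne']
    have h5 := hm₀ k hk' _ hmem
    simp only [lev_real_smul] at h5
    have h6 : (0 : ℝ) < (‖v‖⁻¹) ^ 2 := by positivity
    have h7 : (‖v‖⁻¹ ^ 2) * (lev (fun w => ψ ((A.e i).symm w)) (A.e i x') v +
        k * lev (fun w => Real.log (ss (fun a => y a i ((A.e i).symm w)))) (A.e i x') v) =
        ‖v‖⁻¹ ^ 2 * lev (fun w => ψ ((A.e i).symm w)) (A.e i x') v +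
        k * (‖v‖⁻¹ ^ 2 *
          lev (fun w => Real.log (ss (fun a => y a i ((A.e i).symm w)))) (A.e i x') v) := by
      ring
    rw [← h7] at h5
    exact (pos_iff_pos_of_mul_pos h5).1 h6
  -- compactness
  choose! m₀ hm₀ using hloc
  obtain ⟨s, -, hs⟩ := hK.elim_nhdsWithin_subcover
    (fun x => {x' | ∀ k : ℕ, m₀ x ≤ k → PosAtO (met hy hW hW₁ ψ hψ k) x'})
    (fun x hx => hm₀ x hx)
  refine ⟨s.sup m₀, fun k hk => ?_⟩
  have hpos : ∀ x ∈ K, PosAtO (met hy hW hW₁ ψ hψ k) x := by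
    intro x hx
    obtain ⟨x₀, hx₀, hxx⟩ := mem_iUnion₂.1 (hs hx)
    exact hxx k ((Finset.le_sup hx₀).trans hk)
  refine ⟨{x | x ∈ W₁ ∧ PosAtO (met hy hW hW₁ ψ hψ k) x}, isOpen_posAtO _ hW₁o,
    fun x hx => ⟨hKW₁ hx, hpos x hx⟩, fun x hx => (hW₁ hx.1).1,
    (met hy hW hW₁ ψ hψ k).mono fun x hx => hx.1, fun x hx => ?_⟩
  exact hx.2

/-- positivity in all directions implies positivity along every map -/
theorem posK_of {N : Type} [TopologicalSpace N] {l : ℕ} (B : Atl l N) (p : M → N) {U : Set M}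
    {h : HMo L U} (hp : ∀ x ∈ U, PosAtO h x) : h.PosK B p := by
  intro i z hz hzU v hv _
  have := hp _ hzU i ((A.e i).map_target hz) v hv
  rwa [(A.e i).right_inv hz] at this

/-- **FIN-POS over a point of the base** -/
theorem fin_pos_map [T2Space M] [CompactSpace M] {N : Type} [TopologicalSpace N] [T2Space N]
    {p : M → N} (hp : Continuous p) (q : N) (hW : IsOpen W) (hqW : p ⁻¹' {q} ⊆ W)
    (hy : ∀ a, IsHS L W (y a)) (hnz : NoZero A y (p ⁻¹' {q})) (hfin : FinFib A y (p ⁻¹' {q})) :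
    ∃ k₀ : ℕ, ∀ k, k₀ ≤ k → ∃ V : Set N, IsOpen V ∧ q ∈ V ∧ p ⁻¹' V ⊆ W ∧
      ∃ h : HMo (L ^ k) (p ⁻¹' V), ∀ x ∈ p ⁻¹' V, PosAtO h x := by
  have hK : IsCompact (p ⁻¹' {q}) := (isClosed_singleton.preimage hp).isCompact
  obtain ⟨k₀, h1⟩ := fin_pos hW hK hqW hy hnz hfin
  refine ⟨k₀, fun k hk => ?_⟩
  obtain ⟨W', hW'o, hKW', hW'W, h, hpos⟩ := h1 k hk
  have hcl : IsClosed (p '' W'ᶜ) := (hW'o.isClosed_compl.isCompact.image hp).isClosed
  refine ⟨(p '' W'ᶜ)ᶜ, hcl.isOpen_compl, ?_, ?_, ?_⟩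
  · rintro ⟨x, hx, hxq⟩
    exact hx (hKW' hxq)
  · intro x hx
    by_contra hxW
    exact hx ⟨x, fun hxW' => hxW (hW'W hxW'), rfl⟩
  · have hsub : p ⁻¹' (p '' W'ᶜ)ᶜ ⊆ W' := by
      intro x hx
      by_contra hxW
      exact hx ⟨x, hxW, rfl⟩
    exact ⟨h.mono hsub, fun x hx => hpos x (hsub hx)⟩

end

end Crest.Agent.R272.FinPos4_876
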