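import Crest.Agent.R272.CB6_232
import Crest.Agent.R272.FinPos4_876

/-!
# R272, model division (helper876): FIN-POS for bundles given by open covers (`CBo` of helper232)

`NoZ y K`            : the sections `y k` of `L` have no common zero on `K`;
`FinF y K`           : finite fibres of `[y]` on `K`;
`PosNear.of_fin`     : **FIN-POS for `CB`**;  `PosNear.of_fin_pow` : sections of a power;
`Par r s`            : the vectors `r`, `s` are proportional;
`fin_of_pieces`      : (5F) finite fibres on `K` from finite fibres of sub-families on pieces;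
`Val E k Φ x r`      : `r` is the vector of values at `x` of the functions `Φ j / generator of E^k`;
`PosNear.of_val`     : functions `Φ j`, value vectors `R x ≠ 0`, finite fibres of `[R]` on `K`
                       ⟹ the ideal bundle `E.idl k` is positive near `K`.
-/

set_option autoImplicit false
set_option linter.unusedSectionVars false
set_option linter.unusedVariables false

open Set Filter Topology Complex
open scoped ContDiff Matrix ComplexConjugate Manifold

namespace Crest.Agent.R272.FinCB1_876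

open Crest.Agent.R275.Geo Crest.Agent.R275.Core144 Crest.Agent.R275.GC293
open Crest.Agent.R273 Crest.Agent.R273.Defs_333 Crest.Agent.R273.Map_835
open Crest.Agent.R273.Fam_835
open Crest.Agent.R272.Quot_783 Crest.Agent.R272.PosGlue_232 Crest.Agent.R272.CB_232
open Crest.Agent.R272.FinPos1_876 Crest.Agent.R272.FinPos4_876

noncomputable section

variable {n m : ℕ} {X N : Type} [TopologicalSpace X] [TopologicalSpace N]
  {C C' : Fam n X} {D : Fam m N} {p : X → N} {U V W : Set X} {κ : Type}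

/-- no common zero on `K` -/
def NoZ {L : CBo C U} (y : κ → Sec L W) (K : Set X) : Prop :=
  ∀ x ∈ K, ∃ k a, x ∈ L.V a ∧ (y k).s a x ≠ 0

/-- finite fibres on `K` -/
def FinF {L : CBo C U} (y : κ → Sec L W) (K : Set X) : Prop :=
  ∀ q ∈ K, ∃ a, q ∈ L.V a ∧ {x | x ∈ K ∧ ∀ b, x ∈ L.V b → ∀ k l,
    (y k).s a q * (y l).s b x = (y l).s a q * (y k).s b x}.Finite

/-- **FIN-POS for `CB`** -/
theorem _root_.Crest.Agent.R272.CB_232.PosNear.of_fin [CompactSpace X] [T2Space X] [Fintype κ]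
    {L : CB C} {K : Set X} (hK : IsCompact K) (hW : IsOpen W) (hKW : K ⊆ W) (y : κ → Sec L W)
    (hnz : NoZ y K) (hfin : FinF y K) : PosNear L K := by
  classical
  obtain ⟨A, -, -, -, h4, hA, hA'⟩ := C.exists_atl L.V L.op (fun x => L.cov x (mem_univ x))
  choose c hc using h4
  let e := Fintype.equivFin κ
  obtain ⟨k₀, hk⟩ := fin_pos (L := CB.lb L A hA c hc) hW hK hKW
    (y := fun k => Sec.on L A c (y (e.symm k))) (fun k => isHS_lb L A hA c hc hW (y (e.symm k)))
    (by
      intro x hx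
      obtain ⟨k, a, ha, h0⟩ := hnz x hx
      obtain ⟨i, hi⟩ := A.cover x
      refine ⟨i, e k, hi, ?_⟩
      show Sec.on L A c (y (e.symm (e k))) i x ≠ 0
      rw [e.symm_apply_apply, Sec.on_eq A c (y k) hi (hKW hx)]
      exact ((y k).ne_iff ha (hc i hi) (hKW hx)).1 h0)
    (by
      intro q hq
      obtain ⟨a, ha, hf⟩ := hfin q hq
      obtain ⟨i, hi⟩ := A.cover q
      refine ⟨i, hi, hf.subset ?_⟩
      rintro x ⟨hx, hx'⟩
      refine ⟨hx, fun b hb k l => ?_⟩
      obtain ⟨j, hj⟩ := A.cover x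
      have h1 := hx' j hj (e k) (e l)
      simp only [e.symm_apply_apply] at h1
      rw [Sec.on_eq A c (y k) hi (hKW hq), Sec.on_eq A c (y l) hi (hKW hq),
        Sec.on_eq A c (y k) hj (hKW hx), Sec.on_eq A c (y l) hj (hKW hx)] at h1
      have t1 := (y k).tr a (c i) q ⟨⟨ha, hc i hi⟩, hKW hq⟩
      have t2 := (y l).tr a (c i) q ⟨⟨ha, hc i hi⟩, hKW hq⟩
      have t3 := (y k).tr b (c j) x ⟨⟨hb, hc j hj⟩, hKW hx⟩
      have t4 := (y l).tr b (c j) x ⟨⟨hb, hc j hj⟩, hKW hx⟩
      rw [t1, t2, t3, t4]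
      linear_combination (L.g a (c i) q * L.g b (c j) x) * h1)
  have hk1 : k₀ + 1 ≠ 0 := by omega
  obtain ⟨W', hW', hKW', -, h, hh⟩ := hk (k₀ + 1) (by omega)
  refine PosNear.of_zpow (k := k₀ + 1) hk1 ?_
  have hg : ∀ i j x, (CB.lb (L.zpow ((k₀ + 1 : ℕ) : ℤ)) A hA c hc).g i j x =
      ((CB.lb L A hA c hc) ^ (k₀ + 1)).g i j x := by
    intro i j x
    rw [HM_333.LB_pow_g]
    by_cases hx : x ∈ (A.e i).source ∩ (A.e j).source
    · rw [CB.lb_g (L.zpow ((k₀ + 1 : ℕ) : ℤ)) A hA c hc hx.1 hx.2, CB.lb_g L A hA c hc hx.1 hx.2]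
      show L.g (c i) (c j) x ^ ((k₀ + 1 : ℕ) : ℤ) = _
      rw [zpow_natCast]
    · rw [(CB.lb (L.zpow ((k₀ + 1 : ℕ) : ℤ)) A hA c hc).off i j x hx,
        (CB.lb L A hA c hc).off i j x hx, one_pow]
  let h' : HMo (CB.lb (L.zpow ((k₀ + 1 : ℕ) : ℤ)) A hA c hc) W' :=
    { w := h.w
      pos := h.pos
      sm := h.sm
      tr := fun i j x hx hxW => by rw [hg]; exact h.tr i j x hx hxW }
  exact PosNear.of_hmo (L.zpow ((k₀ + 1 : ℕ) : ℤ)) A hA hA' c hc hW' hKW' h' fun x hx => hh x hx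

/-- sections of a power -/
theorem _root_.Crest.Agent.R272.CB_232.PosNear.of_fin_pow [CompactSpace X] [T2Space X]
    [Fintype κ] {L : CB C} {k : ℕ} (hk : k ≠ 0) {K : Set X} (hK : IsCompact K) (hW : IsOpen W)
    (hKW : K ⊆ W) (y : κ → Sec (L.zpow k) W) (hnz : NoZ y K) (hfin : FinF y K) : PosNear L K :=
  PosNear.of_zpow hk (PosNear.of_fin hK hW hKW y hnz hfin)

/-! ### proportional vectors -/

/-- proportional vectors -/
def Par (r s : κ → ℂ) : Prop := ∀ k l, r k * s l = r l * s k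

theorem Par.symm {r s : κ → ℂ} (h : Par r s) : Par s r := fun k l => by
  linear_combination -(h k l)

theorem Par.refl (r : κ → ℂ) : Par r r := fun k l => mul_comm _ _

theorem Par.trans {r s t : κ → ℂ} (h0 : r ≠ 0) (h1 : Par s r) (h2 : Par r t) : Par s t := by
  obtain ⟨i, hi⟩ := Function.ne_iff.1 h0
  simp only [Pi.zero_apply] at hi
  intro k l
  have a1 := h1 k i
  have a2 := h1 l i
  have b1 := h2 k i
  have b2 := h2 l i
  have h3 : r i ^ 2 * (s k * t l) = r i ^ 2 * (s l * t k) := by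
    linear_combination (r i * t l) * a1 - (r i * t k) * a2 + (s i * r l) * b1 - (s i * r k) * b2
  exact mul_left_cancel₀ (pow_ne_zero 2 hi) h3

/-- **(5F)**: finite fibres on `K` from finite fibres of sub-families (indices in `I i`) on the
pieces `P i` -/
theorem fin_of_pieces {ι : Type*} [Finite ι] {K : Set X} (P : ι → Set X) (hP : K ⊆ ⋃ i, P i)
    (I : ι → Set κ) {R : X → κ → ℂ} (h0 : ∀ x ∈ K, R x ≠ 0)
    (hfin : ∀ i, ∀ q ∈ K ∩ P i, {x | x ∈ K ∩ P i ∧
      ∀ k ∈ I i, ∀ l ∈ I i, R q k * R x l = R q l * R x k}.Finite) {r : κ → ℂ} (hr : r ≠ 0) :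
    {x | x ∈ K ∧ Par r (R x)}.Finite := by
  have h1 : ∀ i, {x | x ∈ K ∩ P i ∧ Par r (R x)}.Finite := by
    intro i
    rcases Set.eq_empty_or_nonempty {x | x ∈ K ∩ P i ∧ Par r (R x)} with he | ⟨q, hq, hqr⟩
    · rw [he]; exact finite_empty
    · refine (hfin i q hq).subset ?_
      rintro x ⟨hx, hxr⟩
      exact ⟨hx, fun k _ l _ => (Par.trans hr hqr.symm hxr) k l⟩
  refine (Set.finite_iUnion h1).subset ?_
  rintro x ⟨hx, hxr⟩
  obtain ⟨i, hi⟩ := mem_iUnion.1 (hP hx)
  exact mem_iUnion.2 ⟨i, ⟨hx, hi⟩, hxr⟩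

end

end Crest.Agent.R272.FinCB1_876
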