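import Crest.Agent.R272.FinCB1_876

/-!
# R272, model division (helper876): FIN-POS for ideals given by functions

`Val E k Φ x r` : `r j` is the value at `x` of `Φ j / g`, `g` a generator of `E ^ k` at `x`;
`Val.of_gen`    : one local generator `Φ i` among the functions;
`PosNear.of_val` : **functions `Φ j`, value vectors `R x ≠ 0` on `K`, finite fibres of `[R]` on `K`
                  ⟹ `PosNear (E.idl k) K`**;
`PosNear.of_val_pieces` : the same with finite fibres of sub-families on pieces.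
-/

set_option autoImplicit false
set_option linter.unusedSectionVars false
set_option linter.unusedVariables false

open Set Filter Topology Complex
open scoped ContDiff Matrix ComplexConjugate Manifold

namespace Crest.Agent.R272.FinCB2_876

open Crest.Agent.R275.Geo Crest.Agent.R275.Core144 Crest.Agent.R275.GC293
open Crest.Agent.R273 Crest.Agent.R273.Defs_333 Crest.Agent.R273.Map_835
open Crest.Agent.R273.Fam_835
open Crest.Agent.R272.Quot_783 Crest.Agent.R272.PosGlue_232 Crest.Agent.R272.CB_232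
open Crest.Agent.R272.FinCB1_876

noncomputable section

variable {n m : ℕ} {X N : Type} [TopologicalSpace X] [TopologicalSpace N]
  {C C' : Fam n X} {D : Fam m N} {p : X → N} {U V W : Set X} {κ : Type}

/-- `r j` is the value at `x` of `Φ j / g`, `g = w * f a ^ k` a generator of `E ^ k` at `x` -/
def Val (E : Eqs C U) (k : ℕ) (Φ : κ → X → ℂ) (x : X) (r : κ → ℂ) : Prop :=
  ∃ a, x ∈ E.V a ∧ ∃ W', IsOpen W' ∧ x ∈ W' ∧ ∃ (w : X → ℂ) (ρ : κ → X → ℂ), HolF C W' w ∧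
    (∀ y ∈ W', w y ≠ 0) ∧ (∀ j, HolF C W' (ρ j)) ∧
    (∀ j, ∀ y ∈ W', Φ j y = ρ j y * (w y * E.f a y ^ k)) ∧ ∀ j, ρ j x = r j

/-- the function `Φ j` is divisible by `E ^ k` near `y` -/
def DvN (E : Eqs C U) (k : ℕ) (Φ : κ → X → ℂ) : Set X :=
  {y | ∃ a, y ∈ E.V a ∧ ∃ W', IsOpen W' ∧ y ∈ W' ∧ ∀ j, ∃ u, HolF C W' u ∧
    ∀ z ∈ W', Φ j z = u z * E.f a z ^ k}

theorem isOpen_dvN (E : Eqs C U) (k : ℕ) (Φ : κ → X → ℂ) : IsOpen (DvN E k Φ) := by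
  rw [isOpen_iff_mem_nhds]
  rintro y ⟨a, ha, W', hW', hy, h⟩
  filter_upwards [(E.op a).mem_nhds ha, hW'.mem_nhds hy] with z hz hz'
  exact ⟨a, hz, W', hW', hz', h⟩

theorem Val.mem {E : Eqs C U} {k : ℕ} {Φ : κ → X → ℂ} {x : X} {r : κ → ℂ}
    (h : Val E k Φ x r) : x ∈ DvN E k Φ := by
  obtain ⟨a, ha, W', hW', hx, w, ρ, hw, hw0, hρ, he, hr⟩ := h
  refine ⟨a, ha, W', hW', hx, fun j => ⟨fun y => ρ j y * w y, holF_mul (hρ j) hw, ?_⟩⟩
  intro z hz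
  rw [he j z hz]
  ring

theorem dvN_div (E : Eqs C U) (k : ℕ) (Φ : κ → X → ℂ) (j : κ) (a : E.α) (x : X)
    (hx : x ∈ E.V a ∩ DvN E k Φ) : ∃ W', IsOpen W' ∧ x ∈ W' ∧ ∃ u, HolF C W' u ∧
      ∀ y ∈ W', Φ j y = u y * E.f a y ^ k := by
  obtain ⟨hxa, b, hb, W₁, hW₁, hx₁, h1⟩ := hx
  obtain ⟨u, hu, he⟩ := h1 j
  obtain ⟨W₂, hW₂, hx₂, v, hv, hv0, hev⟩ := E.loc b a x ⟨hb, hxa⟩
  refine ⟨W₁ ∩ W₂, hW₁.inter hW₂, ⟨hx₁, hx₂⟩, fun y => u y * v y ^ k,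
    holF_mul (holF_mono hu inter_subset_left) (holF_mono (holF_pow hv k) inter_subset_right), ?_⟩
  intro y hy
  rw [he y hy.1, hev y hy.2]
  ring

/-- the sections of the ideal bundle given by the functions `Φ j` -/
def secs (E : Eqs C U) (k : ℕ) (Φ : κ → X → ℂ) (j : κ) : Sec (E.idl k) (DvN E k Φ) :=
  E.secFun k (F := Φ j) (W := DvN E k Φ) (fun a x hx => dvN_div E k Φ j a x hx)

theorem Val.secs_eq {E : Eqs C U} {k : ℕ} {Φ : κ → X → ℂ} {x : X} {r : κ → ℂ}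
    (h : Val E k Φ x r) : ∃ a, x ∈ E.V a ∧ ∃ c : ℂ, c ≠ 0 ∧
      ∀ j, (secs E k Φ j).s a x = c * r j := by
  obtain ⟨a, ha, W', hW', hx, w, ρ, hw, hw0, hρ, he, hr⟩ := h
  refine ⟨a, ha, w x, hw0 x hx, fun j => ?_⟩
  rw [← hr j, mul_comm]
  exact E.secFun_s k (fun a x hx => dvN_div E k Φ j a x hx) ha hW' hx
    (u := fun y => ρ j y * w y) (holF_mul (hρ j) hw) (fun y hy => by rw [he j y hy]; ring)

/-- **FIN-POS for functions** -/
theorem _root_.Crest.Agent.R272.CB_232.PosNear.of_val [CompactSpace X] [T2Space X] [Fintype κ]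
    {E : Eqs C univ} {k : ℕ} {K : Set X} (hK : IsCompact K) (Φ : κ → X → ℂ) (R : X → κ → ℂ)
    (hR : ∀ x ∈ K, Val E k Φ x (R x)) (h0 : ∀ x ∈ K, R x ≠ 0)
    (hfin : ∀ q ∈ K, {x | x ∈ K ∧ Par (R q) (R x)}.Finite) : PosNear (E.idl k) K := by
  refine PosNear.of_fin hK (isOpen_dvN E k Φ) (fun x hx => (hR x hx).mem) (secs E k Φ) ?_ ?_
  · intro x hx
    obtain ⟨a, ha, c, hc, h⟩ := (hR x hx).secs_eq
    obtain ⟨j, hj⟩ := Function.ne_iff.1 (h0 x hx)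
    exact ⟨j, a, ha, by rw [h j]; exact mul_ne_zero hc hj⟩
  · intro q hq
    obtain ⟨a, ha, c, hc, h⟩ := (hR q hq).secs_eq
    refine ⟨a, ha, (hfin q hq).subset ?_⟩
    rintro x ⟨hx, hx'⟩
    refine ⟨hx, fun i j => ?_⟩
    obtain ⟨b, hb, d, hd, h'⟩ := (hR x hx).secs_eq
    have h1 := hx' b hb i j
    rw [h i, h j, h' i, h' j] at h1
    have h2 : (c * d) * (R q i * R x j) = (c * d) * (R q j * R x i) := by linear_combination h1
    exact mul_left_cancel₀ (mul_ne_zero hc hd) h2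

/-- **FIN-POS for functions, with finite fibres of sub-families on pieces** -/
theorem _root_.Crest.Agent.R272.CB_232.PosNear.of_val_pieces [CompactSpace X] [T2Space X]
    [Fintype κ] {E : Eqs C univ} {k : ℕ} {K : Set X} (hK : IsCompact K) (Φ : κ → X → ℂ)
    (R : X → κ → ℂ) (hR : ∀ x ∈ K, Val E k Φ x (R x)) (h0 : ∀ x ∈ K, R x ≠ 0) {ι : Type*}
    [Finite ι] (P : ι → Set X) (hP : K ⊆ ⋃ i, P i) (I : ι → Set κ)
    (hfin : ∀ i, ∀ q ∈ K ∩ P i, {x | x ∈ K ∩ P i ∧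
      ∀ k ∈ I i, ∀ l ∈ I i, R q k * R x l = R q l * R x k}.Finite) : PosNear (E.idl k) K :=
  PosNear.of_val hK Φ R hR h0 fun q hq => fin_of_pieces P hP I h0 hfin (h0 q hq)

/-- every point of `K` has a value vector: choice -/
theorem _root_.Crest.Agent.R272.CB_232.PosNear.of_val' [CompactSpace X] [T2Space X] [Fintype κ]
    {E : Eqs C univ} {k : ℕ} {K : Set X} (hK : IsCompact K) (Φ : κ → X → ℂ)
    (hR : ∀ x ∈ K, ∃ r, r ≠ 0 ∧ Val E k Φ x r)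
    (hfin : ∀ q ∈ K, ∀ r, r ≠ 0 → Val E k Φ q r →
      {x | x ∈ K ∧ ∃ s, s ≠ 0 ∧ Val E k Φ x s ∧ Par r s}.Finite) : PosNear (E.idl k) K := by
  choose! R h0 hR using hR
  refine PosNear.of_val hK Φ R hR h0 fun q hq => (hfin q hq (R q) (h0 q hq) (hR q hq)).subset ?_
  rintro x ⟨hx, hx'⟩
  exact ⟨hx, R x, h0 x hx, hR x hx, hx'⟩

/-! ### rules for `Val` -/

theorem holF_cont {U : Set X} {F : X → ℂ} (hU : IsOpen U) (hF : HolF C U F) {x : X} (hx : x ∈ U) :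
    ContinuousAt F x := holF_contAt hU hF hx

/-- two value vectors at the same point are proportional by a non zero factor -/
theorem Val.unique {E : Eqs C U} {k : ℕ} {Φ : κ → X → ℂ} {x : X} {r s : κ → ℂ}
    (h : Val E k Φ x r) (h' : Val E k Φ x s) : ∃ c : ℂ, c ≠ 0 ∧ ∀ j, s j = c * r j := by
  obtain ⟨a, ha, c, hc, h1⟩ := h.secs_eq
  obtain ⟨b, hb, d, hd, h2⟩ := h'.secs_eq
  have hx := h.mem
  have hg := (E.idl k).ne a b x ⟨ha, hb⟩
  refine ⟨c / ((E.idl k).g a b x * d), div_ne_zero hc (mul_ne_zero hg hd), fun j => ?_⟩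
  have h3 := (secs E k Φ j).tr a b x ⟨⟨ha, hb⟩, hx⟩
  rw [h1 j, h2 j] at h3
  field_simp
  linear_combination -h3

/-- restriction to a sub-family -/
theorem Val.comp {E : Eqs C U} {k : ℕ} {Φ : κ → X → ℂ} {x : X} {r : κ → ℂ} {κ' : Type}
    (h : Val E k Φ x r) (e : κ' → κ) : Val E k (fun j => Φ (e j)) x fun j => r (e j) := by
  obtain ⟨a, ha, W', hW', hx, w, ρ, hw, hw0, hρ, he, hr⟩ := h
  exact ⟨a, ha, W', hW', hx, w, fun j => ρ (e j), hw, hw0, fun j => hρ (e j),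
    fun j => he (e j), fun j => hr (e j)⟩

/-- powers: `Val` for `E` and functions `Φ` gives `Val` for `E ^ k` and the monomials -/
theorem Val.prod {E : Eqs C U} {k l : ℕ} {κ' : Type} {Φ : κ → X → ℂ} {Ψ : κ' → X → ℂ} {x : X}
    {r : κ → ℂ} {s : κ' → ℂ} (h : Val E k Φ x r) (h' : Val E l Ψ x s) :
    Val E (k + l) (fun (j : κ × κ') y => Φ j.1 y * Ψ j.2 y) x fun j => r j.1 * s j.2 := by
  obtain ⟨a, ha, W₁, hW₁, hx₁, w, ρ, hw, hw0, hρ, he, hr⟩ := h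
  obtain ⟨b, hb, W₂, hW₂, hx₂, v, τ, hv, hv0, hτ, he', hs⟩ := h'
  obtain ⟨W₃, hW₃, hx₃, u, hu, hu0, heu⟩ := E.loc b a x ⟨hb, ha⟩
  have m1 : W₁ ∩ W₂ ∩ W₃ ⊆ W₁ := fun y hy => hy.1.1
  have m2 : W₁ ∩ W₂ ∩ W₃ ⊆ W₂ := fun y hy => hy.1.2
  have m3 : W₁ ∩ W₂ ∩ W₃ ⊆ W₃ := fun y hy => hy.2
  refine ⟨a, ha, W₁ ∩ W₂ ∩ W₃, (hW₁.inter hW₂).inter hW₃, ⟨⟨hx₁, hx₂⟩, hx₃⟩,
    fun y => w y * (v y * u y ^ l), fun j y => ρ j.1 y * τ j.2 y,
    holF_mul (holF_mono hw m1) (holF_mul (holF_mono hv m2) (holF_pow (holF_mono hu m3) l)),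
    fun y hy => mul_ne_zero (hw0 y (m1 hy)) (mul_ne_zero (hv0 y (m2 hy))
      (pow_ne_zero l (hu0 y (m3 hy)))),
    fun j => holF_mul (holF_mono (hρ j.1) m1) (holF_mono (hτ j.2) m2), ?_, ?_⟩
  · intro j y hy
    show Φ j.1 y * Ψ j.2 y = ρ j.1 y * τ j.2 y * (w y * (v y * u y ^ l) * E.f a y ^ (k + l))
    rw [he j.1 y (m1 hy), he' j.2 y (m2 hy), heu y (m3 hy), pow_add]
    ring
  · intro j
    show ρ j.1 x * τ j.2 x = r j.1 * s j.2
    rw [hr j.1, hs j.2]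

end

end Crest.Agent.R272.FinCB2_876
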