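import Crest.Agent.R273.PB_835
import Crest.Agent.R273.SerD_945

/-!
# R272, task P-IMM (helper102), part 1: local calculus

`lev_mul`            : Levi form of a product of two real functions;
`lev_log_wsum_eq`    : Levi form of `log ∑ |f_a|² u_a` in a direction in which all `u_a` are flat to second order;
`flat_comp`          : functions `U ∘ P`, `P` holomorphic, are flat in the directions of `ker dP`;
`exists_pos_add_ker` : `G` semipositive on the compact `M`, `G0` Hermitian and positive on the null vectors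
                       of `G` ⟹ `G0 + t G` positive definite for `t ≥ t0`.
-/

set_option autoImplicit false
set_option linter.unusedSectionVars false

open Set Filter Topology Complex
open scoped ContDiff Matrix ComplexConjugate Manifold ComplexOrder

namespace Crest.Agent.R272.PImm1_102

open Crest.Agent.R275.Geo Crest.Agent.R275.Core144
open Crest.Agent.R273.Levi_145

noncomputable section

variable {n : ℕ}

/-! ### products -/

section Calc

variable {g u : Cn n → ℝ} {z : Cn n}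

theorem fderiv_mul' (hg : DifferentiableAt ℝ g z) (hu : DifferentiableAt ℝ u z) (v : Cn n) :
    fderiv ℝ (fun w => g w * u w) z v = fderiv ℝ g z v * u z + g z * fderiv ℝ u z v := by
  rw [fderiv_fun_mul hg hu]
  simp only [_root_.add_apply, _root_.smul_apply, smul_eq_mul]
  ring

theorem lev_mul (hg : ContDiffAt ℝ 2 g z) (hu : ContDiffAt ℝ 2 u z) (v : Cn n) :
    lev (fun w => g w * u w) z v = lev g z v * u z + g z * lev u z v +
      (fderiv ℝ g z v * fderiv ℝ u z v + fderiv ℝ g z (I • v) * fderiv ℝ u z (I • v)) / 2 := by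
  have e1 : fderiv ℝ (fun w => g w * u w) =ᶠ[𝓝 z] fun w => g w • fderiv ℝ u w + u w • fderiv ℝ g w := by
    filter_upwards [c2_evd hg, c2_evd hu] with y h1 h2
    rw [fderiv_fun_mul h1 h2]
  have e2 : HasFDerivAt (fun w => g w • fderiv ℝ u w + u w • fderiv ℝ g w) _ z :=
    ((c2_diff hg).hasFDerivAt.smul (c2_fd hu).hasFDerivAt).add
      ((c2_diff hu).hasFDerivAt.smul (c2_fd hg).hasFDerivAt)
  unfold lev
  rw [e1.fderiv_eq, e2.fderiv]
  simp only [_root_.add_apply, _root_.smul_apply, ContinuousLinearMap.smulRight_apply, smul_eq_mul]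
  ring

/-- `u` is flat to second order in the complex direction `v` -/
structure Flat (u : Cn n → ℝ) (z v : Cn n) : Prop where
  c2 : ContDiffAt ℝ 2 u z
  d1 : fderiv ℝ u z v = 0
  d2 : fderiv ℝ u z (I • v) = 0
  l : lev u z v = 0

theorem flat_const (c : ℝ) (z v : Cn n) : Flat (fun _ => c) z v where
  c2 := contDiffAt_const
  d1 := by simp
  d2 := by simp
  l := lev_const c v

theorem lev_mul_flat (hg : ContDiffAt ℝ 2 g z) {v : Cn n} (hu : Flat u z v) :
    lev (fun w => g w * u w) z v = lev g z v * u z := by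
  rw [lev_mul hg hu.c2, hu.d1, hu.d2, hu.l]
  ring

/-- chain rule: `U ∘ P` is flat in the directions of `ker dP` -/
theorem flat_comp {m : ℕ} {U : Cn m → ℝ} {P : Cn n → Cn m} {v : Cn n} (hP : AnalyticAt ℂ P z)
    (hU : ContDiffAt ℝ 2 U (P z)) (hv : fderiv ℂ P z v = 0) : Flat (fun w => U (P w)) z v := by
  have hPc : ContDiffAt ℝ 2 P z := hP.contDiffAt.restrict_scalars ℝ
  have hPr : HasFDerivAt P ((fderiv ℂ P z).restrictScalars ℝ) z :=
    hP.differentiableAt.hasFDerivAt.restrictScalars ℝ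
  have hc : HasFDerivAt (fun w => U (P w)) _ z :=
    (c2_diff hU).hasFDerivAt.comp z hPr
  refine ⟨hU.comp z hPc, ?_, ?_, ?_⟩
  · rw [hc.fderiv]
    simp [hv]
  · rw [hc.fderiv]
    simp [hv]
  · rw [lev_comp hP hU, hv, lev_zero]

variable {α : Type*} [Fintype α]

/-- the weighted sum of squares -/
def wsum (f : α → Cn n → ℂ) (u : α → Cn n → ℝ) (w : Cn n) : ℝ := ∑ a, ‖f a w‖ ^ 2 * u a w

variable {f : α → Cn n → ℂ} {w : α → Cn n → ℝ}

theorem c2_wsum {k : ℕ∞ω} (hf : ∀ a, AnalyticAt ℂ (f a) z) (hw : ∀ a, ContDiffAt ℝ k (w a) z) :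
    ContDiffAt ℝ k (wsum f w) z :=
  ContDiffAt.sum fun a _ => (c2_normSq (hf a) k).mul (hw a)

theorem wsum_pos (hw : ∀ a, 0 < w a z) (h0 : ∃ a, f a z ≠ 0) : 0 < wsum f w z := by
  obtain ⟨a, ha⟩ := h0
  exact Finset.sum_pos' (fun b _ => by have := hw b; positivity) ⟨a, Finset.mem_univ a, by
    have := hw a
    positivity⟩

/-- the frozen functions `√(w_a(z)) f_a` -/
def frz (f : α → Cn n → ℂ) (w : α → Cn n → ℝ) (z : Cn n) (a : α) : Cn n → ℂ :=
  fun y => ((Real.sqrt (w a z) : ℝ) : ℂ) * f a y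

theorem frz_anal (hf : ∀ a, AnalyticAt ℂ (f a) z) (a : α) : AnalyticAt ℂ (frz f w z a) z :=
  analyticAt_const.mul (hf a)

theorem norm_frz (hw : ∀ a, 0 < w a z) (a : α) (y : Cn n) :
    ‖frz f w z a y‖ ^ 2 = ‖f a y‖ ^ 2 * w a z := by
  unfold frz
  rw [norm_mul, mul_pow, Complex.norm_real, Real.norm_eq_abs, sq_abs, Real.sq_sqrt (hw a).le]
  ring

theorem sumSq_frz (hw : ∀ a, 0 < w a z) (y : Cn n) :
    sumSq (frz f w z) y = ∑ a, ‖f a y‖ ^ 2 * w a z :=
  Finset.sum_congr rfl fun a _ => norm_frz hw a y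

/-- **the Levi form of `log ∑ |f_a|² w_a` in a flat direction** -/
theorem lev_log_wsum_eq (hf : ∀ a, AnalyticAt ℂ (f a) z) (hw : ∀ a, 0 < w a z)
    (h0 : ∃ a, f a z ≠ 0) {v : Cn n} (hfl : ∀ a, Flat (w a) z v) :
    lev (fun y => Real.log (wsum f w y)) z v =
      lev (fun y => Real.log (sumSq (frz f w z) y)) z v := by
  have hc : ∀ a, ContDiffAt ℝ 2 (fun y => ‖f a y‖ ^ 2) z := fun a => c2_normSq (hf a) 2
  have hfz : ∀ a, AnalyticAt ℂ (frz f w z a) z := fun a => frz_anal hf a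
  have hS : sumSq (frz f w z) = fun y => ∑ a, ‖f a y‖ ^ 2 * w a z := funext fun y => sumSq_frz hw y
  have hval : wsum f w z = sumSq (frz f w z) z := by rw [hS]; rfl
  have hpos := wsum_pos hw h0
  -- the Levi forms
  have hl : lev (wsum f w) z v = lev (sumSq (frz f w z)) z v := by
    rw [hS]
    have h1 : lev (wsum f w) z v = ∑ a, lev (fun y => ‖f a y‖ ^ 2 * w a y) z v :=
      lev_sum Finset.univ (f := fun a y => ‖f a y‖ ^ 2 * w a y)
        (fun a _ => (hc a).mul (hfl a).c2) v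
    have h2 : lev (fun y => ∑ a, ‖f a y‖ ^ 2 * w a z) z v =
        ∑ a, lev (fun y => ‖f a y‖ ^ 2 * w a z) z v :=
      lev_sum Finset.univ (f := fun a y => ‖f a y‖ ^ 2 * w a z)
        (fun a _ => (hc a).mul contDiffAt_const) v
    rw [h1, h2]
    refine Finset.sum_congr rfl fun a _ => ?_
    rw [lev_mul_flat (hc a) (hfl a), lev_mul_flat (hc a) (flat_const (w a z) z v)]
  -- the first derivatives
  have hd : ∀ t : Cn n, (∀ a, fderiv ℝ (w a) z t = 0) →
      fderiv ℝ (wsum f w) z t = fderiv ℝ (sumSq (frz f w z)) z t := by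
    intro t ht
    rw [hS]
    have h1 : HasFDerivAt (wsum f w) (∑ a, fderiv ℝ (fun y => ‖f a y‖ ^ 2 * w a y) z) z :=
      HasFDerivAt.fun_sum fun a _ =>
        ((c2_diff (hc a)).mul (c2_diff (hfl a).c2)).hasFDerivAt
    have h2 : HasFDerivAt (fun y => ∑ a, ‖f a y‖ ^ 2 * w a z)
        (∑ a, fderiv ℝ (fun y => ‖f a y‖ ^ 2 * w a z) z) z :=
      HasFDerivAt.fun_sum fun a _ =>
        ((c2_diff (hc a)).mul (differentiableAt_const _)).hasFDerivAt
    rw [h1.fderiv, h2.fderiv]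
    simp only [_root_.sum_apply]
    refine Finset.sum_congr rfl fun a _ => ?_
    rw [fderiv_mul' (c2_diff (hc a)) (c2_diff (hfl a).c2),
      fderiv_mul' (c2_diff (hc a)) (differentiableAt_const _), ht a]
    simp
  have hc1 : ContDiffAt ℝ 2 (wsum f w) z := c2_wsum hf fun a => (hfl a).c2
  have hc2 : ContDiffAt ℝ 2 (sumSq (frz f w z)) z := c2_sumSq hfz 2
  rw [lev_log hc1 hpos, lev_log hc2 (hval ▸ hpos), hl, hval, norm_gr_sq (c2_diff hc1),
    norm_gr_sq (c2_diff hc2), hd v fun a => (hfl a).d1, hd (I • v) fun a => (hfl a).d2]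

theorem frz_ne (hw : ∀ a, 0 < w a z) (h0 : ∃ a, f a z ≠ 0) : ∃ a, frz f w z a z ≠ 0 := by
  obtain ⟨a, ha⟩ := h0
  refine ⟨a, mul_ne_zero ?_ ha⟩
  exact_mod_cast (Real.sqrt_pos.2 (hw a)).ne'

theorem lev_log_wsum_nonneg (hf : ∀ a, AnalyticAt ℂ (f a) z) (hw : ∀ a, 0 < w a z)
    (h0 : ∃ a, f a z ≠ 0) {v : Cn n} (hfl : ∀ a, Flat (w a) z v) :
    0 ≤ lev (fun y => Real.log (wsum f w y)) z v := by
  rw [lev_log_wsum_eq hf hw h0 hfl]
  exact lev_log_sumSq_nonneg (frz_anal hf) (frz_ne hw h0) v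

theorem lev_log_wsum_eq_zero (hf : ∀ a, AnalyticAt ℂ (f a) z) (hw : ∀ a, 0 < w a z)
    (h0 : ∃ a, f a z ≠ 0) {v : Cn n} (hfl : ∀ a, Flat (w a) z v)
    (h : lev (fun y => Real.log (wsum f w y)) z v = 0) :
    ∃ c : ℂ, ∀ a, fderiv ℂ (f a) z v = c * f a z := by
  rw [lev_log_wsum_eq hf hw h0 hfl] at h
  obtain ⟨c, hc⟩ := lev_log_sumSq_eq_zero (frz_anal hf) (frz_ne hw h0) h
  refine ⟨c, fun a => ?_⟩
  have h1 := hc a
  have h2 : fderiv ℂ (frz f w z a) z v = ((Real.sqrt (w a z) : ℝ) : ℂ) * fderiv ℂ (f a) z v := by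
    unfold frz
    rw [fderiv_const_mul (hf a).differentiableAt]
    rfl
  have h3 : ((Real.sqrt (w a z) : ℝ) : ℂ) ≠ 0 := by exact_mod_cast (Real.sqrt_pos.2 (hw a)).ne'
  rw [h2] at h1
  unfold frz at h1
  exact mul_left_cancel₀ h3 (by rw [h1]; ring)

end Calc

/-! ### positivity for large parameters -/

section Compact

open Crest.Agent.R273.SerD_945 Crest.Agent.R273.HM_333 Crest.Agent.R273.Kah_333
open Crest.Agent.R275.EDR890 Crest.Agent.R273.Defs_333

variable {M : Type} [TopologicalSpace M] {A : Atl n M}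

/-- **positivity for large parameters, semipositive version** -/
theorem exists_pos_add_ker [CompactSpace M] (G G0 : A.ι → M → Matrix (Fin n) (Fin n) ℂ)
    (hc : ∀ i a b, ContinuousOn (fun x => G i x a b) (A.e i).source)
    (hc0 : ∀ i a b, ContinuousOn (fun x => G0 i x a b) (A.e i).source)
    (hpos : ∀ i, ∀ x ∈ (A.e i).source, (G i x).PosSemidef)
    (hherm : ∀ i, ∀ x ∈ (A.e i).source, (G0 i x).IsHermitian)
    (hker : ∀ i, ∀ x ∈ (A.e i).source, ∀ v : Fin n → ℂ, v ≠ 0 → qf (G i x) v = 0 →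
      0 < qf (G0 i x) v)
    (tr : ∀ i j, ∀ x ∈ (A.e i).source ∩ (A.e j).source,
      G i x = (Jm A i j x)ᵀ * G j x * (Jm A i j x).map conj)
    (tr0 : ∀ i j, ∀ x ∈ (A.e i).source ∩ (A.e j).source,
      G0 i x = (Jm A i j x)ᵀ * G0 j x * (Jm A i j x).map conj) :
    ∃ t0 : ℝ, ∀ t : ℝ, t0 ≤ t → ∀ i, ∀ x ∈ (A.e i).source,
      (G0 i x + (t : ℂ) • G i x).PosDef := by
  -- local statement
  have loc : ∀ p : M, ∃ j, ∃ U ∈ 𝓝 p, U ⊆ (A.e j).source ∧ ∃ t0 : ℝ, ∀ t : ℝ, t0 ≤ t →
      ∀ x ∈ U, (G0 j x + (t : ℂ) • G j x).PosDef := by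
    intro p
    obtain ⟨j, hj⟩ := A.cover p
    obtain ⟨r, hr, hrs⟩ := Metric.isOpen_iff.1 (A.e j).open_target (A.e j p)
      ((A.e j).map_source hj)
    have hcb : Metric.closedBall (A.e j p) (r / 2) ⊆ (A.e j).target :=
      (Metric.closedBall_subset_ball (by linarith)).trans hrs
    let K : Set M := (A.e j).symm '' Metric.closedBall (A.e j p) (r / 2)
    have hK : IsCompact K :=
      (isCompact_closedBall _ _).image_of_continuousOn ((A.e j).continuousOn_symm.mono hcb)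
    have hKs : K ⊆ (A.e j).source := by
      rintro _ ⟨z, hz, rfl⟩
      exact (A.e j).map_target (hcb hz)
    have hKn : K ∈ 𝓝 p := by
      have h1 : (A.e j) ⁻¹' Metric.ball (A.e j p) (r / 2) ∈ 𝓝 p :=
        ((A.e j).continuousAt hj).preimage_mem_nhds (Metric.ball_mem_nhds _ (by linarith))
      filter_upwards [h1, (A.e j).open_source.mem_nhds hj] with x hx hxs
      exact ⟨A.e j x, Metric.ball_subset_closedBall hx, (A.e j).left_inv hxs⟩
    let S : Set (Fin n → ℂ) := Metric.sphere 0 1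
    have hS : IsCompact S := isCompact_sphere 0 1
    have hcont : ∀ H : A.ι → M → Matrix (Fin n) (Fin n) ℂ,
        (∀ i a b, ContinuousOn (fun x => H i x a b) (A.e i).source) →
        ContinuousOn (fun y : M × (Fin n → ℂ) => qf (H j y.1) y.2) (K ×ˢ S) := by
      intro H hH
      have h1 : (fun y : M × (Fin n → ℂ) => qf (H j y.1) y.2) =
          fun y => (∑ a, ∑ b, conj (y.2 a) * (H j y.1 a b * y.2 b)).re := by
        funext y
        exact qf_expand _ _
      rw [h1]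
      refine Complex.continuous_re.comp_continuousOn ?_
      refine continuousOn_finsetSum _ fun a _ => continuousOn_finsetSum _ fun b _ => ?_
      have h2 : ContinuousOn (fun y : M × (Fin n → ℂ) => H j y.1 a b) (K ×ˢ S) :=
        ((hH j a b).mono hKs).comp continuousOn_fst fun y hy => hy.1
      have h3 : ∀ a, ContinuousOn (fun y : M × (Fin n → ℂ) => y.2 a) (K ×ˢ S) := fun a =>
        ((continuous_apply a).comp continuous_snd).continuousOn
      exact (Complex.continuous_conj.comp_continuousOn (h3 a)).mul (h2.mul (h3 b))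
    have hvS : ∀ v ∈ S, v ≠ 0 := by
      intro v hv h0
      rw [h0] at hv
      simp [S] at hv
    have hnn : ∀ y ∈ K ×ˢ S, 0 ≤ qf (G j y.1) y.2 := fun y hy => by
      have := (hpos j y.1 (hKs hy.1)).dotProduct_mulVec_nonneg y.2
      rw [qf_eq (hpos j y.1 (hKs hy.1)).1] at this
      exact_mod_cast this
    -- the compact set where `G0` is not positive
    obtain ⟨T, hT, hTs⟩ : ∃ T : Set (M × (Fin n → ℂ)), IsCompact T ∧
        T = {y ∈ K ×ˢ S | qf (G0 j y.1) y.2 ≤ 0} := by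
      refine ⟨{y ∈ K ×ˢ S | qf (G0 j y.1) y.2 ≤ 0}, ?_, rfl⟩
      have hcl := (hK.prod hS)
      -- closedness inside the compact set
      have h1 : ContinuousOn (fun y : M × (Fin n → ℂ) => qf (G0 j y.1) y.2) (K ×ˢ S) :=
        hcont G0 hc0
      have h2 : CompactSpace (K ×ˢ S : Set (M × (Fin n → ℂ))) := isCompact_iff_compactSpace.1 hcl
      have h3 : Continuous (fun y : (K ×ˢ S : Set (M × (Fin n → ℂ))) => qf (G0 j y.1.1) y.1.2) :=
        continuousOn_iff_continuous_domRestrict.1 h1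
      have h4 : IsCompact {y : (K ×ˢ S : Set (M × (Fin n → ℂ))) | qf (G0 j y.1.1) y.1.2 ≤ 0} :=
        (isClosed_le h3 continuous_const).isCompact
      have h5 := h4.image continuous_subtype_val
      convert h5 using 1
      ext y
      constructor
      · rintro ⟨hy, hy2⟩
        exact ⟨⟨y, hy⟩, hy2, rfl⟩
      · rintro ⟨y', hy', rfl⟩
        exact ⟨y'.2, hy'⟩
    obtain ⟨c, hc1, hc2⟩ : ∃ c : ℝ, 0 < c ∧ ∀ y ∈ T, c ≤ qf (G j y.1) y.2 := by
      rcases T.eq_empty_or_nonempty with h | h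
      · exact ⟨1, one_pos, fun y hy => by rw [h] at hy; exact hy.elim⟩
      · have hTK : T ⊆ K ×ˢ S := by rw [hTs]; exact fun y hy => hy.1
        obtain ⟨y, hy, hmin⟩ := hT.exists_isMinOn h ((hcont G hc).mono hTK)
        refine ⟨qf (G j y.1) y.2, ?_, fun z hz => hmin hz⟩
        refine lt_of_le_of_ne (hnn y (hTK hy)) fun h0 => ?_
        have h1 := hker j y.1 (hKs (hTK hy).1) y.2 (hvS _ (hTK hy).2) h0.symm
        rw [hTs] at hy
        exact absurd hy.2 (not_le.2 h1)
    obtain ⟨C, hC⟩ : ∃ C : ℝ, ∀ y ∈ K ×ˢ S, C ≤ qf (G0 j y.1) y.2 := by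
      rcases (K ×ˢ S).eq_empty_or_nonempty with h | h
      · exact ⟨1, fun y hy => by rw [h] at hy; exact hy.elim⟩
      · obtain ⟨y, hy, hmin⟩ := (hK.prod hS).exists_isMinOn h (hcont G0 hc0)
        exact ⟨_, fun z hz => hmin hz⟩
    refine ⟨j, K, hKn, hKs, |C| / c + 1, fun t ht x hx => ?_⟩
    have ht0 : 0 ≤ t := le_trans (by positivity) ht
    refine posDef_of_qf ?_ fun v hv => ?_
    · refine (hherm j x (hKs hx)).add ?_
      have h1 := (hpos j x (hKs hx)).1
      unfold Matrix.IsHermitian at h1 ⊢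
      rw [Matrix.conjTranspose_smul, h1]
      simp
    · have hn : 0 < ‖v‖ := norm_pos_iff.2 hv
      have hw : ‖v‖⁻¹ • v ∈ S := by
        simp [S, norm_smul, hn.ne']
      have h2 := hC (x, ‖v‖⁻¹ • v) ⟨hx, hw⟩
      have h3 : 0 < qf (G0 j x + (t : ℂ) • G j x) (‖v‖⁻¹ • v) := by
        rw [qf_add, qf_smul]
        by_cases hxT : (x, ‖v‖⁻¹ • v) ∈ T
        · have h1 := hc2 (x, ‖v‖⁻¹ • v) hxT
          have h4 : t * c ≤ t * qf (G j x) (‖v‖⁻¹ • v) := mul_le_mul_of_nonneg_left h1 ht0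
          have h5 : |C| + c ≤ t * c := by
            have := mul_le_mul_of_nonneg_right ht hc1.le
            rwa [add_mul, div_mul_cancel₀ _ hc1.ne', one_mul] at this
          have h6 := neg_abs_le C
          linarith
        · have h1 : 0 < qf (G0 j x) (‖v‖⁻¹ • v) := by
            by_contra hle
            rw [hTs] at hxT
            exact hxT ⟨⟨hx, hw⟩, not_lt.1 hle⟩
          have h4 := mul_nonneg ht0 (hnn (x, ‖v‖⁻¹ • v) ⟨hx, hw⟩)
          linarith
      rw [qf_smul_vec] at h3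
      exact (mul_pos_iff_of_pos_left (by positivity)).1 h3
  choose j U hU hUs t0 ht0 using loc
  obtain ⟨s, hs⟩ := isCompact_univ.elim_nhds_subcover U fun p _ => hU p
  refine ⟨∑ p ∈ s, |t0 p|, fun t ht i x hx => ?_⟩
  obtain ⟨p, hp, hxp⟩ := mem_iUnion₂.1 (hs.2 (mem_univ x))
  have h1 : t0 p ≤ t := (le_abs_self _).trans
    ((Finset.single_le_sum (f := fun p => |t0 p|) (fun _ _ => abs_nonneg _) hp).trans ht)
  have h2 := ht0 p t h1 x hxp
  have hxj := hUs p hxp
  have hxx : x ∈ (A.e i).source ∩ (A.e (j p)).source := ⟨hx, hxj⟩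
  have h3 : G0 i x + (t : ℂ) • G i x = ((Jm A i (j p) x).map conj)ᴴ *
      (G0 (j p) x + (t : ℂ) • G (j p) x) * (Jm A i (j p) x).map conj := by
    have h4 : ((Jm A i (j p) x).map conj)ᴴ = (Jm A i (j p) x)ᵀ := by
      ext a b
      simp [Matrix.conjTranspose_apply]
    rw [h4, Matrix.mul_add, Matrix.add_mul, ← tr0 i (j p) x hxx, Matrix.mul_smul,
      Matrix.smul_mul, ← tr i (j p) x hxx]
  rw [h3]
  refine h2.conjTranspose_mul_mul_same ?_
  intro v w hvw
  have h5 : (Jm A (j p) i x).map conj * (Jm A i (j p) x).map conj = 1 := by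
    rw [← Matrix.map_mul, J_mul i (j p) i ⟨hxx, hx⟩, J_self i hx]
    exact Matrix.map_one _ (map_zero _) (map_one _)
  have h6 := congrArg (((Jm A (j p) i x).map conj) *ᵥ ·) hvw
  simpa [Matrix.mulVec_mulVec, h5] using h6

end Compact

end

end Crest.Agent.R272.PImm1_102
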