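import Crest.Agent.R272.PosGlue2_232
import Crest.Agent.R272.PImm1_102

/-!
# R272, model division (helper876), FIN-POS, file 1: local metrics `HMo`, positivity at a point

* `lev_chgO`   : the curvature of a local metric in two charts
* `PosAtO h x` : positive curvature at `x`; `posAtO_of` (one chart is enough);
                 `isOpen_posAtO` (an open condition)
* `powMet`     : the metric `S^{-k} exp (-ψ)` on `L ^ k` over `U`, `S = ∑ |y_a|²`
-/

set_option autoImplicit false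
set_option linter.unusedSectionVars false

open Set Filter Topology Complex
open scoped ContDiff Matrix ComplexConjugate Manifold

namespace Crest.Agent.R272.FinPos1_876

open Crest.Agent.R275.Geo Crest.Agent.R275.Core144 Crest.Agent.R273.Defs_333
open Crest.Agent.R273.Map_835 Crest.Agent.R273
open Crest.Agent.R272.PosGlue_232

noncomputable section

variable {n : ℕ} {M : Type} [TopologicalSpace M] {A : Atl n M} {L : LB A} {U : Set M}

theorem wt_chgO (h : HMo L U) {i j : A.ι} {z : Cn n} (hz : z ∈ A.ov i j)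
    (hzU : (A.e i).symm z ∈ U) :
    h.wt i z = h.wt j (A.e j ((A.e i).symm z)) + Real.log (‖L.g i j ((A.e i).symm z)‖ ^ 2) := by
  have hx : (A.e i).symm z ∈ (A.e i).source ∩ (A.e j).source := ⟨(A.e i).map_target hz.1, hz.2⟩
  simp only [HMo.wt]
  rw [(A.e j).left_inv hx.2, h.tr i j _ hx hzU, Real.log_mul]
  · ring
  · have := L.ne_zero i j ((A.e i).symm z)
    positivity
  · exact (h.pos i _ hx.1 hzU).ne'

theorem chg_analytic {i j : A.ι} {z : Cn n} (hz : z ∈ A.ov i j) :
    AnalyticAt ℂ (fun y => A.e j ((A.e i).symm y)) z :=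
  Crest.Agent.R266.SCV.analyticOnNhd_of_differentiableOn (isOpen_ov i j) (A.holo i j) z hz

theorem isOpen_tU (hU : IsOpen U) (i : A.ι) :
    IsOpen ((A.e i).target ∩ (A.e i).symm ⁻¹' U) :=
  (A.e i).isOpen_inter_preimage_symm hU

/-- the curvature of a local metric in two charts -/
theorem lev_chgO (h : HMo L U) (hU : IsOpen U) {i j : A.ι} {z : Cn n} (hz : z ∈ A.ov i j)
    (hzU : (A.e i).symm z ∈ U) (v : Cn n) :
    lev (h.wt i) z v = lev (h.wt j) (A.e j ((A.e i).symm z))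
      (fderiv ℂ (fun y => A.e j ((A.e i).symm y)) z v) := by
  have hx : (A.e i).symm z ∈ (A.e i).source ∩ (A.e j).source := ⟨(A.e i).map_target hz.1, hz.2⟩
  have hc : AnalyticAt ℂ (fun y => L.g i j ((A.e i).symm y)) z :=
    Crest.Agent.R266.SCV.analyticOnNhd_of_differentiableOn (isOpen_ti (A.e j).open_source)
      (L.hol i j) z ⟨hz.1, hz.2⟩
  have h1 := L.ne_zero i j ((A.e i).symm z)
  have hT := chg_analytic hz
  have hjm : A.e j ((A.e i).symm z) ∈ (A.e j).target ∩ (A.e j).symm ⁻¹' U := by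
    refine ⟨(A.e j).map_source hx.2, ?_⟩
    rw [mem_preimage, (A.e j).left_inv hx.2]
    exact hzU
  have hu : ContDiffAt ℝ 2 (h.wt j) (A.e j ((A.e i).symm z)) :=
    ((h.wt_smooth j).contDiffAt ((isOpen_tU hU j).mem_nhds hjm)).of_le (by norm_cast)
  have hTr : ContDiffAt ℝ 2 (fun y => A.e j ((A.e i).symm y)) z :=
    hT.contDiffAt.restrict_scalars ℝ
  have hcomp : ContDiffAt ℝ 2 (fun y => h.wt j (A.e j ((A.e i).symm y))) z :=
    ContDiffAt.comp (g := h.wt j) z hu hTr
  have he : h.wt i =ᶠ[𝓝 z] fun y => h.wt j (A.e j ((A.e i).symm y)) +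
      Real.log (‖L.g i j ((A.e i).symm y)‖ ^ 2) := by
    filter_upwards [(isOpen_ov (A := A) i j).mem_nhds hz, (isOpen_tU hU i).mem_nhds ⟨hz.1, hzU⟩]
      with y hy hyU
    exact wt_chgO h hy hyU.2
  rw [PB_835.lev_congr' he, PB_835.lev_bridge, Levi_145.lev_add hcomp
    (Levi_145.c2_log_normSq hc h1 2), Levi_145.lev_log_normSq hc h1, add_zero,
    Levi_145.lev_comp hT hu, ← PB_835.lev_bridge]

/-- positive curvature of a local metric at the point `x` -/
def PosAtO (h : HMo L U) (x : M) : Prop :=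
  ∀ i, x ∈ (A.e i).source → ∀ v : Cn n, v ≠ 0 → 0 < lev (h.wt i) (A.e i x) v

theorem posAtO_of {h : HMo L U} (hU : IsOpen U) {x : M} (hxU : x ∈ U) {i : A.ι}
    (hx : x ∈ (A.e i).source)
    (hi : ∀ v : Cn n, v ≠ 0 → 0 < lev (h.wt i) (A.e i x) v) : PosAtO h x := by
  intro j hj v hv
  have hz : A.e j x ∈ A.ov j i := ⟨(A.e j).map_source hj, by rwa [(A.e j).left_inv hj]⟩
  have hzU : (A.e j).symm (A.e j x) ∈ U := by rwa [(A.e j).left_inv hj]
  rw [lev_chgO h hU hz hzU v, (A.e j).left_inv hj]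
  refine hi _ fun h0 => hv (chg_inj hz h0)

/-- positivity at a point is an open condition -/
theorem isOpen_posAtO (h : HMo L U) (hU : IsOpen U) : IsOpen {x | x ∈ U ∧ PosAtO h x} := by
  rw [isOpen_iff_mem_nhds]
  rintro x ⟨hxU, hx⟩
  obtain ⟨i, hi⟩ := A.cover x
  have hz0 : A.e i x ∈ (A.e i).target ∩ (A.e i).symm ⁻¹' U := by
    refine ⟨(A.e i).map_source hi, ?_⟩
    rw [mem_preimage, (A.e i).left_inv hi]
    exact hxU
  have ho := isOpen_tU hU i
  have hc := lev_continuousOn ho (h.wt_smooth i)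
  set S : Set (Cn n) := Metric.sphere 0 1 with hS
  have hSc : IsCompact S := isCompact_sphere 0 1
  -- near `(A.e i x) × S` the Levi form is positive
  have hpos : ∀ v ∈ S, 0 < lev (h.wt i) (A.e i x) v := by
    intro v hv
    refine hx i hi v ?_
    intro h0
    rw [hS, mem_sphere_zero_iff_norm, h0, norm_zero] at hv
    exact zero_ne_one hv
  have hev : ∀ᶠ z in 𝓝 (A.e i x), ∀ v ∈ S, 0 < lev (h.wt i) z v := by
    have h1 : ∀ v ∈ S, ∀ᶠ q : Cn n × Cn n in 𝓝 (A.e i x, v), 0 < lev (h.wt i) q.1 q.2 := by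
      intro v hv
      have h2 : ContinuousAt (fun q : Cn n × Cn n => lev (h.wt i) q.1 q.2) (A.e i x, v) :=
        hc.continuousAt ((ho.prod isOpen_univ).mem_nhds ⟨hz0, mem_univ _⟩)
      exact h2.eventually (lt_mem_nhds (hpos v hv))
    have h3 : ∀ᶠ q : Cn n × Cn n in 𝓝 (A.e i x) ×ˢ 𝓝ˢ S, 0 < lev (h.wt i) q.1 q.2 := by
      rw [hSc.prod_nhdsSet_eq_biSup]
      simp only [eventually_iSup]
      intro v hv
      rw [← nhds_prod_eq]
      exact h1 v hv
    obtain ⟨a, ha, b, hb, hab⟩ := mem_prod_iff.1 h3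
    filter_upwards [ha] with z hz v hv
    exact hab (mk_mem_prod hz (subset_of_mem_nhdsSet hb hv))
  have hev' : ∀ᶠ y in 𝓝 x, ∀ v ∈ S, 0 < lev (h.wt i) (A.e i y) v :=
    ((A.e i).continuousAt hi).eventually hev
  filter_upwards [hev', hU.mem_nhds hxU, (A.e i).open_source.mem_nhds hi] with y hy hyU hyi
  refine ⟨hyU, posAtO_of hU hyU hyi fun v hv => ?_⟩
  have hvn : (0 : ℝ) < ‖v‖ := norm_pos_iff.2 hv
  have hmem : ((‖v‖⁻¹ : ℝ) : ℂ) • v ∈ S := by
    rw [hS, mem_sphere_zero_iff_norm, norm_smul, Complex.norm_real, norm_inv, norm_norm,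
      inv_mul_cancel₀ hvn.ne']
  have h5 := hy _ hmem
  rw [lev_real_smul] at h5
  have h6 : (0 : ℝ) < (‖v‖⁻¹) ^ 2 := by positivity
  exact (pos_iff_pos_of_mul_pos h5).1 h6

end

end Crest.Agent.R272.FinPos1_876
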