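import Crest.Agent.R272.FinPos1_876

/-!
# R272, model division (helper876), FIN-POS, file 2: functions of the projective point

* `dd Y p`      : `∑ |Y_a p_b - Y_b p_a|² / ∑ |p_a|²`, homogeneous of degree `0` in `p`
* `chi Y ε p`   : cut-off function, `1` where `dd ≤ ε/4`, `0` where `dd ≥ ε/2`
* `flat_chi`    : `chi ∘ f` is flat to second order in every direction `v` with `df(v) = c f`
* `exists_theta`: strictly plurisubharmonic function near a finite set
-/

set_option autoImplicit false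
set_option linter.unusedSectionVars false

open Set Filter Topology Complex
open scoped ContDiff Matrix ComplexConjugate Manifold

namespace Crest.Agent.R272.FinPos2_876

open Crest.Agent.R275.Geo Crest.Agent.R275.Core144 Crest.Agent.R273.Defs_333
open Crest.Agent.R273.Map_835 Crest.Agent.R273
open Crest.Agent.R272.PosGlue_232 Crest.Agent.R272.FinPos1_876

noncomputable section

variable {n m : ℕ}

/-! ### the function `dd` -/

def nn (Y p : Fin m → ℂ) : ℝ := ∑ a, ∑ b, ‖Y a * p b - Y b * p a‖ ^ 2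

def ss (p : Fin m → ℂ) : ℝ := ∑ a, ‖p a‖ ^ 2

def dd (Y p : Fin m → ℂ) : ℝ := nn Y p / ss p

theorem ss_pos {p : Fin m → ℂ} (h : ∃ a, p a ≠ 0) : 0 < ss p := by
  obtain ⟨a, ha⟩ := h
  exact Finset.sum_pos' (fun _ _ => by positivity) ⟨a, Finset.mem_univ a, by positivity⟩

theorem nn_nonneg (Y p : Fin m → ℂ) : 0 ≤ nn Y p :=
  Finset.sum_nonneg fun _ _ => Finset.sum_nonneg fun _ _ => by positivity

theorem ss_nonneg (p : Fin m → ℂ) : 0 ≤ ss p := Finset.sum_nonneg fun _ _ => by positivity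

theorem dd_nonneg (Y p : Fin m → ℂ) : 0 ≤ dd Y p := div_nonneg (nn_nonneg Y p) (ss_nonneg p)

theorem ss_smul (c : ℂ) (p : Fin m → ℂ) : ss (fun a => c * p a) = ‖c‖ ^ 2 * ss p := by
  unfold ss
  rw [Finset.mul_sum]
  refine Finset.sum_congr rfl fun a _ => ?_
  rw [norm_mul, mul_pow]

theorem nn_smul (Y : Fin m → ℂ) (c : ℂ) (p : Fin m → ℂ) :
    nn Y (fun a => c * p a) = ‖c‖ ^ 2 * nn Y p := by
  unfold nn
  simp only [Finset.mul_sum]
  refine Finset.sum_congr rfl fun a _ => Finset.sum_congr rfl fun b _ => ?_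
  rw [← mul_pow, ← norm_mul]
  congr 2
  ring

theorem dd_smul (Y : Fin m → ℂ) {c : ℂ} (hc : c ≠ 0) (p : Fin m → ℂ) :
    dd Y (fun a => c * p a) = dd Y p := by
  unfold dd
  rw [ss_smul, nn_smul]
  have : ‖c‖ ^ 2 ≠ 0 := by positivity
  exact mul_div_mul_left _ _ this

theorem dd_self (Y : Fin m → ℂ) : dd Y Y = 0 := by
  have h : nn Y Y = 0 := by
    unfold nn
    refine Finset.sum_eq_zero fun a _ => Finset.sum_eq_zero fun b _ => ?_
    rw [mul_comm (Y a), sub_self, norm_zero]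
    norm_num
  rw [dd, h, zero_div]

theorem dd_eq_zero {Y p : Fin m → ℂ} (hp : ∃ a, p a ≠ 0) (h : dd Y p = 0) (a b : Fin m) :
    Y a * p b = Y b * p a := by
  have h0 := ss_pos hp
  unfold dd at h
  rw [div_eq_zero_iff] at h
  have h1 : nn Y p = 0 := h.resolve_right h0.ne'
  have h2 := (Finset.sum_eq_zero_iff_of_nonneg
    (fun a _ => Finset.sum_nonneg fun b _ => by positivity)).1 h1 a (Finset.mem_univ a)
  have h3 := (Finset.sum_eq_zero_iff_of_nonneg (fun b _ => by positivity)).1 h2 b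
    (Finset.mem_univ b)
  have h4 : Y a * p b - Y b * p a = 0 := by simpa using h3
  exact sub_eq_zero.1 h4

/-- the cut-off function -/
def chi (Y : Fin m → ℂ) (ε : ℝ) (p : Fin m → ℂ) : ℝ := Real.smoothTransition (2 - 4 * dd Y p / ε)

theorem chi_nonneg (Y : Fin m → ℂ) (ε : ℝ) (p : Fin m → ℂ) : 0 ≤ chi Y ε p :=
  Real.smoothTransition.nonneg _

theorem chi_one {Y : Fin m → ℂ} {ε : ℝ} (hε : 0 < ε) {p : Fin m → ℂ} (h : dd Y p ≤ ε / 4) :
    chi Y ε p = 1 := by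
  refine Real.smoothTransition.one_of_one_le ?_
  have : 4 * dd Y p / ε ≤ 1 := by
    rw [div_le_one hε]
    linarith
  linarith

theorem chi_zero {Y : Fin m → ℂ} {ε : ℝ} (hε : 0 < ε) {p : Fin m → ℂ} (h : ε / 2 ≤ dd Y p) :
    chi Y ε p = 0 := by
  refine Real.smoothTransition.zero_of_nonpos ?_
  have : 2 ≤ 4 * dd Y p / ε := by
    rw [le_div_iff₀ hε]
    linarith
  linarith

theorem chi_smul (Y : Fin m → ℂ) (ε : ℝ) {c : ℂ} (hc : c ≠ 0) (p : Fin m → ℂ) :
    chi Y ε (fun a => c * p a) = chi Y ε p := by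
  unfold chi
  rw [dd_smul Y hc]

/-! ### smoothness -/

theorem contDiffAt_ss {p : Cn m} {k : ℕ∞ω} : ContDiffAt ℝ k (fun q : Cn m => ss (fun a => q a)) p := by
  unfold ss
  refine ContDiffAt.sum fun a _ => ContDiffAt.norm_sq ℝ ?_
  exact ((EuclideanSpace.proj a : Cn m →L[ℂ] ℂ).restrictScalars ℝ).contDiff.contDiffAt

theorem contDiffAt_nn (Y : Fin m → ℂ) {p : Cn m} {k : ℕ∞ω} :
    ContDiffAt ℝ k (fun q : Cn m => nn Y (fun a => q a)) p := by
  unfold nn
  refine ContDiffAt.sum fun a _ => ContDiffAt.sum fun b _ => ContDiffAt.norm_sq ℝ ?_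
  have h : ∀ a, ContDiffAt ℝ k (fun q : Cn m => q a) p := fun a =>
    ((EuclideanSpace.proj a : Cn m →L[ℂ] ℂ).restrictScalars ℝ).contDiff.contDiffAt
  exact (contDiffAt_const.mul (h b)).sub (contDiffAt_const.mul (h a))

theorem contDiffAt_dd (Y : Fin m → ℂ) {p : Cn m} (hp : ∃ a, p a ≠ 0) {k : ℕ∞ω} :
    ContDiffAt ℝ k (fun q : Cn m => dd Y (fun a => q a)) p :=
  (contDiffAt_nn Y).div contDiffAt_ss (ss_pos (p := fun a => p a) hp).ne'

theorem contDiffAt_chi (Y : Fin m → ℂ) (ε : ℝ) {p : Cn m} (hp : ∃ a, p a ≠ 0) :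
    ContDiffAt ℝ ∞ (fun q : Cn m => chi Y ε (fun a => q a)) p := by
  have h1 : ContDiffAt ℝ ∞ (fun q : Cn m => 2 - 4 * dd Y (fun a => q a) / ε) p :=
    contDiffAt_const.sub ((contDiffAt_const.mul (contDiffAt_dd Y hp)).div_const ε)
  exact ContDiffAt.comp (g := Real.smoothTransition) p
    (Real.smoothTransition.contDiff (n := ⊤)).contDiffAt h1

/-! ### flatness -/

theorem Flat.congr {u w : Cn n → ℝ} {z v : Cn n} (h : PImm1_102.Flat u z v) (he : w =ᶠ[𝓝 z] u) :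
    PImm1_102.Flat w z v where
  c2 := h.c2.congr_of_eventuallyEq he
  d1 := by rw [he.fderiv_eq]; exact h.d1
  d2 := by rw [he.fderiv_eq]; exact h.d2
  l := by rw [Levi_145.lev_congr he]; exact h.l

/-- the affine representative -/
def aff (f : Fin m → Cn n → ℂ) (a₀ : Fin m) (w : Cn n) : Cn m :=
  WithLp.toLp 2 fun b => f b w * (f a₀ w)⁻¹

theorem aff_analytic {f : Fin m → Cn n → ℂ} {z : Cn n} (hf : ∀ a, AnalyticAt ℂ (f a) z)
    {a₀ : Fin m} (h0 : f a₀ z ≠ 0) : AnalyticAt ℂ (aff f a₀) z := by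
  have h1 : AnalyticAt ℂ (fun w => fun b => f b w * (f a₀ w)⁻¹) z := by
    rw [analyticAt_pi_iff]
    intro b
    exact (hf b).mul ((hf a₀).inv h0)
  exact (((EuclideanSpace.equiv (Fin m) ℂ).symm : (Fin m → ℂ) →L[ℂ] Cn m).analyticAt _).comp h1

theorem aff_fderiv {f : Fin m → Cn n → ℂ} {z v : Cn n} (hf : ∀ a, AnalyticAt ℂ (f a) z)
    {a₀ : Fin m} (h0 : f a₀ z ≠ 0) {c : ℂ} (hv : ∀ a, fderiv ℂ (f a) z v = c * f a z) :
    fderiv ℂ (aff f a₀) z v = 0 := by
  have hA := (aff_analytic hf h0).differentiableAt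
  ext b
  have h1 : HasFDerivAt (fun w => (EuclideanSpace.proj b : Cn m →L[ℂ] ℂ) (aff f a₀ w))
      ((EuclideanSpace.proj b : Cn m →L[ℂ] ℂ).comp (fderiv ℂ (aff f a₀) z)) z :=
    (EuclideanSpace.proj b : Cn m →L[ℂ] ℂ).hasFDerivAt.comp z hA.hasFDerivAt
  have h2 : HasFDerivAt (fun w => f b w * (f a₀ w)⁻¹) _ z :=
    (hf b).differentiableAt.hasFDerivAt.mul ((hasFDerivAt_inv h0).comp z
      (hf a₀).differentiableAt.hasFDerivAt)
  have h3 := h1.unique h2
  have h4 := congrArg (fun T : Cn n →L[ℂ] ℂ => T v) h3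
  simp only [ContinuousLinearMap.coe_comp, Function.comp_apply, _root_.add_apply,
    _root_.smul_apply, smul_eq_mul, hv] at h4
  have h5 : (fderiv ℂ (aff f a₀) z v) b = 0 := by
    refine (show (fderiv ℂ (aff f a₀) z v) b = _ from h4).trans ?_
    simp
    field_simp
    ring
  simpa using h5

theorem chi_aff {f : Fin m → Cn n → ℂ} {w : Cn n} {a₀ : Fin m} (h0 : f a₀ w ≠ 0)
    (Y : Fin m → ℂ) (ε : ℝ) : chi Y ε (fun a => f a w) = chi Y ε (fun a => aff f a₀ w a) := by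
  rw [← chi_smul Y ε (c := f a₀ w) h0 (fun a => aff f a₀ w a)]
  congr 1
  funext a
  simp only [aff]
  field_simp

theorem smooth_chi {f : Fin m → Cn n → ℂ} {z : Cn n} (hf : ∀ a, AnalyticAt ℂ (f a) z)
    (h0 : ∃ a, f a z ≠ 0) (Y : Fin m → ℂ) (ε : ℝ) :
    ContDiffAt ℝ ∞ (fun w => chi Y ε (fun a => f a w)) z := by
  obtain ⟨a₀, ha⟩ := h0
  have h1 : ∃ a, aff f a₀ z a ≠ 0 := ⟨a₀, by simp [aff, ha]⟩
  have he : (fun w => chi Y ε (fun a => f a w)) =ᶠ[𝓝 z]
      fun w => (fun q : Cn m => chi Y ε (fun a => q a)) (aff f a₀ w) := by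
    filter_upwards [(hf a₀).continuousAt.eventually_ne ha] with w hw
    exact chi_aff hw Y ε
  refine ContDiffAt.congr_of_eventuallyEq ?_ he
  have h2 : ContDiffAt ℝ ∞ (aff f a₀) z := (aff_analytic hf ha).contDiffAt.restrict_scalars ℝ
  exact ContDiffAt.comp (g := fun q : Cn m => chi Y ε (fun a => q a)) z
    (contDiffAt_chi Y ε h1) h2

theorem flat_chi {f : Fin m → Cn n → ℂ} {z v : Cn n} (hf : ∀ a, AnalyticAt ℂ (f a) z)
    (h0 : ∃ a, f a z ≠ 0) {c : ℂ} (hv : ∀ a, fderiv ℂ (f a) z v = c * f a z)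
    (Y : Fin m → ℂ) (ε : ℝ) : PImm1_102.Flat (fun w => chi Y ε (fun a => f a w)) z v := by
  obtain ⟨a₀, ha⟩ := h0
  have h1 : ∃ a, aff f a₀ z a ≠ 0 := ⟨a₀, by simp [aff, ha]⟩
  have he : (fun w => chi Y ε (fun a => f a w)) =ᶠ[𝓝 z]
      fun w => (fun q : Cn m => chi Y ε (fun a => q a)) (aff f a₀ w) := by
    filter_upwards [(hf a₀).continuousAt.eventually_ne ha] with w hw
    exact chi_aff hw Y ε
  exact Flat.congr (PImm1_102.flat_comp (U := fun q : Cn m => chi Y ε (fun a => q a))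
    (aff_analytic hf ha) ((contDiffAt_chi Y ε h1).of_le (by norm_cast)) (aff_fderiv hf ha hv)) he

/-! ### a strictly plurisubharmonic function near a finite set -/

section Theta

variable {M : Type} [TopologicalSpace M] (A : Atl n M)

/-- the Levi form of `|z|²` read in another chart -/
theorem lev_sq_chart {i j : A.ι} {z : Cn n} (hz : z ∈ A.ov i j) :
    ContDiffAt ℝ ∞ (fun w => ‖A.e j ((A.e i).symm w)‖ ^ 2) z ∧
      ∀ v : Cn n, v ≠ 0 → 0 < Levi_145.lev (fun w => ‖A.e j ((A.e i).symm w)‖ ^ 2) z v := by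
  have hT := chg_analytic hz
  have hTa : ∀ a : Fin n, AnalyticAt ℂ (fun w => A.e j ((A.e i).symm w) a) z := fun a =>
    ((EuclideanSpace.proj a : Cn n →L[ℂ] ℂ).analyticAt _).comp hT
  have e : (fun w => ‖A.e j ((A.e i).symm w)‖ ^ 2) =
      Levi_145.sumSq (fun (a : Fin n) w => A.e j ((A.e i).symm w) a) := by
    funext w
    rw [EuclideanSpace.norm_sq_eq]
    rfl
  rw [e]
  refine ⟨Levi_145.c2_sumSq hTa ∞, fun v hv => ?_⟩
  rw [Levi_145.lev_sumSq hTa]
  have hne : fderiv ℂ (fun w => A.e j ((A.e i).symm w)) z v ≠ 0 := fun h0 => hv (chg_inj hz h0)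
  have hcoord : ∀ a : Fin n, fderiv ℂ (fun w => A.e j ((A.e i).symm w) a) z v =
      (fderiv ℂ (fun w => A.e j ((A.e i).symm w)) z v) a := by
    intro a
    have h1 : HasFDerivAt (fun w => (EuclideanSpace.proj a : Cn n →L[ℂ] ℂ) (A.e j ((A.e i).symm w)))
        ((EuclideanSpace.proj a : Cn n →L[ℂ] ℂ).comp (fderiv ℂ (fun w => A.e j ((A.e i).symm w)) z)) z :=
      (EuclideanSpace.proj a : Cn n →L[ℂ] ℂ).hasFDerivAt.comp z hT.differentiableAt.hasFDerivAt
    have h2 := h1.fderiv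
    exact (congrArg (fun T : Cn n →L[ℂ] ℂ => T v) h2)
  simp only [hcoord]
  rw [← EuclideanSpace.norm_sq_eq]
  have := norm_pos_iff.2 hne
  positivity

theorem exists_theta [T2Space M] {F : Set M} (hF : F.Finite) :
    ∃ (U : Set M) (θ : M → ℝ), IsOpen U ∧ F ⊆ U ∧ ∀ x ∈ U, ∀ i, x ∈ (A.e i).source →
      ContDiffAt ℝ ∞ (fun w => θ ((A.e i).symm w)) (A.e i x) ∧
      ∀ v : Cn n, v ≠ 0 → 0 < Levi_145.lev (fun w => θ ((A.e i).symm w)) (A.e i x) v := by
  classical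
  obtain ⟨O, hO, hd⟩ := hF.t2_separation
  choose ch hch using A.cover
  let V : M → Set M := fun x => O x ∩ (A.e (ch x)).source
  have hVo : ∀ x, IsOpen (V x) := fun x => (hO x).2.inter (A.e (ch x)).open_source
  let θ : M → ℝ := fun y => if h : ∃ x ∈ F, y ∈ V x then ‖A.e (ch h.choose) y‖ ^ 2 else 0
  have hθ : ∀ x ∈ F, ∀ y ∈ V x, θ y = ‖A.e (ch x) y‖ ^ 2 := by
    intro x hx y hy
    have h : ∃ x ∈ F, y ∈ V x := ⟨x, hx, hy⟩
    have h1 : h.choose = x := by
      by_contra hne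
      exact Set.disjoint_left.1 (hd h.choose_spec.1 hx hne) h.choose_spec.2.1 hy.1
    simp only [θ, dif_pos h, h1]
  refine ⟨⋃ x ∈ F, V x, θ, isOpen_biUnion fun x _ => hVo x, ?_, ?_⟩
  · intro x hx
    exact mem_iUnion₂.2 ⟨x, hx, (hO x).1, hch x⟩
  · intro x hx i hi
    obtain ⟨x', hx', hxV⟩ := mem_iUnion₂.1 hx
    have hz : A.e i x ∈ A.ov i (ch x') := by
      refine ⟨(A.e i).map_source hi, ?_⟩
      rw [(A.e i).left_inv hi]
      exact hxV.2
    have he : (fun w => θ ((A.e i).symm w)) =ᶠ[𝓝 (A.e i x)]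
        fun w => ‖A.e (ch x') ((A.e i).symm w)‖ ^ 2 := by
      have h1 : Tendsto (A.e i).symm (𝓝 (A.e i x)) (𝓝 x) := by
        have := (A.e i).continuousAt_symm ((A.e i).map_source hi)
        rwa [ContinuousAt, (A.e i).left_inv hi] at this
      filter_upwards [h1.eventually ((hVo x').mem_nhds hxV)] with w hw
      exact hθ x' hx' _ hw
    obtain ⟨h1, h2⟩ := lev_sq_chart A hz
    refine ⟨h1.congr_of_eventuallyEq he, fun v hv => ?_⟩
    rw [Levi_145.lev_congr he]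
    exact h2 v hv

end Theta

end

end Crest.Agent.R272.FinPos2_876
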