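import Crest.Agent.R272.FinPos2_876

/-!
# R272, model division (helper876), FIN-POS, file 3: the theorem

`fin_pos`: `y_a` finitely many holomorphic sections of `L` over the open `W`, `K ⊆ W` compact,
no common zero on `K`, and every fibre of `x ↦ [y(x)]` on `K` is finite
⟹ `∃ k₀, ∀ k ≥ k₀`, there are an open `W'`, `K ⊆ W' ⊆ W`, and a metric of `L ^ k` over `W'` whose
curvature is positive in ALL directions at all points of `W'`.
-/

set_option autoImplicit false
set_option linter.unusedSectionVars false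

open Set Filter Topology Complex
open scoped ContDiff Matrix ComplexConjugate Manifold

namespace Crest.Agent.R272.FinPos3_876

open Crest.Agent.R275.Geo Crest.Agent.R275.Core144 Crest.Agent.R273.Defs_333
open Crest.Agent.R273.Map_835 Crest.Agent.R273
open Crest.Agent.R272.PosGlue_232 Crest.Agent.R272.FinPos1_876 Crest.Agent.R272.FinPos2_876

noncomputable section

variable {n m : ℕ} {M : Type} [TopologicalSpace M] {A : Atl n M} {L : LB A} {W : Set M}
  {y : Fin m → A.ι → M → ℂ}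

/-- the set where the sections have no common zero -/
def NZ (y : Fin m → A.ι → M → ℂ) (W : Set M) : Set M :=
  {x | x ∈ W ∧ ∃ i a, x ∈ (A.e i).source ∧ y a i x ≠ 0}

theorem nz_chart (hy : ∀ a, IsHS L W (y a)) {x : M} (hx : x ∈ NZ y W) {j : A.ι}
    (hj : x ∈ (A.e j).source) : ∃ a, y a j x ≠ 0 := by
  obtain ⟨hxW, i, a, hi, ha⟩ := hx
  refine ⟨a, fun h0 => ha ?_⟩
  rw [(hy a).tr i j x ⟨hi, hj⟩ hxW, h0, mul_zero]

theorem y_diff (hW : IsOpen W) (hy : ∀ a, IsHS L W (y a)) {i : A.ι} {x : M}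
    (hx : x ∈ (A.e i).source) (hxW : x ∈ W) (a : Fin m) :
    AnalyticAt ℂ (fun w => y a i ((A.e i).symm w)) (A.e i x) :=
  Crest.Agent.R266.SCV.analyticOnNhd_of_differentiableOn (isOpen_ti hW) ((hy a).hol i) _
    ⟨(A.e i).map_source hx, by rw [mem_preimage, (A.e i).left_inv hx]; exact hxW⟩

theorem y_cont (hW : IsOpen W) (hy : ∀ a, IsHS L W (y a)) {i : A.ι} {x : M}
    (hx : x ∈ (A.e i).source) (hxW : x ∈ W) (a : Fin m) : ContinuousAt (y a i) x := by
  have h1 := (y_diff hW hy hx hxW a).continuousAt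
  have h2 : ContinuousAt (fun x' => y a i ((A.e i).symm (A.e i x'))) x :=
    ContinuousAt.comp (g := fun w => y a i ((A.e i).symm w)) h1 ((A.e i).continuousAt hx)
  refine h2.congr ?_
  filter_upwards [(A.e i).open_source.mem_nhds hx] with x' hx'
  rw [(A.e i).left_inv hx']

theorem isOpen_nz (hW : IsOpen W) (hy : ∀ a, IsHS L W (y a)) : IsOpen (NZ y W) := by
  rw [isOpen_iff_mem_nhds]
  rintro x ⟨hxW, i, a, hi, ha⟩
  filter_upwards [hW.mem_nhds hxW, (A.e i).open_source.mem_nhds hi,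
    (y_cont hW hy hi hxW a).eventually_ne ha] with x' h1 h2 h3
  exact ⟨h1, i, a, h2, h3⟩

/-- a chart at a point -/
def cx (A : Atl n M) (x : M) : A.ι := (A.cover x).choose

theorem cx_mem (A : Atl n M) (x : M) : x ∈ (A.e (cx A x)).source := (A.cover x).choose_spec

/-- the vector of the sections at a point, in the chosen chart -/
def yv (y : Fin m → A.ι → M → ℂ) (x : M) : Fin m → ℂ := fun a => y a (cx A x) x

theorem yv_eq (hy : ∀ a, IsHS L W (y a)) {x : M} (hxW : x ∈ W) {i : A.ι}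
    (hi : x ∈ (A.e i).source) : yv y x = fun a => L.g (cx A x) i x * y a i x := by
  funext a
  exact (hy a).tr _ i x ⟨cx_mem A x, hi⟩ hxW

theorem dd_yv (hy : ∀ a, IsHS L W (y a)) {x : M} (hxW : x ∈ W) {i : A.ι}
    (hi : x ∈ (A.e i).source) (Y : Fin m → ℂ) : dd Y (yv y x) = dd Y (fun a => y a i x) := by
  rw [yv_eq hy hxW hi, dd_smul Y (L.ne_zero _ _ _)]

theorem chi_yv (hy : ∀ a, IsHS L W (y a)) {x : M} (hxW : x ∈ W) {i : A.ι}
    (hi : x ∈ (A.e i).source) (Y : Fin m → ℂ) (ε : ℝ) :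
    chi Y ε (yv y x) = chi Y ε (fun a => y a i x) := by
  rw [yv_eq hy hxW hi, chi_smul Y ε (L.ne_zero _ _ _)]

theorem dd_cont (hW : IsOpen W) (hy : ∀ a, IsHS L W (y a)) (Y : Fin m → ℂ) {x : M}
    (hx : x ∈ NZ y W) : ContinuousAt (fun x' => dd Y (yv y x')) x := by
  have hi := cx_mem A x
  set i := cx A x
  have hc := fun a => y_cont hW hy hi hx.1 a
  have h1 : ContinuousAt (fun x' => dd Y (fun a => y a i x')) x := by
    unfold dd nn ss
    refine ContinuousAt.div ?_ ?_ (ss_pos (nz_chart hy hx hi)).ne'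
    · refine tendsto_finsetSum _ fun a _ => tendsto_finsetSum _ fun b _ => ?_
      exact (((continuousAt_const.mul (hc b)).sub (continuousAt_const.mul (hc a))).norm.pow 2)
    · exact tendsto_finsetSum _ fun a _ => ((hc a).norm.pow 2)
  refine h1.congr ?_
  filter_upwards [hW.mem_nhds hx.1, (A.e i).open_source.mem_nhds hi] with x' h2 h3
  exact (dd_yv hy h2 h3 Y).symm

/-! ### one term of the auxiliary function -/

/-- the property of `exists_theta` -/
def Psh (A : Atl n M) (θ : M → ℝ) (U : Set M) : Prop :=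
  ∀ x ∈ U, ∀ i, x ∈ (A.e i).source →
    ContDiffAt ℝ ∞ (fun w => θ ((A.e i).symm w)) (A.e i x) ∧
    ∀ v : Cn n, v ≠ 0 → 0 < Levi_145.lev (fun w => θ ((A.e i).symm w)) (A.e i x) v

variable {θ : M → ℝ} {U : Set M} {Y : Fin m → ℂ} {ε : ℝ}

theorem symm_tendsto {i : A.ι} {x : M} (hi : x ∈ (A.e i).source) :
    Tendsto (A.e i).symm (𝓝 (A.e i x)) (𝓝 x) := by
  have := (A.e i).continuousAt_symm ((A.e i).map_source hi)
  rwa [ContinuousAt, (A.e i).left_inv hi] at this

theorem chi_loc (hW : IsOpen W) (hy : ∀ a, IsHS L W (y a)) {i : A.ι} {x : M}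
    (hi : x ∈ (A.e i).source) (hx : x ∈ NZ y W) (Y : Fin m → ℂ) (ε : ℝ) :
    (fun w => chi Y ε (yv y ((A.e i).symm w))) =ᶠ[𝓝 (A.e i x)]
      fun w => chi Y ε (fun a => y a i ((A.e i).symm w)) := by
  filter_upwards [(symm_tendsto hi).eventually (hW.mem_nhds hx.1),
    (symm_tendsto hi).eventually ((A.e i).open_source.mem_nhds hi)] with w h1 h2
  exact chi_yv hy h1 h2 Y ε

theorem term_zero (hW : IsOpen W) (hy : ∀ a, IsHS L W (y a)) (hε : 0 < ε) {i : A.ι} {x : M}
    (hi : x ∈ (A.e i).source) (hx : x ∈ NZ y W) (hd : ε / 2 < dd Y (yv y x)) :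
    (fun w => chi Y ε (yv y ((A.e i).symm w)) * θ ((A.e i).symm w)) =ᶠ[𝓝 (A.e i x)]
      fun _ => (0 : ℝ) := by
  have h1 : ∀ᶠ x' in 𝓝 x, ε / 2 < dd Y (yv y x') :=
    (dd_cont hW hy Y hx).eventually (lt_mem_nhds hd)
  filter_upwards [(symm_tendsto hi).eventually h1] with w hw
  rw [chi_zero hε hw.le, zero_mul]

theorem term_smooth (hW : IsOpen W) (hy : ∀ a, IsHS L W (y a)) (hε : 0 < ε) (hθ : Psh A θ U)
    {i : A.ι} {x : M} (hi : x ∈ (A.e i).source) (hx : x ∈ NZ y W)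
    (hd : x ∈ U ∨ ε / 2 < dd Y (yv y x)) :
    ContDiffAt ℝ ∞ (fun w => chi Y ε (yv y ((A.e i).symm w)) * θ ((A.e i).symm w))
      (A.e i x) := by
  rcases hd with hU | hd
  · have h0 : ∃ a, (fun (a : Fin m) w => y a i ((A.e i).symm w)) a (A.e i x) ≠ 0 := by
      obtain ⟨a, ha⟩ := nz_chart hy hx hi
      refine ⟨a, ?_⟩
      simp only [(A.e i).left_inv hi]
      exact ha
    have h1 := smooth_chi (f := fun (a : Fin m) w => y a i ((A.e i).symm w))
      (fun a => y_diff hW hy hi hx.1 a) h0 Y ε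
    exact (h1.congr_of_eventuallyEq (chi_loc hW hy hi hx Y ε)).mul (hθ x hU i hi).1
  · exact contDiffAt_const.congr_of_eventuallyEq (term_zero hW hy hε hi hx hd)

theorem term_lev (hW : IsOpen W) (hy : ∀ a, IsHS L W (y a)) (hε : 0 < ε) (hθ : Psh A θ U)
    {i : A.ι} {x : M} (hi : x ∈ (A.e i).source) (hx : x ∈ NZ y W)
    (hd : x ∈ U ∨ ε / 2 < dd Y (yv y x)) {v : Cn n} (hv : v ≠ 0) {c : ℂ}
    (hc : ∀ a, fderiv ℂ (fun w => y a i ((A.e i).symm w)) (A.e i x) v = c * y a i x) :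
    0 ≤ Levi_145.lev (fun w => chi Y ε (yv y ((A.e i).symm w)) * θ ((A.e i).symm w))
      (A.e i x) v ∧
    (dd Y (yv y x) < ε / 4 →
      0 < Levi_145.lev (fun w => chi Y ε (yv y ((A.e i).symm w)) * θ ((A.e i).symm w))
        (A.e i x) v) := by
  by_cases hd' : ε / 2 < dd Y (yv y x)
  · rw [Levi_145.lev_congr (term_zero hW hy hε hi hx hd'), Levi_145.lev_const]
    exact ⟨le_rfl, fun h => absurd h (by linarith)⟩
  · have hU := hd.resolve_right hd'
    have h0 : ∃ a, (fun (a : Fin m) w => y a i ((A.e i).symm w)) a (A.e i x) ≠ 0 := by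
      obtain ⟨a, ha⟩ := nz_chart hy hx hi
      refine ⟨a, ?_⟩
      simp only [(A.e i).left_inv hi]
      exact ha
    have hfl : PImm1_102.Flat (fun w => chi Y ε (yv y ((A.e i).symm w))) (A.e i x) v :=
      Flat.congr (flat_chi (f := fun (a : Fin m) w => y a i ((A.e i).symm w)) (c := c)
        (fun a => y_diff hW hy hi hx.1 a) h0 (fun a => by
          have := hc a
          simp only [(A.e i).left_inv hi]
          exact this) Y ε) (chi_loc hW hy hi hx Y ε)
    obtain ⟨k1, k2⟩ := hθ x hU i hi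
    have e : (fun w => chi Y ε (yv y ((A.e i).symm w)) * θ ((A.e i).symm w)) =
        fun w => θ ((A.e i).symm w) * chi Y ε (yv y ((A.e i).symm w)) := by
      funext w
      ring
    rw [e, PImm1_102.lev_mul_flat (k1.of_le (by norm_cast)) hfl]
    have h3 := k2 v hv
    simp only [(A.e i).left_inv hi]
    refine ⟨mul_nonneg h3.le (chi_nonneg _ _ _), fun h4 => ?_⟩
    rw [chi_one hε h4.le, mul_one]
    exact h3

/-! ### the metric -/

theorem ss_tr (hy : ∀ a, IsHS L W (y a)) {i j : A.ι} {x : M}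
    (hx : x ∈ (A.e i).source ∩ (A.e j).source) (hxW : x ∈ W) :
    ss (fun a => y a i x) = ‖L.g i j x‖ ^ 2 * ss (fun a => y a j x) := by
  rw [← ss_smul]
  congr 1
  funext a
  exact (hy a).tr i j x hx hxW

/-- the metric `S^{-k} exp (-ψ)` on `L ^ k` -/
def met (hy : ∀ a, IsHS L W (y a)) (hW : IsOpen W) {W₁ : Set M} (h1 : W₁ ⊆ NZ y W) (ψ : M → ℝ)
    (hψ : ∀ x ∈ W₁, ∀ i, x ∈ (A.e i).source →
      ContDiffAt ℝ ∞ (fun w => ψ ((A.e i).symm w)) (A.e i x)) (k : ℕ) : HMo (L ^ k) W₁ where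
  w i x := ((ss (fun a => y a i x)) ^ k)⁻¹ * Real.exp (- ψ x)
  pos i x hi hx := by
    have := ss_pos (nz_chart hy (h1 hx) hi)
    positivity
  sm i := by
    rintro z ⟨hz, hzW⟩
    have hi := (A.e i).map_target hz
    have hx := h1 hzW
    have e : A.e i ((A.e i).symm z) = z := (A.e i).right_inv hz
    have k1 : ContDiffAt ℝ ∞ (fun w => ψ ((A.e i).symm w)) z := by
      have := hψ _ hzW i hi
      rwa [e] at this
    have k2 : ∀ a, AnalyticAt ℂ (fun w => y a i ((A.e i).symm w)) z := by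
      intro a
      have := y_diff hW hy hi hx.1 a
      rwa [e] at this
    have k3 : ContDiffAt ℝ ∞ (fun w => ss (fun a => y a i ((A.e i).symm w))) z :=
      ContDiffAt.sum fun a _ => Levi_145.c2_normSq (k2 a) ∞
    have k4 := ss_pos (nz_chart hy hx hi)
    exact (((k3.pow k).inv (pow_ne_zero _ k4.ne')).mul
      (Real.contDiff_exp.contDiffAt.comp z k1.neg)).contDiffWithinAt
  tr i j x hx hxU := by
    have k1 := ss_tr hy hx (h1 hxU).1
    have k4 := ss_pos (nz_chart hy (h1 hxU) hx.2)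
    have k5 := L.ne_zero i j x
    show ((ss (fun a => y a j x)) ^ k)⁻¹ * _ = ‖(L ^ k).g i j x‖ ^ 2 *
      (((ss (fun a => y a i x)) ^ k)⁻¹ * _)
    rw [HM_333.LB_pow_g, norm_pow, k1, mul_pow]
    have k6 : ‖L.g i j x‖ ≠ 0 := by positivity
    field_simp
    ring

theorem met_wt (hy : ∀ a, IsHS L W (y a)) (hW : IsOpen W) {W₁ : Set M} (h1 : W₁ ⊆ NZ y W)
    (ψ : M → ℝ) (hψ : ∀ x ∈ W₁, ∀ i, x ∈ (A.e i).source →
      ContDiffAt ℝ ∞ (fun w => ψ ((A.e i).symm w)) (A.e i x)) (k : ℕ) {i : A.ι} {z : Cn n}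
    (hz : z ∈ (A.e i).target) (hzW : (A.e i).symm z ∈ W₁) :
    (met hy hW h1 ψ hψ k).wt i z =
      k * Real.log (ss (fun a => y a i ((A.e i).symm z))) + ψ ((A.e i).symm z) := by
  have k4 := ss_pos (nz_chart hy (h1 hzW) ((A.e i).map_target hz))
  simp only [HMo.wt, met]
  rw [Real.log_mul (by positivity) (Real.exp_pos _).ne', Real.log_exp, Real.log_inv, Real.log_pow]
  ring

theorem met_lev (hy : ∀ a, IsHS L W (y a)) (hW : IsOpen W) {W₁ : Set M} (hW₁ : IsOpen W₁)
    (h1 : W₁ ⊆ NZ y W)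
    (ψ : M → ℝ) (hψ : ∀ x ∈ W₁, ∀ i, x ∈ (A.e i).source →
      ContDiffAt ℝ ∞ (fun w => ψ ((A.e i).symm w)) (A.e i x)) (k : ℕ) {i : A.ι} {z : Cn n}
    (hz : z ∈ (A.e i).target) (hzW : (A.e i).symm z ∈ W₁) (v : Cn n) :
    lev ((met hy hW h1 ψ hψ k).wt i) z v = lev (fun w => ψ ((A.e i).symm w)) z v +
      k * lev (fun w => Real.log (ss (fun a => y a i ((A.e i).symm w)))) z v := by
  have hi := (A.e i).map_target hz
  have e : A.e i ((A.e i).symm z) = z := (A.e i).right_inv hz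
  have k1 : ContDiffAt ℝ ∞ (fun w => ψ ((A.e i).symm w)) z := by
    have := hψ _ hzW i hi
    rwa [e] at this
  have k2 : ∀ a, AnalyticAt ℂ (fun w => y a i ((A.e i).symm w)) z := by
    intro a
    have := y_diff hW hy hi (h1 hzW).1 a
    rwa [e] at this
  have k3 : ContDiffAt ℝ ∞ (fun w => ss (fun a => y a i ((A.e i).symm w))) z :=
    ContDiffAt.sum fun a _ => Levi_145.c2_normSq (k2 a) ∞
  have k4 := ss_pos (nz_chart hy (h1 hzW) hi)
  have k5 : ContDiffAt ℝ 2 (fun w => Real.log (ss (fun a => y a i ((A.e i).symm w)))) z :=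
    (k3.log k4.ne').of_le (by norm_cast)
  have k6 : ContDiffAt ℝ 2 (fun w => ψ ((A.e i).symm w)) z := k1.of_le (by norm_cast)
  have he : (met hy hW h1 ψ hψ k).wt i =ᶠ[𝓝 z] fun w =>
      (k : ℝ) * Real.log (ss (fun a => y a i ((A.e i).symm w))) + ψ ((A.e i).symm w) := by
    filter_upwards [(isOpen_tU hW₁ i).mem_nhds ⟨hz, hzW⟩] with w hw
    exact met_wt hy hW h1 ψ hψ k hw.1 hw.2
  rw [PB_835.lev_congr' he, PB_835.lev_bridge, Levi_145.lev_add (contDiffAt_const.mul k5) k6,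
    Levi_145.lev_const_mul (k : ℝ) k5, PB_835.lev_bridge, PB_835.lev_bridge]
  ring

end

end Crest.Agent.R272.FinPos3_876
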