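import Crest.Agent.R272.FinPos4_876

/-!
# R272, model division (helper876), FIN-POS, file 5: the global theorem

`pos_of_fin`: `p : M → N` holomorphic, `M`, `N` compact, `H` positive on `N`, `L` a line bundle on
`M`; for every `q : N` finitely many holomorphic sections of some power `L ^ a`, `a > 0`, over a
neighbourhood of `p ⁻¹' {q}`, without common zero and with finite fibres of `[y]` on `p ⁻¹' {q}`
⟹ some `L ^ k * (p^* H) ^ m`, `k > 0`, all large `m`, has a positive metric.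
-/

set_option autoImplicit false
set_option linter.unusedSectionVars false

open Set Filter Topology Complex
open scoped ContDiff Matrix ComplexConjugate Manifold

namespace Crest.Agent.R272.FinPos5_876

open Crest.Agent.R275.Geo Crest.Agent.R275.Core144 Crest.Agent.R273.Defs_333
open Crest.Agent.R273.Map_835 Crest.Agent.R273
open Crest.Agent.R272.PosGlue_232 Crest.Agent.R272.FinPos1_876
open Crest.Agent.R272.FinPos4_876

noncomputable section

variable {n l : ℕ} {M N : Type} [TopologicalSpace M] [TopologicalSpace N]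
  {A : Atl n M} {B : Atl l N} {p : M → N} {L L' : LB A} {U : Set M}

/-- powers of a local metric -/
def HMo.pow (h : HMo L U) (c : ℕ) : HMo (L ^ c) U where
  w i x := (h.w i x) ^ c
  pos i x hx hU := pow_pos (h.pos i x hx hU) c
  sm i := (h.sm i).pow c
  tr i j x hx hU := by
    rw [h.tr i j x hx hU, HM_333.LB_pow_g, norm_pow]
    ring

/-- transport along an equality of bundles -/
def HMo.cast (e : L = L') (h : HMo L U) : HMo L' U := e ▸ h

theorem posAtO_cast (e : L = L') {h : HMo L U} {x : M} (hp : PosAtO h x) :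
    PosAtO (HMo.cast e h) x := by
  subst e
  exact hp

theorem posAtO_pow (hU : IsOpen U) {h : HMo L U} {c : ℕ} (hc : 0 < c) {x : M} (hx : x ∈ U)
    (hp : PosAtO h x) : PosAtO (HMo.pow h c) x := by
  intro i hi v hv
  have h1 := hp i hi v hv
  have hm : A.e i x ∈ (A.e i).target ∩ (A.e i).symm ⁻¹' U := by
    refine ⟨(A.e i).map_source hi, ?_⟩
    rw [mem_preimage, (A.e i).left_inv hi]
    exact hx
  have hs : ContDiffAt ℝ 2 (h.wt i) (A.e i x) :=
    ((h.wt_smooth i).contDiffAt ((isOpen_tU hU i).mem_nhds hm)).of_le (by norm_cast)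
  have e : (HMo.pow h c).wt i = fun z => (c : ℝ) * h.wt i z := by
    funext z
    simp only [HMo.wt, HMo.pow, Real.log_pow]
    ring
  rw [e, PB_835.lev_bridge, Levi_145.lev_const_mul (c : ℝ) hs]
  rw [PB_835.lev_bridge] at h1
  have : (0 : ℝ) < c := by exact_mod_cast hc
  have h2 : 0 < Levi_145.lev (h.wt i) (A.e i x) v := by linarith
  positivity

/-- local sections near the fibre over `q` -/
structure FSec (A : Atl n M) (L : LB A) (p : M → N) (q : N) where
  a : ℕ
  a_pos : 0 < a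
  W : Set M
  hW : IsOpen W
  sub : p ⁻¹' {q} ⊆ W
  m : ℕ
  y : Fin m → A.ι → M → ℂ
  hy : ∀ b, IsHS (L ^ a) W (y b)
  nz : NoZero A y (p ⁻¹' {q})
  fin : FinFib A y (p ⁻¹' {q})

/-- **FIN-POS, global form** -/
theorem pos_of_fin [T2Space M] [CompactSpace M] [T2Space N] [CompactSpace N]
    (hp : HolMap A B p) {H' : LB A} {H : LB B} (T : PB_835.PB p H' H) {hH : HM H} (hpos : hH.Pos)
    (hloc : ∀ q : N, Nonempty (FSec A L p q)) :
    ∃ k : ℕ, 0 < k ∧ ∀ c : ℕ, 0 < c →
      ∃ m₀ : ℕ, ∀ m : ℕ, m₀ ≤ m → ∃ g : HM (L ^ (k * c) * H' ^ m), g.Pos := by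
  classical
  have h1 : ∀ q : N, ∃ k : ℕ, 0 < k ∧ ∃ V : Set N, IsOpen V ∧ q ∈ V ∧
      ∃ h : HMo (L ^ k) (p ⁻¹' V), ∀ x ∈ p ⁻¹' V, PosAtO h x := by
    intro q
    obtain ⟨D⟩ := hloc q
    obtain ⟨k₀, hk⟩ := fin_pos_map hp.cont q D.hW D.sub D.hy D.nz D.fin
    obtain ⟨V, hVo, hqV, -, h, hh⟩ := hk (k₀ + 1) (Nat.le_succ k₀)
    refine ⟨D.a * (k₀ + 1), Nat.mul_pos D.a_pos (Nat.succ_pos _), V, hVo, hqV,
      HMo.cast (pow_mul L D.a (k₀ + 1)).symm h, fun x hx => posAtO_cast _ (hh x hx)⟩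
  choose k hk V hVo hqV h hh using h1
  obtain ⟨t, -, ht⟩ := isCompact_univ.elim_nhds_subcover V fun q _ => (hVo q).mem_nhds (hqV q)
  let K : ℕ := ∏ q ∈ t, k q
  have hK : 0 < K := Finset.prod_pos fun q _ => hk q
  refine ⟨K, hK, fun c hc => ?_⟩
  have hdiv : ∀ q : t, ∃ d : ℕ, 0 < d ∧ K * c = k q * d := by
    intro q
    obtain ⟨d, hd⟩ := Finset.dvd_prod_of_mem k q.2
    have hd' : K = k q * d := hd
    have hd0 : 0 < d := by
      rcases Nat.eq_zero_or_pos d with h0 | h0
      · rw [h0, mul_zero] at hd'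
        omega
      · exact h0
    exact ⟨d * c, Nat.mul_pos hd0 hc, by rw [hd', mul_assoc]⟩
  choose d hd0 hd using hdiv
  have hpre : ∀ q : N, IsOpen (p ⁻¹' V q) := fun q => (hVo q).preimage hp.cont
  refine glue_pos hp T hpos (fun q : t => V q) (fun q => hVo q) (fun z => ?_)
    (fun q => HMo.cast ((pow_mul L (k q) (d q)).symm.trans (by rw [hd q]))
      (HMo.pow (h q) (d q))) (fun q => ?_)
  · obtain ⟨q, hq, hz⟩ := mem_iUnion₂.1 (ht (mem_univ z))
    exact ⟨⟨q, hq⟩, hz⟩
  · refine posK_of B p fun x hx => posAtO_cast _ ?_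
    exact posAtO_pow (hpre q) (hd0 q) hx (hh q x hx)

end

end Crest.Agent.R272.FinPos5_876
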