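import Mathlib

/-!
helper74, row 272, leaf AR-FIX (task 1496): the swap coset has no isolated fixed points
(#5564 (2)), abstract form.
-/

set_option autoImplicit false
set_option linter.unusedSectionVars false

open scoped ComplexConjugate
open Matrix

namespace Crest.Agent.R272.Fix1_74

variable {ι : Type*} [Fintype ι] [DecidableEq ι]

/-- Over a field of characteristic zero a matrix with `P * P = 2 P` has trace `2 k`,
`k ≤ card ι`, and has rank one (all `2 × 2` minors vanish) if `k = 1`. -/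
theorem field_trace {K : Type*} [Field K] [CharZero K] (P : Matrix ι ι K)
    (hP : P * P = (2 : K) • P) :
    ∃ k : ℕ, k ≤ Fintype.card ι ∧ P.trace = 2 * (k : K) ∧
      (k = 1 → ∀ i j k' l, P i j * P k' l = P i l * P k' j) := by
  set f : (ι → K) →ₗ[K] (ι → K) := Matrix.toLin' ((2 : K)⁻¹ • P) with hf
  have h2 : (2 : K) ≠ 0 := two_ne_zero
  have hff : ∀ x, f (f x) = f x := by
    intro x
    have : f ∘ₗ f = f := by
      rw [hf, ← Matrix.toLin'_mul]
      congr 1
      rw [Matrix.smul_mul, Matrix.mul_smul, hP, smul_smul, smul_smul]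
      congr 1
      field_simp
    exact LinearMap.congr_fun this x
  have hproj : LinearMap.IsProj (LinearMap.range f) f := by
    refine ⟨fun x => LinearMap.mem_range_self f x, ?_⟩
    rintro x ⟨y, rfl⟩
    exact hff y
  have htr := hproj.trace
  refine ⟨Module.finrank K (LinearMap.range f), ?_, ?_, ?_⟩
  · have := Submodule.finrank_le (LinearMap.range f)
    simpa using this
  · rw [← htr, hf, Matrix.trace_toLin'_eq, Matrix.trace_smul, smul_eq_mul, ← mul_assoc,
      mul_inv_cancel₀ h2, one_mul]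
  · intro hk
    rw [finrank_eq_one_iff'] at hk
    obtain ⟨v, hv, hvs⟩ := hk
    have key : ∀ j, ∃ c : K, ∀ i, P i j = c * (v : ι → K) i := by
      intro j
      obtain ⟨c, hc⟩ := hvs ⟨f (Pi.single j 1), LinearMap.mem_range_self f _⟩
      refine ⟨2 * c, fun i => ?_⟩
      have h3 := congrArg (fun w : LinearMap.range f => (w : ι → K) i) hc
      simp only [Submodule.coe_smul, Pi.smul_apply, smul_eq_mul] at h3
      rw [mul_assoc, h3, hf, Matrix.toLin'_apply]
      simp only [Matrix.mulVec_single_one, Matrix.col_apply, Matrix.smul_apply, smul_eq_mul]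
      rw [← mul_assoc, mul_inv_cancel₀ h2, one_mul]
    intro i j k' l
    obtain ⟨c, hc⟩ := key j
    obtain ⟨d, hd⟩ := key l
    rw [hc, hd, hc, hd]; ring

theorem dom_trace {R : Type*} [CommRing R] [IsDomain R] [CharZero R] (P : Matrix ι ι R)
    (hP : P * P = (2 : R) • P) :
    ∃ k : ℕ, k ≤ Fintype.card ι ∧ P.trace = 2 * (k : R) ∧
      (k = 1 → ∀ i j k' l, P i j * P k' l = P i l * P k' j) := by
  have hinj : Function.Injective (algebraMap R (FractionRing R)) :=
    IsFractionRing.injective R (FractionRing R)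
  have : CharZero (FractionRing R) := charZero_of_injective_algebraMap hinj
  have hP' : (P.map (algebraMap R (FractionRing R))) * (P.map (algebraMap R (FractionRing R)))
      = (2 : FractionRing R) • (P.map (algebraMap R (FractionRing R))) := by
    rw [← Matrix.map_mul, hP]
    ext i j
    simp only [Matrix.map_apply, Matrix.smul_apply, smul_eq_mul, map_mul, map_ofNat]
  obtain ⟨k, hk, ht, hm⟩ := field_trace (P.map (algebraMap R (FractionRing R))) hP'
  refine ⟨k, hk, ?_, ?_⟩
  · apply hinj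
    have h1 : algebraMap R (FractionRing R) P.trace
        = (P.map (algebraMap R (FractionRing R))).trace := by
      simp [Matrix.trace, Matrix.diag, Matrix.map_apply]
    rw [h1, ht, map_mul, map_natCast, map_ofNat]
  · intro h1 i j k' l
    have := hm h1 i j k' l
    simp only [Matrix.map_apply] at this
    apply hinj
    rw [map_mul, map_mul]
    exact this

/-- The arithmetic input: conjugation, two places, residue map at the prime above `5`. -/
structure Dat (R : Type*) [CommRing R] where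
  st : R →+* R
  ρ1 : R →+* ℂ
  ρ2 : R →+* ℂ
  inj1 : Function.Injective ρ1
  inj2 : Function.Injective ρ2
  st1 : ∀ x, ρ1 (st x) = conj (ρ1 x)
  st2 : ∀ x, ρ2 (st x) = conj (ρ2 x)
  q : R →+* ZMod 5
  q_st : ∀ x, q (st x) = q x
  nrm : ∀ x, st x = x → ∃ N : ℤ, ρ1 x * ρ2 x = N ∧ q x ^ 2 = N

namespace Dat

variable {R : Type*} [CommRing R] (D : Dat R)

theorem st_st (x : R) : D.st (D.st x) = x := by
  apply D.inj1
  rw [D.st1, D.st1, Complex.conj_conj]

theorem real1 {x : R} (hx : D.st x = x) : D.ρ1 x = ((D.ρ1 x).re : ℂ) := by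
  have := D.st1 x
  rw [hx] at this
  exact (Complex.conj_eq_iff_re.1 this.symm).symm

theorem real2 {x : R} (hx : D.st x = x) : D.ρ2 x = ((D.ρ2 x).re : ℂ) := by
  have := D.st2 x
  rw [hx] at this
  exact (Complex.conj_eq_iff_re.1 this.symm).symm

/-- a real unit positive at place 2 is positive at place 1 as soon as it is a square mod 5 -/
theorem pos_of_sq {t u c : R} (ht : D.st t = t) (htu : t * u = 1) (h2 : 0 < (D.ρ2 t).re)
    (hc : D.q t * D.q c ^ 2 = 1) : 0 < (D.ρ1 t).re := by
  by_contra hneg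
  push Not at hneg
  have hu : D.st u = u := by
    have h3 : t * D.st u = 1 := by
      have := congrArg D.st htu
      rwa [map_mul, ht, map_one] at this
    calc D.st u = (t * u) * D.st u := by rw [htu, one_mul]
      _ = u * (t * D.st u) := by ring
      _ = u := by rw [h3, mul_one]
  obtain ⟨N, hN1, hN2⟩ := D.nrm t ht
  obtain ⟨M, hM1, _⟩ := D.nrm u hu
  have hNM : (N : ℂ) * M = 1 := by
    rw [← hN1, ← hM1]
    have a1 : D.ρ1 t * D.ρ1 u = 1 := by rw [← map_mul, htu, map_one]
    have a2 : D.ρ2 t * D.ρ2 u = 1 := by rw [← map_mul, htu, map_one]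
    calc D.ρ1 t * D.ρ2 t * (D.ρ1 u * D.ρ2 u) = (D.ρ1 t * D.ρ1 u) * (D.ρ2 t * D.ρ2 u) := by ring
      _ = 1 := by rw [a1, a2, one_mul]
  have hNM' : N * M = 1 := by exact_mod_cast hNM
  have hNr : (N : ℝ) = (D.ρ1 t).re * (D.ρ2 t).re := by
    have := hN1
    rw [D.real1 ht, D.real2 ht] at this
    exact_mod_cast this.symm
  have hN0 : N ≤ 0 := by
    have : (N : ℝ) ≤ 0 := by rw [hNr]; nlinarith
    exact_mod_cast this
  have hNm : N = -1 := by
    rcases Int.isUnit_iff.1 (IsUnit.of_mul_eq_one M hNM') with h | h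
    · omega
    · exact h
  rw [hNm] at hN2
  have key : ∀ a b : ZMod 5, a * b ^ 2 = 1 → a ^ 2 = ((-1 : ℤ) : ZMod 5) → False := by decide
  exact key _ _ hc hN2

variable (H : ι → R)

/-- the Hermitian form over `R` -/
def hR (v w : ι → R) : R := ∑ i, H i * v i * D.st (w i)

/-- the Hermitian form at place 1 -/
def h1 (v w : ι → ℂ) : ℂ := ∑ i, D.ρ1 (H i) * v i * conj (w i)

/-- the Hermitian form at place 2 -/
def h2 (v w : ι → ℂ) : ℂ := ∑ i, D.ρ2 (H i) * v i * conj (w i)

theorem rho1_hR (v w : ι → R) : D.ρ1 (D.hR H v w) = D.h1 H (fun i => D.ρ1 (v i))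
    (fun i => D.ρ1 (w i)) := by
  simp [hR, h1, map_sum, map_mul, D.st1]

theorem rho2_hR (v w : ι → R) : D.ρ2 (D.hR H v w) = D.h2 H (fun i => D.ρ2 (v i))
    (fun i => D.ρ2 (w i)) := by
  simp [hR, h2, map_sum, map_mul, D.st2]

theorem h1_smul_left (c : ℂ) (v w : ι → ℂ) : D.h1 H (c • v) w = c * D.h1 H v w := by
  simp only [h1, Pi.smul_apply, smul_eq_mul, Finset.mul_sum]
  exact Finset.sum_congr rfl fun i _ => by ring

theorem h1_smul_right (c : ℂ) (v w : ι → ℂ) : D.h1 H v (c • w) = conj c * D.h1 H v w := by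
  simp only [h1, Pi.smul_apply, smul_eq_mul, Finset.mul_sum, map_mul]
  exact Finset.sum_congr rfl fun i _ => by ring

theorem h1_conj (hH : ∀ i, D.st (H i) = H i) (v w : ι → ℂ) :
    conj (D.h1 H v w) = D.h1 H w v := by
  simp only [h1, map_sum, map_mul, Complex.conj_conj]
  refine Finset.sum_congr rfl fun i _ => ?_
  rw [← D.st1, hH]
  ring

/-- permutation matrix of the swap of two basis vectors -/
def swapM (R : Type*) [CommRing R] (i1 i2 : ι) : Matrix ι ι R :=
  fun i j => if Equiv.swap i1 i2 j = i then 1 else 0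

theorem trace_one_sub_swapM {i1 i2 : ι} (h12 : i1 ≠ i2) :
    (∑ i, (1 - swapM R i1 i2 i i) : R) = 2 := by
  have h1 : ∀ i, (1 - swapM R i1 i2 i i : R)
      = if i ∈ (Equiv.swap i1 i2).support then 1 else 0 := by
    intro i
    simp only [Equiv.Perm.mem_support, swapM]
    by_cases h : Equiv.swap i1 i2 i = i
    · simp [h]
    · simp [h]
  rw [Finset.sum_congr rfl fun i _ => h1 i, Finset.sum_boole, Finset.filter_mem_eq_inter,
    Finset.univ_inter, Equiv.Perm.card_support_swap h12]
  norm_num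

end Dat

open Dat

variable {R : Type*} [CommRing R] [IsDomain R] [CharZero R] [IsPrincipalIdealRing R]

/-- algebraic part: an integral unitary involution congruent to the swap is a reflection
`v ↦ v - t h(v,r) r` with `t` a real unit, `t h(r,r) = 2` and `r` primitive. -/
theorem refl_of_cong (D : Dat R) (H : ι → R) (hH : ∀ i, D.st (H i) = H i)
    (hHu : ∀ i, IsUnit (H i)) {i1 i2 : ι} (h12 : i1 ≠ i2) (hHi : H i1 = 1)
    (μ : R) (hμ2 : (2 : R) ∣ μ) (hμq : D.q μ = 0)
    (hμk : ∀ k : ℕ, k ≤ Fintype.card ι → μ ∣ 2 * (k : R) - 2 → k = 1)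
    (s : Matrix ι ι R) (hs : (s.map D.st)ᵀ * diagonal H * s = diagonal H) (hss : s * s = 1)
    (hsσ : ∀ i j, μ ∣ s i j - swapM R i1 i2 i j) :
    ∃ (t u : R) (r : ι → R), D.st t = t ∧ t * u = 1 ∧ t * D.hR H r r = 2 ∧
      (∀ i j, s i j = (1 : Matrix ι ι R) i j - t * r i * (H j * D.st (r j))) ∧
      (∃ a : ι → R, ∑ i, a i * r i = 1) ∧ (D.q t * D.q (r i1) ^ 2 = 1) := by
  classical
  set P : Matrix ι ι R := 1 - s with hPdef
  have hPP : P * P = (2 : R) • P := by
    have : (1 - s) * (1 - s) = 1 - s - s + s * s := by noncomm_ring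
    rw [hPdef, this, hss, smul_sub, two_smul, two_smul]
    abel
  obtain ⟨k, hk, htr, hmin⟩ := dom_trace P hPP
  -- trace
  have hk1 : k = 1 := by
    apply hμk k hk
    rw [← htr]
    have e1 : P.trace - 2 = - ∑ i, (s i i - swapM R i1 i2 i i) := by
      rw [← trace_one_sub_swapM (R := R) h12, ← Finset.sum_neg_distrib, Matrix.trace,
        ← Finset.sum_sub_distrib]
      refine Finset.sum_congr rfl fun i _ => ?_
      simp only [Matrix.diag_apply, hPdef, Matrix.sub_apply, Matrix.one_apply_eq]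
      ring
    rw [e1]
    exact (dvd_neg).2 (Finset.dvd_sum fun i _ => hsσ i i)
  have hmin := hmin hk1
  -- self-adjointness
  have hsa : (s.map D.st)ᵀ * diagonal H = diagonal H * s := by
    calc (s.map D.st)ᵀ * diagonal H = (s.map D.st)ᵀ * diagonal H * (s * s) := by
          rw [hss, Matrix.mul_one]
      _ = ((s.map D.st)ᵀ * diagonal H * s) * s := by rw [Matrix.mul_assoc _ s s]
      _ = diagonal H * s := by rw [hs]
  have hsa' : ∀ i j, D.st (s j i) * H j = H i * s i j := by
    intro i j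
    have := congrFun (congrFun hsa i) j
    simpa [Matrix.mul_diagonal, Matrix.diagonal_mul, Matrix.map_apply] using this
  have hPsa : ∀ i j, D.st (P j i) * H j = H i * P i j := by
    intro i j
    simp only [hPdef, Matrix.sub_apply, map_sub]
    rw [sub_mul, hsa' i j, mul_sub]
    congr 1
    by_cases hij : i = j
    · subst hij; simp
    · rw [Matrix.one_apply_ne hij, Matrix.one_apply_ne (Ne.symm hij)]; simp
  set m : R := P i1 i1 with hm
  have hmreal : D.st m = m := by
    have := hPsa i1 i1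
    rw [hHi, mul_one, one_mul] at this
    exact this
  have hrow : ∀ j, P i1 j = D.st (P j i1) * H j := by
    intro j
    have := hPsa i1 j
    rw [hHi, one_mul] at this
    exact this.symm
  have hmP : ∀ i j, m * P i j = P i i1 * (H j * D.st (P j i1)) := by
    intro i j
    rw [hm, hmin i1 i1 i j, hrow]; ring
  have h2m : D.hR H (fun i => P i i1) (fun i => P i i1) = 2 * m := by
    have := congrFun (congrFun hPP i1) i1
    rw [Matrix.mul_apply, Matrix.smul_apply, smul_eq_mul] at this
    rw [hm, ← this, hR]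
    refine Finset.sum_congr rfl fun i _ => ?_
    rw [hrow]; ring
  -- m = 1 mod μ
  have hm1 : μ ∣ m - 1 := by
    have h3 := hsσ i1 i1
    have h4 : swapM R i1 i2 i1 i1 = 0 := by
      simp [swapM, Equiv.swap_apply_left, h12.symm]
    rw [h4, sub_zero] at h3
    have : m - 1 = - s i1 i1 := by simp [hm, hPdef]
    rw [this]
    exact (dvd_neg).2 h3
  have hqm : D.q m = 1 := by
    obtain ⟨c, hc⟩ := hm1
    have : D.q (m - 1) = 0 := by rw [hc, map_mul, hμq, zero_mul]
    rw [map_sub, map_one, sub_eq_zero] at this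
    exact this
  have hm0 : m ≠ 0 := by
    intro h0
    rw [h0, map_zero] at hqm
    exact absurd hqm (by decide)
  -- the content
  obtain ⟨lam, hlam⟩ := (IsPrincipalIdealRing.principal (Ideal.span (Set.range fun i => P i i1)))
  have hlam' : Ideal.span (Set.range fun i => P i i1) = Ideal.span {lam} := hlam
  have hdvd : ∀ i, ∃ c, P i i1 = lam * c := by
    intro i
    have : P i i1 ∈ Ideal.span {lam} := by
      rw [← hlam']; exact Ideal.subset_span ⟨i, rfl⟩
    exact Ideal.mem_span_singleton.1 this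
  choose r hr using hdvd
  have hlamne : lam ≠ 0 := by
    intro h0
    apply hm0
    rw [hm, hr i1, h0, zero_mul]
  have hmem : lam ∈ Ideal.span (Set.range fun i => P i i1) := by
    rw [hlam']; exact Ideal.mem_span_singleton_self lam
  obtain ⟨a, ha⟩ := (Ideal.mem_span_range_iff_exists_fun).1 hmem
  have ha1 : ∑ i, a i * r i = 1 := by
    apply mul_left_cancel₀ hlamne
    rw [mul_one, Finset.mul_sum]
    conv_rhs => rw [← ha]
    refine Finset.sum_congr rfl fun i _ => ?_
    rw [hr i]; ring
  choose Hi hHi' using fun i => (hHu i).exists_left_inv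
  -- t
  set t : R := ∑ i, ∑ j, a i * D.st (a j) * Hi j * P i j with ht
  have hmt : m * t = lam * D.st lam := by
    rw [ht, Finset.mul_sum]
    have e1 : ∀ i, m * ∑ j, a i * D.st (a j) * Hi j * P i j
        = (a i * r i) * (lam * D.st lam) := by
      intro i
      rw [Finset.mul_sum]
      have e2 : ∀ j, m * (a i * D.st (a j) * Hi j * P i j)
          = (a i * r i) * (lam * D.st lam) * D.st (a j * r j) := by
        intro j
        calc m * (a i * D.st (a j) * Hi j * P i j)
            = a i * D.st (a j) * Hi j * (m * P i j) := by ring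
          _ = a i * D.st (a j) * (P i i1 * ((Hi j * H j) * D.st (P j i1))) := by
              rw [hmP]; ring
          _ = _ := by
              rw [hHi', one_mul, hr i, hr j, map_mul, map_mul]; ring
      rw [Finset.sum_congr rfl fun j _ => e2 j, ← Finset.mul_sum, ← map_sum, ha1, map_one,
        mul_one]
    rw [Finset.sum_congr rfl fun i _ => e1 i, ← Finset.sum_mul, ha1, one_mul]
  have htreal : D.st t = t := by
    apply mul_left_cancel₀ hm0
    have := congrArg D.st hmt
    rw [map_mul, map_mul, hmreal, D.st_st, mul_comm (D.st lam)] at this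
    rw [this, hmt]
  have hmtr : m = t * (r i1 * D.st (r i1)) := by
    apply mul_left_cancel₀ hm0
    have e1 : m * m = m * D.st m := by rw [hmreal]
    rw [e1]
    have e2 : m = lam * r i1 := by rw [hm, hr i1]
    calc m * D.st m = (lam * r i1) * D.st (lam * r i1) := by rw [← e2]
      _ = (lam * D.st lam) * (r i1 * D.st (r i1)) := by rw [map_mul]; ring
      _ = m * (t * (r i1 * D.st (r i1))) := by rw [← hmt]; ring
  have hth : t * D.hR H r r = 2 := by
    apply mul_left_cancel₀ hm0
    rw [← mul_assoc, hmt, mul_comm m 2, ← h2m]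
    simp only [hR, Finset.mul_sum]
    refine Finset.sum_congr rfl fun i _ => ?_
    rw [hr i, map_mul]; ring
  have hunit : ∃ u, t * u = 1 := by
    obtain ⟨c, hc⟩ := hm1
    obtain ⟨d, hd⟩ := hμ2
    refine ⟨r i1 * D.st (r i1) - D.hR H r r * (d * c), ?_⟩
    have e1 : t * (r i1 * D.st (r i1) - D.hR H r r * (d * c)) = m - 2 * (d * c) := by
      rw [mul_sub, ← hmtr, ← mul_assoc, hth]
    rw [e1, ← mul_assoc, ← hd, ← hc]; ring
  obtain ⟨u, hu⟩ := hunit
  refine ⟨t, u, r, htreal, hu, hth, ?_, ⟨a, ha1⟩, ?_⟩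
  · intro i j
    have e1 : P i j = t * r i * (H j * D.st (r j)) := by
      apply mul_left_cancel₀ hm0
      rw [hmP, hr i, hr j, map_mul]
      calc lam * r i * (H j * (D.st lam * D.st (r j)))
          = (lam * D.st lam) * (r i * (H j * D.st (r j))) := by ring
        _ = m * (t * r i * (H j * D.st (r j))) := by rw [← hmt]; ring
    rw [← e1, hPdef, Matrix.sub_apply]; ring
  · have := hqm
    rw [hmtr, map_mul, map_mul, D.q_st] at this
    rw [pow_two]; exact this

/-- **AR-FIX**: an integral unitary involution congruent to the swap which fixes a negative line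
at place 1 is the reflection in a POSITIVE primitive integral vector `r`,
`s v = v - t h(v,r) r`, `t` a totally positive real unit, `t h(r,r) = 2`, and the fixed point lies
on the mirror `r^⊥`. -/
theorem fix (D : Dat R) (H : ι → R) (hH : ∀ i, D.st (H i) = H i)
    (hHu : ∀ i, IsUnit (H i)) (hH2 : ∀ i, 0 < (D.ρ2 (H i)).re)
    {i1 i2 : ι} (h12 : i1 ≠ i2) (hHi : H i1 = 1)
    (μ : R) (hμ2 : (2 : R) ∣ μ) (hμq : D.q μ = 0)
    (hμk : ∀ k : ℕ, k ≤ Fintype.card ι → μ ∣ 2 * (k : R) - 2 → k = 1)
    (s : Matrix ι ι R) (hs : (s.map D.st)ᵀ * diagonal H * s = diagonal H) (hss : s * s = 1)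
    (hsσ : ∀ i j, μ ∣ s i j - swapM R i1 i2 i j)
    (x : ι → ℂ) (hx : (D.h1 H x x).re < 0) (lam : ℂ) (hfix : (s.map D.ρ1) *ᵥ x = lam • x) :
    ∃ (t u : R) (r : ι → R), D.st t = t ∧ t * u = 1 ∧ 0 < (D.ρ1 t).re ∧ 0 < (D.ρ2 t).re ∧
      t * D.hR H r r = 2 ∧
      (∀ i j, s i j = (1 : Matrix ι ι R) i j - t * r i * (H j * D.st (r j))) ∧
      (∃ a : ι → R, ∑ i, a i * r i = 1) ∧
      D.h1 H x (fun i => D.ρ1 (r i)) = 0 ∧ (s.map D.ρ1) *ᵥ x = x := by
  obtain ⟨t, u, r, htr, htu, hth, hsr, ⟨a, ha⟩, hq⟩ :=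
    refl_of_cong D H hH hHu h12 hHi μ hμ2 hμq hμk s hs hss hsσ
  have hrne : r ≠ 0 := by
    intro h0
    rw [h0] at ha
    simp at ha
  -- place 2
  have h2pos : 0 < (D.h2 H (fun i => D.ρ2 (r i)) (fun i => D.ρ2 (r i))).re := by
    simp only [h2, Complex.re_sum]
    have hterm : ∀ i, (D.ρ2 (H i) * D.ρ2 (r i) * conj (D.ρ2 (r i))).re
        = (D.ρ2 (H i)).re * Complex.normSq (D.ρ2 (r i)) := by
      intro i
      rw [mul_assoc, Complex.mul_conj, D.real2 (hH i), ← Complex.ofReal_mul, Complex.ofReal_re,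
        Complex.ofReal_re]
    rw [Finset.sum_congr rfl fun i _ => hterm i]
    obtain ⟨i0, hi0⟩ := Function.ne_iff.1 hrne
    refine Finset.sum_pos' (fun i _ => mul_nonneg (hH2 i).le (Complex.normSq_nonneg _))
      ⟨i0, Finset.mem_univ _, mul_pos (hH2 i0) (Complex.normSq_pos.2 ?_)⟩
    intro h0
    apply hi0
    apply D.inj2
    rw [h0, Pi.zero_apply, map_zero]
  have ht2 : 0 < (D.ρ2 t).re := by
    have h3 := congrArg D.ρ2 hth
    rw [map_mul, D.rho2_hR, D.real2 htr] at h3
    have h4 := congrArg Complex.re h3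
    rw [Complex.re_ofReal_mul, map_ofNat] at h4
    have h5 : (2 : ℂ).re = 2 := by norm_num
    rw [h5] at h4
    by_contra hneg
    push Not at hneg
    nlinarith
  have ht1 : 0 < (D.ρ1 t).re := D.pos_of_sq htr htu ht2 hq
  -- the action at place 1
  set r1 : ι → ℂ := fun i => D.ρ1 (r i) with hr1
  have hact : (s.map D.ρ1) *ᵥ x = x - (D.ρ1 t * D.h1 H x r1) • r1 := by
    funext i
    simp only [Matrix.mulVec, dotProduct, Matrix.map_apply, Pi.sub_apply, Pi.smul_apply,
      smul_eq_mul]
    have e1 : ∀ j, D.ρ1 (s i j) * x j = (if i = j then x j else 0)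
        - D.ρ1 t * r1 i * (D.ρ1 (H j) * x j * conj (r1 j)) := by
      intro j
      rw [hsr, map_sub, map_mul, map_mul, map_mul, D.st1, Matrix.one_apply]
      by_cases hij : i = j
      · simp only [hij, if_true, map_one, hr1]; ring
      · simp only [hij, if_false, map_zero, hr1]; ring
    rw [Finset.sum_congr rfl fun j _ => e1 j, Finset.sum_sub_distrib, ← Finset.mul_sum]
    simp only [Finset.sum_ite_eq, Finset.mem_univ, if_true, h1]
    ring
  have hperp : D.h1 H x r1 = 0 := by
    by_contra hne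
    have ht1ne : D.ρ1 t ≠ 0 := by
      intro h0; rw [h0] at ht1; simp at ht1
    have hc : D.ρ1 t * D.h1 H x r1 ≠ 0 := mul_ne_zero ht1ne hne
    have e1 : (1 - lam) • x = (D.ρ1 t * D.h1 H x r1) • r1 := by
      rw [sub_smul, one_smul, ← hfix, hact]; abel
    have hr1ne : r1 ≠ 0 := by
      intro h0
      apply hne
      rw [h0]; simp [h1]
    have hlam : 1 - lam ≠ 0 := by
      intro h0
      rw [h0, zero_smul] at e1
      exact (smul_ne_zero hc hr1ne) e1.symm
    have e2 : r1 = ((D.ρ1 t * D.h1 H x r1)⁻¹ * (1 - lam)) • x := by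
      rw [← smul_smul, e1, smul_smul, inv_mul_cancel₀ hc, one_smul]
    have e3 : D.h1 H r1 r1
        = (Complex.normSq ((D.ρ1 t * D.h1 H x r1)⁻¹ * (1 - lam)) : ℂ) * D.h1 H x x := by
      conv_lhs => rw [e2]
      rw [D.h1_smul_left, D.h1_smul_right, ← mul_assoc, Complex.mul_conj]
    have e4 : (D.h1 H r1 r1).re ≤ 0 := by
      rw [e3, Complex.re_ofReal_mul]
      exact mul_nonpos_of_nonneg_of_nonpos (Complex.normSq_nonneg _) hx.le
    have h3 := congrArg D.ρ1 hth
    rw [map_mul, D.rho1_hR, D.real1 htr] at h3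
    have h4 := congrArg Complex.re h3
    rw [Complex.re_ofReal_mul, map_ofNat] at h4
    have h5 : (2 : ℂ).re = 2 := by norm_num
    rw [h5] at h4
    nlinarith
  refine ⟨t, u, r, htr, htu, ht1, ht2, hth, hsr, ⟨a, ha⟩, hperp, ?_⟩
  rw [hact, hperp, mul_zero, zero_smul, sub_zero]

end Crest.Agent.R272.Fix1_74
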