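import Crest.Agent.R272.Fix1_74

/-!
helper74, row 272, AR-FIX (task 1496), part 2: stabilisers and sparsity of mirrors, abstract form.
-/

set_option autoImplicit false
set_option linter.unusedSectionVars false
set_option linter.unusedVariables false

open scoped ComplexConjugate
open Matrix

namespace Crest.Agent.R272.Fix2_74

open Crest.Agent.R272.Fix1_74 Crest.Agent.R272.Fix1_74.Dat

variable {ι : Type*} [Fintype ι] [DecidableEq ι]
variable {R : Type*} [CommRing R]

/-- unitary matrices -/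
def IsU (D : Dat R) (H : ι → R) (s : Matrix ι ι R) : Prop :=
  (s.map D.st)ᵀ * diagonal H * s = diagonal H

/-- congruence -/
def Cong (μ : R) (s s' : Matrix ι ι R) : Prop := ∀ i j, μ ∣ s i j - s' i j

/-- `s` fixes a negative line at place 1 -/
def FixNeg (D : Dat R) (H : ι → R) (s : Matrix ι ι R) : Prop :=
  ∃ (x : ι → ℂ) (lam : ℂ), (D.h1 H x x).re < 0 ∧ (s.map D.ρ1) *ᵥ x = lam • x

theorem IsU.mul {D : Dat R} {H : ι → R} {s s' : Matrix ι ι R} (hs : IsU D H s)
    (hs' : IsU D H s') : IsU D H (s * s') := by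
  unfold IsU at *
  rw [Matrix.map_mul, Matrix.transpose_mul]
  calc (s'.map D.st)ᵀ * (s.map D.st)ᵀ * diagonal H * (s * s')
      = (s'.map D.st)ᵀ * ((s.map D.st)ᵀ * diagonal H * s) * s' := by
        simp only [Matrix.mul_assoc]
    _ = diagonal H := by rw [hs, hs']

theorem Cong.mul {μ : R} {s s' a a' : Matrix ι ι R} (h : Cong μ s a) (h' : Cong μ s' a') :
    Cong μ (s * s') (a * a') := by
  intro i j
  rw [Matrix.mul_apply, Matrix.mul_apply, ← Finset.sum_sub_distrib]
  refine Finset.dvd_sum fun k _ => ?_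
  have : s i k * s' k j - a i k * a' k j
      = (s i k - a i k) * s' k j + a i k * (s' k j - a' k j) := by ring
  rw [this]
  exact dvd_add (Dvd.dvd.mul_right (h i k) _) (Dvd.dvd.mul_left (h' k j) _)

theorem swapM_mul_self (i1 i2 : ι) : swapM R i1 i2 * swapM R i1 i2 = 1 := by
  ext i j
  rw [Matrix.mul_apply, Matrix.one_apply]
  simp only [swapM]
  rw [Finset.sum_eq_single (Equiv.swap i1 i2 j)]
  · simp only [Equiv.swap_apply_self, if_true, mul_one]
    by_cases h : i = j
    · simp [h]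
    · rw [if_neg h, if_neg (fun h' => h h'.symm)]
  · intro k _ hk
    have hne : ¬ (Equiv.swap i1 i2 j = k) := fun h' => hk h'.symm
    rw [if_neg hne, mul_zero]
  · simp

/-- fixed negative line ⇒ involution, when the principal congruence group acts freely -/
theorem sq_eq_one (D : Dat R) (H : ι → R) {i1 i2 : ι} (μ : R)
    (hfree : ∀ g : Matrix ι ι R, IsU D H g → Cong μ g 1 → FixNeg D H g → g = 1)
    (s : Matrix ι ι R) (hs : IsU D H s) (hsσ : Cong μ s (swapM R i1 i2))
    (hfix : FixNeg D H s) : s * s = 1 := by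
  apply hfree _ (hs.mul hs)
  · have := hsσ.mul hsσ
    rwa [swapM_mul_self] at this
  · obtain ⟨x, lam, hx, h⟩ := hfix
    refine ⟨x, lam * lam, hx, ?_⟩
    rw [Matrix.map_mul, ← Matrix.mulVec_mulVec, h, Matrix.mulVec_smul, h, smul_smul]

/-- Two elements of the swap coset with a common fixed negative line are equal. -/
theorem unique_of_common (D : Dat R) (H : ι → R) {i1 i2 : ι} (μ : R)
    (hfree : ∀ g : Matrix ι ι R, IsU D H g → Cong μ g 1 → FixNeg D H g → g = 1)
    (s s' : Matrix ι ι R) (hs : IsU D H s) (hsσ : Cong μ s (swapM R i1 i2))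
    (hs' : IsU D H s') (hsσ' : Cong μ s' (swapM R i1 i2))
    (x : ι → ℂ) (lam lam' : ℂ) (hx : (D.h1 H x x).re < 0)
    (h : (s.map D.ρ1) *ᵥ x = lam • x) (h' : (s'.map D.ρ1) *ᵥ x = lam' • x) : s = s' := by
  have h1 : s * s = 1 := sq_eq_one D H μ hfree s hs hsσ ⟨x, lam, hx, h⟩
  have h2 : s * s' = 1 := by
    apply hfree _ (hs.mul hs')
    · have := hsσ.mul hsσ'
      rwa [swapM_mul_self] at this
    · refine ⟨x, lam' * lam, hx, ?_⟩
      rw [Matrix.map_mul, ← Matrix.mulVec_mulVec, h', Matrix.mulVec_smul, h, smul_smul]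
  calc s = s * (s * s') := by rw [h2, Matrix.mul_one]
    _ = (s * s) * s' := by rw [Matrix.mul_assoc]
    _ = s' := by rw [h1, Matrix.one_mul]

section herm

variable (D : Dat R) (H : ι → R)

theorem h2_smul_left (c : ℂ) (v w : ι → ℂ) : D.h2 H (c • v) w = c * D.h2 H v w := by
  simp only [h2, Pi.smul_apply, smul_eq_mul, Finset.mul_sum]
  exact Finset.sum_congr rfl fun i _ => by ring

theorem h2_sub_left (u v w : ι → ℂ) : D.h2 H (u - v) w = D.h2 H u w - D.h2 H v w := by
  simp only [h2, Pi.sub_apply, ← Finset.sum_sub_distrib]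
  exact Finset.sum_congr rfl fun i _ => by ring

theorem h2_conj (hH : ∀ i, D.st (H i) = H i) (v w : ι → ℂ) :
    conj (D.h2 H v w) = D.h2 H w v := by
  simp only [h2, map_sum, map_mul, Complex.conj_conj]
  refine Finset.sum_congr rfl fun i _ => ?_
  rw [← D.st2, hH]
  ring

theorem h2_self_re (hH : ∀ i, D.st (H i) = H i) (v : ι → ℂ) :
    D.h2 H v v = ((∑ i, (D.ρ2 (H i)).re * Complex.normSq (v i) : ℝ) : ℂ) := by
  simp only [h2]
  push_cast
  refine Finset.sum_congr rfl fun i _ => ?_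
  rw [mul_assoc, Complex.mul_conj]
  congr 1
  exact D.real2 (hH i)

/-- Cauchy–Schwarz at the definite place, with equality case -/
theorem cs2 (hH : ∀ i, D.st (H i) = H i) (hH2 : ∀ i, 0 < (D.ρ2 (H i)).re)
    (v w : ι → ℂ) (hw : 0 < (D.h2 H w w).re) :
    Complex.normSq (D.h2 H v w) ≤ (D.h2 H v v).re * (D.h2 H w w).re ∧
      (Complex.normSq (D.h2 H v w) = (D.h2 H v v).re * (D.h2 H w w).re →
        v = (D.h2 H v w / D.h2 H w w) • w) := by
  set c := D.h2 H v w / D.h2 H w w with hc
  set u := v - c • w with hu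
  have hww : D.h2 H w w = ((D.h2 H w w).re : ℂ) := by
    rw [h2_self_re D H hH w, Complex.ofReal_re]
  have hvv : D.h2 H v v = ((D.h2 H v v).re : ℂ) := by
    rw [h2_self_re D H hH v, Complex.ofReal_re]
  have hwwne : D.h2 H w w ≠ 0 := by
    rw [hww]; exact_mod_cast hw.ne'
  have huw : D.h2 H u w = 0 := by
    rw [hu, h2_sub_left, h2_smul_left, hc, div_mul_cancel₀ _ hwwne, sub_self]
  have huu : D.h2 H u u = D.h2 H v v - Complex.normSq (D.h2 H v w) / D.h2 H w w := by
    have e1 : D.h2 H u u = D.h2 H u v := by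
      have : conj (D.h2 H u u) = conj (D.h2 H u v) := by
        rw [h2_conj D H hH, h2_conj D H hH]
        conv_lhs => rw [hu]
        rw [h2_sub_left, h2_smul_left]
        rw [← hu, ← h2_conj D H hH u w, huw]
        simp
      exact (starRingEnd ℂ).injective this
    rw [e1, hu, h2_sub_left, h2_smul_left, ← h2_conj D H hH v w, hc, div_mul_eq_mul_div,
      Complex.mul_conj]
  have hupos : 0 ≤ (D.h2 H u u).re := by
    rw [h2_self_re D H hH u, Complex.ofReal_re]
    exact Finset.sum_nonneg fun i _ => mul_nonneg (hH2 i).le (Complex.normSq_nonneg _)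
  have hre : (D.h2 H u u).re = (D.h2 H v v).re
      - Complex.normSq (D.h2 H v w) / (D.h2 H w w).re := by
    rw [huu, hww, ← Complex.ofReal_div, Complex.sub_re, Complex.ofReal_re, Complex.ofReal_re]
  constructor
  · rw [hre, sub_nonneg, div_le_iff₀ hw] at hupos
    exact hupos
  · intro heq
    have h0 : (D.h2 H u u).re = 0 := by
      rw [hre, heq, mul_div_assoc, div_self hw.ne', mul_one, sub_self]
    rw [h2_self_re D H hH u, Complex.ofReal_re] at h0
    have hz : ∀ i, u i = 0 := by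
      intro i
      have h3 := (Finset.sum_eq_zero_iff_of_nonneg
        (fun i _ => mul_nonneg (hH2 i).le (Complex.normSq_nonneg (u i)))).1 h0 i
        (Finset.mem_univ i)
      rcases mul_eq_zero.1 h3 with h4 | h4
      · exact absurd h4 (hH2 i).ne'
      · exact Complex.normSq_eq_zero.1 h4
    funext i
    have := hz i
    rw [hu, Pi.sub_apply, sub_eq_zero] at this
    exact this

end herm

/-- The reflection data. -/
structure Refl (D : Dat R) (H : ι → R) (s : Matrix ι ι R) (t : R) (r : ι → R) : Prop where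
  t_real : D.st t = t
  pos1 : 0 < (D.ρ1 t).re
  pos2 : 0 < (D.ρ2 t).re
  norm : t * D.hR H r r = 2
  eq : ∀ i j, s i j = (1 : Matrix ι ι R) i j - t * r i * (H j * D.st (r j))

namespace Refl

variable {D : Dat R} {H : ι → R} {s s' : Matrix ι ι R} {t t' : R} {r r' : ι → R}

theorem hR_conj (hH : ∀ i, D.st (H i) = H i) (v w : ι → R) :
    D.st (D.hR H v w) = D.hR H w v := by
  simp only [hR, map_sum, map_mul, D.st_st, hH]
  exact Finset.sum_congr rfl fun i _ => by ring

/-- trace of the product of two reflections -/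
theorem trace_mul (hs : Refl D H s t r) (hs' : Refl D H s' t' r') :
    (s * s').trace = (Fintype.card ι : R) - 4
      + t * t' * (D.hR H r r' * D.hR H r' r) := by
  have e1 : ∀ i j, s i j * s' j i = (if i = j then 1 else 0)
      - (if i = j then t' * (H j * r' j * D.st (r' j)) else 0)
      - (if i = j then t * (H j * r j * D.st (r j)) else 0)
      + t * t' * ((H i * r i * D.st (r' i)) * (H j * r' j * D.st (r j))) := by
    intro i j
    rw [hs.eq, hs'.eq]
    by_cases hij : i = j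
    · subst hij; simp only [Matrix.one_apply_eq, if_true]; ring
    · rw [Matrix.one_apply_ne hij, Matrix.one_apply_ne (Ne.symm hij)]
      simp only [hij, if_false]; ring
  have e2 : (s * s').trace = ∑ i, ∑ j, s i j * s' j i := by
    simp [Matrix.trace, Matrix.mul_apply]
  rw [e2]
  simp only [e1, Finset.sum_add_distrib, Finset.sum_sub_distrib, Finset.sum_ite_eq,
    Finset.mem_univ, if_true, ← Finset.mul_sum, ← Finset.sum_mul]
  have n1 : t * ∑ i, H i * r i * D.st (r i) = 2 := hs.norm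
  have n2 : t' * ∑ i, H i * r' i * D.st (r' i) = 2 := hs'.norm
  rw [n1, n2]
  simp only [hR, Finset.sum_const, Finset.card_univ, nsmul_eq_mul, mul_one]
  ring

end Refl

/-- a nonzero real multiple of `μ` is large at place 1 if it is bounded at place 2 -/
theorem big_of_dvd [IsDomain R] (D : Dat R) {μ X : R} (hX : D.st X = X) (hμX : μ ∣ X)
    (hX0 : X ≠ 0) {B : ℝ} (hB : ‖D.ρ2 X‖ ≤ B)
    (hn : ∀ x : R, x ≠ 0 → 1 ≤ ‖D.ρ1 x‖ * ‖D.ρ2 x‖) :
    ‖D.ρ1 μ‖ * ‖D.ρ2 μ‖ ≤ ‖D.ρ1 X‖ * B := by
  obtain ⟨c, rfl⟩ := hμX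
  have hc : c ≠ 0 := right_ne_zero_of_mul hX0
  have h1 := hn c hc
  rw [map_mul, norm_mul]
  rw [map_mul, norm_mul] at hB
  have a1 := norm_nonneg (D.ρ1 μ)
  have a2 := norm_nonneg (D.ρ2 μ)
  have a3 := norm_nonneg (D.ρ1 c)
  calc ‖D.ρ1 μ‖ * ‖D.ρ2 μ‖ ≤ (‖D.ρ1 μ‖ * ‖D.ρ2 μ‖) * (‖D.ρ1 c‖ * ‖D.ρ2 c‖) :=
        le_mul_of_one_le_right (by positivity) h1
    _ = ‖D.ρ1 μ‖ * ‖D.ρ1 c‖ * (‖D.ρ2 μ‖ * ‖D.ρ2 c‖) := by ring
    _ ≤ ‖D.ρ1 μ‖ * ‖D.ρ1 c‖ * B := by gcongr

/-- **sparsity**: two reflections of the swap coset are equal, or their normalised mirror vectors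
have a huge product at place 1. -/
theorem sparse [IsDomain R] (D : Dat R) (H : ι → R) (hH : ∀ i, D.st (H i) = H i)
    (hH2 : ∀ i, 0 < (D.ρ2 (H i)).re) (hn : ∀ x : R, x ≠ 0 → 1 ≤ ‖D.ρ1 x‖ * ‖D.ρ2 x‖)
    {i1 i2 : ι} {μ : R} {s s' : Matrix ι ι R} {t t' : R} {r r' : ι → R}
    (hs : Refl D H s t r) (hs' : Refl D H s' t' r')
    (hσ : Cong μ s (swapM R i1 i2)) (hσ' : Cong μ s' (swapM R i1 i2)) :
    (s = s' ∧ ∃ c : ℂ, ∀ i, D.ρ1 (r i) = c * D.ρ1 (r' i)) ∨
    ‖D.ρ1 μ‖ * ‖D.ρ2 μ‖ ≤ 4 *
      ((D.ρ1 t).re * (D.ρ1 t').re * Complex.normSq (D.h1 H (fun i => D.ρ1 (r i))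
        (fun i => D.ρ1 (r' i))) + 4) := by
  set X : R := t * t' * (D.hR H r r' * D.hR H r' r) with hX
  have hcong : μ ∣ X - 4 := by
    have h1 := hσ.mul hσ'
    rw [swapM_mul_self] at h1
    have h2 : μ ∣ ∑ i, ((s * s') i i - (1 : Matrix ι ι R) i i) :=
      Finset.dvd_sum fun i _ => h1 i i
    have h3 : ∑ i, ((s * s') i i - (1 : Matrix ι ι R) i i) = X - 4 := by
      rw [Finset.sum_sub_distrib]
      have e1 : ∑ i, (s * s') i i = (s * s').trace := rfl
      rw [e1, hs.trace_mul hs', ← hX]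
      simp only [Matrix.one_apply_eq, Finset.sum_const, Finset.card_univ, nsmul_eq_mul, mul_one]
      ring
    rwa [h3] at h2
  have hXreal : D.st X = X := by
    rw [hX]
    simp only [map_mul, hs.t_real, hs'.t_real, Refl.hR_conj hH]
    ring
  -- values at the places
  have hρ1 : D.ρ1 X = (((D.ρ1 t).re * (D.ρ1 t').re * Complex.normSq (D.h1 H
      (fun i => D.ρ1 (r i)) (fun i => D.ρ1 (r' i))) : ℝ) : ℂ) := by
    rw [hX]
    simp only [map_mul, rho1_hR]
    rw [← D.h1_conj H hH (fun i => D.ρ1 (r i)) (fun i => D.ρ1 (r' i)), Complex.mul_conj,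
      D.real1 hs.t_real, D.real1 hs'.t_real]
    push_cast
    simp
  have hρ2 : D.ρ2 X = (((D.ρ2 t).re * (D.ρ2 t').re * Complex.normSq (D.h2 H
      (fun i => D.ρ2 (r i)) (fun i => D.ρ2 (r' i))) : ℝ) : ℂ) := by
    rw [hX]
    simp only [map_mul, rho2_hR]
    rw [← h2_conj D H hH (fun i => D.ρ2 (r i)) (fun i => D.ρ2 (r' i)), Complex.mul_conj,
      D.real2 hs.t_real, D.real2 hs'.t_real]
    push_cast
    simp
  -- norms at place 2
  have hnorm2 : ∀ {s : Matrix ι ι R} {t : R} {r : ι → R}, Refl D H s t r →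
      (D.ρ2 t).re * (D.h2 H (fun i => D.ρ2 (r i)) (fun i => D.ρ2 (r i))).re = 2 := by
    intro s t r h
    have h3 := congrArg D.ρ2 h.norm
    rw [map_mul, D.rho2_hR, D.real2 h.t_real] at h3
    have h4 := congrArg Complex.re h3
    rw [Complex.re_ofReal_mul, map_ofNat] at h4
    have h5 : (2 : ℂ).re = 2 := by norm_num
    rw [h5] at h4
    exact h4
  have nr := hnorm2 hs
  have nr' := hnorm2 hs'
  have hr'pos : 0 < (D.h2 H (fun i => D.ρ2 (r' i)) (fun i => D.ρ2 (r' i))).re := by
    by_contra hneg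
    push Not at hneg
    nlinarith [hs'.pos2]
  obtain ⟨cs, cseq⟩ := cs2 D H hH hH2 (fun i => D.ρ2 (r i)) (fun i => D.ρ2 (r' i)) hr'pos
  set A2 := Complex.normSq (D.h2 H (fun i => D.ρ2 (r i)) (fun i => D.ρ2 (r' i))) with hA2
  have hA2n : 0 ≤ A2 := Complex.normSq_nonneg _
  have hb : (D.ρ2 t).re * (D.ρ2 t').re * A2 ≤ 4 := by
    have p1 := hs.pos2
    have p2 := hs'.pos2
    calc (D.ρ2 t).re * (D.ρ2 t').re * A2
        ≤ (D.ρ2 t).re * (D.ρ2 t').re *
          ((D.h2 H (fun i => D.ρ2 (r i)) (fun i => D.ρ2 (r i))).re *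
          (D.h2 H (fun i => D.ρ2 (r' i)) (fun i => D.ρ2 (r' i))).re) := by
            gcongr
      _ = ((D.ρ2 t).re * (D.h2 H (fun i => D.ρ2 (r i)) (fun i => D.ρ2 (r i))).re) *
          ((D.ρ2 t').re * (D.h2 H (fun i => D.ρ2 (r' i)) (fun i => D.ρ2 (r' i))).re) := by ring
      _ = 4 := by rw [nr, nr']; norm_num
  have hb0 : 0 ≤ (D.ρ2 t).re * (D.ρ2 t').re * A2 :=
    mul_nonneg (mul_nonneg hs.pos2.le hs'.pos2.le) hA2n
  by_cases hX4 : X - 4 = 0
  · left
    have hX4' : X = 4 := sub_eq_zero.1 hX4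
    have h2 : (D.ρ2 t).re * (D.ρ2 t').re * A2 = 4 := by
      have h3 := hρ2
      rw [hX4', map_ofNat] at h3
      have h4 : (4 : ℂ) = ((4 : ℝ) : ℂ) := by norm_num
      rw [h4] at h3
      exact (Complex.ofReal_injective h3).symm
    have heq : A2 = (D.h2 H (fun i => D.ρ2 (r i)) (fun i => D.ρ2 (r i))).re *
          (D.h2 H (fun i => D.ρ2 (r' i)) (fun i => D.ρ2 (r' i))).re := by
      have p1 := hs.pos2
      have p2 := hs'.pos2
      have e1 : (D.ρ2 t).re * (D.ρ2 t').re * A2 = (D.ρ2 t).re * (D.ρ2 t').re *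
          ((D.h2 H (fun i => D.ρ2 (r i)) (fun i => D.ρ2 (r i))).re *
          (D.h2 H (fun i => D.ρ2 (r' i)) (fun i => D.ρ2 (r' i))).re) := by
        rw [h2]
        calc (4 : ℝ) = ((D.ρ2 t).re * (D.h2 H (fun i => D.ρ2 (r i)) (fun i => D.ρ2 (r i))).re) *
          ((D.ρ2 t').re * (D.h2 H (fun i => D.ρ2 (r' i)) (fun i => D.ρ2 (r' i))).re) := by
              rw [nr, nr']; norm_num
          _ = _ := by ring
      exact mul_left_cancel₀ (mul_pos p1 p2).ne' e1
    have hprop := cseq heq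
    -- minors over R
    have hminor : ∀ i j, r i * r' j = r j * r' i := by
      intro i j
      apply D.inj2
      have hi := congrFun hprop i
      have hj := congrFun hprop j
      simp only [Pi.smul_apply, smul_eq_mul] at hi hj
      rw [map_mul, map_mul, hi, hj]; ring
    have hr'ne : ∃ j, r' j ≠ 0 := by
      by_contra hall
      push Not at hall
      have : D.h2 H (fun i => D.ρ2 (r' i)) (fun i => D.ρ2 (r' i)) = 0 := by
        simp [Dat.h2, hall]
      rw [this] at hr'pos
      simp at hr'pos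
    obtain ⟨j0, hj0⟩ := hr'ne
    -- s = s'
    have hnn : D.hR H r' r' ≠ 0 := by
      intro h0
      have := hs'.norm
      rw [h0, mul_zero] at this
      have h3 := congrArg D.ρ1 this
      rw [map_zero, map_ofNat] at h3
      norm_num at h3
    refine ⟨?_, D.ρ1 (r j0) / D.ρ1 (r' j0), fun i => ?_⟩
    · ext i j
      rw [hs.eq, hs'.eq]
      congr 1
      -- multiply by r' j0 * st (r' j0) * (norms)
      have hw : r' j0 * D.st (r' j0) ≠ 0 := by
        refine mul_ne_zero hj0 fun h0 => hj0 ?_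
        have := congrArg D.st h0
        rwa [D.st_st, map_zero] at this
      -- t * (r j0 * st (r j0)) = t' * (r' j0 * st (r' j0))
      have key : t * (r j0 * D.st (r j0)) = t' * (r' j0 * D.st (r' j0)) := by
        have e1 : (r j0 * D.st (r j0)) * D.hR H r' r' = (r' j0 * D.st (r' j0)) * D.hR H r r := by
          simp only [hR, Finset.mul_sum]
          refine Finset.sum_congr rfl fun i _ => ?_
          have m1 := hminor j0 i
          have m2 := congrArg D.st m1
          rw [map_mul, map_mul] at m2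
          calc r j0 * D.st (r j0) * (H i * r' i * D.st (r' i))
              = H i * (r j0 * r' i) * (D.st (r j0) * D.st (r' i)) := by ring
            _ = H i * (r i * r' j0) * (D.st (r i) * D.st (r' j0)) := by rw [m1, m2]
            _ = _ := by ring
        have e2 : (t * t' * D.hR H r' r') * (t * (r j0 * D.st (r j0)))
            = (t * t' * D.hR H r' r') * (t' * (r' j0 * D.st (r' j0))) := by
          calc (t * t' * D.hR H r' r') * (t * (r j0 * D.st (r j0)))
              = t * t * t' * ((r j0 * D.st (r j0)) * D.hR H r' r') := by ring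
            _ = t * t * t' * ((r' j0 * D.st (r' j0)) * D.hR H r r) := by rw [e1]
            _ = t * t' * (r' j0 * D.st (r' j0)) * (t * D.hR H r r) := by ring
            _ = t * t' * (r' j0 * D.st (r' j0)) * (t' * D.hR H r' r') := by
                rw [hs.norm, hs'.norm]
            _ = _ := by ring
        have ht0 : t ≠ 0 := by
          intro h0; have := hs.pos2; rw [h0] at this; simp at this
        have ht0' : t' ≠ 0 := by
          intro h0; have := hs'.pos2; rw [h0] at this; simp at this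
        exact mul_left_cancel₀ (mul_ne_zero (mul_ne_zero ht0 ht0') hnn) e2
      apply mul_left_cancel₀ hw
      have m1 := hminor i j0
      have m2 := congrArg D.st (hminor j j0)
      rw [map_mul, map_mul] at m2
      calc r' j0 * D.st (r' j0) * (t * r i * (H j * D.st (r j)))
          = t * H j * (r i * r' j0) * (D.st (r j) * D.st (r' j0)) := by ring
        _ = t * H j * (r j0 * r' i) * (D.st (r j0) * D.st (r' j)) := by rw [m1, m2]
        _ = (t * (r j0 * D.st (r j0))) * (r' i * (H j * D.st (r' j))) := by ring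
        _ = (t' * (r' j0 * D.st (r' j0))) * (r' i * (H j * D.st (r' j))) := by rw [key]
        _ = _ := by ring
    · have hne : D.ρ1 (r' j0) ≠ 0 := by
        intro h0
        exact hj0 (D.inj1 (by rw [h0, map_zero]))
      rw [div_mul_eq_mul_div, eq_div_iff hne, ← map_mul, ← map_mul, hminor i j0]
  · right
    have h1 := big_of_dvd D (X := X - 4) (by rw [map_sub, hXreal, map_ofNat]) hcong hX4 (B := 4)
      (by
        rw [map_sub, map_ofNat, hρ2]
        have : ((((D.ρ2 t).re * (D.ρ2 t').re * A2 : ℝ) : ℂ) - 4)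
            = (((D.ρ2 t).re * (D.ρ2 t').re * A2 - 4 : ℝ) : ℂ) := by push_cast; ring
        rw [this, Complex.norm_real, Real.norm_eq_abs, abs_le]
        constructor <;> linarith) hn
    refine h1.trans ?_
    rw [mul_comm]
    gcongr
    rw [map_sub, map_ofNat, hρ1]
    refine (norm_sub_le _ _).trans ?_
    rw [Complex.norm_real, Real.norm_eq_abs, abs_of_nonneg
      (mul_nonneg (mul_nonneg hs.pos1.le hs'.pos1.le) (Complex.normSq_nonneg _))]
    norm_num

end Crest.Agent.R272.Fix2_74
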