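import Crest.Agent.R272.Fix2_74

/-!
helper74, row 272, AR-FIX (task 1496), part 3: the instance `ℤ[ζ₅]`, `h = diag(1,1,1,-φ)`.
-/

set_option autoImplicit false
set_option linter.unusedSectionVars false
set_option linter.unusedVariables false

open scoped ComplexConjugate NumberField
open Matrix Polynomial

namespace Crest.Agent.R272.Fix3_74

open Crest.Agent.R272.Fix1_74 Crest.Agent.R272.Fix1_74.Dat Crest.Agent.R272.Fix2_74

noncomputable section

abbrev K5 := CyclotomicField 5 ℚ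
abbrev R5 := 𝓞 K5

instance cyc5ext : IsCyclotomicExtension {5} ℚ K5 := CyclotomicField.isCyclotomicExtension 5 ℚ

instance nf5 : NumberField K5 := IsCyclotomicExtension.numberField {5} ℚ K5

instance pid5 : IsPrincipalIdealRing R5 := IsCyclotomicExtension.Rat.five_pid K5

def pb : PowerBasis ℤ R5 := (IsCyclotomicExtension.zeta_spec 5 ℚ K5).integralPowerBasis

/-- `ζ₅` -/
def z : R5 := pb.gen

theorem z_eq : z = (IsCyclotomicExtension.zeta_spec 5 ℚ K5).toInteger :=
  (IsCyclotomicExtension.zeta_spec 5 ℚ K5).integralPowerBasis_gen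

theorem z_prim : IsPrimitiveRoot z 5 := by
  rw [z_eq]; exact (IsCyclotomicExtension.zeta_spec 5 ℚ K5).toInteger_isPrimitiveRoot

theorem minpoly_z : minpoly ℤ z = cyclotomic 5 ℤ := by
  have h1 := IsCyclotomicExtension.zeta_spec 5 ℚ K5
  have h2 := cyclotomic_eq_minpoly h1 (by norm_num : 0 < 5)
  rw [h2]
  have h3 : algebraMap R5 K5 z = IsCyclotomicExtension.zeta 5 ℚ K5 := by
    rw [z_eq]; rfl
  rw [← h3]
  exact (minpoly.algebraMap_eq (NumberField.RingOfIntegers.coe_injective) z).symm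

theorem cyc5 {S : Type*} [CommRing S] (y : S) :
    aeval y (cyclotomic 5 ℤ) = 1 + y + y ^ 2 + y ^ 3 + y ^ 4 := by
  have : cyclotomic 5 ℤ = ∑ i ∈ Finset.range 5, X ^ i :=
    @cyclotomic_prime ℤ _ 5 ⟨by norm_num⟩
  rw [this]
  simp [Finset.sum_range_succ]

theorem z_rel : 1 + z + z ^ 2 + z ^ 3 + z ^ 4 = 0 := by
  rw [← cyc5, ← minpoly_z, minpoly.aeval]

/-- ring homs out of `ℤ[ζ₅]` -/
def lft {S : Type*} [CommRing S] (y : S) (hy : 1 + y + y ^ 2 + y ^ 3 + y ^ 4 = 0) : R5 →+* S :=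
  (pb.lift y (by
    have : minpoly ℤ pb.gen = cyclotomic 5 ℤ := minpoly_z
    rw [this, cyc5, hy]) : R5 →ₐ[ℤ] S).toRingHom

theorem lft_z {S : Type*} [CommRing S] (y : S) (hy : 1 + y + y ^ 2 + y ^ 3 + y ^ 4 = 0) :
    lft y hy z = y :=
  pb.lift_gen y _

theorem hom_ext {S : Type*} [CommRing S] {f g : R5 →+* S} (h : f z = g z) : f = g := by
  have : f.toIntAlgHom = g.toIntAlgHom := pb.algHom_ext h
  ext x
  exact DFunLike.congr_fun this x

theorem rep (x : R5) : ∃ a b c d : ℤ, x = a + b * z + c * z ^ 2 + d * z ^ 3 := by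
  obtain ⟨f, hf⟩ := pb.exists_eq_aeval' x
  have hmonic : (cyclotomic 5 ℤ).Monic := cyclotomic.monic 5 ℤ
  have hdeg : (cyclotomic 5 ℤ).natDegree = 4 := by
    rw [natDegree_cyclotomic]; decide
  set g := f %ₘ cyclotomic 5 ℤ with hg
  have hgd : g.natDegree < 4 := by
    rw [← hdeg]
    exact natDegree_modByMonic_lt _ hmonic (by
      intro h; rw [h, natDegree_one] at hdeg; exact absurd hdeg (by norm_num))
  have hx : x = aeval z g := by
    have h1 : f = g + cyclotomic 5 ℤ * (f /ₘ cyclotomic 5 ℤ) :=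
      (modByMonic_add_div f (cyclotomic 5 ℤ)).symm
    have h2 : aeval z (cyclotomic 5 ℤ) = 0 := by rw [cyc5, z_rel]
    rw [hf]
    change aeval z f = _
    conv_lhs => rw [h1]
    rw [map_add, map_mul, h2, zero_mul, add_zero]
  refine ⟨g.coeff 0, g.coeff 1, g.coeff 2, g.coeff 3, ?_⟩
  rw [hx, aeval_eq_sum_range' hgd]
  simp only [Finset.sum_range_succ, Finset.range_zero, Finset.sum_empty, zero_add, pow_zero,
    pow_one, zsmul_eq_mul, mul_one]

theorem indep {a b c d : ℤ} (h : (a : R5) + b * z + c * z ^ 2 + d * z ^ 3 = 0) :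
    a = 0 ∧ b = 0 ∧ c = 0 ∧ d = 0 := by
  set p : ℤ[X] := C a + C b * X + C c * X ^ 2 + C d * X ^ 3 with hp
  have hz : aeval z p = 0 := by
    rw [hp]; simp only [map_add, map_mul, map_pow, aeval_X, aeval_C]
    simpa using h
  have hp0 : p = 0 := by
    by_contra hne
    have h1 : cyclotomic 5 ℤ ∣ p := by
      rw [← minpoly_z]
      exact minpoly.isIntegrallyClosed_dvd (pb.isIntegral_gen) hz
    have h2 := natDegree_le_of_dvd h1 hne
    have h3 : (cyclotomic 5 ℤ).natDegree = 4 := by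
      rw [natDegree_cyclotomic]; decide
    have h4 : p.natDegree ≤ 3 := by
      rw [hp]; compute_degree
    omega
  have e0 : p.coeff 0 = a := by
    rw [hp]; simp only [coeff_add, coeff_C_mul, coeff_X_pow, coeff_X, coeff_C]; norm_num
  have e1 : p.coeff 1 = b := by
    rw [hp]; simp only [coeff_add, coeff_C_mul, coeff_X_pow, coeff_X, coeff_C]; norm_num
  have e2 : p.coeff 2 = c := by
    rw [hp]; simp only [coeff_add, coeff_C_mul, coeff_X_pow, coeff_X, coeff_C]; norm_num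
  have e3 : p.coeff 3 = d := by
    rw [hp]; simp only [coeff_add, coeff_C_mul, coeff_X_pow, coeff_X, coeff_C]; norm_num
  rw [hp0] at e0 e1 e2 e3
  simp only [coeff_zero] at e0 e1 e2 e3
  exact ⟨e0.symm, e1.symm, e2.symm, e3.symm⟩

/-- the two places -/
def y1 : ℂ := Complex.exp (2 * Real.pi * Complex.I / 5)

def y2 : ℂ := y1 ^ 2

theorem y1_prim : IsPrimitiveRoot y1 5 := by
  have := Complex.isPrimitiveRoot_exp 5 (by norm_num)
  simpa [y1] using this

theorem y2_prim : IsPrimitiveRoot y2 5 := y1_prim.pow_of_coprime 2 (by decide)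

theorem rel_of_prim {y : ℂ} (h : IsPrimitiveRoot y 5) : 1 + y + y ^ 2 + y ^ 3 + y ^ 4 = 0 := by
  rw [← cyc5, cyclotomic_eq_minpoly h (by norm_num), minpoly.aeval]

theorem inj_of_prim {y : ℂ} (h : IsPrimitiveRoot y 5) :
    Function.Injective (lft y (rel_of_prim h)) := by
  rw [injective_iff_map_eq_zero]
  intro x hx
  obtain ⟨f, hf⟩ := pb.exists_eq_aeval' x
  have h1 : aeval y f = 0 := by
    have : lft y (rel_of_prim h) (aeval z f) = aeval y f := by
      have h3 : (lft y (rel_of_prim h)).toIntAlgHom (aeval z f)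
          = aeval ((lft y (rel_of_prim h)).toIntAlgHom z) f := (aeval_algHom_apply _ _ _).symm
      have h4 : (lft y (rel_of_prim h)).toIntAlgHom z = y := lft_z y (rel_of_prim h)
      rw [h4] at h3
      exact h3
    rw [← this]
    change x = aeval z f at hf
    rw [← hf]; exact hx
  have h2 : minpoly ℤ y ∣ f :=
    minpoly.isIntegrallyClosed_dvd (h.isIntegral (by norm_num)) h1
  rw [← cyclotomic_eq_minpoly h (by norm_num), ← minpoly_z] at h2
  obtain ⟨g, hg⟩ := h2
  rw [hf]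
  change aeval z f = 0
  rw [hg, map_mul, minpoly.aeval, zero_mul]

theorem z5 : z ^ 5 = 1 := z_prim.pow_eq_one

theorem st_rel : 1 + z ^ 4 + (z ^ 4) ^ 2 + (z ^ 4) ^ 3 + (z ^ 4) ^ 4 = 0 := by
  have e1 : (z ^ 4) ^ 2 = z ^ 3 := by
    calc (z ^ 4) ^ 2 = z ^ 5 * z ^ 3 := by ring
      _ = z ^ 3 := by rw [z5, one_mul]
  have e2 : (z ^ 4) ^ 3 = z ^ 2 := by
    calc (z ^ 4) ^ 3 = (z ^ 5) ^ 2 * z ^ 2 := by ring
      _ = z ^ 2 := by rw [z5, one_pow, one_mul]
  have e3 : (z ^ 4) ^ 4 = z := by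
    calc (z ^ 4) ^ 4 = (z ^ 5) ^ 3 * z := by ring
      _ = z := by rw [z5, one_pow, one_mul]
  rw [e1, e2, e3]
  have := z_rel
  linear_combination this

def st5 : R5 →+* R5 := lft (z ^ 4) st_rel

theorem st5_z : st5 z = z ^ 4 := lft_z _ _

def ρ1 : R5 →+* ℂ := lft y1 (rel_of_prim y1_prim)
def ρ2 : R5 →+* ℂ := lft y2 (rel_of_prim y2_prim)

theorem ρ1_z : ρ1 z = y1 := lft_z _ _
theorem ρ2_z : ρ2 z = y2 := lft_z _ _

theorem conj_prim {y : ℂ} (h : IsPrimitiveRoot y 5) : conj y = y ^ 4 := by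
  have h1 : ‖y‖ = 1 := h.norm'_eq_one (by norm_num)
  have h2 : y * conj y = 1 := by
    rw [Complex.mul_conj, Complex.normSq_eq_norm_sq, h1]; norm_num
  have h3 : y * y ^ 4 = 1 := by
    rw [← pow_succ']; exact h.pow_eq_one
  exact mul_left_cancel₀ (h.ne_zero (by norm_num)) (h2.trans h3.symm)

def q5 : R5 →+* ZMod 5 := lft 1 (by decide)

theorem q5_z : q5 z = 1 := lft_z _ _

theorem st5_rep (a b c d : ℤ) : st5 (a + b * z + c * z ^ 2 + d * z ^ 3)
    = a + b * z ^ 4 + c * z ^ 3 + d * z ^ 2 := by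
  simp only [map_add, map_mul, map_intCast, map_pow, st5_z]
  have e1 : (z ^ 4) ^ 2 = z ^ 3 := by
    calc (z ^ 4) ^ 2 = z ^ 5 * z ^ 3 := by ring
      _ = z ^ 3 := by rw [z5, one_mul]
  have e2 : (z ^ 4) ^ 3 = z ^ 2 := by
    calc (z ^ 4) ^ 3 = (z ^ 5) ^ 2 * z ^ 2 := by ring
      _ = z ^ 2 := by rw [z5, one_pow, one_mul]
  rw [e1, e2]

/-- golden ratio `φ = -(ζ² + ζ³)` -/
def phi : R5 := -(z ^ 2 + z ^ 3)

theorem phi_sq : phi ^ 2 = phi + 1 := by
  have h6 : z ^ 6 = z := by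
    calc z ^ 6 = z ^ 5 * z := by ring
      _ = z := by rw [z5, one_mul]
  have := z_rel
  have h5 := z5
  simp only [phi]
  linear_combination this + 2 * h5 + h6

theorem real_rep {x : R5} (h : st5 x = x) : ∃ a c : ℤ, x = a + c * phi := by
  obtain ⟨a, b, c, d, rfl⟩ := rep x
  rw [st5_rep] at h
  have h1 : ((b : ℤ) : R5) + ((2 * b : ℤ) : R5) * z + ((c - d + b : ℤ) : R5) * z ^ 2
      + ((d - c + b : ℤ) : R5) * z ^ 3 = 0 := by
    push_cast
    have h2 := z_rel
    linear_combination -h + (b : R5) * h2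
  obtain ⟨hb, _, hc, _⟩ := indep h1
  refine ⟨a, -c, ?_⟩
  have hd : d = c := by omega
  rw [hb, hd, phi]
  push_cast
  ring

theorem st5_phi : st5 phi = phi := by
  simp only [phi, map_neg, map_add, map_pow, st5_z]
  have e1 : (z ^ 4) ^ 2 = z ^ 3 := by
    calc (z ^ 4) ^ 2 = z ^ 5 * z ^ 3 := by ring
      _ = z ^ 3 := by rw [z5, one_mul]
  have e2 : (z ^ 4) ^ 3 = z ^ 2 := by
    calc (z ^ 4) ^ 3 = (z ^ 5) ^ 2 * z ^ 2 := by ring
      _ = z ^ 2 := by rw [z5, one_pow, one_mul]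
  rw [e1, e2]; ring

theorem phi_mul_unit : phi * (phi - 1) = 1 := by
  have := phi_sq
  linear_combination this

/-- values of `φ` at the two places: roots of `x² = x + 1` with sum 1 -/
theorem sum_phi : ρ1 phi + ρ2 phi = 1 := by
  have h5 : y1 ^ 5 = 1 := y1_prim.pow_eq_one
  have hr := rel_of_prim y1_prim
  simp only [phi, map_neg, map_add, map_pow, ρ1_z, ρ2_z, y2]
  have e1 : (y1 ^ 2) ^ 3 = y1 := by
    calc (y1 ^ 2) ^ 3 = y1 ^ 5 * y1 := by ring
      _ = y1 := by rw [h5, one_mul]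
  rw [e1]
  linear_combination -hr

theorem ρ1_phi_sq : ρ1 phi ^ 2 = ρ1 phi + 1 := by
  rw [← map_pow, phi_sq, map_add, map_one]

theorem prod_phi : ρ1 phi * ρ2 phi = -1 := by
  have h1 := sum_phi
  have h2 := ρ1_phi_sq
  have : ρ2 phi = 1 - ρ1 phi := by rw [← h1]; ring
  rw [this]; linear_combination -h2

def dat : Dat R5 where
  st := st5
  ρ1 := ρ1
  ρ2 := ρ2
  inj1 := inj_of_prim y1_prim
  inj2 := inj_of_prim y2_prim
  st1 := by
    have : (ρ1.comp st5) = (starRingEnd ℂ).comp ρ1 := by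
      apply hom_ext
      simp only [RingHom.comp_apply, st5_z, map_pow, ρ1_z]
      exact (conj_prim y1_prim).symm
    exact fun x => DFunLike.congr_fun this x
  st2 := by
    have : (ρ2.comp st5) = (starRingEnd ℂ).comp ρ2 := by
      apply hom_ext
      simp only [RingHom.comp_apply, st5_z, map_pow, ρ2_z]
      exact (conj_prim y2_prim).symm
    exact fun x => DFunLike.congr_fun this x
  q := q5
  q_st := by
    have : (q5.comp st5) = q5 := by
      apply hom_ext
      simp only [RingHom.comp_apply, st5_z, map_pow, q5_z, one_pow]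
    exact fun x => DFunLike.congr_fun this x
  nrm := by
    intro x hx
    obtain ⟨a, c, rfl⟩ := real_rep hx
    refine ⟨a ^ 2 + a * c - c ^ 2, ?_, ?_⟩
    · simp only [map_add, map_mul, map_intCast]
      push_cast
      have h1 := sum_phi
      have h2 := prod_phi
      linear_combination (a : ℂ) * c * h1 + (c : ℂ) ^ 2 * h2
    · simp only [map_add, map_mul, map_intCast, phi, map_neg, map_pow, q5_z, one_pow]
      push_cast
      generalize ((a : ℤ) : ZMod 5) = A
      generalize ((c : ℤ) : ZMod 5) = C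
      revert A C; decide

/-! signs -/

theorem y1_eq : y1 = Complex.exp (((2 * Real.pi / 5 : ℝ) : ℂ) * Complex.I) := by
  rw [y1]; congr 1; push_cast; ring

theorem re_y1 : y1.re = Real.cos (2 * Real.pi / 5) := by
  rw [y1_eq, Complex.exp_ofReal_mul_I_re]

theorem re_y1_pos : 0 < y1.re := by
  rw [re_y1]
  apply Real.cos_pos_of_mem_Ioo
  constructor <;> nlinarith [Real.pi_pos]

theorem rho2_phi_re : (ρ2 phi).re = -(2 * y1.re) := by
  have h5 : y1 ^ 5 = 1 := y1_prim.pow_eq_one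
  have e1 : ρ2 phi = -(y1 + conj y1) := by
    simp only [phi, map_neg, map_add, map_pow, ρ2_z, y2]
    rw [conj_prim y1_prim]
    have e2 : (y1 ^ 2) ^ 3 = y1 := by
      calc (y1 ^ 2) ^ 3 = y1 ^ 5 * y1 := by ring
        _ = y1 := by rw [h5, one_mul]
    rw [e2]; ring
  rw [e1, Complex.neg_re, Complex.add_re, Complex.conj_re]; ring

theorem rho2_phi_neg : (ρ2 phi).re < 0 := by
  rw [rho2_phi_re]; linarith [re_y1_pos]

theorem rho1_phi_pos : 1 < (ρ1 phi).re := by
  have h1 := congrArg Complex.re sum_phi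
  rw [Complex.add_re, Complex.one_re] at h1
  linarith [rho2_phi_neg]

/-- the form `diag(1,1,1,-φ)` -/
def H5 : Fin 4 → R5 := ![1, 1, 1, -phi]

theorem H5_st : ∀ i, dat.st (H5 i) = H5 i := by
  intro i
  fin_cases i
  · simp [H5]
  · simp [H5]
  · simp [H5]
  · show st5 (-phi) = -phi
    rw [map_neg, st5_phi]

theorem H5_unit : ∀ i, IsUnit (H5 i) := by
  intro i
  fin_cases i
  · simp [H5]
  · simp [H5]
  · simp [H5]
  · show IsUnit (-phi)
    exact (IsUnit.of_mul_eq_one _ phi_mul_unit).neg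

theorem H5_pos2 : ∀ i, 0 < (dat.ρ2 (H5 i)).re := by
  intro i
  fin_cases i
  · simp [H5]
  · simp [H5]
  · simp [H5]
  · show 0 < (ρ2 (-phi)).re
    rw [map_neg, Complex.neg_re]; linarith [rho2_phi_neg]

/-- product formula -/
theorem one_le_norm (x : R5) (hx : x ≠ 0) : 1 ≤ ‖dat.ρ1 x‖ * ‖dat.ρ2 x‖ := by
  obtain ⟨N, hN, _⟩ := dat.nrm (x * dat.st x) (by rw [map_mul, dat.st_st, mul_comm])
  have h1 : dat.ρ1 (x * dat.st x) = ((‖dat.ρ1 x‖ ^ 2 : ℝ) : ℂ) := by
    rw [map_mul, dat.st1, Complex.mul_conj, Complex.normSq_eq_norm_sq]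
  have h2 : dat.ρ2 (x * dat.st x) = ((‖dat.ρ2 x‖ ^ 2 : ℝ) : ℂ) := by
    rw [map_mul, dat.st2, Complex.mul_conj, Complex.normSq_eq_norm_sq]
  rw [h1, h2] at hN
  have h3 : ‖dat.ρ1 x‖ ^ 2 * ‖dat.ρ2 x‖ ^ 2 = (N : ℝ) := by exact_mod_cast hN
  have p1 : 0 < ‖dat.ρ1 x‖ := norm_pos_iff.2 fun h => hx (dat.inj1 (by rw [h, map_zero]))
  have p2 : 0 < ‖dat.ρ2 x‖ := norm_pos_iff.2 fun h => hx (dat.inj2 (by rw [h, map_zero]))
  have h4 : (0 : ℝ) < N := by rw [← h3]; positivity
  have h5 : (1 : ℝ) ≤ N := by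
    have : 0 < N := by exact_mod_cast h4
    exact_mod_cast this
  have h6 : 1 ≤ (‖dat.ρ1 x‖ * ‖dat.ρ2 x‖) ^ 2 := by rw [mul_pow, h3]; exact h5
  exact (one_le_sq_iff₀ (by positivity)).1 h6

/-- `a² + a c - c² = 1`, `2 a + c > 0` ⇒ `a + c φ` is a square in `ℤ[φ]`. -/
theorem int_sq : ∀ (n : ℕ) (a c : ℤ), c.natAbs ≤ n → a * a + a * c - c * c = 1 → 0 < 2 * a + c →
    ∃ e f : ℤ, e * e + f * f = a ∧ 2 * e * f + f * f = c := by
  have pos : ∀ n : ℕ, ∀ a c : ℤ, 0 ≤ c → c.natAbs ≤ n → a * a + a * c - c * c = 1 →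
      0 < 2 * a + c → ∃ e f : ℤ, e * e + f * f = a ∧ 2 * e * f + f * f = c := by
    intro n
    induction n with
    | zero =>
      intro a c hc hn h hp
      have hc0 : c = 0 := by omega
      subst hc0
      have : a = 1 := by nlinarith
      subst this
      exact ⟨1, 0, by norm_num, by norm_num⟩
    | succ n ih =>
      intro a c hc hn h hp
      rcases eq_or_lt_of_le hc with hc0 | hcpos
      · have hc0' : c = 0 := hc0.symm
        subst hc0'
        have : a = 1 := by nlinarith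
        subst this
        exact ⟨1, 0, by norm_num, by norm_num⟩
      · have ha : 0 < a := by
          by_contra hneg
          push Not at hneg
          nlinarith
        have hac : a ≤ c := by
          by_contra hneg
          push Not at hneg
          nlinarith
        have h3 : 0 < 2 * (2 * a - c) + (c - a) := by
          by_contra hneg
          push Not at hneg
          nlinarith
        obtain ⟨e, f, h1, h2⟩ := ih (2 * a - c) (c - a) (by omega) (by omega)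
          (by nlinarith) h3
        exact ⟨f, e + f, by linarith [h1, h2], by linarith [h1, h2]⟩
  intro n a c hn h hp
  rcases le_total 0 c with hc | hc
  · exact pos n a c hc hn h hp
  · obtain ⟨e, f, h1, h2⟩ := pos n (a + c) (-c) (by omega) (by omega) (by ring_nf; ring_nf at h; linarith)
      (by linarith)
    exact ⟨e + f, -f, by linarith, by linarith⟩

/-- totally positive real units are squares of real units -/
theorem unit_sq {t u : R5} (ht : st5 t = t) (htu : t * u = 1) (h1 : 0 < (ρ1 t).re)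
    (h2 : 0 < (ρ2 t).re) : ∃ e : R5, st5 e = e ∧ e * e = t := by
  obtain ⟨a, c, rfl⟩ := real_rep ht
  -- the norm is one
  have hu : st5 u = u := by
    have h3 : ((a : R5) + c * phi) * st5 u = 1 := by
      have := congrArg st5 htu
      rwa [map_mul, ht, map_one] at this
    calc st5 u = (((a : R5) + c * phi) * u) * st5 u := by rw [htu, one_mul]
      _ = u * (((a : R5) + c * phi) * st5 u) := by ring
      _ = u := by rw [h3, mul_one]
  obtain ⟨a', c', rfl⟩ := real_rep hu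
  have N1 : ∀ a c : ℤ, ρ1 ((a : R5) + c * phi) * ρ2 ((a : R5) + c * phi)
      = ((a * a + a * c - c * c : ℤ) : ℂ) := by
    intro a c
    simp only [map_add, map_mul, map_intCast]
    push_cast
    have h1 := sum_phi
    have h2 := prod_phi
    linear_combination (a : ℂ) * c * h1 + (c : ℂ) ^ 2 * h2
  have hmul : (a * a + a * c - c * c) * (a' * a' + a' * c' - c' * c') = 1 := by
    have e1 : ((a * a + a * c - c * c : ℤ) : ℂ) * ((a' * a' + a' * c' - c' * c' : ℤ) : ℂ) = 1 := by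
      rw [← N1, ← N1]
      have e2 : ρ1 ((a : R5) + c * phi) * ρ1 ((a' : R5) + c' * phi) = 1 := by
        rw [← map_mul, htu, map_one]
      have e3 : ρ2 ((a : R5) + c * phi) * ρ2 ((a' : R5) + c' * phi) = 1 := by
        rw [← map_mul, htu, map_one]
      calc _ = (ρ1 ((a : R5) + c * phi) * ρ1 ((a' : R5) + c' * phi)) *
            (ρ2 ((a : R5) + c * phi) * ρ2 ((a' : R5) + c' * phi)) := by ring
        _ = 1 := by rw [e2, e3, one_mul]
    exact_mod_cast e1
  have hNpos : 0 < a * a + a * c - c * c := by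
    have e1 := N1 a c
    have r1 : ρ1 ((a : R5) + c * phi) = ((ρ1 ((a : R5) + c * phi)).re : ℂ) := dat.real1 ht
    have r2 : ρ2 ((a : R5) + c * phi) = ((ρ2 ((a : R5) + c * phi)).re : ℂ) := dat.real2 ht
    rw [r1, r2] at e1
    have e2 : (ρ1 ((a : R5) + c * phi)).re * (ρ2 ((a : R5) + c * phi)).re
        = ((a * a + a * c - c * c : ℤ) : ℝ) := by exact_mod_cast e1
    have e3 : (0 : ℝ) < ((a * a + a * c - c * c : ℤ) : ℝ) := by
      rw [← e2]; exact mul_pos h1 h2
    exact_mod_cast e3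
  have hN1 : a * a + a * c - c * c = 1 := by
    rcases Int.isUnit_iff.1 (IsUnit.of_mul_eq_one _ hmul) with h | h
    · exact h
    · omega
  have htr : 0 < 2 * a + c := by
    have e1 : ρ1 ((a : R5) + c * phi) + ρ2 ((a : R5) + c * phi) = ((2 * a + c : ℤ) : ℂ) := by
      simp only [map_add, map_mul, map_intCast]
      push_cast
      have h1 := sum_phi
      linear_combination (c : ℂ) * h1
    have e2 := congrArg Complex.re e1
    rw [Complex.add_re, Complex.intCast_re] at e2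
    have e3 : (0 : ℝ) < ((2 * a + c : ℤ) : ℝ) := by rw [← e2]; linarith
    exact_mod_cast e3
  obtain ⟨e, f, he, hf⟩ := int_sq c.natAbs a c le_rfl hN1 htr
  refine ⟨e + f * phi, ?_, ?_⟩
  · rw [map_add, map_mul, map_intCast, map_intCast, st5_phi]
  · have hp := phi_sq
    have he' : ((e * e + f * f : ℤ) : R5) = a := by rw [he]
    have hf' : ((2 * e * f + f * f : ℤ) : R5) = c := by rw [hf]
    push_cast at he' hf'
    rw [← he', ← hf']
    linear_combination (f : R5) ^ 2 * hp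

/-- **AR-FIX for `ℤ[ζ₅]`, `h = diag(1,1,1,-φ)`**: every element of the swap coset of a principal
congruence group acting freely which fixes a negative line is the reflection in a primitive integral
vector of norm exactly `2`, and the fixed point lies on the mirror. -/
theorem fix5 (μ : R5) (hμ2 : (2 : R5) ∣ μ) (hμz : 1 - z ∣ μ)
    (hμN : 36 < ‖ρ1 μ‖ * ‖ρ2 μ‖)
    (hfree : ∀ g : Matrix (Fin 4) (Fin 4) R5, IsU dat H5 g → Cong μ g 1 → FixNeg dat H5 g → g = 1)
    (s : Matrix (Fin 4) (Fin 4) R5) (hs : IsU dat H5 s) (hσ : Cong μ s (swapM R5 1 2))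
    (x : Fin 4 → ℂ) (hx : (dat.h1 H5 x x).re < 0) (lam : ℂ) (hfix : (s.map ρ1) *ᵥ x = lam • x) :
    ∃ r : Fin 4 → R5, Refl dat H5 s 1 r ∧ (∃ a : Fin 4 → R5, ∑ i, a i * r i = 1) ∧
      dat.h1 H5 x (fun i => ρ1 (r i)) = 0 ∧ (s.map ρ1) *ᵥ x = x := by
  have hss : s * s = 1 := sq_eq_one dat H5 μ hfree s hs hσ ⟨x, lam, hx, hfix⟩
  have hμq : dat.q μ = 0 := by
    obtain ⟨c, rfl⟩ := hμz
    show q5 ((1 - z) * c) = 0
    rw [map_mul, map_sub, map_one, q5_z, sub_self, zero_mul]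
  have hμk : ∀ k : ℕ, k ≤ Fintype.card (Fin 4) → μ ∣ 2 * (k : R5) - 2 → k = 1 := by
    intro k hk hd
    by_contra hk1
    rw [Fintype.card_fin] at hk
    obtain ⟨c, hc⟩ := hd
    have hne : (2 * (k : R5) - 2) ≠ 0 := by
      intro h0
      have h1 : ((2 * (k : ℤ) - 2 : ℤ) : R5) = 0 := by push_cast; exact h0
      have h2 : (2 * (k : ℤ) - 2) = 0 := by exact_mod_cast h1
      omega
    have hc0 : c ≠ 0 := by
      rintro rfl; rw [mul_zero] at hc; exact hne hc
    have hcn := one_le_norm c hc0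
    have hb : ∀ ρ : R5 →+* ℂ, ‖ρ (2 * (k : R5) - 2)‖ ≤ 6 := by
      intro ρ
      have e1 : ρ (2 * (k : R5) - 2) = (((2 * (k : ℝ) - 2 : ℝ)) : ℂ) := by
        rw [map_sub, map_mul, map_natCast, map_ofNat]; push_cast; ring
      rw [e1, Complex.norm_real, Real.norm_eq_abs, abs_le]
      have : (k : ℝ) ≤ 4 := by exact_mod_cast hk
      have hk0 : (0 : ℝ) ≤ k := Nat.cast_nonneg k
      constructor <;> linarith
    have b1 := hb ρ1
    have b2 := hb ρ2
    rw [hc, map_mul, norm_mul] at b1 b2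
    have hcn' : 1 ≤ ‖ρ1 c‖ * ‖ρ2 c‖ := hcn
    have : (‖ρ1 μ‖ * ‖ρ1 c‖) * (‖ρ2 μ‖ * ‖ρ2 c‖) ≤ 6 * 6 := by
      gcongr
    have h3 : (‖ρ1 μ‖ * ‖ρ2 μ‖) * 1 ≤ (‖ρ1 μ‖ * ‖ρ2 μ‖) * (‖ρ1 c‖ * ‖ρ2 c‖) := by
      gcongr
    have h4 : (‖ρ1 μ‖ * ‖ρ1 c‖) * (‖ρ2 μ‖ * ‖ρ2 c‖)
      = (‖ρ1 μ‖ * ‖ρ2 μ‖) * (‖ρ1 c‖ * ‖ρ2 c‖) := by ring
    linarith
  obtain ⟨t, u, r, htr, htu, h1, h2, hn, heq, ⟨a, ha⟩, hperp, hx'⟩ :=
    fix dat H5 H5_st H5_unit H5_pos2 (by decide : (1 : Fin 4) ≠ 2) (by simp [H5]) μ hμ2 hμq hμk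
      s hs hss hσ x hx lam hfix
  obtain ⟨e, he, hee⟩ := unit_sq htr htu h1 h2
  have heu : e * (e * u) = 1 := by rw [← mul_assoc, hee, htu]
  refine ⟨fun i => e * r i, ⟨map_one _, by simp, by simp, ?_, ?_⟩, ⟨fun i => (e * u) * a i, ?_⟩,
    ?_, hx'⟩
  · rw [one_mul, ← hn, ← hee]
    simp only [hR, Finset.mul_sum, map_mul]
    refine Finset.sum_congr rfl fun i _ => ?_
    have : dat.st e = e := he
    rw [this]; ring
  · intro i j
    rw [heq, map_mul]
    have : dat.st e = e := he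
    rw [this, ← hee]; ring
  · calc ∑ i, e * u * a i * (e * r i) = ∑ i, (e * (e * u)) * (a i * r i) :=
          Finset.sum_congr rfl fun i _ => by ring
      _ = 1 := by simp only [heu, one_mul, ha]
  · have e1 : (fun i => ρ1 (e * r i)) = (ρ1 e) • (fun i => ρ1 (r i)) := by
      funext i; simp
    rw [e1, dat.h1_smul_right]
    have : dat.h1 H5 x (fun i => ρ1 (r i)) = 0 := hperp
    rw [this, mul_zero]

end

end Crest.Agent.R272.Fix3_74
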