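import Crest.Agent.R273.Fam_835

/-!
# R272, FLOP-SURG (helper66), part 1: projective spaces as spaces of rank one projections

`PP n` : matrices `x xᴴ / |x|²`, `x ≠ 0` (compact, Hausdorff, second countable).
`PP.mk x hx`, `PP.continuous_mk`, `PP.rat Π i k = Π i k / Π k k` (`= x i / x k`),
`PP.Par Π v` : `v` lies in the line (closed condition), `PP.eq_mk_of_par`.
-/

set_option autoImplicit false
set_option linter.unusedSectionVars false
set_option linter.style.haveILetI false

open Set Filter Topology Complex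
open scoped ComplexConjugate

namespace Crest.Agent.R272.Flop_66

noncomputable section

/-- the squared norm -/
def nsq {n : ℕ} (x : Fin n → ℂ) : ℝ := ∑ k, ‖x k‖ ^ 2

theorem nsq_nonneg {n : ℕ} (x : Fin n → ℂ) : 0 ≤ nsq x :=
  Finset.sum_nonneg fun _ _ => sq_nonneg _

theorem nsq_eq_zero {n : ℕ} {x : Fin n → ℂ} : nsq x = 0 ↔ x = 0 := by
  unfold nsq
  rw [Finset.sum_eq_zero_iff_of_nonneg fun _ _ => sq_nonneg _]
  constructor
  · intro h
    funext i
    have := h i (Finset.mem_univ i)
    simpa using this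
  · rintro rfl i _
    simp

theorem nsq_pos {n : ℕ} {x : Fin n → ℂ} (h : x ≠ 0) : 0 < nsq x :=
  lt_of_le_of_ne (nsq_nonneg x) fun e => h (nsq_eq_zero.1 e.symm)

@[fun_prop] theorem continuous_nsq {n : ℕ} : Continuous (nsq : (Fin n → ℂ) → ℝ) := by
  unfold nsq; fun_prop

theorem norm_le_of_nsq {n : ℕ} {x : Fin n → ℂ} {r : ℝ} (h : nsq x ≤ r) : ‖x‖ ≤ max 1 r := by
  rw [pi_norm_le_iff_of_nonneg (le_trans zero_le_one (le_max_left _ _))]
  intro i
  have h1 : ‖x i‖ ^ 2 ≤ nsq x :=
    Finset.single_le_sum (f := fun k => ‖x k‖ ^ 2) (fun _ _ => sq_nonneg _) (Finset.mem_univ i)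
  rcases le_or_gt ‖x i‖ 1 with h2 | h2
  · exact h2.trans (le_max_left _ _)
  · refine le_trans ?_ (le_max_right _ _)
    nlinarith

/-- the projection matrix of the line of `x` -/
def pj {n : ℕ} (x : Fin n → ℂ) : Fin n → Fin n → ℂ := fun i j =>
  x i * conj (x j) / (nsq x : ℂ)

/-- the space of lines -/
def PP (n : ℕ) : Type := {Q : Fin n → Fin n → ℂ // ∃ x, x ≠ 0 ∧ Q = pj x}

namespace PP

variable {n : ℕ}

instance : TopologicalSpace (PP n) := instTopologicalSpaceSubtype

instance : T2Space (PP n) := inferInstanceAs (T2Space {Q : Fin n → Fin n → ℂ // ∃ x, x ≠ 0 ∧ Q = pj x})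

instance : SecondCountableTopology (PP n) :=
  inferInstanceAs (SecondCountableTopology {Q : Fin n → Fin n → ℂ // ∃ x, x ≠ 0 ∧ Q = pj x})

/-- the line of `x` -/
def mk (x : Fin n → ℂ) (hx : x ≠ 0) : PP n := ⟨pj x, x, hx, rfl⟩

/-- entries -/
def en (Q : PP n) (i j : Fin n) : ℂ := Q.1 i j

@[fun_prop] theorem continuous_en (i j : Fin n) : Continuous (fun Q : PP n => Q.en i j) :=
  (continuous_apply j).comp ((continuous_apply i).comp continuous_subtype_val)

theorem ext {Q Q' : PP n} (h : ∀ i j, Q.en i j = Q'.en i j) : Q = Q' :=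
  Subtype.ext (funext fun i => funext fun j => h i j)

theorem en_mk {x : Fin n → ℂ} (hx : x ≠ 0) (i j : Fin n) :
    (mk x hx).en i j = x i * conj (x j) / (nsq x : ℂ) := rfl

theorem exists_rep (Q : PP n) : ∃ (x : Fin n → ℂ) (hx : x ≠ 0), Q = mk x hx := by
  obtain ⟨x, hx, h⟩ := Q.2
  exact ⟨x, hx, Subtype.ext h⟩

theorem continuous_iff {Y : Type*} [TopologicalSpace Y] {f : Y → PP n} :
    Continuous f ↔ ∀ i j, Continuous (fun y => (f y).en i j) := by
  constructor
  · intro h i j
    exact (continuous_en i j).comp h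
  · intro h
    refine continuous_induced_rng.2 ?_
    exact continuous_pi fun i => continuous_pi fun j => h i j

theorem continuous_mk {Y : Type*} [TopologicalSpace Y] {f : Y → Fin n → ℂ} (hf : Continuous f)
    (h0 : ∀ y, f y ≠ 0) : Continuous (fun y => mk (f y) (h0 y)) := by
  rw [continuous_iff]
  intro i j
  simp only [en_mk]
  have h1 : ∀ k, Continuous (fun y => f y k) := fun k => (continuous_apply k).comp hf
  refine Continuous.div ?_ ?_ ?_
  · exact (h1 i).mul (continuous_star.comp (h1 j))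
  · exact continuous_ofReal.comp (continuous_nsq.comp hf)
  · intro y
    exact_mod_cast (nsq_pos (h0 y)).ne'

instance : CompactSpace (PP n) := by
  refine ⟨?_⟩
  have h1 : IsCompact {x : Fin n → ℂ | nsq x = 1} := by
    refine Metric.isCompact_of_isClosed_isBounded (isClosed_eq continuous_nsq continuous_const) ?_
    rw [Metric.isBounded_iff_subset_closedBall 0]
    refine ⟨1, fun x hx => ?_⟩
    rw [mem_closedBall_zero_iff]
    have h : nsq x ≤ 1 := le_of_eq hx
    simpa using norm_le_of_nsq h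
  have h2 : ∀ x : {x : Fin n → ℂ | nsq x = 1}, x.1 ≠ 0 := by
    rintro ⟨x, hx⟩ rfl
    have : nsq (0 : Fin n → ℂ) = 1 := hx
    rw [nsq_eq_zero.2 rfl] at this
    exact zero_ne_one this
  haveI : CompactSpace {x : Fin n → ℂ | nsq x = 1} := isCompact_iff_compactSpace.1 h1
  have h3 : Continuous (fun x : {x : Fin n → ℂ | nsq x = 1} => mk x.1 (h2 x)) :=
    continuous_mk continuous_subtype_val h2
  have h4 : Function.Surjective (fun x : {x : Fin n → ℂ | nsq x = 1} => mk x.1 (h2 x)) := by
    intro Q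
    obtain ⟨x, hx, rfl⟩ := Q.exists_rep
    have hp := nsq_pos hx
    set r : ℝ := Real.sqrt (nsq x) with hr
    have hr0 : 0 < r := Real.sqrt_pos.2 hp
    have hr2 : r ^ 2 = nsq x := Real.sq_sqrt hp.le
    have e1 : nsq (fun i => x i / (r : ℂ)) = 1 := by
      unfold nsq
      simp only [norm_div, Complex.norm_real, Real.norm_eq_abs, div_pow, sq_abs]
      rw [← Finset.sum_div, hr2]
      exact div_self hp.ne'
    refine ⟨⟨fun i => x i / (r : ℂ), e1⟩, ext fun i j => ?_⟩
    rw [en_mk, en_mk, e1]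
    have hrc : (r : ℂ) ≠ 0 := by exact_mod_cast hr0.ne'
    rw [map_div₀, Complex.conj_ofReal, ← hr2]
    push_cast
    field_simp
  have h5 := isCompact_range h3
  rwa [h4.range_eq] at h5

theorem en_self_ne {x : Fin n → ℂ} (hx : x ≠ 0) (k : Fin n) : (mk x hx).en k k ≠ 0 ↔ x k ≠ 0 := by
  rw [en_mk]
  have h : (nsq x : ℂ) ≠ 0 := by exact_mod_cast (nsq_pos hx).ne'
  constructor
  · rintro h1 h2
    exact h1 (by rw [h2]; simp)
  · intro h1
    refine div_ne_zero (mul_ne_zero h1 ?_) h
    simpa using h1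

theorem exists_ne (Q : PP n) : ∃ k, Q.en k k ≠ 0 := by
  obtain ⟨x, hx, rfl⟩ := Q.exists_rep
  by_contra h
  push Not at h
  refine hx (funext fun k => ?_)
  by_contra h2
  exact (en_self_ne hx k).2 h2 (h k)

/-- the ratio `x i / x k` -/
def rat (Q : PP n) (i k : Fin n) : ℂ := Q.en i k / Q.en k k

@[simp] theorem rat_mk {x : Fin n → ℂ} (hx : x ≠ 0) (i k : Fin n) :
    (mk x hx).rat i k = x i / x k := by
  unfold rat
  rw [en_mk, en_mk]
  have h : (nsq x : ℂ) ≠ 0 := by exact_mod_cast (nsq_pos hx).ne'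
  by_cases hk : x k = 0
  · simp [hk]
  · have hk' : conj (x k) ≠ 0 := by simpa using hk
    field_simp

theorem continuousOn_rat (i k : Fin n) :
    ContinuousOn (fun Q : PP n => Q.rat i k) {Q | Q.en k k ≠ 0} :=
  (continuous_en i k).continuousOn.div (continuous_en k k).continuousOn fun _ h => h

theorem isOpen_ne (k : Fin n) : IsOpen {Q : PP n | Q.en k k ≠ 0} :=
  isOpen_ne_fun (continuous_en k k) continuous_const

theorem mk_eq_iff {x y : Fin n → ℂ} (hx : x ≠ 0) (hy : y ≠ 0) :
    mk x hx = mk y hy ↔ ∀ i j, x i * y j = x j * y i := by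
  constructor
  · intro h i j
    obtain ⟨k, hk⟩ : ∃ k, x k ≠ 0 := by
      by_contra hc
      push Not at hc
      exact hx (funext hc)
    have hk2 : y k ≠ 0 := by
      rw [← en_self_ne hy, ← h, en_self_ne hx]
      exact hk
    have h1 : ∀ i, x i / x k = y i / y k := fun i => by
      rw [← rat_mk hx i k, ← rat_mk hy i k, h]
    have h2 := h1 i
    have h3 := h1 j
    rw [div_eq_div_iff hk hk2] at h2 h3
    have h4 : x k * y k * (x i * y j) = x k * y k * (x j * y i) := by
      linear_combination (x k * y j) * h2 - (x k * y i) * h3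
    exact mul_left_cancel₀ (mul_ne_zero hk hk2) h4
  · intro h
    obtain ⟨k, hk⟩ : ∃ k, x k ≠ 0 := by
      by_contra hc
      push Not at hc
      exact hx (funext hc)
    set c := y k / x k with hc
    have h1 : ∀ i, y i = c * x i := fun i => by
      rw [hc]
      field_simp
      linear_combination h k i
    have hc0 : c ≠ 0 := by
      intro h0
      exact hy (funext fun i => by rw [h1 i, h0, zero_mul]; rfl)
    have h2 : nsq y = ‖c‖ ^ 2 * nsq x := by
      unfold nsq
      rw [Finset.mul_sum]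
      exact Finset.sum_congr rfl fun i _ => by rw [h1 i, norm_mul, mul_pow]
    refine ext fun i j => ?_
    rw [en_mk, en_mk, h1 i, h1 j, h2, map_mul]
    have h3 : (nsq x : ℂ) ≠ 0 := by exact_mod_cast (nsq_pos hx).ne'
    have h4 : c * conj c = ((‖c‖ ^ 2 : ℝ) : ℂ) := by
      rw [Complex.mul_conj, Complex.normSq_eq_norm_sq]
    have h5 : ((‖c‖ ^ 2 : ℝ) : ℂ) ≠ 0 := by
      rw [← h4]
      exact mul_ne_zero hc0 (by simpa using hc0)
    rw [Complex.ofReal_mul, div_eq_div_iff h3 (mul_ne_zero h5 h3)]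
    linear_combination (-(x i * conj (x j) * (nsq x : ℂ))) * h4

/-- `v` lies in the line -/
def Par (Q : PP n) (v : Fin n → ℂ) : Prop := ∀ i j k, Q.en i k * v j = Q.en j k * v i

theorem par_mk {x : Fin n → ℂ} (hx : x ≠ 0) (v : Fin n → ℂ) :
    (mk x hx).Par v ↔ ∀ i j, x i * v j = x j * v i := by
  have h3 : (nsq x : ℂ) ≠ 0 := by exact_mod_cast (nsq_pos hx).ne'
  constructor
  · intro h i j
    obtain ⟨k, hk⟩ : ∃ k, x k ≠ 0 := by
      by_contra hc
      push Not at hc
      exact hx (funext hc)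
    have h1 := h i j k
    rw [en_mk, en_mk] at h1
    have hk' : conj (x k) ≠ 0 := by simpa using hk
    field_simp at h1
    exact h1
  · intro h i j k
    rw [en_mk, en_mk]
    linear_combination (conj (x k) / (nsq x : ℂ)) * h i j

theorem Par.eq_mk {Q : PP n} {v : Fin n → ℂ} (h : Q.Par v) (hv : v ≠ 0) : Q = mk v hv := by
  obtain ⟨x, hx, rfl⟩ := Q.exists_rep
  rw [mk_eq_iff]
  exact (par_mk hx v).1 h

theorem Par.eq_rat {Q : PP n} {v : Fin n → ℂ} (h : Q.Par v) {k : Fin n} (hk : Q.en k k ≠ 0)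
    (i : Fin n) : v i = Q.rat i k * v k := by
  unfold rat
  field_simp
  linear_combination h k i k

theorem eq_mk_rat (Q : PP n) {k : Fin n} (hk : Q.en k k ≠ 0)
    (h0 : (fun i => Q.rat i k) ≠ 0) : mk (fun i => Q.rat i k) h0 = Q := by
  obtain ⟨x, hx, rfl⟩ := Q.exists_rep
  rw [mk_eq_iff]
  intro i j
  rw [rat_mk, rat_mk]
  ring

theorem rat_self (Q : PP n) {k : Fin n} (hk : Q.en k k ≠ 0) : Q.rat k k = 1 := div_self hk

theorem rat_ne_zero (Q : PP n) {k : Fin n} (hk : Q.en k k ≠ 0) : (fun i => Q.rat i k) ≠ 0 := by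
  intro h
  have := congrFun h k
  rw [rat_self Q hk] at this
  exact one_ne_zero this

theorem isClosed_par {Y : Type*} [TopologicalSpace Y] {f : Y → PP n} {g : Y → Fin n → ℂ}
    (hf : Continuous f) (hg : Continuous g) : IsClosed {y | (f y).Par (g y)} := by
  simp only [Par, ofPred_forall]
  refine isClosed_iInter fun i => isClosed_iInter fun j => isClosed_iInter fun k => ?_
  have h1 : ∀ k, Continuous (fun y => g y k) := fun k => (continuous_apply k).comp hg
  exact isClosed_eq (((continuous_en i k).comp hf).mul (h1 j))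
    (((continuous_en j k).comp hf).mul (h1 i))

end PP

end

end Crest.Agent.R272.Flop_66
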