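import Crest.Agent.R272.Flop1_66

/-!
# R272, FLOP-SURG (helper66), part 2: the local models of the (even) antiflip

`Um` = total space of `O(-1) ⊕ O(-2)` over `ℙ¹` = `{(w; η, ξ), w ≠ 0}/ℂ^*(1,1,-1,-2)`:
  `z = η w`, `m = ξ (w₀², w₀ w₁, w₁²)`, `L` = line of `w`.
  charts `(T, a, μ)`, `T = w₁/w₀`, `z = (a, aT)`, `m = (μ, μT, μT²)` and `(T', b, ν)`.
`Up` = the other side with its `1/2(1,1,1)` point resolved: charts
  `W1 (t, α, μ)`, `W2 (t', α', ν)`, `W3 (g₀, g₁, r)` (together `Tot O_{ℙ²}(-2)`) and `W4 (z₀, z₁, w)`.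
-/

set_option autoImplicit false
set_option linter.unusedSectionVars false
set_option linter.style.haveILetI false

open Set Filter Topology Complex
open scoped ComplexConjugate

namespace Crest.Agent.R272.Flop_66

open Crest.Agent.R275.Geo Crest.Agent.R273.Fam_835

noncomputable section

/-- three differentiable components -/
theorem diffOn3 {E : Type*} [NormedAddCommGroup E] [NormedSpace ℂ E] {f0 f1 f2 : E → ℂ} {s : Set E}
    (h0 : DifferentiableOn ℂ f0 s) (h1 : DifferentiableOn ℂ f1 s) (h2 : DifferentiableOn ℂ f2 s) :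
    DifferentiableOn ℂ (fun z => (!₂[f0 z, f1 z, f2 z] : Cn 3)) s := by
  rw [differentiableOn_euclidean]
  intro k
  fin_cases k
  · exact h0
  · exact h1
  · exact h2

theorem cont3 {E : Type*} [TopologicalSpace E] {f0 f1 f2 : E → ℂ} {s : Set E}
    (h0 : ContinuousOn f0 s) (h1 : ContinuousOn f1 s) (h2 : ContinuousOn f2 s) :
    ContinuousOn (fun z => (!₂[f0 z, f1 z, f2 z] : Cn 3)) s := by
  refine (PiLp.continuous_toLp 2 _).comp_continuousOn ?_
  refine continuousOn_pi.2 fun k => ?_
  fin_cases k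
  · exact h0
  · exact h1
  · exact h2

theorem v2_ne {x y : ℂ} (h : x ≠ 0 ∨ y ≠ 0) : (![x, y] : Fin 2 → ℂ) ≠ 0 := by
  rintro h0
  have h1 := congrFun h0 0
  have h2 := congrFun h0 1
  simp at h1 h2
  tauto

theorem v3_ne {x y z : ℂ} (h : x ≠ 0 ∨ y ≠ 0 ∨ z ≠ 0) : (![x, y, z] : Fin 3 → ℂ) ≠ 0 := by
  rintro h0
  have h1 := congrFun h0 0
  have h2 := congrFun h0 1
  have h3 := congrFun h0 2
  simp at h1 h2 h3
  tauto

/-! ### the negative side -/

/-- total space of `O(-1) ⊕ O(-2)` over the projective line -/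
@[ext] structure Um where
  z : Fin 2 → ℂ
  m : Fin 3 → ℂ
  L : PP 2
  hz : L.Par z
  h1 : L.Par ![m 0, m 1]
  h2 : L.Par ![m 1, m 2]

namespace Um

/-- the coordinates -/
def co (x : Um) : (Fin 2 → ℂ) × (Fin 3 → ℂ) × PP 2 := (x.z, x.m, x.L)

instance : TopologicalSpace Um := TopologicalSpace.induced co inferInstance

theorem co_inj : Function.Injective co := by
  intro x y h
  simp only [co, Prod.mk.injEq] at h
  exact Um.ext h.1 h.2.1 h.2.2

theorem isEmbedding_co : IsEmbedding co := ⟨⟨rfl⟩, co_inj⟩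

theorem c_co : Continuous co := isEmbedding_co.continuous

@[fun_prop] theorem c_z : Continuous (fun x : Um => x.z) := continuous_fst.comp c_co
@[fun_prop] theorem c_m : Continuous (fun x : Um => x.m) :=
  (continuous_fst.comp continuous_snd).comp c_co
@[fun_prop] theorem c_L : Continuous (fun x : Um => x.L) :=
  (continuous_snd.comp continuous_snd).comp c_co

@[fun_prop] theorem c_zi (i : Fin 2) : Continuous (fun x : Um => x.z i) :=
  (continuous_apply i).comp c_z
@[fun_prop] theorem c_mi (i : Fin 3) : Continuous (fun x : Um => x.m i) :=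
  (continuous_apply i).comp c_m

instance : T2Space Um := isEmbedding_co.t2Space

instance : SecondCountableTopology Um := isEmbedding_co.secondCountableTopology

theorem continuous_iff {Y : Type*} [TopologicalSpace Y] {f : Y → Um} :
    Continuous f ↔ Continuous (fun y => (f y).z) ∧ Continuous (fun y => (f y).m) ∧
      Continuous (fun y => (f y).L) := by
  constructor
  · intro h
    exact ⟨c_z.comp h, c_m.comp h, c_L.comp h⟩
  · rintro ⟨h1, h2, h3⟩
    rw [isEmbedding_co.continuous_iff]
    exact h1.prodMk (h2.prodMk h3)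

theorem isClosed_range_co : IsClosed (range co) := by
  have : range co = {y : (Fin 2 → ℂ) × (Fin 3 → ℂ) × PP 2 | y.2.2.Par y.1} ∩
      ({y | y.2.2.Par ![y.2.1 0, y.2.1 1]} ∩ {y | y.2.2.Par ![y.2.1 1, y.2.1 2]}) := by
    ext y
    constructor
    · rintro ⟨x, rfl⟩
      exact ⟨x.hz, x.h1, x.h2⟩
    · rintro ⟨h, h1, h2⟩
      exact ⟨⟨_, _, _, h, h1, h2⟩, rfl⟩
  rw [this]
  refine (PP.isClosed_par (by fun_prop) (by fun_prop)).inter
    ((PP.isClosed_par (by fun_prop) ?_).inter (PP.isClosed_par (by fun_prop) ?_))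
  · refine continuous_pi fun k => ?_
    fin_cases k
    · exact (continuous_apply 0).comp (by fun_prop)
    · exact (continuous_apply 1).comp (by fun_prop)
  · refine continuous_pi fun k => ?_
    fin_cases k
    · exact (continuous_apply 1).comp (by fun_prop)
    · exact (continuous_apply 2).comp (by fun_prop)

theorem isClosedEmbedding_co : IsClosedEmbedding co := ⟨isEmbedding_co, isClosed_range_co⟩

instance : LocallyCompactSpace Um := isClosedEmbedding_co.locallyCompactSpace

/-- the squared norm -/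
def N (x : Um) : ℝ := nsq x.z + nsq x.m

@[fun_prop] theorem c_N : Continuous N := by unfold N; fun_prop

theorem N_nonneg (x : Um) : 0 ≤ x.N := add_nonneg (nsq_nonneg _) (nsq_nonneg _)

theorem N_eq_zero {x : Um} : x.N = 0 ↔ x.z = 0 ∧ x.m = 0 := by
  unfold N
  rw [add_eq_zero_iff_of_nonneg (nsq_nonneg _) (nsq_nonneg _), nsq_eq_zero, nsq_eq_zero]

theorem isCompact_le (r : ℝ) : IsCompact {x : Um | x.N ≤ r} := by
  have h1 : IsClosed {x : Um | x.N ≤ r} := isClosed_le c_N continuous_const
  rw [isClosedEmbedding_co.isCompact_iff]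
  refine IsCompact.of_isClosed_subset ?_ (isClosedEmbedding_co.isClosedMap _ h1)
    (s := Metric.closedBall 0 (max 1 r) ×ˢ (Metric.closedBall 0 (max 1 r) ×ˢ (univ : Set (PP 2)))) ?_
  · exact (isCompact_closedBall _ _).prod ((isCompact_closedBall _ _).prod isCompact_univ)
  · rintro _ ⟨x, hx, rfl⟩
    have hx' : nsq x.z + nsq x.m ≤ r := hx
    have h3 := nsq_nonneg x.z
    have h4 := nsq_nonneg x.m
    refine ⟨?_, ?_, mem_univ _⟩
    · rw [mem_closedBall_zero_iff]
      exact norm_le_of_nsq (show nsq x.z ≤ r by linarith)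
    · rw [mem_closedBall_zero_iff]
      exact norm_le_of_nsq (show nsq x.m ≤ r by linarith)

/-- the point with coordinates `(T, a, μ)` -/
def mk0 (T a μ : ℂ) : Um where
  z := ![a, a * T]
  m := ![μ, μ * T, μ * T ^ 2]
  L := PP.mk ![1, T] (v2_ne (Or.inl one_ne_zero))
  hz := by
    rw [PP.par_mk]
    intro i j
    fin_cases i <;> fin_cases j <;> simp <;> ring
  h1 := by
    rw [PP.par_mk]
    intro i j
    fin_cases i <;> fin_cases j <;> simp <;> ring
  h2 := by
    rw [PP.par_mk]
    intro i j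
    fin_cases i <;> fin_cases j <;> simp <;> ring

/-- the point with coordinates `(T', b, ν)` -/
def mk1 (T b ν : ℂ) : Um where
  z := ![b * T, b]
  m := ![ν * T ^ 2, ν * T, ν]
  L := PP.mk ![T, 1] (v2_ne (Or.inr one_ne_zero))
  hz := by
    rw [PP.par_mk]
    intro i j
    fin_cases i <;> fin_cases j <;> simp <;> ring
  h1 := by
    rw [PP.par_mk]
    intro i j
    fin_cases i <;> fin_cases j <;> simp <;> ring
  h2 := by
    rw [PP.par_mk]
    intro i j
    fin_cases i <;> fin_cases j <;> simp <;> ring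

theorem eq_mk0 {x : Um} (h : x.L.en 0 0 ≠ 0) : mk0 (x.L.rat 1 0) (x.z 0) (x.m 0) = x := by
  have hz := x.hz.eq_rat h
  have h1 := x.h1.eq_rat h
  have h2 := x.h2.eq_rat h
  have e1 := h1 1
  have e2 := h2 1
  have e3 := hz 1
  simp only [Matrix.cons_val_zero, Matrix.cons_val_one] at e1 e2 e3
  refine Um.ext ?_ ?_ ?_
  · funext k
    fin_cases k
    · rfl
    · simp only [mk0]
      simp
      rw [e3]; ring
  · funext k
    fin_cases k
    · rfl
    · simp only [mk0]
      simp
      rw [e1]; ring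
    · simp only [mk0]
      simp
      rw [e2, e1]; ring
  · have h4 : ((fun i => x.L.rat i 0) : Fin 2 → ℂ) = ![1, x.L.rat 1 0] := by
      funext i
      fin_cases i
      · exact x.L.rat_self h
      · rfl
    have h5 := PP.eq_mk_rat x.L h (PP.rat_ne_zero x.L h)
    simp only [mk0]
    rw [← h5]
    congr 1
    rw [h5]
    exact h4.symm

theorem eq_mk1 {x : Um} (h : x.L.en 1 1 ≠ 0) : mk1 (x.L.rat 0 1) (x.z 1) (x.m 2) = x := by
  have hz := x.hz.eq_rat h
  have h1 := x.h1.eq_rat h
  have h2 := x.h2.eq_rat h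
  have e1 := h1 0
  have e2 := h2 0
  have e3 := hz 0
  simp only [Matrix.cons_val_zero, Matrix.cons_val_one] at e1 e2 e3
  refine Um.ext ?_ ?_ ?_
  · funext k
    fin_cases k
    · simp only [mk1]
      simp
      rw [e3]; ring
    · rfl
  · funext k
    fin_cases k
    · simp only [mk1]
      simp
      rw [e1, e2]; ring
    · simp only [mk1]
      simp
      rw [e2]; ring
    · rfl
  · have h4 : ((fun i => x.L.rat i 1) : Fin 2 → ℂ) = ![x.L.rat 0 1, 1] := by
      funext i
      fin_cases i
      · rfl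
      · exact x.L.rat_self h
    have h5 := PP.eq_mk_rat x.L h (PP.rat_ne_zero x.L h)
    simp only [mk1]
    rw [← h5]
    congr 1
    rw [h5]
    exact h4.symm

theorem c_mk0 : Continuous (fun u : Cn 3 => mk0 (u 0) (u 1) (u 2)) := by
  rw [continuous_iff]
  refine ⟨?_, ?_, ?_⟩
  · refine continuous_pi fun k => ?_
    fin_cases k <;> simp only [mk0] <;> simp <;> fun_prop
  · refine continuous_pi fun k => ?_
    fin_cases k <;> simp only [mk0] <;> simp <;> fun_prop
  · refine PP.continuous_mk (f := fun u : Cn 3 => ![1, u 0]) ?_ fun u => v2_ne (Or.inl one_ne_zero)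
    refine continuous_pi fun k => ?_
    fin_cases k <;> simp <;> fun_prop

theorem c_mk1 : Continuous (fun u : Cn 3 => mk1 (u 0) (u 1) (u 2)) := by
  rw [continuous_iff]
  refine ⟨?_, ?_, ?_⟩
  · refine continuous_pi fun k => ?_
    fin_cases k <;> simp only [mk1] <;> simp <;> fun_prop
  · refine continuous_pi fun k => ?_
    fin_cases k <;> simp only [mk1] <;> simp <;> fun_prop
  · refine PP.continuous_mk (f := fun u : Cn 3 => ![u 0, 1]) ?_ fun u => v2_ne (Or.inr one_ne_zero)
    refine continuous_pi fun k => ?_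
    fin_cases k <;> simp <;> fun_prop

/-- the chart `(T, a, μ)` -/
def ch0 : OpenPartialHomeomorph Um (Cn 3) where
  toFun x := !₂[x.L.rat 1 0, x.z 0, x.m 0]
  invFun u := mk0 (u 0) (u 1) (u 2)
  source := {x | x.L.en 0 0 ≠ 0}
  target := univ
  map_source' _ _ := mem_univ _
  map_target' u _ := (PP.en_self_ne (v2_ne (Or.inl one_ne_zero)) 0).2 (by simp)
  left_inv' x hx := eq_mk0 hx
  right_inv' u _ := by
    ext k
    fin_cases k
    · simp [mk0]
    · rfl
    · rfl
  open_source := (PP.isOpen_ne 0).preimage c_L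
  open_target := isOpen_univ
  continuousOn_toFun := cont3 ((PP.continuousOn_rat 1 0).comp c_L.continuousOn fun x hx => hx)
    (c_zi 0).continuousOn (c_mi 0).continuousOn
  continuousOn_invFun := c_mk0.continuousOn

/-- the chart `(T', b, ν)` -/
def ch1 : OpenPartialHomeomorph Um (Cn 3) where
  toFun x := !₂[x.L.rat 0 1, x.z 1, x.m 2]
  invFun u := mk1 (u 0) (u 1) (u 2)
  source := {x | x.L.en 1 1 ≠ 0}
  target := univ
  map_source' _ _ := mem_univ _
  map_target' u _ := (PP.en_self_ne (v2_ne (Or.inr one_ne_zero)) 1).2 (by simp)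
  left_inv' x hx := eq_mk1 hx
  right_inv' u _ := by
    ext k
    fin_cases k
    · simp [mk1]
    · rfl
    · rfl
  open_source := (PP.isOpen_ne 1).preimage c_L
  open_target := isOpen_univ
  continuousOn_toFun := cont3 ((PP.continuousOn_rat 0 1).comp c_L.continuousOn fun x hx => hx)
    (c_zi 1).continuousOn (c_mi 2).continuousOn
  continuousOn_invFun := c_mk1.continuousOn

theorem ch0_apply (x : Um) : ch0 x = !₂[x.L.rat 1 0, x.z 0, x.m 0] := rfl
theorem ch1_apply (x : Um) : ch1 x = !₂[x.L.rat 0 1, x.z 1, x.m 2] := rfl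
theorem ch0_symm (u : Cn 3) : ch0.symm u = mk0 (u 0) (u 1) (u 2) := rfl
theorem ch1_symm (u : Cn 3) : ch1.symm u = mk1 (u 0) (u 1) (u 2) := rfl
@[simp] theorem ch0_target : ch0.target = univ := rfl
@[simp] theorem ch1_target : ch1.target = univ := rfl
theorem mem_ch0 {x : Um} : x ∈ ch0.source ↔ x.L.en 0 0 ≠ 0 := Iff.rfl
theorem mem_ch1 {x : Um} : x ∈ ch1.source ↔ x.L.en 1 1 ≠ 0 := Iff.rfl

theorem cover (x : Um) : x ∈ ch0.source ∨ x ∈ ch1.source := by
  obtain ⟨k, hk⟩ := x.L.exists_ne
  fin_cases k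
  · exact Or.inl hk
  · exact Or.inr hk

theorem mk0_mem1 {T a μ : ℂ} : mk0 T a μ ∈ ch1.source ↔ T ≠ 0 := by
  rw [mem_ch1]
  simp only [mk0]
  rw [PP.en_self_ne]
  simp

theorem mk1_mem0 {T a μ : ℂ} : mk1 T a μ ∈ ch0.source ↔ T ≠ 0 := by
  rw [mem_ch0]
  simp only [mk1]
  rw [PP.en_self_ne]
  simp

/-- the family of charts -/
def fam : Fam 3 Um where
  ι := Bool
  e := fun b => if b then ch1 else ch0
  cover x := by
    rcases cover x with h | h
    · exact ⟨false, h⟩
    · exact ⟨true, h⟩
  holo := by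
    rintro (_ | _) (_ | _)
    · simp only [Bool.false_eq_true, if_false]
      refine DifferentiableOn.congr (f := id) differentiableOn_id ?_
      rintro u ⟨hu, -⟩
      exact ch0.right_inv hu
    · simp only [Bool.false_eq_true, if_false, if_true]
      refine DifferentiableOn.congr (f := fun u : Cn 3 => !₂[(u 0)⁻¹, u 1 * u 0, u 2 * u 0 ^ 2]) ?_ ?_
      · refine diffOn3 ?_ (by fun_prop) (by fun_prop)
        rintro u ⟨-, hu⟩
        rw [ch0_symm, mk0_mem1] at hu
        refine DifferentiableAt.differentiableWithinAt ?_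
        fun_prop (disch := assumption)
      · rintro u ⟨-, hu⟩
        rw [ch0_symm, ch1_apply]
        simp [mk0]
    · simp only [Bool.false_eq_true, if_false, if_true]
      refine DifferentiableOn.congr (f := fun u : Cn 3 => !₂[(u 0)⁻¹, u 1 * u 0, u 2 * u 0 ^ 2]) ?_ ?_
      · refine diffOn3 ?_ (by fun_prop) (by fun_prop)
        rintro u ⟨-, hu⟩
        rw [ch1_symm, mk1_mem0] at hu
        refine DifferentiableAt.differentiableWithinAt ?_
        fun_prop (disch := assumption)
      · rintro u ⟨-, hu⟩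
        rw [ch1_symm, ch0_apply]
        simp [mk1]
    · simp only [if_true]
      refine DifferentiableOn.congr (f := id) differentiableOn_id ?_
      rintro u ⟨hu, -⟩
      exact ch1.right_inv hu

end Um

end

end Crest.Agent.R272.Flop_66
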