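import Crest.Agent.R272.Flop2_66

/-!
# R272, FLOP-SURG (helper66), part 3: the positive side of the (even) antiflip

`Up` : `z : Fin 2 → ℂ`, `m : Fin 3 → ℂ` (same coordinates as `Um`), `X : PP 3`, `R : PP 2 = [r₀ : r₁]`;
the rows of `(m₀ m₁ z₀ ; m₁ m₂ z₁ ; r₁z₀ r₁z₁ r₀)` lie in the line `X`.
charts `W1 (t, α, μ)`, `W2 (t', α', ν)`, `W3 (g₀, g₁, r)`, `W4 (z₀, z₁, w)`.
-/

set_option autoImplicit false
set_option linter.unusedSectionVars false
set_option linter.style.haveILetI false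

open Set Filter Topology Complex
open scoped ComplexConjugate

namespace Crest.Agent.R272.Flop_66

open Crest.Agent.R275.Geo Crest.Agent.R273.Fam_835

noncomputable section

/-- a criterion for `PP.Par` in dimension three -/
theorem PP.par3 {x y z : ℂ} (h : (![x, y, z] : Fin 3 → ℂ) ≠ 0) {v : Fin 3 → ℂ}
    (h1 : x * v 1 = y * v 0) (h2 : x * v 2 = z * v 0) (h3 : y * v 2 = z * v 1) :
    (PP.mk ![x, y, z] h).Par v := by
  rw [PP.par_mk]
  intro i j
  fin_cases i <;> fin_cases j <;> simp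
  · exact h1
  · exact h2
  · exact h1.symm
  · exact h3
  · exact h2.symm
  · exact h3.symm

/-- the positive side -/
@[ext] structure Up where
  z : Fin 2 → ℂ
  m : Fin 3 → ℂ
  X : PP 3
  R : PP 2
  h1 : X.Par ![m 0, m 1, z 0]
  h2 : X.Par ![m 1, m 2, z 1]
  h3 : ∀ k, X.Par ![R.en 1 k * z 0, R.en 1 k * z 1, R.en 0 k]

namespace Up

/-- the coordinates -/
def co (x : Up) : (Fin 2 → ℂ) × (Fin 3 → ℂ) × PP 3 × PP 2 := (x.z, x.m, x.X, x.R)

instance : TopologicalSpace Up := TopologicalSpace.induced co inferInstance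

theorem co_inj : Function.Injective co := by
  intro x y h
  simp only [co, Prod.mk.injEq] at h
  exact Up.ext h.1 h.2.1 h.2.2.1 h.2.2.2

theorem isEmbedding_co : IsEmbedding co := ⟨⟨rfl⟩, co_inj⟩

theorem c_co : Continuous co := isEmbedding_co.continuous

@[fun_prop] theorem c_z : Continuous (fun x : Up => x.z) := continuous_fst.comp c_co
@[fun_prop] theorem c_m : Continuous (fun x : Up => x.m) :=
  (continuous_fst.comp continuous_snd).comp c_co
@[fun_prop] theorem c_X : Continuous (fun x : Up => x.X) :=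
  (continuous_fst.comp (continuous_snd.comp continuous_snd)).comp c_co
@[fun_prop] theorem c_R : Continuous (fun x : Up => x.R) :=
  (continuous_snd.comp (continuous_snd.comp continuous_snd)).comp c_co

@[fun_prop] theorem c_zi (i : Fin 2) : Continuous (fun x : Up => x.z i) :=
  (continuous_apply i).comp c_z
@[fun_prop] theorem c_mi (i : Fin 3) : Continuous (fun x : Up => x.m i) :=
  (continuous_apply i).comp c_m

instance : T2Space Up := isEmbedding_co.t2Space

instance : SecondCountableTopology Up := isEmbedding_co.secondCountableTopology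

theorem continuous_iff {Y : Type*} [TopologicalSpace Y] {f : Y → Up} :
    Continuous f ↔ Continuous (fun y => (f y).z) ∧ Continuous (fun y => (f y).m) ∧
      Continuous (fun y => (f y).X) ∧ Continuous (fun y => (f y).R) := by
  constructor
  · intro h
    exact ⟨c_z.comp h, c_m.comp h, c_X.comp h, c_R.comp h⟩
  · rintro ⟨h1, h2, h3, h4⟩
    rw [isEmbedding_co.continuous_iff]
    exact h1.prodMk (h2.prodMk (h3.prodMk h4))

theorem isClosed_range_co : IsClosed (range co) := by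
  have : range co = {y : (Fin 2 → ℂ) × (Fin 3 → ℂ) × PP 3 × PP 2 |
      y.2.2.1.Par ![y.2.1 0, y.2.1 1, y.1 0]} ∩
      ({y | y.2.2.1.Par ![y.2.1 1, y.2.1 2, y.1 1]} ∩
      ⋂ k, {y | y.2.2.1.Par ![y.2.2.2.en 1 k * y.1 0, y.2.2.2.en 1 k * y.1 1, y.2.2.2.en 0 k]}) := by
    ext y
    constructor
    · rintro ⟨x, rfl⟩
      exact ⟨x.h1, x.h2, mem_iInter.2 x.h3⟩
    · rintro ⟨h1, h2, h3⟩
      exact ⟨⟨_, _, _, _, h1, h2, mem_iInter.1 h3⟩, rfl⟩
  rw [this]
  have z0 : Continuous (fun y : (Fin 2 → ℂ) × (Fin 3 → ℂ) × PP 3 × PP 2 => y.1 0) :=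
    (continuous_apply 0).comp (by fun_prop)
  have z1 : Continuous (fun y : (Fin 2 → ℂ) × (Fin 3 → ℂ) × PP 3 × PP 2 => y.1 1) :=
    (continuous_apply 1).comp (by fun_prop)
  have m0 : Continuous (fun y : (Fin 2 → ℂ) × (Fin 3 → ℂ) × PP 3 × PP 2 => y.2.1 0) :=
    (continuous_apply 0).comp (by fun_prop)
  have m1 : Continuous (fun y : (Fin 2 → ℂ) × (Fin 3 → ℂ) × PP 3 × PP 2 => y.2.1 1) :=
    (continuous_apply 1).comp (by fun_prop)
  have m2 : Continuous (fun y : (Fin 2 → ℂ) × (Fin 3 → ℂ) × PP 3 × PP 2 => y.2.1 2) :=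
    (continuous_apply 2).comp (by fun_prop)
  refine (PP.isClosed_par (by fun_prop) ?_).inter ((PP.isClosed_par (by fun_prop) ?_).inter
    (isClosed_iInter fun l => PP.isClosed_par (by fun_prop) ?_))
  · refine continuous_pi fun k => ?_
    fin_cases k
    · exact m0
    · exact m1
    · exact z0
  · refine continuous_pi fun k => ?_
    fin_cases k
    · exact m1
    · exact m2
    · exact z1
  · have e1 : Continuous (fun y : (Fin 2 → ℂ) × (Fin 3 → ℂ) × PP 3 × PP 2 => y.2.2.2.en 1 l) :=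
      (PP.continuous_en 1 l).comp (by fun_prop)
    have e0 : Continuous (fun y : (Fin 2 → ℂ) × (Fin 3 → ℂ) × PP 3 × PP 2 => y.2.2.2.en 0 l) :=
      (PP.continuous_en 0 l).comp (by fun_prop)
    refine continuous_pi fun k => ?_
    fin_cases k
    · exact e1.mul z0
    · exact e1.mul z1
    · exact e0

theorem isClosedEmbedding_co : IsClosedEmbedding co := ⟨isEmbedding_co, isClosed_range_co⟩

instance : LocallyCompactSpace Up := isClosedEmbedding_co.locallyCompactSpace

/-- the squared norm -/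
def N (x : Up) : ℝ := nsq x.z + nsq x.m

@[fun_prop] theorem c_N : Continuous N := by unfold N; fun_prop

theorem N_nonneg (x : Up) : 0 ≤ x.N := add_nonneg (nsq_nonneg _) (nsq_nonneg _)

theorem N_eq_zero {x : Up} : x.N = 0 ↔ x.z = 0 ∧ x.m = 0 := by
  unfold N
  rw [add_eq_zero_iff_of_nonneg (nsq_nonneg _) (nsq_nonneg _), nsq_eq_zero, nsq_eq_zero]

theorem isCompact_le (r : ℝ) : IsCompact {x : Up | x.N ≤ r} := by
  have h1 : IsClosed {x : Up | x.N ≤ r} := isClosed_le c_N continuous_const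
  rw [isClosedEmbedding_co.isCompact_iff]
  refine IsCompact.of_isClosed_subset ?_ (isClosedEmbedding_co.isClosedMap _ h1)
    (s := Metric.closedBall 0 (max 1 r) ×ˢ (Metric.closedBall 0 (max 1 r) ×ˢ
      ((univ : Set (PP 3)) ×ˢ (univ : Set (PP 2))))) ?_
  · exact (isCompact_closedBall _ _).prod ((isCompact_closedBall _ _).prod
      (isCompact_univ.prod isCompact_univ))
  · rintro _ ⟨x, hx, rfl⟩
    have hx' : nsq x.z + nsq x.m ≤ r := hx
    have h3 := nsq_nonneg x.z
    have h4 := nsq_nonneg x.m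
    refine ⟨?_, ?_, mem_univ _, mem_univ _⟩
    · rw [mem_closedBall_zero_iff]
      exact norm_le_of_nsq (show nsq x.z ≤ r by linarith)
    · rw [mem_closedBall_zero_iff]
      exact norm_le_of_nsq (show nsq x.m ≤ r by linarith)

/-- the point with `W1` coordinates `(t, α, μ)` -/
def mk1 (t α μ : ℂ) : Up where
  z := ![α * μ, α * μ * t]
  m := ![μ, μ * t, μ * t ^ 2]
  X := PP.mk ![1, t, α] (v3_ne (Or.inl one_ne_zero))
  R := PP.mk ![α ^ 2 * μ, 1] (v2_ne (Or.inr one_ne_zero))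
  h1 := by apply PP.par3 <;> simp <;> ring
  h2 := by apply PP.par3 <;> simp <;> ring
  h3 := by
    intro k
    have h : (PP.mk ![α ^ 2 * μ, 1] (v2_ne (Or.inr one_ne_zero))).en 0 k =
        α ^ 2 * μ * (PP.mk ![α ^ 2 * μ, 1] (v2_ne (Or.inr one_ne_zero))).en 1 k := by
      rw [PP.en_mk, PP.en_mk]
      simp
      ring
    rw [h]
    apply PP.par3 <;> simp <;> ring

/-- the point with `W2` coordinates `(t', α', ν)` -/
def mk2 (t α μ : ℂ) : Up where
  z := ![α * μ * t, α * μ]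
  m := ![μ * t ^ 2, μ * t, μ]
  X := PP.mk ![t, 1, α] (v3_ne (Or.inr (Or.inl one_ne_zero)))
  R := PP.mk ![α ^ 2 * μ, 1] (v2_ne (Or.inr one_ne_zero))
  h1 := by apply PP.par3 <;> simp <;> ring
  h2 := by apply PP.par3 <;> simp <;> ring
  h3 := by
    intro k
    have h : (PP.mk ![α ^ 2 * μ, 1] (v2_ne (Or.inr one_ne_zero))).en 0 k =
        α ^ 2 * μ * (PP.mk ![α ^ 2 * μ, 1] (v2_ne (Or.inr one_ne_zero))).en 1 k := by
      rw [PP.en_mk, PP.en_mk]
      simp
      ring
    rw [h]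
    apply PP.par3 <;> simp <;> ring

/-- the point with `W3` coordinates `(g₀, g₁, r)` -/
def mk3 (g0 g1 r : ℂ) : Up where
  z := ![r * g0, r * g1]
  m := ![r * g0 ^ 2, r * g0 * g1, r * g1 ^ 2]
  X := PP.mk ![g0, g1, 1] (v3_ne (Or.inr (Or.inr one_ne_zero)))
  R := PP.mk ![r, 1] (v2_ne (Or.inr one_ne_zero))
  h1 := by apply PP.par3 <;> simp <;> ring
  h2 := by apply PP.par3 <;> simp <;> ring
  h3 := by
    intro k
    have h : (PP.mk ![r, 1] (v2_ne (Or.inr one_ne_zero))).en 0 k =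
        r * (PP.mk ![r, 1] (v2_ne (Or.inr one_ne_zero))).en 1 k := by
      rw [PP.en_mk, PP.en_mk]
      simp
      ring
    rw [h]
    apply PP.par3 <;> simp <;> ring

/-- the point with `W4` coordinates `(z₀, z₁, w)` -/
def mk4 (z0 z1 w : ℂ) : Up where
  z := ![z0, z1]
  m := ![w * z0 ^ 2, w * z0 * z1, w * z1 ^ 2]
  X := PP.mk ![w * z0, w * z1, 1] (v3_ne (Or.inr (Or.inr one_ne_zero)))
  R := PP.mk ![1, w] (v2_ne (Or.inl one_ne_zero))
  h1 := by apply PP.par3 <;> simp <;> ring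
  h2 := by apply PP.par3 <;> simp <;> ring
  h3 := by
    intro k
    have h : (PP.mk ![1, w] (v2_ne (Or.inl one_ne_zero))).en 1 k =
        w * (PP.mk ![1, w] (v2_ne (Or.inl one_ne_zero))).en 0 k := by
      rw [PP.en_mk, PP.en_mk]
      simp
      ring
    rw [h]
    apply PP.par3 <;> simp <;> ring

/-- recover the line from ratios -/
theorem _root_.Crest.Agent.R272.Flop_66.PP.eq_mk_of {n : ℕ} (Q : PP n) {k : Fin n}
    (hk : Q.en k k ≠ 0) {v : Fin n → ℂ} (hv : v ≠ 0) (h : ∀ i, v i = Q.rat i k) :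
    PP.mk v hv = Q := by
  have h4 : (fun i => Q.rat i k) = v := funext fun i => (h i).symm
  subst h4
  exact PP.eq_mk_rat Q hk _

theorem eq_mk1 {x : Up} (h : x.X.en 0 0 ≠ 0) :
    mk1 (x.X.rat 1 0) (x.X.rat 2 0) (x.m 0) = x := by
  have e1 := x.h1.eq_rat h
  have e2 := x.h2.eq_rat h
  have a1 := e1 1
  have a2 := e1 2
  have b1 := e2 1
  have b2 := e2 2
  simp only [Matrix.cons_val_zero, Matrix.cons_val_one, Matrix.cons_val] at a1 a2 b1 b2
  refine Up.ext ?_ ?_ ?_ ?_
  · funext k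
    fin_cases k
    · simp only [mk1]; simp
      rw [a2]
    · simp only [mk1]; simp
      rw [b2, a1]; ring
  · funext k
    fin_cases k
    · rfl
    · simp only [mk1]; simp
      rw [a1]; ring
    · simp only [mk1]; simp
      rw [b1, a1]; ring
  · refine PP.eq_mk_of x.X h (v3_ne (Or.inl one_ne_zero)) fun i => ?_
    fin_cases i
    · exact (x.X.rat_self h).symm
    · rfl
    · rfl
  · symm
    refine PP.Par.eq_mk ?_ (v2_ne (Or.inr one_ne_zero))
    intro i j k
    have c := (x.h3 k).eq_rat h 2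
    simp only [Matrix.cons_val_zero, Matrix.cons_val] at c
    have c' : x.R.en 0 k = x.X.rat 2 0 ^ 2 * x.m 0 * x.R.en 1 k := by
      rw [c, a2]; ring
    fin_cases i <;> fin_cases j <;> simp <;> rw [c'] <;> ring

theorem eq_mk2 {x : Up} (h : x.X.en 1 1 ≠ 0) :
    mk2 (x.X.rat 0 1) (x.X.rat 2 1) (x.m 2) = x := by
  have e1 := x.h1.eq_rat h
  have e2 := x.h2.eq_rat h
  have a1 := e1 0
  have a2 := e1 2
  have b1 := e2 0
  have b2 := e2 2
  simp only [Matrix.cons_val_zero, Matrix.cons_val_one, Matrix.cons_val] at a1 a2 b1 b2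
  refine Up.ext ?_ ?_ ?_ ?_
  · funext k
    fin_cases k
    · simp only [mk2]; simp
      rw [a2, b1]; ring
    · simp only [mk2]; simp
      rw [b2]
  · funext k
    fin_cases k
    · simp only [mk2]; simp
      rw [a1, b1]; ring
    · simp only [mk2]; simp
      rw [b1]; ring
    · rfl
  · refine PP.eq_mk_of x.X h (v3_ne (Or.inr (Or.inl one_ne_zero))) fun i => ?_
    fin_cases i
    · rfl
    · exact (x.X.rat_self h).symm
    · rfl
  · symm
    refine PP.Par.eq_mk ?_ (v2_ne (Or.inr one_ne_zero))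
    intro i j k
    have c := (x.h3 k).eq_rat h 2
    simp only [Matrix.cons_val_one, Matrix.cons_val] at c
    have c' : x.R.en 0 k = x.X.rat 2 1 ^ 2 * x.m 2 * x.R.en 1 k := by
      rw [c, b2]; ring
    fin_cases i <;> fin_cases j <;> simp <;> rw [c'] <;> ring

theorem eq_mk3 {x : Up} (h : x.X.en 2 2 ≠ 0) (hR : x.R.en 1 1 ≠ 0) :
    mk3 (x.X.rat 0 2) (x.X.rat 1 2) (x.R.rat 0 1) = x := by
  have e1 := x.h1.eq_rat h
  have e2 := x.h2.eq_rat h
  have e3 := (x.h3 1).eq_rat h
  have a0 := e1 0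
  have a1 := e1 1
  have b0 := e2 0
  have b1 := e2 1
  have c0 := e3 0
  have c1 := e3 1
  simp only [Matrix.cons_val_zero, Matrix.cons_val_one, Matrix.cons_val] at a0 a1 b0 b1 c0 c1
  have z0 : x.z 0 = x.R.rat 0 1 * x.X.rat 0 2 := by
    unfold PP.rat at c0 ⊢
    field_simp at c0 ⊢
    linear_combination c0
  have z1 : x.z 1 = x.R.rat 0 1 * x.X.rat 1 2 := by
    unfold PP.rat at c1 ⊢
    field_simp at c1 ⊢
    linear_combination c1
  refine Up.ext ?_ ?_ ?_ ?_
  · funext k
    fin_cases k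
    · exact z0.symm
    · exact z1.symm
  · funext k
    fin_cases k
    · simp only [mk3]; simp
      rw [a0, z0]; ring
    · simp only [mk3]; simp
      rw [a1, z0]; ring
    · simp only [mk3]; simp
      rw [b1, z1]; ring
  · refine PP.eq_mk_of x.X h (v3_ne (Or.inr (Or.inr one_ne_zero))) fun i => ?_
    fin_cases i
    · rfl
    · rfl
    · exact (x.X.rat_self h).symm
  · refine PP.eq_mk_of x.R hR (v2_ne (Or.inr one_ne_zero)) fun i => ?_
    fin_cases i
    · rfl
    · exact (x.R.rat_self hR).symm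

theorem X2_ne {x : Up} (hR : x.R.en 0 0 ≠ 0) : x.X.en 2 2 ≠ 0 := by
  have h := x.h3 0
  have hv : (![x.R.en 1 0 * x.z 0, x.R.en 1 0 * x.z 1, x.R.en 0 0] : Fin 3 → ℂ) ≠ 0 :=
    v3_ne (Or.inr (Or.inr hR))
  rw [h.eq_mk hv, PP.en_self_ne]
  exact hR

theorem eq_mk4 {x : Up} (hR : x.R.en 0 0 ≠ 0) :
    mk4 (x.z 0) (x.z 1) (x.R.rat 1 0) = x := by
  have h := X2_ne hR
  have e1 := x.h1.eq_rat h
  have e2 := x.h2.eq_rat h
  have e3 := (x.h3 0).eq_rat h
  have a0 := e1 0
  have a1 := e1 1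
  have b0 := e2 0
  have b1 := e2 1
  have c0 := e3 0
  have c1 := e3 1
  simp only [Matrix.cons_val_zero, Matrix.cons_val_one, Matrix.cons_val] at a0 a1 b0 b1 c0 c1
  have z0 : x.X.rat 0 2 = x.R.rat 1 0 * x.z 0 := by
    unfold PP.rat at c0 ⊢
    field_simp at c0 ⊢
    linear_combination -c0
  have z1 : x.X.rat 1 2 = x.R.rat 1 0 * x.z 1 := by
    unfold PP.rat at c1 ⊢
    field_simp at c1 ⊢
    linear_combination -c1
  refine Up.ext ?_ ?_ ?_ ?_
  · funext k
    fin_cases k
    · rfl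
    · rfl
  · funext k
    fin_cases k
    · simp only [mk4]; simp
      rw [a0, z0]; ring
    · simp only [mk4]; simp
      rw [a1, z1]; ring
    · simp only [mk4]; simp
      rw [b1, z1]; ring
  · refine PP.eq_mk_of x.X h (v3_ne (Or.inr (Or.inr one_ne_zero))) fun i => ?_
    fin_cases i
    · exact z0.symm
    · exact z1.symm
    · exact (x.X.rat_self h).symm
  · refine PP.eq_mk_of x.R hR (v2_ne (Or.inl one_ne_zero)) fun i => ?_
    fin_cases i
    · exact (x.R.rat_self hR).symm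
    · rfl

end Up

end

end Crest.Agent.R272.Flop_66
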