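import Crest.Agent.R272.Flop3_66

/-!
# R272, FLOP-SURG (helper66), part 4: charts of `Up`, uniqueness over the cone

`Up.fam : Fam 3 Up` (index `Fin 4`), `Up.eq_of_N`, `Um.eq_of_N` : a point with `N ≠ 0` is determined
by `(z, m)`.
-/

set_option autoImplicit false
set_option linter.unusedSectionVars false
set_option linter.style.haveILetI false

open Set Filter Topology Complex
open scoped ComplexConjugate

namespace Crest.Agent.R272.Flop_66

open Crest.Agent.R275.Geo Crest.Agent.R273.Fam_835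

noncomputable section

theorem cont_vec2 {E : Type*} [TopologicalSpace E] {f0 f1 : E → ℂ} (h0 : Continuous f0)
    (h1 : Continuous f1) : Continuous (fun z => (![f0 z, f1 z] : Fin 2 → ℂ)) := by
  refine continuous_pi fun k => ?_
  fin_cases k
  · exact h0
  · exact h1

theorem cont_vec3 {E : Type*} [TopologicalSpace E] {f0 f1 f2 : E → ℂ} (h0 : Continuous f0)
    (h1 : Continuous f1) (h2 : Continuous f2) :
    Continuous (fun z => (![f0 z, f1 z, f2 z] : Fin 3 → ℂ)) := by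
  refine continuous_pi fun k => ?_
  fin_cases k
  · exact h0
  · exact h1
  · exact h2

namespace Up

theorem c_mk1 : Continuous (fun u : Cn 3 => mk1 (u 0) (u 1) (u 2)) := by
  rw [continuous_iff]
  refine ⟨?_, ?_, ?_, ?_⟩
  · exact cont_vec2 (by fun_prop) (by fun_prop)
  · exact cont_vec3 (by fun_prop) (by fun_prop) (by fun_prop)
  · exact PP.continuous_mk (f := fun u : Cn 3 => ![1, u 0, u 1])
      (cont_vec3 (by fun_prop) (by fun_prop) (by fun_prop)) fun u => v3_ne (Or.inl one_ne_zero)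
  · exact PP.continuous_mk (f := fun u : Cn 3 => ![u 1 ^ 2 * u 2, 1])
      (cont_vec2 (by fun_prop) (by fun_prop)) fun u => v2_ne (Or.inr one_ne_zero)

theorem c_mk2 : Continuous (fun u : Cn 3 => mk2 (u 0) (u 1) (u 2)) := by
  rw [continuous_iff]
  refine ⟨?_, ?_, ?_, ?_⟩
  · exact cont_vec2 (by fun_prop) (by fun_prop)
  · exact cont_vec3 (by fun_prop) (by fun_prop) (by fun_prop)
  · exact PP.continuous_mk (f := fun u : Cn 3 => ![u 0, 1, u 1])
      (cont_vec3 (by fun_prop) (by fun_prop) (by fun_prop))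
      fun u => v3_ne (Or.inr (Or.inl one_ne_zero))
  · exact PP.continuous_mk (f := fun u : Cn 3 => ![u 1 ^ 2 * u 2, 1])
      (cont_vec2 (by fun_prop) (by fun_prop)) fun u => v2_ne (Or.inr one_ne_zero)

theorem c_mk3 : Continuous (fun u : Cn 3 => mk3 (u 0) (u 1) (u 2)) := by
  rw [continuous_iff]
  refine ⟨?_, ?_, ?_, ?_⟩
  · exact cont_vec2 (by fun_prop) (by fun_prop)
  · exact cont_vec3 (by fun_prop) (by fun_prop) (by fun_prop)
  · exact PP.continuous_mk (f := fun u : Cn 3 => ![u 0, u 1, 1])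
      (cont_vec3 (by fun_prop) (by fun_prop) (by fun_prop))
      fun u => v3_ne (Or.inr (Or.inr one_ne_zero))
  · exact PP.continuous_mk (f := fun u : Cn 3 => ![u 2, 1])
      (cont_vec2 (by fun_prop) (by fun_prop)) fun u => v2_ne (Or.inr one_ne_zero)

theorem c_mk4 : Continuous (fun u : Cn 3 => mk4 (u 0) (u 1) (u 2)) := by
  rw [continuous_iff]
  refine ⟨?_, ?_, ?_, ?_⟩
  · exact cont_vec2 (by fun_prop) (by fun_prop)
  · exact cont_vec3 (by fun_prop) (by fun_prop) (by fun_prop)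
  · exact PP.continuous_mk (f := fun u : Cn 3 => ![u 2 * u 0, u 2 * u 1, 1])
      (cont_vec3 (by fun_prop) (by fun_prop) (by fun_prop))
      fun u => v3_ne (Or.inr (Or.inr one_ne_zero))
  · exact PP.continuous_mk (f := fun u : Cn 3 => ![1, u 2])
      (cont_vec2 (by fun_prop) (by fun_prop)) fun u => v2_ne (Or.inl one_ne_zero)

/-- the chart `W1` -/
def ch1 : OpenPartialHomeomorph Up (Cn 3) where
  toFun x := !₂[x.X.rat 1 0, x.X.rat 2 0, x.m 0]
  invFun u := mk1 (u 0) (u 1) (u 2)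
  source := {x | x.X.en 0 0 ≠ 0}
  target := univ
  map_source' _ _ := mem_univ _
  map_target' u _ := (PP.en_self_ne (v3_ne (Or.inl one_ne_zero)) 0).2 (by simp)
  left_inv' x hx := eq_mk1 hx
  right_inv' u _ := by
    ext k
    fin_cases k
    · simp [mk1]
    · simp [mk1]
    · rfl
  open_source := (PP.isOpen_ne 0).preimage c_X
  open_target := isOpen_univ
  continuousOn_toFun := cont3 ((PP.continuousOn_rat 1 0).comp c_X.continuousOn fun x hx => hx)
    ((PP.continuousOn_rat 2 0).comp c_X.continuousOn fun x hx => hx) (c_mi 0).continuousOn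
  continuousOn_invFun := c_mk1.continuousOn

/-- the chart `W2` -/
def ch2 : OpenPartialHomeomorph Up (Cn 3) where
  toFun x := !₂[x.X.rat 0 1, x.X.rat 2 1, x.m 2]
  invFun u := mk2 (u 0) (u 1) (u 2)
  source := {x | x.X.en 1 1 ≠ 0}
  target := univ
  map_source' _ _ := mem_univ _
  map_target' u _ := (PP.en_self_ne (v3_ne (Or.inr (Or.inl one_ne_zero))) 1).2 (by simp)
  left_inv' x hx := eq_mk2 hx
  right_inv' u _ := by
    ext k
    fin_cases k
    · simp [mk2]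
    · simp [mk2]
    · rfl
  open_source := (PP.isOpen_ne 1).preimage c_X
  open_target := isOpen_univ
  continuousOn_toFun := cont3 ((PP.continuousOn_rat 0 1).comp c_X.continuousOn fun x hx => hx)
    ((PP.continuousOn_rat 2 1).comp c_X.continuousOn fun x hx => hx) (c_mi 2).continuousOn
  continuousOn_invFun := c_mk2.continuousOn

/-- the chart `W3` -/
def ch3 : OpenPartialHomeomorph Up (Cn 3) where
  toFun x := !₂[x.X.rat 0 2, x.X.rat 1 2, x.R.rat 0 1]
  invFun u := mk3 (u 0) (u 1) (u 2)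
  source := {x | x.X.en 2 2 ≠ 0 ∧ x.R.en 1 1 ≠ 0}
  target := univ
  map_source' _ _ := mem_univ _
  map_target' u _ := ⟨(PP.en_self_ne (v3_ne (Or.inr (Or.inr one_ne_zero))) 2).2 (by simp),
    (PP.en_self_ne (v2_ne (Or.inr one_ne_zero)) 1).2 (by simp)⟩
  left_inv' x hx := eq_mk3 hx.1 hx.2
  right_inv' u _ := by
    ext k
    fin_cases k
    · simp [mk3]
    · simp [mk3]
    · simp [mk3]
  open_source := ((PP.isOpen_ne 2).preimage c_X).inter ((PP.isOpen_ne 1).preimage c_R)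
  open_target := isOpen_univ
  continuousOn_toFun := cont3 ((PP.continuousOn_rat 0 2).comp c_X.continuousOn fun x hx => hx.1)
    ((PP.continuousOn_rat 1 2).comp c_X.continuousOn fun x hx => hx.1)
    ((PP.continuousOn_rat 0 1).comp c_R.continuousOn fun x hx => hx.2)
  continuousOn_invFun := c_mk3.continuousOn

/-- the chart `W4` -/
def ch4 : OpenPartialHomeomorph Up (Cn 3) where
  toFun x := !₂[x.z 0, x.z 1, x.R.rat 1 0]
  invFun u := mk4 (u 0) (u 1) (u 2)
  source := {x | x.R.en 0 0 ≠ 0}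
  target := univ
  map_source' _ _ := mem_univ _
  map_target' u _ := (PP.en_self_ne (v2_ne (Or.inl one_ne_zero)) 0).2 (by simp)
  left_inv' x hx := eq_mk4 hx
  right_inv' u _ := by
    ext k
    fin_cases k
    · rfl
    · rfl
    · simp [mk4]
  open_source := (PP.isOpen_ne 0).preimage c_R
  open_target := isOpen_univ
  continuousOn_toFun := cont3 (c_zi 0).continuousOn (c_zi 1).continuousOn
    ((PP.continuousOn_rat 1 0).comp c_R.continuousOn fun x hx => hx)
  continuousOn_invFun := c_mk4.continuousOn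

theorem ch1_apply (x : Up) : ch1 x = !₂[x.X.rat 1 0, x.X.rat 2 0, x.m 0] := rfl
theorem ch2_apply (x : Up) : ch2 x = !₂[x.X.rat 0 1, x.X.rat 2 1, x.m 2] := rfl
theorem ch3_apply (x : Up) : ch3 x = !₂[x.X.rat 0 2, x.X.rat 1 2, x.R.rat 0 1] := rfl
theorem ch4_apply (x : Up) : ch4 x = !₂[x.z 0, x.z 1, x.R.rat 1 0] := rfl
theorem ch1_symm (u : Cn 3) : ch1.symm u = mk1 (u 0) (u 1) (u 2) := rfl
theorem ch2_symm (u : Cn 3) : ch2.symm u = mk2 (u 0) (u 1) (u 2) := rfl
theorem ch3_symm (u : Cn 3) : ch3.symm u = mk3 (u 0) (u 1) (u 2) := rfl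
theorem ch4_symm (u : Cn 3) : ch4.symm u = mk4 (u 0) (u 1) (u 2) := rfl
@[simp] theorem ch1_target : ch1.target = univ := rfl
@[simp] theorem ch2_target : ch2.target = univ := rfl
@[simp] theorem ch3_target : ch3.target = univ := rfl
@[simp] theorem ch4_target : ch4.target = univ := rfl
theorem mem_ch1 {x : Up} : x ∈ ch1.source ↔ x.X.en 0 0 ≠ 0 := Iff.rfl
theorem mem_ch2 {x : Up} : x ∈ ch2.source ↔ x.X.en 1 1 ≠ 0 := Iff.rfl
theorem mem_ch3 {x : Up} : x ∈ ch3.source ↔ x.X.en 2 2 ≠ 0 ∧ x.R.en 1 1 ≠ 0 := Iff.rfl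
theorem mem_ch4 {x : Up} : x ∈ ch4.source ↔ x.R.en 0 0 ≠ 0 := Iff.rfl

/-- the charts -/
def ch (i : Fin 4) : OpenPartialHomeomorph Up (Cn 3) := ![ch1, ch2, ch3, ch4] i

theorem cover (x : Up) : ∃ i, x ∈ (ch i).source := by
  obtain ⟨k, hk⟩ := x.X.exists_ne
  fin_cases k
  · exact ⟨0, hk⟩
  · exact ⟨1, hk⟩
  · obtain ⟨l, hl⟩ := x.R.exists_ne
    fin_cases l
    · exact ⟨3, hl⟩
    · exact ⟨2, hk, hl⟩

theorem mk1_mem2 {t α μ : ℂ} : mk1 t α μ ∈ ch2.source ↔ t ≠ 0 := by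
  rw [mem_ch2]; simp only [mk1]; rw [PP.en_self_ne]; simp
theorem mk1_mem3 {t α μ : ℂ} : mk1 t α μ ∈ ch3.source ↔ α ≠ 0 := by
  rw [mem_ch3]; simp only [mk1]; rw [PP.en_self_ne, PP.en_self_ne]; simp
theorem mk1_mem4 {t α μ : ℂ} : mk1 t α μ ∈ ch4.source ↔ α ≠ 0 ∧ μ ≠ 0 := by
  rw [mem_ch4]; simp only [mk1]; rw [PP.en_self_ne]; simp
theorem mk2_mem1 {t α μ : ℂ} : mk2 t α μ ∈ ch1.source ↔ t ≠ 0 := by
  rw [mem_ch1]; simp only [mk2]; rw [PP.en_self_ne]; simp
theorem mk2_mem3 {t α μ : ℂ} : mk2 t α μ ∈ ch3.source ↔ α ≠ 0 := by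
  rw [mem_ch3]; simp only [mk2]; rw [PP.en_self_ne, PP.en_self_ne]; simp
theorem mk2_mem4 {t α μ : ℂ} : mk2 t α μ ∈ ch4.source ↔ α ≠ 0 ∧ μ ≠ 0 := by
  rw [mem_ch4]; simp only [mk2]; rw [PP.en_self_ne]; simp
theorem mk3_mem1 {g0 g1 r : ℂ} : mk3 g0 g1 r ∈ ch1.source ↔ g0 ≠ 0 := by
  rw [mem_ch1]; simp only [mk3]; rw [PP.en_self_ne]; simp
theorem mk3_mem2 {g0 g1 r : ℂ} : mk3 g0 g1 r ∈ ch2.source ↔ g1 ≠ 0 := by
  rw [mem_ch2]; simp only [mk3]; rw [PP.en_self_ne]; simp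
theorem mk3_mem4 {g0 g1 r : ℂ} : mk3 g0 g1 r ∈ ch4.source ↔ r ≠ 0 := by
  rw [mem_ch4]; simp only [mk3]; rw [PP.en_self_ne]; simp
theorem mk4_mem1 {z0 z1 w : ℂ} : mk4 z0 z1 w ∈ ch1.source ↔ w ≠ 0 ∧ z0 ≠ 0 := by
  rw [mem_ch1]; simp only [mk4]; rw [PP.en_self_ne]; simp
theorem mk4_mem2 {z0 z1 w : ℂ} : mk4 z0 z1 w ∈ ch2.source ↔ w ≠ 0 ∧ z1 ≠ 0 := by
  rw [mem_ch2]; simp only [mk4]; rw [PP.en_self_ne]; simp
theorem mk4_mem3 {z0 z1 w : ℂ} : mk4 z0 z1 w ∈ ch3.source ↔ w ≠ 0 := by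
  rw [mem_ch3]; simp only [mk4]; rw [PP.en_self_ne, PP.en_self_ne]; simp

/-- from a formula for the transition map -/
theorem tr_of {f0 f1 f2 : Cn 3 → ℂ} {e e' : OpenPartialHomeomorph Up (Cn 3)}
    (P : Cn 3 → Prop) (hP : ∀ u, e.symm u ∈ e'.source → P u)
    (h : ∀ u, P u → e' (e.symm u) = !₂[f0 u, f1 u, f2 u])
    (h0 : ∀ u, P u → DifferentiableAt ℂ f0 u) (h1 : ∀ u, P u → DifferentiableAt ℂ f1 u)
    (h2 : ∀ u, P u → DifferentiableAt ℂ f2 u) :
    DifferentiableOn ℂ (fun z => e' (e.symm z)) {z | z ∈ e.target ∧ e.symm z ∈ e'.source} := by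
  refine DifferentiableOn.congr (f := fun u : Cn 3 => !₂[f0 u, f1 u, f2 u]) ?_ ?_
  · exact diffOn3 (fun u hu => (h0 u (hP u hu.2)).differentiableWithinAt)
      (fun u hu => (h1 u (hP u hu.2)).differentiableWithinAt)
      (fun u hu => (h2 u (hP u hu.2)).differentiableWithinAt)
  · rintro u ⟨-, hu⟩
    exact h u (hP u hu)

theorem holo_ch : ∀ i j, DifferentiableOn ℂ (fun z => ch j ((ch i).symm z))
    {z | z ∈ (ch i).target ∧ (ch i).symm z ∈ (ch j).source} := by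
  have hself : ∀ e : OpenPartialHomeomorph Up (Cn 3), DifferentiableOn ℂ
      (fun z => e (e.symm z)) {z | z ∈ e.target ∧ e.symm z ∈ e.source} := fun e => by
    refine DifferentiableOn.congr (f := id) differentiableOn_id ?_
    rintro u ⟨hu, -⟩
    exact e.right_inv hu
  intro i j
  fin_cases i <;> fin_cases j
  · exact hself ch1
  · refine tr_of (e := ch1) (e' := ch2) (f0 := fun u => (u 0)⁻¹) (f1 := fun u => u 1 * (u 0)⁻¹)
      (f2 := fun u => u 2 * u 0 ^ 2) (fun u => u 0 ≠ 0) (fun u hu => mk1_mem2.1 hu) ?_ ?_ ?_ ?_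
    · intro u hu
      rw [ch1_symm, ch2_apply]
      simp [mk1, div_eq_mul_inv]
    all_goals intro u hu; fun_prop (disch := assumption)
  · refine tr_of (e := ch1) (e' := ch3) (f0 := fun u => (u 1)⁻¹) (f1 := fun u => u 0 * (u 1)⁻¹)
      (f2 := fun u => u 1 ^ 2 * u 2) (fun u => u 1 ≠ 0) (fun u hu => mk1_mem3.1 hu) ?_ ?_ ?_ ?_
    · intro u hu
      rw [ch1_symm, ch3_apply]
      simp [mk1, div_eq_mul_inv]
    all_goals intro u hu; fun_prop (disch := assumption)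
  · refine tr_of (e := ch1) (e' := ch4) (f0 := fun u => u 1 * u 2) (f1 := fun u => u 1 * u 2 * u 0)
      (f2 := fun u => (u 1 ^ 2 * u 2)⁻¹) (fun u => u 1 ^ 2 * u 2 ≠ 0)
      (fun u hu => by
        have := mk1_mem4.1 hu
        exact mul_ne_zero (pow_ne_zero 2 this.1) this.2) ?_ ?_ ?_ ?_
    · intro u hu
      rw [ch1_symm, ch4_apply]
      simp [mk1]
    all_goals intro u hu; fun_prop (disch := assumption)
  · refine tr_of (e := ch2) (e' := ch1) (f0 := fun u => (u 0)⁻¹) (f1 := fun u => u 1 * (u 0)⁻¹)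
      (f2 := fun u => u 2 * u 0 ^ 2) (fun u => u 0 ≠ 0) (fun u hu => mk2_mem1.1 hu) ?_ ?_ ?_ ?_
    · intro u hu
      rw [ch2_symm, ch1_apply]
      simp [mk2, div_eq_mul_inv]
    all_goals intro u hu; fun_prop (disch := assumption)
  · exact hself ch2
  · refine tr_of (e := ch2) (e' := ch3) (f0 := fun u => u 0 * (u 1)⁻¹) (f1 := fun u => (u 1)⁻¹)
      (f2 := fun u => u 1 ^ 2 * u 2) (fun u => u 1 ≠ 0) (fun u hu => mk2_mem3.1 hu) ?_ ?_ ?_ ?_
    · intro u hu
      rw [ch2_symm, ch3_apply]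
      simp [mk2, div_eq_mul_inv]
    all_goals intro u hu; fun_prop (disch := assumption)
  · refine tr_of (e := ch2) (e' := ch4) (f0 := fun u => u 1 * u 2 * u 0) (f1 := fun u => u 1 * u 2)
      (f2 := fun u => (u 1 ^ 2 * u 2)⁻¹) (fun u => u 1 ^ 2 * u 2 ≠ 0)
      (fun u hu => by
        have := mk2_mem4.1 hu
        exact mul_ne_zero (pow_ne_zero 2 this.1) this.2) ?_ ?_ ?_ ?_
    · intro u hu
      rw [ch2_symm, ch4_apply]
      simp [mk2]
    all_goals intro u hu; fun_prop (disch := assumption)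
  · refine tr_of (e := ch3) (e' := ch1) (f0 := fun u => u 1 * (u 0)⁻¹) (f1 := fun u => (u 0)⁻¹)
      (f2 := fun u => u 2 * u 0 ^ 2) (fun u => u 0 ≠ 0) (fun u hu => mk3_mem1.1 hu) ?_ ?_ ?_ ?_
    · intro u hu
      rw [ch3_symm, ch1_apply]
      simp [mk3, div_eq_mul_inv]
    all_goals intro u hu; fun_prop (disch := assumption)
  · refine tr_of (e := ch3) (e' := ch2) (f0 := fun u => u 0 * (u 1)⁻¹) (f1 := fun u => (u 1)⁻¹)
      (f2 := fun u => u 2 * u 1 ^ 2) (fun u => u 1 ≠ 0) (fun u hu => mk3_mem2.1 hu) ?_ ?_ ?_ ?_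
    · intro u hu
      rw [ch3_symm, ch2_apply]
      simp [mk3, div_eq_mul_inv]
    all_goals intro u hu; fun_prop (disch := assumption)
  · exact hself ch3
  · refine tr_of (e := ch3) (e' := ch4) (f0 := fun u => u 2 * u 0) (f1 := fun u => u 2 * u 1)
      (f2 := fun u => (u 2)⁻¹) (fun u => u 2 ≠ 0) (fun u hu => mk3_mem4.1 hu) ?_ ?_ ?_ ?_
    · intro u hu
      rw [ch3_symm, ch4_apply]
      simp [mk3]
    all_goals intro u hu; fun_prop (disch := assumption)
  · refine tr_of (e := ch4) (e' := ch1) (f0 := fun u => u 1 * (u 0)⁻¹)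
      (f1 := fun u => (u 2 * u 0)⁻¹)
      (f2 := fun u => u 2 * u 0 ^ 2) (fun u => u 0 ≠ 0 ∧ u 2 * u 0 ≠ 0)
      (fun u hu => ⟨(mk4_mem1.1 hu).2, mul_ne_zero (mk4_mem1.1 hu).1 (mk4_mem1.1 hu).2⟩)
      ?_ ?_ ?_ ?_
    · intro u hu
      have h2 : u 2 ≠ 0 := left_ne_zero_of_mul hu.2
      rw [ch4_symm, ch1_apply]
      simp only [mk4, PP.rat_mk, Matrix.cons_val_zero, Matrix.cons_val_one, Matrix.cons_val]
      have e0 : u 2 * u 1 / (u 2 * u 0) = u 1 * (u 0)⁻¹ := by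
        field_simp
      rw [e0, one_div]
    · intro u hu
      have := hu.1
      fun_prop (disch := assumption)
    · intro u hu
      have := hu.2
      fun_prop (disch := assumption)
    · intro u hu
      fun_prop
  · refine tr_of (e := ch4) (e' := ch2) (f0 := fun u => u 0 * (u 1)⁻¹)
      (f1 := fun u => (u 2 * u 1)⁻¹)
      (f2 := fun u => u 2 * u 1 ^ 2) (fun u => u 1 ≠ 0 ∧ u 2 * u 1 ≠ 0)
      (fun u hu => ⟨(mk4_mem2.1 hu).2, mul_ne_zero (mk4_mem2.1 hu).1 (mk4_mem2.1 hu).2⟩)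
      ?_ ?_ ?_ ?_
    · intro u hu
      have h2 : u 2 ≠ 0 := left_ne_zero_of_mul hu.2
      rw [ch4_symm, ch2_apply]
      simp only [mk4, PP.rat_mk, Matrix.cons_val_zero, Matrix.cons_val_one, Matrix.cons_val]
      have e0 : u 2 * u 0 / (u 2 * u 1) = u 0 * (u 1)⁻¹ := by
        field_simp
      rw [e0, one_div]
    · intro u hu
      have := hu.1
      fun_prop (disch := assumption)
    · intro u hu
      have := hu.2
      fun_prop (disch := assumption)
    · intro u hu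
      fun_prop
  · refine tr_of (e := ch4) (e' := ch3) (f0 := fun u => u 2 * u 0) (f1 := fun u => u 2 * u 1)
      (f2 := fun u => (u 2)⁻¹) (fun u => u 2 ≠ 0) (fun u hu => mk4_mem3.1 hu) ?_ ?_ ?_ ?_
    · intro u hu
      rw [ch4_symm, ch3_apply]
      simp [mk4]
    all_goals intro u hu; fun_prop (disch := assumption)
  · exact hself ch4

/-- the family of charts -/
def fam : Fam 3 Up where
  ι := Fin 4
  e := ch
  cover := cover
  holo := holo_ch

end Up

end

end Crest.Agent.R272.Flop_66
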