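import Crest.Agent.R272.Flop4_66

/-!
# R272, FLOP-SURG (helper66), part 5: the antiflip `phi : Um ⇀ Up`

`phi : OpenPartialHomeomorph Um Up`, source `{N ≠ 0}`, target `{N ≠ 0}`, `(z, m)` preserved,
holomorphic in all charts (`phi_hol`, `phi_symm_hol`); `diff_any` : holomorphy at a point can be
checked in one pair of charts.
-/

set_option autoImplicit false
set_option linter.unusedSectionVars false
set_option linter.style.haveILetI false

open Set Filter Topology Complex
open scoped ComplexConjugate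

namespace Crest.Agent.R272.Flop_66

open Crest.Agent.R275.Geo Crest.Agent.R273.Fam_835

noncomputable section

section General

variable {n m : ℕ} {M M' : Type} [TopologicalSpace M] [TopologicalSpace M']

/-- holomorphy at a point does not depend on the charts -/
theorem diff_any (C : Fam n M) (D : Fam m M') {p : M → M'} {x : M} (hc : ContinuousAt p x)
    {i j : C.ι} {k l : D.ι} (hi : x ∈ (C.e i).source) (hk : p x ∈ (D.e k).source)
    (hd : DifferentiableAt ℂ (fun z => D.e k (p ((C.e i).symm z))) (C.e i x))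
    (hj : x ∈ (C.e j).source) (hl : p x ∈ (D.e l).source) :
    DifferentiableAt ℂ (fun z => D.e l (p ((C.e j).symm z))) (C.e j x) := by
  set z := C.e j x with hz
  have e1 : (C.e j).symm z = x := (C.e j).left_inv hj
  have hzt : z ∈ (C.e j).target := (C.e j).map_source hj
  have h1 : DifferentiableAt ℂ (fun w => C.e i ((C.e j).symm w)) z :=
    (C.holo j i).differentiableAt (((C.e j).isOpen_inter_preimage_symm
      (C.e i).open_source).mem_nhds ⟨hzt, by rw [mem_preimage, e1]; exact hi⟩)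
  have h2 : DifferentiableAt ℂ (fun w => D.e l ((D.e k).symm w)) (D.e k (p x)) :=
    (D.holo k l).differentiableAt (((D.e k).isOpen_inter_preimage_symm
      (D.e l).open_source).mem_nhds ⟨(D.e k).map_source hk, by
        rw [mem_preimage, (D.e k).left_inv hk]; exact hl⟩)
  have h3 : DifferentiableAt ℂ (fun w => D.e k (p ((C.e i).symm (C.e i ((C.e j).symm w))))) z := by
    refine DifferentiableAt.comp z (g := fun z => D.e k (p ((C.e i).symm z))) ?_ h1
    rw [e1]
    exact hd
  have e3 : D.e k (p ((C.e i).symm (C.e i ((C.e j).symm z)))) = D.e k (p x) := by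
    rw [e1, (C.e i).left_inv hi]
  have h4 : DifferentiableAt ℂ (fun w => D.e l ((D.e k).symm
      (D.e k (p ((C.e i).symm (C.e i ((C.e j).symm w))))))) z := by
    refine DifferentiableAt.comp z (g := fun w => D.e l ((D.e k).symm w)) ?_ h3
    rw [e3]
    exact h2
  refine (h4.congr_of_eventuallyEq ?_)
  have hcont : ContinuousAt (C.e j).symm z := (C.e j).continuousAt_symm hzt
  have hc' : ContinuousAt p ((C.e j).symm z) := by rw [e1]; exact hc
  have h5 : ∀ᶠ w in 𝓝 z, (C.e j).symm w ∈ (C.e i).source :=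
    hcont.preimage_mem_nhds ((C.e i).open_source.mem_nhds (by rw [e1]; exact hi))
  have h6 : ∀ᶠ w in 𝓝 z, p ((C.e j).symm w) ∈ (D.e k).source :=
    (ContinuousAt.comp (f := (C.e j).symm) hc' hcont).preimage_mem_nhds
      ((D.e k).open_source.mem_nhds (by
        show p ((C.e j).symm z) ∈ _
        rw [e1]; exact hk))
  filter_upwards [h5, h6] with w hw hw'
  rw [(C.e i).left_inv hw, (D.e k).left_inv hw']

end General

/-! ### the cone -/

/-- the equations of the cone -/
def Cone (z : Fin 2 → ℂ) (m : Fin 3 → ℂ) : Prop :=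
  z 0 * m 1 = z 1 * m 0 ∧ z 0 * m 2 = z 1 * m 1 ∧ m 0 * m 2 = m 1 ^ 2

theorem Um.cone (x : Um) : Cone x.z x.m := by
  rcases Um.cover x with h | h
  · rw [← Um.eq_mk0 h]
    refine ⟨?_, ?_, ?_⟩ <;> simp [Um.mk0] <;> ring
  · rw [← Um.eq_mk1 h]
    refine ⟨?_, ?_, ?_⟩ <;> simp [Um.mk1] <;> ring

theorem Up.cone (x : Up) : Cone x.z x.m := by
  obtain ⟨i, hi⟩ := Up.cover x
  fin_cases i
  · rw [← Up.eq_mk1 hi]
    refine ⟨?_, ?_, ?_⟩ <;> simp [Up.mk1] <;> ring
  · rw [← Up.eq_mk2 hi]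
    refine ⟨?_, ?_, ?_⟩ <;> simp [Up.mk2] <;> ring
  · rw [← Up.eq_mk3 hi.1 hi.2]
    refine ⟨?_, ?_, ?_⟩ <;> simp [Up.mk3] <;> ring
  · rw [← Up.eq_mk4 hi]
    refine ⟨?_, ?_, ?_⟩ <;> simp [Up.mk4] <;> ring

/-- the four cases of a non-zero point of the cone -/
theorem Cone.cases {z : Fin 2 → ℂ} {m : Fin 3 → ℂ} (h : Cone z m) (h0 : nsq z + nsq m ≠ 0) :
    z 0 ≠ 0 ∨ z 1 ≠ 0 ∨ m 0 ≠ 0 ∨ m 2 ≠ 0 := by
  by_contra hc
  push Not at hc
  obtain ⟨h1, h2, h3, h4⟩ := hc
  have h5 : m 1 = 0 := by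
    have := h.2.2
    rw [h3, h4, zero_mul] at this
    exact pow_eq_zero_iff (two_ne_zero) |>.1 this.symm
  apply h0
  have e1 : z = 0 := funext fun k => by fin_cases k <;> assumption
  have e2 : m = 0 := funext fun k => by fin_cases k <;> assumption
  rw [e1, e2, nsq_eq_zero.2 rfl, nsq_eq_zero.2 rfl, add_zero]

/-! ### uniqueness -/

theorem Um.eq_of {x y : Um} (h1 : x.z = y.z) (h2 : x.m = y.m) (h : x.N ≠ 0) : x = y := by
  refine Um.ext h1 h2 ?_
  rcases x.cone.cases h with h0 | h0 | h0 | h0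
  · have hv : x.z ≠ 0 := fun e => h0 (congrFun e 0)
    rw [x.hz.eq_mk hv, y.hz.eq_mk (h1 ▸ hv)]
    congr 1
  · have hv : x.z ≠ 0 := fun e => h0 (congrFun e 1)
    rw [x.hz.eq_mk hv, y.hz.eq_mk (h1 ▸ hv)]
    congr 1
  · have hv : (![x.m 0, x.m 1] : Fin 2 → ℂ) ≠ 0 := v2_ne (Or.inl h0)
    rw [x.h1.eq_mk hv, y.h1.eq_mk (h2 ▸ hv)]
    congr 1
    rw [h2]
  · have hv : (![x.m 1, x.m 2] : Fin 2 → ℂ) ≠ 0 := v2_ne (Or.inr h0)
    rw [x.h2.eq_mk hv, y.h2.eq_mk (h2 ▸ hv)]
    congr 1
    rw [h2]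

theorem PP.eq_of_en0 {Q : PP 2} (h : Q.en 0 0 = 0) : Q = PP.mk ![0, 1] (v2_ne (Or.inr one_ne_zero)) := by
  obtain ⟨x, hx, rfl⟩ := Q.exists_rep
  have h0 : x 0 = 0 := by
    by_contra hc
    exact (PP.en_self_ne hx 0).2 hc h
  rw [PP.mk_eq_iff]
  intro i j
  fin_cases i <;> fin_cases j <;> simp [h0]

theorem Up.eq_of {x y : Up} (h1 : x.z = y.z) (h2 : x.m = y.m) (h : x.N ≠ 0) : x = y := by
  have hX : x.X = y.X := by
    by_cases hr : (![x.m 0, x.m 1, x.z 0] : Fin 3 → ℂ) = 0
    · have hr2 : (![x.m 1, x.m 2, x.z 1] : Fin 3 → ℂ) ≠ 0 := by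
        intro hr3
        have a0 := congrFun hr 0
        have a2 := congrFun hr 2
        have b0 := congrFun hr3 0
        have b1 := congrFun hr3 1
        have b2 := congrFun hr3 2
        simp at a0 a2 b0 b1 b2
        rcases x.cone.cases h with h0 | h0 | h0 | h0
        · exact h0 a2
        · exact h0 b2
        · exact h0 a0
        · exact h0 b1
      rw [x.h2.eq_mk hr2, y.h2.eq_mk (by rw [← h1, ← h2]; exact hr2)]
      congr 1
      rw [h1, h2]
    · rw [x.h1.eq_mk hr, y.h1.eq_mk (by rw [← h1, ← h2]; exact hr)]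
      congr 1
      rw [h1, h2]
  refine Up.ext h1 h2 hX ?_
  by_cases h22 : x.X.en 2 2 = 0
  · have hx : x.R.en 0 0 = 0 := by
      by_contra hc
      exact Up.X2_ne hc h22
    have hy : y.R.en 0 0 = 0 := by
      by_contra hc
      exact Up.X2_ne hc (hX ▸ h22)
    rw [PP.eq_of_en0 hx, PP.eq_of_en0 hy]
  · -- `z ≠ 0`
    have hz : ∃ i, x.z i ≠ 0 := by
      by_contra hc
      push Not at hc
      have a := fun i => x.h1.eq_rat h22 i
      have b := fun i => x.h2.eq_rat h22 i
      have a0 := a 0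
      have a1 := a 1
      have b1 := b 1
      simp only [Matrix.cons_val_zero, Matrix.cons_val_one, Matrix.cons_val] at a0 a1 b1
      rw [hc 0, mul_zero] at a0 a1
      rw [hc 1, mul_zero] at b1
      rcases x.cone.cases h with h0 | h0 | h0 | h0
      · exact h0 (hc 0)
      · exact h0 (hc 1)
      · exact h0 a0
      · exact h0 b1
    have key : ∀ (u : Up) (hu : u.X.en 2 2 ≠ 0) (i : Fin 2),
        u.R.Par ![u.z i, u.X.rat i.castSucc 2] := by
      intro u hu i a b k
      have c := (u.h3 k).eq_rat hu i.castSucc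
      have c' : u.R.en 1 k * u.z i = u.X.rat i.castSucc 2 * u.R.en 0 k := by
        fin_cases i
        · simpa using c
        · simpa using c
      fin_cases a <;> fin_cases b <;> simp
      · linear_combination -c'
      · linear_combination c'
    obtain ⟨i, hi⟩ := hz
    have k1 := key x h22 i
    have k2 := key y (hX ▸ h22) i
    rw [← hX, ← h1] at k2
    have hv : (![x.z i, x.X.rat i.castSucc 2] : Fin 2 → ℂ) ≠ 0 := v2_ne (Or.inl hi)
    rw [k1.eq_mk hv, k2.eq_mk hv]

end

end Crest.Agent.R272.Flop_66
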