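import Crest.Agent.R272.Flop5_66

/-!
# R272, FLOP-SURG (helper66), part 6: the antiflip `phi : Um ⇀ Up`
-/

set_option autoImplicit false
set_option linter.unusedSectionVars false
set_option linter.style.haveILetI false

open Set Filter Topology Complex
open scoped ComplexConjugate

namespace Crest.Agent.R272.Flop_66

open Crest.Agent.R275.Geo Crest.Agent.R273.Fam_835

noncomputable section

open Classical in
/-- the point of `Up` over a point of the cone -/
def upOf (z : Fin 2 → ℂ) (m : Fin 3 → ℂ) : Up :=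
  if z 0 ≠ 0 then Up.mk4 (z 0) (z 1) (m 0 / z 0 ^ 2)
  else if z 1 ≠ 0 then Up.mk4 (z 0) (z 1) (m 2 / z 1 ^ 2)
  else if m 0 ≠ 0 then Up.mk1 (m 1 / m 0) (z 0 / m 0) (m 0)
  else Up.mk2 (m 1 / m 2) (z 1 / m 2) (m 2)

open Classical in
/-- the point of `Um` over a point of the cone -/
def umOf (z : Fin 2 → ℂ) (m : Fin 3 → ℂ) : Um :=
  if z 0 ≠ 0 then Um.mk0 (z 1 / z 0) (z 0) (m 0)
  else if z 1 ≠ 0 then Um.mk1 (z 0 / z 1) (z 1) (m 2)
  else if m 0 ≠ 0 then Um.mk0 (m 1 / m 0) (z 0) (m 0)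
  else Um.mk1 (m 1 / m 2) (z 1) (m 2)

section Formulas

variable {z : Fin 2 → ℂ} {m : Fin 3 → ℂ}

theorem F1 (h : Cone z m) (h0 : z 0 ≠ 0) : (Up.mk4 (z 0) (z 1) (m 0 / z 0 ^ 2)).z = z ∧
    (Up.mk4 (z 0) (z 1) (m 0 / z 0 ^ 2)).m = m := by
  obtain ⟨c1, c2, c3⟩ := h
  constructor
  · funext k
    fin_cases k <;> rfl
  · funext k
    fin_cases k <;> simp only [Up.mk4] <;> simp
    · field_simp
    · field_simp
      linear_combination -c1
    · field_simp
      linear_combination (-z 1) * c1 - z 0 * c2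

theorem F2 (h : Cone z m) (h0 : z 1 ≠ 0) : (Up.mk4 (z 0) (z 1) (m 2 / z 1 ^ 2)).z = z ∧
    (Up.mk4 (z 0) (z 1) (m 2 / z 1 ^ 2)).m = m := by
  obtain ⟨c1, c2, c3⟩ := h
  constructor
  · funext k
    fin_cases k <;> rfl
  · funext k
    fin_cases k <;> simp only [Up.mk4] <;> simp
    · field_simp
      linear_combination z 1 * c1 + z 0 * c2
    · field_simp
      linear_combination c2
    · field_simp

theorem F3 (h : Cone z m) (h0 : m 0 ≠ 0) : (Up.mk1 (m 1 / m 0) (z 0 / m 0) (m 0)).z = z ∧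
    (Up.mk1 (m 1 / m 0) (z 0 / m 0) (m 0)).m = m := by
  obtain ⟨c1, c2, c3⟩ := h
  constructor
  · funext k
    fin_cases k <;> simp only [Up.mk1] <;> simp
    · field_simp
    · field_simp
      linear_combination c1
  · funext k
    fin_cases k <;> simp only [Up.mk1] <;> simp
    · field_simp
    · field_simp
      linear_combination -c3

theorem F4 (h : Cone z m) (h0 : m 2 ≠ 0) : (Up.mk2 (m 1 / m 2) (z 1 / m 2) (m 2)).z = z ∧
    (Up.mk2 (m 1 / m 2) (z 1 / m 2) (m 2)).m = m := by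
  obtain ⟨c1, c2, c3⟩ := h
  constructor
  · funext k
    fin_cases k <;> simp only [Up.mk2] <;> simp
    · field_simp
      linear_combination -c2
    · field_simp
  · funext k
    fin_cases k <;> simp only [Up.mk2] <;> simp
    · field_simp
      linear_combination -c3
    · field_simp

theorem G1 (h : Cone z m) (h0 : z 0 ≠ 0) : (Um.mk0 (z 1 / z 0) (z 0) (m 0)).z = z ∧
    (Um.mk0 (z 1 / z 0) (z 0) (m 0)).m = m := by
  obtain ⟨c1, c2, c3⟩ := h
  constructor
  · funext k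
    fin_cases k <;> simp only [Um.mk0] <;> simp
    field_simp
  · funext k
    fin_cases k <;> simp only [Um.mk0] <;> simp
    · field_simp
      linear_combination -c1
    · field_simp
      linear_combination (-z 1) * c1 - z 0 * c2

theorem G2 (h : Cone z m) (h0 : z 1 ≠ 0) : (Um.mk1 (z 0 / z 1) (z 1) (m 2)).z = z ∧
    (Um.mk1 (z 0 / z 1) (z 1) (m 2)).m = m := by
  obtain ⟨c1, c2, c3⟩ := h
  constructor
  · funext k
    fin_cases k <;> simp only [Um.mk1] <;> simp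
    field_simp
  · funext k
    fin_cases k <;> simp only [Um.mk1] <;> simp
    · field_simp
      linear_combination z 1 * c1 + z 0 * c2
    · field_simp
      linear_combination c2

theorem G3 (h : Cone z m) (h0 : m 0 ≠ 0) : (Um.mk0 (m 1 / m 0) (z 0) (m 0)).z = z ∧
    (Um.mk0 (m 1 / m 0) (z 0) (m 0)).m = m := by
  obtain ⟨c1, c2, c3⟩ := h
  constructor
  · funext k
    fin_cases k <;> simp only [Um.mk0] <;> simp
    field_simp
    linear_combination c1
  · funext k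
    fin_cases k <;> simp only [Um.mk0] <;> simp
    · field_simp
    · field_simp
      linear_combination -c3

theorem G4 (h : Cone z m) (h0 : m 2 ≠ 0) : (Um.mk1 (m 1 / m 2) (z 1) (m 2)).z = z ∧
    (Um.mk1 (m 1 / m 2) (z 1) (m 2)).m = m := by
  obtain ⟨c1, c2, c3⟩ := h
  constructor
  · funext k
    fin_cases k <;> simp only [Um.mk1] <;> simp
    field_simp
    linear_combination -c2
  · funext k
    fin_cases k <;> simp only [Um.mk1] <;> simp
    · field_simp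
      linear_combination -c3
    · field_simp

theorem upOf_spec (h : Cone z m) (h0 : nsq z + nsq m ≠ 0) :
    (upOf z m).z = z ∧ (upOf z m).m = m := by
  unfold upOf
  split_ifs with h1 h2 h3
  · exact F1 h h1
  · exact F2 h h2
  · exact F3 h h3
  · refine F4 h ?_
    rcases h.cases h0 with k | k | k | k
    · exact absurd k h1
    · exact absurd k h2
    · exact absurd k h3
    · exact k

theorem umOf_spec (h : Cone z m) (h0 : nsq z + nsq m ≠ 0) :
    (umOf z m).z = z ∧ (umOf z m).m = m := by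
  unfold umOf
  split_ifs with h1 h2 h3
  · exact G1 h h1
  · exact G2 h h2
  · exact G3 h h3
  · refine G4 h ?_
    rcases h.cases h0 with k | k | k | k
    · exact absurd k h1
    · exact absurd k h2
    · exact absurd k h3
    · exact k

end Formulas

theorem N_up {z : Fin 2 → ℂ} {m : Fin 3 → ℂ} {y : Up} (h1 : y.z = z) (h2 : y.m = m) :
    y.N = nsq z + nsq m := by rw [Up.N, h1, h2]

theorem N_um {z : Fin 2 → ℂ} {m : Fin 3 → ℂ} {y : Um} (h1 : y.z = z) (h2 : y.m = m) :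
    y.N = nsq z + nsq m := by rw [Um.N, h1, h2]

/-- the map `Um → Up` -/
def pu (x : Um) : Up := upOf x.z x.m

/-- the map `Up → Um` -/
def pd (y : Up) : Um := umOf y.z y.m

theorem pu_spec {x : Um} (h : x.N ≠ 0) : (pu x).z = x.z ∧ (pu x).m = x.m := upOf_spec x.cone h
theorem pd_spec {y : Up} (h : y.N ≠ 0) : (pd y).z = y.z ∧ (pd y).m = y.m := umOf_spec y.cone h

theorem N_pu {x : Um} (h : x.N ≠ 0) : (pu x).N = x.N := N_up (pu_spec h).1 (pu_spec h).2
theorem N_pd {y : Up} (h : y.N ≠ 0) : (pd y).N = y.N := N_um (pd_spec h).1 (pd_spec h).2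

/-- characterisation of `pu` -/
theorem pu_eq {x : Um} {y : Up} (h : x.N ≠ 0) (h1 : y.z = x.z) (h2 : y.m = x.m) : pu x = y :=
  Up.eq_of ((pu_spec h).1.trans h1.symm) ((pu_spec h).2.trans h2.symm) (by rwa [N_pu h])

theorem pd_eq {x : Um} {y : Up} (h : y.N ≠ 0) (h1 : x.z = y.z) (h2 : x.m = y.m) : pd y = x :=
  Um.eq_of ((pd_spec h).1.trans h1.symm) ((pd_spec h).2.trans h2.symm) (by rwa [N_pd h])

theorem pd_pu {x : Um} (h : x.N ≠ 0) : pd (pu x) = x :=
  pd_eq (by rwa [N_pu h]) (pu_spec h).1.symm (pu_spec h).2.symm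

theorem pu_pd {y : Up} (h : y.N ≠ 0) : pu (pd y) = y :=
  pu_eq (by rwa [N_pd h]) (pd_spec h).1.symm (pd_spec h).2.symm

theorem um_ne_of {x : Um} (h : x.z 0 ≠ 0 ∨ x.z 1 ≠ 0 ∨ x.m 0 ≠ 0 ∨ x.m 2 ≠ 0) : x.N ≠ 0 := by
  intro h0
  obtain ⟨h1, h2⟩ := Um.N_eq_zero.1 h0
  rcases h with k | k | k | k
  · exact k (congrFun h1 0)
  · exact k (congrFun h1 1)
  · exact k (congrFun h2 0)
  · exact k (congrFun h2 2)

theorem up_ne_of {x : Up} (h : x.z 0 ≠ 0 ∨ x.z 1 ≠ 0 ∨ x.m 0 ≠ 0 ∨ x.m 2 ≠ 0) : x.N ≠ 0 := by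
  intro h0
  obtain ⟨h1, h2⟩ := Up.N_eq_zero.1 h0
  rcases h with k | k | k | k
  · exact k (congrFun h1 0)
  · exact k (congrFun h1 1)
  · exact k (congrFun h2 0)
  · exact k (congrFun h2 2)

theorem pu1 {x : Um} (h0 : x.z 0 ≠ 0) : pu x = Up.mk4 (x.z 0) (x.z 1) (x.m 0 / x.z 0 ^ 2) :=
  pu_eq (um_ne_of (by tauto)) (F1 x.cone h0).1 (F1 x.cone h0).2
theorem pu2 {x : Um} (h0 : x.z 1 ≠ 0) : pu x = Up.mk4 (x.z 0) (x.z 1) (x.m 2 / x.z 1 ^ 2) :=
  pu_eq (um_ne_of (by tauto)) (F2 x.cone h0).1 (F2 x.cone h0).2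
theorem pu3 {x : Um} (h0 : x.m 0 ≠ 0) :
    pu x = Up.mk1 (x.m 1 / x.m 0) (x.z 0 / x.m 0) (x.m 0) :=
  pu_eq (um_ne_of (by tauto)) (F3 x.cone h0).1 (F3 x.cone h0).2
theorem pu4 {x : Um} (h0 : x.m 2 ≠ 0) :
    pu x = Up.mk2 (x.m 1 / x.m 2) (x.z 1 / x.m 2) (x.m 2) :=
  pu_eq (um_ne_of (by tauto)) (F4 x.cone h0).1 (F4 x.cone h0).2
theorem pd1 {x : Up} (h0 : x.z 0 ≠ 0) : pd x = Um.mk0 (x.z 1 / x.z 0) (x.z 0) (x.m 0) :=
  pd_eq (up_ne_of (by tauto)) (G1 x.cone h0).1 (G1 x.cone h0).2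
theorem pd2 {x : Up} (h0 : x.z 1 ≠ 0) : pd x = Um.mk1 (x.z 0 / x.z 1) (x.z 1) (x.m 2) :=
  pd_eq (up_ne_of (by tauto)) (G2 x.cone h0).1 (G2 x.cone h0).2
theorem pd3 {x : Up} (h0 : x.m 0 ≠ 0) : pd x = Um.mk0 (x.m 1 / x.m 0) (x.z 0) (x.m 0) :=
  pd_eq (up_ne_of (by tauto)) (G3 x.cone h0).1 (G3 x.cone h0).2
theorem pd4 {x : Up} (h0 : x.m 2 ≠ 0) : pd x = Um.mk1 (x.m 1 / x.m 2) (x.z 1) (x.m 2) :=
  pd_eq (up_ne_of (by tauto)) (G4 x.cone h0).1 (G4 x.cone h0).2

/-! ### continuity -/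

/-- the argument of a chart -/
theorem cont_v3 {Y : Type*} [TopologicalSpace Y] {f0 f1 f2 : Y → ℂ} {x : Y}
    (h0 : ContinuousAt f0 x) (h1 : ContinuousAt f1 x) (h2 : ContinuousAt f2 x) :
    ContinuousAt (fun z => (!₂[f0 z, f1 z, f2 z] : Cn 3)) x := by
  refine (PiLp.continuous_toLp 2 _).continuousAt.comp ?_
  refine continuousAt_pi.2 fun k => ?_
  fin_cases k
  · exact h0
  · exact h1
  · exact h2

theorem contAt_mk {Y Z : Type*} [TopologicalSpace Y] [TopologicalSpace Z] {mk : ℂ → ℂ → ℂ → Z}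
    (hmk : Continuous (fun u : Cn 3 => mk (u 0) (u 1) (u 2))) {f0 f1 f2 : Y → ℂ} {x : Y}
    (h0 : ContinuousAt f0 x) (h1 : ContinuousAt f1 x) (h2 : ContinuousAt f2 x) :
    ContinuousAt (fun y => mk (f0 y) (f1 y) (f2 y)) x :=
  ContinuousAt.comp (f := fun y => (!₂[f0 y, f1 y, f2 y] : Cn 3)) hmk.continuousAt
    (cont_v3 h0 h1 h2)

theorem contAt_pu {x : Um} (h : x.N ≠ 0) : ContinuousAt pu x := by
  rcases x.cone.cases h with h0 | h0 | h0 | h0
  · have he : ∀ᶠ y : Um in 𝓝 x, pu y = Up.mk4 (y.z 0) (y.z 1) (y.m 0 / y.z 0 ^ 2) := by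
      filter_upwards [(Um.c_zi 0).continuousAt.eventually_ne h0] with y hy using pu1 hy
    refine ContinuousAt.congr ?_ (he.mono fun y hy => hy.symm)
    exact contAt_mk Up.c_mk4 (Um.c_zi 0).continuousAt (Um.c_zi 1).continuousAt
      ((Um.c_mi 0).continuousAt.div ((Um.c_zi 0).continuousAt.pow 2) (pow_ne_zero 2 h0))
  · have he : ∀ᶠ y : Um in 𝓝 x, pu y = Up.mk4 (y.z 0) (y.z 1) (y.m 2 / y.z 1 ^ 2) := by
      filter_upwards [(Um.c_zi 1).continuousAt.eventually_ne h0] with y hy using pu2 hy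
    refine ContinuousAt.congr ?_ (he.mono fun y hy => hy.symm)
    exact contAt_mk Up.c_mk4 (Um.c_zi 0).continuousAt (Um.c_zi 1).continuousAt
      ((Um.c_mi 2).continuousAt.div ((Um.c_zi 1).continuousAt.pow 2) (pow_ne_zero 2 h0))
  · have he : ∀ᶠ y : Um in 𝓝 x, pu y = Up.mk1 (y.m 1 / y.m 0) (y.z 0 / y.m 0) (y.m 0) := by
      filter_upwards [(Um.c_mi 0).continuousAt.eventually_ne h0] with y hy using pu3 hy
    refine ContinuousAt.congr ?_ (he.mono fun y hy => hy.symm)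
    exact contAt_mk Up.c_mk1 ((Um.c_mi 1).continuousAt.div (Um.c_mi 0).continuousAt h0)
      ((Um.c_zi 0).continuousAt.div (Um.c_mi 0).continuousAt h0) (Um.c_mi 0).continuousAt
  · have he : ∀ᶠ y : Um in 𝓝 x, pu y = Up.mk2 (y.m 1 / y.m 2) (y.z 1 / y.m 2) (y.m 2) := by
      filter_upwards [(Um.c_mi 2).continuousAt.eventually_ne h0] with y hy using pu4 hy
    refine ContinuousAt.congr ?_ (he.mono fun y hy => hy.symm)
    exact contAt_mk Up.c_mk2 ((Um.c_mi 1).continuousAt.div (Um.c_mi 2).continuousAt h0)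
      ((Um.c_zi 1).continuousAt.div (Um.c_mi 2).continuousAt h0) (Um.c_mi 2).continuousAt

theorem contAt_pd {x : Up} (h : x.N ≠ 0) : ContinuousAt pd x := by
  rcases x.cone.cases h with h0 | h0 | h0 | h0
  · have he : ∀ᶠ y : Up in 𝓝 x, pd y = Um.mk0 (y.z 1 / y.z 0) (y.z 0) (y.m 0) := by
      filter_upwards [(Up.c_zi 0).continuousAt.eventually_ne h0] with y hy using pd1 hy
    refine ContinuousAt.congr ?_ (he.mono fun y hy => hy.symm)
    exact contAt_mk Um.c_mk0 ((Up.c_zi 1).continuousAt.div (Up.c_zi 0).continuousAt h0)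
      (Up.c_zi 0).continuousAt (Up.c_mi 0).continuousAt
  · have he : ∀ᶠ y : Up in 𝓝 x, pd y = Um.mk1 (y.z 0 / y.z 1) (y.z 1) (y.m 2) := by
      filter_upwards [(Up.c_zi 1).continuousAt.eventually_ne h0] with y hy using pd2 hy
    refine ContinuousAt.congr ?_ (he.mono fun y hy => hy.symm)
    exact contAt_mk Um.c_mk1 ((Up.c_zi 0).continuousAt.div (Up.c_zi 1).continuousAt h0)
      (Up.c_zi 1).continuousAt (Up.c_mi 2).continuousAt
  · have he : ∀ᶠ y : Up in 𝓝 x, pd y = Um.mk0 (y.m 1 / y.m 0) (y.z 0) (y.m 0) := by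
      filter_upwards [(Up.c_mi 0).continuousAt.eventually_ne h0] with y hy using pd3 hy
    refine ContinuousAt.congr ?_ (he.mono fun y hy => hy.symm)
    exact contAt_mk Um.c_mk0 ((Up.c_mi 1).continuousAt.div (Up.c_mi 0).continuousAt h0)
      (Up.c_zi 0).continuousAt (Up.c_mi 0).continuousAt
  · have he : ∀ᶠ y : Up in 𝓝 x, pd y = Um.mk1 (y.m 1 / y.m 2) (y.z 1) (y.m 2) := by
      filter_upwards [(Up.c_mi 2).continuousAt.eventually_ne h0] with y hy using pd4 hy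
    refine ContinuousAt.congr ?_ (he.mono fun y hy => hy.symm)
    exact contAt_mk Um.c_mk1 ((Up.c_mi 1).continuousAt.div (Up.c_mi 2).continuousAt h0)
      (Up.c_zi 1).continuousAt (Up.c_mi 2).continuousAt

/-- **the antiflip** -/
def phi : OpenPartialHomeomorph Um Up where
  toFun := pu
  invFun := pd
  source := {x | x.N ≠ 0}
  target := {y | y.N ≠ 0}
  map_source' x hx := by
    show (pu x).N ≠ 0
    rw [N_pu hx]; exact hx
  map_target' y hy := by
    show (pd y).N ≠ 0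
    rw [N_pd hy]; exact hy
  left_inv' x hx := pd_pu hx
  right_inv' y hy := pu_pd hy
  open_source := isOpen_ne_fun Um.c_N continuous_const
  open_target := isOpen_ne_fun Up.c_N continuous_const
  continuousOn_toFun x hx := (contAt_pu hx).continuousWithinAt
  continuousOn_invFun y hy := (contAt_pd hy).continuousWithinAt

theorem phi_apply (x : Um) : phi x = pu x := rfl
theorem phi_symm_apply (y : Up) : phi.symm y = pd y := rfl
theorem mem_phi_source {x : Um} : x ∈ phi.source ↔ x.N ≠ 0 := Iff.rfl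
theorem mem_phi_target {x : Up} : x ∈ phi.target ↔ x.N ≠ 0 := Iff.rfl

end

end Crest.Agent.R272.Flop_66
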