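import Crest.Agent.R272.Flop6_66
import Crest.Agent.R272.HFam_342

/-!
# R272, FLOP-SURG (helper66), part 7: `phi` is biholomorphic; small neighbourhoods of `{N = 0}`

`hC_phi`, `hC_phi_symm` : `HC Um.fam Up.fam phi x` for `N ≠ 0`, and back;
`Um.exists_eps`, `Up.exists_eps` : every open set containing `{N = 0}` contains some `{N ≤ ε}`.
-/

set_option autoImplicit false
set_option linter.unusedSectionVars false
set_option linter.style.haveILetI false

open Set Filter Topology Complex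
open scoped ComplexConjugate

namespace Crest.Agent.R272.Flop_66

open Crest.Agent.R275.Geo Crest.Agent.R273.Fam_835 Crest.Agent.R272.HFam_342

noncomputable section

/-! ### holomorphic functions on a `Fam` -/

section FCl

variable {n m : ℕ} {M N : Type} [TopologicalSpace M] [TopologicalSpace N] {A : Fam n M}
  {B : Fam m N} {f g : M → ℂ} {x : M}

theorem fc_const (c : ℂ) : FC A (fun _ => c) x := fun _ _ => differentiableAt_const _

theorem fc_add (hf : FC A f x) (hg : FC A g x) : FC A (fun y => f y + g y) x :=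
  fun i hi => (hf i hi).add (hg i hi)

theorem fc_mul (hf : FC A f x) (hg : FC A g x) : FC A (fun y => f y * g y) x :=
  fun i hi => (hf i hi).mul (hg i hi)

theorem fc_pow (hf : FC A f x) (k : ℕ) : FC A (fun y => f y ^ k) x :=
  fun i hi => (hf i hi).pow k

theorem fc_div (hf : FC A f x) (hg : FC A g x) (h : g x ≠ 0) : FC A (fun y => f y / g y) x := by
  intro i hi
  simp only [div_eq_mul_inv]
  refine (hf i hi).mul ((hg i hi).inv ?_)
  rw [(A.e i).left_inv hi]
  exact h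

theorem fc_inv (hg : FC A g x) (h : g x ≠ 0) : FC A (fun y => (g y)⁻¹) x := by
  intro i hi
  refine (hg i hi).inv ?_
  rw [(A.e i).left_inv hi]
  exact h

theorem fc_v3 {f0 f1 f2 : M → ℂ} (h0 : FC A f0 x) (h1 : FC A f1 x) (h2 : FC A f2 x) :
    FC A (fun y => (!₂[f0 y, f1 y, f2 y] : Cn 3)) x := by
  intro i hi
  rw [differentiableAt_euclidean]
  intro k
  fin_cases k
  · exact h0 i hi
  · exact h1 i hi
  · exact h2 i hi

/-- a point given by its coordinates in a chart -/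
theorem hc_symm (j : B.ι) {g : M → Cn m} (hg : FC A g x) (ht : g x ∈ (B.e j).target) :
    HC A B (fun y => (B.e j).symm (g y)) x := by
  have hc : ContinuousAt (fun y => (B.e j).symm (g y)) x :=
    ContinuousAt.comp (g := (B.e j).symm) ((B.e j).continuousAt_symm ht) hg.continuousAt
  refine hC_of_fC hc ((B.e j).map_target ht) ?_
  refine hg.congr ?_
  filter_upwards [hg.continuousAt.preimage_mem_nhds ((B.e j).open_target.mem_nhds ht)] with y hy
  exact ((B.e j).right_inv hy).symm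

/-- a holomorphic function with values in `Cn 3` from its coordinates -/
theorem fc_comp {k : ℕ} {g : M → Cn k} (hg : FC A g x) (l : Fin k) : FC A (fun y => g y l) x := by
  intro i hi
  exact differentiableAt_euclidean.1 (hg i hi) l

end FCl

theorem Um.fc_z (i : Fin 2) (x : Um) : FC Um.fam (fun y => y.z i) x := by
  intro b hb
  rcases b with _ | _
  · fin_cases i
    · show DifferentiableAt ℂ (fun u : Cn 3 => u 1) _
      fun_prop
    · show DifferentiableAt ℂ (fun u : Cn 3 => u 1 * u 0) _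
      fun_prop
  · fin_cases i
    · show DifferentiableAt ℂ (fun u : Cn 3 => u 1 * u 0) _
      fun_prop
    · show DifferentiableAt ℂ (fun u : Cn 3 => u 1) _
      fun_prop

theorem Um.fc_m (i : Fin 3) (x : Um) : FC Um.fam (fun y => y.m i) x := by
  intro b hb
  rcases b with _ | _
  · fin_cases i
    · show DifferentiableAt ℂ (fun u : Cn 3 => u 2) _
      fun_prop
    · show DifferentiableAt ℂ (fun u : Cn 3 => u 2 * u 0) _
      fun_prop
    · show DifferentiableAt ℂ (fun u : Cn 3 => u 2 * u 0 ^ 2) _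
      fun_prop
  · fin_cases i
    · show DifferentiableAt ℂ (fun u : Cn 3 => u 2 * u 0 ^ 2) _
      fun_prop
    · show DifferentiableAt ℂ (fun u : Cn 3 => u 2 * u 0) _
      fun_prop
    · show DifferentiableAt ℂ (fun u : Cn 3 => u 2) _
      fun_prop

theorem Up.fc_z (i : Fin 2) (x : Up) : FC Up.fam (fun y => y.z i) x := by
  show ∀ b : Fin 4, _
  intro b hb
  fin_cases b
  · fin_cases i
    · show DifferentiableAt ℂ (fun u : Cn 3 => u 1 * u 2) _
      fun_prop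
    · show DifferentiableAt ℂ (fun u : Cn 3 => u 1 * u 2 * u 0) _
      fun_prop
  · fin_cases i
    · show DifferentiableAt ℂ (fun u : Cn 3 => u 1 * u 2 * u 0) _
      fun_prop
    · show DifferentiableAt ℂ (fun u : Cn 3 => u 1 * u 2) _
      fun_prop
  · fin_cases i
    · show DifferentiableAt ℂ (fun u : Cn 3 => u 2 * u 0) _
      fun_prop
    · show DifferentiableAt ℂ (fun u : Cn 3 => u 2 * u 1) _
      fun_prop
  · fin_cases i
    · show DifferentiableAt ℂ (fun u : Cn 3 => u 0) _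
      fun_prop
    · show DifferentiableAt ℂ (fun u : Cn 3 => u 1) _
      fun_prop

theorem Up.fc_m (i : Fin 3) (x : Up) : FC Up.fam (fun y => y.m i) x := by
  show ∀ b : Fin 4, _
  intro b hb
  fin_cases b
  · fin_cases i
    · show DifferentiableAt ℂ (fun u : Cn 3 => u 2) _
      fun_prop
    · show DifferentiableAt ℂ (fun u : Cn 3 => u 2 * u 0) _
      fun_prop
    · show DifferentiableAt ℂ (fun u : Cn 3 => u 2 * u 0 ^ 2) _
      fun_prop
  · fin_cases i
    · show DifferentiableAt ℂ (fun u : Cn 3 => u 2 * u 0 ^ 2) _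
      fun_prop
    · show DifferentiableAt ℂ (fun u : Cn 3 => u 2 * u 0) _
      fun_prop
    · show DifferentiableAt ℂ (fun u : Cn 3 => u 2) _
      fun_prop
  · fin_cases i
    · show DifferentiableAt ℂ (fun u : Cn 3 => u 2 * u 0 ^ 2) _
      fun_prop
    · show DifferentiableAt ℂ (fun u : Cn 3 => u 2 * u 0 * u 1) _
      fun_prop
    · show DifferentiableAt ℂ (fun u : Cn 3 => u 2 * u 1 ^ 2) _
      fun_prop
  · fin_cases i
    · show DifferentiableAt ℂ (fun u : Cn 3 => u 2 * u 0 ^ 2) _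
      fun_prop
    · show DifferentiableAt ℂ (fun u : Cn 3 => u 2 * u 0 * u 1) _
      fun_prop
    · show DifferentiableAt ℂ (fun u : Cn 3 => u 2 * u 1 ^ 2) _
      fun_prop

/-! ### points given by holomorphic coordinates -/

section HCmk

variable {n : ℕ} {M : Type} [TopologicalSpace M] {A : Fam n M} {x : M} {f0 f1 f2 : M → ℂ}
  (h0 : FC A f0 x) (h1 : FC A f1 x) (h2 : FC A f2 x)
include h0 h1 h2

theorem Um.hc_mk0 : HC A Um.fam (fun y => Um.mk0 (f0 y) (f1 y) (f2 y)) x :=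
  hc_symm (B := Um.fam) (g := fun y => !₂[f0 y, f1 y, f2 y]) false (fc_v3 h0 h1 h2) (mem_univ _)
theorem Um.hc_mk1 : HC A Um.fam (fun y => Um.mk1 (f0 y) (f1 y) (f2 y)) x :=
  hc_symm (B := Um.fam) (g := fun y => !₂[f0 y, f1 y, f2 y]) true (fc_v3 h0 h1 h2) (mem_univ _)
theorem Up.hc_mk1 : HC A Up.fam (fun y => Up.mk1 (f0 y) (f1 y) (f2 y)) x :=
  hc_symm (B := Up.fam) (g := fun y => !₂[f0 y, f1 y, f2 y]) (0 : Fin 4) (fc_v3 h0 h1 h2)
    (mem_univ _)
theorem Up.hc_mk2 : HC A Up.fam (fun y => Up.mk2 (f0 y) (f1 y) (f2 y)) x :=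
  hc_symm (B := Up.fam) (g := fun y => !₂[f0 y, f1 y, f2 y]) (1 : Fin 4) (fc_v3 h0 h1 h2)
    (mem_univ _)
theorem Up.hc_mk3 : HC A Up.fam (fun y => Up.mk3 (f0 y) (f1 y) (f2 y)) x :=
  hc_symm (B := Up.fam) (g := fun y => !₂[f0 y, f1 y, f2 y]) (2 : Fin 4) (fc_v3 h0 h1 h2)
    (mem_univ _)
theorem Up.hc_mk4 : HC A Up.fam (fun y => Up.mk4 (f0 y) (f1 y) (f2 y)) x :=
  hc_symm (B := Up.fam) (g := fun y => !₂[f0 y, f1 y, f2 y]) (3 : Fin 4) (fc_v3 h0 h1 h2)
    (mem_univ _)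

end HCmk

/-! ### `phi` is biholomorphic -/

theorem hC_phi {x : Um} (h : x.N ≠ 0) : HC Um.fam Up.fam phi x := by
  rcases x.cone.cases h with h0 | h0 | h0 | h0
  · have he : ∀ᶠ y : Um in 𝓝 x, pu y = Up.mk4 (y.z 0) (y.z 1) (y.m 0 / y.z 0 ^ 2) := by
      filter_upwards [(Um.c_zi 0).continuousAt.eventually_ne h0] with y hy using pu1 hy
    refine HC.congr ?_ (he.mono fun y hy => hy.symm)
    exact Up.hc_mk4 (Um.fc_z 0 x) (Um.fc_z 1 x)
      (fc_div (Um.fc_m 0 x) (fc_pow (Um.fc_z 0 x) 2) (pow_ne_zero 2 h0))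
  · have he : ∀ᶠ y : Um in 𝓝 x, pu y = Up.mk4 (y.z 0) (y.z 1) (y.m 2 / y.z 1 ^ 2) := by
      filter_upwards [(Um.c_zi 1).continuousAt.eventually_ne h0] with y hy using pu2 hy
    refine HC.congr ?_ (he.mono fun y hy => hy.symm)
    exact Up.hc_mk4 (Um.fc_z 0 x) (Um.fc_z 1 x)
      (fc_div (Um.fc_m 2 x) (fc_pow (Um.fc_z 1 x) 2) (pow_ne_zero 2 h0))
  · have he : ∀ᶠ y : Um in 𝓝 x, pu y = Up.mk1 (y.m 1 / y.m 0) (y.z 0 / y.m 0) (y.m 0) := by
      filter_upwards [(Um.c_mi 0).continuousAt.eventually_ne h0] with y hy using pu3 hy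
    refine HC.congr ?_ (he.mono fun y hy => hy.symm)
    exact Up.hc_mk1 (fc_div (Um.fc_m 1 x) (Um.fc_m 0 x) h0)
      (fc_div (Um.fc_z 0 x) (Um.fc_m 0 x) h0) (Um.fc_m 0 x)
  · have he : ∀ᶠ y : Um in 𝓝 x, pu y = Up.mk2 (y.m 1 / y.m 2) (y.z 1 / y.m 2) (y.m 2) := by
      filter_upwards [(Um.c_mi 2).continuousAt.eventually_ne h0] with y hy using pu4 hy
    refine HC.congr ?_ (he.mono fun y hy => hy.symm)
    exact Up.hc_mk2 (fc_div (Um.fc_m 1 x) (Um.fc_m 2 x) h0)
      (fc_div (Um.fc_z 1 x) (Um.fc_m 2 x) h0) (Um.fc_m 2 x)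

theorem hC_phi_symm {x : Up} (h : x.N ≠ 0) : HC Up.fam Um.fam phi.symm x := by
  rcases x.cone.cases h with h0 | h0 | h0 | h0
  · have he : ∀ᶠ y : Up in 𝓝 x, pd y = Um.mk0 (y.z 1 / y.z 0) (y.z 0) (y.m 0) := by
      filter_upwards [(Up.c_zi 0).continuousAt.eventually_ne h0] with y hy using pd1 hy
    refine HC.congr ?_ (he.mono fun y hy => hy.symm)
    exact Um.hc_mk0 (fc_div (Up.fc_z 1 x) (Up.fc_z 0 x) h0) (Up.fc_z 0 x) (Up.fc_m 0 x)
  · have he : ∀ᶠ y : Up in 𝓝 x, pd y = Um.mk1 (y.z 0 / y.z 1) (y.z 1) (y.m 2) := by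
      filter_upwards [(Up.c_zi 1).continuousAt.eventually_ne h0] with y hy using pd2 hy
    refine HC.congr ?_ (he.mono fun y hy => hy.symm)
    exact Um.hc_mk1 (fc_div (Up.fc_z 0 x) (Up.fc_z 1 x) h0) (Up.fc_z 1 x) (Up.fc_m 2 x)
  · have he : ∀ᶠ y : Up in 𝓝 x, pd y = Um.mk0 (y.m 1 / y.m 0) (y.z 0) (y.m 0) := by
      filter_upwards [(Up.c_mi 0).continuousAt.eventually_ne h0] with y hy using pd3 hy
    refine HC.congr ?_ (he.mono fun y hy => hy.symm)
    exact Um.hc_mk0 (fc_div (Up.fc_m 1 x) (Up.fc_m 0 x) h0) (Up.fc_z 0 x) (Up.fc_m 0 x)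
  · have he : ∀ᶠ y : Up in 𝓝 x, pd y = Um.mk1 (y.m 1 / y.m 2) (y.z 1) (y.m 2) := by
      filter_upwards [(Up.c_mi 2).continuousAt.eventually_ne h0] with y hy using pd4 hy
    refine HC.congr ?_ (he.mono fun y hy => hy.symm)
    exact Um.hc_mk1 (fc_div (Up.fc_m 1 x) (Up.fc_m 2 x) h0) (Up.fc_z 1 x) (Up.fc_m 2 x)

theorem lC_phi {x : Um} (h : x.N ≠ 0) : LC Um.fam Up.fam phi x := by
  refine LC.of_left_inverse (q := phi.symm) (hC_phi h) (hC_phi_symm ?_) ?_
  · show (pu x).N ≠ 0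
    rw [N_pu h]
    exact h
  · filter_upwards [phi.open_source.mem_nhds h] with y hy
    exact phi.left_inv hy

theorem lC_phi_symm {x : Up} (h : x.N ≠ 0) : LC Up.fam Um.fam phi.symm x := by
  refine LC.of_left_inverse (q := phi) (hC_phi_symm h) (hC_phi ?_) ?_
  · show (pd x).N ≠ 0
    rw [N_pd h]
    exact h
  · filter_upwards [phi.open_target.mem_nhds h] with y hy
    exact phi.right_inv hy

/-! ### small neighbourhoods -/

/-- a compactness lemma -/
theorem exists_eps_of {Y : Type*} [TopologicalSpace Y] {N : Y → ℝ} (hc : Continuous N)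
    (h0 : ∀ y, 0 ≤ N y) (hK : IsCompact {y | N y ≤ 1}) {V : Set Y} (hV : IsOpen V)
    (h : ∀ y, N y = 0 → y ∈ V) : ∃ ε, 0 < ε ∧ ∀ y, N y ≤ ε → y ∈ V := by
  have hK' : IsCompact ({y | N y ≤ 1} ∩ Vᶜ) := hK.inter_right hV.isClosed_compl
  rcases eq_empty_or_nonempty ({y | N y ≤ 1} ∩ Vᶜ) with he | he
  · refine ⟨1, one_pos, fun y hy => ?_⟩
    by_contra hc'
    have : y ∈ ({y | N y ≤ 1} ∩ Vᶜ) := ⟨hy, hc'⟩
    rw [he] at this
    exact this
  · obtain ⟨y0, hy0, hmin⟩ := hK'.exists_isMinOn he hc.continuousOn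
    have hpos : 0 < N y0 := lt_of_le_of_ne (h0 y0) fun h1 => hy0.2 (h y0 h1.symm)
    refine ⟨min 1 (N y0 / 2), lt_min one_pos (by linarith), fun y hy => ?_⟩
    by_contra hc'
    have h1 : N y ≤ 1 := hy.trans (min_le_left _ _)
    have h2 : N y ≤ N y0 / 2 := hy.trans (min_le_right _ _)
    have h3 : N y0 ≤ N y := hmin ⟨h1, hc'⟩
    linarith

theorem Um.exists_eps {V : Set Um} (hV : IsOpen V) (h : ∀ y : Um, y.N = 0 → y ∈ V) :
    ∃ ε, 0 < ε ∧ ∀ y : Um, y.N ≤ ε → y ∈ V :=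
  exists_eps_of Um.c_N Um.N_nonneg (Um.isCompact_le 1) hV h

theorem Up.exists_eps {V : Set Up} (hV : IsOpen V) (h : ∀ y : Up, y.N = 0 → y ∈ V) :
    ∃ ε, 0 < ε ∧ ∀ y : Up, y.N ≤ ε → y ∈ V :=
  exists_eps_of Up.c_N Up.N_nonneg (Up.isCompact_le 1) hV h

/-! ### `N = 0` and `N ≠ 0` in coordinates -/

theorem Um.N_mk0 {T a μ : ℂ} : (Um.mk0 T a μ).N = 0 ↔ a = 0 ∧ μ = 0 := by
  rw [Um.N_eq_zero]
  constructor
  · rintro ⟨h1, h2⟩
    exact ⟨congrFun h1 0, congrFun h2 0⟩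
  · rintro ⟨rfl, rfl⟩
    constructor
    · funext k
      fin_cases k <;> simp [Um.mk0]
    · funext k
      fin_cases k <;> simp [Um.mk0]

theorem Um.N_mk1 {T a μ : ℂ} : (Um.mk1 T a μ).N = 0 ↔ a = 0 ∧ μ = 0 := by
  rw [Um.N_eq_zero]
  constructor
  · rintro ⟨h1, h2⟩
    exact ⟨congrFun h1 1, congrFun h2 2⟩
  · rintro ⟨rfl, rfl⟩
    constructor
    · funext k
      fin_cases k <;> simp [Um.mk1]
    · funext k
      fin_cases k <;> simp [Um.mk1]

theorem Up.N_mk1 {t α μ : ℂ} : (Up.mk1 t α μ).N = 0 ↔ μ = 0 := by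
  rw [Up.N_eq_zero]
  constructor
  · rintro ⟨h1, h2⟩
    exact congrFun h2 0
  · rintro rfl
    constructor
    · funext k
      fin_cases k <;> simp [Up.mk1]
    · funext k
      fin_cases k <;> simp [Up.mk1]

theorem Up.N_mk2 {t α μ : ℂ} : (Up.mk2 t α μ).N = 0 ↔ μ = 0 := by
  rw [Up.N_eq_zero]
  constructor
  · rintro ⟨h1, h2⟩
    exact congrFun h2 2
  · rintro rfl
    constructor
    · funext k
      fin_cases k <;> simp [Up.mk2]
    · funext k
      fin_cases k <;> simp [Up.mk2]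

theorem Up.N_mk3 {g0 g1 r : ℂ} : (Up.mk3 g0 g1 r).N = 0 ↔ r = 0 ∨ (g0 = 0 ∧ g1 = 0) := by
  rw [Up.N_eq_zero]
  constructor
  · rintro ⟨h1, h2⟩
    have a : r * g0 = 0 := congrFun h1 0
    have b : r * g1 = 0 := congrFun h1 1
    rcases mul_eq_zero.1 a with a | a
    · exact Or.inl a
    · rcases mul_eq_zero.1 b with b | b
      · exact Or.inl b
      · exact Or.inr ⟨a, b⟩
  · rintro (rfl | ⟨rfl, rfl⟩)
    · constructor
      · funext k
        fin_cases k <;> simp [Up.mk3]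
      · funext k
        fin_cases k <;> simp [Up.mk3]
    · constructor
      · funext k
        fin_cases k <;> simp [Up.mk3]
      · funext k
        fin_cases k <;> simp [Up.mk3]

theorem Up.N_mk4 {z0 z1 w : ℂ} : (Up.mk4 z0 z1 w).N = 0 ↔ z0 = 0 ∧ z1 = 0 := by
  rw [Up.N_eq_zero]
  constructor
  · rintro ⟨h1, h2⟩
    exact ⟨congrFun h1 0, congrFun h1 1⟩
  · rintro ⟨rfl, rfl⟩
    constructor
    · funext k
      fin_cases k <;> simp [Up.mk4]
    · funext k
      fin_cases k <;> simp [Up.mk4]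

end

end Crest.Agent.R272.Flop_66
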