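import Crest.Agent.R273.Fam_835
import Mathlib.Analysis.Complex.OpenMapping
import Mathlib.Analysis.Complex.RemovableSingularity

/-!
# R272, leaf MOD-REFL (helper246), part 1: local theory

* `sq a`, `rf a` : `w ↦ w` with the coordinate `a` squared / negated;
* `sq_eq_iff`, `isOpenMap_sq`;
* `differentiableAt_of_coord` : continuous and holomorphic off `{w a = 0}` implies holomorphic;
* `exists_quot_chart` : charts of a quotient from maps which separate the orbits.
-/

set_option autoImplicit false
set_option linter.unusedSectionVars false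

open Set Filter Topology
open scoped ContDiff

namespace Crest.Agent.R272.Refl_246

open Crest.Agent.R275.Geo

noncomputable section

variable {n : ℕ}

/-- replace the coordinate `a` by `c` -/
def up (a : Fin n) (c : ℂ) (w : Cn n) : Cn n := w + (c - w a) • EuclideanSpace.single a (1 : ℂ)

@[simp] theorem up_same (a : Fin n) (c : ℂ) (w : Cn n) : up a c w a = c := by
  simp [up]

theorem up_ne {a b : Fin n} (h : b ≠ a) (c : ℂ) (w : Cn n) : up a c w b = w b := by
  simp [up, h]

theorem up_ext {a : Fin n} {w w' : Cn n} (h : ∀ b, b ≠ a → w b = w' b) : up a (w' a) w = w' := by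
  ext b
  rcases eq_or_ne b a with rfl | hb
  · simp
  · rw [up_ne hb, h b hb]

@[simp] theorem up_self (a : Fin n) (w : Cn n) : up a (w a) w = w := up_ext fun _ _ => rfl

@[simp] theorem up_up (a : Fin n) (c d : ℂ) (w : Cn n) : up a c (up a d w) = up a c w := by
  ext b
  rcases eq_or_ne b a with rfl | hb
  · simp
  · simp [up_ne hb]

theorem continuous_up (a : Fin n) : Continuous fun p : ℂ × Cn n => up a p.1 p.2 := by
  unfold up
  fun_prop

theorem differentiable_up (a : Fin n) : Differentiable ℂ fun p : ℂ × Cn n => up a p.1 p.2 := by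
  unfold up
  fun_prop

/-- square the coordinate `a` -/
def sq (a : Fin n) (w : Cn n) : Cn n := up a (w a ^ 2) w

/-- negate the coordinate `a` -/
def rf (a : Fin n) (w : Cn n) : Cn n := up a (-w a) w

@[simp] theorem sq_same (a : Fin n) (w : Cn n) : sq a w a = w a ^ 2 := up_same _ _ _

theorem sq_ne {a b : Fin n} (h : b ≠ a) (w : Cn n) : sq a w b = w b := up_ne h _ _

@[simp] theorem rf_same (a : Fin n) (w : Cn n) : rf a w a = -w a := up_same _ _ _

theorem rf_ne {a b : Fin n} (h : b ≠ a) (w : Cn n) : rf a w b = w b := up_ne h _ _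

@[simp] theorem rf_rf (a : Fin n) (w : Cn n) : rf a (rf a w) = w := by
  ext b
  rcases eq_or_ne b a with rfl | hb
  · simp
  · rw [rf_ne hb, rf_ne hb]

@[simp] theorem sq_rf (a : Fin n) (w : Cn n) : sq a (rf a w) = sq a w := by
  ext b
  rcases eq_or_ne b a with rfl | hb
  · simp
  · rw [sq_ne hb, rf_ne hb, sq_ne hb]

theorem continuous_sq (a : Fin n) : Continuous (sq a) := by
  unfold sq up
  fun_prop

theorem differentiable_sq (a : Fin n) : Differentiable ℂ (sq a) := by
  unfold sq up
  fun_prop

theorem continuous_rf (a : Fin n) : Continuous (rf a) := by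
  unfold rf up
  fun_prop

theorem differentiable_rf (a : Fin n) : Differentiable ℂ (rf a) := by
  unfold rf up
  fun_prop

theorem sq_eq_iff {a : Fin n} {w w' : Cn n} : sq a w = sq a w' ↔ w' = w ∨ w' = rf a w := by
  constructor
  · intro h
    have h1 : ∀ b, b ≠ a → w b = w' b := fun b hb => by
      have := congrArg (fun v : Cn n => v b) h
      simpa [sq_ne hb] using this
    have h2 : w' a ^ 2 = w a ^ 2 := by
      have := congrArg (fun v : Cn n => v a) h
      simpa using this.symm
    rcases sq_eq_sq_iff_eq_or_eq_neg.1 h2 with h3 | h3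
    · left
      rw [← up_ext h1, h3, up_self]
    · right
      rw [← up_ext h1, h3, rf]
  · rintro (rfl | rfl)
    · rfl
    · rw [sq_rf]

/-- the square map is open -/
theorem isOpenMap_sq (a : Fin n) : IsOpenMap (sq a : Cn n → Cn n) := by
  refine IsOpenMap.of_nhds_le fun w => ?_
  intro V hV
  rw [mem_map] at hV
  -- `c ↦ up a c v` near `(w a, w)`
  have h1 : Tendsto (fun p : ℂ × Cn n => up a p.1 p.2) (𝓝 (w a, w)) (𝓝 w) := by
    have := (continuous_up a).tendsto (w a, w)
    rwa [show up a (w a, w).1 (w a, w).2 = w from up_self a w] at this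
  have h2 := h1 hV
  rw [mem_map, nhds_prod_eq, mem_prod_iff] at h2
  obtain ⟨S, hS, T, hT, hST⟩ := h2
  have hop : IsOpenMap (fun z : ℂ => z ^ 2) := (Complex.isOpenQuotientMap_pow 2).isOpenMap
  have h3 : (fun z : ℂ => z ^ 2) '' S ∈ 𝓝 (w a ^ 2) := hop.image_mem_nhds hS
  -- points `z` near `sq a w`
  have h4 : ∀ᶠ z in 𝓝 (sq a w), z a ∈ (fun z : ℂ => z ^ 2) '' S := by
    have hc : Continuous fun z : Cn n => z a := by fun_prop
    have := hc.tendsto (sq a w)
    rw [sq_same] at this
    exact this h3
  have h5 : ∀ᶠ z in 𝓝 (sq a w), up a (w a) z ∈ T := by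
    have hc : Continuous fun z : Cn n => up a (w a) z := by
      unfold up
      fun_prop
    have := hc.tendsto (sq a w)
    rw [show up a (w a) (sq a w) = w by rw [sq, up_up, up_self]] at this
    exact this hT
  filter_upwards [h4, h5] with z hz4 hz5
  obtain ⟨c, hc, hcz⟩ := hz4
  have h6 : (c, up a (w a) z) ∈ S ×ˢ T := ⟨hc, hz5⟩
  have h7 := hST h6
  rw [mem_preimage, mem_preimage] at h7
  simp only [up_up] at h7
  have h8 : sq a (up a c z) = z := by
    rw [sq, up_same, up_up]
    simp only at hcz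
    rw [hcz, up_self]
  rw [h8] at h7
  exact h7

/-! ### removable hyperplane -/

/-- basis of `ℂⁿ` all of whose vectors have `a`-coordinate `1` -/
theorem exists_basis (a : Fin n) : ∃ b : Module.Basis (Fin n) ℂ (Cn n), ∀ i, b i a = 1 := by
  classical
  let v : Fin n → Cn n := fun i =>
    if i = a then EuclideanSpace.single a 1
    else EuclideanSpace.single i 1 + EuclideanSpace.single a 1
  have hli : LinearIndependent ℂ v := by
    rw [Fintype.linearIndependent_iff]
    intro g hg
    have h1 : ∀ i, i ≠ a → g i = 0 := by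
      intro i hi
      have := congrArg (fun w : Cn n => w i) hg
      simp only [PiLp.zero_apply, WithLp.ofLp_sum, WithLp.ofLp_smul, Finset.sum_apply,
        Pi.smul_apply, smul_eq_mul] at this
      rw [Finset.sum_eq_single i] at this
      · simpa [v, hi] using this
      · intro j _ hj
        by_cases hja : j = a
        · simp [v, hja, hi]
        · simp [v, hja, hi, Ne.symm hj]
      · simp
    intro i
    rcases eq_or_ne i a with rfl | hi
    · have := congrArg (fun w : Cn n => w i) hg
      simp only [PiLp.zero_apply, WithLp.ofLp_sum, WithLp.ofLp_smul, Finset.sum_apply,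
        Pi.smul_apply, smul_eq_mul] at this
      rw [Finset.sum_eq_single i] at this
      · simpa [v] using this
      · intro j _ hj
        rw [h1 j hj, zero_mul]
      · simp
    · exact h1 i hi
  have hcard : Fintype.card (Fin n) = Module.finrank ℂ (Cn n) := by simp
  refine ⟨basisOfLinearIndependentOfCardEqFinrank' v hli hcard, fun i => ?_⟩
  rw [coe_basisOfLinearIndependentOfCardEqFinrank']
  by_cases hi : i = a
  · simp [v, hi]
  · simp [v, hi, Ne.symm hi]

variable {F : Type} [NormedAddCommGroup F] [NormedSpace ℂ F] [CompleteSpace F]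

/-- **removable hyperplane**: continuous near `x` and differentiable off `{w a = 0}` -/
theorem differentiableAt_of_coord (a : Fin n) {f : Cn n → F} {x : Cn n}
    (hc : ∀ᶠ z in 𝓝 x, ContinuousAt f z)
    (hd : ∀ᶠ z in 𝓝 x, z a ≠ 0 → DifferentiableAt ℂ f z) : DifferentiableAt ℂ f x := by
  obtain ⟨U, hUs, hUo, hxU⟩ := eventually_nhds_iff.1 (hc.and hd)
  obtain ⟨b, hb⟩ := exists_basis a
  have hcU : ContinuousOn f U := fun z hz => (hUs z hz).1.continuousWithinAt
  refine (Crest.Agent.R266.SCV.analyticOnNhd_of_basis b hUo hcU (fun y hy i => ?_) x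
    hxU).differentiableAt
  have hl : Continuous fun z : ℂ => y + z • b i := by fun_prop
  have hV : IsOpen ((fun z : ℂ => y + z • b i) ⁻¹' U) := hUo.preimage hl
  have h0 : (0 : ℂ) ∈ (fun z : ℂ => y + z • b i) ⁻¹' U := by simpa using hy
  refine (Complex.analyticAt_of_differentiable_on_punctured_nhds_of_continuousAt ?_
    ?_).differentiableAt
  · have hne : ∀ᶠ z in 𝓝[≠] (0 : ℂ), (y + z • b i) a ≠ 0 := by
      by_cases hya : y a = 0
      · filter_upwards [self_mem_nhdsWithin] with z hz
        simpa [hya, hb i] using hz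
      · have hc' : ContinuousAt (fun z : ℂ => (y + z • b i) a) 0 := by fun_prop
        have : ∀ᶠ z in 𝓝 (0 : ℂ), (y + z • b i) a ≠ 0 := by
          refine hc'.eventually_ne ?_
          simpa using hya
        exact this.filter_mono nhdsWithin_le_nhds
    filter_upwards [hne, (hV.mem_nhds h0 : _ ∈ 𝓝 (0 : ℂ)) |> fun h =>
      mem_nhdsWithin_of_mem_nhds h] with z h1 h2
    exact ((hUs _ h2).2 h1).comp z (f := fun z : ℂ => y + z • b i) (by fun_prop)
  · have h3 : ContinuousAt f (y + (0 : ℂ) • b i) := by simpa using (hUs y hy).1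
    exact h3.comp (f := fun z : ℂ => y + z • b i) hl.continuousAt

/-! ### charts of a quotient -/

/-- a chart of the quotient from a map which is open and separates exactly the fibres -/
theorem exists_quot_chart {Y M E : Type*} [TopologicalSpace Y] [TopologicalSpace M]
    [TopologicalSpace E] {π : Y → M} (hπ : IsOpenQuotientMap π) {U : Set Y} (hU : IsOpen U)
    {φ : Y → E} (hφc : ContinuousOn φ U) (hφo : ∀ V, V ⊆ U → IsOpen V → IsOpen (φ '' V))
    (hφ : ∀ u ∈ U, ∀ v ∈ U, φ u = φ v ↔ π u = π v) [Nonempty M] [Nonempty E] :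
    ∃ e : OpenPartialHomeomorph M E, e.source = π '' U ∧ e.target = φ '' U ∧
      ∀ u ∈ U, e (π u) = φ u := by
  classical
  let f : M → E := fun m => if h : m ∈ π '' U then φ h.choose else Classical.arbitrary E
  let g : E → M := fun z => if h : z ∈ φ '' U then π h.choose else Classical.arbitrary M
  have hf : ∀ u ∈ U, f (π u) = φ u := by
    intro u hu
    have h : π u ∈ π '' U := mem_image_of_mem _ hu
    have h1 : f (π u) = φ h.choose := dif_pos h
    rw [h1]
    exact (hφ _ h.choose_spec.1 _ hu).2 h.choose_spec.2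
  have hg : ∀ u ∈ U, g (φ u) = π u := by
    intro u hu
    have h : φ u ∈ φ '' U := mem_image_of_mem _ hu
    have h1 : g (φ u) = π h.choose := dif_pos h
    rw [h1]
    exact (hφ _ h.choose_spec.1 _ hu).1 h.choose_spec.2
  refine ⟨⟨⟨⟨f, g, π '' U, φ '' U, ?_, ?_, ?_, ?_⟩, ?_, ?_⟩, hπ.isOpenMap _ hU,
    hφo _ Subset.rfl hU⟩, rfl, rfl, hf⟩
  · rintro _ ⟨u, hu, rfl⟩
    rw [hf u hu]
    exact mem_image_of_mem _ hu
  · rintro _ ⟨u, hu, rfl⟩
    rw [hg u hu]
    exact mem_image_of_mem _ hu
  · rintro _ ⟨u, hu, rfl⟩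
    rw [hf u hu, hg u hu]
  · rintro _ ⟨u, hu, rfl⟩
    rw [hg u hu, hf u hu]
  · -- continuity of `f`
    change ContinuousOn f (π '' U)
    refine continuousOn_iff'.2 fun t ht => ?_
    obtain ⟨V, hV, hV2⟩ := continuousOn_iff'.1 hφc t ht
    refine ⟨π '' (V ∩ U), hπ.isOpenMap _ (hV.inter hU), ?_⟩
    ext m
    constructor
    · rintro ⟨h1, u, hu, rfl⟩
      refine ⟨⟨u, ?_, rfl⟩, u, hu, rfl⟩
      rw [← hV2]
      refine ⟨?_, hu⟩
      rw [mem_preimage, ← hf u hu]
      exact h1
    · rintro ⟨⟨u, hu, rfl⟩, _⟩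
      refine ⟨?_, u, hu.2, rfl⟩
      rw [mem_preimage, hf u hu.2]
      rw [← hV2] at hu
      exact hu.1
  · -- continuity of `g`
    change ContinuousOn g (φ '' U)
    refine continuousOn_iff'.2 fun t ht => ?_
    refine ⟨φ '' (π ⁻¹' t ∩ U), hφo _ inter_subset_right ((ht.preimage hπ.continuous).inter hU), ?_⟩
    ext z
    constructor
    · rintro ⟨h1, u, hu, rfl⟩
      refine ⟨⟨u, ⟨?_, hu⟩, rfl⟩, u, hu, rfl⟩
      rw [mem_preimage, ← hg u hu]
      exact h1
    · rintro ⟨⟨u, hu, rfl⟩, _⟩
      refine ⟨?_, u, hu.2, rfl⟩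
      rw [mem_preimage, hg u hu.2]
      exact hu.1

end

end Crest.Agent.R272.Refl_246
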