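import Crest.Agent.R272.Flop7_66
import Crest.Agent.R272.Refl1_246

/-!
# R272, FLOP-SURG (helper66), part 8: `{N = 0}` is removable

`Up.hC_of_cont`, `Um.hC_of_cont` : a map which is continuous near `x` and holomorphic near `x` off
`{N = 0}` is holomorphic at `x`; `Up.fC_of_cont`, `Um.fC_of_cont` for functions;
`dense_N` : `{N ≠ 0}` is dense.
-/

set_option autoImplicit false
set_option linter.unusedSectionVars false
set_option linter.style.haveILetI false

open Set Filter Topology Complex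
open scoped ComplexConjugate

namespace Crest.Agent.R272.Flop_66

open Crest.Agent.R275.Geo Crest.Agent.R273.Fam_835 Crest.Agent.R272.HFam_342
open Crest.Agent.R272.Refl_246

noncomputable section

/-- `S` is removable for continuous maps -/
def Rem {n : ℕ} (S : Set (Cn n)) : Prop :=
  ∀ (F : Type) [NormedAddCommGroup F] [NormedSpace ℂ F] [CompleteSpace F] (f : Cn n → F)
    (x : Cn n), (∀ᶠ z in 𝓝 x, ContinuousAt f z) →
    (∀ᶠ z in 𝓝 x, z ∉ S → DifferentiableAt ℂ f z) → DifferentiableAt ℂ f x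

theorem rem_coord {n : ℕ} (a : Fin n) : Rem {z : Cn n | z a = 0} := by
  intro F _ _ _ f x hc hd
  exact differentiableAt_of_coord a hc (hd.mono fun z hz h => hz h)

theorem Rem.mono {n : ℕ} {S T : Set (Cn n)} (h : Rem T) (hs : S ⊆ T) : Rem S := by
  intro F _ _ _ f x hc hd
  exact h F f x hc (hd.mono fun z hz h => hz fun h' => h (hs h'))

theorem Rem.union {n : ℕ} {S T : Set (Cn n)} (hS : Rem S) (hT : Rem T) (hTc : IsClosed T) :
    Rem (S ∪ T) := by
  intro F _ _ _ f x hc hd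
  refine hT F f x hc ?_
  filter_upwards [hc.eventually_nhds, hd.eventually_nhds] with y hy hy2 hyT
  refine hS F f y hy ?_
  filter_upwards [hy2, hTc.isOpen_compl.mem_nhds hyT] with z hz hz2 hz3
  exact hz fun h => h.elim hz3 hz2

/-- transfer to charts -/
theorem hC_of_rem {n m : ℕ} {M P : Type} [TopologicalSpace M] [TopologicalSpace P] {A : Fam n M}
    {D : Fam m P} {K : Set M} {f : M → P} {x : M} (i : A.ι) (hi : x ∈ (A.e i).source)
    (hR : Rem {z | (A.e i).symm z ∈ K}) (hc : ∀ᶠ y in 𝓝 x, ContinuousAt f y)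
    (hd : ∀ᶠ y in 𝓝 x, y ∉ K → HC A D f y) : HC A D f x := by
  obtain ⟨j, hj⟩ := D.cover (f x)
  refine HC.of hc.self_of_nhds i j hi hj ?_
  have h1 : ∀ᶠ y in 𝓝 x, y ∈ (A.e i).source ∧ f y ∈ (D.e j).source :=
    ((A.e i).open_source.eventually_mem hi).and
      (hc.self_of_nhds.eventually ((D.e j).open_source.mem_nhds hj))
  have h2 := eventually_chartC hi (hc.and h1)
  have h3 := eventually_chartC hi (hd.and h1)
  refine hR _ _ _ ?_ ?_
  · filter_upwards [h2] with z hz
    have a1 : ContinuousAt (A.e i).symm z := (A.e i).continuousAt_symm hz.1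
    have a2 : ContinuousAt (fun w => f ((A.e i).symm w)) z :=
      ContinuousAt.comp (g := f) hz.2.1 a1
    exact ContinuousAt.comp (g := D.e j) ((D.e j).continuousAt hz.2.2.2) a2
  · filter_upwards [h3] with z hz hzK
    have a1 := (hz.2.1 hzK).2 i j hz.2.2.1 hz.2.2.2
    rw [(A.e i).right_inv hz.1] at a1
    exact a1

theorem fC_of_rem {n : ℕ} {M : Type} [TopologicalSpace M] {A : Fam n M} {F : Type}
    [NormedAddCommGroup F] [NormedSpace ℂ F] [CompleteSpace F]
    {K : Set M} {f : M → F} {x : M} (i : A.ι) (hi : x ∈ (A.e i).source)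
    (hR : Rem {z | (A.e i).symm z ∈ K}) (hc : ∀ᶠ y in 𝓝 x, ContinuousAt f y)
    (hd : ∀ᶠ y in 𝓝 x, y ∉ K → FC A f y) : FC A f x := by
  refine FC.of i hi ?_
  have h1 : ∀ᶠ y in 𝓝 x, y ∈ (A.e i).source := (A.e i).open_source.eventually_mem hi
  have h2 := eventually_chartC hi (hc.and h1)
  have h3 := eventually_chartC hi (hd.and h1)
  refine hR _ _ _ ?_ ?_
  · filter_upwards [h2] with z hz
    exact ContinuousAt.comp (g := f) hz.2.1 ((A.e i).continuousAt_symm hz.1)
  · filter_upwards [h3] with z hz hzK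
    have a1 := (hz.2.1 hzK) i hz.2.2
    rw [(A.e i).right_inv hz.1] at a1
    exact a1

theorem Um.rem (b : Um.fam.ι) : Rem {z | (Um.fam.e b).symm z ∈ {x : Um | x.N = 0}} := by
  rcases b with _ | _
  · refine (rem_coord (1 : Fin 3)).mono ?_
    intro z hz
    exact (Um.N_mk0.1 hz).1
  · refine (rem_coord (1 : Fin 3)).mono ?_
    intro z hz
    exact (Um.N_mk1.1 hz).1

theorem Up.rem (b : Up.fam.ι) : Rem {z | (Up.fam.e b).symm z ∈ {x : Up | x.N = 0}} := by
  revert b
  show ∀ b : Fin 4, _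
  intro b
  fin_cases b
  · refine (rem_coord (2 : Fin 3)).mono ?_
    intro z hz
    exact Up.N_mk1.1 hz
  · refine (rem_coord (2 : Fin 3)).mono ?_
    intro z hz
    exact Up.N_mk2.1 hz
  · refine Rem.mono ((rem_coord (2 : Fin 3)).union (rem_coord (0 : Fin 3)) ?_) ?_
    · exact isClosed_eq (by fun_prop) continuous_const
    · intro z hz
      rcases Up.N_mk3.1 hz with h | h
      · exact Or.inl h
      · exact Or.inr h.1
  · refine (rem_coord (0 : Fin 3)).mono ?_
    intro z hz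
    exact (Up.N_mk4.1 hz).1

/-- **`{N = 0}` is removable in `Up`** -/
theorem Up.hC_of_cont {m : ℕ} {P : Type} [TopologicalSpace P] {D : Fam m P} {f : Up → P} {x : Up}
    (hc : ∀ᶠ y in 𝓝 x, ContinuousAt f y)
    (hd : ∀ᶠ y : Up in 𝓝 x, y.N ≠ 0 → HC Up.fam D f y) : HC Up.fam D f x := by
  obtain ⟨i, hi⟩ := Up.fam.cover x
  exact hC_of_rem (K := {x : Up | x.N = 0}) i hi (Up.rem i) hc hd

/-- **`{N = 0}` is removable in `Um`** -/
theorem Um.hC_of_cont {m : ℕ} {P : Type} [TopologicalSpace P] {D : Fam m P} {f : Um → P} {x : Um}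
    (hc : ∀ᶠ y in 𝓝 x, ContinuousAt f y)
    (hd : ∀ᶠ y : Um in 𝓝 x, y.N ≠ 0 → HC Um.fam D f y) : HC Um.fam D f x := by
  obtain ⟨i, hi⟩ := Um.fam.cover x
  exact hC_of_rem (K := {x : Um | x.N = 0}) i hi (Um.rem i) hc hd

theorem Up.fC_of_cont {F : Type} [NormedAddCommGroup F] [NormedSpace ℂ F] [CompleteSpace F]
    {f : Up → F} {x : Up} (hc : ∀ᶠ y in 𝓝 x, ContinuousAt f y)
    (hd : ∀ᶠ y : Up in 𝓝 x, y.N ≠ 0 → FC Up.fam f y) : FC Up.fam f x := by
  obtain ⟨i, hi⟩ := Up.fam.cover x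
  exact fC_of_rem (K := {x : Up | x.N = 0}) i hi (Up.rem i) hc hd

theorem Um.fC_of_cont {F : Type} [NormedAddCommGroup F] [NormedSpace ℂ F] [CompleteSpace F]
    {f : Um → F} {x : Um} (hc : ∀ᶠ y in 𝓝 x, ContinuousAt f y)
    (hd : ∀ᶠ y : Um in 𝓝 x, y.N ≠ 0 → FC Um.fam f y) : FC Um.fam f x := by
  obtain ⟨i, hi⟩ := Um.fam.cover x
  exact fC_of_rem (K := {x : Um | x.N = 0}) i hi (Um.rem i) hc hd

/-! ### density -/

theorem ev_ne (a : ℂ) : ∀ᶠ s : ℂ in 𝓝[≠] 0, a + s ≠ 0 := by
  by_cases ha : a = 0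
  · subst ha
    filter_upwards [self_mem_nhdsWithin] with s hs
    simpa using hs
  · refine nhdsWithin_le_nhds ?_
    filter_upwards [isOpen_ne.mem_nhds (show (0 : ℂ) ≠ -a by simpa [eq_comm] using ha)] with s hs h
    exact hs (eq_neg_of_add_eq_zero_right h)

theorem dense_of_chart {n : ℕ} {M : Type} [TopologicalSpace M] (A : Fam n M) {K : Set M}
    (v : Cn n) (h : ∀ i u, u ∈ (A.e i).target → ∀ᶠ s : ℂ in 𝓝[≠] 0,
      (A.e i).symm (u + s • v) ∉ K) : Dense Kᶜ := by
  intro x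
  obtain ⟨i, hi⟩ := A.cover x
  have h0 := (A.e i).map_source hi
  have hc : ContinuousAt (fun s : ℂ => (A.e i).symm (A.e i x + s • v)) 0 := by
    refine ContinuousAt.comp (g := (A.e i).symm) ?_ (by fun_prop)
    simpa using (A.e i).continuousAt_symm h0
  have h1 := hc.tendsto
  simp only [zero_smul, add_zero, (A.e i).left_inv hi] at h1
  exact mem_closure_of_tendsto (h1.mono_left nhdsWithin_le_nhds) (h i _ h0)

theorem Um.dense_N : Dense {x : Um | x.N ≠ 0} := by
  refine dense_of_chart Um.fam (K := {x : Um | x.N = 0}) !₂[1, 1, 1] ?_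
  rintro (_ | _) u -
  · filter_upwards [ev_ne (u 1)] with s hs h
    refine hs ?_
    simpa using (Um.N_mk0.1 h).1
  · filter_upwards [ev_ne (u 1)] with s hs h
    refine hs ?_
    simpa using (Um.N_mk1.1 h).1

theorem Up.dense_N : Dense {x : Up | x.N ≠ 0} := by
  refine dense_of_chart Up.fam (K := {x : Up | x.N = 0}) !₂[1, 1, 1] ?_
  show ∀ i : Fin 4, _
  intro i u _
  fin_cases i
  · filter_upwards [ev_ne (u 2)] with s hs h
    refine hs ?_
    simpa using Up.N_mk1.1 h
  · filter_upwards [ev_ne (u 2)] with s hs h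
    refine hs ?_
    simpa using Up.N_mk2.1 h
  · filter_upwards [ev_ne (u 2), ev_ne (u 0)] with s hs hs2 h
    rcases Up.N_mk3.1 h with h | h
    · refine hs ?_
      simpa using h
    · refine hs2 ?_
      simpa using h.1
  · filter_upwards [ev_ne (u 0)] with s hs h
    refine hs ?_
    simpa using (Up.N_mk4.1 h).1

end

end Crest.Agent.R272.Flop_66
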