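import Crest.Agent.R272.Flop8_66

/-!
# R272, FLOP-SURG (helper66), part 9: the surface `A`, the plane `Pi`, the line `Rl` in `Up`

* `Up.mem_ch1_iff` .. `mem_ch4_iff` : which charts contain a point with `N ≠ 0`;
* `ch1_phi` .. `ch4_phi` : the coordinates of `phi x`;
* `Up.sig z = mk4 z₀ z₁ 0` : the surface `A` near `o`; `phi_of_m` : `phi x = sig x.z` if `m = 0`;
* `Up.A`, `Up.Pi`, `Up.Rl` and their traces in the charts; `{N = 0} = Pi ∪ Rl`.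
-/

set_option autoImplicit false
set_option linter.unusedSectionVars false
set_option linter.style.haveILetI false

open Set Filter Topology Complex
open scoped ComplexConjugate

namespace Crest.Agent.R272.Flop_66

open Crest.Agent.R275.Geo Crest.Agent.R273.Fam_835 Crest.Agent.R272.HFam_342

noncomputable section

/-- cases on the four charts -/
theorem Up.cases {P : Up → Prop} (h1 : ∀ t α μ, P (Up.mk1 t α μ)) (h2 : ∀ t α μ, P (Up.mk2 t α μ))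
    (h3 : ∀ g0 g1 r, P (Up.mk3 g0 g1 r)) (h4 : ∀ z0 z1 w, P (Up.mk4 z0 z1 w)) (x : Up) : P x := by
  obtain ⟨i, hi⟩ := Up.cover x
  fin_cases i
  · rw [← Up.eq_mk1 hi]
    exact h1 _ _ _
  · rw [← Up.eq_mk2 hi]
    exact h2 _ _ _
  · rw [← Up.eq_mk3 hi.1 hi.2]
    exact h3 _ _ _
  · rw [← Up.eq_mk4 hi]
    exact h4 _ _ _

theorem Um.cases {P : Um → Prop} (h0 : ∀ T a μ, P (Um.mk0 T a μ)) (h1 : ∀ T a μ, P (Um.mk1 T a μ))
    (x : Um) : P x := by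
  rcases Um.cover x with h | h
  · rw [← Um.eq_mk0 h]
    exact h0 _ _ _
  · rw [← Um.eq_mk1 h]
    exact h1 _ _ _

/-! ### coordinates of the four parametrisations -/

section co

variable (a b c : ℂ)

@[simp] theorem Up.mk1_z0 : (Up.mk1 a b c).z 0 = b * c := rfl
@[simp] theorem Up.mk1_z1 : (Up.mk1 a b c).z 1 = b * c * a := rfl
@[simp] theorem Up.mk1_m0 : (Up.mk1 a b c).m 0 = c := rfl
@[simp] theorem Up.mk1_m1 : (Up.mk1 a b c).m 1 = c * a := rfl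
@[simp] theorem Up.mk1_m2 : (Up.mk1 a b c).m 2 = c * a ^ 2 := rfl
@[simp] theorem Up.mk2_z0 : (Up.mk2 a b c).z 0 = b * c * a := rfl
@[simp] theorem Up.mk2_z1 : (Up.mk2 a b c).z 1 = b * c := rfl
@[simp] theorem Up.mk2_m0 : (Up.mk2 a b c).m 0 = c * a ^ 2 := rfl
@[simp] theorem Up.mk2_m1 : (Up.mk2 a b c).m 1 = c * a := rfl
@[simp] theorem Up.mk2_m2 : (Up.mk2 a b c).m 2 = c := rfl
@[simp] theorem Up.mk3_z0 : (Up.mk3 a b c).z 0 = c * a := rfl
@[simp] theorem Up.mk3_z1 : (Up.mk3 a b c).z 1 = c * b := rfl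
@[simp] theorem Up.mk3_m0 : (Up.mk3 a b c).m 0 = c * a ^ 2 := rfl
@[simp] theorem Up.mk3_m1 : (Up.mk3 a b c).m 1 = c * a * b := rfl
@[simp] theorem Up.mk3_m2 : (Up.mk3 a b c).m 2 = c * b ^ 2 := rfl
@[simp] theorem Up.mk4_z0 : (Up.mk4 a b c).z 0 = a := rfl
@[simp] theorem Up.mk4_z1 : (Up.mk4 a b c).z 1 = b := rfl
@[simp] theorem Up.mk4_m0 : (Up.mk4 a b c).m 0 = c * a ^ 2 := rfl
@[simp] theorem Up.mk4_m1 : (Up.mk4 a b c).m 1 = c * a * b := rfl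
@[simp] theorem Up.mk4_m2 : (Up.mk4 a b c).m 2 = c * b ^ 2 := rfl
@[simp] theorem Um.mk0_z0 : (Um.mk0 a b c).z 0 = b := rfl
@[simp] theorem Um.mk0_z1 : (Um.mk0 a b c).z 1 = b * a := rfl
@[simp] theorem Um.mk0_m0 : (Um.mk0 a b c).m 0 = c := rfl
@[simp] theorem Um.mk0_m1 : (Um.mk0 a b c).m 1 = c * a := rfl
@[simp] theorem Um.mk0_m2 : (Um.mk0 a b c).m 2 = c * a ^ 2 := rfl
@[simp] theorem Um.mk1_z0 : (Um.mk1 a b c).z 0 = b * a := rfl
@[simp] theorem Um.mk1_z1 : (Um.mk1 a b c).z 1 = b := rfl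
@[simp] theorem Um.mk1_m0 : (Um.mk1 a b c).m 0 = c * a ^ 2 := rfl
@[simp] theorem Um.mk1_m1 : (Um.mk1 a b c).m 1 = c * a := rfl
@[simp] theorem Um.mk1_m2 : (Um.mk1 a b c).m 2 = c := rfl

theorem Up.mk1_mem1 : Up.mk1 a b c ∈ Up.ch1.source := Up.ch1.map_target (x := !₂[a, b, c])
  (mem_univ _)
theorem Up.mk2_mem2 : Up.mk2 a b c ∈ Up.ch2.source := Up.ch2.map_target (x := !₂[a, b, c])
  (mem_univ _)
theorem Up.mk3_mem3 : Up.mk3 a b c ∈ Up.ch3.source := Up.ch3.map_target (x := !₂[a, b, c])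
  (mem_univ _)
theorem Up.mk4_mem4' : Up.mk4 a b c ∈ Up.ch4.source := Up.ch4.map_target (x := !₂[a, b, c])
  (mem_univ _)
theorem Um.mk0_mem0 : Um.mk0 a b c ∈ Um.ch0.source := Um.ch0.map_target (x := !₂[a, b, c])
  (mem_univ _)
theorem Um.mk1_mem1 : Um.mk1 a b c ∈ Um.ch1.source := Um.ch1.map_target (x := !₂[a, b, c])
  (mem_univ _)

theorem Up.ch1_mk1 : Up.ch1 (Up.mk1 a b c) = !₂[a, b, c] :=
  Up.ch1.right_inv (x := !₂[a, b, c]) (mem_univ _)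
theorem Up.ch2_mk2 : Up.ch2 (Up.mk2 a b c) = !₂[a, b, c] :=
  Up.ch2.right_inv (x := !₂[a, b, c]) (mem_univ _)
theorem Up.ch3_mk3 : Up.ch3 (Up.mk3 a b c) = !₂[a, b, c] :=
  Up.ch3.right_inv (x := !₂[a, b, c]) (mem_univ _)
theorem Up.ch4_mk4 : Up.ch4 (Up.mk4 a b c) = !₂[a, b, c] :=
  Up.ch4.right_inv (x := !₂[a, b, c]) (mem_univ _)

end co

/-! ### which charts contain a point with `N ≠ 0` -/

theorem Up.mem_ch1_iff {x : Up} (h : x.N ≠ 0) : x ∈ Up.ch1.source ↔ x.m 0 ≠ 0 := by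
  revert h
  refine Up.cases (P := fun x => x.N ≠ 0 → (x ∈ Up.ch1.source ↔ x.m 0 ≠ 0)) ?_ ?_ ?_ ?_ x
  · intro t α μ h
    rw [ne_eq, Up.N_mk1] at h
    simpa [Up.mk1_mem1] using h
  · intro t α μ h
    rw [ne_eq, Up.N_mk2] at h
    rw [Up.mk2_mem1]
    simp [h]
  · intro t α μ h
    rw [ne_eq, Up.N_mk3] at h
    push Not at h
    rw [Up.mk3_mem1]
    simp [h.1]
  · intro t α μ h
    rw [ne_eq, Up.N_mk4] at h
    rw [Up.mk4_mem1]
    simp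

theorem Up.mem_ch2_iff {x : Up} (h : x.N ≠ 0) : x ∈ Up.ch2.source ↔ x.m 2 ≠ 0 := by
  revert h
  refine Up.cases (P := fun x => x.N ≠ 0 → (x ∈ Up.ch2.source ↔ x.m 2 ≠ 0)) ?_ ?_ ?_ ?_ x
  · intro t α μ h
    rw [ne_eq, Up.N_mk1] at h
    rw [Up.mk1_mem2]
    simp [h]
  · intro t α μ h
    rw [ne_eq, Up.N_mk2] at h
    simpa [Up.mk2_mem2] using h
  · intro t α μ h
    rw [ne_eq, Up.N_mk3] at h
    push Not at h
    rw [Up.mk3_mem2]
    simp [h.1]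
  · intro t α μ h
    rw [ne_eq, Up.N_mk4] at h
    rw [Up.mk4_mem2]
    simp

theorem Up.mem_ch4_iff {x : Up} (h : x.N ≠ 0) :
    x ∈ Up.ch4.source ↔ x.z 0 ≠ 0 ∨ x.z 1 ≠ 0 := by
  revert h
  refine Up.cases (P := fun x => x.N ≠ 0 → (x ∈ Up.ch4.source ↔ x.z 0 ≠ 0 ∨ x.z 1 ≠ 0))
    ?_ ?_ ?_ ?_ x
  · intro t α μ h
    rw [ne_eq, Up.N_mk1] at h
    rw [Up.mk1_mem4]
    simp [h]
    tauto
  · intro t α μ h
    rw [ne_eq, Up.N_mk2] at h
    rw [Up.mk2_mem4]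
    simp [h]
    tauto
  · intro t α μ h
    rw [ne_eq, Up.N_mk3] at h
    push Not at h
    rw [Up.mk3_mem4]
    simp only [Up.mk3_z0, Up.mk3_z1]
    constructor
    · intro hr
      by_cases ht : t = 0
      · exact Or.inr (mul_ne_zero hr (h.2 ht))
      · exact Or.inl (mul_ne_zero hr ht)
    · rintro (h1 | h1)
      · exact left_ne_zero_of_mul h1
      · exact left_ne_zero_of_mul h1
  · intro t α μ h
    rw [ne_eq, Up.N_mk4] at h
    simp only [Up.mk4_mem4', true_iff, Up.mk4_z0, Up.mk4_z1]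
    tauto

theorem Up.mem_ch3_iff {x : Up} (h : x.N ≠ 0) :
    x ∈ Up.ch3.source ↔ (x.z 0 ≠ 0 ∨ x.z 1 ≠ 0) ∧ (x.m 0 ≠ 0 ∨ x.m 2 ≠ 0) := by
  revert h
  refine Up.cases (P := fun x => x.N ≠ 0 → (x ∈ Up.ch3.source ↔
    (x.z 0 ≠ 0 ∨ x.z 1 ≠ 0) ∧ (x.m 0 ≠ 0 ∨ x.m 2 ≠ 0))) ?_ ?_ ?_ ?_ x
  · intro t α μ h
    rw [ne_eq, Up.N_mk1] at h
    rw [Up.mk1_mem3]
    simp [h]
    tauto
  · intro t α μ h
    rw [ne_eq, Up.N_mk2] at h
    rw [Up.mk2_mem3]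
    simp [h]
    tauto
  · intro t α μ h
    rw [ne_eq, Up.N_mk3] at h
    push Not at h
    simp only [Up.mk3_mem3, true_iff, Up.mk3_z0, Up.mk3_z1, Up.mk3_m0, Up.mk3_m2]
    by_cases ht : t = 0
    · have h2 := h.2 ht
      exact ⟨Or.inr (mul_ne_zero h.1 h2), Or.inr (mul_ne_zero h.1 (pow_ne_zero 2 h2))⟩
    · exact ⟨Or.inl (mul_ne_zero h.1 ht), Or.inl (mul_ne_zero h.1 (pow_ne_zero 2 ht))⟩
  · intro t α μ h
    rw [ne_eq, Up.N_mk4] at h
    rw [Up.mk4_mem3]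
    simp only [Up.mk4_z0, Up.mk4_z1, Up.mk4_m0, Up.mk4_m2]
    constructor
    · intro hμ
      by_cases ht : t = 0
      · have h2 : α ≠ 0 := fun h2 => h ⟨ht, h2⟩
        exact ⟨Or.inr h2, Or.inr (mul_ne_zero hμ (pow_ne_zero 2 h2))⟩
      · exact ⟨Or.inl ht, Or.inl (mul_ne_zero hμ (pow_ne_zero 2 ht))⟩
    · rintro ⟨-, h1 | h1⟩
      · exact left_ne_zero_of_mul h1
      · exact left_ne_zero_of_mul h1

/-! ### the coordinates of `phi x` -/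

theorem ch1_phi {x : Um} (h : x.m 0 ≠ 0) :
    Up.ch1 (phi x) = !₂[x.m 1 / x.m 0, x.z 0 / x.m 0, x.m 0] := by
  rw [phi_apply, pu3 h]
  exact Up.ch1_mk1 _ _ _

theorem ch2_phi {x : Um} (h : x.m 2 ≠ 0) :
    Up.ch2 (phi x) = !₂[x.m 1 / x.m 2, x.z 1 / x.m 2, x.m 2] := by
  rw [phi_apply, pu4 h]
  exact Up.ch2_mk2 _ _ _

theorem ch4_phi {x : Um} (h : x.z 0 ≠ 0) :
    Up.ch4 (phi x) = !₂[x.z 0, x.z 1, x.m 0 / x.z 0 ^ 2] := by
  rw [phi_apply, pu1 h]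
  exact Up.ch4_mk4 _ _ _

theorem ch4_phi' {x : Um} (h : x.z 1 ≠ 0) :
    Up.ch4 (phi x) = !₂[x.z 0, x.z 1, x.m 2 / x.z 1 ^ 2] := by
  rw [phi_apply, pu2 h]
  exact Up.ch4_mk4 _ _ _

/-! ### the surface `A` near `o` -/

/-- the embedding `z ↦ (z, 0)` of the surface in the chart `W4` -/
def Up.sig (z : Fin 2 → ℂ) : Up := Up.mk4 (z 0) (z 1) 0

@[simp] theorem Up.sig_z (z : Fin 2 → ℂ) : (Up.sig z).z = z := by
  funext k
  fin_cases k <;> rfl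

@[simp] theorem Up.sig_m (z : Fin 2 → ℂ) : (Up.sig z).m = 0 := by
  funext k
  fin_cases k <;> simp [Up.sig, Up.mk4]

theorem Up.N_sig (z : Fin 2 → ℂ) : (Up.sig z).N = nsq z := by
  rw [Up.N, Up.sig_z, Up.sig_m, nsq_eq_zero.2 rfl, add_zero]

theorem Up.sig_inj : Function.Injective Up.sig := fun z w h => by
  rw [← Up.sig_z z, ← Up.sig_z w, h]

theorem Up.c_sig : Continuous Up.sig := by
  rw [continuous_iff_continuousAt]
  intro z
  exact contAt_mk Up.c_mk4 (continuous_apply 0).continuousAt (continuous_apply 1).continuousAt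
    continuousAt_const

/-- the point `o` -/
def Up.o : Up := Up.mk4 0 0 0

theorem Up.sig_zero : Up.sig 0 = Up.o := rfl

theorem Up.hc_sig {n : ℕ} {M : Type} [TopologicalSpace M] {A : Fam n M} {x : M}
    {f : M → Fin 2 → ℂ} (h : ∀ i, FC A (fun y => f y i) x) :
    HC A Up.fam (fun y => Up.sig (f y)) x :=
  Up.hc_mk4 (h 0) (h 1) (fc_const 0)

/-- on the zero section `phi` is `sig ∘ z` -/
theorem phi_of_m {x : Um} (h : x.N ≠ 0) (hm : x.m = 0) : phi x = Up.sig x.z :=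
  pu_eq h (Up.sig_z _) ((Up.sig_m _).trans hm.symm)

theorem phi_mk0 {T a : ℂ} (h : a ≠ 0) : phi (Um.mk0 T a 0) = Up.sig ![a, a * T] := by
  refine phi_of_m ?_ ?_
  · rw [ne_eq, Um.N_mk0]
    tauto
  · funext k
    fin_cases k <;> simp [Um.mk0]

theorem phi_mk1 {T a : ℂ} (h : a ≠ 0) : phi (Um.mk1 T a 0) = Up.sig ![a * T, a] := by
  refine phi_of_m ?_ ?_
  · rw [ne_eq, Um.N_mk1]
    tauto
  · funext k
    fin_cases k <;> simp [Um.mk1]

/-! ### the divisors -/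

/-- the surface -/
def Up.A : Set Up := {x | x.R.en 1 1 = 0}

/-- the plane -/
def Up.Pi : Set Up := {x | x.N = 0 ∧ x.R.en 0 0 = 0}

/-- the line -/
def Up.Rl : Set Up := {x | x.N = 0 ∧ x.X.en 0 0 = 0 ∧ x.X.en 1 1 = 0}

theorem Up.isClosed_A : IsClosed Up.A :=
  isClosed_eq ((PP.continuous_en 1 1).comp Up.c_R) continuous_const

theorem Up.isClosed_Pi : IsClosed Up.Pi :=
  (isClosed_eq Up.c_N continuous_const).inter
    (isClosed_eq ((PP.continuous_en 0 0).comp Up.c_R) continuous_const)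

theorem Up.isClosed_Rl : IsClosed Up.Rl :=
  (isClosed_eq Up.c_N continuous_const).inter
    ((isClosed_eq ((PP.continuous_en 0 0).comp Up.c_X) continuous_const).inter
    (isClosed_eq ((PP.continuous_en 1 1).comp Up.c_X) continuous_const))

section mem

variable {a b c : ℂ}

theorem Up.mk1_mem_A : Up.mk1 a b c ∉ Up.A := fun h =>
  (PP.en_self_ne (v2_ne (Or.inr one_ne_zero)) 1).2 (by simp) h

theorem Up.mk2_mem_A : Up.mk2 a b c ∉ Up.A := fun h =>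
  (PP.en_self_ne (v2_ne (Or.inr one_ne_zero)) 1).2 (by simp) h

theorem Up.mk3_mem_A : Up.mk3 a b c ∉ Up.A := fun h =>
  (PP.en_self_ne (v2_ne (Or.inr one_ne_zero)) 1).2 (by simp) h

theorem Up.mk4_mem_A : Up.mk4 a b c ∈ Up.A ↔ c = 0 := by
  show (Up.mk4 a b c).R.en 1 1 = 0 ↔ c = 0
  rw [← not_iff_not]
  simp only [Up.mk4]
  rw [← ne_eq, PP.en_self_ne]
  simp

theorem Up.mk1_mem_Pi : Up.mk1 a b c ∈ Up.Pi ↔ c = 0 := by
  constructor
  · rintro ⟨h, -⟩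
    exact Up.N_mk1.1 h
  · intro h
    refine ⟨Up.N_mk1.2 h, ?_⟩
    by_contra h2
    simp only [Up.mk1] at h2
    rw [← ne_eq, PP.en_self_ne] at h2
    exact h2 (by simp [h])

theorem Up.mk2_mem_Pi : Up.mk2 a b c ∈ Up.Pi ↔ c = 0 := by
  constructor
  · rintro ⟨h, -⟩
    exact Up.N_mk2.1 h
  · intro h
    refine ⟨Up.N_mk2.2 h, ?_⟩
    by_contra h2
    simp only [Up.mk2] at h2
    rw [← ne_eq, PP.en_self_ne] at h2
    exact h2 (by simp [h])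

theorem Up.mk3_mem_Pi : Up.mk3 a b c ∈ Up.Pi ↔ c = 0 := by
  constructor
  · rintro ⟨h, h2⟩
    by_contra h3
    have h4 : (Up.mk3 a b c).R.en 0 0 ≠ 0 := by
      simp only [Up.mk3]
      rw [PP.en_self_ne]
      simpa using h3
    exact h4 h2
  · intro h
    refine ⟨Up.N_mk3.2 (Or.inl h), ?_⟩
    by_contra h2
    simp only [Up.mk3] at h2
    rw [← ne_eq, PP.en_self_ne] at h2
    exact h2 (by simp [h])

theorem Up.mk4_mem_Pi : Up.mk4 a b c ∉ Up.Pi := fun h =>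
  (PP.en_self_ne (v2_ne (Or.inl one_ne_zero)) 0).2 (by simp) h.2

theorem Up.mk1_mem_Rl : Up.mk1 a b c ∉ Up.Rl := fun h =>
  (PP.en_self_ne (v3_ne (Or.inl one_ne_zero)) 0).2 (by simp) h.2.1

theorem Up.mk2_mem_Rl : Up.mk2 a b c ∉ Up.Rl := fun h =>
  (PP.en_self_ne (v3_ne (Or.inr (Or.inl one_ne_zero))) 1).2 (by simp) h.2.2

theorem Up.mk3_mem_Rl : Up.mk3 a b c ∈ Up.Rl ↔ a = 0 ∧ b = 0 := by
  have e0 : (Up.mk3 a b c).X.en 0 0 ≠ 0 ↔ a ≠ 0 := by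
    simp only [Up.mk3]
    rw [PP.en_self_ne]
    simp
  have e1 : (Up.mk3 a b c).X.en 1 1 ≠ 0 ↔ b ≠ 0 := by
    simp only [Up.mk3]
    rw [PP.en_self_ne]
    simp
  rw [not_iff_not] at e0 e1
  show (_ ∧ _ ∧ _) ↔ _
  rw [e0, e1]
  constructor
  · rintro ⟨-, h⟩
    exact h
  · intro h
    exact ⟨Up.N_mk3.2 (Or.inr h), h⟩

theorem Up.mk4_mem_Rl : Up.mk4 a b c ∈ Up.Rl ↔ a = 0 ∧ b = 0 := by
  constructor
  · rintro ⟨h, -⟩
    exact Up.N_mk4.1 h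
  · rintro ⟨rfl, rfl⟩
    refine ⟨Up.N_mk4.2 ⟨rfl, rfl⟩, ?_, ?_⟩
    · by_contra h2
      simp only [Up.mk4] at h2
      rw [← ne_eq, PP.en_self_ne] at h2
      exact h2 (by simp)
    · by_contra h2
      simp only [Up.mk4] at h2
      rw [← ne_eq, PP.en_self_ne] at h2
      exact h2 (by simp)

end mem

/-- the central fibre of `N` is the plane and the line -/
theorem Up.N_zero_iff {x : Up} : x.N = 0 ↔ x ∈ Up.Pi ∪ Up.Rl := by
  constructor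
  · refine Up.cases (P := fun x => x.N = 0 → x ∈ Up.Pi ∪ Up.Rl) ?_ ?_ ?_ ?_ x
    · intro t α μ h
      exact Or.inl (Up.mk1_mem_Pi.2 (Up.N_mk1.1 h))
    · intro t α μ h
      exact Or.inl (Up.mk2_mem_Pi.2 (Up.N_mk2.1 h))
    · intro t α μ h
      rcases Up.N_mk3.1 h with h | h
      · exact Or.inl (Up.mk3_mem_Pi.2 h)
      · exact Or.inr (Up.mk3_mem_Rl.2 h)
    · intro t α μ h
      exact Or.inr (Up.mk4_mem_Rl.2 (Up.N_mk4.1 h))
  · rintro (h | h)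
    · exact h.1
    · exact h.1

/-- the surface is the image of `sig` -/
theorem Up.range_sig : range Up.sig = Up.A := by
  ext x
  constructor
  · rintro ⟨z, rfl⟩
    exact Up.mk4_mem_A.2 rfl
  · refine Up.cases (P := fun x => x ∈ Up.A → x ∈ range Up.sig) ?_ ?_ ?_ ?_ x
    · intro t α μ h
      exact absurd h Up.mk1_mem_A
    · intro t α μ h
      exact absurd h Up.mk2_mem_A
    · intro t α μ h
      exact absurd h Up.mk3_mem_A
    · intro t α μ h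
      refine ⟨![t, α], ?_⟩
      rw [Up.mk4_mem_A.1 h]
      rfl

/-- off `{N = 0}` the surface is `{m = 0}` -/
theorem Up.mem_A_iff {x : Up} (h : x.N ≠ 0) : x ∈ Up.A ↔ x.m = 0 := by
  constructor
  · intro hx
    rw [← Up.range_sig] at hx
    obtain ⟨z, rfl⟩ := hx
    exact Up.sig_m z
  · intro hm
    rw [← Up.range_sig]
    refine ⟨x.z, ?_⟩
    refine Up.eq_of (Up.sig_z _) ((Up.sig_m _).trans hm.symm) ?_
    rw [Up.N_sig]
    have : x.N = nsq x.z := by rw [Up.N, hm, nsq_eq_zero.2 rfl, add_zero]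
    rwa [← this]

theorem Up.A_inter_N {x : Up} (h : x ∈ Up.A) (hN : x.N = 0) : x = Up.o := by
  rw [← Up.range_sig] at h
  obtain ⟨z, rfl⟩ := h
  rw [Up.N_sig, nsq_eq_zero] at hN
  rw [hN, Up.sig_zero]

/-- the surface is closed embedded -/
theorem Up.isClosedEmbedding_sig : IsClosedEmbedding Up.sig := by
  refine IsClosedEmbedding.of_continuous_injective_isClosedMap Up.c_sig Up.sig_inj ?_
  intro S hS
  have : Up.sig '' S = Up.A ∩ (fun x : Up => x.z) ⁻¹' S := by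
    ext x
    constructor
    · rintro ⟨z, hz, rfl⟩
      refine ⟨by rw [← Up.range_sig]; exact ⟨z, rfl⟩, ?_⟩
      rw [mem_preimage, Up.sig_z]
      exact hz
    · rintro ⟨hx, hz⟩
      rw [← Up.range_sig] at hx
      obtain ⟨z, rfl⟩ := hx
      rw [mem_preimage, Up.sig_z] at hz
      exact ⟨z, hz, rfl⟩
  rw [this]
  exact Up.isClosed_A.inter (hS.preimage Up.c_z)

end

end Crest.Agent.R272.Flop_66
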