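import Crest.Agent.R272.G14a_414

/-!
# R272, S14-ASM (helper414), part 2: two coverings `E → X̂ → X`

`loops_infinite2` : the lower bound of S0414 with a tower of two coverings;
`of_theta` : the end of S0414 from `ProjD`, the nodal curve and the circle valued function.
-/

set_option autoImplicit false
set_option linter.unusedSectionVars false

open Set Filter Topology
open scoped unitInterval
open Crest.AlgGeometry

namespace Crest.Agent.R272.G14a_414

open Crest.Agent.R275.Geo Crest.Agent.R275.Core144 Crest.Agent.R275.GC293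
open Crest.Agent.R273.Defs_333
open CpTop_338 CpChow_338 CpMan_338 CpPi_338 CpRat423

noncomputable section

universe u v w

/-- two coverings `E → X̂ → X`, `θ : E → ℝ/ℤ`, a loop over `Z` of non-zero degree -/
theorem loops_infinite2 {X : Type u} [TopologicalSpace X] {Z : Set X} {Xh : Type v}
    [TopologicalSpace Xh] {E : Type w} [TopologicalSpace E] {p : E → Xh} {q : Xh → X}
    (hp : IsCoveringMap p) (hq : IsCoveringMap q) (θ : C(E, AddCircle (1 : ℝ))) {e : E}
    (γ : Path e e) (hZ : ∀ t, q (p (γ t)) ∈ Z) (ℓ : C(I, ℝ))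
    (hℓ : ∀ t, (ℓ t : AddCircle (1 : ℝ)) = θ (γ t)) (hne : ℓ 1 ≠ ℓ 0) :
    (loopsIn Z (q (p e))).Infinite := by
  have hx : q (p e) ∈ Z := by have := hZ 0; rwa [γ.source] at this
  exact infinite_of_not_isOfFinOrder hx
    (g := CovOrd_463.cls ((γ.map hp.continuous).map hq.continuous))
    ⟨(γ.map hp.continuous).map hq.continuous, hZ, rfl⟩
    (CovOrd_463.not_isOfFinOrder_map hq _ (CovOrd_463.not_isOfFinOrder_of_cover hp θ γ ℓ hℓ hne))

/-- **S0414 from: a projective surface, a nodal curve of rational curves, two coverings and a circle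
valued function with a loop of non-zero degree over the curve** -/
theorem of_theta {X : Type} [TopologicalSpace X] [T2Space X] [CompactSpace X] [ConnectedSpace X]
    {A : Atl 2 X} [Finite A.ι] (PA : Part A) (P : ProjD A) {k : ℕ} (γ : Fin k → P1C A)
    (ht : ∀ i j, i ≠ j → Trans (γ i) (γ j))
    (h3 : ∀ i j l, i ≠ j → j ≠ l → i ≠ l → (γ i).img ∩ (γ j).img ∩ (γ l).img = ∅)
    (hc : IsConnected (⋃ i, (γ i).img))
    {Xh : Type v} [TopologicalSpace Xh] {E : Type w} [TopologicalSpace E] {p : E → Xh}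
    {q : Xh → X} (hp : IsCoveringMap p) (hq : IsCoveringMap q) (θ : C(E, AddCircle (1 : ℝ)))
    {e : E} (c : Path e e) (hZ : ∀ t, q (p (c t)) ∈ ⋃ i, (γ i).img) (ℓ : C(I, ℝ))
    (hℓ : ∀ t, (ℓ t : AddCircle (1 : ℝ)) = θ (c t)) (hne : ℓ 1 ≠ ℓ 0) : S14 := by
  have hx : q (p e) ∈ ⋃ i, (γ i).img := by have := hZ 0; rwa [c.source] at this
  exact of_projD PA P γ ht h3 hc hx (loops_infinite2 hp hq θ c hZ ℓ hℓ hne)

end

end Crest.Agent.R272.G14a_414
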