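import Crest.Agent.R272.In2_68

/-!
Row 272, division E, arithmetic instance (helper92): the congruence subgroup `GC O z μ` is normal
of finite index in `GU O z`.
-/

set_option autoImplicit false

open scoped ComplexConjugate

namespace Crest.Agent.R272.GCfin_92

open Crest.Agent.R272.In_68 Matrix

noncomputable section

variable {O : Subring (Fin 2 → ℂ)} {z : Fin 2 → ℂ}

/-- every vector of `ℂ²` is close to an integral element -/
theorem exists_approx (h : Z5r O z) : ∃ C : ℝ, 0 ≤ C ∧ ∀ y : Fin 2 → ℂ, ∃ u ∈ O, ∀ t,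
    ‖y t - u t‖ ≤ C := by
  refine ⟨∑ k : Fin 4, ‖z ^ (k : ℕ)‖, Finset.sum_nonneg fun _ _ => norm_nonneg _, fun y => ?_⟩
  set a := (lamE h).symm y with ha
  have hy : y = lam z a := by
    rw [← lamE_apply h, ha, LinearEquiv.apply_symm_apply]
  have hin : ∀ b : Fin 4 → ℤ, lam z (fun i => (b i : ℝ)) ∈ O := by
    intro b
    have : lam z (fun i => (b i : ℝ)) =
        (b 0 : Fin 2 → ℂ) + b 1 * z + b 2 * z ^ 2 + b 3 * z ^ 3 := by
      funext t
      rw [lam_apply]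
      simp
    rw [this]
    exact O.add_mem (O.add_mem (O.add_mem (intCast_mem O _)
      (O.mul_mem (intCast_mem O _) h.zmem)) (O.mul_mem (intCast_mem O _) (pow_mem h 2)))
      (O.mul_mem (intCast_mem O _) (pow_mem h 3))
  refine ⟨lam z (fun i => ((round (a i) : ℤ) : ℝ)), hin _, fun t => ?_⟩
  have e : y t - lam z (fun i => ((round (a i) : ℤ) : ℝ)) t =
      ∑ k : Fin 4, ((a k - round (a k) : ℝ) : ℂ) * (z ^ (k : ℕ)) t := by
    rw [hy, lam_apply, lam_apply, Fin.sum_univ_four]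
    simp
    ring
  rw [e]
  refine (norm_sum_le _ _).trans (Finset.sum_le_sum fun k _ => ?_)
  rw [norm_mul, Complex.norm_real]
  have h1 : ‖a k - round (a k)‖ ≤ 1 := by
    rw [Real.norm_eq_abs]
    exact (abs_sub_round (a k)).trans (by norm_num)
  calc ‖a k - round (a k)‖ * ‖(z ^ (k : ℕ)) t‖ ≤ 1 * ‖(z ^ (k : ℕ)) t‖ :=
        mul_le_mul_of_nonneg_right h1 (norm_nonneg _)
    _ ≤ ‖z ^ (k : ℕ)‖ := by rw [one_mul]; exact norm_le_pi_norm _ t

/-- finitely many representatives modulo `μ O` -/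
theorem exists_reps (h : Z5r O z) {μ : Fin 2 → ℂ} (hμ : μ ∈ O) (hμ0 : ∀ t, μ t ≠ 0) :
    ∃ F : Set (Fin 2 → ℂ), F.Finite ∧ ∀ x ∈ O, ∃ f ∈ F, ∃ u ∈ O, x - f = μ * u := by
  obtain ⟨C, hC, hap⟩ := exists_approx h
  refine ⟨{x : Fin 2 → ℂ | x ∈ O ∧ ∀ t, ‖x t‖ ≤ C * ‖μ‖}, finite_O h _, fun x hx => ?_⟩
  obtain ⟨u, hu, hut⟩ := hap (fun t => x t / μ t)
  refine ⟨x - μ * u, ⟨O.sub_mem hx (O.mul_mem hμ hu), fun t => ?_⟩, u, hu, by ring⟩
  have e : (x - μ * u) t = μ t * (x t / μ t - u t) := by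
    rw [Pi.sub_apply, Pi.mul_apply, mul_sub, mul_div_cancel₀ _ (hμ0 t)]
  rw [e, norm_mul, mul_comm]
  exact mul_le_mul (hut t) (norm_le_pi_norm μ t) (norm_nonneg _) hC

/-- entrywise congruent elements of `GU` differ by an element of `GC` -/
theorem inv_mul_mem {μ : Fin 2 → ℂ} {g g' : Mtˣ} (hg : g ∈ GU O z) (hg' : g' ∈ GU O z)
    (hd : Div O μ ((g' : Mt) - g)) : g⁻¹ * g' ∈ GC O z μ := by
  refine ⟨(GU O z).mul_mem ((GU O z).inv_mem hg) hg', ?_⟩
  have : ((g⁻¹ * g' : Mtˣ) : Mt) - 1 = ((g⁻¹ : Mtˣ) : Mt) * ((g' : Mt) - g) := by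
    rw [mul_sub, ← Units.val_mul, ← Units.val_mul, inv_mul_cancel, Units.val_one]
  rw [this]
  exact hd.mul_left hg.2.1

/-- **finite index** -/
theorem finiteIndex (h : Z5r O z) {μ : Fin 2 → ℂ} (hμ : μ ∈ O) (hμ0 : ∀ t, μ t ≠ 0) :
    ((GC O z μ).subgroupOf (GU O z)).FiniteIndex := by
  obtain ⟨F, hF, hrep⟩ := exists_reps h hμ hμ0
  have : Finite F := hF
  choose r hr u hu he using hrep
  -- the matrix of representatives
  let f : GU O z → (Fin 4 → Fin 4 → F) := fun g i j =>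
    ⟨r (((g : Mtˣ) : Mt) i j) (g.2.1 i j), hr (((g : Mtˣ) : Mt) i j) (g.2.1 i j)⟩
  have hf : ∀ g g' : GU O z, f g = f g' → g⁻¹ * g' ∈ (GC O z μ).subgroupOf (GU O z) := by
    intro g g' hgg
    rw [Subgroup.mem_subgroupOf]
    refine inv_mul_mem g.2 g'.2 fun i j => ?_
    have h1 : r (((g : Mtˣ) : Mt) i j) (g.2.1 i j) = r (((g' : Mtˣ) : Mt) i j) (g'.2.1 i j) :=
      congrArg Subtype.val (congrFun (congrFun hgg i) j)
    have e1 := he (((g : Mtˣ) : Mt) i j) (g.2.1 i j)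
    have e2 := he (((g' : Mtˣ) : Mt) i j) (g'.2.1 i j)
    refine ⟨u (((g' : Mtˣ) : Mt) i j) (g'.2.1 i j) - u (((g : Mtˣ) : Mt) i j) (g.2.1 i j),
      O.sub_mem (hu _ _) (hu _ _), ?_⟩
    rw [Matrix.sub_apply, mul_sub, ← e1, ← e2, h1]
    ring
  have hfin : Finite (GU O z ⧸ (GC O z μ).subgroupOf (GU O z)) := by
    refine Finite.of_injective (fun x : GU O z ⧸ (GC O z μ).subgroupOf (GU O z) => f x.out) ?_
    intro x y hxy
    have := hf _ _ hxy
    rw [← QuotientGroup.eq] at this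
    rwa [QuotientGroup.out_eq', QuotientGroup.out_eq'] at this
  exact Subgroup.finiteIndex_of_finite_quotient

/-- **normal** -/
theorem normal (μ : Fin 2 → ℂ) : ((GC O z μ).subgroupOf (GU O z)).Normal where
  conj_mem := by
    intro g hg a
    rw [Subgroup.mem_subgroupOf] at hg ⊢
    exact GC_conj hg a.2

/-- `O / μ O` is finite: entries version for an arbitrary subgroup of `GU` -/
theorem relIndex_ne_zero (h : Z5r O z) {μ : Fin 2 → ℂ} (hμ : μ ∈ O) (hμ0 : ∀ t, μ t ≠ 0) :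
    (GC O z μ).relIndex (GU O z) ≠ 0 :=
  (finiteIndex h hμ hμ0).index_ne_zero

/-- a non-zero element of `O` is non-zero at both places -/
theorem ne_zero_places (h : Z5r O z) {μ : Fin 2 → ℂ} (hμ : μ ∈ O) (hμ0 : μ ≠ 0) : ∀ t, μ t ≠ 0 := by
  intro t ht
  have h1 := h.ord.norm_ge μ hμ hμ0
  have h2 : ∏ t, ‖μ t‖ = 0 := Finset.prod_eq_zero (Finset.mem_univ t) (by rw [ht, norm_zero])
  rw [h2] at h1
  exact absurd h1 (by norm_num)

/-- finite index for every non-zero `μ ∈ O` -/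
theorem finiteIndex' (h : Z5r O z) {μ : Fin 2 → ℂ} (hμ : μ ∈ O) (hμ0 : μ ≠ 0) :
    ((GC O z μ).subgroupOf (GU O z)).FiniteIndex :=
  finiteIndex h hμ (ne_zero_places h hμ hμ0)

end

end Crest.Agent.R272.GCfin_92
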