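import Crest.Agent.R272.EBase_641

/-!
Row 272, GINST (helper502), part 1: the group `Gh = K ∪ K s` (`K` normal, `s` the swap), the two
conjugates of a root structure over `K`, automorphy factors over `Gh` with exact cocycle identities.
-/

set_option autoImplicit false

open scoped ComplexConjugate Topology
open Filter

namespace Crest.Agent.R272.GInG_502

open Crest.Agent.R272.EBase_641

noncomputable section

/-! ### the group -/

section group

variable {Γ : Type} [Group Γ] {K : Subgroup Γ} {s : Γ}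

/-- a normal subgroup and an involution outside -/
structure SwD (K : Subgroup Γ) (s : Γ) : Prop where
  nrm : K.Normal
  sq : s * s = 1
  nmem : s ∉ K

namespace SwD

theorem inv (D : SwD K s) : s⁻¹ = s := inv_eq_of_mul_eq_one_right D.sq

theorem cnj (D : SwD K s) {g : Γ} (hg : g ∈ K) : s * g * s ∈ K := by
  have h := D.nrm.conj_mem g hg s
  rwa [D.inv] at h

/-- the group `K ∪ K s` -/
def Gh (D : SwD K s) : Subgroup Γ where
  carrier := {g | g ∈ K ∨ g * s ∈ K}
  mul_mem' := by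
    rintro a b (ha | ha) (hb | hb)
    · exact Or.inl (K.mul_mem ha hb)
    · right
      show a * b * s ∈ K
      rw [mul_assoc]
      exact K.mul_mem ha hb
    · right
      show a * b * s ∈ K
      have h1 := K.mul_mem ha (D.cnj hb)
      have e : a * s * (s * b * s) = a * b * s := by
        have : a * s * (s * b * s) = a * (s * s) * b * s := by group
        rw [this, D.sq, mul_one]
      rwa [e] at h1
    · left
      show a * b ∈ K
      have h1 := K.mul_mem ha (D.cnj hb)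
      have e : a * s * (s * (b * s) * s) = a * b := by
        have : a * s * (s * (b * s) * s) = a * (s * s) * b * (s * s) := by group
        rw [this, D.sq, mul_one, mul_one]
      rwa [e] at h1
  one_mem' := Or.inl K.one_mem
  inv_mem' := by
    rintro a (ha | ha)
    · exact Or.inl (K.inv_mem ha)
    · right
      show a⁻¹ * s ∈ K
      have h1 := D.cnj (K.inv_mem ha)
      have e : s * (a * s)⁻¹ * s = a⁻¹ * s := by
        rw [mul_inv_rev, D.inv]
        have : s * (s * a⁻¹) * s = (s * s) * a⁻¹ * s := by group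
        rw [this, D.sq, one_mul]
      rwa [e] at h1

theorem mem_Gh (D : SwD K s) {g : Γ} : g ∈ D.Gh ↔ g ∈ K ∨ g * s ∈ K := Iff.rfl

theorem K_le (D : SwD K s) : K ≤ D.Gh := fun _ hg => Or.inl hg

theorem s_mem (D : SwD K s) : s ∈ D.Gh := Or.inr (by rw [D.sq]; exact K.one_mem)

end SwD

open Classical in
/-- the action on the two colours -/
def sgn (K : Subgroup Γ) (g : Γ) (b : Bool) : Bool := if g ∈ K then b else !b

theorem sgn_of_mem {g : Γ} (hg : g ∈ K) (b : Bool) : sgn K g b = b := if_pos hg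

theorem sgn_of_not {g : Γ} (hg : g ∉ K) (b : Bool) : sgn K g b = !b := if_neg hg

theorem SwD.not_mem (D : SwD K s) {g : Γ} (hg : g * s ∈ K) : g ∉ K := by
  intro h
  apply D.nmem
  have := K.mul_mem (K.inv_mem h) hg
  rwa [inv_mul_cancel_left] at this

theorem SwD.sgn_s (D : SwD K s) (b : Bool) : sgn K s b = !b := sgn_of_not D.nmem b

theorem SwD.sgn_mul (D : SwD K s) {g h : Γ} (hg : g ∈ D.Gh) (hh : h ∈ D.Gh) (b : Bool) :
    sgn K (g * h) b = sgn K g (sgn K h b) := by
  by_cases h1 : g ∈ K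
  · by_cases h2 : h ∈ K
    · rw [sgn_of_mem h1, sgn_of_mem h2, sgn_of_mem (K.mul_mem h1 h2)]
    · have h3 : g * h ∉ K := by
        intro h4
        exact h2 (by simpa using K.mul_mem (K.inv_mem h1) h4)
      rw [sgn_of_mem h1, sgn_of_not h2, sgn_of_not h3]
  · by_cases h2 : h ∈ K
    · have h3 : g * h ∉ K := by
        intro h4
        exact h1 (by simpa using K.mul_mem h4 (K.inv_mem h2))
      rw [sgn_of_not h1, sgn_of_mem h2, sgn_of_not h3]
    · have h3 : g * h ∈ K := by
        have h4 := D.mem_Gh.1 hg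
        have h5 := D.mem_Gh.1 hh
        have h6 := h4.resolve_left h1
        have h7 := h5.resolve_left h2
        have h8 := K.mul_mem h6 (D.cnj h7)
        have e : g * s * (s * (h * s) * s) = g * h := by
          have : g * s * (s * (h * s) * s) = g * (s * s) * h * (s * s) := by group
          rw [this, D.sq, mul_one, mul_one]
        rwa [e] at h8
      rw [sgn_of_not h1, sgn_of_not h2, sgn_of_mem h3, Bool.not_not]

@[simp] theorem sgn_one (b : Bool) : sgn K (1 : Γ) b = b := sgn_of_mem K.one_mem b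

theorem SwD.sgn_inv (D : SwD K s) {g : Γ} (hg : g ∈ D.Gh) (b : Bool) :
    sgn K g⁻¹ (sgn K g b) = b := by
  rw [← D.sgn_mul (D.Gh.inv_mem hg) hg, inv_mul_cancel, sgn_one]

/-- `1` or `s` -/
def sp (s : Γ) (b : Bool) : Γ := bif b then s else 1

@[simp] theorem sp_false : sp s false = 1 := rfl
@[simp] theorem sp_true : sp s true = s := rfl

theorem SwD.key (D : SwD K s) {g : Γ} (hg : g ∈ D.Gh) (b : Bool) :
    sp s (sgn K g b) * g * (sp s b)⁻¹ ∈ K := by
  by_cases h1 : g ∈ K
  · rw [sgn_of_mem h1]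
    cases b
    · simpa using h1
    · rw [sp_true, D.inv]; exact D.cnj h1
  · have h2 := (D.mem_Gh.1 hg).resolve_left h1
    rw [sgn_of_not h1]
    cases b
    · have h3 := D.cnj h2
      have e : s * (g * s) * s = s * g := by
        rw [← mul_assoc, mul_assoc, D.sq, mul_one]
      rw [e] at h3
      simpa using h3
    · simpa [D.inv] using h2

/-- the element of `K` -/
def SwD.kk (D : SwD K s) (g : D.Gh) (b : Bool) : K :=
  ⟨sp s (sgn K g.1 b) * g.1 * (sp s b)⁻¹, D.key g.2 b⟩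

theorem SwD.kk_mul (D : SwD K s) (g h : D.Gh) (b : Bool) :
    D.kk (g * h) b = D.kk g (sgn K h.1 b) * D.kk h b := by
  apply Subtype.ext
  show sp s (sgn K (g.1 * h.1) b) * (g.1 * h.1) * (sp s b)⁻¹ =
    (sp s (sgn K g.1 (sgn K h.1 b)) * g.1 * (sp s (sgn K h.1 b))⁻¹) *
      (sp s (sgn K h.1 b) * h.1 * (sp s b)⁻¹)
  rw [D.sgn_mul g.2 h.2]
  group

theorem SwD.kk_sp (D : SwD K s) (g : D.Gh) (b : Bool) :
    (D.kk g b).1 * sp s b = sp s (sgn K g.1 b) * g.1 := by
  show sp s (sgn K g.1 b) * g.1 * (sp s b)⁻¹ * sp s b = _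
  rw [inv_mul_cancel_right]

end group

/-! ### divisors -/

section div

variable {n : ℕ}

theorem differentiable_jj (g : UG n) : Differentiable ℂ (jj g) := by
  have h1 : Differentiable ℂ fun z : E n => g.1 ((z, 1) : V1 n) := by
    have h2 : Differentiable ℂ (fun w : V1 n => g.1 w) := by
      have := (LinearMap.toContinuousLinearMap (g.1 : V1 n →ₗ[ℂ] V1 n)).differentiable
      exact this
    exact h2.comp (differentiable_id.prodMk (differentiable_const _))
  exact h1.snd

theorem differentiableAt_act (g : UG n) {z : E n} (hz : z ∈ Ball n) :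
    DifferentiableAt ℂ (act g) z := by
  have h1 : Differentiable ℂ fun z : E n => g.1 ((z, 1) : V1 n) := by
    have h2 : Differentiable ℂ (fun w : V1 n => g.1 w) := by
      have := (LinearMap.toContinuousLinearMap (g.1 : V1 n →ₗ[ℂ] V1 n)).differentiable
      exact this
    exact h2.comp (differentiable_id.prodMk (differentiable_const _))
  have h3 : DifferentiableAt ℂ (fun z => (jj g z)⁻¹) z :=
    (differentiable_jj g z).inv (jj_ne_zero g hz)
  exact h3.smul (h1 z).fst

theorem differentiableOn_act (g : UG n) : DifferentiableOn ℂ (act g) (Ball n) :=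
  fun _ hz => (differentiableAt_act g hz).differentiableWithinAt

theorem isOpen_Ball : IsOpen (Ball n) := Metric.isOpen_ball

theorem ball_nhds {z : E n} (hz : z ∈ Ball n) : Ball n ∈ 𝓝 z := isOpen_Ball.mem_nhds hz

theorem comp_act {f : E n → ℂ} (hf : DifferentiableOn ℂ f (Ball n)) (g : UG n) :
    DifferentiableOn ℂ (fun z => f (act g z)) (Ball n) :=
  hf.comp (differentiableOn_act g) fun _ hz => act_mem g hz

/-- `f` has the divisor `∑_{v ∈ S} v^⊥` on the ball -/
def HasDiv (S : Set (V1 n)) (f : E n → ℂ) : Prop :=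
  ∀ z ∈ Ball n, ∃ U ∈ 𝓝 z, ∃ u : E n → ℂ, DifferentiableOn ℂ u U ∧ (∀ w ∈ U, u w ≠ 0) ∧
    ∃ F : Finset (V1 n), (∀ v, v ∈ F ↔ v ∈ S ∧ lin v z = 0) ∧
      ∀ w ∈ U, f w = (∏ v ∈ F, lin v w) * u w

theorem hasDiv_root {k : ℕ} {G : Type} [Group G] {ρ : G →* UG n} {S : Set (V1 n)}
    (R : Root n k ρ S) : HasDiv S R.f := R.f_div

theorem lin_act_eq_zero (g : UG n) (v : V1 n) {z : E n} (hz : z ∈ Ball n) :
    lin (g.1 v) (act g z) = 0 ↔ lin v z = 0 := by
  rw [lin_act g v hz, div_eq_zero_iff, or_iff_left (jj_ne_zero g hz)]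

/-- pull back of a divisor by a group element -/
theorem HasDiv.comp {S : Set (V1 n)} {f : E n → ℂ} (hf : HasDiv S f) (g : UG n) :
    HasDiv {v | g.1 v ∈ S} (fun z => f (act g z)) := by
  classical
  intro z hz
  obtain ⟨U, hU, u, hu, hu0, F, hF, hfF⟩ := hf (act g z) (act_mem g hz)
  have hc : ContinuousAt (act g) z := (differentiableAt_act g hz).continuousAt
  refine ⟨(act g ⁻¹' interior U) ∩ Ball n,
    inter_mem (hc.preimage_mem_nhds (interior_mem_nhds.2 hU)) (ball_nhds hz),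
    fun w => u (act g w) * ((jj g w)⁻¹) ^ F.card, ?_, ?_, F.map g.1.toEquiv.symm.toEmbedding,
    ?_, ?_⟩
  · intro w hw
    have hw1 : act g w ∈ interior U := hw.1
    have hw2 : w ∈ Ball n := hw.2
    have h1 : DifferentiableAt ℂ u (act g w) :=
      (hu _ (interior_subset hw1)).differentiableAt (mem_interior_iff_mem_nhds.1 hw1)
    have h2 : DifferentiableAt ℂ (fun w => u (act g w)) w :=
      h1.comp w (differentiableAt_act g hw2)
    have h3 : DifferentiableAt ℂ (fun z => (jj g z)⁻¹) w :=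
      (differentiable_jj g w).inv (jj_ne_zero g hw2)
    exact (h2.mul (h3.pow _)).differentiableWithinAt
  · intro w hw
    exact mul_ne_zero (hu0 _ (interior_subset hw.1))
      (pow_ne_zero _ (inv_ne_zero (jj_ne_zero g hw.2)))
  · intro v
    rw [Finset.mem_map_equiv]
    show g.1 v ∈ F ↔ _
    rw [hF]
    show _ ↔ g.1 v ∈ S ∧ lin v z = 0
    rw [lin_act_eq_zero g v hz]
  · intro w hw
    show f (act g w) = _
    rw [hfF _ (interior_subset hw.1), Finset.prod_map, mul_left_comm, mul_comm (u _)]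
    congr 1
    rw [← Finset.prod_const, ← Finset.prod_mul_distrib]
    refine Finset.prod_congr rfl fun v _ => ?_
    show lin v (act g w) = lin (g.1.symm v) w * (jj g w)⁻¹
    have h1 := lin_act g (g.1.symm v) hw.2
    rw [LinearEquiv.apply_symm_apply] at h1
    rw [h1, div_eq_mul_inv]

theorem not_locally_zero {v : V1 n} (hv : v.1 ≠ 0) {O : Set (E n)} (hO : IsOpen O)
    (hne : O.Nonempty) : ∃ w ∈ O, lin v w ≠ 0 := by
  by_contra hcon
  push Not at hcon
  obtain ⟨w, hw⟩ := hne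
  have h1 : ∀ᶠ t : ℂ in 𝓝 0, w + t • v.1 ∈ O := by
    have hc : ContinuousAt (fun t : ℂ => w + t • v.1) 0 := by fun_prop
    apply hc
    show O ∈ 𝓝 (w + (0:ℂ) • v.1)
    rw [zero_smul, add_zero]
    exact hO.mem_nhds hw
  obtain ⟨t, ht, ht0⟩ : ∃ t : ℂ, w + t • v.1 ∈ O ∧ t ≠ 0 := by
    have h2 : ∀ᶠ t : ℂ in 𝓝[≠] 0, w + t • v.1 ∈ O := h1.filter_mono nhdsWithin_le_nhds
    have h3 : ∀ᶠ t : ℂ in 𝓝[≠] 0, t ≠ 0 := eventually_mem_nhdsWithin
    exact (h2.and h3).exists
  have e1 := hcon w hw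
  have e2 := hcon _ ht
  rw [lin, inner_add_right, inner_smul_right] at e2
  rw [lin] at e1
  have e3 : t * (inner ℂ v.1 v.1 : ℂ) = 0 := by linear_combination e2 - e1
  rcases mul_eq_zero.1 e3 with h | h
  · exact ht0 h
  · exact hv (inner_self_eq_zero.1 h)

theorem prod_not_locally_zero {F : Finset (V1 n)} (hF : ∀ v ∈ F, v.1 ≠ 0) :
    ∀ {O : Set (E n)}, IsOpen O → O.Nonempty → ∃ w ∈ O, (∏ v ∈ F, lin v w) ≠ 0 := by
  classical
  induction F using Finset.induction_on with
  | empty =>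
    intro O _ ⟨w, hw⟩
    exact ⟨w, hw, by simp⟩
  | insert v F hvF ih =>
    intro O hO hne
    obtain ⟨w, hw, hw0⟩ := not_locally_zero (hF v (Finset.mem_insert_self v F)) hO hne
    have hO' : IsOpen (O ∩ {w | lin v w ≠ 0}) :=
      hO.inter (isOpen_ne.preimage (differentiable_lin v).continuous)
    obtain ⟨w', hw', h'⟩ := ih (fun v' hv' => hF v' (Finset.mem_insert_of_mem hv')) hO' ⟨w, hw, hw0⟩
    refine ⟨w', hw'.1, ?_⟩
    rw [Finset.prod_insert hvF]
    exact mul_ne_zero hw'.2 h'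

/-- a function with a divisor is not locally zero -/
theorem HasDiv.ne {S : Set (V1 n)} (hS : ∀ v ∈ S, v.1 ≠ 0) {f : E n → ℂ} (hf : HasDiv S f)
    {z : E n} (hz : z ∈ Ball n) {O : Set (E n)} (hO : O ∈ 𝓝 z) : ∃ w ∈ O, f w ≠ 0 := by
  obtain ⟨U, hU, u, -, hu0, F, hF, hfF⟩ := hf z hz
  obtain ⟨w, hw, hw0⟩ := prod_not_locally_zero (F := F) (fun v hv => hS v ((hF v).1 hv).1)
    (isOpen_interior (s := U ∩ O)) ⟨z, mem_interior_iff_mem_nhds.2 (inter_mem hU hO)⟩
  have hw1 := interior_subset hw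
  refine ⟨w, hw1.2, ?_⟩
  rw [hfF w hw1.1]
  exact mul_ne_zero hw0 (hu0 w hw1.1)

/-- cancellation of a function with a divisor -/
theorem HasDiv.cancel {S : Set (V1 n)} (hS : ∀ v ∈ S, v.1 ≠ 0) {f : E n → ℂ} (hf : HasDiv S f)
    {z : E n} (hz : z ∈ Ball n) {a b : E n → ℂ} (ha : ContinuousAt a z) (hb : ContinuousAt b z)
    (h : ∀ᶠ w in 𝓝 z, a w * f w = b w * f w) : a z = b z := by
  by_contra hne
  have h1 : ∀ᶠ w in 𝓝 z, a w ≠ b w := by
    have h2 : ContinuousAt (fun w => a w - b w) z := ha.sub hb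
    have h3 := h2.eventually_ne (sub_ne_zero.2 hne)
    exact h3.mono fun w hw => sub_ne_zero.1 hw
  obtain ⟨w, hw, hw0⟩ := hf.ne hS hz (h.and h1)
  exact hw.2 (mul_right_cancel₀ hw0 hw.1)

/-- two functions with the same divisor differ by a unit -/
theorem HasDiv.unit {S : Set (V1 n)} (hS : ∀ v ∈ S, v.1 ≠ 0) {f f' : E n → ℂ}
    (hf : HasDiv S f) (hf' : HasDiv S f') :
    ∃ u : E n → ℂ, DifferentiableOn ℂ u (Ball n) ∧ (∀ z ∈ Ball n, u z ≠ 0) ∧
      ∀ z ∈ Ball n, f' z = u z * f z := by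
  classical
  -- local quotients
  have hloc : ∀ z ∈ Ball n, ∃ U ∈ 𝓝 z, ∃ q : E n → ℂ, DifferentiableOn ℂ q U ∧
      (∀ w ∈ U, q w ≠ 0) ∧ ∀ w ∈ U, f' w = q w * f w := by
    intro z hz
    obtain ⟨U, hU, u, hu, hu0, F, hF, hfF⟩ := hf z hz
    obtain ⟨U', hU', u', hu', hu0', F', hF', hfF'⟩ := hf' z hz
    have hFF : F' = F := by
      ext v
      rw [hF, hF']
    refine ⟨U ∩ U', inter_mem hU hU', fun w => u' w * (u w)⁻¹, ?_, ?_, ?_⟩
    · intro w hw
      exact ((hu' w hw.2).mono Set.inter_subset_right).mul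
        (((hu w hw.1).mono Set.inter_subset_left).inv (hu0 w hw.1))
    · intro w hw
      exact mul_ne_zero (hu0' w hw.2) (inv_ne_zero (hu0 w hw.1))
    · intro w hw
      show f' w = u' w * (u w)⁻¹ * f w
      rw [hfF w hw.1, hfF' w hw.2, hFF]
      have := hu0 w hw.1
      field_simp
  choose! U hU q hq hq0 hqf using hloc
  have hint : ∀ z ∈ Ball n, z ∈ interior (U z) := fun z hz => mem_interior_iff_mem_nhds.2 (hU z hz)
  have heq : ∀ z ∈ Ball n, ∀ w ∈ interior (U z) ∩ Ball n, q w w = q z w := by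
    intro z hz w hw
    have hc1 : ContinuousAt (q w) w := ((hq w hw.2) w (mem_of_mem_nhds (hU w hw.2))
      |>.differentiableAt (hU w hw.2)).continuousAt
    have hc2 : ContinuousAt (q z) w := ((hq z hz) w (interior_subset hw.1)
      |>.differentiableAt (mem_interior_iff_mem_nhds.1 hw.1)).continuousAt
    refine hf.cancel hS hw.2 hc1 hc2 ?_
    filter_upwards [hU w hw.2, mem_interior_iff_mem_nhds.1 hw.1] with x hx hx'
    rw [← hqf w hw.2 x hx, ← hqf z hz x hx']
  refine ⟨fun z => q z z, ?_, fun z hz => hq0 z hz z (mem_of_mem_nhds (hU z hz)),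
    fun z hz => hqf z hz z (mem_of_mem_nhds (hU z hz))⟩
  intro z hz
  have h1 : DifferentiableAt ℂ (q z) z :=
    ((hq z hz) z (mem_of_mem_nhds (hU z hz))).differentiableAt (hU z hz)
  have h2 : (fun w => q w w) =ᶠ[𝓝 z] q z := by
    filter_upwards [isOpen_interior.mem_nhds (hint z hz), ball_nhds hz] with w hw hw'
    exact heq z hz w ⟨hw, hw'⟩
  exact (h1.congr_of_eventuallyEq h2).differentiableWithinAt

end div

/-! ### the two conjugates of a root -/

section pair

variable {n k : ℕ} {Γ : Type} [Group Γ] {ρ : Γ →* UG n} {K : Subgroup Γ} {s : Γ} (D : SwD K s)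
variable {S : Set (V1 n)} (R : Root n k (ρ.comp K.subtype) S)

include D in
/-- the root function of colour `b` -/
def FF (_D : SwD K s) (R : Root n k (ρ.comp K.subtype) S) (b : Bool) (z : E n) : ℂ :=
  R.f (act (ρ (sp s b)) z)

/-- the factors -/
def JJ (g : D.Gh) (b : Bool) (z : E n) : ℂ := R.j (D.kk g b) (act (ρ (sp s b)) z)

theorem FF_false {z : E n} : FF D R false z = R.f z := by
  show R.f (act (ρ 1) z) = _
  rw [map_one, act_one]

theorem FF_true {z : E n} : FF D R true z = R.f (act (ρ s) z) := rfl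

theorem FF_hol (b : Bool) : DifferentiableOn ℂ (FF D R b) (Ball n) := comp_act R.f_hol _

theorem JJ_hol (g : D.Gh) (b : Bool) : DifferentiableOn ℂ (JJ D R g b) (Ball n) :=
  comp_act (R.j_hol _) _

theorem JJ_ne (g : D.Gh) (b : Bool) {z : E n} (hz : z ∈ Ball n) : JJ D R g b z ≠ 0 :=
  R.j_ne _ _ (act_mem _ hz)

theorem act_kk (g : D.Gh) (b : Bool) {z : E n} (hz : z ∈ Ball n) :
    act ((ρ.comp K.subtype) (D.kk g b)) (act (ρ (sp s b)) z) =
      act (ρ (sp s (sgn K g.1 b))) (act (ρ g.1) z) := by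
  rw [← act_mul _ _ hz, ← act_mul _ _ hz, ← map_mul]
  show act (ρ (D.kk g b).1 * ρ (sp s b)) z = _
  rw [← map_mul, D.kk_sp]

theorem FF_act (g : D.Gh) (b : Bool) {z : E n} (hz : z ∈ Ball n) :
    FF D R (sgn K g.1 b) (act (ρ g.1) z) = JJ D R g b z ^ k * FF D R b z := by
  have h := R.f_act (D.kk g b) (act (ρ (sp s b)) z) (act_mem _ hz)
  rw [act_kk D g b hz] at h
  exact h

theorem JJ_mul (g h : D.Gh) (b : Bool) {z : E n} (hz : z ∈ Ball n) :
    JJ D R (g * h) b z = JJ D R g (sgn K h.1 b) (act (ρ h.1) z) * JJ D R h b z := by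
  have h1 := R.j_mul (D.kk g (sgn K h.1 b)) (D.kk h b) (act (ρ (sp s b)) z) (act_mem _ hz)
  rw [act_kk D h b hz, ← D.kk_mul] at h1
  exact h1

theorem HasDiv_FF (b : Bool) : HasDiv {v | (ρ (sp s b)).1 v ∈ S} (FF D R b) :=
  (hasDiv_root R).comp _

/-- the conjugate root: a root structure over `K` for `s⁻¹ S` -/
def rootConj : Root n k (ρ.comp K.subtype) {v | (ρ s).1 v ∈ S} where
  f := FF D R true
  j g z := JJ D R ⟨g.1, D.K_le g.2⟩ true z
  f_hol := FF_hol D R true
  fin z hz := by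
    have h := R.fin (act (ρ s) z) (act_mem _ hz)
    have h2 := h.preimage (f := (ρ s).1) ((ρ s).1.injective.injOn)
    refine h2.subset fun v hv => ?_
    exact ⟨hv.1, (lin_act_eq_zero _ _ hz).2 hv.2⟩
  f_div := HasDiv_FF D R true
  j_hol g := JJ_hol D R _ true
  j_ne g z hz := JJ_ne D R _ true hz
  j_mul g g' z hz := by
    have h := JJ_mul D R ⟨g.1, D.K_le g.2⟩ ⟨g'.1, D.K_le g'.2⟩ true hz
    rw [sgn_of_mem g'.2] at h
    exact h
  f_act g z hz := by
    have h := FF_act D R ⟨g.1, D.K_le g.2⟩ true hz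
    rw [sgn_of_mem g.2] at h
    exact h

theorem rootConj_f {z : E n} : (rootConj D R).f z = R.f (act (ρ s) z) := rfl

/-! ### invariant classes: a factor over the whole group -/

variable (hS : ∀ v ∈ S, v.1 ≠ 0) (hinv : ∀ g : D.Gh, ∀ v, (ρ g.1).1 v ∈ S ↔ v ∈ S)

include hS hinv in
theorem exists_J0 (g : D.Gh) : ∃ u : E n → ℂ, DifferentiableOn ℂ u (Ball n) ∧
    (∀ z ∈ Ball n, u z ≠ 0) ∧ ∀ z ∈ Ball n, R.f (act (ρ g.1) z) = u z * R.f z := by
  have h1 : HasDiv S (fun z => R.f (act (ρ g.1) z)) := by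
    have h2 := (hasDiv_root R).comp (ρ g.1)
    have e : {v | (ρ g.1).1 v ∈ S} = S := Set.ext fun v => hinv g v
    rwa [e] at h2
  exact (hasDiv_root R).unit hS h1

/-- the factor of an invariant class -/
def J0 (g : D.Gh) : E n → ℂ := (exists_J0 D R hS hinv g).choose

theorem J0_hol (g : D.Gh) : DifferentiableOn ℂ (J0 D R hS hinv g) (Ball n) :=
  (exists_J0 D R hS hinv g).choose_spec.1

theorem J0_ne (g : D.Gh) {z : E n} (hz : z ∈ Ball n) : J0 D R hS hinv g z ≠ 0 :=
  (exists_J0 D R hS hinv g).choose_spec.2.1 z hz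

theorem J0_act (g : D.Gh) {z : E n} (hz : z ∈ Ball n) :
    R.f (act (ρ g.1) z) = J0 D R hS hinv g z * R.f z :=
  (exists_J0 D R hS hinv g).choose_spec.2.2 z hz

theorem J0_mul (g h : D.Gh) {z : E n} (hz : z ∈ Ball n) :
    J0 D R hS hinv (g * h) z = J0 D R hS hinv g (act (ρ h.1) z) * J0 D R hS hinv h z := by
  have hc : ∀ (a : E n → ℂ), DifferentiableOn ℂ a (Ball n) → ContinuousAt a z := fun a ha =>
    ((ha z hz).differentiableAt (ball_nhds hz)).continuousAt
  refine (hasDiv_root R).cancel hS hz (a := J0 D R hS hinv (g * h))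
    (b := fun w => J0 D R hS hinv g (act (ρ h.1) w) * J0 D R hS hinv h w)
    (hc _ (J0_hol D R hS hinv _))
    (hc _ ((comp_act (J0_hol D R hS hinv g) _).mul (J0_hol D R hS hinv h))) ?_
  filter_upwards [ball_nhds hz] with w hw
  rw [← J0_act D R hS hinv (g * h) hw, mul_assoc, ← J0_act D R hS hinv h hw,
    ← J0_act D R hS hinv g (act_mem _ hw)]
  show R.f (act (ρ (g.1 * h.1)) w) = _
  rw [map_mul, act_mul _ _ hw]

theorem J0_one {z : E n} (hz : z ∈ Ball n) : J0 D R hS hinv 1 z = 1 := by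
  have h := J0_mul D R hS hinv 1 1 hz
  rw [mul_one] at h
  have e : act (ρ (1 : D.Gh).1) z = z := by
    show act (ρ 1) z = z
    rw [map_one, act_one]
  rw [e] at h
  have h0 := J0_ne D R hS hinv 1 hz
  exact (mul_right_cancel₀ h0 (by rw [one_mul]; exact h)).symm

theorem JJ_one (b : Bool) {z : E n} (hz : z ∈ Ball n) : JJ D R 1 b z = 1 := by
  have h := JJ_mul D R 1 1 b hz
  rw [mul_one] at h
  have e : act (ρ (1 : D.Gh).1) z = z := by
    show act (ρ 1) z = z
    rw [map_one, act_one]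
  have e2 : sgn K (1 : D.Gh).1 b = b := sgn_one b
  rw [e, e2] at h
  have h0 := JJ_ne D R 1 b hz
  exact (mul_right_cancel₀ h0 (by rw [one_mul]; exact h)).symm

end pair

end

end Crest.Agent.R272.GInG_502
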