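import Crest.Agent.R272.GLoc2_620
import Crest.Agent.R272.GrDefs_559
import Crest.Agent.R272.Quot3_783

/-!
Row 272, GINST-LOC (helper620), part 3: the data `GData` (559) of the arrangement over the ball from
the root functions of the classes.
-/

set_option autoImplicit false
set_option linter.unusedSectionVars false

open Set Filter Topology
open scoped ComplexConjugate

namespace Crest.Agent.R272.GI_620

open Crest.Agent.R272.EBase_641 Crest.Agent.R272.GLoc_620
open Crest.Agent.R272.Cls_620 Crest.Agent.R272.Quot_783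
open Crest.Agent.R272.In_68 (Z5r io)
open Crest.Agent.R272.Gr_559 (Pen GData SNC)

noncomputable section

/-! ### the ball as a manifold -/

section ball

variable {Γ : Type} [Group Γ] (ρ' : Γ →* UG 3)

lemma symm_val (j : (ballFam ρ').ι) {w : E 3} (hw : w ∈ Ball 3) :
    (((ballFam ρ').e j).symm w).val = w := ballFam_symm ρ' j hw

lemma holF_of {f : E 3 → ℂ} {U : Set (BX ρ')} (hf : ∀ x ∈ U, DifferentiableAt ℂ f x.val) :
    HolF (ballFam ρ') U (fun x => f x.val) := by
  intro j w hw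
  have hwB : w ∈ Ball 3 := by
    have := hw.1
    rwa [ballFam_target] at this
  have h1 := hf _ hw.2
  rw [symm_val ρ' j hwB] at h1
  refine (h1.congr_of_eventuallyEq ?_).differentiableWithinAt
  filter_upwards [Metric.isOpen_ball.mem_nhds hwB] with y hy
  rw [symm_val ρ' j hy]

lemma dd_eq {f : E 3 → ℂ} (j : (ballFam ρ').ι) (q : BX ρ') :
    Gr_559.dd (ballFam ρ') j (fun x => f x.val) q = fderiv ℂ f q.val := by
  rw [Gr_559.dd, ballFam_apply]
  apply Filter.EventuallyEq.fderiv_eq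
  filter_upwards [Metric.isOpen_ball.mem_nhds q.mem] with y hy
  rw [symm_val ρ' j hy]

lemma snc_of {κ : Type} {f : κ → E 3 → ℂ} {q : BX ρ'}
    (H : ∀ w : κ → ℂ, ∃ X : E 3, ∀ k, f k q.val = 0 → fderiv ℂ (f k) q.val X = w k) :
    SNC (ballFam ρ') q (fun k (x : BX ρ') => f k x.val) := by
  intro j _ w
  obtain ⟨X, hX⟩ := H w
  refine ⟨X, fun k hk => ?_⟩
  rw [dd_eq]
  exact hX k hk

lemma diff_root {G : Type} [Group G] {ρ : G →* UG 3} {k : ℕ} {S : Set (V1 3)}
    (R : Root 3 k ρ S) {q : E 3} (hq : q ∈ Ball 3) : DifferentiableAt ℂ R.f q :=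
  R.f_hol.differentiableAt (Metric.isOpen_ball.mem_nhds hq)

end ball

/-! ### open neighbourhoods -/

lemma IsU.prod {κ : Type} (s : Finset κ) {F : κ → E 3 → ℂ} {q : E 3}
    (h : ∀ a ∈ s, IsU (F a) q) : IsU (fun w => ∏ a ∈ s, F a w) q := by
  classical
  induction s using Finset.induction_on with
  | empty => simpa using IsU.one q
  | insert a s ha ih =>
    have h1 := (h a (Finset.mem_insert_self a s)).mul
      (ih fun b hb => h b (Finset.mem_insert_of_mem hb))
    exact h1.congr (Eventually.of_forall fun w => by rw [Finset.prod_insert ha])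

lemma IsUM.nbhd {f g : E 3 → ℂ} {q : E 3} (h : IsUM f g q) :
    ∃ (u : E 3 → ℂ) (V : Set (E 3)), IsOpen V ∧ q ∈ V ∧ DifferentiableOn ℂ u V ∧
      (∀ w ∈ V, u w ≠ 0) ∧ ∀ w ∈ V, f w = g w * u w := by
  obtain ⟨u, ⟨U, hU, h1, h2⟩, e⟩ := h
  obtain ⟨V, hV, hVo, hqV⟩ := mem_nhds_iff.mp (inter_mem hU e)
  exact ⟨u, V, hVo, hqV, h1.mono fun w hw => (hV hw).1, fun w hw => h2 w (hV hw).1,
    fun w hw => (hV hw).2⟩

lemma IsUM.congr_right {f g g' : E 3 → ℂ} {q : E 3} (h : IsUM f g q) (e : ∀ w, g w = g' w) :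
    IsUM f g' q := by
  obtain ⟨u, hu, e'⟩ := h
  exact ⟨u, hu, e'.mono fun w hw => by rw [hw, e]⟩

lemma IsUM.congr_left {f f' g : E 3 → ℂ} {q : E 3} (h : IsUM f g q) (e : ∀ w, f' w = f w) :
    IsUM f' g q := by
  obtain ⟨u, hu, e'⟩ := h
  exact ⟨u, hu, e'.mono fun w hw => by rw [e, hw]⟩

/-! ### the products -/

/-- labels of `P i` -/
def PL (i : Bool) : Finset Lb := {.v i 1, .v i 2, .n i, .b i 1, .b i 2}
/-- labels of `Q i` -/
def QL (i : Bool) : Finset Lb := {.v i 3, .v i 4, .v i 0, .b i 4}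

/-- the colours -/
def col (i : Fin 2) : Bool := decide (i = 1)

lemma col_ne {i j : Fin 2} (h : i ≠ j) : col j = !(col i) := by
  fin_cases i <;> fin_cases j <;> simp_all [col]

section main

variable {O : Subring (Fin 2 → ℂ)} {z μ : Fin 2 → ℂ} (h : Z5r O z)
variable {G : Type} [Group G] {ρ : G →* UG 3} {kk : ℕ} (R : ∀ a : Lb, Root 3 kk ρ (SS h μ a))

/-- `P i = F_{i1} F_{i2} F_{i5} E_1 E_2` -/
def FP (i : Bool) (q : E 3) : ℂ :=
  (R (.v i 1)).f q * (R (.v i 2)).f q * (R (.n i)).f q * ((R (.b i 1)).f q * (R (.b i 2)).f q)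

/-- `Q i = F_{i3} F_{i4} F_{i0} E_4` -/
def FQ (i : Bool) (q : E 3) : ℂ :=
  (R (.v i 3)).f q * (R (.v i 4)).f q * (R (.v i 0)).f q * (R (.b i 4)).f q

lemma FP_eq (i : Bool) (q : E 3) : FP h R i q = ∏ a ∈ PL i, (R a).f q := by
  unfold FP PL
  rw [Finset.prod_insert (by cases i <;> decide), Finset.prod_insert (by cases i <;> decide),
    Finset.prod_insert (by cases i <;> decide), Finset.prod_insert (by cases i <;> decide),
    Finset.prod_singleton]
  ring

lemma FQ_eq (i : Bool) (q : E 3) : FQ h R i q = ∏ a ∈ QL i, (R a).f q := by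
  unfold FQ QL
  rw [Finset.prod_insert (by cases i <;> decide), Finset.prod_insert (by cases i <;> decide),
    Finset.prod_insert (by cases i <;> decide), Finset.prod_singleton]
  ring

/-- a product in which at most one factor vanishes. -/
lemma slot (hD : Deep O z μ 2) (L : Finset Lb) {q : E 3} (hq : q ∈ Ball 3)
    (hu : ∀ a ∈ L, ∀ b ∈ L, Occ O z μ a (pt h q) → Occ O z μ b (pt h q) → a = b) :
    IsU (fun w => ∏ a ∈ L, (R a).f w) q ∨
      ∃ a ∈ L, ∃ v ∈ VV O z μ a, Perp z (pt h q) v ∧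
        IsUM (fun w => ∏ a ∈ L, (R a).f w) (lin (io h v).1) q := by
  classical
  by_cases hex : ∃ a ∈ L, Occ O z μ a (pt h q)
  · right
    obtain ⟨a, haL, v, hv, hvp⟩ := hex
    refine ⟨a, haL, v, hv, hvp, ?_⟩
    have h1 : IsU (fun w => ∏ b ∈ L.erase a, (R b).f w) q := by
      apply IsU.prod
      intro b hb
      apply root_U h (R b) hq
      intro hOb
      exact (Finset.ne_of_mem_erase hb)
        (hu b (Finset.mem_of_mem_erase hb) a haL hOb ⟨v, hv, hvp⟩)
    have h2 := root_L h hD (R a) hq hv hvp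
    refine IsUM.congr_left (h2.mulU h1) fun w => ?_
    rw [Finset.mul_prod_erase L (fun b => (R b).f w) haL]
  · left
    apply IsU.prod
    intro a ha
    exact root_U h (R a) hq fun hO => hex ⟨a, ha, hO⟩

lemma uniqP (hμ : μ ∈ O) (hD : Deep O z μ 2) {q : E 3} (hq : q ∈ Ball 3) {i : Bool}
    (hreg : ¬ FlatAt O z μ i (pt h q)) :
    ∀ a ∈ PL i, ∀ b ∈ PL i, Occ O z μ a (pt h q) → Occ O z μ b (pt h q) → a = b := by
  have hp := neg_pt h hq
  have h5 := h.toZ5
  intro a ha b hb hOa hOb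
  by_contra hab
  have key : ∀ {a b : Lb}, a ∈ PL i → b ∈ PL i → a ≠ b → Occ O z μ a (pt h q) →
      Occ O z μ b (pt h q) → (∀ k, a ≠ .b i k) := by
    intro a b ha hb hab hOa hOb k e
    subst e
    obtain ⟨h1, h2, h3, h4, -, -⟩ := bridge_at h5 hμ hD hp hOa
    simp only [PL, Finset.mem_insert, Finset.mem_singleton, reduceCtorEq, Lb.b.injEq, true_and,
      false_or] at ha
    simp only [PL, Finset.mem_insert, Finset.mem_singleton] at hb
    rcases hb with rfl | rfl | rfl | rfl | rfl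
    · have := (h4 _ _ hOb).2
      rcases ha with rfl | rfl <;> simp at this
    · have := (h4 _ _ hOb).2
      rcases ha with rfl | rfl <;> simp at this
    · exact h2 hOb
    · exact hab (by rw [(h3 _ _ hOb).2])
    · exact hab (by rw [(h3 _ _ hOb).2])
  have hbr : ∀ {a : Lb}, a ∈ PL i → (∀ k, a ≠ .b i k) → Brn i a := by
    intro a ha hk
    simp only [PL, Finset.mem_insert, Finset.mem_singleton] at ha
    rcases ha with rfl | rfl | rfl | rfl | rfl
    · exact Or.inr ⟨_, rfl⟩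
    · exact Or.inr ⟨_, rfl⟩
    · exact Or.inl rfl
    · exact absurd rfl (hk _)
    · exact absurd rfl (hk _)
  exact hreg (flatAt_of_two h5 hμ hD hp (hbr ha (key ha hb hab hOa hOb))
    (hbr hb (key hb ha (Ne.symm hab) hOb hOa)) hab hOa hOb)

lemma uniqQ (hμ : μ ∈ O) (hD : Deep O z μ 2) {q : E 3} (hq : q ∈ Ball 3) {i : Bool}
    (hreg : ¬ FlatAt O z μ i (pt h q)) :
    ∀ a ∈ QL i, ∀ b ∈ QL i, Occ O z μ a (pt h q) → Occ O z μ b (pt h q) → a = b := by
  have hp := neg_pt h hq
  have h5 := h.toZ5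
  intro a ha b hb hOa hOb
  by_contra hab
  have key : ∀ {a b : Lb}, a ∈ QL i → b ∈ QL i → a ≠ b → Occ O z μ a (pt h q) →
      Occ O z μ b (pt h q) → (∀ k, a ≠ .b i k) := by
    intro a b ha hb hab hOa hOb k e
    subst e
    obtain ⟨h1, h2, h3, h4, -, -⟩ := bridge_at h5 hμ hD hp hOa
    simp only [QL, Finset.mem_insert, Finset.mem_singleton, reduceCtorEq, Lb.b.injEq, true_and,
      false_or] at ha
    simp only [QL, Finset.mem_insert, Finset.mem_singleton] at hb
    subst ha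
    rcases hb with rfl | rfl | rfl | rfl
    · have := (h4 _ _ hOb).2
      simp at this
    · have := (h4 _ _ hOb).2
      simp at this
    · have := (h4 _ _ hOb).2
      simp at this
    · exact hab rfl
  have hbr : ∀ {a : Lb}, a ∈ QL i → (∀ k, a ≠ .b i k) → Brn i a := by
    intro a ha hk
    simp only [QL, Finset.mem_insert, Finset.mem_singleton] at ha
    rcases ha with rfl | rfl | rfl | rfl
    · exact Or.inr ⟨_, rfl⟩
    · exact Or.inr ⟨_, rfl⟩
    · exact Or.inr ⟨_, rfl⟩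
    · exact absurd rfl (hk _)
  exact hreg (flatAt_of_two h5 hμ hD hp (hbr ha (key ha hb hab hOa hOb))
    (hbr hb (key hb ha (Ne.symm hab) hOb hOa)) hab hOa hOb)

end main

end

end Crest.Agent.R272.GI_620
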