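import Crest.Agent.R272.GLoc3_620

/-!
Row 272, GINST-LOC (helper620), part 4: flats, the data `GData` (559) of the arrangement.
-/

set_option autoImplicit false
set_option linter.unusedSectionVars false

open Set Filter Topology
open scoped ComplexConjugate

namespace Crest.Agent.R272.GI_620

open Crest.Agent.R272.EBase_641 Crest.Agent.R272.GLoc_620
open Crest.Agent.R272.Cls_620 Crest.Agent.R272.Quot_783
open Crest.Agent.R272.In_68 (Z5r io)
open Crest.Agent.R272.Gr_559 (Pen GData SNC)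

noncomputable section

section flat

variable {O : Subring (Fin 2 → ℂ)} {z μ : Fin 2 → ℂ} (h : Z5r O z)
variable {G : Type} [Group G] {ρ : G →* UG 3} {kk : ℕ} (R : ∀ a : Lb, Root 3 kk ρ (SS h μ a))

lemma io_sub_smul (x y : Fin 4 → Fin 2 → ℂ) (c : Fin 2 → ℂ) :
    (io h (x - c • y)).1 = (io h x).1 - c 0 • (io h y).1 := by
  rw [In_68.io_fst, In_68.io_fst, In_68.io_fst, ← map_smul, ← map_sub]
  rfl

/-- the six slopes of a flat. -/
def sl (z : Fin 2 → ℂ) : Fin 6 → ℂ :=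
  ![conj (z 0 ^ 1), conj (z 0 ^ 2), 0, conj (z 0 ^ 3), conj (z 0 ^ 4), conj (z 0 ^ 0)]

include h in
lemma z0_ne {j k : ℕ} (hj : j < 5) (hk : k < 5) (hjk : j ≠ k) : z 0 ^ j ≠ z 0 ^ k := by
  intro e
  obtain ⟨ε, -, ε', -, he, hd⟩ := h.toZ5.diff ⟨j, hj⟩ ⟨k, hk⟩ (fun e => hjk (Fin.ext_iff.mp e))
  have h1 := congrFun hd 0
  simp only [Pi.sub_apply, Pi.pow_apply, Pi.mul_apply] at h1
  rw [← e, sub_self] at h1
  have h2 : ε 0 ≠ 0 := by
    intro h0
    have := congrFun he 0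
    simp [h0] at this
  exact mul_ne_zero (h.toZ5.pz_ne 0) h2 h1.symm

include h in
lemma sl_inj : Function.Injective (sl z) := by
  have h0 : ∀ j : ℕ, z 0 ^ j ≠ 0 := by
    intro j h0
    have := (re_pow h.toZ5 j).2
    rw [h0, norm_zero] at this
    exact zero_ne_one this
  have hc0 : ∀ j : ℕ, conj (z 0 ^ j) ≠ 0 := fun j hc => h0 j ((map_eq_zero _).mp hc)
  have hc : ∀ {j k : ℕ}, j < 5 → k < 5 → conj (z 0 ^ j) = conj (z 0 ^ k) → j = k := by
    intro j k hj hk e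
    by_contra hne
    exact z0_ne h hj hk hne ((starRingEnd ℂ).injective e)
  intro a b hab
  fin_cases a <;> fin_cases b <;> first
    | rfl
    | (exfalso; exact absurd (hc (by norm_num) (by norm_num) hab) (by norm_num))
    | (exfalso; exact hc0 _ hab)
    | (exfalso; exact hc0 _ hab.symm)

variable {i : Bool} {f0 f1 : Fin 4 → Fin 2 → ℂ} {q : E 3}

lemma flat_v (hD : Deep O z μ 2) (hq : q ∈ Ball 3) (hf : Flat O z μ i f0 f1)
    (hf0 : Perp z (pt h q) f0) (hf1 : Perp z (pt h q) f1) (j : Fin 5) :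
    IsUM (R (.v i j)).f
      (fun w => lin (io h f1).1 w - conj (z 0 ^ (j : ℕ)) * lin (io h f0).1 w) q := by
  have h1 := root_L h hD (R (.v i j)) hq (hf.mv j) (hf1.sub (hf0.smul _))
  refine IsUM.congr_right h1 fun w => ?_
  rw [io_sub_smul, lin_sub_smul]
  rfl

lemma flat_P (hD : Deep O z μ 2) (hq : q ∈ Ball 3) (hf : Flat O z μ i f0 f1)
    (hf0 : Perp z (pt h q) f0) (hf1 : Perp z (pt h q) f1) :
    IsUM (FP h R i) (fun w =>
      (lin (io h f1).1 w - sl z 0 * lin (io h f0).1 w) *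
        (lin (io h f1).1 w - sl z 1 * lin (io h f0).1 w) *
        (lin (io h f1).1 w - sl z 2 * lin (io h f0).1 w)) q := by
  have hp := neg_pt h hq
  have hFA : FlatAt O z μ i (pt h q) := ⟨f0, f1, hf, hf0, hf1⟩
  have h1 := flat_v h R hD hq hf hf0 hf1 1
  have h2 := flat_v h R hD hq hf hf0 hf1 2
  have h3 := root_L h hD (R (.n i)) hq hf.m1 hf1
  have h4 := root_U h (R (.b i 1)) hq (hFA.no_b h.toZ5 hD hp i 1)
  have h5 := root_U h (R (.b i 2)) hq (hFA.no_b h.toZ5 hD hp i 2)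
  have h6 := ((h1.mul h2).mul h3).mulU (h4.mul h5)
  refine IsUM.congr_right (IsUM.congr_left h6 fun w => rfl) fun w => ?_
  have e2 : sl z 2 = 0 := rfl
  rw [e2, zero_mul, sub_zero]
  rfl

lemma flat_Q (hD : Deep O z μ 2) (hq : q ∈ Ball 3) (hf : Flat O z μ i f0 f1)
    (hf0 : Perp z (pt h q) f0) (hf1 : Perp z (pt h q) f1) :
    IsUM (FQ h R i) (fun w =>
      (lin (io h f1).1 w - sl z 3 * lin (io h f0).1 w) *
        (lin (io h f1).1 w - sl z 4 * lin (io h f0).1 w) *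
        (lin (io h f1).1 w - sl z 5 * lin (io h f0).1 w)) q := by
  have hp := neg_pt h hq
  have hFA : FlatAt O z μ i (pt h q) := ⟨f0, f1, hf, hf0, hf1⟩
  have h1 := flat_v h R hD hq hf hf0 hf1 3
  have h2 := flat_v h R hD hq hf hf0 hf1 4
  have h3 := flat_v h R hD hq hf hf0 hf1 0
  have h4 := root_U h (R (.b i 4)) hq (hFA.no_b h.toZ5 hD hp i 4)
  have h6 := ((h1.mul h2).mul h3).mulU h4
  exact IsUM.congr_right (IsUM.congr_left h6 fun w => rfl) fun w => rfl

variable {Γ : Type} [Group Γ] (ρ' : Γ →* UG 3)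

/-- **normal form at a flat**. -/
lemma pen_exists (hD : Deep O z μ 2) {x : BX ρ'} (hf : Flat O z μ i f0 f1)
    (hf0 : Perp z (pt h x.val) f0) (hf1 : Perp z (pt h x.val) f1) :
    ∃ p : Pen (ballFam ρ') (fun y => (R .o).f y.val) (fun y => (R (.v i 0)).f y.val)
        (fun y => FP h R i y.val) (fun y => FQ h R i y.val) x,
      p.s0 = (fun y => lin (io h f0).1 y.val) ∧ p.s1 = (fun y => lin (io h f1).1 y.val) := by
  obtain ⟨a, V1, o1, m1, d1, n1, e1⟩ := IsUM.nbhd (root_L h hD (R .o) x.mem hf.m0 hf0)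
  obtain ⟨b, V2, o2, m2, d2, n2, e2⟩ := IsUM.nbhd (flat_v h R hD x.mem hf hf0 hf1 0)
  obtain ⟨u, V3, o3, m3, d3, n3, e3⟩ := IsUM.nbhd (flat_P h R hD x.mem hf hf0 hf1)
  obtain ⟨w, V4, o4, m4, d4, n4, e4⟩ := IsUM.nbhd (flat_Q h R hD x.mem hf hf0 hf1)
  set U : Set (BX ρ') := BX.val ⁻¹' (V1 ∩ V2 ∩ (V3 ∩ V4)) with hU
  have hUo : IsOpen U := ((o1.inter o2).inter (o3.inter o4)).preimage BX.continuous_val
  refine ⟨{
    U := U
    U_open := hUo
    mem := ⟨⟨m1, m2⟩, m3, m4⟩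
    s0 := fun y => lin (io h f0).1 y.val
    s1 := fun y => lin (io h f1).1 y.val
    a := fun y => a y.val
    b := fun y => b y.val
    u := fun y => u y.val
    w := fun y => w y.val
    c := sl z
    c_inj := sl_inj h
    s0_hol := holF_of ρ' fun y _ => (differentiable_lin _) _
    s1_hol := holF_of ρ' fun y _ => (differentiable_lin _) _
    a_hol := holF_of ρ' fun y hy => d1.differentiableAt (o1.mem_nhds hy.1.1)
    b_hol := holF_of ρ' fun y hy => d2.differentiableAt (o2.mem_nhds hy.1.2)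
    u_hol := holF_of ρ' fun y hy => d3.differentiableAt (o3.mem_nhds hy.2.1)
    w_hol := holF_of ρ' fun y hy => d4.differentiableAt (o4.mem_nhds hy.2.2)
    a_ne := fun y hy => n1 _ hy.1.1
    b_ne := fun y hy => n2 _ hy.1.2
    u_ne := fun y hy => n3 _ hy.2.1
    w_ne := fun y hy => n4 _ hy.2.2
    ef := fun y hy => by rw [e1 _ hy.1.1, mul_comm]
    ex := fun y hy => by
      rw [e2 _ hy.1.2, mul_comm]
      rfl
    eP := fun y hy => by rw [e3 _ hy.2.1, mul_comm]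
    eQ := fun y hy => by rw [e4 _ hy.2.2, mul_comm] }, rfl, rfl⟩

end flat

end

end Crest.Agent.R272.GI_620
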