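import Crest.Agent.R272.GLoc5_620
import Crest.Agent.R272.GInG2_502

/-!
Row 272, GINST-LOC (helper620), part 6: the base cluster point (centre of the ball) and the swap.
-/

set_option autoImplicit false
set_option linter.unusedSectionVars false

open Set Filter Topology Matrix
open scoped ComplexConjugate

namespace Crest.Agent.R272.GI_620

open Crest.Agent.R272.EBase_641 Crest.Agent.R272.GLoc_620
open Crest.Agent.R272.Cls_620 Crest.Agent.R272.Quot_783
open Crest.Agent.R272.In_68 (Z5r io rho)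
open Crest.Agent.R272.Gr_559 (Pen GData SNC)
open Crest.Agent.R272.GInG_502 (swG swT)
open Crest.Agent.R272.O5_74 (swp)

noncomputable section

variable {O : Subring (Fin 2 → ℂ)} {z μ : Fin 2 → ℂ}

/-! ### standard flats -/

lemma base_in (h : Z5 O z) (a : Lb) : base z a ∈ VV O z μ a :=
  ⟨base_mem h a, Cg.refl _ _, rfl⟩

/-- the standard flat of colour `i`. -/
lemma flat_std (h : Z5 O z) (i : Bool) : Flat O z μ i Cls_620.e0 (ei i) where
  m0 := base_in h .o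
  m1 := base_in h (.n i)
  orth := hh_eie0 i
  mv := fun j => base_in h (.v i j)

/-! ### the linear forms -/

lemma ww_eq (i : Fin 3) : In_68.ww z i.castSucc 0 = In_68.ww z 0 0 := by
  unfold In_68.ww In_68.rr
  fin_cases i <;> simp [HH]

lemma lin_io_eq (h : Z5r O z) (v : Fin 4 → Fin 2 → ℂ) (w : E 3) :
    lin (io h v).1 w = (In_68.ww z 0 0 : ℂ) *
        (w 0 * conj (v 0 0) + w 1 * conj (v 1 0) + w 2 * conj (v 2 0)) -
      (In_68.ww z 3 0 : ℂ) * conj (v 3 0) := by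
  rw [lin, In_68.io_fst, PiLp.inner_apply, Fin.sum_univ_three, In_68.P0_snd, In_68.P0_fst,
    In_68.P0_fst, In_68.P0_fst, ww_eq, ww_eq, ww_eq]
  simp only [RCLike.inner_apply, map_mul, Complex.conj_ofReal]
  show w 0 * ((In_68.ww z 0 0 : ℂ) * conj (v 0 0)) + w 1 * ((In_68.ww z 0 0 : ℂ) * conj (v 1 0)) +
    w 2 * ((In_68.ww z 0 0 : ℂ) * conj (v 2 0)) - (In_68.ww z 3 0 : ℂ) * conj (v 3 0) = _
  ring

lemma lin_e0 (h : Z5r O z) (w : E 3) :
    lin (io h Cls_620.e0).1 w = (In_68.ww z 0 0 : ℂ) * w 0 := by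
  rw [lin_io_eq]; simp [Cls_620.e0]

lemma lin_e1 (h : Z5r O z) (w : E 3) :
    lin (io h (ei false)).1 w = (In_68.ww z 0 0 : ℂ) * w 1 := by
  rw [lin_io_eq]; simp [ei, Cls_620.e1]

lemma lin_e2 (h : Z5r O z) (w : E 3) :
    lin (io h (ei true)).1 w = (In_68.ww z 0 0 : ℂ) * w 2 := by
  rw [lin_io_eq]; simp [ei, Cls_620.e2]

lemma zero_mem_Ball : (0 : E 3) ∈ Ball 3 := by simp [Ball]

lemma perp_e0 (h : Z5r O z) : Perp z (pt h 0) Cls_620.e0 := by
  rw [perp_iff, lin_e0]; simp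

lemma perp_ei (h : Z5r O z) (i : Bool) : Perp z (pt h 0) (ei i) := by
  rw [perp_iff]
  cases i
  · rw [lin_e1]; simp
  · rw [lin_e2]; simp

/-! ### the swap on the ball -/

lemma ev_swp (h : Z5r O z) (x : Fin 4 → ℂ) :
    In_68.ev 0 swp *ᵥ x = ![x 0, x 2, x 1, x 3] := by
  have h1 := In_68.at_mulVec swp (fun i (_ : Fin 2) => x i) 0
  have h2 : In_68.at' (fun i (_ : Fin 2) => x i) 0 = x := rfl
  rw [h2] at h1
  rw [← h1, GInG_502.swp_rf h, rf_mi]
  funext i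
  fin_cases i <;> rfl

lemma rho_sw (h : Z5r O z) (w : E 3) :
    ((rho h (swG h)).1 ((w, 1) : V1 3)) =
      ((WithLp.toLp 2 ![w 0, w 2, w 1] : E 3), (1 : ℂ)) := by
  have hne : (In_68.ww z 0 0 : ℂ) ≠ 0 := by exact_mod_cast (In_68.ww_pos h 0 0).ne'
  have hP := P0_pt h w
  have hx : ∀ i : Fin 3, (In_68.ww z 0 0 : ℂ) * pt h w i.castSucc = w i := by
    intro i
    have h1 := In_68.P0_fst h (pt h w) i
    rw [hP, ww_eq] at h1
    exact h1.symm
  have hx3 : (In_68.ww z 3 0 : ℂ) * pt h w 3 = 1 := by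
    have h1 := In_68.P0_snd h (pt h w)
    rw [hP] at h1
    exact h1.symm
  conv_lhs => rw [← hP]
  rw [In_68.rho_P0]
  have e : In_68.gl 0 ((swG h : In_68.GU O z) : In_68.Mtˣ) (pt h w)
      = ![pt h w 0, pt h w 2, pt h w 1, pt h w 3] := ev_swp h _
  rw [e]
  refine Prod.ext ?_ ?_
  · ext i
    rw [In_68.P0_fst, ww_eq]
    fin_cases i
    · exact hx 0
    · exact hx 2
    · exact hx 1
  · exact hx3

/-- the automorphy factor of the swap is one. -/
lemma jj_sw (h : Z5r O z) (w : E 3) : jj (rho h (swG h)) w = 1 := by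
  rw [jj, rho_sw]

/-- the swap on the ball. -/
lemma act_sw (h : Z5r O z) (w : E 3) :
    act (rho h (swG h)) w = (WithLp.toLp 2 ![w 0, w 2, w 1] : E 3) := by
  rw [act, jj_sw, inv_one, one_smul, rho_sw]

lemma act_sw_zero (h : Z5r O z) : act (rho h (swG h)) 0 = 0 := by
  rw [act_sw]
  ext i
  fin_cases i <;> rfl

lemma s0_sw (h : Z5r O z) (w : E 3) :
    lin (io h Cls_620.e0).1 (act (rho h (swG h)) w) = lin (io h Cls_620.e0).1 w := by
  rw [lin_e0, lin_e0, act_sw]; rfl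

lemma s1_sw (h : Z5r O z) (w : E 3) :
    lin (io h (ei false)).1 (act (rho h (swG h)) w) = lin (io h (ei true)).1 w := by
  rw [lin_e1, lin_e2, act_sw]; rfl

lemma s2_sw (h : Z5r O z) (w : E 3) :
    lin (io h (ei true)).1 (act (rho h (swG h)) w) = lin (io h (ei false)).1 w := by
  rw [lin_e1, lin_e2, act_sw]; rfl

/-! ### the pens at the base point -/

section pens

variable (h : Z5r O z)
variable {G : Type} [Group G] {ρ : G →* UG 3} {kk : ℕ} (R : ∀ a : Lb, Root 3 kk ρ (SS h μ a))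
variable {Γ : Type} [Group Γ] (ρ' : Γ →* UG 3)

/-- normal form at a flat, with the slopes. -/
lemma pen_exists' (hD : Deep O z μ 2) {i : Bool} {f0 f1 : Fin 4 → Fin 2 → ℂ} {x : BX ρ'}
    (hf : Flat O z μ i f0 f1)
    (hf0 : Perp z (pt h x.val) f0) (hf1 : Perp z (pt h x.val) f1) :
    ∃ p : Pen (ballFam ρ') (fun y => (R .o).f y.val) (fun y => (R (.v i 0)).f y.val)
        (fun y => FP h R i y.val) (fun y => FQ h R i y.val) x,
      p.s0 = (fun y => lin (io h f0).1 y.val) ∧ p.s1 = (fun y => lin (io h f1).1 y.val) ∧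
        p.c = sl z := by
  obtain ⟨a, V1, o1, m1, d1, n1, e1⟩ := IsUM.nbhd (root_L h hD (R .o) x.mem hf.m0 hf0)
  obtain ⟨b, V2, o2, m2, d2, n2, e2⟩ := IsUM.nbhd (flat_v h R hD x.mem hf hf0 hf1 0)
  obtain ⟨u, V3, o3, m3, d3, n3, e3⟩ := IsUM.nbhd (flat_P h R hD x.mem hf hf0 hf1)
  obtain ⟨w, V4, o4, m4, d4, n4, e4⟩ := IsUM.nbhd (flat_Q h R hD x.mem hf hf0 hf1)
  set U : Set (BX ρ') := BX.val ⁻¹' (V1 ∩ V2 ∩ (V3 ∩ V4)) with hU
  have hUo : IsOpen U := ((o1.inter o2).inter (o3.inter o4)).preimage BX.continuous_val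
  refine ⟨{
    U := U
    U_open := hUo
    mem := ⟨⟨m1, m2⟩, m3, m4⟩
    s0 := fun y => lin (io h f0).1 y.val
    s1 := fun y => lin (io h f1).1 y.val
    a := fun y => a y.val
    b := fun y => b y.val
    u := fun y => u y.val
    w := fun y => w y.val
    c := sl z
    c_inj := sl_inj h
    s0_hol := holF_of ρ' fun y _ => (differentiable_lin _) _
    s1_hol := holF_of ρ' fun y _ => (differentiable_lin _) _
    a_hol := holF_of ρ' fun y hy => d1.differentiableAt (o1.mem_nhds hy.1.1)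
    b_hol := holF_of ρ' fun y hy => d2.differentiableAt (o2.mem_nhds hy.1.2)
    u_hol := holF_of ρ' fun y hy => d3.differentiableAt (o3.mem_nhds hy.2.1)
    w_hol := holF_of ρ' fun y hy => d4.differentiableAt (o4.mem_nhds hy.2.2)
    a_ne := fun y hy => n1 _ hy.1.1
    b_ne := fun y hy => n2 _ hy.1.2
    u_ne := fun y hy => n3 _ hy.2.1
    w_ne := fun y hy => n4 _ hy.2.2
    ef := fun y hy => by rw [e1 _ hy.1.1, mul_comm]
    ex := fun y hy => by
      rw [e2 _ hy.1.2, mul_comm]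
      rfl
    eP := fun y hy => by rw [e3 _ hy.2.1, mul_comm]
    eQ := fun y hy => by rw [e4 _ hy.2.2, mul_comm] }, rfl, rfl, rfl⟩

/-- the base cluster point. -/
def q0 : BX ρ' := BX.mk ρ' 0 zero_mem_Ball

lemma q0_val : (q0 ρ').val = 0 := rfl

/-- **the pens at the base cluster point**. -/
theorem base_pens (hμ : μ ∈ O) (hD : Deep O z μ 2) :
    ∃ (p : Pen (ballFam ρ') (gdata h R ρ' hμ hD).f0 ((gdata h R ρ' hμ hD).x 0)
          ((gdata h R ρ' hμ hD).P 0) ((gdata h R ρ' hμ hD).Q 0) (q0 ρ'))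
      (p' : Pen (ballFam ρ') (gdata h R ρ' hμ hD).f0 ((gdata h R ρ' hμ hD).x 1)
          ((gdata h R ρ' hμ hD).P 1) ((gdata h R ρ' hμ hD).Q 1) (q0 ρ')),
      p.c = sl z ∧ p'.c = sl z ∧
      p.s0 = (fun y => lin (io h Cls_620.e0).1 y.val) ∧
      p'.s0 = (fun y => lin (io h Cls_620.e0).1 y.val) ∧
      p.s1 = (fun y => lin (io h (ei false)).1 y.val) ∧
      p'.s1 = (fun y => lin (io h (ei true)).1 y.val) ∧
      SNC (ballFam ρ') (q0 ρ') ![p.s0, p.s1, p'.s1] := by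
  have hf := flat_std (μ := μ) h.toZ5 false
  have hg := flat_std (μ := μ) h.toZ5 true
  have h0 : Perp z (pt h (q0 ρ').val) Cls_620.e0 := perp_e0 h
  have h1 : Perp z (pt h (q0 ρ').val) (ei false) := perp_ei h false
  have h2 : Perp z (pt h (q0 ρ').val) (ei true) := perp_ei h true
  obtain ⟨p, e0, e1, ec⟩ := pen_exists' h R ρ' hD hf h0 h1
  obtain ⟨p', e0', e1', ec'⟩ := pen_exists' h R ρ' hD hg h0 h2
  refine ⟨p, p', ec, ec', e0, e0', e1, e1', ?_⟩
  rw [e0, e1, e1']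
  have h3 := snc_of ρ' (q := q0 ρ') (snc_clu h hD (q0 ρ').mem hf hg h0 h1 h2)
  convert h3 using 1
  funext k
  fin_cases k <;> rfl

/-- the functions vanish at the base point. -/
theorem base_zero (hμ : μ ∈ O) (hD : Deep O z μ 2) :
    (gdata h R ρ' hμ hD).f0 (q0 ρ') = 0 ∧ ∀ i, (gdata h R ρ' hμ hD).x i (q0 ρ') = 0 := by
  have hf : ∀ i, FlatAt O z μ i (pt h (q0 ρ').val) := fun i =>
    ⟨_, _, flat_std h.toZ5 i, perp_e0 h, perp_ei h i⟩
  refine ⟨((flat_iff h R hD (q0 ρ').mem false).mpr (hf false)).1, fun i => ?_⟩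
  exact ((flat_iff h R hD (q0 ρ').mem (col i)).mpr (hf _)).2

end pens

/-- **stabiliser of the base point**. -/
theorem base_stab (h : Z5r O z) {K : Subgroup (In_68.GU O z)} (D : GInG_502.SwD K (swG h))
    (hμ : μ ∈ O) (hN : 64 < ∏ t, ‖(Cls_620.pz z * μ) t‖) (h2 : ∃ c ∈ O, μ = 2 * c)
    (hKν : ∀ g ∈ K, (g : In_68.Mtˣ) ∈ In_68.GC O z (Cls_620.pz z * μ)) {g : In_68.GU O z}
    (hg : g ∈ D.Gh) (hf : act (rho h g) 0 = 0) : g = 1 ∨ g = swG h := by
  rcases GInG_502.fix_Gh h D hμ hN h2 hKν hg zero_mem_Ball hf with h1 | ⟨h1, -⟩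
  · exact Or.inl h1
  · right
    have hs : swG h ∈ D.Gh := Or.inr (by rw [D.sq]; exact K.one_mem)
    exact GInG_502.fix_unique h D hμ hN hKν hs hg D.nmem h1 zero_mem_Ball (act_sw_zero h) hf

end

end Crest.Agent.R272.GI_620
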