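import Mathlib

set_option autoImplicit false

/-!
# Row 272, leaf GS-ALG: the Golod-Shafarevich inequality for quotients of free products of
copies of `Z` and `Z/2`, in the discrete group algebra.  (helper66)
-/

namespace Crest.Agent.R272.GSAlg_66

open MonoidAlgebra Module

noncomputable section

section Basic

variable (k : Type*) [Field k] (G : Type*) [Group G]

/-- The augmentation of the group algebra. -/
def aug : MonoidAlgebra k G →ₐ[k] k := MonoidAlgebra.lift k k G 1

/-- The augmentation ideal, as a `k`-submodule. -/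
def Delta : Submodule k (MonoidAlgebra k G) := LinearMap.ker (aug k G).toLinearMap

/-- The powers of the augmentation ideal (the zeroth one is the whole algebra). -/
def F (n : ℕ) : Submodule k (MonoidAlgebra k G) := ⊤ * (Delta k G) ^ n

variable {k G}

@[simp] lemma aug_of (g : G) : aug k G (of k G g) = 1 := by
  simp [aug]

lemma mem_Delta {x : MonoidAlgebra k G} : x ∈ Delta k G ↔ aug k G x = 0 := by
  simp [Delta]

lemma of_sub_one_mem (g : G) : of k G g - 1 ∈ Delta k G := by
  rw [mem_Delta]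
  simp only [map_sub, aug_of, map_one, sub_self]

lemma mul_mem_Delta_left (a : MonoidAlgebra k G) {x : MonoidAlgebra k G} (hx : x ∈ Delta k G) :
    a * x ∈ Delta k G := by
  rw [mem_Delta] at *
  simp [hx]

lemma mul_mem_Delta_right (a : MonoidAlgebra k G) {x : MonoidAlgebra k G} (hx : x ∈ Delta k G) :
    x * a ∈ Delta k G := by
  rw [mem_Delta] at *
  simp [hx]

lemma top_mul_Delta : (⊤ : Submodule k (MonoidAlgebra k G)) * Delta k G = Delta k G := by
  apply le_antisymm
  · rw [Submodule.mul_le]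
    intro a _ x hx
    exact mul_mem_Delta_left a hx
  · intro x hx
    have := Submodule.mul_mem_mul (M := (⊤ : Submodule k (MonoidAlgebra k G)))
      (N := Delta k G) (m := 1) (n := x) trivial hx
    simpa using this

lemma Delta_mul_top : Delta k G * (⊤ : Submodule k (MonoidAlgebra k G)) = Delta k G := by
  apply le_antisymm
  · rw [Submodule.mul_le]
    intro a ha x hx
    exact mul_mem_Delta_right x ha
  · intro x hx
    have := Submodule.mul_mem_mul (M := Delta k G)
      (N := (⊤ : Submodule k (MonoidAlgebra k G))) (m := x) (n := 1) hx trivial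
    simpa using this

lemma top_mul_top : (⊤ : Submodule k (MonoidAlgebra k G)) * ⊤ = ⊤ := by
  apply le_antisymm le_top
  intro x _
  have := Submodule.mul_mem_mul (M := (⊤ : Submodule k (MonoidAlgebra k G)))
      (N := (⊤ : Submodule k (MonoidAlgebra k G))) (m := x) (n := 1) trivial trivial
  simpa using this

@[simp] lemma F_zero : F k G 0 = ⊤ := by
  simp [F]

lemma F_succ (n : ℕ) : F k G (n + 1) = F k G n * Delta k G := by
  simp [F, pow_succ, mul_assoc]

@[simp] lemma F_one : F k G 1 = Delta k G := by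
  rw [F_succ, F_zero, top_mul_Delta]

lemma F_succ_eq (n : ℕ) : F k G (n + 1) = Delta k G ^ (n + 1) := by
  rw [F, pow_succ', ← mul_assoc, top_mul_Delta]

lemma F_mul (m n : ℕ) : F k G m * F k G n = F k G (m + n) := by
  induction n with
  | zero =>
    rcases m with _ | m
    · simp [top_mul_top]
    · rw [F_zero, F_succ, mul_assoc, Delta_mul_top]
  | succ n ih => rw [F_succ, ← mul_assoc, ih, ← add_assoc, F_succ]

lemma mul_mem_F {m n : ℕ} {x y : MonoidAlgebra k G} (hx : x ∈ F k G m) (hy : y ∈ F k G n) :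
    x * y ∈ F k G (m + n) := by
  rw [← F_mul]
  exact Submodule.mul_mem_mul hx hy

lemma mul_mem_F_left {n : ℕ} (a : MonoidAlgebra k G) {x : MonoidAlgebra k G}
    (hx : x ∈ F k G n) : a * x ∈ F k G n := by
  have := mul_mem_F (m := 0) (x := a) (by simp) hx
  simpa using this

lemma mul_mem_F_right {n : ℕ} (a : MonoidAlgebra k G) {x : MonoidAlgebra k G}
    (hx : x ∈ F k G n) : x * a ∈ F k G n := by
  have := mul_mem_F (n := 0) (y := a) hx (by simp)
  simpa using this

lemma F_succ_le (n : ℕ) : F k G (n + 1) ≤ F k G n := by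
  rw [F_succ, Submodule.mul_le]
  intro x hx y _
  exact mul_mem_F_right y hx

lemma F_anti : Antitone (F k G) := antitone_nat_of_succ_le F_succ_le

lemma pow_mem_F {x : MonoidAlgebra k G} (hx : x ∈ Delta k G) (n : ℕ) : x ^ n ∈ F k G n := by
  induction n with
  | zero => simp
  | succ n ih =>
    rw [pow_succ, F_succ]
    exact Submodule.mul_mem_mul ih hx

/-- `F n` as a left ideal. -/
def FI (n : ℕ) : Submodule (MonoidAlgebra k G) (MonoidAlgebra k G) where
  carrier := F k G n
  add_mem' := fun ha hb => (F k G n).add_mem ha hb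
  zero_mem' := (F k G n).zero_mem
  smul_mem' := fun a x hx => by
    rw [smul_eq_mul]
    exact mul_mem_F_left a hx

@[simp] lemma mem_FI {n : ℕ} {x : MonoidAlgebra k G} :
    x ∈ (FI n : Submodule (MonoidAlgebra k G) (MonoidAlgebra k G)) ↔ x ∈ F k G n := Iff.rfl

lemma span_of : Submodule.span k (Set.range (of k G)) = ⊤ := by
  rw [eq_top_iff]
  intro x _
  induction x using MonoidAlgebra.induction_linear with
  | zero => exact Submodule.zero_mem _
  | add x y hx hy => exact Submodule.add_mem _ (hx trivial) (hy trivial)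
  | single g c =>
    have h : MonoidAlgebra.single g c = c • of k G g := by
      simp [of_apply]
    rw [h]
    exact Submodule.smul_mem _ _ (Submodule.subset_span ⟨g, rfl⟩)

/-- Linear induction along group elements. -/
lemma induction_of {motive : MonoidAlgebra k G → Prop} (x : MonoidAlgebra k G)
    (h0 : motive 0) (hof : ∀ g, motive (of k G g))
    (hadd : ∀ x y, motive x → motive y → motive (x + y))
    (hsmul : ∀ (c : k) x, motive x → motive (c • x)) : motive x := by
  induction x using MonoidAlgebra.induction_linear with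
  | zero => exact h0
  | add x y hx hy => exact hadd x y hx hy
  | single g c =>
    have h : MonoidAlgebra.single g c = c • of k G g := by
      simp [of_apply]
    rw [h]
    exact hsmul _ _ (hof g)

lemma decomp (x : MonoidAlgebra k G) :
    x - algebraMap k (MonoidAlgebra k G) (aug k G x) ∈ Delta k G := by
  rw [mem_Delta, map_sub, AlgHom.commutes]
  simp

end Basic

section Gen

variable {k : Type*} [Field k] {G : Type*} [Group G] {ι : Type*} [Fintype ι]

/-- every element of the augmentation ideal is a left combination of the `g_i - 1`. -/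
lemma exists_coeffs (g : ι → G) (hg : Subgroup.closure (Set.range g) = ⊤)
    {x : MonoidAlgebra k G} (hx : x ∈ Delta k G) :
    ∃ a : ι → MonoidAlgebra k G, x = ∑ i, a i * (of k G (g i) - 1) := by
  classical
  -- first for group elements
  have key : ∀ h : G, ∃ a : ι → MonoidAlgebra k G,
      of k G h - 1 = ∑ i, a i * (of k G (g i) - 1) := by
    intro h
    have hh : h ∈ Subgroup.closure (Set.range g) := by rw [hg]; trivial
    induction hh using Subgroup.closure_induction with
    | mem x hx =>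
      obtain ⟨i, rfl⟩ := hx
      refine ⟨Pi.single i 1, ?_⟩
      rw [Finset.sum_eq_single i]
      · simp
      · intro j _ hj
        simp [Pi.single_eq_of_ne hj]
      · intro hi
        exact absurd (Finset.mem_univ i) hi
    | one => exact ⟨0, by rw [map_one]; simp⟩
    | mul x y hx hy hx' hy' =>
      obtain ⟨a, ha⟩ := hx'
      obtain ⟨b, hb⟩ := hy'
      refine ⟨fun i => a i + of k G x * b i, ?_⟩
      have e : of k G (x * y) - 1 = (of k G x - 1) + of k G x * (of k G y - 1) := by
        rw [map_mul]; noncomm_ring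
      rw [e, ha, hb, Finset.mul_sum, ← Finset.sum_add_distrib]
      refine Finset.sum_congr rfl fun i _ => ?_
      noncomm_ring
    | inv x hx hx' =>
      obtain ⟨a, ha⟩ := hx'
      refine ⟨fun i => - of k G x⁻¹ * a i, ?_⟩
      have e : of k G x⁻¹ - 1 = - of k G x⁻¹ * (of k G x - 1) := by
        have : of k G x⁻¹ * of k G x = 1 := by rw [← map_mul, inv_mul_cancel, map_one]
        rw [mul_sub, neg_mul, this]
        noncomm_ring
      rw [e, ha, Finset.mul_sum]
      refine Finset.sum_congr rfl fun i _ => ?_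
      rw [mul_assoc]
  -- general element: x = x - aug x = linear combination of h - 1
  have gen : ∀ x : MonoidAlgebra k G, ∃ a : ι → MonoidAlgebra k G,
      x - algebraMap k (MonoidAlgebra k G) (aug k G x) = ∑ i, a i * (of k G (g i) - 1) := by
    intro x
    induction x using induction_of with
    | h0 => exact ⟨0, by simp⟩
    | hof h =>
      obtain ⟨a, ha⟩ := key h
      refine ⟨a, ?_⟩
      rw [← ha, aug_of, map_one]
    | hadd x y hx hy =>
      obtain ⟨a, ha⟩ := hx
      obtain ⟨b, hb⟩ := hy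
      refine ⟨a + b, ?_⟩
      simp only [Pi.add_apply, add_mul, Finset.sum_add_distrib, ← ha, ← hb, map_add]
      noncomm_ring
    | hsmul c x hx =>
      obtain ⟨a, ha⟩ := hx
      refine ⟨c • a, ?_⟩
      simp only [Pi.smul_apply, smul_mul_assoc, ← Finset.smul_sum, ← ha, map_smul, smul_sub,
        smul_eq_mul, map_mul]
      rw [Algebra.smul_def c (algebraMap k (MonoidAlgebra k G) (aug k G x))]
  obtain ⟨a, ha⟩ := gen x
  refine ⟨a, ?_⟩
  rw [mem_Delta] at hx
  rw [← ha, hx]; simp

lemma exists_coeffs_F (g : ι → G) (hg : Subgroup.closure (Set.range g) = ⊤) (n : ℕ)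
    {x : MonoidAlgebra k G} (hx : x ∈ F k G (n + 1)) :
    ∃ a : ι → MonoidAlgebra k G, (∀ i, a i ∈ F k G n) ∧ x = ∑ i, a i * (of k G (g i) - 1) := by
  rw [F_succ] at hx
  induction hx using Submodule.mul_induction_on' with
  | mem_mul_mem m hm y hy =>
    obtain ⟨a, ha⟩ := exists_coeffs g hg hy
    refine ⟨fun i => m * a i, fun i => mul_mem_F_right _ hm, ?_⟩
    rw [ha, Finset.mul_sum]
    exact Finset.sum_congr rfl fun i _ => by rw [mul_assoc]
  | add x _ y _ hx hy =>
    obtain ⟨a, ha, ha'⟩ := hx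
    obtain ⟨b, hb, hb'⟩ := hy
    refine ⟨a + b, fun i => add_mem (ha i) (hb i), ?_⟩
    rw [ha', hb', ← Finset.sum_add_distrib]
    exact Finset.sum_congr rfl fun i _ => by simp [add_mul]

lemma finiteDim (g : ι → G) (hg : Subgroup.closure (Set.range g) = ⊤) (n : ℕ) :
    FiniteDimensional k (MonoidAlgebra k G ⧸ F k G n) := by
  classical
  induction n with
  | zero =>
    rw [F_zero]
    infer_instance
  | succ n ih =>
    -- surjection  k × (A/F n)^ι → A / F (n+1)
    let A := MonoidAlgebra k G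
    let r : ι → (A →ₗ[k] A ⧸ F k G (n + 1)) := fun i =>
      (F k G (n + 1)).mkQ ∘ₗ LinearMap.mulRight k (of k G (g i) - 1)
    have hr : ∀ i, F k G n ≤ LinearMap.ker (r i) := by
      intro i x hx
      rw [LinearMap.mem_ker]
      change (F k G (n + 1)).mkQ (x * (of k G (g i) - 1)) = 0
      rw [Submodule.mkQ_apply, Submodule.Quotient.mk_eq_zero, F_succ]
      exact Submodule.mul_mem_mul hx (of_sub_one_mem _)
    let s : ι → ((A ⧸ F k G n) →ₗ[k] A ⧸ F k G (n + 1)) := fun i =>
      (F k G n).liftQ (r i) (hr i)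
    let T : (k × (ι → A ⧸ F k G n)) →ₗ[k] A ⧸ F k G (n + 1) :=
      LinearMap.coprod ((F k G (n + 1)).mkQ ∘ₗ (Algebra.linearMap k A))
        (∑ i, (s i) ∘ₗ LinearMap.proj i)
    have hT : Function.Surjective T := by
      intro y
      obtain ⟨x, rfl⟩ := Submodule.mkQ_surjective _ y
      obtain ⟨a, ha⟩ := exists_coeffs g hg (decomp x)
      refine ⟨(aug k G x, fun i => (F k G n).mkQ (a i)), ?_⟩
      simp only [T, LinearMap.coprod_apply, LinearMap.comp_apply, Algebra.linearMap_apply,
        LinearMap.sum_apply, LinearMap.proj_apply]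
      have hs : ∀ i, s i ((F k G n).mkQ (a i)) =
          (F k G (n + 1)).mkQ (a i * (of k G (g i) - 1)) := by
        intro i
        simp only [s, Submodule.mkQ_apply, Submodule.liftQ_apply, r, LinearMap.comp_apply,
          LinearMap.mulRight_apply]
      simp only [hs, ← map_sum, ← ha, ← map_add]
      congr 1
      abel
    exact FiniteDimensional.of_surjective T hT

end Gen

section Crossed

variable {k : Type*} [Field k] {G Q : Type*} [Group G] [Group Q]

/-- The algebra homomorphism `k[G] → k[Q]` induced by a group homomorphism. -/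
def psh (k : Type*) [Field k] {G Q : Type*} [Group G] [Group Q] (π : G →* Q) :
    MonoidAlgebra k G →ₐ[k] MonoidAlgebra k Q :=
  MonoidAlgebra.lift k (MonoidAlgebra k Q) G ((of k Q).comp π)

@[simp] lemma psh_of (π : G →* Q) (g : G) : psh k π (of k G g) = of k Q (π g) := by
  rw [psh, MonoidAlgebra.lift_of]; rfl

lemma aug_psh (π : G →* Q) (x : MonoidAlgebra k G) : aug k Q (psh k π x) = aug k G x := by
  induction x using induction_of with
  | h0 => simp
  | hof g => rw [psh_of, aug_of, aug_of]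
  | hadd x y hx hy => simp only [map_add, hx, hy]
  | hsmul c x hx => simp only [map_smul, hx]

lemma psh_mem_F (π : G →* Q) (n : ℕ) {x : MonoidAlgebra k G} (hx : x ∈ F k G n) :
    psh k π x ∈ F k Q n := by
  induction n generalizing x with
  | zero => simp
  | succ n ih =>
    rw [F_succ] at hx ⊢
    induction hx using Submodule.mul_induction_on' with
    | mem_mul_mem m hm y hy =>
      rw [map_mul]
      refine Submodule.mul_mem_mul (ih hm) ?_
      rw [mem_Delta, aug_psh]
      exact mem_Delta.1 hy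
    | add x _ y _ hx hy =>
      rw [map_add]
      exact add_mem hx hy

variable {M : Type*} [AddCommGroup M] [Module k M] [Module (MonoidAlgebra k Q) M]

/-- Crossed homomorphisms `G → M` over `π : G → Q`. -/
def IsCrossed (k : Type*) [Field k] {G Q : Type*} [Group G] [Group Q] {M : Type*}
    [AddCommGroup M] [Module (MonoidAlgebra k Q) M] (π : G →* Q) (D : G → M) : Prop :=
  ∀ g h, D (g * h) = D g + of k Q (π g) • D h

omit [Module k M] in
lemma IsCrossed.one {π : G →* Q} {D : G → M} (hD : IsCrossed k π D) : D 1 = 0 := by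
  have h := hD 1 1
  rw [map_one, map_one, one_smul, mul_one] at h
  exact left_eq_add.1 h

/-- `k`-linear extension of a function on `G`. -/
def Dlin (k : Type*) [Field k] {G : Type*} [Group G] {M : Type*} [AddCommGroup M] [Module k M]
    (D : G → M) : MonoidAlgebra k G →ₗ[k] M :=
  Finsupp.linearCombination k D ∘ₗ (MonoidAlgebra.coeffLinearEquiv k).toLinearMap

@[simp] lemma Dlin_of (D : G → M) (g : G) : Dlin k D (of k G g) = D g := by
  simp [Dlin, of_apply, MonoidAlgebra.coeffLinearEquiv]

lemma Dlin_mul [IsScalarTower k (MonoidAlgebra k Q) M] {π : G →* Q} {D : G → M}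
    (hD : IsCrossed k π D) (a b : MonoidAlgebra k G) :
    Dlin k D (a * b) = aug k G b • Dlin k D a + psh k π a • Dlin k D b := by
  induction a using induction_of with
  | h0 => simp
  | hof g =>
    induction b using induction_of with
    | h0 => simp
    | hof h =>
      rw [← map_mul, Dlin_of, Dlin_of, Dlin_of, aug_of, psh_of, hD, one_smul]
    | hadd x y hx hy =>
      rw [mul_add, map_add, hx, hy, map_add, map_add, add_smul, smul_add]
      abel
    | hsmul c x hx =>
      rw [mul_smul_comm, map_smul, hx, map_smul, map_smul, smul_add, smul_assoc,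
        smul_comm c (psh k π (of k G g))]
  | hadd x y hx hy =>
    rw [add_mul, map_add, hx, hy, map_add, map_add, add_smul, smul_add]
    abel
  | hsmul c x hx =>
    rw [smul_mul_assoc, map_smul, hx, map_smul, map_smul, smul_add, smul_assoc,
      smul_comm c (aug k G b)]

/-- If `F (n)` kills the module then a crossed homomorphism kills `F (n+1)`. -/
lemma Dlin_F [IsScalarTower k (MonoidAlgebra k Q) M] {π : G →* Q} {D : G → M}
    (hD : IsCrossed k π D) (n d : ℕ)
    (hM : ∀ a ∈ F k Q n, ∀ m : M, a • m = 0) (hd : 1 ≤ d) {τ : MonoidAlgebra k G}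
    (hτ : τ ∈ F k G d) {b : MonoidAlgebra k Q} (hb : b ∈ F k Q (n + 1 - d)) :
    b • Dlin k D τ = 0 := by
  obtain ⟨d, rfl⟩ : ∃ e, d = e + 1 := ⟨d - 1, by omega⟩
  rw [F_succ] at hτ
  induction hτ using Submodule.mul_induction_on' with
  | mem_mul_mem m hm y hy =>
    rw [Dlin_mul hD, mem_Delta.1 hy, zero_smul, zero_add, ← mul_smul]
    apply hM
    have h1 := mul_mem_F hb (psh_mem_F π d hm)
    exact F_anti (by omega) h1
  | add x _ y _ hx hy => rw [map_add, smul_add, hx, hy, add_zero]

lemma Dlin_F_zero [IsScalarTower k (MonoidAlgebra k Q) M] {π : G →* Q} {D : G → M}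
    (hD : IsCrossed k π D) (n : ℕ)
    (hM : ∀ a ∈ F k Q n, ∀ m : M, a • m = 0) {τ : MonoidAlgebra k G}
    (hτ : τ ∈ F k G (n + 1)) : Dlin k D τ = 0 := by
  have := Dlin_F (b := 1) hD n (n + 1) hM (by omega) hτ (by simp)
  simpa using this

omit [Module k M] in
/-- Crossed homomorphisms on free groups. -/
lemma exists_crossed_free {ι : Type*} (π : FreeGroup ι →* Q) (e : ι → M) :
    ∃ D : FreeGroup ι → M, IsCrossed k π D ∧ ∀ i, D (FreeGroup.of i) = e i := by
  let af : Q → M → Equiv.Perm M := fun q v =>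
    { toFun := fun m => of k Q q • m + v
      invFun := fun m => of k Q q⁻¹ • (m - v)
      left_inv := fun m => by
        simp only [add_sub_cancel_right, ← mul_smul, ← map_mul, inv_mul_cancel, map_one, one_smul]
      right_inv := fun m => by
        simp only [← mul_smul, ← map_mul, mul_inv_cancel, map_one, one_smul, sub_add_cancel] }
  let f : FreeGroup ι →* Equiv.Perm M := FreeGroup.lift fun i => af (π (FreeGroup.of i)) (e i)
  have hf : ∀ w m, f w m = of k Q (π w) • m + f w 0 := by
    intro w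
    induction w using FreeGroup.induction_on with
    | C1 => intro m; simp only [map_one, one_smul, Equiv.Perm.coe_one, id_eq, add_zero]
    | of i =>
      intro m
      simp only [f, FreeGroup.lift_apply_of, af, Equiv.coe_fn_mk, smul_zero, zero_add]
    | inv_of i ih =>
      intro m
      have h1 : ∀ y, f (FreeGroup.of i)⁻¹ y =
          of k Q (π (FreeGroup.of i))⁻¹ • (y - e i) := by
        intro y
        rw [map_inv]
        simp only [f, FreeGroup.lift_apply_of]
        rfl
      rw [h1, h1, map_inv π, zero_sub, smul_sub, smul_neg, sub_eq_add_neg]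
    | mul x y hx hy =>
      intro m
      rw [map_mul, Equiv.Perm.mul_apply, hy m, hx, Equiv.Perm.mul_apply, hx (f y 0), map_mul,
        map_mul, mul_smul, smul_add]
      abel
  refine ⟨fun w => f w 0, ?_, ?_⟩
  · intro g h
    change f (g * h) 0 = f g 0 + _ • f h 0
    rw [map_mul, Equiv.Perm.mul_apply, hf g (f h 0), add_comm]
  · intro i
    simp only [f, FreeGroup.lift_apply_of, af, Equiv.coe_fn_mk, smul_zero, zero_add]

omit [Module k M] in
/-- The normal subgroup on which a crossed homomorphism vanishes. -/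
def crKer {π : G →* Q} {D : G → M} (hD : IsCrossed k π D) : Subgroup G where
  carrier := {r | π r = 1 ∧ D r = 0}
  one_mem' := ⟨map_one _, hD.one⟩
  mul_mem' := by
    rintro a b ⟨ha, ha'⟩ ⟨hb, hb'⟩
    refine ⟨by rw [map_mul, ha, hb, one_mul], ?_⟩
    rw [hD, ha', hb', smul_zero, add_zero]
  inv_mem' := by
    rintro a ⟨ha, ha'⟩
    refine ⟨by rw [map_inv, ha, inv_one], ?_⟩
    have h := hD a⁻¹ a
    rw [inv_mul_cancel, hD.one, ha', smul_zero, add_zero] at h
    exact h.symm

omit [Module k M] in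
lemma crKer_normal {π : G →* Q} {D : G → M} (hD : IsCrossed k π D) : (crKer hD).Normal := by
  constructor
  rintro r ⟨hr, hr'⟩ g
  refine ⟨by rw [map_mul, map_mul, hr, mul_one, ← map_mul, mul_inv_cancel, map_one], ?_⟩
  have h := hD g g⁻¹
  rw [mul_inv_cancel, hD.one] at h
  rw [mul_assoc, hD, hD r, hr', hr, map_one, one_smul, zero_add]
  exact h.symm

omit [Module k M] in
/-- Descent of crossed homomorphisms to quotients given by relators. -/
lemma crossed_descend {P : Type*} [Group P] (q : P →* G) (hq : Function.Surjective q)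
    (R : Set P) (hR : q.ker = Subgroup.normalClosure R) (π : G →* Q) (D : P → M)
    (hD : IsCrossed k (π.comp q) D) (h0 : ∀ r ∈ R, D r = 0) :
    ∃ D' : G → M, IsCrossed k π D' ∧ ∀ p, D' (q p) = D p := by
  have hker : ∀ r ∈ q.ker, D r = 0 := by
    intro r hr
    rw [hR] at hr
    have := crKer_normal hD
    have hle : Subgroup.normalClosure R ≤ crKer hD := by
      apply Subgroup.normalClosure_le_normal
      intro x hx
      refine ⟨?_, h0 x hx⟩
      have : x ∈ q.ker := by rw [hR]; exact Subgroup.subset_normalClosure hx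
      rw [MonoidHom.comp_apply, MonoidHom.mem_ker.1 this, map_one]
    exact (hle hr).2
  choose s hs using hq
  have key : ∀ p, D (s (q p)) = D p := by
    intro p
    have h1 : s (q p) = p * (p⁻¹ * s (q p)) := by group
    have h2 : p⁻¹ * s (q p) ∈ q.ker := by
      rw [MonoidHom.mem_ker, map_mul, hs, map_inv, inv_mul_cancel]
    rw [h1, hD, hker _ h2, smul_zero, add_zero]
  refine ⟨fun g => D (s g), ?_, key⟩
  intro g h
  change D (s (g * h)) = D (s g) + _ • D (s h)
  have h1 : g * h = q (s g * s h) := by rw [map_mul, hs, hs]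
  rw [h1, key, hD, MonoidHom.comp_apply, hs]

end Crossed

section Core

variable {k : Type*} [Field k] {G Q : Type*} [Group G] [Group Q]

/-- The left ideal `F m + B (g + 1)` (second summand only if `s`), `B = k[Q]`. -/
def Kc (k : Type*) [Field k] {Q : Type*} [Group Q] (s : Prop) (g : Q) (m : ℕ) :
    Submodule (MonoidAlgebra k Q) (MonoidAlgebra k Q) :=
  FI m ⊔ Submodule.span (MonoidAlgebra k Q) {x | s ∧ x = of k Q g + 1}

lemma F_le_Kc (s : Prop) (g : Q) (m : ℕ) {x : MonoidAlgebra k Q} (hx : x ∈ F k Q m) :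
    x ∈ Kc k s g m := by
  exact Submodule.mem_sup_left (mem_FI.2 hx)

lemma Kc_false (g : Q) (m : ℕ) : Kc k False g m = FI m := by
  simp [Kc]

/-- `dim B / F m`. -/
def bdim (k : Type*) [Field k] (Q : Type*) [Group Q] (m : ℕ) : ℕ :=
  finrank k (MonoidAlgebra k Q ⧸ F k Q m)

/-- `dim B / (F m + B (g+1))`. -/
def betadim (k : Type*) [Field k] {Q : Type*} [Group Q] (s : Prop) (g : Q) (m : ℕ) : ℕ :=
  finrank k (MonoidAlgebra k Q ⧸ Kc k s g m)

lemma bdim_zero : bdim k Q 0 = 0 := by
  rw [bdim, F_zero]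
  exact finrank_zero_of_subsingleton

/-- quotient by `F m` maps onto quotient by `Kc`. -/
lemma fd_Kc {m : ℕ} (h : FiniteDimensional k (MonoidAlgebra k Q ⧸ F k Q m)) (s : Prop) (g : Q) :
    FiniteDimensional k (MonoidAlgebra k Q ⧸ Kc k s g m) := by
  let T : (MonoidAlgebra k Q ⧸ F k Q m) →ₗ[k] (MonoidAlgebra k Q ⧸ Kc k s g m) :=
    (F k Q m).liftQ ((Kc k s g m).mkQ.restrictScalars k) (by
      intro x hx
      rw [LinearMap.mem_ker, LinearMap.restrictScalars_apply, Submodule.mkQ_apply,
        Submodule.Quotient.mk_eq_zero]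
      exact F_le_Kc s g m hx)
  have hT : Function.Surjective T := by
    intro y
    obtain ⟨x, rfl⟩ := Submodule.mkQ_surjective _ y
    exact ⟨(F k Q m).mkQ x, rfl⟩
  exact FiniteDimensional.of_surjective T hT

/-- lifting a `k`-linear map to the quotient by a left ideal -/
def liftK {B : Type*} [Ring B] [Algebra k B] {M V : Type*} [AddCommGroup M] [Module k M]
    [Module B M] [IsScalarTower k B M] [AddCommGroup V] [Module k V] (K : Submodule B M)
    (f : M →ₗ[k] V) (hf : ∀ x ∈ K, f x = 0) : (M ⧸ K) →ₗ[k] V :=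
  ((K.restrictScalars k).liftQ f (fun x hx => hf x hx)) ∘ₗ
    (Submodule.Quotient.restrictScalarsEquiv k K).symm.toLinearMap

lemma liftK_mk {B : Type*} [Ring B] [Algebra k B] {M V : Type*} [AddCommGroup M] [Module k M]
    [Module B M] [IsScalarTower k B M] [AddCommGroup V] [Module k V] (K : Submodule B M)
    (f : M →ₗ[k] V) (hf : ∀ x ∈ K, f x = 0) (x : M) :
    liftK K f hf (K.mkQ x) = f x := rfl

lemma two_eq_zero [CharP k 2] : (2 : MonoidAlgebra k Q) = 0 := by
  have h : (2 : MonoidAlgebra k Q) = algebraMap k (MonoidAlgebra k Q) 2 := by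
    rw [map_ofNat]
  rw [h, CharTwo.two_eq_zero, map_zero]

lemma add_one_eq [CharP k 2] (g : Q) : of k Q g + 1 = of k Q g - 1 := by
  have h2 : of k Q g + 1 = of k Q g - 1 + 2 := by
    rw [show (2 : MonoidAlgebra k Q) = 1 + 1 from one_add_one_eq_two.symm]
    abel
  rw [h2, two_eq_zero, add_zero]

lemma add_one_sq [CharP k 2] (g : Q) (hg : g ^ 2 = 1) :
    (of k Q g + 1) * (of k Q g + 1) = 0 := by
  have h1 : of k Q g * of k Q g = 1 := by rw [← map_mul, ← pow_two, hg, map_one]
  have h2 : (of k Q g + 1) * (of k Q g + 1) = of k Q g * of k Q g + 2 * of k Q g + 1 := by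
    rw [show (2 : MonoidAlgebra k Q) = 1 + 1 from one_add_one_eq_two.symm]
    noncomm_ring
  rw [h2, h1, two_eq_zero, zero_mul, add_zero, one_add_one_eq_two, two_eq_zero]

/-- `dim B/(F m) ≤ dim B/(F m + B(g+1)) + dim B/(F (m-1) + B (g+1))` in characteristic two, for an
involution `g`. -/
lemma bdim_le_betadim [CharP k 2] {s : Prop} (hs : s) (g : Q) (hg : g ^ 2 = 1) (m : ℕ)
    (h1 : FiniteDimensional k (MonoidAlgebra k Q ⧸ F k Q (m + 1)))
    (h0 : FiniteDimensional k (MonoidAlgebra k Q ⧸ F k Q m)) :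
    bdim k Q (m + 1) ≤ betadim k s g (m + 1) + betadim k s g m := by
  have f1 := fd_Kc h1 s g
  have f0 := fd_Kc h0 s g
  let T : (MonoidAlgebra k Q ⧸ F k Q (m + 1)) →ₗ[k] (MonoidAlgebra k Q ⧸ Kc k s g (m + 1)) :=
    (F k Q (m + 1)).liftQ ((Kc k s g (m + 1)).mkQ.restrictScalars k) (by
      intro x hx
      rw [LinearMap.mem_ker, LinearMap.restrictScalars_apply, Submodule.mkQ_apply,
        Submodule.Quotient.mk_eq_zero]
      exact F_le_Kc s g (m + 1) hx)
  have hker0 : ∀ x ∈ Kc k s g m, ((F k Q (m + 1)).mkQ ∘ₗ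
      LinearMap.mulRight k (of k Q g + 1)) x = 0 := by
    intro x hx
    rw [LinearMap.comp_apply, LinearMap.mulRight_apply, Submodule.mkQ_apply,
        Submodule.Quotient.mk_eq_zero]
    rw [Kc, Submodule.mem_sup] at hx
    obtain ⟨y, hy, z, hz, rfl⟩ := hx
    rw [add_mul]
    refine add_mem ?_ ?_
    · rw [add_one_eq, F_succ]
      exact Submodule.mul_mem_mul (mem_FI.1 hy) (of_sub_one_mem g)
    · have hset : {x | s ∧ x = of k Q g + 1} = {of k Q g + 1} := by
        ext x; simp [hs]
      rw [hset, Submodule.mem_span_singleton] at hz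
      obtain ⟨b, rfl⟩ := hz
      rw [smul_eq_mul, mul_assoc, add_one_sq g hg, mul_zero]
      exact Submodule.zero_mem _
  let ρ : (MonoidAlgebra k Q ⧸ Kc k s g m) →ₗ[k] (MonoidAlgebra k Q ⧸ F k Q (m + 1)) :=
    liftK (Kc k s g m) _ hker0
  have hle : LinearMap.ker T ≤ LinearMap.range ρ := by
    intro x hx
    obtain ⟨x, rfl⟩ := Submodule.mkQ_surjective _ x
    rw [LinearMap.mem_ker] at hx
    have hx' : (Kc k s g (m + 1)).mkQ x = 0 := hx
    rw [Submodule.mkQ_apply, Submodule.Quotient.mk_eq_zero, Kc, Submodule.mem_sup] at hx'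
    obtain ⟨y, hy, z, hz, rfl⟩ := hx'
    have hset : {x | s ∧ x = of k Q g + 1} = {of k Q g + 1} := by
      ext x; simp [hs]
    rw [hset, Submodule.mem_span_singleton] at hz
    obtain ⟨b, rfl⟩ := hz
    refine ⟨(Kc k s g m).mkQ b, ?_⟩
    have e1 : ρ ((Kc k s g m).mkQ b) = (F k Q (m + 1)).mkQ (b * (of k Q g + 1)) := rfl
    rw [e1, map_add, smul_eq_mul]
    have : (F k Q (m + 1)).mkQ y = 0 := by
      rw [Submodule.mkQ_apply, Submodule.Quotient.mk_eq_zero]
      exact mem_FI.1 hy
    rw [this, zero_add]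
  have hd := LinearMap.finrank_range_add_finrank_ker T
  have hr1 : finrank k (LinearMap.range T) ≤ betadim k s g (m + 1) :=
    Submodule.finrank_le _
  have hr2 : finrank k (LinearMap.ker T) ≤ finrank k (LinearMap.range ρ) :=
    Submodule.finrank_mono hle
  have hr3 : finrank k (LinearMap.range ρ) ≤ betadim k s g m := LinearMap.finrank_range_le ρ
  have hb : bdim k Q (m + 1) = finrank k (MonoidAlgebra k Q ⧸ F k Q (m + 1)) := rfl
  omega

lemma betadim_le_bdim {m : ℕ} (h : FiniteDimensional k (MonoidAlgebra k Q ⧸ F k Q m)) (s : Prop)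
    (g : Q) : betadim k s g m ≤ bdim k Q m := by
  let T : (MonoidAlgebra k Q ⧸ F k Q m) →ₗ[k] (MonoidAlgebra k Q ⧸ Kc k s g m) :=
    (F k Q m).liftQ ((Kc k s g m).mkQ.restrictScalars k) (by
      intro x hx
      rw [LinearMap.mem_ker, LinearMap.restrictScalars_apply, Submodule.mkQ_apply,
        Submodule.Quotient.mk_eq_zero]
      exact F_le_Kc s g m hx)
  have hT : Function.Surjective T := by
    intro y
    obtain ⟨x, rfl⟩ := Submodule.mkQ_surjective _ y
    exact ⟨(F k Q m).mkQ x, rfl⟩
  exact LinearMap.finrank_le_finrank_of_surjective hT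

lemma betadim_false {m : ℕ} (g : Q) : betadim k False g m = bdim k Q m := by
  rw [betadim, bdim, Kc_false]
  exact (Submodule.Quotient.restrictScalarsEquiv k
    (FI m : Submodule (MonoidAlgebra k Q) (MonoidAlgebra k Q))).symm.finrank_eq

lemma psh_id (x : MonoidAlgebra k Q) : psh k (MonoidHom.id Q) x = x := by
  induction x using induction_of with
  | h0 => simp
  | hof g => rw [psh_of, MonoidHom.id_apply]
  | hadd x y hx hy => rw [map_add, hx, hy]
  | hsmul c x hx => rw [map_smul, hx]

/-- The abstract comparison: for a module `M` over `B = k[Q]` generated by elements `e i` with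
`(g_i + 1) e_i = 0` for `i ∈ S` and killed by `F n`. -/
theorem gs_module {ι : Type*} [Fintype ι] (S : Set ι)
    (q : FreeGroup ι →* G) (hq : Function.Surjective q)
    (hqk : q.ker = Subgroup.normalClosure {w | ∃ i ∈ S, w = FreeGroup.of i ^ 2})
    (π : G →* Q) (hπ : Function.Surjective π) (R : Set G) (hR : π.ker = Subgroup.normalClosure R)
    (n : ℕ) {J : Type*} [Fintype J] (d : J → ℕ) (hd : ∀ j, 1 ≤ d j) (τ : J → MonoidAlgebra k G)
    (hτ : ∀ j, τ j ∈ F k G (d j))
    (hRτ : ∀ r ∈ R, of k G r - 1 ∈ Submodule.span k (Set.range τ) ⊔ F k G (n + 1))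
    {M : Type*} [AddCommGroup M] [Module k M] [Module (MonoidAlgebra k Q) M]
    [IsScalarTower k (MonoidAlgebra k Q) M] [FiniteDimensional k M]
    (e : ι → M) (he : ∀ m : M, ∃ b : ι → MonoidAlgebra k Q, m = ∑ i, b i • e i)
    (heS : ∀ i ∈ S, (of k Q (π (q (FreeGroup.of i))) + 1) • e i = 0)
    (hM : ∀ a ∈ F k Q n, ∀ m : M, a • m = 0) :
    1 + finrank k M ≤ bdim k Q (n + 1) + ∑ j, bdim k Q (n + 1 - d j) := by
  classical
  -- generators
  let gq : ι → Q := fun i => π (q (FreeGroup.of i))
  have hgen : Subgroup.closure (Set.range gq) = ⊤ := by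
    have h1 : (Set.range gq) = (π.comp q) '' (Set.range FreeGroup.of) := by
      rw [← Set.range_comp]; rfl
    rw [h1, ← MonoidHom.map_closure, FreeGroup.closure_range_of, ← MonoidHom.range_eq_map,
      MonoidHom.range_eq_top]
    exact hπ.comp hq
  have hfd : ∀ m, FiniteDimensional k (MonoidAlgebra k Q ⧸ F k Q m) := fun m =>
    finiteDim gq hgen m
  obtain ⟨D1, hD1, hD1e⟩ := exists_crossed_free (M := M) (k := k) (π.comp q) e
  have hS : ∀ r ∈ {w | ∃ i ∈ S, w = FreeGroup.of i ^ 2}, D1 r = 0 := by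
    rintro r ⟨i, hi, rfl⟩
    rw [pow_two, hD1, hD1e]
    have h1 := heS i hi
    rw [add_smul, one_smul, add_comm] at h1
    exact h1
  obtain ⟨D2, hD2, hD2e⟩ := crossed_descend q hq _ hqk π D1 hD1 hS
  -- the submodule generated by the relators
  let W : Submodule (MonoidAlgebra k Q) M :=
    Submodule.span (MonoidAlgebra k Q) (Set.range fun j => Dlin k D2 (τ j))
  let D3 : G → M ⧸ W := fun g => W.mkQ (D2 g)
  have hD3 : IsCrossed k π D3 := by
    intro g h
    simp only [D3, hD2 g h, map_add, map_smul]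
  have hD3r : ∀ r ∈ R, D3 r = 0 := by
    intro r hr
    have h1 : D2 r = Dlin k D2 (of k G r - 1) := by
      rw [map_sub, Dlin_of, ← map_one (of k G), Dlin_of, hD2.one, sub_zero]
    obtain ⟨y, hy, z, hz, hyz⟩ := Submodule.mem_sup.1 (hRτ r hr)
    have h2 : Dlin k D2 z = 0 := Dlin_F_zero hD2 n hM hz
    have h3 : Dlin k D2 y ∈ W.restrictScalars k := by
      have h4 : Submodule.span k (Set.range τ) ≤ (W.restrictScalars k).comap (Dlin k D2) := by
        rw [Submodule.span_le]
        rintro _ ⟨j, rfl⟩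
        exact Submodule.subset_span ⟨j, rfl⟩
      exact h4 hy
    simp only [D3]
    rw [h1, ← hyz, map_add, h2, add_zero, Submodule.mkQ_apply, Submodule.Quotient.mk_eq_zero]
    exact h3
  obtain ⟨D4, hD4, hD4e⟩ := crossed_descend π hπ R hR (MonoidHom.id Q) D3
    (by simpa using hD3) hD3r
  have hD4e' : ∀ i, D4 (gq i) = W.mkQ (e i) := by
    intro i
    rw [hD4e]
    simp only [D3, hD2e, hD1e]
  have hMW : ∀ a ∈ F k Q n, ∀ m : M ⧸ W, a • m = 0 := by
    intro a ha m
    obtain ⟨m, rfl⟩ := Submodule.mkQ_surjective _ m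
    rw [← map_smul, hM a ha, map_zero]
  -- the comparison map
  let χ : MonoidAlgebra k Q →ₗ[k] k × (M ⧸ W) := (aug k Q).toLinearMap.prod (Dlin k D4)
  have hχa : ∀ x, χ x = (aug k Q x, Dlin k D4 x) := fun x => rfl
  have hχ : ∀ x ∈ F k Q (n + 1), χ x = 0 := by
    intro x hx
    have h1 : aug k Q x = 0 := by
      have := F_anti (show 1 ≤ n + 1 by omega) hx
      rw [F_one, mem_Delta] at this
      exact this
    have h2 : Dlin k D4 x = 0 := Dlin_F_zero hD4 n hMW hx
    rw [hχa, h1, h2]
    rfl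
  let χ' : (MonoidAlgebra k Q ⧸ F k Q (n + 1)) →ₗ[k] k × (M ⧸ W) :=
    (F k Q (n + 1)).liftQ χ (fun x hx => hχ x hx)
  have hsurj : Function.Surjective χ' := by
    rintro ⟨c, m⟩
    obtain ⟨m, rfl⟩ := Submodule.mkQ_surjective _ m
    obtain ⟨y, hy⟩ := he m
    refine ⟨(F k Q (n + 1)).mkQ (algebraMap k _ c + ∑ i, y i * (of k Q (gq i) - 1)), ?_⟩
    have e0 : χ' ((F k Q (n + 1)).mkQ (algebraMap k _ c + ∑ i, y i * (of k Q (gq i) - 1))) =
        χ (algebraMap k _ c + ∑ i, y i * (of k Q (gq i) - 1)) := rfl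
    rw [e0]
    have e1 : aug k Q (algebraMap k _ c + ∑ i, y i * (of k Q (gq i) - 1)) = c := by
      rw [map_add, AlgHom.commutes, map_sum]
      have : ∀ i, aug k Q (y i * (of k Q (gq i) - 1)) = 0 := fun i => by
        rw [map_mul, map_sub, aug_of, map_one, sub_self, mul_zero]
      rw [Finset.sum_eq_zero (fun i _ => this i), add_zero]
      rfl
    have e2 : Dlin k D4 (algebraMap k _ c + ∑ i, y i * (of k Q (gq i) - 1)) = W.mkQ m := by
      have e3 : Dlin k D4 (algebraMap k (MonoidAlgebra k Q) c) = 0 := by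
        rw [Algebra.algebraMap_eq_smul_one, map_smul, ← map_one (of k Q), Dlin_of, hD4.one,
          smul_zero]
      have e4 : ∀ i, Dlin k D4 (y i * (of k Q (gq i) - 1)) = W.mkQ (y i • e i) := by
        intro i
        have e5 : aug k Q (of k Q (gq i) - 1) = 0 := by rw [map_sub, aug_of, map_one, sub_self]
        have e6 : Dlin k D4 (of k Q (gq i) - 1) = W.mkQ (e i) := by
          rw [map_sub, Dlin_of, ← map_one (of k Q), Dlin_of, hD4.one, sub_zero, hD4e']
        rw [Dlin_mul hD4, e5, e6, zero_smul, zero_add, psh_id, map_smul]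
      rw [map_add, e3, zero_add, map_sum, Finset.sum_congr rfl (fun i _ => e4 i), ← map_sum, ← hy]
    rw [hχa, e1, e2]
  have hfdMW : FiniteDimensional k (M ⧸ W) :=
    FiniteDimensional.of_surjective (W.mkQ.restrictScalars k) (Submodule.mkQ_surjective W)
  have hfd1 := hfd (n + 1)
  have hb1 : 1 + finrank k (M ⧸ W) ≤ bdim k Q (n + 1) := by
    have := LinearMap.finrank_le_finrank_of_surjective hsurj
    rw [finrank_prod, finrank_self] at this
    exact this
  -- dimension of W
  have hW : finrank k (LinearMap.ker (W.mkQ.restrictScalars k)) ≤ ∑ j, bdim k Q (n + 1 - d j) := by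
    let tj : J → MonoidAlgebra k Q →ₗ[k] M := fun j =>
      (LinearMap.toSpanSingleton (MonoidAlgebra k Q) M (Dlin k D2 (τ j))).restrictScalars k
    have htj : ∀ j x, tj j x = x • Dlin k D2 (τ j) := fun j x => rfl
    have hk : ∀ j, ∀ x ∈ F k Q (n + 1 - d j), tj j x = 0 := by
      intro j x hx
      rw [htj]
      exact Dlin_F hD2 n (d j) hM (hd j) (hτ j) hx
    have hfdd : ∀ j, FiniteDimensional k (MonoidAlgebra k Q ⧸ F k Q (n + 1 - d j)) :=
      fun j => hfd _
    let ψ : ((j : J) → (MonoidAlgebra k Q ⧸ F k Q (n + 1 - d j))) →ₗ[k] M :=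
      ∑ j, ((F k Q (n + 1 - d j)).liftQ (tj j) (fun x hx => hk j x hx)) ∘ₗ LinearMap.proj j
    have hψ : ∀ b : J → MonoidAlgebra k Q, ψ (fun j => (F k Q (n + 1 - d j)).mkQ (b j)) =
        ∑ j, b j • Dlin k D2 (τ j) := by
      intro b
      simp only [ψ, LinearMap.sum_apply]
      rfl
    have hle : LinearMap.ker (W.mkQ.restrictScalars k) ≤ LinearMap.range ψ := by
      intro x hx
      have hx' : x ∈ W := by
        rw [LinearMap.mem_ker, LinearMap.restrictScalars_apply, Submodule.mkQ_apply,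
          Submodule.Quotient.mk_eq_zero] at hx
        exact hx
      obtain ⟨b, hb⟩ := (Submodule.mem_span_range_iff_exists_fun (MonoidAlgebra k Q)).1 hx'
      exact ⟨_, (hψ b).trans hb⟩
    calc finrank k (LinearMap.ker (W.mkQ.restrictScalars k)) ≤ finrank k (LinearMap.range ψ) :=
          Submodule.finrank_mono hle
      _ ≤ finrank k ((j : J) → (MonoidAlgebra k Q ⧸ F k Q (n + 1 - d j))) :=
          LinearMap.finrank_range_le ψ
      _ = ∑ j, bdim k Q (n + 1 - d j) := by
          rw [finrank_pi_fintype]; rfl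
  have hrk := LinearMap.finrank_range_add_finrank_ker (W.mkQ.restrictScalars k)
  have hrg : finrank k (LinearMap.range (W.mkQ.restrictScalars k)) ≤ finrank k (M ⧸ W) :=
    Submodule.finrank_le _
  omega

/-- The Golod-Shafarevich inequality, for a fixed truncation. -/
theorem gs_core {ι : Type*} [Fintype ι] (S : Set ι)
    (q : FreeGroup ι →* G) (hq : Function.Surjective q)
    (hqk : q.ker = Subgroup.normalClosure {w | ∃ i ∈ S, w = FreeGroup.of i ^ 2})
    (π : G →* Q) (hπ : Function.Surjective π) (R : Set G) (hR : π.ker = Subgroup.normalClosure R)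
    (n : ℕ) {J : Type*} [Fintype J] (d : J → ℕ) (hd : ∀ j, 1 ≤ d j) (τ : J → MonoidAlgebra k G)
    (hτ : ∀ j, τ j ∈ F k G (d j))
    (hRτ : ∀ r ∈ R, of k G r - 1 ∈ Submodule.span k (Set.range τ) ⊔ F k G (n + 1)) :
    1 + ∑ i, betadim k (i ∈ S) (π (q (FreeGroup.of i))) n ≤
      bdim k Q (n + 1) + ∑ j, bdim k Q (n + 1 - d j) := by
  classical
  have hgen : Subgroup.closure (Set.range fun i => π (q (FreeGroup.of i))) = ⊤ := by
    have h1 : (Set.range fun i => π (q (FreeGroup.of i))) =
        (π.comp q) '' (Set.range FreeGroup.of) := by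
      rw [← Set.range_comp]; rfl
    rw [h1, ← MonoidHom.map_closure, FreeGroup.closure_range_of, ← MonoidHom.range_eq_map,
      MonoidHom.range_eq_top]
    exact hπ.comp hq
  have hfK : ∀ i, FiniteDimensional k
      (MonoidAlgebra k Q ⧸ Kc k (i ∈ S) (π (q (FreeGroup.of i))) n) :=
    fun i => fd_Kc (finiteDim _ hgen n) _ _
  have key := gs_module S q hq hqk π hπ R hR n d hd τ hτ hRτ
    (M := (i : ι) → (MonoidAlgebra k Q ⧸ Kc k (i ∈ S) (π (q (FreeGroup.of i))) n))
    (fun i => Pi.single i ((Kc k (i ∈ S) (π (q (FreeGroup.of i))) n).mkQ 1)) ?_ ?_ ?_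
  · rw [finrank_pi_fintype] at key
    exact key
  · intro m
    choose y hy using fun i => Submodule.mkQ_surjective _ (m i)
    refine ⟨y, ?_⟩
    funext j
    rw [Finset.sum_apply, Finset.sum_eq_single j]
    · rw [Pi.smul_apply, Pi.single_eq_same, ← map_smul, smul_eq_mul, mul_one, hy]
    · intro i _ hij
      rw [Pi.smul_apply, Pi.single_eq_of_ne (Ne.symm hij), smul_zero]
    · intro hj
      exact absurd (Finset.mem_univ j) hj
  · intro i hi
    funext j
    by_cases hj : j = i
    · subst hj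
      rw [Pi.smul_apply, Pi.single_eq_same, Pi.zero_apply, ← map_smul, Submodule.mkQ_apply,
        Submodule.Quotient.mk_eq_zero, smul_eq_mul, mul_one]
      exact Submodule.mem_sup_right (Submodule.subset_span ⟨hi, rfl⟩)
    · rw [Pi.smul_apply, Pi.single_eq_of_ne hj, Pi.zero_apply, smul_zero]
  · intro a ha m
    funext i
    obtain ⟨y, hy⟩ := Submodule.mkQ_surjective _ (m i)
    rw [Pi.smul_apply, ← hy, ← map_smul, Pi.zero_apply, Submodule.mkQ_apply,
      Submodule.Quotient.mk_eq_zero]
    apply F_le_Kc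
    rw [smul_eq_mul]
    exact mul_mem_F_right _ ha

end Core

section RealPart

/-- The analytic part of the Golod-Shafarevich argument. -/
lemma real_gs {ι : Type*} [Fintype ι] (S : Finset ι) (b : ℕ → ℝ) (hb0 : b 0 = 0)
    (hbnn : ∀ n, 0 ≤ b n) (C : ℝ) (hbC : ∀ n, b n ≤ C) (β : ι → ℕ → ℝ)
    (hβ0 : ∀ i n, 0 ≤ β i n) (hβ1 : ∀ i n, β i n ≤ b n)
    (hβS : ∀ i ∈ S, ∀ n, b (n + 1) ≤ β i (n + 1) + β i n) (hβN : ∀ i, i ∉ S → ∀ n, β i n = b n)
    (ρ : ℕ → ℝ) (hρ : ∀ n, 0 ≤ ρ n) (t : ℝ) (ht0 : 0 < t) (ht1 : t < 1)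
    (hρs : Summable fun n => ρ n * t ^ n)
    (hineq : ∀ n, 1 + ∑ i, β i n ≤
      b (n + 1) + ∑ e ∈ Finset.range (n + 1 + 1), ρ e * b (n + 1 - e)) :
    t / (1 - t) ≤ (∑' n, b n * t ^ n) *
      (1 - ((Fintype.card ι : ℝ) - S.card) * t - S.card * (t / (1 + t)) + ∑' n, ρ n * t ^ n) := by
  classical
  have hgeo : Summable fun n : ℕ => t ^ n := summable_geometric_of_lt_one ht0.le ht1
  have hsum : ∀ f : ℕ → ℝ, (∀ n, 0 ≤ f n) → (∀ n, f n ≤ C) → Summable fun n => f n * t ^ n := by
    intro f hf hf'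
    refine Summable.of_nonneg_of_le (fun n => mul_nonneg (hf n) (pow_nonneg ht0.le n))
      (fun n => mul_le_mul_of_nonneg_right (hf' n) (pow_nonneg ht0.le n)) (hgeo.mul_left C)
  have hsb := hsum b hbnn hbC
  have hsβ : ∀ i, Summable fun n => β i n * t ^ n := fun i =>
    hsum (β i) (hβ0 i) (fun n => (hβ1 i n).trans (hbC n))
  set bt := ∑' n, b n * t ^ n with hbt
  set rt := ∑' n, ρ n * t ^ n with hrt
  have hbtnn : 0 ≤ bt := tsum_nonneg fun n => mul_nonneg (hbnn n) (pow_nonneg ht0.le n)
  -- Cauchy product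
  have hn1 : Summable fun n => ‖ρ n * t ^ n‖ := by
    refine hρs.congr fun n => ?_
    rw [Real.norm_of_nonneg (mul_nonneg (hρ n) (pow_nonneg ht0.le n))]
  have hn2 : Summable fun n => ‖b n * t ^ n‖ := by
    refine hsb.congr fun n => ?_
    rw [Real.norm_of_nonneg (mul_nonneg (hbnn n) (pow_nonneg ht0.le n))]
  let c : ℕ → ℝ := fun n => ∑ e ∈ Finset.range (n + 1), ρ e * b (n - e)
  have hcc : ∀ n, c n * t ^ n =
      ∑ e ∈ Finset.range (n + 1), (ρ e * t ^ e) * (b (n - e) * t ^ (n - e)) := by
    intro n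
    simp only [c, Finset.sum_mul]
    refine Finset.sum_congr rfl fun e he => ?_
    have hle : e ≤ n := Nat.lt_succ_iff.1 (Finset.mem_range.1 he)
    rw [show t ^ n = t ^ e * t ^ (n - e) by rw [← pow_add, Nat.add_sub_cancel' hle]]
    ring
  have hcs : Summable fun n => c n * t ^ n := by
    have := (summable_norm_sum_mul_range_of_summable_norm hn1 hn2).of_norm
    refine this.congr fun n => ?_
    rw [hcc]
  have hprod : rt * bt = ∑' n, c n * t ^ n := by
    rw [hrt, hbt, tsum_mul_tsum_eq_tsum_sum_range_of_summable_norm hn1 hn2]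
    exact tsum_congr fun n => (hcc n).symm
  have hc0 : c 0 = 0 := by simp [c, hb0]
  -- shifts
  have hshift : ∀ f : ℕ → ℝ, f 0 = 0 → Summable (fun n => f n * t ^ n) →
      ∑' n, f n * t ^ n = ∑' n, f (n + 1) * t ^ (n + 1) := by
    intro f hf0 hf
    rw [hf.tsum_eq_zero_add, hf0]; simp
  have hshs : ∀ f : ℕ → ℝ, Summable (fun n => f n * t ^ n) →
      Summable (fun n => f (n + 1) * t ^ (n + 1)) := fun f hf =>
    (summable_nat_add_iff (f := fun n => f n * t ^ n) 1).2 hf
  have hmul : ∀ f : ℕ → ℝ, ∑' n, f n * t ^ (n + 1) = t * ∑' n, f n * t ^ n := by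
    intro f
    rw [← tsum_mul_left]
    exact tsum_congr fun n => by ring
  have hmuls : ∀ f : ℕ → ℝ, Summable (fun n => f n * t ^ n) →
      Summable (fun n => f n * t ^ (n + 1)) := by
    intro f hf
    refine (hf.mul_left t).congr fun n => by ring
  -- the betas
  have hβt : ∀ i ∈ S, bt / (1 + t) ≤ ∑' n, β i n * t ^ n := by
    intro i hi
    have h0 : β i 0 = 0 := le_antisymm (by rw [← hb0]; exact hβ1 i 0) (hβ0 i 0)
    rw [div_le_iff₀ (by linarith)]
    have h1 : bt ≤ ∑' n, (β i (n + 1) * t ^ (n + 1) + β i n * t ^ (n + 1)) := by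
      rw [hbt, hshift b hb0 hsb]
      refine Summable.tsum_le_tsum (fun n => ?_) (hshs b hsb)
        ((hshs _ (hsβ i)).add (hmuls _ (hsβ i)))
      rw [← add_mul]
      exact mul_le_mul_of_nonneg_right (hβS i hi n) (pow_nonneg ht0.le _)
    rw [Summable.tsum_add (hshs _ (hsβ i)) (hmuls _ (hsβ i)), hmul (β i),
      ← hshift (β i) h0 (hsβ i)] at h1
    linarith
  -- main summation
  have hs1 : Summable fun n => (1 + ∑ i, β i n) * t ^ (n + 1) := by
    have h1 : Summable fun n => (∑ i, β i n * t ^ n) := summable_sum fun i _ => hsβ i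
    refine ((hgeo.add h1).mul_left t).congr fun n => ?_
    rw [← Finset.sum_mul]; ring
  have hs2 : Summable fun n => b (n + 1) * t ^ (n + 1) + c (n + 1) * t ^ (n + 1) :=
    (hshs b hsb).add (hshs c hcs)
  have hmain : ∑' n, (1 + ∑ i, β i n) * t ^ (n + 1) ≤
      ∑' n, (b (n + 1) * t ^ (n + 1) + c (n + 1) * t ^ (n + 1)) := by
    refine Summable.tsum_le_tsum (fun n => ?_) hs1 hs2
    rw [← add_mul]
    exact mul_le_mul_of_nonneg_right (hineq n) (pow_nonneg ht0.le _)
  rw [Summable.tsum_add (hshs b hsb) (hshs c hcs), ← hshift b hb0 hsb, ← hshift c hc0 hcs,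
    ← hprod, ← hbt] at hmain
  have hleft : ∑' n, (1 + ∑ i, β i n) * t ^ (n + 1) =
      t / (1 - t) + t * ∑ i, ∑' n, β i n * t ^ n := by
    have h1 : ∀ n, (1 + ∑ i, β i n) * t ^ (n + 1) = t * (t ^ n + ∑ i, β i n * t ^ n) := by
      intro n
      rw [← Finset.sum_mul]; ring
    have h2 : Summable fun n => (∑ i, β i n * t ^ n) := summable_sum fun i _ => hsβ i
    rw [tsum_congr h1, tsum_mul_left, Summable.tsum_add hgeo h2, tsum_geometric_of_lt_one ht0.le ht1,
      Summable.tsum_finsetSum (fun i _ => hsβ i)]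
    field_simp
  rw [hleft] at hmain
  have hsumβ : ((Fintype.card ι : ℝ) - S.card) * bt + S.card * (bt / (1 + t)) ≤
      ∑ i, ∑' n, β i n * t ^ n := by
    rw [← Finset.sum_add_sum_compl S, add_comm]
    refine add_le_add ?_ ?_
    · have : ∑ i ∈ S, (bt / (1 + t)) ≤ ∑ i ∈ S, ∑' n, β i n * t ^ n := Finset.sum_le_sum hβt
      rw [Finset.sum_const, nsmul_eq_mul] at this
      exact this
    · have : ∑ i ∈ Sᶜ, ∑' n, β i n * t ^ n = ∑ i ∈ Sᶜ, bt := by
        refine Finset.sum_congr rfl fun i hi => ?_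
        rw [hbt]
        exact tsum_congr fun n => by rw [hβN i (Finset.mem_compl.1 hi)]
      rw [this, Finset.sum_const, nsmul_eq_mul, Finset.card_compl,
        Nat.cast_sub (Finset.card_le_univ S)]
  have h3 : t * (((Fintype.card ι : ℝ) - S.card) * bt + S.card * (bt / (1 + t))) ≤
      t * ∑ i, ∑' n, β i n * t ^ n := mul_le_mul_of_nonneg_left hsumβ ht0.le
  have h4 : bt * (1 - ((Fintype.card ι : ℝ) - S.card) * t - S.card * (t / (1 + t)) + rt) =
      bt + rt * bt - t * (((Fintype.card ι : ℝ) - S.card) * bt + S.card * (bt / (1 + t))) := by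
    field_simp
    ring
  rw [h4]
  linarith

end RealPart

section Unbounded

variable {k : Type*} [Field k] {G Q : Type*} [Group G] [Group Q]

/-- **Golod-Shafarevich, unbounded form.**  `G` is the free product of infinite cyclic groups
(`i ∉ S`) and groups of order two (`i ∈ S`), `Q = G/⟨⟨R⟩⟩`, and modulo the `n`-th power of the
augmentation ideal of `k[G]` the elements `r - 1` (`r ∈ R`) lie in the span of a finite family with
at most `ρ e` members of degree `e`. -/
theorem gs_unbounded [CharP k 2] {ι : Type*} [Fintype ι] (S : Finset ι)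
    (q : FreeGroup ι →* G) (hq : Function.Surjective q)
    (hqk : q.ker = Subgroup.normalClosure {w | ∃ i ∈ S, w = FreeGroup.of i ^ 2})
    (π : G →* Q) (hπ : Function.Surjective π) (R : Set G) (hR : π.ker = Subgroup.normalClosure R)
    (ρ : ℕ → ℝ) (hρ : ∀ n, 0 ≤ ρ n) (t : ℝ) (ht0 : 0 < t) (ht1 : t < 1)
    (hρs : Summable fun n => ρ n * t ^ n)
    (hrel : ∀ n, ∃ (J : Type) (_ : Fintype J) (d : J → ℕ) (τ : J → MonoidAlgebra k G),
      (∀ j, 1 ≤ d j) ∧ (∀ j, τ j ∈ F k G (d j)) ∧
      (∀ r ∈ R, of k G r - 1 ∈ Submodule.span k (Set.range τ) ⊔ F k G n) ∧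
      ∀ e ≤ n, ((Finset.univ.filter (fun j => d j = e)).card : ℝ) ≤ ρ e)
    (hneg : 1 - ((Fintype.card ι : ℝ) - S.card) * t - S.card * (t / (1 + t)) +
      ∑' n, ρ n * t ^ n ≤ 0) :
    ∀ C : ℕ, ∃ n, C < bdim k Q n := by
  classical
  by_contra hcon
  push Not at hcon
  obtain ⟨C, hC⟩ := hcon
  have hgen : Subgroup.closure (Set.range fun i => π (q (FreeGroup.of i))) = ⊤ := by
    have h1 : (Set.range fun i => π (q (FreeGroup.of i))) =
        (π.comp q) '' (Set.range FreeGroup.of) := by
      rw [← Set.range_comp]; rfl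
    rw [h1, ← MonoidHom.map_closure, FreeGroup.closure_range_of, ← MonoidHom.range_eq_map,
      MonoidHom.range_eq_top]
    exact hπ.comp hq
  have hfd : ∀ m, FiniteDimensional k (MonoidAlgebra k Q ⧸ F k Q m) := fun m =>
    finiteDim _ hgen m
  have hinv : ∀ i ∈ S, (π (q (FreeGroup.of i))) ^ 2 = 1 := by
    intro i hi
    have h1 : FreeGroup.of i ^ 2 ∈ q.ker := by
      rw [hqk]
      exact Subgroup.subset_normalClosure ⟨i, hi, rfl⟩
    rw [← map_pow, ← map_pow, MonoidHom.mem_ker.1 h1, map_one]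
  have key := real_gs S (fun n => (bdim k Q n : ℝ)) (by simp [bdim_zero])
    (fun n => Nat.cast_nonneg _) (C : ℝ) (fun n => by exact_mod_cast hC n)
    (fun i n => (betadim k (i ∈ (S : Set ι)) (π (q (FreeGroup.of i))) n : ℝ))
    (fun i n => Nat.cast_nonneg _)
    (fun i n => by exact_mod_cast betadim_le_bdim (hfd n) _ _)
    (fun i hi n => by
      have := bdim_le_betadim (k := k) (s := i ∈ (S : Set ι)) (Finset.mem_coe.2 hi)
        (π (q (FreeGroup.of i))) (hinv i hi) n (hfd _) (hfd _)
      exact_mod_cast this)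
    (fun i hi n => by
      have h1 : (i ∈ (S : Set ι)) = False := by simpa using hi
      simp only [h1]
      rw [betadim_false])
    ρ hρ t ht0 ht1 hρs ?_
  · have hbt : 0 ≤ ∑' n, (bdim k Q n : ℝ) * t ^ n :=
      tsum_nonneg fun n => mul_nonneg (Nat.cast_nonneg _) (pow_nonneg ht0.le n)
    have h2 := mul_nonpos_of_nonneg_of_nonpos hbt hneg
    have h3 : 0 < t / (1 - t) := div_pos ht0 (by linarith)
    linarith
  · intro n
    obtain ⟨J, hJ, d, τ, hd, hτ, hRτ, hcount⟩ := hrel (n + 1)
    have hmain := gs_core (S : Set ι) q hq (by simpa using hqk) π hπ R hR n d hd τ hτ hRτ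
    have h1 : (∑ j, (bdim k Q (n + 1 - d j) : ℝ)) ≤
        ∑ e ∈ Finset.range (n + 1 + 1), ρ e * bdim k Q (n + 1 - e) := by
      calc (∑ j, (bdim k Q (n + 1 - d j) : ℝ)) ≤ ∑ j, ∑ e ∈ Finset.range (n + 1 + 1),
            (if d j = e then (bdim k Q (n + 1 - e) : ℝ) else 0) := by
            refine Finset.sum_le_sum fun j _ => ?_
            by_cases hj : d j ∈ Finset.range (n + 1 + 1)
            · rw [Finset.sum_ite_eq, if_pos hj]
            · rw [Finset.sum_ite_eq, if_neg hj]
              have : n + 1 - d j = 0 := by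
                rw [Finset.mem_range] at hj; omega
              rw [this, bdim_zero]; simp
        _ = ∑ e ∈ Finset.range (n + 1 + 1), ∑ j,
            (if d j = e then (bdim k Q (n + 1 - e) : ℝ) else 0) := Finset.sum_comm
        _ ≤ _ := by
            refine Finset.sum_le_sum fun e he => ?_
            rw [← Finset.sum_filter, Finset.sum_const, nsmul_eq_mul]
            refine mul_le_mul_of_nonneg_right (hcount e ?_) (Nat.cast_nonneg _)
            rw [Finset.mem_range] at he; omega
    have h2 : (1 + ∑ i, (betadim k (i ∈ (S : Set ι)) (π (q (FreeGroup.of i))) n : ℝ)) ≤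
        bdim k Q (n + 1) + ∑ j, (bdim k Q (n + 1 - d j) : ℝ) := by
      exact_mod_cast hmain
    exact h2.trans (by linarith)

end Unbounded

section DimSub

variable (k : Type*) [Field k] (G : Type*) [Group G]

/-- The dimension subgroups `{x | x - 1 ∈ F n}`. -/
def dimSub (n : ℕ) : Subgroup G where
  carrier := {x | of k G x - 1 ∈ F k G n}
  one_mem' := by
    change of k G 1 - 1 ∈ F k G n
    rw [map_one, sub_self]
    exact Submodule.zero_mem _
  mul_mem' := by
    intro x y hx hy
    change of k G (x * y) - 1 ∈ F k G n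
    have e : of k G (x * y) - 1 = (of k G x - 1) + of k G x * (of k G y - 1) := by
      rw [map_mul]; noncomm_ring
    rw [e]
    exact add_mem hx (mul_mem_F_left _ hy)
  inv_mem' := by
    intro x hx
    change of k G x⁻¹ - 1 ∈ F k G n
    have e : of k G x⁻¹ - 1 = - of k G x⁻¹ * (of k G x - 1) := by
      have : of k G x⁻¹ * of k G x = 1 := by rw [← map_mul, inv_mul_cancel, map_one]
      rw [mul_sub, neg_mul, this]
      noncomm_ring
    rw [e]
    exact mul_mem_F_left _ hx

variable {k G}

lemma mem_dimSub {n : ℕ} {x : G} : x ∈ dimSub k G n ↔ of k G x - 1 ∈ F k G n := Iff.rfl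

instance dimSub_normal (n : ℕ) : (dimSub k G n).Normal := by
  constructor
  intro x hx g
  rw [mem_dimSub] at *
  have e : of k G (g * x * g⁻¹) - 1 = of k G g * (of k G x - 1) * of k G g⁻¹ := by
    have : of k G g * of k G g⁻¹ = 1 := by rw [← map_mul, mul_inv_cancel, map_one]
    rw [map_mul, map_mul, mul_sub, sub_mul, mul_one, this]
  rw [e]
  exact mul_mem_F_right _ (mul_mem_F_left _ hx)

lemma dimSub_anti : Antitone (dimSub k G) := fun _ _ hmn _ hx => F_anti hmn hx

lemma map_mem_dimSub {H : Type*} [Group H] (f : G →* H) {n : ℕ} {x : G}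
    (hx : x ∈ dimSub k G n) : f x ∈ dimSub k H n := by
  rw [mem_dimSub] at *
  have := psh_mem_F f n hx
  rwa [map_sub, psh_of, map_one] at this

lemma of_sub_of_mem_iff {n : ℕ} {x y : G} :
    of k G x - of k G y ∈ F k G n ↔ y⁻¹ * x ∈ dimSub k G n := by
  rw [mem_dimSub]
  have h1 : of k G (y⁻¹ * x) - 1 = of k G y⁻¹ * (of k G x - of k G y) := by
    have : of k G y⁻¹ * of k G y = 1 := by rw [← map_mul, inv_mul_cancel, map_one]
    rw [map_mul, mul_sub, this]
  have h2 : of k G x - of k G y = of k G y * (of k G (y⁻¹ * x) - 1) := by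
    rw [mul_sub, ← map_mul, mul_inv_cancel_left, mul_one]
  constructor
  · intro h
    rw [h1]; exact mul_mem_F_left _ h
  · intro h
    rw [h2]; exact mul_mem_F_left _ h

/-- The finite quotient `G / D_n` is at least as big as `dim k[G]/F n`. -/
theorem bdim_le_card [Finite k] {ι : Type*} [Fintype ι] (g : ι → G)
    (hg : Subgroup.closure (Set.range g) = ⊤) (n : ℕ) :
    Finite (G ⧸ dimSub k G n) ∧ bdim k G n ≤ Nat.card (G ⧸ dimSub k G n) := by
  classical
  have hfd := finiteDim (k := k) g hg n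
  have hfin : Finite (MonoidAlgebra k G ⧸ F k G n) := Module.finite_of_finite k
  let φ : G ⧸ dimSub k G n → MonoidAlgebra k G ⧸ F k G n :=
    Quotient.lift (fun x : G => (F k G n).mkQ (of k G x)) (by
      intro x y hxy
      rw [← Quotient.eq_iff_equiv] at hxy
      have h1 : x⁻¹ * y ∈ dimSub k G n := QuotientGroup.eq.1 hxy
      have h2 := of_sub_of_mem_iff.2 h1
      symm
      rw [← sub_eq_zero, ← map_sub, Submodule.mkQ_apply, Submodule.Quotient.mk_eq_zero]
      exact h2)
  have hφ : ∀ x : G, φ (QuotientGroup.mk x) = (F k G n).mkQ (of k G x) := fun x => rfl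
  have hinj : Function.Injective φ := by
    intro a b hab
    obtain ⟨x, rfl⟩ := QuotientGroup.mk_surjective a
    obtain ⟨y, rfl⟩ := QuotientGroup.mk_surjective b
    rw [hφ, hφ, eq_comm, ← sub_eq_zero, ← map_sub, Submodule.mkQ_apply,
      Submodule.Quotient.mk_eq_zero, of_sub_of_mem_iff] at hab
    exact QuotientGroup.eq.2 hab
  have hf : Finite (G ⧸ dimSub k G n) := Finite.of_injective φ hinj
  refine ⟨hf, ?_⟩
  have hft : Fintype (G ⧸ dimSub k G n) := Fintype.ofFinite _
  rw [Nat.card_eq_fintype_card]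
  have hspan : Submodule.span k (Set.range φ) = ⊤ := by
    have h1 : Set.range φ = (F k G n).mkQ '' (Set.range (of k G)) := by
      ext y
      constructor
      · rintro ⟨a, rfl⟩
        obtain ⟨x, rfl⟩ := QuotientGroup.mk_surjective a
        exact ⟨_, ⟨x, rfl⟩, rfl⟩
      · rintro ⟨_, ⟨x, rfl⟩, rfl⟩
        exact ⟨QuotientGroup.mk x, rfl⟩
    rw [h1, Submodule.span_image, span_of, Submodule.map_top, Submodule.range_mkQ]
  have := finrank_range_le_card (R := k) φ
  rw [Set.finrank, hspan, finrank_top] at this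
  exact this

lemma charP_alg [CharP k 2] : CharP (MonoidAlgebra k G) 2 :=
  charP_of_injective_algebraMap (algebraMap k (MonoidAlgebra k G)).injective 2

/-- In characteristic two, `g^(2^j) - 1 = (g - 1)^(2^j)`. -/
lemma of_pow_two_pow_sub_one [CharP k 2] (g : G) (j : ℕ) :
    of k G (g ^ 2 ^ j) - 1 = (of k G g - 1) ^ 2 ^ j := by
  have := charP_alg (k := k) (G := G)
  rw [sub_pow_char_pow_of_commute 2 j (Commute.one_right _), one_pow, map_pow]

lemma pow_mem_dimSub [CharP k 2] {d : ℕ} {g : G} (hg : g ∈ dimSub k G d) (j : ℕ) :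
    g ^ 2 ^ j ∈ dimSub k G (d * 2 ^ j) := by
  rw [mem_dimSub, of_pow_two_pow_sub_one]
  have h : ∀ m : ℕ, (of k G g - 1) ^ m ∈ F k G (d * m) := by
    intro m
    induction m with
    | zero => simp
    | succ m ih =>
      rw [pow_succ, Nat.mul_succ]
      exact mul_mem_F ih hg
  exact h _

lemma dimSub_one : dimSub k G 1 = ⊤ := by
  rw [eq_top_iff]
  intro x _
  rw [mem_dimSub, F_one]
  exact of_sub_one_mem x

/-- The quotients `G / D_n` are 2-groups. -/
theorem isPGroup_quot [CharP k 2] (n : ℕ) : IsPGroup 2 (G ⧸ dimSub k G n) := by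
  intro a
  obtain ⟨x, rfl⟩ := QuotientGroup.mk_surjective a
  refine ⟨n, ?_⟩
  rw [← QuotientGroup.mk_pow, QuotientGroup.eq_one_iff]
  have h1 : x ∈ dimSub k G 1 := by rw [dimSub_one]; trivial
  have h2 := pow_mem_dimSub h1 n
  exact dimSub_anti (by rw [one_mul]; exact (Nat.lt_two_pow_self).le) h2

end DimSub

section Final

variable {k : Type*} [Field k] {G Q : Type*} [Group G] [Group Q]

/-- A set of elements of the group algebra is, modulo every power of the augmentation ideal,
contained in the span of a finite family with at most `ρ e` elements of degree `e`. -/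
def HasCount (X : Set (MonoidAlgebra k G)) (ρ : ℕ → ℝ) : Prop :=
  ∀ n, ∃ (J : Type) (_ : Fintype J) (d : J → ℕ) (τ : J → MonoidAlgebra k G),
      (∀ j, 1 ≤ d j) ∧ (∀ j, τ j ∈ F k G (d j)) ∧
      (∀ x ∈ X, x ∈ Submodule.span k (Set.range τ) ⊔ F k G n) ∧
      ∀ e ≤ n, ((Finset.univ.filter (fun j => d j = e)).card : ℝ) ≤ ρ e

/-- **Golod-Shafarevich for quotients of free products of copies of `ℤ` and `ℤ/2`**: the group
`Q` has finite 2-quotients (the quotients by the dimension subgroups) of unbounded order. -/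
theorem gs_finite_quotients [CharP k 2] [Finite k] {ι : Type*} [Fintype ι] (S : Finset ι)
    (q : FreeGroup ι →* G) (hq : Function.Surjective q)
    (hqk : q.ker = Subgroup.normalClosure {w | ∃ i ∈ S, w = FreeGroup.of i ^ 2})
    (π : G →* Q) (hπ : Function.Surjective π) (R : Set G) (hR : π.ker = Subgroup.normalClosure R)
    (ρ : ℕ → ℝ) (hρ : ∀ n, 0 ≤ ρ n) (t : ℝ) (ht0 : 0 < t) (ht1 : t < 1)
    (hρs : Summable fun n => ρ n * t ^ n)
    (hrel : HasCount ((fun r => of k G r - 1) '' R) ρ)
    (hneg : 1 - ((Fintype.card ι : ℝ) - S.card) * t - S.card * (t / (1 + t)) +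
      ∑' n, ρ n * t ^ n ≤ 0) :
    ∀ C : ℕ, ∃ n, Finite (Q ⧸ dimSub k Q n) ∧ IsPGroup 2 (Q ⧸ dimSub k Q n) ∧
      C < Nat.card (Q ⧸ dimSub k Q n) := by
  intro C
  obtain ⟨n, hn⟩ := gs_unbounded S q hq hqk π hπ R hR ρ hρ t ht0 ht1 hρs (fun n => by
    obtain ⟨J, hJ, d, τ, h1, h2, h3, h4⟩ := hrel n
    exact ⟨J, hJ, d, τ, h1, h2, fun r hr => h3 _ ⟨r, hr, rfl⟩, h4⟩) hneg C
  have hgen : Subgroup.closure (Set.range fun i => π (q (FreeGroup.of i))) = ⊤ := by
    have h1 : (Set.range fun i => π (q (FreeGroup.of i))) =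
        (π.comp q) '' (Set.range FreeGroup.of) := by
      rw [← Set.range_comp]; rfl
    rw [h1, ← MonoidHom.map_closure, FreeGroup.closure_range_of, ← MonoidHom.range_eq_map,
      MonoidHom.range_eq_top]
    exact hπ.comp hq
  obtain ⟨h1, h2⟩ := bdim_le_card (k := k) _ hgen n
  exact ⟨n, h1, isPGroup_quot n, hn.trans_le h2⟩

end Final

end

end Crest.Agent.R272.GSAlg_66
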