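import Crest.Agent.R272.GSAlg_66

set_option autoImplicit false

/-!
# Row 272, leaf GS-ALG, second part: counting relators (orbit spans).  (helper66)
-/

namespace Crest.Agent.R272.GSOrb_66

open MonoidAlgebra Module Crest.Agent.R272.GSAlg_66

noncomputable section

section Orbit

variable {k V : Type*} [Field k] [AddCommGroup V] [Module k V] {L : Type*} [Group L] {Λ : Type*}

/-- The element `(h_{c_1} - 1) ⋯ (h_{c_e} - 1) v`. -/
def word (ρ : L →* Module.End k V) (h : Λ → L) (v : V) : List Λ → V
  | [] => v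
  | c :: w => ρ (h c) (word ρ h v w) - word ρ h v w

/-- The span of the words of weight at least `j - d`, plus `Fil n`. -/
def wspan (ρ : L →* Module.End k V) (h : Λ → L) (v : V) (wt : List Λ → ℕ) (d : ℕ)
    (M : Submodule k V) (j : ℕ) : Submodule k V :=
  Submodule.span k {u | ∃ w, j ≤ d + wt w ∧ u = word ρ h v w} ⊔ M

lemma wspan_anti (ρ : L →* Module.End k V) (h : Λ → L) (v : V) (wt : List Λ → ℕ) (d : ℕ)
    (M : Submodule k V) : Antitone (wspan ρ h v wt d M) := by
  intro i j hij
  refine sup_le_sup (Submodule.span_mono ?_) le_rfl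
  rintro u ⟨w, hw, rfl⟩
  exact ⟨w, hij.trans hw, rfl⟩

/-- Orbits under a group generated by the `h c`: `(x - 1)` raises the word filtration. -/
theorem orbit_step (ρ : L →* Module.End k V) (h : Λ → L)
    (hgen : Subgroup.closure (Set.range h) = ⊤)
    (Fil : ℕ → Submodule k V) (hanti : Antitone Fil)
    (hstab : ∀ x n, ∀ v ∈ Fil n, ρ x v ∈ Fil n)
    (wt : List Λ → ℕ) (hwt : ∀ c w, wt w < wt (c :: w)) (v : V) (d : ℕ)
    (hv : ∀ w, word ρ h v w ∈ Fil (d + wt w)) (n : ℕ) (x : L) :
    ∀ j, ∀ u ∈ wspan ρ h v wt d (Fil n) j, ρ x u - u ∈ wspan ρ h v wt d (Fil n) (j + 1) := by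
  have hx : x ∈ Subgroup.closure (Set.range h) := by rw [hgen]; trivial
  have hanti' := wspan_anti ρ h v wt d (Fil n)
  have hn : ∀ j, n ≤ j → wspan ρ h v wt d (Fil n) j = Fil n := by
    intro j hj
    apply le_antisymm _ le_sup_right
    refine sup_le ?_ le_rfl
    rw [Submodule.span_le]
    rintro u ⟨w, hw, rfl⟩
    exact hanti (hj.trans hw) (hv w)
  induction hx using Subgroup.closure_induction with
  | mem x hx =>
    obtain ⟨c, rfl⟩ := hx
    intro j
    have hle : wspan ρ h v wt d (Fil n) j ≤
        (wspan ρ h v wt d (Fil n) (j + 1)).comap (ρ (h c) - 1) := by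
      refine sup_le ?_ ?_
      · rw [Submodule.span_le]
        rintro u ⟨w, hw, rfl⟩
        refine Submodule.mem_sup_left (Submodule.subset_span ⟨c :: w, ?_, rfl⟩)
        have := hwt c w
        omega
      · intro u hu
        exact Submodule.mem_sup_right (sub_mem (hstab _ _ _ hu) hu)
    exact fun u hu => hle hu
  | one =>
    intro j u _
    rw [map_one, Module.End.one_apply, sub_self]
    exact Submodule.zero_mem _
  | mul x y _ _ hx' hy' =>
    intro j u hu
    have h1 := hy' j u hu
    have h2 := hx' j u hu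
    have h3 := hx' (j + 1) _ h1
    have e : ρ (x * y) u - u = (ρ x (ρ y u - u) - (ρ y u - u)) + (ρ y u - u) + (ρ x u - u) := by
      rw [map_mul, Module.End.mul_apply, map_sub]; abel
    rw [e]
    exact add_mem (add_mem (hanti' (Nat.le_succ _) h3) h1) h2
  | inv x _ hx' =>
    have key : ∀ i j, n ≤ j + i → ∀ u ∈ wspan ρ h v wt d (Fil n) j,
        ρ x⁻¹ u - u ∈ wspan ρ h v wt d (Fil n) (j + 1) := by
      intro i
      induction i with
      | zero =>
        intro j hj u hu
        rw [hn j (by omega)] at hu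
        rw [hn (j + 1) (by omega)]
        exact sub_mem (hstab _ _ _ hu) hu
      | succ i ih =>
        intro j hj u hu
        have h1 := hx' j u hu
        have h2 := ih (j + 1) (by omega) _ h1
        have e : ρ x⁻¹ u - u = - (ρ x⁻¹ (ρ x u - u) - (ρ x u - u)) - (ρ x u - u) := by
          have : ρ x⁻¹ (ρ x u) = u := by
            rw [← Module.End.mul_apply, ← map_mul, inv_mul_cancel, map_one, Module.End.one_apply]
          rw [map_sub, this]; abel
        rw [e]
        exact sub_mem (neg_mem (hanti' (Nat.le_succ _) h2)) h1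
    intro j
    exact key n j (by omega)

theorem orbit_mem (ρ : L →* Module.End k V) (h : Λ → L)
    (hgen : Subgroup.closure (Set.range h) = ⊤)
    (Fil : ℕ → Submodule k V) (hanti : Antitone Fil)
    (hstab : ∀ x n, ∀ v ∈ Fil n, ρ x v ∈ Fil n)
    (wt : List Λ → ℕ) (hwt : ∀ c w, wt w < wt (c :: w)) (v : V) (d : ℕ)
    (hv : ∀ w, word ρ h v w ∈ Fil (d + wt w)) (n : ℕ) (x : L) :
    ρ x v ∈ Submodule.span k {u | ∃ w, d + wt w < n ∧ u = word ρ h v w} ⊔ Fil n := by
  have hv0 : v ∈ wspan ρ h v wt d (Fil n) 0 :=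
    Submodule.mem_sup_left (Submodule.subset_span ⟨[], by omega, rfl⟩)
  have h1 := orbit_step ρ h hgen Fil hanti hstab wt hwt v d hv n x 0 v hv0
  have h2 : ρ x v ∈ wspan ρ h v wt d (Fil n) 0 := by
    have := add_mem (wspan_anti ρ h v wt d (Fil n) (Nat.le_succ 0) h1) hv0
    rwa [sub_add_cancel] at this
  have hle : wspan ρ h v wt d (Fil n) 0 ≤
      Submodule.span k {u | ∃ w, d + wt w < n ∧ u = word ρ h v w} ⊔ Fil n := by
    refine sup_le ?_ le_sup_right
    rw [Submodule.span_le]
    rintro u ⟨w, _, rfl⟩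
    by_cases hw : d + wt w < n
    · exact Submodule.mem_sup_left (Submodule.subset_span ⟨w, hw, rfl⟩)
    · exact Submodule.mem_sup_right (hanti (not_lt.1 hw) (hv w))
  exact hle h2

/-- With the length as weight. -/
lemma word_mem (ρ : L →* Module.End k V) (h : Λ → L) (Fil : ℕ → Submodule k V)
    (hh : ∀ c n, ∀ v ∈ Fil n, ρ (h c) v - v ∈ Fil (n + 1)) (v : V) (d : ℕ) (hv : v ∈ Fil d)
    (w : List Λ) : word ρ h v w ∈ Fil (d + w.length) := by
  induction w with
  | nil => simpa [word] using hv
  | cons c w ih =>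
    rw [word, List.length_cons, ← add_assoc]
    exact hh c _ _ ih

end Orbit

section Count

variable {k : Type*} [Field k] {G H : Type*} [Group G] [Group H]

lemma hasCount_mono_set {X Y : Set (MonoidAlgebra k G)} {ρ : ℕ → ℝ} (hY : HasCount Y ρ)
    (h : X ⊆ Y) : HasCount X ρ := by
  intro n
  obtain ⟨J, hJ, d, τ, h1, h2, h3, h4⟩ := hY n
  exact ⟨J, hJ, d, τ, h1, h2, fun x hx => h3 x (h hx), h4⟩

lemma hasCount_mono {X : Set (MonoidAlgebra k G)} {ρ σ : ℕ → ℝ} (hX : HasCount X ρ)
    (h : ∀ e, ρ e ≤ σ e) : HasCount X σ := by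
  intro n
  obtain ⟨J, hJ, d, τ, h1, h2, h3, h4⟩ := hX n
  exact ⟨J, hJ, d, τ, h1, h2, h3, fun e he => (h4 e he).trans (h e)⟩

lemma hasCount_span {X : Set (MonoidAlgebra k G)} {ρ : ℕ → ℝ} (hX : HasCount X ρ) :
    HasCount (Submodule.span k X : Set (MonoidAlgebra k G)) ρ := by
  intro n
  obtain ⟨J, hJ, d, τ, h1, h2, h3, h4⟩ := hX n
  refine ⟨J, hJ, d, τ, h1, h2, ?_, h4⟩
  intro x hx
  exact (Submodule.span_le.2 h3) hx

lemma hasCount_empty : HasCount (∅ : Set (MonoidAlgebra k G)) (fun _ => 0) := by
  intro n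
  refine ⟨Empty, inferInstance, fun _ => 1, fun _ => 0, fun _ => le_rfl, fun j => j.elim,
    fun x hx => hx.elim, fun e _ => by simp⟩

lemma hasCount_union {X Y : Set (MonoidAlgebra k G)} {ρ σ : ℕ → ℝ} (hX : HasCount X ρ)
    (hY : HasCount Y σ) : HasCount (X ∪ Y) (fun e => ρ e + σ e) := by
  classical
  intro n
  obtain ⟨J, hJ, d, τ, h1, h2, h3, h4⟩ := hX n
  obtain ⟨J', hJ', d', τ', h1', h2', h3', h4'⟩ := hY n
  refine ⟨J ⊕ J', inferInstance, Sum.elim d d', Sum.elim τ τ', ?_, ?_, ?_, ?_⟩
  · rintro (j | j)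
    exacts [h1 j, h1' j]
  · rintro (j | j)
    exacts [h2 j, h2' j]
  · rintro x (hx | hx)
    · have hle : Submodule.span k (Set.range τ) ≤
          Submodule.span k (Set.range (Sum.elim τ τ')) := by
        refine Submodule.span_mono ?_
        rintro _ ⟨j, rfl⟩
        exact ⟨Sum.inl j, rfl⟩
      exact (sup_le_sup_right hle _) (h3 x hx)
    · have hle : Submodule.span k (Set.range τ') ≤
          Submodule.span k (Set.range (Sum.elim τ τ')) := by
        refine Submodule.span_mono ?_
        rintro _ ⟨j, rfl⟩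
        exact ⟨Sum.inr j, rfl⟩
      exact (sup_le_sup_right hle _) (h3' x hx)
  · intro e he
    have : (Finset.univ.filter (fun j : J ⊕ J' => Sum.elim d d' j = e)).card =
        (Finset.univ.filter (fun j : J => d j = e)).card +
        (Finset.univ.filter (fun j : J' => d' j = e)).card := by
      rw [← Fintype.card_subtype, ← Fintype.card_subtype, ← Fintype.card_subtype,
        ← Fintype.card_sum]
      exact Fintype.card_congr (Equiv.subtypeSum).symm.symm
    rw [this]
    push_cast
    exact add_le_add (h4 e he) (h4' e he)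

lemma hasCount_biUnion {I : Type*} (s : Finset I) {X : I → Set (MonoidAlgebra k G)}
    {ρ : I → ℕ → ℝ} (hX : ∀ i ∈ s, HasCount (X i) (ρ i)) :
    HasCount (⋃ i ∈ s, X i) (fun e => ∑ i ∈ s, ρ i e) := by
  classical
  induction s using Finset.induction_on with
  | empty => simpa using hasCount_empty
  | insert a s ha ih =>
    have h1 := hasCount_union (hX a (Finset.mem_insert_self a s))
      (ih fun i hi => hX i (Finset.mem_insert_of_mem hi))
    refine hasCount_mono (hasCount_mono_set h1 ?_) ?_
    · rw [Finset.set_biUnion_insert]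
    · intro e
      rw [Finset.sum_insert ha]

lemma hasCount_map {X : Set (MonoidAlgebra k G)} {ρ : ℕ → ℝ} (hX : HasCount X ρ) (f : G →* H) :
    HasCount (psh k f '' X) ρ := by
  intro n
  obtain ⟨J, hJ, d, τ, h1, h2, h3, h4⟩ := hX n
  refine ⟨J, hJ, d, fun j => psh k f (τ j), h1, fun j => psh_mem_F f _ (h2 j), ?_, h4⟩
  rintro _ ⟨x, hx, rfl⟩
  obtain ⟨y, hy, z, hz, hyz⟩ := Submodule.mem_sup.1 (h3 x hx)
  rw [← hyz, map_add]
  refine Submodule.add_mem_sup ?_ (psh_mem_F f _ hz)
  have : Submodule.span k (Set.range τ) ≤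
      (Submodule.span k (Set.range fun j => psh k f (τ j))).comap (psh k f).toLinearMap := by
    rw [Submodule.span_le]
    rintro _ ⟨j, rfl⟩
    exact Submodule.subset_span ⟨j, rfl⟩
  exact this hy

lemma hasCount_singleton {d : ℕ} (hd : 1 ≤ d) {x : MonoidAlgebra k G} (hx : x ∈ F k G d) :
    HasCount {x} (fun e => if e = d then 1 else 0) := by
  intro n
  refine ⟨Unit, inferInstance, fun _ => d, fun _ => x, fun _ => hd, fun _ => hx, ?_, ?_⟩
  · rintro y rfl
    exact Submodule.mem_sup_left (Submodule.subset_span ⟨(), rfl⟩)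
  · intro e _
    by_cases h : e = d
    · subst h; simp
    · simp [h, Ne.symm h]

/-- The count from the dimensions of the graded pieces. -/
theorem hasCount_of_dim (T : Submodule k (MonoidAlgebra k G)) (m : ℕ) (hm : 1 ≤ m)
    (hT : T ≤ F k G m) (hfd : ∀ n, FiniteDimensional k (MonoidAlgebra k G ⧸ F k G n)) (r : ℕ → ℝ)
    (h : ∀ j, m ≤ j → (finrank k ((T ⊓ F k G j).map (F k G (j + 1)).mkQ) : ℝ) ≤ r j) :
    HasCount (T : Set (MonoidAlgebra k G)) (fun j => if m ≤ j then r j else 0) := by
  classical
  have hfU : ∀ j, FiniteDimensional k ((T ⊓ F k G j).map (F k G (j + 1)).mkQ) := fun j => by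
    have := hfd (j + 1)
    infer_instance
  have hbas : ∀ j, ∃ τ : Fin (finrank k ((T ⊓ F k G j).map (F k G (j + 1)).mkQ)) →
      MonoidAlgebra k G, (∀ i, τ i ∈ T ⊓ F k G j) ∧
      T ⊓ F k G j ≤ Submodule.span k (Set.range τ) ⊔ (T ⊓ F k G (j + 1)) := by
    intro j
    have := hfU j
    let b := Module.finBasis k ((T ⊓ F k G j).map (F k G (j + 1)).mkQ)
    choose τ hτ using fun i => (b i).2
    have hτ1 : ∀ i, τ i ∈ T ⊓ F k G j := fun i => (hτ i).1
    have hτ2 : ∀ i, (F k G (j + 1)).mkQ (τ i) = b i := fun i => (hτ i).2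
    refine ⟨τ, hτ1, ?_⟩
    intro x hx
    let y : (T ⊓ F k G j).map (F k G (j + 1)).mkQ := ⟨(F k G (j + 1)).mkQ x, ⟨x, hx, rfl⟩⟩
    have hy := b.sum_repr y
    have hz : (F k G (j + 1)).mkQ (∑ i, b.repr y i • τ i) = (F k G (j + 1)).mkQ x := by
      rw [map_sum]
      simp only [map_smul, hτ2]
      have h5 : ((∑ i, b.repr y i • b i : (T ⊓ F k G j).map (F k G (j + 1)).mkQ) :
          MonoidAlgebra k G ⧸ F k G (j + 1)) = (y : MonoidAlgebra k G ⧸ F k G (j + 1)) :=
        congrArg Subtype.val hy
      rw [Submodule.coe_sum] at h5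
      exact h5
    have hmem : ∑ i, b.repr y i • τ i ∈ Submodule.span k (Set.range τ) :=
      Submodule.sum_mem _ fun i _ => Submodule.smul_mem _ _ (Submodule.subset_span ⟨i, rfl⟩)
    have hmem2 : ∑ i, b.repr y i • τ i ∈ T :=
      Submodule.sum_mem _ fun i _ => Submodule.smul_mem _ _ (hτ1 i).1
    have hd : x - ∑ i, b.repr y i • τ i ∈ T ⊓ F k G (j + 1) := by
      refine ⟨sub_mem hx.1 hmem2, ?_⟩
      have h0 : (F k G (j + 1)).mkQ (x - ∑ i, b.repr y i • τ i) = 0 := by
        rw [map_sub, hz, sub_self]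
      exact (Submodule.Quotient.mk_eq_zero _).1 h0
    have := Submodule.add_mem_sup hmem hd
    rwa [add_sub_cancel] at this
  choose τ hτ1 hτ2 using hbas
  have hzero : ∀ j, j < m → finrank k ((T ⊓ F k G j).map (F k G (j + 1)).mkQ) = 0 := by
    intro j hj
    have : (T ⊓ F k G j).map (F k G (j + 1)).mkQ = ⊥ := by
      rw [eq_bot_iff]
      rintro _ ⟨x, hx, rfl⟩
      rw [Submodule.mem_bot, Submodule.mkQ_apply, Submodule.Quotient.mk_eq_zero]
      exact F_anti hj (hT hx.1)
    rw [this, finrank_bot]
  intro n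
  let J := (j : Fin n) × Fin (finrank k ((T ⊓ F k G (j : ℕ)).map (F k G ((j : ℕ) + 1)).mkQ))
  refine ⟨J, inferInstance, fun j => (j.1 : ℕ), fun j => τ j.1 j.2, ?_, ?_, ?_, ?_⟩
  · rintro ⟨j, i⟩
    by_contra hlt
    have h1 := hzero (j : ℕ) (by
      change ¬ 1 ≤ (j : ℕ) at hlt
      omega)
    exact absurd i.2 (by omega)
  · rintro ⟨j, i⟩
    exact (hτ1 j i).2
  · have key : ∀ j, j ≤ n → T ≤ Submodule.span k (Set.range fun i : J => τ i.1 i.2) ⊔
        (T ⊓ F k G j) := by
      intro j
      induction j with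
      | zero => intro _; simp
      | succ j ih =>
        intro hj
        refine (ih (by omega)).trans (sup_le le_sup_left ?_)
        refine (hτ2 j).trans (sup_le ?_ le_sup_right)
        refine le_trans (Submodule.span_mono ?_) le_sup_left
        rintro _ ⟨i, rfl⟩
        exact ⟨⟨⟨j, by omega⟩, i⟩, rfl⟩
    intro x hx
    exact (sup_le_sup_left (inf_le_right : T ⊓ F k G n ≤ F k G n) _) (key n le_rfl hx)
  · intro e he
    change _ ≤ (if m ≤ e then r e else 0)
    by_cases hen : e < n
    · have hcard : (Finset.univ.filter (fun j : J => (j.1 : ℕ) = e)).card =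
          finrank k ((T ⊓ F k G e).map (F k G (e + 1)).mkQ) := by
        rw [← Fintype.card_subtype]
        have : {j : J // (j.1 : ℕ) = e} ≃
            Fin (finrank k ((T ⊓ F k G e).map (F k G (e + 1)).mkQ)) :=
          { toFun := fun j => by
              obtain ⟨⟨⟨j, hj⟩, i⟩, hje⟩ := j
              change j = e at hje
              subst hje
              exact i
            invFun := fun i => ⟨⟨⟨e, hen⟩, i⟩, rfl⟩
            left_inv := by
              rintro ⟨⟨⟨j, hj⟩, i⟩, hje⟩
              change j = e at hje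
              subst hje
              rfl
            right_inv := fun i => rfl }
        rw [Fintype.card_congr this, Fintype.card_fin]
      rw [hcard]
      by_cases hme : m ≤ e
      · rw [if_pos hme]; exact h e hme
      · rw [if_neg hme, hzero e (by omega)]; simp
    · have hempty : (Finset.univ.filter (fun j : J => (j.1 : ℕ) = e)) = ∅ := by
        rw [Finset.filter_eq_empty_iff]
        rintro ⟨j, i⟩ _ hj
        have := j.2
        change (j : ℕ) = e at hj
        omega
      rw [hempty, Finset.card_empty]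
      by_cases hme : m ≤ e
      · rw [if_pos hme, Nat.cast_zero]
        exact (Nat.cast_nonneg _).trans (h e hme)
      · rw [if_neg hme]; simp

end Count

section Action

variable {k : Type*} [Field k] {G : Type*} [Group G] {L : Type*} [Group L] {Λ : Type*}

/-- The linear action on the group algebra coming from an action by group automorphisms. -/
def act (k : Type*) [Field k] {G : Type*} [Group G] {L : Type*} [Group L] (φ : L →* MulAut G) :
    L →* Module.End k (MonoidAlgebra k G) where
  toFun x := (psh k (φ x).toMonoidHom).toLinearMap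
  map_one' := by
    apply LinearMap.ext
    intro a
    have h1 : (φ 1).toMonoidHom = MonoidHom.id G := by rw [map_one]; rfl
    change psh k (φ 1).toMonoidHom a = a
    rw [h1, psh_id]
  map_mul' x y := by
    apply LinearMap.ext
    intro a
    change psh k (φ (x * y)).toMonoidHom a = psh k (φ x).toMonoidHom (psh k (φ y).toMonoidHom a)
    induction a using induction_of with
    | h0 => simp
    | hof g =>
      rw [psh_of, psh_of, psh_of, map_mul]; rfl
    | hadd a b ha hb => simp only [map_add, ha, hb]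
    | hsmul c a ha => simp only [map_smul, ha]

lemma act_apply (φ : L →* MulAut G) (x : L) (a : MonoidAlgebra k G) :
    act k φ x a = psh k (φ x).toMonoidHom a := rfl

lemma act_of (φ : L →* MulAut G) (x : L) (g : G) :
    act k φ x (of k G g) = of k G (φ x g) := by
  rw [act_apply, psh_of]; rfl

/-- An endomorphism acting trivially modulo the second dimension subgroup raises degrees. -/
lemma psh_sub_mem (f : G →* G) (hf : ∀ g, f g * g⁻¹ ∈ dimSub k G 2) (n : ℕ)
    (a : MonoidAlgebra k G) (ha : a ∈ F k G n) : psh k f a - a ∈ F k G (n + 1) := by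
  have h2 : ∀ b : MonoidAlgebra k G, psh k f b - b ∈ F k G 2 := by
    intro b
    induction b using induction_of with
    | h0 => simp
    | hof g =>
      rw [psh_of]
      have h1 : of k G (f g) - of k G g = (of k G (f g * g⁻¹) - 1) * of k G g := by
        rw [sub_mul, ← map_mul, inv_mul_cancel_right, one_mul]
      rw [h1]
      exact mul_mem_F_right _ (hf g)
    | hadd x y hx hy =>
      rw [map_add, add_sub_add_comm]
      exact add_mem hx hy
    | hsmul c x hx =>
      rw [map_smul, ← smul_sub]
      exact Submodule.smul_mem _ _ hx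
  induction n generalizing a with
  | zero => exact F_anti (by omega) (h2 a)
  | succ n ih =>
    rw [F_succ] at ha
    induction ha using Submodule.mul_induction_on' with
    | mem_mul_mem m hm y hy =>
      have e : psh k f (m * y) - m * y = psh k f m * (psh k f y - y) + (psh k f m - m) * y := by
        rw [map_mul]; noncomm_ring
      rw [e]
      refine add_mem ?_ ?_
      · exact mul_mem_F (m := n) (n := 2) (psh_mem_F f n hm) (h2 y)
      · exact mul_mem_F (n := 1) (ih m hm) (by rw [F_one]; exact hy)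
    | add x _ y _ hx hy =>
      rw [map_add, add_sub_add_comm]
      exact add_mem hx hy

/-- commutators lie in the second dimension subgroup -/
lemma commutator_mem (x y : G) : x * y * x⁻¹ * y⁻¹ ∈ dimSub k G 2 := by
  have h1 : x * y * x⁻¹ * y⁻¹ = (y * x) * ((y * x)⁻¹ * (x * y)) * (y * x)⁻¹ := by group
  rw [h1]
  apply (dimSub_normal 2).conj_mem
  rw [← of_sub_of_mem_iff]
  have e : of k G (x * y) - of k G (y * x) =
      (of k G x - 1) * (of k G y - 1) - (of k G y - 1) * (of k G x - 1) := by
    rw [map_mul, map_mul]; noncomm_ring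
  rw [e]
  exact sub_mem (mul_mem_F (m := 1) (n := 1) (by rw [F_one]; exact of_sub_one_mem x)
    (by rw [F_one]; exact of_sub_one_mem y))
    (mul_mem_F (m := 1) (n := 1) (by rw [F_one]; exact of_sub_one_mem y)
    (by rw [F_one]; exact of_sub_one_mem x))

/-- It is enough to check triviality modulo `D_2` on generators. -/
lemma triv_mod_two_of_gen {ι : Type*} (g : ι → G) (hg : Subgroup.closure (Set.range g) = ⊤)
    (f : G →* G) (hf : ∀ i, f (g i) * (g i)⁻¹ ∈ dimSub k G 2) (x : G) :
    f x * x⁻¹ ∈ dimSub k G 2 := by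
  have hx : x ∈ Subgroup.closure (Set.range g) := by rw [hg]; trivial
  induction hx using Subgroup.closure_induction with
  | mem x hx => obtain ⟨i, rfl⟩ := hx; exact hf i
  | one => simp
  | mul x y _ _ hx hy =>
    have e : f (x * y) * (x * y)⁻¹ = (f x * (f y * y⁻¹) * (f x)⁻¹) * (f x * x⁻¹) := by
      rw [map_mul]; group
    rw [e]
    exact Subgroup.mul_mem _ ((dimSub_normal 2).conj_mem _ hy _) hx
  | inv x _ hx =>
    have e : f x⁻¹ * x⁻¹⁻¹ = x⁻¹ * (f x * x⁻¹)⁻¹ * x⁻¹⁻¹ := by
      rw [map_inv]; group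
    rw [e]
    exact (dimSub_normal 2).conj_mem _ (Subgroup.inv_mem _ hx) _


/-- The number of words: `∑_{i < m} l^i`. -/
def wcount (l m : ℕ) : ℕ := ∑ i ∈ Finset.range m, l ^ i

variable (φ : L →* MulAut G) (h : Λ → L)

lemma fil_step (hφ : ∀ c g, φ (h c) g * g⁻¹ ∈ dimSub k G 2) (c : Λ) (n : ℕ)
    (a : MonoidAlgebra k G) (ha : a ∈ F k G n) : act k φ (h c) a - a ∈ F k G (n + 1) :=
  psh_sub_mem (φ (h c)).toMonoidHom (hφ c) n a ha

lemma fil_stab (x : L) (n : ℕ) (a : MonoidAlgebra k G) (ha : a ∈ F k G n) :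
    act k φ x a ∈ F k G n := psh_mem_F _ n ha

/-- **First orbit count.**  The whole orbit of an element of degree `d`: at most `l^(e-d)`
elements of degree `e`. -/
theorem orbit_hasCount [Fintype Λ] (hgen : Subgroup.closure (Set.range h) = ⊤)
    (hφ : ∀ c g, φ (h c) g * g⁻¹ ∈ dimSub k G 2) {d : ℕ} (hd : 1 ≤ d) {v : MonoidAlgebra k G}
    (hv : v ∈ F k G d) :
    HasCount (Set.range fun x : L => act k φ x v)
      (fun e => if d ≤ e then (Fintype.card Λ : ℝ) ^ (e - d) else 0) := by
  classical
  intro n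
  let e0 := Fintype.equivFin Λ
  let J := (i : Fin (n - d)) × (Fin (i : ℕ) → Fin (Fintype.card Λ))
  let wd : J → List Λ := fun j => List.ofFn fun i => e0.symm (j.2 i)
  have hlen : ∀ j : J, (wd j).length = j.1 := fun j => by simp [wd]
  refine ⟨J, inferInstance, fun j => d + j.1, fun j => word (act k φ) h v (wd j),
    fun j => Nat.le_add_right_of_le hd, ?_, ?_, ?_⟩
  · intro j
    have := word_mem (act k φ) h (F k G) (fil_step φ h hφ) v d hv (wd j)
    rwa [hlen] at this
  · rintro _ ⟨x, rfl⟩
    have h1 := orbit_mem (act k φ) h hgen (F k G) F_anti (fil_stab φ) List.length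
      (fun c w => by simp) v d (word_mem (act k φ) h (F k G) (fil_step φ h hφ) v d hv) n x
    refine (sup_le_sup_right (Submodule.span_mono ?_) _ :
      Submodule.span k _ ⊔ F k G n ≤ Submodule.span k _ ⊔ F k G n) h1
    rintro _ ⟨w, hw, rfl⟩
    refine ⟨⟨⟨w.length, by omega⟩, fun i => e0 (w.get i)⟩, ?_⟩
    change word (act k φ) h v (List.ofFn fun i => e0.symm (e0 (w.get i))) = _
    simp
  · intro e _
    change _ ≤ (if d ≤ e then (Fintype.card Λ : ℝ) ^ (e - d) else 0)
    by_cases hde : d ≤ e
    · rw [if_pos hde]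
      by_cases hen : e - d < n - d
      · have hcard : (Finset.univ.filter (fun j : J => d + (j.1 : ℕ) = e)).card =
            Fintype.card Λ ^ (e - d) := by
          have hfil : (Finset.univ.filter (fun j : J => d + (j.1 : ℕ) = e)) =
              (Finset.univ.filter (fun j : J => j.1 = (⟨e - d, hen⟩ : Fin (n - d)))) := by
            ext j
            simp only [Finset.mem_filter, Finset.mem_univ, true_and, Fin.ext_iff]
            omega
          rw [hfil, ← Fintype.card_subtype]
          have eqv : {j : J // j.1 = (⟨e - d, hen⟩ : Fin (n - d))} ≃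
              (Fin (e - d) → Fin (Fintype.card Λ)) :=
            Equiv.sigmaSubtype (⟨e - d, hen⟩ : Fin (n - d))
          rw [Fintype.card_congr eqv]
          simp
        rw [hcard]
        push_cast
        exact le_rfl
      · have hempty : (Finset.univ.filter (fun j : J => d + (j.1 : ℕ) = e)) = ∅ := by
          rw [Finset.filter_eq_empty_iff]
          rintro ⟨j, i⟩ _ hj
          have := j.2
          change d + (j : ℕ) = e at hj
          omega
        rw [hempty, Finset.card_empty, Nat.cast_zero]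
        positivity
    · rw [if_neg hde]
      have hempty : (Finset.univ.filter (fun j : J => d + (j.1 : ℕ) = e)) = ∅ := by
        rw [Finset.filter_eq_empty_iff]
        rintro ⟨j, i⟩ _ hj
        change d + (j : ℕ) = e at hj
        omega
      rw [hempty, Finset.card_empty, Nat.cast_zero]

/-- **Second orbit count (weights).**  A subspace of `F m` contained in the span of an orbit of an
element of degree `d`: at most as many elements of degree `e` as words `w` with `d + wt w ≤ e`. -/
theorem orbit_hasCount_sub_wt (hgen : Subgroup.closure (Set.range h) = ⊤)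
    (hfd : ∀ n, FiniteDimensional k (MonoidAlgebra k G ⧸ F k G n))
    (wt : List Λ → ℕ) (hwt : ∀ c w, wt w < wt (c :: w)) {d : ℕ} (v : MonoidAlgebra k G)
    (hv : ∀ w, word (act k φ) h v w ∈ F k G (d + wt w))
    (W : ℕ → Finset (List Λ)) (hW : ∀ n w, d + wt w < n → w ∈ W n)
    (T : Submodule k (MonoidAlgebra k G)) (m : ℕ) (hm : 1 ≤ m) (hTm : T ≤ F k G m)
    (hT : T ≤ Submodule.span k (Set.range fun x : L => act k φ x v)) :
    HasCount (T : Set (MonoidAlgebra k G)) (fun e => if m ≤ e then ((W (e + 1)).card : ℝ) else 0) := by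
  classical
  refine hasCount_of_dim T m hm hTm hfd (fun e => ((W (e + 1)).card : ℝ)) ?_
  intro e _
  have := hfd (e + 1)
  let u : W (e + 1) → MonoidAlgebra k G ⧸ F k G (e + 1) := fun w =>
    (F k G (e + 1)).mkQ (word (act k φ) h v w.1)
  have h1 : (T ⊓ F k G e).map (F k G (e + 1)).mkQ ≤ Submodule.span k (Set.range u) := by
    refine (Submodule.map_mono (inf_le_left.trans hT)).trans ?_
    rw [Submodule.map_span_le]
    rintro _ ⟨x, rfl⟩
    have h2 := orbit_mem (act k φ) h hgen (F k G) F_anti (fil_stab φ) wt hwt v d hv (e + 1) x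
    obtain ⟨y, hy, z, hz, hyz⟩ := Submodule.mem_sup.1 h2
    change (F k G (e + 1)).mkQ (act k φ x v) ∈ _
    rw [← hyz, map_add]
    have hz0 : (F k G (e + 1)).mkQ z = 0 := by
      rw [Submodule.mkQ_apply, Submodule.Quotient.mk_eq_zero]; exact hz
    rw [hz0, add_zero]
    have hle : Submodule.span k {u | ∃ w, d + wt w < e + 1 ∧ u = word (act k φ) h v w} ≤
        (Submodule.span k (Set.range u)).comap (F k G (e + 1)).mkQ := by
      rw [Submodule.span_le]
      rintro _ ⟨w, hw, rfl⟩
      exact Submodule.subset_span ⟨⟨w, hW _ _ hw⟩, rfl⟩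
    exact hle hy
  have h2 := (Submodule.finrank_mono h1).trans (finrank_range_le_card (R := k) u)
  rw [Fintype.card_coe] at h2
  exact_mod_cast h2

/-- **Second orbit count.**  A subspace of `F m` contained in the span of an orbit of an
element of degree `d`: at most `∑_{i ≤ e - d} l^i` elements of degree `e`. -/
theorem orbit_hasCount_sub [Fintype Λ] (hgen : Subgroup.closure (Set.range h) = ⊤)
    (hφ : ∀ c g, φ (h c) g * g⁻¹ ∈ dimSub k G 2)
    (hfd : ∀ n, FiniteDimensional k (MonoidAlgebra k G ⧸ F k G n))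
    {d : ℕ} {v : MonoidAlgebra k G} (hv : v ∈ F k G d)
    (T : Submodule k (MonoidAlgebra k G)) (m : ℕ) (hm : 1 ≤ m) (hTm : T ≤ F k G m)
    (hT : T ≤ Submodule.span k (Set.range fun x : L => act k φ x v)) :
    HasCount (T : Set (MonoidAlgebra k G))
      (fun e => if m ≤ e then (wcount (Fintype.card Λ) (e + 1 - d) : ℝ) else 0) := by
  classical
  let e0 := Fintype.equivFin Λ
  let Wf : (n : ℕ) → (i : Fin (n - d)) × (Fin (i : ℕ) → Fin (Fintype.card Λ)) → List Λ :=
    fun n j => List.ofFn fun i => e0.symm (j.2 i)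
  let W : ℕ → Finset (List Λ) := fun n => Finset.univ.image (Wf n)
  have hW : ∀ n w, d + List.length w < n → w ∈ W n := by
    intro n w hw
    refine Finset.mem_image.2 ⟨⟨⟨w.length, by omega⟩, fun i => e0 (w.get i)⟩,
      Finset.mem_univ _, ?_⟩
    change (List.ofFn fun i => e0.symm (e0 (w.get i))) = _
    simp
  have hcard : ∀ n, (W n).card ≤ wcount (Fintype.card Λ) (n - d) := by
    intro n
    refine (Finset.card_image_le).trans ?_
    rw [Finset.card_univ, Fintype.card_sigma, wcount, Finset.sum_range]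
    simp
  refine hasCount_mono (orbit_hasCount_sub_wt φ h hgen hfd List.length (fun c w => by simp) v
    (word_mem (act k φ) h (F k G) (fil_step φ h hφ) v d hv) W hW T m hm hTm hT) ?_
  intro e
  by_cases hme : m ≤ e
  · simp only [if_pos hme]
    exact_mod_cast hcard (e + 1)
  · simp only [if_neg hme]; exact le_rfl

end Action

end

end Crest.Agent.R272.GSOrb_66
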