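import Crest.Agent.R272.Cls9_620
import Crest.Agent.R272.I2b_939

/-!
helper939, row 272, (I2), part 4: every natural number `n ≥ 7` is a level; `n ≥ 7` times a level
of modulus `≥ 1` also.
-/

set_option autoImplicit false

namespace Crest.Agent.R272.I2_939

open Crest.Agent.R272.Cls_620

variable {O : Subring (Fin 2 → ℂ)} {z : Fin 2 → ℂ}

/-- the conditions `Lvl` from the size -/
theorem lvl_of (h : Z5 O z) {μ ε : Fin 2 → ℂ} (hm : μ ∈ O) (hε : ε ∈ O) (hμ : star μ = μ * ε)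
    (hk : ∃ k : ℕ, 0 < k ∧ ∃ u ∈ O, (k : Fin 2 → ℂ) = μ * u) (hK : 36 < ∏ t, ‖μ t‖) :
    Lvl O z μ := ⟨hm, hk, deep_of h hε hμ (by rw [show (6 : ℝ) * (2 + 4) = 36 by norm_num]; exact hK)⟩

/-- natural numbers -/
theorem lvl_nat (h : Z5 O z) {n : ℕ} (hn : 7 ≤ n) : Lvl O z (n : Fin 2 → ℂ) := by
  refine lvl_of h (natCast_mem O n) O.one_mem (by rw [star_natCast, mul_one])
    ⟨n, by omega, 1, O.one_mem, by rw [mul_one]⟩ ?_
  rw [Fin.prod_univ_two]
  simp only [Pi.natCast_apply, Complex.norm_natCast]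
  have : (7 : ℝ) ≤ n := by exact_mod_cast hn
  nlinarith

end Crest.Agent.R272.I2_939
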