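/-
helper295, row 272 (S0415), GINST: the choice of the level and of the group `K`.
-/
import Crest.Agent.R272.Gi1_295
import Crest.Agent.R272.AROutF_641
import Crest.Agent.R272.I2d_939

set_option autoImplicit false
set_option linter.unusedSectionVars false
set_option linter.unusedVariables false

open scoped ComplexConjugate
open Matrix

namespace Crest.Agent.R272.Gi_295

open Crest.Agent.R272.EBase_641 Crest.Agent.R272.In_68 Crest.Agent.R272.GInG_502
open Crest.Agent.R272.O5_74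

noncomputable section

variable {O : Subring (Fin 2 → ℂ)} {z : Fin 2 → ℂ}

theorem natCast_mem' (O : Subring (Fin 2 → ℂ)) (n : ℕ) : ((n : ℕ) : Fin 2 → ℂ) ∈ O := by
  simp

/-- all gap hypotheses for a natural number -/
theorem deep_nat (h : Cls_620.Z5 O z) {n : ℕ} {K : ℝ} (hn : 6 * (K + 4) < (n : ℝ) ^ 2) :
    Cls_620.Deep O z (n : Fin 2 → ℂ) K := by
  refine Cls_620.deep_of h O.one_mem (by rw [star_natCast, mul_one]) ?_
  rw [Fin.prod_univ_two]
  simp only [Pi.natCast_apply, Complex.norm_natCast]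
  nlinarith

theorem big_nat (h : Cls_620.Z5 O z) {n : ℕ} (hn : 9 ≤ n) :
    (64 : ℝ) < ∏ t, ‖(Cls_620.pz z * (n : Fin 2 → ℂ)) t‖ := by
  have h1 : (1 : ℝ) ≤ ∏ t, ‖Cls_620.pz z t‖ :=
    h.ord.norm_ge _ h.pz_mem (fun h0 => h.pz_ne 0 (by rw [h0]; rfl))
  have h2 : ∏ t, ‖(Cls_620.pz z * (n : Fin 2 → ℂ)) t‖ = (∏ t, ‖Cls_620.pz z t‖) * (n : ℝ) ^ 2 := by
    rw [Fin.prod_univ_two, Fin.prod_univ_two]
    simp only [Pi.mul_apply, norm_mul, Pi.natCast_apply, Complex.norm_natCast]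
    ring
  rw [h2]
  have h3 : (9 : ℝ) ≤ n := by exact_mod_cast hn
  nlinarith

/-- **the level**: for every even `n ≥ 9` there is a group `K` with all the root functions. -/
theorem exists_kd (h : Z5r O z) {n : ℕ} (hn : 9 ≤ n) (h2 : 2 ∣ n) (k : ℕ) (hk : 0 < k)
    (K0 : Subgroup (GU O z)) (hK0 : K0.FiniteIndex) :
    ∃ K : Subgroup (GU O z), KD h (n : Fin 2 → ℂ) K ∧ K ≤ K0 ∧
      ∀ a : Cls_620.Lb, Nonempty (Root 3 k ((rho h).comp K.subtype)
        (Cls_620.SS h (n : Fin 2 → ℂ) a)) := by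
  obtain ⟨K, k1, k2, k3, k4, k5⟩ := AROut_641.arOut h
    (I2_939.lvl_nat h.toZ5 (by omega : 7 ≤ n)) k hk K0 hK0
  refine ⟨K, ⟨natCast_mem' O n, big_nat h.toZ5 hn, ?_, k1, k2, fun g hg => k4 hg⟩, k3, k5⟩
  obtain ⟨c, rfl⟩ := h2
  exact ⟨(c : Fin 2 → ℂ), natCast_mem' O c, by push_cast; rfl⟩

end

end Crest.Agent.R272.Gi_295
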