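import Mathlib

/-!
# R272, GLUE2 (helper342): surgery over a base, topological part

`SD B X0 X1` : `p0 : X0 → B \ Z`, `p1 : X1 → U`, `Z ⊆ U`, and a homeomorphism over `U \ Z`.
`S.X` is the union; `S.il : X0 → S.X`, `S.ir : X1 → S.X` are open embeddings over `B`.
-/

set_option autoImplicit false
set_option linter.unusedSectionVars false
set_option linter.style.haveILetI false

open Set Filter Topology

namespace Crest.Agent.R272.Glue_342

noncomputable section

universe u v w

/-- surgery data over the base `B` -/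
structure SD (B : Type u) (X0 : Type v) (X1 : Type w) [TopologicalSpace B]
    [TopologicalSpace X0] [TopologicalSpace X1] where
  p0 : X0 → B
  p1 : X1 → B
  c0 : Continuous p0
  c1 : Continuous p1
  U : Set B
  Z : Set B
  oU : IsOpen U
  cZ : IsClosed Z
  ZU : Z ⊆ U
  n0 : ∀ x, p0 x ∉ Z
  n1 : ∀ y, p1 y ∈ U
  φ : OpenPartialHomeomorph X0 X1
  φs : ∀ x, x ∈ φ.source ↔ p0 x ∈ U
  φt : ∀ y, y ∈ φ.target ↔ p1 y ∉ Z
  φp : ∀ x ∈ φ.source, p1 (φ x) = p0 x

variable {B : Type u} {X0 : Type v} {X1 : Type w} [TopologicalSpace B]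
  [TopologicalSpace X0] [TopologicalSpace X1]

namespace SD

variable (S : SD B X0 X1)

/-- the glued space -/
def X : Type (max v w) := X0 ⊕ {y : X1 // S.p1 y ∈ S.Z}

/-- the first piece -/
def il (x : X0) : S.X := Sum.inl x

open Classical in
/-- the second piece -/
def ir (y : X1) : S.X := if h : S.p1 y ∈ S.Z then Sum.inr ⟨y, h⟩ else Sum.inl (S.φ.symm y)

theorem ir_mem {y : X1} (h : S.p1 y ∈ S.Z) : S.ir y = Sum.inr ⟨y, h⟩ := dif_pos h

theorem ir_not {y : X1} (h : S.p1 y ∉ S.Z) : S.ir y = S.il (S.φ.symm y) := dif_neg h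

theorem ir_target {y : X1} (h : y ∈ S.φ.target) : S.ir y = S.il (S.φ.symm y) :=
  S.ir_not ((S.φt y).1 h)

theorem ir_φ {x : X0} (h : x ∈ S.φ.source) : S.ir (S.φ x) = S.il x := by
  rw [S.ir_target (S.φ.map_source h), S.φ.left_inv h]

@[elab_as_elim]
theorem ind {P : S.X → Prop} (h0 : ∀ x, P (S.il x)) (h1 : ∀ y, P (S.ir y)) : ∀ z, P z := by
  rintro (x | ⟨y, hy⟩)
  · exact h0 x
  · rw [← S.ir_mem hy]; exact h1 y

theorem il_inj : Function.Injective S.il := fun _ _ h => Sum.inl_injective h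

theorem ir_inj : Function.Injective S.ir := by
  intro y y' h
  by_cases hy : S.p1 y ∈ S.Z <;> by_cases hy' : S.p1 y' ∈ S.Z
  · rw [S.ir_mem hy, S.ir_mem hy'] at h
    exact congrArg Subtype.val (Sum.inr_injective h)
  · rw [S.ir_mem hy, S.ir_not hy'] at h
    exact absurd h (by simp [il])
  · rw [S.ir_not hy, S.ir_mem hy'] at h
    exact absurd h (by simp [il])
  · rw [S.ir_not hy, S.ir_not hy'] at h
    exact S.φ.symm.injOn ((S.φt y).2 hy) ((S.φt y').2 hy') (S.il_inj h)

instance : TopologicalSpace S.X :=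
  TopologicalSpace.coinduced S.il inferInstance ⊔ TopologicalSpace.coinduced S.ir inferInstance

theorem isOpen_iff {W : Set S.X} : IsOpen W ↔ IsOpen (S.il ⁻¹' W) ∧ IsOpen (S.ir ⁻¹' W) :=
  Iff.rfl

theorem continuous_iff {Y : Type*} [TopologicalSpace Y] {f : S.X → Y} :
    Continuous f ↔ Continuous (fun x => f (S.il x)) ∧ Continuous (fun y => f (S.ir y)) := by
  constructor
  · intro h
    refine ⟨⟨fun V hV => ?_⟩, ⟨fun V hV => ?_⟩⟩
    · exact (S.isOpen_iff.1 (hV.preimage h)).1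
    · exact (S.isOpen_iff.1 (hV.preimage h)).2
  · rintro ⟨h0, h1⟩
    exact ⟨fun V hV => S.isOpen_iff.2 ⟨hV.preimage h0, hV.preimage h1⟩⟩

theorem c_il : Continuous S.il := ((S.continuous_iff (f := id)).1 continuous_id).1

theorem c_ir : Continuous S.ir := ((S.continuous_iff (f := id)).1 continuous_id).2

theorem pre_ir_il (W : Set X0) : S.ir ⁻¹' (S.il '' W) = S.φ.target ∩ S.φ.symm ⁻¹' W := by
  ext y
  constructor
  · rintro ⟨x, hx, h⟩
    by_cases hy : S.p1 y ∈ S.Z
    · rw [S.ir_mem hy] at h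
      exact absurd h (by simp [il])
    · rw [S.ir_not hy] at h
      have := S.il_inj h
      exact ⟨(S.φt y).2 hy, by rw [mem_preimage, ← this]; exact hx⟩
  · rintro ⟨hy, hx⟩
    exact ⟨_, hx, (S.ir_target hy).symm⟩

theorem pre_il_ir (V : Set X1) : S.il ⁻¹' (S.ir '' V) = S.φ.source ∩ S.φ ⁻¹' V := by
  ext x
  constructor
  · rintro ⟨y, hy, h⟩
    by_cases hZ : S.p1 y ∈ S.Z
    · rw [S.ir_mem hZ] at h
      exact absurd h (by simp [il])
    · rw [S.ir_not hZ] at h
      have h2 := S.il_inj h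
      have h3 := (S.φt y).2 hZ
      refine ⟨?_, ?_⟩
      · rw [← h2]; exact S.φ.map_target h3
      · rw [mem_preimage, ← h2, S.φ.right_inv h3]; exact hy
  · rintro ⟨hx, hy⟩
    exact ⟨_, hy, S.ir_φ hx⟩

theorem oe_il : IsOpenEmbedding S.il := by
  refine IsOpenEmbedding.of_continuous_injective_isOpenMap S.c_il S.il_inj fun W hW => ?_
  rw [S.isOpen_iff, preimage_image_eq W S.il_inj, S.pre_ir_il]
  exact ⟨hW, S.φ.isOpen_inter_preimage_symm hW⟩

theorem oe_ir : IsOpenEmbedding S.ir := by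
  refine IsOpenEmbedding.of_continuous_injective_isOpenMap S.c_ir S.ir_inj fun W hW => ?_
  rw [S.isOpen_iff, preimage_image_eq W S.ir_inj, S.pre_il_ir]
  exact ⟨S.φ.isOpen_inter_preimage hW, hW⟩

/-! ### maps out of the glued space -/

/-- the map given by compatible maps on the two pieces -/
def desc {Y : Type*} (f0 : X0 → Y) (f1 : X1 → Y) : S.X → Y :=
  Sum.elim f0 (fun y => f1 y.1)

@[simp] theorem desc_il {Y : Type*} (f0 : X0 → Y) (f1 : X1 → Y) (x : X0) :
    S.desc f0 f1 (S.il x) = f0 x := rfl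

theorem desc_ir {Y : Type*} {f0 : X0 → Y} {f1 : X1 → Y} (h : ∀ x ∈ S.φ.source, f1 (S.φ x) = f0 x)
    (y : X1) : S.desc f0 f1 (S.ir y) = f1 y := by
  by_cases hy : S.p1 y ∈ S.Z
  · rw [S.ir_mem hy]; rfl
  · have h3 := (S.φt y).2 hy
    rw [S.ir_not hy, desc_il, ← h _ (S.φ.map_target h3), S.φ.right_inv h3]

theorem c_desc {Y : Type*} [TopologicalSpace Y] {f0 : X0 → Y} {f1 : X1 → Y} (k0 : Continuous f0)
    (k1 : Continuous f1) (h : ∀ x ∈ S.φ.source, f1 (S.φ x) = f0 x) :
    Continuous (S.desc f0 f1) := by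
  rw [S.continuous_iff]
  refine ⟨by simpa using k0, ?_⟩
  simp only [S.desc_ir h]
  exact k1

/-- the projection to the base -/
def p : S.X → B := S.desc S.p0 S.p1

@[simp] theorem p_il (x : X0) : S.p (S.il x) = S.p0 x := rfl

@[simp] theorem p_ir (y : X1) : S.p (S.ir y) = S.p1 y := S.desc_ir S.φp y

theorem c_p : Continuous S.p := S.c_desc S.c0 S.c1 S.φp

theorem range_il : range S.il = S.p ⁻¹' S.Zᶜ := by
  ext z
  constructor
  · rintro ⟨x, rfl⟩; exact S.n0 x
  · revert z
    refine S.ind (fun x _ => ⟨x, rfl⟩) (fun y hy => ?_)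
    have hy' : S.p1 y ∉ S.Z := by simpa using hy
    exact ⟨_, (S.ir_not hy').symm⟩

theorem range_ir : range S.ir = S.p ⁻¹' S.U := by
  ext z
  constructor
  · rintro ⟨y, rfl⟩
    rw [mem_preimage, S.p_ir]; exact S.n1 y
  · revert z
    refine S.ind (fun x hx => ?_) (fun y _ => ⟨y, rfl⟩)
    exact ⟨_, S.ir_φ ((S.φs x).2 hx)⟩

theorem cover (z : S.X) : z ∈ range S.il ∨ z ∈ range S.ir := by
  revert z
  exact S.ind (fun x => Or.inl ⟨x, rfl⟩) (fun y => Or.inr ⟨y, rfl⟩)

/-! ### topological properties -/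

theorem t2 [T2Space B] [T2Space X0] [T2Space X1] : T2Space S.X := by
  refine ⟨fun x y hxy => ?_⟩
  by_cases hb : S.p x = S.p y
  · by_cases hU : S.p x ∈ S.U
    · obtain ⟨x', rfl⟩ : x ∈ range S.ir := by rw [S.range_ir]; exact hU
      obtain ⟨y', rfl⟩ : y ∈ range S.ir := by rw [S.range_ir, mem_preimage, ← hb]; exact hU
      obtain ⟨V, W, hV, hW, hx, hy, hd⟩ := t2_separation (fun h => hxy (by rw [h]) : x' ≠ y')
      exact ⟨_, _, S.oe_ir.isOpenMap _ hV, S.oe_ir.isOpenMap _ hW, mem_image_of_mem _ hx,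
        mem_image_of_mem _ hy, (disjoint_image_iff S.ir_inj).2 hd⟩
    · have hZ : S.p x ∉ S.Z := fun h => hU (S.ZU h)
      obtain ⟨x', rfl⟩ : x ∈ range S.il := by rw [S.range_il]; exact hZ
      obtain ⟨y', rfl⟩ : y ∈ range S.il := by rw [S.range_il, mem_preimage, ← hb]; exact hZ
      obtain ⟨V, W, hV, hW, hx, hy, hd⟩ := t2_separation (fun h => hxy (by rw [h]) : x' ≠ y')
      exact ⟨_, _, S.oe_il.isOpenMap _ hV, S.oe_il.isOpenMap _ hW, mem_image_of_mem _ hx,
        mem_image_of_mem _ hy, (disjoint_image_iff S.il_inj).2 hd⟩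
  · obtain ⟨V, W, hV, hW, hx, hy, hd⟩ := t2_separation hb
    exact ⟨_, _, hV.preimage S.c_p, hW.preimage S.c_p, hx, hy, hd.preimage _⟩

theorem wlc [WeaklyLocallyCompactSpace X0] [WeaklyLocallyCompactSpace X1] :
    WeaklyLocallyCompactSpace S.X := by
  refine ⟨fun z => ?_⟩
  rcases S.cover z with ⟨x, rfl⟩ | ⟨y, rfl⟩
  · obtain ⟨K, hK, hx⟩ := exists_compact_mem_nhds x
    exact ⟨_, hK.image S.c_il, S.oe_il.image_mem_nhds.2 hx⟩
  · obtain ⟨K, hK, hx⟩ := exists_compact_mem_nhds y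
    exact ⟨_, hK.image S.c_ir, S.oe_ir.image_mem_nhds.2 hx⟩

theorem lc [T2Space B] [T2Space X0] [T2Space X1] [WeaklyLocallyCompactSpace X0]
    [WeaklyLocallyCompactSpace X1] : LocallyCompactSpace S.X := by
  haveI := S.t2
  haveI := S.wlc
  infer_instance

theorem sc [SecondCountableTopology X0] [SecondCountableTopology X1] :
    SecondCountableTopology S.X := by
  let u : Bool → Set S.X := fun b => if b then range S.il else range S.ir
  have h1 : ∀ b, IsOpen (u b) := by
    rintro (_ | _)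
    · exact S.oe_ir.isOpen_range
    · exact S.oe_il.isOpen_range
  have h2 : ⋃ b, u b = univ := by
    rw [eq_univ_iff_forall]
    intro z
    rcases S.cover z with h | h
    · exact mem_iUnion.2 ⟨true, h⟩
    · exact mem_iUnion.2 ⟨false, h⟩
  haveI : ∀ b, SecondCountableTopology (u b) := by
    rintro (_ | _)
    · exact (S.oe_ir.toIsEmbedding.toHomeomorph.symm.isEmbedding).secondCountableTopology
    · exact (S.oe_il.toIsEmbedding.toHomeomorph.symm.isEmbedding).secondCountableTopology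
  exact TopologicalSpace.secondCountableTopology_of_countable_cover h1 h2

/-- preimages of compact sets are compact -/
theorem compact_pre [R1Space B]
    (h0 : ∀ K : Set B, IsCompact K → Disjoint K S.Z → IsCompact (S.p0 ⁻¹' K))
    (h1 : ∀ K : Set B, IsCompact K → K ⊆ S.U → IsCompact (S.p1 ⁻¹' K))
    {K : Set B} (hK : IsCompact K) : IsCompact (S.p ⁻¹' K) := by
  have hc : K ⊆ S.Zᶜ ∪ S.U := by
    intro b _
    by_cases hb : b ∈ S.Z
    · exact Or.inr (S.ZU hb)
    · exact Or.inl hb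
  obtain ⟨K0, K1, k0, k1, s0, s1, e⟩ := hK.binary_compact_cover S.cZ.isOpen_compl S.oU hc
  have h : S.p ⁻¹' K = S.il '' (S.p0 ⁻¹' K0) ∪ S.ir '' (S.p1 ⁻¹' K1) := by
    ext z
    constructor
    · intro hz
      rw [mem_preimage, e] at hz
      rcases hz with hz | hz
      · obtain ⟨x, rfl⟩ : z ∈ range S.il := by rw [S.range_il]; exact s0 hz
        exact Or.inl ⟨x, hz, rfl⟩
      · obtain ⟨y, rfl⟩ : z ∈ range S.ir := by rw [S.range_ir]; exact s1 hz
        exact Or.inr ⟨y, by simpa using hz, rfl⟩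
    · rw [e]
      rintro (⟨x, hx, rfl⟩ | ⟨y, hy, rfl⟩)
      · exact Or.inl hx
      · exact Or.inr (by rw [S.p_ir]; exact hy)
  rw [h]
  exact ((h0 K0 k0 (disjoint_left.2 s0)).image S.c_il).union ((h1 K1 k1 s1).image S.c_ir)

theorem proper [T2Space B] [WeaklyLocallyCompactSpace B]
    (h0 : ∀ K : Set B, IsCompact K → Disjoint K S.Z → IsCompact (S.p0 ⁻¹' K))
    (h1 : ∀ K : Set B, IsCompact K → K ⊆ S.U → IsCompact (S.p1 ⁻¹' K)) : IsProperMap S.p :=
  isProperMap_iff_isCompact_preimage.2 ⟨S.c_p, fun _ hK => S.compact_pre h0 h1 hK⟩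

theorem denseRange_il (h : Dense S.φ.target) : DenseRange S.il := by
  intro z
  rcases S.cover z with ⟨x, rfl⟩ | ⟨y, rfl⟩
  · exact subset_closure ⟨x, rfl⟩
  · have h1 : S.ir '' S.φ.target ⊆ range S.il := by
      rintro _ ⟨y, hy, rfl⟩
      exact ⟨_, (S.ir_target hy).symm⟩
    have h2 : S.ir y ∈ closure (S.ir '' S.φ.target) :=
      image_closure_subset_closure_image S.c_ir ⟨y, h y, rfl⟩
    exact closure_mono h1 h2

theorem preconnected [PreconnectedSpace X0] (h : Dense S.φ.target) : PreconnectedSpace S.X := by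
  refine ⟨?_⟩
  have h1 : IsPreconnected (range S.il) := isPreconnected_range S.c_il
  refine h1.subset_closure (subset_univ _) ?_
  rw [(S.denseRange_il h).closure_eq]

theorem connected [ConnectedSpace X0] (h : Dense S.φ.target) : ConnectedSpace S.X := by
  have := S.preconnected h
  exact ConnectedSpace.mk ⟨S.il (Classical.arbitrary X0)⟩

/-! ### group actions -/

/-- compatible actions of `G` -/
structure Act (G : Type*) [Group G] [MulAction G B] [MulAction G X0] [MulAction G X1] :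
    Prop where
  a0 : ∀ (g : G) (x : X0), S.p0 (g • x) = g • S.p0 x
  a1 : ∀ (g : G) (y : X1), S.p1 (g • y) = g • S.p1 y
  aU : ∀ (g : G), ∀ b ∈ S.U, g • b ∈ S.U
  aZ : ∀ (g : G), ∀ b ∈ S.Z, g • b ∈ S.Z
  aφ : ∀ (g : G), ∀ x ∈ S.φ.source, S.φ (g • x) = g • S.φ x

section Action

variable {S} {G : Type*} [Group G] [MulAction G B] [MulAction G X0] [MulAction G X1]
  (h : S.Act G)
include h

theorem Act.src (g : G) {x : X0} (hx : x ∈ S.φ.source) : g • x ∈ S.φ.source := by
  rw [S.φs, h.a0]; exact h.aU g _ ((S.φs x).1 hx)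

theorem Act.notZ (g : G) {b : B} (hb : b ∉ S.Z) : g • b ∉ S.Z := by
  intro hg
  have := h.aZ g⁻¹ _ hg
  rw [inv_smul_smul] at this
  exact hb this

theorem Act.symm (g : G) {y : X1} (hy : y ∈ S.φ.target) :
    S.φ.symm (g • y) = g • S.φ.symm y := by
  have h1 := S.φ.map_target hy
  have h2 := h.aφ g _ h1
  rw [S.φ.right_inv hy] at h2
  rw [← h2, S.φ.left_inv (h.src g h1)]

omit h in
/-- the glued action -/
@[reducible] def Act.mulAction (h : S.Act G) : MulAction G S.X where
  smul g z := match z with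
    | Sum.inl x => Sum.inl (g • x)
    | Sum.inr y => Sum.inr ⟨g • y.1, by rw [h.a1]; exact h.aZ g _ y.2⟩
  one_smul z := by
    rcases z with x | y
    · exact congrArg Sum.inl (one_smul G x)
    · exact congrArg Sum.inr (Subtype.ext (one_smul G y.1))
  mul_smul g g' z := by
    rcases z with x | y
    · exact congrArg Sum.inl (mul_smul g g' x)
    · exact congrArg Sum.inr (Subtype.ext (mul_smul g g' y.1))

theorem Act.smul_il (g : G) (x : X0) : letI := h.mulAction; g • S.il x = S.il (g • x) := rfl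

theorem Act.smul_ir (g : G) (y : X1) : letI := h.mulAction; g • S.ir y = S.ir (g • y) := by
  letI := h.mulAction
  show g • S.ir y = S.ir (g • y)
  by_cases hy : S.p1 y ∈ S.Z
  · rw [S.ir_mem hy, S.ir_mem (by rw [h.a1]; exact h.aZ g _ hy)]; rfl
  · have hy' : S.p1 (g • y) ∉ S.Z := by rw [h.a1]; exact h.notZ g hy
    rw [S.ir_not hy, S.ir_not hy', h.symm g ((S.φt y).2 hy)]
    rfl

theorem Act.p_smul (g : G) (z : S.X) : letI := h.mulAction; S.p (g • z) = g • S.p z := by
  letI := h.mulAction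
  show S.p (g • z) = g • S.p z
  revert z
  refine S.ind (fun x => ?_) (fun y => ?_)
  · rw [h.smul_il]; exact h.a0 g x
  · rw [h.smul_ir, S.p_ir, S.p_ir, h.a1]

theorem Act.contConst [ContinuousConstSMul G X0] [ContinuousConstSMul G X1] :
    letI := h.mulAction; ContinuousConstSMul G S.X := by
  letI := h.mulAction
  refine ⟨fun g => ?_⟩
  rw [S.continuous_iff]
  constructor
  · simp only [h.smul_il]
    exact S.c_il.comp (continuous_const_smul g)
  · simp only [h.smul_ir]
    exact S.c_ir.comp (continuous_const_smul g)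

theorem Act.free (hB : ∀ (g : G) (b : B), g • b = b → g = 1) (g : G) (z : S.X)
    (hz : letI := h.mulAction; g • z = z) : g = 1 := by
  letI := h.mulAction
  apply hB g (S.p z)
  rw [← h.p_smul]
  exact congrArg S.p hz

theorem Act.pd [ProperlyDiscontinuousSMul G B] :
    letI := h.mulAction; ProperlyDiscontinuousSMul G S.X := by
  letI := h.mulAction
  refine ⟨fun {K L} hK hL => ?_⟩
  refine (ProperlyDiscontinuousSMul.finite_disjoint_inter_image (Γ := G) (hK.image S.c_p)
    (hL.image S.c_p)).subset ?_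
  rintro g ⟨z, ⟨x, hx, rfl⟩, hz⟩
  refine ⟨S.p (g • x), ⟨S.p x, ⟨x, hx, rfl⟩, (h.p_smul g x).symm⟩, ⟨_, hz, rfl⟩⟩

end Action

end SD

end

end Crest.Agent.R272.Glue_342
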