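import Crest.Agent.R272.Glue1_342
import Crest.Agent.R272.HAt_342

/-!
# R272, GLUE2 (helper342), part 2: the holomorphic atlas of the glued space

`S.Hol A0 A1` : the gluing map is holomorphic both ways;
`S.atl h : Atl n S.X`; `il`, `ir` are holomorphic and locally biholomorphic;
a map out of `S.X` is holomorphic iff its two restrictions are.
-/

set_option autoImplicit false
set_option linter.unusedSectionVars false
set_option linter.style.haveILetI false

open Set Filter Topology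

namespace Crest.Agent.R272.Glue_342

open Crest.Agent.R275.Geo Crest.Agent.R275.Core144 Crest.Agent.R273.Map_835
  Crest.Agent.R273.PB_835 Crest.Agent.R272.HAt_342

noncomputable section

universe u

variable {B : Type u} {X0 X1 : Type} [TopologicalSpace B] [TopologicalSpace X0]
  [TopologicalSpace X1] {n : ℕ}

namespace SD

variable (S : SD B X0 X1) (A0 : Atl n X0) (A1 : Atl n X1)

/-- the gluing map is biholomorphic -/
structure Hol : Prop where
  h01 : ∀ x ∈ S.φ.source, HAt A0 A1 S.φ x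
  h10 : ∀ y ∈ S.φ.target, HAt A1 A0 S.φ.symm y

variable {S A0 A1} in
theorem Hol.d01 (h : S.Hol A0 A1) (i : A0.ι) (j : A1.ι) :
    DifferentiableOn ℂ (fun z => A1.e j (S.φ ((A0.e i).symm z)))
    {z | z ∈ (A0.e i).target ∧ (A0.e i).symm z ∈ S.φ.source ∧
      S.φ ((A0.e i).symm z) ∈ (A1.e j).source} := by
  rintro z ⟨hz, h1, h2⟩
  have h3 := (h.h01 _ h1).2 i j ((A0.e i).map_target hz) h2
  rw [(A0.e i).right_inv hz] at h3
  exact h3.differentiableWithinAt

variable {S A0 A1} in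
theorem Hol.d10 (h : S.Hol A0 A1) (i : A1.ι) (j : A0.ι) :
    DifferentiableOn ℂ (fun z => A0.e j (S.φ.symm ((A1.e i).symm z)))
    {z | z ∈ (A1.e i).target ∧ (A1.e i).symm z ∈ S.φ.target ∧
      S.φ.symm ((A1.e i).symm z) ∈ (A0.e j).source} := by
  rintro z ⟨hz, h1, h2⟩
  have h3 := (h.h10 _ h1).2 i j ((A1.e i).map_target hz) h2
  rw [(A1.e i).right_inv hz] at h3
  exact h3.differentiableWithinAt

variable {S A0 A1}

/-- the atlas of the glued space -/
def atl (h : S.Hol A0 A1) : Atl n S.X where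
  ι := A0.ι ⊕ A1.ι
  e := Sum.elim (fun i => (A0.e i).lift_openEmbedding S.oe_il)
    (fun j => (A1.e j).lift_openEmbedding S.oe_ir)
  cover := by
    refine S.ind (fun x => ?_) (fun y => ?_)
    · obtain ⟨i, hi⟩ := A0.cover x
      exact ⟨Sum.inl i, mem_image_of_mem _ hi⟩
    · obtain ⟨i, hi⟩ := A1.cover y
      exact ⟨Sum.inr i, mem_image_of_mem _ hi⟩
  cube := by
    rintro (i | i)
    · exact A0.cube i
    · exact A1.cube i
  holo := by
    rintro (i | i) (j | j)
    · refine (A0.holo i j).congr_mono (t := {z | z ∈ (A0.e i).target ∧ _}) ?_ ?_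
      · rintro z ⟨hz, hz'⟩
        exact (A0.e j).lift_openEmbedding_apply S.oe_il
      · rintro z ⟨hz, x, hx, he⟩
        have h1 : x = (A0.e i).symm z := S.il_inj he
        exact ⟨hz, h1 ▸ hx⟩
    · refine (h.d01 i j).congr_mono (t := {z | z ∈ (A0.e i).target ∧ _}) ?_ ?_
      · rintro z ⟨hz, hz'⟩
        have h1 : (A0.e i).symm z ∈ S.il ⁻¹' (S.ir '' (A1.e j).source) := hz'
        rw [S.pre_il_ir] at h1
        show (A1.e j).lift_openEmbedding S.oe_ir (S.il ((A0.e i).symm z)) = _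
        rw [← S.ir_φ h1.1]
        exact (A1.e j).lift_openEmbedding_apply S.oe_ir
      · rintro z ⟨hz, hz'⟩
        have h1 : (A0.e i).symm z ∈ S.il ⁻¹' (S.ir '' (A1.e j).source) := hz'
        rw [S.pre_il_ir] at h1
        exact ⟨hz, h1.1, h1.2⟩
    · refine (h.d10 i j).congr_mono (t := {z | z ∈ (A1.e i).target ∧ _}) ?_ ?_
      · rintro z ⟨hz, hz'⟩
        have h1 : (A1.e i).symm z ∈ S.ir ⁻¹' (S.il '' (A0.e j).source) := hz'
        rw [S.pre_ir_il] at h1
        show (A0.e j).lift_openEmbedding S.oe_il (S.ir ((A1.e i).symm z)) = _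
        rw [S.ir_target h1.1]
        exact (A0.e j).lift_openEmbedding_apply S.oe_il
      · rintro z ⟨hz, hz'⟩
        have h1 : (A1.e i).symm z ∈ S.ir ⁻¹' (S.il '' (A0.e j).source) := hz'
        rw [S.pre_ir_il] at h1
        exact ⟨hz, h1.1, h1.2⟩
    · refine (A1.holo i j).congr_mono (t := {z | z ∈ (A1.e i).target ∧ _}) ?_ ?_
      · rintro z ⟨hz, hz'⟩
        exact (A1.e j).lift_openEmbedding_apply S.oe_ir
      · rintro z ⟨hz, x, hx, he⟩
        have h1 : x = (A1.e i).symm z := S.ir_inj he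
        exact ⟨hz, h1 ▸ hx⟩

variable (h : S.Hol A0 A1)

/-- chart index from the first piece -/
def cl (i : A0.ι) : (atl h).ι := Sum.inl i

/-- chart index from the second piece -/
def cr (i : A1.ι) : (atl h).ι := Sum.inr i

@[elab_as_elim]
theorem ι_ind {P : (atl h).ι → Prop} (h0 : ∀ i, P (cl h i)) (h1 : ∀ i, P (cr h i)) : ∀ i, P i := by
  rintro (i | i)
  · exact h0 i
  · exact h1 i

theorem atl_e_inl (i : A0.ι) (x : X0) : (atl h).e (cl h i) (S.il x) = A0.e i x :=
  (A0.e i).lift_openEmbedding_apply S.oe_il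

theorem atl_e_inr (i : A1.ι) (y : X1) : (atl h).e (cr h i) (S.ir y) = A1.e i y :=
  (A1.e i).lift_openEmbedding_apply S.oe_ir

theorem atl_symm_inl (i : A0.ι) (z : Cn n) :
    ((atl h).e (cl h i)).symm z = S.il ((A0.e i).symm z) := rfl

theorem atl_symm_inr (i : A1.ι) (z : Cn n) :
    ((atl h).e (cr h i)).symm z = S.ir ((A1.e i).symm z) := rfl

theorem atl_target_inl (i : A0.ι) : ((atl h).e (cl h i)).target = (A0.e i).target := rfl

theorem atl_target_inr (i : A1.ι) : ((atl h).e (cr h i)).target = (A1.e i).target := rfl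

theorem atl_source_inl (i : A0.ι) :
    ((atl h).e (cl h i)).source = S.il '' (A0.e i).source := rfl

theorem atl_source_inr (i : A1.ι) :
    ((atl h).e (cr h i)).source = S.ir '' (A1.e i).source := rfl

theorem mem_source_inl {i : A0.ι} {x : X0} :
    S.il x ∈ ((atl h).e (cl h i)).source ↔ x ∈ (A0.e i).source := by
  rw [atl_source_inl, S.il_inj.mem_set_image]

theorem mem_source_inr {i : A1.ι} {y : X1} :
    S.ir y ∈ ((atl h).e (cr h i)).source ↔ y ∈ (A1.e i).source := by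
  rw [atl_source_inr, S.ir_inj.mem_set_image]

/-! ### maps out of the glued space -/

theorem hAt_il (x : X0) : HAt A0 (atl h) S.il x := by
  obtain ⟨i, hi⟩ := A0.cover x
  refine HAt.of S.c_il.continuousAt i (cl h i) hi ((mem_source_inl h).2 hi) ?_
  have e : rd A0 (atl h) S.il i (cl h i) = fun z => A0.e i ((A0.e i).symm z) := by
    funext z
    exact atl_e_inl h i _
  rw [e]
  exact diffAt_tr hi hi

theorem hAt_ir (y : X1) : HAt A1 (atl h) S.ir y := by
  obtain ⟨i, hi⟩ := A1.cover y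
  refine HAt.of S.c_ir.continuousAt i (cr h i) hi ((mem_source_inr h).2 hi) ?_
  have e : rd A1 (atl h) S.ir i (cr h i) = fun z => A1.e i ((A1.e i).symm z) := by
    funext z
    exact atl_e_inr h i _
  rw [e]
  exact diffAt_tr hi hi

theorem hAt_iff_il {m : ℕ} {N : Type} [TopologicalSpace N] {C : Atl m N} {f : S.X → N} (x : X0) :
    HAt (atl h) C f (S.il x) ↔ HAt A0 C (fun x => f (S.il x)) x := by
  refine ⟨fun hf => hf.comp (hAt_il h x), fun hf => ?_⟩
  obtain ⟨i, hi⟩ := A0.cover x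
  obtain ⟨j, hj⟩ := C.cover (f (S.il x))
  refine HAt.of ((S.oe_il.continuousAt_iff).1 hf.1) (cl h i) j ((mem_source_inl h).2 hi) hj ?_
  rw [atl_e_inl]
  exact hf.2 i j hi hj

theorem hAt_iff_ir {m : ℕ} {N : Type} [TopologicalSpace N] {C : Atl m N} {f : S.X → N} (y : X1) :
    HAt (atl h) C f (S.ir y) ↔ HAt A1 C (fun x => f (S.ir x)) y := by
  refine ⟨fun hf => hf.comp (hAt_ir h y), fun hf => ?_⟩
  obtain ⟨i, hi⟩ := A1.cover y
  obtain ⟨j, hj⟩ := C.cover (f (S.ir y))
  refine HAt.of ((S.oe_ir.continuousAt_iff).1 hf.1) (cr h i) j ((mem_source_inr h).2 hi) hj ?_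
  rw [atl_e_inr]
  exact hf.2 i j hi hj

theorem lAt_il (x : X0) : LAt A0 (atl h) S.il x := by
  obtain ⟨i, hi⟩ := A0.cover x
  refine LAt.of (hAt_il h x) i (cl h i) hi ((mem_source_inl h).2 hi) ?_
  have e : rd A0 (atl h) S.il i (cl h i) = rd A0 A0 id i i := by
    funext z
    exact atl_e_inl h i _
  rw [Jp_eq, e]
  exact (lBih_id A0).det i i x hi hi

theorem lAt_ir (y : X1) : LAt A1 (atl h) S.ir y := by
  obtain ⟨i, hi⟩ := A1.cover y
  refine LAt.of (hAt_ir h y) i (cr h i) hi ((mem_source_inr h).2 hi) ?_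
  have e : rd A1 (atl h) S.ir i (cr h i) = rd A1 A1 id i i := by
    funext z
    exact atl_e_inr h i _
  rw [Jp_eq, e]
  exact (lBih_id A1).det i i y hi hi

theorem lAt_iff_il {N : Type} [TopologicalSpace N] {C : Atl n N} {f : S.X → N} (x : X0) :
    LAt (atl h) C f (S.il x) ↔ LAt A0 C (fun x => f (S.il x)) x := by
  refine ⟨fun hf => hf.comp (lAt_il h x), fun hf => ?_⟩
  obtain ⟨i, hi⟩ := A0.cover x
  obtain ⟨j, hj⟩ := C.cover (f (S.il x))
  refine LAt.of ((hAt_iff_il h x).2 hf.1) (cl h i) j ((mem_source_inl h).2 hi) hj ?_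
  rw [Jp_eq, atl_e_inl]
  exact hf.2 i j hi hj

theorem lAt_iff_ir {N : Type} [TopologicalSpace N] {C : Atl n N} {f : S.X → N} (y : X1) :
    LAt (atl h) C f (S.ir y) ↔ LAt A1 C (fun x => f (S.ir x)) y := by
  refine ⟨fun hf => hf.comp (lAt_ir h y), fun hf => ?_⟩
  obtain ⟨i, hi⟩ := A1.cover y
  obtain ⟨j, hj⟩ := C.cover (f (S.ir y))
  refine LAt.of ((hAt_iff_ir h y).2 hf.1) (cr h i) j ((mem_source_inr h).2 hi) hj ?_
  rw [Jp_eq, atl_e_inr]
  exact hf.2 i j hi hj

theorem fAt_iff_il {W : Type*} [NormedAddCommGroup W] [NormedSpace ℂ W] {f : S.X → W} (x : X0) :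
    FAt (atl h) f (S.il x) ↔ FAt A0 (fun x => f (S.il x)) x := by
  refine ⟨fun hf => hf.comp (hAt_il h x), fun hf => ?_⟩
  obtain ⟨i, hi⟩ := A0.cover x
  refine FAt.of (cl h i) ((mem_source_inl h).2 hi) ?_
  rw [atl_e_inl]
  exact hf i hi

theorem fAt_iff_ir {W : Type*} [NormedAddCommGroup W] [NormedSpace ℂ W] {f : S.X → W} (y : X1) :
    FAt (atl h) f (S.ir y) ↔ FAt A1 (fun x => f (S.ir x)) y := by
  refine ⟨fun hf => hf.comp (hAt_ir h y), fun hf => ?_⟩
  obtain ⟨i, hi⟩ := A1.cover y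
  refine FAt.of (cr h i) ((mem_source_inr h).2 hi) ?_
  rw [atl_e_inr]
  exact hf i hi

theorem holMap_il : HolMap A0 (atl h) S.il := holMap_iff.2 (hAt_il h)

theorem holMap_ir : HolMap A1 (atl h) S.ir := holMap_iff.2 (hAt_ir h)

theorem lBih_il : LBih A0 (atl h) S.il := lBih_iff.2 (lAt_il h)

theorem lBih_ir : LBih A1 (atl h) S.ir := lBih_iff.2 (lAt_ir h)

theorem holMap_X_iff {m : ℕ} {N : Type} [TopologicalSpace N] {C : Atl m N} {f : S.X → N} :
    HolMap (atl h) C f ↔ HolMap A0 C (fun x => f (S.il x)) ∧ HolMap A1 C (fun y => f (S.ir y)) := by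
  simp only [holMap_iff]
  exact ⟨fun hf => ⟨fun x => (hAt_iff_il h x).1 (hf _), fun y => (hAt_iff_ir h y).1 (hf _)⟩,
    fun hf => S.ind (fun x => (hAt_iff_il h x).2 (hf.1 x)) (fun y => (hAt_iff_ir h y).2 (hf.2 y))⟩

theorem lBih_X_iff {N : Type} [TopologicalSpace N] {C : Atl n N} {f : S.X → N} :
    LBih (atl h) C f ↔ LBih A0 C (fun x => f (S.il x)) ∧ LBih A1 C (fun y => f (S.ir y)) := by
  simp only [lBih_iff]
  exact ⟨fun hf => ⟨fun x => (lAt_iff_il h x).1 (hf _), fun y => (lAt_iff_ir h y).1 (hf _)⟩,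
    fun hf => S.ind (fun x => (lAt_iff_il h x).2 (hf.1 x)) (fun y => (lAt_iff_ir h y).2 (hf.2 y))⟩

/-- compatible holomorphic maps on the two pieces -/
theorem holMap_desc {m : ℕ} {N : Type} [TopologicalSpace N] {C : Atl m N} {f0 : X0 → N}
    {f1 : X1 → N} (h0 : HolMap A0 C f0) (h1 : HolMap A1 C f1)
    (hc : ∀ x ∈ S.φ.source, f1 (S.φ x) = f0 x) : HolMap (atl h) C (S.desc f0 f1) :=
  (holMap_X_iff h).2 ⟨by simpa using h0, by simp only [S.desc_ir hc]; exact h1⟩

/-! ### group actions -/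

section Action

variable {G : Type*} [Group G] [MulAction G B] [MulAction G X0] [MulAction G X1] (a : S.Act G)

include a in
theorem Act.holMap (h0 : ∀ g : G, HolMap A0 A0 (fun x => g • x))
    (h1 : ∀ g : G, HolMap A1 A1 (fun y => g • y)) (g : G) :
    letI := a.mulAction; HolMap (atl h) (atl h) (fun z => g • z) := by
  letI := a.mulAction
  refine (holMap_X_iff h).2 ⟨?_, ?_⟩
  · simp only [a.smul_il]
    exact (holMap_il h).comp (h0 g)
  · simp only [a.smul_ir]
    exact (holMap_ir h).comp (h1 g)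

include a in
theorem Act.lBih (h0 : ∀ g : G, LBih A0 A0 (fun x => g • x))
    (h1 : ∀ g : G, LBih A1 A1 (fun y => g • y)) (g : G) :
    letI := a.mulAction; LBih (atl h) (atl h) (fun z => g • z) := by
  letI := a.mulAction
  refine (lBih_X_iff h).2 ⟨?_, ?_⟩
  · simp only [a.smul_il]
    exact (lBih_il h).comp (h0 g)
  · simp only [a.smul_ir]
    exact (lBih_ir h).comp (h1 g)

end Action

end SD

end

end Crest.Agent.R272.Glue_342
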