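import Crest.Agent.R272.Glue1_342

/-!
# R272, GLUE2 (helper342), part 3: local surgery data, families, induced pieces

`Loc B X0 Y p0` : a piece `Y → U` with a homeomorphism `X0|_U ≃ Y \ p⁻¹ Z`;
`Loc.sd` : the surgery data; `Loc.tr g` : translate by a group element;
`Loc.sigma` : disjoint union of a family with disjoint `U`s;
`Ind H Y` : `⨆ r, G ×_{H r} Y r`, with its `G`-action; `Loc.ind` : the induced piece.
-/

set_option autoImplicit false
set_option linter.unusedSectionVars false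
set_option linter.style.haveILetI false

open Set Filter Topology

namespace Crest.Agent.R272.Glue_342

noncomputable section

universe u v w

/-- local surgery data over the base `B` -/
structure Loc (B : Type u) (X0 : Type v) (Y : Type w) [TopologicalSpace B]
    [TopologicalSpace X0] [TopologicalSpace Y] (p0 : X0 → B) where
  p1 : Y → B
  c1 : Continuous p1
  U : Set B
  Z : Set B
  oU : IsOpen U
  ZU : Z ⊆ U
  n1 : ∀ y, p1 y ∈ U
  φ : OpenPartialHomeomorph X0 Y
  φs : ∀ x, x ∈ φ.source ↔ p0 x ∈ U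
  φt : ∀ y, y ∈ φ.target ↔ p1 y ∉ Z
  φp : ∀ x ∈ φ.source, p1 (φ x) = p0 x

namespace Loc

section sd

variable {B : Type u} {X0 : Type v} {Y : Type w} [TopologicalSpace B]
    [TopologicalSpace X0] [TopologicalSpace Y] {p0 : X0 → B}

/-- surgery data from local surgery data -/
def sd (L : Loc B X0 Y p0) (c0 : Continuous p0) (cZ : IsClosed L.Z) (n0 : ∀ x, p0 x ∉ L.Z) :
    SD B X0 Y where
  p0 := p0
  p1 := L.p1
  c0 := c0
  c1 := L.c1
  U := L.U
  Z := L.Z
  oU := L.oU
  cZ := cZ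
  ZU := L.ZU
  n0 := n0
  n1 := L.n1
  φ := L.φ
  φs := L.φs
  φt := L.φt
  φp := L.φp

end sd

/-! ### families -/

section sigma

variable {B : Type u} {X0 : Type v} {I : Type*} {Y : I → Type w} [TopologicalSpace B]
    [TopologicalSpace X0] [∀ i, TopologicalSpace (Y i)] {p0 : X0 → B}
    (L : ∀ i, Loc B X0 (Y i) p0)

/-- the domains are disjoint -/
def Dj : Prop := ∀ i j b, b ∈ (L i).U → b ∈ (L j).U → i = j

variable {L} (hd : Dj L) [Nonempty (Σ i, Y i)]

open Classical in
/-- the underlying map of the gluing map of a family -/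
def sigF (L : ∀ i, Loc B X0 (Y i) p0) (x : X0) : Σ i, Y i :=
  if h : ∃ i, p0 x ∈ (L i).U then ⟨h.choose, (L h.choose).φ x⟩ else Classical.arbitrary _

include hd in
theorem sigF_eq {i : I} {x : X0} (h : p0 x ∈ (L i).U) : sigF L x = ⟨i, (L i).φ x⟩ := by
  have h' : ∃ i, p0 x ∈ (L i).U := ⟨i, h⟩
  have e : h'.choose = i := hd _ _ _ h'.choose_spec h
  have e2 : sigF L x = ⟨h'.choose, (L h'.choose).φ x⟩ := dif_pos h'
  rw [e2]
  exact congrArg (fun j => (⟨j, (L j).φ x⟩ : Σ i, Y i)) e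

/-- the gluing map of a family -/
def sigφ (hd : Dj L) : OpenPartialHomeomorph X0 (Σ i, Y i) where
  toFun := sigF L
  invFun q := (L q.1).φ.symm q.2
  source := {x | ∃ i, p0 x ∈ (L i).U}
  target := {q | q.2 ∈ (L q.1).φ.target}
  map_source' := by
    rintro x ⟨i, hi⟩
    rw [sigF_eq hd hi]
    exact (L i).φ.map_source (((L i).φs x).2 hi)
  map_target' := by
    rintro ⟨i, y⟩ hy
    exact ⟨i, ((L i).φs _).1 ((L i).φ.map_target hy)⟩
  left_inv' := by
    rintro x ⟨i, hi⟩
    rw [sigF_eq hd hi]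
    exact (L i).φ.left_inv (((L i).φs x).2 hi)
  right_inv' := by
    rintro ⟨i, y⟩ hy
    have h1 : p0 ((L i).φ.symm y) ∈ (L i).U := ((L i).φs _).1 ((L i).φ.map_target hy)
    show sigF L ((L i).φ.symm y) = _
    rw [sigF_eq hd h1, (L i).φ.right_inv hy]
  open_source := by
    have : {x | ∃ i, p0 x ∈ (L i).U} = ⋃ i, (L i).φ.source := by
      ext x
      simp only [mem_ofPred_eq, mem_iUnion, (L _).φs]
    rw [this]
    exact isOpen_iUnion fun i => (L i).φ.open_source
  open_target := by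
    rw [isOpen_sigma_iff]
    intro i
    exact (L i).φ.open_target
  continuousOn_toFun := by
    rintro x ⟨i, hi⟩
    have hx := ((L i).φs x).2 hi
    have h1 : ContinuousAt (fun x => (⟨i, (L i).φ x⟩ : Σ i, Y i)) x :=
      ContinuousAt.comp (g := Sigma.mk i) continuous_sigmaMk.continuousAt
        ((L i).φ.continuousAt hx)
    refine (h1.congr ?_).continuousWithinAt
    filter_upwards [(L i).φ.open_source.mem_nhds hx] with z hz
    exact (sigF_eq hd (((L i).φs z).1 hz)).symm
  continuousOn_invFun := by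
    rintro ⟨i, y⟩ hy
    have h1 : ContinuousAt (fun q : Σ i, Y i => (L q.1).φ.symm q.2) ⟨i, y⟩ := by
      rw [← (IsOpenEmbedding.sigmaMk (i := i) (σ := Y)).continuousAt_iff]
      exact (L i).φ.continuousAt_symm hy
    exact h1.continuousWithinAt

/-- disjoint union of a family of pieces -/
def sigma (hd : Dj L) : Loc B X0 (Σ i, Y i) p0 where
  p1 q := (L q.1).p1 q.2
  c1 := continuous_sigma fun i => (L i).c1
  U := ⋃ i, (L i).U
  Z := ⋃ i, (L i).Z
  oU := isOpen_iUnion fun i => (L i).oU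
  ZU := iUnion_mono fun i => (L i).ZU
  n1 q := mem_iUnion.2 ⟨q.1, (L q.1).n1 q.2⟩
  φ := sigφ hd
  φs x := by
    show (∃ i, p0 x ∈ (L i).U) ↔ _
    rw [mem_iUnion]
  φt := by
    rintro ⟨i, y⟩
    show y ∈ (L i).φ.target ↔ _
    rw [(L i).φt, mem_iUnion, not_exists]
    constructor
    · intro h j hj
      obtain rfl := hd i j _ ((L i).n1 y) ((L j).ZU hj)
      exact h hj
    · intro h
      exact h i
  φp := by
    rintro x ⟨i, hi⟩
    show (L (sigF L x).1).p1 (sigF L x).2 = _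
    rw [sigF_eq hd hi]
    exact (L i).φp x (((L i).φs x).2 hi)

theorem sigma_φ {i : I} {x : X0} (h : p0 x ∈ (L i).U) : (sigma hd).φ x = ⟨i, (L i).φ x⟩ :=
  sigF_eq hd h

theorem sigma_compact
    (h1 : ∀ i, ∀ K : Set B, IsCompact K → K ⊆ (L i).U → IsCompact ((L i).p1 ⁻¹' K))
    (K : Set B) (hK : IsCompact K) (hKU : K ⊆ (sigma hd).U) :
    IsCompact ((sigma hd).p1 ⁻¹' K) := by
  obtain ⟨F, hF⟩ := hK.elim_finite_subcover (fun i => (L i).U) (fun i => (L i).oU) hKU
  have hi : ∀ i, IsCompact (K ∩ (L i).U) := by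
    intro i
    have : K ∩ (L i).U = K \ ⋃ j, ⋃ (_ : j ≠ i), (L j).U := by
      ext b
      simp only [mem_inter_iff, Set.mem_sdiff, mem_iUnion, not_exists]
      constructor
      · rintro ⟨hb, hbi⟩
        exact ⟨hb, fun j hj hbj => hj (hd j i b hbj hbi)⟩
      · rintro ⟨hb, hn⟩
        obtain ⟨j, hj⟩ := mem_iUnion.1 (hKU hb)
        by_cases e : j = i
        · exact ⟨hb, e ▸ hj⟩
        · exact absurd hj (hn j e)
    rw [this]
    exact hK.diff (isOpen_iUnion fun j => isOpen_iUnion fun _ => (L j).oU)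
  have e : (sigma hd).p1 ⁻¹' K = ⋃ i ∈ F, Sigma.mk i '' ((L i).p1 ⁻¹' (K ∩ (L i).U)) := by
    ext ⟨i, y⟩
    simp only [mem_iUnion, mem_preimage]
    constructor
    · intro hy
      have hy' : (L i).p1 y ∈ K := hy
      obtain ⟨j, hj⟩ := mem_iUnion.1 (hF hy')
      obtain ⟨hj1, hj2⟩ := mem_iUnion.1 hj
      obtain rfl := hd j i _ hj2 ((L i).n1 y)
      exact ⟨j, hj1, y, ⟨hy', hj2⟩, rfl⟩
    · rintro ⟨j, hj, y', hy', e⟩
      cases e
      exact hy'.1
  rw [e]
  exact F.isCompact_biUnion fun i _ => (h1 i _ (hi i) inter_subset_right).image continuous_sigmaMk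

theorem sigma_dense (h : ∀ i, Dense (L i).φ.target) : Dense (sigma hd).φ.target := by
  rintro ⟨i, y⟩
  have h1 : Sigma.mk i y ∈ closure (Sigma.mk i '' (L i).φ.target) :=
    image_closure_subset_closure_image continuous_sigmaMk ⟨y, h i y, rfl⟩
  refine closure_mono ?_ h1
  rintro _ ⟨y, hy, rfl⟩
  exact hy

theorem sigma_closed (h : ∀ i, IsClosed (L i).Z) (hl : LocallyFinite fun i => (L i).Z) :
    IsClosed (sigma hd).Z :=
  hl.isClosed_iUnion h

end sigma

/-! ### translates -/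

section tr

variable {B : Type u} {X0 : Type v} {Y : Type w} [TopologicalSpace B]
    [TopologicalSpace X0] [TopologicalSpace Y] {p0 : X0 → B}
    {G : Type*} [Group G] [MulAction G B] [MulAction G X0] [ContinuousConstSMul G B]
    [ContinuousConstSMul G X0]

/-- translate of a piece -/
def tr (L : Loc B X0 Y p0) (h0 : ∀ (g : G) (x : X0), p0 (g • x) = g • p0 x) (g : G) :
    Loc B X0 Y p0 where
  p1 y := g • L.p1 y
  c1 := (continuous_const_smul g).comp L.c1
  U := {b | g⁻¹ • b ∈ L.U}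
  Z := {b | g⁻¹ • b ∈ L.Z}
  oU := L.oU.preimage (continuous_const_smul g⁻¹)
  ZU := fun b hb => L.ZU hb
  n1 y := by
    show g⁻¹ • g • L.p1 y ∈ L.U
    rw [inv_smul_smul]
    exact L.n1 y
  φ := (Homeomorph.smul g⁻¹ : X0 ≃ₜ X0).toOpenPartialHomeomorph.trans L.φ
  φs x := by
    simp only [OpenPartialHomeomorph.trans_source, Homeomorph.toOpenPartialHomeomorph_source,
      univ_inter, mem_preimage, Homeomorph.toOpenPartialHomeomorph_apply, Homeomorph.smul_apply,
      L.φs, h0, mem_ofPred_eq]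
  φt y := by
    simp only [OpenPartialHomeomorph.trans_target, Homeomorph.toOpenPartialHomeomorph_target,
      preimage_univ, inter_univ, L.φt, mem_ofPred_eq, inv_smul_smul]
  φp x hx := by
    simp only [OpenPartialHomeomorph.trans_source, Homeomorph.toOpenPartialHomeomorph_source,
      univ_inter, mem_preimage, Homeomorph.toOpenPartialHomeomorph_apply,
      Homeomorph.smul_apply] at hx
    simp only [OpenPartialHomeomorph.coe_trans, Function.comp_apply,
      Homeomorph.toOpenPartialHomeomorph_apply, Homeomorph.smul_apply]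
    rw [L.φp _ hx, h0, smul_inv_smul]

variable (L : Loc B X0 Y p0) (h0 : ∀ (g : G) (x : X0), p0 (g • x) = g • p0 x) (g : G)

theorem tr_φ (x : X0) : (L.tr h0 g).φ x = L.φ (g⁻¹ • x) := rfl

theorem tr_φ_symm (y : Y) : (L.tr h0 g).φ.symm y = g • L.φ.symm y := by
  show (Homeomorph.smul g⁻¹ : X0 ≃ₜ X0).symm (L.φ.symm y) = _
  rw [Homeomorph.symm_apply_eq]
  simp

theorem tr_target : (L.tr h0 g).φ.target = L.φ.target := by
  ext y
  rw [(L.tr h0 g).φt, L.φt]
  show ¬ (g⁻¹ • g • L.p1 y ∈ L.Z) ↔ _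
  rw [inv_smul_smul]

theorem tr_compact (h1 : ∀ K : Set B, IsCompact K → K ⊆ L.U → IsCompact (L.p1 ⁻¹' K))
    (K : Set B) (hK : IsCompact K) (hKU : K ⊆ (L.tr h0 g).U) :
    IsCompact ((L.tr h0 g).p1 ⁻¹' K) := by
  have e : (L.tr h0 g).p1 ⁻¹' K = L.p1 ⁻¹' ((fun b => g⁻¹ • b) '' K) := by
    ext y
    simp only [mem_preimage, mem_image]
    constructor
    · intro hy
      exact ⟨_, hy, inv_smul_smul _ _⟩
    · rintro ⟨b, hb, e⟩
      show g • L.p1 y ∈ K
      rw [← e, smul_inv_smul]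
      exact hb
  rw [e]
  refine h1 _ (hK.image (continuous_const_smul g⁻¹)) ?_
  rintro _ ⟨b, hb, rfl⟩
  exact hKU hb

theorem tr_closed (h : IsClosed L.Z) : IsClosed (L.tr h0 g).Z :=
  h.preimage (continuous_const_smul g⁻¹)

end tr

end Loc

end

end Crest.Agent.R272.Glue_342
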