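import Crest.Agent.R272.Glue3_342

/-!
# R272, GLUE2 (helper342), part 4: induced pieces

`G` acts on the base `B` and on `X0`; for `r : R`: a subgroup `H r`, a space `Y r` with an action
of `H r`, local surgery data `L r : Loc B X0 (Y r) p0`, `H r`-equivariant, such that the tubes
`g • U r` are pairwise disjoint (`sep`).  Then `Ind H Y = ⨆ r, G ×_{H r} Y r` carries a `G`-action
and `ind` is surgery data, `G`-equivariant: `ind_act`.
-/

set_option autoImplicit false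
set_option linter.unusedSectionVars false
set_option linter.style.haveILetI false

open Set Filter Topology

namespace Crest.Agent.R272.Glue_342

noncomputable section

universe u v w

variable {G : Type*} [Group G]

/-- index set: all cosets -/
abbrev Ix {R : Type*} (H : R → Subgroup G) : Type _ := Σ r, G ⧸ H r

/-- the induced space -/
def Ind {R : Type*} (H : R → Subgroup G) (Y : R → Type w) : Type _ := Σ i : Ix H, Y i.1

namespace Ind

section cocycle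

variable {H : Subgroup G}

theorem ker_mem (g : G) (a : G ⧸ H) : (Quotient.out (g • a))⁻¹ * (g * Quotient.out a) ∈ H := by
  rw [← QuotientGroup.eq]
  show ((Quotient.out (g • a) : G) : G ⧸ H) = ((g * Quotient.out a : G) : G ⧸ H)
  rw [QuotientGroup.out_eq']
  conv_lhs => rw [← QuotientGroup.out_eq' a]
  rfl

/-- the cocycle -/
def κ (g : G) (a : G ⧸ H) : H := ⟨_, ker_mem g a⟩

theorem κ_spec (g : G) (a : G ⧸ H) :
    (Quotient.out (g • a) : G) * (κ g a : G) = g * Quotient.out a := by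
  simp [κ]

theorem κ_one (a : G ⧸ H) : κ (1 : G) a = 1 := by
  ext
  simp [κ]

theorem κ_mul (g g' : G) (a : G ⧸ H) : κ (g * g') a = κ g (g' • a) * κ g' a := by
  ext
  simp only [κ, mul_smul, Subgroup.coe_mul]
  group

end cocycle

variable {R : Type*} {H : R → Subgroup G} {Y : R → Type w}

/-- element of the induced space -/
def mk (r : R) (a : G ⧸ H r) (y : Y r) : Ind H Y := ⟨⟨r, a⟩, y⟩

@[elab_as_elim]
theorem ind {P : Ind H Y → Prop} (h : ∀ r a y, P (mk r a y)) : ∀ q, P q := by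
  rintro ⟨⟨r, a⟩, y⟩
  exact h r a y

section top

variable [∀ r, TopologicalSpace (Y r)]

instance : TopologicalSpace (Ind H Y) :=
  inferInstanceAs (TopologicalSpace (Σ i : Ix H, Y i.1))

instance [∀ r, T2Space (Y r)] : T2Space (Ind H Y) :=
  inferInstanceAs (T2Space (Σ i : Ix H, Y i.1))

instance [∀ r, WeaklyLocallyCompactSpace (Y r)] : WeaklyLocallyCompactSpace (Ind H Y) := by
  refine ⟨fun q => ?_⟩
  obtain ⟨i, y⟩ := q
  obtain ⟨K, hK, hy⟩ := exists_compact_mem_nhds y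
  exact ⟨Sigma.mk i '' K, hK.image continuous_sigmaMk,
    (IsOpenEmbedding.sigmaMk (σ := fun i : Ix H => Y i.1)).image_mem_nhds.2 hy⟩

instance [∀ r, SecondCountableTopology (Y r)] [Countable (Ix H)] :
    SecondCountableTopology (Ind H Y) :=
  inferInstanceAs (SecondCountableTopology (Σ i : Ix H, Y i.1))

theorem isOpenEmbedding_mk (r : R) (a : G ⧸ H r) : IsOpenEmbedding (mk (Y := Y) r a) :=
  IsOpenEmbedding.sigmaMk (σ := fun i : Ix H => Y i.1) (i := ⟨r, a⟩)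

theorem continuous_mk (r : R) (a : G ⧸ H r) : Continuous (mk (Y := Y) r a) :=
  (isOpenEmbedding_mk r a).continuous

theorem continuous_of {Z : Type*} [TopologicalSpace Z] {f : Ind H Y → Z}
    (h : ∀ r a, Continuous fun y => f (mk r a y)) : Continuous f :=
  continuous_sigma fun i => h i.1 i.2

end top

section act

variable [∀ r, MulAction (H r) (Y r)]

instance : MulAction G (Ind H Y) where
  smul g q := ⟨⟨q.1.1, g • q.1.2⟩, κ g q.1.2 • q.2⟩
  one_smul q := by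
    obtain ⟨⟨r, a⟩, y⟩ := q
    show (⟨⟨r, (1 : G) • a⟩, κ (1 : G) a • y⟩ : Ind H Y) = ⟨⟨r, a⟩, y⟩
    have h2 : κ (1 : G) a • y = y := by rw [κ_one, one_smul]
    exact congrArg₂ (fun (a : G ⧸ H r) (y : Y r) => (⟨⟨r, a⟩, y⟩ : Ind H Y)) (one_smul G a) h2
  mul_smul g g' q := by
    obtain ⟨⟨r, a⟩, y⟩ := q
    show (⟨⟨r, (g * g') • a⟩, κ (g * g') a • y⟩ : Ind H Y) =
      ⟨⟨r, g • g' • a⟩, κ g (g' • a) • κ g' a • y⟩
    have h2 : κ (g * g') a • y = κ g (g' • a) • κ g' a • y := by rw [κ_mul, mul_smul]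
    exact congrArg₂ (fun (a : G ⧸ H r) (y : Y r) => (⟨⟨r, a⟩, y⟩ : Ind H Y)) (mul_smul g g' a) h2

theorem smul_mk (g : G) (r : R) (a : G ⧸ H r) (y : Y r) :
    g • (mk r a y : Ind H Y) = mk r (g • a) (κ g a • y) := rfl

instance [∀ r, TopologicalSpace (Y r)] [∀ r, ContinuousConstSMul (H r) (Y r)] :
    ContinuousConstSMul G (Ind H Y) := by
  refine ⟨fun g => continuous_of fun r a => ?_⟩
  simp only [smul_mk]
  exact (continuous_mk r (g • a)).comp (continuous_const_smul (κ g a))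

end act

end Ind

/-! ### the local surgery data -/

namespace Loc

variable {B : Type u} {X0 : Type v} {R : Type*} {H : R → Subgroup G} {Y : R → Type w}
    [TopologicalSpace B] [TopologicalSpace X0] [∀ r, TopologicalSpace (Y r)] {p0 : X0 → B}
    [MulAction G B] [MulAction G X0] [ContinuousConstSMul G B] [ContinuousConstSMul G X0]
    [∀ r, MulAction (H r) (Y r)]

/-- equivariance of a family of local surgery data -/
structure Eqv (L : ∀ r, Loc B X0 (Y r) p0) : Prop where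
  e0 : ∀ (g : G) (x : X0), p0 (g • x) = g • p0 x
  e1 : ∀ r (h : H r) (y : Y r), (L r).p1 (h • y) = (h : G) • (L r).p1 y
  eU : ∀ r (h : H r), ∀ b ∈ (L r).U, (h : G) • b ∈ (L r).U
  eZ : ∀ r (h : H r), ∀ b ∈ (L r).Z, (h : G) • b ∈ (L r).Z
  eφ : ∀ r (h : H r), ∀ x ∈ (L r).φ.source, (L r).φ ((h : G) • x) = h • (L r).φ x
  sep : ∀ r r' (g : G) (b : B), b ∈ (L r).U → g • b ∈ (L r').U → r = r' ∧ g ∈ H r

variable {L : ∀ r, Loc B X0 (Y r) p0} (E : Eqv (H := H) L)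

/-- the translates -/
def trs (E : Eqv (H := H) L) (i : Ix H) : Loc B X0 (Y i.1) p0 :=
  (L i.1).tr E.e0 (Quotient.out i.2 : G)

theorem trs_dj : Dj (trs E) := by
  rintro ⟨r, a⟩ ⟨r', a'⟩ b hb hb'
  have hb1 : (Quotient.out a : G)⁻¹ • b ∈ (L r).U := hb
  have hb2 : (Quotient.out a' : G)⁻¹ • b ∈ (L r').U := hb'
  have hb3 : ((Quotient.out a' : G)⁻¹ * Quotient.out a) • ((Quotient.out a : G)⁻¹ • b) ∈
      (L r').U := by
    rw [mul_smul, smul_inv_smul]
    exact hb2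
  obtain ⟨e, he⟩ := E.sep r r' _ _ hb1 hb3
  subst e
  have h1 : ((Quotient.out a' : G) : G ⧸ H r) = ((Quotient.out a : G) : G ⧸ H r) :=
    QuotientGroup.eq.2 he
  rw [QuotientGroup.out_eq', QuotientGroup.out_eq'] at h1
  rw [h1]

variable [Nonempty (Ind H Y)]

/-- the induced surgery data -/
def ind (E : Eqv (H := H) L) : Loc B X0 (Ind H Y) p0 :=
  haveI : Nonempty (Σ i : Ix H, Y i.1) := ‹Nonempty (Ind H Y)›
  sigma (trs_dj E)

theorem ind_p1 (r : R) (a : G ⧸ H r) (y : Y r) :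
    (ind E).p1 (Ind.mk r a y) = (Quotient.out a : G) • (L r).p1 y := rfl

theorem mem_ind_U {b : B} : b ∈ (ind E).U ↔ ∃ r, ∃ a : G ⧸ H r,
    (Quotient.out a : G)⁻¹ • b ∈ (L r).U := by
  show b ∈ ⋃ i, (trs E i).U ↔ _
  rw [mem_iUnion]
  exact ⟨fun ⟨i, hi⟩ => ⟨i.1, i.2, hi⟩, fun ⟨r, a, h⟩ => ⟨⟨r, a⟩, h⟩⟩

theorem mem_ind_Z {b : B} : b ∈ (ind E).Z ↔ ∃ r, ∃ a : G ⧸ H r,
    (Quotient.out a : G)⁻¹ • b ∈ (L r).Z := by
  show b ∈ ⋃ i, (trs E i).Z ↔ _
  rw [mem_iUnion]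
  exact ⟨fun ⟨i, hi⟩ => ⟨i.1, i.2, hi⟩, fun ⟨r, a, h⟩ => ⟨⟨r, a⟩, h⟩⟩

/-- `Z` is the union of the translates -/
theorem mem_ind_Z' {b : B} : b ∈ (ind E).Z ↔ ∃ r, ∃ g : G, g • b ∈ (L r).Z := by
  rw [mem_ind_Z]
  constructor
  · rintro ⟨r, a, h⟩
    exact ⟨r, _, h⟩
  · rintro ⟨r, g, h⟩
    refine ⟨r, ((g⁻¹ : G) : G ⧸ H r), ?_⟩
    have h1 : (Quotient.out ((g⁻¹ : G) : G ⧸ H r) : G)⁻¹ * g⁻¹ ∈ H r := by
      rw [← QuotientGroup.eq, QuotientGroup.out_eq']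
    have h2 := E.eZ r ⟨_, h1⟩ _ h
    have h3 : ((Quotient.out ((g⁻¹ : G) : G ⧸ H r) : G)⁻¹ * g⁻¹) • g • b =
        (Quotient.out ((g⁻¹ : G) : G ⧸ H r) : G)⁻¹ • b := by
      rw [mul_smul, inv_smul_smul]
    rw [← h3]
    exact h2

theorem mem_ind_U' {b : B} : b ∈ (ind E).U ↔ ∃ r, ∃ g : G, g • b ∈ (L r).U := by
  rw [mem_ind_U]
  constructor
  · rintro ⟨r, a, h⟩
    exact ⟨r, _, h⟩
  · rintro ⟨r, g, h⟩
    refine ⟨r, ((g⁻¹ : G) : G ⧸ H r), ?_⟩
    have h1 : (Quotient.out ((g⁻¹ : G) : G ⧸ H r) : G)⁻¹ * g⁻¹ ∈ H r := by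
      rw [← QuotientGroup.eq, QuotientGroup.out_eq']
    have h2 := E.eU r ⟨_, h1⟩ _ h
    have h3 : ((Quotient.out ((g⁻¹ : G) : G ⧸ H r) : G)⁻¹ * g⁻¹) • g • b =
        (Quotient.out ((g⁻¹ : G) : G ⧸ H r) : G)⁻¹ • b := by
      rw [mul_smul, inv_smul_smul]
    rw [← h3]
    exact h2

/-- the gluing map of the induced piece -/
theorem ind_φ {r : R} {a : G ⧸ H r} {x : X0} (h : (Quotient.out a : G)⁻¹ • p0 x ∈ (L r).U) :
    (ind E).φ x = Ind.mk r a ((L r).φ ((Quotient.out a : G)⁻¹ • x)) :=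
  haveI : Nonempty (Σ i : Ix H, Y i.1) := ‹Nonempty (Ind H Y)›
  sigF_eq (i := (⟨r, a⟩ : Ix H)) (trs_dj E) h

/-- over the basic tube the gluing map is the given one, up to the element `out 1` of `H r` -/
theorem ind_φ' {r : R} {g : G} {x : X0} (h : p0 x ∈ (L r).U) :
    (ind E).φ (g • x) = g • (ind E).φ x := by
  have h1 : (Quotient.out ((1 : G) : G ⧸ H r) : G)⁻¹ • p0 x ∈ (L r).U := by
    have h2 : (Quotient.out ((1 : G) : G ⧸ H r) : G)⁻¹ ∈ H r := by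
      have : (Quotient.out ((1 : G) : G ⧸ H r) : G)⁻¹ * 1 ∈ H r := by
        rw [← QuotientGroup.eq, QuotientGroup.out_eq']
      rwa [mul_one] at this
    exact E.eU r ⟨_, h2⟩ _ h
  have h3 : (Quotient.out (g • ((1 : G) : G ⧸ H r)) : G)⁻¹ • p0 (g • x) ∈ (L r).U := by
    have h4 := E.eU r (Ind.κ g ((1 : G) : G ⧸ H r)) _ h1
    rw [E.e0]
    convert h4 using 1
    rw [← mul_smul, ← mul_smul]
    congr 1
    simp [Ind.κ, mul_assoc]
  rw [ind_φ E h1, ind_φ E h3, Ind.smul_mk]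
  congr 1
  have h5 : (Quotient.out ((1 : G) : G ⧸ H r) : G)⁻¹ • x ∈ (L r).φ.source := by
    rw [(L r).φs, E.e0]
    exact h1
  rw [← E.eφ r _ _ h5, ← mul_smul, ← mul_smul]
  congr 2
  simp [Ind.κ, mul_assoc]

theorem ind_act (c0 : Continuous p0) (cZ : IsClosed (ind E).Z) (n0 : ∀ x, p0 x ∉ (ind E).Z) :
    ((ind E).sd c0 cZ n0).Act G where
  a0 := E.e0
  a1 g := by
    refine Ind.ind fun r a y => ?_
    show (ind E).p1 (g • Ind.mk r a y) = g • (ind E).p1 (Ind.mk r a y)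
    rw [Ind.smul_mk, ind_p1, ind_p1, E.e1, ← mul_smul, Ind.κ_spec, mul_smul]
  aU g b hb := by
    obtain ⟨r, g', h⟩ := (mem_ind_U' E).1 hb
    refine (mem_ind_U' E).2 ⟨r, g' * g⁻¹, ?_⟩
    rw [mul_smul, inv_smul_smul]
    exact h
  aZ g b hb := by
    obtain ⟨r, g', h⟩ := (mem_ind_Z' E).1 hb
    refine (mem_ind_Z' E).2 ⟨r, g' * g⁻¹, ?_⟩
    rw [mul_smul, inv_smul_smul]
    exact h
  aφ g x hx := by
    show (ind E).φ (g • x) = g • (ind E).φ x
    have hx' : p0 x ∈ (ind E).U := ((ind E).φs x).1 hx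
    obtain ⟨r, g', h⟩ := (mem_ind_U' E).1 hx'
    rw [← E.e0] at h
    have h1 := ind_φ' E (g := g'⁻¹) h
    have h2 := ind_φ' E (g := g * g'⁻¹) h
    rw [inv_smul_smul] at h1
    rw [mul_smul, inv_smul_smul, mul_smul] at h2
    rw [h2, h1]

theorem ind_compact
    (h1 : ∀ r, ∀ K : Set B, IsCompact K → K ⊆ (L r).U → IsCompact ((L r).p1 ⁻¹' K))
    (K : Set B) (hK : IsCompact K) (hKU : K ⊆ (ind E).U) : IsCompact ((ind E).p1 ⁻¹' K) :=
  haveI : Nonempty (Σ i : Ix H, Y i.1) := ‹Nonempty (Ind H Y)›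
  sigma_compact (trs_dj E) (fun i => tr_compact _ _ _ (h1 i.1)) K hK hKU

theorem ind_dense (h : ∀ r, Dense (L r).φ.target) : Dense (ind E).φ.target :=
  haveI : Nonempty (Σ i : Ix H, Y i.1) := ‹Nonempty (Ind H Y)›
  sigma_dense (trs_dj E) fun i => by
    show Dense ((L i.1).tr E.e0 _).φ.target
    rw [tr_target]
    exact h i.1

theorem ind_closed (h : ∀ r, IsClosed (L r).Z)
    (hl : LocallyFinite fun i : Ix H => {b | (Quotient.out i.2 : G)⁻¹ • b ∈ (L i.1).Z}) :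
    IsClosed (ind E).Z :=
  haveI : Nonempty (Σ i : Ix H, Y i.1) := ‹Nonempty (Ind H Y)›
  sigma_closed (trs_dj E) (fun i => tr_closed _ _ _ (h i.1)) hl

end Loc

end

end Crest.Agent.R272.Glue_342
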