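import Crest.Agent.R272.Glue2_342
import Crest.Agent.R272.Glue4_342

/-!
# R272, GLUE2 (helper342), part 5: atlases of disjoint unions and of induced pieces, holomorphy of
the gluing maps
-/

set_option autoImplicit false
set_option linter.unusedSectionVars false
set_option linter.style.haveILetI false

open Set Filter Topology

namespace Crest.Agent.R272.Glue_342

open Crest.Agent.R275.Geo Crest.Agent.R275.Core144 Crest.Agent.R273.Map_835
  Crest.Agent.R273.PB_835 Crest.Agent.R272.HAt_342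

noncomputable section

universe u v w

/-! ### disjoint unions -/

section sigma

variable {n : ℕ} {I : Type} {Y : I → Type} [∀ i, TopologicalSpace (Y i)] (A : ∀ i, Atl n (Y i))

/-- the atlas of a disjoint union -/
def sigAtl : Atl n (Σ i, Y i) where
  ι := Σ i, (A i).ι
  e k := ((A k.1).e k.2).lift_openEmbedding (IsOpenEmbedding.sigmaMk (σ := Y))
  cover := by
    rintro ⟨i, y⟩
    obtain ⟨k, hk⟩ := (A i).cover y
    exact ⟨⟨i, k⟩, mem_image_of_mem _ hk⟩
  cube k := (A k.1).cube k.2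
  holo := by
    rintro ⟨i, k⟩ ⟨j, l⟩
    by_cases hij : i = j
    · subst hij
      refine ((A i).holo k l).congr_mono ?_ ?_
      · rintro z ⟨hz, hz'⟩
        exact ((A i).e l).lift_openEmbedding_apply (IsOpenEmbedding.sigmaMk (σ := Y))
      · rintro z ⟨hz, y, hy, he⟩
        have h1 : y = ((A i).e k).symm z := sigma_mk_injective he
        exact ⟨hz, h1 ▸ hy⟩
    · have : {z | z ∈ (((A i).e k).lift_openEmbedding (IsOpenEmbedding.sigmaMk (σ := Y))).target ∧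
          (((A i).e k).lift_openEmbedding (IsOpenEmbedding.sigmaMk (σ := Y))).symm z ∈
          (((A j).e l).lift_openEmbedding (IsOpenEmbedding.sigmaMk (σ := Y))).source} =
          (∅ : Set (Cn n)) := by
        ext z
        simp only [mem_empty_iff_false, iff_false]
        rintro ⟨_, y, _, he⟩
        exact hij (congrArg Sigma.fst he).symm
      show DifferentiableOn ℂ _ {z | _}
      rw [this]
      exact differentiableOn_empty

/-- chart index -/
def ci (i : I) (k : (A i).ι) : (sigAtl A).ι := ⟨i, k⟩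

theorem sigAtl_e (i : I) (k : (A i).ι) (y : Y i) :
    (sigAtl A).e (ci A i k) ⟨i, y⟩ = (A i).e k y :=
  ((A i).e k).lift_openEmbedding_apply (IsOpenEmbedding.sigmaMk (σ := Y))

theorem sigAtl_symm (i : I) (k : (A i).ι) (z : Cn n) :
    ((sigAtl A).e (ci A i k)).symm z = ⟨i, ((A i).e k).symm z⟩ := rfl

theorem sigAtl_source (i : I) (k : (A i).ι) :
    ((sigAtl A).e (ci A i k)).source = Sigma.mk i '' ((A i).e k).source := rfl

theorem sigAtl_target (i : I) (k : (A i).ι) :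
    ((sigAtl A).e (ci A i k)).target = ((A i).e k).target := rfl

theorem mem_sigAtl {i : I} {k : (A i).ι} {y : Y i} :
    (⟨i, y⟩ : Σ i, Y i) ∈ ((sigAtl A).e (ci A i k)).source ↔ y ∈ ((A i).e k).source := by
  rw [sigAtl_source, sigma_mk_injective.mem_set_image]

theorem hAt_mk (i : I) (y : Y i) : HAt (A i) (sigAtl A) (Sigma.mk i) y := by
  obtain ⟨k, hk⟩ := (A i).cover y
  refine HAt.of continuous_sigmaMk.continuousAt k (ci A i k) hk ((mem_sigAtl A).2 hk) ?_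
  have e : rd (A i) (sigAtl A) (Sigma.mk i) k (ci A i k) =
      fun z => (A i).e k (((A i).e k).symm z) := by
    funext z
    exact sigAtl_e A i k _
  rw [e]
  exact diffAt_tr hk hk

theorem lAt_mk (i : I) (y : Y i) : LAt (A i) (sigAtl A) (Sigma.mk i) y := by
  obtain ⟨k, hk⟩ := (A i).cover y
  refine LAt.of (hAt_mk A i y) k (ci A i k) hk ((mem_sigAtl A).2 hk) ?_
  have e : rd (A i) (sigAtl A) (Sigma.mk i) k (ci A i k) = rd (A i) (A i) id k k := by
    funext z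
    exact sigAtl_e A i k _
  rw [Jp_eq, e]
  exact (lBih_id (A i)).det k k y hk hk

variable {A}

theorem hAt_sigma_iff {m : ℕ} {N : Type} [TopologicalSpace N] {C : Atl m N} {f : (Σ i, Y i) → N}
    {i : I} {y : Y i} : HAt (sigAtl A) C f ⟨i, y⟩ ↔ HAt (A i) C (fun y => f ⟨i, y⟩) y := by
  refine ⟨fun hf => HAt.comp hf (hAt_mk A i y), fun hf => ?_⟩
  obtain ⟨k, hk⟩ := (A i).cover y
  obtain ⟨j, hj⟩ := C.cover (f ⟨i, y⟩)
  refine HAt.of (((IsOpenEmbedding.sigmaMk (σ := Y)).continuousAt_iff).1 hf.1) (ci A i k) j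
    ((mem_sigAtl A).2 hk) hj ?_
  rw [sigAtl_e]
  exact hf.2 k j hk hj

theorem lAt_sigma_iff {N : Type} [TopologicalSpace N] {C : Atl n N} {f : (Σ i, Y i) → N}
    {i : I} {y : Y i} : LAt (sigAtl A) C f ⟨i, y⟩ ↔ LAt (A i) C (fun y => f ⟨i, y⟩) y := by
  refine ⟨fun hf => LAt.comp hf (lAt_mk A i y), fun hf => ?_⟩
  obtain ⟨k, hk⟩ := (A i).cover y
  obtain ⟨j, hj⟩ := C.cover (f ⟨i, y⟩)
  refine LAt.of (hAt_sigma_iff.2 hf.1) (ci A i k) j ((mem_sigAtl A).2 hk) hj ?_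
  rw [Jp_eq, sigAtl_e]
  exact hf.2 k j hk hj

theorem fAt_sigma_iff {W : Type*} [NormedAddCommGroup W] [NormedSpace ℂ W] {f : (Σ i, Y i) → W}
    {i : I} {y : Y i} : FAt (sigAtl A) f ⟨i, y⟩ ↔ FAt (A i) (fun y => f ⟨i, y⟩) y := by
  refine ⟨fun hf => FAt.comp hf (hAt_mk A i y), fun hf => ?_⟩
  obtain ⟨k, hk⟩ := (A i).cover y
  refine FAt.of (ci A i k) ((mem_sigAtl A).2 hk) ?_
  rw [sigAtl_e]
  exact hf k hk

end sigma

/-! ### holomorphy of local surgery data -/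

section loc

variable {B : Type u} [TopologicalSpace B] {X0 Y : Type} [TopologicalSpace X0]
  [TopologicalSpace Y] {p0 : X0 → B} {n : ℕ}

/-- the gluing map is biholomorphic -/
structure Loc.Hol (L : Loc B X0 Y p0) (A0 : Atl n X0) (A1 : Atl n Y) : Prop where
  h01 : ∀ x ∈ L.φ.source, HAt A0 A1 L.φ x
  h10 : ∀ y ∈ L.φ.target, HAt A1 A0 L.φ.symm y

theorem Loc.Hol.sd {L : Loc B X0 Y p0} {A0 : Atl n X0} {A1 : Atl n Y} (h : L.Hol A0 A1)
    (c0 : Continuous p0) (cZ : IsClosed L.Z) (n0 : ∀ x, p0 x ∉ L.Z) :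
    (L.sd c0 cZ n0).Hol A0 A1 := ⟨h.h01, h.h10⟩

/-- it is enough that the gluing map is holomorphic and locally biholomorphic -/
theorem Loc.Hol.of_lAt {L : Loc B X0 Y p0} {A0 : Atl n X0} {A1 : Atl n Y}
    (h : ∀ x ∈ L.φ.source, LAt A0 A1 L.φ x) : L.Hol A0 A1 := by
  refine ⟨fun x hx => (h x hx).1, fun y hy => ?_⟩
  have hx := L.φ.map_target hy
  have h1 := h _ hx
  obtain ⟨i, hi⟩ := A0.cover (L.φ.symm y)
  obtain ⟨j, hj⟩ := A1.cover (L.φ (L.φ.symm y))
  have h2 := HAt.symm L.φ hx h1.1 ⟨i, j, hi, hj, h1.2 i j hi hj⟩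
  rwa [L.φ.right_inv hy] at h2

theorem Loc.Hol.tr {G : Type*} [Group G] [MulAction G B] [MulAction G X0]
    [ContinuousConstSMul G B] [ContinuousConstSMul G X0] {L : Loc B X0 Y p0} {A0 : Atl n X0}
    {A1 : Atl n Y} (h : L.Hol A0 A1) (h0 : ∀ (g : G) (x : X0), p0 (g • x) = g • p0 x)
    (hG : ∀ g : G, HolMap A0 A0 (fun x => g • x)) (g : G) : (L.tr h0 g).Hol A0 A1 := by
  constructor
  · intro x hx
    have hx' : g⁻¹ • x ∈ L.φ.source := by
      rw [(L.tr h0 g).φs] at hx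
      rw [L.φs, h0]
      exact hx
    exact (h.h01 _ hx').comp (HolMap.hAt (hG g⁻¹) x)
  · intro y hy
    rw [Loc.tr_target] at hy
    have h1 : HAt A1 A0 (fun y => g • L.φ.symm y) y :=
      (HolMap.hAt (hG g) _).comp (h.h10 y hy)
    refine h1.congr (Filter.Eventually.of_forall fun y => ?_)
    exact (Loc.tr_φ_symm L h0 g y).symm

end loc

section sigmaloc

variable {B : Type u} [TopologicalSpace B] {X0 : Type} {I : Type} {Y : I → Type}
  [TopologicalSpace X0] [∀ i, TopologicalSpace (Y i)] {p0 : X0 → B} {n : ℕ}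
  {L : ∀ i, Loc B X0 (Y i) p0} {A0 : Atl n X0} {A : ∀ i, Atl n (Y i)}

theorem Loc.Hol.sigma [Nonempty (Σ i, Y i)] (h : ∀ i, (L i).Hol A0 (A i)) (hd : Loc.Dj L) :
    (Loc.sigma hd).Hol A0 (sigAtl A) := by
  constructor
  · rintro x ⟨i, hi⟩
    have hx : x ∈ (L i).φ.source := ((L i).φs x).2 hi
    have h1 : HAt A0 (sigAtl A) (fun x => (⟨i, (L i).φ x⟩ : Σ i, Y i)) x :=
      (hAt_mk A i _).comp ((h i).h01 x hx)
    refine h1.congr ?_
    filter_upwards [(L i).φ.open_source.mem_nhds hx] with z hz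
    exact (Loc.sigma_φ hd (((L i).φs z).1 hz)).symm
  · rintro ⟨i, y⟩ hy
    rw [hAt_sigma_iff]
    exact (h i).h10 y hy

end sigmaloc

/-! ### induced pieces -/

section ind

variable {G : Type} [Group G] {R : Type} {H : R → Subgroup G} {Y : R → Type}
  [∀ r, TopologicalSpace (Y r)] {n : ℕ}

/-- the atlas of the induced space -/
def Ind.atl (A : ∀ r, Atl n (Y r)) : Atl n (Ind H Y) := sigAtl fun i : Ix H => A i.1

variable {A : ∀ r, Atl n (Y r)}

theorem Ind.hAt_mk (r : R) (a : G ⧸ H r) (y : Y r) :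
    HAt (A r) (Ind.atl (H := H) A) (Ind.mk r a) y :=
  Glue_342.hAt_mk (fun i : Ix H => A i.1) ⟨r, a⟩ y

theorem Ind.lAt_mk (r : R) (a : G ⧸ H r) (y : Y r) :
    LAt (A r) (Ind.atl (H := H) A) (Ind.mk r a) y :=
  Glue_342.lAt_mk (fun i : Ix H => A i.1) ⟨r, a⟩ y

theorem Ind.hAt_iff {m : ℕ} {N : Type} [TopologicalSpace N] {C : Atl m N} {f : Ind H Y → N}
    {r : R} {a : G ⧸ H r} {y : Y r} :
    HAt (Ind.atl A) C f (Ind.mk r a y) ↔ HAt (A r) C (fun y => f (Ind.mk r a y)) y :=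
  hAt_sigma_iff (A := fun i : Ix H => A i.1) (i := (⟨r, a⟩ : Ix H))

theorem Ind.lAt_iff {N : Type} [TopologicalSpace N] {C : Atl n N} {f : Ind H Y → N}
    {r : R} {a : G ⧸ H r} {y : Y r} :
    LAt (Ind.atl A) C f (Ind.mk r a y) ↔ LAt (A r) C (fun y => f (Ind.mk r a y)) y :=
  lAt_sigma_iff (A := fun i : Ix H => A i.1) (i := (⟨r, a⟩ : Ix H))

theorem Ind.fAt_iff {W : Type*} [NormedAddCommGroup W] [NormedSpace ℂ W] {f : Ind H Y → W}
    {r : R} {a : G ⧸ H r} {y : Y r} :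
    FAt (Ind.atl A) f (Ind.mk r a y) ↔ FAt (A r) (fun y => f (Ind.mk r a y)) y :=
  fAt_sigma_iff (A := fun i : Ix H => A i.1) (i := (⟨r, a⟩ : Ix H))

theorem Ind.holMap_smul [∀ r, MulAction (H r) (Y r)]
    (hH : ∀ r (h : H r), HolMap (A r) (A r) (fun y => h • y)) (g : G) :
    HolMap (Ind.atl (H := H) A) (Ind.atl A) (fun q => g • q) := by
  rw [holMap_iff]
  refine Ind.ind fun r a y => ?_
  rw [Ind.hAt_iff]
  simp only [Ind.smul_mk]
  exact (Ind.hAt_mk r (g • a) _).comp (HolMap.hAt (hH r _) y)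

theorem Ind.lBih_smul [∀ r, MulAction (H r) (Y r)]
    (hH : ∀ r (h : H r), LBih (A r) (A r) (fun y => h • y)) (g : G) :
    LBih (Ind.atl (H := H) A) (Ind.atl A) (fun q => g • q) := by
  rw [lBih_iff]
  refine Ind.ind fun r a y => ?_
  rw [Ind.lAt_iff]
  simp only [Ind.smul_mk]
  exact (Ind.lAt_mk r (g • a) _).comp (lBih_iff.1 (hH r _) y)

variable {B : Type u} [TopologicalSpace B] {X0 : Type} [TopologicalSpace X0] {p0 : X0 → B}
  [MulAction G B] [MulAction G X0] [ContinuousConstSMul G B] [ContinuousConstSMul G X0]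
  [∀ r, MulAction (H r) (Y r)] {L : ∀ r, Loc B X0 (Y r) p0} {A0 : Atl n X0}

theorem Loc.Hol.ind [Nonempty (Ind H Y)] (h : ∀ r, (L r).Hol A0 (A r))
    (E : Loc.Eqv (H := H) L) (hG : ∀ g : G, HolMap A0 A0 (fun x => g • x)) :
    (Loc.ind E).Hol A0 (Ind.atl A) :=
  haveI : Nonempty (Σ i : Ix H, Y i.1) := ‹Nonempty (Ind H Y)›
  Loc.Hol.sigma (fun i : Ix H => (h i.1).tr E.e0 hG _) (Loc.trs_dj E)

end ind

end

end Crest.Agent.R272.Glue_342
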