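import Crest.Agent.R272.Glue1_342
import Crest.Agent.R272.HFam_342

/-!
# R272, GLUE2 (helper342), part 6: the `Fam` of the glued space

Same as part 2 in the language of `Fam` (835): `S.HolF A0 A1`, `S.famX h : Fam n S.X`.
-/

set_option autoImplicit false
set_option linter.unusedSectionVars false
set_option linter.style.haveILetI false

open Set Filter Topology

namespace Crest.Agent.R272.Glue_342

open Crest.Agent.R275.Geo Crest.Agent.R273.Fam_835 Crest.Agent.R272.HFam_342

noncomputable section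

universe u

variable {B : Type u} {X0 X1 : Type} [TopologicalSpace B] [TopologicalSpace X0]
  [TopologicalSpace X1] {n : ℕ}

namespace SD

variable (S : SD B X0 X1) (A0 : Fam n X0) (A1 : Fam n X1)

/-- the gluing map is biholomorphic -/
structure HolF : Prop where
  h01 : ∀ x ∈ S.φ.source, HC A0 A1 S.φ x
  h10 : ∀ y ∈ S.φ.target, HC A1 A0 S.φ.symm y

variable {S A0 A1} in
theorem HolF.d01 (h : S.HolF A0 A1) (i : A0.ι) (j : A1.ι) :
    DifferentiableOn ℂ (fun z => A1.e j (S.φ ((A0.e i).symm z)))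
    {z | z ∈ (A0.e i).target ∧ (A0.e i).symm z ∈ S.φ.source ∧
      S.φ ((A0.e i).symm z) ∈ (A1.e j).source} := by
  rintro z ⟨hz, h1, h2⟩
  have h3 := (h.h01 _ h1).2 i j ((A0.e i).map_target hz) h2
  rw [(A0.e i).right_inv hz] at h3
  exact h3.differentiableWithinAt

variable {S A0 A1} in
theorem HolF.d10 (h : S.HolF A0 A1) (i : A1.ι) (j : A0.ι) :
    DifferentiableOn ℂ (fun z => A0.e j (S.φ.symm ((A1.e i).symm z)))
    {z | z ∈ (A1.e i).target ∧ (A1.e i).symm z ∈ S.φ.target ∧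
      S.φ.symm ((A1.e i).symm z) ∈ (A0.e j).source} := by
  rintro z ⟨hz, h1, h2⟩
  have h3 := (h.h10 _ h1).2 i j ((A1.e i).map_target hz) h2
  rw [(A1.e i).right_inv hz] at h3
  exact h3.differentiableWithinAt

variable {S A0 A1}

/-- the atlas of the glued space -/
def famX (h : S.HolF A0 A1) : Fam n S.X where
  ι := A0.ι ⊕ A1.ι
  e := Sum.elim (fun i => (A0.e i).lift_openEmbedding S.oe_il)
    (fun j => (A1.e j).lift_openEmbedding S.oe_ir)
  cover := by
    refine S.ind (fun x => ?_) (fun y => ?_)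
    · obtain ⟨i, hi⟩ := A0.cover x
      exact ⟨Sum.inl i, mem_image_of_mem _ hi⟩
    · obtain ⟨i, hi⟩ := A1.cover y
      exact ⟨Sum.inr i, mem_image_of_mem _ hi⟩
  holo := by
    rintro (i | i) (j | j)
    · refine (A0.holo i j).congr_mono (t := {z | z ∈ (A0.e i).target ∧ _}) ?_ ?_
      · rintro z ⟨hz, hz'⟩
        exact (A0.e j).lift_openEmbedding_apply S.oe_il
      · rintro z ⟨hz, x, hx, he⟩
        have h1 : x = (A0.e i).symm z := S.il_inj he
        exact ⟨hz, h1 ▸ hx⟩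
    · refine (h.d01 i j).congr_mono (t := {z | z ∈ (A0.e i).target ∧ _}) ?_ ?_
      · rintro z ⟨hz, hz'⟩
        have h1 : (A0.e i).symm z ∈ S.il ⁻¹' (S.ir '' (A1.e j).source) := hz'
        rw [S.pre_il_ir] at h1
        show (A1.e j).lift_openEmbedding S.oe_ir (S.il ((A0.e i).symm z)) = _
        rw [← S.ir_φ h1.1]
        exact (A1.e j).lift_openEmbedding_apply S.oe_ir
      · rintro z ⟨hz, hz'⟩
        have h1 : (A0.e i).symm z ∈ S.il ⁻¹' (S.ir '' (A1.e j).source) := hz'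
        rw [S.pre_il_ir] at h1
        exact ⟨hz, h1.1, h1.2⟩
    · refine (h.d10 i j).congr_mono (t := {z | z ∈ (A1.e i).target ∧ _}) ?_ ?_
      · rintro z ⟨hz, hz'⟩
        have h1 : (A1.e i).symm z ∈ S.ir ⁻¹' (S.il '' (A0.e j).source) := hz'
        rw [S.pre_ir_il] at h1
        show (A0.e j).lift_openEmbedding S.oe_il (S.ir ((A1.e i).symm z)) = _
        rw [S.ir_target h1.1]
        exact (A0.e j).lift_openEmbedding_apply S.oe_il
      · rintro z ⟨hz, hz'⟩
        have h1 : (A1.e i).symm z ∈ S.ir ⁻¹' (S.il '' (A0.e j).source) := hz'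
        rw [S.pre_ir_il] at h1
        exact ⟨hz, h1.1, h1.2⟩
    · refine (A1.holo i j).congr_mono (t := {z | z ∈ (A1.e i).target ∧ _}) ?_ ?_
      · rintro z ⟨hz, hz'⟩
        exact (A1.e j).lift_openEmbedding_apply S.oe_ir
      · rintro z ⟨hz, x, hx, he⟩
        have h1 : x = (A1.e i).symm z := S.ir_inj he
        exact ⟨hz, h1 ▸ hx⟩

variable (h : S.HolF A0 A1)

/-- chart index from the first piece -/
def clF (i : A0.ι) : (famX h).ι := Sum.inl i

/-- chart index from the second piece -/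
def crF (i : A1.ι) : (famX h).ι := Sum.inr i

@[elab_as_elim]
theorem ιF_ind {P : (famX h).ι → Prop} (h0 : ∀ i, P (clF h i)) (h1 : ∀ i, P (crF h i)) : ∀ i, P i := by
  rintro (i | i)
  · exact h0 i
  · exact h1 i

theorem famX_e_inl (i : A0.ι) (x : X0) : (famX h).e (clF h i) (S.il x) = A0.e i x :=
  (A0.e i).lift_openEmbedding_apply S.oe_il

theorem famX_e_inr (i : A1.ι) (y : X1) : (famX h).e (crF h i) (S.ir y) = A1.e i y :=
  (A1.e i).lift_openEmbedding_apply S.oe_ir

theorem famX_symm_inl (i : A0.ι) (z : Cn n) :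
    ((famX h).e (clF h i)).symm z = S.il ((A0.e i).symm z) := rfl

theorem famX_symm_inr (i : A1.ι) (z : Cn n) :
    ((famX h).e (crF h i)).symm z = S.ir ((A1.e i).symm z) := rfl

theorem famX_target_inl (i : A0.ι) : ((famX h).e (clF h i)).target = (A0.e i).target := rfl

theorem famX_target_inr (i : A1.ι) : ((famX h).e (crF h i)).target = (A1.e i).target := rfl

theorem famX_source_inl (i : A0.ι) :
    ((famX h).e (clF h i)).source = S.il '' (A0.e i).source := rfl

theorem famX_source_inr (i : A1.ι) :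
    ((famX h).e (crF h i)).source = S.ir '' (A1.e i).source := rfl

theorem mem_sourceF_inl {i : A0.ι} {x : X0} :
    S.il x ∈ ((famX h).e (clF h i)).source ↔ x ∈ (A0.e i).source := by
  rw [famX_source_inl, S.il_inj.mem_set_image]

theorem mem_sourceF_inr {i : A1.ι} {y : X1} :
    S.ir y ∈ ((famX h).e (crF h i)).source ↔ y ∈ (A1.e i).source := by
  rw [famX_source_inr, S.ir_inj.mem_set_image]

/-! ### maps out of the glued space -/

theorem hC_il (x : X0) : HC A0 (famX h) S.il x := by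
  obtain ⟨i, hi⟩ := A0.cover x
  refine HC.of S.c_il.continuousAt i (clF h i) hi ((mem_sourceF_inl h).2 hi) ?_
  have e : rc A0 (famX h) S.il i (clF h i) = fun z => A0.e i ((A0.e i).symm z) := by
    funext z
    exact famX_e_inl h i _
  rw [e]
  exact diffAt_trC hi hi

theorem hC_ir (y : X1) : HC A1 (famX h) S.ir y := by
  obtain ⟨i, hi⟩ := A1.cover y
  refine HC.of S.c_ir.continuousAt i (crF h i) hi ((mem_sourceF_inr h).2 hi) ?_
  have e : rc A1 (famX h) S.ir i (crF h i) = fun z => A1.e i ((A1.e i).symm z) := by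
    funext z
    exact famX_e_inr h i _
  rw [e]
  exact diffAt_trC hi hi

theorem hC_iff_il {m : ℕ} {N : Type} [TopologicalSpace N] {C : Fam m N} {f : S.X → N} (x : X0) :
    HC (famX h) C f (S.il x) ↔ HC A0 C (fun x => f (S.il x)) x := by
  refine ⟨fun hf => hf.comp (hC_il h x), fun hf => ?_⟩
  obtain ⟨i, hi⟩ := A0.cover x
  obtain ⟨j, hj⟩ := C.cover (f (S.il x))
  refine HC.of ((S.oe_il.continuousAt_iff).1 hf.1) (clF h i) j ((mem_sourceF_inl h).2 hi) hj ?_
  rw [famX_e_inl]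
  exact hf.2 i j hi hj

theorem hC_iff_ir {m : ℕ} {N : Type} [TopologicalSpace N] {C : Fam m N} {f : S.X → N} (y : X1) :
    HC (famX h) C f (S.ir y) ↔ HC A1 C (fun x => f (S.ir x)) y := by
  refine ⟨fun hf => hf.comp (hC_ir h y), fun hf => ?_⟩
  obtain ⟨i, hi⟩ := A1.cover y
  obtain ⟨j, hj⟩ := C.cover (f (S.ir y))
  refine HC.of ((S.oe_ir.continuousAt_iff).1 hf.1) (crF h i) j ((mem_sourceF_inr h).2 hi) hj ?_
  rw [famX_e_inr]
  exact hf.2 i j hi hj

theorem lC_il (x : X0) : LC A0 (famX h) S.il x := by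
  obtain ⟨i, hi⟩ := A0.cover x
  refine LC.of (hC_il h x) i (clF h i) hi ((mem_sourceF_inl h).2 hi) ?_
  have e : rc A0 (famX h) S.il i (clF h i) = rc A0 A0 id i i := by
    funext z
    exact famX_e_inl h i _
  rw [e]
  exact lC_id.2 i i hi hi

theorem lC_ir (y : X1) : LC A1 (famX h) S.ir y := by
  obtain ⟨i, hi⟩ := A1.cover y
  refine LC.of (hC_ir h y) i (crF h i) hi ((mem_sourceF_inr h).2 hi) ?_
  have e : rc A1 (famX h) S.ir i (crF h i) = rc A1 A1 id i i := by
    funext z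
    exact famX_e_inr h i _
  rw [e]
  exact lC_id.2 i i hi hi

theorem lC_iff_il {N : Type} [TopologicalSpace N] {C : Fam n N} {f : S.X → N} (x : X0) :
    LC (famX h) C f (S.il x) ↔ LC A0 C (fun x => f (S.il x)) x := by
  refine ⟨fun hf => hf.comp (lC_il h x), fun hf => ?_⟩
  obtain ⟨i, hi⟩ := A0.cover x
  obtain ⟨j, hj⟩ := C.cover (f (S.il x))
  refine LC.of ((hC_iff_il h x).2 hf.1) (clF h i) j ((mem_sourceF_inl h).2 hi) hj ?_
  rw [famX_e_inl]
  exact hf.2 i j hi hj

theorem lC_iff_ir {N : Type} [TopologicalSpace N] {C : Fam n N} {f : S.X → N} (y : X1) :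
    LC (famX h) C f (S.ir y) ↔ LC A1 C (fun x => f (S.ir x)) y := by
  refine ⟨fun hf => hf.comp (lC_ir h y), fun hf => ?_⟩
  obtain ⟨i, hi⟩ := A1.cover y
  obtain ⟨j, hj⟩ := C.cover (f (S.ir y))
  refine LC.of ((hC_iff_ir h y).2 hf.1) (crF h i) j ((mem_sourceF_inr h).2 hi) hj ?_
  rw [famX_e_inr]
  exact hf.2 i j hi hj

theorem fC_iff_il {W : Type*} [NormedAddCommGroup W] [NormedSpace ℂ W] {f : S.X → W} (x : X0) :
    FC (famX h) f (S.il x) ↔ FC A0 (fun x => f (S.il x)) x := by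
  refine ⟨fun hf => hf.comp (hC_il h x), fun hf => ?_⟩
  obtain ⟨i, hi⟩ := A0.cover x
  refine FC.of (clF h i) ((mem_sourceF_inl h).2 hi) ?_
  rw [famX_e_inl]
  exact hf i hi

theorem fC_iff_ir {W : Type*} [NormedAddCommGroup W] [NormedSpace ℂ W] {f : S.X → W} (y : X1) :
    FC (famX h) f (S.ir y) ↔ FC A1 (fun x => f (S.ir x)) y := by
  refine ⟨fun hf => hf.comp (hC_ir h y), fun hf => ?_⟩
  obtain ⟨i, hi⟩ := A1.cover y
  refine FC.of (crF h i) ((mem_sourceF_inr h).2 hi) ?_
  rw [famX_e_inr]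
  exact hf i hi

theorem holC_il : HolC A0 (famX h) S.il := holC_iff_hC.2 (hC_il h)

theorem holC_ir : HolC A1 (famX h) S.ir := holC_iff_hC.2 (hC_ir h)

theorem holC_X_iff {m : ℕ} {N : Type} [TopologicalSpace N] {C : Fam m N} {f : S.X → N} :
    HolC (famX h) C f ↔ HolC A0 C (fun x => f (S.il x)) ∧ HolC A1 C (fun y => f (S.ir y)) := by
  simp only [holC_iff_hC]
  exact ⟨fun hf => ⟨fun x => (hC_iff_il h x).1 (hf _), fun y => (hC_iff_ir h y).1 (hf _)⟩,
    fun hf => S.ind (fun x => (hC_iff_il h x).2 (hf.1 x)) (fun y => (hC_iff_ir h y).2 (hf.2 y))⟩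

theorem lC_X_iff {N : Type} [TopologicalSpace N] {C : Fam n N} {f : S.X → N} :
    (∀ z, LC (famX h) C f z) ↔ (∀ x, LC A0 C (fun x => f (S.il x)) x) ∧
      ∀ y, LC A1 C (fun y => f (S.ir y)) y :=
  ⟨fun hf => ⟨fun x => (lC_iff_il h x).1 (hf _), fun y => (lC_iff_ir h y).1 (hf _)⟩,
    fun hf => S.ind (fun x => (lC_iff_il h x).2 (hf.1 x)) (fun y => (lC_iff_ir h y).2 (hf.2 y))⟩

/-- compatible holomorphic maps on the two pieces -/
theorem holC_desc {m : ℕ} {N : Type} [TopologicalSpace N] {C : Fam m N} {f0 : X0 → N}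
    {f1 : X1 → N} (h0 : HolC A0 C f0) (h1 : HolC A1 C f1)
    (hc : ∀ x ∈ S.φ.source, f1 (S.φ x) = f0 x) : HolC (famX h) C (S.desc f0 f1) :=
  (holC_X_iff h).2 ⟨by simpa using h0, by simp only [S.desc_ir hc]; exact h1⟩

/-! ### group actions -/

section Action

variable {G : Type*} [Group G] [MulAction G B] [MulAction G X0] [MulAction G X1] (a : S.Act G)

include a in
theorem Act.holC (h0 : ∀ g : G, HolC A0 A0 (fun x => g • x))
    (h1 : ∀ g : G, HolC A1 A1 (fun y => g • y)) (g : G) :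
    letI := a.mulAction; HolC (famX h) (famX h) (fun z => g • z) := by
  letI := a.mulAction
  refine (holC_X_iff h).2 ⟨?_, ?_⟩
  · simp only [a.smul_il]
    exact (holC_il h).comp (h0 g)
  · simp only [a.smul_ir]
    exact (holC_ir h).comp (h1 g)

include a in
theorem Act.lC (h0 : ∀ (g : G) x, LC A0 A0 (fun x => g • x) x)
    (h1 : ∀ (g : G) y, LC A1 A1 (fun y => g • y) y) (g : G) (z : S.X) :
    letI := a.mulAction; LC (famX h) (famX h) (fun z => g • z) z := by
  letI := a.mulAction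
  revert z
  refine (lC_X_iff h).2 ⟨?_, ?_⟩
  · simp only [a.smul_il]
    exact fun x => (lC_il h _).comp (h0 g x)
  · simp only [a.smul_ir]
    exact fun y => (lC_ir h _).comp (h1 g y)

end Action

end SD

end

end Crest.Agent.R272.Glue_342
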