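import Crest.Agent.R272.GrDefs_559
import Crest.Agent.R272.GrLv_559
import Crest.Agent.R272.Flat1_302

/-!
# R272 (S0415), MOD-GRAPH (helper559), file 2: local equations of the double covers `Y a`

* `hn b`, `hd b`  : homogeneous coordinates in the chart `b` of `P1`;
* `mem_Y_reg`     : off the flats `Y a` is `{t = [x : f0], n k ^ 2 Q = d k ^ 2 P}`;
* `Pen.mem_Y`     : over (a neighbourhood of) a flat, the explicit equation;
* `Loc D a q`     : local equations `n k ^ 2 g = d k ^ 2 f` of `Y a` near `q`, with the nondegeneracy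
                    needed for the smoothness of `X1`;
* `isClosed_X1`, `isProperMap_pz`.
-/

set_option autoImplicit false
set_option linter.unusedSectionVars false

open Set Filter Topology Complex

namespace Crest.Agent.R272.Gr_559

open Crest.Agent.R275.Geo Crest.Agent.R273.Fam_835 Crest.Agent.R272.Quot_783
open Crest.Agent.R272

noncomputable section

/-! ### charts of `P1` -/

/-- homogeneous coordinates in the chart `b` of `P1` -/
def hn (b : Bool) (c : ℂ) : ℂ := if b then 1 else c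
/-- homogeneous coordinates in the chart `b` of `P1` -/
def hd (b : Bool) (c : ℂ) : ℂ := if b then c else 1

@[simp] theorem hn_true (c : ℂ) : hn true c = 1 := rfl
@[simp] theorem hn_false (c : ℂ) : hn false c = c := rfl
@[simp] theorem hd_true (c : ℂ) : hd true c = c := rfl
@[simp] theorem hd_false (c : ℂ) : hd false c = 1 := rfl

theorem famP_true : famP.e true = P1.c1 := rfl
theorem famP_false : famP.e false = P1.c0 := rfl

theorem hnd {b : Bool} {t : P1} (ht : t ∈ (famP.e b).source) :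
    ∃ l : ℂ, l ≠ 0 ∧ t.n = l * hn b (famP.e b t) ∧ t.d = l * hd b (famP.e b t) := by
  cases b
  · rw [famP_false] at ht ⊢
    rw [P1.c0_source] at ht
    have h := P1.c0_rel ht
    exact ⟨t.d, h.2, by rw [hn_false]; exact h.1, by simp⟩
  · rw [famP_true] at ht ⊢
    rw [P1.c1_source] at ht
    have h := P1.c1_rel ht
    exact ⟨t.n, h.2, by simp, by rw [hd_true]; exact h.1⟩

/-- the chart used at `t`: `true` iff `t = ∞` -/
def ib (t : P1) : Bool := t.elim true fun _ => false

@[simp] theorem ib_infty : ib (OnePoint.infty : P1) = true := rfl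
@[simp] theorem ib_coe (c : ℂ) : ib (c : P1) = false := rfl

theorem mem_source_ib (t : P1) : t ∈ (famP.e (ib t)).source := by
  induction t using OnePoint.rec with
  | infty =>
    rw [ib_infty, famP_true, P1.c1_source]
    exact OnePoint.infty_ne_coe _
  | coe c =>
    rw [ib_coe, famP_false, P1.c0_source]
    exact OnePoint.coe_ne_infty _

/-- `n`, `d` satisfy 302's axioms -/
theorem nd302 : Flat1_302.ND P1.n P1.d := ⟨fun _ => rfl, rfl, fun _ => rfl, rfl⟩

variable {N : Type} [TopologicalSpace N] {F : Fam 3 N}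

theorem holF_continuousOn {m : ℕ} {F : Fam m N} {U : Set N} {f : N → ℂ} (h : HolF F U f) :
    ContinuousOn f U := by
  intro q hq
  obtain ⟨i, hi⟩ := F.cover q
  have h1 : ContinuousWithinAt (fun z => f ((F.e i).symm z))
      ((F.e i).target ∩ (F.e i).symm ⁻¹' U) (F.e i q) :=
    (h i).continuousOn _ ⟨(F.e i).map_source hi, by rw [mem_preimage, (F.e i).left_inv hi]; exact hq⟩
  have h2 : ContinuousWithinAt (F.e i) U q := ((F.e i).continuousAt hi).continuousWithinAt
  have h3 : ContinuousWithinAt (fun z => f ((F.e i).symm (F.e i z))) (U ∩ (F.e i).source) q := by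
    refine ContinuousWithinAt.comp (g := fun z => f ((F.e i).symm z)) h1
      (h2.mono inter_subset_left) ?_
    intro z hz
    exact ⟨(F.e i).map_source hz.2, by rw [mem_preimage, (F.e i).left_inv hz.2]; exact hz.1⟩
  have h4 : ContinuousWithinAt f (U ∩ (F.e i).source) q := by
    refine h3.congr (fun z hz => ?_) ?_
    · rw [(F.e i).left_inv hz.2]
    · rw [(F.e i).left_inv hi]
  exact (continuousWithinAt_inter ((F.e i).open_source.mem_nhds hi)).1 h4

theorem holF_diffAt {m : ℕ} {F : Fam m N} {U : Set N} (hU : IsOpen U) {f : N → ℂ}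
    (hf : HolF F U f) {i : F.ι} {z : Cn m} (hz : z ∈ (F.e i).target)
    (hzU : (F.e i).symm z ∈ U) : DifferentiableAt ℂ (fun z => f ((F.e i).symm z)) z :=
  (hf i).differentiableAt (((F.e i).isOpen_inter_preimage_symm hU).mem_nhds ⟨hz, hzU⟩)

theorem holF_mono {m : ℕ} {F : Fam m N} {U V : Set N} {f : N → ℂ} (hf : HolF F U f)
    (h : V ⊆ U) : HolF F V f := fun i => (hf i).mono fun _ hz => ⟨hz.1, h hz.2⟩

namespace GData

variable (D : GData F)

theorem continuous_f0 : Continuous D.f0 := by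
  rw [← continuousOn_univ]; exact holF_continuousOn D.f0_hol
theorem continuous_x (a : Fin 2) : Continuous (D.x a) := by
  rw [← continuousOn_univ]; exact holF_continuousOn (D.x_hol a)
theorem continuous_P (a : Fin 2) : Continuous (D.P a) := by
  rw [← continuousOn_univ]; exact holF_continuousOn (D.P_hol a)
theorem continuous_Q (a : Fin 2) : Continuous (D.Q a) := by
  rw [← continuousOn_univ]; exact holF_continuousOn (D.Q_hol a)

theorem G_eq (a : Fin 2) : D.G a = Flat1_302.Gr P1.n P1.d D.f0 (D.x a) (D.P a) (D.Q a) := by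
  ext p
  simp only [G, Flat1_302.Gr, mem_ofPred_eq]
  rw [not_and_or]

theorem isClosed_Y (a : Fin 2) : IsClosed (D.Y a) := isClosed_closure

/-- off the flats of colour `a` -/
theorem mem_Y_reg {a : Fin 2} {z : N} (h : ¬ (D.f0 z = 0 ∧ D.x a z = 0)) (t k : P1) :
    (z, t, k) ∈ D.Y a ↔ D.x a z * t.d = D.f0 z * t.n ∧ k.n ^ 2 * D.Q a z = k.d ^ 2 * D.P a z := by
  rw [Y, G_eq]
  have h1 := Flat1_302.mem_closure_iff_Gr nd302 (f0 := D.f0) (x := D.x a) (P := D.P a)
    (Q := D.Q a) (z := z) (by rw [not_and_or] at h; exact h)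
    D.continuous_f0.continuousAt (D.continuous_x a).continuousAt (D.continuous_P a).continuousAt
    (D.continuous_Q a).continuousAt t k
  rw [h1]
  rw [not_and_or] at h
  exact ⟨fun h2 => h2.2, fun h2 => ⟨h, h2⟩⟩

end GData

/-! ### flats -/

theorem continuousAt_of_holF {m : ℕ} {F : Fam m N} {U : Set N} (hU : IsOpen U) {f : N → ℂ}
    (hf : HolF F U f) {q : N} (hq : q ∈ U) : ContinuousAt f q :=
  (holF_continuousOn hf).continuousAt (hU.mem_nhds hq)

/-- `dd` as a derivative -/
theorem hasFDerivAt_dd {m : ℕ} {F : Fam m N} {U : Set N} (hU : IsOpen U) {f : N → ℂ}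
    (hf : HolF F U f) {i : F.ι} {q : N} (hi : q ∈ (F.e i).source) (hq : q ∈ U) :
    HasFDerivAt (fun z => f ((F.e i).symm z)) (dd F i f q) (F.e i q) :=
  (holF_diffAt hU hf ((F.e i).map_source hi) (by rw [(F.e i).left_inv hi]; exact hq)).hasFDerivAt

/-- a pair of functions with independent differentials is open near the point -/
theorem exists_open_pair {m : ℕ} {F : Fam (m + 2) N} {U : Set N} (hU : IsOpen U) {s0 s1 : N → ℂ}
    (h0 : HolF F U s0) (h1 : HolF F U s1) {q : N} (hq : q ∈ U) {i : F.ι}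
    (hi : q ∈ (F.e i).source)
    (hs : ∀ w0 w1 : ℂ, ∃ v, dd F i s0 q v = w0 ∧ dd F i s1 q v = w1) :
    ∃ V : Set N, IsOpen V ∧ q ∈ V ∧ V ⊆ U ∧
      ∀ z ∈ V, 𝓝 (s0 z, s1 z) ≤ map (fun y => (s0 y, s1 y)) (𝓝 z) := by
  let W : Set (Cn (m + 2)) := (F.e i).target ∩ (F.e i).symm ⁻¹' U
  have hW : IsOpen W := (F.e i).isOpen_inter_preimage_symm hU
  have hqW : F.e i q ∈ W := ⟨(F.e i).map_source hi, by
    rw [mem_preimage, (F.e i).left_inv hi]; exact hq⟩
  let Φ : Cn (m + 2) → ℂ × ℂ := fun z => (s0 ((F.e i).symm z), s1 ((F.e i).symm z))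
  have hΦ : DifferentiableOn ℂ Φ W := (h0 i).prodMk (h1 i)
  have hd : fderiv ℂ Φ (F.e i q) = (dd F i s0 q).prod (dd F i s1 q) :=
    ((hasFDerivAt_dd hU h0 hi hq).prodMk (hasFDerivAt_dd hU h1 hi hq)).fderiv
  have hsur : Function.Surjective (fderiv ℂ Φ (F.e i q)) := by
    rw [hd]
    rintro ⟨w0, w1⟩
    obtain ⟨v, hv0, hv1⟩ := hs w0 w1
    exact ⟨v, Prod.ext hv0 hv1⟩
  obtain ⟨χ, g1, g2, g3, g4, g5⟩ := DCov_426.straighten (V := Cn m) hW hΦ hqW hsur (by
    simp [Module.finrank_prod])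
  refine ⟨((F.e i).trans χ).source, ((F.e i).trans χ).open_source, ?_, ?_, ?_⟩
  · rw [OpenPartialHomeomorph.trans_source]; exact ⟨hi, g1⟩
  · intro z hz
    rw [OpenPartialHomeomorph.trans_source] at hz
    have := (g2 hz.2).2
    rwa [mem_preimage, (F.e i).left_inv hz.1] at this
  · intro z hz
    have h2 := ((F.e i).trans χ).map_nhds_eq hz
    have h3 : map (Prod.snd : Cn m × (ℂ × ℂ) → ℂ × ℂ) (𝓝 (((F.e i).trans χ) z)) =
        𝓝 ((((F.e i).trans χ) z).2) := map_snd_nhds _
    rw [← h2, Filter.map_map] at h3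
    have h4 : ∀ y ∈ ((F.e i).trans χ).source, (((F.e i).trans χ) y).2 = (s0 y, s1 y) := by
      intro y hy
      rw [OpenPartialHomeomorph.trans_source] at hy
      show (χ (F.e i y)).2 = _
      rw [g3]
      show (s0 ((F.e i).symm (F.e i y)), s1 ((F.e i).symm (F.e i y))) = _
      rw [(F.e i).left_inv hy.1]
    rw [← h4 z hz, ← h3]
    refine le_of_eq (Filter.map_congr ?_)
    filter_upwards [((F.e i).trans χ).open_source.mem_nhds hz] with y hy
    exact h4 y hy

namespace Pen

variable {f0 x P Q : N → ℂ} {q : N} (p : Pen F f0 x P Q q)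

/-- the linear form `L_j` on homogeneous coordinates -/
def L (j : Fin 6) (z : N) (X Y : ℂ) : ℂ := X / p.b z + (p.c 5 - p.c j) * (Y / p.a z)

/-- numerator of `k ^ 2` -/
def fn (z : N) (X Y : ℂ) : ℂ := p.u z * (p.L 0 z X Y * p.L 1 z X Y * p.L 2 z X Y)
/-- denominator of `k ^ 2` -/
def gn (z : N) (X Y : ℂ) : ℂ := p.w z * (p.L 3 z X Y * p.L 4 z X Y * p.L 5 z X Y)

theorem L_hom (j : Fin 6) (z : N) (l X Y : ℂ) : p.L j z (l * X) (l * Y) = l * p.L j z X Y := by
  simp only [L]; ring

theorem fn_hom (z : N) (l X Y : ℂ) : p.fn z (l * X) (l * Y) = l ^ 3 * p.fn z X Y := by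
  simp only [fn, L_hom]; ring

theorem gn_hom (z : N) (l X Y : ℂ) : p.gn z (l * X) (l * Y) = l ^ 3 * p.gn z X Y := by
  simp only [gn, L_hom]; ring

theorem s0_zero (h0 : f0 q = 0) : p.s0 q = 0 := by
  have h1 := p.ef q p.mem
  rw [h0] at h1
  exact (mul_eq_zero.1 h1.symm).resolve_left (p.a_ne q p.mem)

theorem s1_zero (h0 : f0 q = 0) (hx : x q = 0) : p.s1 q = 0 := by
  have h1 := p.ex q p.mem
  rw [hx, p.s0_zero h0, mul_zero, sub_zero] at h1
  exact (mul_eq_zero.1 h1.symm).resolve_left (p.b_ne q p.mem)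

/-- the explicit equation of `Y` over a flat -/
theorem exists_mem_closure {F : Fam 3 N} {f0 x P Q : N → ℂ} {q : N} (p : Pen F f0 x P Q q)
    (cf : Continuous f0) (cx : Continuous x) {i : F.ι} (hi : q ∈ (F.e i).source)
    (hs : ∀ w0 w1 : ℂ, ∃ v, dd F i p.s0 q v = w0 ∧ dd F i p.s1 q v = w1) :
    ∃ V : Set N, IsOpen V ∧ q ∈ V ∧ V ⊆ p.U ∧ ∀ z ∈ V, ∀ t k : P1,
      ((z, t, k) ∈ closure (Flat1_302.Gr P1.n P1.d f0 x P Q) ↔
        x z * t.d = f0 z * t.n ∧ k.n ^ 2 * p.gn z t.n t.d = k.d ^ 2 * p.fn z t.n t.d) := by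
  obtain ⟨V, h1, h2, h3, h4⟩ := exists_open_pair (m := 1) p.U_open p.s0_hol p.s1_hol p.mem hi hs
  refine ⟨V, h1, h2, h3, fun z hz t k => ?_⟩
  have hD : Flat1_302.FlatD V p.c p.s0 p.s1 p.a p.b p.u p.w f0 x P Q :=
    { ca := (holF_continuousOn p.a_hol).mono h3
      cb := (holF_continuousOn p.b_hol).mono h3
      cu := (holF_continuousOn p.u_hol).mono h3
      cw := (holF_continuousOn p.w_hol).mono h3
      cf := cf.continuousOn
      cx := cx.continuousOn
      a0 := fun z hz => p.a_ne z (h3 hz)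
      b0 := fun z hz => p.b_ne z (h3 hz)
      u0 := fun z hz => p.u_ne z (h3 hz)
      w0 := fun z hz => p.w_ne z (h3 hz)
      hf := fun z hz => p.ef z (h3 hz)
      hx := fun z hz => p.ex z (h3 hz)
      hP := fun z hz => p.eP z (h3 hz)
      hQ := fun z hz => p.eQ z (h3 hz)
      op := h4 }
  rw [Flat1_302.mem_closure_iff_Ex nd302 hD h1 hz]
  rfl

end Pen

end

end Crest.Agent.R272.Gr_559
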