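import Crest.Agent.R272.Gr2_559

/-!
# R272 (S0415), MOD-GRAPH (helper559), file 4: `X1` is a submanifold (rank computation)

* `ambF F`      : charts of the ambient space with values in `EE`;
* `RelE`        : the equations between `z`, `t`, `v` in homogeneous coordinates;
* `mem_X1_iff`  : membership in `X1` in a product chart, for arbitrary local equations `Loc`;
* `lv_of`       : assembly; `lv_X1 : ∀ s ∈ X1, Lv (ambF F) X1 _ s`.
-/

set_option autoImplicit false
set_option linter.unusedSectionVars false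

open Set Filter Topology Complex

namespace Crest.Agent.R272.Gr_559

open Crest.Agent.R275.Geo Crest.Agent.R273.Fam_835 Crest.Agent.R272.Quot_783
open Crest.Agent.R272

noncomputable section

variable {N : Type} [TopologicalSpace N] {F : Fam 3 N}

/-- model space of the ambient space -/
abbrev EE : Type := Cn 3 × (Fin 2 → ℂ) × ℂ × (Fin 2 → ℂ)

/-- charts of the ambient space -/
def ambF (F : Fam 3 N) : FamE EE (GData.Amb N) :=
  (toE F).prod ((FamE.pi famP).prod (famP.prod (FamE.pi famP)))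

/-- product chart -/
def ac (F : Fam 3 N) (i : F.ι) (bt : Fin 2 → Bool) (bv : Bool) (bk : Fin 2 → Bool) :
    (ambF F).ι := (i, bt, bv, bk)

theorem mem_ac {i : F.ι} {bt : Fin 2 → Bool} {bv : Bool} {bk : Fin 2 → Bool}
    {y : GData.Amb N} : y ∈ ((ambF F).e (ac F i bt bv bk)).source ↔
      y.1 ∈ (F.e i).source ∧ (∀ a, y.2.1 a ∈ (famP.e (bt a)).source) ∧
      y.2.2.1 ∈ (famP.e bv).source ∧ ∀ a, y.2.2.2 a ∈ (famP.e (bk a)).source := by
  constructor
  · rintro ⟨h1, h2, h3, h4⟩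
    exact ⟨h1, fun a => h2 a trivial, h3, fun a => h4 a trivial⟩
  · rintro ⟨h1, h2, h3, h4⟩
    exact ⟨h1, fun a _ => h2 a, h3, fun a _ => h4 a⟩

theorem ac_apply (i : F.ι) (bt : Fin 2 → Bool) (bv : Bool) (bk : Fin 2 → Bool)
    (y : GData.Amb N) : (ambF F).e (ac F i bt bv bk) y =
      (F.e i y.1, (fun a => famP.e (bt a) (y.2.1 a)), famP.e bv y.2.2.1,
        fun a => famP.e (bk a) (y.2.2.2 a)) := rfl

/-- the equations between `z`, `t`, `v`, in homogeneous coordinates -/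
def RelE (D : GData F) (z : N) (tn td : Fin 2 → ℂ) (vn vd : ℂ) : Prop :=
  (∀ a, D.x a z * td a = D.f0 z * tn a) ∧ vn * td 0 = vd * tn 0 * D.x 1 z ∧
    vn * td 1 = vd * tn 1 * D.x 0 z

theorem relE_iff (D : GData F) {a b : Fin 2} (hab : a ≠ b) (z : N) (tn td : Fin 2 → ℂ)
    (vn vd : ℂ) : RelE D z tn td vn vd ↔ D.x a z * td a = D.f0 z * tn a ∧
      D.x b z * td b = D.f0 z * tn b ∧ vn * td a = vd * tn a * D.x b z ∧
      vn * td b = vd * tn b * D.x a z := by
  unfold RelE
  rw [Fin.forall_fin_two]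
  fin_cases a <;> fin_cases b <;> simp at hab ⊢ <;> tauto

theorem relE_scale (D : GData F) (z : N) (tn td : Fin 2 → ℂ) (vn vd : ℂ) {l : Fin 2 → ℂ}
    (hl : ∀ a, l a ≠ 0) {m : ℂ} (hm : m ≠ 0) :
    RelE D z (fun a => l a * tn a) (fun a => l a * td a) (m * vn) (m * vd) ↔
      RelE D z tn td vn vd := by
  unfold RelE
  refine and_congr (forall_congr' fun a => ?_) (and_congr ?_ ?_)
  · rw [show D.x a z * (l a * td a) = l a * (D.x a z * td a) by ring,
      show D.f0 z * (l a * tn a) = l a * (D.f0 z * tn a) by ring]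
    exact mul_right_inj' (hl a)
  · rw [show m * vn * (l 0 * td 0) = m * l 0 * (vn * td 0) by ring,
      show m * vd * (l 0 * tn 0) * D.x 1 z = m * l 0 * (vd * tn 0 * D.x 1 z) by ring]
    exact mul_right_inj' (mul_ne_zero hm (hl 0))
  · rw [show m * vn * (l 1 * td 1) = m * l 1 * (vn * td 1) by ring,
      show m * vd * (l 1 * tn 1) * D.x 0 z = m * l 1 * (vd * tn 1 * D.x 0 z) by ring]
    exact mul_right_inj' (mul_ne_zero hm (hl 1))

theorem mem_X1_loc (D : GData F) {q : N} (C : ∀ a, Loc D a q) {y : GData.Amb N}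
    (hz : ∀ a, y.1 ∈ (C a).U) : y ∈ D.X1 ↔
      RelE D y.1 (fun a => (y.2.1 a).n) (fun a => (y.2.1 a).d) y.2.2.1.n y.2.2.1.d ∧
      ∀ a, (y.2.2.2 a).n ^ 2 * (C a).g y.1 (y.2.1 a).n (y.2.1 a).d =
        (y.2.2.2 a).d ^ 2 * (C a).f y.1 (y.2.1 a).n (y.2.1 a).d := by
  have h1 : ∀ a, (y.1, y.2.1 a, y.2.2.2 a) ∈ D.Y a ↔ _ := fun a =>
    (C a).iff y.1 (hz a) (y.2.1 a) (y.2.2.2 a)
  unfold GData.X1 RelE
  rw [mem_ofPred_eq]
  simp only [h1]
  constructor
  · rintro ⟨h2, h3, h4⟩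
    exact ⟨⟨fun a => (h2 a).1, h3, h4⟩, fun a => (h2 a).2⟩
  · rintro ⟨⟨h2, h3, h4⟩, h5⟩
    exact ⟨fun a => ⟨h2 a, h5 a⟩, h3, h4⟩

/-- membership in `X1` in a product chart -/
theorem mem_X1_iff (D : GData F) {q : N} (C : ∀ a, Loc D a q) {y : GData.Amb N}
    (hz : ∀ a, y.1 ∈ (C a).U) {bt : Fin 2 → Bool} {bv : Bool} {bk : Fin 2 → Bool}
    (ht : ∀ a, y.2.1 a ∈ (famP.e (bt a)).source) (hv : y.2.2.1 ∈ (famP.e bv).source)
    (hk : ∀ a, y.2.2.2 a ∈ (famP.e (bk a)).source) : y ∈ D.X1 ↔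
      RelE D y.1 (fun a => hn (bt a) (famP.e (bt a) (y.2.1 a)))
        (fun a => hd (bt a) (famP.e (bt a) (y.2.1 a))) (hn bv (famP.e bv y.2.2.1))
        (hd bv (famP.e bv y.2.2.1)) ∧
      ∀ a, hn (bk a) (famP.e (bk a) (y.2.2.2 a)) ^ 2 *
          (C a).g y.1 (hn (bt a) (famP.e (bt a) (y.2.1 a))) (hd (bt a) (famP.e (bt a) (y.2.1 a))) =
        hd (bk a) (famP.e (bk a) (y.2.2.2 a)) ^ 2 *
          (C a).f y.1 (hn (bt a) (famP.e (bt a) (y.2.1 a)))
            (hd (bt a) (famP.e (bt a) (y.2.1 a))) := by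
  rw [mem_X1_loc D C hz]
  choose l hl hl1 hl2 using fun a => hnd (ht a)
  obtain ⟨m, hm, hm1, hm2⟩ := hnd hv
  choose r hr hr1 hr2 using fun a => hnd (hk a)
  refine and_congr ?_ (forall_congr' fun a => ?_)
  · simp only [hl1, hl2, hm1, hm2]
    exact relE_scale D _ _ _ _ _ hl hm
  · rw [hl1 a, hl2 a, hr1 a, hr2 a, (C a).f_hom, (C a).g_hom]
    generalize (C a).g y.1 (hn (bt a) (famP.e (bt a) (y.2.1 a)))
      (hd (bt a) (famP.e (bt a) (y.2.1 a))) = G
    generalize (C a).f y.1 (hn (bt a) (famP.e (bt a) (y.2.1 a)))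
      (hd (bt a) (famP.e (bt a) (y.2.1 a))) = H
    generalize hn (bk a) (famP.e (bk a) (y.2.2.2 a)) = u
    generalize hd (bk a) (famP.e (bk a) (y.2.2.2 a)) = w
    rw [show (r a * u) ^ 2 * (l a ^ (C a).e * G) = (r a ^ 2 * l a ^ (C a).e) * (u ^ 2 * G) by ring,
      show (r a * w) ^ 2 * (l a ^ (C a).e * H) = (r a ^ 2 * l a ^ (C a).e) * (w ^ 2 * H) by ring]
    exact mul_right_inj' (mul_ne_zero (pow_ne_zero _ (hr a)) (pow_ne_zero _ (hl a)))

/-! ### one-variable calculus: value and derivative at `0` -/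

/-- `f 0 = v`, `f' 0 = d` -/
structure HV (f : ℂ → ℂ) (v d : ℂ) : Prop where
  val : f 0 = v
  der : HasDerivAt f d 0

theorem HV.mul {f g : ℂ → ℂ} {v d v' d' : ℂ} (h : HV f v d) (h' : HV g v' d') :
    HV (fun r => f r * g r) (v * v') (d * v' + v * d') :=
  ⟨by simp only [h.val, h'.val], by
    have := h.der.mul h'.der
    rw [h.val, h'.val] at this
    exact this⟩

theorem HV.sub {f g : ℂ → ℂ} {v d v' d' : ℂ} (h : HV f v d) (h' : HV g v' d') :
    HV (fun r => f r - g r) (v - v') (d - d') :=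
  ⟨by simp only [h.val, h'.val], h.der.sub h'.der⟩

theorem HV.add {f g : ℂ → ℂ} {v d v' d' : ℂ} (h : HV f v d) (h' : HV g v' d') :
    HV (fun r => f r + g r) (v + v') (d + d') :=
  ⟨by simp only [h.val, h'.val], h.der.add h'.der⟩

theorem HV.sq {f : ℂ → ℂ} {v d : ℂ} (h : HV f v d) : HV (fun r => f r ^ 2) (v ^ 2) (2 * v * d) := by
  have h1 := h.mul h
  refine ⟨by rw [h.val], ?_⟩
  have h2 := h1.der
  have e1 : (fun r => f r * f r) = fun r => f r ^ 2 := by funext r; ring
  have e2 : d * v + v * d = 2 * v * d := by ring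
  rw [e1, e2] at h2
  exact h2

theorem HV.lin (τ T : ℂ) : HV (fun r => τ + r * T) τ T :=
  ⟨by simp, by
    have := ((hasDerivAt_id (0 : ℂ)).mul_const T).const_add τ
    simpa using this⟩

theorem HV.cst (c : ℂ) : HV (fun _ => c) c 0 := ⟨rfl, hasDerivAt_const _ _⟩

theorem HV.hn (b : Bool) {f : ℂ → ℂ} {v d : ℂ} (h : HV f v d) :
    HV (fun r => hn b (f r)) (Gr_559.hn b v) (if b then 0 else d) := by
  cases b
  · exact h
  · exact HV.cst 1

theorem HV.hd (b : Bool) {f : ℂ → ℂ} {v d : ℂ} (h : HV f v d) :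
    HV (fun r => hd b (f r)) (Gr_559.hd b v) (if b then d else 0) := by
  cases b
  · exact HV.cst 1
  · exact h

/-- along a line in a chart -/
theorem HV.dd {U : Set N} (hU : IsOpen U) {f : N → ℂ} (hf : HolF F U f) {i : F.ι} {q : N}
    (hi : q ∈ (F.e i).source) (hq : q ∈ U) (V : Cn 3) :
    HV (fun r => f ((F.e i).symm (F.e i q + r • V))) (f q) (Gr_559.dd F i f q V) := by
  refine ⟨?_, ?_⟩
  · simp only [zero_smul, add_zero, (F.e i).left_inv hi]
  · exact (hasFDerivAt_dd hU hf hi hq).hasLineDerivAt V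

theorem line_hasDerivAt {E G : Type} [NormedAddCommGroup E] [NormedSpace ℂ E]
    [NormedAddCommGroup G] [NormedSpace ℂ G] {f : E → G} {p : E} (h : DifferentiableAt ℂ f p)
    (v : E) : HasDerivAt (fun r : ℂ => f (p + r • v)) (fderiv ℂ f p v) 0 :=
  h.hasFDerivAt.hasLineDerivAt v

/-! ### the assembly -/

theorem isOpen_ts (F : Fam 3 N) (i : F.ι) {U : Set N} (hU : IsOpen U) :
    IsOpen {p : EE | p.1 ∈ (F.e i).target ∩ (F.e i).symm ⁻¹' U} :=
  ((F.e i).isOpen_inter_preimage_symm hU).preimage continuous_fst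

/-- **assembly**: equations between `z, t, v` of rank 3 with prescribed differentials of the local
equations of the double covers give equations of `X1` of rank 5 -/
theorem lv_of (D : GData F) {s : GData.Amb N} (hs : s ∈ D.X1) (C : ∀ a, Loc D a s.1)
    {i : F.ι} (hi : s.1 ∈ (F.e i).source) (bt : Fin 2 → Bool) (bv : Bool)
    (hbt : ∀ a, s.2.1 a ∈ (famP.e (bt a)).source) (hbv : s.2.2.1 ∈ (famP.e bv).source)
    (ΦE : Cn 3 → (Fin 2 → ℂ) → ℂ → Fin 3 → ℂ)
    (hΦ : DifferentiableOn ℂ (fun p : EE => ΦE p.1 p.2.1 p.2.2.1) {p | p.1 ∈ (F.e i).target})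
    (hiff : ∀ z ∈ (F.e i).source, ∀ (τ : Fin 2 → ℂ) (ν : ℂ),
      RelE D z (fun a => hn (bt a) (τ a)) (fun a => hd (bt a) (τ a)) (hn bv ν) (hd bv ν) ↔
        ΦE (F.e i z) τ ν = 0)
    (pres : ∀ (w : Fin 3 → ℂ) (φ γ : Fin 2 → ℂ), ∃ (V : Cn 3) (T : Fin 2 → ℂ) (Nv : ℂ),
      HasDerivAt (fun r : ℂ => ΦE (F.e i s.1 + r • V)
        ((fun a => famP.e (bt a) (s.2.1 a)) + r • T) (famP.e bv s.2.2.1 + r • Nv)) w 0 ∧
      ∀ a, ((C a).f s.1 (hn (bt a) (famP.e (bt a) (s.2.1 a)))
          (hd (bt a) (famP.e (bt a) (s.2.1 a))) = 0 →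
          fderiv ℂ ((C a).fc i (bt a)) (F.e i s.1, famP.e (bt a) (s.2.1 a)) (V, T a) = φ a) ∧
        ((C a).g s.1 (hn (bt a) (famP.e (bt a) (s.2.1 a)))
          (hd (bt a) (famP.e (bt a) (s.2.1 a))) = 0 →
          fderiv ℂ ((C a).gc i (bt a)) (F.e i s.1, famP.e (bt a) (s.2.1 a)) (V, T a) = γ a)) :
    Lv (ambF F) D.X1 ((Fin 3 → ℂ) × (Fin 2 → ℂ)) s := by
  set bk : Fin 2 → Bool := fun a => ib (s.2.2.2 a) with hbk
  have hk : ∀ a, s.2.2.2 a ∈ (famP.e (bk a)).source := fun a => mem_source_ib _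
  set τ : Fin 2 → ℂ := fun a => famP.e (bt a) (s.2.1 a) with hτ
  set κ : Fin 2 → ℂ := fun a => famP.e (bk a) (s.2.2.2 a) with hκ
  have hsK := ((mem_X1_iff D C (fun a => (C a).mem) hbt hbv hk).1 hs).2
  let W : Set EE := ⋂ a, {p : EE | p.1 ∈ (F.e i).target ∩ (F.e i).symm ⁻¹' (C a).U}
  have hW : IsOpen W := isOpen_iInter_of_finite fun a => isOpen_ts F i (C a).U_open
  let p0 : EE := (ambF F).e (ac F i bt bv bk) s
  have hp0W : p0 ∈ W := mem_iInter.2 fun a => ⟨(F.e i).map_source hi, by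
    show (F.e i).symm (F.e i s.1) ∈ (C a).U
    rw [(F.e i).left_inv hi]; exact (C a).mem⟩
  let Φ : EE → (Fin 3 → ℂ) × (Fin 2 → ℂ) := fun p => (ΦE p.1 p.2.1 p.2.2.1, fun a =>
    hn (bk a) (p.2.2.2 a) ^ 2 * (C a).gc i (bt a) (p.1, p.2.1 a) -
      hd (bk a) (p.2.2.2 a) ^ 2 * (C a).fc i (bt a) (p.1, p.2.1 a))
  have hΦd : DifferentiableOn ℂ Φ W := by
    refine (hΦ.mono fun p hp => (mem_iInter.1 hp 0).1).prodMk ?_
    rw [differentiableOn_pi]
    intro a
    have h1 : DifferentiableOn ℂ (fun p : EE => hn (bk a) (p.2.2.2 a)) W :=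
      ((differentiable_hn (bk a)).comp (by fun_prop)).differentiableOn
    have h2 : DifferentiableOn ℂ (fun p : EE => hd (bk a) (p.2.2.2 a)) W :=
      ((differentiable_hd (bk a)).comp (by fun_prop)).differentiableOn
    have h3 : DifferentiableOn ℂ (fun p : EE => ((p.1, p.2.1 a) : Cn 3 × ℂ)) W := by fun_prop
    have h4 : DifferentiableOn ℂ (fun p : EE => (C a).gc i (bt a) (p.1, p.2.1 a)) W :=
      ((C a).g_hol i (bt a)).comp h3 fun p hp => mem_iInter.1 hp a
    have h5 : DifferentiableOn ℂ (fun p : EE => (C a).fc i (bt a) (p.1, p.2.1 a)) W :=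
      ((C a).f_hol i (bt a)).comp h3 fun p hp => mem_iInter.1 hp a
    exact ((h1.pow 2).mul h4).sub ((h2.pow 2).mul h5)
  have hΦat : DifferentiableAt ℂ Φ p0 := hΦd.differentiableAt (hW.mem_nhds hp0W)
  refine ⟨ac F i bt bv bk, mem_ac.2 ⟨hi, hbt, hbv, hk⟩, W, hW, hp0W, Φ, hΦd, ?_, ?_⟩
  · rintro ⟨w, ω⟩
    obtain ⟨V, T, Nv, h1, h2⟩ := pres w (fun a => -ω a) (fun a => if bk a then ω a else 0)
    -- the last components
    have h3 : ∀ a, ∃ K : ℂ, HasDerivAt (fun r : ℂ =>
        hn (bk a) (κ a + r * K) ^ 2 * (C a).gc i (bt a) ((F.e i s.1, τ a) + r • (V, T a)) -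
        hd (bk a) (κ a + r * K) ^ 2 * (C a).fc i (bt a) ((F.e i s.1, τ a) + r • (V, T a)))
        (ω a) 0 := by
      intro a
      have hf : ∀ K : ℂ, HV (fun r : ℂ =>
        hn (bk a) (κ a + r * K) ^ 2 * (C a).gc i (bt a) ((F.e i s.1, τ a) + r • (V, T a)) -
        hd (bk a) (κ a + r * K) ^ 2 * (C a).fc i (bt a) ((F.e i s.1, τ a) + r • (V, T a))) _ _ :=
        fun K => (((HV.lin (κ a) K).hn (bk a)).sq.mul
          (⟨by rw [zero_smul, add_zero], line_hasDerivAt ((C a).gc_diff hi (bt a) (τ a)) (V, T a)⟩ :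
            HV (fun r : ℂ => (C a).gc i (bt a) ((F.e i s.1, τ a) + r • (V, T a)))
              ((C a).gc i (bt a) (F.e i s.1, τ a)) _)).sub
          (((HV.lin (κ a) K).hd (bk a)).sq.mul
          (⟨by rw [zero_smul, add_zero], line_hasDerivAt ((C a).fc_diff hi (bt a) (τ a)) (V, T a)⟩ :
            HV (fun r : ℂ => (C a).fc i (bt a) ((F.e i s.1, τ a) + r • (V, T a)))
              ((C a).fc i (bt a) (F.e i s.1, τ a)) _))
      have eg : (C a).gc i (bt a) (F.e i s.1, τ a) =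
          (C a).g s.1 (hn (bt a) (τ a)) (hd (bt a) (τ a)) := by
        simp only [Loc.gc, (F.e i).left_inv hi]
      have ef : (C a).fc i (bt a) (F.e i s.1, τ a) =
          (C a).f s.1 (hn (bt a) (τ a)) (hd (bt a) (τ a)) := by
        simp only [Loc.fc, (F.e i).left_inv hi]
      obtain ⟨hfa, hga⟩ := h2 a
      have hsa := hsK a
      set G := (C a).g s.1 (hn (bt a) (τ a)) (hd (bt a) (τ a)) with hG
      set H := (C a).f s.1 (hn (bt a) (τ a)) (hd (bt a) (τ a)) with hH
      have hsa' : hn (bk a) (κ a) ^ 2 * G = hd (bk a) (κ a) ^ 2 * H := hsa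
      set G' := fderiv ℂ ((C a).gc i (bt a)) (F.e i s.1, τ a) (V, T a) with hG'
      set H' := fderiv ℂ ((C a).fc i (bt a)) (F.e i s.1, τ a) (V, T a) with hH'
      replace hga : G = 0 → G' = if bk a = true then ω a else 0 := hga
      replace hfa : H = 0 → H' = -ω a := hfa
      have key : ∀ K : ℂ, 2 * hn (bk a) (κ a) * (if bk a then 0 else K) * G +
          hn (bk a) (κ a) ^ 2 * G' - (2 * hd (bk a) (κ a) * (if bk a then K else 0) * H +
          hd (bk a) (κ a) ^ 2 * H') = ω a → HasDerivAt (fun r : ℂ =>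
        hn (bk a) (κ a + r * K) ^ 2 * (C a).gc i (bt a) ((F.e i s.1, τ a) + r • (V, T a)) -
        hd (bk a) (κ a + r * K) ^ 2 * (C a).fc i (bt a) ((F.e i s.1, τ a) + r • (V, T a)))
        (ω a) 0 := by
        intro K hK
        have h4 := (hf K).der
        rw [eg, ef] at h4
        rw [hK] at h4
        exact h4
      by_cases hb : bk a = true
      · have hκ0 : κ a = 0 := by
          have h5 : s.2.2.2 a = OnePoint.infty := by
            by_contra hne
            have h6 : bk a = false := by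
              show ib (s.2.2.2 a) = false
              revert hne
              induction s.2.2.2 a using OnePoint.rec with
              | infty => exact fun h => absurd rfl h
              | coe c => exact fun _ => rfl
            rw [h6] at hb
            exact absurd hb (by simp)
          show famP.e (bk a) (s.2.2.2 a) = 0
          rw [h5, hb, famP_true, P1.c1_infty]
        have hG0 : G = 0 := by
          rw [hb, hκ0] at hsa'
          simpa using hsa'
        refine ⟨0, key 0 ?_⟩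
        have h7 := hga hG0
        rw [hb] at h7
        rw [hb, hκ0]
        simp only [hn_true, hd_true, if_true] at h7 ⊢
        rw [h7]
        ring
      · have hb' : bk a = false := by simpa using hb
        rw [hb'] at hsa'
        simp only [hn_false, hd_false] at hsa'
        by_cases hκ0 : κ a = 0
        · have hH0 : H = 0 := by
            rw [hκ0] at hsa'
            linear_combination -hsa'
          refine ⟨0, key 0 ?_⟩
          have h7 := hfa hH0
          rw [hb', hκ0]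
          simp only [hn_false, hd_false, Bool.false_eq_true, if_false]
          rw [h7]
          ring
        · by_cases hG0 : G = 0
          · have hH0 : H = 0 := by
              rw [hG0] at hsa'
              linear_combination -hsa'
            refine ⟨0, key 0 ?_⟩
            have h7 := hfa hH0
            have h8 := hga hG0
            rw [hb'] at h8
            rw [hb']
            simp only [hn_false, hd_false, Bool.false_eq_true, if_false] at h8 ⊢
            rw [h7, h8]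
            ring
          · refine ⟨(ω a + H' - κ a ^ 2 * G') / (2 * κ a * G), key _ ?_⟩
            rw [hb']
            simp only [hn_false, hd_false, Bool.false_eq_true, if_false]
            have h9 : (2 * κ a * G) ≠ 0 := mul_ne_zero (mul_ne_zero two_ne_zero hκ0) hG0
            rw [show 2 * κ a * ((ω a + H' - κ a ^ 2 * G') / (2 * κ a * G)) * G =
              (2 * κ a * G) * ((ω a + H' - κ a ^ 2 * G') / (2 * κ a * G)) by ring,
              mul_div_cancel₀ _ h9]
            ring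
    choose K hK using h3
    refine ⟨(V, T, Nv, K), ?_⟩
    have h4 := line_hasDerivAt hΦat (V, T, Nv, K)
    have h5 : HasDerivAt (fun r : ℂ => Φ (p0 + r • (V, T, Nv, K))) (w, ω) 0 := by
      refine HasDerivAt.prodMk h1 ?_
      rw [hasDerivAt_pi]
      exact hK
    exact h4.unique h5
  · intro y hy hyW
    obtain ⟨g1, g2, g3, g4⟩ := mem_ac.1 hy
    have hyU : ∀ a, y.1 ∈ (C a).U := by
      intro a
      have h5 : (F.e i).symm (F.e i y.1) ∈ (C a).U := (mem_iInter.1 hyW a).2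
      rwa [(F.e i).left_inv g1] at h5
    rw [mem_X1_iff D C hyU g2 g3 g4, hiff y.1 g1]
    have h6 : ∀ a, (C a).gc i (bt a) (F.e i y.1, famP.e (bt a) (y.2.1 a)) =
        (C a).g y.1 (hn (bt a) (famP.e (bt a) (y.2.1 a)))
          (hd (bt a) (famP.e (bt a) (y.2.1 a))) := by
      intro a; simp only [Loc.gc, (F.e i).left_inv g1]
    have h7 : ∀ a, (C a).fc i (bt a) (F.e i y.1, famP.e (bt a) (y.2.1 a)) =
        (C a).f y.1 (hn (bt a) (famP.e (bt a) (y.2.1 a)))
          (hd (bt a) (famP.e (bt a) (y.2.1 a))) := by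
      intro a; simp only [Loc.fc, (F.e i).left_inv g1]
    constructor
    · rintro ⟨h8, h9⟩
      refine Prod.ext h8 (funext fun a => ?_)
      show hn (bk a) (famP.e (bk a) (y.2.2.2 a)) ^ 2 *
        (C a).gc i (bt a) (F.e i y.1, famP.e (bt a) (y.2.1 a)) -
        hd (bk a) (famP.e (bk a) (y.2.2.2 a)) ^ 2 *
        (C a).fc i (bt a) (F.e i y.1, famP.e (bt a) (y.2.1 a)) = 0
      rw [h6 a, h7 a, h9 a, sub_self]
    · intro h8
      refine ⟨congrArg Prod.fst h8, fun a => ?_⟩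
      have h9 : hn (bk a) (famP.e (bk a) (y.2.2.2 a)) ^ 2 *
        (C a).gc i (bt a) (F.e i y.1, famP.e (bt a) (y.2.1 a)) -
        hd (bk a) (famP.e (bk a) (y.2.2.2 a)) ^ 2 *
        (C a).fc i (bt a) (F.e i y.1, famP.e (bt a) (y.2.1 a)) = 0 :=
        congrFun (congrArg Prod.snd h8) a
      rw [h6 a, h7 a] at h9
      exact sub_eq_zero.1 h9

end

end Crest.Agent.R272.Gr_559
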