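import Crest.Agent.R272.Gr3_559

/-!
# R272 (S0415), MOD-GRAPH (helper559), file 5: the five chart cases

`lv_A` (both `t` finite), `lv_B` (`t a = ∞`, `t b` finite), `lv_D` (both `t = ∞`, `v` finite),
`lv_E` (all infinite); `lv_X1`.
-/

set_option autoImplicit false
set_option linter.unusedSectionVars false

open Set Filter Topology Complex

namespace Crest.Agent.R272.Gr_559

open Crest.Agent.R275.Geo Crest.Agent.R273.Fam_835 Crest.Agent.R272.Quot_783
open Crest.Agent.R272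

noncomputable section

variable {N : Type} [TopologicalSpace N] {F : Fam 3 N} {D : GData F}

theorem vec3_eq_zero {a b c : ℂ} : (![a, b, c] : Fin 3 → ℂ) = 0 ↔ a = 0 ∧ b = 0 ∧ c = 0 := by
  constructor
  · intro h
    exact ⟨congrFun h 0, congrFun h 1, congrFun h 2⟩
  · rintro ⟨rfl, rfl, rfl⟩
    funext j
    fin_cases j <;> rfl

theorem hasDerivAt_vec3 {f g h : ℂ → ℂ} {u v x : ℂ} {w : Fin 3 → ℂ} (hf : HV f u (w 0))
    (hg : HV g v (w 1)) (hh : HV h x (w 2)) :
    HasDerivAt (fun r => (![f r, g r, h r] : Fin 3 → ℂ)) w 0 := by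
  rw [hasDerivAt_pi]
  intro j
  fin_cases j
  · exact hf.der
  · exact hg.der
  · exact hh.der

theorem HV.congr {f : ℂ → ℂ} {v d v' d' : ℂ} (h : HV f v d) (e1 : v = v') (e2 : d = d') :
    HV f v' d' := by
  subst e1; subst e2; exact h

theorem diff_vec3 {S : Set EE} {f g h : EE → ℂ} (hf : DifferentiableOn ℂ f S)
    (hg : DifferentiableOn ℂ g S) (hh : DifferentiableOn ℂ h S) :
    DifferentiableOn ℂ (fun p => (![f p, g p, h p] : Fin 3 → ℂ)) S := by
  rw [differentiableOn_pi]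
  intro j
  fin_cases j
  · exact hf
  · exact hg
  · exact hh

theorem diff_hol {h : N → ℂ} (hh : HolF F univ h) (i : F.ι) :
    DifferentiableOn ℂ (fun p : EE => h ((F.e i).symm p.1)) {p | p.1 ∈ (F.e i).target} :=
  (hh i).comp differentiable_fst.differentiableOn fun _ hp => ⟨hp, trivial⟩

theorem Loc.OK.reg_pres {a : Fin 2} {q : N} {C : Loc D a q} (h : C.OK)
    (hr : ¬ (D.f0 q = 0 ∧ D.x a q = 0)) {i : F.ι} (hi : q ∈ (F.e i).source) (b : Bool)
    (τ φ γ : ℂ) : ∃ φ' γ' : ℂ, ∀ V T, (D.P a q = 0 → dd F i (D.P a) q V = φ') →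
      (D.Q a q = 0 → dd F i (D.Q a) q V = γ') →
      ((C.f q (hn b τ) (hd b τ) = 0 → fderiv ℂ (C.fc i b) (F.e i q, τ) (V, T) = φ) ∧
        (C.g q (hn b τ) (hd b τ) = 0 → fderiv ℂ (C.gc i b) (F.e i q, τ) (V, T) = γ)) := by
  have h1 : ∃ φ' : ℂ, ∀ V T, (D.P a q = 0 → dd F i (D.P a) q V = φ') →
      (C.f q (hn b τ) (hd b τ) = 0 → fderiv ℂ (C.fc i b) (F.e i q, τ) (V, T) = φ) := by
    by_cases hf : C.f q (hn b τ) (hd b τ) = 0
    · obtain ⟨hP, l, hl, hlin⟩ := h.reg_f hr i hi b τ hf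
      refine ⟨φ / l, fun V T h2 _ => ?_⟩
      rw [hlin, h2 hP]
      field_simp
    · exact ⟨0, fun V T _ h3 => absurd h3 hf⟩
  have h2 : ∃ γ' : ℂ, ∀ V T, (D.Q a q = 0 → dd F i (D.Q a) q V = γ') →
      (C.g q (hn b τ) (hd b τ) = 0 → fderiv ℂ (C.gc i b) (F.e i q, τ) (V, T) = γ) := by
    by_cases hg : C.g q (hn b τ) (hd b τ) = 0
    · obtain ⟨hP, l, hl, hlin⟩ := h.reg_g hr i hi b τ hg
      refine ⟨γ / l, fun V T h2 _ => ?_⟩
      rw [hlin, h2 hP]
      field_simp
    · exact ⟨0, fun V T _ h3 => absurd h3 hg⟩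
  obtain ⟨φ', h3⟩ := h1
  obtain ⟨γ', h4⟩ := h2
  exact ⟨φ', γ', fun V T h5 h6 => ⟨h3 V T h5, h4 V T h6⟩⟩

/-- both `t` finite -/
theorem lv_A {s : GData.Amb N} (hs : s ∈ D.X1) (C : ∀ a, Loc D a s.1) (hC : ∀ a, (C a).OK)
    (ht : ∀ a, s.2.1 a ≠ OnePoint.infty) :
    Lv (ambF F) D.X1 ((Fin 3 → ℂ) × (Fin 2 → ℂ)) s := by
  obtain ⟨i, hi⟩ := F.cover s.1
  have hbt : ∀ a, s.2.1 a ∈ (famP.e false).source := fun a => by
    rw [famP_false, P1.c0_source]; exact ht a
  have hv : s.2.2.1 ≠ OnePoint.infty := by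
    intro hv
    have h1 := ((mem_X1_loc D C fun a => (C a).mem).1 hs).1.2.1
    rw [hv, P1.n_infty, P1.d_infty, one_mul, zero_mul, zero_mul] at h1
    exact (P1.c0_rel (ht 0)).2 h1
  have hbv : s.2.2.1 ∈ (famP.e false).source := by rw [famP_false, P1.c0_source]; exact hv
  have hR := ((mem_X1_iff D C (fun a => (C a).mem) (bt := fun _ => false) hbt hbv
    fun a => mem_source_ib _).1 hs).1
  set τ : Fin 2 → ℂ := fun a => famP.e false (s.2.1 a) with hτ
  set ν : ℂ := famP.e false s.2.2.1 with hν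
  obtain ⟨hR1, hR2, hR3⟩ := hR
  simp only [hn_false, hd_false, mul_one, one_mul] at hR1 hR2 hR3
  refine lv_of D hs C hi (fun _ => false) false hbt hbv
    (fun z τ ν => ![D.x 0 ((F.e i).symm z) - τ 0 * D.f0 ((F.e i).symm z),
      D.x 1 ((F.e i).symm z) - τ 1 * D.f0 ((F.e i).symm z),
      ν - τ 0 * D.x 1 ((F.e i).symm z)]) ?_ ?_ ?_
  · have h0 := diff_hol D.f0_hol i
    have h1 := diff_hol (D.x_hol 0) i
    have h2 := diff_hol (D.x_hol 1) i
    exact diff_vec3 (h1.sub ((by fun_prop : DifferentiableOn ℂ (fun p : EE => p.2.1 0) _).mul h0))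
      (h2.sub ((by fun_prop : DifferentiableOn ℂ (fun p : EE => p.2.1 1) _).mul h0))
      ((by fun_prop : DifferentiableOn ℂ (fun p : EE => p.2.2.1) _).sub
        ((by fun_prop : DifferentiableOn ℂ (fun p : EE => p.2.1 0) _).mul h2))
  · intro z hz τ ν
    rw [vec3_eq_zero, (F.e i).left_inv hz]
    unfold RelE
    rw [Fin.forall_fin_two]
    simp only [hn_false, hd_false, mul_one, one_mul]
    constructor
    · rintro ⟨⟨h1, h2⟩, h3, h4⟩
      exact ⟨by linear_combination h1, by linear_combination h2, by linear_combination h3⟩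
    · rintro ⟨h1, h2, h3⟩
      exact ⟨⟨by linear_combination h1, by linear_combination h2⟩, by linear_combination h3,
        by linear_combination h3 + τ 0 * h2 - τ 1 * h1⟩
  · intro w φ γ
    have key : ∃ (V : Cn 3) (T : Fin 2 → ℂ),
        dd F i (D.x 0) s.1 V - (T 0 * D.f0 s.1 + τ 0 * dd F i D.f0 s.1 V) = w 0 ∧
        dd F i (D.x 1) s.1 V - (T 1 * D.f0 s.1 + τ 1 * dd F i D.f0 s.1 V) = w 1 ∧
        ∀ a, ((C a).f s.1 (hn false (τ a)) (hd false (τ a)) = 0 →
          fderiv ℂ ((C a).fc i false) (F.e i s.1, τ a) (V, T a) = φ a) ∧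
        ((C a).g s.1 (hn false (τ a)) (hd false (τ a)) = 0 →
          fderiv ℂ ((C a).gc i false) (F.e i s.1, τ a) (V, T a) = γ a) := by
      by_cases hf : D.f0 s.1 = 0
      · have hx0 : D.x 0 s.1 = 0 := by rw [hR1 0, hf, zero_mul]
        have hx1 : D.x 1 s.1 = 0 := by rw [hR1 1, hf, zero_mul]
        have hx : ∀ a, D.x a s.1 = 0 := fun a => by fin_cases a; exacts [hx0, hx1]
        obtain ⟨V, e1, e2, e3⟩ := D.ff' hf hx0 hx1 hi 0 (w 0) (w 1)
        choose T hT using fun a => (hC a).flat hf (hx a) hi (τ a) V (φ a) (γ a)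
        refine ⟨V, T, ?_, ?_, fun a => hT a⟩
        · rw [e1, e2, hf]; ring
        · rw [e1, e3, hf]; ring
      · have hr : ∀ a, ¬ (D.f0 s.1 = 0 ∧ D.x a s.1 = 0) := fun a h => hf h.1
        choose φ' γ' hpg using fun a => (hC a).reg_pres (hr a) hi false (τ a) (φ a) (γ a)
        obtain ⟨V, hV⟩ := D.rr' hr hi φ' γ'
        refine ⟨V, fun a => (dd F i (D.x a) s.1 V - τ a * dd F i D.f0 s.1 V - w (Fin.castSucc a)) /
          D.f0 s.1, ?_, ?_, fun a => hpg a V _ (hV a).1 (hV a).2⟩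
        · show dd F i (D.x 0) s.1 V - ((dd F i (D.x 0) s.1 V - τ 0 * dd F i D.f0 s.1 V - w 0) /
            D.f0 s.1 * D.f0 s.1 + τ 0 * dd F i D.f0 s.1 V) = w 0
          rw [div_mul_cancel₀ _ hf]; ring
        · show dd F i (D.x 1) s.1 V - ((dd F i (D.x 1) s.1 V - τ 1 * dd F i D.f0 s.1 V - w 1) /
            D.f0 s.1 * D.f0 s.1 + τ 1 * dd F i D.f0 s.1 V) = w 1
          rw [div_mul_cancel₀ _ hf]; ring
    obtain ⟨V, T, e1, e2, e3⟩ := key
    refine ⟨V, T, w 2 + (T 0 * D.x 1 s.1 + τ 0 * dd F i (D.x 1) s.1 V), ?_, e3⟩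
    have hf := HV.dd isOpen_univ D.f0_hol hi (mem_univ _) V
    have hx := fun a => HV.dd isOpen_univ (D.x_hol a) hi (mem_univ _) V
    exact hasDerivAt_vec3 (((hx 0).sub ((HV.lin (τ 0) (T 0)).mul hf)).congr rfl e1)
      (((hx 1).sub ((HV.lin (τ 1) (T 1)).mul hf)).congr rfl e2)
      (((HV.lin ν _).sub ((HV.lin (τ 0) (T 0)).mul (hx 1))).congr rfl (by ring))

/-- `t a = ∞`, `t b` finite -/
theorem lv_B {s : GData.Amb N} (hs : s ∈ D.X1) (C : ∀ a, Loc D a s.1) (hC : ∀ a, (C a).OK)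
    {a b : Fin 2} (hab : a ≠ b) (hta : s.2.1 a = OnePoint.infty)
    (htb : s.2.1 b ≠ OnePoint.infty) :
    Lv (ambF F) D.X1 ((Fin 3 → ℂ) × (Fin 2 → ℂ)) s := by
  obtain ⟨i, hi⟩ := F.cover s.1
  obtain ⟨bt, hbta, hbtb⟩ : ∃ bt : Fin 2 → Bool, bt a = true ∧ bt b = false :=
    ⟨fun c => decide (c = a), by simp, by simp [hab.symm]⟩
  have hc : ∀ c, c = a ∨ c = b := by
    intro c
    revert hab
    fin_cases a <;> fin_cases b <;> fin_cases c <;> simp
  have hbt : ∀ c, s.2.1 c ∈ (famP.e (bt c)).source := by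
    intro c
    rcases hc c with rfl | rfl
    · rw [hbta, famP_true, P1.c1_source, hta]; exact OnePoint.infty_ne_coe _
    · rw [hbtb, famP_false, P1.c0_source]; exact htb
  have hv : s.2.2.1 ≠ OnePoint.infty := by
    intro hv
    have h1 := ((relE_iff D hab _ _ _ _ _).1 ((mem_X1_loc D C fun a => (C a).mem).1 hs).1).2.2.2
    rw [hv, P1.n_infty, P1.d_infty, one_mul, zero_mul, zero_mul] at h1
    exact (P1.c0_rel htb).2 h1
  have hbv : s.2.2.1 ∈ (famP.e false).source := by rw [famP_false, P1.c0_source]; exact hv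
  have hR := (relE_iff D hab _ _ _ _ _).1 ((mem_X1_iff D C (fun a => (C a).mem) hbt hbv
    fun a => mem_source_ib _).1 hs).1
  set τ : Fin 2 → ℂ := fun a => famP.e (bt a) (s.2.1 a) with hτ
  set ν : ℂ := famP.e false s.2.2.1 with hν
  have hτa : τ a = 0 := by
    show famP.e (bt a) (s.2.1 a) = 0
    rw [hbta, hta, famP_true, P1.c1_infty]
  obtain ⟨hR1, hR2, hR3, hR4⟩ := hR
  simp only [hbta, hbtb, hn_false, hd_false, hn_true, hd_true, mul_one, one_mul] at hR1 hR2 hR3 hR4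
  have hf0 : D.f0 s.1 = 0 := by
    have h1 : D.x a s.1 * τ a = D.f0 s.1 := by
      show D.x a s.1 * famP.e (bt a) (s.2.1 a) = _
      rw [hbta]; exact hR1
    rw [← h1, hτa, mul_zero]
  have hxb : D.x b s.1 = 0 := by rw [hR2, hf0, zero_mul]
  refine lv_of D hs C hi bt false hbt hbv
    (fun z τ ν => ![D.f0 ((F.e i).symm z) - τ a * D.x a ((F.e i).symm z),
      D.x b ((F.e i).symm z) - τ b * D.f0 ((F.e i).symm z),
      ν - τ b * D.x a ((F.e i).symm z)]) ?_ ?_ ?_
  · have h0 := diff_hol D.f0_hol i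
    have h1 := diff_hol (D.x_hol a) i
    have h2 := diff_hol (D.x_hol b) i
    exact diff_vec3 (h0.sub ((by fun_prop : DifferentiableOn ℂ (fun p : EE => p.2.1 a) _).mul h1))
      (h2.sub ((by fun_prop : DifferentiableOn ℂ (fun p : EE => p.2.1 b) _).mul h0))
      ((by fun_prop : DifferentiableOn ℂ (fun p : EE => p.2.2.1) _).sub
        ((by fun_prop : DifferentiableOn ℂ (fun p : EE => p.2.1 b) _).mul h1))
  · intro z hz τ ν
    rw [vec3_eq_zero, (F.e i).left_inv hz, relE_iff D hab]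
    simp only [hbta, hbtb, hn_false, hd_false, hn_true, hd_true, mul_one, one_mul]
    constructor
    · rintro ⟨h1, h2, h3, h4⟩
      exact ⟨by linear_combination -h1, by linear_combination h2, by linear_combination h4⟩
    · rintro ⟨h1, h2, h3⟩
      exact ⟨by linear_combination -h1, by linear_combination h2,
        by linear_combination τ a * h3 - h2 - τ b * h1, by linear_combination h3⟩
  · intro w φ γ
    have key : ∃ (V : Cn 3) (T : Fin 2 → ℂ),
        dd F i D.f0 s.1 V - (T a * D.x a s.1 + τ a * dd F i (D.x a) s.1 V) = w 0 ∧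
        dd F i (D.x b) s.1 V - (T b * D.f0 s.1 + τ b * dd F i D.f0 s.1 V) = w 1 ∧
        ∀ a, ((C a).f s.1 (hn (bt a) (τ a)) (hd (bt a) (τ a)) = 0 →
          fderiv ℂ ((C a).fc i (bt a)) (F.e i s.1, τ a) (V, T a) = φ a) ∧
        ((C a).g s.1 (hn (bt a) (τ a)) (hd (bt a) (τ a)) = 0 →
          fderiv ℂ ((C a).gc i (bt a)) (F.e i s.1, τ a) (V, T a) = γ a) := by
      by_cases hxa : D.x a s.1 = 0
      · have h01 : D.x 0 s.1 = 0 ∧ D.x 1 s.1 = 0 := by
          rcases hc 0 with h0 | h0 <;> rcases hc 1 with h1 | h1 <;> rw [h0, h1] <;>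
            simp [hxa, hxb]
        have hV : ∃ V, dd F i D.f0 s.1 V = w 0 ∧ dd F i (D.x b) s.1 V = w 1 + τ b * w 0 := by
          obtain ⟨V, e1, e2, e3⟩ := D.ff' hf0 h01.1 h01.2 hi (w 0) (w 1 + τ b * w 0)
            (w 1 + τ b * w 0)
          exact ⟨V, e1, by fin_cases b; exacts [e2, e3]⟩
        obtain ⟨V, e1, e2⟩ := hV
        obtain ⟨Tb, hTb⟩ := (hC b).flat hf0 hxb hi (τ b) V (φ b) (γ b)
        refine ⟨V, fun _ => Tb, ?_, ?_, fun c => ?_⟩
        · rw [e1, hxa, hτa]; ring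
        · rw [e1, e2, hf0]; ring
        · rcases hc c with rfl | rfl
          · have h5 := (hC c).flat_inf hf0 hxa
            rw [hbta, hτa, hn_true, hd_true]
            exact ⟨fun h => absurd h h5.1, fun h => absurd h h5.2⟩
          · rw [hbtb]; exact hTb
      · obtain ⟨φ', γ', hpg⟩ := (hC a).reg_pres (fun h => hxa h.2) hi (bt a) (τ a) (φ a) (γ a)
        obtain ⟨V, e1, e2, e3, e4⟩ := D.fr' hab.symm hf0 hxb hxa hi 0 (w 1) φ' γ'
        obtain ⟨Tb, hTb⟩ := (hC b).flat hf0 hxb hi (τ b) V (φ b) (γ b)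
        have hsel : ∃ T : Fin 2 → ℂ, T a = -w 0 / D.x a s.1 ∧ T b = Tb :=
          ⟨fun c => if c = a then -w 0 / D.x a s.1 else Tb, by simp, by simp [hab.symm]⟩
        obtain ⟨T, hTa, hTb'⟩ := hsel
        refine ⟨V, T, ?_, ?_, fun c => ?_⟩
        · rw [e1, hTa, hτa]; field_simp; ring
        · rw [e1, e2, hf0]; ring
        · rcases hc c with rfl | rfl
          · exact hpg V _ e3 e4
          · rw [hTb', hbtb]; exact hTb
    obtain ⟨V, T, e1, e2, e3⟩ := key
    refine ⟨V, T, w 2 + (T b * D.x a s.1 + τ b * dd F i (D.x a) s.1 V), ?_, e3⟩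
    have hf := HV.dd isOpen_univ D.f0_hol hi (mem_univ _) V
    have hx := fun a => HV.dd isOpen_univ (D.x_hol a) hi (mem_univ _) V
    exact hasDerivAt_vec3 ((hf.sub ((HV.lin (τ a) (T a)).mul (hx a))).congr rfl e1)
      (((hx b).sub ((HV.lin (τ b) (T b)).mul hf)).congr rfl e2)
      (((HV.lin ν _).sub ((HV.lin (τ b) (T b)).mul (hx a))).congr rfl (by ring))

/-- both `t` infinite, `v` finite -/
theorem lv_D {s : GData.Amb N} (hs : s ∈ D.X1) (C : ∀ a, Loc D a s.1) (hC : ∀ a, (C a).OK)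
    (ht : ∀ a, s.2.1 a = OnePoint.infty) (hv : s.2.2.1 ≠ OnePoint.infty) :
    Lv (ambF F) D.X1 ((Fin 3 → ℂ) × (Fin 2 → ℂ)) s := by
  obtain ⟨i, hi⟩ := F.cover s.1
  have hbt : ∀ a, s.2.1 a ∈ (famP.e true).source := fun a => by
    rw [famP_true, P1.c1_source, ht a]; exact OnePoint.infty_ne_coe _
  have hbv : s.2.2.1 ∈ (famP.e false).source := by rw [famP_false, P1.c0_source]; exact hv
  have hR := ((mem_X1_iff D C (fun a => (C a).mem) (bt := fun _ => true) hbt hbv
    fun a => mem_source_ib _).1 hs).1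
  set τ : Fin 2 → ℂ := fun a => famP.e true (s.2.1 a) with hτ
  set ν : ℂ := famP.e false s.2.2.1 with hν
  have hτ0 : ∀ a, τ a = 0 := fun a => by
    show famP.e true (s.2.1 a) = 0
    rw [ht a, famP_true, P1.c1_infty]
  obtain ⟨hR1, hR2, hR3⟩ := hR
  simp only [hn_false, hd_false, hn_true, hd_true, mul_one, one_mul] at hR1 hR2 hR3
  have hf0 : D.f0 s.1 = 0 := by rw [← hR1 0]; rw [show famP.e true (s.2.1 0) = 0 from hτ0 0]; ring
  have hx1 : D.x 1 s.1 = 0 := by rw [← hR2]; rw [show famP.e true (s.2.1 0) = 0 from hτ0 0]; ring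
  have hx0 : D.x 0 s.1 = 0 := by rw [← hR3]; rw [show famP.e true (s.2.1 1) = 0 from hτ0 1]; ring
  have hx : ∀ a, D.x a s.1 = 0 := fun a => by fin_cases a; exacts [hx0, hx1]
  refine lv_of D hs C hi (fun _ => true) false hbt hbv
    (fun z τ ν => ![D.x 1 ((F.e i).symm z) - ν * τ 0, D.x 0 ((F.e i).symm z) - ν * τ 1,
      D.f0 ((F.e i).symm z) - τ 0 * D.x 0 ((F.e i).symm z)]) ?_ ?_ ?_
  · have h0 := diff_hol D.f0_hol i
    have h1 := diff_hol (D.x_hol 0) i
    have h2 := diff_hol (D.x_hol 1) i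
    exact diff_vec3 (h2.sub (by fun_prop)) (h1.sub (by fun_prop))
      (h0.sub ((by fun_prop : DifferentiableOn ℂ (fun p : EE => p.2.1 0) _).mul h1))
  · intro z hz τ ν
    rw [vec3_eq_zero, (F.e i).left_inv hz]
    unfold RelE
    rw [Fin.forall_fin_two]
    simp only [hn_false, hd_false, hn_true, hd_true, mul_one, one_mul]
    constructor
    · rintro ⟨⟨h1, h2⟩, h3, h4⟩
      exact ⟨by linear_combination -h3, by linear_combination -h4, by linear_combination -h1⟩
    · rintro ⟨h1, h2, h3⟩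
      exact ⟨⟨by linear_combination -h3, by linear_combination τ 1 * h1 - τ 0 * h2 - h3⟩,
        by linear_combination -h1, by linear_combination -h2⟩
  · intro w φ γ
    obtain ⟨V, e1, e2, e3⟩ := D.ff' hf0 hx0 hx1 hi (w 2) (w 1) (w 0)
    refine ⟨V, 0, 0, ?_, fun a => ?_⟩
    · have hf := HV.dd isOpen_univ D.f0_hol hi (mem_univ _) V
      have hx := fun a => HV.dd isOpen_univ (D.x_hol a) hi (mem_univ _) V
      exact hasDerivAt_vec3
        (((hx 1).sub ((HV.lin ν 0).mul (HV.lin (τ 0) 0))).congr rfl (by rw [e3]; ring))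
        (((hx 0).sub ((HV.lin ν 0).mul (HV.lin (τ 1) 0))).congr rfl (by rw [e2]; ring))
        ((hf.sub ((HV.lin (τ 0) 0).mul (hx 0))).congr rfl (by rw [e1, hτ0 0]; ring))
    · have h5 := (hC a).flat_inf hf0 (hx a)
      show ((C a).f s.1 (hn true (τ a)) (hd true (τ a)) = 0 → _) ∧
        ((C a).g s.1 (hn true (τ a)) (hd true (τ a)) = 0 → _)
      rw [hτ0, hn_true, hd_true]
      exact ⟨fun h => absurd h h5.1, fun h => absurd h h5.2⟩

/-- everything infinite -/
theorem lv_E {s : GData.Amb N} (hs : s ∈ D.X1) (C : ∀ a, Loc D a s.1) (hC : ∀ a, (C a).OK)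
    (ht : ∀ a, s.2.1 a = OnePoint.infty) (hv : s.2.2.1 = OnePoint.infty) :
    Lv (ambF F) D.X1 ((Fin 3 → ℂ) × (Fin 2 → ℂ)) s := by
  obtain ⟨i, hi⟩ := F.cover s.1
  have hbt : ∀ a, s.2.1 a ∈ (famP.e true).source := fun a => by
    rw [famP_true, P1.c1_source, ht a]; exact OnePoint.infty_ne_coe _
  have hbv : s.2.2.1 ∈ (famP.e true).source := by
    rw [famP_true, P1.c1_source, hv]; exact OnePoint.infty_ne_coe _
  have hR := ((mem_X1_iff D C (fun a => (C a).mem) (bt := fun _ => true) hbt hbv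
    fun a => mem_source_ib _).1 hs).1
  set τ : Fin 2 → ℂ := fun a => famP.e true (s.2.1 a) with hτ
  set ν : ℂ := famP.e true s.2.2.1 with hν
  have hτ0 : ∀ a, τ a = 0 := fun a => by
    show famP.e true (s.2.1 a) = 0
    rw [ht a, famP_true, P1.c1_infty]
  have hν0 : ν = 0 := by
    show famP.e true s.2.2.1 = 0
    rw [hv, famP_true, P1.c1_infty]
  obtain ⟨hR1, hR2, hR3⟩ := hR
  simp only [hn_true, hd_true, mul_one, one_mul] at hR1 hR2 hR3
  have hf0 : D.f0 s.1 = 0 := by rw [← hR1 0]; rw [show famP.e true (s.2.1 0) = 0 from hτ0 0]; ring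
  refine lv_of D hs C hi (fun _ => true) true hbt hbv
    (fun z τ ν => ![τ 0 - ν * D.x 1 ((F.e i).symm z), τ 1 - ν * D.x 0 ((F.e i).symm z),
      D.f0 ((F.e i).symm z) - τ 0 * D.x 0 ((F.e i).symm z)]) ?_ ?_ ?_
  · have h0 := diff_hol D.f0_hol i
    have h1 := diff_hol (D.x_hol 0) i
    have h2 := diff_hol (D.x_hol 1) i
    exact diff_vec3 ((by fun_prop : DifferentiableOn ℂ (fun p : EE => p.2.1 0) _).sub
        ((by fun_prop : DifferentiableOn ℂ (fun p : EE => p.2.2.1) _).mul h2))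
      ((by fun_prop : DifferentiableOn ℂ (fun p : EE => p.2.1 1) _).sub
        ((by fun_prop : DifferentiableOn ℂ (fun p : EE => p.2.2.1) _).mul h1))
      (h0.sub ((by fun_prop : DifferentiableOn ℂ (fun p : EE => p.2.1 0) _).mul h1))
  · intro z hz τ ν
    rw [vec3_eq_zero, (F.e i).left_inv hz]
    unfold RelE
    rw [Fin.forall_fin_two]
    simp only [hn_true, hd_true, mul_one, one_mul]
    constructor
    · rintro ⟨⟨h1, h2⟩, h3, h4⟩
      exact ⟨by linear_combination h3, by linear_combination h4, by linear_combination -h1⟩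
    · rintro ⟨h1, h2, h3⟩
      exact ⟨⟨by linear_combination -h3,
        by linear_combination D.x 1 z * h2 - D.x 0 z * h1 - h3⟩,
        by linear_combination h1, by linear_combination h2⟩
  · intro w φ γ
    have key : ∃ (V : Cn 3) (T : Fin 2 → ℂ) (Nv : ℂ),
        T 0 - Nv * D.x 1 s.1 = w 0 ∧ T 1 - Nv * D.x 0 s.1 = w 1 ∧
        dd F i D.f0 s.1 V - T 0 * D.x 0 s.1 = w 2 ∧
        ∀ a, ((C a).f s.1 (hn true (τ a)) (hd true (τ a)) = 0 →
          fderiv ℂ ((C a).fc i true) (F.e i s.1, τ a) (V, T a) = φ a) ∧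
        ((C a).g s.1 (hn true (τ a)) (hd true (τ a)) = 0 →
          fderiv ℂ ((C a).gc i true) (F.e i s.1, τ a) (V, T a) = γ a) := by
      have hflat : ∀ a, D.x a s.1 = 0 → ∀ (V : Cn 3) (T : ℂ),
          ((C a).f s.1 (hn true (τ a)) (hd true (τ a)) = 0 →
            fderiv ℂ ((C a).fc i true) (F.e i s.1, τ a) (V, T) = φ a) ∧
          ((C a).g s.1 (hn true (τ a)) (hd true (τ a)) = 0 →
            fderiv ℂ ((C a).gc i true) (F.e i s.1, τ a) (V, T) = γ a) := by
        intro a hxa V T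
        have h5 := (hC a).flat_inf hf0 hxa
        rw [hτ0, hn_true, hd_true]
        exact ⟨fun h => absurd h h5.1, fun h => absurd h h5.2⟩
      by_cases hx0 : D.x 0 s.1 = 0
      · by_cases hx1 : D.x 1 s.1 = 0
        · obtain ⟨V, e1, -, -⟩ := D.ff' hf0 hx0 hx1 hi (w 2) 0 0
          refine ⟨V, fun a => w (Fin.castSucc a), 0, ?_, ?_, ?_, fun a => ?_⟩
          · show w 0 - 0 * _ = w 0
            ring
          · show w 1 - 0 * _ = w 1
            ring
          · rw [e1, hx0]; ring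
          · exact hflat a (by fin_cases a; exacts [hx0, hx1]) V _
        · obtain ⟨φ', γ', hpg⟩ := (hC 1).reg_pres (fun h => hx1 h.2) hi true (τ 1) (φ 1) (γ 1)
          obtain ⟨V, e1, -, e3, e4⟩ := D.fr' (a := 0) (b := 1) (by decide) hf0 hx0 hx1 hi
            (w 2) 0 φ' γ'
          refine ⟨V, fun a => w (Fin.castSucc a), 0, ?_, ?_, ?_, fun a => ?_⟩
          · show w 0 - 0 * _ = w 0
            ring
          · show w 1 - 0 * _ = w 1
            ring
          · rw [e1, hx0]; ring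
          · fin_cases a
            · exact hflat 0 hx0 V _
            · exact hpg V _ e3 e4
      · by_cases hx1 : D.x 1 s.1 = 0
        · obtain ⟨φ', γ', hpg⟩ := (hC 0).reg_pres (fun h => hx0 h.2) hi true (τ 0) (φ 0) (γ 0)
          obtain ⟨V, e1, -, e3, e4⟩ := D.fr' (a := 1) (b := 0) (by decide) hf0 hx1 hx0 hi
            (w 2 + w 0 * D.x 0 s.1) 0 φ' γ'
          refine ⟨V, fun a => w (Fin.castSucc a), 0, ?_, ?_, ?_, fun a => ?_⟩
          · show w 0 - 0 * _ = w 0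
            ring
          · show w 1 - 0 * _ = w 1
            ring
          · show dd F i D.f0 s.1 V - w 0 * D.x 0 s.1 = w 2
            rw [e1]; ring
          · fin_cases a
            · exact hpg V _ e3 e4
            · exact hflat 1 hx1 V _
        · have hr : ∀ a, ¬ (D.f0 s.1 = 0 ∧ D.x a s.1 = 0) := fun a h => by
            fin_cases a
            exacts [hx0 h.2, hx1 h.2]
          choose φ' γ' hpg using fun a => (hC a).reg_pres (hr a) hi true (τ a) (φ a) (γ a)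
          obtain ⟨V, hV⟩ := D.rr' hr hi φ' γ'
          set T0 : ℂ := (dd F i D.f0 s.1 V - w 2) / D.x 0 s.1 with hT0
          set Nv : ℂ := (T0 - w 0) / D.x 1 s.1 with hNv
          refine ⟨V, ![T0, w 1 + Nv * D.x 0 s.1], Nv, ?_, ?_, ?_,
            fun a => hpg a V _ (hV a).1 (hV a).2⟩
          · show T0 - Nv * D.x 1 s.1 = w 0
            rw [hNv, div_mul_cancel₀ _ hx1]; ring
          · show w 1 + Nv * D.x 0 s.1 - Nv * D.x 0 s.1 = w 1
            ring
          · show dd F i D.f0 s.1 V - T0 * D.x 0 s.1 = w 2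
            rw [hT0, div_mul_cancel₀ _ hx0]; ring
    obtain ⟨V, T, Nv, e1, e2, e3, e4⟩ := key
    refine ⟨V, T, Nv, ?_, e4⟩
    have hf := HV.dd isOpen_univ D.f0_hol hi (mem_univ _) V
    have hx := fun a => HV.dd isOpen_univ (D.x_hol a) hi (mem_univ _) V
    exact hasDerivAt_vec3
      (((HV.lin (τ 0) (T 0)).sub ((HV.lin ν Nv).mul (hx 1))).congr rfl
        (by rw [hν0, ← e1]; ring))
      (((HV.lin (τ 1) (T 1)).sub ((HV.lin ν Nv).mul (hx 0))).congr rfl
        (by rw [hν0, ← e2]; ring))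
      ((hf.sub ((HV.lin (τ 0) (T 0)).mul (hx 0))).congr rfl (by rw [hτ0 0, ← e3]; ring))

/-- **`X1` is locally the zero set of a submersion** -/
theorem lv_X1 (D : GData F) : ∀ s ∈ D.X1, Lv (ambF F) D.X1 ((Fin 3 → ℂ) × (Fin 2 → ℂ)) s := by
  intro s hs
  choose C hC using fun a => D.exists_loc a s.1
  by_cases h0 : s.2.1 0 = OnePoint.infty
  · by_cases h1 : s.2.1 1 = OnePoint.infty
    · have ht : ∀ a, s.2.1 a = OnePoint.infty := fun a => by fin_cases a; exacts [h0, h1]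
      by_cases hv : s.2.2.1 = OnePoint.infty
      · exact lv_E hs C hC ht hv
      · exact lv_D hs C hC ht hv
    · exact lv_B hs C hC (a := 0) (b := 1) (by decide) h0 h1
  · by_cases h1 : s.2.1 1 = OnePoint.infty
    · exact lv_B hs C hC (a := 1) (b := 0) (by decide) h1 h0
    · exact lv_A hs C hC fun a => by fin_cases a; exacts [h0, h1]

end

end Crest.Agent.R272.Gr_559
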