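import Crest.Agent.R272.Gr5_559

/-!
# R272 (S0415), MOD-GRAPH (helper559), file 7: density

* `P1.sq k = k ^ 2`, an open map; `P1.sq_iff`;
* `exists_appr` : every point of `X1` is a limit of points of the graph over regular points;
* **`dense_pz_preimage : Dense S → Dense (D.pz ⁻¹' S)`**, `frequently_ne`.
-/

set_option autoImplicit false
set_option linter.unusedSectionVars false

open Set Filter Topology Complex

namespace Crest.Agent.R272.Gr_559

open Crest.Agent.R275.Geo Crest.Agent.R273.Fam_835 Crest.Agent.R272.Quot_783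
open Crest.Agent.R272

noncomputable section

/-! ### the squaring map of `P1` -/

namespace P1

theorem mk_smul {l : ℂ} (hl : l ≠ 0) (a b : ℂ) : mk (l * a) (l * b) = mk a b := by
  by_cases hb : b = 0
  · simp [hb]
  · rw [mk_of_ne hb, mk_of_ne (mul_ne_zero hl hb), mul_div_mul_left _ _ hl]

theorem mk_infty {a : ℂ} : mk a 0 = OnePoint.infty := mk_zero a

/-- the squaring map -/
def sq (k : P1) : P1 := mk (n k ^ 2) (d k ^ 2)

@[simp] theorem sq_infty : sq (OnePoint.infty : P1) = OnePoint.infty := by simp [sq]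

@[simp] theorem sq_coe (c : ℂ) : sq (c : P1) = ((c ^ 2 : ℂ) : P1) := by simp [sq, mk]

theorem sq_iff {p q : ℂ} (h : ¬ (p = 0 ∧ q = 0)) (k : P1) :
    k.n ^ 2 * q = k.d ^ 2 * p ↔ sq k = mk p q := by
  rw [← rel_iff h]
  induction k using OnePoint.rec with
  | infty =>
    simp only [n_infty, d_infty, sq_infty]
    constructor
    · intro h; linear_combination -h
    · intro h; linear_combination -h
  | coe c =>
    simp only [n_coe, d_coe, sq_coe]
    constructor
    · intro h; linear_combination -h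
    · intro h; linear_combination -h

theorem exists_sq (p : P1) : ∃ k, sq k = p := by
  induction p using OnePoint.rec with
  | infty => exact ⟨OnePoint.infty, sq_infty⟩
  | coe c =>
    obtain ⟨e, he⟩ := IsAlgClosed.exists_pow_nat_eq c (n := 2) (by norm_num)
    exact ⟨(e : P1), by rw [sq_coe, he]⟩

theorem sq_inv (k : P1) : sq (inv k) = inv (sq k) := by
  induction k using OnePoint.rec with
  | infty => simp
  | coe c =>
    by_cases hc : c = 0
    · simp [hc]
    · rw [inv_coe hc, sq_coe, sq_coe, inv_coe (pow_ne_zero 2 hc), inv_pow]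

theorem nhds_sq_le (k : P1) : 𝓝 (sq k) ≤ map sq (𝓝 k) := by
  have hfin : ∀ c : ℂ, 𝓝 (sq (c : P1)) ≤ map sq (𝓝 (c : P1)) := by
    intro c
    have h1 : AnalyticAt ℂ (fun z : ℂ => z ^ 2) c := by fun_prop
    have h2 : 𝓝 (c ^ 2) ≤ map (fun z : ℂ => z ^ 2) (𝓝 c) := by
      refine h1.eventually_constant_or_nhds_le_map_nhds.resolve_left ?_
      intro h3
      have h4 : Tendsto (fun e : ℂ => c + e) (𝓝 0) (𝓝 c) := by
        have : Tendsto (fun e : ℂ => c + e) (𝓝 0) (𝓝 (c + 0)) :=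
          (continuous_const.add continuous_id).tendsto 0
        rwa [add_zero] at this
      have h5 := h4.eventually h3
      have h6 : ∀ᶠ e : ℂ in 𝓝[≠] 0, e ≠ 0 ∧ e * (2 * c + e) = 0 := by
        filter_upwards [h5.filter_mono nhdsWithin_le_nhds, self_mem_nhdsWithin] with e he he0
        exact ⟨he0, by linear_combination he⟩
      have h7 : ∀ᶠ e : ℂ in 𝓝[≠] 0, e = -(2 * c) := by
        filter_upwards [h6] with e he
        have := (mul_eq_zero.1 he.2).resolve_left he.1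
        linear_combination this
      by_cases hc : c = 0
      · obtain ⟨e, he1, he2⟩ := (h6.and h7).exists
        rw [hc] at he2
        exact he1.1 (by rw [he2]; ring)
      · have h8 : Tendsto (fun e : ℂ => e) (𝓝[≠] 0) (𝓝 0) := nhdsWithin_le_nhds
        have h9 : ∀ᶠ e : ℂ in 𝓝[≠] 0, e ≠ -(2 * c) :=
          h8.eventually (isOpen_ne.mem_nhds (by
            intro h; exact hc (by linear_combination (1/2 : ℂ) * h)))
        obtain ⟨e, he1, he2⟩ := (h7.and h9).exists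
        exact he2 he1
    rw [sq_coe, OnePoint.nhds_coe_eq, OnePoint.nhds_coe_eq]
    refine (map_mono h2).trans ?_
    rw [Filter.map_map, Filter.map_map]
    have h10 : ((fun c : ℂ => (c : P1)) ∘ fun z : ℂ => z ^ 2) = sq ∘ (fun c : ℂ => (c : P1)) := by
      funext z
      simp only [Function.comp, sq_coe]
    exact le_of_eq (by rw [← h10])
  induction k using OnePoint.rec with
  | infty =>
    have h1 := hfin 0
    have h2 : map inv (𝓝 ((0 : ℂ) : P1)) = 𝓝 (OnePoint.infty : P1) := by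
      have := invH.map_nhds_eq ((0 : ℂ) : P1)
      rw [show (invH : P1 → P1) = inv from rfl] at this
      rw [this, inv_zero]
    rw [sq_infty, ← h2]
    have h3 : sq ((0 : ℂ) : P1) = ((0 : ℂ) : P1) := by simp
    rw [h3] at h1
    refine (map_mono h1).trans ?_
    rw [Filter.map_map, Filter.map_map]
    have h4 : inv ∘ sq = sq ∘ inv := by
      funext z
      exact (sq_inv z).symm
    rw [h4]
  | coe c => exact hfin c

theorem isOpenMap_sq : IsOpenMap sq := IsOpenMap.of_nhds_le nhds_sq_le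

theorem continuousAt_mk2 {a b : ℂ} (h : ¬ (a = 0 ∧ b = 0)) :
    ContinuousAt (fun p : ℂ × ℂ => mk p.1 p.2) (a, b) :=
  P1A_54.continuousAt_mk continuous_fst.continuousAt continuous_snd.continuousAt h

theorem tendsto_mk {Z : Type*} {l : Filter Z} {f g : Z → ℂ} {a b : ℂ} (hf : Tendsto f l (𝓝 a))
    (hg : Tendsto g l (𝓝 b)) (h : ¬ (a = 0 ∧ b = 0)) :
    Tendsto (fun z => mk (f z) (g z)) l (𝓝 (mk a b)) := by
  have h1 : Tendsto (fun z => (f z, g z)) l (𝓝 (a, b)) := hf.prodMk_nhds hg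
  exact (continuousAt_mk2 h).tendsto.comp h1

end P1

variable {N : Type} [TopologicalSpace N] {F : Fam 3 N} {D : GData F}

/-! ### openness -/

theorem open_tuple {m r : ℕ} {F : Fam m N} {U : Set N} (hU : IsOpen U) {h : Fin r → N → ℂ}
    (hh : ∀ a, HolF F U (h a)) {q : N} (hq : q ∈ U) {i : F.ι} (hi : q ∈ (F.e i).source)
    (hs : ∀ w : Fin r → ℂ, ∃ v, ∀ a, dd F i (h a) q v = w a) :
    𝓝 (fun a => h a q) ≤ map (fun y a => h a y) (𝓝 q) := by
  let W : Set (Cn m) := (F.e i).target ∩ (F.e i).symm ⁻¹' U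
  have hW : IsOpen W := (F.e i).isOpen_inter_preimage_symm hU
  have hqW : F.e i q ∈ W := ⟨(F.e i).map_source hi, by
    rw [mem_preimage, (F.e i).left_inv hi]; exact hq⟩
  let Φ : Cn m → Fin r → ℂ := fun z a => h a ((F.e i).symm z)
  have hΦ : DifferentiableOn ℂ Φ W := differentiableOn_pi.2 fun a => hh a i
  have hAn : AnalyticAt ℂ Φ (F.e i q) :=
    Crest.Agent.R266.SCV.analyticOnNhd_of_differentiableOn hW hΦ _ hqW
  have hd : ∀ v a, fderiv ℂ Φ (F.e i q) v a = dd F i (h a) q v := by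
    intro v a
    have h1 : HasFDerivAt Φ (ContinuousLinearMap.pi fun a => dd F i (h a) q) (F.e i q) :=
      hasFDerivAt_pi.2 fun a => hasFDerivAt_dd hU (hh a) hi hq
    rw [h1.fderiv]
    rfl
  have hr : (fderiv ℂ Φ (F.e i q)).range = ⊤ := by
    rw [LinearMap.range_eq_top]
    intro w
    obtain ⟨v, hv⟩ := hs w
    exact ⟨v, funext fun a => (hd v a).trans (hv a)⟩
  have h2 := hAn.hasStrictFDerivAt.map_nhds_eq_of_surj hr
  have h3 := (F.e i).map_nhds_eq hi
  have h4 : 𝓝 (Φ (F.e i q)) = map (Φ ∘ F.e i) (𝓝 q) := by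
    rw [← Filter.map_map, h3, h2]
  have h5 : ∀ᶠ y in 𝓝 q, (Φ ∘ F.e i) y = fun a => h a y := by
    filter_upwards [(F.e i).open_source.mem_nhds hi] with y hy
    show (fun a => h a ((F.e i).symm (F.e i y))) = _
    rw [(F.e i).left_inv hy]
  have h6 : Φ (F.e i q) = fun a => h a q := by
    show (fun a => h a ((F.e i).symm (F.e i q))) = _
    rw [(F.e i).left_inv hi]
  rw [← h6, h4]
  exact le_of_eq (Filter.map_congr h5)

theorem exists_curve {V : Type*} [TopologicalSpace V] {Ψ : N → V} {z : N}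
    (hΨ : 𝓝 (Ψ z) ≤ map Ψ (𝓝 z)) {w : ℂ → V} (hw : Tendsto w (𝓝[≠] 0) (𝓝 (Ψ z))) :
    ∃ l : Filter N, l.NeBot ∧ l ≤ 𝓝 z ∧ Tendsto Ψ l (map w (𝓝[≠] 0)) := by
  refine ⟨𝓝 z ⊓ comap Ψ (map w (𝓝[≠] 0)), ?_, inf_le_left, ?_⟩
  · have h1 : (map Ψ (𝓝 z ⊓ comap Ψ (map w (𝓝[≠] 0)))).NeBot := by
      rw [Filter.push_pull]
      have h2 : map Ψ (𝓝 z) ⊓ map w (𝓝[≠] 0) = map w (𝓝[≠] 0) :=
        inf_eq_right.2 (hw.trans hΨ)
      rw [h2]
      infer_instance
    exact (Filter.map_neBot_iff Ψ).1 h1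
  · exact tendsto_comap.mono_left inf_le_right

/-! ### convergence of `[P : Q]` -/

theorem mk_PQ_tendsto {a : Fin 2} {z : N} (C : Loc D a z) {t k : P1} (hY : (z, t, k) ∈ D.Y a)
    (hne : ¬ (C.f z t.n t.d = 0 ∧ C.g z t.n t.d = 0)) {l : Filter N} (hl : l ≤ 𝓝 z)
    (hreg : ∀ᶠ y in l, ¬ (D.f0 y = 0 ∧ D.x a y = 0))
    (ht : Tendsto (fun y => P1.mk (D.x a y) (D.f0 y)) l (𝓝 t)) :
    (∀ᶠ y in l, ¬ (D.P a y = 0 ∧ D.Q a y = 0)) ∧
      Tendsto (fun y => P1.mk (D.P a y) (D.Q a y)) l (𝓝 (P1.sq k)) := by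
  obtain ⟨i, hi⟩ := F.cover z
  set b := ib t with hb
  have hts : t ∈ (famP.e b).source := mem_source_ib t
  set τ0 : ℂ := famP.e b t with hτ0
  obtain ⟨m, hm, hm1, hm2⟩ := hnd hts
  -- chart values
  have hτ : Tendsto (fun y => famP.e b (P1.mk (D.x a y) (D.f0 y))) l (𝓝 τ0) :=
    ((famP.e b).continuousAt hts).tendsto.comp ht
  have hez : Tendsto (fun y => F.e i y) l (𝓝 (F.e i z)) := ((F.e i).continuousAt hi).tendsto.mono_left hl
  have hpr : Tendsto (fun y => (F.e i y, famP.e b (P1.mk (D.x a y) (D.f0 y)))) l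
      (𝓝 (F.e i z, τ0)) := hez.prodMk_nhds hτ
  have hf1 : Tendsto (fun y => C.fc i b (F.e i y, famP.e b (P1.mk (D.x a y) (D.f0 y)))) l
      (𝓝 (C.fc i b (F.e i z, τ0))) := (C.fc_diff hi b τ0).continuousAt.tendsto.comp hpr
  have hg1 : Tendsto (fun y => C.gc i b (F.e i y, famP.e b (P1.mk (D.x a y) (D.f0 y)))) l
      (𝓝 (C.gc i b (F.e i z, τ0))) := (C.gc_diff hi b τ0).continuousAt.tendsto.comp hpr
  have ef0 : C.f z t.n t.d = m ^ C.e * C.fc i b (F.e i z, τ0) := by
    rw [hm1, hm2, C.f_hom]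
    simp only [Loc.fc, (F.e i).left_inv hi]
    rfl
  have eg0 : C.g z t.n t.d = m ^ C.e * C.gc i b (F.e i z, τ0) := by
    rw [hm1, hm2, C.g_hom]
    simp only [Loc.gc, (F.e i).left_inv hi]
    rfl
  have hme : m ^ C.e ≠ 0 := pow_ne_zero _ hm
  have hne' : ¬ (C.fc i b (F.e i z, τ0) = 0 ∧ C.gc i b (F.e i z, τ0) = 0) := by
    rintro ⟨h1, h2⟩
    exact hne ⟨by rw [ef0, h1, mul_zero], by rw [eg0, h2, mul_zero]⟩
  have hsq : P1.sq k = P1.mk (C.fc i b (F.e i z, τ0)) (C.gc i b (F.e i z, τ0)) := by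
    have h1 := ((C.iff z C.mem t k).1 hY).2
    rw [ef0, eg0] at h1
    refine (P1.sq_iff hne' k).1 (mul_left_cancel₀ hme ?_)
    linear_combination h1
  have hmk := P1.tendsto_mk hf1 hg1 hne'
  rw [← hsq] at hmk
  have hev : ∀ᶠ y in l, ¬ (D.P a y = 0 ∧ D.Q a y = 0) ∧
      P1.mk (C.fc i b (F.e i y, famP.e b (P1.mk (D.x a y) (D.f0 y))))
        (C.gc i b (F.e i y, famP.e b (P1.mk (D.x a y) (D.f0 y)))) =
      P1.mk (D.P a y) (D.Q a y) := by
    have g1 : ∀ᶠ y in l, y ∈ C.U := hl (C.U_open.mem_nhds C.mem)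
    have g2 : ∀ᶠ y in l, P1.mk (D.x a y) (D.f0 y) ∈ (famP.e b).source :=
      ht.eventually ((famP.e b).open_source.mem_nhds hts)
    have g3 : ∀ᶠ y in l, y ∈ (F.e i).source := hl ((F.e i).open_source.mem_nhds hi)
    have g4 : ∀ᶠ y in l, ¬ (C.fc i b (F.e i y, famP.e b (P1.mk (D.x a y) (D.f0 y))) = 0 ∧
        C.gc i b (F.e i y, famP.e b (P1.mk (D.x a y) (D.f0 y))) = 0) := by
      by_cases h0 : C.fc i b (F.e i z, τ0) = 0
      · have h1 : C.gc i b (F.e i z, τ0) ≠ 0 := fun h => hne' ⟨h0, h⟩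
        filter_upwards [hg1.eventually_ne h1] with y hy h2 using hy h2.2
      · filter_upwards [hf1.eventually_ne h0] with y hy h2 using hy h2.1
    filter_upwards [g1, g2, g3, g4, hreg] with y hyU hyt hyi hyn hyr
    set ty : P1 := P1.mk (D.x a y) (D.f0 y) with hty
    set fy := C.fc i b (F.e i y, famP.e b ty) with hfy
    set gy := C.gc i b (F.e i y, famP.e b ty) with hgy
    have hrel : D.x a y * ty.d = D.f0 y * ty.n :=
      (P1.rel_iff (fun h => hyr ⟨h.2, h.1⟩) ty).2 rfl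
    obtain ⟨r, hr, hr1, hr2⟩ := hnd hyt
    have ef : C.f y ty.n ty.d = r ^ C.e * fy := by
      rw [hr1, hr2, C.f_hom, hfy]
      simp only [Loc.fc, (F.e i).left_inv hyi]
    have eg : C.g y ty.n ty.d = r ^ C.e * gy := by
      rw [hr1, hr2, C.g_hom, hgy]
      simp only [Loc.gc, (F.e i).left_inv hyi]
    have hre : r ^ C.e ≠ 0 := pow_ne_zero _ hr
    have hall : ∀ k' : P1, k'.n ^ 2 * D.Q a y = k'.d ^ 2 * D.P a y ↔
        k'.n ^ 2 * gy = k'.d ^ 2 * fy := by
      intro k'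
      have h1 := C.iff y hyU ty k'
      rw [D.mem_Y_reg hyr ty k'] at h1
      have h2 : k'.n ^ 2 * D.Q a y = k'.d ^ 2 * D.P a y ↔
          k'.n ^ 2 * C.g y ty.n ty.d = k'.d ^ 2 * C.f y ty.n ty.d :=
        ⟨fun h => (h1.1 ⟨hrel, h⟩).2, fun h => (h1.2 ⟨hrel, h⟩).2⟩
      rw [h2, ef, eg]
      constructor
      · intro h
        apply mul_left_cancel₀ hre
        linear_combination h
      · intro h
        linear_combination r ^ C.e * h
    have hPQ : ¬ (D.P a y = 0 ∧ D.Q a y = 0) := by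
      rintro ⟨h1, h2⟩
      have h3 := (hall OnePoint.infty).1 (by rw [h1, h2]; ring)
      have h4 := (hall ((0 : ℂ) : P1)).1 (by rw [h1, h2]; ring)
      simp only [P1.n_infty, P1.d_infty] at h3
      simp only [P1.n_coe, P1.d_coe] at h4
      exact hyn ⟨by linear_combination -h4, by linear_combination h3⟩
    refine ⟨hPQ, ?_⟩
    obtain ⟨k', hk'⟩ := P1.exists_sq (P1.mk fy gy)
    rw [← hk']
    exact (P1.sq_iff hPQ k').1 ((hall k').2 ((P1.sq_iff hyn k').2 hk'))
  exact ⟨hev.mono fun y hy => hy.1, hmk.congr' (hev.mono fun y hy => hy.2)⟩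

/-- convergence of `[P : Q]` where `(P, Q) ≠ (0, 0)` -/
theorem mk_PQ_tendsto_reg {a : Fin 2} {z : N} {t k : P1} (hY : (z, t, k) ∈ D.Y a)
    (hr : ¬ (D.f0 z = 0 ∧ D.x a z = 0)) (hne : ¬ (D.P a z = 0 ∧ D.Q a z = 0)) {l : Filter N}
    (hl : l ≤ 𝓝 z) : (∀ᶠ y in l, ¬ (D.P a y = 0 ∧ D.Q a y = 0)) ∧
      Tendsto (fun y => P1.mk (D.P a y) (D.Q a y)) l (𝓝 (P1.sq k)) := by
  have h1 := ((D.mem_Y_reg hr t k).1 hY).2
  rw [(P1.sq_iff hne k).1 h1]
  have hP : Tendsto (D.P a) l (𝓝 (D.P a z)) := (D.continuous_P a).continuousAt.tendsto.mono_left hl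
  have hQ : Tendsto (D.Q a) l (𝓝 (D.Q a z)) := (D.continuous_Q a).continuousAt.tendsto.mono_left hl
  refine ⟨?_, P1.tendsto_mk hP hQ hne⟩
  by_cases h0 : D.P a z = 0
  · have h1 : D.Q a z ≠ 0 := fun h => hne ⟨h0, h⟩
    filter_upwards [hQ.eventually_ne h1] with y hy h2 using hy h2.2
  · filter_upwards [hP.eventually_ne h0] with y hy h2 using hy h2.1

/-- the local equation of a flat colour is never `0 = 0` -/
theorem Loc.OK.ne_flat {a : Fin 2} {z : N} {C : Loc D a z} (h : C.OK) (h0 : D.f0 z = 0)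
    (hx : D.x a z = 0) (t : P1) : ¬ (C.f z t.n t.d = 0 ∧ C.g z t.n t.d = 0) := by
  induction t using OnePoint.rec with
  | infty => exact fun h1 => (h.flat_inf h0 hx).1 h1.1
  | coe c => exact fun h1 => (h.flat_f h0 hx c h1.1).1 h1.2

/-! ### approximation by the graph -/

/-- approximation data -/
def Appr (D : GData F) (z : N) (t : Fin 2 → P1) (v : P1) (k : Fin 2 → P1) : Prop :=
  ∃ l : Filter N, l.NeBot ∧ l ≤ 𝓝 z ∧ (∀ᶠ y in l, ∀ a, ¬ (D.f0 y = 0 ∧ D.x a y = 0)) ∧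
    (∀ a, Tendsto (fun y => P1.mk (D.x a y) (D.f0 y)) l (𝓝 (t a))) ∧
    Tendsto (fun y => P1.mk (D.x 0 y * D.x 1 y) (D.f0 y)) l (𝓝 v) ∧
    ∀ a, (∀ᶠ y in l, ¬ (D.P a y = 0 ∧ D.Q a y = 0)) ∧
      Tendsto (fun y => P1.mk (D.P a y) (D.Q a y)) l (𝓝 (P1.sq (k a)))

theorem relE_mk (D : GData F) {y : N} (hr : ∀ a, ¬ (D.f0 y = 0 ∧ D.x a y = 0)) (t : Fin 2 → P1)
    (v : P1) : RelE D y (fun a => (t a).n) (fun a => (t a).d) v.n v.d ↔
      (∀ a, t a = P1.mk (D.x a y) (D.f0 y)) ∧ v = P1.mk (D.x 0 y * D.x 1 y) (D.f0 y) := by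
  have hr' : ∀ a, ¬ (D.x a y = 0 ∧ D.f0 y = 0) := fun a h => hr a ⟨h.2, h.1⟩
  have hv' : ¬ (D.x 0 y * D.x 1 y = 0 ∧ D.f0 y = 0) := by
    rintro ⟨h1, h2⟩
    rcases mul_eq_zero.1 h1 with h3 | h3
    · exact hr 0 ⟨h2, h3⟩
    · exact hr 1 ⟨h2, h3⟩
  unfold RelE
  rw [← P1.rel_iff hv' v]
  beta_reduce
  constructor
  · rintro ⟨h1, h2, h3⟩
    refine ⟨fun a => (P1.rel_iff (hr' a) (t a)).1 (h1 a), ?_⟩
    obtain ⟨l, hl, e1, e2⟩ := nd302.prop (t := t 0) (f := D.f0 y) (x := D.x 0 y)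
      (by have := hr' 0; tauto) (h1 0)
    rw [e1, e2] at h2
    apply mul_left_cancel₀ hl
    linear_combination -h2
  · rintro ⟨h1, h2⟩
    have h3 : ∀ a, D.x a y * (t a).d = D.f0 y * (t a).n :=
      fun a => (P1.rel_iff (hr' a) (t a)).2 (h1 a)
    refine ⟨h3, ?_, ?_⟩
    · obtain ⟨l, hl, e1, e2⟩ := nd302.prop (t := t 0) (f := D.f0 y) (x := D.x 0 y)
        (by have := hr' 0; tauto) (h3 0)
      rw [e1, e2]
      linear_combination -l * h2
    · obtain ⟨l, hl, e1, e2⟩ := nd302.prop (t := t 1) (f := D.f0 y) (x := D.x 1 y)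
        (by have := hr' 1; tauto) (h3 1)
      rw [e1, e2]
      linear_combination -l * h2

/-- over regular points of the base with `(P, Q) ≠ (0, 0)` -/
theorem mem_X1_reg (D : GData F) {y : N} (hr : ∀ a, ¬ (D.f0 y = 0 ∧ D.x a y = 0))
    (hP : ∀ a, ¬ (D.P a y = 0 ∧ D.Q a y = 0)) (t : Fin 2 → P1) (v : P1) (k : Fin 2 → P1) :
    ((y, t, v, k) : GData.Amb N) ∈ D.X1 ↔ (∀ a, t a = P1.mk (D.x a y) (D.f0 y)) ∧
      v = P1.mk (D.x 0 y * D.x 1 y) (D.f0 y) ∧ ∀ a, P1.sq (k a) = P1.mk (D.P a y) (D.Q a y) := by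
  have h1 := mem_X1_loc D (q := y) (fun a => Loc.reg D a y (hr a)) (y := (y, t, v, k))
    (fun a => (Loc.reg D a y (hr a)).mem)
  rw [h1]
  have h2 := relE_mk D hr t v
  rw [← and_assoc, ← h2]
  refine and_congr Iff.rfl (forall_congr' fun a => ?_)
  exact P1.sq_iff (hP a) (k a)

/-- limits at `0` of the curves used below -/
theorem tendsto_inv_eps : Tendsto (fun ε : ℂ => P1.mk 1 ε) (𝓝[≠] 0) (𝓝 OnePoint.infty) := by
  have h1 : Tendsto (fun ε : ℂ => P1.mk 1 ε) (𝓝 0) (𝓝 (P1.mk 1 0)) :=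
    P1.tendsto_mk tendsto_const_nhds tendsto_id (by simp)
  rw [P1.mk_zero] at h1
  exact h1.mono_left nhdsWithin_le_nhds

theorem tendsto_coe_poly {f : ℂ → ℂ} (hf : Continuous f) {c : ℂ} (h0 : f 0 = c) :
    Tendsto (fun ε : ℂ => P1.mk (f ε) 1) (𝓝[≠] 0) (𝓝 (c : P1)) := by
  have h1 : Tendsto (fun ε : ℂ => P1.mk (f ε) 1) (𝓝 0) (𝓝 (P1.mk (f 0) 1)) :=
    P1.tendsto_mk (hf.tendsto 0) tendsto_const_nhds (by simp)
  rw [h0, P1.mk_of_ne one_ne_zero, div_one] at h1
  exact h1.mono_left nhdsWithin_le_nhds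

/-- curves in `ℂ³` for cluster points -/
theorem exists_curve3 (t0 t1 v : P1) (h1 : v.n * t0.d = 0) (h2 : v.n * t1.d = 0) :
    ∃ w : ℂ → Fin 3 → ℂ, Tendsto w (𝓝[≠] 0) (𝓝 0) ∧
      (∀ᶠ ε in 𝓝[≠] (0 : ℂ), w ε 0 ≠ 0) ∧
      Tendsto (fun ε => P1.mk (w ε 1) (w ε 0)) (𝓝[≠] 0) (𝓝 t0) ∧
      Tendsto (fun ε => P1.mk (w ε 2) (w ε 0)) (𝓝[≠] 0) (𝓝 t1) ∧
      Tendsto (fun ε => P1.mk (w ε 1 * w ε 2) (w ε 0)) (𝓝[≠] 0) (𝓝 v) := by
  have hne : ∀ᶠ ε in 𝓝[≠] (0 : ℂ), ε ≠ 0 := self_mem_nhdsWithin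
  have h0 : ∀ {f g h : ℂ → ℂ}, Continuous f → Continuous g → Continuous h → f 0 = 0 → g 0 = 0 →
      h 0 = 0 → Tendsto (fun ε => (![f ε, g ε, h ε] : Fin 3 → ℂ)) (𝓝[≠] 0) (𝓝 0) := by
    intro f g h hf hg hh e1 e2 e3
    rw [tendsto_pi_nhds]
    intro j
    have := (hf.tendsto 0).mono_left (nhdsWithin_le_nhds (s := {0}ᶜ))
    have := (hg.tendsto 0).mono_left (nhdsWithin_le_nhds (s := {0}ᶜ))
    have := (hh.tendsto 0).mono_left (nhdsWithin_le_nhds (s := {0}ᶜ))
    fin_cases j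
    · simpa [e1] using (hf.tendsto 0).mono_left (nhdsWithin_le_nhds (s := {0}ᶜ))
    · simpa [e2] using (hg.tendsto 0).mono_left (nhdsWithin_le_nhds (s := {0}ᶜ))
    · simpa [e3] using (hh.tendsto 0).mono_left (nhdsWithin_le_nhds (s := {0}ᶜ))
  induction t0 using OnePoint.rec with
  | coe c0 =>
    have hv : v = ((0 : ℂ) : P1) := by
      simp only [P1.d_coe, mul_one] at h1
      induction v using OnePoint.rec with
      | infty => simp at h1
      | coe c => simp only [P1.n_coe] at h1; rw [h1]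
    subst hv
    induction t1 using OnePoint.rec with
    | coe c1 =>
      refine ⟨fun ε => ![ε, c0 * ε, c1 * ε], h0 (by fun_prop) (by fun_prop) (by fun_prop) rfl
        (by simp) (by simp), ?_, ?_, ?_, ?_⟩
      · filter_upwards [hne] with ε hε using hε
      · refine (tendsto_coe_poly (f := fun _ => c0) continuous_const rfl).congr' ?_
        filter_upwards [hne] with ε hε
        show P1.mk c0 1 = P1.mk (c0 * ε) ε
        rw [← P1.mk_smul hε c0 1, mul_one, mul_comm]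
      · refine (tendsto_coe_poly (f := fun _ => c1) continuous_const rfl).congr' ?_
        filter_upwards [hne] with ε hε
        show P1.mk c1 1 = P1.mk (c1 * ε) ε
        rw [← P1.mk_smul hε c1 1, mul_one, mul_comm]
      · refine (tendsto_coe_poly (f := fun ε => c0 * c1 * ε) (by fun_prop) (by simp)).congr' ?_
        filter_upwards [hne] with ε hε
        show P1.mk (c0 * c1 * ε) 1 = P1.mk (c0 * ε * (c1 * ε)) ε
        rw [← P1.mk_smul hε (c0 * c1 * ε) 1, mul_one]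
        congr 1
        ring
    | infty =>
      refine ⟨fun ε => ![ε ^ 2, c0 * ε ^ 2, ε], h0 (by fun_prop) (by fun_prop) (by fun_prop)
        (by simp) (by simp) rfl, ?_, ?_, ?_, ?_⟩
      · filter_upwards [hne] with ε hε using pow_ne_zero 2 hε
      · refine (tendsto_coe_poly (f := fun _ => c0) continuous_const rfl).congr' ?_
        filter_upwards [hne] with ε hε
        show P1.mk c0 1 = P1.mk (c0 * ε ^ 2) (ε ^ 2)
        rw [← P1.mk_smul (pow_ne_zero 2 hε) c0 1, mul_one, mul_comm]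
      · refine tendsto_inv_eps.congr' ?_
        filter_upwards [hne] with ε hε
        show P1.mk 1 ε = P1.mk ε (ε ^ 2)
        rw [← P1.mk_smul hε 1 ε, mul_one, sq]
      · refine (tendsto_coe_poly (f := fun ε => c0 * ε) (by fun_prop) (by simp)).congr' ?_
        filter_upwards [hne] with ε hε
        show P1.mk (c0 * ε) 1 = P1.mk (c0 * ε ^ 2 * ε) (ε ^ 2)
        rw [← P1.mk_smul (pow_ne_zero 2 hε) (c0 * ε) 1, mul_one]
        congr 1
        ring
  | infty =>
    induction t1 using OnePoint.rec with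
    | coe c1 =>
      have hv : v = ((0 : ℂ) : P1) := by
        simp only [P1.d_coe, mul_one] at h2
        induction v using OnePoint.rec with
        | infty => simp at h2
        | coe c => simp only [P1.n_coe] at h2; rw [h2]
      subst hv
      refine ⟨fun ε => ![ε ^ 2, ε, c1 * ε ^ 2], h0 (by fun_prop) (by fun_prop) (by fun_prop)
        (by simp) rfl (by simp), ?_, ?_, ?_, ?_⟩
      · filter_upwards [hne] with ε hε using pow_ne_zero 2 hε
      · refine tendsto_inv_eps.congr' ?_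
        filter_upwards [hne] with ε hε
        show P1.mk 1 ε = P1.mk ε (ε ^ 2)
        rw [← P1.mk_smul hε 1 ε, mul_one, sq]
      · refine (tendsto_coe_poly (f := fun _ => c1) continuous_const rfl).congr' ?_
        filter_upwards [hne] with ε hε
        show P1.mk c1 1 = P1.mk (c1 * ε ^ 2) (ε ^ 2)
        rw [← P1.mk_smul (pow_ne_zero 2 hε) c1 1, mul_one, mul_comm]
      · refine (tendsto_coe_poly (f := fun ε => c1 * ε) (by fun_prop) (by simp)).congr' ?_
        filter_upwards [hne] with ε hε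
        show P1.mk (c1 * ε) 1 = P1.mk (ε * (c1 * ε ^ 2)) (ε ^ 2)
        rw [← P1.mk_smul (pow_ne_zero 2 hε) (c1 * ε) 1, mul_one]
        congr 1
        ring
    | infty =>
      induction v using OnePoint.rec with
      | coe c =>
        have hc : ∀ᶠ ε in 𝓝[≠] (0 : ℂ), c + ε ≠ 0 := by
          by_cases h : c = 0
          · filter_upwards [hne] with ε hε
            rw [h, zero_add]; exact hε
          · have h3 : Tendsto (fun ε : ℂ => c + ε) (𝓝[≠] 0) (𝓝 c) := by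
              have : Tendsto (fun e : ℂ => c + e) (𝓝 0) (𝓝 (c + 0)) :=
                (continuous_const.add continuous_id).tendsto 0
              rw [add_zero] at this
              exact this.mono_left nhdsWithin_le_nhds
            exact h3.eventually_ne h
        refine ⟨fun ε => ![(c + ε) * ε ^ 2, (c + ε) * ε, (c + ε) * ε],
          h0 (by fun_prop) (by fun_prop) (by fun_prop) (by simp) (by simp) (by simp),
          ?_, ?_, ?_, ?_⟩
        · filter_upwards [hne, hc] with ε hε hcε using mul_ne_zero hcε (pow_ne_zero 2 hε)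
        · refine tendsto_inv_eps.congr' ?_
          filter_upwards [hne, hc] with ε hε hcε
          show P1.mk 1 ε = P1.mk ((c + ε) * ε) ((c + ε) * ε ^ 2)
          rw [← P1.mk_smul (mul_ne_zero hcε hε) 1 ε]
          congr 1 <;> ring
        · refine tendsto_inv_eps.congr' ?_
          filter_upwards [hne, hc] with ε hε hcε
          show P1.mk 1 ε = P1.mk ((c + ε) * ε) ((c + ε) * ε ^ 2)
          rw [← P1.mk_smul (mul_ne_zero hcε hε) 1 ε]
          congr 1 <;> ring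
        · refine (tendsto_coe_poly (f := fun ε => c + ε) (by fun_prop) (by simp)).congr' ?_
          filter_upwards [hne, hc] with ε hε hcε
          show P1.mk (c + ε) 1 = P1.mk ((c + ε) * ε * ((c + ε) * ε)) ((c + ε) * ε ^ 2)
          rw [← P1.mk_smul (mul_ne_zero hcε (pow_ne_zero 2 hε)) (c + ε) 1]
          congr 1 <;> ring
      | infty =>
        have hinf2 : Tendsto (fun ε : ℂ => P1.mk 1 (ε ^ 2)) (𝓝[≠] 0) (𝓝 OnePoint.infty) := by
          have h3 : Tendsto (fun ε : ℂ => P1.mk 1 (ε ^ 2)) (𝓝 0) (𝓝 (P1.mk 1 0)) := by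
            have h4 : Tendsto (fun ε : ℂ => ε ^ 2) (𝓝 0) (𝓝 0) := by
              have := (continuous_pow 2 : Continuous fun ε : ℂ => ε ^ 2).tendsto 0
              simpa using this
            exact P1.tendsto_mk tendsto_const_nhds h4 (by simp)
          rw [P1.mk_zero] at h3
          exact h3.mono_left nhdsWithin_le_nhds
        refine ⟨fun ε => ![ε ^ 3, ε, ε], h0 (by fun_prop) (by fun_prop) (by fun_prop)
          (by simp) rfl rfl, ?_, ?_, ?_, ?_⟩
        · filter_upwards [hne] with ε hε using pow_ne_zero 3 hε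
        · refine hinf2.congr' ?_
          filter_upwards [hne] with ε hε
          show P1.mk 1 (ε ^ 2) = P1.mk ε (ε ^ 3)
          rw [← P1.mk_smul hε 1 (ε ^ 2)]
          congr 1 <;> ring
        · refine hinf2.congr' ?_
          filter_upwards [hne] with ε hε
          show P1.mk 1 (ε ^ 2) = P1.mk ε (ε ^ 3)
          rw [← P1.mk_smul hε 1 (ε ^ 2)]
          congr 1 <;> ring
        · refine tendsto_inv_eps.congr' ?_
          filter_upwards [hne] with ε hε
          show P1.mk 1 ε = P1.mk (ε * ε) (ε ^ 3)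
          rw [← P1.mk_smul (pow_ne_zero 2 hε) 1 ε]
          congr 1 <;> ring

end

end Crest.Agent.R272.Gr_559
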