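import Crest.Agent.R272.GrEq_54
import Crest.Agent.R272.Flat1_302

/-!
# R272 (S0415), MOD-GRAPH (helper54): the local equations of `X1` at a flat

* `exists_flatD` : a `Pen` with independent `ds0, ds1` gives 302's `FlatD` on a neighbourhood;
* `mem_Y_pen`, `mem_Y_reg` : `Y i` over such a neighbourhood, resp. off the flats;
* `LA, LB`, `diffAt_Kf`, `Kf_nondeg`, `Kf_nondeg_inf`: the `K`-equation and its derivatives.
-/

set_option autoImplicit false
set_option linter.unusedSectionVars false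

open Set Filter Topology Complex

namespace Crest.Agent.R272.GrFr_54

open Crest.Agent.R275.Geo Crest.Agent.R273.Fam_835 Crest.Agent.R272.FamP_54
  Crest.Agent.R272.SubF_54 Crest.Agent.R272.Lev_54 Crest.Agent.R272.P1A_54
  Crest.Agent.R272.Flat1_302 Crest.Agent.R272.Quot_783 Crest.Agent.R272.Gr_559
open Crest.Agent.R272.P1F_54 (nn ps pc ln ld pinv pch p1Fam lift_rel isOpen_ps differentiable_ln
  differentiable_ld lnd_ne)

noncomputable section

theorem nd559 : ND P1.n P1.d := ⟨fun _ => rfl, rfl, fun _ => rfl, rfl⟩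

variable {N : ℕ} {X : Type} [TopologicalSpace X] {F : Fam N X}

section flat

variable {f0 x P Q : X → ℂ} {q : X}

theorem holF_contOn {U : Set X} (hU : IsOpen U) {f : X → ℂ} (hf : HolF F U f) :
    ContinuousOn f U := ((holF_iff hU).1 hf).continuousOn

/-- read in a chart -/
def rd (F : Fam N X) (i : F.ι) (f : X → ℂ) (y : Cn N) : ℂ := f ((F.e i).symm y)

theorem rd_diffAt {U : Set X} (hU : IsOpen U) {f : X → ℂ} (hf : HolF F U f) {i : F.ι}
    {z : X} (hz : z ∈ U) (hi : z ∈ (F.e i).source) : DifferentiableAt ℂ (rd F i f) (F.e i z) :=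
  HolF.diffAt hU hf hi hz

theorem rd_diffAt' {U : Set X} (hU : IsOpen U) {f : X → ℂ} (hf : HolF F U f) {i : F.ι}
    {y : Cn N} (hy : y ∈ (F.e i).target) (hyU : (F.e i).symm y ∈ U) :
    DifferentiableAt ℂ (rd F i f) y := by
  have h := rd_diffAt hU hf hyU ((F.e i).map_target hy)
  rwa [(F.e i).right_inv hy] at h

/-- `(s0, s1)` is open near a point where its differential is onto -/
theorem exists_open {s0 s1 : X → ℂ} {U : Set X} (hU : IsOpen U) (hq : q ∈ U)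
    (h0 : HolF F U s0) (h1 : HolF F U s1) (hN : N = 1 + 2) {i : F.ι}
    (hi : q ∈ (F.e i).source)
    (hs : ∀ w0 w1 : ℂ, ∃ v, Gr_559.dd F i s0 q v = w0 ∧ Gr_559.dd F i s1 q v = w1) :
    ∃ V : Set X, IsOpen V ∧ q ∈ V ∧ V ⊆ U ∧
      ∀ z ∈ V, 𝓝 (s0 z, s1 z) ≤ map (fun y => (s0 y, s1 y)) (𝓝 z) := by
  subst hN
  set W : Set (Cn (1 + 2)) := (F.e i).target ∩ (F.e i).symm ⁻¹' U with hWdef
  have hW : IsOpen W := (F.e i).isOpen_inter_preimage_symm hU
  have hqW : F.e i q ∈ W := ⟨(F.e i).map_source hi, by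
    rw [mem_preimage, (F.e i).left_inv hi]; exact hq⟩
  let Φ : Cn (1 + 2) → ℂ × ℂ := fun y => (rd F i s0 y, rd F i s1 y)
  have hd0 : ∀ y ∈ W, DifferentiableAt ℂ (rd F i s0) y := fun y hy => rd_diffAt' hU h0 hy.1 hy.2
  have hd1 : ∀ y ∈ W, DifferentiableAt ℂ (rd F i s1) y := fun y hy => rd_diffAt' hU h1 hy.1 hy.2
  have hΦ : DifferentiableOn ℂ Φ W := fun y hy =>
    ((hd0 y hy).prodMk (hd1 y hy)).differentiableWithinAt
  have hsur : Function.Surjective (fderiv ℂ Φ (F.e i q)) := by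
    rintro ⟨w0, w1⟩
    obtain ⟨v, hv0, hv1⟩ := hs w0 w1
    refine ⟨v, ?_⟩
    have h2 : fderiv ℂ Φ (F.e i q) =
        (fderiv ℂ (rd F i s0) (F.e i q)).prod (fderiv ℂ (rd F i s1) (F.e i q)) :=
      DifferentiableAt.fderiv_prodMk (hd0 _ hqW) (hd1 _ hqW)
    rw [h2]
    exact Prod.ext hv0 hv1
  obtain ⟨χ, c1, c2, c3, -, -⟩ := DCov_426.straighten (V := Cn 1) hW hΦ hqW hsur (by simp)
  refine ⟨(F.e i).source ∩ (F.e i) ⁻¹' χ.source, (F.e i).isOpen_inter_preimage χ.open_source,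
    ⟨hi, c1⟩, ?_, ?_⟩
  · rintro z ⟨hz1, hz2⟩
    have h3 := (c2 hz2).2
    rw [mem_preimage, (F.e i).left_inv hz1] at h3
    exact h3
  · rintro z ⟨hz1, hz2⟩
    have h4 : map (F.e i) (𝓝 z) = 𝓝 (F.e i z) := (F.e i).map_nhds_eq hz1
    have h5 : map χ (𝓝 (F.e i z)) = 𝓝 (χ (F.e i z)) := χ.map_nhds_eq hz2
    have h6 : map (fun y => (χ (F.e i y)).2) (𝓝 z) = 𝓝 (χ (F.e i z)).2 := by
      have h7 : map (fun y => (χ (F.e i y)).2) (𝓝 z) =
          map Prod.snd (map χ (map (F.e i) (𝓝 z))) := by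
        rw [map_map, map_map]; rfl
      rw [h7, h4, h5, map_snd_nhds]
    have h8 : (χ (F.e i z)).2 = (s0 z, s1 z) := by
      rw [c3]
      show (s0 ((F.e i).symm (F.e i z)), s1 ((F.e i).symm (F.e i z))) = _
      rw [(F.e i).left_inv hz1]
    rw [← h8, ← h6]
    refine le_of_eq (Filter.map_congr ?_)
    filter_upwards [(F.e i).open_source.mem_nhds hz1] with y hy
    rw [c3]
    show (s0 ((F.e i).symm (F.e i y)), s1 ((F.e i).symm (F.e i y))) = _
    rw [(F.e i).left_inv hy]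

/-- 302's data from a `Pen` -/
theorem exists_flatD (pe : Pen F f0 x P Q q) (hN : N = 1 + 2) {i : F.ι}
    (hi : q ∈ (F.e i).source)
    (hs : ∀ w0 w1 : ℂ, ∃ v, Gr_559.dd F i pe.s0 q v = w0 ∧ Gr_559.dd F i pe.s1 q v = w1) :
    ∃ V : Set X, IsOpen V ∧ q ∈ V ∧ V ⊆ pe.U ∧
      FlatD V pe.c pe.s0 pe.s1 pe.a pe.b pe.u pe.w f0 x P Q := by
  obtain ⟨V, hV, hqV, hVU, hop⟩ := exists_open pe.U_open pe.mem pe.s0_hol pe.s1_hol hN hi hs
  have c0 := holF_contOn pe.U_open pe.s0_hol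
  have c1 := holF_contOn pe.U_open pe.s1_hol
  have ca := holF_contOn pe.U_open pe.a_hol
  have cb := holF_contOn pe.U_open pe.b_hol
  refine ⟨V, hV, hqV, hVU, ⟨ca.mono hVU, cb.mono hVU,
    (holF_contOn pe.U_open pe.u_hol).mono hVU, (holF_contOn pe.U_open pe.w_hol).mono hVU,
    ?_, ?_, fun z hz => pe.a_ne z (hVU hz), fun z hz => pe.b_ne z (hVU hz),
    fun z hz => pe.u_ne z (hVU hz), fun z hz => pe.w_ne z (hVU hz),
    fun z hz => pe.ef z (hVU hz), fun z hz => pe.ex z (hVU hz),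
    fun z hz => pe.eP z (hVU hz), fun z hz => pe.eQ z (hVU hz), hop⟩⟩
  · exact (((ca.mul c0).congr fun z hz => pe.ef z hz)).mono hVU
  · exact ((cb.mul (c1.sub (continuousOn_const.mul c0))).congr fun z hz => pe.ex z hz).mono hVU

end flat

/-! ### `Y i` -/

section Y

variable {F : Fam 3 X} (D : GData F)

theorem G_eq (c : Fin 2) : D.G c = Gr P1.n P1.d D.f0 (D.x c) (D.P c) (D.Q c) := by
  ext p
  simp only [GData.G, Gr, mem_ofPred_eq]
  refine and_congr ?_ Iff.rfl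
  tauto

/-- `Y c` over a neighbourhood of a point of a flat -/
theorem mem_Y_pen {c : Fin 2} {q : X} {pe : Pen F D.f0 (D.x c) (D.P c) (D.Q c) q} {V : Set X}
    (hV : IsOpen V) (H : FlatD V pe.c pe.s0 pe.s1 pe.a pe.b pe.u pe.w D.f0 (D.x c) (D.P c)
      (D.Q c)) {z : X} (hz : z ∈ V) (t k : P1) :
    (z, t, k) ∈ D.Y c ↔ (z, t, k) ∈ Ex P1.n P1.d pe.c pe.a pe.b pe.u pe.w D.f0 (D.x c) := by
  rw [GData.Y, G_eq]
  exact mem_closure_iff_Ex nd559 H hV hz

/-- `Y c` off the flats -/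
theorem mem_Y_reg {c : Fin 2} {z : X} (hz : ¬ (D.f0 z = 0 ∧ D.x c z = 0)) (t k : P1) :
    (z, t, k) ∈ D.Y c ↔ D.x c z * t.d = D.f0 z * t.n ∧
      k.n ^ 2 * D.Q c z = k.d ^ 2 * D.P c z := by
  have hc : ∀ {f : X → ℂ}, HolF F univ f → ContinuousAt f z := fun hf =>
    (holF_contOn isOpen_univ hf).continuousAt univ_mem
  have h1 : D.f0 z ≠ 0 ∨ D.x c z ≠ 0 := by tauto
  rw [GData.Y, G_eq, mem_closure_iff_Gr nd559 h1 (hc D.f0_hol) (hc (D.x_hol c)) (hc (D.P_hol c))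
    (hc (D.Q_hol c))]
  simp only [Gr, mem_ofPred_eq, h1, true_and]

end Y

/-! ### the `K`-equation at a flat -/

section K

/-- linear form `L` -/
def LL (c5 cj a b : ℂ) (n d : ℂ) : ℂ := n / b + (c5 - cj) * (d / a)

/-- `A = w L3 L4 L5` -/
def KA (c : Fin 6 → ℂ) (a b w : Cn N → ℂ) (y : Cn N) (n d : ℂ) : ℂ :=
  w y * (LL (c 5) (c 3) (a y) (b y) n d * LL (c 5) (c 4) (a y) (b y) n d *
    LL (c 5) (c 5) (a y) (b y) n d)

/-- `B = u L0 L1 L2` -/
def KB (c : Fin 6 → ℂ) (a b u : Cn N → ℂ) (y : Cn N) (n d : ℂ) : ℂ :=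
  u y * (LL (c 5) (c 0) (a y) (b y) n d * LL (c 5) (c 1) (a y) (b y) n d *
    LL (c 5) (c 2) (a y) (b y) n d)

theorem LL_eq {c5 cj ck a b n d : ℂ} (ha : a ≠ 0) (hb : b ≠ 0) (hnd : n ≠ 0 ∨ d ≠ 0)
    (hjk : cj ≠ ck) : ¬ (LL c5 cj a b n d = 0 ∧ LL c5 ck a b n d = 0) := by
  rintro ⟨h1, h2⟩
  have h3 : (cj - ck) * (d / a) = 0 := by
    unfold LL at h1 h2
    linear_combination h2 - h1
  have h4 : d = 0 := by
    have h5 := (mul_eq_zero.1 h3).resolve_left (sub_ne_zero.2 hjk)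
    rcases div_eq_zero_iff.1 h5 with h | h
    · exact h
    · exact absurd h ha
  subst h4
  have h6 : n = 0 := by
    unfold LL at h1
    rw [zero_div, mul_zero, add_zero] at h1
    rcases div_eq_zero_iff.1 h1 with h | h
    · exact h
    · exact absurd h hb
  rcases hnd with h | h
  · exact h h6
  · exact h rfl

theorem LL_deriv (c5 cj a b : ℂ) (s : Bool) (τ : ℂ) :
    HasDerivAt (fun τ => LL c5 cj a b (ln s τ) (ld s τ))
      (ln' s / b + (c5 - cj) * (ld' s / a)) τ :=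
  ((hasDerivAt_ln s τ).div_const b).add (((hasDerivAt_ld s τ).div_const a).const_mul _)

theorem LL_deriv_ne {c5 cj a b : ℂ} (ha : a ≠ 0) (hb : b ≠ 0) {s : Bool} {τ : ℂ}
    (h : LL c5 cj a b (ln s τ) (ld s τ) = 0) : ln' s / b + (c5 - cj) * (ld' s / a) ≠ 0 := by
  cases s
  · simp [hb]
  · simp only [ln'_true, zero_div, ld'_true, zero_add]
    intro h1
    have h2 : c5 - cj = 0 := by
      rcases mul_eq_zero.1 h1 with h3 | h3
      · exact h3
      · exact absurd h3 (by simp [ha])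
    simp [LL, h2, hb] at h

theorem prod3_ne {x y z x' y' z' : ℂ} (h : x * y * z = 0) (hxy : ¬ (x = 0 ∧ y = 0))
    (hyz : ¬ (y = 0 ∧ z = 0)) (hxz : ¬ (x = 0 ∧ z = 0)) (hx : x = 0 → x' ≠ 0)
    (hy : y = 0 → y' ≠ 0) (hz : z = 0 → z' ≠ 0) : (x' * y + x * y') * z + x * y * z' ≠ 0 := by
  rcases mul_eq_zero.1 h with h | h
  · rcases mul_eq_zero.1 h with h | h
    · have hy0 : y ≠ 0 := fun h1 => hxy ⟨h, h1⟩
      have hz0 : z ≠ 0 := fun h1 => hxz ⟨h, h1⟩
      rw [h]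
      simpa using ⟨⟨hx h, hy0⟩, hz0⟩
    · have hx0 : x ≠ 0 := fun h1 => hxy ⟨h1, h⟩
      have hz0 : z ≠ 0 := fun h1 => hyz ⟨h, h1⟩
      rw [h]
      simpa using ⟨⟨hx0, hy h⟩, hz0⟩
  · have hx0 : x ≠ 0 := fun h1 => hxz ⟨h1, h⟩
    have hy0 : y ≠ 0 := fun h1 => hyz ⟨h1, h⟩
    rw [h]
    simpa using ⟨⟨hx0, hy0⟩, hz h⟩

variable {c : Fin 6 → ℂ} {a b u w : Cn N → ℂ} {s r : Bool} {v : Cn N × ℂ × ℂ}

theorem diffAt_LL (c5 cj : ℂ) (ha : DifferentiableAt ℂ a v.1) (hb : DifferentiableAt ℂ b v.1)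
    (ha0 : a v.1 ≠ 0) (hb0 : b v.1 ≠ 0) : DifferentiableAt ℂ (fun v : Cn N × ℂ × ℂ =>
      LL c5 cj (a v.1) (b v.1) (ln s v.2.1) (ld s v.2.1)) v := by
  have h1 : DifferentiableAt ℂ (fun v : Cn N × ℂ × ℂ => a v.1) v :=
    DifferentiableAt.comp v (g := a) ha differentiableAt_fst
  have h2 : DifferentiableAt ℂ (fun v : Cn N × ℂ × ℂ => b v.1) v :=
    DifferentiableAt.comp v (g := b) hb differentiableAt_fst
  have h3 : DifferentiableAt ℂ (fun v : Cn N × ℂ × ℂ => ln s v.2.1) v :=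
    DifferentiableAt.comp v (g := ln s) (differentiable_ln s).differentiableAt (by fun_prop)
  have h4 : DifferentiableAt ℂ (fun v : Cn N × ℂ × ℂ => ld s v.2.1) v :=
    DifferentiableAt.comp v (g := ld s) (differentiable_ld s).differentiableAt (by fun_prop)
  have h5 : DifferentiableAt ℂ (fun v : Cn N × ℂ × ℂ => ln s v.2.1 / b v.1) v :=
    by simp only [div_eq_mul_inv]; exact h3.mul (h2.fun_inv hb0)
  have h6 : DifferentiableAt ℂ (fun v : Cn N × ℂ × ℂ => ld s v.2.1 / a v.1) v :=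
    by simp only [div_eq_mul_inv]; exact h4.mul (h1.fun_inv ha0)
  exact h5.add (h6.const_mul _)

theorem diffAt_Kf (ha : DifferentiableAt ℂ a v.1) (hb : DifferentiableAt ℂ b v.1)
    (hu : DifferentiableAt ℂ u v.1) (hw : DifferentiableAt ℂ w v.1)
    (ha0 : a v.1 ≠ 0) (hb0 : b v.1 ≠ 0) :
    DifferentiableAt ℂ (Kf s r (KA c a b w) (KB c a b u)) v := by
  have hL := fun j => diffAt_LL (s := s) (c 5) (c j) ha hb ha0 hb0
  have h1 : DifferentiableAt ℂ (fun v : Cn N × ℂ × ℂ => u v.1) v :=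
    DifferentiableAt.comp v (g := u) hu differentiableAt_fst
  have h2 : DifferentiableAt ℂ (fun v : Cn N × ℂ × ℂ => w v.1) v :=
    DifferentiableAt.comp v (g := w) hw differentiableAt_fst
  have h3 : DifferentiableAt ℂ (fun v : Cn N × ℂ × ℂ => ln r v.2.2) v :=
    DifferentiableAt.comp v (g := ln r) (differentiable_ln r).differentiableAt (by fun_prop)
  have h4 : DifferentiableAt ℂ (fun v : Cn N × ℂ × ℂ => ld r v.2.2) v :=
    DifferentiableAt.comp v (g := ld r) (differentiable_ld r).differentiableAt (by fun_prop)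
  exact ((h3.pow 2).mul (h2.mul (((hL 3).mul (hL 4)).mul (hL 5)))).sub
    ((h4.pow 2).mul (h1.mul (((hL 0).mul (hL 1)).mul (hL 2))))

/-- the `K`-equation is a submersion in `(τ, κ)` -/
theorem Kf_nondeg (hc : Function.Injective c) (ha : DifferentiableAt ℂ a v.1)
    (hb : DifferentiableAt ℂ b v.1)
    (hu : DifferentiableAt ℂ u v.1) (hw : DifferentiableAt ℂ w v.1)
    (ha0 : a v.1 ≠ 0) (hb0 : b v.1 ≠ 0) (hu0 : u v.1 ≠ 0) (hw0 : w v.1 ≠ 0)
    (h0 : Kf s r (KA c a b w) (KB c a b u) v = 0) :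
    fderiv ℂ (Kf s r (KA c a b w) (KB c a b u)) v (0, 1, 0) ≠ 0 ∨
      fderiv ℂ (Kf s r (KA c a b w) (KB c a b u)) v (0, 0, 1) ≠ 0 := by
  have hd := diffAt_Kf (s := s) (r := r) (c := c) ha hb hu hw ha0 hb0
  have hL := fun j => LL_deriv (c 5) (c j) (a v.1) (b v.1) s v.2.1
  have hA := (((hL 3).fun_mul (hL 4)).fun_mul (hL 5)).const_mul (w v.1)
  have hB := (((hL 0).fun_mul (hL 1)).fun_mul (hL 2)).const_mul (u v.1)
  have e1 := Kf_tau hd hA hB
  have e2 := Kf_kappa hd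
  rw [e1, e2]
  have hnd := lnd_ne s v.2.1
  have hne : ∀ {j k : Fin 6}, j ≠ k →
      ¬ (LL (c 5) (c j) (a v.1) (b v.1) (ln s v.2.1) (ld s v.2.1) = 0 ∧
        LL (c 5) (c k) (a v.1) (b v.1) (ln s v.2.1) (ld s v.2.1) = 0) := fun h =>
    LL_eq ha0 hb0 hnd (fun h1 => h (hc h1))
  have hdj := fun j => LL_deriv_ne (c5 := c 5) (cj := c j) (s := s) (τ := v.2.1) ha0 hb0
  -- not both `A` and `B` vanish
  have hAB : ¬ (KA c a b w v.1 (ln s v.2.1) (ld s v.2.1) = 0 ∧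
      KB c a b u v.1 (ln s v.2.1) (ld s v.2.1) = 0) := by
    rintro ⟨h1, h2⟩
    have h3 := (mul_eq_zero.1 h1).resolve_left hw0
    have h4 := (mul_eq_zero.1 h2).resolve_left hu0
    rcases mul_eq_zero.1 h3 with h3 | h3
    · rcases mul_eq_zero.1 h3 with h3 | h3 <;> rcases mul_eq_zero.1 h4 with h4 | h4
      · rcases mul_eq_zero.1 h4 with h4 | h4
        · exact hne (j := 3) (k := 0) (by decide) ⟨h3, h4⟩
        · exact hne (j := 3) (k := 1) (by decide) ⟨h3, h4⟩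
      · exact hne (j := 3) (k := 2) (by decide) ⟨h3, h4⟩
      · rcases mul_eq_zero.1 h4 with h4 | h4
        · exact hne (j := 4) (k := 0) (by decide) ⟨h3, h4⟩
        · exact hne (j := 4) (k := 1) (by decide) ⟨h3, h4⟩
      · exact hne (j := 4) (k := 2) (by decide) ⟨h3, h4⟩
    · rcases mul_eq_zero.1 h4 with h4 | h4
      · rcases mul_eq_zero.1 h4 with h4 | h4
        · exact hne (j := 5) (k := 0) (by decide) ⟨h3, h4⟩
        · exact hne (j := 5) (k := 1) (by decide) ⟨h3, h4⟩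
      · exact hne (j := 5) (k := 2) (by decide) ⟨h3, h4⟩
  by_contra hcon
  rw [not_or, not_not, not_not] at hcon
  obtain ⟨h1, h2⟩ := hcon
  cases r
  · simp only [P1F_54.ln_false, ln'_false, mul_one, P1F_54.ld_false, ld'_false, mul_zero,
      zero_mul, sub_zero, one_pow, one_mul] at h1 h2
    have h0' : v.2.2 ^ 2 * KA c a b w v.1 (ln s v.2.1) (ld s v.2.1) -
        1 ^ 2 * KB c a b u v.1 (ln s v.2.1) (ld s v.2.1) = 0 := h0
    rcases mul_eq_zero.1 h2 with h3 | h3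
    · have h4 : v.2.2 = 0 := (mul_eq_zero.1 h3).resolve_left two_ne_zero
      rw [h4] at h0' h1
      have h5 : KB c a b u v.1 (ln s v.2.1) (ld s v.2.1) = 0 := by
        linear_combination -h0'
      have h6 := (mul_eq_zero.1 h5).resolve_left hu0
      have h7 := prod3_ne h6 (hne (j := 0) (k := 1) (by decide)) (hne (j := 1) (k := 2) (by decide))
        (hne (j := 0) (k := 2) (by decide)) (hdj 0) (hdj 1) (hdj 2)
      refine (mul_ne_zero hu0 h7) ?_
      linear_combination -h1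
    · exact hAB ⟨h3, by rw [h3] at h0'; linear_combination -h0'⟩
  · simp only [P1F_54.ln_true, ln'_true, mul_one, P1F_54.ld_true, ld'_true, mul_zero,
      zero_mul, zero_sub, one_pow, one_mul] at h1 h2
    have h0' : 1 ^ 2 * KA c a b w v.1 (ln s v.2.1) (ld s v.2.1) -
        v.2.2 ^ 2 * KB c a b u v.1 (ln s v.2.1) (ld s v.2.1) = 0 := h0
    have h2' := neg_eq_zero.1 h2
    rcases mul_eq_zero.1 h2' with h3 | h3
    · have h4 : v.2.2 = 0 := (mul_eq_zero.1 h3).resolve_left two_ne_zero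
      rw [h4] at h0' h1
      have h5 : KA c a b w v.1 (ln s v.2.1) (ld s v.2.1) = 0 := by
        linear_combination h0'
      have h6 := (mul_eq_zero.1 h5).resolve_left hw0
      have h7 := prod3_ne h6 (hne (j := 3) (k := 4) (by decide)) (hne (j := 4) (k := 5) (by decide))
        (hne (j := 3) (k := 5) (by decide)) (hdj 3) (hdj 4) (hdj 5)
      refine (mul_ne_zero hw0 h7) ?_
      linear_combination h1
    · exact hAB ⟨by rw [h3] at h0'; linear_combination h0', h3⟩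

/-- at `t = ∞` the `K`-equation is a submersion in `κ` -/
theorem Kf_nondeg_inf (ha : DifferentiableAt ℂ a v.1)
    (hb : DifferentiableAt ℂ b v.1)
    (hu : DifferentiableAt ℂ u v.1) (hw : DifferentiableAt ℂ w v.1)
    (ha0 : a v.1 ≠ 0) (hb0 : b v.1 ≠ 0) (hu0 : u v.1 ≠ 0) (hw0 : w v.1 ≠ 0)
    (hs : ld s v.2.1 = 0)
    (h0 : Kf s r (KA c a b w) (KB c a b u) v = 0) :
    fderiv ℂ (Kf s r (KA c a b w) (KB c a b u)) v (0, 0, 1) ≠ 0 := by
  have hd := diffAt_Kf (s := s) (r := r) (c := c) ha hb hu hw ha0 hb0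
  have e2 := Kf_kappa hd
  have hn : ln s v.2.1 ≠ 0 := (lnd_ne s v.2.1).resolve_right (fun h => h hs)
  have hL : ∀ j, LL (c 5) (c j) (a v.1) (b v.1) (ln s v.2.1) (ld s v.2.1) ≠ 0 := by
    intro j
    simp [LL, hs, hn, hb0]
  have hA : KA c a b w v.1 (ln s v.2.1) (ld s v.2.1) ≠ 0 :=
    mul_ne_zero hw0 (mul_ne_zero (mul_ne_zero (hL 3) (hL 4)) (hL 5))
  have hB : KB c a b u v.1 (ln s v.2.1) (ld s v.2.1) ≠ 0 :=
    mul_ne_zero hu0 (mul_ne_zero (mul_ne_zero (hL 0) (hL 1)) (hL 2))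
  rw [e2]
  cases r
  · have h0' : v.2.2 ^ 2 * KA c a b w v.1 (ln s v.2.1) (ld s v.2.1) -
        1 ^ 2 * KB c a b u v.1 (ln s v.2.1) (ld s v.2.1) = 0 := h0
    have hk : v.2.2 ≠ 0 := by
      intro h
      rw [h] at h0'
      exact hB (by linear_combination -h0')
    simp [hk, hA]
  · have h0' : 1 ^ 2 * KA c a b w v.1 (ln s v.2.1) (ld s v.2.1) -
        v.2.2 ^ 2 * KB c a b u v.1 (ln s v.2.1) (ld s v.2.1) = 0 := h0
    have hk : v.2.2 ≠ 0 := by
      intro h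
      rw [h] at h0'
      exact hA (by linear_combination h0')
    simp [hk, hB]

end K

end

end Crest.Agent.R272.GrFr_54
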