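import Crest.Agent.R272.Gr2_559
import Crest.Agent.R272.GrPen_54

/-!
# R272 (S0415), MOD-GRAPH (helper54): slices of `X1` at every point

On 559's `Loc`, `Loc.OK` (Gr2_559): `isSl_X1 : IsSl (ambFam F) D.X1 3`.
-/

set_option autoImplicit false
set_option linter.unusedSectionVars false

open Set Filter Topology Complex

namespace Crest.Agent.R272.GrFr_54

open Crest.Agent.R275.Geo Crest.Agent.R273.Fam_835 Crest.Agent.R272.FamP_54
  Crest.Agent.R272.SubF_54 Crest.Agent.R272.Lev_54 Crest.Agent.R272.P1A_54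
  Crest.Agent.R272.Quot_783 Crest.Agent.R272.Gr_559
open Crest.Agent.R272.P1F_54 (nn ps pc ln ld pinv pch p1Fam lift_rel isOpen_ps differentiable_ln
  differentiable_ld lnd_ne)
open Crest.Agent.R272.Gr_559.GData (Amb)

noncomputable section

/-! ### algebra -/

section alg

variable {nν dν na da nb db f xa xb : ℂ}

theorem redund1 (hnd : na ≠ 0 ∨ da ≠ 0) (ha : xa * da - f * na = 0) (hb : xb * db - f * nb = 0)
    (hV : nν * da - dν * na * xb = 0) (hreg : ¬ (f = 0 ∧ xb = 0)) : nν * db - dν * nb * xa = 0 := by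
  have h1 : nν * f - dν * xa * xb = 0 := by
    rcases hnd with h | h
    · refine (mul_eq_zero.1 ?_).resolve_left h
      linear_combination xa * hV - nν * ha
    · refine (mul_eq_zero.1 ?_).resolve_left h
      linear_combination f * hV - dν * xb * ha
  by_cases hf : f = 0
  · have hx : xb ≠ 0 := fun h => hreg ⟨hf, h⟩
    refine (mul_eq_zero.1 ?_).resolve_left hx
    linear_combination nν * hb + nb * h1
  · refine (mul_eq_zero.1 ?_).resolve_left hf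
    linear_combination db * h1 + dν * xa * hb

theorem redund2 (ha : xa * 1 - f * na = 0) (hb : xb * db - f * nb = 0)
    (hV : nν * 1 - 1 * na * xb = 0) : nν * db - 1 * nb * xa = 0 := by
  linear_combination db * hV + na * hb - nb * ha

theorem redund3 (hnd : nν ≠ 0 ∨ dν ≠ 0) (ha : xa * da - f * 1 = 0)
    (hVa : nν * da - dν * 1 * xb = 0) (hVb : nν * db - dν * 1 * xa = 0) :
    xb * db - f * 1 = 0 := by
  rcases hnd with h | h
  · refine (mul_eq_zero.1 ?_).resolve_left h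
    linear_combination nν * ha + xb * hVb - xa * hVa
  · refine (mul_eq_zero.1 ?_).resolve_left h
    linear_combination dν * ha - db * hVa + da * hVb

end alg

/-- solving the `K`-equation -/
theorem K_solve (r : Bool) (κ f g k : ℂ) (h0 : ln r κ ^ 2 * g - ld r κ ^ 2 * f = 0) :
    ∃ φ γ : ℂ, ∀ Df Dg : ℂ, (f = 0 → Df = φ) → (g = 0 → Dg = γ) →
      ∃ K : ℂ, (2 * ln r κ * (ln' r * K) * g + ln r κ ^ 2 * Dg) -
        (2 * ld r κ * (ld' r * K) * f + ld r κ ^ 2 * Df) = k := by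
  have hnd := lnd_ne r κ
  by_cases hn : ln r κ = 0
  · have hd : ld r κ ≠ 0 := hnd.resolve_left (fun h => h hn)
    have hf : f = 0 := by
      rw [hn] at h0
      have h1 : ld r κ ^ 2 * f = 0 := by linear_combination -h0
      exact (mul_eq_zero.1 h1).resolve_left (pow_ne_zero 2 hd)
    refine ⟨-k / ld r κ ^ 2, 0, fun Df Dg h1 _ => ⟨0, ?_⟩⟩
    rw [h1 hf, hn]
    field_simp
    ring
  · by_cases hd : ld r κ = 0
    · have hg : g = 0 := by
        rw [hd] at h0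
        have h1 : ln r κ ^ 2 * g = 0 := by linear_combination h0
        exact (mul_eq_zero.1 h1).resolve_left (pow_ne_zero 2 hn)
      refine ⟨0, k / ln r κ ^ 2, fun Df Dg _ h2 => ⟨0, ?_⟩⟩
      rw [h2 hg, hd]
      field_simp
      ring
    · by_cases hf : f = 0
      · have hg : g = 0 := by
          rw [hf] at h0
          have h1 : ln r κ ^ 2 * g = 0 := by linear_combination h0
          exact (mul_eq_zero.1 h1).resolve_left (pow_ne_zero 2 hn)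
        refine ⟨0, k / ln r κ ^ 2, fun Df Dg h1 h2 => ⟨0, ?_⟩⟩
        rw [h1 hf, h2 hg]
        field_simp
        ring
      · have hg : g ≠ 0 := by
          intro hg
          rw [hg] at h0
          have h1 : ld r κ ^ 2 * f = 0 := by linear_combination -h0
          exact hf ((mul_eq_zero.1 h1).resolve_left (pow_ne_zero 2 hd))
        refine ⟨0, 0, fun Df Dg _ _ => ?_⟩
        cases r
        · simp only [P1F_54.ln_false, ln'_false, P1F_54.ld_false, ld'_false] at hn ⊢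
          refine ⟨(k + Df - κ ^ 2 * Dg) / (2 * κ * g), ?_⟩
          field_simp
          ring
        · simp only [P1F_54.ln_true, ln'_true, P1F_54.ld_true, ld'_true] at hd ⊢
          refine ⟨(Dg - κ ^ 2 * Df - k) / (2 * κ * f), ?_⟩
          field_simp
          ring

/-! ### the equations -/

variable {N : Type} [TopologicalSpace N] {F : Fam 3 N} {D : GData F} {q : N}

/-- local equations of both colours with the choice of the discs -/
structure Dat (D : GData F) (q : N) where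
  i : F.ι
  hi : q ∈ (F.e i).source
  C : ∀ c, Loc D c q
  ok : ∀ c, (C c).OK
  s : Fin 2 → Bool
  sv : Bool
  r : Fin 2 → Bool

namespace Dat

variable (H : Dat D q)

/-- `E`-equation -/
def qE (c : Fin 2) : E8 3 → ℂ := eE (H.s c) (rd F H.i D.f0) (rd F H.i (D.x c)) c

/-- `V`-equation -/
def qV (c : Fin 2) : E8 3 → ℂ := eV (H.s c) H.sv (rd F H.i (D.x (1 - c))) c

/-- `K`-equation -/
def qK (c : Fin 2) (p : E8 3) : ℂ :=
  ln (H.r c) (p.2.2.2 c) ^ 2 * (H.C c).gc H.i (H.s c) (p.1, p.2.1 c) -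
    ld (H.r c) (p.2.2.2 c) ^ 2 * (H.C c).fc H.i (H.s c) (p.1, p.2.1 c)

/-- the point lies in the domain of the coordinates -/
structure In (Q : Amb N) : Prop where
  h1 : Q.1 ∈ (F.e H.i).source
  h2 : ∀ j, Q.2.1 j ∈ ps (H.s j)
  h3 : Q.2.2.1 ∈ ps H.sv
  h4 : ∀ j, Q.2.2.2 j ∈ ps (H.r j)

/-- coordinates -/
def co (Q : Amb N) : E8 3 := cor F H.i H.s H.sv H.r Q

theorem qE_co {Q : Amb N} (h : H.In Q) (c : Fin 2) : H.qE c (H.co Q) =
    D.x c Q.1 * ld (H.s c) (pc (H.s c) (Q.2.1 c)) -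
      D.f0 Q.1 * ln (H.s c) (pc (H.s c) (Q.2.1 c)) := by
  show D.x c ((F.e H.i).symm (F.e H.i Q.1)) * _ - D.f0 ((F.e H.i).symm (F.e H.i Q.1)) * _ = _
  rw [(F.e H.i).left_inv h.h1]
  rfl

theorem qV_co {Q : Amb N} (h : H.In Q) (c : Fin 2) : H.qV c (H.co Q) =
    ln H.sv (pc H.sv Q.2.2.1) * ld (H.s c) (pc (H.s c) (Q.2.1 c)) -
      ld H.sv (pc H.sv Q.2.2.1) * ln (H.s c) (pc (H.s c) (Q.2.1 c)) * D.x (1 - c) Q.1 := by
  show _ - _ * _ * D.x (1 - c) ((F.e H.i).symm (F.e H.i Q.1)) = _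
  rw [(F.e H.i).left_inv h.h1]
  rfl

theorem qK_co {Q : Amb N} (h : H.In Q) (c : Fin 2) : H.qK c (H.co Q) =
    ln (H.r c) (pc (H.r c) (Q.2.2.2 c)) ^ 2 *
      (H.C c).g Q.1 (ln (H.s c) (pc (H.s c) (Q.2.1 c))) (ld (H.s c) (pc (H.s c) (Q.2.1 c))) -
    ld (H.r c) (pc (H.r c) (Q.2.2.2 c)) ^ 2 *
      (H.C c).f Q.1 (ln (H.s c) (pc (H.s c) (Q.2.1 c))) (ld (H.s c) (pc (H.s c) (Q.2.1 c))) := by
  show _ * (H.C c).g ((F.e H.i).symm (F.e H.i Q.1)) _ _ -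
    _ * (H.C c).f ((F.e H.i).symm (F.e H.i Q.1)) _ _ = _
  rw [(F.e H.i).left_inv h.h1]
  rfl

/-- `X1` in coordinates -/
theorem mem_iff {Q : Amb N} (h : H.In Q) (hU : ∀ c, Q.1 ∈ (H.C c).U) :
    Q ∈ D.X1 ↔ (∀ c, H.qE c (H.co Q) = 0 ∧ H.qK c (H.co Q) = 0) ∧
      ∀ c, H.qV c (H.co Q) = 0 := by
  choose l hl hn hd using fun c => lift_rel (h.h2 c)
  obtain ⟨lv, hlv, hvn, hvd⟩ := lift_rel h.h3
  choose m hm hkn hkd using fun c => lift_rel (h.h4 c)
  have hn' : ∀ c, (Q.2.1 c).n = l c * ln (H.s c) (pc (H.s c) (Q.2.1 c)) := hn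
  have hd' : ∀ c, (Q.2.1 c).d = l c * ld (H.s c) (pc (H.s c) (Q.2.1 c)) := hd
  have hvn' : Q.2.2.1.n = lv * ln H.sv (pc H.sv Q.2.2.1) := hvn
  have hvd' : Q.2.2.1.d = lv * ld H.sv (pc H.sv Q.2.2.1) := hvd
  have hkn' : ∀ c, (Q.2.2.2 c).n = m c * ln (H.r c) (pc (H.r c) (Q.2.2.2 c)) := hkn
  have hkd' : ∀ c, (Q.2.2.2 c).d = m c * ld (H.r c) (pc (H.r c) (Q.2.2.2 c)) := hkd
  have hE : ∀ c, D.x c Q.1 * (Q.2.1 c).d = D.f0 Q.1 * (Q.2.1 c).n ↔
      H.qE c (H.co Q) = 0 := by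
    intro c
    rw [H.qE_co h, hn', hd', sub_eq_zero]
    constructor
    · intro h1
      refine mul_left_cancel₀ (hl c) ?_
      linear_combination h1
    · intro h1
      linear_combination l c * h1
  have hK : ∀ c, (Q.2.2.2 c).n ^ 2 * (H.C c).g Q.1 (Q.2.1 c).n (Q.2.1 c).d =
      (Q.2.2.2 c).d ^ 2 * (H.C c).f Q.1 (Q.2.1 c).n (Q.2.1 c).d ↔ H.qK c (H.co Q) = 0 := by
    intro c
    rw [H.qK_co h, hn', hd', hkn', hkd', (H.C c).g_hom, (H.C c).f_hom, sub_eq_zero]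
    have h1 : m c ^ 2 * l c ^ (H.C c).e ≠ 0 :=
      mul_ne_zero (pow_ne_zero 2 (hm c)) (pow_ne_zero _ (hl c))
    constructor
    · intro h2
      refine mul_left_cancel₀ h1 ?_
      linear_combination h2
    · intro h2
      linear_combination (m c ^ 2 * l c ^ (H.C c).e) * h2
  have hV : ∀ c, Q.2.2.1.n * (Q.2.1 c).d = Q.2.2.1.d * (Q.2.1 c).n * D.x (1 - c) Q.1 ↔
      H.qV c (H.co Q) = 0 := by
    intro c
    rw [H.qV_co h, hn', hd', hvn', hvd', sub_eq_zero]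
    have h1 : lv * l c ≠ 0 := mul_ne_zero hlv (hl c)
    constructor
    · intro h2
      refine mul_left_cancel₀ h1 ?_
      linear_combination h2
    · intro h2
      linear_combination (lv * l c) * h2
  have hX : Q ∈ D.X1 ↔ (∀ c, (Q.1, Q.2.1 c, Q.2.2.2 c) ∈ D.Y c) ∧
      ∀ c, Q.2.2.1.n * (Q.2.1 c).d = Q.2.2.1.d * (Q.2.1 c).n * D.x (1 - c) Q.1 := by
    rw [Fin.forall_fin_two (p := fun c => Q.2.2.1.n * (Q.2.1 c).d =
      Q.2.2.1.d * (Q.2.1 c).n * D.x (1 - c) Q.1)]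
    exact Iff.rfl
  rw [hX]
  refine and_congr (forall_congr' fun c => ?_) (forall_congr' fun c => hV c)
  rw [(H.C c).iff _ (hU c)]
  exact and_congr (hE c) (hK c)

/-! ### derivatives -/

/-- the base point in coordinates -/
theorem rd_diff {f : N → ℂ} (hf : HolF F univ f) : DifferentiableAt ℂ (rd F H.i f) (F.e H.i q) :=
  rd_diffAt isOpen_univ hf trivial H.hi

variable {p : E8 3}

theorem fderiv_qE (hp : p.1 = F.e H.i q) (c : Fin 2) (v : E8 3) :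
    fderiv ℂ (H.qE c) p v =
      Gr_559.dd F H.i (D.x c) q v.1 * ld (H.s c) (p.2.1 c) + D.x c q * (ld' (H.s c) * v.2.1 c) -
        (Gr_559.dd F H.i D.f0 q v.1 * ln (H.s c) (p.2.1 c) +
          D.f0 q * (ln' (H.s c) * v.2.1 c)) := by
  have h1 := fderiv_eE (s := H.s c) (c := c) (p := p) (fh := rd F H.i D.f0)
    (xh := rd F H.i (D.x c)) (by rw [hp]; exact H.rd_diff D.f0_hol)
    (by rw [hp]; exact H.rd_diff (D.x_hol c)) v
  have e1 : rd F H.i (D.x c) p.1 = D.x c q := by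
    rw [hp]; show D.x c ((F.e H.i).symm (F.e H.i q)) = _; rw [(F.e H.i).left_inv H.hi]
  have e2 : rd F H.i D.f0 p.1 = D.f0 q := by
    rw [hp]; show D.f0 ((F.e H.i).symm (F.e H.i q)) = _; rw [(F.e H.i).left_inv H.hi]
  rw [e1, e2, hp] at h1
  exact h1

theorem fderiv_qV (hp : p.1 = F.e H.i q) (c : Fin 2) (v : E8 3) :
    fderiv ℂ (H.qV c) p v =
      ln' H.sv * v.2.2.1 * ld (H.s c) (p.2.1 c) + ln H.sv p.2.2.1 * (ld' (H.s c) * v.2.1 c) -
        ((ld' H.sv * v.2.2.1 * ln (H.s c) (p.2.1 c) +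
          ld H.sv p.2.2.1 * (ln' (H.s c) * v.2.1 c)) * D.x (1 - c) q +
          ld H.sv p.2.2.1 * ln (H.s c) (p.2.1 c) * Gr_559.dd F H.i (D.x (1 - c)) q v.1) := by
  have h1 := fderiv_eV (s := H.s c) (sv := H.sv) (c := c) (p := p)
    (xh := rd F H.i (D.x (1 - c))) (by rw [hp]; exact H.rd_diff (D.x_hol _)) v
  have e1 : rd F H.i (D.x (1 - c)) p.1 = D.x (1 - c) q := by
    rw [hp]; show D.x (1 - c) ((F.e H.i).symm (F.e H.i q)) = _; rw [(F.e H.i).left_inv H.hi]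
  rw [e1, hp] at h1
  exact h1

theorem diff_qE (hp : p.1 = F.e H.i q) (c : Fin 2) : DifferentiableAt ℂ (H.qE c) p :=
  diff_eE (by rw [hp]; exact H.rd_diff D.f0_hol) (by rw [hp]; exact H.rd_diff (D.x_hol c))

theorem diff_qV (hp : p.1 = F.e H.i q) (c : Fin 2) : DifferentiableAt ℂ (H.qV c) p :=
  diff_eV (by rw [hp]; exact H.rd_diff (D.x_hol _))

theorem diffAt_K {c : Fin 2} (hg : DifferentiableAt ℂ ((H.C c).gc H.i (H.s c)) (p.1, p.2.1 c))
    (hf : DifferentiableAt ℂ ((H.C c).fc H.i (H.s c)) (p.1, p.2.1 c)) :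
    DifferentiableAt ℂ (H.qK c) p := by
  have h1 : DifferentiableAt ℂ (fun p : E8 3 => (H.C c).gc H.i (H.s c) (p.1, p.2.1 c)) p :=
    DifferentiableAt.comp p (f := fun p : E8 3 => (p.1, p.2.1 c)) hg (by fun_prop)
  have h2 : DifferentiableAt ℂ (fun p : E8 3 => (H.C c).fc H.i (H.s c) (p.1, p.2.1 c)) p :=
    DifferentiableAt.comp p (f := fun p : E8 3 => (p.1, p.2.1 c)) hf (by fun_prop)
  have h3 : DifferentiableAt ℂ (fun p : E8 3 => ln (H.r c) (p.2.2.2 c)) p :=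
    DifferentiableAt.comp p (g := ln (H.r c)) (differentiable_ln _).differentiableAt (by fun_prop)
  have h4 : DifferentiableAt ℂ (fun p : E8 3 => ld (H.r c) (p.2.2.2 c)) p :=
    DifferentiableAt.comp p (g := ld (H.r c)) (differentiable_ld _).differentiableAt (by fun_prop)
  exact ((h3.pow 2).mul h1).sub ((h4.pow 2).mul h2)

theorem fderiv_qK {c : Fin 2} (hg : DifferentiableAt ℂ ((H.C c).gc H.i (H.s c)) (p.1, p.2.1 c))
    (hf : DifferentiableAt ℂ ((H.C c).fc H.i (H.s c)) (p.1, p.2.1 c)) (v : E8 3) :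
    fderiv ℂ (H.qK c) p v =
      (2 * ln (H.r c) (p.2.2.2 c) * (ln' (H.r c) * v.2.2.2 c) *
          (H.C c).gc H.i (H.s c) (p.1, p.2.1 c) + ln (H.r c) (p.2.2.2 c) ^ 2 *
          fderiv ℂ ((H.C c).gc H.i (H.s c)) (p.1, p.2.1 c) (v.1, v.2.1 c)) -
        (2 * ld (H.r c) (p.2.2.2 c) * (ld' (H.r c) * v.2.2.2 c) *
          (H.C c).fc H.i (H.s c) (p.1, p.2.1 c) + ld (H.r c) (p.2.2.2 c) ^ 2 *
          fderiv ℂ ((H.C c).fc H.i (H.s c)) (p.1, p.2.1 c) (v.1, v.2.1 c)) := by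
  refine fderiv_eq_of_line (H.diffAt_K hg hf) ?_
  have h1 := line_ln (H.r c) (p.2.2.2 c) (v.2.2.2 c)
  have h2 := line_ld (H.r c) (p.2.2.2 c) (v.2.2.2 c)
  have h3 := line_of_fderiv (v := (v.1, v.2.1 c)) hg
  have h4 := line_of_fderiv (v := (v.1, v.2.1 c)) hf
  have h5 := ((h1.pow 2).mul h3).sub ((h2.pow 2).mul h4)
  simp only [zero_smul, zero_mul, add_zero, Nat.cast_ofNat, Nat.add_one_sub_one, pow_one,
    Pi.pow_apply] at h5
  exact h5

end Dat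

/-! ### slices -/

theorem fderiv_tri {p : E8 3} {g k : Fin 2 → E8 3 → ℂ} {h : E8 3 → ℂ}
    (hg : ∀ c, DifferentiableAt ℂ (g c) p) (hh : DifferentiableAt ℂ h p)
    (hk : ∀ c, DifferentiableAt ℂ (k c) p) (v : E8 3) :
    fderiv ℂ (fun p => ((fun c => g c p, h p, fun c => k c p) :
      (Fin 2 → ℂ) × ℂ × (Fin 2 → ℂ))) p v =
      (fun c => fderiv ℂ (g c) p v, fderiv ℂ h p v, fun c => fderiv ℂ (k c) p v) := by
  have d1 : DifferentiableAt ℂ (fun p => fun c => g c p) p := differentiableAt_pi.2 hg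
  have d2 : DifferentiableAt ℂ (fun p => fun c => k c p) p := differentiableAt_pi.2 hk
  refine fderiv_eq_of_line (d1.prodMk (hh.prodMk d2)) ?_
  have h1 : HasDerivAt (fun ε : ℂ => fun c => g c (p + ε • v)) (fun c => fderiv ℂ (g c) p v) 0 :=
    hasDerivAt_pi.2 fun c => line_of_fderiv (hg c)
  have h2 : HasDerivAt (fun ε : ℂ => fun c => k c (p + ε • v)) (fun c => fderiv ℂ (k c) p v) 0 :=
    hasDerivAt_pi.2 fun c => line_of_fderiv (hk c)
  exact h1.prodMk ((line_of_fderiv hh).prodMk h2)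

namespace Dat

variable (H : Dat D q)

/-- the domain in the coordinate space -/
def Wd (O : Set N) : Set (E8 3) := {p | p.1 ∈ (F.e H.i).target ∩ (F.e H.i).symm ⁻¹' O}

theorem isOpen_Wd {O : Set N} (hO : IsOpen O) : IsOpen (H.Wd O) :=
  ((F.e H.i).isOpen_inter_preimage_symm hO).preimage continuous_fst

theorem co_Wd {O : Set N} {Q : Amb N} (h : H.In Q) : H.co Q ∈ H.Wd O ↔ Q.1 ∈ O := by
  constructor
  · rintro ⟨-, h2⟩
    have h3 : (F.e H.i).symm (F.e H.i Q.1) ∈ O := h2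
    rwa [(F.e H.i).left_inv h.h1] at h3
  · intro h2
    refine ⟨(F.e H.i).map_source h.h1, ?_⟩
    show (F.e H.i).symm (F.e H.i Q.1) ∈ O
    rwa [(F.e H.i).left_inv h.h1]

variable {O : Set N} {p : E8 3}

theorem dE (hp : p ∈ H.Wd O) (c : Fin 2) : DifferentiableAt ℂ (H.qE c) p :=
  diff_eE (rd_diffAt' isOpen_univ D.f0_hol hp.1 trivial)
    (rd_diffAt' isOpen_univ (D.x_hol c) hp.1 trivial)

theorem dV (hp : p ∈ H.Wd O) (c : Fin 2) : DifferentiableAt ℂ (H.qV c) p :=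
  diff_eV (rd_diffAt' isOpen_univ (D.x_hol _) hp.1 trivial)

theorem dgc (hO : ∀ c, O ⊆ (H.C c).U) (hp : p ∈ H.Wd O) (c : Fin 2) :
    DifferentiableAt ℂ ((H.C c).gc H.i (H.s c)) (p.1, p.2.1 c) :=
  ((H.C c).g_hol H.i (H.s c)).differentiableAt (((H.C c).isOpen_dom H.i).mem_nhds
    ⟨hp.1, hO c hp.2⟩)

theorem dfc (hO : ∀ c, O ⊆ (H.C c).U) (hp : p ∈ H.Wd O) (c : Fin 2) :
    DifferentiableAt ℂ ((H.C c).fc H.i (H.s c)) (p.1, p.2.1 c) :=
  ((H.C c).f_hol H.i (H.s c)).differentiableAt (((H.C c).isOpen_dom H.i).mem_nhds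
    ⟨hp.1, hO c hp.2⟩)

theorem dK (hO : ∀ c, O ⊆ (H.C c).U) (hp : p ∈ H.Wd O) (c : Fin 2) :
    DifferentiableAt ℂ (H.qK c) p := H.diffAt_K (H.dgc hO hp c) (H.dfc hO hp c)

/-- the slice from three base equations -/
theorem slice_of {P : Amb N} (hP : H.In P) (hOo : IsOpen O) (hO : ∀ c, O ⊆ (H.C c).U)
    (hPO : P.1 ∈ O) (g : Fin 2 → E8 3 → ℂ) (h : E8 3 → ℂ)
    (hg : ∀ p ∈ H.Wd O, ∀ c, DifferentiableAt ℂ (g c) p)
    (hh : ∀ p ∈ H.Wd O, DifferentiableAt ℂ h p)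
    (hiff : ∀ Q : Amb N, H.In Q → Q.1 ∈ O → (((∀ c, H.qE c (H.co Q) = 0) ∧
      ∀ c, H.qV c (H.co Q) = 0) ↔ ((∀ c, g c (H.co Q) = 0) ∧ h (H.co Q) = 0)))
    (hsur : ∀ (e : Fin 2 → ℂ) (w : ℂ) (k : Fin 2 → ℂ), ∃ v : E8 3,
      (∀ c, fderiv ℂ (g c) (H.co P) v = e c) ∧ fderiv ℂ h (H.co P) v = w ∧
        ∀ c, fderiv ℂ (H.qK c) (H.co P) v = k c) :
    ∃ c : Slice (ambFam F) D.X1 3, P ∈ c.dom := by
  have hPW : H.co P ∈ H.Wd O := (H.co_Wd hP).2 hPO
  refine exists_slice_amb (E' := (Fin 2 → ℂ) × ℂ × (Fin 2 → ℂ)) (by simp) H.i H.s H.sv H.r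
    hP.h1 hP.h2 hP.h3 hP.h4 (H.isOpen_Wd hOo) hPW
    (Φ := fun p => (fun c => g c p, h p, fun c => H.qK c p)) ?_ ?_ ?_
  · intro p hp
    have d1 : DifferentiableAt ℂ (fun p => fun c => g c p) p := differentiableAt_pi.2 (hg p hp)
    have d2 : DifferentiableAt ℂ (fun p => fun c => H.qK c p) p :=
      differentiableAt_pi.2 (H.dK hO hp)
    exact (d1.prodMk ((hh p hp).prodMk d2)).differentiableWithinAt
  · intro Q q1 q2 q3 q4 hQW
    have hQ : H.In Q := ⟨q1, q2, q3, q4⟩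
    have hQO : Q.1 ∈ O := (H.co_Wd hQ).1 hQW
    rw [H.mem_iff hQ fun c => hO c hQO]
    have h1 := hiff Q hQ hQO
    have e1 : cor F H.i H.s H.sv H.r Q = H.co Q := rfl
    rw [e1]
    constructor
    · rintro ⟨h2, h3⟩
      obtain ⟨h4, h5⟩ := h1.1 ⟨fun c => (h2 c).1, h3⟩
      exact Prod.ext (funext h4) (Prod.ext h5 (funext fun c => (h2 c).2))
    · intro h2
      have h3 : ∀ c, g c (H.co Q) = 0 := fun c => congrFun (congrArg Prod.fst h2) c
      have h4 : h (H.co Q) = 0 := congrArg (fun z => z.2.1) h2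
      have h5 : ∀ c, H.qK c (H.co Q) = 0 := fun c =>
        congrFun (congrArg (fun z => z.2.2) h2) c
      obtain ⟨h6, h7⟩ := h1.2 ⟨h3, h4⟩
      exact ⟨fun c => ⟨h6 c, h5 c⟩, h7⟩
  · rintro ⟨e, w, k⟩
    obtain ⟨v, h1, h2, h3⟩ := hsur e w k
    refine ⟨v, ?_⟩
    have e1 := fderiv_tri (g := g) (h := h) (k := H.qK) (hg _ hPW) (hh _ hPW)
      (fun c => H.dK hO hPW c) v
    have e2 : cor F H.i H.s H.sv H.r P = H.co P := rfl
    rw [e2]
    refine e1.trans ?_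
    exact Prod.ext (funext h1) (Prod.ext h2 (funext h3))

/-- solving for `κ` -/
theorem solveK (hO : ∀ c, O ⊆ (H.C c).U) {P : Amb N} (hP : H.In P) (hPO : P.1 ∈ O)
    (hK : ∀ c, H.qK c (H.co P) = 0) (k : Fin 2 → ℂ) :
    ∃ φ γ : Fin 2 → ℂ, ∀ (V : Cn 3) (T : Fin 2 → ℂ) (ν : ℂ),
      (∀ c, ((H.C c).fc H.i (H.s c) ((H.co P).1, (H.co P).2.1 c) = 0 →
        fderiv ℂ ((H.C c).fc H.i (H.s c)) ((H.co P).1, (H.co P).2.1 c) (V, T c) = φ c) ∧
      ((H.C c).gc H.i (H.s c) ((H.co P).1, (H.co P).2.1 c) = 0 →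
        fderiv ℂ ((H.C c).gc H.i (H.s c)) ((H.co P).1, (H.co P).2.1 c) (V, T c) = γ c)) →
      ∃ K : Fin 2 → ℂ, ∀ c, fderiv ℂ (H.qK c) (H.co P) (V, T, ν, K) = k c := by
  have hPW : H.co P ∈ H.Wd O := (H.co_Wd hP).2 hPO
  choose φ γ hφ using fun c => K_solve (H.r c) ((H.co P).2.2.2 c)
    ((H.C c).fc H.i (H.s c) ((H.co P).1, (H.co P).2.1 c))
    ((H.C c).gc H.i (H.s c) ((H.co P).1, (H.co P).2.1 c)) (k c) (hK c)
  refine ⟨φ, γ, fun V T ν h => ?_⟩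
  choose K hK' using fun c => hφ c _ _ (h c).1 (h c).2
  refine ⟨K, fun c => ?_⟩
  rw [H.fderiv_qK (H.dgc hO hPW c) (H.dfc hO hPW c)]
  exact hK' c

end Dat

end

end Crest.Agent.R272.GrFr_54
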