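import Crest.Agent.R272.GrFr_54

/-!
# R272 (S0415), MOD-GRAPH (helper54): the equations of `X1` in coordinates, their derivatives

`eE s fh xh c`  : `x_c d(t_c) - f0 n(t_c)`;
`eV s sv xh' c` : `n(v) d(t_c) - d(v) n(t_c) x_{c'}`;
`eK s r A B c`  : `n(k_c)^2 A(n t_c, d t_c) - d(k_c)^2 B(n t_c, d t_c)`,
all as functions on `E8 N`, with their derivatives.
-/

set_option autoImplicit false
set_option linter.unusedSectionVars false

open Set Filter Topology Complex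

namespace Crest.Agent.R272.GrFr_54

open Crest.Agent.R275.Geo Crest.Agent.R273.Fam_835 Crest.Agent.R272.FamP_54
  Crest.Agent.R272.SubF_54 Crest.Agent.R272.Lev_54 Crest.Agent.R272.P1A_54
open Crest.Agent.R272.P1F_54 (nn ps pc ln ld pinv pch p1Fam lift_rel isOpen_ps differentiable_ln
  differentiable_ld)

noncomputable section

/-- derivative of `ln s` -/
def ln' (s : Bool) : ℂ := if s then 0 else 1
/-- derivative of `ld s` -/
def ld' (s : Bool) : ℂ := if s then 1 else 0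

@[simp] theorem ln'_false : ln' false = 1 := rfl
@[simp] theorem ln'_true : ln' true = 0 := rfl
@[simp] theorem ld'_false : ld' false = 0 := rfl
@[simp] theorem ld'_true : ld' true = 1 := rfl

theorem hasDerivAt_ln (s : Bool) (c : ℂ) : HasDerivAt (ln s) (ln' s) c := by
  cases s
  · exact hasDerivAt_id c
  · exact hasDerivAt_const c 1

theorem hasDerivAt_ld (s : Bool) (c : ℂ) : HasDerivAt (ld s) (ld' s) c := by
  cases s
  · exact hasDerivAt_const c 1
  · exact hasDerivAt_id c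

section line

variable {E : Type*} [NormedAddCommGroup E] [NormedSpace ℂ E] {W : Type*} [NormedAddCommGroup W]
  [NormedSpace ℂ W]

/-- the derivative on a vector is the derivative along the line -/
theorem fderiv_eq_of_line {g : E → W} {p v : E} {w : W} (h : DifferentiableAt ℂ g p)
    (hl : HasDerivAt (fun ε : ℂ => g (p + ε • v)) w 0) : fderiv ℂ g p v = w := by
  have h1 : HasDerivAt (fun ε : ℂ => p + ε • v) v 0 := by
    simpa using ((hasDerivAt_id (0 : ℂ)).smul_const v).const_add p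
  have h2 : HasFDerivAt g (fderiv ℂ g p) (p + (0 : ℂ) • v) := by
    rw [zero_smul, add_zero]; exact h.hasFDerivAt
  have h3 : HasDerivAt (fun ε : ℂ => g (p + ε • v)) (fderiv ℂ g p v) 0 :=
    HasFDerivAt.comp_hasDerivAt (f := fun ε : ℂ => p + ε • v) (0 : ℂ) h2 h1
  exact h3.unique hl

theorem line_of_fderiv {g : E → W} {p v : E} (h : DifferentiableAt ℂ g p) :
    HasDerivAt (fun ε : ℂ => g (p + ε • v)) (fderiv ℂ g p v) 0 := by
  have h1 : HasDerivAt (fun ε : ℂ => p + ε • v) v 0 := by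
    simpa using ((hasDerivAt_id (0 : ℂ)).smul_const v).const_add p
  have h2 : HasFDerivAt g (fderiv ℂ g p) (p + (0 : ℂ) • v) := by
    rw [zero_smul, add_zero]; exact h.hasFDerivAt
  exact HasFDerivAt.comp_hasDerivAt (f := fun ε : ℂ => p + ε • v) (0 : ℂ) h2 h1

end line

variable {N : ℕ}

/-- `x d(t) - f0 n(t)` -/
def eE (s : Bool) (fh xh : Cn N → ℂ) (c : Fin 2) (p : E8 N) : ℂ :=
  xh p.1 * ld s (p.2.1 c) - fh p.1 * ln s (p.2.1 c)

/-- `n(v) d(t) - d(v) n(t) x'` -/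
def eV (s sv : Bool) (xh : Cn N → ℂ) (c : Fin 2) (p : E8 N) : ℂ :=
  ln sv p.2.2.1 * ld s (p.2.1 c) - ld sv p.2.2.1 * ln s (p.2.1 c) * xh p.1

/-- `n(k)^2 A - d(k)^2 B` on `Cn N × ℂ × ℂ` -/
def Kf (s r : Bool) (A B : Cn N → ℂ → ℂ → ℂ) (u : Cn N × ℂ × ℂ) : ℂ :=
  ln r u.2.2 ^ 2 * A u.1 (ln s u.2.1) (ld s u.2.1) -
    ld r u.2.2 ^ 2 * B u.1 (ln s u.2.1) (ld s u.2.1)

/-- `n(k)^2 A - d(k)^2 B` -/
def eK (s r : Bool) (A B : Cn N → ℂ → ℂ → ℂ) (c : Fin 2) (p : E8 N) : ℂ :=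
  Kf s r A B (p.1, p.2.1 c, p.2.2.2 c)

theorem line_ln (s : Bool) (τ v : ℂ) :
    HasDerivAt (fun ε : ℂ => ln s (τ + ε * v)) (ln' s * v) 0 := by
  have h := line_of_fderiv (p := τ) (v := v) (hasDerivAt_ln s τ).differentiableAt
  have h2 : fderiv ℂ (ln s) τ v = ln' s * v := by
    rw [(hasDerivAt_ln s τ).hasFDerivAt.fderiv]; simp [mul_comm]
  rw [h2] at h
  exact h

theorem line_ld (s : Bool) (τ v : ℂ) :
    HasDerivAt (fun ε : ℂ => ld s (τ + ε * v)) (ld' s * v) 0 := by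
  have h := line_of_fderiv (p := τ) (v := v) (hasDerivAt_ld s τ).differentiableAt
  have h2 : fderiv ℂ (ld s) τ v = ld' s * v := by
    rw [(hasDerivAt_ld s τ).hasFDerivAt.fderiv]; simp [mul_comm]
  rw [h2] at h
  exact h

section proj

/-- projections of `E8 N` -/
theorem diff_fst {f : Cn N → ℂ} {p : E8 N} (h : DifferentiableAt ℂ f p.1) :
    DifferentiableAt ℂ (fun p : E8 N => f p.1) p :=
  DifferentiableAt.comp p (g := f) h differentiableAt_fst

theorem diff_tau {f : ℂ → ℂ} {p : E8 N} {c : Fin 2} (h : DifferentiableAt ℂ f (p.2.1 c)) :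
    DifferentiableAt ℂ (fun p : E8 N => f (p.2.1 c)) p :=
  DifferentiableAt.comp p (g := f) h (by fun_prop)

theorem diff_nu {f : ℂ → ℂ} {p : E8 N} (h : DifferentiableAt ℂ f p.2.2.1) :
    DifferentiableAt ℂ (fun p : E8 N => f p.2.2.1) p :=
  DifferentiableAt.comp p (g := f) h (by fun_prop)

end proj

variable {s sv r : Bool} {fh xh : Cn N → ℂ} {c : Fin 2} {p : E8 N} {A B : Cn N → ℂ → ℂ → ℂ}

theorem diff_eE (hf : DifferentiableAt ℂ fh p.1) (hx : DifferentiableAt ℂ xh p.1) :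
    DifferentiableAt ℂ (eE s fh xh c) p :=
  ((diff_fst hx).mul (diff_tau (differentiable_ld s).differentiableAt)).sub
    ((diff_fst hf).mul (diff_tau (differentiable_ln s).differentiableAt))

theorem fderiv_eE (hf : DifferentiableAt ℂ fh p.1) (hx : DifferentiableAt ℂ xh p.1) (v : E8 N) :
    fderiv ℂ (eE s fh xh c) p v =
      fderiv ℂ xh p.1 v.1 * ld s (p.2.1 c) + xh p.1 * (ld' s * v.2.1 c) -
        (fderiv ℂ fh p.1 v.1 * ln s (p.2.1 c) + fh p.1 * (ln' s * v.2.1 c)) := by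
  refine fderiv_eq_of_line (diff_eE hf hx) ?_
  have h1 := line_of_fderiv (v := v.1) hx
  have h2 := line_of_fderiv (v := v.1) hf
  have h3 := (h1.mul (line_ld s (p.2.1 c) (v.2.1 c))).sub
    (h2.mul (line_ln s (p.2.1 c) (v.2.1 c)))
  simp only [zero_smul, zero_mul, add_zero] at h3
  exact h3

theorem diff_eV (hx : DifferentiableAt ℂ xh p.1) : DifferentiableAt ℂ (eV s sv xh c) p :=
  ((diff_nu (differentiable_ln sv).differentiableAt).mul
    (diff_tau (differentiable_ld s).differentiableAt)).sub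
    (((diff_nu (differentiable_ld sv).differentiableAt).mul
      (diff_tau (differentiable_ln s).differentiableAt)).mul (diff_fst hx))

theorem fderiv_eV (hx : DifferentiableAt ℂ xh p.1) (v : E8 N) :
    fderiv ℂ (eV s sv xh c) p v =
      ln' sv * v.2.2.1 * ld s (p.2.1 c) + ln sv p.2.2.1 * (ld' s * v.2.1 c) -
        ((ld' sv * v.2.2.1 * ln s (p.2.1 c) + ld sv p.2.2.1 * (ln' s * v.2.1 c)) * xh p.1 +
          ld sv p.2.2.1 * ln s (p.2.1 c) * fderiv ℂ xh p.1 v.1) := by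
  refine fderiv_eq_of_line (diff_eV hx) ?_
  have h1 := line_of_fderiv (v := v.1) hx
  have h3 := ((line_ln sv p.2.2.1 v.2.2.1).mul (line_ld s (p.2.1 c) (v.2.1 c))).sub
    (((line_ld sv p.2.2.1 v.2.2.1).mul (line_ln s (p.2.1 c) (v.2.1 c))).mul h1)
  simp only [zero_smul, zero_mul, add_zero, Pi.mul_apply] at h3
  exact h3

theorem diff_eK (h : DifferentiableAt ℂ (Kf s r A B) (p.1, p.2.1 c, p.2.2.2 c)) :
    DifferentiableAt ℂ (eK s r A B c) p :=
  DifferentiableAt.comp p (f := fun p : E8 N => (p.1, p.2.1 c, p.2.2.2 c)) h (by fun_prop)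

theorem fderiv_eK (h : DifferentiableAt ℂ (Kf s r A B) (p.1, p.2.1 c, p.2.2.2 c)) (v : E8 N) :
    fderiv ℂ (eK s r A B c) p v =
      fderiv ℂ (Kf s r A B) (p.1, p.2.1 c, p.2.2.2 c) (v.1, 0, 0) +
        v.2.1 c * fderiv ℂ (Kf s r A B) (p.1, p.2.1 c, p.2.2.2 c) (0, 1, 0) +
        v.2.2.2 c * fderiv ℂ (Kf s r A B) (p.1, p.2.1 c, p.2.2.2 c) (0, 0, 1) := by
  have h1 : fderiv ℂ (eK s r A B c) p v =
      fderiv ℂ (Kf s r A B) (p.1, p.2.1 c, p.2.2.2 c) (v.1, v.2.1 c, v.2.2.2 c) := by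
    refine fderiv_eq_of_line (diff_eK h) ?_
    exact line_of_fderiv (v := (v.1, v.2.1 c, v.2.2.2 c)) h
  have h2 : (v.1, v.2.1 c, v.2.2.2 c) = (v.1, (0 : ℂ), (0 : ℂ)) +
      v.2.1 c • ((0 : Cn N), (1 : ℂ), (0 : ℂ)) + v.2.2.2 c • ((0 : Cn N), (0 : ℂ), (1 : ℂ)) := by
    simp
  rw [h1, h2, map_add, map_add, map_smul, map_smul, smul_eq_mul, smul_eq_mul]

/-- partial derivative in `τ` -/
theorem Kf_tau {u : Cn N × ℂ × ℂ} (h : DifferentiableAt ℂ (Kf s r A B) u) {a b : ℂ}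
    (ha : HasDerivAt (fun τ => A u.1 (ln s τ) (ld s τ)) a u.2.1)
    (hb : HasDerivAt (fun τ => B u.1 (ln s τ) (ld s τ)) b u.2.1) :
    fderiv ℂ (Kf s r A B) u (0, 1, 0) = ln r u.2.2 ^ 2 * a - ld r u.2.2 ^ 2 * b := by
  refine fderiv_eq_of_line h ?_
  have h1 : HasDerivAt (fun ε : ℂ => u.2.1 + ε) 1 0 := by
    simpa using (hasDerivAt_id (0 : ℂ)).const_add u.2.1
  have ha' : HasDerivAt (fun τ => A u.1 (ln s τ) (ld s τ)) a (u.2.1 + 0) := by rwa [add_zero]
  have hb' : HasDerivAt (fun τ => B u.1 (ln s τ) (ld s τ)) b (u.2.1 + 0) := by rwa [add_zero]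
  have h2 := ((ha'.comp (0 : ℂ) h1).const_mul (ln r u.2.2 ^ 2)).sub
    ((hb'.comp (0 : ℂ) h1).const_mul (ld r u.2.2 ^ 2))
  simp only [mul_one] at h2
  refine h2.congr_of_eventuallyEq (Eventually.of_forall fun ε => ?_)
  simp [Kf]

/-- partial derivative in `κ` -/
theorem Kf_kappa {u : Cn N × ℂ × ℂ} (h : DifferentiableAt ℂ (Kf s r A B) u) :
    fderiv ℂ (Kf s r A B) u (0, 0, 1) =
      2 * ln r u.2.2 * ln' r * A u.1 (ln s u.2.1) (ld s u.2.1) -
        2 * ld r u.2.2 * ld' r * B u.1 (ln s u.2.1) (ld s u.2.1) := by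
  refine fderiv_eq_of_line h ?_
  have h1 := line_ln r u.2.2 1
  have h2 := line_ld r u.2.2 1
  have h3 := ((h1.pow 2).mul_const (A u.1 (ln s u.2.1) (ld s u.2.1))).sub
    ((h2.pow 2).mul_const (B u.1 (ln s u.2.1) (ld s u.2.1)))
  simp only [mul_one, add_zero, Nat.cast_ofNat, Nat.add_one_sub_one, pow_one] at h3
  refine h3.congr_of_eventuallyEq (Eventually.of_forall fun ε => ?_)
  simp [Kf]

end

end Crest.Agent.R272.GrFr_54
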