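import Crest.Agent.R272.P1A_54
import Crest.Agent.R272.Lev_54

/-!
# R272 (S0415), MOD-GRAPH (helper54): framework for slices of subsets of `Amb X = X × P1^5`

* `exists_slice_lin` : LEVEL with a linear change of the coordinates of the chart;
* `E8 N`, `ambL N : Cn (N + 5) ≃L[ℂ] E8 N`, `cor i s sv r : Amb X → E8 N` (coordinates);
* `exists_slice_amb` : a subset of `Amb X` which is the zero set of a submersion `E8 N → E'`,
  `finrank E' = 5`, in the coordinates `cor i s sv r` has a slice of dimension `N`.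
-/

set_option autoImplicit false
set_option linter.unusedSectionVars false

open Set Filter Topology Complex

namespace Crest.Agent.R272.GrFr_54

open Crest.Agent.R275.Geo Crest.Agent.R273.Fam_835 Crest.Agent.R272.FamP_54
  Crest.Agent.R272.SubF_54 Crest.Agent.R272.Lev_54 Crest.Agent.R272.P1A_54
  Crest.Agent.R275.Prod363
open Crest.Agent.R272.P1F_54 (nn ps pc ln ld pinv pch p1Fam lift_rel isOpen_ps)
open Crest.Agent.R272.Gr_559 (P1)
open Crest.Agent.R272.Gr_559.GData (Amb)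

noncomputable section

section lin

variable {N n : ℕ} {X : Type} [TopologicalSpace X] {F : Fam N X} {S : Set X}
  {E E' : Type*} [NormedAddCommGroup E'] [NormedSpace ℂ E'] [FiniteDimensional ℂ E']
  [NormedAddCommGroup E] [NormedSpace ℂ E]

/-- LEVEL with a linear change of coordinates -/
theorem exists_slice_lin (hn : N = n + Module.finrank ℂ E') (L : Cn N ≃L[ℂ] E) {x : X} (j : F.ι)
    (hj : x ∈ (F.e j).source) {W : Set E} (hW : IsOpen W) (hxW : L (F.e j x) ∈ W)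
    {Φ : E → E'} (hΦ : DifferentiableOn ℂ Φ W)
    (hS : ∀ y ∈ (F.e j).source, L (F.e j y) ∈ W → (y ∈ S ↔ Φ (L (F.e j y)) = 0))
    (hs : Function.Surjective (fderiv ℂ Φ (L (F.e j x)))) :
    ∃ c : Slice F S n, x ∈ c.dom := by
  refine exists_slice hn j hj (hW.preimage L.continuous) hxW (Φ := fun z => Φ (L z)) ?_ hS ?_
  · exact hΦ.comp L.differentiable.differentiableOn fun z hz => hz
  · have h1 : HasFDerivAt (fun z => Φ (L z)) ((fderiv ℂ Φ (L (F.e j x))).comp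
        (L : Cn N →L[ℂ] E)) (F.e j x) := by
      have h2 : HasFDerivAt Φ (fderiv ℂ Φ (L (F.e j x))) (L (F.e j x)) :=
        (hΦ.differentiableAt (hW.mem_nhds hxW)).hasFDerivAt
      exact HasFDerivAt.comp (F.e j x) (f := fun z => L z) h2 L.hasFDerivAt
    rw [h1.fderiv]
    exact hs.comp L.surjective

end lin

/-! ### coordinates of the ambient space -/

/-- coordinates `(y, τ, ν, κ)` -/
abbrev E8 (N : ℕ) : Type := Cn N × (Fin 2 → ℂ) × ℂ × (Fin 2 → ℂ)

/-- `Cn (1 + 1) ≃ (Fin 2 → ℂ)` -/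
def tw : Cn (1 + 1) ≃L[ℂ] (Fin 2 → ℂ) := PiLp.continuousLinearEquiv 2 ℂ (fun _ : Fin 2 => ℂ)

theorem tw_app (a b : Cn 1) : tw (app a b) = ![a 0, b 0] := by
  funext j
  fin_cases j
  · exact app_castAdd a b 0
  · exact app_natAdd a b 0

/-- the linear change of coordinates -/
def ambL (N : ℕ) : Cn (N + 5) ≃L[ℂ] E8 N :=
  (appH N 5).symm.trans ((ContinuousLinearEquiv.refl ℂ (Cn N)).prodCongr
    ((appH (1 + 1) 3).symm.trans (tw.prodCongr ((appH 1 (1 + 1)).symm.trans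
      (oneL.symm.prodCongr tw)))))

variable {N n : ℕ} {X : Type} [TopologicalSpace X] {F : Fam N X}

/-- the chart with prescribed discs -/
def aix (F : Fam N X) (i : F.ι) (s : Fin 2 → Bool) (sv : Bool) (r : Fin 2 → Bool) :
    (ambFam F).ι := (i, ((s 0, s 1), (sv, (r 0, r 1))))

/-- the coordinates of a point -/
def cor (F : Fam N X) (i : F.ι) (s : Fin 2 → Bool) (sv : Bool) (r : Fin 2 → Bool)
    (P : Amb X) : E8 N :=
  (F.e i P.1, fun j => pc (s j) (P.2.1 j), pc sv P.2.2.1, fun j => pc (r j) (P.2.2.2 j))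

theorem ambL_app (y : Cn N) (a b c d e : Cn 1) :
    ambL N (app y (app (app a b) (app c (app d e)))) =
      (y, ![a 0, b 0], c 0, ![d 0, e 0]) := by
  show ((fstL N 5 (app y (app (app a b) (app c (app d e)))),
    tw (fstL (1 + 1) 3 (sndL N 5 (app y (app (app a b) (app c (app d e)))))),
    (fstL 1 (1 + 1) (sndL (1 + 1) 3 (sndL N 5 (app y (app (app a b) (app c (app d e))))))) 0,
    tw (sndL 1 (1 + 1) (sndL (1 + 1) 3 (sndL N 5 (app y (app (app a b) (app c (app d e)))))))) :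
      E8 N) = _
  rw [fstL_app, sndL_app, fstL_app, sndL_app, fstL_app, sndL_app, tw_app, tw_app]

theorem ambL_e (i : F.ι) (s : Fin 2 → Bool) (sv : Bool) (r : Fin 2 → Bool) (P : Amb X) :
    ambL N ((ambFam F).e (aix F i s sv r) P) = cor F i s sv r P := by
  have h1 : (ambFam F).e (aix F i s sv r) P =
    app (F.e i P.1) (app (app (pch (s 0) (P.2.1 0)) (pch (s 1) (P.2.1 1)))
      (app (pch sv P.2.2.1) (app (pch (r 0) (P.2.2.2 0)) (pch (r 1) (P.2.2.2 1))))) := rfl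
  rw [h1, ambL_app]
  refine Prod.ext rfl (Prod.ext ?_ (Prod.ext rfl ?_))
  · funext j
    fin_cases j <;> rfl
  · funext j
    fin_cases j <;> rfl

theorem mem_source {i : F.ι} {s : Fin 2 → Bool} {sv : Bool} {r : Fin 2 → Bool} {P : Amb X} :
    P ∈ ((ambFam F).e (aix F i s sv r)).source ↔ P.1 ∈ (F.e i).source ∧
      (∀ j, P.2.1 j ∈ ps (s j)) ∧ P.2.2.1 ∈ ps sv ∧ ∀ j, P.2.2.2 j ∈ ps (r j) := by
  have h1 : P ∈ ((ambFam F).e (aix F i s sv r)).source ↔ P.1 ∈ (F.e i).source ∧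
      ((True ∧ P.2.1 0 ∈ ps (s 0) ∧ P.2.1 1 ∈ ps (s 1)) ∧ P.2.2.1 ∈ ps sv ∧
        (True ∧ P.2.2.2 0 ∈ ps (r 0) ∧ P.2.2.2 1 ∈ ps (r 1))) := Iff.rfl
  rw [h1, Fin.forall_fin_two, Fin.forall_fin_two]
  simp only [true_and]

/-- slices of level sets in the ambient space -/
theorem exists_slice_amb {E' : Type*} [NormedAddCommGroup E'] [NormedSpace ℂ E']
    [FiniteDimensional ℂ E'] (hE : Module.finrank ℂ E' = 5) {S : Set (Amb X)} {P : Amb X}
    (i : F.ι) (s : Fin 2 → Bool) (sv : Bool) (r : Fin 2 → Bool)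
    (hi : P.1 ∈ (F.e i).source) (hs : ∀ j, P.2.1 j ∈ ps (s j)) (hv : P.2.2.1 ∈ ps sv)
    (hr : ∀ j, P.2.2.2 j ∈ ps (r j)) {W : Set (E8 N)} (hW : IsOpen W)
    (hPW : cor F i s sv r P ∈ W) {Φ : E8 N → E'} (hΦ : DifferentiableOn ℂ Φ W)
    (hS : ∀ Q : Amb X, Q.1 ∈ (F.e i).source → (∀ j, Q.2.1 j ∈ ps (s j)) → Q.2.2.1 ∈ ps sv →
      (∀ j, Q.2.2.2 j ∈ ps (r j)) → cor F i s sv r Q ∈ W →
      (Q ∈ S ↔ Φ (cor F i s sv r Q) = 0))
    (hsur : Function.Surjective (fderiv ℂ Φ (cor F i s sv r P))) :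
    ∃ c : Slice (ambFam F) S N, P ∈ c.dom := by
  refine exists_slice_lin (F := ambFam F) (by rw [hE]) (ambL N) (aix F i s sv r)
    (mem_source.2 ⟨hi, hs, hv, hr⟩) hW (by rw [ambL_e]; exact hPW) hΦ ?_
    (by rw [ambL_e]; exact hsur)
  intro Q hQ hQW
  rw [ambL_e] at hQW ⊢
  obtain ⟨h1, h2, h3, h4⟩ := mem_source.1 hQ
  exact hS Q h1 h2 h3 h4 hQW

end

end Crest.Agent.R272.GrFr_54
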