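import Crest.Agent.R273.Fam_835
import Crest.Agent.R272.DCov1_426

/-!
# R272 (S0415), MOD-GRAPH (helper559), file 0: the projective line `P1 = OnePoint ℂ`

`n, d : P1 → ℂ` homogeneous representative (`n ∞ = 1, d ∞ = 0, n c = c, d c = 1`);
`FamE E M` : holomorphic charts with values in an arbitrary normed space; `famP : FamE ℂ P1`.
-/

set_option autoImplicit false
set_option linter.unusedSectionVars false

open Set Filter Topology Complex

namespace Crest.Agent.R272.Gr_559

noncomputable section

/-- the projective line -/
abbrev P1 : Type := OnePoint ℂ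

namespace P1

/-- first homogeneous coordinate of the normalised representative -/
def n (t : P1) : ℂ := t.elim 1 id
/-- second homogeneous coordinate of the normalised representative -/
def d (t : P1) : ℂ := t.elim 0 (fun _ => 1)

@[simp] theorem n_infty : n (OnePoint.infty : P1) = 1 := rfl
@[simp] theorem d_infty : d (OnePoint.infty : P1) = 0 := rfl
@[simp] theorem n_coe (c : ℂ) : n (c : P1) = c := rfl
@[simp] theorem d_coe (c : ℂ) : d (c : P1) = 1 := rfl

theorem nd_ne (t : P1) : ¬ (n t = 0 ∧ d t = 0) := by
  induction t using OnePoint.rec with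
  | infty => simp
  | coe c => simp

/-- the point `[a : b]` (with the convention `∞` if `b = 0`) -/
def mk (a b : ℂ) : P1 := if b = 0 then OnePoint.infty else ((a / b : ℂ) : P1)

theorem mk_of_ne {a b : ℂ} (hb : b ≠ 0) : mk a b = ((a / b : ℂ) : P1) := if_neg hb
@[simp] theorem mk_zero (a : ℂ) : mk a 0 = OnePoint.infty := if_pos rfl

@[simp] theorem mk_nd (t : P1) : mk (n t) (d t) = t := by
  induction t using OnePoint.rec with
  | infty => simp
  | coe c => simp [mk]

/-- `t = [a : b]` as an equation -/
theorem rel_iff {a b : ℂ} (h : ¬ (a = 0 ∧ b = 0)) (t : P1) : a * d t = b * n t ↔ t = mk a b := by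
  induction t using OnePoint.rec with
  | infty =>
    simp only [d_infty, mul_zero, n_infty, mul_one]
    by_cases hb : b = 0
    · simp [hb]
    · simp only [mk_of_ne hb, OnePoint.infty_ne_coe, iff_false]
      exact fun h => hb h.symm
  | coe c =>
    simp only [d_coe, mul_one, n_coe]
    by_cases hb : b = 0
    · subst hb
      simp only [zero_mul, mk_zero, OnePoint.coe_ne_infty, iff_false]
      exact fun ha => h ⟨ha, rfl⟩
    · rw [mk_of_ne hb]
      rw [OnePoint.coe_eq_coe]
      constructor
      · intro h2; rw [h2]; field_simp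
      · intro h2; rw [h2]; field_simp

theorem rel_mk {a b : ℂ} (h : ¬ (a = 0 ∧ b = 0)) : a * d (mk a b) = b * n (mk a b) :=
  (rel_iff h _).2 rfl

/-- the inversion -/
def inv (t : P1) : P1 := mk (d t) (n t)

@[simp] theorem inv_infty : inv (OnePoint.infty : P1) = ((0 : ℂ) : P1) := by
  simp [inv, mk]

@[simp] theorem inv_zero : inv ((0 : ℂ) : P1) = (OnePoint.infty : P1) := by
  simp [inv, mk]

theorem inv_coe {c : ℂ} (hc : c ≠ 0) : inv (c : P1) = ((c⁻¹ : ℂ) : P1) := by
  simp [inv, mk, hc]

theorem inv_inv (t : P1) : inv (inv t) = t := by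
  induction t using OnePoint.rec with
  | infty => simp
  | coe c =>
    by_cases hc : c = 0
    · simp [hc]
    · rw [inv_coe hc, inv_coe (inv_ne_zero hc), _root_.inv_inv]

theorem continuous_inv : Continuous inv := by
  rw [continuous_iff_continuousAt]
  intro t
  induction t using OnePoint.rec with
  | infty =>
    rw [OnePoint.continuousAt_infty']
    simp only [inv_infty]
    have h1 : Tendsto (fun c : ℂ => ((c⁻¹ : ℂ) : P1)) (coclosedCompact ℂ)
        (𝓝 ((0 : ℂ) : P1)) := by
      refine (OnePoint.continuous_coe.tendsto (0 : ℂ)).comp ?_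
      rw [coclosedCompact_eq_cocompact, ← Metric.cobounded_eq_cocompact]
      exact tendsto_inv₀_cobounded
    refine h1.congr' ?_
    have h2 : ∀ᶠ c : ℂ in coclosedCompact ℂ, c ≠ 0 := by
      rw [coclosedCompact_eq_cocompact]
      exact (isCompact_singleton (x := (0 : ℂ))).compl_mem_cocompact
    filter_upwards [h2] with c hc
    simp only [Function.comp]
    rw [inv_coe hc]
  | coe c =>
    rw [OnePoint.continuousAt_coe]
    by_cases hc : c = 0
    · subst hc
      simp only [ContinuousAt, Function.comp]
      rw [inv_zero, ← nhdsNE_sup_pure (0 : ℂ)]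
      refine Tendsto.sup ?_ ?_
      · have h1 : Tendsto (fun c : ℂ => ((c⁻¹ : ℂ) : P1)) (𝓝[≠] 0) (𝓝 OnePoint.infty) := by
          refine (OnePoint.tendsto_coe_infty (X := ℂ)).comp ?_
          rw [coclosedCompact_eq_cocompact, ← Metric.cobounded_eq_cocompact]
          exact tendsto_inv₀_nhdsNE_zero
        refine h1.congr' ?_
        filter_upwards [self_mem_nhdsWithin] with z hz
        show ((z⁻¹ : ℂ) : P1) = inv (z : P1)
        rw [inv_coe hz]
      · have h2 : Tendsto (fun x : ℂ => inv (x : P1)) (pure 0) (pure (inv ((0 : ℂ) : P1))) :=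
          tendsto_pure_pure _ _
        rw [inv_zero] at h2
        exact h2.mono_right (pure_le_nhds _)
    · have h1 : ContinuousAt (fun x : ℂ => ((x⁻¹ : ℂ) : P1)) c :=
        ContinuousAt.comp (g := fun x : ℂ => (x : P1)) OnePoint.continuous_coe.continuousAt
          (continuousAt_inv₀ hc)
      refine h1.congr ?_
      filter_upwards [isOpen_ne.mem_nhds hc] with z hz
      simp only [Function.comp]
      rw [inv_coe hz]

/-- the inversion as a homeomorphism -/
def invH : P1 ≃ₜ P1 where
  toFun := inv
  invFun := inv
  left_inv := inv_inv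
  right_inv := inv_inv
  continuous_toFun := continuous_inv
  continuous_invFun := continuous_inv

/-- the affine chart `t ≠ ∞` -/
def c0 : OpenPartialHomeomorph P1 ℂ :=
  (OnePoint.isOpenEmbedding_coe (X := ℂ)).toOpenPartialHomeomorph.symm

/-- the affine chart `t ≠ 0`, coordinate `1/t` -/
def c1 : OpenPartialHomeomorph P1 ℂ := invH.toOpenPartialHomeomorph.trans c0

theorem c0_source : c0.source = {t | t ≠ OnePoint.infty} := by
  simp only [c0, OpenPartialHomeomorph.symm_source,
    Topology.IsOpenEmbedding.toOpenPartialHomeomorph_target]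
  ext t
  induction t using OnePoint.rec with
  | infty => simp
  | coe c => simp

theorem c0_target : c0.target = univ := by
  simp [c0]

@[simp] theorem c0_symm (c : ℂ) : c0.symm c = (c : P1) := by
  simp [c0]

theorem c0_apply {t : P1} (ht : t ≠ OnePoint.infty) : c0 t = n t := by
  induction t using OnePoint.rec with
  | infty => exact absurd rfl ht
  | coe c =>
    have h1 : c0 (c0.symm c) = c := c0.right_inv (by rw [c0_target]; trivial)
    rw [c0_symm] at h1
    rw [h1, n_coe]

@[simp] theorem c0_coe (c : ℂ) : c0 (c : P1) = c := c0_apply (OnePoint.coe_ne_infty c)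

theorem c1_source : c1.source = {t | t ≠ ((0 : ℂ) : P1)} := by
  have : c1.source = inv ⁻¹' c0.source := by
    simp [c1, invH]
  rw [this, c0_source]
  ext t
  simp only [mem_preimage, mem_ofPred_eq]
  refine not_congr ⟨fun h => ?_, fun h => ?_⟩
  · rw [← inv_inv t, h, inv_infty]
  · rw [h, inv_zero]

theorem c1_target : c1.target = univ := by
  simp [c1, c0_target]

theorem c1_apply (t : P1) : c1 t = c0 (inv t) := rfl

theorem c1_symm (c : ℂ) : c1.symm c = inv (c : P1) := by
  show inv (c0.symm c) = _
  rw [c0_symm]

@[simp] theorem c1_infty : c1 (OnePoint.infty : P1) = 0 := by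
  rw [c1_apply, inv_infty, c0_coe]

theorem c1_coe {c : ℂ} (hc : c ≠ 0) : c1 (c : P1) = c⁻¹ := by
  rw [c1_apply, inv_coe hc, c0_coe]

/-- homogeneous equations in the chart `c1`: `[n t : d t] = [1 : c1 t]` -/
theorem c1_rel {t : P1} (ht : t ≠ ((0 : ℂ) : P1)) : d t = n t * c1 t ∧ n t ≠ 0 := by
  induction t using OnePoint.rec with
  | infty => simp
  | coe c =>
    have hc : c ≠ 0 := fun h => ht (by rw [h])
    rw [c1_coe hc]
    simp [hc]

theorem c0_rel {t : P1} (ht : t ≠ OnePoint.infty) : n t = d t * c0 t ∧ d t ≠ 0 := by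
  induction t using OnePoint.rec with
  | infty => exact absurd rfl ht
  | coe c => simp

end P1

/-- holomorphic charts with values in a normed space -/
structure FamE (E : Type) [NormedAddCommGroup E] [NormedSpace ℂ E] (M : Type)
    [TopologicalSpace M] where
  ι : Type
  e : ι → OpenPartialHomeomorph M E
  cover : ∀ x, ∃ i, x ∈ (e i).source
  holo : ∀ i j, DifferentiableOn ℂ (fun z => e j ((e i).symm z))
    {z | z ∈ (e i).target ∧ (e i).symm z ∈ (e j).source}

/-- the two affine charts of `P1`; `false` : coordinate `t`, `true` : coordinate `1/t` -/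
def famP : FamE ℂ P1 where
  ι := Bool
  e b := if b then P1.c1 else P1.c0
  cover t := by
    by_cases ht : t = OnePoint.infty
    · refine ⟨true, ?_⟩
      simp only [if_true]
      rw [P1.c1_source, ht]
      exact OnePoint.infty_ne_coe _
    · refine ⟨false, ?_⟩
      simp only [Bool.false_eq_true, if_false]
      rw [P1.c0_source]
      exact ht
  holo := by
    have key : DifferentiableOn ℂ (fun z : ℂ => z⁻¹) {z | z ≠ 0} := fun z hz =>
      (differentiableAt_inv hz).differentiableWithinAt
    intro i j
    cases i <;> cases j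
    · simp only [Bool.false_eq_true, if_false, P1.c0_symm, P1.c0_coe]
      exact differentiableOn_id
    · simp only [Bool.false_eq_true, if_false, if_true, P1.c0_symm]
      refine (key.mono ?_).congr ?_
      · rintro z ⟨-, hz⟩
        rw [P1.c1_source] at hz
        exact fun h => hz (by rw [h])
      · rintro z ⟨-, hz⟩
        rw [P1.c1_source] at hz
        exact P1.c1_coe (fun h => hz (by rw [h]))
    · simp only [Bool.false_eq_true, if_false, if_true]
      have h1 : ∀ z ∈ {z | z ∈ P1.c1.target ∧ P1.c1.symm z ∈ P1.c0.source}, z ≠ 0 := by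
        rintro z ⟨-, hz⟩ rfl
        rw [P1.c0_source, P1.c1_symm, P1.inv_zero] at hz
        exact hz rfl
      refine (key.mono h1).congr ?_
      intro z hz
      have hz0 := h1 z hz
      show P1.c0 (P1.c1.symm z) = z⁻¹
      rw [P1.c1_symm, P1.inv_coe hz0, P1.c0_coe]
    · simp only [if_true]
      refine differentiableOn_id.congr ?_
      rintro z -
      show P1.c1 (P1.c1.symm z) = id z
      exact P1.c1.right_inv (by rw [P1.c1_target]; trivial)

end

end Crest.Agent.R272.Gr_559
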