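import Crest.Agent.R272.O5b_74
import Crest.Agent.R272.WMdef_74
import Crest.Agent.R272.GInG1_502
import Crest.Agent.R272.Ball7_916

/-!
helper74, row 272, AR-GRP: the swap element `sU` of `GU`, the group `Gh = K ∪ K s`, its stabilisers on
the ball (trivial or one reflection in a mirror of 620).
-/

set_option autoImplicit false
set_option linter.unusedSectionVars false
set_option linter.unusedVariables false

open scoped ComplexConjugate
open Matrix

namespace Crest.Agent.R272.GrpA_74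

open Crest.Agent.R272.In_68 Crest.Agent.R272.EBase_641 Crest.Agent.R272.O5_74
open Crest.Agent.R272.WM_74 Crest.Agent.R272.Ball7_916 Crest.Agent.R272.GInG_502
open Crest.Agent.R272.Fix1_74 Crest.Agent.R272.Fix2_74 Crest.Agent.R272.Fix3_74

noncomputable section

variable {O : Subring (Fin 2 → ℂ)} {z μ : Fin 2 → ℂ}

/-! ### place `0` is injective on `O` -/

theorem inj0 (h : Z5r O z) {x y : Fin 2 → ℂ} (hx : x ∈ O) (hy : y ∈ O) (e : x 0 = y 0) : x = y := by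
  by_contra hne
  have h1 : x - y ≠ 0 := sub_ne_zero.2 hne
  have h2 := h.ord.norm_ge (x - y) (O.sub_mem hx hy) h1
  rw [Fin.prod_univ_two, Pi.sub_apply, e, sub_self, norm_zero, zero_mul] at h2
  linarith

theorem mat_ext (h : Z5r O z) {M N : Mt} (hM : ∀ i j, M i j ∈ O) (hN : ∀ i j, N i j ∈ O)
    (e : ∀ i j, M i j 0 = N i j 0) : M = N := by
  ext1 i j
  exact inj0 h (hM i j) (hN i j) (e i j)

/-! ### the swap element -/

theorem swp_mem (h : Z5r O z) (i j : Fin 4) : swp i j ∈ O := by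
  obtain ⟨rfl, rfl⟩ := Z5r_unique h
  rw [← Φ_swapM]; exact Φ_mem _

theorem swp_rf (h : Z5r O z) (v : Fin 4 → Fin 2 → ℂ) :
    swp *ᵥ v = Cls_620.rf (Cls_620.HH z) Cls_620.mi v := by
  obtain ⟨rfl, rfl⟩ := Z5r_unique h
  exact swp_mulVec v

/-- the swap as a unit -/
def sM : Mtˣ := ⟨swp, swp, swp_mul_self, swp_mul_self⟩

/-- **the swap element of `GU`** -/
def sU (h : Z5r O z) : GU O z := ⟨sM, swp_mem h, swp_mem h, fun v w => by
  show Cls_620.hh (Cls_620.HH z) (swp *ᵥ v) (swp *ᵥ w) = _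
  rw [swp_rf h, swp_rf h]
  exact Cls_620.rf_hh h.toZ5.frm Cls_620.g_mm v w⟩

theorem sU_val (h : Z5r O z) : (((sU h : GU O z) : Mtˣ) : Mt) = swp := rfl

theorem sU_mul (h : Z5r O z) : sU h * sU h = 1 := by
  apply Subtype.ext
  apply Units.ext
  exact swp_mul_self

/-! ### congruences -/

theorem div_swp {ν : Fin 2 → ℂ} {g : GU O z} (h : Z5r O z) (hg : g * sU h ∈ GCU O z ν) :
    Div O ν (((g : Mtˣ) : Mt) - swp) := by
  have h1 : Div O ν ((((g * sU h : GU O z) : Mtˣ) : Mt) - 1) := hg.2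
  have e : ((g : Mtˣ) : Mt) - swp = ((((g * sU h : GU O z) : Mtˣ) : Mt) - 1) * swp := by
    have : (((g * sU h : GU O z) : Mtˣ) : Mt) = ((g : Mtˣ) : Mt) * swp := rfl
    rw [this, sub_mul, mul_assoc, swp_mul_self, mul_one, one_mul]
  rw [e]
  exact h1.mul_right (swp_mem h)

theorem not_div_swp (h : Z5r O z) {ν : Fin 2 → ℂ} (hN : 1 < ∏ t, ‖ν t‖)
    (hd : Div O ν (swp - 1)) : False := by
  obtain ⟨u, hu, e⟩ := hd 1 1
  have h1 : (swp - 1 : Mt) 1 1 = -1 := by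
    have h2 : swp 1 1 = 0 := by
      have := congrFun (swp_mulVec (Pi.single 1 1)) 1
      rw [Matrix.mulVec_single_one, Cls_620.rf_mi] at this
      simpa [Matrix.col_apply] using this
    rw [Matrix.sub_apply, h2, Matrix.one_apply_eq, zero_sub]
  rw [h1] at e
  have hu0 : u ≠ 0 := by
    rintro rfl
    rw [mul_zero] at e
    have := congrFun e 0
    simp at this
  have h2 := h.ord.norm_ge u hu hu0
  have h3 : (∏ t, ‖ν t‖) * ∏ t, ‖u t‖ = 1 := by
    rw [← Finset.prod_mul_distrib]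
    have : ∀ t, ‖ν t‖ * ‖u t‖ = 1 := by
      intro t
      rw [← norm_mul, ← Pi.mul_apply, ← e]; simp
    simp [this]
  nlinarith

theorem mem_of_le {K : Subgroup (GU O z)} {ν : Fin 2 → ℂ} (hK : K ≤ GCU O z ν) {g : GU O z}
    (hg : g ∈ K) : Div O ν (((g : Mtˣ) : Mt) - 1) := (hK hg).2

theorem swD (h : Z5r O z) {K : Subgroup (GU O z)} (hKn : K.Normal) {ν : Fin 2 → ℂ}
    (hK : K ≤ GCU O z ν) (hN : 1 < ∏ t, ‖ν t‖) : SwD K (sU h) where
  nrm := hKn
  sq := sU_mul h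
  nmem := fun hs => not_div_swp h hN (mem_of_le hK hs)

/-! ### stabilisers on the ball -/

section stab

variable (h : Z5r O z) {K : Subgroup (GU O z)} (hμ : μ ∈ O)
  (hK : K ≤ GCU O z (Cls_620.pz z * μ)) (hN : 64 < ∏ t, ‖(Cls_620.pz z * μ) t‖)
  (h2 : ∃ c ∈ O, μ = 2 * c) (D : SwD K (sU h))

include h hμ in
theorem pz_mem : Cls_620.pz z * μ ∈ O :=
  O.mul_mem (by rw [Cls_620.pz]; exact O.sub_mem O.one_mem h.zmem) hμ

include hμ hK hN in
/-- `K` acts freely on the ball -/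
theorem K_free {g : GU O z} (hg : g ∈ K) {ζ : E 3} (hζ : ζ ∈ Ball 3)
    (hf : act (rho h g) ζ = ζ) : g = 1 :=
  gc_free h (pz_mem h hμ) hN g (hK hg) hζ hf

include hμ hK hN h2 in
/-- elements outside `K` with a fixed point -/
theorem fix_out {g : GU O z} (hg : g ∈ D.Gh) (hgK : g ∉ K) {ζ : E 3} (hζ : ζ ∈ Ball 3)
    (hf : act (rho h g) ζ = ζ) :
    ∃ r, Cls_620.Mir O z μ r ∧ (∀ v, ((g : Mtˣ) : Mt) *ᵥ v = Cls_620.rf (Cls_620.HH z) r v) ∧
      lin (io h r).1 ζ = 0 ∧ jj (rho h g) ζ = 1 :=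
  swap_fix h hμ hN h2 g (div_swp h (hK ((D.mem_Gh.1 hg).resolve_left hgK))) hζ hf

include hμ hK hN in
theorem fix_eq {g g' : GU O z} (hg : g ∈ D.Gh) (hgK : g ∉ K) (hg' : g' ∈ D.Gh) (hgK' : g' ∉ K)
    {ζ : E 3} (hζ : ζ ∈ Ball 3) (hf : act (rho h g) ζ = ζ) (hf' : act (rho h g') ζ = ζ) :
    g * g = 1 ∧ g' = g := by
  have hd := div_swp h (hK ((D.mem_Gh.1 hg).resolve_left hgK))
  have hd' := div_swp h (hK ((D.mem_Gh.1 hg').resolve_left hgK'))
  have h1 := swap_unique h (pz_mem h hμ) hN g g hd hd hζ hf hf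
  have h2 := swap_unique h (pz_mem h hμ) hN g g' hd hd' hζ hf hf'
  exact ⟨h1, mul_left_cancel (h2.trans h1.symm)⟩

include hμ hK hN h2 in
/-- **stabilisers**: trivial or generated by one reflection in a mirror -/
theorem stab {ζ : E 3} (hζ : ζ ∈ Ball 3) :
    (∀ g : D.Gh, act (rho h g.1) ζ = ζ → g = 1) ∨
      ∃ (s : D.Gh) (r : Fin 4 → Fin 2 → ℂ), s * s = 1 ∧ s.1 ∉ K ∧ Cls_620.Mir O z μ r ∧
        (∀ v, ((s.1 : Mtˣ) : Mt) *ᵥ v = Cls_620.rf (Cls_620.HH z) r v) ∧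
        lin (io h r).1 ζ = 0 ∧ act (rho h s.1) ζ = ζ ∧
        ∀ g : D.Gh, act (rho h g.1) ζ = ζ → g = 1 ∨ g = s := by
  by_cases hex : ∃ s : D.Gh, s.1 ∉ K ∧ act (rho h s.1) ζ = ζ
  · right
    obtain ⟨s, hsK, hs⟩ := hex
    obtain ⟨r, hr, hact, hlin, -⟩ := fix_out h hμ hK hN h2 D s.2 hsK hζ hs
    refine ⟨s, r, ?_, hsK, hr, hact, hlin, hs, fun g hg => ?_⟩
    · exact Subtype.ext (fix_eq h hμ hK hN D s.2 hsK s.2 hsK hζ hs hs).1
    · by_cases hgK : g.1 ∈ K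
      · exact Or.inl (Subtype.ext (K_free h hμ hK hN hgK hζ hg))
      · exact Or.inr (Subtype.ext (fix_eq h hμ hK hN D s.2 hsK g.2 hgK hζ hs hg).2)
  · left
    intro g hg
    by_cases hgK : g.1 ∈ K
    · exact Subtype.ext (K_free h hμ hK hN hgK hζ hg)
    · exact absurd ⟨g, hgK, hg⟩ hex

end stab

/-! ### the action at the ball place determines the element -/

theorem rho_inj (h : Z5r O z) : Function.Injective (rho h) := by
  rw [injective_iff_map_eq_one]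
  intro g hg
  apply Subtype.ext
  apply Units.ext
  refine mat_ext h g.2.1 (GU O z).one_mem.1 fun i j => ?_
  have h1 : ∀ v : Fin 4 → Fin 2 → ℂ, wv h (((g : Mtˣ) : Mt) *ᵥ v) = wv h v := by
    intro v
    rw [← rho_wv, hg]; rfl
  have h2 : ∀ v w : Fin 4 → Fin 2 → ℂ, wv h v = wv h w → ∀ i, v i 0 = w i 0 := by
    intro v w e i
    have h3 : (sc z : ℂ) ≠ 0 := by exact_mod_cast (sc_pos h).ne'
    have h4 : (io h v).1 = (io h w).1 := by
      have := smul_right_injective (V1 3) h3 e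
      exact this
    rw [io_fst, io_fst] at h4
    exact congrFun ((P0 h).injective h4) i
  have h3 := h2 _ _ (h1 (Pi.single j 1)) i
  rw [Matrix.mulVec_single_one] at h3
  have e2 : (Pi.single j 1 : Fin 4 → Fin 2 → ℂ) i = (1 : Mt) i j := by
    rw [Matrix.one_apply, Pi.single_apply]
  rw [e2] at h3
  exact h3

end

end Crest.Agent.R272.GrpA_74
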