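import Crest.Agent.R272.Hom2_839
import Crest.Agent.R272.P1L2_426

/-!
# R272 (S0414), HOM (helper839), part 3: homogeneous coordinates on the four curves
-/

set_option autoImplicit false
set_option linter.unusedSectionVars false

open Set Filter Topology Complex OnePoint

namespace Crest.Agent.R272.Hom_839

open Crest.Agent.R275.Geo Crest.Agent.R275.Core144
open Crest.Agent.R273.Fam_835 Crest.Agent.R273.Map_835
open Crest.Agent.R272.FamP_54 Crest.Agent.R272.P1F_54 Crest.Agent.R272.DCov_426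
open Crest.Agent.R272.P1S_590
open Crest.Agent.R272.P1L_426 (Ch F8 CC BB f16 f8 f4 g8)

noncomputable section

variable {ρ : Type} [Fintype ρ]

theorem IsHom.of {D : DCov_426.Data A1 ρ} {d : ρ → ℕ} {F : ρ → ℂ → ℂ → ℂ}
    (hL : ∀ a, D.L a = O (d a)) (hF : ∀ a, Hom (d a * D.k a) (F a))
    (hs : ∀ a, D.s a = sec (F a)) : IsHom D d F where
  g a s s' a0 a1 h h1 h2 := by
    rw [hL]
    exact O_g_pt h (d a) ⟨h1, h2⟩
  hom a := (hF a).hom
  s a s a0 a1 h h1 := by
    rw [hs]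
    exact sec_pt (hF a) h h1

theorem hom_f16 : Hom 16 f16 := (Hom.pow_fst 16).sub (Hom.pow_snd 16)
theorem hom_f8 : Hom 8 f8 := (Hom.pow_fst 8).sub (Hom.pow_snd 8)
theorem hom_f4 : Hom 4 f4 := (Hom.pow_fst 4).sub (Hom.pow_snd 4)
theorem hom_g8 : Hom 8 g8 := (Hom.pow_snd 8).add ((Hom.pow_fst 8).const_mul I)

/-- `C^` : `(t0, t1; δ, ρ)`, weights `1, 1, 2, 4` -/
theorem isHom_Ch : IsHom Ch ![2, 4] ![f16, g8] := by
  refine IsHom.of (fun a => ?_) (fun a => ?_) (fun a => ?_)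
  · fin_cases a <;> rfl
  · fin_cases a
    · exact hom_f16
    · exact hom_g8
  · fin_cases a <;> rfl

theorem isHom_F8 : IsHom F8 (fun _ => 1) (fun _ => f8) :=
  IsHom.of (fun _ => rfl) (fun _ => hom_f8) fun _ => rfl

theorem isHom_CC : IsHom CC (fun _ => 2) (fun _ => f8) :=
  IsHom.of (fun _ => rfl) (fun _ => hom_f8) fun _ => rfl

theorem isHom_BB : IsHom BB (fun _ => 1) (fun _ => f4) :=
  IsHom.of (fun _ => rfl) (fun _ => hom_f4) fun _ => rfl

end

end Crest.Agent.R272.Hom_839
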