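import Crest.Agent.R272.Sq4a_771
import Crest.Agent.R272.Lc1_771
import Crest.Agent.R272.Hom3_839

/-!
# R272 (S0414), leaf S14-H2 (helper140), part 1: square classes of coincidence of two maps to `BB`

`HCo CX ψ x Z W Y` : `(Z, W; Y)` are holomorphic homogeneous coordinates of `ψ : X → BB.X` near `x`
(839's `Rep`).

`sq_of` : `ψ₂ x = ψ₁ x`, `W₂ Z₁ - Z₂ W₁` a square class at `x`, and if `Y₁ x = Y₂ x = 0`:
`Y₁ = a₁²`, `Y₂ = a₂²` with holomorphic slope `a₂ : a₁`; then for a local coordinate `f` of `BB` at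
`ψ₂ x` the difference `f ∘ ψ₂ - f ∘ ψ₁` is a square class (the form `sq` of 414's `Sq14`).
-/

set_option autoImplicit false
set_option linter.unusedSectionVars false

open Set Filter Topology

namespace Crest.Agent.R272.H2_140

open Crest.Agent.R275.Geo Crest.Agent.R275.Core144
open Crest.Agent.R273.Fam_835 Crest.Agent.R273.Map_835
open Crest.Agent.R272.Quot_783 Crest.Agent.R272.Root_83 Crest.Agent.R272.DCov_426
open Crest.Agent.R272.P1F_54 Crest.Agent.R272.P1S_590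
open Crest.Agent.R272.P1L_426 (Ch F8 CC BB f16 f8 f4 g8)
open Crest.Agent.R272.Hom_839 Crest.Agent.R272.Lc_771 Crest.Agent.R272.Sq4_771

noncomputable section

/-! ### local coordinates on `BB` -/

section BBcoord

variable {AB : Atl 1 BB.X} (hc : Cmp BB.famX AB) {b : BB.X} {Z W Y : ℂ}

/-- the equation of `BB` -/
theorem rep_BB (h : Rep BB (fun _ => 1) b Z W (fun _ => Y)) : Y ^ 4 = Z ^ 4 - W ^ 4 :=
  isHom_BB.rep_eqn h 0

theorem s_ne_of (h : Rep BB (fun _ => 1) b Z W (fun _ => Y)) (hY : Y ≠ 0) {j : Bool}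
    (hj : BB.p b ∈ (A1.e j).source) (a : Fin 1) : BB.s a j (BB.p b) ≠ 0 := by
  have h1 : BB.y a j b = Y / sel j Z W ^ 1 := h.y a j (by rw [← h.p]; exact hj)
  have h2 : sel j Z W ≠ 0 := sel_ne h.ne (by rw [← h.p]; exact hj)
  have h3 := BB.y_pow a (i := j) hj
  rw [← h3, h1]
  exact pow_ne_zero _ (div_ne_zero hY (pow_ne_zero _ h2))

include hc in
/-- `Y ≠ 0`: the base coordinate -/
theorem lc_pcBB (h : Rep BB (fun _ => 1) b Z W (fun _ => Y)) (hY : Y ≠ 0) {s : Bool}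
    (hs : sel s Z W ≠ 0) : LC AB b (fun b => pc s (BB.p b)) := by
  obtain ⟨j, hj⟩ := cover_ch1 (BB.p b)
  refine lc_base BB hc (j := j) hj (s_ne_of h hY hj) (f := pc s) (lc_pc ?_)
  rw [h.p]
  exact (mem_ps_pt h.ne s).2 hs

/-- at `Y = 0` the point lies in the chart `false` -/
theorem mem_false (h : Rep BB (fun _ => 1) b Z W (fun _ => Y)) (hY : Y = 0) :
    BB.p b ∈ (A1.e false).source := by
  have he := rep_BB h
  rw [hY] at he
  have hWZ : W ^ 4 = Z ^ 4 := by linear_combination he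
  have hn : ‖W‖ = ‖Z‖ := by
    have h1 : ‖W‖ ^ 4 = ‖Z‖ ^ 4 := by rw [← norm_pow, ← norm_pow, hWZ]
    exact (pow_left_inj₀ (norm_nonneg _) (norm_nonneg _) (by norm_num)).1 h1
  have hZ : Z ≠ 0 := by
    intro h0
    rcases h.ne with h1 | h1
    · exact h1 h0
    · apply h1
      rw [h0, norm_zero, norm_eq_zero] at hn
      exact hn
  rw [h.p]
  refine mem_ch1.2 ⟨(mem_ps_pt h.ne false).2 hZ, ?_⟩
  rw [pc_pt (s := false) hZ, oth_false, sel_false, norm_div, hn,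
    div_self (norm_ne_zero_iff.2 hZ)]
  norm_num

include hc in
/-- `Y = 0`: the coordinate `Y / Z` -/
theorem lc_yBB (h : Rep BB (fun _ => 1) b Z W (fun _ => Y)) (hY : Y = 0) :
    LC AB b (BB.y 0 false) := by
  have h1 := mem_false h hY
  refine lc_y BB hc (a := 0) (j := false) h1 ?_
  have h2 : BB.y 0 false b = Y / sel false Z W ^ 1 := h.y 0 false (by rw [← h.p]; exact h1)
  have h3 := BB.y_pow 0 (i := false) h1
  rw [← h3, h2, hY, zero_div]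
  exact zero_pow (BB.kpos 0).ne'

end BBcoord

/-! ### two maps to `BB` -/

section Two

variable {n : ℕ} {X : Type} [TopologicalSpace X] {CX : Fam n X}

/-- holomorphic homogeneous coordinates of `ψ : X → BB.X` near `x` -/
structure HCo (CX : Fam n X) (ψ : X → BB.X) (x : X) (Z W Y : X → ℂ) : Prop where
  hZ : HG CX x Z
  hW : HG CX x W
  hY : HG CX x Y
  rep : ∀ᶠ z in 𝓝 x, Rep BB (fun _ => 1) (ψ z) (Z z) (W z) (fun _ => Y z)

variable {AB : Atl 1 BB.X} (hc : Cmp BB.famX AB) {ψ₁ ψ₂ : X → BB.X} {x : X}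
  {Z₁ W₁ Y₁ Z₂ W₂ Y₂ : X → ℂ}

/-- a root of a unit -/
theorem exists_unit_root {Z : X → ℂ} (hZ : HG CX x Z) (h0 : Z x ≠ 0) :
    ∃ r : X → ℂ, HG CX x r ∧ r x ≠ 0 ∧ ∀ᶠ z in 𝓝 x, r z ^ 2 = Z z := by
  obtain ⟨r, V, hV, hxV, hr, hr2⟩ := (SqE.of_ne hZ h0).root hZ
  refine ⟨r, ⟨V, hV, hxV, hr⟩, ?_, ?_⟩
  · intro h
    apply h0
    rw [← hr2 x hxV, h]
    ring
  · filter_upwards [hV.mem_nhds hxV] with z hz
    exact hr2 z hz

include hc in
/-- **the square class of coincidence** -/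
theorem sq_of (r₁ : HCo CX ψ₁ x Z₁ W₁ Y₁) (r₂ : HCo CX ψ₂ x Z₂ W₂ Y₂)
    (hψ : ContinuousAt ψ₁ x) (hψ' : ContinuousAt ψ₂ x)
    (hsq : SqE CX x (fun z => W₂ z * Z₁ z - Z₂ z * W₁ z) (fun _ => 1))
    (hY0 : Y₁ x = 0 → Y₂ x = 0 → ∃ a₁ a₂ : X → ℂ, HG CX x a₁ ∧ HG CX x a₂ ∧
      (∃ᶠ z in 𝓝 x, a₁ z ≠ 0) ∧ (∃ᶠ z in 𝓝 x, a₂ z ≠ 0) ∧ (∀ᶠ z in 𝓝 x, Y₁ z = a₁ z ^ 2) ∧
      (∀ᶠ z in 𝓝 x, Y₂ z = a₂ z ^ 2) ∧ Slope CX x a₂ a₁)
    (heq : ψ₂ x = ψ₁ x) :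
    ∃ f, LC AB (ψ₂ x) f ∧ SqE CX x (fun z => f (ψ₂ z) - f (ψ₁ z)) (fun _ => 1) := by
  have p₁ := r₁.rep.self_of_nhds
  have p₂ := r₂.rep.self_of_nhds
  -- the coordinates at `x` are proportional
  have p₁' : Rep BB (fun _ => 1) (ψ₂ x) (Z₁ x) (W₁ x) (fun _ => Y₁ x) := by rw [heq]; exact p₁
  obtain ⟨c, hc0, eZ, eW, eY⟩ := isHom_BB.rep_rel p₂ p₁'
  have eY' : Y₁ x = c * Y₂ x := by
    have := eY 0
    rwa [pow_one] at this
  -- base coordinates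
  have base : Y₂ x ≠ 0 → ∀ s : Bool, sel s (Z₂ x) (W₂ x) ≠ 0 →
      SqE CX x (fun z => oth s (Z₂ z) (W₂ z) / sel s (Z₂ z) (W₂ z) -
        oth s (Z₁ z) (W₁ z) / sel s (Z₁ z) (W₁ z)) (fun _ => 1) →
      ∃ f, LC AB (ψ₂ x) f ∧ SqE CX x (fun z => f (ψ₂ z) - f (ψ₁ z)) (fun _ => 1) := by
    intro hY s hs h
    refine ⟨fun b => pc s (BB.p b), lc_pcBB hc p₂ hY hs, (SqE.of_eq ?_).trans h⟩
    have hs1 : sel s (Z₁ x) (W₁ x) ≠ 0 := by
      rw [eZ, eW, sel_smul]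
      exact mul_ne_zero hc0 hs
    have hsel : ∀ (Z W : X → ℂ), HG CX x Z → HG CX x W →
        ContinuousAt (fun z => sel s (Z z) (W z)) x := by
      intro Z W hZ hW
      cases s
      · exact hZ.continuousAt
      · exact hW.continuousAt
    filter_upwards [r₁.rep, r₂.rep, (hsel Z₁ W₁ r₁.hZ r₁.hW).eventually_ne hs1,
      (hsel Z₂ W₂ r₂.hZ r₂.hW).eventually_ne hs] with z h1 h2 h3 h4
    rw [h1.p, h2.p, pc_pt h3, pc_pt h4]
  by_cases hY : Y₂ x = 0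
  · -- the coordinate `Y / Z`
    have hY1 : Y₁ x = 0 := by rw [eY', hY, mul_zero]
    have hm := mem_false p₂ hY
    have hZ2 : Z₂ x ≠ 0 := by
      have := sel_ne p₂.ne (s := false) (by rw [← p₂.p]; exact hm)
      exact this
    have hZ1 : Z₁ x ≠ 0 := by rw [eZ]; exact mul_ne_zero hc0 hZ2
    have hW1 : W₁ x ≠ 0 := by
      intro h0
      have h1 := rep_BB p₁
      rw [hY1, h0] at h1
      apply hZ1
      have : Z₁ x ^ 4 = 0 := by linear_combination -h1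
      exact pow_eq_zero_iff (by norm_num) |>.1 this
    obtain ⟨a₁, a₂, ha₁, ha₂, f₁, f₂, s₁, s₂, hs⟩ := hY0 hY1 hY
    obtain ⟨q₁, hq₁, q₁0, hq₁2⟩ := exists_unit_root r₁.hZ hZ1
    obtain ⟨q₂, hq₂, q₂0, hq₂2⟩ := exists_unit_root r₂.hZ hZ2
    have hslope : Slope CX x (fun z => a₂ z * (q₂ z)⁻¹) (fun z => a₁ z * (q₁ z)⁻¹) :=
      hs.units (v := fun z => (q₂ z)⁻¹) (w := fun z => (q₁ z)⁻¹) (hq₂.inv q₂0) (hq₁.inv q₁0)
        (inv_ne_zero q₂0) (inv_ne_zero q₁0) (Eventually.of_forall fun z => mul_comm _ _)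
        (Eventually.of_forall fun z => mul_comm _ _)
    have fr : ∀ {a q : X → ℂ}, HG CX x a → HG CX x q → q x ≠ 0 → (∃ᶠ z in 𝓝 x, a z ≠ 0) →
        ∃ᶠ z in 𝓝 x, a z * (q z)⁻¹ ≠ 0 := by
      intro a q ha hq hq0 hf
      exact (hf.and_eventually (hq.continuousAt.eventually_ne hq0)).mono fun z hz =>
        mul_ne_zero hz.1 (inv_ne_zero hz.2)
    have key := h_Y (C := CX) (x := x) (Z₁ := Z₁) (X₁ := W₁) (Y₁ := Y₁) (Z₂ := Z₂) (X₂ := W₂)
      (Y₂ := Y₂) (e₁ := fun z => a₁ z * (q₁ z)⁻¹) (e₂ := fun z => a₂ z * (q₂ z)⁻¹)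
      r₁.hZ r₂.hZ r₁.hW r₂.hW hZ1 hZ2 hW1 (by rw [eZ, eW]; ring)
      (r₁.rep.mono fun z hz => rep_BB hz) (r₂.rep.mono fun z hz => rep_BB hz)
      (ha₁.mul (hq₁.inv q₁0)) (ha₂.mul (hq₂.inv q₂0)) (fr ha₁ hq₁ q₁0 f₁) (fr ha₂ hq₂ q₂0 f₂)
      (by
        filter_upwards [s₁, hq₁2, hq₁.continuousAt.eventually_ne q₁0] with z h1 h2 h3
        rw [h1, ← h2]
        field_simp)
      (by
        filter_upwards [s₂, hq₂2, hq₂.continuousAt.eventually_ne q₂0] with z h1 h2 h3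
        rw [h1, ← h2]
        field_simp)
      hslope hsq
    refine ⟨BB.y 0 false, lc_yBB hc p₂ hY, (SqE.of_eq ?_).trans key⟩
    have m₁ : ∀ᶠ z in 𝓝 x, BB.p (ψ₁ z) ∈ (A1.e false).source :=
      (BB.continuous_p.continuousAt.comp hψ).eventually
        ((A1.e false).open_source.mem_nhds (by show BB.p (ψ₁ x) ∈ _; rw [← heq]; exact hm))
    have m₂ : ∀ᶠ z in 𝓝 x, BB.p (ψ₂ z) ∈ (A1.e false).source :=
      (BB.continuous_p.continuousAt.comp hψ').eventually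
        ((A1.e false).open_source.mem_nhds hm)
    filter_upwards [r₁.rep, r₂.rep, m₁, m₂] with z h1 h2 h3 h4
    rw [h1.p] at h3
    rw [h2.p] at h4
    rw [h1.y 0 false h3, h2.y 0 false h4, pow_one, pow_one]
    rfl
  · by_cases hZ : Z₂ x = 0
    · have hW : W₂ x ≠ 0 := p₂.ne.resolve_left fun h => h hZ
      have hW1 : W₁ x ≠ 0 := by rw [eW]; exact mul_ne_zero hc0 hW
      exact base hY true hW (h_X r₁.hW r₂.hW hW1 hW hsq)
    · have hZ1 : Z₁ x ≠ 0 := by rw [eZ]; exact mul_ne_zero hc0 hZ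
      exact base hY false hZ (h_Z r₁.hZ r₂.hZ hZ1 hZ hsq)

end Two

end

end Crest.Agent.R272.H2_140
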