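import Crest.Agent.R272.Hom3_839

/-!
# R272 (S0414), M14 (helper590), part 1: the maps `φ : CC → BB`, `Ĉ → CC`, `F8 → BB`

* `phi`  : `[a0 : a1; b] ↦ [a0² : a1²; b]`
* `kC`   : `[t0 : t1; δ, ρ] ↦ [t0² : t1²; δ²]`
* `kF`   : `[ζ : ω; e] ↦ [ζ² : ω²; e²]`
* `z0 : CC.X`, `w0 : BB.X` : the points `(1, 0; -1)`; `phi_z0 : phi z0 = w0`
-/

set_option autoImplicit false
set_option linter.unusedSectionVars false

open Set Filter Topology Complex

namespace Crest.Agent.R272.M14_590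

open Crest.Agent.R275.Geo Crest.Agent.R275.Core144
open Crest.Agent.R273.Fam_835 Crest.Agent.R273.Map_835
open Crest.Agent.R272.FamP_54 Crest.Agent.R272.P1F_54 Crest.Agent.R272.DCov_426
open Crest.Agent.R272.P1S_590 Crest.Agent.R272.Hom_839
open Crest.Agent.R272.P1L_426 (Ch F8 CC BB f16 f8 f4 g8)

noncomputable section

/-- `φ = [a0² : a1²; b]` -/
def Tphi : HMap CC (fun _ => 2) (fun _ => f8) BB (fun _ => 1) (fun _ => f4) where
  e := 2
  b0 a0 _ _ := a0 ^ 2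
  b1 _ a1 _ := a1 ^ 2
  w _ _ _ v := v 0
  diff0 := by fun_prop
  diff1 := by fun_prop
  diffw _ := by fun_prop
  hom0 c a0 a1 v := by ring
  hom1 c a0 a1 v := by ring
  homw β c a0 a1 v := by simp
  ne a0 a1 v h _ := h.imp (pow_ne_zero 2) (pow_ne_zero 2)
  eqn a0 a1 v _ hv β := by
    have h1 : v 0 ^ 4 = a0 ^ 8 - a1 ^ 8 := hv 0
    show v 0 ^ 4 = (a0 ^ 2) ^ 4 - (a1 ^ 2) ^ 4
    rw [h1]
    ring

/-- `κ_C = [t0² : t1²; δ²]` -/
def TkC : HMap Ch ![2, 4] ![f16, g8] CC (fun _ => 2) (fun _ => f8) where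
  e := 2
  b0 a0 _ _ := a0 ^ 2
  b1 _ a1 _ := a1 ^ 2
  w _ _ _ v := v 0 ^ 2
  diff0 := by fun_prop
  diff1 := by fun_prop
  diffw _ := by fun_prop
  hom0 c a0 a1 v := by ring
  hom1 c a0 a1 v := by ring
  homw β c a0 a1 v := by
    show (c ^ 2 * v 0) ^ 2 = (c ^ 2) ^ 2 * v 0 ^ 2
    ring
  ne a0 a1 v h _ := h.imp (pow_ne_zero 2) (pow_ne_zero 2)
  eqn a0 a1 v _ hv β := by
    have h1 : v 0 ^ 8 = a0 ^ 16 - a1 ^ 16 := hv 0
    show (v 0 ^ 2) ^ 4 = (a0 ^ 2) ^ 8 - (a1 ^ 2) ^ 8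
    linear_combination h1

/-- `κ_F = [ζ² : ω²; e²]` -/
def TkF : HMap F8 (fun _ => 1) (fun _ => f8) BB (fun _ => 1) (fun _ => f4) where
  e := 2
  b0 a0 _ _ := a0 ^ 2
  b1 _ a1 _ := a1 ^ 2
  w _ _ _ v := v 0 ^ 2
  diff0 := by fun_prop
  diff1 := by fun_prop
  diffw _ := by fun_prop
  hom0 c a0 a1 v := by ring
  hom1 c a0 a1 v := by ring
  homw β c a0 a1 v := by ring
  ne a0 a1 v h _ := h.imp (pow_ne_zero 2) (pow_ne_zero 2)
  eqn a0 a1 v _ hv β := by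
    have h1 : v 0 ^ 8 = a0 ^ 8 - a1 ^ 8 := hv 0
    show (v 0 ^ 2) ^ 4 = (a0 ^ 2) ^ 4 - (a1 ^ 2) ^ 4
    linear_combination h1

/-- **`φ : CC → BB`** -/
def phi : CC.X → BB.X := Tphi.map isHom_CC isHom_BB

/-- **`κ_C : Ĉ → CC`** -/
def kC : Ch.X → CC.X := TkC.map isHom_Ch isHom_CC

/-- **`κ_F : F8 → BB`** -/
def kF : F8.X → BB.X := TkF.map isHom_F8 isHom_BB

theorem holC_phi : HolC CC.famX BB.famX phi := Tphi.holC_map isHom_CC isHom_BB
theorem holC_kC : HolC Ch.famX CC.famX kC := TkC.holC_map isHom_Ch isHom_CC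
theorem holC_kF : HolC F8.famX BB.famX kF := TkF.holC_map isHom_F8 isHom_BB

theorem rep_phi {q : CC.X} {a0 a1 : ℂ} {v : Fin 1 → ℂ} (r : Rep CC (fun _ => 2) q a0 a1 v) :
    Rep BB (fun _ => 1) (phi q) (a0 ^ 2) (a1 ^ 2) (fun _ => v 0) :=
  Tphi.map_rep isHom_CC isHom_BB r

theorem rep_kC {q : Ch.X} {a0 a1 : ℂ} {v : Fin 2 → ℂ} (r : Rep Ch ![2, 4] q a0 a1 v) :
    Rep CC (fun _ => 2) (kC q) (a0 ^ 2) (a1 ^ 2) (fun _ => v 0 ^ 2) :=
  TkC.map_rep isHom_Ch isHom_CC r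

theorem rep_kF {q : F8.X} {a0 a1 : ℂ} {v : Fin 1 → ℂ} (r : Rep F8 (fun _ => 1) q a0 a1 v) :
    Rep BB (fun _ => 1) (kF q) (a0 ^ 2) (a1 ^ 2) (fun _ => v 0 ^ 2) :=
  TkF.map_rep isHom_F8 isHom_BB r

/-- holomorphic for every pair of compatible atlases -/
theorem holMap_of {n m : ℕ} {X Y : Type} [TopologicalSpace X] [TopologicalSpace Y] {C : Fam n X}
    {E : Fam m Y} {A : Atl n X} {B : Atl m Y} (hA : Cmp C A) (hB : Cmp E B) {f : X → Y}
    (hf : HolC C E f) : HolMap A B f :=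
  holC_iff.1 ((hB.bwd.comp hf).comp hA.fwd)

theorem holMap_phi : HolMap CC.atlX BB.atlX phi := holMap_of CC.cmp_atlX BB.cmp_atlX holC_phi
theorem holMap_kC : HolMap Ch.atlX CC.atlX kC := holMap_of Ch.cmp_atlX CC.cmp_atlX holC_kC
theorem holMap_kF : HolMap F8.atlX BB.atlX kF := holMap_of F8.cmp_atlX BB.cmp_atlX holC_kF

/-! ### base points -/

theorem exists_z0 : ∃ q : CC.X, Rep CC (fun _ => 2) q 1 0 (fun _ => -1) :=
  isHom_CC.rep_exists (Or.inl one_ne_zero) fun _ => by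
    show (-1 : ℂ) ^ 4 = 1 ^ 8 - 0 ^ 8
    norm_num

theorem exists_w0 : ∃ q : BB.X, Rep BB (fun _ => 1) q 1 0 (fun _ => -1) :=
  isHom_BB.rep_exists (Or.inl one_ne_zero) fun _ => by
    show (-1 : ℂ) ^ 4 = 1 ^ 4 - 0 ^ 4
    norm_num

/-- the base point `(α, β) = (0, -1)` -/
def z0 : CC.X := exists_z0.choose

/-- the base point `(X, Y) = (0, -1)` -/
def w0 : BB.X := exists_w0.choose

theorem rep_z0 : Rep CC (fun _ => 2) z0 1 0 (fun _ => -1) := exists_z0.choose_spec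
theorem rep_w0 : Rep BB (fun _ => 1) w0 1 0 (fun _ => -1) := exists_w0.choose_spec

theorem phi_z0 : phi z0 = w0 := by
  have h1 := rep_phi rep_z0
  rw [one_pow, zero_pow two_ne_zero] at h1
  exact IsHom.rep_unique h1 rep_w0

/-- surjectivity: every solution of the two square root equations gives a preimage -/
theorem surj_kF : Function.Surjective kF := by
  intro q
  obtain ⟨a0, a1, v, r⟩ := isHom_BB.exists_rep q
  obtain ⟨b0, hb0⟩ := IsAlgClosed.exists_pow_nat_eq a0 (n := 2) two_pos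
  obtain ⟨b1, hb1⟩ := IsAlgClosed.exists_pow_nat_eq a1 (n := 2) two_pos
  obtain ⟨w, hw⟩ := IsAlgClosed.exists_pow_nat_eq (v 0) (n := 2) two_pos
  have h1 : v 0 ^ 4 = a0 ^ 4 - a1 ^ 4 := isHom_BB.rep_eqn r 0
  obtain ⟨q', r'⟩ := isHom_F8.rep_exists (a0 := b0) (a1 := b1) (v := fun _ => w)
    (by
      rcases r.ne with h | h
      · left; rintro rfl; exact h (by rw [← hb0]; norm_num)
      · right; rintro rfl; exact h (by rw [← hb1]; norm_num))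
    (fun _ => by
      show w ^ 8 = b0 ^ 8 - b1 ^ 8
      rw [← hw, ← hb0, ← hb1] at h1
      linear_combination h1)
  refine ⟨q', ?_⟩
  have h2 := rep_kF r'
  rw [hb0, hb1, hw] at h2
  have h3 : (fun _ : Fin 1 => v 0) = v := by
    funext a
    rw [Fin.fin_one_eq_zero a]
  rw [h3] at h2
  exact IsHom.rep_unique h2 r

theorem surj_kC : Function.Surjective kC := by
  intro q
  obtain ⟨a0, a1, v, r⟩ := isHom_CC.exists_rep q
  obtain ⟨b0, hb0⟩ := IsAlgClosed.exists_pow_nat_eq a0 (n := 2) two_pos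
  obtain ⟨b1, hb1⟩ := IsAlgClosed.exists_pow_nat_eq a1 (n := 2) two_pos
  obtain ⟨w, hw⟩ := IsAlgClosed.exists_pow_nat_eq (v 0) (n := 2) two_pos
  obtain ⟨u, hu⟩ := IsAlgClosed.exists_pow_nat_eq (b1 ^ 8 + I * b0 ^ 8) (n := 2) two_pos
  have h1 : v 0 ^ 4 = a0 ^ 8 - a1 ^ 8 := isHom_CC.rep_eqn r 0
  obtain ⟨q', r'⟩ := isHom_Ch.rep_exists (a0 := b0) (a1 := b1) (v := ![w, u])
    (by
      rcases r.ne with h | h
      · left; rintro rfl; exact h (by rw [← hb0]; norm_num)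
      · right; rintro rfl; exact h (by rw [← hb1]; norm_num))
    (fun a => by
      fin_cases a
      · show w ^ 8 = b0 ^ 16 - b1 ^ 16
        rw [← hw, ← hb0, ← hb1] at h1
        linear_combination h1
      · exact hu)
  refine ⟨q', ?_⟩
  have h2 := rep_kC r'
  have h3 : (fun _ : Fin 1 => (![w, u] : Fin 2 → ℂ) 0 ^ 2) = v := by
    funext a
    rw [Fin.fin_one_eq_zero a]
    exact hw
  rw [hb0, hb1, h3] at h2
  exact IsHom.rep_unique h2 r

end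

end Crest.Agent.R272.M14_590
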