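import Crest.Agent.R272.Sq4c_771
import Crest.Agent.R272.DomT_140
import Crest.Agent.R272.M14a_590
import Crest.Agent.R272.Nl3_595
import Crest.Agent.R272.NlB1_426

/-!
# R272 (S0414), leaf S14-H2 (helper140), part 2: the square class `sq2` (coincidence with `φ`)

* `sMf s s'` : `s_M = o² t0⁴ - z² t1⁴` in the frames `s`, `s' : Bool`;
* `sq2`      : generic (any surface over `C^ × F8`), in the style of 771's `sq4`;
* `prCM`, `prFM`, `pi1`, `pi2` : the maps of `M : NLoc k` (595) to `C^`, `F8`, `CC`, `BB`;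
* `sq2M`     : the field `sq2` of 414's `Sq14` for `M : NLoc k`.
-/

set_option autoImplicit false
set_option linter.unusedSectionVars false

open Set Topology Filter Complex

namespace Crest.Agent.R272.H2_140

open Crest.Agent.R275.Geo Crest.Agent.R275.Core144 Crest.Agent.R273.Fam_835
open Crest.Agent.R273.Map_835 Crest.Agent.R272.Quot_783
open Crest.Agent.R272.Root_83 Crest.Agent.R272.DCov_426 Crest.Agent.R272.P1F_54
open Crest.Agent.R272.P1S_590 Crest.Agent.R272.Hom_839 Crest.Agent.R272.Lc_771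
open Crest.Agent.R272.P1L_426 (Ch F8 CC BB f16 f8 f4 g8)
open Crest.Agent.R272.Sq4_771 Crest.Agent.R272.M14_590 Crest.Agent.R272.Nl_595
open Crest.Agent.R272.Adp_409 Crest.Agent.R272.Asm2_102 Crest.Agent.R272.BlA_266
open Crest.Agent.R272.Tow_102

noncomputable section

/-- `s_M = o² t0⁴ - z² t1⁴` in the frames `s`, `s'` -/
def sMf (s s' : Bool) (q : Ch.X) (q' : F8.X) : ℂ :=
  u1 s' (pc s' (F8.p q')) ^ 2 * u0 s (pc s (Ch.p q)) ^ 4 -
    u0 s' (pc s' (F8.p q')) ^ 2 * u1 s (pc s (Ch.p q)) ^ 4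

section surface

variable {n : ℕ} {X : Type} [TopologicalSpace X] {CX : Fam n X} {πC : X → Ch.X} {πF : X → F8.X}
  {AC : Atl 1 Ch.X} {AF : Atl 1 F8.X} (hC : Cmp Ch.famX AC) (hF : Cmp F8.famX AF)
  (hπC : HolC CX (fam AC) πC) (hπF : HolC CX (fam AF) πF) {x : X}
  (dC : Dom CX (fam AC) πC x) (dF : Dom CX (fam AF) πF x)
  {AB' : Atl 1 BB.X} (hBB : Cmp BB.famX AB')

include hC hF hπC hπF dC dF hBB in
/-- **(H2)** -/
theorem sq2 {s s' : Bool} (hs : Ch.p (πC x) ∈ (A1.e s).source)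
    (hs' : F8.p (πF x) ∈ (A1.e s').source)
    (hM : SqE CX x (fun y => sMf s s' (πC y) (πF y)) (fun _ => 1))
    (hsl : Ch.y 0 s (πC x) = 0 → F8.y 0 s' (πF x) = 0 → sMf s s' (πC x) (πF x) = 0 →
      Slope CX x (fun y => F8.y 0 s' (πF y)) (fun y => Ch.y 0 s (πC y)))
    (hx : kF (πF x) = phi (kC (πC x))) :
    ∃ g, LC AB' (kF (πF x)) g ∧
      SqE CX x (fun z => g (kF (πF z)) - g (phi (kC (πC z)))) (fun _ => 1) := by
  have gt0 := (hg_u0 hC hs).comp hπC
  have gt1 := (hg_u1 hC hs).comp hπC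
  have gd := (hg_y Ch hC 0 (j := s) hs).comp hπC
  have gz := (hg_u0 hF hs').comp hπF
  have go := (hg_u1 hF hs').comp hπF
  have ge := (hg_y F8 hF 0 (j := s') hs').comp hπF
  set t0 : X → ℂ := fun y => u0 s (pc s (Ch.p (πC y))) with ht0
  set t1 : X → ℂ := fun y => u1 s (pc s (Ch.p (πC y))) with ht1
  set d : X → ℂ := fun y => Ch.y 0 s (πC y) with hd
  set z : X → ℂ := fun y => u0 s' (pc s' (F8.p (πF y))) with hz
  set o : X → ℂ := fun y => u1 s' (pc s' (F8.p (πF y))) with ho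
  set e : X → ℂ := fun y => F8.y 0 s' (πF y) with he
  have hP : ∀ᶠ y in 𝓝 x, Rep BB (fun _ => 1) (kF (πF y)) (z y ^ 2) (o y ^ 2)
      (fun _ => e y ^ 2) := by
    filter_upwards [ev_F hπF hs'] with y hy using rep_kF hy
  have hH : ∀ᶠ y in 𝓝 x, Rep BB (fun _ => 1) (phi (kC (πC y)))
      ((t0 y ^ 2) ^ 2) ((t1 y ^ 2) ^ 2) (fun _ => d y ^ 2) := by
    filter_upwards [ev_C hπC hs] with y hy using rep_phi (rep_kC hy)
  refine sq_pair hBB ((gt0.pow 2).pow 2) (gz.pow 2) ((gt1.pow 2).pow 2) (go.pow 2) hP hH ?_ ?_ hx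
  · intro hY₂ hY₁ hZ₁ hZ₂
    have hex : e x = 0 := pow_eq_zero_iff two_ne_zero |>.1 hY₂
    have hdx : d x = 0 := pow_eq_zero_iff two_ne_zero |>.1 hY₁
    have hzx : z x ≠ 0 := fun h => hZ₂ (by simp [h])
    have htx : t0 x ≠ 0 := fun h => hZ₁ (by simp [h])
    have fd : ∃ᶠ y in 𝓝 x, d y ≠ 0 :=
      dC.freq (hg_y Ch hC 0 (j := s) hs) (freq_y hC 0 hs)
    have fe : ∃ᶠ y in 𝓝 x, e y ≠ 0 :=
      dF.freq (hg_y F8 hF 0 (j := s') hs') (freq_y hF 0 hs')
    have hM0 : sMf s s' (πC x) (πF x) = 0 := by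
      have rP := hP.self_of_nhds
      have rH := hH.self_of_nhds
      rw [← hx] at rH
      obtain ⟨c, hc0, eZ, eX, -⟩ := isHom_BB.rep_rel rH rP
      show o x ^ 2 * t0 x ^ 4 - z x ^ 2 * t1 x ^ 4 = 0
      rw [eZ, eX]; ring
    refine ⟨fun y => d y / t0 y ^ 2, fun y => e y / z y, HG.div gd (gt0.pow 2)
      (pow_ne_zero _ htx), HG.div ge gz hzx, ?_, ?_, ?_, ?_, ?_⟩
    · refine (fd.and_eventually (gt0.continuousAt.eventually_ne htx)).mono ?_
      rintro y ⟨h1, h2⟩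
      exact div_ne_zero h1 (pow_ne_zero _ h2)
    · refine (fe.and_eventually (gz.continuousAt.eventually_ne hzx)).mono ?_
      rintro y ⟨h1, h2⟩
      exact div_ne_zero h1 h2
    · filter_upwards [gt0.continuousAt.eventually_ne htx] with y h1
      show d y ^ 2 = (t0 y ^ 2) ^ 2 * (d y / t0 y ^ 2) ^ 2
      rw [← mul_pow, mul_div_cancel₀ _ (pow_ne_zero 2 h1)]
    · filter_upwards [gz.continuousAt.eventually_ne hzx] with y h1
      show e y ^ 2 = z y ^ 2 * (e y / z y) ^ 2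
      rw [← mul_pow, mul_div_cancel₀ _ h1]
    · have hsl' := hsl hdx hex hM0
      refine Slope.units hsl' (gz.inv hzx) ((gt0.pow 2).inv (pow_ne_zero 2 htx))
        (inv_ne_zero hzx) (inv_ne_zero (pow_ne_zero 2 htx)) ?_ ?_
      · filter_upwards with y
        rw [div_eq_mul_inv, mul_comm]
      · filter_upwards with y
        rw [div_eq_mul_inv, mul_comm]
  · refine (SqE.of_eq ?_).trans hM
    filter_upwards with y
    show o y ^ 2 * (t0 y ^ 2) ^ 2 - z y ^ 2 * (t1 y ^ 2) ^ 2 =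
      o y ^ 2 * t0 y ^ 4 - z y ^ 2 * t1 y ^ 4
    ring

end surface

/-! ### the instance -/

section inst

variable {k : ℂ} (M : NLoc k)

/-- the projection to `C^` -/
def prCM (x : M.D.X) : Ch.X :=
  prC (P := PN k) (hk := PN_k k) (hZ := M.fin) (N := M.N) (hadm := M.adm) (hoff := M.off) x

/-- the projection to `F8` -/
def prFM (x : M.D.X) : F8.X :=
  prF (P := PN k) (hk := PN_k k) (hZ := M.fin) (N := M.N) (hadm := M.adm) (hoff := M.off) x

/-- `π1 : X → CC` -/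
def pi1 (x : M.D.X) : CC.X := kC (prCM M x)

/-- `π2 : X → BB` -/
def pi2 (x : M.D.X) : BB.X := kF (prFM M x)

theorem holC_prCM : HolC M.D.famX (fam Ch.atlX) (prCM M) :=
  holC_prC (P := PN k) (hk := PN_k k) (hZ := M.fin) (N := M.N) (hadm := M.adm) (hoff := M.off)

theorem holC_prFM : HolC M.D.famX (fam F8.atlX) (prFM M) :=
  holC_prF (P := PN k) (hk := PN_k k) (hZ := M.fin) (N := M.N) (hadm := M.adm) (hoff := M.off)

theorem holC_pi1 : HolC M.D.famX (fam CC.atlX) (pi1 M) :=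
  (holC_iff.2 holMap_kC).comp (holC_prCM M)

theorem holC_pi2 : HolC M.D.famX (fam BB.atlX) (pi2 M) :=
  (holC_iff.2 holMap_kF).comp (holC_prFM M)

theorem pr_M (x : M.D.X) : pr (PN k) (PN_k k) M.fin M.N M.adm M.off x = (prCM M x, prFM M x) := rfl

/-- the projection to `C^` is dominant -/
theorem dom_prCM (x : M.D.X) : Dom M.D.famX (fam Ch.atlX) (prCM M) x := by
  have h1 := DomT_140.dom_pr (PN k) (PN_k k) M.fin M.N M.adm M.off x
  have h2 : Dom (fam AN) (fam Ch.atlX) Prod.fst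
      (pr (PN k) (PN_k k) M.fin M.N M.adm M.off x) := dom_of_open isOpenMap_fst continuous_fst
  exact Dom.comp (p := Prod.fst) (r := pr (PN k) (PN_k k) M.fin M.N M.adm M.off)
    (holC_iff.2 (Crest.Agent.R272.Pr_414.fst Ch.atlX F8.atlX)) h2 h1

/-- the projection to `F8` is dominant -/
theorem dom_prFM (x : M.D.X) : Dom M.D.famX (fam F8.atlX) (prFM M) x := by
  have h1 := DomT_140.dom_pr (PN k) (PN_k k) M.fin M.N M.adm M.off x
  have h2 : Dom (fam AN) (fam F8.atlX) Prod.snd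
      (pr (PN k) (PN_k k) M.fin M.N M.adm M.off x) := dom_of_open isOpenMap_snd continuous_snd
  exact Dom.comp (p := Prod.snd) (r := pr (PN k) (PN_k k) M.fin M.N M.adm M.off)
    (holC_iff.2 (Crest.Agent.R272.Pr_414.snd Ch.atlX F8.atlX)) h2 h1

/-- the frames at a point: charts of the canonical atlases over the frames of `P1` -/
theorem exists_frames (x : M.D.X) : ∃ (i : Ch.atlX.ι) (j : F8.atlX.ι),
    prCM M x ∈ (Ch.atlX.e i).source ∧ prFM M x ∈ (F8.atlX.e j).source ∧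
    Ch.p (prCM M x) ∈ (A1.e (Ch.refX.r i)).source ∧
    F8.p (prFM M x) ∈ (A1.e (F8.refX.r j)).source := by
  obtain ⟨i, hi⟩ := Ch.atlX.cover (prCM M x)
  obtain ⟨j, hj⟩ := F8.atlX.cover (prFM M x)
  exact ⟨i, j, hi, hj, Ch.refX.sub i _ hi, F8.refX.sub j _ hj⟩

/-- `s_M` is a square class -/
theorem sqE_sM {x : M.D.X} {i : Ch.atlX.ι} {j : F8.atlX.ι} (hi : prCM M x ∈ (Ch.atlX.e i).source)
    (hj : prFM M x ∈ (F8.atlX.e j).source) :
    SqE M.D.famX x (fun y => sMf (Ch.refX.r i) (F8.refX.r j) (prCM M y) (prFM M y))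
      (fun _ => 1) := by
  have h1 := DomT_140.sqE_s (PN k) (PN_k k) M.fin M.N M.adm M.off 0 (i := (i, j)) (x := x)
    ⟨hi, hj⟩
  refine (SqE.of_eq ?_).trans h1
  have h2 : ∀ᶠ y in 𝓝 x, prCM M y ∈ (Ch.atlX.e i).source :=
    (holC_prCM M).cont.continuousAt.eventually ((Ch.atlX.e i).open_source.mem_nhds hi)
  have h3 : ∀ᶠ y in 𝓝 x, prFM M y ∈ (F8.atlX.e j).source :=
    (holC_prFM M).cont.continuousAt.eventually ((F8.atlX.e j).open_source.mem_nhds hj)
  filter_upwards [h2, h3] with y h4 h5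
  exact (two14_sM Ch.cmp_atlX Ch.refX F8.cmp_atlX F8.refX h4 h5).symm

/-- **the field `sq2` of `Sq14`** -/
theorem sq2M (x : M.D.X) (hx : pi2 M x = phi (pi1 M x)) :
    ∃ f, LC BB.atlX (pi2 M x) f ∧
      SqE M.D.famX x (fun z => f (pi2 M z) - f (phi (pi1 M z))) (fun _ => 1) := by
  obtain ⟨i, j, hi, hj, hs, hs'⟩ := exists_frames M x
  refine sq2 Ch.cmp_atlX F8.cmp_atlX (holC_prCM M) (holC_prFM M) (dom_prCM M x) (dom_prFM M x)
    BB.cmp_atlX hs hs' (sqE_sM M hi hj) ?_ hx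
  intro hd he h0
  have hZ : (prCM M x, prFM M x) ∈ NlB_426.Z k :=
    (NlB_426.mem_Z (q := (prCM M x, prFM M x)) hs hs').2 (Or.inr (Or.inr (Or.inr (Or.inl
      ⟨hd, he, h0⟩))))
  have hcrd := crd_prod (NlB_426.cr_dl Ch.cmp_atlX hs hd) (NlB_426.cr_et F8.cmp_atlX hs' he)
  exact (DomT_140.slope_pr (PN k) (PN_k k) M.fin M.N M.adm M.off hZ (x := x) rfl hcrd hd
    he).symm

end inst

end

end Crest.Agent.R272.H2_140
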