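import Crest.Agent.R272.P1S3_590

/-!
# R272 (S0414), HOM (helper839), part 1: homogeneous coordinates on covers of `P¹`

`D : Data A1 ρ` a cover of the projective line by roots `y_a ^ k_a = F_a (a0, a1)` of binary forms
(`L a = O (d a)`, `F a` homogeneous of degree `d a * k a`).  `IsHom D d F` records this.
`Rep D d q a0 a1 v` : the point `q : D.X` has homogeneous coordinates `(a0, a1; v)`
(weights `1, 1, d a`).
-/

set_option autoImplicit false
set_option linter.unusedSectionVars false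

open Set Filter Topology Complex OnePoint

namespace Crest.Agent.R272.Hom_839

open Crest.Agent.R275.Geo Crest.Agent.R275.Core144
open Crest.Agent.R273.Fam_835 Crest.Agent.R273.Map_835
open Crest.Agent.R272.FamP_54 Crest.Agent.R272.P1F_54 Crest.Agent.R272.DCov_426
open Crest.Agent.R272.P1S_590

noncomputable section

variable {ρ : Type} [Fintype ρ]

/-- `D` is the cover of `P¹` given by the binary forms `F a` of degree `d a * k a` -/
structure IsHom (D : DCov_426.Data A1 ρ) (d : ρ → ℕ) (F : ρ → ℂ → ℂ → ℂ) : Prop where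
  g : ∀ a s s' a0 a1, (a0 ≠ 0 ∨ a1 ≠ 0) → pt a0 a1 ∈ (ch1 s).source → pt a0 a1 ∈ (ch1 s').source →
    (D.L a).g s s' (pt a0 a1) = (sel s' a0 a1 / sel s a0 a1) ^ d a
  hom : ∀ a c x y, F a (c * x) (c * y) = c ^ (d a * D.k a) * F a x y
  s : ∀ a s a0 a1, (a0 ≠ 0 ∨ a1 ≠ 0) → pt a0 a1 ∈ (ch1 s).source →
    D.s a s (pt a0 a1) = F a a0 a1 / sel s a0 a1 ^ (d a * D.k a)

theorem sel_smul (s : Bool) (c a0 a1 : ℂ) : sel s (c * a0) (c * a1) = c * sel s a0 a1 := by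
  cases s <;> rfl

/-- `q` has homogeneous coordinates `(a0, a1; v)` -/
structure Rep (D : DCov_426.Data A1 ρ) (d : ρ → ℕ) (q : D.X) (a0 a1 : ℂ) (v : ρ → ℂ) : Prop where
  ne : a0 ≠ 0 ∨ a1 ≠ 0
  p : D.p q = pt a0 a1
  y : ∀ a s, pt a0 a1 ∈ (ch1 s).source → D.y a s q = v a / sel s a0 a1 ^ d a

variable {D : DCov_426.Data A1 ρ} {d : ρ → ℕ} {F : ρ → ℂ → ℂ → ℂ}

namespace IsHom

variable (h : IsHom D d F)

include h

/-- the normalised homogeneous coordinates of a point -/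
theorem rep_norm {q : D.X} {s : Bool} (hq : D.p q ∈ (ch1 s).source) :
    Rep D d q (u0 s (pc s (D.p q))) (u1 s (pc s (D.p q))) (fun a => D.y a s q) := by
  have hp : D.p q = pt (u0 s (pc s (D.p q))) (u1 s (pc s (D.p q))) := by
    rw [← pinv_eq, pinv_pc (mem_ch1.1 hq).1]
  refine ⟨u_ne _ _, hp, fun a s' hs' => ?_⟩
  have hs : pt (u0 s (pc s (D.p q))) (u1 s (pc s (D.p q))) ∈ (ch1 s).source := by rwa [← hp]
  have h1 : D.y a s' q = (D.L a).g s' s (D.p q) * D.y a s q := by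
    refine D.y_tr a (i := s') (j := s) ?_ hq
    rw [hp]; exact hs'
  have h2 := h.g a s' s _ _ (u_ne _ _) hs' hs
  rw [← hp] at h2
  rw [h1, h2, sel_u, one_div, inv_pow, inv_mul_eq_div]

theorem exists_rep (q : D.X) : ∃ a0 a1 v, Rep D d q a0 a1 v := by
  obtain ⟨s, hs⟩ := cover_ch1 (D.p q)
  exact ⟨_, _, _, h.rep_norm hs⟩

theorem rep_eqn {q : D.X} {a0 a1 : ℂ} {v : ρ → ℂ} (r : Rep D d q a0 a1 v) (a : ρ) :
    v a ^ D.k a = F a a0 a1 := by
  obtain ⟨s, hs⟩ := cover_ch1 (pt a0 a1)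
  have h0 := sel_ne r.ne hs
  have h1 : D.y a s q ^ D.k a = D.s a s (D.p q) := D.y_pow a (i := s) (by rw [r.p]; exact hs)
  rw [r.p, h.s a s a0 a1 r.ne hs, r.y a s hs, div_pow, ← pow_mul] at h1
  exact (div_left_inj' (pow_ne_zero _ h0)).1 h1

omit h in
theorem rep_smul {q : D.X} {a0 a1 : ℂ} {v : ρ → ℂ} (r : Rep D d q a0 a1 v) {c : ℂ} (hc : c ≠ 0) :
    Rep D d q (c * a0) (c * a1) (fun a => c ^ d a * v a) := by
  refine ⟨?_, ?_, fun a s hs => ?_⟩
  · rcases r.ne with h1 | h1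
    · exact Or.inl (mul_ne_zero hc h1)
    · exact Or.inr (mul_ne_zero hc h1)
  · rw [pt_smul hc, r.p]
  · rw [pt_smul hc] at hs
    have h0 := sel_ne r.ne hs
    rw [r.y a s hs, sel_smul, mul_pow, mul_div_mul_left _ _ (pow_ne_zero _ hc)]

omit h in
theorem rep_unique {q q' : D.X} {a0 a1 : ℂ} {v : ρ → ℂ} (r : Rep D d q a0 a1 v)
    (r' : Rep D d q' a0 a1 v) : q = q' := by
  obtain ⟨s, hs⟩ := cover_ch1 (pt a0 a1)
  refine D.ext_X (i := s) (by rw [r.p, r'.p]) (by rw [r.p]; exact hs) fun a => ?_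
  rw [r.y a s hs, r'.y a s hs]

/-- every solution of the equations is a point -/
theorem rep_exists {a0 a1 : ℂ} {v : ρ → ℂ} (hne : a0 ≠ 0 ∨ a1 ≠ 0)
    (hv : ∀ a, v a ^ D.k a = F a a0 a1) : ∃ q : D.X, Rep D d q a0 a1 v := by
  obtain ⟨s, hs⟩ := cover_ch1 (pt a0 a1)
  have h0 := sel_ne hne hs
  have hv' : ∀ a, (fun a => v a / sel s a0 a1 ^ d a) a ^ D.k a = D.s a s (pt a0 a1) := by
    intro a
    rw [h.s a s a0 a1 hne hs, div_pow, ← pow_mul, hv a]
  refine ⟨D.mkX (i := s) (pt a0 a1) hs _ hv', hne, rfl, fun a s' hs' => ?_⟩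
  have h1 : D.y a s' (D.mkX (i := s) (pt a0 a1) hs _ hv') =
      (D.L a).g s' s (pt a0 a1) * D.y a s (D.mkX (i := s) (pt a0 a1) hs _ hv') :=
    D.y_tr a (i := s') (j := s) hs' hs
  rw [h1, D.y_mkX (i := s) hs hv', h.g a s' s a0 a1 hne hs' hs]
  have h0' := sel_ne hne hs'
  rw [div_pow]
  field_simp

/-- two systems of homogeneous coordinates of a point are proportional -/
theorem rep_rel {q : D.X} {a0 a1 b0 b1 : ℂ} {v w : ρ → ℂ} (r : Rep D d q a0 a1 v)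
    (r' : Rep D d q b0 b1 w) :
    ∃ c : ℂ, c ≠ 0 ∧ b0 = c * a0 ∧ b1 = c * a1 ∧ ∀ a, w a = c ^ d a * v a := by
  have h1 : pt a0 a1 = pt b0 b1 := by rw [← r.p, r'.p]
  obtain ⟨c, hc, e0, e1⟩ := (pt_eq_iff r.ne r'.ne).1 h1
  refine ⟨c, hc, e0, e1, fun a => ?_⟩
  obtain ⟨s, hs⟩ := cover_ch1 (pt a0 a1)
  have h2 := r.y a s hs
  have h3 := r'.y a s (by rw [← h1]; exact hs)
  have h0 := sel_ne r.ne hs
  rw [h3, e0, e1, sel_smul, mul_pow] at h2
  field_simp at h2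
  linear_combination h2

theorem rep_eq_iff {q q' : D.X} {a0 a1 b0 b1 : ℂ} {v w : ρ → ℂ} (r : Rep D d q a0 a1 v)
    (r' : Rep D d q' b0 b1 w) :
    q = q' ↔ ∃ c : ℂ, c ≠ 0 ∧ b0 = c * a0 ∧ b1 = c * a1 ∧ ∀ a, w a = c ^ d a * v a := by
  constructor
  · rintro rfl
    exact h.rep_rel r r'
  · rintro ⟨c, hc, e0, e1, e2⟩
    have h1 := rep_smul r hc
    have h2 : (fun a => c ^ d a * v a) = w := by
      funext a; exact (e2 a).symm
    rw [← e0, ← e1, h2] at h1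
    exact rep_unique h1 r'

end IsHom

end

end Crest.Agent.R272.Hom_839
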