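import Crest.Agent.R272.Hom1_839

/-!
# R272 (S0414), HOM (helper839), part 2: holomorphy in homogeneous coordinates, homogeneous maps
-/

set_option autoImplicit false
set_option linter.unusedSectionVars false

open Set Filter Topology Complex OnePoint

namespace Crest.Agent.R272.Hom_839

open Crest.Agent.R275.Geo Crest.Agent.R275.Core144
open Crest.Agent.R273.Fam_835 Crest.Agent.R273.Map_835
open Crest.Agent.R272.FamP_54 Crest.Agent.R272.P1F_54 Crest.Agent.R272.DCov_426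
open Crest.Agent.R272.P1S_590

noncomputable section

variable {ρ : Type} [Fintype ρ] {D : DCov_426.Data A1 ρ} {d : ρ → ℕ} {F : ρ → ℂ → ℂ → ℂ}

/-! ### holomorphic functions -/

/-- the affine coordinate of `P¹` -/
theorem hfa_pc {s : Bool} {t : P1} (ht : t ∈ (ch1 s).source) : HFA (fam A1) (pc s) t := by
  refine HFA.of (F := fam A1) (i := s) ht ?_
  have h1 : DifferentiableAt ℂ kap ((fam A1).e s t) := differentiable_kap.differentiableAt
  refine h1.congr_of_eventuallyEq (Eventually.of_forall fun z => ?_)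
  show pc s ((ch1 s).symm z) = kap z
  rw [ch1_symm, pc_pinv]

theorem hfa_y {q : D.X} {s : Bool} (hq : D.p q ∈ (ch1 s).source) (a : ρ) :
    HFA D.famX (D.y a s) q := by
  intro c hc
  refine D.y_diffAt a (j := s) ((D.famX.e c).map_source hc) ?_
  show D.p ((D.famX.e c).symm (D.famX.e c q)) ∈ _
  rw [(D.famX.e c).left_inv hc]
  exact hq

theorem hfa_pcp {q : D.X} {s : Bool} (hq : D.p q ∈ (ch1 s).source) :
    HFA D.famX (fun q => pc s (D.p q)) q :=
  HFA.comp_right (hfa_pc hq) D.holC_p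

variable {m : ℕ} {Y : Type} [TopologicalSpace Y] {E : Fam m Y}

theorem hfa_sel {f0 f1 : Y → ℂ} {y : Y} (h0 : HFA E f0 y) (h1 : HFA E f1 y) (s : Bool) :
    HFA E (fun y => sel s (f0 y) (f1 y)) y := by
  cases s
  · exact h0
  · exact h1

theorem hfa_oth {f0 f1 : Y → ℂ} {y : Y} (h0 : HFA E f0 y) (h1 : HFA E f1 y) (s : Bool) :
    HFA E (fun y => oth s (f0 y) (f1 y)) y := by
  cases s
  · exact h1
  · exact h0

/-- **maps into the cover given locally by homogeneous coordinates** -/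
theorem holC_of_rep {G : Y → D.X}
    (hG : ∀ y0, ∃ (f0 f1 : Y → ℂ) (w : ρ → Y → ℂ), HFA E f0 y0 ∧ HFA E f1 y0 ∧
      (∀ a, HFA E (w a) y0) ∧ ∀ᶠ y in 𝓝 y0, Rep D d (G y) (f0 y) (f1 y) (fun a => w a y)) :
    HolC E D.famX G := by
  have h1 : HolC E (fam A1) (fun y => D.p (G y)) := by
    refine holC_A1_of fun y0 => ?_
    obtain ⟨f0, f1, w, h0, h1, -, hev⟩ := hG y0
    exact ⟨f0, f1, h0, h1, hev.self_of_nhds.ne, hev.mono fun y hy => hy.p⟩
  have h2 : ∀ (y0 : Y) (s : Bool), D.p (G y0) ∈ (ch1 s).source → ∀ a,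
      HFA E (fun y => D.y a s (G y)) y0 := by
    intro y0 s hs a
    obtain ⟨f0, f1, w, h0, h1', h2, hev⟩ := hG y0
    have hr := hev.self_of_nhds
    have hsel : sel s (f0 y0) (f1 y0) ≠ 0 := sel_ne hr.ne (by rw [← hr.p]; exact hs)
    have h3 : HFA E (fun y => w a y / sel s (f0 y) (f1 y) ^ d a) y0 :=
      (h2 a).div ((hfa_sel h0 h1' s).pow _) (pow_ne_zero _ hsel)
    refine h3.congr ?_
    have h4 : ∀ᶠ y in 𝓝 y0, D.p (G y) ∈ (ch1 s).source :=
      h1.cont.continuousAt.preimage_mem_nhds ((ch1 s).open_source.mem_nhds hs)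
    filter_upwards [hev, h4] with y hy hy'
    exact hy.y a s (by rw [← hy.p]; exact hy')
  have hc : Continuous G := by
    rw [continuous_iff_continuousAt]
    intro y0
    obtain ⟨s, hs⟩ := cover_ch1 (D.p (G y0))
    exact D.continuousAt_X (i := s) hs h1.cont.continuousAt fun a => (h2 y0 s hs a).continuousAt
  refine D.holC_X hc h1 fun a e s z hz hs => ?_
  have h5 := h2 ((E.e e).symm z) s hs a e ((E.e e).map_target hz)
  rwa [(E.e e).right_inv hz] at h5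

/-! ### homogeneous maps -/

variable {ρ' : Type} [Fintype ρ'] {D' : DCov_426.Data A1 ρ'} {d' : ρ' → ℕ} {F' : ρ' → ℂ → ℂ → ℂ}

/-- a map of covers of `P¹` given by weighted homogeneous functions -/
structure HMap (D : DCov_426.Data A1 ρ) (d : ρ → ℕ) (F : ρ → ℂ → ℂ → ℂ)
    (D' : DCov_426.Data A1 ρ') (d' : ρ' → ℕ) (F' : ρ' → ℂ → ℂ → ℂ) where
  e : ℕ
  b0 : ℂ → ℂ → (ρ → ℂ) → ℂ
  b1 : ℂ → ℂ → (ρ → ℂ) → ℂ
  w : ρ' → ℂ → ℂ → (ρ → ℂ) → ℂ
  diff0 : Differentiable ℂ (fun x : ℂ × ℂ × (ρ → ℂ) => b0 x.1 x.2.1 x.2.2)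
  diff1 : Differentiable ℂ (fun x : ℂ × ℂ × (ρ → ℂ) => b1 x.1 x.2.1 x.2.2)
  diffw : ∀ β, Differentiable ℂ (fun x : ℂ × ℂ × (ρ → ℂ) => w β x.1 x.2.1 x.2.2)
  hom0 : ∀ c a0 a1 v, b0 (c * a0) (c * a1) (fun a => c ^ d a * v a) = c ^ e * b0 a0 a1 v
  hom1 : ∀ c a0 a1 v, b1 (c * a0) (c * a1) (fun a => c ^ d a * v a) = c ^ e * b1 a0 a1 v
  homw : ∀ β c a0 a1 v, w β (c * a0) (c * a1) (fun a => c ^ d a * v a) =
    (c ^ e) ^ d' β * w β a0 a1 v
  ne : ∀ a0 a1 v, (a0 ≠ 0 ∨ a1 ≠ 0) → (∀ a, v a ^ D.k a = F a a0 a1) →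
    b0 a0 a1 v ≠ 0 ∨ b1 a0 a1 v ≠ 0
  eqn : ∀ a0 a1 v, (a0 ≠ 0 ∨ a1 ≠ 0) → (∀ a, v a ^ D.k a = F a a0 a1) → ∀ β,
    w β a0 a1 v ^ D'.k β = F' β (b0 a0 a1 v) (b1 a0 a1 v)

namespace HMap

variable (T : HMap D d F D' d' F') (h : IsHom D d F) (h' : IsHom D' d' F')

include h h' in
theorem exists_img (q : D.X) : ∃ q' : D'.X, ∀ a0 a1 v, Rep D d q a0 a1 v →
    Rep D' d' q' (T.b0 a0 a1 v) (T.b1 a0 a1 v) (fun β => T.w β a0 a1 v) := by
  obtain ⟨a0, a1, v, r⟩ := h.exists_rep q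
  obtain ⟨q', r'⟩ := h'.rep_exists (T.ne a0 a1 v r.ne (h.rep_eqn r))
    (T.eqn a0 a1 v r.ne (h.rep_eqn r))
  refine ⟨q', fun b0 b1 w r1 => ?_⟩
  obtain ⟨c, hc, rfl, rfl, e2⟩ := h.rep_rel r r1
  have e3 : w = fun a => c ^ d a * v a := funext e2
  subst e3
  rw [T.hom0, T.hom1]
  have h3 := IsHom.rep_smul r' (pow_ne_zero T.e hc)
  have h4 : (fun β => T.w β (c * a0) (c * a1) (fun a => c ^ d a * v a)) =
      fun β => (c ^ T.e) ^ d' β * T.w β a0 a1 v := funext fun β => T.homw β c a0 a1 v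
  rw [h4]
  exact h3

/-- the map -/
def map (q : D.X) : D'.X := (T.exists_img h h' q).choose

theorem map_rep {q : D.X} {a0 a1 : ℂ} {v : ρ → ℂ} (r : Rep D d q a0 a1 v) :
    Rep D' d' (T.map h h' q) (T.b0 a0 a1 v) (T.b1 a0 a1 v) (fun β => T.w β a0 a1 v) :=
  (T.exists_img h h' q).choose_spec a0 a1 v r

/-- holomorphic homogeneous coordinates of the image, locally -/
theorem holC_map : HolC D.famX D'.famX (T.map h h') := by
  refine holC_of_rep (d := d') fun q0 => ?_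
  obtain ⟨s, hs⟩ := cover_ch1 (D.p q0)
  have hx : HFA D.famX (fun q => ((u0 s (pc s (D.p q)), u1 s (pc s (D.p q)),
      fun a => D.y a s q) : ℂ × ℂ × (ρ → ℂ))) q0 := by
    intro i hi
    refine DifferentiableAt.prodMk ?_ (DifferentiableAt.prodMk ?_ (differentiableAt_pi.2 ?_))
    · exact HFA.comp_left (g := u0 s) (differentiable_u0 s).differentiableAt (hfa_pcp hs) i hi
    · exact HFA.comp_left (g := u1 s) (differentiable_u1 s).differentiableAt (hfa_pcp hs) i hi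
    · intro a
      exact hfa_y hs a i hi
  refine ⟨fun q => T.b0 (u0 s (pc s (D.p q))) (u1 s (pc s (D.p q))) (fun a => D.y a s q),
    fun q => T.b1 (u0 s (pc s (D.p q))) (u1 s (pc s (D.p q))) (fun a => D.y a s q),
    fun β q => T.w β (u0 s (pc s (D.p q))) (u1 s (pc s (D.p q))) (fun a => D.y a s q),
    ?_, ?_, ?_, ?_⟩
  · exact HFA.comp_left (g := fun x : ℂ × ℂ × (ρ → ℂ) => T.b0 x.1 x.2.1 x.2.2)
      T.diff0.differentiableAt hx
  · exact HFA.comp_left (g := fun x : ℂ × ℂ × (ρ → ℂ) => T.b1 x.1 x.2.1 x.2.2)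
      T.diff1.differentiableAt hx
  · intro β
    exact HFA.comp_left (g := fun x : ℂ × ℂ × (ρ → ℂ) => T.w β x.1 x.2.1 x.2.2)
      (T.diffw β).differentiableAt hx
  · have h4 : ∀ᶠ q in 𝓝 q0, D.p q ∈ (ch1 s).source :=
      D.continuous_p.continuousAt.preimage_mem_nhds ((ch1 s).open_source.mem_nhds hs)
    filter_upwards [h4] with q hq
    exact T.map_rep h h' (h.rep_norm hq)

theorem continuous_map : Continuous (T.map h h') := (T.holC_map h h').cont

end HMap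

end

end Crest.Agent.R272.Hom_839
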