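import Crest.Agent.R272.Refl3_246

/-!
# R272, leaf IDENT (helper834), part 1: identification of an open set of a quotient `G \ Y`
(`G` acts near the set through one reflection `s`) with an open set of a model manifold `U`.

`Psi : Y → U` is holomorphic and `s`-invariant on the open set `O`, its fibres on `O` are the
`s`-orbits, and at every point of `O` it is a local biholomorphism (`LocFree`) or a fold along
the reflection (`LocFold`).  Then `exists_ident` : an open partial homeomorphism
`e : G \ Y → U` with source `pr '' O`, target `Psi '' O`, `e (pr u) = Psi u`, holomorphic in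
both directions for the charts of `qFam`.
-/

set_option autoImplicit false
set_option linter.unusedSectionVars false

open Set Filter Topology
open scoped ContDiff

namespace Crest.Agent.R272.Idn_834

open Crest.Agent.R275.Geo Crest.Agent.R273.Fam_835 Crest.Agent.R272.Refl_246

noncomputable section

variable {n : ℕ} {Y : Type} [TopologicalSpace Y] {C : Fam n Y} {G : Type} [Group G]
  [MulAction G Y] {U : Type} [TopologicalSpace U] {D : Fam n U}

/-- `Psi` is a local biholomorphism at `u` -/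
def LocFree (C : Fam n Y) (D : Fam n U) (Psi : Y → U) (u : Y) : Prop :=
  ∃ (φ : OpenPartialHomeomorph Y (Cn n)) (_ : Cpt C φ) (k : D.ι) (f' : Cn n ≃L[ℂ] Cn n),
    u ∈ φ.source ∧ Psi u ∈ (D.e k).source ∧
    HasStrictFDerivAt (fun z => D.e k (Psi (φ.symm z))) (f' : Cn n →L[ℂ] Cn n) (φ u)

/-- `Psi` is a fold at `u` along the reflection `s` -/
def LocFold (C : Fam n Y) (D : Fam n U) (s : G) (Psi : Y → U) (u : Y) : Prop :=
  ∃ (c : RC G C) (a : Fin n) (k : D.ι) (F : Cn n → Cn n) (f' : Cn n ≃L[ℂ] Cn n),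
    c.k = some (s, a) ∧ u ∈ c.e.source ∧ Psi u ∈ (D.e k).source ∧
    HasStrictFDerivAt F (f' : Cn n →L[ℂ] Cn n) (sq a (c.e u)) ∧
    ∀ᶠ y in 𝓝 u, D.e k (Psi y) = F (sq a (c.e y))

/-- `D.e k ∘ Psi` is holomorphic at `u` in the charts of `C` -/
def DiffU (C : Fam n Y) (D : Fam n U) (Psi : Y → U) (u : Y) : Prop :=
  ∃ i k, u ∈ (C.e i).source ∧ Psi u ∈ (D.e k).source ∧
    DifferentiableAt ℂ (fun z => D.e k (Psi ((C.e i).symm z))) (C.e i u)

theorem diffU_of_cpt {Psi : Y → U} {u : Y} {φ : OpenPartialHomeomorph Y (Cn n)} (hφ : Cpt C φ)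
    (hu : u ∈ φ.source) {k : D.ι} (hk : Psi u ∈ (D.e k).source)
    (hd : DifferentiableAt ℂ (fun z => D.e k (Psi (φ.symm z))) (φ u)) : DiffU C D Psi u := by
  obtain ⟨i, hi⟩ := C.cover u
  refine ⟨i, k, hi, hk, ?_⟩
  have h1 : DifferentiableAt ℂ (fun z => φ ((C.e i).symm z)) (C.e i u) :=
    (hφ.holi i).differentiableAt (((C.e i).isOpen_inter_preimage_symm φ.open_source).mem_nhds
      ⟨(C.e i).map_source hi, by rw [mem_preimage, (C.e i).left_inv hi]; exact hu⟩)
  have h2 : DifferentiableAt ℂ (fun z => D.e k (Psi (φ.symm z)))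
      (φ ((C.e i).symm (C.e i u))) := by
    rw [(C.e i).left_inv hi]; exact hd
  have h3 := DifferentiableAt.comp (C.e i u) (g := fun z => D.e k (Psi (φ.symm z))) h2 h1
  refine h3.congr_of_eventuallyEq ?_
  have h4 : ∀ᶠ z in 𝓝 (C.e i u), (C.e i).symm z ∈ φ.source := by
    refine ((C.e i).continuousAt_symm ((C.e i).map_source hi)).preimage_mem_nhds ?_
    rw [(C.e i).left_inv hi]
    exact φ.open_source.mem_nhds hu
  filter_upwards [h4] with z hz
  simp only [Function.comp]
  rw [φ.left_inv hz]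

theorem LocFree.diffU {Psi : Y → U} {u : Y} (h : LocFree C D Psi u) : DiffU C D Psi u := by
  obtain ⟨φ, hφ, k, f', hu, hk, hf⟩ := h
  exact diffU_of_cpt hφ hu hk hf.hasFDerivAt.differentiableAt

theorem LocFold.diffU {s : G} {Psi : Y → U} {u : Y} (h : LocFold C D s Psi u) :
    DiffU C D Psi u := by
  obtain ⟨c, a, k, F, f', hck, hcu, hk, hF, hev⟩ := h
  refine diffU_of_cpt (φ := c.e) ⟨c.hol, c.holi⟩ hcu hk ?_
  have h1 : DifferentiableAt ℂ (F ∘ sq a) (c.e u) :=
    DifferentiableAt.comp _ hF.hasFDerivAt.differentiableAt (differentiable_sq a _)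
  refine h1.congr_of_eventuallyEq ?_
  have h2 : Tendsto c.e.symm (𝓝 (c.e u)) (𝓝 u) := by
    have := (c.e.continuousAt_symm (c.e.map_source hcu)).tendsto
    rwa [c.e.left_inv hcu] at this
  filter_upwards [h2.eventually hev, c.e.open_target.mem_nhds (c.e.map_source hcu)] with z hz hz2
  rw [hz, c.e.right_inv hz2]
  rfl

variable [ContinuousConstSMul G Y] [Nonempty Y]

/-- the common local statement -/
def Loc (G : Type) [Group G] [MulAction G Y] [ContinuousConstSMul G Y] (C : Fam n Y) (D : Fam n U)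
    (Psi : Y → U) (u : Y) : Prop :=
  ∃ σ : U → Orb G Y, (∀ V ∈ 𝓝 u, ∀ᶠ v in 𝓝 (Psi u), ∃ y ∈ V, Psi y = v ∧ pr G y = σ v) ∧
    ∃ (k : D.ι) (c : RC G C), Psi u ∈ (D.e k).source ∧ u ∈ c.e.source ∧
      DifferentiableAt ℂ (fun w => c.eM (σ ((D.e k).symm w))) (D.e k (Psi u))

theorem LocFree.loc (hG : ∀ g : G, HolC C C (fun y => g • y))
    (hcov : ∀ y : Y, ∃ c : RC G C, y ∈ c.e.source) {Psi : Y → U} {u : Y}
    (hc : ∀ᶠ y in 𝓝 u, ContinuousAt Psi y) (h : LocFree C D Psi u) : Loc G C D Psi u := by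
  obtain ⟨φ, hφ, k, f', hi, hk, hf⟩ := h
  obtain ⟨c, hcu⟩ := hcov u
  set f : Cn n → Cn n := fun z => D.e k (Psi (φ.symm z)) with hfdef
  set g : Cn n → Cn n := hf.localInverse f f' (φ u) with hgdef
  have hfu : f (φ u) = D.e k (Psi u) := by
    simp only [hfdef, φ.left_inv hi]
  have hg0 : g (D.e k (Psi u)) = φ u := by
    rw [← hfu]
    exact hf.localInverse_apply_image
  have hg1 : ∀ᶠ w in 𝓝 (D.e k (Psi u)), f (g w) = w := by
    rw [← hfu]
    exact hf.eventually_right_inverse
  have hg2 : HasStrictFDerivAt g (f'.symm : Cn n →L[ℂ] Cn n) (D.e k (Psi u)) := by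
    rw [← hfu]
    exact hf.to_localInverse
  have hgc : ContinuousAt g (D.e k (Psi u)) := hg2.continuousAt
  refine ⟨fun v => pr G (φ.symm (g (D.e k v))), ?_, k, c, hk, hcu, ?_⟩
  · intro V hV
    have hek : ContinuousAt (D.e k) (Psi u) := (D.e k).continuousAt hk
    have h1 : Tendsto (fun v => φ.symm (g (D.e k v))) (𝓝 (Psi u)) (𝓝 u) := by
      have h2 : ContinuousAt (fun v => g (D.e k v)) (Psi u) :=
        ContinuousAt.comp (f := D.e k) (g := g) hgc hek
      have h3 : ContinuousAt (fun v => φ.symm (g (D.e k v))) (Psi u) := by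
        refine ContinuousAt.comp (f := fun v => g (D.e k v)) (g := φ.symm) ?_ h2
        rw [hg0]
        exact φ.continuousAt_symm (φ.map_source hi)
      have h4 := h3.tendsto
      simp only [hg0, φ.left_inv hi] at h4
      exact h4
    have h5 : ∀ᶠ y in 𝓝 u, Psi y ∈ (D.e k).source :=
      hc.self_of_nhds.preimage_mem_nhds ((D.e k).open_source.mem_nhds hk)
    filter_upwards [h1 hV, h1.eventually h5, hek.eventually hg1,
      (D.e k).open_source.mem_nhds hk] with v hv1 hv2 hv3 hv4
    refine ⟨_, hv1, ?_, rfl⟩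
    exact (D.e k).injOn hv2 hv4 hv3
  · -- holomorphy
    have h1 : DifferentiableAt ℂ (fun z => c.eM (pr G (φ.symm z))) (g (D.e k (Psi u))) := by
      rw [hg0]
      obtain ⟨i, hci⟩ := C.cover u
      have h2 : DifferentiableAt ℂ (fun z => c.eM (pr G ((C.e i).symm z))) (C.e i u) :=
        (holC_pi hG hcov).diffAt (i := i) (j := c) ((C.e i).map_source hci)
          (by rw [(C.e i).left_inv hci]; exact c.mem_eM_source hcu)
      have h3 : DifferentiableAt ℂ (fun z => C.e i (φ.symm z)) (φ u) :=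
        (hφ.hol i).differentiableAt ((φ.isOpen_inter_preimage_symm (C.e i).open_source).mem_nhds
          ⟨φ.map_source hi, by rw [mem_preimage, φ.left_inv hi]; exact hci⟩)
      have h4 : DifferentiableAt ℂ (fun z => c.eM (pr G ((C.e i).symm z)))
          (C.e i (φ.symm (φ u))) := by
        rw [φ.left_inv hi]; exact h2
      have h5 := DifferentiableAt.comp (φ u) (g := fun z => c.eM (pr G ((C.e i).symm z))) h4 h3
      refine h5.congr_of_eventuallyEq ?_
      have h6 : ∀ᶠ z in 𝓝 (φ u), φ.symm z ∈ (C.e i).source := by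
        refine (φ.continuousAt_symm (φ.map_source hi)).preimage_mem_nhds ?_
        rw [φ.left_inv hi]
        exact (C.e i).open_source.mem_nhds hci
      filter_upwards [h6] with z hz
      simp only [Function.comp]
      rw [(C.e i).left_inv hz]
    have h2 : DifferentiableAt ℂ ((fun z => c.eM (pr G (φ.symm z))) ∘ g) (D.e k (Psi u)) :=
      DifferentiableAt.comp _ h1 hg2.hasFDerivAt.differentiableAt
    refine h2.congr_of_eventuallyEq ?_
    filter_upwards [(D.e k).open_target.mem_nhds ((D.e k).map_source hk)] with w hw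
    simp only [Function.comp, (D.e k).right_inv hw]

theorem LocFold.loc {s : G} {Psi : Y → U} {u : Y}
    (hc : ∀ᶠ y in 𝓝 u, ContinuousAt Psi y) (h : LocFold C D s Psi u) : Loc G C D Psi u := by
  obtain ⟨c, a, k, F, f', hck, hcu, hk, hF, hev⟩ := h
  set g : Cn n → Cn n := hF.localInverse F f' (sq a (c.e u)) with hgdef
  have hFu : F (sq a (c.e u)) = D.e k (Psi u) := hev.self_of_nhds.symm
  have hg0 : g (D.e k (Psi u)) = sq a (c.e u) := by
    rw [← hFu]
    exact hF.localInverse_apply_image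
  have hg1 : ∀ᶠ w in 𝓝 (D.e k (Psi u)), F (g w) = w := by
    rw [← hFu]
    exact hF.eventually_right_inverse
  have hg2 : HasStrictFDerivAt g (f'.symm : Cn n →L[ℂ] Cn n) (D.e k (Psi u)) := by
    rw [← hFu]
    exact hF.to_localInverse
  have hgc : ContinuousAt g (D.e k (Psi u)) := hg2.continuousAt
  have hq : qk c.k = sq a := by rw [hck, qk_some]
  have htar : sq a (c.e u) ∈ c.eM.target := by
    rw [c.eM_target]
    exact ⟨u, hcu, by rw [hq]⟩
  have hsym : c.eM.symm (sq a (c.e u)) = pr G u := by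
    rw [← hq]; exact c.eM_symm hcu
  refine ⟨fun v => c.eM.symm (g (D.e k v)), ?_, k, c, hk, hcu, ?_⟩
  · intro V hV
    have hek : ContinuousAt (D.e k) (Psi u) := (D.e k).continuousAt hk
    have h2 : ContinuousAt (fun v => g (D.e k v)) (Psi u) :=
      ContinuousAt.comp (f := D.e k) (g := g) hgc hek
    have h1 : Tendsto (fun v => c.eM.symm (g (D.e k v))) (𝓝 (Psi u)) (𝓝 (pr G u)) := by
      have h3 : ContinuousAt (fun v => c.eM.symm (g (D.e k v))) (Psi u) := by
        refine ContinuousAt.comp (f := fun v => g (D.e k v)) (g := c.eM.symm) ?_ h2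
        rw [hg0]
        exact c.eM.continuousAt_symm htar
      have h4 := h3.tendsto
      simp only [hg0, hsym] at h4
      exact h4
    have h5 : ∀ᶠ y in 𝓝 u, Psi y ∈ (D.e k).source :=
      hc.self_of_nhds.preimage_mem_nhds ((D.e k).open_source.mem_nhds hk)
    have h6 : (V ∩ {y | D.e k (Psi y) = F (sq a (c.e y))} ∩ {y | Psi y ∈ (D.e k).source} ∩
        c.e.source) ∈ 𝓝 u :=
      inter_mem (inter_mem (inter_mem hV hev) h5) (c.e.open_source.mem_nhds hcu)
    have h7 : pr G '' (V ∩ {y | D.e k (Psi y) = F (sq a (c.e y))} ∩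
        {y | Psi y ∈ (D.e k).source} ∩ c.e.source) ∈ 𝓝 (pr G u) :=
      isOpenQuotientMap_pr.isOpenMap.image_mem_nhds h6
    have h8 : ∀ᶠ v in 𝓝 (Psi u), g (D.e k v) ∈ c.eM.target := by
      refine h2.preimage_mem_nhds ?_
      rw [hg0]
      exact c.eM.open_target.mem_nhds htar
    filter_upwards [h1 h7, h8, hek.eventually hg1, (D.e k).open_source.mem_nhds hk]
      with v hv1 hv2 hv3 hv4
    obtain ⟨y, ⟨⟨⟨hyV, hy1⟩, hy2⟩, hy3⟩, hyv⟩ := hv1
    have h9 : sq a (c.e y) = g (D.e k v) := by
      have h10 := congrArg c.eM hyv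
      rw [c.eM.right_inv hv2, c.eM_apply hy3, hq] at h10
      exact h10
    refine ⟨y, hyV, ?_, hyv⟩
    refine (D.e k).injOn hy2 hv4 ?_
    have hy1 : D.e k (Psi y) = F (sq a (c.e y)) := hy1
    rw [hy1, h9, hv3]
  · have h1 : DifferentiableAt ℂ (g) (D.e k (Psi u)) := hg2.hasFDerivAt.differentiableAt
    refine h1.congr_of_eventuallyEq ?_
    have h8 : ∀ᶠ w in 𝓝 (D.e k (Psi u)), g w ∈ c.eM.target := by
      refine hgc.preimage_mem_nhds ?_
      rw [hg0]
      exact c.eM.open_target.mem_nhds htar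
    filter_upwards [(D.e k).open_target.mem_nhds ((D.e k).map_source hk), h8] with w hw hw2
    rw [(D.e k).right_inv hw, c.eM.right_inv hw2]

/-- **identification** -/
theorem exists_ident (hG : ∀ g : G, HolC C C (fun y => g • y))
    (hcov : ∀ y : Y, ∃ c : RC G C, y ∈ c.e.source) [Nonempty U] {O : Set Y} (hO : IsOpen O)
    {s : G} (hgrp : ∀ g : G, ∀ u ∈ O, g • u ∈ O → g = 1 ∨ g = s)
    {Psi : Y → U} (hc : ContinuousOn Psi O)
    (hfib : ∀ u ∈ O, ∀ v ∈ O, Psi u = Psi v ↔ (v = u ∨ v = s • u))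
    (hloc : ∀ u ∈ O, LocFree C D Psi u ∨ LocFold C D s Psi u) :
    ∃ e : OpenPartialHomeomorph (Orb G Y) U, e.source = pr G '' O ∧ e.target = Psi '' O ∧
      (∀ u ∈ O, e (pr G u) = Psi u) ∧
      (∀ (c : RC G C) (k : D.ι), DifferentiableOn ℂ (fun z => D.e k (e (c.eM.symm z)))
        (c.eM.target ∩ c.eM.symm ⁻¹' (e.source ∩ e ⁻¹' (D.e k).source))) ∧
      (∀ (k : D.ι) (c : RC G C), DifferentiableOn ℂ (fun w => c.eM (e.symm ((D.e k).symm w)))
        ((D.e k).target ∩ (D.e k).symm ⁻¹' (e.target ∩ e.symm ⁻¹' c.eM.source))) := by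
  have hhol : ∀ u ∈ O, DiffU C D Psi u := fun u hu => (hloc u hu).elim LocFree.diffU LocFold.diffU
  have hcA : ∀ u ∈ O, ContinuousAt Psi u := fun u hu => hc.continuousAt (hO.mem_nhds hu)
  have hcE : ∀ u ∈ O, ∀ᶠ y in 𝓝 u, ContinuousAt Psi y := fun u hu => by
    filter_upwards [hO.mem_nhds hu] with y hy using hcA y hy
  have hL : ∀ u ∈ O, Loc G C D Psi u := fun u hu => by
    rcases hloc u hu with h | h
    · exact h.loc hG hcov (hcE u hu)
    · exact h.loc (hcE u hu)
  have hopen : ∀ V, V ⊆ O → IsOpen V → IsOpen (Psi '' V) := by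
    intro V hV hVo
    rw [isOpen_iff_mem_nhds]
    rintro _ ⟨u, hu, rfl⟩
    obtain ⟨σ, hσ, -⟩ := hL u (hV hu)
    filter_upwards [hσ V (hVo.mem_nhds hu)] with v hv
    obtain ⟨y, hy, hyv, -⟩ := hv
    exact ⟨y, hy, hyv⟩
  have : Nonempty (Orb G Y) := ⟨pr G (Classical.arbitrary Y)⟩
  have hiff : ∀ u ∈ O, ∀ v ∈ O, Psi u = Psi v ↔ pr G u = pr G v := by
    intro u hu v hv
    rw [hfib u hu v hv, pr_eq_iff]
    constructor
    · rintro (h | h)
      · exact ⟨1, by rw [one_smul, h]⟩
      · exact ⟨s, h.symm⟩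
    · rintro ⟨g, hg⟩
      rcases hgrp g u hu (by rw [hg]; exact hv) with h | h
      · left; rw [← hg, h, one_smul]
      · right; rw [← hg, h]
  obtain ⟨e, he1, he2, he3⟩ := exists_quot_chart (π := pr G) isOpenQuotientMap_pr hO hc
    (fun V hV hVo => hopen V hV hVo) hiff
  refine ⟨e, he1, he2, he3, ?_, ?_⟩
  · -- forward
    intro c k z hz
    have hVo : IsOpen (e.source ∩ e ⁻¹' (D.e k).source) :=
      e.isOpen_inter_preimage (D.e k).open_source
    refine (c.desc hVo (h := fun m => D.e k (e m)) ?_ (fun u hu huV => ?_) hz.1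
      hz.2).differentiableWithinAt
    · exact (D.e k).continuousOn.comp (e.continuousOn.mono inter_subset_left) fun x hx => hx.2
    · -- choose a representative in `O`
      obtain ⟨huV1, huV2⟩ := huV
      rw [he1] at huV1
      obtain ⟨v, hv, hvu⟩ := huV1
      obtain ⟨g, hg⟩ := pr_eq_iff.1 hvu.symm
      obtain ⟨i, k', hi, hk', hd⟩ := hhol v hv
      have hkv : Psi v ∈ (D.e k).source := by
        rw [mem_preimage, ← hvu, he3 v hv] at huV2
        exact huV2
      -- differentiability of `D.e k ∘ Psi` at `v`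
      have h1 : DifferentiableAt ℂ (fun z => D.e k (Psi ((C.e i).symm z))) (C.e i v) := by
        have h2 : DifferentiableAt ℂ (fun w => D.e k ((D.e k').symm w))
            (D.e k' (Psi ((C.e i).symm (C.e i v)))) := by
          rw [(C.e i).left_inv hi]
          exact (D.holo k' k).differentiableAt (((D.e k').isOpen_inter_preimage_symm
            (D.e k).open_source).mem_nhds ⟨(D.e k').map_source hk', by
              rw [mem_preimage, (D.e k').left_inv hk']; exact hkv⟩)
        have h3 := DifferentiableAt.comp (C.e i v)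
          (g := fun w => D.e k ((D.e k').symm w))
          (f := fun z => D.e k' (Psi ((C.e i).symm z))) h2 hd
        refine h3.congr_of_eventuallyEq ?_
        have h4 : ContinuousAt (fun z => Psi ((C.e i).symm z)) (C.e i v) := by
          refine ContinuousAt.comp (f := (C.e i).symm) (g := Psi) ?_
            ((C.e i).continuousAt_symm ((C.e i).map_source hi))
          rw [(C.e i).left_inv hi]
          exact hcA v hv
        have h5 : ∀ᶠ z in 𝓝 (C.e i v), Psi ((C.e i).symm z) ∈ (D.e k').source := by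
          refine h4.preimage_mem_nhds ?_
          rw [(C.e i).left_inv hi]
          exact (D.e k').open_source.mem_nhds hk'
        filter_upwards [h5] with z hz
        simp only [Function.comp]
        rw [(D.e k').left_inv hz]
      have h6 : DifferentiableAt ℂ (fun w => C.e i (g • c.e.symm w)) (c.e u) := by
        have h7 := c.diffAt (hG g) (j := i) hu (by rw [hg]; exact hi)
        exact h7
      have h8 : DifferentiableAt ℂ (fun z => D.e k (Psi ((C.e i).symm z)))
          (C.e i (g • c.e.symm (c.e u))) := by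
        rw [c.e.left_inv hu, hg]
        exact h1
      have h9 := DifferentiableAt.comp (c.e u)
        (g := fun z => D.e k (Psi ((C.e i).symm z)))
        (f := fun w => C.e i (g • c.e.symm w)) h8 h6
      refine h9.congr_of_eventuallyEq ?_
      have h10 : ContinuousAt (fun w => g • c.e.symm w) (c.e u) :=
        (c.e.continuousAt_symm (c.e.map_source hu)).const_smul g
      have h11 : ∀ᶠ w in 𝓝 (c.e u), g • c.e.symm w ∈ O ∩ (C.e i).source := by
        refine h10.preimage_mem_nhds ?_
        rw [c.e.left_inv hu, hg]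
        exact (hO.inter (C.e i).open_source).mem_nhds ⟨hv, hi⟩
      filter_upwards [h11] with w hw
      simp only [Function.comp]
      rw [(C.e i).left_inv hw.2, ← he3 _ hw.1, pr_smul]
  · -- backward
    intro k c w hw
    obtain ⟨hw1, hw2, hw3⟩ := hw
    have hw2' := hw2
    rw [he2] at hw2'
    obtain ⟨u, hu, hPu⟩ := hw2'
    obtain ⟨σ, hσ, k', c', hk', hc', hd⟩ := hL u hu
    have hwk : D.e k (Psi u) = w := by rw [hPu, (D.e k).right_inv hw1]
    have hku : Psi u ∈ (D.e k).source := by rw [hPu]; exact (D.e k).map_target hw1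
    have hes : e.symm (Psi u) = pr G u := by
      rw [← he3 u hu, e.left_inv]
      rw [he1]; exact mem_image_of_mem _ hu
    have hcu : pr G u ∈ c.eM.source := by
      rw [mem_preimage, ← hPu, hes] at hw3
      exact hw3
    have hσu : σ (Psi u) = pr G u := by
      obtain ⟨y, hy, hy1, hy2⟩ := (hσ O (hO.mem_nhds hu)).self_of_nhds
      rw [← hy2]
      exact (hiff y hy u hu).1 hy1
    -- change of charts
    have h0 : c'.eM (σ ((D.e k').symm (D.e k' (Psi u)))) = c'.eM (pr G u) := by
      rw [(D.e k').left_inv hk', hσu]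
    have h1 : DifferentiableAt ℂ (fun z => c.eM (c'.eM.symm z))
        (c'.eM (σ ((D.e k').symm (D.e k' (Psi u))))) := by
      rw [h0]
      exact ((qFam hG hcov).holo c' c).differentiableAt
        ((c'.eM.isOpen_inter_preimage_symm c.eM.open_source).mem_nhds
          ⟨c'.eM.map_source (c'.mem_eM_source hc'), by
            rw [mem_preimage, c'.eM.left_inv (c'.mem_eM_source hc')]; exact hcu⟩)
    have h2 := DifferentiableAt.comp (D.e k' (Psi u)) (g := fun z => c.eM (c'.eM.symm z))
      (f := fun w => c'.eM (σ ((D.e k').symm w))) h1 hd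
    have h3 : DifferentiableAt ℂ (fun w => D.e k' ((D.e k).symm w)) (D.e k (Psi u)) :=
      (D.holo k k').differentiableAt (((D.e k).isOpen_inter_preimage_symm
        (D.e k').open_source).mem_nhds ⟨(D.e k).map_source hku, by
          rw [mem_preimage, (D.e k).left_inv hku]; exact hk'⟩)
    have h4 : DifferentiableAt ℂ ((fun z => c.eM (c'.eM.symm z)) ∘
        (fun w => c'.eM (σ ((D.e k').symm w)))) (D.e k' ((D.e k).symm (D.e k (Psi u)))) := by
      rw [(D.e k).left_inv hku]
      exact h2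
    have h5 := DifferentiableAt.comp (D.e k (Psi u)) (f := fun w => D.e k' ((D.e k).symm w)) h4 h3
    rw [← hwk]
    refine (h5.congr_of_eventuallyEq ?_).differentiableWithinAt
    -- the functions agree near
    have hcs : ContinuousAt (D.e k).symm (D.e k (Psi u)) :=
      (D.e k).continuousAt_symm ((D.e k).map_source hku)
    have h6 : ∀ᶠ v in 𝓝 (Psi u), ∃ y ∈ O ∩ (pr G : Y → Orb G Y) ⁻¹' c'.eM.source,
        Psi y = v ∧ pr G y = σ v := by
      refine hσ _ ?_
      refine inter_mem (hO.mem_nhds hu) ?_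
      exact (c'.eM.open_source.preimage isOpenQuotientMap_pr.continuous).mem_nhds
        (c'.mem_eM_source hc')
    have h7 : ∀ᶠ v in 𝓝 (Psi u), v ∈ (D.e k').source := (D.e k').open_source.mem_nhds hk'
    have h8 : Tendsto (D.e k).symm (𝓝 (D.e k (Psi u))) (𝓝 (Psi u)) := by
      have := hcs.tendsto
      rwa [(D.e k).left_inv hku] at this
    filter_upwards [h8.eventually h6, h8.eventually h7] with w' hw' hw'2
    obtain ⟨y, ⟨hyO, hyc⟩, hy1, hy2⟩ := hw'
    simp only [Function.comp]
    rw [(D.e k').left_inv hw'2, ← hy2, c'.eM.left_inv hyc, ← hy1]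
    congr 1
    rw [← he3 y hyO, e.left_inv]
    rw [he1]; exact mem_image_of_mem _ hyO

end

end Crest.Agent.R272.Idn_834
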