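import Crest.Agent.R272.Idn1_834
import Crest.Agent.R272.IdnDefs_834

/-!
# R272, leaf IDENT-E (helper834), part 2: elementary consequences of the interfaces

* `evInv` : analytic + invertible derivative at one point ==> strictly invertible nearby;
* `BB F γ` : the map `(z₀, z₁, ξ) ↦ (F (z₀, z₁), ξ γ (z₀, z₁))`;
* slopes: `slope_iv`, `near_alt`, `slope_surj`.
-/

set_option autoImplicit false
set_option linter.unusedSectionVars false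

open Set Filter Topology
open scoped ContDiff

namespace Crest.Agent.R272.Idn_834

open Crest.Agent.R275.Geo Crest.Agent.R273.Fam_835 Crest.Agent.R272.Refl_246
open Crest.Agent.R272.AJ_956

noncomputable section

section Analysis

variable {E : Type*} [NormedAddCommGroup E] [NormedSpace ℂ E] [CompleteSpace E]
  {F : Type*} [NormedAddCommGroup F] [NormedSpace ℂ F] [CompleteSpace F]

/-- analytic with invertible derivative at a point: strictly invertible nearby -/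
theorem evInv {f : E → F} {z₀ : E} (hf : AnalyticAt ℂ f z₀) {f' : E ≃L[ℂ] F}
    (h : HasFDerivAt f (f' : E →L[ℂ] F) z₀) :
    ∀ᶠ z in 𝓝 z₀, ∃ g' : E ≃L[ℂ] F, HasStrictFDerivAt f (g' : E →L[ℂ] F) z := by
  have h1 : ContinuousAt (fderiv ℂ f) z₀ := hf.fderiv.continuousAt
  have h2 : range ((↑) : (E ≃L[ℂ] F) → E →L[ℂ] F) ∈ 𝓝 (fderiv ℂ f z₀) := by
    rw [h.fderiv]
    exact f'.nhds
  filter_upwards [h1 h2, hf.eventually_analyticAt] with z hz hz2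
  obtain ⟨g', hg'⟩ := hz
  refine ⟨g', ?_⟩
  rw [hg']
  exact hz2.hasStrictFDerivAt

/-- analytic with invertible derivative: injective nearby -/
theorem evInj {f : E → F} {z₀ : E} (hf : AnalyticAt ℂ f z₀) {f' : E ≃L[ℂ] F}
    (h : HasFDerivAt f (f' : E →L[ℂ] F) z₀) : ∀ᶠ z in 𝓝 z₀, f z = f z₀ → z = z₀ := by
  have hs : HasStrictFDerivAt f (f' : E →L[ℂ] F) z₀ := by
    have := hf.hasStrictFDerivAt
    rwa [h.fderiv] at this
  filter_upwards [hs.eventually_left_inverse] with z hz hzz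
  have h2 : hs.localInverse f f' z₀ (f z₀) = z₀ := hs.localInverse_apply_image
  rw [← hz, hzz, h2]

end Analysis

/-- `(z₀, z₁, ξ) ↦ (F (z₀, z₁), ξ γ (z₀, z₁))` -/
def BB (F : ℂ × ℂ → ℂ × ℂ) (γ : ℂ × ℂ → ℂ) (z : Cn 3) : Cn 3 :=
  h3 (F (z 0, z 1), z 2 * γ (z 0, z 1))

theorem BB_eq (F : ℂ × ℂ → ℂ × ℂ) (γ : ℂ × ℂ → ℂ) :
    BB F γ = fun z => h3 ((fun q : (ℂ × ℂ) × ℂ => (F q.1, q.2 * γ q.1)) (h3.symm z)) := by
  funext z
  rfl

theorem BB_an {F : ℂ × ℂ → ℂ × ℂ} {γ : ℂ × ℂ → ℂ} (hF : AnalyticAt ℂ F 0)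
    (hγ : AnalyticAt ℂ γ 0) : AnalyticAt ℂ (BB F γ) 0 := by
  rw [BB_eq]
  have h0 : h3.symm (0 : Cn 3) = 0 := map_zero _
  have h1 : AnalyticAt ℂ (fun q : (ℂ × ℂ) × ℂ => F q.1) 0 :=
    AnalyticAt.comp (g := F) (f := Prod.fst) hF analyticAt_fst
  have h2 : AnalyticAt ℂ (fun q : (ℂ × ℂ) × ℂ => q.2 * γ q.1) 0 :=
    analyticAt_snd.mul (AnalyticAt.comp (g := γ) (f := Prod.fst) hγ analyticAt_fst)
  have h4 : AnalyticAt ℂ (fun q : (ℂ × ℂ) × ℂ => (F q.1, q.2 * γ q.1)) (h3.symm 0) := by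
    rw [h0]
    exact h1.prod h2
  have h5 : AnalyticAt ℂ (fun z : Cn 3 => (fun q : (ℂ × ℂ) × ℂ => (F q.1, q.2 * γ q.1))
      (h3.symm z)) 0 :=
    AnalyticAt.comp (g := fun q : (ℂ × ℂ) × ℂ => (F q.1, q.2 * γ q.1)) h4
      ((h3.symm : Cn 3 →L[ℂ] (ℂ × ℂ) × ℂ).analyticAt 0)
  exact AnalyticAt.comp (g := h3) ((h3 : (ℂ × ℂ) × ℂ →L[ℂ] Cn 3).analyticAt _) h5

theorem BB_deriv {F : ℂ × ℂ → ℂ × ℂ} {γ : ℂ × ℂ → ℂ} {F' : (ℂ × ℂ) ≃L[ℂ] (ℂ × ℂ)}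
    (hF' : HasFDerivAt F (F' : (ℂ × ℂ) →L[ℂ] (ℂ × ℂ)) 0)
    (hγ : AnalyticAt ℂ γ 0) (h0 : γ 0 ≠ 0) :
    ∃ f' : Cn 3 ≃L[ℂ] Cn 3, HasFDerivAt (BB F γ) (f' : Cn 3 →L[ℂ] Cn 3) 0 := by
  let m : ℂ ≃L[ℂ] ℂ := ContinuousLinearEquiv.unitsEquivAut ℂ (Units.mk0 (γ 0) h0)
  have hm : (m : ℂ →L[ℂ] ℂ) = (γ 0) • ContinuousLinearMap.id ℂ ℂ := by
    ext
    simp [m]
  let P : ((ℂ × ℂ) × ℂ) ≃L[ℂ] ((ℂ × ℂ) × ℂ) := F'.prodCongr m
  refine ⟨(h3.symm.trans P).trans h3, ?_⟩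
  have e1 : HasFDerivAt (fun q : (ℂ × ℂ) × ℂ => F q.1)
      ((F' : (ℂ × ℂ) →L[ℂ] (ℂ × ℂ)).comp (ContinuousLinearMap.fst ℂ (ℂ × ℂ) ℂ)) 0 :=
    HasFDerivAt.comp (g := F) (f := Prod.fst) (0 : (ℂ × ℂ) × ℂ) hF' hasFDerivAt_fst
  have e2 : HasFDerivAt (fun q : (ℂ × ℂ) × ℂ => q.2 * γ q.1)
      ((γ 0) • (ContinuousLinearMap.snd ℂ (ℂ × ℂ) ℂ)) 0 := by
    have a1 : HasFDerivAt (fun q : (ℂ × ℂ) × ℂ => γ q.1)
        ((fderiv ℂ γ 0).comp (ContinuousLinearMap.fst ℂ (ℂ × ℂ) ℂ)) 0 :=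
      HasFDerivAt.comp (g := γ) (f := Prod.fst) (0 : (ℂ × ℂ) × ℂ)
        hγ.differentiableAt.hasFDerivAt hasFDerivAt_fst
    have a2 : HasFDerivAt (fun q : (ℂ × ℂ) × ℂ => q.2)
      (ContinuousLinearMap.snd ℂ (ℂ × ℂ) ℂ) (0 : (ℂ × ℂ) × ℂ) := hasFDerivAt_snd
    have a3 := a2.mul a1
    refine HasFDerivAt.congr_fderiv a3 ?_
    refine ContinuousLinearMap.ext fun v => ?_
    simp
  have e3 := e1.prodMk e2
  have e4 : HasFDerivAt (fun q : (ℂ × ℂ) × ℂ => (F q.1, q.2 * γ q.1))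
      (P : ((ℂ × ℂ) × ℂ) →L[ℂ] ((ℂ × ℂ) × ℂ)) 0 := by
    refine HasFDerivAt.congr_fderiv e3 ?_
    refine ContinuousLinearMap.ext fun v => ?_
    refine Prod.ext ?_ ?_
    · simp [P]
    · change γ 0 * v.2 = (m : ℂ →L[ℂ] ℂ) v.2
      rw [hm]
      simp
  rw [BB_eq]
  have e5 : HasFDerivAt (fun z : Cn 3 => (fun q : (ℂ × ℂ) × ℂ => (F q.1, q.2 * γ q.1))
      (h3.symm z)) ((P : ((ℂ × ℂ) × ℂ) →L[ℂ] ((ℂ × ℂ) × ℂ)).comp
        (h3.symm : Cn 3 →L[ℂ] (ℂ × ℂ) × ℂ)) 0 := by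
    refine HasFDerivAt.comp (g := fun q : (ℂ × ℂ) × ℂ => (F q.1, q.2 * γ q.1)) (0 : Cn 3) ?_
      (h3.symm : Cn 3 →L[ℂ] (ℂ × ℂ) × ℂ).hasFDerivAt
    have : h3.symm (0 : Cn 3) = 0 := map_zero _
    change HasFDerivAt _ _ (h3.symm (0 : Cn 3))
    rw [this]
    exact e4
  exact HasFDerivAt.comp (g := h3) (0 : Cn 3)
    (h3 : (ℂ × ℂ) × ℂ →L[ℂ] Cn 3).hasFDerivAt e5

/-! ### slopes -/

variable {C : Type} [TopologicalSpace C] {𝒞 : Cur C}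

theorem w_ne (c : C) : 𝒞.w c ≠ 0 := by
  intro h
  by_cases hc : 𝒞.iv c = c
  · have := 𝒞.nd3 c hc
    rw [show deriv (𝒞.G c) 0 = 0 from h] at this
    simp [det2] at this
  · have := 𝒞.nd c hc
    rw [show deriv (𝒞.G c) 0 = 0 from h] at this
    simp [det2] at this

theorem exists_Ci (c : C) : ∃ i, c ∈ Ci 𝒞 i := by
  by_contra h
  push Not at h
  refine w_ne (𝒞 := 𝒞) c ?_
  funext i
  have := h i
  exact not_not.1 this

/-- `w (iv c)` is proportional to `w c` -/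
theorem w_iv (c : C) : ∃ r : ℂ, 𝒞.w c = r • 𝒞.w (𝒞.iv c) := by
  set φ : ℂ → ℂ := fun z => 𝒞.k (𝒞.iv c) (𝒞.iv ((𝒞.k c).symm z)) with hφ
  have h0 : (𝒞.k c).symm 0 = c := by
    rw [← 𝒞.k_zero c]
    exact (𝒞.k c).left_inv (𝒞.k_mem c)
  have hφ0 : φ 0 = 0 := by
    simp only [hφ, h0, 𝒞.k_zero]
  have h0t : (0 : ℂ) ∈ (𝒞.k c).target := by
    rw [← 𝒞.k_zero c]
    exact (𝒞.k c).map_source (𝒞.k_mem c)
  have h0t' : (0 : ℂ) ∈ (𝒞.k (𝒞.iv c)).target := by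
    rw [← 𝒞.k_zero (𝒞.iv c)]
    exact (𝒞.k (𝒞.iv c)).map_source (𝒞.k_mem _)
  have h1 : ∀ᶠ z in 𝓝 (0 : ℂ), 𝒞.G (𝒞.iv c) (φ z) = - 𝒞.G c z := by
    have h2 : Tendsto (𝒞.k c).symm (𝓝 0) (𝓝 c) := by
      have := ((𝒞.k c).continuousAt_symm h0t).tendsto
      rwa [h0] at this
    filter_upwards [h2.eventually (𝒞.anti c), (𝒞.k c).open_target.mem_nhds h0t] with z hz hz2
    rw [(𝒞.k c).right_inv hz2] at hz
    exact hz
  have h3 : HasDerivAt (𝒞.G (𝒞.iv c)) (𝒞.w (𝒞.iv c)) (φ 0) := by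
    rw [hφ0]
    exact ((𝒞.G_an (𝒞.iv c)) 0 h0t').differentiableAt.hasDerivAt
  have h4 : HasDerivAt φ (deriv φ 0) 0 := (𝒞.iv_an c).differentiableAt.hasDerivAt
  have h5 : HasDerivAt (fun z => 𝒞.G (𝒞.iv c) (φ z)) (deriv φ 0 • 𝒞.w (𝒞.iv c)) 0 :=
    HasDerivAt.scomp (0 : ℂ) h3 h4
  have h6 : HasDerivAt (fun z => - 𝒞.G c z) (- 𝒞.w c) 0 :=
    ((𝒞.G_an c) 0 h0t).differentiableAt.hasDerivAt.neg
  have h7 := (h5.congr_of_eventuallyEq (h1.mono fun z hz => hz.symm)).unique h6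
  refine ⟨- deriv φ 0, ?_⟩
  rw [neg_smul, h7, neg_neg]

theorem Ci_iv {i : Fin 2} {c : C} (h : c ∈ Ci 𝒞 i) : 𝒞.iv c ∈ Ci 𝒞 i := by
  obtain ⟨r, hr⟩ := w_iv (𝒞 := 𝒞) c
  intro h0
  apply h
  rw [hr]
  simp [h0]

theorem slope_iv {i : Fin 2} {c : C} (h : c ∈ Ci 𝒞 i) : tv 𝒞 i (𝒞.iv c) = tv 𝒞 i c := by
  obtain ⟨r, hr⟩ := w_iv (𝒞 := 𝒞) c
  have h1 := Ci_iv h
  have hr0 : r ≠ 0 := by
    rintro rfl
    rw [zero_smul] at hr
    exact w_ne c hr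
  simp only [tv]
  rw [hr]
  simp only [Pi.smul_apply, smul_eq_mul]
  rw [mul_div_mul_left _ _ hr0]

theorem mem_Gam_swap {x : C × C} : x.swap ∈ 𝒞.Gam ↔ x ∈ 𝒞.Gam := by
  constructor
  · intro h
    have h1 : x.1 = 𝒞.iv x.2 := h
    change x.2 = 𝒞.iv x.1
    rw [h1, 𝒞.iv_iv]
  · intro h
    have h1 : x.2 = 𝒞.iv x.1 := h
    change x.1 = 𝒞.iv x.2
    rw [h1, 𝒞.iv_iv]

/-- equal slopes -/
theorem eq_of_slope {i : Fin 2} {c c' : C} (h : c ∈ Ci 𝒞 i) (h' : c' ∈ Ci 𝒞 i)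
    (he : tv 𝒞 i c = tv 𝒞 i c') : c' = c ∨ c' = 𝒞.iv c := by
  by_contra hn
  push Not at hn
  refine 𝒞.nd2 c c' hn.1 hn.2 ?_
  change det2 (𝒞.w c) (𝒞.w c') = 0
  have h1 : 𝒞.w c i ≠ 0 := h
  have h2 : 𝒞.w c' i ≠ 0 := h'
  simp only [tv] at he
  rw [div_eq_div_iff h1 h2] at he
  unfold det2
  fin_cases i
  · simp only [Fin.zero_eta, Fin.isValue, sub_zero] at he
    linear_combination -he
  · simp only [Fin.mk_one, Fin.isValue, sub_self] at he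
    linear_combination he

theorem tv_inv (i : Fin 2) (c : C) : tv 𝒞 (1 - i) c = (tv 𝒞 i c)⁻¹ := by
  simp only [tv, sub_sub_cancel, inv_div]

variable {N : Set (C × C)} {U : C × C → E2}

theorem TT_gam {i : Fin 2} {x : C × C} (h : x ∈ 𝒞.Gam) : 𝒞.TT U i x = tv 𝒞 i x.1 := by
  simp [Cur.TT, h, tv]

theorem TT_off {i : Fin 2} {x : C × C} (h : x ∉ 𝒞.Gam) : 𝒞.TT U i x = U x (1 - i) / U x i := by
  simp [Cur.TT, h]

theorem TT_swap (hN : 𝒞.NearE N U) {i : Fin 2} {x : C × C} (hx : x ∈ N)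
    (h : x ∈ 𝒞.Gam → x.1 ∈ Ci 𝒞 i) : 𝒞.TT U i x.swap = 𝒞.TT U i x := by
  by_cases hg : x ∈ 𝒞.Gam
  · rw [TT_gam (mem_Gam_swap.2 hg), TT_gam hg]
    have h1 : x.swap.1 = 𝒞.iv x.1 := hg
    rw [h1, slope_iv (h hg)]
  · rw [TT_off (fun h => hg (mem_Gam_swap.1 h)), TT_off hg, hN.swap x hx]

theorem U_gam (hN : 𝒞.NearE N U) {x : C × C} (h : x ∈ 𝒞.Gam) : U x = 0 :=
  (hN.zero x (hN.sub h)).2 h

theorem TT_eq_zero_of {i : Fin 2} {x : C × C} (hg : x ∉ 𝒞.Gam)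
    (h : U x i = 0) : 𝒞.TT U i x = 0 := by
  rw [TT_off hg, h, div_zero]

/-- a continuous function `Φ` of `x` with `(TT, U i) x = Φ x` and `Φ x = Φ x₀ → x = x₀` -/
theorem coordPhi (hN : 𝒞.NearE N U) {i : Fin 2} {c : C} (hc : c ∈ Ci 𝒞 i) :
    ∃ Φ : C × C → ℂ × ℂ, ContinuousAt Φ (c, 𝒞.iv c) ∧
      (∀ᶠ x in 𝓝 ((c, 𝒞.iv c) : C × C), (𝒞.TT U i x, U x i) = Φ x) ∧
      ∀ᶠ x in 𝓝 ((c, 𝒞.iv c) : C × C), Φ x = Φ (c, 𝒞.iv c) → x = (c, 𝒞.iv c) := by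
  by_cases hW : 𝒞.iv c = c
  · obtain ⟨F, F', hF, hF', hev⟩ := hN.coordW c i hW hc
    rw [hW]
    have hk : ContinuousAt (fun x : C × C => (𝒞.k c x.1, 𝒞.k c x.2)) (c, c) :=
      ContinuousAt.prodMk
        (ContinuousAt.comp (f := Prod.fst) (g := 𝒞.k c)
          ((𝒞.k c).continuousAt (𝒞.k_mem c)) continuousAt_fst)
        (ContinuousAt.comp (f := Prod.snd) (g := 𝒞.k c)
          ((𝒞.k c).continuousAt (𝒞.k_mem c)) continuousAt_snd)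
    have hσ : ContinuousAt (fun x : C × C =>
        (𝒞.k c x.1 + 𝒞.k c x.2, (𝒞.k c x.1 - 𝒞.k c x.2) ^ 2)) (c, c) := by
      have hm : Continuous fun p : ℂ × ℂ => (p.1 + p.2, (p.1 - p.2) ^ 2) := by fun_prop
      exact ContinuousAt.comp (f := fun x : C × C => (𝒞.k c x.1, 𝒞.k c x.2))
        (g := fun p : ℂ × ℂ => (p.1 + p.2, (p.1 - p.2) ^ 2)) hm.continuousAt hk
    have hσ0 : (𝒞.k c c + 𝒞.k c c, (𝒞.k c c - 𝒞.k c c) ^ 2) = (0 : ℂ × ℂ) := by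
      rw [𝒞.k_zero c]; norm_num
    refine ⟨fun x => F (𝒞.k c x.1 + 𝒞.k c x.2, (𝒞.k c x.1 - 𝒞.k c x.2) ^ 2), ?_, hev, ?_⟩
    · refine ContinuousAt.comp (f := fun x : C × C =>
        (𝒞.k c x.1 + 𝒞.k c x.2, (𝒞.k c x.1 - 𝒞.k c x.2) ^ 2)) (g := F) ?_ hσ
      simp only
      rw [hσ0]
      exact hF.continuousAt
    · have h1 := hσ.tendsto
      simp only [hσ0] at h1
      filter_upwards [h1.eventually (evInj hF hF'), prod_mem_nhds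
        ((𝒞.k c).open_source.mem_nhds (𝒞.k_mem c))
        ((𝒞.k c).open_source.mem_nhds (𝒞.k_mem c))] with x hx hx2 hxe
      simp only [hσ0] at hxe
      have h2 := hx hxe
      rw [Prod.ext_iff] at h2
      obtain ⟨h3, h4⟩ := h2
      simp only [Prod.fst_zero, Prod.snd_zero] at h3 h4
      have h5 : 𝒞.k c x.1 - 𝒞.k c x.2 = 0 := by
        rcases pow_eq_zero_iff (two_ne_zero) |>.1 h4 with h
        exact h
      have h6 : 𝒞.k c x.1 = 0 := by linear_combination (h3 + h5) / 2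
      have h7 : 𝒞.k c x.2 = 0 := by linear_combination (h3 - h5) / 2
      refine Prod.ext ?_ ?_
      · exact (𝒞.k c).injOn hx2.1 (𝒞.k_mem c) (by rw [h6, 𝒞.k_zero])
      · exact (𝒞.k c).injOn hx2.2 (𝒞.k_mem c) (by rw [h7, 𝒞.k_zero])
  · obtain ⟨F, F', hF, hF', hev⟩ := hN.coord c i hW hc
    have hk : ContinuousAt (fun x : C × C => (𝒞.k c x.1, 𝒞.k (𝒞.iv c) x.2)) (c, 𝒞.iv c) :=
      ContinuousAt.prodMk
        (ContinuousAt.comp (f := Prod.fst) (g := 𝒞.k c)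
          ((𝒞.k c).continuousAt (𝒞.k_mem c)) continuousAt_fst)
        (ContinuousAt.comp (f := Prod.snd) (g := 𝒞.k (𝒞.iv c))
          ((𝒞.k (𝒞.iv c)).continuousAt (𝒞.k_mem _)) continuousAt_snd)
    have hσ0 : (𝒞.k c c, 𝒞.k (𝒞.iv c) (𝒞.iv c)) = (0 : ℂ × ℂ) := by
      rw [𝒞.k_zero c, 𝒞.k_zero]; rfl
    refine ⟨fun x => F (𝒞.k c x.1, 𝒞.k (𝒞.iv c) x.2), ?_, hev, ?_⟩
    · refine ContinuousAt.comp (f := fun x : C × C => (𝒞.k c x.1, 𝒞.k (𝒞.iv c) x.2))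
        (g := F) ?_ hk
      simp only
      rw [hσ0]
      exact hF.continuousAt
    · have h1 := hk.tendsto
      simp only [hσ0] at h1
      filter_upwards [h1.eventually (evInj hF hF'), prod_mem_nhds
        ((𝒞.k c).open_source.mem_nhds (𝒞.k_mem c))
        ((𝒞.k (𝒞.iv c)).open_source.mem_nhds (𝒞.k_mem _))] with x hx hx2 hxe
      simp only [hσ0] at hxe
      have h2 := hx hxe
      rw [Prod.ext_iff] at h2
      obtain ⟨h3, h4⟩ := h2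
      simp only [Prod.fst_zero, Prod.snd_zero] at h3 h4
      refine Prod.ext ?_ ?_
      · exact (𝒞.k c).injOn hx2.1 (𝒞.k_mem c) (by rw [h3, 𝒞.k_zero])
      · exact (𝒞.k (𝒞.iv c)).injOn hx2.2 (𝒞.k_mem _) (by rw [h4, 𝒞.k_zero])

/-- the slope function is continuous at `(c, iv c)` -/
theorem TT_cont (hN : 𝒞.NearE N U) {i : Fin 2} {c : C} (hc : c ∈ Ci 𝒞 i) :
    ContinuousAt (fun x => 𝒞.TT U i x) (c, 𝒞.iv c) := by
  obtain ⟨Φ, hΦc, hΦe, -⟩ := coordPhi hN hc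
  exact hΦc.fst.congr (hΦe.mono fun x hx => by simp only [← hx])

/-- near `(c, iv c)` with `w c i ≠ 0`: off `Γ` the coordinate `U i` does not vanish -/
theorem near_alt (hN : 𝒞.NearE N U) {i : Fin 2} {c : C} (hc : c ∈ Ci 𝒞 i) :
    ∀ᶠ x in 𝓝 ((c, 𝒞.iv c) : C × C), x ∈ 𝒞.Gam ∨ U x i ≠ 0 := by
  have hg : ((c, 𝒞.iv c) : C × C) ∈ 𝒞.Gam := rfl
  have h0 : (𝒞.TT U i (c, 𝒞.iv c), U (c, 𝒞.iv c) i) = (tv 𝒞 i c, 0) := by
    rw [TT_gam hg, U_gam hN hg]; rfl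
  obtain ⟨Φ, hΦc, hΦe, hΦi⟩ := coordPhi hN hc
  have hΦ0 : Φ (c, 𝒞.iv c) = (tv 𝒞 i c, 0) := by
    rw [← h0]; exact hΦe.self_of_nhds.symm
  by_cases ht : tv 𝒞 i c = 0
  · filter_upwards [hΦe, hΦi] with x h1 h2
    by_contra hn
    push Not at hn
    obtain ⟨hn1, hn2⟩ := hn
    rw [TT_eq_zero_of hn1 hn2, hn2] at h1
    have h3 := h2 (by rw [← h1, hΦ0, ht])
    exact hn1 (by rw [h3]; exact hg)
  · have h1 : ∀ᶠ x in 𝓝 ((c, 𝒞.iv c) : C × C), (Φ x).1 ≠ 0 := by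
      have h2 : ContinuousAt (fun x => (Φ x).1) (c, 𝒞.iv c) := hΦc.fst
      refine h2.eventually_ne ?_
      rw [hΦ0]; exact ht
    filter_upwards [hΦe, h1] with x h3 h4
    by_contra hn
    push Not at hn
    obtain ⟨hn1, hn2⟩ := hn
    rw [TT_eq_zero_of hn1 hn2] at h3
    exact h4 (by rw [← h3])

/-- **every slope occurs** -/
theorem slope_surj (hN : 𝒞.NearE N U) (i : Fin 2) (T : ℂ) : ∃ c, c ∈ Ci 𝒞 i ∧ tv 𝒞 i c = T := by
  classical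
  by_contra hno
  push Not at hno
  -- small neighbourhoods
  have hloc : ∀ c : C, ∃ O : Set (C × C), IsOpen O ∧ ((c, 𝒞.iv c) : C × C) ∈ O ∧
      ∀ x ∈ O, x ∉ 𝒞.Gam → U x i ≠ 0 → U x (1 - i) ≠ T * U x i := by
    intro c
    have hg : ((c, 𝒞.iv c) : C × C) ∈ 𝒞.Gam := rfl
    have h1 : ∀ᶠ x in 𝓝 ((c, 𝒞.iv c) : C × C), x ∉ 𝒞.Gam → U x i ≠ 0 →
        U x (1 - i) ≠ T * U x i := by
      by_cases hc : c ∈ Ci 𝒞 i
      · have h2 : ∀ᶠ x in 𝓝 ((c, 𝒞.iv c) : C × C), 𝒞.TT U i x ≠ T := by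
          refine (TT_cont hN hc).eventually_ne ?_
          rw [TT_gam hg]
          exact hno c hc
        filter_upwards [h2] with x h3 h4 h5 h6
        apply h3
        rw [TT_off h4, h6]
        field_simp
      · obtain ⟨j, hj⟩ := exists_Ci (𝒞 := 𝒞) c
        have hji : j = 1 - i := by
          by_contra hne
          have : j = i := by
            fin_cases i <;> fin_cases j <;> simp_all
          exact hc (this ▸ hj)
        have hc' : c ∈ Ci 𝒞 (1 - i) := hji ▸ hj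
        by_cases hT : T = 0
        · filter_upwards [near_alt hN hc'] with x h3 h4 h5 h6
          rcases h3 with h3 | h3
          · exact h4 h3
          · exact h3 (by rw [h6, hT, zero_mul])
        · have h2 : ∀ᶠ x in 𝓝 ((c, 𝒞.iv c) : C × C), 𝒞.TT U (1 - i) x ≠ T⁻¹ := by
            refine (TT_cont hN hc').eventually_ne ?_
            rw [TT_gam hg]
            have h7 : tv 𝒞 (1 - i) c = 0 := by
              have h8 : 𝒞.w c i = 0 := not_not.1 hc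
              simp [tv, h8]
            rw [h7]
            exact (inv_ne_zero hT).symm
          filter_upwards [h2] with x h3 h4 h5 h6
          apply h3
          rw [TT_off h4, h6, sub_sub_cancel]
          field_simp
    obtain ⟨O, hO, hOo, hcO⟩ := eventually_nhds_iff.1 h1
    exact ⟨O, hOo, hcO, hO⟩
  choose O hOo hcO hO using hloc
  obtain ⟨δ, hδ, -, hsm⟩ := hN.small (⋃ c, O c) (isOpen_iUnion hOo) (by
    intro x hx
    have h1 : x = (x.1, 𝒞.iv x.1) := Prod.ext rfl hx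
    rw [h1]
    exact mem_iUnion.2 ⟨x.1, hcO x.1⟩)
  -- a small vector of slope `T`
  let l : ℂ := ((δ / (2 * (1 + ‖T‖)) : ℝ) : ℂ)
  have hp : 0 < 1 + ‖T‖ := by positivity
  have hl0 : l ≠ 0 := by
    simp only [l]
    exact_mod_cast (by positivity : δ / (2 * (1 + ‖T‖)) ≠ 0)
  have hln : ‖l‖ = δ / (2 * (1 + ‖T‖)) := by
    simp only [l]
    rw [Complex.norm_real, Real.norm_of_nonneg (by positivity)]
  let v : E2 := fun j => if j = i then l else T * l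
  have hvi : v i = l := by simp [v]
  have hne : (1 - i : Fin 2) ≠ i := by fin_cases i <;> decide
  have hvj : v (1 - i) = T * l := by simp [v, hne]
  have hv : v ∈ Metric.ball (0 : E2) δ := by
    rw [mem_ball_zero_iff, pi_norm_lt_iff hδ]
    intro j
    by_cases hj : j = i
    · simp only [v, hj, if_true]
      rw [hln, div_lt_iff₀ (by positivity)]
      nlinarith [norm_nonneg T]
    · simp only [v, hj, if_false]
      rw [norm_mul, hln, mul_div_assoc', div_lt_iff₀ (by positivity)]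
      nlinarith [norm_nonneg T]
  obtain ⟨x, ⟨hxN, hxO⟩, hxv⟩ := hsm hv
  obtain ⟨c, hc⟩ := mem_iUnion.1 hxO
  have h1 : x ∉ 𝒞.Gam := by
    intro h
    have h2 := U_gam hN h
    rw [h2] at hxv
    apply hl0
    rw [← hvi, ← hxv]
    rfl
  refine hO c x hc h1 ?_ ?_
  · rw [hxv, hvi]; exact hl0
  · rw [hxv, hvi, hvj]

end

end Crest.Agent.R272.Idn_834
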