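import Crest.Agent.R272.Idn2_834

/-!
# R272, leaf IDENT-E (helper834), part 3: the map `Psi` and its fibres
-/

set_option autoImplicit false
set_option linter.unusedSectionVars false

open Set Filter Topology
open scoped ContDiff

namespace Crest.Agent.R272.Idn_834

open Crest.Agent.R275.Geo Crest.Agent.R273.Fam_835 Crest.Agent.R272.Refl_246
open Crest.Agent.R272.AJ_956

noncomputable section

variable {C : Type} [TopologicalSpace C] {𝒞 : Cur C} {N : Set (C × C)} {U : C × C → E2}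
  {Y : Type} [TopologicalSpace Y] {CY : Fam 3 Y} {G : Type} [Group G] [MulAction G Y] {s : G}
  {V : Type} [TopologicalSpace V] {D : Fam 3 V}

/-- everything which goes into IDENT-E -/
structure Inp (𝒞 : Cur C) (N : Set (C × C)) (U : C × C → E2) (CY : Fam 3 Y) (G : Type) [Group G]
    [MulAction G Y] (s : G) (D : Fam 3 V) where
  hN : 𝒞.NearE N U
  K : K3 𝒞 U
  Ge : Germ 𝒞 CY G s
  S : StdU D

namespace Inp

variable (I : Inp 𝒞 N U CY G s D)

/-- the domain of the formula of index `i` -/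
def Dm (i : Fin 2) : Set ((C × C) × ℂ) := {p | p ∈ (I.Ge.E i).source ∧ p.1 ∈ N ∧ p.1 ∈ I.K.N i}

/-- coordinates of `Psi` -/
def co (_ : Inp 𝒞 N U CY G s D) (i : Fin 2) (p : (C × C) × ℂ) : (ℂ × ℂ) × ℂ :=
  ((𝒞.TT U i p.1, U p.1 i), p.2 * I.K.g i p.1)

/-- the formula of index `i` -/
def psi (i : Fin 2) (p : (C × C) × ℂ) : V := (D.e (I.S.d i)).symm (h3 (I.co I i p))

theorem psi_mem (i : Fin 2) (p : (C × C) × ℂ) : I.psi i p ∈ (D.e (I.S.d i)).source := by
  refine (D.e (I.S.d i)).map_target ?_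
  rw [I.S.tgt i]
  trivial

theorem e_psi (i : Fin 2) (p : (C × C) × ℂ) : D.e (I.S.d i) (I.psi i p) = h3 (I.co I i p) := by
  refine (D.e (I.S.d i)).right_inv ?_
  rw [I.S.tgt i]
  trivial

include I in
theorem ss (y : Y) : s • s • y = y := by
  rw [smul_smul, I.Ge.two, one_smul]

theorem sw_Dm {i : Fin 2} {p : (C × C) × ℂ} (hp : p ∈ I.Dm i) : sw p ∈ I.Dm i :=
  ⟨I.Ge.swap_mem i p hp.1, I.hN.swap_N _ hp.2.1, I.K.swap_mem i _ hp.2.2⟩

theorem Dm_Ci {i : Fin 2} {p : (C × C) × ℂ} (hp : p ∈ I.Dm i) :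
    p.1.1 ∈ Ci 𝒞 i ∧ p.1.2 ∈ Ci 𝒞 i := I.Ge.dom i p hp.1

theorem psi_sw {i : Fin 2} {p : (C × C) × ℂ} (hp : p ∈ I.Dm i) : I.psi i (sw p) = I.psi i p := by
  have h1 : 𝒞.TT U i p.1.swap = 𝒞.TT U i p.1 :=
    TT_swap I.hN hp.2.1 fun _ => (I.Dm_Ci hp).1
  have h2 : U p.1.swap = U p.1 := I.hN.swap _ hp.2.1
  have h3 := I.K.symm i _ hp.2.2
  simp only [psi, co, sw, h1, h2, h3]

/-- same index -/
theorem same {i : Fin 2} {p q : (C × C) × ℂ} (hp : p ∈ I.Dm i) (hq : q ∈ I.Dm i)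
    (h : I.psi i p = I.psi i q) : q = p ∨ q = sw p := by
  have h0 : I.co I i p = I.co I i q := by
    have := congrArg (D.e (I.S.d i)) h
    rw [I.e_psi, I.e_psi] at this
    exact h3.injective this
  obtain ⟨⟨x, x'⟩, ξ⟩ := p
  simp only [co, Prod.mk.injEq] at h0
  obtain ⟨⟨h1, h2⟩, h4⟩ := h0
  have hpN := hp.2.1
  have hqN := hq.2.1
  simp only at hpN hqN
  have hpd := I.K.dom i _ hp.2.2
  have hqd := I.K.dom i _ hq.2.2
  simp only at hpd hqd
  have hx : q.1 = (x, x') ∨ q.1 = (x, x').swap := by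
    by_cases hg : ((x, x') : C × C) ∈ 𝒞.Gam
    · have hU : U (x, x') i = 0 := by rw [U_gam I.hN hg]; rfl
      have hg' : q.1 ∈ 𝒞.Gam := by
        rcases hqd.2.2 with h | h
        · exact h
        · exact absurd (by rw [← h2, hU]) h
      rw [TT_gam hg, TT_gam hg'] at h1
      have h5 := eq_of_slope hpd.1 hqd.1 h1
      have e1 : q.1.2 = 𝒞.iv q.1.1 := hg'
      have e2 : x' = 𝒞.iv x := hg
      rcases h5 with h5 | h5
      · left
        refine Prod.ext h5 ?_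
        change q.1.2 = x'
        rw [e1, show q.1.1 = x from h5, e2]
      · right
        refine Prod.ext ?_ ?_
        · change q.1.1 = x'
          rw [show q.1.1 = 𝒞.iv x from h5, e2]
        · change q.1.2 = x
          rw [e1, show q.1.1 = 𝒞.iv x from h5, 𝒞.iv_iv]
    · have hU : U (x, x') i ≠ 0 := hpd.2.2.resolve_left hg
      have hU' : U q.1 i ≠ 0 := by rw [← h2]; exact hU
      have hg' : q.1 ∉ 𝒞.Gam := fun hh => hU' (by rw [U_gam I.hN hh]; rfl)
      rw [TT_off hg, TT_off hg', ← h2] at h1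
      have h6 : U (x, x') (1 - i) = U q.1 (1 - i) := by
        field_simp at h1
        exact h1
      have h7 : U (x, x') = U q.1 := by
        funext j
        have : j = i ∨ j = 1 - i := by fin_cases i <;> fin_cases j <;> simp
        rcases this with rfl | rfl
        · exact h2
        · exact h6
      refine I.hN.inj _ hpN _ hqN h7 ?_
      intro h0
      exact hU (by rw [h0]; rfl)
  have hgg : I.K.g i q.1 = I.K.g i (x, x') := by
    rcases hx with h | h
    · rw [h]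
    · rw [h, I.K.symm i _ hp.2.2]
  have hne : I.K.g i (x, x') ≠ 0 := I.K.ne i _ hp.2.2
  have h8 : q.2 = ξ := by
    rw [hgg] at h4
    exact (mul_right_cancel₀ hne h4).symm
  rcases hx with h | h
  · left
    exact Prod.ext h h8
  · right
    exact Prod.ext h h8

/-- different index -/
theorem diff01 {p q : (C × C) × ℂ} (hp : p ∈ I.Dm 0) (hq : q ∈ I.Dm 1) :
    I.psi 0 p = I.psi 1 q ↔ (I.Ge.E 1 q = I.Ge.E 0 p ∨ I.Ge.E 1 q = s • I.Ge.E 0 p) := by
  have hpN := hp.2.1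
  have hqN := hq.2.1
  have hpd := I.K.dom 0 _ hp.2.2
  have hqd := I.K.dom 1 _ hq.2.2
  have hpc := I.Dm_Ci hp
  have hqc := I.Dm_Ci hq
  -- equality of values in terms of coordinates, given the chart condition
  have hval : ∀ p : (C × C) × ℂ, 𝒞.TT U 0 p.1 ≠ 0 →
      D.e (I.S.d 1) (I.psi 0 p) = h3 (((𝒞.TT U 0 p.1)⁻¹, 𝒞.TT U 0 p.1 * U p.1 0),
        (𝒞.TT U 0 p.1) ^ 2 * (p.2 * I.K.g 0 p.1)) ∧ I.psi 0 p ∈ (D.e (I.S.d 1)).source := by
    intro p hT
    have h1 : I.psi 0 p ∈ (D.e (I.S.d (1 - 0))).source := by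
      rw [I.S.ov 0 _ (I.psi_mem 0 p), I.e_psi]
      exact hT
    have h2 := I.S.tr 0 _ (I.psi_mem 0 p) h1
    rw [I.e_psi] at h2
    exact ⟨h2, h1⟩
  constructor
  · intro h
    have hT : 𝒞.TT U 0 p.1 ≠ 0 := by
      have h1 : I.psi 0 p ∈ (D.e (I.S.d (1 - 0))).source := by
        rw [h]; exact I.psi_mem 1 q
      rw [I.S.ov 0 _ (I.psi_mem 0 p), I.e_psi] at h1
      exact h1
    have h0 : I.co I 1 q = (((𝒞.TT U 0 p.1)⁻¹, 𝒞.TT U 0 p.1 * U p.1 0),
        (𝒞.TT U 0 p.1) ^ 2 * (p.2 * I.K.g 0 p.1)) := by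
      have := (hval p hT).1
      rw [h, I.e_psi] at this
      exact h3.injective this
    simp only [co, Prod.mk.injEq] at h0
    obtain ⟨⟨h1, h2⟩, h4⟩ := h0
    have hx : q.1 = p.1 ∨ q.1 = p.1.swap := by
      by_cases hg : p.1 ∈ 𝒞.Gam
      · have hU : U p.1 0 = 0 := by rw [U_gam I.hN hg]; rfl
        have hg' : q.1 ∈ 𝒞.Gam := by
          rcases hqd.2.2 with h | h
          · exact h
          · exact absurd (by rw [h2, hU, mul_zero]) h
        rw [TT_gam hg, TT_gam hg'] at h1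
        rw [TT_gam hg] at hT
        -- `p.1.1 ∈ Ci 1`
        have hp1 : p.1.1 ∈ Ci 𝒞 1 := by
          intro h0
          apply hT
          simp [tv, h0]
        have h5 : tv 𝒞 1 p.1.1 = tv 𝒞 1 q.1.1 := by
          rw [h1]
          exact tv_inv 0 p.1.1
        have h6 := eq_of_slope hp1 hqd.1 h5
        have e1 : q.1.2 = 𝒞.iv q.1.1 := hg'
        have e2 : p.1.2 = 𝒞.iv p.1.1 := hg
        rcases h6 with h6 | h6
        · left
          refine Prod.ext h6 ?_
          rw [e1, h6, e2]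
        · right
          refine Prod.ext ?_ ?_
          · rw [h6, Prod.fst_swap, e2]
          · rw [e1, h6, 𝒞.iv_iv, Prod.snd_swap]
      · have hU : U p.1 0 ≠ 0 := hpd.2.2.resolve_left hg
        rw [TT_off hg] at h1 h2 hT
        simp only [sub_zero] at h1 h2 hT
        have h5 : U q.1 1 = U p.1 1 := by
          rw [h2]; field_simp
        have hU1 : U p.1 1 ≠ 0 := fun h0 => hT (by rw [h0, zero_div])
        have hU1' : U q.1 1 ≠ 0 := by rw [h5]; exact hU1
        have hg' : q.1 ∉ 𝒞.Gam := fun hh => hU1' (by rw [U_gam I.hN hh]; rfl)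
        rw [TT_off hg'] at h1
        simp only [sub_self] at h1
        have h6 : U q.1 0 = U p.1 0 := by
          rw [h5, inv_div] at h1
          field_simp at h1
          exact h1
        have h7 : U p.1 = U q.1 := by
          funext j
          fin_cases j
          · exact h6.symm
          · exact h5.symm
        refine I.hN.inj _ hpN _ hqN h7 ?_
        intro h0
        exact hU (by rw [h0]; rfl)
    have hp1 : p.1 ∈ I.K.N 1 := by
      rcases hx with h | h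
      · rw [← h]; exact hq.2.2
      · have := I.K.swap_mem 1 _ hq.2.2
        rw [h, Prod.swap_swap] at this
        exact this
    have hgg : I.K.g 1 q.1 = I.K.g 1 p.1 := by
      rcases hx with h | h
      · rw [h]
      · rw [h, I.K.symm 1 _ hp1]
    have hne : I.K.g 1 p.1 ≠ 0 := I.K.ne 1 _ hp1
    have hrel := I.K.rel _ hp.2.2 hp1
    have h8 : q.2 = p.2 * (tv 𝒞 0 p.1.1 * tv 𝒞 0 p.1.2) := by
      rw [hgg] at h4
      apply mul_right_cancel₀ hne
      rw [h4]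
      linear_combination -p.2 * hrel
    rcases hx with h | h
    · left
      exact ((I.Ge.ov p hp.1 q hq.1).2 ⟨h, h8⟩).symm
    · right
      have h9 : I.Ge.E 0 p = I.Ge.E 1 (sw q) := by
        refine (I.Ge.ov p hp.1 (sw q) (I.Ge.swap_mem 1 _ hq.1)).2 ⟨?_, h8⟩
        simp only [sw, h, Prod.swap_swap]
      rw [← I.Ge.swap 1 q hq.1] at h9
      rw [h9, I.ss]
  · -- reverse
    have key : ∀ p ∈ I.Dm 0, ∀ q ∈ I.Dm 1, I.Ge.E 1 q = I.Ge.E 0 p → I.psi 0 p = I.psi 1 q := by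
      intro p hp q hq h
      obtain ⟨h1, h2⟩ := (I.Ge.ov p hp.1 q hq.1).1 h.symm
      have hp1 : p.1 ∈ I.K.N 1 := by rw [← h1]; exact hq.2.2
      have hpc := I.Dm_Ci hp
      have hpd := I.K.dom 0 _ hp.2.2
      have hpd1 := I.K.dom 1 _ hp1
      have hrel := I.K.rel _ hp.2.2 hp1
      have hT : 𝒞.TT U 0 p.1 ≠ 0 ∧ 𝒞.TT U 1 p.1 = (𝒞.TT U 0 p.1)⁻¹ ∧
          U p.1 1 = 𝒞.TT U 0 p.1 * U p.1 0 := by
        by_cases hg : p.1 ∈ 𝒞.Gam
        · rw [TT_gam hg, TT_gam hg, U_gam I.hN hg]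
          refine ⟨?_, tv_inv 0 _, by simp⟩
          simp only [tv, sub_zero]
          exact div_ne_zero hpd1.1 hpd.1
        · have hU : U p.1 0 ≠ 0 := hpd.2.2.resolve_left hg
          have hU1 : U p.1 1 ≠ 0 := hpd1.2.2.resolve_left hg
          rw [TT_off hg, TT_off hg]
          simp only [sub_zero, sub_self]
          refine ⟨div_ne_zero hU1 hU, by rw [inv_div], by field_simp⟩
      obtain ⟨hT0, hT1, hT2⟩ := hT
      obtain ⟨hv1, hv2⟩ := hval p hT0
      refine (D.e (I.S.d 1)).injOn hv2 (I.psi_mem 1 q) ?_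
      rw [hv1, I.e_psi]
      congr 1
      simp only [co, h1, hT1, hT2, h2, Prod.mk.injEq, true_and]
      linear_combination -p.2 * hrel
    rintro (h | h)
    · exact key p hp q hq h
    · rw [I.Ge.swap 0 p hp.1] at h
      rw [← I.psi_sw hp]
      exact key (sw p) (I.sw_Dm hp) q hq h

theorem E_inj {i : Fin 2} {p q : (C × C) × ℂ} (hp : p ∈ (I.Ge.E i).source)
    (hq : q ∈ (I.Ge.E i).source) (h : I.Ge.E i p = I.Ge.E i q) : p = q :=
  (I.Ge.E i).injOn hp hq h

/-- **fibres** -/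
theorem fib {i j : Fin 2} {p q : (C × C) × ℂ} (hp : p ∈ I.Dm i) (hq : q ∈ I.Dm j) :
    I.psi i p = I.psi j q ↔ (I.Ge.E j q = I.Ge.E i p ∨ I.Ge.E j q = s • I.Ge.E i p) := by
  have hij : i = j ∨ (i = 0 ∧ j = 1) ∨ (i = 1 ∧ j = 0) := by
    fin_cases i <;> fin_cases j <;> simp
  rcases hij with rfl | ⟨rfl, rfl⟩ | ⟨rfl, rfl⟩
  · constructor
    · intro h
      rcases I.same hp hq h with h | h
      · left; rw [h]
      · right; rw [I.Ge.swap i p hp.1, h]
    · rintro (h | h)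
      · rw [I.E_inj hq.1 hp.1 h]
      · rw [I.Ge.swap i p hp.1] at h
        rw [I.E_inj hq.1 (I.sw_Dm hp).1 h, I.psi_sw hp]
  · exact I.diff01 hp hq
  · rw [eq_comm, I.diff01 hq hp]
    constructor
    · rintro (h | h)
      · left; exact h.symm
      · right; rw [h, I.ss]
    · rintro (h | h)
      · left; exact h.symm
      · right; rw [h, I.ss]

open Classical in
/-- the map `Psi` -/
def Psi (y : Y) : V :=
  if h : ∃ p ∈ I.Dm 0, I.Ge.E 0 p = y then I.psi 0 h.choose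
  else I.psi 1 ((I.Ge.E 1).symm y)

theorem Psi_E {i : Fin 2} {p : (C × C) × ℂ} (hp : p ∈ I.Dm i) :
    I.Psi (I.Ge.E i p) = I.psi i p := by
  classical
  by_cases h : ∃ q ∈ I.Dm 0, I.Ge.E 0 q = I.Ge.E i p
  · have h1 : I.Psi (I.Ge.E i p) = I.psi 0 h.choose := dif_pos h
    rw [h1]
    obtain ⟨h2, h4⟩ := h.choose_spec
    exact (I.fib h2 hp).2 (Or.inl h4.symm)
  · have h1 : I.Psi (I.Ge.E i p) = I.psi 1 ((I.Ge.E 1).symm (I.Ge.E i p)) := dif_neg h
    have hi : i = 1 := by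
      fin_cases i
      · exact absurd ⟨p, hp, rfl⟩ h
      · rfl
    subst hi
    rw [h1, (I.Ge.E 1).left_inv hp.1]

/-- the covered region -/
def Reg : Set Y := {y | ∃ i, ∃ p ∈ I.Dm i, y = I.Ge.E i p}

theorem Psi_fib {y y' : Y} (hy : y ∈ I.Reg) (hy' : y' ∈ I.Reg) :
    I.Psi y = I.Psi y' ↔ (y' = y ∨ y' = s • y) := by
  obtain ⟨i, p, hp, rfl⟩ := hy
  obtain ⟨j, q, hq, rfl⟩ := hy'
  rw [I.Psi_E hp, I.Psi_E hq]
  exact I.fib hp hq

theorem grp {y : Y} (hy : y ∈ I.Reg) (g : G) (hg : g • y ∈ I.Reg) : g = 1 ∨ g = s := by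
  obtain ⟨i, p, hp, rfl⟩ := hy
  obtain ⟨j, q, hq, h⟩ := hg
  exact I.Ge.grp g i j p hp.1 q hq.1 h

end Inp

end

end Crest.Agent.R272.Idn_834
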