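import Crest.Agent.R272.Idn3_834
import Crest.Agent.R272.IdnE_834

/-!
# R272, leaf IDENT-E (helper834), part 4: local structure of `Psi` along `e` and the theorem `ident`
-/

set_option autoImplicit false
set_option linter.unusedSectionVars false

open Set Filter Topology
open scoped ContDiff

namespace Crest.Agent.R272.Idn_834

open Crest.Agent.R275.Geo Crest.Agent.R273.Fam_835 Crest.Agent.R272.Refl_246
open Crest.Agent.R272.AJ_956

noncomputable section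

/-- `(z₀, z₁, ξ) ↦ (z₀ + z₁, z₀ - z₁, ξ)` -/
def Lpm : Cn 3 ≃L[ℂ] Cn 3 :=
  LinearEquiv.toContinuousLinearEquiv
    { toFun := fun z => WithLp.toLp 2 ![z 0 + z 1, z 0 - z 1, z 2]
      invFun := fun z => WithLp.toLp 2 ![(z 0 + z 1) / 2, (z 0 - z 1) / 2, z 2]
      map_add' := by
        intro p q
        ext i
        fin_cases i
        · simp; ring
        · simp; ring
        · simp
      map_smul' := by
        intro r p
        ext i
        fin_cases i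
        · simp; ring
        · simp; ring
        · simp
      left_inv := by
        intro z
        ext i
        fin_cases i
        · simp
        · simp
        · simp
      right_inv := by
        intro z
        ext i
        fin_cases i
        · simp; ring
        · simp; ring
        · simp }

@[simp] theorem Lpm_0 (z : Cn 3) : Lpm z 0 = z 0 + z 1 := rfl
@[simp] theorem Lpm_1 (z : Cn 3) : Lpm z 1 = z 0 - z 1 := rfl
@[simp] theorem Lpm_2 (z : Cn 3) : Lpm z 2 = z 2 := rfl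

variable {C : Type} [TopologicalSpace C] {𝒞 : Cur C} {N : Set (C × C)} {U : C × C → E2}
  {Y : Type} [TopologicalSpace Y] {CY : Fam 3 Y} {G : Type} [Group G] [MulAction G Y] {s : G}
  {V : Type} [TopologicalSpace V] {D : Fam 3 V}

theorem mem_pc {c c' : C} {p : (C × C) × ℂ} :
    p ∈ (pc 𝒞 c c').source ↔ p.1.1 ∈ (𝒞.k c).source ∧ p.1.2 ∈ (𝒞.k c').source := by
  simp [pc, mem_prod]

theorem pc_apply (c c' : C) (p : (C × C) × ℂ) :
    pc 𝒞 c c' p = h3 ((𝒞.k c p.1.1, 𝒞.k c' p.1.2), p.2) := rfl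

namespace Inp

variable (I : Inp 𝒞 N U CY G s D)

/-- the centre -/
def y0 (i : Fin 2) (c : C) : Y := I.Ge.E i ((c, 𝒞.iv c), 0)

/-- the chart of `Y` at the centre -/
def ph (i : Fin 2) (c c' : C) : OpenPartialHomeomorph Y (Cn 3) :=
  (I.Ge.E i).symm.trans (pc 𝒞 c c')

theorem mem_ph {i : Fin 2} {c c' : C} {y : Y} : y ∈ (I.ph i c c').source ↔
    ∃ p ∈ (I.Ge.E i).source, I.Ge.E i p = y ∧ p.1.1 ∈ (𝒞.k c).source ∧
      p.1.2 ∈ (𝒞.k c').source := by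
  rw [ph, OpenPartialHomeomorph.trans_source, OpenPartialHomeomorph.symm_source]
  constructor
  · rintro ⟨h1, h2⟩
    rw [mem_preimage, mem_pc] at h2
    exact ⟨(I.Ge.E i).symm y, (I.Ge.E i).map_target h1, (I.Ge.E i).right_inv h1, h2.1, h2.2⟩
  · rintro ⟨p, hp, rfl, h1, h2⟩
    refine ⟨(I.Ge.E i).map_source hp, ?_⟩
    rw [mem_preimage, (I.Ge.E i).left_inv hp, mem_pc]
    exact ⟨h1, h2⟩

theorem ph_E {i : Fin 2} {c c' : C} {p : (C × C) × ℂ} (hp : p ∈ (I.Ge.E i).source) :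
    I.ph i c c' (I.Ge.E i p) = h3 ((𝒞.k c p.1.1, 𝒞.k c' p.1.2), p.2) := by
  change pc 𝒞 c c' ((I.Ge.E i).symm (I.Ge.E i p)) = _
  rw [(I.Ge.E i).left_inv hp, pc_apply]

theorem y0_mem {i : Fin 2} {c : C} (hc : c ∈ Ci 𝒞 i) : I.y0 i c ∈ (I.ph i c (𝒞.iv c)).source := by
  rw [I.mem_ph]
  exact ⟨_, I.Ge.mem i c hc, rfl, 𝒞.k_mem c, 𝒞.k_mem _⟩

theorem ph_y0 {i : Fin 2} {c : C} (hc : c ∈ Ci 𝒞 i) : I.ph i c (𝒞.iv c) (I.y0 i c) = 0 := by
  rw [y0, I.ph_E (I.Ge.mem i c hc)]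
  simp only [𝒞.k_zero]
  exact map_zero h3

/-- transfer of local statements about `C × C` -/
theorem ev {i : Fin 2} {c : C} (hc : c ∈ Ci 𝒞 i) {P : C × C → Prop}
    (hP : ∀ᶠ x in 𝓝 ((c, 𝒞.iv c) : C × C), P x) :
    ∀ᶠ y in 𝓝 (I.y0 i c), ∃ p ∈ (I.Ge.E i).source, I.Ge.E i p = y ∧ P p.1 := by
  have h0 := I.Ge.mem i c hc
  have ht : I.y0 i c ∈ (I.Ge.E i).target := (I.Ge.E i).map_source h0
  have h1 : Tendsto (fun y => ((I.Ge.E i).symm y).1) (𝓝 (I.y0 i c)) (𝓝 (c, 𝒞.iv c)) := by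
    have h2 : ContinuousAt (fun y => ((I.Ge.E i).symm y).1) (I.y0 i c) :=
      ((I.Ge.E i).continuousAt_symm ht).fst
    have h3 := h2.tendsto
    have h4 : ((I.Ge.E i).symm (I.y0 i c)).1 = (c, 𝒞.iv c) := by
      rw [y0, (I.Ge.E i).left_inv h0]
    rwa [h4] at h3
  filter_upwards [h1.eventually hP, (I.Ge.E i).open_target.mem_nhds ht] with y hy hy2
  exact ⟨_, (I.Ge.E i).map_target hy2, (I.Ge.E i).right_inv hy2, hy⟩

/-- near the centre everything is in the region -/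
theorem ev_Dm {i : Fin 2} {c : C} (hc : c ∈ Ci 𝒞 i) {P : C × C → Prop}
    (hP : ∀ᶠ x in 𝓝 ((c, 𝒞.iv c) : C × C), P x) :
    ∀ᶠ y in 𝓝 (I.y0 i c), ∃ p ∈ I.Dm i, I.Ge.E i p = y ∧ P p.1 := by
  have hg : ((c, 𝒞.iv c) : C × C) ∈ 𝒞.Gam := rfl
  have h1 : ∀ᶠ x in 𝓝 ((c, 𝒞.iv c) : C × C), x ∈ N ∧ x ∈ I.K.N i :=
    inter_mem (I.hN.open_N.mem_nhds (I.hN.sub hg)) ((I.K.open_N i).mem_nhds (I.K.sub i c hc))
  filter_upwards [I.ev hc (h1.and hP)] with y hy
  obtain ⟨p, hp, hpy, h2, h3⟩ := hy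
  exact ⟨p, ⟨hp, h2.1, h2.2⟩, hpy, h3⟩

theorem cont_aux {φ : Y → Cn 3} {B : Cn 3 → Cn 3} {k : D.ι} (hk : (D.e k).target = univ) {y : Y}
    (hφ : ContinuousAt φ y) (hB : ContinuousAt B (φ y)) {Ps : Y → V}
    (hev : ∀ᶠ y' in 𝓝 y, Ps y' = (D.e k).symm (B (φ y'))) : ContinuousAt Ps y := by
  have h1 : ContinuousAt (fun y' => (D.e k).symm (B (φ y'))) y := by
    have h2 : ContinuousAt (fun y' => B (φ y')) y := ContinuousAt.comp (f := φ) (g := B) hB hφ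
    refine ContinuousAt.comp (f := fun y' => B (φ y')) (g := (D.e k).symm) ?_ h2
    refine (D.e k).continuousAt_symm ?_
    rw [hk]; trivial
  exact h1.congr (hev.mono fun y' h => h.symm)

/-- non-Weierstrass points -/
theorem loc_free {i : Fin 2} {c : C} (hc : c ∈ Ci 𝒞 i) (hW : 𝒞.iv c ≠ c) :
    ∀ᶠ y in 𝓝 (I.y0 i c), y ∈ I.Reg ∧ ContinuousAt I.Psi y ∧ LocFree CY D I.Psi y := by
  obtain ⟨F, F', hF, hF', hev⟩ := I.hN.coord c i hW hc
  obtain ⟨γ, hγ, hev2⟩ := I.K.an i c hc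
  set φ := I.ph i c (𝒞.iv c) with hφ
  have hγ0 : γ 0 ≠ 0 := by
    have h1 := hev2.self_of_nhds
    simp only [𝒞.k_zero] at h1
    change I.K.g i (c, 𝒞.iv c) = γ 0 at h1
    rw [← h1]
    exact I.K.ne i _ (I.K.sub i c hc)
  obtain ⟨B', hB'⟩ := BB_deriv hF' hγ hγ0
  have hBan := BB_an hF hγ
  -- the formula near the centre
  have hform : ∀ᶠ y in 𝓝 (I.y0 i c), y ∈ I.Reg ∧ I.Psi y = (D.e (I.S.d i)).symm (BB F γ (φ y)) := by
    filter_upwards [I.ev_Dm hc (hev.and hev2)] with y hy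
    obtain ⟨p, hp, rfl, h1, h2⟩ := hy
    refine ⟨⟨i, p, hp, rfl⟩, ?_⟩
    rw [I.Psi_E hp, psi, hφ, I.ph_E hp.1]
    congr 1
    simp only [co, BB, h3_0, h3_1, h3_2]
    rw [← h1, ← h2]
  have hy0 : I.y0 i c ∈ φ.source := I.y0_mem hc
  have hφ0 : φ (I.y0 i c) = 0 := I.ph_y0 hc
  have hinv : ∀ᶠ y in 𝓝 (I.y0 i c), ∃ g' : Cn 3 ≃L[ℂ] Cn 3,
      HasStrictFDerivAt (BB F γ) (g' : Cn 3 →L[ℂ] Cn 3) (φ y) := by
    have h1 := (φ.continuousAt hy0).tendsto
    rw [hφ0] at h1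
    exact h1.eventually (evInv hBan hB')
  filter_upwards [hform, eventually_eventually_nhds.2 hform, hinv, φ.open_source.mem_nhds hy0]
    with y h1 h2 h4 h5
  obtain ⟨g', hg'⟩ := h4
  refine ⟨h1.1, ?_, ?_⟩
  · exact cont_aux (I.S.tgt i) (φ.continuousAt h5) hg'.continuousAt (h2.mono fun _ h => h.2)
  · refine ⟨φ, I.Ge.cpt i c (𝒞.iv c), I.S.d i, g', h5, ?_, ?_⟩
    · rw [h1.2]
      refine (D.e (I.S.d i)).map_target ?_
      rw [I.S.tgt]; trivial
    · refine hg'.congr_of_eventuallyEq ?_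
      have h6 : Tendsto φ.symm (𝓝 (φ y)) (𝓝 y) := by
        have := (φ.continuousAt_symm (φ.map_source h5)).tendsto
        rwa [φ.left_inv h5] at this
      filter_upwards [h6.eventually h2, φ.open_target.mem_nhds (φ.map_source h5)] with z hz hz2
      rw [hz.2, φ.right_inv hz2, (D.e (I.S.d i)).right_inv]
      rw [I.S.tgt]; trivial

/-- the adapted chart at a Weierstrass point -/
def rc (i : Fin 2) (c : C) : RC G CY where
  e := (I.ph i c c).transHomeomorph Lpm.toHomeomorph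
  hol := ((I.Ge.cpt i c c).transLin Lpm).hol
  holi := ((I.Ge.cpt i c c).transLin Lpm).holi
  k := some (s, 1)
  free := fun h => absurd h (by simp)
  inv := by
    intro s' a h u hu
    rw [Option.some.injEq, Prod.mk.injEq] at h
    obtain ⟨rfl, rfl⟩ := h
    rw [OpenPartialHomeomorph.transHomeomorph_source, I.mem_ph] at hu ⊢
    obtain ⟨p, hp, rfl, h1, h2⟩ := hu
    exact ⟨sw p, I.Ge.swap_mem i p hp, (I.Ge.swap i p hp).symm, h2, h1⟩
  ref := by
    intro s' a h u hu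
    rw [Option.some.injEq, Prod.mk.injEq] at h
    obtain ⟨rfl, rfl⟩ := h
    rw [OpenPartialHomeomorph.transHomeomorph_source, I.mem_ph] at hu
    obtain ⟨p, hp, rfl, h1, h2⟩ := hu
    change Lpm (I.ph i c c (s • I.Ge.E i p)) = rf 1 (Lpm (I.ph i c c (I.Ge.E i p)))
    rw [I.Ge.swap i p hp, I.ph_E (I.Ge.swap_mem i p hp), I.ph_E hp]
    ext j
    fin_cases j
    · change Lpm _ 0 = rf 1 (Lpm _) 0
      rw [rf_ne (by decide)]
      simp only [sw, Lpm_0, h3_0, h3_1, Prod.fst_swap, Prod.snd_swap]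
      ring
    · change Lpm _ 1 = rf 1 (Lpm _) 1
      rw [rf_same]
      simp only [sw, Lpm_1, h3_0, h3_1, Prod.fst_swap, Prod.snd_swap]
      ring
    · change Lpm _ 2 = rf 1 (Lpm _) 2
      rw [rf_ne (by decide)]
      simp only [sw, Lpm_2, h3_2]
  two := by
    intro s' a h g u hu hgu
    rw [Option.some.injEq, Prod.mk.injEq] at h
    obtain ⟨rfl, rfl⟩ := h
    rw [OpenPartialHomeomorph.transHomeomorph_source, I.mem_ph] at hu hgu
    obtain ⟨p, hp, rfl, h1, h2⟩ := hu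
    obtain ⟨q, hq, hqe, h4, h5⟩ := hgu
    exact I.Ge.grp g i i p hp q hq hqe.symm

/-- Weierstrass points -/
theorem loc_fold {i : Fin 2} {c : C} (hc : c ∈ Ci 𝒞 i) (hW : 𝒞.iv c = c) :
    ∀ᶠ y in 𝓝 (I.y0 i c), y ∈ I.Reg ∧ ContinuousAt I.Psi y ∧ LocFold CY D s I.Psi y := by
  obtain ⟨F, F', hF, hF', hev⟩ := I.hN.coordW c i hW hc
  obtain ⟨γ, hγ, hev2⟩ := I.K.an i c hc
  set φ := I.ph i c c with hφ
  have hyy : I.y0 i c = I.Ge.E i ((c, c), 0) := by rw [y0, hW]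
  have hmem : ((c, c), (0 : ℂ)) ∈ (I.Ge.E i).source := by
    have := I.Ge.mem i c hc
    rwa [hW] at this
  rw [hW] at hev2
  have hsubc : ((c, c) : C × C) ∈ I.K.N i := by
    have := I.K.sub i c hc
    rwa [hW] at this
  have hy0 : I.y0 i c ∈ φ.source := by
    rw [hφ, I.mem_ph, hyy]
    exact ⟨_, hmem, rfl, 𝒞.k_mem c, 𝒞.k_mem c⟩
  have hφ0 : φ (I.y0 i c) = 0 := by
    rw [hφ, hyy, I.ph_E hmem]
    simp only [𝒞.k_zero]
    exact map_zero h3
  -- evenness of `γ`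
  have h0t : (0 : ℂ) ∈ (𝒞.k c).target := by
    rw [← 𝒞.k_zero c]
    exact (𝒞.k c).map_source (𝒞.k_mem c)
  have hks : ContinuousAt (fun z : ℂ × ℂ => (((𝒞.k c).symm z.1, (𝒞.k c).symm z.2) : C × C)) 0 := by
    refine ContinuousAt.prodMk ?_ ?_
    · exact ContinuousAt.comp (f := Prod.fst) (g := (𝒞.k c).symm)
        ((𝒞.k c).continuousAt_symm h0t) continuousAt_fst
    · exact ContinuousAt.comp (f := Prod.snd) (g := (𝒞.k c).symm)
        ((𝒞.k c).continuousAt_symm h0t) continuousAt_snd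
  have hk0 : (𝒞.k c).symm 0 = c := by
    rw [← 𝒞.k_zero c]; exact (𝒞.k c).left_inv (𝒞.k_mem c)
  have hsym : ∀ᶠ z in 𝓝 (0 : ℂ × ℂ), γ (z.2, z.1) = γ z := by
    have h1 := hks.tendsto
    simp only [Prod.fst_zero, Prod.snd_zero, hk0] at h1
    have hsw : Tendsto (fun x : C × C => x.swap) (𝓝 (c, c)) (𝓝 (c, c)) :=
      (continuous_swap.tendsto (c, c))
    have h2 : ∀ᶠ x in 𝓝 ((c, c) : C × C), x ∈ I.K.N i ∧ I.K.g i x = γ (𝒞.k c x.1, 𝒞.k c x.2) ∧
        I.K.g i x.swap = γ (𝒞.k c x.2, 𝒞.k c x.1) :=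
      inter_mem ((I.K.open_N i).mem_nhds hsubc) (hev2.and (hsw.eventually hev2))
    filter_upwards [h1.eventually h2, prod_mem_nhds ((𝒞.k c).open_target.mem_nhds h0t)
      ((𝒞.k c).open_target.mem_nhds h0t)] with z hz hz2
    obtain ⟨hz0, hz1, hz3⟩ := hz
    simp only [(𝒞.k c).right_inv hz2.1, (𝒞.k c).right_inv hz2.2] at hz1 hz3
    rw [← hz3, I.K.symm i _ hz0, hz1]
  let L : ℂ × ℂ → ℂ × ℂ := fun p => ((p.1 + p.2) / 2, (p.1 - p.2) / 2)
  have hLc : Continuous L := by fun_prop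
  have hL0 : L 0 = 0 := by simp [L]
  have hLan : AnalyticAt ℂ L 0 := by
    have h1 : AnalyticAt ℂ (fun p : ℂ × ℂ => (p.1 + p.2) / 2) 0 :=
      (analyticAt_fst.add analyticAt_snd).div_const
    have h2 : AnalyticAt ℂ (fun p : ℂ × ℂ => (p.1 - p.2) / 2) 0 :=
      (analyticAt_fst.sub analyticAt_snd).div_const
    exact h1.prod h2
  have hfan : AnalyticAt ℂ (fun p => γ (L p)) 0 := by
    refine AnalyticAt.comp (g := γ) (f := L) ?_ hLan
    rw [hL0]; exact hγ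
  have hfe : ∀ᶠ p in 𝓝 (0 : ℂ × ℂ), γ (L (p.1, -p.2)) = γ (L p) := by
    have h1 := hLc.tendsto 0
    rw [hL0] at h1
    filter_upwards [h1.eventually hsym] with p hp
    rw [← hp]
    simp only [L]
    congr 2 <;> ring
  obtain ⟨γe, hγe, hγev⟩ := even_desc hfan hfe
  have hγe0 : γe 0 ≠ 0 := by
    have h1 := hγev.self_of_nhds
    rw [hL0] at h1
    simp only [Prod.fst_zero, Prod.snd_zero] at h1
    have h2 : (((0 : ℂ), (0 : ℂ) ^ 2) : ℂ × ℂ) = 0 := by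
      rw [zero_pow two_ne_zero]; rfl
    rw [h2] at h1
    rw [← h1]
    have h3 := hev2.self_of_nhds
    simp only [𝒞.k_zero] at h3
    change I.K.g i (c, c) = γ 0 at h3
    rw [← h3]
    exact I.K.ne i _ hsubc
  obtain ⟨B', hB'⟩ := BB_deriv hF' hγe hγe0
  have hBan := BB_an hF hγe
  -- `g` in terms of `γe`
  have hkc : ContinuousAt (fun x : C × C => (𝒞.k c x.1 + 𝒞.k c x.2, 𝒞.k c x.1 - 𝒞.k c x.2))
      (c, c) := by
    have hk : ContinuousAt (fun x : C × C => (𝒞.k c x.1, 𝒞.k c x.2)) (c, c) :=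
      ContinuousAt.prodMk
        (ContinuousAt.comp (f := Prod.fst) (g := 𝒞.k c)
          ((𝒞.k c).continuousAt (𝒞.k_mem c)) continuousAt_fst)
        (ContinuousAt.comp (f := Prod.snd) (g := 𝒞.k c)
          ((𝒞.k c).continuousAt (𝒞.k_mem c)) continuousAt_snd)
    have hm : Continuous fun p : ℂ × ℂ => (p.1 + p.2, p.1 - p.2) := by fun_prop
    exact ContinuousAt.comp (f := fun x : C × C => (𝒞.k c x.1, 𝒞.k c x.2))
      (g := fun p : ℂ × ℂ => (p.1 + p.2, p.1 - p.2)) hm.continuousAt hk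
  have hg : ∀ᶠ x in 𝓝 ((c, c) : C × C), I.K.g i x =
      γe (𝒞.k c x.1 + 𝒞.k c x.2, (𝒞.k c x.1 - 𝒞.k c x.2) ^ 2) := by
    have h1 := hkc.tendsto
    simp only [𝒞.k_zero, add_zero, sub_self] at h1
    filter_upwards [hev2, h1.eventually hγev] with x hx hx2
    rw [hx, ← hx2]
    simp only [L]
    congr 2 <;> ring
  have hev' : ∀ᶠ x in 𝓝 ((c, 𝒞.iv c) : C × C), (𝒞.TT U i x, U x i) =
      F (𝒞.k c x.1 + 𝒞.k c x.2, (𝒞.k c x.1 - 𝒞.k c x.2) ^ 2) ∧ I.K.g i x =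
      γe (𝒞.k c x.1 + 𝒞.k c x.2, (𝒞.k c x.1 - 𝒞.k c x.2) ^ 2) := by
    rw [hW]
    exact hev.and hg
  -- the formula near the centre
  let e := (I.rc i c).e
  have he : ∀ y, e y = Lpm (φ y) := fun y => rfl
  have hform : ∀ᶠ y in 𝓝 (I.y0 i c), y ∈ I.Reg ∧
      I.Psi y = (D.e (I.S.d i)).symm (BB F γe (sq 1 (e y))) := by
    filter_upwards [I.ev_Dm hc hev'] with y hy
    obtain ⟨p, hp, rfl, h1, h2⟩ := hy
    refine ⟨⟨i, p, hp, rfl⟩, ?_⟩
    have hs0 : sq 1 (e (I.Ge.E i p)) 0 = 𝒞.k c p.1.1 + 𝒞.k c p.1.2 := by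
      rw [sq_ne (by decide), he, hφ, I.ph_E hp.1]
      rfl
    have hs1 : sq 1 (e (I.Ge.E i p)) 1 = (𝒞.k c p.1.1 - 𝒞.k c p.1.2) ^ 2 := by
      rw [sq_same, he, hφ, I.ph_E hp.1]
      rfl
    have hs2 : sq 1 (e (I.Ge.E i p)) 2 = p.2 := by
      rw [sq_ne (by decide), he, hφ, I.ph_E hp.1]
      rfl
    rw [I.Psi_E hp, psi]
    congr 1
    simp only [co, BB, hs0, hs1, hs2]
    rw [← h1, ← h2]
  have hy0' : I.y0 i c ∈ e.source := by
    change I.y0 i c ∈ ((I.ph i c c).transHomeomorph Lpm.toHomeomorph).source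
    rw [OpenPartialHomeomorph.transHomeomorph_source]
    exact hy0
  have hsq0 : sq 1 (e (I.y0 i c)) = 0 := by
    rw [he, hφ0, map_zero]
    ext j
    by_cases hj : j = 1
    · subst hj; simp
    · rw [sq_ne hj]
  have hcont : ∀ y ∈ e.source, ContinuousAt (fun y => sq 1 (e y)) y := fun y hy =>
    ContinuousAt.comp (f := e) (g := sq 1) (continuous_sq 1).continuousAt (e.continuousAt hy)
  have hinv : ∀ᶠ y in 𝓝 (I.y0 i c), ∃ g' : Cn 3 ≃L[ℂ] Cn 3,
      HasStrictFDerivAt (BB F γe) (g' : Cn 3 →L[ℂ] Cn 3) (sq 1 (e y)) := by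
    have h1 := (hcont _ hy0').tendsto
    rw [hsq0] at h1
    exact h1.eventually (evInv hBan hB')
  filter_upwards [hform, eventually_eventually_nhds.2 hform, hinv, e.open_source.mem_nhds hy0']
    with y h1 h2 h4 h5
  obtain ⟨g', hg'⟩ := h4
  refine ⟨h1.1, ?_, ?_⟩
  · exact cont_aux (I.S.tgt i) (hcont y h5) hg'.continuousAt (h2.mono fun _ h => h.2)
  · refine ⟨I.rc i c, 1, I.S.d i, BB F γe, g', rfl, h5, ?_, hg', ?_⟩
    · rw [h1.2]
      refine (D.e (I.S.d i)).map_target ?_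
      rw [I.S.tgt]; trivial
    · filter_upwards [h2] with y' hy'
      rw [hy'.2, (D.e (I.S.d i)).right_inv]
      rw [I.S.tgt]; trivial

/-- the set on which everything works -/
def OO1 : Set Y := {y | y ∈ I.Reg ∧ ContinuousAt I.Psi y ∧
  (LocFree CY D I.Psi y ∨ LocFold CY D s I.Psi y)}

/-- the open set on which everything works -/
def OO : Set Y := interior I.OO1

theorem isOpen_OO : IsOpen I.OO := isOpen_interior

theorem OO_sub {y : Y} (hy : y ∈ I.OO) : y ∈ I.Reg ∧ ContinuousAt I.Psi y ∧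
    (LocFree CY D I.Psi y ∨ LocFold CY D s I.Psi y) := interior_subset (s := I.OO1) hy

theorem y0_OO {i : Fin 2} {c : C} (hc : c ∈ Ci 𝒞 i) : I.y0 i c ∈ I.OO := by
  rw [OO, mem_interior_iff_mem_nhds]
  by_cases hW : 𝒞.iv c = c
  · exact (I.loc_fold hc hW).mono fun y hy => ⟨hy.1, hy.2.1, Or.inr hy.2.2⟩
  · exact (I.loc_free hc hW).mono fun y hy => ⟨hy.1, hy.2.1, Or.inl hy.2.2⟩

end Inp

end

end Crest.Agent.R272.Idn_834
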