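import Crest.Agent.R272.In3_68

/-!
Row 272, division E, arithmetic instance (I1) (helper68), part 4: the congruence subgroups have
finite index.
-/

set_option autoImplicit false
set_option linter.unusedSectionVars false

open scoped ComplexConjugate

namespace Crest.Agent.R272.In_68

open Crest.Agent.R272.EBase_641 Matrix

noncomputable section

variable {O : Subring (Fin 2 → ℂ)} {z : Fin 2 → ℂ}

/-- the residue ring is finite -/
lemma finite_quot (h : Z5r O z) {N : ℕ} (hN : 0 < N) :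
    Finite (O ⧸ Ideal.span {(N : O)}) := by
  let zz : O := ⟨z, h.zmem⟩
  let I : Ideal O := Ideal.span {(N : O)}
  let f : (Fin 4 → Fin N) → O ⧸ I := fun a =>
    Ideal.Quotient.mk I (((a 0 : ℕ) : O) + ((a 1 : ℕ) : O) * zz + ((a 2 : ℕ) : O) * zz ^ 2 +
      ((a 3 : ℕ) : O) * zz ^ 3)
  have hN' : (N : ℤ) ≠ 0 := by exact_mod_cast hN.ne'
  have key : ∀ a : ℤ, ∃ (r : Fin N) (q : ℤ), (a : O) = ((r : ℕ) : O) + q * (N : O) := by
    intro a
    have h0 := Int.emod_nonneg a hN'
    have h1 := Int.emod_lt_of_pos a (by exact_mod_cast hN : (0 : ℤ) < N)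
    refine ⟨⟨(a % N).toNat, by omega⟩, a / N, ?_⟩
    have h2 : a = ((a % N).toNat : ℤ) + (a / N) * (N : ℤ) := by
      rw [Int.toNat_of_nonneg h0]
      have := Int.emod_add_mul_ediv a N
      linarith [mul_comm (a / N) (N : ℤ)]
    calc (a : O) = ((((a % N).toNat : ℤ) + (a / N) * (N : ℤ) : ℤ) : O) := by rw [← h2]
      _ = _ := by push_cast; rfl
  have hf : Function.Surjective f := by
    intro q
    obtain ⟨x, rfl⟩ := Ideal.Quotient.mk_surjective q
    obtain ⟨a, b, c, d, e⟩ := h.rep x x.2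
    obtain ⟨a', qa, ha⟩ := key a
    obtain ⟨b', qb, hb⟩ := key b
    obtain ⟨c', qc, hc⟩ := key c
    obtain ⟨d', qd, hd⟩ := key d
    have e' : x = (a : O) + b * zz + c * zz ^ 2 + d * zz ^ 3 := by
      refine Subtype.ext ?_
      rw [e]
      push_cast
      rfl
    refine ⟨![a', b', c', d'], ?_⟩
    rw [e', ha, hb, hc, hd]
    show Ideal.Quotient.mk I _ = Ideal.Quotient.mk I _
    rw [Ideal.Quotient.eq]
    refine Ideal.mem_span_singleton'.2 ⟨-(qa + qb * zz + qc * zz ^ 2 + qd * zz ^ 3 : O), ?_⟩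
    simp only [Matrix.cons_val_zero, Matrix.cons_val_one, Matrix.cons_val]
    ring
  exact Finite.of_surjective f hf

/-- finiteness of a quotient from a function with finite values -/
lemma finite_of_fun {G T : Type*} [Group G] [Finite T] (H : Subgroup G) (f : G → T)
    (hf : ∀ g g', f g = f g' → g⁻¹ * g' ∈ H) : H.FiniteIndex := by
  have : Finite (G ⧸ H) := by
    refine Finite.of_injective (fun q : G ⧸ H => f (Quotient.out q)) ?_
    intro q q' hq
    have h1 := hf _ _ hq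
    have h2 := QuotientGroup.eq.2 h1
    rw [← Quotient.out_eq q, ← Quotient.out_eq q']
    exact h2
  exact Subgroup.finiteIndex_of_finite_quotient

/-- **the congruence subgroup has finite index** -/
lemma GC_fin (h : Z5r O z) {N : ℕ} (hN : 0 < N) :
    ((GC O z (N : Fin 2 → ℂ)).subgroupOf (GU O z)).FiniteIndex := by
  have hfin := finite_quot h hN
  refine finite_of_fun (T := Fin 4 → Fin 4 → (O ⧸ Ideal.span {(N : O)})) _
    (fun g => fun i j => Ideal.Quotient.mk _ (⟨((g : Mtˣ) : Mt) i j, g.2.1 i j⟩ : O)) ?_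
  intro g g' hg
  rw [Subgroup.mem_subgroupOf]
  refine ⟨(g⁻¹ * g').2, ?_⟩
  have h1 : Div O (N : Fin 2 → ℂ) (((g' : Mtˣ) : Mt) - ((g : Mtˣ) : Mt)) := by
    intro i j
    have h2 : Ideal.Quotient.mk (Ideal.span {(N : O)}) (⟨((g : Mtˣ) : Mt) i j, g.2.1 i j⟩ : O) =
        Ideal.Quotient.mk (Ideal.span {(N : O)}) (⟨((g' : Mtˣ) : Mt) i j, g'.2.1 i j⟩ : O) :=
      congrFun (congrFun hg i) j
    rw [Ideal.Quotient.eq] at h2
    obtain ⟨u, hu⟩ := Ideal.mem_span_singleton'.1 h2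
    have h3 := congrArg (fun x : O => (x : Fin 2 → ℂ)) hu
    simp only [Subring.coe_mul, AddSubgroupClass.coe_sub] at h3
    refine ⟨-(u : Fin 2 → ℂ), O.neg_mem u.2, ?_⟩
    rw [Matrix.sub_apply]
    have h4 : (((N : O) : O) : Fin 2 → ℂ) = (N : Fin 2 → ℂ) := by push_cast; rfl
    rw [h4] at h3
    linear_combination h3
  have h5 : (((g⁻¹ * g' : GU O z) : Mtˣ) : Mt) - 1 =
      (((g : Mtˣ)⁻¹ : Mtˣ) : Mt) * (((g' : Mtˣ) : Mt) - ((g : Mtˣ) : Mt)) := by
    rw [mul_sub, ← Units.val_mul, ← Units.val_mul, inv_mul_cancel, Units.val_one]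
    rfl
  rw [h5]
  exact h1.mul_left g.2.2.1

/-- the congruence subgroup of a divisor of a natural number has finite index -/
lemma GC_fin' (h : Z5r O z) {N : ℕ} (hN : 0 < N) {μ ν : Fin 2 → ℂ} (hν : ν ∈ O)
    (hμ : μ * ν = (N : Fin 2 → ℂ)) : ((GC O z μ).subgroupOf (GU O z)).FiniteIndex := by
  have h1 := GC_fin h hN
  have h2 : (GC O z (N : Fin 2 → ℂ)).subgroupOf (GU O z) ≤ (GC O z μ).subgroupOf (GU O z) := by
    rw [← hμ]
    exact Subgroup.comap_mono (GC_mono hν)
  exact Subgroup.finiteIndex_of_le h2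

/-- the congruence subgroup is normal in `GU` -/
lemma GC_normal (μ : Fin 2 → ℂ) : ((GC O z μ).subgroupOf (GU O z)).Normal :=
  ⟨fun g hg a => GC_conj (g := (g : Mtˣ)) (a := (a : Mtˣ)) hg a.2⟩

end

end Crest.Agent.R272.In_68
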