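import Crest.Agent.R272.Ins2_939
import Crest.Agent.R272.Act4_302
import Crest.Agent.R272.Tp10_60

/-!
# R272 (S0415), M15: `RA` on `X1` (302) and the germ at the base point (60) over `M : Ar` (helper939)

`raX : RA M.CX M.G`, `baseP : BaseP M.A Pz M.s M.p0`, `exists_germE`.
-/

set_option autoImplicit false
set_option linter.unusedSectionVars false
set_option linter.unusedVariables false

open Set Filter Topology
open scoped ComplexConjugate

namespace Crest.Agent.R272.M15_939

open Crest.Agent.R275.Geo Crest.Agent.R273.Fam_835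
open Crest.Agent.R272 Crest.Agent.R272.EBase_641 Crest.Agent.R272.In_68
open Crest.Agent.R272.Quot_783 Crest.Agent.R272.MQ_783 Crest.Agent.R272.Refl_246
open Crest.Agent.R272.Gr_559 Crest.Agent.R272.Act_302
open Crest.Agent.R272.Tp10_60

noncomputable section

/-- 60's `BaseP` from `BPt` -/
def basePof {N : Type} [TopologicalSpace N] {F : Fam 3 N} {P : Cur_297.Par} {D : GData F}
    {G : Type} [Group G] [MulAction G N] (A : GAct D G) (s : G) (q : N)
    (B : P0_939.BPt D P G q s) (sig : A.σ s 0 = 1)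
    (pd : ∃ U ∈ 𝓝 q, ∀ (g : G), ∀ z ∈ U, g • z ∈ U → g • q = q) : BaseP A P s q where
  p := B.p
  p' := B.p'
  h0 := B.s0_eq
  hc := B.c_eq
  hc' := B.c'_eq
  snc := B.snc
  f0q := B.f0_zero
  x0q := B.x_zero 0
  x1q := B.x_zero 1
  two := B.s_sq
  sig := sig
  fix := B.s_fix
  sw0 := Eventually.of_forall B.s0_smul
  sw1 := Eventually.of_forall B.s1_smul
  sw2 := Eventually.of_forall B.s1'_smul
  stab := B.stab
  pd := pd

namespace Ar

variable (M : Ar)

/-- an element with a fixed point in the ball is trivial or exchanges the colours -/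
theorem sw_of_fix (s : M.G) (z : M.N) (h1 : s ≠ 1) (h2 : s • z = z) :
    M.A.σ s = Equiv.swap 0 1 := by
  rcases M.base_st z with h | ⟨t, ht2, htz, hall, hσ, -⟩
  · exact absurd (h s h2) h1
  · rcases hall s h2 with h3 | h3
    · exact absurd h3 h1
    · rw [h3]; exact hσ

/-- **`RA` on the smooth model `X1`** -/
theorem raX : RA M.CX M.G := M.A.ra (isSl_X1 M.DX) M.ra M.sw_of_fix

/-- the complex structure of `X⁻` -/
abbrev CQ : Fam 3 M.XQ := M.raX.fam

/-- the projection `X⁻ → Orb G N` is holomorphic -/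
theorem holC_piQ : HolC M.CQ M.ra.fam M.piQ := holC_piM M.A M.raX M.ra

/-- near the base point only `1, s` act -/
theorem exists_pd : ∃ U ∈ 𝓝 M.p0, ∀ (g : M.G), ∀ z ∈ U, g • z ∈ U → g • M.p0 = M.p0 := by
  obtain ⟨V, hV, hx, hVg⟩ := M.ra.pd M.p0
  exact ⟨V, hV.mem_nhds hx, fun g z hz hgz => hVg g z hz hgz⟩

/-- **the base cluster point in 60's form** -/
def baseP : BaseP M.A Cur_297.Pz M.s M.p0 :=
  basePof M.A M.s M.p0 M.bpt (by rw [M.σ_s]; rfl) M.exists_pd

theorem baseP_p : M.baseP.p = M.bpt.p := rfl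

theorem baseP_p' : M.baseP.p' = M.bpt.p' := rfl

/-- **the germ of the model at the base cluster point** -/
theorem exists_germE :
    Nonempty (GermE (isSl_X1 M.DX) M.A Cur_297.Pz M.s M.p0) :=
  exists_germ (isSl_X1 M.DX) M.baseP

end Ar

end

end Crest.Agent.R272.M15_939
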