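import Mathlib
import Crest.Agent.R266.Osgood

/-!
# R272, K3-EVEN (helper227), part 1: divided differences

`dd f (x,w) = (f x - f w)/(x - w)` (`deriv f x` on the diagonal) is analytic in two variables.
-/

set_option autoImplicit false

open Set Filter Topology

namespace Crest.Agent.R272.K3E_227

noncomputable section

/-- divided difference -/
def dd (f : ℂ → ℂ) (p : ℂ × ℂ) : ℂ := dslope f p.2 p.1

theorem dd_mul (f : ℂ → ℂ) (x w : ℂ) : (x - w) * dd f (x, w) = f x - f w := by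
  simpa [dd] using sub_smul_dslope f w x

theorem dd_self (f : ℂ → ℂ) (x : ℂ) : dd f (x, x) = deriv f x := by
  simp [dd]

theorem dd_ne (f : ℂ → ℂ) {x w : ℂ} (h : x ≠ w) : dd f (x, w) = (f x - f w) / (x - w) := by
  rw [eq_div_iff (sub_ne_zero.2 h), mul_comm]; exact dd_mul f x w

theorem dd_bdd {f : ℂ → ℂ} {a : ℂ} (hf : AnalyticAt ℂ f a) :
    ∃ C : ℝ, ∀ᶠ p in 𝓝 (a, a), ‖dd f p‖ ≤ C := by
  have h1 : ∀ᶠ z in 𝓝 a, DifferentiableAt ℂ f z := by
    filter_upwards [hf.eventually_analyticAt] with z hz using hz.differentiableAt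
  have h2 : ∀ᶠ z in 𝓝 a, ‖deriv f z‖ < ‖deriv f a‖ + 1 :=
    hf.deriv.continuousAt.norm.eventually (gt_mem_nhds (by linarith))
  obtain ⟨r, hr, hb⟩ := Metric.eventually_nhds_iff_ball.1 (h1.and h2)
  refine ⟨‖deriv f a‖ + 1, ?_⟩
  have hm : (Metric.ball a r) ×ˢ (Metric.ball a r) ∈ 𝓝 (a, a) :=
    prod_mem_nhds (Metric.ball_mem_nhds a hr) (Metric.ball_mem_nhds a hr)
  filter_upwards [hm] with p hp
  obtain ⟨x, w⟩ := p
  obtain ⟨hx, hw⟩ := hp
  simp only at hx hw
  rcases eq_or_ne x w with rfl | hne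
  · rw [dd_self]; exact (hb x hx).2.le
  · rw [dd_ne f hne, norm_div, div_le_iff₀ (norm_pos_iff.2 (sub_ne_zero.2 hne))]
    have := (convex_ball a r).norm_image_sub_le_of_norm_deriv_le (f := f) (C := ‖deriv f a‖ + 1)
      (fun z hz => (hb z hz).1) (fun z hz => (hb z hz).2.le) hw hx
    simpa using this

theorem dd_diff_diag {f : ℂ → ℂ} {a : ℂ} (hf : AnalyticAt ℂ f a) :
    DifferentiableAt ℂ (dd f) (a, a) := by
  set f1 : ℂ → ℂ := dslope f a with hf1
  set g : ℂ → ℂ := dslope f1 a with hg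
  have hf1a : AnalyticAt ℂ f1 a := by
    have h := hf.differentiableAt
    obtain ⟨p, hp⟩ := hf
    exact ⟨_, hp.has_fpower_series_dslope_fslope⟩
  have hga : AnalyticAt ℂ g a := by
    obtain ⟨p, hp⟩ := hf1a
    exact ⟨_, hp.has_fpower_series_dslope_fslope⟩
  have e1 : ∀ x, f x = f a + (x - a) * f1 a + (x - a) ^ 2 * g x := by
    intro x
    have h1 : (x - a) * f1 x = f x - f a := by simpa using sub_smul_dslope f a x
    have h2 : (x - a) * g x = f1 x - f1 a := by simpa using sub_smul_dslope f1 a x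
    linear_combination (-1 : ℂ) * h1 - (x - a) * h2
  have hder : ∀ᶠ x in 𝓝 a, deriv f x = f1 a + 2 * (x - a) * g x + (x - a) ^ 2 * deriv g x := by
    filter_upwards [hga.eventually_analyticAt] with x hx
    have hd : HasDerivAt (fun x => f a + (x - a) * f1 a + (x - a) ^ 2 * g x)
        (f1 a + 2 * (x - a) * g x + (x - a) ^ 2 * deriv g x) x := by
      have h0 : HasDerivAt (fun x : ℂ => x - a) 1 x := (hasDerivAt_id x).sub_const a
      have h1 := (h0.mul_const (f1 a)).const_add (f a)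
      have h2 := (h0.pow 2).mul hx.differentiableAt.hasDerivAt
      have h3 := (h1.fun_add h2).congr_deriv
        (g' := f1 a + 2 * (x - a) * g x + (x - a) ^ 2 * deriv g x) (by simp; ring)
      exact h3
    have : f = fun x => f a + (x - a) * f1 a + (x - a) ^ 2 * g x := funext e1
    rw [this]
    simpa using hd.deriv
  have key : ∀ᶠ p in 𝓝 (a, a), dd f p = (f1 a + ((p.1 - a) + (p.2 - a)) * g p.1) +
      (p.2 - a) ^ 2 * dd g p := by
    have hd2 : ∀ᶠ p in 𝓝 ((a, a) : ℂ × ℂ), deriv f p.1 =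
        f1 a + 2 * (p.1 - a) * g p.1 + (p.1 - a) ^ 2 * deriv g p.1 :=
      (continuous_fst.tendsto' (a, a) a rfl).eventually hder
    filter_upwards [hd2] with p hp
    obtain ⟨x, w⟩ := p
    simp only at hp ⊢
    rcases eq_or_ne x w with rfl | hne
    · rw [dd_self, dd_self, hp]; ring
    · have h3 : x - w ≠ 0 := sub_ne_zero.2 hne
      rw [dd_ne f hne, dd_ne g hne, e1 x, e1 w]
      field_simp
      ring
  have hA : DifferentiableAt ℂ (fun p : ℂ × ℂ => f1 a + ((p.1 - a) + (p.2 - a)) * g p.1)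
      (a, a) := by
    have h1 : DifferentiableAt ℂ (fun p : ℂ × ℂ => g p.1) (a, a) :=
      DifferentiableAt.comp (a, a) (g := g) hga.differentiableAt differentiableAt_fst
    fun_prop
  have hB : HasFDerivAt (fun p : ℂ × ℂ => (p.2 - a) ^ 2 * dd g p) (0 : ℂ × ℂ →L[ℂ] ℂ) (a, a) := by
    obtain ⟨C, hC⟩ := dd_bdd hga
    rw [hasFDerivAt_iff_isLittleO_nhds_zero]
    have hC' : ∀ᶠ h in 𝓝 (0 : ℂ × ℂ), ‖dd g ((a, a) + h)‖ ≤ C := by
      have : Tendsto (fun h : ℂ × ℂ => (a, a) + h) (𝓝 0) (𝓝 (a, a)) := by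
        have : Continuous (fun h : ℂ × ℂ => ((a, a) : ℂ × ℂ) + h) := by fun_prop
        simpa using this.tendsto 0
      exact this.eventually hC
    have h1 : (fun h : ℂ × ℂ => (((a, a) + h : ℂ × ℂ).2 - a) ^ 2 * dd g ((a, a) + h)
        - ((((a, a) : ℂ × ℂ).2 - a) ^ 2 * dd g (a, a)) - (0 : ℂ × ℂ →L[ℂ] ℂ) h)
        =O[𝓝 0] (fun h => ‖h‖ ^ 2) := by
      refine Asymptotics.IsBigO.of_bound C ?_
      filter_upwards [hC'] with h hh
      have hn : ‖h.2‖ ≤ ‖h‖ := norm_snd_le h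
      have hC0 : 0 ≤ C := (norm_nonneg _).trans hh
      simp only [Prod.snd_add, add_sub_cancel_left, sub_self, ne_eq, OfNat.ofNat_ne_zero,
        not_false_eq_true, zero_pow, zero_mul, sub_zero, zero_apply, norm_mul,
        norm_pow, norm_norm]
      rw [mul_comm]
      gcongr
    refine h1.trans_isLittleO ?_
    rw [Asymptotics.isLittleO_iff]
    intro c hc
    have : ∀ᶠ h in 𝓝 (0 : ℂ × ℂ), ‖h‖ < c := by
      filter_upwards [Metric.ball_mem_nhds (0 : ℂ × ℂ) hc] with h hh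
      simpa using hh
    filter_upwards [this] with h hh
    rw [norm_pow, norm_norm, pow_two]
    exact mul_le_mul_of_nonneg_right hh.le (norm_nonneg _)
  exact (hA.add hB.differentiableAt).congr_of_eventuallyEq key

theorem dd_diffAt {f : ℂ → ℂ} {a b : ℂ} (ha : AnalyticAt ℂ f a) (hb : AnalyticAt ℂ f b) :
    DifferentiableAt ℂ (dd f) (a, b) := by
  rcases eq_or_ne a b with rfl | hne
  · exact dd_diff_diag ha
  · have h0 : ∀ᶠ p in 𝓝 ((a, b) : ℂ × ℂ), p.1 ≠ p.2 := by
      have hc : ContinuousAt (fun p : ℂ × ℂ => p.1 - p.2) (a, b) := by fun_prop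
      have := hc.eventually_ne (sub_ne_zero.2 hne)
      filter_upwards [this] with p hp using sub_ne_zero.1 hp
    have h1 : (dd f) =ᶠ[𝓝 (a, b)] fun p => (f p.1 - f p.2) / (p.1 - p.2) := by
      filter_upwards [h0] with p hp
      obtain ⟨x, w⟩ := p
      exact dd_ne f hp
    refine DifferentiableAt.congr_of_eventuallyEq ?_ h1
    have h2 : DifferentiableAt ℂ (fun p : ℂ × ℂ => f p.1) (a, b) :=
      DifferentiableAt.comp (a, b) (g := f) ha.differentiableAt differentiableAt_fst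
    have h3 : DifferentiableAt ℂ (fun p : ℂ × ℂ => f p.2) (a, b) :=
      DifferentiableAt.comp (a, b) (g := f) hb.differentiableAt differentiableAt_snd
    have h4 : DifferentiableAt ℂ (fun p : ℂ × ℂ => p.1 - p.2) (a, b) := by fun_prop
    have h5 : DifferentiableAt ℂ (fun p : ℂ × ℂ => f p.1 - f p.2) (a, b) := h2.fun_sub h3
    have h6 : (fun p : ℂ × ℂ => p.1 - p.2) (a, b) ≠ 0 := sub_ne_zero.2 hne
    simpa only [div_eq_mul_inv] using h5.fun_mul (h4.fun_inv h6)

theorem dd_analyticAt {f : ℂ → ℂ} {a b : ℂ} (ha : AnalyticAt ℂ f a) (hb : AnalyticAt ℂ f b) :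
    AnalyticAt ℂ (dd f) (a, b) := by
  obtain ⟨U, hU, hUo, haU⟩ := eventually_nhds_iff.1 ha.eventually_analyticAt
  obtain ⟨V, hV, hVo, hbV⟩ := eventually_nhds_iff.1 hb.eventually_analyticAt
  have := Crest.Agent.R266.SCV.analyticOnNhd_of_differentiableOn (f := dd f) (U := U ×ˢ V)
    (hUo.prod hVo) (fun p hp => (dd_diffAt (hU p.1 hp.1) (hV p.2 hp.2)).differentiableWithinAt)
  exact this (a, b) ⟨haU, hbV⟩

end

end Crest.Agent.R272.K3E_227
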