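import Crest.Agent.R272.K3E1_227

/-!
# R272, K3-EVEN (helper227), part 2: the local function `m = U₁ (y - y') / (t - t')`

In a chart `x` of the curve: `t = θ x`, `y = Y x`, `P` a primitive of `dt/y`.  The second point is
written as `iv` of the point with coordinate `w`, so `y' = - Y w`, `t' = θ w`, `U₁ = P x - P w`.
`even_factor` : an even analytic germ is an analytic function of `x²`.
`m_reg` (`Y 0 ≠ 0`) and `m_weier` (`θ` even, `Y`, `P` odd): `m` is analytic at `(0,0)`, `m = 2` on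
the diagonal `x = w` (= the graph of `iv`).
-/

set_option autoImplicit false

open Set Filter Topology

namespace Crest.Agent.R272.K3E_227

noncomputable section

/-- an even analytic germ is a function of `x ^ 2` -/
theorem even_factor {f : ℂ → ℂ} (hf : AnalyticAt ℂ f 0) (he : ∀ᶠ x in 𝓝 (0 : ℂ), f (-x) = f x) :
    ∃ h : ℂ → ℂ, AnalyticAt ℂ h 0 ∧ ∀ᶠ x in 𝓝 (0 : ℂ), f x = h (x ^ 2) := by
  obtain ⟨r, hr, hb⟩ := Metric.eventually_nhds_iff_ball.1 (hf.eventually_analyticAt.and he)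
  -- `h z = f (√z)`
  set h : ℂ → ℂ := fun z => f (z ^ (1 / 2 : ℂ)) with hh
  have hsq : ∀ z : ℂ, (z ^ (1 / 2 : ℂ)) ^ 2 = z := by
    intro z
    rw [← Complex.cpow_nat_mul]; norm_num
  have hfx : ∀ x ∈ Metric.ball (0 : ℂ) r, f x = h (x ^ 2) := by
    intro x hx
    have h1 : ((x ^ 2) ^ (1 / 2 : ℂ)) ^ 2 = x ^ 2 := hsq _
    rcases sq_eq_sq_iff_eq_or_eq_neg.1 h1 with h2 | h2
    · simp only [hh, h2]
    · simp only [hh, h2]; exact ((hb x hx).2).symm
  have hroot : ∀ {z : ℂ}, ‖z‖ < r ^ 2 → ‖z ^ (1 / 2 : ℂ)‖ < r := by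
    intro z hz
    have h1 : ‖z ^ (1 / 2 : ℂ)‖ ^ 2 = ‖z‖ := by rw [← norm_pow, hsq]
    exact lt_of_pow_lt_pow_left₀ 2 hr.le (by rw [h1]; exact hz)
  refine ⟨h, ?_, ?_⟩
  · -- analytic: punctured neighbourhood + continuity at 0
    have hcont : ContinuousAt h 0 := by
      have h0 : ContinuousAt (fun z : ℂ => z ^ (1 / 2 : ℂ)) 0 := by
        rw [Metric.continuousAt_iff]
        intro ε hε
        refine ⟨ε ^ 2, by positivity, fun {z} hz => ?_⟩
        have h2 : ‖z‖ < ε ^ 2 := by simpa using hz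
        have h1 : ‖z ^ (1 / 2 : ℂ)‖ ^ 2 = ‖z‖ := by rw [← norm_pow, hsq]
        have h3 : (0 : ℂ) ^ (1 / 2 : ℂ) = 0 := by simp
        rw [h3, dist_zero_right]
        exact lt_of_pow_lt_pow_left₀ 2 hε.le (by rw [h1]; exact h2)
      have h3 : (0 : ℂ) ^ (1 / 2 : ℂ) = 0 := by simp
      refine ContinuousAt.comp (g := f) ?_ h0
      rw [h3]; exact hf.continuousAt
    refine Complex.analyticAt_of_differentiable_on_punctured_nhds_of_continuousAt ?_ hcont
    have hm : Metric.ball (0 : ℂ) (r ^ 2) ∈ 𝓝 (0 : ℂ) := Metric.ball_mem_nhds _ (by positivity)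
    filter_upwards [mem_nhdsWithin_of_mem_nhds hm, self_mem_nhdsWithin] with z hz hz0
    have hz0' : z ≠ 0 := hz0
    have hzn : ‖z‖ < r ^ 2 := by simpa using hz
    -- a local square root at z
    set x0 : ℂ := z ^ (1 / 2 : ℂ) with hx0
    have hx0sq : x0 ^ 2 = z := hsq z
    have hx0ne : x0 ≠ 0 := by
      intro h0; rw [h0] at hx0sq; exact hz0' (by rw [← hx0sq]; ring)
    have hx0r : x0 ∈ Metric.ball (0 : ℂ) r := by rw [mem_ball_zero_iff]; exact hroot hzn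
    -- local inverse of the square
    have hd : HasStrictDerivAt (fun x : ℂ => x ^ 2) (2 * x0) x0 := by
      simpa using (hasStrictDerivAt_pow 2 x0)
    have hne : (2 * x0 : ℂ) ≠ 0 := mul_ne_zero two_ne_zero hx0ne
    set R := hd.localInverse _ _ _ hne with hR
    have hRd : HasStrictDerivAt R (2 * x0)⁻¹ (x0 ^ 2) := hd.to_localInverse hne
    have hRx : ∀ᶠ u in 𝓝 (x0 ^ 2), (R u) ^ 2 = u := hd.eventually_right_inverse hne
    have hR0 : R (x0 ^ 2) = x0 := by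
      have := hd.eventually_left_inverse hne
      exact this.self_of_nhds
    rw [hx0sq] at hRd hRx hR0
    have hRr : ∀ᶠ u in 𝓝 z, R u ∈ Metric.ball (0 : ℂ) r :=
      hRd.hasDerivAt.continuousAt.eventually_mem
        (by rw [hR0]; exact Metric.isOpen_ball.mem_nhds hx0r)
    have heq : h =ᶠ[𝓝 z] fun u => f (R u) := by
      filter_upwards [hRx, hRr] with u hu hur
      rw [hfx _ hur, hu]
    refine DifferentiableAt.congr_of_eventuallyEq ?_ heq
    have h1 : DifferentiableAt ℂ f (R z) := by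
      rw [hR0]; exact (hb x0 hx0r).1.differentiableAt
    exact DifferentiableAt.comp z h1 hRd.hasDerivAt.differentiableAt
  · filter_upwards [Metric.ball_mem_nhds (0 : ℂ) hr] with x hx using hfx x hx

/-- regular points of the curve: `Y 0 ≠ 0` -/
theorem m_reg {θ Y P : ℂ → ℂ} (hθ : AnalyticAt ℂ θ 0) (hY : AnalyticAt ℂ Y 0)
    (hP : AnalyticAt ℂ P 0) (heq : ∀ᶠ x in 𝓝 (0 : ℂ), deriv θ x = Y x * deriv P x)
    (hY0 : Y 0 ≠ 0) (hP0 : deriv P 0 ≠ 0) :
    ∃ m : ℂ × ℂ → ℂ, AnalyticAt ℂ m (0, 0) ∧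
      (∀ᶠ p in 𝓝 ((0, 0) : ℂ × ℂ), m p * (θ p.1 - θ p.2) = (P p.1 - P p.2) * (Y p.1 + Y p.2)) ∧
      (∀ᶠ x in 𝓝 (0 : ℂ), m (x, x) = 2) := by
  have hθ0 : deriv θ 0 ≠ 0 := by
    rw [heq.self_of_nhds]; exact mul_ne_zero hY0 hP0
  have hdP := dd_analyticAt hP hP
  have hdθ := dd_analyticAt hθ hθ
  have hY1 : AnalyticAt ℂ (fun p : ℂ × ℂ => Y p.1) (0, 0) :=
    AnalyticAt.comp (g := Y) (by simpa using hY) analyticAt_fst
  have hY2 : AnalyticAt ℂ (fun p : ℂ × ℂ => Y p.2) (0, 0) :=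
    AnalyticAt.comp (g := Y) (by simpa using hY) analyticAt_snd
  have hθn : dd θ (0, 0) ≠ 0 := by rw [dd_self]; exact hθ0
  refine ⟨fun p => dd P p * (Y p.1 + Y p.2) / dd θ p, ?_, ?_, ?_⟩
  · exact (hdP.fun_mul (hY1.fun_add hY2)).fun_div hdθ hθn
  · filter_upwards [hdθ.continuousAt.eventually_ne hθn] with p hp
    obtain ⟨x, w⟩ := p
    have h1 := dd_mul P x w
    have h2 := dd_mul θ x w
    simp only at hp ⊢
    rw [← h1, ← h2]
    field_simp
  · have hθe : ∀ᶠ x in 𝓝 (0 : ℂ), deriv θ x ≠ 0 := hθ.deriv.continuousAt.eventually_ne hθ0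
    filter_upwards [hθe, heq] with x hx he
    simp only [dd_self]
    rw [he] at hx ⊢
    have h3 : Y x ≠ 0 := left_ne_zero_of_mul hx
    have h4 : deriv P x ≠ 0 := right_ne_zero_of_mul hx
    field_simp
    norm_num

/-- branch points of the curve -/
theorem m_weier {θ Y P : ℂ → ℂ} (hθ : AnalyticAt ℂ θ 0) (hY : AnalyticAt ℂ Y 0)
    (hP : AnalyticAt ℂ P 0) (heq : ∀ᶠ x in 𝓝 (0 : ℂ), deriv θ x = Y x * deriv P x)
    (hθe : ∀ᶠ x in 𝓝 (0 : ℂ), θ (-x) = θ x) (hYo : ∀ᶠ x in 𝓝 (0 : ℂ), Y (-x) = - Y x)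
    (hY0 : deriv Y 0 ≠ 0) (hP0 : deriv P 0 ≠ 0) :
    ∃ m : ℂ × ℂ → ℂ, AnalyticAt ℂ m (0, 0) ∧
      (∀ᶠ p in 𝓝 ((0, 0) : ℂ × ℂ), m p * (θ p.1 - θ p.2) = (P p.1 - P p.2) * (Y p.1 + Y p.2)) ∧
      (∀ᶠ x in 𝓝 (0 : ℂ), m (x, x) = 2) := by
  obtain ⟨h, ha, hh⟩ := even_factor hθ hθe
  have hY00 : Y 0 = 0 := by
    have := hYo.self_of_nhds
    simp only [neg_zero] at this
    exact self_eq_neg.1 this
  -- derivative of θ
  have hder : ∀ᶠ x in 𝓝 (0 : ℂ), deriv θ x = 2 * x * deriv h (x ^ 2) := by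
    have hc : Tendsto (fun x : ℂ => x ^ 2) (𝓝 0) (𝓝 0) := by
      have : Continuous (fun x : ℂ => x ^ 2) := by fun_prop
      simpa using this.tendsto 0
    filter_upwards [hh.eventually_nhds, hc.eventually ha.eventually_analyticAt] with x hx hax
    have h1 : θ =ᶠ[𝓝 x] fun u => h (u ^ 2) := hx
    rw [h1.deriv_eq]
    have h2 : HasDerivAt (fun u : ℂ => u ^ 2) (2 * x) x := by
      simpa using hasDerivAt_pow 2 x
    have h3 := HasDerivAt.comp x hax.differentiableAt.hasDerivAt h2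
    rw [show (fun u => h (u ^ 2)) = h ∘ fun u => u ^ 2 from rfl, h3.deriv]
    ring
  -- `Y x = x * Y1 x`
  set Y1 : ℂ → ℂ := dslope Y 0 with hY1
  have hY1a : AnalyticAt ℂ Y1 0 := by
    obtain ⟨p, hp⟩ := hY
    exact ⟨_, hp.has_fpower_series_dslope_fslope⟩
  have hY1e : ∀ x, Y x = x * Y1 x := by
    intro x
    have : (x - 0) • dslope Y 0 x = Y x - Y 0 := sub_smul_dslope Y 0 x
    simpa [hY00] using this.symm
  have hY10 : Y1 0 = deriv Y 0 := by simp [hY1]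
  have hkey : ∀ᶠ x in 𝓝 (0 : ℂ), 2 * deriv h (x ^ 2) = Y1 x * deriv P x := by
    have hpun : ∀ᶠ x in 𝓝[≠] (0 : ℂ), 2 * deriv h (x ^ 2) = Y1 x * deriv P x := by
      filter_upwards [mem_nhdsWithin_of_mem_nhds hder, mem_nhdsWithin_of_mem_nhds heq,
        self_mem_nhdsWithin] with x h1 h2 h3
      have h3' : x ≠ 0 := h3
      have h4 : deriv θ x = 2 * x * deriv h (x ^ 2) := h1
      have h5 : deriv θ x = Y x * deriv P x := h2
      have h6 : x * (2 * deriv h (x ^ 2)) = x * (Y1 x * deriv P x) := by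
        rw [h4, hY1e x] at h5; linear_combination h5
      exact mul_left_cancel₀ h3' h6
    have hL : ContinuousAt (fun x : ℂ => 2 * deriv h (x ^ 2)) 0 := by
      have h1 : ContinuousAt (fun x : ℂ => deriv h (x ^ 2)) 0 := by
        refine ContinuousAt.comp (g := deriv h) (f := fun x : ℂ => x ^ 2) ?_ (by fun_prop)
        simpa using ha.deriv.continuousAt
      exact continuousAt_const.mul h1
    have hR : ContinuousAt (fun x : ℂ => Y1 x * deriv P x) 0 :=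
      hY1a.continuousAt.mul hP.deriv.continuousAt
    have h0 : 2 * deriv h ((0 : ℂ) ^ 2) = Y1 0 * deriv P 0 := by
      have l1 : Tendsto (fun x : ℂ => 2 * deriv h (x ^ 2)) (𝓝[≠] 0)
          (𝓝 (2 * deriv h ((0 : ℂ) ^ 2))) := hL.tendsto.mono_left nhdsWithin_le_nhds
      have l2 : Tendsto (fun x : ℂ => Y1 x * deriv P x) (𝓝[≠] 0) (𝓝 (Y1 0 * deriv P 0)) :=
        hR.tendsto.mono_left nhdsWithin_le_nhds
      exact tendsto_nhds_unique (l1.congr' hpun) l2
    rw [eventually_nhdsWithin_iff] at hpun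
    filter_upwards [hpun] with x hx
    rcases eq_or_ne x 0 with rfl | hne
    · exact h0
    · exact hx hne
  have hh0 : deriv h 0 ≠ 0 := by
    intro h0
    have := hkey.self_of_nhds
    simp only [ne_eq, OfNat.ofNat_ne_zero, not_false_eq_true, zero_pow, h0, mul_zero, hY10] at this
    exact (mul_ne_zero hY0 hP0) this.symm
  have hdh := dd_analyticAt ha ha
  have hdh0 : dd h (0, 0) ≠ 0 := by rw [dd_self]; exact hh0
  have hsq : AnalyticAt ℂ (fun p : ℂ × ℂ => dd h (p.1 ^ 2, p.2 ^ 2)) (0, 0) := by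
    refine AnalyticAt.comp (g := dd h) (f := fun p : ℂ × ℂ => (p.1 ^ 2, p.2 ^ 2)) ?_ ?_
    · simpa using hdh
    · exact (analyticAt_fst.pow 2).prod (analyticAt_snd.pow 2)
  have hneg : AnalyticAt ℂ (fun p : ℂ × ℂ => dd Y (p.1, -p.2)) (0, 0) := by
    refine AnalyticAt.comp (g := dd Y) (f := fun p : ℂ × ℂ => (p.1, -p.2)) ?_ ?_
    · simpa using dd_analyticAt hY hY
    · exact analyticAt_fst.prod analyticAt_snd.neg
  refine ⟨fun p => dd P p * dd Y (p.1, -p.2) / dd h (p.1 ^ 2, p.2 ^ 2), ?_, ?_, ?_⟩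
  · exact ((dd_analyticAt hP hP).fun_mul hneg).fun_div hsq (by simpa using hdh0)
  · have e1 : ∀ᶠ p in 𝓝 ((0, 0) : ℂ × ℂ), dd h (p.1 ^ 2, p.2 ^ 2) ≠ 0 :=
      hsq.continuousAt.eventually_ne (by simpa using hdh0)
    have e2 : ∀ᶠ p in 𝓝 ((0, 0) : ℂ × ℂ), Y (-p.2) = - Y p.2 :=
      (continuous_snd.tendsto' ((0, 0) : ℂ × ℂ) 0 rfl).eventually hYo
    have e3 : ∀ᶠ p in 𝓝 ((0, 0) : ℂ × ℂ), θ p.1 = h (p.1 ^ 2) :=
      (continuous_fst.tendsto' ((0, 0) : ℂ × ℂ) 0 rfl).eventually hh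
    have e4 : ∀ᶠ p in 𝓝 ((0, 0) : ℂ × ℂ), θ p.2 = h (p.2 ^ 2) :=
      (continuous_snd.tendsto' ((0, 0) : ℂ × ℂ) 0 rfl).eventually hh
    filter_upwards [e1, e2, e3, e4] with p h1 h2 h3 h4
    obtain ⟨x, w⟩ := p
    simp only at h1 h2 h3 h4 ⊢
    have k1 := dd_mul P x w
    have k2 := dd_mul Y x (-w)
    have k3 := dd_mul h (x ^ 2) (w ^ 2)
    rw [h2] at k2
    rw [h3, h4, ← k1, ← k3]
    have k2' : Y x + Y w = (x + w) * dd Y (x, -w) := by rw [show x + w = x - -w by ring, k2]; ring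
    rw [k2']
    field_simp
    ring
  · have e5 : ∀ᶠ x in 𝓝 (0 : ℂ), deriv h (x ^ 2) ≠ 0 := by
      have h1 : ContinuousAt (fun x : ℂ => deriv h (x ^ 2)) 0 := by
        refine ContinuousAt.comp (g := deriv h) (f := fun x : ℂ => x ^ 2) ?_ (by fun_prop)
        simpa using ha.deriv.continuousAt
      exact h1.eventually_ne (by simpa using hh0)
    filter_upwards [e5, hkey, hYo] with x h1 h2 h3
    simp only [dd_self]
    have h4 : dd Y (x, -x) = Y1 x := by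
      rcases eq_or_ne x 0 with rfl | hne
      · rw [neg_zero, dd_self, hY10]
      · have hne' : x ≠ -x := fun h => hne (self_eq_neg.1 h)
        rw [dd_ne Y hne', h3, hY1e x]
        field_simp
    rw [h4, div_eq_iff h1]
    linear_combination -h2

end

end Crest.Agent.R272.K3E_227
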