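import Crest.Agent.R272.IdnDefs_834
import Crest.Agent.R272.K3E2_227

/-!
# R272, K3-EVEN (helper227), part 3: slopes of `ω` in charts

Consequences of the structure `Cur` (956): `w` of nearby points, `w (iv c)`, the slope function
`tv i` in the chart `k c`, `y ≠ 0` off / `dy ≠ 0` at Weierstrass points.
-/

set_option autoImplicit false
set_option linter.unusedSectionVars false

open Set Filter Topology

namespace Crest.Agent.R272.K3E_227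

open Crest.Agent.R272.AJ_956 Crest.Agent.R272.Idn_834

noncomputable section

variable {C : Type} [TopologicalSpace C] (𝒞 : Cur C)

theorem zero_mem (c : C) : (0 : ℂ) ∈ (𝒞.k c).target := by
  rw [← 𝒞.k_zero c]; exact (𝒞.k c).map_source (𝒞.k_mem c)

theorem symm_zero (c : C) : (𝒞.k c).symm 0 = c := by
  have := (𝒞.k c).left_inv (𝒞.k_mem c)
  rwa [𝒞.k_zero] at this

theorem G_an0 (c : C) : AnalyticAt ℂ (𝒞.G c) 0 := 𝒞.G_an c 0 (zero_mem 𝒞 c)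

theorem an_comp {F : ℂ → E2} {z : ℂ} (hF : AnalyticAt ℂ F z) (i : Fin 2) :
    AnalyticAt ℂ (fun z => F z i) z :=
  AnalyticAt.comp (g := fun v : E2 => v i)
    ((ContinuousLinearMap.proj (R := ℂ) (φ := fun _ : Fin 2 => ℂ) i).analyticAt _) hF

theorem deriv_i {F : ℂ → E2} {z : ℂ} (hF : DifferentiableAt ℂ F z) (i : Fin 2) :
    deriv F z i = deriv (fun z => F z i) z :=
  ((hasDerivAt_pi.1 hF.hasDerivAt) i).deriv.symm

/-- `ω` at a nearby point, read in the chart `k c` -/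
theorem w_near (c : C) : ∀ z ∈ (𝒞.k c).target, ∃ a : ℂ, a ≠ 0 ∧
    𝒞.w ((𝒞.k c).symm z) = a • deriv (𝒞.G c) z := by
  intro z hz
  set y : C := (𝒞.k c).symm z with hy
  have hys : y ∈ (𝒞.k c).source := (𝒞.k c).map_target hz
  have hyk : 𝒞.k c y = z := (𝒞.k c).right_inv hz
  set φ : ℂ → ℂ := fun v => 𝒞.k c ((𝒞.k y).symm v) with hφ
  have hφa : AnalyticAt ℂ φ 0 := by
    have := 𝒞.k_an y c y (𝒞.k_mem y) hys
    rwa [𝒞.k_zero] at this
  set ψ : ℂ → ℂ := fun v => 𝒞.k y ((𝒞.k c).symm v) with hψ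
  have hψa : AnalyticAt ℂ ψ z := by
    have := 𝒞.k_an c y y hys (𝒞.k_mem y)
    rwa [hyk] at this
  have hφ0 : φ 0 = z := by simp only [hφ]; rw [symm_zero, hyk]
  have hsy : Tendsto (fun v => (𝒞.k y).symm v) (𝓝 0) (𝓝 y) := by
    have := (𝒞.k y).continuousAt_symm (zero_mem 𝒞 y)
    simpa [ContinuousAt, symm_zero] using this
  -- ψ ∘ φ = id
  have hinv : ∀ᶠ v in 𝓝 (0 : ℂ), ψ (φ v) = v := by
    filter_upwards [(𝒞.k y).open_target.mem_nhds (zero_mem 𝒞 y),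
      hsy.eventually ((𝒞.k c).open_source.mem_nhds hys)] with v hv hv2
    simp only [hψ, hφ]
    rw [(𝒞.k c).left_inv hv2, (𝒞.k y).right_inv hv]
  have hd : deriv φ 0 ≠ 0 := by
    have h1 : HasDerivAt (fun v => ψ (φ v)) (deriv ψ z * deriv φ 0) 0 := by
      have h2 : HasDerivAt ψ (deriv ψ z) (φ 0) := by rw [hφ0]; exact hψa.differentiableAt.hasDerivAt
      exact h2.comp 0 hφa.differentiableAt.hasDerivAt
    have h3 : HasDerivAt (fun v => ψ (φ v)) 1 0 :=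
      (hasDerivAt_id (0 : ℂ)).congr_of_eventuallyEq hinv
    have h4 := h1.unique h3
    exact right_ne_zero_of_mul (by rw [h4]; exact one_ne_zero)
  refine ⟨deriv φ 0, hd, ?_⟩
  -- G y v = G c (φ v) - const
  have hc := 𝒞.compat y c y (𝒞.k_mem y) hys
  have h5 : ∀ᶠ v in 𝓝 (0 : ℂ), 𝒞.G y v = 𝒞.G c (φ v) - 𝒞.G c z := by
    filter_upwards [hsy.eventually hc, (𝒞.k y).open_target.mem_nhds (zero_mem 𝒞 y)] with v hv hv2
    rw [(𝒞.k y).right_inv hv2, 𝒞.k_zero, 𝒞.G_zero, hyk, sub_zero] at hv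
    rw [← hv]; simp [hφ]
  have h6 : HasDerivAt (fun v => 𝒞.G c (φ v) - 𝒞.G c z) (deriv φ 0 • deriv (𝒞.G c) z) 0 := by
    have h7 : HasDerivAt (𝒞.G c) (deriv (𝒞.G c) z) (φ 0) := by
      rw [hφ0]; exact (𝒞.G_an c z hz).differentiableAt.hasDerivAt
    exact (h7.scomp 0 hφa.differentiableAt.hasDerivAt).sub_const _
  have h8 : HasDerivAt (𝒞.G y) (deriv φ 0 • deriv (𝒞.G c) z) 0 := h6.congr_of_eventuallyEq h5
  exact h8.deriv

/-- `ω` at `iv c` -/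
theorem w_iv (c : C) : ∃ a : ℂ, a ≠ 0 ∧ 𝒞.w (𝒞.iv c) = a • 𝒞.w c := by
  set κ : ℂ → ℂ := fun z => 𝒞.k (𝒞.iv c) (𝒞.iv ((𝒞.k c).symm z)) with hκ
  have hκa : AnalyticAt ℂ κ 0 := 𝒞.iv_an c
  set κ' : ℂ → ℂ := fun z => 𝒞.k c (𝒞.iv ((𝒞.k (𝒞.iv c)).symm z)) with hκ'
  have hκa' : AnalyticAt ℂ κ' 0 := by
    have := 𝒞.iv_an (𝒞.iv c)
    rwa [𝒞.iv_iv] at this
  have hκ0 : κ 0 = 0 := by simp only [hκ]; rw [symm_zero, 𝒞.k_zero]
  have hsy : Tendsto (fun v => (𝒞.k c).symm v) (𝓝 0) (𝓝 c) := by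
    have := (𝒞.k c).continuousAt_symm (zero_mem 𝒞 c)
    simpa [ContinuousAt, symm_zero] using this
  have hivc : Tendsto 𝒞.iv (𝓝 c) (𝓝 (𝒞.iv c)) := 𝒞.iv_cont.tendsto c
  have hinv : ∀ᶠ v in 𝓝 (0 : ℂ), κ' (κ v) = v := by
    filter_upwards [(𝒞.k c).open_target.mem_nhds (zero_mem 𝒞 c),
      (hivc.comp hsy).eventually ((𝒞.k (𝒞.iv c)).open_source.mem_nhds (𝒞.k_mem _))] with v hv hv2
    have hv2' : 𝒞.iv ((𝒞.k c).symm v) ∈ (𝒞.k (𝒞.iv c)).source := hv2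
    simp only [hκ, hκ']
    rw [(𝒞.k (𝒞.iv c)).left_inv hv2', 𝒞.iv_iv, (𝒞.k c).right_inv hv]
  have hd : deriv κ 0 ≠ 0 := by
    have h1 : HasDerivAt (fun v => κ' (κ v)) (deriv κ' 0 * deriv κ 0) 0 := by
      have h2 : HasDerivAt κ' (deriv κ' 0) (κ 0) := by
        rw [hκ0]; exact hκa'.differentiableAt.hasDerivAt
      exact h2.comp 0 hκa.differentiableAt.hasDerivAt
    have h3 : HasDerivAt (fun v => κ' (κ v)) 1 0 :=
      (hasDerivAt_id (0 : ℂ)).congr_of_eventuallyEq hinv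
    have h4 := h1.unique h3
    exact right_ne_zero_of_mul (by rw [h4]; exact one_ne_zero)
  have h5 : ∀ᶠ v in 𝓝 (0 : ℂ), 𝒞.G (𝒞.iv c) (κ v) = - 𝒞.G c v := by
    filter_upwards [hsy.eventually (𝒞.anti c),
      (𝒞.k c).open_target.mem_nhds (zero_mem 𝒞 c)] with v hv hv2
    rw [(𝒞.k c).right_inv hv2] at hv
    exact hv
  have h6 : HasDerivAt (fun v => 𝒞.G (𝒞.iv c) (κ v)) (deriv κ 0 • 𝒞.w (𝒞.iv c)) 0 := by
    have h7 : HasDerivAt (𝒞.G (𝒞.iv c)) (𝒞.w (𝒞.iv c)) (κ 0) := by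
      rw [hκ0]; exact (G_an0 𝒞 _).differentiableAt.hasDerivAt
    exact h7.scomp 0 hκa.differentiableAt.hasDerivAt
  have h8 : HasDerivAt (fun v => 𝒞.G (𝒞.iv c) (κ v)) (- 𝒞.w c) 0 :=
    ((G_an0 𝒞 c).differentiableAt.hasDerivAt.neg).congr_of_eventuallyEq h5
  have h9 := h6.unique h8
  refine ⟨-(deriv κ 0)⁻¹, neg_ne_zero.2 (inv_ne_zero hd), ?_⟩
  rw [neg_smul, ← smul_neg, ← h9, smul_smul, inv_mul_cancel₀ hd, one_smul]

theorem tv_iv (i : Fin 2) (c : C) : tv 𝒞 i (𝒞.iv c) = tv 𝒞 i c := by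
  obtain ⟨a, ha, h⟩ := w_iv 𝒞 c
  simp only [tv, h, Pi.smul_apply, smul_eq_mul]
  exact mul_div_mul_left _ _ ha

theorem Ci_iv {i : Fin 2} {c : C} : 𝒞.iv c ∈ Ci 𝒞 i ↔ c ∈ Ci 𝒞 i := by
  obtain ⟨a, ha, h⟩ := w_iv 𝒞 c
  simp only [Ci, mem_ofPred_eq, h, Pi.smul_apply, smul_eq_mul]
  exact mul_ne_zero_iff_left ha

theorem tv_chart (c : C) (i : Fin 2) : ∀ z ∈ (𝒞.k c).target,
    tv 𝒞 i ((𝒞.k c).symm z) = deriv (fun z => 𝒞.G c z (1 - i)) z / deriv (fun z => 𝒞.G c z i) z := by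
  intro z hz
  obtain ⟨a, ha, h⟩ := w_near 𝒞 c z hz
  have hd := (𝒞.G_an c z hz).differentiableAt
  simp only [tv, h, Pi.smul_apply, smul_eq_mul]
  rw [mul_div_mul_left _ _ ha, deriv_i hd, deriv_i hd]

theorem Ci_chart (c : C) (i : Fin 2) : ∀ z ∈ (𝒞.k c).target,
    ((𝒞.k c).symm z ∈ Ci 𝒞 i ↔ deriv (fun z => 𝒞.G c z i) z ≠ 0) := by
  intro z hz
  obtain ⟨a, ha, h⟩ := w_near 𝒞 c z hz
  have hd := (𝒞.G_an c z hz).differentiableAt
  simp only [Ci, mem_ofPred_eq, h, Pi.smul_apply, smul_eq_mul, deriv_i hd]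
  exact mul_ne_zero_iff_left ha

theorem w_eq (c : C) (i : Fin 2) : deriv (fun z => 𝒞.G c z i) 0 = 𝒞.w c i :=
  (deriv_i (G_an0 𝒞 c).differentiableAt i).symm

theorem isOpen_Ci (i : Fin 2) : IsOpen (Ci 𝒞 i) := by
  rw [isOpen_iff_mem_nhds]
  intro c hc
  have h0 : deriv (fun z => 𝒞.G c z i) 0 ≠ 0 := by rw [w_eq]; exact hc
  have h1 : ∀ᶠ z in 𝓝 (0 : ℂ), deriv (fun z => 𝒞.G c z i) z ≠ 0 :=
    (an_comp (G_an0 𝒞 c) i).deriv.continuousAt.eventually_ne h0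
  have h2 : Tendsto (𝒞.k c) (𝓝 c) (𝓝 0) := by
    have := (𝒞.k c).continuousAt (𝒞.k_mem c)
    simpa [ContinuousAt, 𝒞.k_zero] using this
  filter_upwards [h2.eventually h1, (𝒞.k c).open_source.mem_nhds (𝒞.k_mem c)] with y hy hys
  have := (Ci_chart 𝒞 c i (𝒞.k c y) ((𝒞.k c).map_source hys)).2 hy
  rwa [(𝒞.k c).left_inv hys] at this

/-- slope function in the chart -/
theorem tv_an (c : C) (i : Fin 2) (hc : c ∈ Ci 𝒞 i) :
    AnalyticAt ℂ (fun z => tv 𝒞 i ((𝒞.k c).symm z)) 0 := by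
  have h0 : deriv (fun z => 𝒞.G c z i) 0 ≠ 0 := by rw [w_eq]; exact hc
  have h1 : AnalyticAt ℂ (fun z => deriv (fun z => 𝒞.G c z (1 - i)) z /
      deriv (fun z => 𝒞.G c z i) z) 0 :=
    (an_comp (G_an0 𝒞 c) (1 - i)).deriv.fun_div (an_comp (G_an0 𝒞 c) i).deriv h0
  refine h1.congr ?_
  filter_upwards [(𝒞.k c).open_target.mem_nhds (zero_mem 𝒞 c)] with z hz
  exact (tv_chart 𝒞 c i z hz).symm

theorem slope_eq (c : C) (i : Fin 2) (hc : c ∈ Ci 𝒞 i) : ∀ᶠ z in 𝓝 (0 : ℂ),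
    deriv (fun z => 𝒞.G c z (1 - i)) z =
      tv 𝒞 i ((𝒞.k c).symm z) * deriv (fun z => 𝒞.G c z i) z := by
  have h0 : deriv (fun z => 𝒞.G c z i) 0 ≠ 0 := by rw [w_eq]; exact hc
  have h1 : ∀ᶠ z in 𝓝 (0 : ℂ), deriv (fun z => 𝒞.G c z i) z ≠ 0 :=
    (an_comp (G_an0 𝒞 c) i).deriv.continuousAt.eventually_ne h0
  filter_upwards [h1, (𝒞.k c).open_target.mem_nhds (zero_mem 𝒞 c)] with z hz hz2
  rw [tv_chart 𝒞 c i z hz2, div_mul_cancel₀ _ hz]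

/-- derivatives of a product relation `q' = θ p'` -/
theorem det_aux {θ p q : ℂ → ℂ} (hθ : AnalyticAt ℂ θ 0) (hp : AnalyticAt ℂ p 0)
    (h : ∀ᶠ z in 𝓝 (0 : ℂ), deriv q z = θ z * deriv p z) :
    deriv (deriv q) 0 = deriv θ 0 * deriv p 0 + θ 0 * deriv (deriv p) 0 ∧
    deriv (deriv (deriv q)) 0 = deriv (deriv θ) 0 * deriv p 0 +
      2 * deriv θ 0 * deriv (deriv p) 0 + θ 0 * deriv (deriv (deriv p)) 0 := by
  have e2 : ∀ᶠ z in 𝓝 (0 : ℂ), deriv (deriv q) z =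
      deriv θ z * deriv p z + θ z * deriv (deriv p) z := by
    filter_upwards [h.eventually_nhds, hθ.eventually_analyticAt,
      hp.deriv.eventually_analyticAt] with z hz h1 h2
    have h3 : deriv q =ᶠ[𝓝 z] fun u => θ u * deriv p u := hz
    rw [h3.deriv_eq]
    exact deriv_fun_mul h1.differentiableAt h2.differentiableAt
  refine ⟨e2.self_of_nhds, ?_⟩
  have h3 : deriv (deriv q) =ᶠ[𝓝 0] fun z => deriv θ z * deriv p z + θ z * deriv (deriv p) z := e2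
  rw [h3.deriv_eq]
  have a1 := hθ.deriv.differentiableAt
  have a2 := hp.deriv.differentiableAt
  have a3 := hθ.differentiableAt
  have a4 := hp.deriv.deriv.differentiableAt
  rw [deriv_fun_add (a1.fun_mul a2) (a3.fun_mul a4), deriv_fun_mul a1 a2, deriv_fun_mul a3 a4]
  ring

theorem comp2 (c : C) (j : Fin 2) :
    deriv (deriv (𝒞.G c)) 0 j = deriv (deriv (fun z => 𝒞.G c z j)) 0 := by
  rw [deriv_i (G_an0 𝒞 c).deriv.differentiableAt j]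
  refine Filter.EventuallyEq.deriv_eq ?_
  filter_upwards [(G_an0 𝒞 c).eventually_analyticAt] with z hz using deriv_i hz.differentiableAt j

theorem comp3 (c : C) (j : Fin 2) :
    deriv (deriv (deriv (𝒞.G c))) 0 j = deriv (deriv (deriv (fun z => 𝒞.G c z j))) 0 := by
  rw [deriv_i (G_an0 𝒞 c).deriv.deriv.differentiableAt j]
  refine Filter.EventuallyEq.deriv_eq ?_
  filter_upwards [(G_an0 𝒞 c).eventually_analyticAt.eventually_nhds] with z hz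
  rw [deriv_i hz.self_of_nhds.deriv.differentiableAt j]
  refine Filter.EventuallyEq.deriv_eq ?_
  filter_upwards [hz] with u hu using deriv_i hu.differentiableAt j

/-- the slope is a coordinate off the Weierstrass points -/
theorem dtv_ne (c : C) (i : Fin 2) (hc : c ∈ Ci 𝒞 i) (hiv : 𝒞.iv c ≠ c) :
    deriv (fun z => tv 𝒞 i ((𝒞.k c).symm z)) 0 ≠ 0 := by
  intro h0
  refine 𝒞.nd c hiv ?_
  have hd := (det_aux (tv_an 𝒞 c i hc) (an_comp (G_an0 𝒞 c) i) (slope_eq 𝒞 c i hc)).1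
  have hs := (slope_eq 𝒞 c i hc).self_of_nhds
  rw [h0] at hd
  unfold det2
  have k0 := deriv_i (G_an0 𝒞 c).differentiableAt 0
  have k1 := deriv_i (G_an0 𝒞 c).differentiableAt 1
  rw [comp2, comp2, k0, k1]
  fin_cases i
  · simp only [Fin.zero_eta, Fin.isValue, sub_zero] at hd hs
    rw [hd, hs]; ring
  · simp only [Fin.mk_one, Fin.isValue, sub_self] at hd hs
    rw [hd, hs]; ring

theorem ddtv_ne (c : C) (i : Fin 2) (hc : c ∈ Ci 𝒞 i) (hiv : 𝒞.iv c = c)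
    (h1 : deriv (fun z => tv 𝒞 i ((𝒞.k c).symm z)) 0 = 0) :
    deriv (deriv (fun z => tv 𝒞 i ((𝒞.k c).symm z))) 0 ≠ 0 := by
  intro h0
  refine 𝒞.nd3 c hiv ?_
  have hd := (det_aux (tv_an 𝒞 c i hc) (an_comp (G_an0 𝒞 c) i) (slope_eq 𝒞 c i hc)).2
  have hs := (slope_eq 𝒞 c i hc).self_of_nhds
  rw [h0, h1] at hd
  unfold det2
  have k0 := deriv_i (G_an0 𝒞 c).differentiableAt 0
  have k1 := deriv_i (G_an0 𝒞 c).differentiableAt 1
  rw [comp3, comp3, k0, k1]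
  fin_cases i
  · simp only [Fin.zero_eta, Fin.isValue, sub_zero] at hd hs
    rw [hd, hs]; ring
  · simp only [Fin.mk_one, Fin.isValue, sub_self] at hd hs
    rw [hd, hs]; ring

end

end Crest.Agent.R272.K3E_227
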