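import Crest.Agent.R272.K3E3_227

/-!
# R272, K3-EVEN (helper227), part 4: the structure `Idn_834.K3`

`Sext 𝒞 l` : the curve `𝒞` is `y² = ∑ l_j t^j` (`t` = slope of `ω`), `ω = (dt/y, t dt/y)`.
`k3`       : `Sext 𝒞 l → 𝒞.NearE N U → K3 𝒞 U`, `g i = U_i² (F(t,t') - 2 y y')/(t - t')²`.
-/

set_option autoImplicit false
set_option linter.unusedSectionVars false

open Set Filter Topology

namespace Crest.Agent.R272.K3E_227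

open Crest.Agent.R272.AJ_956 Crest.Agent.R272.Idn_834

noncomputable section

/-- sextic -/
def fp (l : Fin 7 → ℂ) (t : ℂ) : ℂ :=
  l 0 + l 1 * t + l 2 * t ^ 2 + l 3 * t ^ 3 + l 4 * t ^ 4 + l 5 * t ^ 5 + l 6 * t ^ 6

/-- its polar form -/
def Fp (l : Fin 7 → ℂ) (t u : ℂ) : ℂ :=
  2 * l 0 + l 1 * (t + u) + (t * u) * (2 * l 2 + l 3 * (t + u)) +
    (t * u) ^ 2 * (2 * l 4 + l 5 * (t + u)) + (t * u) ^ 3 * (2 * l 6)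

def Rp (l : Fin 7 → ℂ) (t u : ℂ) : ℂ :=
  l 2 + l 3 * (t + u) + l 4 * (t + u) ^ 2 + l 5 * (t ^ 2 + t * u + u ^ 2) * (t + u) +
    l 6 * (t ^ 2 + t * u + u ^ 2) ^ 2

theorem Rp_an {l : Fin 7 → ℂ} {a b : ℂ × ℂ → ℂ} {q : ℂ × ℂ} (ha : AnalyticAt ℂ a q)
    (hb : AnalyticAt ℂ b q) : AnalyticAt ℂ (fun p => Rp l (a p) (b p)) q := by
  unfold Rp; fun_prop

/-- reversed coefficients -/
def rv (l : Fin 7 → ℂ) : Fin 7 → ℂ := ![l 6, l 5, l 4, l 3, l 2, l 1, l 0]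

/-- coefficients in the chart `i` -/
def lr (l : Fin 7 → ℂ) (i : Fin 2) : Fin 7 → ℂ := if i = 0 then l else rv l

theorem Fp_eq (l : Fin 7 → ℂ) (t u : ℂ) :
    Fp l t u = fp l t + fp l u - (t - u) ^ 2 * Rp l t u := by
  unfold Fp fp Rp; ring

theorem Fp_symm (l : Fin 7 → ℂ) (t u : ℂ) : Fp l u t = Fp l t u := by
  unfold Fp; ring

theorem Fp_rev (l : Fin 7 → ℂ) {t u : ℂ} (ht : t ≠ 0) (hu : u ≠ 0) :
    Fp l t u = (t * u) ^ 3 * Fp (rv l) t⁻¹ u⁻¹ := by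
  have e0 : rv l 0 = l 6 := rfl
  have e1 : rv l 1 = l 5 := rfl
  have e2 : rv l 2 = l 4 := rfl
  have e3 : rv l 3 = l 3 := rfl
  have e4 : rv l 4 = l 2 := rfl
  have e5 : rv l 5 = l 1 := rfl
  have e6 : rv l 6 = l 0 := rfl
  unfold Fp
  rw [e0, e1, e2, e3, e4, e5, e6]
  field_simp
  ring

variable {C : Type} [TopologicalSpace C] (𝒞 : Cur C)

/-- the curve `y² = ∑ l_j t^j`, `ω = (dt/y, t dt/y)`; `y 0 = y`, `y 1 = - y/t³` -/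
structure Sext (l : Fin 7 → ℂ) where
  y : Fin 2 → C → ℂ
  an : ∀ i, ∀ c ∈ Ci 𝒞 i, AnalyticAt ℂ (fun z => y i ((𝒞.k c).symm z)) 0
  sq : ∀ i, ∀ c ∈ Ci 𝒞 i, y i c ^ 2 = fp (lr l i) (tv 𝒞 i c)
  iv : ∀ i, ∀ c ∈ Ci 𝒞 i, y i (𝒞.iv c) = - y i c
  der : ∀ i, ∀ c ∈ Ci 𝒞 i, ∀ᶠ z in 𝓝 (0 : ℂ),
    deriv (fun z => tv 𝒞 i ((𝒞.k c).symm z)) z =
      y i ((𝒞.k c).symm z) * deriv (fun z => 𝒞.G c z i) z
  rel : ∀ c, c ∈ Ci 𝒞 0 → c ∈ Ci 𝒞 1 → y 1 c = - y 0 c * tv 𝒞 1 c ^ 3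

variable {𝒞}

theorem tendsto_k (c : C) : Tendsto (𝒞.k c) (𝓝 c) (𝓝 0) := by
  have := (𝒞.k c).continuousAt (𝒞.k_mem c)
  simpa [ContinuousAt, 𝒞.k_zero] using this

theorem tendsto_ks (c : C) : Tendsto (𝒞.k c).symm (𝓝 0) (𝓝 c) := by
  have := (𝒞.k c).continuousAt_symm (zero_mem 𝒞 c)
  simpa [ContinuousAt, symm_zero] using this

/-- near a Weierstrass point the chart is odd -/
theorem symm_neg {c : C} (hc : 𝒞.iv c = c) :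
    ∀ᶠ z in 𝓝 (0 : ℂ), (𝒞.k c).symm (-z) = 𝒞.iv ((𝒞.k c).symm z) := by
  have h2 : Tendsto (fun z => 𝒞.iv ((𝒞.k c).symm z)) (𝓝 0) (𝓝 c) := by
    have := (𝒞.iv_cont.tendsto c).comp (tendsto_ks (𝒞 := 𝒞) c)
    rwa [hc] at this
  filter_upwards [(tendsto_ks (𝒞 := 𝒞) c).eventually (𝒞.odd c hc),
    (𝒞.k c).open_target.mem_nhds (zero_mem 𝒞 c),
    h2.eventually ((𝒞.k c).open_source.mem_nhds (𝒞.k_mem c))] with z h3 h4 h5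
  rw [(𝒞.k c).right_inv h4] at h3
  rw [← h3]
  exact (𝒞.k c).left_inv h5

/-- the germ of `m` at a point of `Γ` -/
theorem germ {l : Fin 7 → ℂ} (S : Sext 𝒞 l) (i : Fin 2) (c : C) (hc : c ∈ Ci 𝒞 i) :
    ∃ m : ℂ × ℂ → ℂ, AnalyticAt ℂ m (0, 0) ∧ m (0, 0) = 2 ∧
      (∀ᶠ p in 𝓝 ((0, 0) : ℂ × ℂ),
        m p * (tv 𝒞 i ((𝒞.k c).symm p.1) - tv 𝒞 i ((𝒞.k c).symm p.2)) =
          (𝒞.G c p.1 i - 𝒞.G c p.2 i) *
            (S.y i ((𝒞.k c).symm p.1) + S.y i ((𝒞.k c).symm p.2))) := by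
  have hθ := tv_an 𝒞 c i hc
  have hP := an_comp (G_an0 𝒞 c) i
  have hY := S.an i c hc
  have hP0 : deriv (fun z => 𝒞.G c z i) 0 ≠ 0 := by rw [w_eq]; exact hc
  by_cases hiv : 𝒞.iv c = c
  · have hne : ∀ᶠ z in 𝓝 (0 : ℂ), (𝒞.k c).symm z ∈ Ci 𝒞 i :=
      (tendsto_ks (𝒞 := 𝒞) c).eventually ((isOpen_Ci 𝒞 i).mem_nhds hc)
    have hθe : ∀ᶠ x in 𝓝 (0 : ℂ), tv 𝒞 i ((𝒞.k c).symm (-x)) = tv 𝒞 i ((𝒞.k c).symm x) := by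
      filter_upwards [symm_neg hiv] with x hx
      rw [hx, tv_iv]
    have hYo : ∀ᶠ x in 𝓝 (0 : ℂ), S.y i ((𝒞.k c).symm (-x)) = - S.y i ((𝒞.k c).symm x) := by
      filter_upwards [symm_neg hiv, hne] with x hx hx2
      rw [hx, S.iv i _ hx2]
    have hY00 : S.y i ((𝒞.k c).symm 0) = 0 := by
      have := hYo.self_of_nhds
      simp only [neg_zero] at this
      exact self_eq_neg.1 this
    have hd0 := (S.der i c hc).self_of_nhds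
    rw [hY00, zero_mul] at hd0
    have hY0 : deriv (fun z => S.y i ((𝒞.k c).symm z)) 0 ≠ 0 := by
      intro h0
      refine ddtv_ne 𝒞 c i hc hiv hd0 ?_
      have h1 : deriv (fun z => tv 𝒞 i ((𝒞.k c).symm z)) =ᶠ[𝓝 0]
          fun z => S.y i ((𝒞.k c).symm z) * deriv (fun z => 𝒞.G c z i) z := S.der i c hc
      rw [h1.deriv_eq, deriv_fun_mul hY.differentiableAt hP.deriv.differentiableAt, h0, hY00]
      simp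
    obtain ⟨m, h1, h2, h3⟩ := m_weier hθ hY hP (S.der i c hc) hθe hYo hY0 hP0
    exact ⟨m, h1, h3.self_of_nhds, h2⟩
  · have hY0 : S.y i ((𝒞.k c).symm 0) ≠ 0 := by
      intro h0
      refine dtv_ne 𝒞 c i hc hiv ?_
      have := (S.der i c hc).self_of_nhds
      rwa [h0, zero_mul] at this
    obtain ⟨m, h1, h2, h3⟩ := m_reg hθ hY hP (S.der i c hc) hY0 hP0
    exact ⟨m, h1, h3.self_of_nhds, h2⟩

/-- formula off `t = t'` -/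
def frm {l : Fin 7 → ℂ} (S : Sext 𝒞 l) (U : C × C → E2) (i : Fin 2) (x : C × C) : ℂ :=
  U x i ^ 2 * (Fp (lr l i) (tv 𝒞 i x.1) (tv 𝒞 i x.2) - 2 * S.y i x.1 * S.y i x.2) /
    (tv 𝒞 i x.1 - tv 𝒞 i x.2) ^ 2

def As (𝒞 : Cur C) (i : Fin 2) : Set (C × C) := {x | tv 𝒞 i x.1 ≠ tv 𝒞 i x.2}

/-- the functions `g₀`, `g_∞` -/
def gg {l : Fin 7 → ℂ} (S : Sext 𝒞 l) (U : C × C → E2) (i : Fin 2) : C × C → ℂ :=
  extendFrom (As 𝒞 i) (frm S U i)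

/-- the coordinates `(k c x₁, k c (iv x₂))` near `(c, iv c)` -/
def pp (𝒞 : Cur C) (c : C) (x : C × C) : ℂ × ℂ := (𝒞.k c x.1, 𝒞.k c (𝒞.iv x.2))

theorem tendsto_iv2 (c : C) :
    Tendsto (fun x : C × C => 𝒞.iv x.2) (𝓝 (c, 𝒞.iv c)) (𝓝 c) := by
  have h1 : Continuous (fun x : C × C => 𝒞.iv x.2) := 𝒞.iv_cont.comp continuous_snd
  have := h1.tendsto (c, 𝒞.iv c)
  rwa [show 𝒞.iv ((c, 𝒞.iv c) : C × C).2 = c from 𝒞.iv_iv c] at this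

theorem tendsto_fst' (c : C) :
    Tendsto (fun x : C × C => x.1) (𝓝 (c, 𝒞.iv c)) (𝓝 c) :=
  continuous_fst.tendsto' _ _ rfl

theorem tendsto_snd' (c : C) :
    Tendsto (fun x : C × C => x.2) (𝓝 (c, 𝒞.iv c)) (𝓝 (𝒞.iv c)) :=
  continuous_snd.tendsto' _ _ rfl

theorem tendsto_pp (c : C) : Tendsto (pp 𝒞 c) (𝓝 (c, 𝒞.iv c)) (𝓝 ((0, 0) : ℂ × ℂ)) :=
  ((tendsto_k (𝒞 := 𝒞) c).comp (tendsto_fst' c)).prodMk_nhds
    ((tendsto_k (𝒞 := 𝒞) c).comp (tendsto_iv2 c))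

/-- charts near `(c, iv c)` -/
theorem near_src (c : C) : ∀ᶠ x in 𝓝 ((c, 𝒞.iv c) : C × C),
    x.1 ∈ (𝒞.k c).source ∧ 𝒞.iv x.2 ∈ (𝒞.k c).source ∧ x.2 ∈ (𝒞.k (𝒞.iv c)).source := by
  filter_upwards [(tendsto_fst' (𝒞 := 𝒞) c).eventually ((𝒞.k c).open_source.mem_nhds (𝒞.k_mem c)),
    (tendsto_iv2 (𝒞 := 𝒞) c).eventually ((𝒞.k c).open_source.mem_nhds (𝒞.k_mem c)),
    (tendsto_snd' (𝒞 := 𝒞) c).eventually
      ((𝒞.k (𝒞.iv c)).open_source.mem_nhds (𝒞.k_mem (𝒞.iv c)))] with x h1 h2 h3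
  exact ⟨h1, h2, h3⟩

theorem near_Ci {i : Fin 2} {c : C} (hc : c ∈ Ci 𝒞 i) : ∀ᶠ x in 𝓝 ((c, 𝒞.iv c) : C × C),
    x.1 ∈ Ci 𝒞 i ∧ x.2 ∈ Ci 𝒞 i := by
  filter_upwards [(tendsto_fst' (𝒞 := 𝒞) c).eventually ((isOpen_Ci 𝒞 i).mem_nhds hc),
    (tendsto_snd' (𝒞 := 𝒞) c).eventually
      ((isOpen_Ci 𝒞 i).mem_nhds ((Ci_iv 𝒞).2 hc))] with x h1 h2
  exact ⟨h1, h2⟩

/-- local form of the functions near `(c, iv c)` -/
theorem loc {l : Fin 7 → ℂ} (S : Sext 𝒞 l) {N : Set (C × C)} {U : C × C → E2}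
    (h : 𝒞.NearE N U) (i : Fin 2) (c : C) (hc : c ∈ Ci 𝒞 i) :
    ∃ γ : ℂ × ℂ → ℂ, AnalyticAt ℂ γ 0 ∧ γ 0 = 4 ∧
      ∀ᶠ x in 𝓝 ((c, 𝒞.iv c) : C × C), x ∈ As 𝒞 i →
        frm S U i x = γ (𝒞.k c x.1, 𝒞.k (𝒞.iv c) x.2) := by
  obtain ⟨m, hm, hm0, hme⟩ := germ S i c hc
  set θ : ℂ → ℂ := fun z => tv 𝒞 i ((𝒞.k c).symm z) with hθd
  set P : ℂ → ℂ := fun z => 𝒞.G c z i with hPd
  have hθ : AnalyticAt ℂ θ 0 := tv_an 𝒞 c i hc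
  have hP : AnalyticAt ℂ P 0 := an_comp (G_an0 𝒞 c) i
  set κ : ℂ → ℂ := fun v => 𝒞.k c (𝒞.iv ((𝒞.k (𝒞.iv c)).symm v)) with hκd
  have hκ : AnalyticAt ℂ κ 0 := by
    have := 𝒞.iv_an (𝒞.iv c)
    rwa [𝒞.iv_iv] at this
  have hκ0 : κ 0 = 0 := by
    simp only [hκd]; rw [symm_zero, 𝒞.iv_iv, 𝒞.k_zero]
  -- the function of `(z, w)`
  have h1 : AnalyticAt ℂ (fun p : ℂ × ℂ => P p.1 - P p.2) (0, 0) :=
    (AnalyticAt.comp (g := P) (by simpa using hP) analyticAt_fst).fun_sub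
      (AnalyticAt.comp (g := P) (by simpa using hP) analyticAt_snd)
  have h2 : AnalyticAt ℂ (fun p : ℂ × ℂ => θ p.1) (0, 0) :=
    AnalyticAt.comp (g := θ) (by simpa using hθ) analyticAt_fst
  have h3 : AnalyticAt ℂ (fun p : ℂ × ℂ => θ p.2) (0, 0) :=
    AnalyticAt.comp (g := θ) (by simpa using hθ) analyticAt_snd
  have h4 : AnalyticAt ℂ (fun p : ℂ × ℂ => Rp (lr l i) (θ p.1) (θ p.2)) (0, 0) := Rp_an h2 h3
  set γ0 : ℂ × ℂ → ℂ := fun p => m p ^ 2 - (P p.1 - P p.2) ^ 2 * Rp (lr l i) (θ p.1) (θ p.2)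
    with hγ0
  have hγ0a : AnalyticAt ℂ γ0 (0, 0) := (hm.pow 2).fun_sub ((h1.fun_pow 2).fun_mul h4)
  have hκ2 : AnalyticAt ℂ (fun p : ℂ × ℂ => (p.1, κ p.2)) ((0, 0) : ℂ × ℂ) :=
    analyticAt_fst.prod (AnalyticAt.comp (g := κ) (by simpa using hκ) analyticAt_snd)
  refine ⟨fun p => γ0 (p.1, κ p.2), ?_, ?_, ?_⟩
  · have h5 : AnalyticAt ℂ γ0 ((fun p : ℂ × ℂ => (p.1, κ p.2)) ((0, 0) : ℂ × ℂ)) := by
      simp only [hκ0]; exact hγ0a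
    exact AnalyticAt.comp (g := γ0) (f := fun p : ℂ × ℂ => (p.1, κ p.2)) h5 hκ2
  · simp only [Prod.fst_zero, Prod.snd_zero, hκ0, hγ0, sub_self, hm0]
    norm_num
  · have e1 : ∀ᶠ x in 𝓝 ((c, 𝒞.iv c) : C × C), m (pp 𝒞 c x) * (θ (pp 𝒞 c x).1 - θ (pp 𝒞 c x).2) =
        (P (pp 𝒞 c x).1 - P (pp 𝒞 c x).2) * (S.y i ((𝒞.k c).symm (pp 𝒞 c x).1) +
          S.y i ((𝒞.k c).symm (pp 𝒞 c x).2)) := (tendsto_pp c).eventually hme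
    filter_upwards [e1, near_src c, near_Ci hc, h.near c] with x hx hs hC hU hA
    obtain ⟨hs1, hs2, hs3⟩ := hs
    have a1 : (𝒞.k c).symm (pp 𝒞 c x).1 = x.1 := (𝒞.k c).left_inv hs1
    have a2 : (𝒞.k c).symm (pp 𝒞 c x).2 = 𝒞.iv x.2 := (𝒞.k c).left_inv hs2
    have a3 : θ (pp 𝒞 c x).1 = tv 𝒞 i x.1 := by simp only [hθd, a1]
    have a4 : θ (pp 𝒞 c x).2 = tv 𝒞 i x.2 := by simp only [hθd, a2, tv_iv]
    have a5 : P (pp 𝒞 c x).1 - P (pp 𝒞 c x).2 = U x i := by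
      rw [hU]; simp [hPd, pp, Cur.P]
    have a6 : S.y i x.2 = - S.y i (𝒞.iv x.2) := by
      have := S.iv i (𝒞.iv x.2) ((Ci_iv 𝒞).2 hC.2)
      rwa [𝒞.iv_iv] at this
    have a7 : κ (𝒞.k (𝒞.iv c) x.2) = (pp 𝒞 c x).2 := by
      simp only [hκd, pp]; rw [(𝒞.k (𝒞.iv c)).left_inv hs3]
    have a8 : (𝒞.k c x.1, κ (𝒞.k (𝒞.iv c) x.2)) = pp 𝒞 c x := by rw [a7]; rfl
    simp only [a8]
    rw [a1, a2, a3, a4, a5] at hx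
    have hA' : tv 𝒞 i x.1 - tv 𝒞 i x.2 ≠ 0 := sub_ne_zero.2 hA
    have q1 := S.sq i x.1 hC.1
    have q2 := S.sq i x.2 hC.2
    simp only [frm, hγ0, a3, a4, a5]
    rw [div_eq_iff (pow_ne_zero 2 hA'), Fp_eq, ← q1, ← q2]
    have a6' : S.y i (𝒞.iv x.2) = - S.y i x.2 := by rw [a6]; ring
    rw [a6'] at hx
    have hx2 := congrArg (fun u => u ^ 2) hx
    simp only [mul_pow] at hx2
    linear_combination (-1 : ℂ) * hx2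

/-- the slope is not locally constant -/
theorem freq (i : Fin 2) (c : C) (hc : c ∈ Ci 𝒞 i) (v : ℂ → ℂ) :
    ∀ᶠ z in 𝓝 (0 : ℂ), ∃ᶠ z' in 𝓝 z, tv 𝒞 i ((𝒞.k c).symm z') ≠ v z := by
  set θ : ℂ → ℂ := fun z => tv 𝒞 i ((𝒞.k c).symm z) with hθd
  have hθ : AnalyticAt ℂ θ 0 := tv_an 𝒞 c i hc
  have hnz : ¬ ∀ᶠ z in 𝓝 (0 : ℂ), deriv θ z = 0 := by
    intro h0
    by_cases hiv : 𝒞.iv c = c
    · refine ddtv_ne 𝒞 c i hc hiv h0.self_of_nhds ?_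
      have : deriv θ =ᶠ[𝓝 0] fun _ => 0 := h0
      rw [this.deriv_eq]; simp
    · exact dtv_ne 𝒞 c i hc hiv h0.self_of_nhds
  have hpun : ∀ᶠ z in 𝓝[≠] (0 : ℂ), deriv θ z ≠ 0 :=
    (hθ.deriv.eventually_eq_zero_or_eventually_ne_zero).resolve_left hnz
  rw [eventually_nhdsWithin_iff] at hpun
  filter_upwards [hpun] with z hz hcon
  have hcon' : ∀ᶠ z' in 𝓝 z, θ z' = v z := by
    filter_upwards [hcon] with z' hz' using not_not.1 hz'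
  have hd : ∀ᶠ z' in 𝓝 z, deriv θ z' = 0 := by
    filter_upwards [hcon'.eventually_nhds] with z' hz'
    have : θ =ᶠ[𝓝 z'] fun _ => v z := hz'
    rw [this.deriv_eq]; simp
  rcases eq_or_ne z 0 with rfl | hne
  · exact hnz hd
  · exact hz hne hd.self_of_nhds

theorem near_closure (i : Fin 2) (c : C) (hc : c ∈ Ci 𝒞 i) :
    ∀ᶠ x in 𝓝 ((c, 𝒞.iv c) : C × C), x ∈ closure (As 𝒞 i) := by
  by_contra hcon
  -- choose the values through a function of `z`; argue pointwise instead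
  have hall : ∀ᶠ z in 𝓝 (0 : ℂ), ∀ v : ℂ, ∃ᶠ z' in 𝓝 z, tv 𝒞 i ((𝒞.k c).symm z') ≠ v := by
    have hex : ∀ z : ℂ, ∃ v : ℂ, (∃ v' : ℂ, ¬ ∃ᶠ z' in 𝓝 z, tv 𝒞 i ((𝒞.k c).symm z') ≠ v') →
        ¬ ∃ᶠ z' in 𝓝 z, tv 𝒞 i ((𝒞.k c).symm z') ≠ v := by
      intro z
      by_cases h : ∃ v' : ℂ, ¬ ∃ᶠ z' in 𝓝 z, tv 𝒞 i ((𝒞.k c).symm z') ≠ v'
      · exact ⟨h.choose, fun _ => h.choose_spec⟩
      · exact ⟨0, fun h' => absurd h' h⟩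
    choose v hv using hex
    filter_upwards [freq i c hc v] with z hz v'
    by_contra h
    exact hv z ⟨v', h⟩ hz
  apply hcon
  filter_upwards [(tendsto_pp (𝒞 := 𝒞) c).eventually
    ((continuous_fst.tendsto' ((0, 0) : ℂ × ℂ) 0 rfl).eventually hall), near_src c] with x hx hs
  have h1 := hx (tv 𝒞 i x.2)
  have hz : (𝒞.k c).symm (𝒞.k c x.1) = x.1 := (𝒞.k c).left_inv hs.1
  have ht : Tendsto (fun z' => ((𝒞.k c).symm z', x.2)) (𝓝 (pp 𝒞 c x).1) (𝓝 x) := by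
    have h2 : Tendsto (𝒞.k c).symm (𝓝 (𝒞.k c x.1)) (𝓝 x.1) := by
      have := (𝒞.k c).continuousAt_symm ((𝒞.k c).map_source hs.1)
      rwa [ContinuousAt, hz] at this
    have h3 : Tendsto (fun z' => ((𝒞.k c).symm z', x.2)) (𝓝 (𝒞.k c x.1)) (𝓝 (x.1, x.2)) :=
      h2.prodMk_nhds tendsto_const_nhds
    exact h3
  rw [mem_closure_iff_frequently]
  exact ht.frequently h1

end

end Crest.Agent.R272.K3E_227
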