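import Crest.Agent.R272.K3E4_227

/-!
# R272, K3-EVEN (helper227), part 5: assembly of `Idn_834.K3`
-/

set_option autoImplicit false
set_option linter.unusedSectionVars false

open Set Filter Topology

namespace Crest.Agent.R272.K3E_227

open Crest.Agent.R272.AJ_956 Crest.Agent.R272.Idn_834

noncomputable section

variable {C : Type} [TopologicalSpace C] {𝒞 : Cur C}

theorem tendsto_cc (c : C) : Tendsto (fun x : C × C => (𝒞.k c x.1, 𝒞.k (𝒞.iv c) x.2))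
    (𝓝 (c, 𝒞.iv c)) (𝓝 (0 : ℂ × ℂ)) :=
  ((tendsto_k (𝒞 := 𝒞) c).comp (tendsto_fst' c)).prodMk_nhds
    ((tendsto_k (𝒞 := 𝒞) (𝒞.iv c)).comp (tendsto_snd' c))

/-- the extended functions are analytic near `Γ` -/
theorem gg_loc {l : Fin 7 → ℂ} (S : Sext 𝒞 l) {N : Set (C × C)} {U : C × C → E2}
    (h : 𝒞.NearE N U) (i : Fin 2) (c : C) (hc : c ∈ Ci 𝒞 i) :
    ∃ γ : ℂ × ℂ → ℂ, AnalyticAt ℂ γ 0 ∧ γ 0 = 4 ∧
      (∀ᶠ x in 𝓝 ((c, 𝒞.iv c) : C × C), gg S U i x = γ (𝒞.k c x.1, 𝒞.k (𝒞.iv c) x.2)) ∧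
      (∀ᶠ x in 𝓝 ((c, 𝒞.iv c) : C × C), ContinuousAt (gg S U i) x) ∧
      (∀ᶠ x in 𝓝 ((c, 𝒞.iv c) : C × C), x ∈ As 𝒞 i → gg S U i x = frm S U i x) := by
  obtain ⟨γ, hγ, hγ4, hloc⟩ := loc S h i c hc
  have hcont : ∀ᶠ x in 𝓝 ((c, 𝒞.iv c) : C × C),
      ContinuousAt (fun x : C × C => γ (𝒞.k c x.1, 𝒞.k (𝒞.iv c) x.2)) x := by
    filter_upwards [(tendsto_cc (𝒞 := 𝒞) c).eventually hγ.eventually_analyticAt, near_src c]
      with x hx hs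
    have h1 : ContinuousAt (fun x : C × C => (𝒞.k c x.1, 𝒞.k (𝒞.iv c) x.2)) x :=
      (((𝒞.k c).continuousAt hs.1).comp (f := Prod.fst) continuousAt_fst).prodMk
        (((𝒞.k (𝒞.iv c)).continuousAt hs.2.2).comp (f := Prod.snd) continuousAt_snd)
    exact ContinuousAt.comp (g := γ) (f := fun x : C × C => (𝒞.k c x.1, 𝒞.k (𝒞.iv c) x.2))
      hx.continuousAt h1
  have hval : ∀ᶠ x in 𝓝 ((c, 𝒞.iv c) : C × C),
      gg S U i x = γ (𝒞.k c x.1, 𝒞.k (𝒞.iv c) x.2) := by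
    filter_upwards [hloc.eventually_nhds, hcont, near_closure i c hc] with x h1 h2 h3
    refine extendFrom_eq h3 ?_
    refine Tendsto.congr' ?_ (h2.tendsto.mono_left nhdsWithin_le_nhds)
    filter_upwards [mem_nhdsWithin_of_mem_nhds h1, self_mem_nhdsWithin] with y hy hyA
    exact (hy hyA).symm
  refine ⟨γ, hγ, hγ4, hval, ?_, ?_⟩
  · filter_upwards [hval.eventually_nhds, hcont] with x h1 h2
    exact h2.congr (by filter_upwards [h1] with y hy using hy.symm)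
  · filter_upwards [hval, hloc] with x h1 h2 hA
    rw [h1, h2 hA]

theorem gg_Gam {l : Fin 7 → ℂ} (S : Sext 𝒞 l) {N : Set (C × C)} {U : C × C → E2}
    (h : 𝒞.NearE N U) (i : Fin 2) (c : C) (hc : c ∈ Ci 𝒞 i) : gg S U i (c, 𝒞.iv c) = 4 := by
  obtain ⟨γ, -, hγ4, hval, -, -⟩ := gg_loc S h i c hc
  have := hval.self_of_nhds
  simp only [𝒞.k_zero] at this
  rw [this]; exact hγ4

theorem near_dom {N : Set (C × C)} {U : C × C → E2} (h : 𝒞.NearE N U) (i : Fin 2) (c : C)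
    (hc : c ∈ Ci 𝒞 i) : ∀ᶠ x in 𝓝 ((c, 𝒞.iv c) : C × C), x ∈ 𝒞.Gam ∨ U x i ≠ 0 := by
  have hP := an_comp (G_an0 𝒞 c) i
  have h0 : dd (fun z => 𝒞.G c z i) (0, 0) ≠ 0 := by rw [dd_self, w_eq]; exact hc
  have h1 := (tendsto_pp (𝒞 := 𝒞) c).eventually
    ((dd_analyticAt hP hP).continuousAt.eventually_ne h0)
  filter_upwards [h1, near_src c, h.near c] with x hx hs hU
  by_contra hcon
  rw [not_or, not_not] at hcon
  obtain ⟨hG, hUi⟩ := hcon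
  have h2 := dd_mul (fun z => 𝒞.G c z i) (𝒞.k c x.1) (𝒞.k c (𝒞.iv x.2))
  have h3 : 𝒞.G c (𝒞.k c x.1) i - 𝒞.G c (𝒞.k c (𝒞.iv x.2)) i = 0 := by
    rw [← hUi, hU]; simp [Cur.P]
  simp only [h3] at h2
  have h4 : 𝒞.k c x.1 - 𝒞.k c (𝒞.iv x.2) = 0 := (mul_eq_zero.1 h2).resolve_right hx
  have h5 : x.1 = 𝒞.iv x.2 := (𝒞.k c).injOn hs.1 hs.2.1 (sub_eq_zero.1 h4)
  apply hG
  change x.2 = 𝒞.iv x.1
  rw [h5, 𝒞.iv_iv]

theorem gg_swap {l : Fin 7 → ℂ} (S : Sext 𝒞 l) {N : Set (C × C)} {U : C × C → E2}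
    (h : 𝒞.NearE N U) (i : Fin 2) (x : C × C) (hx : x ∈ N) :
    gg S U i x.swap = gg S U i x := by
  have himg : Prod.swap '' As 𝒞 i = As 𝒞 i := by
    ext y
    constructor
    · rintro ⟨z, hz, rfl⟩
      exact fun hh => hz hh.symm
    · intro hy
      exact ⟨y.swap, fun hh => hy hh.symm, Prod.swap_swap y⟩
  have hmap : 𝓝[As 𝒞 i] x.swap = map Prod.swap (𝓝[As 𝒞 i] x) := by
    have := (Homeomorph.prodComm C C).isEmbedding.map_nhdsWithin_eq (As 𝒞 i) x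
    have h2 : (⇑(Homeomorph.prodComm C C) : C × C → C × C) = Prod.swap := rfl
    rw [h2, himg] at this
    exact this.symm
  have hfr : ∀ᶠ y in 𝓝[As 𝒞 i] x, frm S U i y.swap = frm S U i y := by
    refine mem_nhdsWithin_of_mem_nhds ?_
    filter_upwards [h.open_N.mem_nhds hx] with y hy
    have hU := h.swap y hy
    simp only [frm, hU, Prod.fst_swap, Prod.snd_swap]
    rw [Fp_symm]
    have e1 : (tv 𝒞 i y.2 - tv 𝒞 i y.1) ^ 2 = (tv 𝒞 i y.1 - tv 𝒞 i y.2) ^ 2 := by ring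
    have e2 : 2 * S.y i y.2 * S.y i y.1 = 2 * S.y i y.1 * S.y i y.2 := by ring
    rw [e1, e2]
  have hm : map (frm S U i) (𝓝[As 𝒞 i] x.swap) = map (frm S U i) (𝓝[As 𝒞 i] x) := by
    rw [hmap, Filter.map_map]
    exact Filter.map_congr hfr
  unfold gg extendFrom limUnder
  rw [hm]

/-- the set where everything is fine -/
def Tset {l : Fin 7 → ℂ} (S : Sext 𝒞 l) (N : Set (C × C)) (U : C × C → E2) (i : Fin 2) :
    Set (C × C) :=
  {x | (x.1 ∈ Ci 𝒞 i ∧ x.2 ∈ Ci 𝒞 i) ∧ (x ∈ 𝒞.Gam ∨ U x i ≠ 0) ∧ gg S U i x ≠ 0 ∧ x ∈ N ∧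
    ContinuousAt (gg S U i) x ∧ x ∈ closure (As 𝒞 i) ∧
    (x ∈ As 𝒞 i → gg S U i x = frm S U i x)}

theorem mem_T {l : Fin 7 → ℂ} (S : Sext 𝒞 l) {N : Set (C × C)} {U : C × C → E2}
    (h : 𝒞.NearE N U) (i : Fin 2) (c : C) (hc : c ∈ Ci 𝒞 i) :
    ((c, 𝒞.iv c) : C × C) ∈ interior (Tset S N U i) := by
  rw [mem_interior_iff_mem_nhds]
  obtain ⟨γ, hγ, hγ4, hval, hco, hfr⟩ := gg_loc S h i c hc
  have hN : ∀ᶠ x in 𝓝 ((c, 𝒞.iv c) : C × C), x ∈ N := h.open_N.mem_nhds (h.sub rfl)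
  have hne : ∀ᶠ x in 𝓝 ((c, 𝒞.iv c) : C × C), gg S U i x ≠ 0 :=
    hco.self_of_nhds.eventually_ne (by rw [gg_Gam S h i c hc]; norm_num)
  filter_upwards [hco, hfr, hN, hne, near_closure i c hc, near_dom h i c hc, near_Ci hc]
    with x h1 h2 h3 h4 h5 h6 h7
  exact ⟨h7, h6, h4, h3, h1, h5, h2⟩

theorem tv_cont (i : Fin 2) (c : C) (hc : c ∈ Ci 𝒞 i) : ContinuousAt (tv 𝒞 i) c := by
  have h1 : ContinuousAt (fun z => tv 𝒞 i ((𝒞.k c).symm z)) (𝒞.k c c) := by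
    rw [𝒞.k_zero]; exact (tv_an 𝒞 c i hc).continuousAt
  have h2 := h1.comp ((𝒞.k c).continuousAt (𝒞.k_mem c))
  refine h2.congr ?_
  filter_upwards [(𝒞.k c).open_source.mem_nhds (𝒞.k_mem c)] with y hy
  simp only [Function.comp_apply]
  rw [(𝒞.k c).left_inv hy]

theorem U_cont {N : Set (C × C)} {U : C × C → E2} (h : 𝒞.NearE N U) (x : C × C) (hx : x ∈ N) :
    ContinuousAt U x := by
  have hP : ∀ c : C, ContinuousAt (𝒞.P c) c := by
    intro c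
    have h1 : ContinuousAt (𝒞.G c) (𝒞.k c c) := by
      rw [𝒞.k_zero]; exact (G_an0 𝒞 c).continuousAt
    exact h1.comp ((𝒞.k c).continuousAt (𝒞.k_mem c))
  have h1 : ContinuousAt (fun y : C × C => U x + (𝒞.P x.1 y.1 + 𝒞.P x.2 y.2)) x :=
    continuousAt_const.add (((hP x.1).comp (f := Prod.fst) continuousAt_fst).add
      ((hP x.2).comp (f := Prod.snd) continuousAt_snd))
  refine h1.congr ?_
  filter_upwards [h.lp x hx] with y hy using hy.symm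

theorem tv_ne {c : C} (h0 : c ∈ Ci 𝒞 0) (h1 : c ∈ Ci 𝒞 1) : tv 𝒞 0 c ≠ 0 :=
  div_ne_zero h1 h0

theorem tv_one (c : C) : tv 𝒞 1 c = (tv 𝒞 0 c)⁻¹ := by
  simp [tv]

/-- the relation off `t = t'` -/
theorem rel_A {l : Fin 7 → ℂ} (S : Sext 𝒞 l) (U : C × C → E2) {x : C × C}
    (h10 : x.1 ∈ Ci 𝒞 0) (h11 : x.1 ∈ Ci 𝒞 1) (h20 : x.2 ∈ Ci 𝒞 0) (h21 : x.2 ∈ Ci 𝒞 1)
    (hA : tv 𝒞 0 x.1 ≠ tv 𝒞 0 x.2) :
    frm S U 1 x * (tv 𝒞 0 x.1 * tv 𝒞 0 x.2) * U x 0 ^ 2 = frm S U 0 x * U x 1 ^ 2 := by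
  have ht := tv_ne h10 h11
  have hu := tv_ne h20 h21
  have y1 := S.rel x.1 h10 h11
  have y2 := S.rel x.2 h20 h21
  have hF := Fp_rev l ht hu
  simp only [frm, tv_one] at *
  rw [y1, y2]
  have hlr0 : lr l 0 = l := by simp [lr]
  have hlr1 : lr l 1 = rv l := by simp [lr]
  rw [hlr0, hlr1, hF]
  set t := tv 𝒞 0 x.1
  set u := tv 𝒞 0 x.2
  have htu : t - u ≠ 0 := sub_ne_zero.2 hA
  have hut : u - t ≠ 0 := sub_ne_zero.2 (Ne.symm hA)
  have hinv : t⁻¹ - u⁻¹ = (u - t) / (t * u) := by field_simp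
  rw [hinv]
  field_simp
  ring

theorem rel_main {l : Fin 7 → ℂ} (S : Sext 𝒞 l) {N : Set (C × C)} {U : C × C → E2}
    (h : 𝒞.NearE N U) (x : C × C) (h0 : x ∈ interior (Tset S N U 0))
    (h1 : x ∈ interior (Tset S N U 1)) :
    gg S U 1 x * (tv 𝒞 0 x.1 * tv 𝒞 0 x.2) = gg S U 0 x * 𝒞.TT U 0 x ^ 2 := by
  have m0 := interior_subset h0
  have m1 := interior_subset h1
  by_cases hG : x ∈ 𝒞.Gam
  · have hx2 : x.2 = 𝒞.iv x.1 := hG
    have hx : x = (x.1, 𝒞.iv x.1) := by rw [← hx2]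
    have hTT : 𝒞.TT U 0 x = tv 𝒞 0 x.1 := by
      unfold Cur.TT; rw [if_pos hG]; rfl
    have g1 : gg S U 1 x = 4 := by rw [hx]; exact gg_Gam S h 1 x.1 m1.1.1
    have g0 : gg S U 0 x = 4 := by rw [hx]; exact gg_Gam S h 0 x.1 m0.1.1
    rw [g1, g0, hTT, hx2, tv_iv]; ring
  · have hU0 : U x 0 ≠ 0 := m0.2.1.resolve_left hG
    have hTT : 𝒞.TT U 0 x = U x 1 / U x 0 := by
      unfold Cur.TT; rw [if_neg hG]; simp
    suffices hs : gg S U 1 x * (tv 𝒞 0 x.1 * tv 𝒞 0 x.2) * U x 0 ^ 2 =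
        gg S U 0 x * U x 1 ^ 2 by
      rw [hTT, div_pow, ← mul_div_assoc, eq_div_iff (pow_ne_zero 2 hU0)]; exact hs
    -- both sides are continuous and agree on `As`
    have cU : ContinuousAt U x := U_cont h x m0.2.2.2.1
    have cUi : ∀ j : Fin 2, ContinuousAt (fun y => U y j) x := fun j =>
      (continuous_apply j).continuousAt.comp cU
    have ct1 : ContinuousAt (fun y : C × C => tv 𝒞 0 y.1) x :=
      (tv_cont 0 x.1 m0.1.1).comp (f := Prod.fst) continuousAt_fst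
    have ct2 : ContinuousAt (fun y : C × C => tv 𝒞 0 y.2) x :=
      (tv_cont 0 x.2 m0.1.2).comp (f := Prod.snd) continuousAt_snd
    have cL : ContinuousAt (fun y : C × C => gg S U 1 y * (tv 𝒞 0 y.1 * tv 𝒞 0 y.2) * U y 0 ^ 2) x :=
      (m1.2.2.2.2.1.mul (ct1.mul ct2)).mul ((cUi 0).pow 2)
    have cR : ContinuousAt (fun y : C × C => gg S U 0 y * U y 1 ^ 2) x :=
      m0.2.2.2.2.1.mul ((cUi 1).pow 2)
    have hcl : x ∈ closure (As 𝒞 0) := m0.2.2.2.2.2.1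
    have : NeBot (𝓝[As 𝒞 0] x) := mem_closure_iff_nhdsWithin_neBot.1 hcl
    have hag : ∀ᶠ y in 𝓝[As 𝒞 0] x, gg S U 1 y * (tv 𝒞 0 y.1 * tv 𝒞 0 y.2) * U y 0 ^ 2 =
        gg S U 0 y * U y 1 ^ 2 := by
      filter_upwards [mem_nhdsWithin_of_mem_nhds (isOpen_interior.mem_nhds h0),
        mem_nhdsWithin_of_mem_nhds (isOpen_interior.mem_nhds h1), self_mem_nhdsWithin]
        with y hy0 hy1 hyA
      have n0 := interior_subset hy0
      have n1 := interior_subset hy1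
      have hyA' : tv 𝒞 0 y.1 ≠ tv 𝒞 0 y.2 := hyA
      have hyA1 : y ∈ As 𝒞 1 := by
        intro hh
        rw [tv_one, tv_one] at hh
        exact hyA' (inv_injective hh)
      rw [n0.2.2.2.2.2.2 hyA, n1.2.2.2.2.2.2 hyA1]
      exact rel_A S U n0.1.1 n1.1.1 n0.1.2 n1.1.2 hyA'
    have l1 := cL.tendsto.mono_left (nhdsWithin_le_nhds (s := As 𝒞 0))
    have l2 := cR.tendsto.mono_left (nhdsWithin_le_nhds (s := As 𝒞 0))
    exact tendsto_nhds_unique (l1.congr' hag) l2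

/-- **K3** for the even curve -/
def k3 {l : Fin 7 → ℂ} (S : Sext 𝒞 l) {N : Set (C × C)} {U : C × C → E2}
    (h : 𝒞.NearE N U) : K3 𝒞 U where
  g := gg S U
  N := fun i => interior (Tset S N U i) ∩ Prod.swap ⁻¹' interior (Tset S N U i)
  open_N := fun i => isOpen_interior.inter (isOpen_interior.preimage continuous_swap)
  sub := by
    intro i c hc
    refine ⟨mem_T S h i c hc, ?_⟩
    have := mem_T S h i (𝒞.iv c) ((Ci_iv 𝒞).2 hc)
    rw [𝒞.iv_iv] at this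
    exact this
  dom := by
    intro i x hx
    have := interior_subset hx.1
    exact ⟨this.1.1, this.1.2, this.2.1⟩
  an := by
    intro i c hc
    obtain ⟨γ, hγ, -, hval, -, -⟩ := gg_loc S h i c hc
    exact ⟨γ, hγ, hval⟩
  ne := fun i x hx => (interior_subset hx.1).2.2.1
  swap_mem := by
    intro i x hx
    refine ⟨hx.2, ?_⟩
    change x.swap.swap ∈ interior (Tset S N U i)
    rw [Prod.swap_swap]; exact hx.1
  symm := fun i x hx => gg_swap S h i x (interior_subset hx.1).2.2.2.1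
  rel := fun x hx0 hx1 => rel_main S h x hx0.1 hx1.1

/-- `g i = 4` on `Γ` -/
theorem k3_Gam {l : Fin 7 → ℂ} (S : Sext 𝒞 l) {N : Set (C × C)} {U : C × C → E2}
    (h : 𝒞.NearE N U) (i : Fin 2) (c : C) (hc : c ∈ Ci 𝒞 i) : (k3 S h).g i (c, 𝒞.iv c) = 4 :=
  gg_Gam S h i c hc

end

end Crest.Agent.R272.K3E_227
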