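/-
R272 / K3 : the Kummer function `G = (F(t,t') - 2 y y') / (t - t')^2` on the square of the
hyperelliptic curve `y^2 = f(t)` (polarisation `F` of `f`), regular off `Gam = {(c, iota c)}`,
and the trivialisation `g0 = U_1^2 G` near `Gam` (value 4 on `Gam`).  Mathlib only.
helper977
-/
import Mathlib
import Crest.Agent.R266.Osgood

set_option autoImplicit false

open Filter Topology

namespace Crest.Agent.R272.K3_977

/-- Polarisation data of the right hand side `f` of a hyperelliptic equation `y^2 = f t`: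
`F t t' = f t + f t' - (t - t')^2 Q t t'`, `(t - t') E t t' = f t - f t'`. -/
structure Pol where
  f : ℂ → ℂ
  E : ℂ → ℂ → ℂ
  Q : ℂ → ℂ → ℂ
  hE : ∀ t t', (t - t') * E t t' = f t - f t'
  Esymm : ∀ t t', E t t' = E t' t
  Qsymm : ∀ t t', Q t t' = Q t' t
  af : ∀ t, AnalyticAt ℂ f t
  aE : ∀ p : ℂ × ℂ, AnalyticAt ℂ (fun p : ℂ × ℂ => E p.1 p.2) p
  aQ : ∀ p : ℂ × ℂ, AnalyticAt ℂ (fun p : ℂ × ℂ => Q p.1 p.2) p

namespace Pol

variable (P : Pol)

/-- the polarisation of `f` -/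
def F (t t' : ℂ) : ℂ := P.f t + P.f t' - (t - t') ^ 2 * P.Q t t'

/-- the first expression of the Kummer function -/
noncomputable def G1 (t y t' y' : ℂ) : ℂ := (P.F t t' - 2 * y * y') / (t - t') ^ 2

/-- the second expression of the Kummer function -/
noncomputable def G2 (t y t' y' : ℂ) : ℂ := (P.E t t' ^ 2 - (y + y') ^ 2 * P.Q t t') / (y + y') ^ 2

open Classical in
/-- the Kummer function -/
noncomputable def G (t y t' y' : ℂ) : ℂ := if t = t' then P.G2 t y t' y' else P.G1 t y t' y'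

theorem F_symm (t t' : ℂ) : P.F t t' = P.F t' t := by
  unfold F
  rw [P.Qsymm t t']
  ring

theorem F_diag (t : ℂ) : P.F t t = 2 * P.f t := by
  unfold F
  ring

theorem F_sub {t y t' y' : ℂ} (h : y ^ 2 = P.f t) (h' : y' ^ 2 = P.f t') :
    P.F t t' - 2 * y * y' = (y - y') ^ 2 - (t - t') ^ 2 * P.Q t t' := by
  unfold F
  rw [← h, ← h']
  ring

theorem E_mul {t y t' y' : ℂ} (h : y ^ 2 = P.f t) (h' : y' ^ 2 = P.f t') :
    (t - t') * P.E t t' = (y - y') * (y + y') := by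
  rw [P.hE, ← h, ← h']
  ring

theorem G_of_ne {t y t' y' : ℂ} (h : t ≠ t') : P.G t y t' y' = P.G1 t y t' y' := by
  unfold G
  rw [if_neg h]

theorem G1_eq_G2 {t y t' y' : ℂ} (h : y ^ 2 = P.f t) (h' : y' ^ 2 = P.f t')
    (ht : t ≠ t') (hy : y + y' ≠ 0) : P.G1 t y t' y' = P.G2 t y t' y' := by
  unfold G1 G2
  have ht' : t - t' ≠ 0 := sub_ne_zero.mpr ht
  rw [div_eq_div_iff (pow_ne_zero 2 ht') (pow_ne_zero 2 hy), P.F_sub h h']
  have h1 := P.E_mul h h'
  have h2 : ((t - t') * P.E t t') ^ 2 = ((y - y') * (y + y')) ^ 2 := by rw [h1]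
  linear_combination -h2

theorem G_of_add_ne {t y t' y' : ℂ} (h : y ^ 2 = P.f t) (h' : y' ^ 2 = P.f t')
    (hy : y + y' ≠ 0) : P.G t y t' y' = P.G2 t y t' y' := by
  by_cases ht : t = t'
  · unfold G
    rw [if_pos ht]
  · rw [P.G_of_ne ht, P.G1_eq_G2 h h' ht hy]

theorem G_symm (t y t' y' : ℂ) : P.G t y t' y' = P.G t' y' t y := by
  by_cases ht : t = t'
  · subst ht
    unfold G
    rw [if_pos rfl, if_pos rfl]
    unfold G2
    rw [add_comm y' y]
  · rw [P.G_of_ne ht, P.G_of_ne (Ne.symm ht)]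
    unfold G1
    rw [P.F_symm t t']
    congr 1 <;> ring

theorem G_neg (t y t' y' : ℂ) : P.G t (-y) t' (-y') = P.G t y t' y' := by
  by_cases ht : t = t'
  · subst ht
    unfold G
    rw [if_pos rfl, if_pos rfl]
    unfold G2
    have : (-y + -y') ^ 2 = (y + y') ^ 2 := by ring
    rw [this]
  · rw [P.G_of_ne ht, P.G_of_ne ht]
    unfold G1
    congr 1
    ring

/-- the characteristic equation: `(t-t')^2 G = F - 2 y y'` holds off `t = t', y = -y'` -/
theorem G_mul {t y t' y' : ℂ} (h : y ^ 2 = P.f t) (h' : y' ^ 2 = P.f t')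
    (hn : ¬ (t = t' ∧ y = -y')) : (t - t') ^ 2 * P.G t y t' y' = P.F t t' - 2 * y * y' := by
  by_cases ht : t = t'
  · subst ht
    have hyy : y' = y := by
      have h2 : (y' - y) * (y' + y) = 0 := by
        have : y' ^ 2 - y ^ 2 = 0 := by rw [h, h']; ring
        linear_combination this
      rcases mul_eq_zero.mp h2 with h3 | h3
      · exact sub_eq_zero.mp h3
      · exfalso
        apply hn
        refine ⟨rfl, ?_⟩
        linear_combination h3
    rw [hyy, P.F_diag, ← h]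
    ring
  · rw [P.G_of_ne ht]
    unfold G1
    have ht' : t - t' ≠ 0 := sub_ne_zero.mpr ht
    field_simp

/-- `(y+y')^2 G = E^2 - (y+y')^2 Q` -/
theorem G_mul2 {t y t' y' : ℂ} (h : y ^ 2 = P.f t) (h' : y' ^ 2 = P.f t')
    (hn : ¬ (t = t' ∧ y = -y')) :
    (y + y') ^ 2 * P.G t y t' y' = P.E t t' ^ 2 - (y + y') ^ 2 * P.Q t t' := by
  by_cases hy : y + y' = 0
  · have ht : t ≠ t' := by
      intro ht
      exact hn ⟨ht, by linear_combination hy⟩
    have h1 := P.E_mul h h'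
    rw [hy, mul_zero] at h1
    have h2 : P.E t t' = 0 := by
      rcases mul_eq_zero.mp h1 with h3 | h3
      · exact absurd (sub_eq_zero.mp h3) ht
      · exact h3
    rw [hy, h2]
    ring
  · rw [P.G_of_add_ne h h' hy]
    unfold G2
    field_simp

/-! ### the trivialisation near `Gam` -/

open Classical in
/-- `U^2 G`, completed by the value `κ` on `Gam`. -/
noncomputable def g (κ U t y t' y' : ℂ) : ℂ :=
  if t = t' ∧ y = -y' then κ else U ^ 2 * P.G t y t' y'

theorem g_of_gam {κ U t y t' y' : ℂ} (h : t = t' ∧ y = -y') : P.g κ U t y t' y' = κ := by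
  unfold g
  rw [if_pos h]

theorem g_of_not {κ U t y t' y' : ℂ} (h : ¬ (t = t' ∧ y = -y')) :
    P.g κ U t y t' y' = U ^ 2 * P.G t y t' y' := by
  unfold g
  rw [if_neg h]

theorem g_symm (κ U t y t' y' : ℂ) : P.g κ U t y t' y' = P.g κ U t' y' t y := by
  by_cases h : t = t' ∧ y = -y'
  · rw [P.g_of_gam h, P.g_of_gam ⟨h.1.symm, by rw [h.2]; ring⟩]
  · have h' : ¬ (t' = t ∧ y' = -y) := by
      rintro ⟨h1, h2⟩
      exact h ⟨h1.symm, by rw [h2]; ring⟩
    rw [P.g_of_not h, P.g_of_not h', P.G_symm]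

theorem aF (p : ℂ × ℂ) : AnalyticAt ℂ (fun p : ℂ × ℂ => P.F p.1 p.2) p := by
  unfold F
  have h1 : AnalyticAt ℂ (fun p : ℂ × ℂ => P.f p.1) p :=
    AnalyticAt.fun_comp (g := P.f) (P.af p.1) analyticAt_fst
  have h2 : AnalyticAt ℂ (fun p : ℂ × ℂ => P.f p.2) p :=
    AnalyticAt.fun_comp (g := P.f) (P.af p.2) analyticAt_snd
  exact (h1.add h2).sub (((analyticAt_fst.sub analyticAt_snd).pow 2).mul (P.aQ p))

theorem hasDerivAt_f (t : ℂ) : HasDerivAt P.f (P.E t t) t := by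
  rw [hasDerivAt_iff_tendsto_slope]
  have h1 : Tendsto (fun s : ℂ => P.E s t) (𝓝[≠] t) (𝓝 (P.E t t)) := by
    have h2 : ContinuousAt (fun s : ℂ => P.E s t) t := by
      have h3 : ContinuousAt (fun p : ℂ × ℂ => P.E p.1 p.2) (t, t) := (P.aE (t, t)).continuousAt
      exact ContinuousAt.comp (g := fun p : ℂ × ℂ => P.E p.1 p.2) (f := fun s : ℂ => (s, t)) h3
        (by fun_prop)
    exact h2.tendsto.mono_left nhdsWithin_le_nhds
  refine h1.congr' ?_
  filter_upwards [self_mem_nhdsWithin] with s hs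
  have hs' : s - t ≠ 0 := sub_ne_zero.mpr hs
  rw [slope_def_field, ← P.hE s t]
  field_simp

end Pol

/-! ### divided differences -/

/-- the divided difference of a holomorphic function is jointly analytic -/
theorem analyticOnNhd_dslope {h : ℂ → ℂ} {U : Set ℂ} (hU : IsOpen U)
    (hh : DifferentiableOn ℂ h U) :
    AnalyticOnNhd ℂ (fun z : ℂ × ℂ => dslope h z.2 z.1) (U ×ˢ U) := by
  have hd : ∀ a ∈ U, DifferentiableOn ℂ (dslope h a) U := by
    intro a ha
    rw [Complex.differentiableOn_dslope (hU.mem_nhds ha)]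
    exact hh
  have hsymm : ∀ a b, dslope h a b = dslope h b a := by
    intro a b
    by_cases hab : a = b
    · rw [hab]
    · rw [dslope_of_ne _ (Ne.symm hab), dslope_of_ne _ hab, slope_comm]
  refine Crest.Agent.R266.SCV.analyticOnNhd_of_separately (hU.prod hU) ?_ ?_ ?_
  · rintro ⟨a, b⟩ ⟨ha, hb⟩
    refine ContinuousAt.continuousWithinAt ?_
    simp only at ha hb
    by_cases hab : a = b
    · subst hab
      have hs : HasStrictDerivAt h (deriv h a) a :=
        ((hh.analyticAt (hU.mem_nhds ha)).hasStrictDerivAt)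
      have h1 : dslope h (a, a).2 (a, a).1 = deriv h a := by
        simp [dslope_same]
      -- `deriv h` is continuous at `a`
      have hdc : ContinuousAt (deriv h) a :=
        ((hh.analyticAt (hU.mem_nhds ha)).deriv).continuousAt
      rw [ContinuousAt, h1, Metric.tendsto_nhds]
      intro ε hε
      have h2 := hs.isLittleO.def (half_pos hε)
      have h3 : ∀ᶠ z : ℂ × ℂ in 𝓝 (a, a), dist (deriv h z.1) (deriv h a) < ε := by
        have : ContinuousAt (fun z : ℂ × ℂ => deriv h z.1) (a, a) :=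
          ContinuousAt.comp (g := deriv h) (f := Prod.fst) hdc continuousAt_fst
        exact (Metric.tendsto_nhds.mp this) ε hε
      filter_upwards [h2, h3] with z hz hz3
      by_cases hzz : z.1 = z.2
      · rw [← hzz, dslope_same]
        exact hz3
      · rw [dslope_of_ne _ hzz, slope_def_field, dist_eq_norm]
        have hz' : z.1 - z.2 ≠ 0 := sub_ne_zero.mpr hzz
        have h3 : (h z.1 - h z.2) / (z.1 - z.2) - deriv h a
            = (h z.1 - h z.2 - (z.1 - z.2) • deriv h a) / (z.1 - z.2) := by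
          rw [smul_eq_mul]
          field_simp
        rw [h3, norm_div]
        have hpos : 0 < ‖z.1 - z.2‖ := norm_pos_iff.mpr hz'
        rw [div_lt_iff₀ hpos]
        have h4 : ‖h z.1 - h z.2 - (z.1 - z.2) • deriv h a‖ ≤ ε / 2 * ‖z.1 - z.2‖ := by
          simpa using hz
        have h5 : ε / 2 * ‖z.1 - z.2‖ < ε * ‖z.1 - z.2‖ := by
          apply mul_lt_mul_of_pos_right _ hpos
          linarith
        exact lt_of_le_of_lt h4 h5
    · have hne : ∀ᶠ z : ℂ × ℂ in 𝓝 (a, b), z.1 ≠ z.2 := by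
        have h0 : ContinuousAt (fun z : ℂ × ℂ => z.1 - z.2) (a, b) := by fun_prop
        have h1 : ∀ᶠ z : ℂ × ℂ in 𝓝 (a, b), z.1 - z.2 ≠ 0 :=
          h0.eventually_ne (sub_ne_zero.mpr hab)
        filter_upwards [h1] with z hz hz2
        exact hz (sub_eq_zero.mpr hz2)
      have hca : ContinuousAt h a := (hh.analyticAt (hU.mem_nhds ha)).continuousAt
      have hcb : ContinuousAt h b := (hh.analyticAt (hU.mem_nhds hb)).continuousAt
      have h1 : ContinuousAt (fun z : ℂ × ℂ => (h z.1 - h z.2) / (z.1 - z.2)) (a, b) := by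
        refine ContinuousAt.div ?_ (by fun_prop) (sub_ne_zero.mpr hab)
        exact (ContinuousAt.comp (g := h) (f := Prod.fst) hca continuousAt_fst).sub
          (ContinuousAt.comp (g := h) (f := Prod.snd) hcb continuousAt_snd)
      refine h1.congr ?_
      filter_upwards [hne] with z hz
      rw [dslope_of_ne _ hz, slope_def_field]
  · rintro ⟨a, b⟩ ⟨ha, hb⟩
    exact (hd b hb).differentiableAt (hU.mem_nhds ha)
  · rintro ⟨a, b⟩ ⟨ha, hb⟩
    simp only
    have : (fun y => dslope h y a) = dslope h a := by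
      ext y
      exact hsymm y a
    rw [this]
    exact (hd a ha).differentiableAt (hU.mem_nhds hb)

/-- local form -/
theorem analyticAt_dslope {h : ℂ → ℂ} {a : ℂ} (hh : AnalyticAt ℂ h a) :
    AnalyticAt ℂ (fun z : ℂ × ℂ => dslope h z.2 z.1) (a, a) := by
  obtain ⟨r, hr, hr2⟩ := hh.exists_ball_analyticOnNhd
  exact analyticOnNhd_dslope Metric.isOpen_ball hr2.differentiableOn (a, a)
    ⟨Metric.mem_ball_self hr, Metric.mem_ball_self hr⟩

theorem sub_eq_dslope (h : ℂ → ℂ) (a b : ℂ) : h a - h b = (a - b) * dslope h b a := by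
  by_cases hab : a = b
  · rw [hab]; ring
  · rw [dslope_of_ne _ hab, slope_def_field]
    have : a - b ≠ 0 := sub_ne_zero.mpr hab
    field_simp

/-! ### sextics -/

/-- complete homogeneous polynomials in two variables -/
def h2 (x z : ℂ) : ℂ := x + z
def h3 (x z : ℂ) : ℂ := x ^ 2 + x * z + z ^ 2
def h4 (x z : ℂ) : ℂ := x ^ 3 + x ^ 2 * z + x * z ^ 2 + z ^ 3
def h5 (x z : ℂ) : ℂ := x ^ 4 + x ^ 3 * z + x ^ 2 * z ^ 2 + x * z ^ 3 + z ^ 4
def h6 (x z : ℂ) : ℂ := x ^ 5 + x ^ 4 * z + x ^ 3 * z ^ 2 + x ^ 2 * z ^ 3 + x * z ^ 4 + z ^ 5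

/-- the sextic `∑ a_k t^k` -/
noncomputable def sex (a : Fin 7 → ℂ) : Pol where
  f := fun t => a 0 + a 1 * t + a 2 * t ^ 2 + a 3 * t ^ 3 + a 4 * t ^ 4 + a 5 * t ^ 5 + a 6 * t ^ 6
  E := fun x z => a 1 + a 2 * (x + z) + a 3 * (x ^ 2 + x * z + z ^ 2)
    + a 4 * (x ^ 3 + x ^ 2 * z + x * z ^ 2 + z ^ 3)
    + a 5 * (x ^ 4 + x ^ 3 * z + x ^ 2 * z ^ 2 + x * z ^ 3 + z ^ 4)
    + a 6 * (x ^ 5 + x ^ 4 * z + x ^ 3 * z ^ 2 + x ^ 2 * z ^ 3 + x * z ^ 4 + z ^ 5)
  Q := fun x z => a 2 + a 3 * (x + z) + a 4 * (x + z) ^ 2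
    + a 5 * ((x + z) * (x ^ 2 + x * z + z ^ 2)) + a 6 * (x ^ 2 + x * z + z ^ 2) ^ 2
  hE := by intro t t'; ring
  Esymm := by intro t t'; ring
  Qsymm := by intro t t'; ring
  af := by intro t; fun_prop
  aE := by
    intro t
    have key : ∀ u v : ℂ × ℂ → ℂ, AnalyticAt ℂ u t → AnalyticAt ℂ v t →
        AnalyticAt ℂ (fun p => a 1 + a 2 * (u p + v p)
          + a 3 * (u p ^ 2 + u p * v p + v p ^ 2)
          + a 4 * (u p ^ 3 + u p ^ 2 * v p + u p * v p ^ 2 + v p ^ 3)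
          + a 5 * (u p ^ 4 + u p ^ 3 * v p + u p ^ 2 * v p ^ 2 + u p * v p ^ 3 + v p ^ 4)
          + a 6 * (u p ^ 5 + u p ^ 4 * v p + u p ^ 3 * v p ^ 2 + u p ^ 2 * v p ^ 3
            + u p * v p ^ 4 + v p ^ 5)) t := by
      intro u v hu hv
      fun_prop
    exact key _ _ analyticAt_fst analyticAt_snd
  aQ := by
    intro t
    have key : ∀ u v : ℂ × ℂ → ℂ, AnalyticAt ℂ u t → AnalyticAt ℂ v t →
        AnalyticAt ℂ (fun p => a 2 + a 3 * (u p + v p) + a 4 * (u p + v p) ^ 2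
          + a 5 * ((u p + v p) * (u p ^ 2 + u p * v p + v p ^ 2))
          + a 6 * (u p ^ 2 + u p * v p + v p ^ 2) ^ 2) t := by
      intro u v hu hv
      fun_prop
    exact key _ _ analyticAt_fst analyticAt_snd

/-- the reversed coefficients -/
def rev (a : Fin 7 → ℂ) : Fin 7 → ℂ := ![a 6, a 5, a 4, a 3, a 2, a 1, a 0]

theorem sex_F (a : Fin 7 → ℂ) (x z : ℂ) : (sex a).F x z = 2 * a 0 + a 1 * (x + z)
    + (x * z) * (2 * a 2 + a 3 * (x + z)) + (x * z) ^ 2 * (2 * a 4 + a 5 * (x + z))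
    + (x * z) ^ 3 * (2 * a 6) := by
  simp only [Pol.F, sex]
  ring

/-- the two pieces of the curve -/
theorem curve_inf {a : Fin 7 → ℂ} {t y : ℂ} (ht : t ≠ 0) (h : y ^ 2 = (sex a).f t) :
    (y / t ^ 3) ^ 2 = (sex (rev a)).f (1 / t) := by
  rw [div_pow, h]
  simp only [sex, rev, Matrix.cons_val]
  field_simp
  ring

theorem gam_inf {t y t' y' : ℂ} (ht : t ≠ 0) (ht' : t' ≠ 0) :
    (1 / t = 1 / t' ∧ y / t ^ 3 = -(y' / t' ^ 3)) ↔ (t = t' ∧ y = -y') := by
  constructor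
  · rintro ⟨h1, h2⟩
    have h3 : t = t' := by
      rw [one_div, one_div] at h1
      exact inv_injective h1
    subst h3
    refine ⟨rfl, ?_⟩
    have h4 : t ^ 3 ≠ 0 := pow_ne_zero 3 ht
    field_simp at h2
    exact h2
  · rintro ⟨h1, h2⟩
    subst h1
    refine ⟨rfl, ?_⟩
    rw [h2, neg_div]

/-- `G = t t' G~` on the overlap. -/
theorem G_inf {a : Fin 7 → ℂ} {t y t' y' : ℂ} (ht : t ≠ 0) (ht' : t' ≠ 0)
    (h : y ^ 2 = (sex a).f t)
    (h' : y' ^ 2 = (sex a).f t') (hn : ¬ (t = t' ∧ y = -y')) :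
    (sex a).G t y t' y'
      = t * t' * (sex (rev a)).G (1 / t) (y / t ^ 3) (1 / t') (y' / t' ^ 3) := by
  by_cases htt : t = t'
  · subst htt
    have hyy : y + y' ≠ 0 := by
      intro hyy
      exact hn ⟨rfl, by linear_combination hyy⟩
    have hy1 : y' = y := by
      have h2 : (y' - y) * (y + y') = 0 := by
        have : y' ^ 2 - y ^ 2 = 0 := by rw [h, h']; ring
        linear_combination this
      rcases mul_eq_zero.mp h2 with h3 | h3
      · exact sub_eq_zero.mp h3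
      · exact absurd h3 hyy
    subst hy1
    have hy0 : y' ≠ 0 := by
      intro h0; apply hyy; rw [h0]; ring
    have hv : y' / t ^ 3 + y' / t ^ 3 ≠ 0 := by
      have : y' / t ^ 3 ≠ 0 := div_ne_zero hy0 (pow_ne_zero 3 ht)
      intro h3
      apply this
      have h4 : (2 : ℂ) * (y' / t ^ 3) = 0 := by linear_combination h3
      simpa using h4
    rw [(sex a).G_of_add_ne h h' hyy,
      (sex (rev a)).G_of_add_ne (curve_inf ht h) (curve_inf ht h') hv]
    unfold Pol.G2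
    have hy2 : (y' + y') ^ 2 = 4 * (sex a).f t := by
      rw [← h]; ring
    have hv2 : (y' / t ^ 3 + y' / t ^ 3) ^ 2 = 4 * (sex a).f t / t ^ 6 := by
      rw [← h]
      field_simp
      ring
    rw [hy2, hv2]
    have hf : (sex a).f t ≠ 0 := by
      rw [← h]
      exact pow_ne_zero 2 hy0
    have e1 : ((sex a).E t t) ^ 2 - 4 * (sex a).f t * (sex a).Q t t
        = t ^ 8 * (((sex (rev a)).E (1 / t) (1 / t)) ^ 2
          - 4 * (sex a).f t / t ^ 6 * (sex (rev a)).Q (1 / t) (1 / t)) := by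
      simp only [sex, rev, Matrix.cons_val]
      field_simp
      ring
    rw [e1]
    field_simp
  · have hss : 1 / t ≠ 1 / t' := by
      intro hss
      rw [one_div, one_div] at hss
      exact htt (inv_injective hss)
    rw [(sex a).G_of_ne htt, (sex (rev a)).G_of_ne hss]
    unfold Pol.G1
    rw [sex_F, sex_F]
    have h1 : t - t' ≠ 0 := sub_ne_zero.mpr htt
    have h2 : t' - t ≠ 0 := sub_ne_zero.mpr (Ne.symm htt)
    have h3 : 1 / t - 1 / t' = (t' - t) / (t * t') := by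
      field_simp
    rw [h3]
    simp only [rev, Matrix.cons_val]
    field_simp
    ring

/-- coefficients of `∏ (t - c_j)` -/
def coef (c : Fin 6 → ℂ) : Fin 7 → ℂ :=
  let b0 := -(c 0 * c 1 * c 2); let b1 := c 0 * c 1 + c 0 * c 2 + c 1 * c 2
  let b2 := -(c 0 + c 1 + c 2)
  let d0 := -(c 3 * c 4 * c 5); let d1 := c 3 * c 4 + c 3 * c 5 + c 4 * c 5
  let d2 := -(c 3 + c 4 + c 5)
  ![b0 * d0, b0 * d1 + b1 * d0, b0 * d2 + b1 * d1 + b2 * d0, b0 + b1 * d2 + b2 * d1 + d0,
    b1 + b2 * d2 + d1, b2 + d2, 1]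

theorem sex_coef_f (c : Fin 6 → ℂ) (t : ℂ) : (sex (coef c)).f t
    = ((t - c 0) * (t - c 1) * (t - c 2)) * ((t - c 3) * (t - c 4) * (t - c 5)) := by
  simp only [sex, coef, Matrix.cons_val]
  ring

theorem sex_rev_coef_f (c : Fin 6 → ℂ) (s : ℂ) : (sex (rev (coef c))).f s
    = ((1 - c 0 * s) * (1 - c 1 * s) * (1 - c 2 * s))
      * ((1 - c 3 * s) * (1 - c 4 * s) * (1 - c 5 * s)) := by
  simp only [sex, rev, coef, Matrix.cons_val]
  ring

end Crest.Agent.R272.K3_977
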