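/-
R272 / K3 (834 #6292 (U1)), second half: the trivialisation `g = U_i^2 G` near `Gam` for a
curve of 956's structure `Cur` with an affine piece `y^2 = f(t)`: holomorphic in the charts,
symmetric, value `4 ε^2` on `Gam`, and the comparison of the two affine pieces.
helper977
-/
import Crest.Agent.R272.AJDefs_956
import Crest.Agent.R272.K3_977

set_option autoImplicit false

open Filter Topology Set

noncomputable section

namespace Crest.Agent.R272.K3b_977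

open Crest.Agent.R272.AJ_956 Crest.Agent.R272.K3_977

variable {C : Type} [TopologicalSpace C]

/-- an affine piece `O` of the curve, `y^2 = f(t)`, on which `ω_i = ε dt / y`. -/
structure Aff (𝒞 : Cur C) (P : Pol) (i : Fin 2) (ε : ℂ) (O : Set C) where
  t : C → ℂ
  y : C → ℂ
  isOpen : IsOpen O
  iv_mem : ∀ c ∈ O, 𝒞.iv c ∈ O
  curve : ∀ c ∈ O, y c ^ 2 = P.f (t c)
  t_iv : ∀ c ∈ O, t (𝒞.iv c) = t c
  y_iv : ∀ c ∈ O, y (𝒞.iv c) = - y c
  inj : ∀ c ∈ O, ∀ c' ∈ O, t c = t c' → y c = y c' → c = c'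
  t_an : ∀ c ∈ O, AnalyticAt ℂ (fun z => t ((𝒞.k c).symm z)) 0
  y_an : ∀ c ∈ O, AnalyticAt ℂ (fun z => y ((𝒞.k c).symm z)) 0
  ram : ∀ c ∈ O, y c = 0 → P.E (t c) (t c) ≠ 0
  w_ne : ∀ c ∈ O, 𝒞.w c i ≠ 0
  prim : ∀ c ∈ O, ∀ᶠ z in 𝓝 (0 : ℂ), y ((𝒞.k c).symm z) * deriv (fun z => 𝒞.G c z i) z
    = ε * deriv (fun z => t ((𝒞.k c).symm z)) z
  eps : ε ≠ 0

/-- holomorphic near `x` in the charts of `C × C` -/
def HolAt2 (𝒞 : Cur C) (f : C × C → ℂ) (x : C × C) : Prop :=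
  ∃ F : ℂ × ℂ → ℂ, AnalyticAt ℂ F 0 ∧ ∀ᶠ y in 𝓝 x, f y = F (𝒞.k x.1 y.1, 𝒞.k x.2 y.2)

variable {𝒞 : Cur C}

section chart

variable (𝒞)

theorem symm_zero (c : C) : (𝒞.k c).symm 0 = c := by
  rw [← 𝒞.k_zero c, (𝒞.k c).left_inv (𝒞.k_mem c)]

theorem zero_mem (c : C) : (0 : ℂ) ∈ (𝒞.k c).target := by
  rw [← 𝒞.k_zero c]
  exact (𝒞.k c).map_source (𝒞.k_mem c)

theorem target_nhds (c : C) : (𝒞.k c).target ∈ 𝓝 (0 : ℂ) :=
  (𝒞.k c).open_target.mem_nhds (zero_mem 𝒞 c)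

theorem source_nhds (c : C) : (𝒞.k c).source ∈ 𝓝 c :=
  (𝒞.k c).open_source.mem_nhds (𝒞.k_mem c)

theorem continuousAt_symm (c : C) : ContinuousAt (𝒞.k c).symm 0 :=
  (𝒞.k c).continuousAt_symm (zero_mem 𝒞 c)

theorem continuousAt_k (c : C) : ContinuousAt (𝒞.k c) c :=
  (𝒞.k c).continuousAt (𝒞.k_mem c)

theorem tendsto_k (c : C) : Tendsto (𝒞.k c) (𝓝 c) (𝓝 0) := by
  have := continuousAt_k 𝒞 c
  rwa [ContinuousAt, 𝒞.k_zero] at this

theorem tendsto_symm (c : C) : Tendsto (𝒞.k c).symm (𝓝 0) (𝓝 c) := by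
  have := continuousAt_symm 𝒞 c
  rwa [ContinuousAt, symm_zero] at this

theorem G_analytic (c : C) (i : Fin 2) : AnalyticAt ℂ (fun z => 𝒞.G c z i) 0 := by
  have h1 : AnalyticAt ℂ (𝒞.G c) 0 := 𝒞.G_an c 0 (zero_mem 𝒞 c)
  exact ((ContinuousLinearMap.proj (R := ℂ) (φ := fun _ : Fin 2 => ℂ) i).analyticAt _).comp h1

theorem deriv_G (c : C) (i : Fin 2) : deriv (fun z => 𝒞.G c z i) 0 = 𝒞.w c i := by
  have h1 : HasDerivAt (𝒞.G c) (deriv (𝒞.G c) 0) 0 :=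
    (𝒞.G_an c 0 (zero_mem 𝒞 c)).differentiableAt.hasDerivAt
  rw [hasDerivAt_pi] at h1
  exact (h1 i).deriv

end chart

namespace Aff

variable {P : Pol} {i : Fin 2} {ε : ℂ} {O : Set C} (A : Aff 𝒞 P i ε O)

include A in
theorem iv_mem_iff (c : C) : 𝒞.iv c ∈ O ↔ c ∈ O := by
  constructor
  · intro h
    have := A.iv_mem _ h
    rwa [𝒞.iv_iv] at this
  · exact A.iv_mem c

theorem gam_iff {x : C × C} (h1 : x.1 ∈ O) (h2 : x.2 ∈ O) :
    (A.t x.1 = A.t x.2 ∧ A.y x.1 = - A.y x.2) ↔ x ∈ 𝒞.Gam := by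
  constructor
  · rintro ⟨h3, h4⟩
    have h5 : x.2 = 𝒞.iv x.1 := by
      apply A.inj _ h2 _ (A.iv_mem _ h1)
      · rw [A.t_iv _ h1, h3]
      · rw [A.y_iv _ h1, h4]; ring
    exact h5
  · intro h3
    have h5 : x.2 = 𝒞.iv x.1 := h3
    rw [h5]
    refine ⟨(A.t_iv _ h1).symm, ?_⟩
    rw [A.y_iv _ h1]; ring

include A in
theorem eventually_mem {c : C} (hc : c ∈ O) : ∀ᶠ z in 𝓝 (0 : ℂ), (𝒞.k c).symm z ∈ O :=
  tendsto_symm 𝒞 c (A.isOpen.mem_nhds hc)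

/-- the local computation at a point of `Gam` -/
theorem local_near {c : C} (hc : c ∈ O) : ∃ Φ : ℂ × ℂ → ℂ, AnalyticAt ℂ Φ (0, 0) ∧
    ∀ᶠ z : ℂ × ℂ in 𝓝 (0, 0), Φ z = P.g (4 * ε ^ 2) (𝒞.G c z.1 i - 𝒞.G c z.2 i)
      (A.t ((𝒞.k c).symm z.1)) (A.y ((𝒞.k c).symm z.1))
      (A.t ((𝒞.k c).symm z.2)) (- A.y ((𝒞.k c).symm z.2)) := by
  classical
  set τ : ℂ → ℂ := fun z => A.t ((𝒞.k c).symm z) with hτd
  set η : ℂ → ℂ := fun z => A.y ((𝒞.k c).symm z) with hηd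
  set γ : ℂ → ℂ := fun z => 𝒞.G c z i with hγd
  have hτ : AnalyticAt ℂ τ 0 := A.t_an c hc
  have hη : AnalyticAt ℂ η 0 := A.y_an c hc
  have hγ : AnalyticAt ℂ γ 0 := G_analytic 𝒞 c i
  have hγ0 : deriv γ 0 ≠ 0 := by
    rw [hγd, deriv_G]
    exact A.w_ne c hc
  have e0 : (𝒞.k c).symm 0 = c := symm_zero 𝒞 c
  have hτ0 : τ 0 = A.t c := by simp only [hτd, e0]
  have hη0 : η 0 = A.y c := by simp only [hηd, e0]
  have R1 : ∀ᶠ z in 𝓝 (0 : ℂ), η z ^ 2 = P.f (τ z) := by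
    filter_upwards [A.eventually_mem hc] with z hz
    exact A.curve _ hz
  have R2 : ∀ᶠ z in 𝓝 (0 : ℂ), η z * deriv γ z = ε * deriv τ z := A.prim c hc
  have fst0 : Tendsto (Prod.fst : ℂ × ℂ → ℂ) (𝓝 (0, 0)) (𝓝 0) := continuousAt_fst
  have snd0 : Tendsto (Prod.snd : ℂ × ℂ → ℂ) (𝓝 (0, 0)) (𝓝 0) := continuousAt_snd
  have hpair : AnalyticAt ℂ (fun z : ℂ × ℂ => (τ z.1, τ z.2)) (0, 0) := by
    have h1 : AnalyticAt ℂ (fun z : ℂ × ℂ => τ z.1) (0, 0) :=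
      AnalyticAt.fun_comp (g := τ) (f := Prod.fst) hτ analyticAt_fst
    have h2 : AnalyticAt ℂ (fun z : ℂ × ℂ => τ z.2) (0, 0) :=
      AnalyticAt.fun_comp (g := τ) (f := Prod.snd) hτ analyticAt_snd
    exact h1.prod h2
  have hη1 : AnalyticAt ℂ (fun z : ℂ × ℂ => η z.1) (0, 0) :=
    AnalyticAt.fun_comp (g := η) (f := Prod.fst) hη analyticAt_fst
  have hη2 : AnalyticAt ℂ (fun z : ℂ × ℂ => η z.2) (0, 0) :=
    AnalyticAt.fun_comp (g := η) (f := Prod.snd) hη analyticAt_snd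
  by_cases hy : A.y c = 0
  · -- Weierstrass point
    have hE0 : P.E (τ 0) (τ 0) ≠ 0 := by
      rw [hτ0]; exact A.ram c hc hy
    have R3 : ∀ᶠ z in 𝓝 (0 : ℂ), 2 * η z * deriv η z = P.E (τ z) (τ z) * deriv τ z := by
      have h1 : (fun z => η z ^ 2) =ᶠ[𝓝 0] fun z => P.f (τ z) := R1
      filter_upwards [h1.deriv, hη.eventually_analyticAt, hτ.eventually_analyticAt] with z hz h2 h3
      have h4 : deriv (fun z => η z ^ 2) z = 2 * η z * deriv η z := by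
        have := (h2.differentiableAt.hasDerivAt.fun_pow 2).deriv
        simpa using this
      have h5 : deriv (fun z => P.f (τ z)) z = P.E (τ z) (τ z) * deriv τ z :=
        ((P.hasDerivAt_f (τ z)).comp z h3.differentiableAt.hasDerivAt).deriv
      rw [← h4, hz, h5]
    have hEan : AnalyticAt ℂ (fun z => P.E (τ z) (τ z)) 0 :=
      AnalyticAt.fun_comp (g := fun p : ℂ × ℂ => P.E p.1 p.2) (f := fun z => (τ z, τ z))
        (P.aE _) (hτ.prod hτ)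
    have R4 : ∀ᶠ z in 𝓝 (0 : ℂ), 2 * ε * deriv η z = P.E (τ z) (τ z) * deriv γ z := by
      set D : ℂ → ℂ := fun z => 2 * ε * deriv η z - P.E (τ z) (τ z) * deriv γ z with hD
      have hDan : AnalyticAt ℂ D 0 :=
        (analyticAt_const.mul hη.deriv).sub (hEan.mul hγ.deriv)
      have hprod : ∀ᶠ z in 𝓝 (0 : ℂ), η z * D z = 0 := by
        filter_upwards [R2, R3] with z h2 h3
        simp only [hD]
        linear_combination ε * h3 - P.E (τ z) (τ z) * h2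
      have hηne : ¬ ∀ᶠ z in 𝓝 (0 : ℂ), η z = 0 := by
        intro hall
        -- then `t` is locally constant, contradiction with injectivity
        have h1 : ∀ᶠ z in 𝓝 (0 : ℂ), deriv τ z = 0 := by
          filter_upwards [hall, R2] with z h2 h3
          rw [h2, zero_mul] at h3
          rcases mul_eq_zero.mp h3.symm with h4 | h4
          · exact absurd h4 A.eps
          · exact h4
        have h2 : ∀ᶠ z in 𝓝 (0 : ℂ), DifferentiableAt ℂ τ z :=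
          hτ.eventually_analyticAt.mono fun z hz => hz.differentiableAt
        obtain ⟨r, hr, hball⟩ := Metric.eventually_nhds_iff_ball.mp (h1.and (h2.and
          (hall.and ((A.eventually_mem hc).and (target_nhds 𝒞 c)))))
        have hconst : ∀ z ∈ Metric.ball (0 : ℂ) r, τ z = τ 0 := by
          intro z hz
          refine (convex_ball (0 : ℂ) r).is_const_of_fderivWithin_eq_zero (𝕜 := ℂ) (f := τ)
            (fun w hw => (hball w hw).2.1.differentiableWithinAt) ?_ hz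
            (Metric.mem_ball_self hr)
          intro w hw
          rw [fderivWithin_of_isOpen Metric.isOpen_ball hw]
          have := (hball w hw).1
          ext
          simp [this]
        have hz0 : ((r / 2 : ℝ) : ℂ) ∈ Metric.ball (0 : ℂ) r := by
          rw [Metric.mem_ball, dist_zero_right, Complex.norm_real, Real.norm_eq_abs,
            abs_of_pos (half_pos hr)]
          linarith
        have hz1 := hball _ hz0
        have h3 : (𝒞.k c).symm ((r / 2 : ℝ) : ℂ) = c := by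
          apply A.inj _ hz1.2.2.2.1 _ hc
          · have := hconst _ hz0
            rw [hτ0] at this
            exact this
          · rw [hy]
            exact hz1.2.2.1
        have h4 : ((r / 2 : ℝ) : ℂ) = 0 := by
          have h5 := (𝒞.k c).right_inv hz1.2.2.2.2
          rw [h3, 𝒞.k_zero] at h5
          exact h5.symm
        have h5 : (r / 2 : ℝ) = 0 := by exact_mod_cast h4
        linarith
      rcases hη.eventually_eq_zero_or_eventually_ne_zero with h | h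
      · exact absurd h hηne
      · have h1 : ∀ᶠ z in 𝓝[≠] (0 : ℂ), D z = 0 := by
          filter_upwards [h, hprod.filter_mono nhdsWithin_le_nhds] with z h2 h3
          rcases mul_eq_zero.mp h3 with h4 | h4
          · exact absurd h4 h2
          · exact h4
        have h2 : ∀ᶠ z in 𝓝 (0 : ℂ), D z = 0 :=
          (hDan.frequently_zero_iff_eventually_zero).mp h1.frequently
        filter_upwards [h2] with z hz
        simp only [hD] at hz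
        linear_combination hz
    have hη'0 : deriv η 0 ≠ 0 := by
      intro h
      have h1 := R4.self_of_nhds
      rw [h, mul_zero] at h1
      exact mul_ne_zero hE0 hγ0 h1.symm
    refine ⟨fun z => (dslope γ z.2 z.1 / dslope η z.2 z.1) ^ 2 *
      (P.E (τ z.1) (τ z.2) ^ 2 - (η z.1 - η z.2) ^ 2 * P.Q (τ z.1) (τ z.2)), ?_, ?_⟩
    · refine (((analyticAt_dslope hγ).div (analyticAt_dslope hη) ?_).pow 2).mul ?_
      · simpa [dslope_same] using hη'0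
      · have h1 : AnalyticAt ℂ (fun z : ℂ × ℂ => P.E (τ z.1) (τ z.2)) (0, 0) :=
          AnalyticAt.fun_comp (g := fun p : ℂ × ℂ => P.E p.1 p.2)
            (f := fun z : ℂ × ℂ => (τ z.1, τ z.2)) (P.aE _) hpair
        have h2 : AnalyticAt ℂ (fun z : ℂ × ℂ => P.Q (τ z.1) (τ z.2)) (0, 0) :=
          AnalyticAt.fun_comp (g := fun p : ℂ × ℂ => P.Q p.1 p.2)
            (f := fun z : ℂ × ℂ => (τ z.1, τ z.2)) (P.aQ _) hpair
        exact (h1.pow 2).sub (((hη1.sub hη2).pow 2).mul h2)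
    · have hdne : ∀ᶠ z : ℂ × ℂ in 𝓝 (0, 0), dslope η z.2 z.1 ≠ 0 := by
        apply (analyticAt_dslope hη).continuousAt.eventually_ne
        simpa [dslope_same] using hη'0
      filter_upwards [hdne, fst0.eventually R1, snd0.eventually R1, fst0.eventually R4] with
        z h1 h2 h3 h4
      by_cases hz : z.1 = z.2
      · rw [← hz] at h1 ⊢
        rw [P.g_of_gam ⟨rfl, by ring⟩]
        rw [dslope_same] at h1 ⊢
        rw [dslope_same, sub_self]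
        have h5 : (deriv γ z.1 / deriv η z.1) ^ 2 *
            (P.E (τ z.1) (τ z.1) ^ 2 - 0 ^ 2 * P.Q (τ z.1) (τ z.1))
            = ((P.E (τ z.1) (τ z.1) * deriv γ z.1) / deriv η z.1) ^ 2 := by
          field_simp
          ring
        rw [h5, ← h4]
        field_simp
        ring
      · have h5 : η z.1 - η z.2 ≠ 0 := by
          rw [sub_eq_dslope η z.1 z.2]
          exact mul_ne_zero (sub_ne_zero.mpr hz) h1
        have h6 : η z.1 + - η z.2 ≠ 0 := by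
          intro h; apply h5; linear_combination h
        have h7 : ¬ (τ z.1 = τ z.2 ∧ η z.1 = - - η z.2) := by
          rintro ⟨-, h8⟩
          apply h5
          rw [h8]; ring
        rw [P.g_of_not h7, P.G_of_add_ne h2 (by rw [neg_sq]; exact h3) h6]
        unfold Pol.G2
        have h8 : η z.1 + - η z.2 = (z.1 - z.2) * dslope η z.2 z.1 := by
          rw [← sub_eq_dslope]; ring
        have h9 : 𝒞.G c z.1 i - 𝒞.G c z.2 i = (z.1 - z.2) * dslope γ z.2 z.1 := by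
          rw [← sub_eq_dslope]
        have h10 : η z.1 - η z.2 = (z.1 - z.2) * dslope η z.2 z.1 := by
          rw [← sub_eq_dslope]
        rw [h8, h9, h10]
        have hz' : z.1 - z.2 ≠ 0 := sub_ne_zero.mpr hz
        field_simp
  · -- not a Weierstrass point
    have hη0' : η 0 ≠ 0 := by rw [hη0]; exact hy
    have hτ'0 : deriv τ 0 ≠ 0 := by
      intro h
      have h1 := R2.self_of_nhds
      rw [h, mul_zero] at h1
      exact mul_ne_zero hη0' hγ0 h1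
    refine ⟨fun z => (dslope γ z.2 z.1 / dslope τ z.2 z.1) ^ 2 *
      (P.F (τ z.1) (τ z.2) + 2 * η z.1 * η z.2), ?_, ?_⟩
    · refine (((analyticAt_dslope hγ).div (analyticAt_dslope hτ) ?_).pow 2).mul ?_
      · simpa [dslope_same] using hτ'0
      · have h1 : AnalyticAt ℂ (fun z : ℂ × ℂ => P.F (τ z.1) (τ z.2)) (0, 0) :=
          AnalyticAt.fun_comp (g := fun p : ℂ × ℂ => P.F p.1 p.2)
            (f := fun z : ℂ × ℂ => (τ z.1, τ z.2)) (P.aF _) hpair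
        exact h1.add ((analyticAt_const.mul hη1).mul hη2)
    · have hdne : ∀ᶠ z : ℂ × ℂ in 𝓝 (0, 0), dslope τ z.2 z.1 ≠ 0 := by
        apply (analyticAt_dslope hτ).continuousAt.eventually_ne
        simpa [dslope_same] using hτ'0
      have hηne : ∀ᶠ z : ℂ × ℂ in 𝓝 (0, 0), η z.1 ≠ 0 :=
        fst0.eventually (hη.continuousAt.eventually_ne hη0')
      filter_upwards [hdne, fst0.eventually R1, snd0.eventually R1, fst0.eventually R2, hηne] with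
        z h1 h2 h3 h4 h0
      by_cases hz : z.1 = z.2
      · rw [← hz] at h1 ⊢
        rw [P.g_of_gam ⟨rfl, by ring⟩]
        rw [dslope_same] at h1 ⊢
        rw [dslope_same, P.F_diag, ← h2]
        have h5 : deriv γ z.1 = ε * deriv τ z.1 / η z.1 := by
          field_simp
          linear_combination h4
        rw [h5]
        field_simp
        ring
      · have h5 : τ z.1 - τ z.2 ≠ 0 := by
          rw [sub_eq_dslope τ z.1 z.2]
          exact mul_ne_zero (sub_ne_zero.mpr hz) h1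
        have h6 : τ z.1 ≠ τ z.2 := sub_ne_zero.mp h5
        have h7 : ¬ (τ z.1 = τ z.2 ∧ η z.1 = - - η z.2) := fun h => h6 h.1
        rw [P.g_of_not h7, P.G_of_ne h6]
        unfold Pol.G1
        have h8 : τ z.1 - τ z.2 = (z.1 - z.2) * dslope τ z.2 z.1 := by
          rw [← sub_eq_dslope]
        have h9 : 𝒞.G c z.1 i - 𝒞.G c z.2 i = (z.1 - z.2) * dslope γ z.2 z.1 := by
          rw [← sub_eq_dslope]
        rw [h8, h9]
        have hz' : z.1 - z.2 ≠ 0 := sub_ne_zero.mpr hz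
        field_simp
        ring

/-- **the trivialisation** -/
def gg (U : C × C → E2) (x : C × C) : ℂ :=
  P.g (4 * ε ^ 2) (U x i) (A.t x.1) (A.y x.1) (A.t x.2) (A.y x.2)

theorem gg_gam (U : C × C → E2) {x : C × C} (h1 : x.1 ∈ O) (hx : x ∈ 𝒞.Gam) :
    A.gg U x = 4 * ε ^ 2 := by
  have h2 : x.2 ∈ O := by
    have : x.2 = 𝒞.iv x.1 := hx
    rw [this]; exact A.iv_mem _ h1
  exact P.g_of_gam ((A.gam_iff h1 h2).mpr hx)

theorem gg_swap {U : C × C → E2} {x : C × C} (h : U x.swap = U x) :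
    A.gg U x.swap = A.gg U x := by
  unfold gg
  rw [h]
  exact P.g_symm _ _ _ _ _ _

theorem gg_of_not {U : C × C → E2} {x : C × C} (h1 : x.1 ∈ O) (h2 : x.2 ∈ O)
    (hx : x ∉ 𝒞.Gam) :
    A.gg U x = (U x i) ^ 2 * P.G (A.t x.1) (A.y x.1) (A.t x.2) (A.y x.2) := by
  unfold gg
  rw [P.g_of_not]
  rwa [A.gam_iff h1 h2]

/-- the defining equation `g (t - t')^2 = U^2 (F(t,t') - 2 y y')` -/
theorem gg_mul {N : Set (C × C)} {U : C × C → E2} (hN : 𝒞.NearE N U) {x : C × C} (hx : x ∈ N)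
    (h1 : x.1 ∈ O) (h2 : x.2 ∈ O) :
    A.gg U x * (A.t x.1 - A.t x.2) ^ 2
      = (U x i) ^ 2 * (P.F (A.t x.1) (A.t x.2) - 2 * A.y x.1 * A.y x.2) := by
  by_cases hg : x ∈ 𝒞.Gam
  · have h3 := (A.gam_iff h1 h2).mpr hg
    have h4 : U x = 0 := (hN.zero x hx).mpr hg
    rw [h3.1, h4]
    simp
  · have h3 : ¬ (A.t x.1 = A.t x.2 ∧ A.y x.1 = - A.y x.2) := by rwa [A.gam_iff h1 h2]
    rw [A.gg_of_not h1 h2 hg, ← P.G_mul (A.curve _ h1) (A.curve _ h2) h3]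
    ring

theorem holAt_gam {N : Set (C × C)} {U : C × C → E2} (hN : 𝒞.NearE N U) {x : C × C}
    (h1 : x.1 ∈ O) (hx : x ∈ 𝒞.Gam) : HolAt2 𝒞 (A.gg U) x := by
  obtain ⟨c, c'⟩ := x
  have hc' : c' = 𝒞.iv c := hx
  subst hc'
  simp only at h1
  obtain ⟨Φ, hΦ, hΦ2⟩ := A.local_near h1
  have hiv := 𝒞.iv_an (𝒞.iv c)
  rw [𝒞.iv_iv] at hiv
  set ψ : ℂ → ℂ := fun z => 𝒞.k c (𝒞.iv ((𝒞.k (𝒞.iv c)).symm z)) with hψ
  have hψ0 : ψ 0 = 0 := by
    simp only [hψ]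
    rw [symm_zero, 𝒞.iv_iv, 𝒞.k_zero]
  refine ⟨fun z => Φ (z.1, ψ z.2), ?_, ?_⟩
  · have h2 : AnalyticAt ℂ (fun z : ℂ × ℂ => (z.1, ψ z.2)) 0 := by
      refine AnalyticAt.prod analyticAt_fst ?_
      exact AnalyticAt.fun_comp (g := ψ) (f := Prod.snd) hiv analyticAt_snd
    refine AnalyticAt.fun_comp (g := Φ) (f := fun z : ℂ × ℂ => (z.1, ψ z.2)) ?_ h2
    simpa [hψ0] using hΦ
  · have t1 : Tendsto (fun x : C × C => x.1) (𝓝 (c, 𝒞.iv c)) (𝓝 c) := continuousAt_fst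
    have t2 : Tendsto (fun x : C × C => x.2) (𝓝 (c, 𝒞.iv c)) (𝓝 (𝒞.iv c)) := continuousAt_snd
    have t3 : Tendsto (fun x : C × C => 𝒞.iv x.2) (𝓝 (c, 𝒞.iv c)) (𝓝 c) := by
      have h3 : Tendsto 𝒞.iv (𝓝 (𝒞.iv c)) (𝓝 (𝒞.iv (𝒞.iv c))) := 𝒞.iv_cont.tendsto _
      rw [𝒞.iv_iv] at h3
      exact h3.comp t2
    have t4 : Tendsto (fun x : C × C => (𝒞.k c x.1, 𝒞.k c (𝒞.iv x.2))) (𝓝 (c, 𝒞.iv c))
        (𝓝 (0, 0)) := by
      exact ((tendsto_k 𝒞 c).comp t1).prodMk_nhds ((tendsto_k 𝒞 c).comp t3)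
    filter_upwards [t4.eventually hΦ2, hN.near c, t1 (source_nhds 𝒞 c), t3 (source_nhds 𝒞 c),
      t2 (source_nhds 𝒞 (𝒞.iv c)), t1 (A.isOpen.mem_nhds h1), t3 (A.isOpen.mem_nhds h1)] with
      x h2 h3 h4 h5 h6 h7 h8
    have h8' : x.2 ∈ O := (A.iv_mem_iff _).mp h8
    have e1 : (𝒞.k c).symm (𝒞.k c x.1) = x.1 := (𝒞.k c).left_inv h4
    have e2 : (𝒞.k c).symm (𝒞.k c (𝒞.iv x.2)) = 𝒞.iv x.2 := (𝒞.k c).left_inv h5
    have e3 : ψ (𝒞.k (𝒞.iv c) x.2) = 𝒞.k c (𝒞.iv x.2) := by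
      simp only [hψ]
      rw [(𝒞.k (𝒞.iv c)).left_inv h6]
    simp only [e1, e2] at h2
    rw [e3, h2]
    unfold gg
    rw [h3]
    have e4 : A.t (𝒞.iv x.2) = A.t x.2 := A.t_iv _ h8'
    have e5 : A.y (𝒞.iv x.2) = - A.y x.2 := A.y_iv _ h8'
    rw [e4, e5, neg_neg]
    rfl

theorem holAt_not {N : Set (C × C)} {U : C × C → E2} (hN : 𝒞.NearE N U) {x : C × C}
    (hxN : x ∈ N) (h1 : x.1 ∈ O) (h2 : x.2 ∈ O) (hx : x ∉ 𝒞.Gam) : HolAt2 𝒞 (A.gg U) x := by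
  obtain ⟨c, c'⟩ := x
  simp only at h1 h2
  have hng : ¬ (A.t c = A.t c' ∧ A.y c = - A.y c') := by
    have := A.gam_iff (x := (c, c')) h1 h2
    simp only at this
    rw [this]; exact hx
  have t1 : Tendsto (fun x : C × C => x.1) (𝓝 (c, c')) (𝓝 c) := continuousAt_fst
  have t2 : Tendsto (fun x : C × C => x.2) (𝓝 (c, c')) (𝓝 c') := continuousAt_snd
  -- the functions in the charts
  set τ : ℂ → ℂ := fun z => A.t ((𝒞.k c).symm z) with hτd
  set η : ℂ → ℂ := fun z => A.y ((𝒞.k c).symm z) with hηd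
  set τ' : ℂ → ℂ := fun z => A.t ((𝒞.k c').symm z) with hτ'd
  set η' : ℂ → ℂ := fun z => A.y ((𝒞.k c').symm z) with hη'd
  have aτ : AnalyticAt ℂ (fun z : ℂ × ℂ => τ z.1) 0 :=
    AnalyticAt.fun_comp (g := τ) (f := Prod.fst) (A.t_an c h1) analyticAt_fst
  have aη : AnalyticAt ℂ (fun z : ℂ × ℂ => η z.1) 0 :=
    AnalyticAt.fun_comp (g := η) (f := Prod.fst) (A.y_an c h1) analyticAt_fst
  have aτ' : AnalyticAt ℂ (fun z : ℂ × ℂ => τ' z.2) 0 :=
    AnalyticAt.fun_comp (g := τ') (f := Prod.snd) (A.t_an c' h2) analyticAt_snd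
  have aη' : AnalyticAt ℂ (fun z : ℂ × ℂ => η' z.2) 0 :=
    AnalyticAt.fun_comp (g := η') (f := Prod.snd) (A.y_an c' h2) analyticAt_snd
  have ap : AnalyticAt ℂ (fun z : ℂ × ℂ => (τ z.1, τ' z.2)) 0 := aτ.prod aτ'
  have τ0 : τ 0 = A.t c := by simp only [hτd, symm_zero]
  have η0 : η 0 = A.y c := by simp only [hηd, symm_zero]
  have τ'0 : τ' 0 = A.t c' := by simp only [hτ'd, symm_zero]
  have η'0 : η' 0 = A.y c' := by simp only [hη'd, symm_zero]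
  set V : ℂ × ℂ → ℂ := fun z => U (c, c') i + (𝒞.G c z.1 i + 𝒞.G c' z.2 i) with hV
  have aV : AnalyticAt ℂ V 0 := by
    refine analyticAt_const.add (AnalyticAt.add ?_ ?_)
    · exact AnalyticAt.fun_comp (g := fun z => 𝒞.G c z i) (f := Prod.fst) (G_analytic 𝒞 c i)
        analyticAt_fst
    · exact AnalyticAt.fun_comp (g := fun z => 𝒞.G c' z i) (f := Prod.snd) (G_analytic 𝒞 c' i)
        analyticAt_snd
  have hUV : ∀ᶠ x in 𝓝 ((c, c') : C × C), U x i = V (𝒞.k c x.1, 𝒞.k c' x.2) := by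
    filter_upwards [hN.lp (c, c') hxN] with x hx2
    rw [hx2]
    rfl
  have hchart : ∀ᶠ x in 𝓝 ((c, c') : C × C), A.t x.1 = τ (𝒞.k c x.1) ∧
      A.y x.1 = η (𝒞.k c x.1) ∧ A.t x.2 = τ' (𝒞.k c' x.2) ∧ A.y x.2 = η' (𝒞.k c' x.2) := by
    filter_upwards [t1 (source_nhds 𝒞 c), t2 (source_nhds 𝒞 c')] with x h4 h5
    have e1 : (𝒞.k c).symm (𝒞.k c x.1) = x.1 := (𝒞.k c).left_inv h4
    have e2 : (𝒞.k c').symm (𝒞.k c' x.2) = x.2 := (𝒞.k c').left_inv h5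
    simp only [hτd, hηd, hτ'd, hη'd, e1, e2, and_self]
  have hO : ∀ᶠ x in 𝓝 ((c, c') : C × C), x.1 ∈ O ∧ x.2 ∈ O := by
    filter_upwards [t1 (A.isOpen.mem_nhds h1), t2 (A.isOpen.mem_nhds h2)] with x h4 h5
    exact ⟨h4, h5⟩
  have t4 : Tendsto (fun x : C × C => (𝒞.k c x.1, 𝒞.k c' x.2)) (𝓝 (c, c')) (𝓝 (0 : ℂ × ℂ)) := by
    exact ((tendsto_k 𝒞 c).comp t1).prodMk_nhds ((tendsto_k 𝒞 c').comp t2)
  by_cases ht : A.t c = A.t c'
  · have hy : A.y c + A.y c' ≠ 0 := by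
      intro h
      exact hng ⟨ht, by linear_combination h⟩
    have hyan : AnalyticAt ℂ (fun z : ℂ × ℂ => η z.1 + η' z.2) 0 := aη.add aη'
    have hy0 : (fun z : ℂ × ℂ => η z.1 + η' z.2) 0 ≠ 0 := by
      simp only [Prod.fst_zero, Prod.snd_zero, η0, η'0]
      exact hy
    refine ⟨fun z => V z ^ 2 * ((P.E (τ z.1) (τ' z.2) ^ 2 - (η z.1 + η' z.2) ^ 2 *
      P.Q (τ z.1) (τ' z.2)) / (η z.1 + η' z.2) ^ 2), ?_, ?_⟩
    · refine (aV.pow 2).mul (AnalyticAt.div ?_ (hyan.pow 2) (pow_ne_zero 2 hy0))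
      have h3 : AnalyticAt ℂ (fun z : ℂ × ℂ => P.E (τ z.1) (τ' z.2)) 0 :=
        AnalyticAt.fun_comp (g := fun p : ℂ × ℂ => P.E p.1 p.2)
          (f := fun z : ℂ × ℂ => (τ z.1, τ' z.2)) (P.aE _) ap
      have h4 : AnalyticAt ℂ (fun z : ℂ × ℂ => P.Q (τ z.1) (τ' z.2)) 0 :=
        AnalyticAt.fun_comp (g := fun p : ℂ × ℂ => P.Q p.1 p.2)
          (f := fun z : ℂ × ℂ => (τ z.1, τ' z.2)) (P.aQ _) ap
      exact (h3.pow 2).sub ((hyan.pow 2).mul h4)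
    · filter_upwards [hUV, hchart, hO, t4.eventually (hyan.continuousAt.eventually_ne hy0)] with
        x h3 h4 h5 h6
      obtain ⟨e1, e2, e3, e4⟩ := h4
      unfold gg
      have h7 : A.y x.1 + A.y x.2 ≠ 0 := by rw [e2, e4]; exact h6
      have h8 : ¬ (A.t x.1 = A.t x.2 ∧ A.y x.1 = - A.y x.2) := by
        rintro ⟨-, h9⟩
        apply h7; rw [h9]; ring
      rw [P.g_of_not h8, P.G_of_add_ne (A.curve _ h5.1) (A.curve _ h5.2) h7]
      unfold Pol.G2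
      rw [h3, e1, e2, e3, e4]
  · have htan : AnalyticAt ℂ (fun z : ℂ × ℂ => τ z.1 - τ' z.2) 0 := aτ.sub aτ'
    have ht0 : (fun z : ℂ × ℂ => τ z.1 - τ' z.2) 0 ≠ 0 := by
      simp only [Prod.fst_zero, Prod.snd_zero, τ0, τ'0]
      exact sub_ne_zero.mpr ht
    refine ⟨fun z => V z ^ 2 * ((P.F (τ z.1) (τ' z.2) - 2 * η z.1 * η' z.2) /
      (τ z.1 - τ' z.2) ^ 2), ?_, ?_⟩
    · refine (aV.pow 2).mul (AnalyticAt.div ?_ (htan.pow 2) (pow_ne_zero 2 ht0))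
      have h3 : AnalyticAt ℂ (fun z : ℂ × ℂ => P.F (τ z.1) (τ' z.2)) 0 :=
        AnalyticAt.fun_comp (g := fun p : ℂ × ℂ => P.F p.1 p.2)
          (f := fun z : ℂ × ℂ => (τ z.1, τ' z.2)) (P.aF _) ap
      exact h3.sub ((analyticAt_const.mul aη).mul aη')
    · filter_upwards [hUV, hchart, t4.eventually (htan.continuousAt.eventually_ne ht0)] with
        x h3 h4 h6
      obtain ⟨e1, e2, e3, e4⟩ := h4
      unfold gg
      have h7 : A.t x.1 ≠ A.t x.2 := by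
        rw [e1, e3]; exact sub_ne_zero.mp h6
      have h8 : ¬ (A.t x.1 = A.t x.2 ∧ A.y x.1 = - A.y x.2) := fun h => h7 h.1
      rw [P.g_of_not h8, P.G_of_ne h7]
      unfold Pol.G1
      rw [h3, e1, e2, e3, e4]

/-- **K3, holomorphy**: `g` is holomorphic on `N ∩ (O × O)`. -/
theorem holAt_gg {N : Set (C × C)} {U : C × C → E2} (hN : 𝒞.NearE N U) {x : C × C}
    (hxN : x ∈ N) (h1 : x.1 ∈ O) (h2 : x.2 ∈ O) : HolAt2 𝒞 (A.gg U) x := by
  by_cases hx : x ∈ 𝒞.Gam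
  · exact A.holAt_gam hN h1 hx
  · exact A.holAt_not hN hxN h1 h2 hx

end Aff

theorem HolAt2.continuousAt {f : C × C → ℂ} {x : C × C} (h : HolAt2 𝒞 f x) :
    ContinuousAt f x := by
  obtain ⟨F, hF, he⟩ := h
  have t1 : Tendsto (fun y : C × C => y.1) (𝓝 x) (𝓝 x.1) := continuousAt_fst
  have t2 : Tendsto (fun y : C × C => y.2) (𝓝 x) (𝓝 x.2) := continuousAt_snd
  have t4 : Tendsto (fun y : C × C => (𝒞.k x.1 y.1, 𝒞.k x.2 y.2)) (𝓝 x) (𝓝 (0 : ℂ × ℂ)) := by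
    exact ((tendsto_k 𝒞 x.1).comp t1).prodMk_nhds ((tendsto_k 𝒞 x.2).comp t2)
  have h1 : Tendsto (fun y : C × C => F (𝒞.k x.1 y.1, 𝒞.k x.2 y.2)) (𝓝 x) (𝓝 (F 0)) :=
    hF.continuousAt.tendsto.comp t4
  have h2 : f x = F 0 := by
    have := he.self_of_nhds
    rw [this, 𝒞.k_zero, 𝒞.k_zero]
    rfl
  rw [ContinuousAt, h2]
  exact h1.congr' (he.mono fun y hy => hy.symm)

namespace Aff

variable {P : Pol} {i : Fin 2} {ε : ℂ} {O : Set C} (A : Aff 𝒞 P i ε O)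

/-- `g` is nowhere zero near `Gam` -/
theorem eventually_ne {N : Set (C × C)} {U : C × C → E2} (hN : 𝒞.NearE N U) {x : C × C}
    (h1 : x.1 ∈ O) (hx : x ∈ 𝒞.Gam) : ∀ᶠ y in 𝓝 x, A.gg U y ≠ 0 := by
  have h2 := (A.holAt_gam hN h1 hx).continuousAt
  apply h2.eventually_ne
  rw [A.gg_gam U h1 hx]
  exact mul_ne_zero (by norm_num) (pow_ne_zero 2 A.eps)

end Aff

/-- **K3, comparison of the two affine pieces**: `g_∞ t t' = g_0 T^2`. -/
theorem gg_inf {a : Fin 7 → ℂ} {ε ε' : ℂ} {O₀ O₁ : Set C} (A₀ : Aff 𝒞 (sex a) 0 ε O₀)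
    (A₁ : Aff 𝒞 (sex (rev a)) 1 ε' O₁) (heps : ε' ^ 2 = ε ^ 2)
    (ht : ∀ c ∈ O₀ ∩ O₁, A₀.t c ≠ 0 ∧ A₁.t c = 1 / A₀.t c ∧ A₁.y c = A₀.y c / A₀.t c ^ 3)
    (hw : ∀ c ∈ O₀ ∩ O₁, 𝒞.w c 1 = A₀.t c * 𝒞.w c 0)
    {U : C × C → E2} {x : C × C}
    (h1 : x.1 ∈ O₀ ∩ O₁) (h2 : x.2 ∈ O₀ ∩ O₁) (hU0 : x ∉ 𝒞.Gam → U x 0 ≠ 0) :
    A₁.gg U x * (A₀.t x.1 * A₀.t x.2) = A₀.gg U x * (𝒞.TT U 0 x) ^ 2 := by
  by_cases hx : x ∈ 𝒞.Gam
  · have h3 := (A₀.gam_iff h1.1 h2.1).mpr hx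
    rw [A₁.gg_gam U h1.2 hx, A₀.gg_gam U h1.1 hx, heps]
    unfold Cur.TT
    rw [if_pos hx]
    have h4 : 𝒞.w x.1 (1 - 0) = A₀.t x.1 * 𝒞.w x.1 0 := by
      simpa using hw _ h1
    have h5 : 𝒞.w x.1 0 ≠ 0 := A₀.w_ne _ h1.1
    rw [h4, ← h3.1]
    field_simp
  · have h3 : ¬ (A₀.t x.1 = A₀.t x.2 ∧ A₀.y x.1 = - A₀.y x.2) := by
      rwa [A₀.gam_iff h1.1 h2.1]
    rw [A₁.gg_of_not h1.2 h2.2 hx, A₀.gg_of_not h1.1 h2.1 hx]
    rw [G_inf (ht _ h1).1 (ht _ h2).1 (A₀.curve _ h1.1) (A₀.curve _ h2.1) h3]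
    rw [(ht _ h1).2.1, (ht _ h1).2.2, (ht _ h2).2.1, (ht _ h2).2.2]
    unfold Cur.TT
    rw [if_neg hx]
    have h5 := hU0 hx
    have h6 : U x (1 - 0) = U x 1 := by simp
    rw [h6]
    field_simp

end Crest.Agent.R272.K3b_977
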