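import Crest.Agent.R272.Lc9_220

/-!
# R272, (K-b), J-half (helper220): generators of `L_1` near a cluster

`p`, `p'` pens of the two colours with the same `s0`; `y : A.X` over `p.U ∩ p'.U`.
* `isG_E` : `s0 = ξ δ δ'`, `s1 = ξ ν δ'`, `s1' = ξ δ ν'` near `y` ⟹ `ξ^9 δ^5 δ'^5` generates;
* `isG_M` : `s0 = m s1 s1'` near `y` ⟹ `(s1 s1')^5` generates.
-/

set_option autoImplicit false
set_option linter.unusedSectionVars false
set_option linter.unusedVariables false

open Set Filter Topology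

namespace Crest.Agent.R272.Lc_220

open Crest.Agent.R275.Geo Crest.Agent.R273.Fam_835 Crest.Agent.R272.Quot_783
  Crest.Agent.R272.Gr_559 Crest.Agent.R272.FamP_54 Crest.Agent.R272.P1A_54
  Crest.Agent.R272.Refl_246 Crest.Agent.R272.MQ_783 Crest.Agent.R272.Act_302
  Crest.Agent.R272.CB_232

noncomputable section

section General

variable {n : ℕ} {Y : Type} [TopologicalSpace Y] {C : Fam n Y} {y : Y}

/-- generator of a pair `(g α, g β)` -/
theorem pair_gen {a b g α β : Y → ℂ} (hα : HolN C y α) (hβ : HolN C y β)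
    (h0 : ¬ (α y = 0 ∧ β y = 0)) (ha : ∀ᶠ v in 𝓝 y, a v = α v * g v)
    (hb : ∀ᶠ v in 𝓝 y, b v = β v * g v) :
    (Asc C y a g ∧ Dvd C y g b) ∨ (Asc C y b g ∧ Dvd C y g a) := by
  by_cases h : α y = 0
  · exact Or.inr ⟨⟨β, hβ, fun hβ0 => h0 ⟨h, hβ0⟩, hb⟩, ⟨α, hα, ha⟩⟩
  · exact Or.inl ⟨⟨α, hα, h, ha⟩, ⟨β, hβ, hb⟩⟩

end General

theorem prod_KP {M : Type*} [CommMonoid M] (f : KP → M) :
    ∏ k, f k = f (.t 0) * f (.t 1) * f .v * (f (.k 0) * f (.k 1)) := by
  let e : KP ≃ (Fin 2 ⊕ Unit) ⊕ Fin 2 :=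
    { toFun := fun | .t i => .inl (.inl i) | .v => .inl (.inr ()) | .k i => .inr i
      invFun := fun | .inl (.inl i) => .t i | .inl (.inr _) => .v | .inr i => .k i
      left_inv := by rintro (i | _ | i) <;> rfl
      right_inv := by rintro ((i | i) | i) <;> rfl }
  rw [← Equiv.prod_comp e.symm, Fintype.prod_sum_type, Fintype.prod_sum_type,
    Fin.prod_univ_two, Fin.prod_univ_two]
  simp [e]

variable {N : Type} [TopologicalSpace N] {F : Fam 3 N} {D : GData F} {G : Type} [Group G]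
  [MulAction G N] (A : GAct D G) (h : SubF_54.IsSl (ambFam F) D.X1 3) (hz : NzX A)
  {q : N} (p : Pen F D.f0 (D.x 0) (D.P 0) (D.Q 0) q) (p' : Pen F D.f0 (D.x 1) (D.P 1) (D.Q 1) q)
  (hpp : p'.s0 = p.s0) {y : A.X} (hU : A.pz y ∈ p.U) (hU' : A.pz y ∈ p'.U)

/-- pull back of a function holomorphic near `pz y` -/
theorem holN_pz' {U : Set N} (hU : IsOpen U) {f : N → ℂ} (hf : HolF F U f) (hy : A.pz y ∈ U) :
    HolN (A.fam h) y fun y => f (A.pz y) :=
  HolN.comp (C := F) (D := A.fam h) (p := A.pz)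
    ((Crest.Agent.R272.Lc_220.holF_iff hU).1 hf _ hy) (A.holC_pz h)

theorem ev_pz {P : N → Prop} {U : Set N} (hU : IsOpen U) (hy : A.pz y ∈ U)
    (hP : ∀ z ∈ U, P z) : ∀ᶠ v in 𝓝 y, P (A.pz v) := by
  filter_upwards [(hU.preimage A.continuous_pz).mem_nhds hy] with v hv
  exact hP _ hv

section E

variable {ξ ν δ ν' δ' : A.X → ℂ}

include hpp hU hU'

/-- **E-charts** -/
theorem isG_E (hξ : HolN (A.fam h) y ξ) (hν : HolN (A.fam h) y ν) (hδ : HolN (A.fam h) y δ)
    (hν' : HolN (A.fam h) y ν') (hδ' : HolN (A.fam h) y δ')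
    (e0 : ∀ᶠ v in 𝓝 y, p.s0 (A.pz v) = ξ v * δ v * δ' v)
    (e1 : ∀ᶠ v in 𝓝 y, p.s1 (A.pz v) = ξ v * ν v * δ' v)
    (e2 : ∀ᶠ v in 𝓝 y, p'.s1 (A.pz v) = ξ v * δ v * ν' v)
    (h0 : ¬ (ν y = 0 ∧ δ y = 0)) (h0' : ¬ (ν' y = 0 ∧ δ' y = 0)) :
    (gsX A h hz).IsG y fun v => ξ v ^ 9 * δ v ^ 5 * δ' v ^ 5 := by
  have Ha := holN_pz' A h p.U_open p.a_hol hU
  have Hb := holN_pz' A h p.U_open p.b_hol hU
  have Hu := holN_pz' A h p.U_open p.u_hol hU
  have Hw := holN_pz' A h p.U_open p.w_hol hU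
  have Ha' := holN_pz' A h p'.U_open p'.a_hol hU'
  have Hb' := holN_pz' A h p'.U_open p'.b_hol hU'
  have Hu' := holN_pz' A h p'.U_open p'.u_hol hU'
  have Hw' := holN_pz' A h p'.U_open p'.w_hol hU'
  have Ef := ev_pz A p.U_open hU p.ef
  have Ef' := ev_pz A p'.U_open hU' p'.ef
  have Ex := ev_pz A p.U_open hU p.ex
  have Ex' := ev_pz A p'.U_open hU' p'.ex
  have EP := ev_pz A p.U_open hU p.eP
  have EP' := ev_pz A p'.U_open hU' p'.eP
  have EQ := ev_pz A p.U_open hU p.eQ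
  have EQ' := ev_pz A p'.U_open hU' p'.eQ
  have l : ∀ c : ℂ, HolN (A.fam h) y fun v => ν v - c * δ v := fun c =>
    hν.sub ((holN_const c).mul hδ)
  have l' : ∀ c : ℂ, HolN (A.fam h) y fun v => ν' v - c * δ' v := fun c =>
    hν'.sub ((holN_const c).mul hδ')
  -- two different factors have no common zero
  have nc : ∀ c d : ℂ, c ≠ d → ¬ (ν y - c * δ y = 0 ∧ ν y - d * δ y = 0) := by
    rintro c d hcd ⟨h1, h2⟩
    have h3 : (c - d) * δ y = 0 := by linear_combination h2 - h1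
    have h4 := (mul_eq_zero.1 h3).resolve_left (sub_ne_zero.2 hcd)
    exact h0 ⟨by linear_combination h1 + c * h4, h4⟩
  have nc' : ∀ c d : ℂ, c ≠ d → ¬ (ν' y - c * δ' y = 0 ∧ ν' y - d * δ' y = 0) := by
    rintro c d hcd ⟨h1, h2⟩
    have h3 : (c - d) * δ' y = 0 := by linear_combination h2 - h1
    have h4 := (mul_eq_zero.1 h3).resolve_left (sub_ne_zero.2 hcd)
    exact h0' ⟨by linear_combination h1 + c * h4, h4⟩
  have hγ := isG_X A (h := h) hz (y := y) (γ := fun k v => match k with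
    | .t i => if i = 0 then ξ v * δ' v else ξ v * δ v
    | .v => ξ v * δ v * δ' v
    | .k i => if i = 0 then (ξ v * δ' v) ^ 3 else (ξ v * δ v) ^ 3) ?_
  · refine hγ.of_asc ((Asc.refl _).congr (Eventually.of_forall fun v => ?_)
      (Eventually.of_forall fun _ => rfl))
    rw [prod_KP]
    simp only [if_true, one_ne_zero, if_false]
    ring
  rintro (i | _ | i)
  · fin_cases i
    · refine pair_gen (α := fun v => p.b (A.pz v) * (ν v - p.c 5 * δ v))
        (β := fun v => p.a (A.pz v) * δ v) (Hb.mul (l _)) (Ha.mul hδ) ?_ ?_ ?_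
      · rintro ⟨h1, h2⟩
        have h3 := (mul_eq_zero.1 h1).resolve_left (p.b_ne _ hU)
        have h4 := (mul_eq_zero.1 h2).resolve_left (p.a_ne _ hU)
        exact h0 ⟨by linear_combination h3 + p.c 5 * h4, h4⟩
      · filter_upwards [Ex, e0, e1] with v h1 h2 h3
        show D.x 0 (A.pz v) = _
        rw [h1, h2, h3]
        simp
        ring
      · filter_upwards [Ef, e0] with v h1 h2
        show D.f0 (A.pz v) = _
        rw [h1, h2]
        simp
        ring
    · refine pair_gen (α := fun v => p'.b (A.pz v) * (ν' v - p'.c 5 * δ' v))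
        (β := fun v => p'.a (A.pz v) * δ' v) (Hb'.mul (l' _)) (Ha'.mul hδ') ?_ ?_ ?_
      · rintro ⟨h1, h2⟩
        have h3 := (mul_eq_zero.1 h1).resolve_left (p'.b_ne _ hU')
        have h4 := (mul_eq_zero.1 h2).resolve_left (p'.a_ne _ hU')
        exact h0' ⟨by linear_combination h3 + p'.c 5 * h4, h4⟩
      · filter_upwards [Ex', e0, e2] with v h1 h2 h3
        show D.x 1 (A.pz v) = _
        rw [h1, hpp, h2, h3]
        simp
        ring
      · filter_upwards [Ef', e0] with v h1 h2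
        show D.f0 (A.pz v) = _
        rw [h1, hpp, h2]
        simp
        ring
  · refine pair_gen (α := fun v => p.b (A.pz v) * p'.b (A.pz v) * ξ v *
        ((ν v - p.c 5 * δ v) * (ν' v - p'.c 5 * δ' v)))
      (β := fun v => p.a (A.pz v)) (((Hb.mul Hb').mul hξ).mul ((l _).mul (l' _))) Ha
      (fun h1 => p.a_ne _ hU h1.2) ?_ ?_
    · filter_upwards [Ex, Ex', e0, e1, e2] with v h1 h2 h3 h4 h5
      show D.x 0 (A.pz v) * D.x 1 (A.pz v) = _
      rw [h1, h2, hpp, h3, h4, h5]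
      ring
    · filter_upwards [Ef, e0] with v h1 h2
      show D.f0 (A.pz v) = _
      rw [h1, h2]
  · fin_cases i
    · refine pair_gen (α := fun v => p.u (A.pz v) * ((ν v - p.c 0 * δ v) * (ν v - p.c 1 * δ v) *
          (ν v - p.c 2 * δ v)))
        (β := fun v => p.w (A.pz v) * ((ν v - p.c 3 * δ v) * (ν v - p.c 4 * δ v) *
          (ν v - p.c 5 * δ v))) (Hu.mul (((l _).mul (l _)).mul (l _)))
        (Hw.mul (((l _).mul (l _)).mul (l _))) ?_ ?_ ?_
      · rintro ⟨h1, h2⟩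
        have h3 := (mul_eq_zero.1 h1).resolve_left (p.u_ne _ hU)
        have h4 := (mul_eq_zero.1 h2).resolve_left (p.w_ne _ hU)
        rw [mul_eq_zero, mul_eq_zero] at h3 h4
        rcases h3 with (h3 | h3) | h3 <;> rcases h4 with (h4 | h4) | h4 <;>
          exact nc _ _ (fun hc => absurd (p.c_inj hc) (by decide)) ⟨h3, h4⟩
      · filter_upwards [EP, e0, e1] with v h1 h2 h3
        show D.P 0 (A.pz v) = _
        rw [h1, h2, h3]
        simp
        ring
      · filter_upwards [EQ, e0, e1] with v h1 h2 h3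
        show D.Q 0 (A.pz v) = _
        rw [h1, h2, h3]
        simp
        ring
    · refine pair_gen (α := fun v => p'.u (A.pz v) * ((ν' v - p'.c 0 * δ' v) *
          (ν' v - p'.c 1 * δ' v) * (ν' v - p'.c 2 * δ' v)))
        (β := fun v => p'.w (A.pz v) * ((ν' v - p'.c 3 * δ' v) * (ν' v - p'.c 4 * δ' v) *
          (ν' v - p'.c 5 * δ' v))) (Hu'.mul (((l' _).mul (l' _)).mul (l' _)))
        (Hw'.mul (((l' _).mul (l' _)).mul (l' _))) ?_ ?_ ?_
      · rintro ⟨h1, h2⟩
        have h3 := (mul_eq_zero.1 h1).resolve_left (p'.u_ne _ hU')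
        have h4 := (mul_eq_zero.1 h2).resolve_left (p'.w_ne _ hU')
        rw [mul_eq_zero, mul_eq_zero] at h3 h4
        rcases h3 with (h3 | h3) | h3 <;> rcases h4 with (h4 | h4) | h4 <;>
          exact nc' _ _ (fun hc => absurd (p'.c_inj hc) (by decide)) ⟨h3, h4⟩
      · filter_upwards [EP', e0, e2] with v h1 h2 h3
        show D.P 1 (A.pz v) = _
        rw [h1, hpp, h2, h3]
        simp
        ring
      · filter_upwards [EQ', e0, e2] with v h1 h2 h3
        show D.Q 1 (A.pz v) = _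
        rw [h1, hpp, h2, h3]
        simp
        ring

/-- E-charts off the exceptional surface -/
theorem isG_E' (hξ : HolN (A.fam h) y ξ) (hν : HolN (A.fam h) y ν) (hδ : HolN (A.fam h) y δ)
    (hν' : HolN (A.fam h) y ν') (hδ' : HolN (A.fam h) y δ')
    (e0 : ∀ᶠ v in 𝓝 y, p.s0 (A.pz v) = ξ v * δ v * δ' v)
    (e1 : ∀ᶠ v in 𝓝 y, p.s1 (A.pz v) = ξ v * ν v * δ' v)
    (e2 : ∀ᶠ v in 𝓝 y, p'.s1 (A.pz v) = ξ v * δ v * ν' v)
    (h0 : ¬ (ν y = 0 ∧ δ y = 0)) (h0' : ¬ (ν' y = 0 ∧ δ' y = 0)) (hξ0 : ξ y ≠ 0) :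
    (gsX A h hz).IsG y fun v => p.s0 (A.pz v) ^ 5 := by
  refine (isG_E A h hz p p' hpp hU hU' hξ hν hδ hν' hδ' e0 e1 e2 h0 h0').of_asc ?_
  refine Asc.symm ⟨fun v => ξ v ^ 4, hξ.pow 4, pow_ne_zero 4 hξ0, ?_⟩
  filter_upwards [e0] with v h1
  rw [h1]
  ring

end E

section M

variable {m : A.X → ℂ}

include hpp hU hU'

/-- **m-charts** -/
theorem isG_M (hm : HolN (A.fam h) y m)
    (e0 : ∀ᶠ v in 𝓝 y, p.s0 (A.pz v) = m v * p.s1 (A.pz v) * p'.s1 (A.pz v)) :
    (gsX A h hz).IsG y fun v => (p.s1 (A.pz v) * p'.s1 (A.pz v)) ^ 5 := by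
  have Ha := holN_pz' A h p.U_open p.a_hol hU
  have Hb := holN_pz' A h p.U_open p.b_hol hU
  have Hu := holN_pz' A h p.U_open p.u_hol hU
  have Hw := holN_pz' A h p.U_open p.w_hol hU
  have H1 := holN_pz' A h p.U_open p.s1_hol hU
  have Ha' := holN_pz' A h p'.U_open p'.a_hol hU'
  have Hb' := holN_pz' A h p'.U_open p'.b_hol hU'
  have Hu' := holN_pz' A h p'.U_open p'.u_hol hU'
  have Hw' := holN_pz' A h p'.U_open p'.w_hol hU'
  have H2 := holN_pz' A h p'.U_open p'.s1_hol hU'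
  have Ef := ev_pz A p.U_open hU p.ef
  have Ef' := ev_pz A p'.U_open hU' p'.ef
  have Ex := ev_pz A p.U_open hU p.ex
  have Ex' := ev_pz A p'.U_open hU' p'.ex
  have EP := ev_pz A p.U_open hU p.eP
  have EP' := ev_pz A p'.U_open hU' p'.eP
  have EQ := ev_pz A p.U_open hU p.eQ
  have EQ' := ev_pz A p'.U_open hU' p'.eQ
  have l : ∀ c : ℂ, HolN (A.fam h) y fun v => 1 - c * (m v * p'.s1 (A.pz v)) := fun c =>
    (holN_const 1).sub ((holN_const c).mul (hm.mul H2))
  have l' : ∀ c : ℂ, HolN (A.fam h) y fun v => 1 - c * (m v * p.s1 (A.pz v)) := fun c =>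
    (holN_const 1).sub ((holN_const c).mul (hm.mul H1))
  have nc : ∀ c d X : ℂ, c ≠ d → ¬ (1 - c * X = 0 ∧ 1 - d * X = 0) := by
    rintro c d X hcd ⟨h1, h2⟩
    have h3 : (c - d) * X = 0 := by linear_combination h2 - h1
    have h4 := (mul_eq_zero.1 h3).resolve_left (sub_ne_zero.2 hcd)
    rw [h4, mul_zero, sub_zero] at h1
    exact one_ne_zero h1
  have hγ := isG_X A (h := h) hz (y := y) (γ := fun k v => match k with
    | .t i => if i = 0 then p.s1 (A.pz v) else p'.s1 (A.pz v)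
    | .v => p.s1 (A.pz v) * p'.s1 (A.pz v)
    | .k i => if i = 0 then p.s1 (A.pz v) ^ 3 else p'.s1 (A.pz v) ^ 3) ?_
  · refine hγ.of_asc ((Asc.refl _).congr (Eventually.of_forall fun v => ?_)
      (Eventually.of_forall fun _ => rfl))
    rw [prod_KP]
    simp only [if_true, one_ne_zero, if_false]
    ring
  rintro (i | _ | i)
  · fin_cases i
    · refine pair_gen (α := fun v => p.b (A.pz v) * (1 - p.c 5 * (m v * p'.s1 (A.pz v))))
        (β := fun v => p.a (A.pz v) * (m v * p'.s1 (A.pz v))) (Hb.mul (l _))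
        (Ha.mul (hm.mul H2)) ?_ ?_ ?_
      · rintro ⟨h1, h2⟩
        have h3 := (mul_eq_zero.1 h1).resolve_left (p.b_ne _ hU)
        have h4 := (mul_eq_zero.1 h2).resolve_left (p.a_ne _ hU)
        rw [h4, mul_zero, sub_zero] at h3
        exact one_ne_zero h3
      · filter_upwards [Ex, e0] with v h1 h2
        show D.x 0 (A.pz v) = _
        rw [h1, h2]
        simp
        ring
      · filter_upwards [Ef, e0] with v h1 h2
        show D.f0 (A.pz v) = _
        rw [h1, h2]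
        simp
        ring
    · refine pair_gen (α := fun v => p'.b (A.pz v) * (1 - p'.c 5 * (m v * p.s1 (A.pz v))))
        (β := fun v => p'.a (A.pz v) * (m v * p.s1 (A.pz v))) (Hb'.mul (l' _))
        (Ha'.mul (hm.mul H1)) ?_ ?_ ?_
      · rintro ⟨h1, h2⟩
        have h3 := (mul_eq_zero.1 h1).resolve_left (p'.b_ne _ hU')
        have h4 := (mul_eq_zero.1 h2).resolve_left (p'.a_ne _ hU')
        rw [h4, mul_zero, sub_zero] at h3
        exact one_ne_zero h3
      · filter_upwards [Ex', e0] with v h1 h2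
        show D.x 1 (A.pz v) = _
        rw [h1, hpp, h2]
        simp
        ring
      · filter_upwards [Ef', e0] with v h1 h2
        show D.f0 (A.pz v) = _
        rw [h1, hpp, h2]
        simp
        ring
  · refine pair_gen (α := fun v => p.b (A.pz v) * p'.b (A.pz v) *
        ((1 - p.c 5 * (m v * p'.s1 (A.pz v))) * (1 - p'.c 5 * (m v * p.s1 (A.pz v)))))
      (β := fun v => p.a (A.pz v) * m v) ((Hb.mul Hb').mul ((l _).mul (l' _))) (Ha.mul hm)
      ?_ ?_ ?_
    · rintro ⟨h1, h2⟩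
      have h3 := (mul_eq_zero.1 h1).resolve_left (mul_ne_zero (p.b_ne _ hU) (p'.b_ne _ hU'))
      have h4 := (mul_eq_zero.1 h2).resolve_left (p.a_ne _ hU)
      rw [h4] at h3
      simp at h3
    · filter_upwards [Ex, Ex', e0] with v h1 h2 h3
      show D.x 0 (A.pz v) * D.x 1 (A.pz v) = _
      rw [h1, h2, hpp, h3]
      ring
    · filter_upwards [Ef, e0] with v h1 h2
      show D.f0 (A.pz v) = _
      rw [h1, h2]
      ring
  · fin_cases i
    · refine pair_gen (α := fun v => p.u (A.pz v) * ((1 - p.c 0 * (m v * p'.s1 (A.pz v))) *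
          (1 - p.c 1 * (m v * p'.s1 (A.pz v))) * (1 - p.c 2 * (m v * p'.s1 (A.pz v)))))
        (β := fun v => p.w (A.pz v) * ((1 - p.c 3 * (m v * p'.s1 (A.pz v))) *
          (1 - p.c 4 * (m v * p'.s1 (A.pz v))) * (1 - p.c 5 * (m v * p'.s1 (A.pz v)))))
        (Hu.mul (((l _).mul (l _)).mul (l _))) (Hw.mul (((l _).mul (l _)).mul (l _))) ?_ ?_ ?_
      · rintro ⟨h1, h2⟩
        have h3 := (mul_eq_zero.1 h1).resolve_left (p.u_ne _ hU)
        have h4 := (mul_eq_zero.1 h2).resolve_left (p.w_ne _ hU)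
        rw [mul_eq_zero, mul_eq_zero] at h3 h4
        rcases h3 with (h3 | h3) | h3 <;> rcases h4 with (h4 | h4) | h4 <;>
          exact nc _ _ _ (fun hc => absurd (p.c_inj hc) (by decide)) ⟨h3, h4⟩
      · filter_upwards [EP, e0] with v h1 h2
        show D.P 0 (A.pz v) = _
        rw [h1, h2]
        simp
        ring
      · filter_upwards [EQ, e0] with v h1 h2
        show D.Q 0 (A.pz v) = _
        rw [h1, h2]
        simp
        ring
    · refine pair_gen (α := fun v => p'.u (A.pz v) * ((1 - p'.c 0 * (m v * p.s1 (A.pz v))) *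
          (1 - p'.c 1 * (m v * p.s1 (A.pz v))) * (1 - p'.c 2 * (m v * p.s1 (A.pz v)))))
        (β := fun v => p'.w (A.pz v) * ((1 - p'.c 3 * (m v * p.s1 (A.pz v))) *
          (1 - p'.c 4 * (m v * p.s1 (A.pz v))) * (1 - p'.c 5 * (m v * p.s1 (A.pz v)))))
        (Hu'.mul (((l' _).mul (l' _)).mul (l' _))) (Hw'.mul (((l' _).mul (l' _)).mul (l' _)))
        ?_ ?_ ?_
      · rintro ⟨h1, h2⟩
        have h3 := (mul_eq_zero.1 h1).resolve_left (p'.u_ne _ hU')
        have h4 := (mul_eq_zero.1 h2).resolve_left (p'.w_ne _ hU')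
        rw [mul_eq_zero, mul_eq_zero] at h3 h4
        rcases h3 with (h3 | h3) | h3 <;> rcases h4 with (h4 | h4) | h4 <;>
          exact nc _ _ _ (fun hc => absurd (p'.c_inj hc) (by decide)) ⟨h3, h4⟩
      · filter_upwards [EP', e0] with v h1 h2
        show D.P 1 (A.pz v) = _
        rw [h1, hpp, h2]
        simp
        ring
      · filter_upwards [EQ', e0] with v h1 h2
        show D.Q 1 (A.pz v) = _
        rw [h1, hpp, h2]
        simp
        ring

end M

section Down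

variable [Nonempty N] {h} (hX : RA (A.fam h) G)

/-- the equations of `J` at the image of `y`, from a generator -/
theorem J_sq {γ : A.X → ℂ} (hγ : (gsX A h hz).IsG y γ) {a : (JX A hX hz).α}
    (ha : pr G y ∈ (JX A hX hz).V a) (k : ℕ) :
    Asc (A.fam h) y (fun v => (JX A hX hz).f a (pr G v) ^ k) fun v => γ v ^ (2 * k) := by
  have h1 := (asc_of_JX A hX hz ha hγ).pow k
  refine h1.congr (Eventually.of_forall fun _ => rfl) (Eventually.of_forall fun v => ?_)
  show γ v ^ (2 * k) = (γ v * γ v) ^ k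
  rw [pow_mul, pow_two]

end Down

end

end Crest.Agent.R272.Lc_220
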