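import Crest.Agent.R272.PosP7_848
import Crest.Agent.R272.LcR2_783
import Crest.Agent.R272.CB9_232

/-!
# R272 (S0415), POS at `p0`, (K-b) (helper898), file 2: local lemmas

* `asc_units`  : two units are associated;
* `asc_diff`   : the difference of two coordinates which vanishes on the fixed points is a local
                 equation of the fixed divisor;
* `genM_1`, `genM_2` : generators of the list in the `m`-charts;
* `rho_aff`    : `F - 2 y y' = (y - y')² · unit` at a Weierstrass point.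
-/

set_option autoImplicit false
set_option linter.unusedSectionVars false
set_option linter.unusedVariables false

open Set Filter Topology Complex

namespace Crest.Agent.R272.Kb_898

open Crest.Agent.R275.Geo Crest.Agent.R273.Fam_835 Crest.Agent.R272.Quot_783
open Crest.Agent.R272.MQ_783 Crest.Agent.R272.Refl_246 Crest.Agent.R272.LcR_783
open Crest.Agent.R272.Lc_220 Crest.Agent.R272.PosL_898
open Crest.Agent.R272.FinCB3_876 (GenAt ValC)
open Crest.Agent.R272.PW_92 (IPhi Phi)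

noncomputable section

variable {n : ℕ} {Y : Type} [TopologicalSpace Y] {C : Fam n Y} {y : Y} {f g : Y → ℂ}

/-- two units -/
theorem asc_units (hf : HolN C y f) (hg : HolN C y g) (f0 : f y ≠ 0) (g0 : g y ≠ 0) :
    Asc C y f g := by
  refine ⟨fun v => f v / g v, hf.div hg g0, div_ne_zero f0 g0, ?_⟩
  filter_upwards [hg.continuousAt.eventually_ne g0] with v hv
  rw [div_mul_cancel₀ _ hv]

theorem asc_of_eq {u : Y → ℂ} (hu : HolN C y u) (u0 : u y ≠ 0)
    (he : ∀ᶠ v in 𝓝 y, f v = u v * g v) : Asc C y f g := ⟨u, hu, u0, he⟩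

variable {G : Type} [Group G] [MulAction G Y]

/-- **the difference of two coordinates** -/
theorem asc_diff {ψ : OpenPartialHomeomorph Y (Cn n)} (hψ : Refl_246.Cpt C ψ) (hy : y ∈ ψ.source)
    {i j : Fin n} (hij : i ≠ j) {F : Y → ℂ} (hF : ∀ᶠ v in 𝓝 y, F v = ψ v i - ψ v j)
    {c : RC G C} (hc : y ∈ c.e.source) (hfix : ∃ g : G, g ≠ 1 ∧ g • y = y)
    (hz : ∀ᶠ v in 𝓝 y, (∃ g : G, g ≠ 1 ∧ g • v = v) → F v = 0) : Asc C y F (eqU c) := by
  have hsymm : Tendsto ψ.symm (𝓝 (ψ y)) (𝓝 y) := by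
    have h1 := (ψ.continuousAt_symm (ψ.map_source hy)).tendsto
    rwa [ψ.left_inv hy] at h1
  have hF' : ∀ᶠ w in 𝓝 (ψ y), F (ψ.symm w) = w i - w j := by
    filter_upwards [hsymm.eventually hF, ψ.open_target.mem_nhds (ψ.map_source hy)] with w h1 h2
    rw [h1, ψ.right_inv h2]
  have hFh : HolN C y F := by
    rw [holN_iff_cpt hψ hy]
    have h1 : AnalyticAt ℂ (fun w : Cn n => w i - w j) (ψ y) := by
      have h3 : Differentiable ℂ fun w : Cn n => w i - w j := by fun_prop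
      exact Crest.Agent.R266.SCV.analyticOnNhd_of_differentiableOn isOpen_univ
        h3.differentiableOn _ (mem_univ _)
    exact h1.congr (hF'.mono fun w hw => hw.symm)
  obtain ⟨w, hw, he⟩ := dvd_eqU hc hFh hz
  refine ⟨w, hw, fun h0 => ?_, he⟩
  have hU0 : eqU c y = 0 := (eqU_zero_iff hc).2 hfix
  have hF0 : F y = 0 := by rw [he.self_of_nhds, h0, zero_mul]
  have hd0 : ψ y i - ψ y j = 0 := by rw [← hF.self_of_nhds, hF0]
  -- the line
  set φ : ℂ → Cn n := fun τ => ψ y + τ • EuclideanSpace.single i 1 with hφ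
  have hφ0 : φ 0 = ψ y := by simp [hφ]
  have hφd : DifferentiableAt ℂ φ 0 := by
    have : Differentiable ℂ φ := by
      rw [hφ]; fun_prop
    exact this 0
  have hφt : Tendsto φ (𝓝 0) (𝓝 (ψ y)) := by
    have := hφd.continuousAt.tendsto
    rwa [hφ0] at this
  have hWa : DifferentiableAt ℂ (fun τ => w (ψ.symm (φ τ))) 0 := by
    have h1 : DifferentiableAt ℂ (fun z => w (ψ.symm z)) (φ 0) := by
      rw [hφ0]; exact ((holN_iff_cpt hψ hy).1 hw).differentiableAt
    exact DifferentiableAt.comp 0 (g := fun z => w (ψ.symm z)) h1 hφd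
  have hUa : DifferentiableAt ℂ (fun τ => eqU c (ψ.symm (φ τ))) 0 := by
    have h1 : DifferentiableAt ℂ (fun z => eqU c (ψ.symm z)) (φ 0) := by
      rw [hφ0]; exact ((holN_iff_cpt hψ hy).1 (holN_eqU hc)).differentiableAt
    exact DifferentiableAt.comp 0 (g := fun z => eqU c (ψ.symm z)) h1 hφd
  have h1 := hWa.hasDerivAt.mul hUa.hasDerivAt
  simp only [hφ0, ψ.left_inv hy, h0, hU0, mul_zero, zero_mul, add_zero] at h1
  have h2 : HasDerivAt (fun τ : ℂ => τ) 1 0 := hasDerivAt_id 0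
  have h3 : (fun τ : ℂ => τ) =ᶠ[𝓝 0] fun τ => w (ψ.symm (φ τ)) * eqU c (ψ.symm (φ τ)) := by
    filter_upwards [hφt.eventually hF', (hsymm.comp hφt).eventually he] with τ k1 k2
    simp only [Function.comp] at k2
    rw [← k2, k1]
    have e1 : φ τ i = ψ y i + τ := by simp [hφ]
    have e2 : φ τ j = ψ y j := by simp [hφ, hij.symm]
    rw [e1, e2]
    linear_combination -hd0
  have h4 := h1.congr_of_eventuallyEq h3
  exact one_ne_zero (h2.unique h4)

/-- off the fixed points the local equation is a unit -/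
theorem eqU_ne {c : RC G C} (hc : y ∈ c.e.source) (hfix : ¬ ∃ g : G, g ≠ 1 ∧ g • y = y) :
    eqU c y ≠ 0 := fun h => hfix ((eqU_zero_iff hc).1 h)

/-! ### the list in the `m`-charts -/

section M

variable {m x1 x2 S rm h : Y → ℂ} {b : ℕ}

/-- `rm = D h` -/
theorem genM_1 (hb : 15 ≤ b) (hm : HolN C y m) (h1 : HolN C y x1) (h2 : HolN C y x2)
    (hh : HolN C y h) (hS : ∀ᶠ v in 𝓝 y, S v = (x1 v * x2 v) ^ 3 * ((x1 v - x2 v) ^ 2 * h v)) :
    GenAt C (fun i v => Phi b (m v * (x1 v * x2 v)) (x1 v + x2 v) (x1 v * x2 v) (S v) i)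
      (fun v => (x1 v * x2 v) ^ b * ((x1 v - x2 v) ^ 2) ^ 4) y := by
  have hp : HolN C y fun v => x1 v * x2 v := h1.mul h2
  have hE : HolN C y fun v => x1 v + x2 v := h1.add h2
  have hz : ∀ j, HolN C y fun v => zm (m v) (x1 v + x2 v) (x1 v * x2 v) j := by
    intro j
    fin_cases j
    · exact (hm.pow 2).mul hp
    · exact hm.mul hE
    · exact holN_const 1
  refine genAt_of (u := fun i v => YM1 b (m v) (x1 v + x2 v) (x1 v * x2 v) (h v) i)
    (fun i => ?_) ?_ ⟨.v, one_ne_zero⟩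
  · cases i with
    | l j => exact (hm.pow _).mul (hz j)
    | W => exact (hm.pow _).mul hh
    | W2 => exact (hm.pow _).mul (hh.pow 2)
    | W3 j => exact ((hm.pow _).mul (hh.pow 3)).mul (hz j)
    | W4 j k => exact (((hm.pow _).mul (hh.pow 4)).mul (hz j)).mul (hz k)
    | v => exact holN_const 1
    | last => exact hh.pow 4
  · filter_upwards [hS] with v hv i
    rw [phi_M1 hb rfl (h := h v) (by rw [hv]; ring) i]
    unfold gM1
    ring

/-- `D = rm h'`, `rm` a unit -/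
theorem genM_2 (hb : 15 ≤ b) (hm : HolN C y m) (h1 : HolN C y x1) (h2 : HolN C y x2)
    (hr : HolN C y rm) (hr0 : rm y ≠ 0)
    (hS : ∀ᶠ v in 𝓝 y, S v = (x1 v * x2 v) ^ 3 * rm v) :
    GenAt C (fun i v => Phi b (m v * (x1 v * x2 v)) (x1 v + x2 v) (x1 v * x2 v) (S v) i)
      (fun v => (x1 v * x2 v) ^ b) y := by
  have hp : HolN C y fun v => x1 v * x2 v := h1.mul h2
  have hE : HolN C y fun v => x1 v + x2 v := h1.add h2
  have hD : HolN C y fun v => (x1 v + x2 v) ^ 2 - 4 * (x1 v * x2 v) :=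
    (hE.pow 2).sub ((holN_const 4).mul hp)
  have hz : ∀ j, HolN C y fun v => zm (m v) (x1 v + x2 v) (x1 v * x2 v) j := by
    intro j
    fin_cases j
    · exact (hm.pow 2).mul hp
    · exact hm.mul hE
    · exact holN_const 1
  refine genAt_of (u := fun i v => YM2 b (m v) (x1 v + x2 v) (x1 v * x2 v) (rm v) i)
    (fun i => ?_) ?_ ⟨.last, pow_ne_zero 4 hr0⟩
  · cases i with
    | l j => exact ((hD.pow 4).mul (hm.pow _)).mul (hz j)
    | W => exact ((hD.pow 3).mul (hm.pow _)).mul hr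
    | W2 => exact ((hD.pow 2).mul (hm.pow _)).mul (hr.pow 2)
    | W3 j => exact ((hD.mul (hm.pow _)).mul (hr.pow 3)).mul (hz j)
    | W4 j k => exact (((hm.pow _).mul (hr.pow 4)).mul (hz j)).mul (hz k)
    | v => exact hD.pow 4
    | last => exact hr.pow 4
  · filter_upwards [hS] with v hv i
    rw [phi_M2 hb rfl (h := rm v) hv i]
    rfl

end M

/-! ### Weierstrass points -/

section W

open Crest.Agent.R272.Kum_977 (fh Fh rho del K0 fhr fhr_sq Simple)

variable (a : Fin 7 → ℂ)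

/-- the second divided difference -/
def h2 (t t' : ℂ) : ℂ :=
  -(a 2 + a 3 * (t + t') + a 4 * (t + t') ^ 2 + a 5 * (t ^ 2 + t * t' + t' ^ 2) * (t + t') +
    a 6 * (t ^ 2 + t * t' + t' ^ 2) ^ 2)

/-- the divided difference of the sextic -/
def h1 (t t' : ℂ) : ℂ :=
  a 1 + a 2 * (t + t') + a 3 * (t ^ 2 + t * t' + t' ^ 2) + a 4 * (t + t') * (t ^ 2 + t' ^ 2) +
    a 5 * (t ^ 4 + t ^ 3 * t' + t ^ 2 * t' ^ 2 + t * t' ^ 3 + t' ^ 4) +
    a 6 * (t + t') * (t ^ 4 + t ^ 2 * t' ^ 2 + t' ^ 4)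

theorem Fh_h2 (t t' : ℂ) : Fh a 1 t 1 t' = fh a 1 t + fh a 1 t' + (t - t') ^ 2 * h2 a t t' := by
  unfold Fh fh h2; ring

theorem fh_h1 (t t' : ℂ) : fh a 1 t - fh a 1 t' = (t - t') * h1 a t t' := by
  unfold fh h1; ring

theorem h1_self (t : ℂ) : h1 a t t = fhr a 1 t := by
  unfold h1 fhr; ring

variable {a}

/-- **`F - 2 e e' = (e - e')² · unit` at a Weierstrass point** -/
theorem rho_asc (hS : Simple a) {t t' e e' : Y → ℂ} (ht : HolN C y t) (ht' : HolN C y t')
    (he : HolN C y e) (he' : HolN C y e') (hq : ∀ᶠ v in 𝓝 y, e v ^ 2 = fh a 1 (t v))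
    (hq' : ∀ᶠ v in 𝓝 y, e' v ^ 2 = fh a 1 (t' v)) (h0 : e y = 0) (h0' : e' y = 0)
    (htt : t y = t' y) :
    Asc C y (fun v => rho a 1 (t v) (e v) 1 (t' v) (e' v)) fun v => (e v - e' v) ^ 2 := by
  have hh1 : HolN C y fun v => h1 a (t v) (t' v) := by
    unfold h1
    holn
  have hh2 : HolN C y fun v => h2 a (t v) (t' v) := by
    unfold h2
    holn
  have hne : h1 a (t y) (t' y) ≠ 0 := by
    rw [← htt, h1_self]
    intro h
    have h2 := fhr_sq (a := a) 1 (t y)
    have h3 : fh a 1 (t y) = 0 := by rw [← hq.self_of_nhds, h0]; ring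
    rw [h, h3] at h2
    refine hS 1 (t y) (Or.inl one_ne_zero) h3 ?_
    linear_combination -h2
  refine ⟨fun v => 1 + (e v + e' v) ^ 2 * h2 a (t v) (t' v) / h1 a (t v) (t' v) ^ 2, ?_, ?_, ?_⟩
  · exact (holN_const 1).add ((((he.add he').pow 2).mul hh2).div (hh1.pow 2) (pow_ne_zero 2 hne))
  · simp [h0, h0']
  · filter_upwards [hq, hq', hh1.continuousAt.eventually_ne hne] with v k1 k2 k3
    have e1 : rho a 1 (t v) (e v) 1 (t' v) (e' v) = (e v - e' v) ^ 2 +
        (t v - t' v) ^ 2 * h2 a (t v) (t' v) := by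
      unfold rho
      rw [Fh_h2, ← k1, ← k2]
      ring
    have e2 : (e v - e' v) * (e v + e' v) = (t v - t' v) * h1 a (t v) (t' v) := by
      rw [← fh_h1, ← k1, ← k2]; ring
    have e3 : t v - t' v = (e v - e' v) * (e v + e' v) / h1 a (t v) (t' v) := by
      rw [e2, mul_div_cancel_right₀ _ k3]
    rw [e1, e3]
    field_simp

end W

end

end Crest.Agent.R272.Kb_898
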