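import Crest.Agent.R273.ThmD2A_505

/-!
# R272, KOD-EMB (helper410), part 1: the abstract `L²` estimate

Setting of `R273.AbsStep392`: a pre-Hilbert space `S`, `d`, its formal adjoint `ds`, `d d = 0`,
mollifiers `J`. From `‖E u‖ ≤ ‖d u‖ + ‖ds u‖` (`E` a map with `⟪z, u⟫ = ⟪z, E u⟫`) and the limit
property `LIM` :

* `near_closed` : every `u` is approximated, weakly against closed elements, by `c m` with
  `d (c m) → 0` and `ds (c m) → ds u`;
* `apriori`     : `‖⟪z, u⟫‖ ≤ ‖z‖ * ‖ds u‖` for `z` closed, `z = E z`;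
* `abs_bound`   : `d y0 = z`, `ds y0 = 0` ⟹ there is `y` with `d y = z`, `‖y‖ ≤ ‖z‖`.
-/

set_option autoImplicit false
set_option linter.style.haveILetI false

open Filter Topology
open scoped InnerProductSpace

namespace Crest.Agent.R272.Kod1_410

open Crest.Agent.R273.AbsStep392

section normed

variable {S : Type*} [NormedAddCommGroup S] [InnerProductSpace ℂ S]
  (d ds : S →ₗ[ℂ] S) (hadj : ∀ u w, ⟪d u, w⟫_ℂ = ⟪u, ds w⟫_ℂ)

include hadj in
theorem hadj' (u w : S) : ⟪ds u, w⟫_ℂ = ⟪u, d w⟫_ℂ := by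
  rw [← inner_conj_symm, ← hadj, inner_conj_symm]

include hadj in
theorem dsds (hdd : ∀ u, d (d u) = 0) (u : S) : ds (ds u) = 0 := by
  have h : ⟪ds (ds u), ds (ds u)⟫_ℂ = 0 := by
    rw [hadj' d ds hadj (ds u), hadj' d ds hadj u, hdd, inner_zero_right]
  exact inner_self_eq_zero.1 h

/-- a bounded linear family, null along every fixed vector, is null along Cauchy sequences -/
theorem tc {X : Type*} [NormedAddCommGroup X] [NormedSpace ℂ X] (A : ℕ → S →ₗ[ℂ] X) (C : ℝ)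
    (hC : ∀ N u, ‖A N u‖ ≤ C * ‖u‖) (h0 : ∀ u, Tendsto (fun N => A N u) atTop (𝓝 0))
    (b : ℕ → S) (hb : CauchySeq b) : Tendsto (fun N => A N (b N)) atTop (𝓝 0) :=
  tendsto_of_cauchy A C hC h0 b hb

variable (hdd : ∀ u, d (d u) = 0) (J : ℕ → S →ₗ[ℂ] S) (C : ℝ)
    (F1b : ∀ N u, ‖J N u‖ ≤ C * ‖u‖) (F1 : ∀ u, Tendsto (fun N => J N u) atTop (𝓝 u))
    (F2b : ∀ N u, ‖d (J N u) - J N (d u)‖ ≤ C * ‖u‖)
    (F2 : ∀ u, Tendsto (fun N => d (J N u) - J N (d u)) atTop (𝓝 0))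
    (F2sb : ∀ N u, ‖ds (J N u) - J N (ds u)‖ ≤ C * ‖u‖)
    (F2s : ∀ u, Tendsto (fun N => ds (J N u) - J N (ds u)) atTop (𝓝 0))
    (F3 : ∀ N, ∃ (m : ℕ) (s e : Fin m → S), ∀ v, J N v = ∑ k, ⟪s k, v⟫_ℂ • e k)

include hadj hdd F1b F1 F2b F2 F2sb F2s F3 in
theorem near_closed (u : S) : ∃ c : ℕ → S, Tendsto (fun N => d (c N)) atTop (𝓝 0) ∧
    Tendsto (fun N => ds (c N)) atTop (𝓝 (ds u)) ∧
    ∀ z, d z = 0 → Tendsto (fun N => ⟪z, c N⟫_ℂ) atTop (𝓝 ⟪z, u⟫_ℂ) := by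
  obtain ⟨y', hc', hw'⟩ := exists_min_seq ds u
  have hfix : ∀ N, Tendsto (fun n => J N (d (u - ds (y' n)))) atTop (𝓝 0) := by
    intro N
    obtain ⟨m, s, e, hse⟩ := F3 N
    have h1 : (fun n => J N (d (u - ds (y' n)))) =
        fun n => ∑ k, ⟪ds (s k), u - ds (y' n)⟫_ℂ • e k := by
      funext n
      rw [hse]
      exact Finset.sum_congr rfl fun k _ => by rw [hadj' d ds hadj]
    rw [h1]
    have h2 : Tendsto (fun n => ∑ k, ⟪ds (s k), u - ds (y' n)⟫_ℂ • e k) atTop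
        (𝓝 (∑ k, (0 : ℂ) • e k)) :=
      tendsto_finsetSum _ fun k _ => (hw' (s k)).smul_const (e k)
    simpa using h2
  have hch : ∀ N : ℕ, ∃ n ≥ N, ‖J N (d (u - ds (y' n)))‖ < 1 / ((N : ℝ) + 1) := by
    intro N
    obtain ⟨n0, hn0⟩ := Metric.tendsto_atTop.1 (hfix N) (1 / ((N : ℝ) + 1)) (by positivity)
    refine ⟨max N n0, le_max_left _ _, ?_⟩
    have := hn0 (max N n0) (le_max_right _ _)
    rwa [dist_zero_right] at this
  choose φ hφ1 hφ2 using hch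
  have hφ : Tendsto φ atTop atTop := tendsto_atTop_mono hφ1 tendsto_id
  have hb : CauchySeq (fun N => u - ds (y' (φ N))) := hc'.comp_tendsto hφ
  set b : ℕ → S := fun N => u - ds (y' (φ N)) with hbdef
  have hdb : ∀ N, ds (b N) = ds u := fun N => by
    simp only [hbdef, map_sub, dsds d ds hadj hdd, sub_zero]
  refine ⟨fun N => J N (b N), ?_, ?_, ?_⟩
  · have h := tc (fun N => d ∘ₗ J N - J N ∘ₗ d) C
      (fun N u => by simpa using F2b N u) (fun u => by simpa using F2 u) b hb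
    have h2 : Tendsto (fun N => J N (d (b N))) atTop (𝓝 0) := by
      refine squeeze_zero_norm (fun N => (hφ2 N).le) ?_
      exact tendsto_one_div_add_atTop_nhds_zero_nat
    have h3 := h.add h2
    rw [add_zero] at h3
    refine h3.congr fun N => ?_
    simp
  · have h := tc (fun N => ds ∘ₗ J N - J N ∘ₗ ds) C
      (fun N u => by simpa using F2sb N u) (fun u => by simpa using F2s u) b hb
    have h3 := h.add (F1 (ds u))
    rw [zero_add] at h3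
    refine h3.congr fun N => ?_
    simp [hdb]
  · intro z hz
    have h := tc (fun N => J N - LinearMap.id) (C + 1)
      (fun N u => by
        have h1 : ‖(J N - LinearMap.id : S →ₗ[ℂ] S) u‖ ≤ ‖J N u‖ + ‖u‖ := by
          simpa using norm_sub_le (J N u) u
        have h2 := F1b N u
        linarith)
      (fun u => by
        have h1 : Tendsto (fun N => J N u - u) atTop (𝓝 (u - u)) := (F1 u).sub_const u
        simpa using h1)
      b hb
    have h1 : Tendsto (fun N => ⟪z, J N (b N) - b N⟫_ℂ + ⟪z, u⟫_ℂ) atTop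
        (𝓝 (⟪z, (0 : S)⟫_ℂ + ⟪z, u⟫_ℂ)) :=
      ((tendsto_const_nhds (x := z)).inner (by simpa using h)).add_const _
    rw [inner_zero_right, zero_add] at h1
    refine h1.congr fun N => ?_
    have h2 : ⟪z, ds (y' (φ N))⟫_ℂ = 0 := by rw [← hadj, hz, inner_zero_left]
    have h3 : ⟪z, u⟫_ℂ = ⟪z, b N⟫_ℂ := by
      simp only [hbdef]
      rw [inner_sub_right, h2, sub_zero]
    rw [h3, ← inner_add_right, sub_add_cancel]

include hadj hdd F1b F1 F2b F2 F2sb F2s F3 in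
/-- **a priori estimate** -/
theorem apriori (E : S → S) (hE : ∀ u, ‖E u‖ ≤ ‖d u‖ + ‖ds u‖) {z : S} (hz : d z = 0)
    (hzE : ∀ u, ⟪z, u⟫_ℂ = ⟪z, E u⟫_ℂ) (u : S) : ‖⟪z, u⟫_ℂ‖ ≤ ‖z‖ * ‖ds u‖ := by
  obtain ⟨c, h1, h2, h3⟩ := near_closed d ds hadj hdd J C F1b F1 F2b F2 F2sb F2s F3 u
  have h4 : Tendsto (fun N => ‖z‖ * (‖d (c N)‖ + ‖ds (c N)‖)) atTop
      (𝓝 (‖z‖ * (‖(0 : S)‖ + ‖ds u‖))) := (h1.norm.add h2.norm).const_mul _
  rw [norm_zero, zero_add] at h4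
  refine le_of_tendsto_of_tendsto (h3 z hz).norm h4 (Eventually.of_forall fun N => ?_)
  show ‖⟪z, c N⟫_ℂ‖ ≤ _
  rw [hzE]
  exact (norm_inner_le_norm _ _).trans (mul_le_mul_of_nonneg_left (hE _) (norm_nonneg _))

/-- harmonic elements -/
def har : Submodule ℂ S := LinearMap.ker d ⊓ LinearMap.ker ds

theorem mem_har {v : S} : v ∈ har d ds ↔ d v = 0 ∧ ds v = 0 := Iff.rfl

variable (LIM : ∀ u : ℕ → S, CauchySeq u → Tendsto (fun N => d (u N)) atTop (𝓝 0) →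
  Tendsto (fun N => ds (u N)) atTop (𝓝 0) → ∃ v, d v = 0 ∧ Tendsto u atTop (𝓝 v))

include hadj LIM in
theorem lim_har (u : ℕ → S) (hc : CauchySeq u) (h1 : Tendsto (fun N => d (u N)) atTop (𝓝 0))
    (h2 : Tendsto (fun N => ds (u N)) atTop (𝓝 0)) :
    ∃ v ∈ har d ds, Tendsto u atTop (𝓝 v) := by
  obtain ⟨v, hv, hu⟩ := LIM u hc h1 h2
  refine ⟨v, (mem_har d ds).2 ⟨hv, ?_⟩, hu⟩
  have h3 : Tendsto (fun N => ⟪ds (u N), ds v⟫_ℂ) atTop (𝓝 ⟪(0 : S), ds v⟫_ℂ) :=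
    h2.inner tendsto_const_nhds
  have h4 : Tendsto (fun N => ⟪u N, d (ds v)⟫_ℂ) atTop (𝓝 ⟪v, d (ds v)⟫_ℂ) :=
    hu.inner tendsto_const_nhds
  have h5 : (fun N => ⟪ds (u N), ds v⟫_ℂ) = fun N => ⟪u N, d (ds v)⟫_ℂ := by
    funext N
    rw [hadj' d ds hadj]
  rw [h5] at h3
  have h6 := tendsto_nhds_unique h4 h3
  rw [inner_zero_left, ← hadj' d ds hadj] at h6
  exact inner_self_eq_zero.1 h6

include hadj LIM in
/-- projection to the orthogonal of the harmonic space -/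
theorem exists_proj (y0 : S) : ∃ k ∈ har d ds, ∀ w ∈ har d ds, ⟪w, y0 - k⟫_ℂ = 0 := by
  obtain ⟨k, hk, hw⟩ := exists_min_seq (har d ds).subtype y0
  have hc : CauchySeq (fun n => ((k n : S))) := by
    have h1 : CauchySeq (fun n => y0 - (y0 - (k n : S))) := by
      rw [Metric.cauchySeq_iff] at hk ⊢
      intro ε hε
      obtain ⟨N, hN⟩ := hk ε hε
      refine ⟨N, fun m hm n hn => ?_⟩
      have := hN m hm n hn
      rw [dist_eq_norm] at this ⊢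
      rw [sub_sub_sub_cancel_left, ← norm_neg, neg_sub]
      exact this
    simpa using h1
  obtain ⟨v, hv, hlim⟩ := lim_har d ds hadj LIM (fun n => (k n : S)) hc
    (by
      have : (fun n => d (k n : S)) = fun _ => 0 := funext fun n => ((mem_har d ds).1 (k n).2).1
      rw [this]; exact tendsto_const_nhds)
    (by
      have : (fun n => ds (k n : S)) = fun _ => 0 := funext fun n => ((mem_har d ds).1 (k n).2).2
      rw [this]; exact tendsto_const_nhds)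
  refine ⟨v, hv, fun w hw' => ?_⟩
  have h1 : Tendsto (fun n => ⟪w, y0 - (k n : S)⟫_ℂ) atTop (𝓝 ⟪w, y0 - v⟫_ℂ) :=
    tendsto_const_nhds.inner (tendsto_const_nhds.sub hlim)
  exact tendsto_nhds_unique h1 (hw ⟨w, hw'⟩)

include hadj hdd F1b F1 F2b F2 F2sb F2s F3 LIM in
/-- **the bound of the solution orthogonal to the harmonic elements** -/
theorem bound (E : S → S) (hE : ∀ u, ‖E u‖ ≤ ‖d u‖ + ‖ds u‖) {z y : S} (hz : d z = 0)
    (hzE : ∀ u, ⟪z, u⟫_ℂ = ⟪z, E u⟫_ℂ) (hy : d y = z) (hys : ds y = 0)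
    (hperp : ∀ w ∈ har d ds, ⟪w, y⟫_ℂ = 0) : ‖y‖ ≤ ‖z‖ := by
  obtain ⟨a, c, hb, hc, hcb, -, h1, h2, -, -⟩ := exists_seq_one ds d
    (hadj' d ds hadj) (dsds d ds hadj hdd) J C F1b F1 F2sb F2s F2b F2 F3 y hys
  obtain ⟨v, hv, hcv⟩ := lim_har d ds hadj LIM c hc h2 h1
  have hbv : Tendsto (fun N => y - ds (a N)) atTop (𝓝 v) := by
    have h3 := hcv.sub hcb
    rw [sub_zero] at h3
    refine h3.congr fun N => ?_
    abel
  have hv0 : v = 0 := by
    have h3 : Tendsto (fun N => ⟪v, y - ds (a N)⟫_ℂ) atTop (𝓝 ⟪v, v⟫_ℂ) :=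
      tendsto_const_nhds.inner hbv
    have h4 : (fun N => ⟪v, y - ds (a N)⟫_ℂ) = fun _ => 0 := by
      funext N
      rw [inner_sub_right, hperp v hv, ← hadj, ((mem_har d ds).1 hv).1, inner_zero_left, sub_zero]
    rw [h4] at h3
    exact inner_self_eq_zero.1 (tendsto_nhds_unique h3 tendsto_const_nhds)
  have hsa : Tendsto (fun N => ds (a N)) atTop (𝓝 y) := by
    have h3 : Tendsto (fun N => y - (y - ds (a N))) atTop (𝓝 (y - v)) :=
      tendsto_const_nhds.sub hbv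
    rw [hv0, sub_zero] at h3
    refine h3.congr fun N => ?_
    abel
  have h5 : Tendsto (fun N => ‖⟪ds (a N), y⟫_ℂ‖) atTop (𝓝 ‖⟪y, y⟫_ℂ‖) :=
    (hsa.inner tendsto_const_nhds).norm
  have h6 : Tendsto (fun N => ‖z‖ * ‖ds (a N)‖) atTop (𝓝 (‖z‖ * ‖y‖)) := hsa.norm.const_mul _
  have h7 : ‖⟪y, y⟫_ℂ‖ ≤ ‖z‖ * ‖y‖ := by
    refine le_of_tendsto_of_tendsto h5 h6 (Eventually.of_forall fun N => ?_)
    show ‖⟪ds (a N), y⟫_ℂ‖ ≤ _
    rw [hadj' d ds hadj, hy, ← inner_conj_symm, RCLike.norm_conj]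
    exact apriori d ds hadj hdd J C F1b F1 F2b F2 F2sb F2s F3 E hE hz hzE (a N)
  have h8 : ‖⟪y, y⟫_ℂ‖ = ‖y‖ * ‖y‖ := by
    rw [inner_self_eq_norm_sq_to_K, norm_pow]
    simp [sq]
  rw [h8] at h7
  rcases (norm_nonneg y).eq_or_lt with h | h
  · rw [← h]; exact norm_nonneg z
  · exact le_of_mul_le_mul_right h7 h

end normed

/-- **the abstract `L²` estimate**, inner products given by `InnerProductSpace.Core` -/
theorem abs_bound {S : Type*} [AddCommGroup S] [Module ℂ S] (c : InnerProductSpace.Core ℂ S)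
    (d ds : S →ₗ[ℂ] S) (hadj : ∀ u w, c.inner (d u) w = c.inner u (ds w))
    (hdd : ∀ u, d (d u) = 0) (J : ℕ → S →ₗ[ℂ] S) (C : ℝ)
    (F1b : ∀ N u, nrm c (J N u) ≤ C * nrm c u)
    (F1 : ∀ u, Tendsto (fun N => nrm c (J N u - u)) atTop (𝓝 0))
    (F2b : ∀ N u, nrm c (d (J N u) - J N (d u)) ≤ C * nrm c u)
    (F2 : ∀ u, Tendsto (fun N => nrm c (d (J N u) - J N (d u))) atTop (𝓝 0))
    (F2sb : ∀ N u, nrm c (ds (J N u) - J N (ds u)) ≤ C * nrm c u)
    (F2s : ∀ u, Tendsto (fun N => nrm c (ds (J N u) - J N (ds u))) atTop (𝓝 0))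
    (F3 : ∀ N, ∃ (m : ℕ) (s e : Fin m → S), ∀ v, J N v = ∑ k, c.inner (s k) v • e k)
    (LIM : ∀ u : ℕ → S, (∀ ε > 0, ∃ N, ∀ m ≥ N, ∀ n ≥ N, nrm c (u m - u n) < ε) →
      Tendsto (fun N => nrm c (d (u N))) atTop (𝓝 0) →
      Tendsto (fun N => nrm c (ds (u N))) atTop (𝓝 0) →
      ∃ v, d v = 0 ∧ Tendsto (fun N => nrm c (u N - v)) atTop (𝓝 0))
    (E : S → S) (hE : ∀ u, nrm c (E u) ≤ nrm c (d u) + nrm c (ds u))
    (z : S) (hz : d z = 0) (hzE : ∀ u, c.inner z u = c.inner z (E u))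
    (y0 : S) (hy0 : d y0 = z) (hys : ds y0 = 0) :
    ∃ y, d y = z ∧ nrm c y ≤ nrm c z := by
  letI : NormedAddCommGroup S := c.toNormedAddCommGroup
  letI : InnerProductSpace ℂ S := .ofCore c.toCore
  have n1 : ∀ u : S, nrm c u = ‖u‖ := fun u => rfl
  simp only [n1] at *
  have LIM' : ∀ u : ℕ → S, CauchySeq u → Tendsto (fun N => d (u N)) atTop (𝓝 0) →
      Tendsto (fun N => ds (u N)) atTop (𝓝 0) → ∃ v, d v = 0 ∧ Tendsto u atTop (𝓝 v) := by
    intro u h1 h2 h3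
    obtain ⟨v, hv, hlim⟩ := LIM u (fun ε hε => by
      obtain ⟨N, hN⟩ := Metric.cauchySeq_iff.1 h1 ε hε
      exact ⟨N, fun m hm n hn => by simpa [dist_eq_norm] using hN m hm n hn⟩)
      (tendsto_zero_iff_norm_tendsto_zero.1 h2) (tendsto_zero_iff_norm_tendsto_zero.1 h3)
    exact ⟨v, hv, tendsto_iff_norm_sub_tendsto_zero.2 hlim⟩
  obtain ⟨k, hk, hperp⟩ := exists_proj d ds hadj LIM' y0
  refine ⟨y0 - k, by rw [map_sub, hy0, ((mem_har d ds).1 hk).1, sub_zero], ?_⟩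
  exact bound d ds hadj hdd J C F1b
    (fun u => tendsto_iff_norm_sub_tendsto_zero.2 (F1 u)) F2b
    (fun u => tendsto_zero_iff_norm_tendsto_zero.2 (F2 u)) F2sb
    (fun u => tendsto_zero_iff_norm_tendsto_zero.2 (F2s u)) F3 LIM' E hE hz hzE
    (by rw [map_sub, hy0, ((mem_har d ds).1 hk).1, sub_zero])
    (by rw [map_sub, hys, ((mem_har d ds).1 hk).2, sub_zero]) hperp

end Crest.Agent.R272.Kod1_410
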