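import Crest.Agent.R272.Kod1_410
import Crest.Agent.R273.LimB_505
import Crest.Agent.R273.SerE_945

/-!
# R272, KOD-EMB (helper410), part 2: the `L²` estimate with the constant of the curvature

`K : Kah A`, `h : HM ((KB A)⁻¹ * N)` with `K.g ≤ cur h`.

* `Cv_ge` : `⟨v₁, v₁⟩ ≤ Cv(Γ(gᵀ), θ; v, v)` if `g ≤ θ` (`v₁` = component of degree one);
* `sn_E_le` : `‖E u‖ ≤ ‖∇ u‖ + ‖∇* u‖`, `E` = component of degree one;
* `solv_bound` : closed `z` of degree one is `∇ y` with `‖y‖ ≤ ‖z‖`, `y` of degree zero.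
-/

set_option autoImplicit false
set_option linter.unusedSectionVars false

open Set Filter Topology Complex
open scoped ContDiff Matrix ComplexConjugate Kronecker ComplexOrder

namespace Crest.Agent.R272.Kod2_410

open Crest.Agent.R275 Crest.Agent.R275.Geo Crest.Agent.R275.Core144
open Crest.Agent.R273.Defs_333 Crest.Agent.R273.HM_333 Crest.Agent.R273.Kah_333
open Crest.Agent.R273.Fock_243 Crest.Agent.R273.Calc_243 Crest.Agent.R273.Bkn_243
open Crest.Agent.R273.Pos_243 Crest.Agent.R273.Berezin_505 Crest.Agent.R273.L2K_774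
open Crest.Agent.R273.LamN127 Crest.Agent.R273.NormC_505 Crest.Agent.R273.DnInt_505
open Crest.Agent.R273.DVec_733 Crest.Agent.R273.DMet_733 Crest.Agent.R273.DMetB_733
open Crest.Agent.R273.StV_37 Crest.Agent.R273.BKNa_37
open Crest.Agent.R273.BKNb_37 Crest.Agent.R273.BKNc_37 Crest.Agent.R273.BKNd_37
open Crest.Agent.R273.BKNe_37 Crest.Agent.R273.Mol_106
open Crest.Agent.R273.HDN_505 (EV B0 B0_α Kl Ku HB HB_pos H0 H0_pos HC HTm HTm_form HT Kl_posDef
  Ku_posDef Ku_mul_Kl Kl_mul_Ku)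
open Crest.Agent.R273.Lim_505
open Crest.Agent.R273.SerA_945 Crest.Agent.R273.SerB_945 Crest.Agent.R273.SerE_945
open Crest.Agent.R273.TD3_733
open Crest.Agent.R275.Kos798 (sgn)

noncomputable section

/-! ### linear algebra -/

section linear

variable {n : ℕ}

/-- the component of degree `q` -/
def dg (q : ℕ) (v : FI n → ℂ) : FI n → ℂ := fun S => if S.card = q then v S else 0

theorem dg_Gam (m : Matrix (Fin n) (Fin n) ℂ) (q : ℕ) (v : FI n → ℂ) :
    Gam m *ᵥ dg q v = dg q (Gam m *ᵥ v) := by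
  funext S
  show ∑ T, Gam m S T * dg q v T = if S.card = q then ∑ T, Gam m S T * v T else 0
  by_cases hS : S.card = q
  · rw [if_pos hS]
    refine Finset.sum_congr rfl fun T _ => ?_
    by_cases hT : T.card = q
    · rw [dg, if_pos hT]
    · rw [dg, if_neg hT, Gam_of_ne m (by rw [hS]; exact fun h => hT h.symm), zero_mul, zero_mul]
  · rw [if_neg hS]
    refine Finset.sum_eq_zero fun T _ => ?_
    by_cases hT : T.card = q
    · rw [Gam_of_ne m (by rw [hT]; exact hS), zero_mul]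
    · rw [dg, if_neg hT, mul_zero]

theorem dot_dg (q : ℕ) (a b : FI n → ℂ) : star (dg q a) ⬝ᵥ b = star a ⬝ᵥ dg q b := by
  refine Finset.sum_congr rfl fun S _ => ?_
  show star (dg q a S) * b S = star (a S) * dg q b S
  unfold dg
  by_cases hS : S.card = q
  · rw [if_pos hS, if_pos hS]
  · rw [if_neg hS, if_neg hS, star_zero, zero_mul, mul_zero]

theorem dg_dg (q : ℕ) (a : FI n → ℂ) : dg q (dg q a) = dg q a := by
  funext S
  unfold dg
  split_ifs <;> rfl

theorem dg_one (v : FI n → ℂ) : dg 1 v = ∑ k, v {k} • (Pi.single {k} 1 : FI n → ℂ) := by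
  funext S
  rw [Finset.sum_apply]
  unfold dg
  by_cases hS : S.card = 1
  · rw [if_pos hS]
    obtain ⟨a, rfl⟩ := Finset.card_eq_one.1 hS
    rw [Finset.sum_eq_single a]
    · simp
    · intro b _ hb
      have : ({a} : FI n) ≠ {b} := by
        intro h
        exact hb (Finset.singleton_injective h).symm
      simp [this]
    · intro h
      exact absurd (Finset.mem_univ a) h
  · rw [if_neg hS]
    symm
    refine Finset.sum_eq_zero fun b _ => ?_
    have : S ≠ {b} := by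
      rintro rfl
      exact hS (Finset.card_singleton b)
    simp [this]

/-- the form of `Γ(m)` in degree one -/
theorem form_one (m : Matrix (Fin n) (Fin n) ℂ) (v : FI n → ℂ) :
    star (dg 1 v) ⬝ᵥ (Gam m *ᵥ dg 1 v) = ∑ k, ∑ l, m l k * (star (v {l}) * v {k}) := by
  rw [dg_one, Matrix.mulVec_sum, dotProduct_sum]
  refine Finset.sum_congr rfl fun k _ => ?_
  rw [star_sum, sum_dotProduct]
  refine Finset.sum_congr rfl fun l _ => ?_
  rw [star_smul, smul_dotProduct, Matrix.mulVec_smul, dotProduct_smul, form_single, Gam_single]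
  simp only [smul_eq_mul]
  ring

theorem Gam_row_vac (m : Matrix (Fin n) (Fin n) ℂ) (T : FI n) :
    Gam m ∅ T = if T = ∅ then 1 else 0 := by
  by_cases hT : T = ∅
  · rw [if_pos hT, hT, Gam_vac, if_pos rfl]
  · rw [if_neg hT]
    refine Gam_of_ne m ?_
    rw [Finset.card_empty]
    intro h
    exact hT (Finset.card_eq_zero.1 h.symm)

/-- the projection on the vacuum -/
def vac (n : ℕ) : Matrix (FI n) (FI n) ℂ := Matrix.of fun S T => if S = ∅ ∧ T = ∅ then 1 else 0

theorem vac_mulVec (v : FI n → ℂ) : vac n *ᵥ v = v ∅ • (Pi.single ∅ 1 : FI n → ℂ) := by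
  funext S
  show ∑ T, (if S = ∅ ∧ T = ∅ then (1 : ℂ) else 0) * v T = v ∅ * (Pi.single ∅ 1 : FI n → ℂ) S
  by_cases hS : S = ∅
  · subst hS
    simp
  · simp [hS]

theorem vac_psd : (vac n).PosSemidef := by
  have h : vac n = (Matrix.of fun (_ : Unit) (T : FI n) => if T = ∅ then (1 : ℂ) else 0)ᴴ *
      (Matrix.of fun (_ : Unit) (T : FI n) => if T = ∅ then (1 : ℂ) else 0) := by
    ext S T
    rw [Matrix.mul_apply]
    simp only [vac, Matrix.of_apply, Matrix.conjTranspose_apply, Finset.univ_unique,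
      Finset.sum_singleton]
    by_cases hS : S = ∅ <;> by_cases hT : T = ∅ <;> simp [hS, hT]
  rw [h]
  exact Matrix.posSemidef_conjTranspose_mul_self _

theorem Gam_sub_vac_psd {m : Matrix (Fin n) (Fin n) ℂ} (hm : m.PosSemidef) :
    (Gam m - vac n).PosSemidef := by
  have h : Gam m - vac n = (1 - vac n)ᴴ * Gam m * (1 - vac n) := by
    have h1 : (1 - vac n)ᴴ = 1 - vac n := by
      rw [Matrix.conjTranspose_sub, Matrix.conjTranspose_one, vac_psd.1.eq]
    have h2 : Gam m * vac n = vac n := by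
      ext S T
      rw [Matrix.mul_apply]
      simp only [vac, Matrix.of_apply]
      rw [Finset.sum_eq_single (∅ : FI n)]
      · rw [Gam_vac]
        by_cases hS : S = ∅ <;> by_cases hT : T = ∅ <;> simp [hS, hT]
      · intro b _ hb
        simp [hb]
      · intro h
        exact absurd (Finset.mem_univ _) h
    have h3 : vac n * Gam m = vac n := by
      ext S T
      rw [Matrix.mul_apply]
      simp only [vac, Matrix.of_apply]
      rw [Finset.sum_eq_single (∅ : FI n)]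
      · rw [Gam_row_vac]
        by_cases hS : S = ∅ <;> by_cases hT : T = ∅ <;> simp [hS, hT]
      · intro b _ hb
        simp [hb]
      · intro h
        exact absurd (Finset.mem_univ _) h
    have h4 : vac n * vac n = vac n := by
      ext S T
      rw [Matrix.mul_apply]
      simp only [vac, Matrix.of_apply]
      rw [Finset.sum_eq_single (∅ : FI n)]
      · by_cases hS : S = ∅ <;> by_cases hT : T = ∅ <;> simp [hS, hT]
      · intro b _ hb
        simp [hb]
      · intro h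
        exact absurd (Finset.mem_univ _) h
    rw [h1, Matrix.sub_mul, Matrix.one_mul, h3, Matrix.mul_sub, Matrix.mul_one, Matrix.sub_mul, h2,
      h4]
    abel
  rw [h]
  exact (Gam_posSemidef hm).conjTranspose_mul_mul_same _

theorem T1_add_left (G G' : Matrix (FI n) (FI n) ℂ) (Ki : Matrix (Fin n) (Fin n) ℂ)
    (a b : Fin n → FI n → ℂ) : T1 (G + G') Ki a b = T1 G Ki a b + T1 G' Ki a b := by
  unfold T1
  rw [← Finset.sum_add_distrib]
  refine Finset.sum_congr rfl fun k _ => ?_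
  rw [← Finset.sum_add_distrib]
  refine Finset.sum_congr rfl fun l _ => ?_
  rw [Matrix.add_mulVec, dotProduct_add, mul_add]

theorem Cv_add (G : Matrix (FI n) (FI n) ℂ) (t t' : Matrix (Fin n) (Fin n) ℂ) (a b : FI n → ℂ) :
    Cv G (t + t') a b = Cv G t a b + Cv G t' a b := by
  unfold Cv
  rw [← Finset.sum_add_distrib]
  refine Finset.sum_congr rfl fun k _ => ?_
  rw [← Finset.sum_add_distrib]
  refine Finset.sum_congr rfl fun l _ => ?_
  rw [Matrix.add_apply, add_mul]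

theorem iW_vac (j : Fin n) (v : FI n → ℂ) :
    ((iW (ep j) : Matrix (FI n) (FI n) ℂ) *ᵥ v) ∅ = v {j} := by
  rw [iW_apply j v (Finset.notMem_empty j)]
  have h1 : sgn ℂ j (∅ : FI n) = 1 := by simp [sgn]
  rw [h1, one_mul]
  rfl

/-- **lower bound of the curvature term** -/
theorem Cv_ge {g t : Matrix (Fin n) (Fin n) ℂ} (hg : g.PosSemidef) (ht : (t - g).PosSemidef)
    (v : FI n → ℂ) :
    (star (dg 1 v) ⬝ᵥ (Gam gᵀ *ᵥ dg 1 v)).re ≤ (Cv (Gam gᵀ) t v v).re := by
  have hG : (Gam gᵀ).PosSemidef := Gam_posSemidef hg.transpose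
  have e1 : t = (t - g) + g := (sub_add_cancel t g).symm
  have h1 : 0 ≤ (Cv (Gam gᵀ) (t - g) v v).re := (Complex.le_def.1 (Cv_nonneg hG ht v)).1
  have e2 : Cv (Gam gᵀ) g v v = T1 (vac n) gᵀ (fun k => iW (ep k) *ᵥ v) (fun k => iW (ep k) *ᵥ v) +
      T1 (Gam gᵀ - vac n) gᵀ (fun k => iW (ep k) *ᵥ v) (fun k => iW (ep k) *ᵥ v) := by
    rw [Cv_eq_T1, ← T1_add_left, add_sub_cancel]
  have h2 : 0 ≤ (T1 (Gam gᵀ - vac n) gᵀ (fun k => iW (ep k) *ᵥ v)
      (fun k => iW (ep k) *ᵥ v)).re :=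
    (Complex.le_def.1 (T1_nonneg (Gam_sub_vac_psd hg.transpose) hg.transpose _)).1
  have h3 : T1 (vac n) gᵀ (fun k => iW (ep k) *ᵥ v) (fun k => iW (ep k) *ᵥ v) =
      star (dg 1 v) ⬝ᵥ (Gam gᵀ *ᵥ dg 1 v) := by
    rw [form_one]
    unfold T1
    refine Finset.sum_congr rfl fun k _ => Finset.sum_congr rfl fun l _ => ?_
    congr 1
    rw [vac_mulVec, dotProduct_smul, dotProduct_single, mul_one, smul_eq_mul, Pi.star_apply]
    show ((iW (ep k) : Matrix (FI n) (FI n) ℂ) *ᵥ v) ∅ *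
      star (((iW (ep l) : Matrix (FI n) (FI n) ℂ) *ᵥ v) ∅) = star (v {l}) * v {k}
    rw [iW_vac, iW_vac, mul_comm]
  rw [e1, Cv_add, Complex.add_re, e2, Complex.add_re, h3]
  linarith

end linear

variable {n : ℕ} {M : Type} [TopologicalSpace M] {A : Atl n M} {N : LB A}

/-! ### degrees -/

section deg

variable (K : Kah A) (h : HM ((KB A)⁻¹ * N))

theorem oB_pq (q : ℕ) (u : A.ι → M → (BN N).κ → ℂ) (i : A.ι) (x : M) :
    oB (pq (BN N) q u i x) = dg q (oB (u i x)) := by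
  funext S
  exact pq_apply (B := BN N) q u i x (S, ())

/-- different degrees are orthogonal -/
theorem hd_pq (q : ℕ) (u w : A.ι → M → (BN N).κ → ℂ) (i : A.ι) (x : M) :
    (HB K h).hd (pq (BN N) q u) w i x = (HB K h).hd (pq (BN N) q u) (pq (BN N) q w) i x := by
  rw [HB_hd_iB, HB_hd_iB, oB_pq, oB_pq]
  congr 1
  show _ = star (dg q (oB (u i x))) ⬝ᵥ (Gam (((K.g i x)ᵀ)⁻¹) *ᵥ dg q (oB (w i x)))
  rw [dg_Gam, ← dot_dg, dg_dg]
  rfl

theorem hd_pq_le (q : ℕ) (u : A.ι → M → (BN N).κ → ℂ) {i : A.ι} {x : M}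
    (hx : x ∈ (A.e i).source) :
    ((HB K h).hd (pq (BN N) q u) (pq (BN N) q u) i x).re ≤ ((HB K h).hd u u i x).re := by
  have h1 : (HB K h).hd u u i x = (HB K h).hd (pq (BN N) q u) (pq (BN N) q u) i x +
      (HB K h).hd (u - pq (BN N) q u) (u - pq (BN N) q u) i x := by
    have e1 : (HB K h).hd (pq (BN N) q u) u i x =
        (HB K h).hd (pq (BN N) q u) (pq (BN N) q u) i x := hd_pq K h q u u i x
    have e2 : (HB K h).hd u (pq (BN N) q u) i x =
        (HB K h).hd (pq (BN N) q u) (pq (BN N) q u) i x := by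
      rw [← (HB K h).hd_conj _ _ hx, e1, (HB K h).hd_conj _ _ hx]
    have e3 : (HB K h).hd (u - pq (BN N) q u) (u - pq (BN N) q u) i x =
        (HB K h).hd u u i x - (HB K h).hd u (pq (BN N) q u) i x -
        (HB K h).hd (pq (BN N) q u) u i x + (HB K h).hd (pq (BN N) q u) (pq (BN N) q u) i x := by
      unfold HDen.hd
      simp only [Pi.sub_apply, star_sub, Matrix.mulVec_sub, sub_dotProduct, dotProduct_sub]
      ring
    rw [e3, e1, e2]
    ring
  rw [h1, Complex.add_re]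
  have h2 := (Complex.le_def.1 ((HB K h).hd_self_nonneg (u - pq (BN N) q u) hx)).1
  simp only [Complex.zero_re] at h2
  linarith

/-- the curvature density dominates the component of degree one -/
theorem hd_HT_ge (hs : h.Semipos) (hLB : ∀ i, ∀ x ∈ (A.e i).source,
    (cur h i x - K.g i x).PosSemidef) (u : A.ι → M → (BN N).κ → ℂ) {i : A.ι} {x : M}
    (hx : x ∈ (A.e i).source) :
    ((HB K h).hd (pq (BN N) 1 u) (pq (BN N) 1 u) i x).re ≤ ((HT K h hs).hd u u i x).re := by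
  have e0 : (HT K h hs).hd u u i x =
      (h.w i x : ℂ) * (star (oB (u i x)) ⬝ᵥ (HTm K h i x *ᵥ oB (u i x))) :=
    form_iB (h.w i x : ℂ) (HTm K h i x) (oB (u i x)) (oB (u i x))
  rw [e0, HB_hd_iB, HTm_form, oB_pq, Complex.re_ofReal_mul, Complex.re_ofReal_mul]
  refine mul_le_mul_of_nonneg_left ?_ (h.pos i x hx).le
  have h1 := Cv_ge (K.pos i x hx).posSemidef (hLB i x hx) (Gam (Ku K i x) *ᵥ oB (u i x))
  refine le_trans (le_of_eq ?_) h1
  congr 1
  have hKu : (Gam (Ku K i x))ᴴ = Gam (Ku K i x) := (Gam_posDef (Ku_posDef K hx)).1.eq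
  have hKl : Gam (Kl K i x) * Gam (Ku K i x) = 1 := by
    rw [← Gam_mul, Kl_mul_Ku K hx, Gam_one]
  rw [← dg_Gam]
  show _ = star (Gam (Ku K i x) *ᵥ dg 1 (oB (u i x))) ⬝ᵥ
    (Gam (Kl K i x) *ᵥ (Gam (Ku K i x) *ᵥ dg 1 (oB (u i x))))
  rw [Matrix.mulVec_mulVec, hKl, Matrix.one_mulVec, Matrix.star_mulVec, hKu,
    ← Matrix.dotProduct_mulVec]
  rfl

end deg

/-! ### the estimate -/

section compact

variable [T2Space M] [CompactSpace M] [Finite A.ι] (P : Part A) (K : Kah A)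
  (h : HM ((KB A)⁻¹ * N))

theorem ip_pqL (q : ℕ) (u w : Sec (BN N)) :
    (HB K h).ip P (pqL (BN N) q u).1 w.1 = (HB K h).ip P (pqL (BN N) q u).1 (pqL (BN N) q w).1 :=
  IntP_congr P fun i x _ => hd_pq K h q u.1 w.1 i x

theorem sn_pqL_le (q : ℕ) (u : Sec (BN N)) :
    (HB K h).sn P (pqL (BN N) q u) ≤ (HB K h).sn P u := by
  refine Real.sqrt_le_sqrt ?_
  exact IntP_re_mono P ((HB K h).isDn (pqL (BN N) q u).2 (pqL (BN N) q u).2)
    ((HB K h).isDn u.2 u.2) fun i x hx => hd_pq_le K h q u.1 hx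

variable (hLB : ∀ i, ∀ x ∈ (A.e i).source, (cur h i x - K.g i x).PosSemidef)

include hLB in
theorem cur_pd (i : A.ι) (x : M) (hx : x ∈ (A.e i).source) : (cur h i x).PosDef := by
  have := (K.pos i x hx).add_posSemidef (hLB i x hx)
  rwa [add_sub_cancel] at this

include hLB in
theorem pos_of_LB : h.Pos := pos_of_cur (cur_pd K h hLB)

include hLB in
theorem sn_E_le (u : Sec (BN N)) : (HB K h).sn P (pqL (BN N) 1 u) ≤
    (HB K h).sn P (nabL (BN N) u) + (HB K h).sn P (dsL K h u) := by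
  have hs := R273.Kah_333.Pos.semipos (pos_of_LB K h hLB)
  obtain ⟨v, rfl⟩ := (low K N).surjective u
  refine le_trans (Real.sqrt_le_sqrt ?_) (sn_nab_up P K h hs v).2
  exact IntP_re_mono P ((HB K h).isDn (pqL (BN N) 1 (low K N v)).2 (pqL (BN N) 1 (low K N v)).2)
    ((HT K h hs).isDn (low K N v).2 (low K N v).2) fun i x hx => hd_HT_ge K h hs hLB _ hx

include P in
/-- `∇*` vanishes in degree zero -/
theorem ds_zero {y : Sec (BN N)} (hy : pqL (BN N) 0 y = y) : dsL K h y = 0 := by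
  refine (HB K h).eq_zero_of_pos P (HB_pos K h) _ ?_
  have h1 : (HB K h).ip P (dsL K h y).1 (dsL K h y).1 = 0 := by
    rw [← (HB K h).ip_conj, ← hadj P K h, (HB K h).ip_conj, ← hy, ip_pqL]
    have h2 : pqL (BN N) 0 (nabL (BN N) (dsL K h (pqL (BN N) 0 y))) = 0 :=
      LinearMap.congr_fun (pqL_zero_nabL (B := BN N)) _
    rw [h2]
    have h3 : (HB K h).ip P (pqL (BN N) 0 y).1 ((0 : ℂ) • (0 : Sec (BN N)).1) = 0 := by
      rw [HDen.ip_smul_right, zero_mul]
    rwa [zero_smul] at h3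
  rw [h1]
  rfl

include hLB in
/-- **`∂̄` with the `L²` estimate** -/
theorem solv_bound (hD : D2 A) (z : Sec (BN N)) (hz : nabL (BN N) z = 0)
    (hz1 : pqL (BN N) 1 z = z) :
    ∃ y : Sec (BN N), nabL (BN N) y = z ∧ pqL (BN N) 0 y = y ∧
      (HB K h).sn P y ≤ (HB K h).sn P z := by
  have hp := pos_of_LB K h hLB
  have hs := R273.Kah_333.Pos.semipos hp
  -- a solution
  have hdeg : IsDeg (BN N) 1 z.1 := by
    intro i x k hk
    by_contra hne
    have h1 : z.1 i x k = pq (BN N) 1 z.1 i x k := by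
      conv_lhs => rw [← hz1]
      rfl
    rw [pq_apply, if_neg hne] at h1
    exact hk h1
  obtain ⟨w, hw, hw1⟩ := solv_pos P hD hp (le_refl 1) z.1 ⟨z.2, hdeg⟩ (congrArg Subtype.val hz)
  have hy0 : nabL (BN N) ⟨w, hw.1⟩ = z := Subtype.ext hw1
  have hw0 : pqL (BN N) 0 ⟨w, hw.1⟩ = ⟨w, hw.1⟩ := Subtype.ext (pq_of_isDeg hw.2)
  obtain ⟨C1, h10, h1⟩ := sn_JN_le P (HB K h) (HB_pos K h)
  obtain ⟨C2, h20, h2⟩ := (FOp.nab (BN N)).sn_comm_le P (HB K h) (HB_pos K h) (HB K h)
  obtain ⟨C3, h30, h3⟩ := (dsF K h).sn_comm_le P (HB K h) (HB_pos K h) (HB K h)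
  have hmax : ∀ {C a b : ℝ}, a ≤ C * b → 0 ≤ b → C ≤ max C1 (max C2 C3) →
      a ≤ max C1 (max C2 C3) * b := fun hab hb hC => hab.trans (mul_le_mul_of_nonneg_right hC hb)
  obtain ⟨y, hy, hyn⟩ := Kod1_410.abs_bound ((HB K h).core P (HB_pos K h)) (nabL (BN N)) (dsL K h)
    (hadj P K h) (nab_nab_BN N) (JN P (BN N)) (max C1 (max C2 C3))
    (fun N u => hmax (h1 N u) ((HB K h).sn_nonneg P u) (le_max_left _ _))
    (fun u => tendsto_sn_JN P (HB K h) u)
    (fun N u => hmax (h2 N u) ((HB K h).sn_nonneg P u)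
      ((le_max_left _ _).trans (le_max_right _ _)))
    (fun u => (FOp.nab (BN N)).tendsto_sn_comm P (HB K h) u)
    (fun N u => hmax (h3 N u) ((HB K h).sn_nonneg P u)
      ((le_max_right _ _).trans (le_max_right _ _)))
    (fun u => (dsF K h).tendsto_sn_comm P (HB K h) u)
    (fun N => JN_finite P (HB K h) (HB_pos K h) N)
    (fun u hc hu1 hu2 => by
      obtain ⟨v, hv, hlim⟩ := lim P K h hs u hc hu1 hu2
      exact ⟨v, hQd K h v hv, hlim⟩)
    (fun u => pqL (BN N) 1 u) (fun u => sn_E_le P K h hLB u) z hz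
    (fun u => by
      show (HB K h).ip P z.1 u.1 = (HB K h).ip P z.1 (pqL (BN N) 1 u).1
      conv_lhs => rw [← hz1]
      rw [ip_pqL, hz1])
    ⟨w, hw.1⟩ hy0 (ds_zero P K h hw0)
  refine ⟨pqL (BN N) 0 y, ?_, ?_, (sn_pqL_le P K h 0 y).trans hyn⟩
  · refine Subtype.ext ?_
    have h4 := nab_pq (B := BN N) 0 y.2
    have h5 : nab (BN N) y.1 = z.1 := congrArg Subtype.val hy
    rw [h5] at h4
    have h6 : pq (BN N) (0 + 1) z.1 = z.1 := congrArg Subtype.val hz1
    rw [h6] at h4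
    exact h4
  · exact LinearMap.congr_fun (pqL_idem (B := BN N) 0) y

end compact

end

end Crest.Agent.R272.Kod2_410
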