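import Crest.Agent.R273.SerD_945
import Crest.Agent.R273.FS_333
import Crest.Agent.R275.Dg1_199

/-!
# R272, KOD-EMB (helper410), part 3: the weights `m * log (θ + e)`

* `Wgt A p i0` : `θ : M → ℝ` smooth, `θ > 0` off `p`, `θ = |z - z_p|²` near `p` (chart `i0`);
* `hsf_lth`    : the Hessian of `log (θ + e)` in terms of those of `log (θ + 1)` and `θ`;
* `exists_lower` : `hsf (log (θ + e)) ≥ -T cur hO` for all `0 < e ≤ 1` with one constant `T`;
* `exists_LB`  : one `k₀` such that for `k ≥ k₀` and all `0 < e ≤ 1`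
  `cur (h0 hO^k e^{-m log(θ+e)}) ≥ cur hO`.
-/

set_option autoImplicit false
set_option linter.unusedSectionVars false

open Set Filter Topology Complex
open scoped ContDiff Matrix ComplexConjugate ComplexOrder

namespace Crest.Agent.R272.Kod3_410

open Crest.Agent.R275 Crest.Agent.R275.Geo Crest.Agent.R275.Core144 Crest.Agent.R275.EDR890
open Crest.Agent.R275.Dg199
open Crest.Agent.R273.Defs_333 Crest.Agent.R273.Hess_333 Crest.Agent.R273.HessB_333
open Crest.Agent.R273.HM_333 Crest.Agent.R273.Kah_333 Crest.Agent.R273.FS_333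
open Crest.Agent.R273.SerD_945

noncomputable section

variable {n : ℕ} {M : Type} [TopologicalSpace M] {A : Atl n M}

/-- a smooth function vanishing only at `p`, equal to `|z - z_p|²` near `p` -/
structure Wgt (A : Atl n M) (p : M) (i0 : A.ι) where
  θ : M → ℝ
  sm : A.Sm θ
  nn : ∀ x, 0 ≤ θ x
  pos : ∀ x, x ≠ p → 0 < θ x
  W : Set M
  oW : IsOpen W
  pW : p ∈ W
  sub : W ⊆ (A.e i0).source
  eq : ∀ x ∈ W, θ x = ∑ a, ‖A.e i0 x a - A.e i0 p a‖ ^ 2

/-- `|z - z_p|²` in the chart -/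
def dsq (A : Atl n M) (p : M) (i0 : A.ι) (x : M) : ℝ := ∑ a, ‖A.e i0 x a - A.e i0 p a‖ ^ 2

theorem dsq_nonneg (p : M) (i0 : A.ι) (x : M) : 0 ≤ dsq A p i0 x :=
  Finset.sum_nonneg fun _ _ => sq_nonneg _

theorem dsq_pos {p x : M} {i0 : A.ι} (hp : p ∈ (A.e i0).source) (hx : x ∈ (A.e i0).source)
    (h : x ≠ p) : 0 < dsq A p i0 x := by
  refine lt_of_le_of_ne (dsq_nonneg p i0 x) fun h0 => h ?_
  have h1 := (Finset.sum_eq_zero_iff_of_nonneg fun a _ => sq_nonneg
    (‖A.e i0 x a - A.e i0 p a‖)).1 h0.symm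
  refine (A.e i0).injOn hx hp ?_
  ext a
  have h2 := h1 a (Finset.mem_univ a)
  rw [pow_eq_zero_iff two_ne_zero, norm_eq_zero, sub_eq_zero] at h2
  exact h2

theorem smN_dsq {p x : M} {i0 : A.ι} (hx : x ∈ (A.e i0).source) : SmN A (dsq A p i0) x := by
  refine (smN_iff hx).2 ?_
  have h1 : ContDiffAt ℝ ∞ (fun z : Cn n => ∑ a, ‖z a - A.e i0 p a‖ ^ 2) (A.e i0 x) := by
    refine ContDiffAt.sum fun a _ => ?_
    refine ContDiffAt.norm_sq ℝ ?_
    refine ContDiffAt.sub ?_ contDiffAt_const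
    exact ((EuclideanSpace.proj a : Cn n →L[ℂ] ℂ).restrictScalars ℝ).contDiff.contDiffAt
  refine h1.congr_of_eventuallyEq ?_
  filter_upwards [(A.e i0).open_target.mem_nhds ((A.e i0).map_source hx)] with z hz
  show dsq A p i0 ((A.e i0).symm z) = _
  unfold dsq
  rw [(A.e i0).right_inv hz]

theorem exists_wgt [T2Space M] {p : M} {i0 : A.ι} (hp : p ∈ (A.e i0).source) :
    Nonempty (Wgt A p i0) := by
  obtain ⟨ρ, hρ, hρ1, hρs, -, hρ0, hρ2⟩ := exists_bump A ((A.e i0).open_source.mem_nhds hp)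
  obtain ⟨W, hW, hWo, hpW⟩ := eventually_nhds_iff.1
    (hρ1.and ((A.e i0).open_source.eventually_mem hp))
  refine ⟨{ θ := fun x => ρ x • dsq A p i0 x + (1 - ρ x)
            sm := sm_iff.2 fun q => ?_
            nn := fun x => ?_
            pos := fun x hx => ?_
            W := W
            oW := hWo
            pW := hpW
            sub := fun x hx => (hW x hx).2
            eq := fun x hx => ?_ }⟩
  · by_cases hq : q ∈ (A.e i0).source
    · exact ((hρ q).smul (smN_dsq hq)).add ((smN_const 1 q).sub (hρ q))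
    · refine (smN_const (A := A) (1 : ℝ) q).congr ?_
      have hq1 : q ∉ tsupport ρ := fun h => hq (hρs h)
      filter_upwards [(isClosed_tsupport ρ).isOpen_compl.mem_nhds hq1] with x hx
      rw [image_eq_zero_of_notMem_tsupport hx]
      simp
  · have h1 := mul_nonneg (hρ0 x) (dsq_nonneg (A := A) p i0 x)
    have h2 := hρ2 x
    show 0 ≤ ρ x * dsq A p i0 x + (1 - ρ x)
    linarith
  · have h1 := mul_nonneg (hρ0 x) (dsq_nonneg (A := A) p i0 x)
    have h2 := hρ2 x
    show 0 < ρ x * dsq A p i0 x + (1 - ρ x)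
    rcases h2.lt_or_eq with h3 | h3
    · linarith
    · have hxs : x ∈ (A.e i0).source := by
        by_contra h
        have : ρ x = 0 := image_eq_zero_of_notMem_tsupport fun h' => h (hρs h')
        rw [this] at h3
        exact zero_ne_one h3
      rw [h3, one_mul, sub_self, add_zero]
      exact dsq_pos hp hxs hx
  · rw [(hW x hx).1, one_smul, sub_self, add_zero]
    rfl

namespace Wgt

variable {p : M} {i0 : A.ι} (T : Wgt A p i0)

/-- `log (θ + e)` -/
def l (e : ℝ) (x : M) : ℝ := Real.log (T.θ x + e)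

theorem tpos {e : ℝ} (he : 0 < e) (x : M) : 0 < T.θ x + e := add_pos_of_nonneg_of_pos (T.nn x) he

theorem l_sm {e : ℝ} (he : 0 < e) : A.Sm (T.l e) := fun i =>
  ((T.sm i).add contDiffOn_const).log fun _ _ => (T.tpos he _).ne'

theorem hess_l {e : ℝ} (he : 0 < e) {i : A.ι} {x : M} (hx : x ∈ (A.e i).source) (a b : Fin n) :
    hsf A (T.l e) i x a b = ((T.θ x + e : ℝ) : ℂ)⁻¹ * hsf A T.θ i x a b -
      (((T.θ x + e : ℝ) : ℂ)⁻¹) ^ 2 *
        (wd (false, a) (cu fun z => T.θ ((A.e i).symm z)) (A.e i x) *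
          wd (true, b) (cu fun z => T.θ ((A.e i).symm z)) (A.e i x)) := by
  have hz := (A.e i).map_source hx
  have hθ : ContDiffAt ℝ ∞ (fun z => T.θ ((A.e i).symm z)) (A.e i x) := sm_contDiffAt T.sm i hz
  have hu : ContDiffAt ℝ ∞ (fun z => T.θ ((A.e i).symm z) + e) (A.e i x) :=
    hθ.add contDiffAt_const
  have h1 := hess_log hu (T.tpos he _) a b
  have h2 : hess (fun z => T.θ ((A.e i).symm z) + e) (A.e i x) =
      hess (fun z => T.θ ((A.e i).symm z)) (A.e i x) := by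
    have h3 := hess_add (n := n) (u := fun z => T.θ ((A.e i).symm z)) (v := fun _ => e) hθ
      contDiffAt_const
    rw [h3]
    have h4 : hess (fun _ : Cn n => e) (A.e i x) = 0 := by
      ext c d
      rw [hess_apply]
      have h6 : (cu fun _ : Cn n => e) = fun _ => (e : ℂ) := rfl
      have h5 : wd (true, d) (cu fun _ : Cn n => e) = fun _ => 0 := by
        funext w
        rw [h6]
        simp [wd, wdL]
      rw [h5]
      simp [wd, wdL]
    rw [h4, add_zero]
  have h3 : ∀ s, wd s (cu fun z => T.θ ((A.e i).symm z) + e) (A.e i x) =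
      wd s (cu fun z => T.θ ((A.e i).symm z)) (A.e i x) := by
    intro s
    have h4 : fderiv ℝ (cu fun z => T.θ ((A.e i).symm z) + e) (A.e i x) =
        fderiv ℝ (cu fun z => T.θ ((A.e i).symm z)) (A.e i x) := by
      have h5 : (cu fun z => T.θ ((A.e i).symm z) + e) =
          fun z => (cu fun z => T.θ ((A.e i).symm z)) z + (e : ℂ) := by
        funext z
        simp [cu]
      rw [h5, fderiv_add_const]
    rw [wd, wd, h4]
  rw [h2, h3, h3] at h1
  have h6 : T.θ ((A.e i).symm (A.e i x)) = T.θ x := by rw [(A.e i).left_inv hx]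
  rw [h6] at h1
  exact h1

/-- the Hessian of `log (θ + e)` -/
theorem hsf_l {e : ℝ} (he : 0 < e) {i : A.ι} {x : M} (hx : x ∈ (A.e i).source) :
    hsf A (T.l e) i x = (((T.θ x + 1) / (T.θ x + e)) ^ 2 : ℝ) • hsf A (T.l 1) i x +
      ((1 - e) / (T.θ x + e) ^ 2 : ℝ) • (- hsf A T.θ i x) := by
  ext a b
  rw [Matrix.add_apply, Matrix.smul_apply, Matrix.smul_apply, Matrix.neg_apply,
    T.hess_l he hx, T.hess_l one_pos hx]
  have h1 : (((T.θ x + e : ℝ)) : ℂ) ≠ 0 := by exact_mod_cast (T.tpos he x).ne'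
  have h2 : (((T.θ x + 1 : ℝ)) : ℂ) ≠ 0 := by exact_mod_cast (T.tpos one_pos x).ne'
  rw [Complex.real_smul, Complex.real_smul]
  push_cast at h1 h2 ⊢
  field_simp
  ring

/-- near `p` the Hessian is nonnegative -/
theorem psd_W0 {e : ℝ} (he : 0 < e) {x : M} (hx : x ∈ T.W) :
    (hsf A (T.l e) i0 x).PosSemidef := by
  have hxs := T.sub hx
  have hz := (A.e i0).map_source hxs
  let F : Cn n → Fin (n + 1) → ℂ := fun z => Fin.snoc (fun a => z a - A.e i0 p a)
    ((Real.sqrt e : ℝ) : ℂ)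
  have hFk : ∀ k, DifferentiableOn ℂ (fun z => F z k) univ := by
    intro k
    refine Fin.lastCases ?_ (fun a => ?_) k
    · have : (fun z => F z (Fin.last n)) = fun _ => ((Real.sqrt e : ℝ) : ℂ) := by
        funext z; simp [F]
      rw [this]
      exact differentiableOn_const _
    · have : (fun z => F z a.castSucc) = fun z => z a - A.e i0 p a := by
        funext z; simp [F]
      rw [this]
      exact ((EuclideanSpace.proj a : Cn n →L[ℂ] ℂ).differentiable.sub_const _).differentiableOn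
  have hF0 : F (A.e i0 x) ≠ 0 := by
    intro h
    have := congrFun h (Fin.last n)
    simp only [F, Fin.snoc_last, Pi.zero_apply, ofReal_eq_zero] at this
    exact (Real.sqrt_pos.2 he).ne' this
  have hsq : ∀ z, R273.FS_333.sq F z = (∑ a, ‖z a - A.e i0 p a‖ ^ 2) + e := by
    intro z
    unfold R273.FS_333.sq
    rw [Fin.sum_univ_castSucc]
    simp only [F, Fin.snoc_castSucc, Fin.snoc_last, Complex.norm_real, Real.norm_eq_abs, sq_abs,
      Real.sq_sqrt he.le]
  have hev : (fun z => T.l e ((A.e i0).symm z)) =ᶠ[𝓝 (A.e i0 x)] fun z => Real.log (R273.FS_333.sq F z) := by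
    have h1 : ∀ᶠ z in 𝓝 (A.e i0 x), (A.e i0).symm z ∈ T.W := ev_symm hxs (T.oW.eventually_mem hx)
    filter_upwards [h1, (A.e i0).open_target.mem_nhds hz] with z h1 h2
    show Real.log (T.θ ((A.e i0).symm z) + e) = _
    rw [T.eq _ h1, hsq, (A.e i0).right_inv h2]
  have hsm : ContDiffAt ℝ ∞ (fun z => Real.log (R273.FS_333.sq F z)) (A.e i0 x) := by
    have hs : ContDiffAt ℝ ∞ (R273.FS_333.sq F) (A.e i0 x) := by
      refine ContDiffAt.sum fun k _ => ?_
      exact (contDiffAt_of_hol isOpen_univ (hFk k) (mem_univ _)).norm_sq ℝ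
    exact hs.log (sq_pos hF0).ne'
  unfold hsf
  rw [hess_congr hev]
  refine posSemidef_hess hsm fun v => ?_
  rw [lev_log_sq isOpen_univ hFk (mem_univ _) hF0]
  have hp := sq_pos hF0
  have hL := (lagrange (F (A.e i0 x)) (fun k => fderiv ℂ (fun z => F z k) (A.e i0 x) v)).resolve_right
    hp.ne'
  change R273.FS_333.sq F (A.e i0 x) * _ - _ = _ / R273.FS_333.sq F (A.e i0 x) at hL
  rw [hL]
  have h1 : 0 ≤ ∑ k, ‖(∑ l, ‖F (A.e i0 x) l‖ ^ 2 : ℝ) • fderiv ℂ (fun z => F z k) (A.e i0 x) v -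
      (∑ l, fderiv ℂ (fun z => F z l) (A.e i0 x) v * conj (F (A.e i0 x) l)) * F (A.e i0 x) k‖ ^ 2 :=
    Finset.sum_nonneg fun _ _ => sq_nonneg _
  positivity

theorem psd_W {e : ℝ} (he : 0 < e) {i : A.ι} {x : M} (hxi : x ∈ (A.e i).source) (hx : x ∈ T.W) :
    (hsf A (T.l e) i x).PosSemidef := by
  rw [hsf_tr (T.l_sm he) ⟨hxi, T.sub hx⟩]
  have h4 : (Jm A i i0 x)ᵀ = ((Jm A i i0 x).map conj)ᴴ := by
    ext a b
    simp [Matrix.conjTranspose_apply]
  rw [h4]
  exact (T.psd_W0 he hx).conjTranspose_mul_mul_same _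

end Wgt

/-! ### bounds by a positive form -/

theorem sm_cont {f : M → ℝ} (hf : A.Sm f) (i : A.ι) (a b : Fin n) :
    ContinuousOn (fun x => hsf A f i x a b) (A.e i).source := by
  have h0 : ContDiffOn ℝ ∞ (fun z => hess (fun z => f ((A.e i).symm z)) z a b) (A.e i).target :=
    contDiffOn_hess (A.e i).open_target (hf i) a b
  exact h0.continuousOn.comp (A.e i).continuousOn fun x hx => (A.e i).map_source hx

theorem hsf_herm {f : M → ℝ} (hf : A.Sm f) {i : A.ι} {x : M} (hx : x ∈ (A.e i).source) :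
    (hsf A f i x).IsHermitian := hess_herm (sm_contDiffAt hf i ((A.e i).map_source hx))

theorem psd_mono {C G : Matrix (Fin n) (Fin n) ℂ} {t t' : ℝ} (hG : G.PosDef) (h : t ≤ t')
    (hC : (C + (t : ℂ) • G).PosSemidef) : (C + (t' : ℂ) • G).PosSemidef := by
  have e : C + (t' : ℂ) • G = (C + (t : ℂ) • G) + ((t' - t : ℝ) : ℂ) • G := by
    push_cast
    rw [sub_smul]
    abel
  rw [e]
  exact hC.add (hG.posSemidef.smul (by exact_mod_cast sub_nonneg.2 h))

variable [CompactSpace M] {O : LB A} (hO : HM O) (hp : hO.Pos)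

include hp in
/-- a smooth function: `hsf f ≥ -t cur hO` -/
theorem exists_hsf {f : M → ℝ} (hf : A.Sm f) : ∃ t0 : ℝ, 0 ≤ t0 ∧ ∀ t : ℝ, t0 ≤ t →
    ∀ i, ∀ x ∈ (A.e i).source, (hsf A f i x + (t : ℂ) • cur hO i x).PosSemidef := by
  obtain ⟨t0, ht⟩ := exists_pos_add (cur hO) (hsf A f) (cur_cont hO) (sm_cont hf)
    (fun i x hx => cur_posDef hp i hx) (fun i x hx => hsf_herm hf hx)
    (fun i j x hx => cur_tr hO hx) (fun i j x hx => hsf_tr hf hx)
  exact ⟨max t0 0, le_max_right _ _, fun t h i x hx =>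
    (ht t ((le_max_left _ _).trans h) i x hx).posSemidef⟩

variable [T2Space M] {p : M} {i0 : A.ι}

include hp in
/-- **uniform lower bound** -/
theorem exists_lower (T : Wgt A p i0) : ∃ t0 : ℝ, 0 ≤ t0 ∧ ∀ t : ℝ, t0 ≤ t → ∀ e : ℝ, 0 < e →
    e ≤ 1 → ∀ i, ∀ x ∈ (A.e i).source,
      (hsf A (T.l e) i x + (t : ℂ) • cur hO i x).PosSemidef := by
  obtain ⟨t4, h40, h4⟩ := exists_hsf hO hp (T.l_sm one_pos)
  have hneg : A.Sm (fun x => - T.θ x) := fun i => (T.sm i).neg
  obtain ⟨t5, h50, h5⟩ := exists_hsf hO hp hneg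
  -- lower bound of `θ` off `W`
  obtain ⟨c, hc, hcW⟩ : ∃ c : ℝ, 0 < c ∧ ∀ x ∉ T.W, c ≤ T.θ x := by
    have hcont : Continuous T.θ := by
      rw [continuous_iff_continuousAt]
      exact fun x => (sm_iff.1 T.sm x).continuousAt
    rcases (T.Wᶜ).eq_empty_or_nonempty with h | h
    · exact ⟨1, one_pos, fun x hx => by
        have : x ∈ T.Wᶜ := hx
        rw [h] at this
        exact this.elim⟩
    · obtain ⟨y, hy, hmin⟩ := (T.oW.isClosed_compl.isCompact).exists_isMinOn h hcont.continuousOn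
      refine ⟨T.θ y, T.pos y ?_, fun x hx => hmin hx⟩
      rintro rfl
      exact hy T.pW
  set B1 : ℝ := (1 + c⁻¹) ^ 2 with hB1
  set B2 : ℝ := (c ^ 2)⁻¹ with hB2
  refine ⟨B1 * t4 + B2 * t5, by positivity, fun t ht e he he1 i x hx => ?_⟩
  have hG := cur_posDef hp i hx
  by_cases hxW : x ∈ T.W
  · refine (T.psd_W he hx hxW).add (hG.posSemidef.smul ?_)
    have : (0 : ℝ) ≤ t := le_trans (by positivity) ht
    exact_mod_cast this
  have hθ := hcW x hxW
  have hθ0 : 0 < T.θ x := lt_of_lt_of_le hc hθ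
  set α : ℝ := ((T.θ x + 1) / (T.θ x + e)) ^ 2 with hα
  set β : ℝ := (1 - e) / (T.θ x + e) ^ 2 with hβ
  have hα0 : 0 ≤ α := by positivity
  have hβ0 : 0 ≤ β := div_nonneg (by linarith) (by positivity)
  have hα1 : α ≤ B1 := by
    have h1 : (T.θ x + 1) / (T.θ x + e) ≤ 1 + c⁻¹ := by
      rw [div_le_iff₀ (T.tpos he x)]
      have h2 : 1 ≤ c⁻¹ * T.θ x := by
        rw [← div_eq_inv_mul, one_le_div hc]
        exact hθ
      have h3 : 0 ≤ c⁻¹ := by positivity
      nlinarith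
    have h0 : 0 ≤ (T.θ x + 1) / (T.θ x + e) := div_nonneg (by linarith) (T.tpos he x).le
    exact pow_le_pow_left₀ h0 h1 2
  have hβ1 : β ≤ B2 := by
    rw [hβ, hB2, inv_eq_one_div]
    refine div_le_div₀ zero_le_one (by linarith) (by positivity) ?_
    exact pow_le_pow_left₀ hc.le (by linarith) 2
  have key : hsf A (T.l e) i x + (t : ℂ) • cur hO i x =
      α • (hsf A (T.l 1) i x + (t4 : ℂ) • cur hO i x) +
      β • (hsf A (fun x => - T.θ x) i x + (t5 : ℂ) • cur hO i x) +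
      ((t - α * t4 - β * t5 : ℝ) : ℂ) • cur hO i x := by
    have h6 : hsf A (fun x => - T.θ x) i x = - hsf A T.θ i x :=
      hess_neg (sm_contDiffAt T.sm i ((A.e i).map_source hx))
    rw [h6, T.hsf_l he hx, ← hα, ← hβ]
    ext a b
    simp only [Matrix.add_apply, Matrix.smul_apply, Matrix.neg_apply, smul_eq_mul,
      Complex.real_smul]
    push_cast
    ring
  rw [key]
  refine ((Matrix.PosSemidef.smul (h4 t4 le_rfl i x hx) ?_).add
    (Matrix.PosSemidef.smul (h5 t5 le_rfl i x hx) ?_)).add (hG.posSemidef.smul ?_)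
  · exact hα0
  · exact hβ0
  · have : (0 : ℝ) ≤ t - α * t4 - β * t5 := by
      have h1 := mul_le_mul_of_nonneg_right hα1 h40
      have h2 := mul_le_mul_of_nonneg_right hβ1 h50
      linarith
    exact_mod_cast this

theorem ml_sm (T : Wgt A p i0) (m : ℕ) {e : ℝ} (he : 0 < e) :
    A.Sm (fun x => (m : ℝ) * T.l e x) := fun i => contDiffOn_const.mul (T.l_sm he i)

/-- the twisted metric -/
def hk (h0 : HM (KB A)⁻¹) (k : ℕ) (T : Wgt A p i0) (m : ℕ) {e : ℝ} (he : 0 < e) :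
    HM ((KB A)⁻¹ * O ^ k) :=
  tw (mul h0 (pow hO k)) (fun x => (m : ℝ) * T.l e x) (ml_sm T m he)

theorem hk_w (h0 : HM (KB A)⁻¹) (k : ℕ) (T : Wgt A p i0) (m : ℕ) {e : ℝ} (he : 0 < e) (i : A.ι)
    (x : M) : (hk hO h0 k T m he).w i x =
      (mul h0 (pow hO k)).w i x * ((T.θ x + e) ^ m)⁻¹ := by
  show (mul h0 (pow hO k)).w i x * Real.exp (-((m : ℝ) * T.l e x)) = _
  congr 1
  rw [Real.exp_neg]
  congr 1
  unfold Wgt.l
  rw [mul_comm, Real.exp_mul, Real.exp_log (T.tpos he x), Real.rpow_natCast]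

include hp in
/-- **the curvature of the twisted metrics** -/
theorem exists_LB (h0 : HM (KB A)⁻¹) (T : Wgt A p i0) (m : ℕ) : ∃ k0 : ℕ, ∀ k, k0 ≤ k →
    ∀ (e : ℝ) (he : 0 < e), e ≤ 1 → ∀ i, ∀ x ∈ (A.e i).source,
      (cur (hk hO h0 k T m he) i x - cur hO i x).PosSemidef := by
  obtain ⟨t1, h1⟩ := exists_pos_add (cur hO) (cur h0) (cur_cont hO) (cur_cont h0)
    (fun i x hx => cur_posDef hp i hx) (fun i x hx => cur_herm h0 i hx)
    (fun i j x hx => cur_tr hO hx) (fun i j x hx => cur_tr h0 hx)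
  obtain ⟨t2, h20, h2⟩ := exists_lower hO hp T
  obtain ⟨k0, hk0⟩ := exists_nat_ge (1 + t1 + m * t2)
  refine ⟨k0, fun k hkk e he he1 i x hx => ?_⟩
  have hG := cur_posDef hp i hx
  have e1 : cur (hk hO h0 k T m he) i x - cur hO i x =
      (cur h0 i x + (t1 : ℂ) • cur hO i x) +
      (m : ℝ) • (hsf A (T.l e) i x + (t2 : ℂ) • cur hO i x) +
      (((k : ℝ) - 1 - t1 - m * t2 : ℝ) : ℂ) • cur hO i x := by
    have e3 : cur (hk hO h0 k T m he) i x = cur (mul h0 (pow hO k)) i x +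
        hsf A (fun x => (m : ℝ) * T.l e x) i x := cur_tw _ (ml_sm T m he) i hx
    rw [e3, cur_mul _ _ i hx, cur_pow _ _ i hx]
    have e2 : hsf A (fun x => (m : ℝ) * T.l e x) i x = ((m : ℝ) : ℂ) • hsf A (T.l e) i x :=
      hess_const_mul _ (sm_contDiffAt (T.l_sm he) i ((A.e i).map_source hx))
    rw [e2]
    ext a b
    simp only [Matrix.add_apply, Matrix.sub_apply, Matrix.smul_apply, smul_eq_mul,
      Complex.real_smul]
    push_cast
    ring
  rw [e1]
  refine (((h1 t1 le_rfl i x hx).posSemidef).add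
    (Matrix.PosSemidef.smul (h2 t2 le_rfl e he he1 i x hx) ?_)).add (hG.posSemidef.smul ?_)
  · exact Nat.cast_nonneg m
  · have : (0 : ℝ) ≤ (k : ℝ) - 1 - t1 - m * t2 := by
      have : (k0 : ℝ) ≤ k := by exact_mod_cast hkk
      linarith
    exact_mod_cast this

end

end Crest.Agent.R272.Kod3_410
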