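import Crest.Agent.R271.RExt1_747

/-!
# R272, KOD-EMB (helper410), part 4: jets of holomorphic functions with small `L²` norm

`small_jet` : `∫_{B(p,s)} |f|² ≤ B² s^{2n+4}` ⟹ `|f p| ≤ C B s²`, `|df_p v| ≤ C B s |v|`.
-/

set_option autoImplicit false

open Set Filter Topology Metric MeasureTheory Complex
open scoped Real ENNReal NNReal

noncomputable section

namespace Crest.Agent.R272.Kod4_410

variable {n : ℕ}

theorem small_jet (n : ℕ) : ∃ C : ℝ, 0 ≤ C ∧ ∀ (D : Set (Fin n → ℂ)) (p : Fin n → ℂ) (s : ℝ)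
    (f : (Fin n → ℂ) → ℂ) (B : ℝ), IsOpen D → DifferentiableOn ℂ f D → 0 < s →
    closedBall p s ⊆ D → 0 ≤ B →
    ∫⁻ y in closedBall p s, ‖f y‖ₑ ^ 2 ≤ ENNReal.ofReal (B ^ 2 * s ^ (2 * n + 4)) →
    ‖f p‖ ≤ C * B * s ^ 2 ∧ ∀ v, ‖fderiv ℂ f p v‖ ≤ C * B * s * ‖v‖ := by
  set v0 : ℝ := (volume (closedBall (0 : Fin n → ℂ) 1)).toReal with hv0
  have hv0p : 0 < v0 := ENNReal.toReal_pos (measure_closedBall_pos volume _ one_pos).ne'
    measure_closedBall_lt_top.ne
  have hvol : ∀ (x : Fin n → ℂ) (ρ : ℝ), 0 ≤ ρ →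
      volume (closedBall x ρ) = ENNReal.ofReal (ρ ^ (2 * n) * v0) := by
    intro x ρ hρ
    rw [Measure.addHaar_closedBall' _ _ hρ, ENNReal.ofReal_mul (by positivity), hv0,
      ENNReal.ofReal_toReal measure_closedBall_lt_top.ne]
    congr 2
    have : Module.finrank ℝ (Fin n → ℂ) = 2 * n := by
      rw [Module.finrank_pi_fintype]
      simp [Complex.finrank_real_complex, mul_comm]
    rw [this]
  set C1 : ℝ := 2 ^ n / Real.sqrt v0 with hC1
  have hC10 : 0 ≤ C1 := by positivity
  refine ⟨2 * C1, by positivity, ?_⟩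
  intro D p s f B hD hf hs hsD hB hint
  -- sup bound on the half ball
  have hsup : ∀ x ∈ closedBall p (s / 2), ‖f x‖ ≤ C1 * B * s ^ 2 := by
    intro x hx
    have hsub : closedBall x (s / 2) ⊆ closedBall p s := by
      apply closedBall_subset_closedBall'
      have := mem_closedBall.1 hx
      linarith
    have h1 := Crest.Agent.R271.RExt747.submean hD hf (hsub.trans hsD)
    have h2 := (h1.trans (lintegral_mono_set hsub)).trans hint
    rw [hvol x (s / 2) (by positivity)] at h2
    have h3 : ‖f x‖ₑ ^ 2 = ENNReal.ofReal (‖f x‖ ^ 2) := by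
      rw [← ofReal_norm, ENNReal.ofReal_pow (norm_nonneg _)]
    rw [h3, ← ENNReal.ofReal_mul (by positivity),
      ENNReal.ofReal_le_ofReal_iff (by positivity)] at h2
    have h4 : ‖f x‖ ^ 2 ≤ (C1 * B * s ^ 2) ^ 2 := by
      have e1 : (C1 * B * s ^ 2) ^ 2 = (2 ^ (2 * n) / v0) * (B ^ 2 * s ^ 4) := by
        rw [hC1, mul_pow, mul_pow, div_pow, Real.sq_sqrt hv0p.le, ← pow_mul, ← pow_mul]
        ring_nf
      rw [e1]
      have e2 : (s / 2) ^ (2 * n) * v0 * ‖f x‖ ^ 2 =
          (s ^ (2 * n)) * ((v0 / 2 ^ (2 * n)) * ‖f x‖ ^ 2) := by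
        rw [div_pow]; ring
      have e3 : B ^ 2 * s ^ (2 * n + 4) = (s ^ (2 * n)) * (B ^ 2 * s ^ 4) := by
        rw [pow_add]; ring
      rw [e2, e3] at h2
      have h5 := le_of_mul_le_mul_left h2 (by positivity)
      rw [div_mul_eq_mul_div, div_le_iff₀ (by positivity)] at h5
      rw [div_mul_eq_mul_div, le_div_iff₀ hv0p]
      linarith
    exact abs_le_of_sq_le_sq' h4 (by positivity) |>.2
  have hpc : p ∈ closedBall p (s / 2) := mem_closedBall_self (by positivity)
  refine ⟨(hsup p hpc).trans ?_, fun v => ?_⟩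
  · have : 0 ≤ C1 * B * s ^ 2 := by positivity
    nlinarith
  · rcases eq_or_ne v 0 with rfl | hv
    · simp
    have hv' : 0 < ‖v‖ := norm_pos_iff.2 hv
    set R : ℝ := s / 2 / ‖v‖ with hR
    have hR0 : 0 < R := by positivity
    have hmem : ∀ t : ℂ, ‖t‖ ≤ R → p + t • v ∈ closedBall p (s / 2) := by
      intro t ht
      rw [mem_closedBall, dist_eq_norm, add_sub_cancel_left, norm_smul]
      calc ‖t‖ * ‖v‖ ≤ R * ‖v‖ := mul_le_mul_of_nonneg_right ht hv'.le
        _ = s / 2 := by rw [hR]; field_simp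
    have hhalf : closedBall p (s / 2) ⊆ D := (closedBall_subset_closedBall (by linarith)).trans hsD
    have hd : ∀ t : ℂ, ‖t‖ ≤ R → DifferentiableAt ℂ (fun t : ℂ => f (p + t • v)) t := by
      intro t ht
      have h1 : DifferentiableAt ℂ f (p + t • v) :=
        hf.differentiableAt (hD.mem_nhds (hhalf (hmem t ht)))
      have h2 : DifferentiableAt ℂ (fun t : ℂ => p + t • v) t := by fun_prop
      exact DifferentiableAt.comp t h1 h2
    have hdc : DiffContOnCl ℂ (fun t : ℂ => f (p + t • v)) (ball 0 R) := by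
      refine DifferentiableOn.diffContOnCl fun t ht => ?_
      rw [closure_ball _ hR0.ne'] at ht
      exact (hd t (by simpa using ht)).differentiableWithinAt
    have h1 := Complex.norm_deriv_le_of_forall_mem_sphere_norm_le hR0 hdc
      (C := C1 * B * s ^ 2) fun t ht => hsup _ (hmem t (by
        have : ‖t‖ = R := by simpa using ht
        exact this.le))
    have h2 : deriv (fun t : ℂ => f (p + t • v)) 0 = fderiv ℂ f p v := by
      have h3 : HasFDerivAt f (fderiv ℂ f p) (p + (0 : ℂ) • v) := by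
        rw [zero_smul, add_zero]
        exact (hf.differentiableAt (hD.mem_nhds (hsD (mem_closedBall_self hs.le)))).hasFDerivAt
      have h4 : HasDerivAt (fun t : ℂ => p + t • v) v 0 := by
        have := ((hasDerivAt_id (0 : ℂ)).smul_const v).const_add p
        simpa using this
      exact (h3.comp_hasDerivAt (0 : ℂ) h4).deriv
    rw [h2] at h1
    refine h1.trans (le_of_eq ?_)
    rw [hR]
    field_simp

end Crest.Agent.R272.Kod4_410
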