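import Crest.Agent.R272.Kod2_410
import Crest.Agent.R272.Kod3_410
import Crest.Agent.R273.SteinM_794

/-!
# R272, KOD-EMB (helper410), part 5: the weighted norms

* `lower` : `∫_{B(ζ_p,s)} |y|² ≤ c⁻¹ (n s² + e)^m ‖y‖²_e` for small `s` (chart `i0`);
* `upper` : `‖z‖_e ≤ C` uniformly in `e` if `z` vanishes near `p`.
-/

set_option autoImplicit false
set_option linter.unusedSectionVars false

open Set Filter Topology Complex MeasureTheory Metric
open scoped ContDiff Matrix ComplexConjugate Kronecker ComplexOrder ENNReal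

namespace Crest.Agent.R272.Kod5_410

open Crest.Agent.R275 Crest.Agent.R275.Geo Crest.Agent.R275.Core144 Crest.Agent.R275.Dg199
open Crest.Agent.R275.C1d194 Crest.Agent.R275.Pai323
open Crest.Agent.R275.SerG398 (lint dens)
open Crest.Agent.R273.Defs_333 Crest.Agent.R273.HM_333 Crest.Agent.R273.Kah_333
open Crest.Agent.R273.Fock_243 Crest.Agent.R273.Pos_243
open Crest.Agent.R273.LamN127 Crest.Agent.R273.NormC_505 Crest.Agent.R273.DnInt_505
open Crest.Agent.R273.DVec_733 Crest.Agent.R273.DMet_733 Crest.Agent.R273.Mol_106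
open Crest.Agent.R273.HDN_505 (HB HB_pos)
open Crest.Agent.R273.Lim_505
open Crest.Agent.R273.SteinM_794 (kap kap_eq mp_kap me_kap)
open Crest.Agent.R272.Kod2_410 Crest.Agent.R272.Kod3_410

noncomputable section

variable {n : ℕ} {M : Type} [TopologicalSpace M] {A : Atl n M} {N : LB A}

/-- the component of degree zero -/
theorem hd_zero_le (K : Kah A) (h : HM ((KB A)⁻¹ * N)) (u : A.ι → M → (BN N).κ → ℂ) {i : A.ι}
    {x : M} (hx : x ∈ (A.e i).source) :
    h.w i x * ‖oB (u i x) ∅‖ ^ 2 ≤ ((HB K h).hd u u i x).re := by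
  refine le_trans (le_of_eq ?_) (hd_pq_le K h 0 u hx)
  rw [HB_hd_iB, oB_pq, Complex.re_ofReal_mul]
  congr 1
  have h1 : dg 0 (oB (u i x)) = (oB (u i x) ∅) • (Pi.single ∅ 1 : FI n → ℂ) := by
    funext S
    unfold dg
    by_cases hS : S = ∅
    · subst hS
      simp
    · have : S.card ≠ 0 := fun h => hS (Finset.card_eq_zero.1 h)
      rw [if_neg this]
      simp [hS]
  rw [h1, star_smul, smul_dotProduct, Matrix.mulVec_smul, dotProduct_smul, form_single]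
  have h2 : GI K i x ∅ ∅ = 1 := by
    show Gam _ ∅ ∅ = 1
    rw [Gam_vac, if_pos rfl]
  rw [h2, smul_eq_mul, smul_eq_mul, mul_one, Complex.star_def, Complex.conj_mul']
  norm_cast

/-- the chart function of a section in degree zero -/
def Yf (i0 : A.ι) (y : A.ι → M → (BN N).κ → ℂ) (ζ : Fin n → ℂ) : ℂ :=
  oB (y i0 ((A.e i0).symm (WithLp.toLp 2 ζ))) ∅

variable [T2Space M] [CompactSpace M] [Finite A.ι] (P : Part A) (K : Kah A)
  (hb : HM ((KB A)⁻¹ * N)) {p : M} {i0 : A.ι}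

theorem lower (T : Wgt A p i0) (hp : p ∈ (A.e i0).source) {W' : Set M} (hW' : IsOpen W')
    (hpW' : p ∈ W') :
    ∃ r c : ℝ, 0 < r ∧ 0 < c ∧
      (∀ ζ ∈ closedBall (WithLp.ofLp (A.e i0 p)) r, WithLp.toLp 2 ζ ∈ (A.e i0).target ∧
        (A.e i0).symm (WithLp.toLp 2 ζ) ∈ W') ∧
      ∀ (m : ℕ) (e : ℝ), 0 < e → ∀ h : HM ((KB A)⁻¹ * N),
        (∀ i x, h.w i x = hb.w i x * ((T.θ x + e) ^ m)⁻¹) → ∀ s : ℝ, 0 < s → s ≤ r →
        ∀ y : Sec (BN N), ∫⁻ ζ in closedBall (WithLp.ofLp (A.e i0 p)) s, ‖Yf i0 y.1 ζ‖ₑ ^ 2 ≤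
          ENNReal.ofReal (c⁻¹ * (n * s ^ 2 + e) ^ m * (HB K h).sn P y ^ 2) := by
  obtain ⟨χ, hχ, hχ1, hχs, hχc, hχ0, hχ2⟩ := exists_bump A ((A.e i0).open_source.mem_nhds hp)
  have hwp := hb.pos i0 p hp
  have hwc : ContinuousAt (hb.w i0) p :=
    (Dg199.SmAt.smN (hb.sm i0) hp).continuousAt
  have ev : ∀ᶠ q in 𝓝 p, χ q = 1 ∧ q ∈ W' ∧ q ∈ T.W ∧ hb.w i0 p / 2 < hb.w i0 q := by
    refine hχ1.and ((hW'.eventually_mem hpW').and ((T.oW.eventually_mem T.pW).and ?_))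
    exact hwc.eventually (lt_mem_nhds (by linarith))
  have ev2 : ∀ᶠ ζ in 𝓝 (WithLp.ofLp (A.e i0 p)), WithLp.toLp 2 ζ ∈ (A.e i0).target ∧
      (χ ((A.e i0).symm (WithLp.toLp 2 ζ)) = 1 ∧ (A.e i0).symm (WithLp.toLp 2 ζ) ∈ W' ∧
        (A.e i0).symm (WithLp.toLp 2 ζ) ∈ T.W ∧
        hb.w i0 p / 2 < hb.w i0 ((A.e i0).symm (WithLp.toLp 2 ζ))) := by
    have h1 : Tendsto (fun ζ : Fin n → ℂ => (WithLp.toLp 2 ζ : Cn n))
        (𝓝 (WithLp.ofLp (A.e i0 p))) (𝓝 (A.e i0 p)) := by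
      have := (PiLp.continuous_toLp 2 (fun _ : Fin n => ℂ)).continuousAt
        (x := WithLp.ofLp (A.e i0 p))
      exact this
    exact h1.eventually (((A.e i0).open_target.eventually_mem ((A.e i0).map_source hp)).and
      (ev_symm hp ev))
  obtain ⟨r, hr, hrb⟩ := Metric.eventually_nhds_iff_ball.1 ev2
  have hcb : closedBall (WithLp.ofLp (A.e i0 p)) (r / 2) ⊆ ball (WithLp.ofLp (A.e i0 p)) r :=
    closedBall_subset_ball (by linarith)
  refine ⟨r / 2, hb.w i0 p / 2, by positivity, by positivity, fun ζ hζ =>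
    ⟨(hrb ζ (hcb hζ)).1, (hrb ζ (hcb hζ)).2.2.1⟩, ?_⟩
  intro m e he h hw s hs hsr y
  set c : ℝ := hb.w i0 p / 2 with hc
  have hc0 : 0 < c := by positivity
  have hsub : closedBall (WithLp.ofLp (A.e i0 p)) s ⊆ ball (WithLp.ofLp (A.e i0 p)) r :=
    (closedBall_subset_closedBall hsr).trans hcb
  -- the localised density
  have hdn : IsDn A ((HB K h).hd y.1 y.1) := (HB K h).isDn y.2 y.2
  have hχC : A.Sm (fun x => (χ x : ℂ)) := sm_iff.2 fun q => (hχ q).ofReal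
  have hf : IsDn A (fun i x => (χ x : ℂ) * (HB K h).hd y.1 y.1 i x) := hdn.fmul hχC
  have hnn : ∀ i, ∀ x ∈ (A.e i).source, 0 ≤ ((HB K h).hd y.1 y.1 i x).re := fun i x hx =>
    (Complex.le_def.1 ((HB K h).hd_self_nonneg y.1 hx)).1
  have hmono : (IntP P (fun i x => (χ x : ℂ) * (HB K h).hd y.1 y.1 i x)).re ≤
      (HB K h).sn P y ^ 2 := by
    rw [HDen.sn_sq]
    refine IntP_re_mono P hf hdn fun i x hx => ?_
    rw [Complex.re_ofReal_mul]
    have := mul_le_mul_of_nonneg_right (hχ2 x) (hnn i x hx)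
    linarith
  have hz0 : ∀ i, ∀ x ∈ (A.e i).source, x ∉ tsupport χ →
      (χ x : ℂ) * (HB K h).hd y.1 y.1 i x = 0 := fun i x _ hx => by
    rw [image_eq_zero_of_notMem_tsupport hx, Complex.ofReal_zero, zero_mul]
  rw [IntP_loc P hf hχc hχs hz0] at hmono
  have hcc : CC A i0 (fun x => (χ x : ℂ) * (HB K h).hd y.1 y.1 i0 x) :=
    CC.of_zero_off (hf.sm i0) hχc hχs fun x hx => by
      rw [image_eq_zero_of_notMem_tsupport hx, Complex.ofReal_zero, zero_mul]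
  rw [lint_re i0 hcc.integrable] at hmono
  set G : (RI n → ℝ) → ℂ := rd A i0 (fun x => (χ x : ℂ) * (HB K h).hd y.1 y.1 i0 x) with hG
  have hGnn : ∀ x, 0 ≤ (G x).re := by
    intro x
    by_cases hx : x ∈ Ui A i0
    · rw [hG, C1d194.rd_of_mem hx, Complex.re_ofReal_mul]
      exact mul_nonneg (hχ0 _) (hnn i0 _ ((A.e i0).map_target hx))
    · rw [hG, C1d194.rd_off hx]
      simp
  have hGint : Integrable (fun x => (G x).re) := hcc.integrable.re
  have h1 : ENNReal.ofReal (∫ x, (G x).re) = ∫⁻ x, ENNReal.ofReal (G x).re :=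
    ofReal_integral_eq_lintegral_ofReal hGint (Eventually.of_forall hGnn)
  set D : ℝ := c * ((n * s ^ 2 + e) ^ m)⁻¹ with hD
  have hse : 0 < n * s ^ 2 + e := by positivity
  have hD0 : 0 < D := by positivity
  have h2 : ENNReal.ofReal D * ∫⁻ ζ in closedBall (WithLp.ofLp (A.e i0 p)) s,
      ‖Yf i0 y.1 ζ‖ₑ ^ 2 ≤ ENNReal.ofReal (∫ x, (G x).re) := by
    rw [h1, ← lintegral_const_mul' _ _ ENNReal.ofReal_ne_top,
      ← (mp_kap n).setLIntegral_comp_preimage_emb (me_kap n)]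
    refine (setLIntegral_mono' ?_ fun x hx => ?_).trans (setLIntegral_le_lintegral _ _)
    · exact (mp_kap n).measurable measurableSet_closedBall
    · have hx' : kap x ∈ closedBall (WithLp.ofLp (A.e i0 p)) s := hx
      obtain ⟨hxt, hx1, hx2, hx3, hx4⟩ := hrb (kap x) (hsub hx')
      have hcx : (WithLp.toLp 2 (kap x) : Cn n) = cc x := by
        rw [kap_eq]
      rw [hcx] at hxt hx1 hx2 hx3 hx4
      have hxU : x ∈ Ui A i0 := hxt
      rw [hG, C1d194.rd_of_mem hxU, Complex.re_ofReal_mul, hx1, one_mul]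
      have hsrc := (A.e i0).map_target hxt
      have h3 := hd_zero_le K h y.1 hsrc
      have hθ : T.θ ((A.e i0).symm (cc x)) ≤ n * s ^ 2 := by
        rw [T.eq _ hx3, (A.e i0).right_inv hxt]
        have h4 : ∀ a : Fin n, ‖cc x a - A.e i0 p a‖ ^ 2 ≤ s ^ 2 := by
          intro a
          have h5 : ‖kap x a - (WithLp.ofLp (A.e i0 p)) a‖ ≤ s := by
            have h6 : ‖kap x - WithLp.ofLp (A.e i0 p)‖ ≤ s := by
              rw [← dist_eq_norm]; exact mem_closedBall.1 hx'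
            exact (norm_le_pi_norm (kap x - WithLp.ofLp (A.e i0 p)) a).trans h6
          exact pow_le_pow_left₀ (norm_nonneg _) h5 2
        refine (Finset.sum_le_sum fun a _ => h4 a).trans ?_
        rw [Finset.sum_const, Finset.card_univ, Fintype.card_fin, nsmul_eq_mul]
      have h7 : D ≤ h.w i0 ((A.e i0).symm (cc x)) := by
        rw [hw, hD]
        refine mul_le_mul hx4.le ?_ (by positivity) (le_trans (by positivity) hx4.le)
        refine inv_anti₀ (pow_pos (T.tpos he _) m) ?_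
        exact pow_le_pow_left₀ (T.tpos he _).le (by linarith) m
      have h8 : ‖Yf i0 y.1 (kap x)‖ₑ ^ 2 =
          ENNReal.ofReal (‖oB (y.1 i0 ((A.e i0).symm (cc x))) ∅‖ ^ 2) := by
        rw [← hcx, ENNReal.ofReal_pow (norm_nonneg _), ofReal_norm]
        rfl
      rw [h8, ← ENNReal.ofReal_mul hD0.le]
      refine ENNReal.ofReal_le_ofReal (le_trans ?_ h3)
      exact mul_le_mul_of_nonneg_right h7 (sq_nonneg _)
  have h3 : ENNReal.ofReal D * ∫⁻ ζ in closedBall (WithLp.ofLp (A.e i0 p)) s,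
      ‖Yf i0 y.1 ζ‖ₑ ^ 2 ≤ ENNReal.ofReal ((HB K h).sn P y ^ 2) :=
    h2.trans (ENNReal.ofReal_le_ofReal hmono)
  have h4 : ∫⁻ ζ in closedBall (WithLp.ofLp (A.e i0 p)) s, ‖Yf i0 y.1 ζ‖ₑ ^ 2 =
      ENNReal.ofReal D⁻¹ * (ENNReal.ofReal D *
        ∫⁻ ζ in closedBall (WithLp.ofLp (A.e i0 p)) s, ‖Yf i0 y.1 ζ‖ₑ ^ 2) := by
    rw [← mul_assoc, ← ENNReal.ofReal_mul (by positivity), inv_mul_cancel₀ hD0.ne',
      ENNReal.ofReal_one, one_mul]
  rw [h4]
  refine (mul_le_mul_right h3 _).trans ?_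
  rw [← ENNReal.ofReal_mul (by positivity)]
  refine ENNReal.ofReal_le_ofReal (le_of_eq ?_)
  rw [hD, _root_.mul_inv, inv_inv]

theorem upper (T : Wgt A p i0) {W' : Set M} (hW' : IsOpen W') (hpW' : p ∈ W') (z : Sec (BN N))
    (hz : ∀ i, ∀ x ∈ W', z.1 i x = 0) (m : ℕ) :
    ∃ C : ℝ, 0 ≤ C ∧ ∀ e : ℝ, 0 < e → ∀ h : HM ((KB A)⁻¹ * N),
      (∀ i x, h.w i x = hb.w i x * ((T.θ x + e) ^ m)⁻¹) → (HB K h).sn P z ≤ C := by
  obtain ⟨c, hc, hcW⟩ : ∃ c : ℝ, 0 < c ∧ ∀ x ∉ W', c ≤ T.θ x := by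
    have hcont : Continuous T.θ := by
      rw [continuous_iff_continuousAt]
      exact fun x => (sm_iff.1 T.sm x).continuousAt
    rcases (W'ᶜ).eq_empty_or_nonempty with h | h
    · exact ⟨1, one_pos, fun x hx => by
        have : x ∈ W'ᶜ := hx
        rw [h] at this
        exact this.elim⟩
    · obtain ⟨y, hy, hmin⟩ := (hW'.isClosed_compl.isCompact).exists_isMinOn h hcont.continuousOn
      refine ⟨T.θ y, T.pos y ?_, fun x hx => hmin hx⟩
      rintro rfl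
      exact hy hpW'
  refine ⟨Real.sqrt ((c ^ m)⁻¹ * (HB K hb).sn P z ^ 2), Real.sqrt_nonneg _, fun e he h hw => ?_⟩
  refine Real.sqrt_le_sqrt ?_
  rw [HDen.sn_sq]
  have h1 : (c ^ m)⁻¹ * ((HB K hb).ip P z.1 z.1).re =
      (IntP P (fun i x => (((c ^ m)⁻¹ : ℝ) : ℂ) * (HB K hb).hd z.1 z.1 i x)).re := by
    rw [IntP_const_mul, Complex.re_ofReal_mul]
    rfl
  rw [h1]
  refine IntP_re_mono P ((HB K h).isDn z.2 z.2) (((HB K hb).isDn z.2 z.2).const_mul _)
    fun i x hx => ?_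
  have hnn : 0 ≤ ((HB K hb).hd z.1 z.1 i x).re :=
    (Complex.le_def.1 ((HB K hb).hd_self_nonneg z.1 hx)).1
  by_cases hxW : x ∈ W'
  · have h2 : (HB K h).hd z.1 z.1 i x = 0 := by
      unfold HDen.hd
      rw [hz i x hxW, star_zero, zero_dotProduct]
    rw [h2, Complex.zero_re, Complex.re_ofReal_mul]
    exact mul_nonneg (by positivity) hnn
  · have h2 : (HB K h).hd z.1 z.1 i x =
        ((((T.θ x + e) ^ m)⁻¹ : ℝ) : ℂ) * (HB K hb).hd z.1 z.1 i x := by
      rw [HB_hd_iB, HB_hd_iB, hw]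
      push_cast
      ring
    rw [h2, Complex.re_ofReal_mul, Complex.re_ofReal_mul]
    refine mul_le_mul_of_nonneg_right ?_ hnn
    have h3 := hcW x hxW
    exact inv_anti₀ (by positivity) (pow_le_pow_left₀ hc.le (by linarith) m)

end

end Crest.Agent.R272.Kod5_410
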