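import Crest.Agent.R272.Kod5_410
import Crest.Agent.R272.Kod4_410
import Crest.Agent.R273.D13_505

/-!
# R272, KOD-EMB (helper410), part 6: sections with prescribed 1-jet

* `cutC L f i0` : the cut off section `f` (in the frame of the chart `i0`);
* `jet_approx`, `jet_exact`, `gen1` : for `k` large (depending on the point `p`) every 1-jet at `p`
  is the jet of a section of `O ^ k`.
-/

set_option autoImplicit false
set_option linter.unusedSectionVars false

open Set Filter Topology Complex MeasureTheory Metric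
open scoped ContDiff Matrix ComplexConjugate Kronecker ComplexOrder ENNReal

namespace Crest.Agent.R272.Kod6_410

open Crest.Agent.R275 Crest.Agent.R275.Geo Crest.Agent.R275.Core144 Crest.Agent.R275.Dg199
open Crest.Agent.R273.Defs_333 Crest.Agent.R273.HM_333 Crest.Agent.R273.Kah_333
open Crest.Agent.R273.LamN127 Crest.Agent.R273.NormC_505
open Crest.Agent.R273.DVec_733 Crest.Agent.R273.DMet_733
open Crest.Agent.R273.HDN_505 (HB HB_pos)
open Crest.Agent.R273.SerA_945 Crest.Agent.R273.SerB_945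
open Crest.Agent.R273.TD3_733
open Crest.Agent.R272.Kod2_410 Crest.Agent.R272.Kod3_410 Crest.Agent.R272.Kod5_410

noncomputable section

variable {n : ℕ} {M : Type} [TopologicalSpace M] {A : Atl n M}

/-! ### the cut off section -/

open Classical in
/-- `f` in the frame of the chart `i0` -/
def cutC (L : LB A) (f : M → ℂ) (i0 : A.ι) : Fn A := fun i x =>
  if x ∈ (A.e i).source then f x * L.g i i0 x else 0

theorem cutC_eq (L : LB A) (f : M → ℂ) {i0 i : A.ι} {x : M} (hx : x ∈ (A.e i).source) :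
    cutC L f i0 i x = f x * L.g i i0 x := if_pos hx

theorem cutC_off (L : LB A) (f : M → ℂ) (i0 i : A.ι) : ∀ x ∉ (A.e i).source,
    cutC L f i0 i x = 0 := fun _ hx => if_neg hx

section

variable [T2Space M]

theorem smS_cutC (L : LB A) {f : M → ℂ} {i0 : A.ι} (hf : ∀ q, SmN A f q)
    (hs : tsupport f ⊆ (A.e i0).source) : SmS L (cutC L f i0) := by
  have hz : ∀ x ∉ (A.e i0).source, f x = 0 := fun x hx =>
    image_eq_zero_of_notMem_tsupport fun h => hx (hs h)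
  refine SmS.of_smN (fun i p hp => ?_) (fun i j x hx => ?_)
  · by_cases hp0 : p ∈ (A.e i0).source
    · refine ((hf p).mul (smN_g L ⟨hp, hp0⟩)).congr ?_
      filter_upwards [(A.e i).open_source.mem_nhds hp] with x hx
      exact cutC_eq L f hx
    · refine (smN_const (A := A) (0 : ℂ) p).congr ?_
      have hp1 : p ∉ tsupport f := fun h => hp0 (hs h)
      filter_upwards [(A.e i).open_source.mem_nhds hp,
        (isClosed_tsupport f).isOpen_compl.mem_nhds hp1] with x hx hx1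
      rw [cutC_eq L f hx, image_eq_zero_of_notMem_tsupport hx1, zero_mul]
  · rw [cutC_eq L f hx.1, cutC_eq L f hx.2]
    by_cases hx0 : x ∈ (A.e i0).source
    · rw [← L.mul i j i0 x ⟨hx, hx0⟩]
      ring
    · rw [hz x hx0]
      simp

end

variable [T2Space M] [CompactSpace M] [Finite A.ι] (P : Part A) {O : LB A} {hO : HM O}

include P in
/-- **approximation of jets** -/
theorem jet_approx (hp : hO.Pos) {p : M} {i0 : A.ι} (hpi : p ∈ (A.e i0).source) :
    ∃ k0 : ℕ, ∀ k, k0 ≤ k → ∀ f : M → ℂ, (∀ q, SmN A f q) → tsupport f ⊆ (A.e i0).source →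
      (∃ W' : Set M, IsOpen W' ∧ p ∈ W' ∧ W' ⊆ (A.e i0).source ∧ ∀ i, HolAt A i W' f) →
      ∀ δ : ℝ, 0 < δ → ∃ s, IsHS (O ^ k) univ s ∧ ‖s i0 p - f p‖ ≤ δ ∧
        ‖fderiv ℂ (fun z => s i0 ((A.e i0).symm z)) (A.e i0 p) -
          fderiv ℂ (fun z => f ((A.e i0).symm z)) (A.e i0 p)‖ ≤ δ := by
  obtain ⟨h0⟩ := exists_hm P (KB A)⁻¹
  obtain ⟨T⟩ := exists_wgt hpi
  obtain ⟨k0, hk0⟩ := exists_LB hO hp h0 T (n + 2)
  obtain ⟨C, hC0, hC⟩ := Kod4_410.small_jet n
  refine ⟨k0, fun k hkk f hf hfs hW δ hδ => ?_⟩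
  obtain ⟨W', hW'o, hpW', hW's, hhol⟩ := hW
  set N : LB A := O ^ k with hN
  let K : Kah A := kah hO hp
  have hD : D2 A := R273.D13_505.d2 P K
  set hb : HM ((KB A)⁻¹ * N) := mul h0 (pow hO k) with hhb
  -- the smooth section
  have hσ : SmS N (cutC N f i0) := smS_cutC N hf hfs
  have hσo : ∀ i, ∀ x ∉ (A.e i).source, cutC N f i0 i x = 0 := cutC_off N f i0
  have hm := embN_mem hσ hσo
  have hol : ∀ i, HolAt A i W' (cutC N f i0 i) := by
    intro i
    refine ((hhol i).mul ((N.hol i i0).mono hW's)).congr fun x hx hxW => ?_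
    rw [cutC_eq N f hx]
  have hzW : ∀ i, ∀ x ∈ W', Db (embN (cutC N f i0)) i x = 0 := Db_embN_zero hσ hσo hW'o hol
  let σ : Sec (BN N) := ⟨embN (cutC N f i0), hm.1⟩
  have hσ0 : pqL (BN N) 0 σ = σ := Subtype.ext (R273.SerE_945.pq_of_isDeg hm.2)
  set z : Sec (BN N) := nabL (BN N) σ with hz
  have hz1 : pqL (BN N) 1 z = z := by
    refine Subtype.ext ?_
    have h4 := nab_pq (B := BN N) 0 σ.2
    have h5 : pq (BN N) 0 σ.1 = σ.1 := congrArg Subtype.val hσ0
    rw [h5] at h4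
    exact h4.symm
  have hz0 : nabL (BN N) z = 0 := nab_nab_BN N σ
  have hzW' : ∀ i, ∀ x ∈ W', z.1 i x = 0 := hzW
  obtain ⟨Cz, hCz0, hCz⟩ := upper P K hb T hW'o hpW' z hzW' (n + 2)
  obtain ⟨r, c, hr, hc, hrW, hlow⟩ := lower P K hb T hpi hW'o hpW'
  -- the constant
  set B : ℝ := Real.sqrt (c⁻¹ * (n + 1) ^ (n + 2) * Cz ^ 2) with hB
  have hB0 : 0 ≤ B := Real.sqrt_nonneg _
  have hB2 : B ^ 2 = c⁻¹ * (n + 1) ^ (n + 2) * Cz ^ 2 := Real.sq_sqrt (by positivity)
  -- choice of `s`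
  obtain ⟨s, hs, hs1, hsr, hs2, hs3⟩ : ∃ s : ℝ, 0 < s ∧ s ≤ 1 ∧ s ≤ r ∧ C * B * s ^ 2 ≤ δ ∧
      C * B * s ≤ δ := by
    refine ⟨min (min 1 r) (δ / (C * B + 1)), by positivity,
      (min_le_left _ _).trans (min_le_left _ _), (min_le_left _ _).trans (min_le_right _ _), ?_, ?_⟩
    · set s := min (min 1 r) (δ / (C * B + 1))
      have h1 : s ≤ 1 := (min_le_left _ _).trans (min_le_left _ _)
      have h2 : s ≤ δ / (C * B + 1) := min_le_right _ _
      have h0 : 0 < s := by positivity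
      have hCB : 0 ≤ C * B := mul_nonneg hC0 hB0
      rw [le_div_iff₀ (by positivity)] at h2
      have h3 : s ^ 2 ≤ s := by nlinarith
      nlinarith
    · set s := min (min 1 r) (δ / (C * B + 1))
      have h2 : s ≤ δ / (C * B + 1) := min_le_right _ _
      have h0 : 0 < s := by positivity
      have hCB : 0 ≤ C * B := mul_nonneg hC0 hB0
      rw [le_div_iff₀ (by positivity)] at h2
      nlinarith
  have he : 0 < s ^ 2 := by positivity
  have he1 : s ^ 2 ≤ 1 := by nlinarith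
  have hw : ∀ i x, (hk hO h0 k T (n + 2) he).w i x =
      hb.w i x * ((T.θ x + s ^ 2) ^ (n + 2))⁻¹ := fun i x => hk_w hO h0 k T (n + 2) he i x
  obtain ⟨y, hy, hy0, hyn⟩ := solv_bound P K (hk hO h0 k T (n + 2) he)
    (fun i x hx => hk0 k hkk (s ^ 2) he he1 i x hx) hD z hz0 hz1
  have hyC : (HB K (hk hO h0 k T (n + 2) he)).sn P y ≤ Cz :=
    hyn.trans (hCz (s ^ 2) he _ hw)
  have hint := hlow (n + 2) (s ^ 2) he _ hw s hs hsr y
  have hint2 : ∫⁻ ζ in closedBall (WithLp.ofLp (A.e i0 p)) s, ‖Yf i0 y.1 ζ‖ₑ ^ 2 ≤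
      ENNReal.ofReal (B ^ 2 * s ^ (2 * n + 4)) := by
    refine hint.trans (ENNReal.ofReal_le_ofReal ?_)
    have h1 : (HB K (hk hO h0 k T (n + 2) he)).sn P y ^ 2 ≤ Cz ^ 2 :=
      pow_le_pow_left₀ (HDen.sn_nonneg _ _ _) hyC 2
    have h2 : ((n : ℝ) * s ^ 2 + s ^ 2) ^ (n + 2) = (n + 1) ^ (n + 2) * s ^ (2 * n + 4) := by
      rw [← add_one_mul, mul_pow, ← pow_mul]
      congr 2
    rw [h2, hB2]
    calc c⁻¹ * ((n + 1) ^ (n + 2) * s ^ (2 * n + 4)) *
          (HB K (hk hO h0 k T (n + 2) he)).sn P y ^ 2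
        ≤ c⁻¹ * ((n + 1) ^ (n + 2) * s ^ (2 * n + 4)) * Cz ^ 2 :=
          mul_le_mul_of_nonneg_left h1 (by positivity)
      _ = _ := by ring
  -- the holomorphic section
  let yr : Raw A := y.1
  have hyF : yr ∈ FF N 0 := by
    refine ⟨y.2, ?_⟩
    intro i x κ hκ
    by_contra hne
    have h1 : y.1 i x κ = pq (BN N) 0 y.1 i x κ := by
      conv_lhs => rw [← hy0]
      rfl
    rw [pq_apply, if_neg hne] at h1
    exact hκ h1
  have hu : embN (cutC N f i0) - yr ∈ FF N 0 := (FF N 0).sub_mem hm hyF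
  have hDu : Db (embN (cutC N f i0) - yr) = 0 := by
    rw [Db_sub hm hyF]
    have h2 : Db yr = Db (embN (cutC N f i0)) := congrArg Subtype.val hy
    rw [h2, sub_self]
  have hsec := isHS_of_closed hu hDu
  set sec : Fn A := fun i x => (embN (cutC N f i0) - yr) i x (∅, ()) with hsecd
  have hval : ∀ x ∈ (A.e i0).source, sec i0 x = f x - oB (N := N) (y.1 i0 x) ∅ := by
    intro x hx
    show embN (cutC N f i0) i0 x (∅, ()) - yr i0 x (∅, ()) = _
    have h1 : embN (cutC N f i0) i0 x (∅, ()) = cutC N f i0 i0 x := if_pos rfl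
    rw [h1, cutC_eq N f hx, N.self, mul_one]
    rfl
  -- differentiability
  set DD : Set (Fin n → ℂ) := {ζ | WithLp.toLp 2 ζ ∈ (A.e i0).target ∧
    (A.e i0).symm (WithLp.toLp 2 ζ) ∈ W'} with hDD
  have hcont : Continuous (fun ζ : Fin n → ℂ => (WithLp.toLp 2 ζ : Cn n)) :=
    PiLp.continuous_toLp 2 (fun _ : Fin n => ℂ)
  have hDDo : IsOpen DD := (isOpen_ti (A := A) (i := i0) hW'o).preimage hcont
  let E : (Fin n → ℂ) ≃L[ℂ] Cn n := (PiLp.continuousLinearEquiv 2 ℂ (fun _ : Fin n => ℂ)).symm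
  have hEc : ∀ ζ, E ζ = (WithLp.toLp 2 ζ : Cn n) := fun ζ => rfl
  have hfd : ∀ ζ ∈ DD, DifferentiableAt ℂ (fun z => f ((A.e i0).symm z)) (WithLp.toLp 2 ζ) := by
    intro ζ hζ
    exact DifferentiableOn.differentiableAt (hhol i0) ((isOpen_ti (A := A) hW'o).mem_nhds hζ)
  have hsd : ∀ ζ ∈ DD, DifferentiableAt ℂ (fun z => sec i0 ((A.e i0).symm z))
      (WithLp.toLp 2 ζ) := by
    intro ζ hζ
    exact DifferentiableOn.differentiableAt (hsec.hol i0)
      ((isOpen_ti (A := A) isOpen_univ).mem_nhds ⟨hζ.1, mem_univ _⟩)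
  have hYeq : ∀ ζ ∈ DD, Yf i0 y.1 ζ = f ((A.e i0).symm (E ζ)) - sec i0 ((A.e i0).symm (E ζ)) := by
    intro ζ hζ
    rw [hEc, hval _ ((A.e i0).map_target hζ.1)]
    show oB (N := N) _ ∅ = _
    ring
  have hYd : ∀ ζ ∈ DD, HasFDerivAt (Yf i0 y.1)
      ((fderiv ℂ (fun z => f ((A.e i0).symm z)) (WithLp.toLp 2 ζ) -
        fderiv ℂ (fun z => sec i0 ((A.e i0).symm z)) (WithLp.toLp 2 ζ)).comp
          (E : (Fin n → ℂ) →L[ℂ] Cn n)) ζ := by
    intro ζ hζ
    have h1 := ((hfd ζ hζ).hasFDerivAt.sub (hsd ζ hζ).hasFDerivAt)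
    have h2 : HasFDerivAt (fun ζ => E ζ) (E : (Fin n → ℂ) →L[ℂ] Cn n) ζ := E.hasFDerivAt
    have h3 := HasFDerivAt.comp (x := ζ) (f := fun ζ => E ζ)
      (g := fun z => f ((A.e i0).symm z) - sec i0 ((A.e i0).symm z)) h1 h2
    refine h3.congr_of_eventuallyEq ?_
    filter_upwards [hDDo.mem_nhds hζ] with ξ hξ
    exact hYeq ξ hξ
  have hsub : closedBall (WithLp.ofLp (A.e i0 p)) s ⊆ DD :=
    fun ζ hζ => hrW ζ (closedBall_subset_closedBall hsr hζ)
  obtain ⟨hj1, hj2⟩ := hC DD (WithLp.ofLp (A.e i0 p)) s (Yf i0 y.1) B hDDo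
    (fun ζ hζ => (hYd ζ hζ).differentiableAt.differentiableWithinAt) hs hsub hB0 hint2
  have hpD : WithLp.ofLp (A.e i0 p) ∈ DD := hsub (mem_closedBall_self hs.le)
  refine ⟨sec, hsec, ?_, ?_⟩
  · have h1 := hYeq _ hpD
    rw [hEc] at h1
    have h2 : (WithLp.toLp 2 (WithLp.ofLp (A.e i0 p)) : Cn n) = A.e i0 p := rfl
    rw [h2, (A.e i0).left_inv hpi] at h1
    rw [← norm_neg, neg_sub, ← h1]
    exact hj1.trans hs2
  · have h3 : (WithLp.toLp 2 (WithLp.ofLp (A.e i0 p)) : Cn n) = A.e i0 p := rfl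
    have h4 := (hYd _ hpD).fderiv
    rw [h3] at h4
    refine ContinuousLinearMap.opNorm_le_bound _ hδ.le fun v => ?_
    have h5 := hj2 (WithLp.ofLp v)
    rw [h4] at h5
    have h6 : ((fderiv ℂ (fun z => f ((A.e i0).symm z)) (A.e i0 p) -
        fderiv ℂ (fun z => sec i0 ((A.e i0).symm z)) (A.e i0 p)).comp
          (E : (Fin n → ℂ) →L[ℂ] Cn n)) (WithLp.ofLp v) =
        -((fderiv ℂ (fun z => sec i0 ((A.e i0).symm z)) (A.e i0 p) -
          fderiv ℂ (fun z => f ((A.e i0).symm z)) (A.e i0 p)) v) := by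
      show (fderiv ℂ (fun z => f ((A.e i0).symm z)) (A.e i0 p) -
        fderiv ℂ (fun z => sec i0 ((A.e i0).symm z)) (A.e i0 p)) v = _
      rw [sub_apply, sub_apply, neg_sub]
    rw [h6, norm_neg] at h5
    refine h5.trans ?_
    have h7 : ‖(WithLp.ofLp v : Fin n → ℂ)‖ ≤ ‖v‖ := by
      refine (pi_norm_le_iff_of_nonneg (norm_nonneg v)).2 fun a => ?_
      exact PiLp.norm_apply_le v a
    exact (mul_le_mul_of_nonneg_right hs3 (norm_nonneg _)).trans
      (mul_le_mul_of_nonneg_left h7 hδ.le)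

end

end Crest.Agent.R272.Kod6_410
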