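import Crest.Agent.R272.Kod6_410

/-!
# R272, KOD-EMB (helper410), part 7: generation of 1-jets

* `Gen1 L i x` : every 1-jet at `x` (read in the chart `i`) is the jet of a global section of `L`;
* `gen1`       : `hO : HM O` positive, `p` a point ⟹ `Gen1 (O ^ k) i p` for `k` large;
* `Gen1.mul`, `Gen1.pow`, `Gen1.chg` (change of chart), `Gen1.ev` (open condition).
-/

set_option autoImplicit false
set_option linter.unusedSectionVars false

open Set Filter Topology Complex MeasureTheory Metric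
open scoped ContDiff Matrix ComplexConjugate Kronecker ComplexOrder ENNReal

namespace Crest.Agent.R272.Kod7_410

open Crest.Agent.R275 Crest.Agent.R275.Geo Crest.Agent.R275.Core144 Crest.Agent.R275.Dg199
open Crest.Agent.R273.Defs_333 Crest.Agent.R273.HM_333
open Crest.Agent.R273.SerA_945 (Fn)
open Crest.Agent.R272.Kod6_410

noncomputable section

variable {n : ℕ} {M : Type} [TopologicalSpace M] {A : Atl n M}

/-- every 1-jet at `x` is the jet of a global section -/
def Gen1 (L : LB A) (i : A.ι) (x : M) : Prop := ∀ (a : ℂ) (φ : Cn n →L[ℂ] ℂ),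
  ∃ s, IsHS L univ s ∧ s i x = a ∧ fderiv ℂ (fun z => s i ((A.e i).symm z)) (A.e i x) = φ

theorem diffAt {L : LB A} {s : Fn A} (hs : IsHS L univ s) {i : A.ι} {x : M}
    (hx : x ∈ (A.e i).source) : DifferentiableAt ℂ (fun z => s i ((A.e i).symm z)) (A.e i x) :=
  (hs.hol i).diffAt isOpen_univ hx (mem_univ _)

/-- the jet map -/
def jet (L : LB A) (i : A.ι) (x : M) (hx : x ∈ (A.e i).source) :
    HS L univ →ₗ[ℂ] ℂ × (Cn n →L[ℂ] ℂ) where
  toFun s := (s.1 i x, fderiv ℂ (fun z => s.1 i ((A.e i).symm z)) (A.e i x))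
  map_add' s t := by
    refine Prod.ext rfl ?_
    exact fderiv_add (diffAt s.2 hx) (diffAt t.2 hx)
  map_smul' c s := by
    refine Prod.ext rfl ?_
    exact fderiv_const_smul (diffAt s.2 hx) c

theorem gen1_iff {L : LB A} {i : A.ι} {x : M} (hx : x ∈ (A.e i).source) :
    Gen1 L i x ↔ LinearMap.range (jet L i x hx) = ⊤ := by
  rw [LinearMap.range_eq_top]
  constructor
  · rintro h ⟨a, φ⟩
    obtain ⟨s, hs, h1, h2⟩ := h a φ
    exact ⟨⟨s, hs⟩, Prod.ext h1 h2⟩
  · intro h a φ
    obtain ⟨s, hs⟩ := h (a, φ)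
    exact ⟨s.1, s.2, congrArg Prod.fst hs, congrArg Prod.snd hs⟩

/-! ### products -/

theorem Gen1.mul {L L' : LB A} {i : A.ι} {x : M} (hx : x ∈ (A.e i).source) (h' : Gen1 L' i x)
    (h : Gen1 L i x) : Gen1 (L' * L) i x := by
  intro a φ
  obtain ⟨s0, hs0, h1, h2⟩ := h' 1 0
  obtain ⟨s, hs, h3, h4⟩ := h a φ
  refine ⟨s0 * s, hs0.mul hs, ?_, ?_⟩
  · show s0 i x * s i x = a
    rw [h1, h3, one_mul]
  · have h5 := ((diffAt hs0 hx).hasFDerivAt.mul (diffAt hs hx).hasFDerivAt).fderiv
    have h6 : (fun z => (s0 * s) i ((A.e i).symm z)) =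
        (fun z => s0 i ((A.e i).symm z)) * fun z => s i ((A.e i).symm z) := rfl
    rw [h6, h5, h2, h4, (A.e i).left_inv hx, h1]
    ext v
    simp only [add_apply, smul_apply, zero_apply, smul_eq_mul, mul_zero, add_zero, one_mul]

theorem Gen1.pow {L : LB A} {i : A.ι} {x : M} (hx : x ∈ (A.e i).source) (h : Gen1 L i x) (q : ℕ) :
    Gen1 (L ^ (q + 1)) i x := by
  induction q with
  | zero => rw [zero_add, pow_one]; exact h
  | succ q ih => rw [pow_succ]; exact ih.mul hx h

/-! ### change of chart -/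

theorem Gen1.chg {L : LB A} {i j : A.ι} {x : M} (hi : x ∈ (A.e i).source)
    (hj : x ∈ (A.e j).source) (h : Gen1 L i x) : Gen1 L j x := by
  intro a φ
  -- transition maps
  have oij : IsOpen (A.ov i j) := isOpen_ov i j
  have oji : IsOpen (A.ov j i) := isOpen_ov j i
  have mij : A.e i x ∈ A.ov i j := mem_ov ⟨hi, hj⟩
  have mji : A.e j x ∈ A.ov j i := mem_ov ⟨hj, hi⟩
  have dS : DifferentiableAt ℂ (fun z => A.e j ((A.e i).symm z)) (A.e i x) :=
    (A.holo i j).differentiableAt (oij.mem_nhds mij)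
  have dT : DifferentiableAt ℂ (fun z => A.e i ((A.e j).symm z)) (A.e j x) :=
    (A.holo j i).differentiableAt (oji.mem_nhds mji)
  have dG : DifferentiableAt ℂ (fun z => L.g j i ((A.e j).symm z)) (A.e j x) :=
    (L.hol j i).differentiableAt (oji.mem_nhds mji)
  set S' := fderiv ℂ (fun z => A.e j ((A.e i).symm z)) (A.e i x) with hS'
  set T' := fderiv ℂ (fun z => A.e i ((A.e j).symm z)) (A.e j x) with hT'
  set G' := fderiv ℂ (fun z => L.g j i ((A.e j).symm z)) (A.e j x) with hG'
  set g : ℂ := L.g j i x with hg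
  have hg0 : g ≠ 0 := L.ne_zero j i x
  -- `S' ∘ T' = id`
  have hST : S'.comp T' = ContinuousLinearMap.id ℂ (Cn n) := by
    have h1 : HasFDerivAt (fun z => A.e j ((A.e i).symm z)) S' (A.e i ((A.e j).symm (A.e j x))) := by
      rw [(A.e j).left_inv hj]
      exact dS.hasFDerivAt
    have h2 := h1.comp (A.e j x) dT.hasFDerivAt
    have h3 : ((fun z => A.e j ((A.e i).symm z)) ∘ fun z => A.e i ((A.e j).symm z)) =ᶠ[𝓝 (A.e j x)]
        fun z => z := by
      filter_upwards [oji.mem_nhds mji] with z hz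
      show A.e j ((A.e i).symm (A.e i ((A.e j).symm z))) = z
      rw [(A.e i).left_inv hz.2, (A.e j).right_inv hz.1]
    exact (h2.congr_of_eventuallyEq h3.symm).unique (hasFDerivAt_id _)
  obtain ⟨s, hs, h1, h2⟩ := h (g⁻¹ * a) ((g⁻¹ • (φ - (g⁻¹ * a) • G')).comp S')
  have hsx : s j x = g * s i x := hs.tr j i x ⟨hj, hi⟩ (mem_univ _)
  refine ⟨s, hs, ?_, ?_⟩
  · rw [hsx, h1, ← mul_assoc, mul_inv_cancel₀ hg0, one_mul]
  · have h3 : (fun z => s j ((A.e j).symm z)) =ᶠ[𝓝 (A.e j x)]
        fun z => L.g j i ((A.e j).symm z) * s i ((A.e i).symm (A.e i ((A.e j).symm z))) := by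
      filter_upwards [oji.mem_nhds mji] with z hz
      rw [hs.tr j i _ ⟨(A.e j).map_target hz.1, hz.2⟩ (mem_univ _), (A.e i).left_inv hz.2]
    have h4 : HasFDerivAt (fun z => s i ((A.e i).symm z))
        (fderiv ℂ (fun z => s i ((A.e i).symm z)) (A.e i x))
        (A.e i ((A.e j).symm (A.e j x))) := by
      rw [(A.e j).left_inv hj]
      exact (diffAt hs hi).hasFDerivAt
    have h5 := h4.comp (A.e j x) dT.hasFDerivAt
    have h6 := dG.hasFDerivAt.mul h5
    have h7 := (h6.congr_of_eventuallyEq h3).fderiv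
    rw [h7, h2]
    have e1 : L.g j i ((A.e j).symm (A.e j x)) = g := by rw [(A.e j).left_inv hj]
    have e2 : ((fun z => s i ((A.e i).symm z)) ∘ fun z => A.e i ((A.e j).symm z)) (A.e j x) =
        g⁻¹ * a := by
      show s i ((A.e i).symm (A.e i ((A.e j).symm (A.e j x)))) = _
      rw [(A.e j).left_inv hj, (A.e i).left_inv hi, h1]
    rw [e1, e2, ← hT', ← hG']
    ext v
    have e3 : S' (T' v) = v := by
      have := DFunLike.congr_fun hST v
      simpa using this
    simp only [add_apply, smul_apply, ContinuousLinearMap.comp_apply, sub_apply, smul_eq_mul, e3]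
    rw [← mul_assoc, mul_inv_cancel₀ hg0, one_mul]
    ring

/-! ### openness -/

/-- the jet matrix of a family of sections -/
def jmat (F : Option (Fin n) → Fn A) (i : A.ι) (z : Cn n) :
    Matrix (Option (Fin n)) (Option (Fin n)) ℂ := Matrix.of fun k l =>
  match l with
  | none => F k i ((A.e i).symm z)
  | some b => fderiv ℂ (fun w => F k i ((A.e i).symm w)) z (EuclideanSpace.single b 1)

theorem clm_ext {φ ψ : Cn n →L[ℂ] ℂ}
    (h : ∀ b, φ (EuclideanSpace.single b 1) = ψ (EuclideanSpace.single b 1)) : φ = ψ := by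
  ext v
  have hv : v = ∑ b, v b • (EuclideanSpace.single b (1 : ℂ) : Cn n) := by
    ext c
    rw [WithLp.ofLp_sum, Finset.sum_apply]
    simp [Finset.sum_ite_eq]
  rw [hv, map_sum, map_sum]
  refine Finset.sum_congr rfl fun b _ => ?_
  rw [map_smul, map_smul, h b]

theorem Gen1.ev {L : LB A} {i : A.ι} {x : M} (hx : x ∈ (A.e i).source) (h : Gen1 L i x) :
    ∀ᶠ y in 𝓝 x, y ∈ (A.e i).source ∧ Gen1 L i y := by
  -- sections with the standard jets
  have h1 : ∀ k : Option (Fin n), ∃ s, IsHS L univ s ∧ ∀ l, (match l with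
      | none => s i ((A.e i).symm (A.e i x))
      | some b => fderiv ℂ (fun w => s i ((A.e i).symm w)) (A.e i x)
          (EuclideanSpace.single b 1)) = (1 : Matrix (Option (Fin n)) (Option (Fin n)) ℂ) k l := by
    intro k
    rw [(A.e i).left_inv hx]
    rcases k with _ | a
    · obtain ⟨s, hs, h1, h2⟩ := h 1 0
      refine ⟨s, hs, fun l => ?_⟩
      rcases l with _ | b
      · simpa using h1
      · simp [h2]
    · obtain ⟨s, hs, h1, h2⟩ := h 0 (EuclideanSpace.proj a : Cn n →L[ℂ] ℂ)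
      refine ⟨s, hs, fun l => ?_⟩
      rcases l with _ | b
      · simpa using h1
      · simp only [h2, Matrix.one_apply, Option.some.injEq]
        show (EuclideanSpace.single b (1 : ℂ) : Cn n) a = _
        rw [PiLp.single_apply]
  choose F hF hF1 using h1
  have hone : jmat F i (A.e i x) = 1 := by
    ext k l
    exact hF1 k l
  -- continuity of the determinant
  have hcont : ContinuousAt (fun z => (jmat F i z).det) (A.e i x) := by
    have hent : ∀ k l, ContinuousAt (fun z => jmat F i z k l) (A.e i x) := by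
      intro k l
      have hmem := (A.e i).map_source hx
      have ha : AnalyticOnNhd ℂ (fun w => F k i ((A.e i).symm w)) (A.e i).target := by
        have h2 := (hF k).hol i
        unfold HolAt at h2
        rw [preimage_univ, inter_univ] at h2
        exact Crest.Agent.R266.SCV.analyticOnNhd_of_differentiableOn (A.e i).open_target h2
      rcases l with _ | b
      · exact (ha _ hmem).continuousAt
      · have h3 : ContinuousAt (fderiv ℂ (fun w => F k i ((A.e i).symm w))) (A.e i x) :=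
          (ha.fderiv _ hmem).continuousAt
        exact h3.clm_apply continuousAt_const
    have h4 : (fun z => (jmat F i z).det) = fun z => ∑ σ : Equiv.Perm (Option (Fin n)),
        ((Equiv.Perm.sign σ : ℤ) : ℂ) * ∏ k, jmat F i z (σ k) k := by
      funext z
      rw [Matrix.det_apply']
    rw [h4]
    refine tendsto_finsetSum _ fun σ _ => ?_
    exact (tendsto_const_nhds).mul (tendsto_finsetProd _ fun k _ => hent _ _)
  have hne : ∀ᶠ z in 𝓝 (A.e i x), (jmat F i z).det ≠ 0 := by
    refine hcont.eventually_ne ?_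
    show (jmat F i (A.e i x)).det ≠ 0
    rw [hone, Matrix.det_one]
    exact one_ne_zero
  filter_upwards [ev_chart hx hne, (A.e i).open_source.mem_nhds hx] with y hy hys
  refine ⟨hys, fun a φ => ?_⟩
  -- solve the linear system
  let t : Option (Fin n) → ℂ := fun l => match l with
    | none => a
    | some b => φ (EuclideanSpace.single b 1)
  set J := jmat F i (A.e i y) with hJ
  have hu : IsUnit J.det := isUnit_iff_ne_zero.2 hy
  set c : Option (Fin n) → ℂ := t ᵥ* J⁻¹ with hc
  have hcJ : c ᵥ* J = t := by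
    rw [hc, Matrix.vecMul_vecMul, Matrix.nonsing_inv_mul _ hu, Matrix.vecMul_one]
  have hsum : IsHS L univ (∑ k, c k • F k) := by
    have : (∑ k, c k • F k) ∈ HS L univ :=
      (HS L univ).sum_mem fun k _ => (HS L univ).smul_mem _ (hF k)
    exact this
  have hval : ∀ z, (∑ k, c k • F k) i z = ∑ k, c k * F k i z := by
    intro z
    rw [Finset.sum_apply, Finset.sum_apply]
    rfl
  refine ⟨∑ k, c k • F k, hsum, ?_, ?_⟩
  · have h5 := congrFun hcJ none
    rw [hval]
    have h6 : (c ᵥ* J) none = ∑ k, c k * F k i ((A.e i).symm (A.e i y)) := rfl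
    rw [h6, (A.e i).left_inv hys] at h5
    exact h5
  · have h7 : (fun z => (∑ k, c k • F k) i ((A.e i).symm z)) =
        fun z => ∑ k, c k * F k i ((A.e i).symm z) := funext fun z => hval _
    have h8 : HasFDerivAt (fun z => ∑ k, c k * F k i ((A.e i).symm z))
        (∑ k, c k • fderiv ℂ (fun w => F k i ((A.e i).symm w)) (A.e i y)) (A.e i y) := by
      refine HasFDerivAt.fun_sum fun k _ => ?_
      exact (diffAt (hF k) hys).hasFDerivAt.const_mul (c k)
    rw [h7, h8.fderiv]
    refine clm_ext fun b => ?_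
    have h9 := congrFun hcJ (some b)
    have h10 : (c ᵥ* J) (some b) = ∑ k, c k * fderiv ℂ (fun w => F k i ((A.e i).symm w)) (A.e i y)
      (EuclideanSpace.single b 1) := rfl
    rw [h10] at h9
    rw [_root_.sum_apply]
    exact h9

/-! ### large powers -/

variable [T2Space M] [CompactSpace M] [Finite A.ι] (P : Part A) {O : LB A} {hO : HM O}

include P in
/-- **generation of 1-jets at a point** -/
theorem gen1 (hp : hO.Pos) {p : M} {i0 : A.ι} (hpi : p ∈ (A.e i0).source) :
    ∃ k0 : ℕ, ∀ k, k0 ≤ k → Gen1 (O ^ k) i0 p := by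
  obtain ⟨k0, hk0⟩ := jet_approx P hp hpi
  refine ⟨k0, fun k hk => (gen1_iff hpi).2 ?_⟩
  rw [eq_top_iff]
  rintro ⟨a, φ⟩ -
  have hcl : IsClosed ((LinearMap.range (jet (O ^ k) i0 p hpi) :
      Submodule ℂ (ℂ × (Cn n →L[ℂ] ℂ))) : Set (ℂ × (Cn n →L[ℂ] ℂ))) :=
    Submodule.closed_of_finiteDimensional _
  show (a, φ) ∈ ((LinearMap.range (jet (O ^ k) i0 p hpi) :
      Submodule ℂ (ℂ × (Cn n →L[ℂ] ℂ))) : Set (ℂ × (Cn n →L[ℂ] ℂ)))
  rw [← hcl.closure_eq, Metric.mem_closure_iff]
  intro ε hε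
  obtain ⟨χ, hχ, hχ1, hχs, hχc, hχ0, hχ2⟩ := exists_bump A ((A.e i0).open_source.mem_nhds hpi)
  obtain ⟨W, hW, hWo, hpW⟩ := eventually_nhds_iff.1
    (hχ1.and ((A.e i0).open_source.eventually_mem hpi))
  let f : M → ℂ := fun x => (χ x : ℂ) * (a + φ (A.e i0 x - A.e i0 p))
  have hts : tsupport (fun x => (χ x : ℂ)) ⊆ tsupport χ := by
    refine closure_mono fun x hx => ?_
    intro h0
    exact hx (by show (χ x : ℂ) = 0; rw [h0]; simp)
  have hfs : tsupport f ⊆ (A.e i0).source :=
    ((tsupport_mul_subset_left (f := fun x => (χ x : ℂ))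
      (g := fun x => a + φ (A.e i0 x - A.e i0 p))).trans hts).trans hχs
  have hfsm : ∀ q, SmN A f q := by
    refine fun q => smN_mul_tsupport (fun q => (hχ q).ofReal) (fun q hq => ?_) q
    have hqs : q ∈ (A.e i0).source := hχs (hts hq)
    refine (smN_iff hqs).2 ?_
    have h1 : ContDiffAt ℝ ∞ (fun z : Cn n => a + φ (z - A.e i0 p)) (A.e i0 q) := by
      refine contDiffAt_const.add ?_
      exact (φ.restrictScalars ℝ).contDiff.contDiffAt.comp _ (contDiffAt_id.sub contDiffAt_const)
    refine h1.congr_of_eventuallyEq ?_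
    filter_upwards [(A.e i0).open_target.mem_nhds ((A.e i0).map_source hqs)] with z hz
    rw [(A.e i0).right_inv hz]
  have hf0 : HolAt A i0 W f := by
    have h1 : DifferentiableOn ℂ (fun z : Cn n => a + φ (z - A.e i0 p))
        ((A.e i0).target ∩ (A.e i0).symm ⁻¹' W) := by
      exact ((differentiable_const a).add
        (φ.differentiable.comp (differentiable_id.sub_const _))).differentiableOn
    refine h1.congr fun z hz => ?_
    show (χ _ : ℂ) * (a + φ (A.e i0 ((A.e i0).symm z) - A.e i0 p)) = _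
    rw [(hW _ hz.2).1, (A.e i0).right_inv hz.1]
    simp
  have hhol : ∀ i, HolAt A i W f := by
    intro i
    have h2 := hf0.chg hWo i
    rwa [inter_eq_self_of_subset_left (fun x hx => (hW x hx).2)] at h2
  obtain ⟨s, hs, h1, h2⟩ := hk0 k hk f hfsm hfs ⟨W, hWo, hpW, fun x hx => (hW x hx).2, hhol⟩
    (ε / 2) (by positivity)
  refine ⟨jet (O ^ k) i0 p hpi ⟨s, hs⟩, ⟨⟨s, hs⟩, rfl⟩, ?_⟩
  have hfp : f p = a := by
    show (χ p : ℂ) * (a + φ (A.e i0 p - A.e i0 p)) = a
    rw [hχ1.self_of_nhds, sub_self, map_zero, add_zero]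
    simp
  have hfd : fderiv ℂ (fun z => f ((A.e i0).symm z)) (A.e i0 p) = φ := by
    have h3 : (fun z => f ((A.e i0).symm z)) =ᶠ[𝓝 (A.e i0 p)]
        fun z : Cn n => a + φ (z - A.e i0 p) := by
      filter_upwards [ev_symm hpi (hWo.eventually_mem hpW),
        (A.e i0).open_target.mem_nhds ((A.e i0).map_source hpi)] with z hz hzt
      show (χ _ : ℂ) * (a + φ (A.e i0 ((A.e i0).symm z) - A.e i0 p)) = _
      rw [(hW _ hz).1, (A.e i0).right_inv hzt]
      simp
    rw [h3.fderiv_eq]
    have h4 : HasFDerivAt (fun z : Cn n => a + φ (z - A.e i0 p)) φ (A.e i0 p) := by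
      have h5 : HasFDerivAt (fun z : Cn n => φ z) φ (A.e i0 p) := φ.hasFDerivAt
      have h6 : (fun z : Cn n => a + φ (z - A.e i0 p)) =
          fun z => (a - φ (A.e i0 p)) + φ z := by
        funext z
        rw [map_sub]
        ring
      rw [h6]
      exact h5.const_add _
    exact h4.fderiv
  rw [hfp] at h1
  rw [hfd] at h2
  have h7 : dist ((a, φ) : ℂ × (Cn n →L[ℂ] ℂ)) (jet (O ^ k) i0 p hpi ⟨s, hs⟩) ≤ ε / 2 := by
    rw [Prod.dist_eq, dist_eq_norm, dist_eq_norm]
    refine max_le ?_ ?_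
    · rw [← norm_neg, neg_sub]
      exact h1
    · rw [← norm_neg, neg_sub]
      exact h2
  linarith

end

end Crest.Agent.R272.Kod7_410
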