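import Crest.Agent.R272.PosFib3_220

/-!
# R272, S14-KPOS (helper595), part 1: positive metrics from sections; one-forms as sections of `KB A`

* `exists_pos`  : `M` compact, sections of `L` over `M` which are generating and immersive at every
                  point (in SOME chart) ⟹ `∃ H : HM L, H.Pos`;
* `good_of`     : the good point condition from `s b = t * s a` near `x`, `s a x ≠ 0`, `dt ≠ 0`
                  (manifolds of dimension one);
* `d1 A u`      : the differential of the function `u` as a family of coefficients,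
                  `isHS_d1` : it is a section of `KB A` where `u` is holomorphic;
* `glueHS`      : sections over the members of a finite or infinite open cover which agree on the
                  overlaps glue.
-/

set_option autoImplicit false
set_option linter.unusedSectionVars false

open Set Filter Topology Complex
open scoped ContDiff Matrix ComplexConjugate Manifold

namespace Crest.Agent.R272.Kps_595

open Crest.Agent.R275.Geo Crest.Agent.R275.Core144 Crest.Agent.R273.Defs_333
open Crest.Agent.R272.PosGlue_232 Crest.Agent.R272.PosFib_220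

noncomputable section

section Gen

variable {n : ℕ} {M : Type} [TopologicalSpace M] {A : Atl n M} {L : LB A}
  {α : Type} [Fintype α]

/-- a metric over `univ` is a metric -/
def toHM (h : HMo L (univ : Set M)) : HM L where
  w := h.w
  pos i x hx := h.pos i x hx (mem_univ x)
  sm i := by
    have h1 := h.sm i
    rw [preimage_univ, inter_univ] at h1
    exact h1
  tr i j x hx := h.tr i j x hx (mem_univ x)

theorem exists_pos [T2Space M] [CompactSpace M] {y : α → A.ι → M → ℂ}
    (hy : ∀ a, IsHS L univ (y a)) (hgood : ∀ x, Good univ y x) : ∃ H : HM L, H.Pos := by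
  obtain ⟨W, hWo, hKW, -, h, hh⟩ := posfib isOpen_univ isCompact_univ (subset_univ _)
    finite_empty hy (fun x _ _ => hgood x)
  obtain rfl : W = univ := univ_subset_iff.1 hKW
  refine ⟨toHM h, fun i z hz v hv => ?_⟩
  have h1 := hh ((A.e i).symm z) (mem_univ _) i ((A.e i).map_target hz) v hv
  rw [(A.e i).right_inv hz] at h1
  exact h1

end Gen

section Dim1

variable {M : Type} [TopologicalSpace M] {A : Atl 1 M}

/-- the unit vector -/
def e1 : Cn 1 := EuclideanSpace.single 0 1

theorem cn1_eq (v : Cn 1) : v = v 0 • e1 := by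
  ext a
  fin_cases a
  simp [e1]

theorem fd1 (T : Cn 1 →L[ℂ] ℂ) (v : Cn 1) : T v = v 0 * T e1 := by
  conv_lhs => rw [cn1_eq v, map_smul]
  rfl

/-- the differential of `u` in the chart `i` -/
def d1 (A : Atl 1 M) (u : M → ℂ) (i : A.ι) (x : M) : ℂ :=
  open Classical in
  if x ∈ (A.e i).source then fderiv ℂ (fun z => u ((A.e i).symm z)) (A.e i x) e1 else 0

theorem d1_of_mem (u : M → ℂ) {i : A.ι} {x : M} (hx : x ∈ (A.e i).source) :
    d1 A u i x = fderiv ℂ (fun z => u ((A.e i).symm z)) (A.e i x) e1 := if_pos hx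

theorem d1_off (u : M → ℂ) {i : A.ι} {x : M} (hx : x ∉ (A.e i).source) : d1 A u i x = 0 :=
  if_neg hx

theorem isHS_d1 {u : M → ℂ} {U : Set M} (hU : IsOpen U) (hu : ∀ i, HolAt A i U u) :
    IsHS (KB A) U (d1 A u) := by
  refine ⟨fun i => ?_, fun i x hx => d1_off u hx, fun i j x hx hxU => ?_⟩
  · have h1 : DifferentiableOn ℂ (fun z => fderiv ℂ (fun w => u ((A.e i).symm w)) z e1)
        ((A.e i).target ∩ (A.e i).symm ⁻¹' U) := by
      have h2 := Crest.Agent.R266.SCV.analyticOnNhd_of_differentiableOn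
        ((A.e i).isOpen_inter_preimage_symm hU) (hu i)
      intro z hz
      exact ((h2 z hz).fderiv.differentiableAt.clm_apply
        (differentiableAt_const e1)).differentiableWithinAt
    refine h1.congr fun z hz => ?_
    rw [d1_of_mem u ((A.e i).map_target hz.1), (A.e i).right_inv hz.1]
  · have hz : A.e i x ∈ A.ov i j := mem_ov hx
    have h1 : (fun z => u ((A.e i).symm z)) =ᶠ[𝓝 (A.e i x)]
        (fun z => u ((A.e j).symm z)) ∘ fun z => A.e j ((A.e i).symm z) := by
      filter_upwards [(isOpen_ov (A := A) i j).mem_nhds hz] with w hw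
      simp only [Function.comp_apply]
      rw [(A.e j).left_inv hw.2]
    have h2 : DifferentiableAt ℂ (fun z => A.e j ((A.e i).symm z)) (A.e i x) :=
      (A.holo i j).differentiableAt ((isOpen_ov (A := A) i j).mem_nhds hz)
    have h3 : A.e j ((A.e i).symm (A.e i x)) = A.e j x := by rw [(A.e i).left_inv hx.1]
    have h4 : DifferentiableAt ℂ (fun z => u ((A.e j).symm z)) (A.e j x) := by
      refine (hu j).differentiableAt (((A.e j).isOpen_inter_preimage_symm hU).mem_nhds
        ⟨(A.e j).map_source hx.2, ?_⟩)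
      show (A.e j).symm (A.e j x) ∈ U
      rwa [(A.e j).left_inv hx.2]
    rw [d1_of_mem u hx.1, d1_of_mem u hx.2, h1.fderiv_eq, fderiv_comp _ (by rw [h3]; exact h4) h2,
      h3, ContinuousLinearMap.comp_apply, fd1, KB_g hx]
    congr 1
    rw [Matrix.det_fin_one]
    rfl

/-- functions times sections -/
theorem isHS_fmul {L : LB A} {s : A.ι → M → ℂ} {f : M → ℂ} {U : Set M} (hf : ∀ i, HolAt A i U f)
    (hs : IsHS L U s) : IsHS L U fun i x => f x * s i x := by
  refine ⟨fun i => (hf i).mul (hs.hol i), fun i x hx => ?_, fun i j x hx hxU => ?_⟩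
  · simp [hs.off i x hx]
  · show f x * s i x = L.g i j x * (f x * s j x)
    rw [hs.tr i j x hx hxU]
    ring

/-- gluing of sections -/
theorem glueHS {L : LB A} {κ : Type} {U : κ → Set M} (hU : ∀ k, IsOpen (U k))
    (hcov : ∀ x, ∃ k, x ∈ U k) {s : κ → A.ι → M → ℂ} (hs : ∀ k, IsHS L (U k) (s k))
    (hag : ∀ k l, ∀ x ∈ U k ∩ U l, ∀ i, s k i x = s l i x) :
    ∃ t : A.ι → M → ℂ, IsHS L univ t ∧ ∀ k, ∀ x ∈ U k, ∀ i, t i x = s k i x := by
  choose c hc using hcov
  have key : ∀ k, ∀ x ∈ U k, ∀ i, s (c x) i x = s k i x := fun k x hx i =>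
    hag (c x) k x ⟨hc x, hx⟩ i
  refine ⟨fun i x => s (c x) i x, ⟨fun i => ?_, fun i x hx => (hs _).off i x hx,
    fun i j x hx _ => (hs _).tr i j x hx (hc x)⟩, fun k x hx i => key k x hx i⟩
  rintro z ⟨hz, -⟩
  set x := (A.e i).symm z with hx
  have h1 : DifferentiableAt ℂ (fun w => s (c x) i ((A.e i).symm w)) z :=
    ((hs (c x)).hol i).differentiableAt (((A.e i).isOpen_inter_preimage_symm (hU (c x))).mem_nhds
      ⟨hz, hc x⟩)
  refine (h1.congr_of_eventuallyEq ?_).differentiableWithinAt
  filter_upwards [((A.e i).isOpen_inter_preimage_symm (hU (c x))).mem_nhds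
    (show z ∈ (A.e i).target ∩ (A.e i).symm ⁻¹' (U (c x)) from ⟨hz, hc x⟩)] with w hw
  exact key (c x) _ hw.2 i

variable {α : Type} [Fintype α]

/-- a good point: two sections `y b = t * y a` near `x`, `y a` without zero, `t` a coordinate -/
theorem good_of {L : LB A} {y : α → A.ι → M → ℂ} (hy : ∀ a, IsHS L univ (y a)) {x : M} {i : A.ι}
    (hi : x ∈ (A.e i).source) {U : Set M} (hU : IsOpen U) (hxU : x ∈ U) {t : M → ℂ}
    (ht : HolAt A i U t) {a b : α} (hab : ∀ p ∈ U, y b i p = t p * y a i p) (h0 : y a i x ≠ 0)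
    (hd : d1 A t i x ≠ 0) (K : Set M) : Good K y x := by
  refine ⟨i, hi, ⟨a, h0⟩, fun v hv ⟨c, hc⟩ => absurd ?_ hv⟩
  have hz : A.e i x ∈ (A.e i).target ∩ (A.e i).symm ⁻¹' U :=
    ⟨(A.e i).map_source hi, show (A.e i).symm (A.e i x) ∈ U by rwa [(A.e i).left_inv hi]⟩
  have hn := ((A.e i).isOpen_inter_preimage_symm hU).mem_nhds hz
  have h1 : DifferentiableAt ℂ (fun w => t ((A.e i).symm w)) (A.e i x) :=
    ht.differentiableAt hn
  have h2 : DifferentiableAt ℂ (fun w => y a i ((A.e i).symm w)) (A.e i x) :=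
    (sec_anal isOpen_univ (hy a) hi (mem_univ x)).differentiableAt
  have h3 : (fun w => y b i ((A.e i).symm w)) =ᶠ[𝓝 (A.e i x)]
      fun w => t ((A.e i).symm w) * y a i ((A.e i).symm w) := by
    filter_upwards [hn] with w hw
    exact hab _ hw.2
  have hx : (A.e i).symm (A.e i x) = x := (A.e i).left_inv hi
  have hb := hc b
  have ha := hc a
  rw [h3.fderiv_eq, fderiv_fun_mul h1 h2, hab x hxU] at hb
  simp only [_root_.add_apply, _root_.smul_apply, smul_eq_mul, hx] at hb
  rw [ha] at hb
  have h4 : y a i x * fderiv ℂ (fun w => t ((A.e i).symm w)) (A.e i x) v = 0 := by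
    linear_combination hb
  have h5 := (mul_eq_zero.1 h4).resolve_left h0
  rw [fd1, ← d1_of_mem t hi] at h5
  have h6 := (mul_eq_zero.1 h5).resolve_right hd
  rw [cn1_eq v, h6, zero_smul]

end Dim1

end

end Crest.Agent.R272.Kps_595
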