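import Crest.Agent.R272.Kps1_595

/-!
# R272, S14-KPOS (helper595), part 2: the Fermat quartic

`QuD A` : functions on a curve which make it the plane quartic `Y⁴ = 1 - X⁴` (charts `X, Y` on `U0`,
`ξ = 1 / X`, `υ = Y / X` on `U1`); `kpos` : its canonical bundle has a positive metric
(sections `dX / Y³ · (1, X, Y)`).
-/

set_option autoImplicit false
set_option linter.unusedSectionVars false

open Set Filter Topology Complex
open scoped ContDiff Matrix ComplexConjugate Manifold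

namespace Crest.Agent.R272.Kps_595

open Crest.Agent.R275.Geo Crest.Agent.R275.Core144 Crest.Agent.R273.Defs_333
open Crest.Agent.R272.PosGlue_232 Crest.Agent.R272.PosFib_220

noncomputable section

variable {M : Type} [TopologicalSpace M] {A : Atl 1 M}

/-! ### calculus of `d1` -/

section Calc

variable {u v : M → ℂ} {U : Set M} {i : A.ι} {x : M}

theorem diffAt (hU : IsOpen U) (hu : HolAt A i U u) (hi : x ∈ (A.e i).source) (hx : x ∈ U) :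
    DifferentiableAt ℂ (fun z => u ((A.e i).symm z)) (A.e i x) :=
  hu.differentiableAt (((A.e i).isOpen_inter_preimage_symm hU).mem_nhds
    ⟨(A.e i).map_source hi, show (A.e i).symm (A.e i x) ∈ U by rwa [(A.e i).left_inv hi]⟩)

theorem d1_congr (hU : IsOpen U) (hx : x ∈ U) (h : ∀ p ∈ U, u p = v p) (i : A.ι) :
    d1 A u i x = d1 A v i x := by
  by_cases hi : x ∈ (A.e i).source
  · rw [d1_of_mem u hi, d1_of_mem v hi]
    have hz : A.e i x ∈ (A.e i).target ∩ (A.e i).symm ⁻¹' U :=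
      ⟨(A.e i).map_source hi, show (A.e i).symm (A.e i x) ∈ U by rwa [(A.e i).left_inv hi]⟩
    have h3 : (fun w => u ((A.e i).symm w)) =ᶠ[𝓝 (A.e i x)] fun w => v ((A.e i).symm w) := by
      filter_upwards [((A.e i).isOpen_inter_preimage_symm hU).mem_nhds hz] with w hw
      exact h _ hw.2
    rw [h3.fderiv_eq]
  · rw [d1_off u hi, d1_off v hi]

theorem d1_const (c : ℂ) (i : A.ι) (x : M) : d1 A (fun _ => c) i x = 0 := by
  by_cases hi : x ∈ (A.e i).source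
  · rw [d1_of_mem _ hi]
    simp
  · rw [d1_off _ hi]

theorem d1_mul (hU : IsOpen U) (hx : x ∈ U) (hu : ∀ i, HolAt A i U u) (hv : ∀ i, HolAt A i U v)
    (i : A.ι) : d1 A (fun p => u p * v p) i x = u x * d1 A v i x + v x * d1 A u i x := by
  by_cases hi : x ∈ (A.e i).source
  · rw [d1_of_mem _ hi, d1_of_mem _ hi, d1_of_mem _ hi, fderiv_fun_mul (diffAt hU (hu i) hi hx)
      (diffAt hU (hv i) hi hx)]
    simp only [_root_.add_apply, _root_.smul_apply, smul_eq_mul, (A.e i).left_inv hi]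
  · rw [d1_off _ hi, d1_off _ hi, d1_off _ hi]
    ring

theorem d1_add (hU : IsOpen U) (hx : x ∈ U) (hu : ∀ i, HolAt A i U u) (hv : ∀ i, HolAt A i U v)
    (i : A.ι) : d1 A (fun p => u p + v p) i x = d1 A u i x + d1 A v i x := by
  by_cases hi : x ∈ (A.e i).source
  · rw [d1_of_mem _ hi, d1_of_mem _ hi, d1_of_mem _ hi, fderiv_fun_add (diffAt hU (hu i) hi hx)
      (diffAt hU (hv i) hi hx)]
    simp only [_root_.add_apply]
  · rw [d1_off _ hi, d1_off _ hi, d1_off _ hi]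
    ring

theorem d1_sub (hU : IsOpen U) (hx : x ∈ U) (hu : ∀ i, HolAt A i U u) (hv : ∀ i, HolAt A i U v)
    (i : A.ι) : d1 A (fun p => u p - v p) i x = d1 A u i x - d1 A v i x := by
  by_cases hi : x ∈ (A.e i).source
  · rw [d1_of_mem _ hi, d1_of_mem _ hi, d1_of_mem _ hi, fderiv_fun_sub (diffAt hU (hu i) hi hx)
      (diffAt hU (hv i) hi hx)]
    simp only [_root_.sub_apply]
  · rw [d1_off _ hi, d1_off _ hi, d1_off _ hi]
    ring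

theorem d1_pow (hU : IsOpen U) (hx : x ∈ U) (hu : ∀ i, HolAt A i U u) (m : ℕ) (i : A.ι) :
    d1 A (fun p => u p ^ (m + 1)) i x = (m + 1) * u x ^ m * d1 A u i x := by
  induction m with
  | zero => simp
  | succ m ih =>
    have h1 : (fun p => u p ^ (m + 1 + 1)) = fun p => u p ^ (m + 1) * u p := by
      funext p
      rw [pow_succ]
    rw [h1, d1_mul hU hx (fun i => (hu i).pow _) hu, ih]
    push_cast
    ring

/-- a nonzero differential is nonzero in every chart -/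
theorem d1_ne (hU : IsOpen U) (hx : x ∈ U) (hu : ∀ i, HolAt A i U u) {j : A.ι}
    (hi : x ∈ (A.e i).source) (hj : x ∈ (A.e j).source) (h : d1 A u j x ≠ 0) : d1 A u i x ≠ 0 := by
  intro h0
  have h1 := (isHS_d1 hU hu).tr j i x ⟨hj, hi⟩ hx
  rw [h0, mul_zero] at h1
  exact h h1

end Calc

/-- the Fermat quartic `Y⁴ = 1 - X⁴`: `(X, Y)` on `U0`, `(ξ, υ) = (1 / X, Y / X)` on `U1`, both
immersive -/
structure QuD (A : Atl 1 M) where
  U0 : Set M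
  U1 : Set M
  o0 : IsOpen U0
  o1 : IsOpen U1
  X : M → ℂ
  Y : M → ℂ
  ξ : M → ℂ
  υ : M → ℂ
  cov : ∀ x, x ∈ U0 ∨ x ∈ U1 ∧ υ x ≠ 0
  hX : ∀ i, HolAt A i U0 X
  hY : ∀ i, HolAt A i U0 Y
  hξ : ∀ i, HolAt A i U1 ξ
  hυ : ∀ i, HolAt A i U1 υ
  r0 : ∀ x ∈ U0, Y x ^ 4 = 1 - X x ^ 4
  r1 : ∀ x ∈ U1, υ x ^ 4 = ξ x ^ 4 - 1
  ovX : ∀ x ∈ U0 ∩ U1, ξ x * X x = 1
  ovY : ∀ x ∈ U0 ∩ U1, υ x = ξ x * Y x
  imm0 : ∀ x ∈ U0, ∃ i, x ∈ (A.e i).source ∧ (d1 A X i x ≠ 0 ∨ d1 A Y i x ≠ 0)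
  imm1 : ∀ x ∈ U1, ∃ i, x ∈ (A.e i).source ∧ (d1 A ξ i x ≠ 0 ∨ d1 A υ i x ≠ 0)

namespace QuD

variable (Q : QuD A)

theorem cont_of_hol {u : M → ℂ} {U : Set M} (hU : IsOpen U) (hu : ∀ i, HolAt A i U u) :
    ContinuousOn u U := by
  intro x hx
  obtain ⟨i, hi⟩ := A.cover x
  have h1 := (diffAt hU (hu i) hi hx).continuousAt
  have h2 : ContinuousAt (fun p => u ((A.e i).symm (A.e i p))) x :=
    ContinuousAt.comp (g := fun z => u ((A.e i).symm z)) h1 ((A.e i).continuousAt hi)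
  refine (h2.congr ?_).continuousWithinAt
  filter_upwards [(A.e i).open_source.mem_nhds hi] with p hp
  rw [(A.e i).left_inv hp]

theorem open_ne {u : M → ℂ} {U : Set M} (hU : IsOpen U) (hu : ∀ i, HolAt A i U u) :
    IsOpen (U ∩ {x | u x ≠ 0}) :=
  (cont_of_hol hU hu).isOpen_inter_preimage hU _root_.isOpen_ne

/-- the three open sets -/
def V : Fin 3 → Set M :=
  ![Q.U0 ∩ {x | Q.Y x ≠ 0}, Q.U0 ∩ {x | Q.X x ≠ 0}, Q.U1 ∩ {x | Q.υ x ≠ 0}]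

theorem oV (k : Fin 3) : IsOpen (Q.V k) := by
  fin_cases k
  · exact open_ne Q.o0 Q.hY
  · exact open_ne Q.o0 Q.hX
  · exact open_ne Q.o1 Q.hυ

theorem cV (x : M) : ∃ k, x ∈ Q.V k := by
  by_cases h0 : x ∈ Q.U0
  · by_cases hY : Q.Y x = 0
    · refine ⟨1, h0, fun hX => ?_⟩
      have h1 := Q.r0 x h0
      rw [hX, hY] at h1
      norm_num at h1
    · exact ⟨0, h0, hY⟩
  · exact ⟨2, (Q.cov x).resolve_left h0⟩

/-- the coefficient functions of the three forms on the three open sets -/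
def cf : Fin 3 → Fin 3 → M → ℂ :=
  ![![fun x => (Q.Y x ^ 3)⁻¹, fun x => Q.X x * (Q.Y x ^ 3)⁻¹, fun x => Q.Y x * (Q.Y x ^ 3)⁻¹],
    ![fun x => - (Q.X x ^ 3)⁻¹, fun x => - (Q.X x * (Q.X x ^ 3)⁻¹),
      fun x => - (Q.Y x * (Q.X x ^ 3)⁻¹)],
    ![fun x => - (Q.ξ x * (Q.υ x ^ 3)⁻¹), fun x => - (Q.υ x ^ 3)⁻¹,
      fun x => - (Q.υ x * (Q.υ x ^ 3)⁻¹)]]

/-- the coordinate of the open sets -/
def co : Fin 3 → M → ℂ := ![Q.X, Q.Y, Q.ξ]

/-- the forms -/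
def fm (a k : Fin 3) (i : A.ι) (x : M) : ℂ := Q.cf k a x * d1 A (Q.co k) i x

theorem hcf (k a : Fin 3) (i : A.ι) : HolAt A i (Q.V k) (Q.cf k a) := by
  have hX : HolAt A i (Q.V 1) Q.X := (Q.hX i).mono inter_subset_left
  have hY : HolAt A i (Q.V 1) Q.Y := (Q.hY i).mono inter_subset_left
  have hX0 : HolAt A i (Q.V 0) Q.X := (Q.hX i).mono inter_subset_left
  have hY0 : HolAt A i (Q.V 0) Q.Y := (Q.hY i).mono inter_subset_left
  have hξ : HolAt A i (Q.V 2) Q.ξ := (Q.hξ i).mono inter_subset_left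
  have hυ : HolAt A i (Q.V 2) Q.υ := (Q.hυ i).mono inter_subset_left
  have e0 : HolAt A i (Q.V 0) fun x => (Q.Y x ^ 3)⁻¹ :=
    (hY0.pow 3).inv fun x _ hx => pow_ne_zero 3 hx.2
  have e1 : HolAt A i (Q.V 1) fun x => (Q.X x ^ 3)⁻¹ :=
    (hX.pow 3).inv fun x _ hx => pow_ne_zero 3 hx.2
  have e2 : HolAt A i (Q.V 2) fun x => (Q.υ x ^ 3)⁻¹ :=
    (hυ.pow 3).inv fun x _ hx => pow_ne_zero 3 hx.2
  fin_cases k <;> fin_cases a
  · exact e0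
  · exact hX0.mul e0
  · exact hY0.mul e0
  · exact e1.neg
  · exact (hX.mul e1).neg
  · exact (hY.mul e1).neg
  · exact (hξ.mul e2).neg
  · exact e2.neg
  · exact (hυ.mul e2).neg

theorem hco (k : Fin 3) (i : A.ι) : HolAt A i (Q.V k) (Q.co k) := by
  fin_cases k
  · exact (Q.hX i).mono inter_subset_left
  · exact (Q.hY i).mono inter_subset_left
  · exact (Q.hξ i).mono inter_subset_left

theorem hfm (a k : Fin 3) : IsHS (KB A) (Q.V k) (Q.fm a k) :=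
  isHS_fmul (Q.hcf k a) (isHS_d1 (Q.oV k) (Q.hco k))

/-- `X³ dX + Y³ dY = 0` -/
theorem rel0 {x : M} (hx : x ∈ Q.U0) (i : A.ι) :
    Q.Y x ^ 3 * d1 A Q.Y i x = - (Q.X x ^ 3 * d1 A Q.X i x) := by
  have h1 := d1_congr (A := A) (u := fun p => Q.Y p ^ (3 + 1)) (v := fun p => 1 - Q.X p ^ (3 + 1))
    Q.o0 hx (fun p hp => Q.r0 p hp) i
  rw [d1_pow Q.o0 hx Q.hY, d1_sub Q.o0 hx (fun i => holAt_const 1) (fun i => (Q.hX i).pow _),
    d1_const, d1_pow Q.o0 hx Q.hX] at h1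
  push_cast at h1
  linear_combination h1 / 4

theorem rel1 {x : M} (hx : x ∈ Q.U1) (i : A.ι) :
    Q.υ x ^ 3 * d1 A Q.υ i x = Q.ξ x ^ 3 * d1 A Q.ξ i x := by
  have h1 := d1_congr (A := A) (u := fun p => Q.υ p ^ (3 + 1)) (v := fun p => Q.ξ p ^ (3 + 1) - 1)
    Q.o1 hx (fun p hp => Q.r1 p hp) i
  rw [d1_pow Q.o1 hx Q.hυ, d1_sub Q.o1 hx (fun i => (Q.hξ i).pow _) (fun i => holAt_const 1),
    d1_const, d1_pow Q.o1 hx Q.hξ] at h1
  push_cast at h1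
  linear_combination h1 / 4

theorem dX {x : M} (hx : x ∈ Q.U0) (hY : Q.Y x ≠ 0) :
    ∃ i, x ∈ (A.e i).source ∧ d1 A Q.X i x ≠ 0 := by
  obtain ⟨i, hi, h⟩ := Q.imm0 x hx
  refine ⟨i, hi, fun h0 => ?_⟩
  have h1 := Q.rel0 hx i
  rw [h0, mul_zero, neg_zero] at h1
  rcases h with h | h
  · exact h h0
  · exact h ((mul_eq_zero.1 h1).resolve_left (pow_ne_zero 3 hY))

theorem dY {x : M} (hx : x ∈ Q.U0) (hX : Q.X x ≠ 0) :
    ∃ i, x ∈ (A.e i).source ∧ d1 A Q.Y i x ≠ 0 := by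
  obtain ⟨i, hi, h⟩ := Q.imm0 x hx
  refine ⟨i, hi, fun h0 => ?_⟩
  have h1 := Q.rel0 hx i
  rw [h0, mul_zero, eq_comm, neg_eq_zero] at h1
  rcases h with h | h
  · exact h ((mul_eq_zero.1 h1).resolve_left (pow_ne_zero 3 hX))
  · exact h h0

theorem dξ {x : M} (hx : x ∈ Q.U1) (hυ : Q.υ x ≠ 0) :
    ∃ i, x ∈ (A.e i).source ∧ d1 A Q.ξ i x ≠ 0 := by
  obtain ⟨i, hi, h⟩ := Q.imm1 x hx
  refine ⟨i, hi, fun h0 => ?_⟩
  have h1 := Q.rel1 hx i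
  rw [h0, mul_zero] at h1
  rcases h with h | h
  · exact h h0
  · exact h ((mul_eq_zero.1 h1).resolve_left (pow_ne_zero 3 hυ))

/-- `ξ dX + X dξ = 0` -/
theorem relX {x : M} (hx : x ∈ Q.U0 ∩ Q.U1) (i : A.ι) :
    Q.ξ x * d1 A Q.X i x + Q.X x * d1 A Q.ξ i x = 0 := by
  have ho := Q.o0.inter Q.o1
  have hX : ∀ i, HolAt A i (Q.U0 ∩ Q.U1) Q.X := fun i => (Q.hX i).mono inter_subset_left
  have hξ : ∀ i, HolAt A i (Q.U0 ∩ Q.U1) Q.ξ := fun i => (Q.hξ i).mono inter_subset_right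
  have h1 := d1_congr (A := A) (u := fun p => Q.ξ p * Q.X p) (v := fun _ => (1 : ℂ))
    ho hx (fun p hp => Q.ovX p hp) i
  rw [d1_mul ho hx hξ hX, d1_const] at h1
  exact h1

theorem ag01 (a : Fin 3) {x : M} (h0 : x ∈ Q.V 0) (h1 : x ∈ Q.V 1) (i : A.ι) :
    Q.fm a 0 i x = Q.fm a 1 i x := by
  have hY : Q.Y x ≠ 0 := h0.2
  have hX : Q.X x ≠ 0 := h1.2
  have h := Q.rel0 h0.1 i
  have key : (Q.Y x ^ 3)⁻¹ * d1 A Q.X i x = - (Q.X x ^ 3)⁻¹ * d1 A Q.Y i x := by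
    field_simp
    linear_combination h
  fin_cases a
  · exact key
  · show Q.X x * (Q.Y x ^ 3)⁻¹ * d1 A Q.X i x = - (Q.X x * (Q.X x ^ 3)⁻¹) * d1 A Q.Y i x
    linear_combination Q.X x * key
  · show Q.Y x * (Q.Y x ^ 3)⁻¹ * d1 A Q.X i x = - (Q.Y x * (Q.X x ^ 3)⁻¹) * d1 A Q.Y i x
    linear_combination Q.Y x * key

theorem ag02 (a : Fin 3) {x : M} (h0 : x ∈ Q.V 0) (h1 : x ∈ Q.V 2) (i : A.ι) :
    Q.fm a 0 i x = Q.fm a 2 i x := by
  have hY : Q.Y x ≠ 0 := h0.2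
  have hυ : Q.υ x ≠ 0 := h1.2
  have hX := Q.ovX x ⟨h0.1, h1.1⟩
  have hX0 : Q.X x ≠ 0 := right_ne_zero_of_mul_eq_one hX
  have hξ0 : Q.ξ x ≠ 0 := left_ne_zero_of_mul_eq_one hX
  have h := Q.relX ⟨h0.1, h1.1⟩ i
  have hυY := Q.ovY x ⟨h0.1, h1.1⟩
  have hX' : Q.X x = (Q.ξ x)⁻¹ := eq_inv_of_mul_eq_one_right hX
  have hd : d1 A Q.X i x = - (d1 A Q.ξ i x) * (Q.ξ x)⁻¹ * (Q.ξ x)⁻¹ := by
    have h2 : Q.ξ x * d1 A Q.X i x = - (Q.X x * d1 A Q.ξ i x) := by linear_combination h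
    rw [hX'] at h2
    field_simp
    field_simp at h2
    linear_combination h2
  have key : (Q.Y x ^ 3)⁻¹ * d1 A Q.X i x = - (Q.ξ x * (Q.υ x ^ 3)⁻¹) * d1 A Q.ξ i x := by
    rw [hd, hυY]
    field_simp
  fin_cases a
  · exact key
  · show Q.X x * (Q.Y x ^ 3)⁻¹ * d1 A Q.X i x = - (Q.υ x ^ 3)⁻¹ * d1 A Q.ξ i x
    rw [mul_assoc, key]
    linear_combination (- (Q.υ x ^ 3)⁻¹ * d1 A Q.ξ i x) * hX
  · show Q.Y x * (Q.Y x ^ 3)⁻¹ * d1 A Q.X i x = - (Q.υ x * (Q.υ x ^ 3)⁻¹) * d1 A Q.ξ i x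
    rw [mul_assoc, key, hυY]
    ring

theorem ag12 (a : Fin 3) {x : M} (h0 : x ∈ Q.V 1) (h1 : x ∈ Q.V 2) (i : A.ι) :
    Q.fm a 1 i x = Q.fm a 2 i x := by
  have hυY := Q.ovY x ⟨h0.1, h1.1⟩
  have hY : Q.Y x ≠ 0 := fun h => h1.2 (by rw [hυY, h, mul_zero])
  rw [← Q.ag01 a (x := x) ⟨h0.1, hY⟩ h0 i, Q.ag02 a (x := x) ⟨h0.1, hY⟩ h1 i]

theorem ag (a k l : Fin 3) {x : M} (hx : x ∈ Q.V k ∩ Q.V l) (i : A.ι) :
    Q.fm a k i x = Q.fm a l i x := by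
  fin_cases k <;> fin_cases l
  · rfl
  · exact Q.ag01 a hx.1 hx.2 i
  · exact Q.ag02 a hx.1 hx.2 i
  · exact (Q.ag01 a hx.2 hx.1 i).symm
  · rfl
  · exact Q.ag12 a hx.1 hx.2 i
  · exact (Q.ag02 a hx.2 hx.1 i).symm
  · exact (Q.ag12 a hx.2 hx.1 i).symm
  · rfl

/-- **the canonical bundle of the Fermat quartic is positive** -/
theorem kpos [T2Space M] [CompactSpace M] (Q : QuD A) : ∃ H : HM (KB A), H.Pos := by
  have hg : ∀ a : Fin 3, ∃ t : A.ι → M → ℂ, IsHS (KB A) univ t ∧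
      ∀ k, ∀ x ∈ Q.V k, ∀ i, t i x = Q.fm a k i x := fun a =>
    glueHS Q.oV Q.cV (fun k => Q.hfm a k) fun k l x hx i => Q.ag a k l hx i
  choose y hy hyk using hg
  refine exists_pos hy fun x => ?_
  by_cases h0 : x ∈ Q.U0
  · by_cases hY : Q.Y x = 0
    · have hX : Q.X x ≠ 0 := by
        intro hX
        have h1 := Q.r0 x h0
        rw [hX, hY] at h1
        norm_num at h1
      obtain ⟨i, hi, hd⟩ := Q.dY h0 hX
      have hV : x ∈ Q.V 1 := ⟨h0, hX⟩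
      refine good_of (a := 0) (b := 2) hy hi (Q.oV 1) hV ((Q.hY i).mono inter_subset_left)
        (fun p hp => ?_) ?_ hd univ
      · rw [hyk 2 1 p hp, hyk 0 1 p hp]
        show - (Q.Y p * (Q.X p ^ 3)⁻¹) * d1 A Q.Y i p = Q.Y p * (- (Q.X p ^ 3)⁻¹ * d1 A Q.Y i p)
        ring
      · rw [hyk 0 1 x hV]
        exact mul_ne_zero (neg_ne_zero.2 (inv_ne_zero (pow_ne_zero 3 hX))) hd
    · obtain ⟨i, hi, hd⟩ := Q.dX h0 hY
      have hV : x ∈ Q.V 0 := ⟨h0, hY⟩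
      refine good_of (a := 0) (b := 1) hy hi (Q.oV 0) hV ((Q.hX i).mono inter_subset_left)
        (fun p hp => ?_) ?_ hd univ
      · rw [hyk 1 0 p hp, hyk 0 0 p hp]
        show Q.X p * (Q.Y p ^ 3)⁻¹ * d1 A Q.X i p = Q.X p * ((Q.Y p ^ 3)⁻¹ * d1 A Q.X i p)
        ring
      · rw [hyk 0 0 x hV]
        exact mul_ne_zero (inv_ne_zero (pow_ne_zero 3 hY)) hd
  · obtain ⟨h1, hυ⟩ := (Q.cov x).resolve_left h0
    obtain ⟨i, hi, hd⟩ := Q.dξ h1 hυ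
    have hV : x ∈ Q.V 2 := ⟨h1, hυ⟩
    refine good_of (a := 1) (b := 0) hy hi (Q.oV 2) hV ((Q.hξ i).mono inter_subset_left)
      (fun p hp => ?_) ?_ hd univ
    · rw [hyk 0 2 p hp, hyk 1 2 p hp]
      show - (Q.ξ p * (Q.υ p ^ 3)⁻¹) * d1 A Q.ξ i p = Q.ξ p * (- (Q.υ p ^ 3)⁻¹ * d1 A Q.ξ i p)
      ring
    · rw [hyk 1 2 x hV]
      exact mul_ne_zero (neg_ne_zero.2 (inv_ne_zero (pow_ne_zero 3 hυ))) hd

end QuD

end

end Crest.Agent.R272.Kps_595
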