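import Crest.Agent.R272.Kps2_595
import Crest.Agent.R272.P1S1_590

/-!
# R272, S14-KPOS (helper595), part 3: the instance for the cover `Y⁴ = a0⁴ - a1⁴` of the line

`quD_of`  : `D : DCov_426.Data A1 ρ`, one root `y⁴ = a0⁴ - a1⁴` of `O 1` ⟹ `QuD A'` for every
            compatible atlas `A'` of `D.X`;
`kpos_of` : its canonical bundle has a positive metric.
-/

set_option autoImplicit false
set_option linter.unusedSectionVars false

open Set Filter Topology Complex
open scoped ContDiff Matrix ComplexConjugate Manifold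

namespace Crest.Agent.R272.Kps_595

open Crest.Agent.R275.Geo Crest.Agent.R275.Core144 Crest.Agent.R273.Defs_333
open Crest.Agent.R273.Fam_835 Crest.Agent.R273.Map_835
open Crest.Agent.R272.PosGlue_232 Crest.Agent.R272.PosFib_220
open Crest.Agent.R272.P1F_54 Crest.Agent.R272.P1S_590 Crest.Agent.R272.DCov_426

noncomputable section

variable {ρ : Type} [Fintype ρ] (D : Data A1 ρ) {A' : Atl 1 D.X} (hc : Cmp D.famX A')

/-- the open set over the chart `s` -/
def US (s : Bool) : Set D.X := D.p ⁻¹' (A1.e s).source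

/-- the affine coordinate of the base point -/
def XS (s : Bool) (q : D.X) : ℂ := pc s (D.p q)

theorem oUS (s : Bool) : IsOpen (US D s) := (A1.e s).open_source.preimage D.continuous_p

include hc in
theorem hXS (s : Bool) (i : A'.ι) : HolAt A' i (US D s) (XS D s) := by
  intro z hz
  have h1 : DifferentiableAt ℂ (rd A' A1 D.p i s) z :=
    ((D.holMap_p hc).hol i s).differentiableAt (((D.holMap_p hc).isOpen_dm i s).mem_nhds hz)
  have h2 : DifferentiableAt ℂ (fun w => kap (rd A' A1 D.p i s w)) z :=
    DifferentiableAt.comp z (g := kap) differentiable_kap.differentiableAt h1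
  refine (h2.congr_of_eventuallyEq ?_).differentiableWithinAt
  filter_upwards [((D.holMap_p hc).isOpen_dm i s).mem_nhds hz] with w hw
  exact (kap_ch1 s (t := D.p ((A'.e i).symm w)) hw.2).symm

include hc in
theorem hYS (a : ρ) (s : Bool) (i : A'.ι) : HolAt A' i (US D s) (D.y a s) :=
  (D.rsY hc a).hol i s

include hc in
theorem immS [Unique ρ] (s : Bool) {x : D.X} (hx : x ∈ US D s) :
    ∃ i, x ∈ (A'.e i).source ∧ (d1 A' (XS D s) i x ≠ 0 ∨ d1 A' (D.y default s) i x ≠ 0) := by
  obtain ⟨i, hi⟩ := A'.cover x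
  refine ⟨i, hi, ?_⟩
  by_contra hcon
  push Not at hcon
  obtain ⟨hX, hY⟩ := hcon
  rw [d1_of_mem _ hi] at hX hY
  have hz : A'.e i x ∈ dm A' A1 D.p i s :=
    ⟨(A'.e i).map_source hi, show D.p ((A'.e i).symm (A'.e i x)) ∈ (A1.e s).source by
      rw [(A'.e i).left_inv hi]
      exact hx⟩
  have hd := (D.holMap_p hc).isOpen_dm i s
  have h1 : DifferentiableAt ℂ (rd A' A1 D.p i s) (A'.e i x) :=
    ((D.holMap_p hc).hol i s).differentiableAt (hd.mem_nhds hz)
  have h2 : (fun w => XS D s ((A'.e i).symm w)) =ᶠ[𝓝 (A'.e i x)]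
      kap ∘ rd A' A1 D.p i s := by
    filter_upwards [hd.mem_nhds hz] with w hw
    exact (kap_ch1 s (t := D.p ((A'.e i).symm w)) hw.2).symm
  have h3 : fderiv ℂ (rd A' A1 D.p i s) (A'.e i x) e1 = 0 := by
    rw [h2.fderiv_eq, fderiv_comp _ (differentiable_kap _) h1, (hasFDerivAt_kap _).fderiv] at hX
    have h4 : (4 : ℂ) * (fderiv ℂ (rd A' A1 D.p i s) (A'.e i x) e1) 0 = 0 := hX
    have h5 := (mul_eq_zero.1 h4).resolve_left (by norm_num)
    rw [cn1_eq (fderiv ℂ (rd A' A1 D.p i s) (A'.e i x) e1), h5, zero_smul]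
  have h6 := D.imm_rs hc i s (A'.e i x) hz e1 h3 ⟨0, fun o => ?_⟩
  · have h7 := congrArg (fun v : Cn 1 => v 0) h6
    simp [e1] at h7
  · rcases o with _ | a
    · have h8 : (fun w => ((D.rs hc) none).f i s ((A'.e i).symm w)) = fun _ : Cn 1 => (1 : ℂ) := rfl
      rw [h8]
      simp
    · obtain rfl : a = default := Subsingleton.elim _ _
      rw [zero_mul]
      exact hY

/-- the cover `y⁴ = a0⁴ - a1⁴` of the line is the Fermat quartic -/
def quD_of [Unique ρ] (hk : D.k default = 4)
    (h0 : ∀ t ∈ (A1.e false).source, D.s default false t = 1 - pc false t ^ 4)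
    (h1 : ∀ t ∈ (A1.e true).source, D.s default true t = pc true t ^ 4 - 1)
    (hg : ∀ t ∈ (A1.e false).source ∩ (A1.e true).source,
      (D.L default).g true false t = pc true t) : QuD A' where
  U0 := US D false
  U1 := US D true
  o0 := oUS D false
  o1 := oUS D true
  X := XS D false
  Y := D.y default false
  ξ := XS D true
  υ := D.y default true
  hX := hXS D hc false
  hY := hYS D hc default false
  hξ := hXS D hc true
  hυ := hYS D hc default true
  cov x := by
    by_cases hx : x ∈ US D false
    · exact Or.inl hx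
    · right
      obtain ⟨s, hs⟩ := A1.cover (D.p x)
      cases s with
      | false => exact absurd hs hx
      | true =>
        refine ⟨hs, fun hυ => hx ?_⟩
        have h2 := D.y_pow default (i := true) (q := x) hs
        rw [hυ, hk, h1 _ hs] at h2
        have h3 : pc true (D.p x) ^ 4 = 1 := by linear_combination h2.symm
        have h4 : ‖pc true (D.p x)‖ = 1 := by
          have h5 : ‖pc true (D.p x)‖ ^ 4 = 1 := by rw [← norm_pow, h3, norm_one]
          exact (pow_eq_one_iff_of_nonneg (norm_nonneg _) (by norm_num)).1 h5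
        obtain ⟨a0, a1, h, he⟩ := exists_pt (D.p x)
        have hm : D.p x ∈ ps true := (mem_ch1.1 hs).1
        rw [he] at hm h4
        have ha1 : a1 ≠ 0 := (mem_ps_pt h true).1 hm
        rw [pc_pt (s := true) ha1, oth_true, sel_true, norm_div] at h4
        have ha0 : a0 ≠ 0 := by
          rintro rfl
          simp at h4
        show D.p x ∈ (ch1 false).source
        rw [he]
        refine mem_ch1.2 ⟨(mem_ps_pt h false).2 ha0, ?_⟩
        rw [pc_pt (s := false) ha0, oth_false, sel_false, norm_div]
        have h6 : ‖a0‖ = ‖a1‖ := by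
          rw [div_eq_one_iff_eq (norm_ne_zero_iff.2 ha1)] at h4
          exact h4
        rw [h6, div_self (norm_ne_zero_iff.2 ha1)]
        norm_num
  r0 x hx := by
    have h2 := D.y_pow default (i := false) (q := x) hx
    rw [hk, h0 _ hx] at h2
    exact h2
  r1 x hx := by
    have h2 := D.y_pow default (i := true) (q := x) hx
    rw [hk, h1 _ hx] at h2
    exact h2
  ovX x hx := by
    obtain ⟨a0, a1, h, he⟩ := exists_pt (D.p x)
    have hm0 : D.p x ∈ ps false := (mem_ch1.1 hx.1).1
    have hm1 : D.p x ∈ ps true := (mem_ch1.1 hx.2).1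
    rw [he] at hm0 hm1
    have ha0 : a0 ≠ 0 := (mem_ps_pt h false).1 hm0
    have ha1 : a1 ≠ 0 := (mem_ps_pt h true).1 hm1
    show pc true (D.p x) * pc false (D.p x) = 1
    rw [he, pc_pt (s := true) ha1, pc_pt (s := false) ha0, oth_true, sel_true, oth_false,
      sel_false]
    field_simp
  ovY x hx := by
    rw [D.y_tr default (i := true) (j := false) hx.2 hx.1, hg _ hx]
    rfl
  imm0 x hx := immS D hc false hx
  imm1 x hx := immS D hc true hx

include hc in
/-- **the canonical bundle of `y⁴ = a0⁴ - a1⁴` is positive**, on every compatible atlas -/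
theorem kpos_of [Unique ρ] (hk : D.k default = 4)
    (h0 : ∀ t ∈ (A1.e false).source, D.s default false t = 1 - pc false t ^ 4)
    (h1 : ∀ t ∈ (A1.e true).source, D.s default true t = pc true t ^ 4 - 1)
    (hg : ∀ t ∈ (A1.e false).source ∩ (A1.e true).source,
      (D.L default).g true false t = pc true t) : ∃ H : HM (KB A'), H.Pos := by
  have : T2Space D.X := D.t2_X
  have : CompactSpace D.X := D.compact_X
  exact (quD_of D hc hk h0 h1 hg).kpos

end

end Crest.Agent.R272.Kps_595
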