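import Mathlib

/-!
# R272, UNIF (helper903), file 1: holomorphic linear ODE on small discs
-/

set_option autoImplicit false

open Set Filter Topology Complex Metric

namespace Crest.Agent.R272.Unif_903

theorem prim {F : ℂ → ℂ} {z0 : ℂ} {r C : ℝ} (hr : 0 < r) (hF : DifferentiableOn ℂ F (ball z0 r))
    (hC : ∀ z ∈ ball z0 r, ‖F z‖ ≤ C) :
    ∃ G : ℂ → ℂ, (∀ z ∈ ball z0 r, HasDerivAt G (F z) z) ∧ G z0 = 0 ∧
      ∀ z ∈ ball z0 r, ‖G z‖ ≤ C * r := by
  obtain ⟨G, h0, hG⟩ := hF.isExactOn_ball.with_val_at z0 0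
  refine ⟨G, hG, h0, fun z hz => ?_⟩
  have h1 := (convex_ball z0 r).norm_image_sub_le_of_norm_hasDerivWithin_le
    (f := G) (f' := F) (C := C) (fun x hx => (hG x hx).hasDerivWithinAt) hC (mem_ball_self hr) hz
  rw [h0, sub_zero] at h1
  have hC0 : 0 ≤ C := (norm_nonneg _).trans (hC z0 (mem_ball_self hr))
  refine h1.trans (mul_le_mul_of_nonneg_left ?_ hC0)
  rw [← dist_eq_norm]
  exact (mem_ball.mp hz).le

theorem step {Q : ℂ → ℂ} {z0 : ℂ} {r K : ℝ} (hr : 0 < r) (hK : 0 ≤ K)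
    (hQ : DifferentiableOn ℂ Q (ball z0 r)) (hQK : ∀ z ∈ ball z0 r, ‖Q z‖ ≤ K)
    {F : ℂ → ℂ} {C : ℝ} (hF : DifferentiableOn ℂ F (ball z0 r))
    (hC : ∀ z ∈ ball z0 r, ‖F z‖ ≤ C) :
    ∃ G G' : ℂ → ℂ, (∀ z ∈ ball z0 r, HasDerivAt G (G' z) z) ∧
      (∀ z ∈ ball z0 r, HasDerivAt G' (Q z * F z) z) ∧ G z0 = 0 ∧ G' z0 = 0 ∧
      (∀ z ∈ ball z0 r, ‖G z‖ ≤ K * C * r * r) ∧ (∀ z ∈ ball z0 r, ‖G' z‖ ≤ K * C * r) := by
  obtain ⟨G', h1, h2, h3⟩ := prim (C := K * C) hr (hQ.mul hF) (fun z hz => by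
    rw [Pi.mul_apply, norm_mul]
    exact mul_le_mul (hQK z hz) (hC z hz) (norm_nonneg _) hK)
  have hd : DifferentiableOn ℂ G' (ball z0 r) :=
    fun z hz => (h1 z hz).differentiableAt.differentiableWithinAt
  obtain ⟨G, k1, k2, k3⟩ := prim (C := K * C * r) hr hd h3
  exact ⟨G, G', k1, h1, k2, h2, k3, h3⟩

/-- local solution of `y'' = Q y` -/
theorem ode {Q : ℂ → ℂ} {z0 : ℂ} {R : ℝ} (hR : 0 < R) (hQ : DifferentiableOn ℂ Q (ball z0 R))
    (α β : ℂ) :
    ∃ r, 0 < r ∧ r ≤ R ∧ ∃ y y' : ℂ → ℂ, (∀ z ∈ ball z0 r, HasDerivAt y (y' z) z) ∧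
      (∀ z ∈ ball z0 r, HasDerivAt y' (Q z * y z) z) ∧ y z0 = α ∧ y' z0 = β := by
  -- bound for `Q` on a smaller ball
  obtain ⟨K, hK0, hK⟩ : ∃ K : ℝ, 0 < K ∧ ∀ z ∈ ball z0 (R / 2), ‖Q z‖ ≤ K := by
    have hc : ContinuousOn Q (closedBall z0 (R / 2)) :=
      hQ.continuousOn.mono (closedBall_subset_ball (by linarith))
    obtain ⟨K, hK⟩ := (isCompact_closedBall z0 (R / 2)).exists_bound_of_continuousOn hc
    exact ⟨max K 1, by positivity, fun z hz =>
      (hK z (ball_subset_closedBall hz)).trans (le_max_left _ _)⟩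
  obtain ⟨r, hr0, hrR, hrK⟩ : ∃ r, 0 < r ∧ r ≤ R / 2 ∧ K * r * r ≤ 1 / 2 := by
    refine ⟨min (R / 2) (min 1 (1 / (2 * K))), by positivity, min_le_left _ _, ?_⟩
    set r := min (R / 2) (min 1 (1 / (2 * K)))
    have h0 : 0 < r := by positivity
    have h1 : r ≤ 1 := (min_le_right _ _).trans (min_le_left _ _)
    have h2 : r ≤ 1 / (2 * K) := (min_le_right _ _).trans (min_le_right _ _)
    have h3 : K * r ≤ 1 / 2 := by
      have := mul_le_mul_of_nonneg_left h2 hK0.le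
      refine this.trans (le_of_eq ?_)
      field_simp
    nlinarith
  have hsub : ball z0 r ⊆ ball z0 (R / 2) := ball_subset_ball hrR
  have hQr : DifferentiableOn ℂ Q (ball z0 r) :=
    hQ.mono (hsub.trans (ball_subset_ball (by linarith)))
  have hKr : ∀ z ∈ ball z0 r, ‖Q z‖ ≤ K := fun z hz => hK z (hsub hz)
  have hr1 : r * ‖β‖ + ‖α‖ ≥ 0 := by positivity
  set C0 : ℝ := ‖α‖ + ‖β‖ * r with hC0
  -- the sequence
  let P : ℕ → (ℂ → ℂ) × (ℂ → ℂ) → Prop := fun n G =>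
    (∀ z ∈ ball z0 r, HasDerivAt G.1 (G.2 z) z) ∧ (∀ z ∈ ball z0 r, ‖G.1 z‖ ≤ C0 * (1 / 2) ^ n)
  have hstep : ∀ n (G : {G // P n G}), ∃ H : {H // P (n + 1) H},
      (∀ z ∈ ball z0 r, HasDerivAt H.1.2 (Q z * G.1.1 z) z) ∧ H.1.1 z0 = 0 ∧ H.1.2 z0 = 0 ∧
      ∀ z ∈ ball z0 r, ‖H.1.2 z‖ ≤ K * (C0 * (1 / 2) ^ n) * r := by
    rintro n ⟨G, h1, h2⟩
    obtain ⟨H, H', k1, k2, k3, k4, k5, k6⟩ := step hr0 hK0.le hQr hKr
      (fun z hz => (h1 z hz).differentiableAt.differentiableWithinAt) h2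
    refine ⟨⟨(H, H'), k1, fun z hz => ?_⟩, k2, k3, k4, k6⟩
    refine (k5 z hz).trans ?_
    have hC : 0 ≤ C0 * (1 / 2) ^ n := by positivity
    calc K * (C0 * (1 / 2) ^ n) * r * r = (K * r * r) * (C0 * (1 / 2) ^ n) := by ring
      _ ≤ (1 / 2) * (C0 * (1 / 2) ^ n) := mul_le_mul_of_nonneg_right hrK hC
      _ = C0 * (1 / 2) ^ (n + 1) := by ring
  choose nxt n1 n2 n3 n4 using hstep
  have h0 : P 0 (fun z => α + β * (z - z0), fun _ => β) := by
    refine ⟨fun z _ => ?_, fun z hz => ?_⟩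
    · simpa using (((hasDerivAt_id z).sub_const z0).const_mul β).const_add α
    · simp only [pow_zero, mul_one, hC0]
      refine (norm_add_le _ _).trans ?_
      rw [norm_mul]
      gcongr
      rw [← dist_eq_norm]
      exact (mem_ball.mp hz).le
  let s : (n : ℕ) → {G // P n G} := fun n => Nat.rec ⟨_, h0⟩ (fun n G => nxt n G) n
  have hs : ∀ n, s (n + 1) = nxt n (s n) := fun n => rfl
  have hs0 : s 0 = ⟨_, h0⟩ := rfl
  let y : ℂ → ℂ := fun z => ∑' n, (s n).1.1 z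
  let y' : ℂ → ℂ := fun z => ∑' n, (s n).1.2 z
  have hsum1 : Summable fun n : ℕ => C0 * (1 / 2 : ℝ) ^ n :=
    (summable_geometric_of_lt_one (by norm_num) (by norm_num)).mul_left C0
  have hd1 : ∀ n, DifferentiableOn ℂ (s n).1.1 (ball z0 r) := fun n z hz =>
    ((s n).2.1 z hz).differentiableAt.differentiableWithinAt
  have hb1 : ∀ n, ∀ z ∈ ball z0 r, ‖(s n).1.1 z‖ ≤ C0 * (1 / 2) ^ n := fun n => (s n).2.2
  -- second component
  have hd2 : ∀ n, ∀ z ∈ ball z0 r, HasDerivAt (s n).1.2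
      (if n = 0 then 0 else Q z * (s (n - 1)).1.1 z) z := by
    intro n z hz
    cases n with
    | zero =>
      simp only [if_true]
      exact hasDerivAt_const z β
    | succ n =>
      rw [if_neg (Nat.succ_ne_zero n), Nat.add_sub_cancel, hs]
      exact n1 n (s n) z hz
  let B : ℕ → ℝ := fun n => if n = 0 then ‖β‖ else K * (C0 * (1 / 2) ^ (n - 1)) * r
  have hsum2 : Summable B := by
    rw [← summable_nat_add_iff 1]
    have : (fun n => B (n + 1)) = fun n => (K * r) * (C0 * (1 / 2) ^ n) := by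
      funext n
      simp only [B, if_neg (Nat.succ_ne_zero n), Nat.add_sub_cancel]
      ring
    rw [this]
    exact hsum1.mul_left _
  have hb2 : ∀ n, ∀ z ∈ ball z0 r, ‖(s n).1.2 z‖ ≤ B n := by
    intro n z hz
    cases n with
    | zero => simp only [B, if_true]; exact le_refl _
    | succ n =>
      simp only [B, if_neg (Nat.succ_ne_zero n), Nat.add_sub_cancel]
      rw [hs]
      exact n4 n (s n) z hz
  have hd2' : ∀ n, DifferentiableOn ℂ (s n).1.2 (ball z0 r) := fun n z hz =>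
    (hd2 n z hz).differentiableAt.differentiableWithinAt
  have hy : DifferentiableOn ℂ y (ball z0 r) :=
    differentiableOn_tsum_of_summable_norm hsum1 hd1 isOpen_ball hb1
  have hy' : DifferentiableOn ℂ y' (ball z0 r) :=
    differentiableOn_tsum_of_summable_norm hsum2 hd2' isOpen_ball hb2
  refine ⟨r, hr0, by linarith, y, y', fun z hz => ?_, fun z hz => ?_, ?_, ?_⟩
  · have h1 := hasSum_deriv_of_summable_norm hsum1 hd1 isOpen_ball hb1 hz
    have h2 : deriv y z = y' z := by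
      have : (fun n => deriv (s n).1.1 z) = fun n => (s n).1.2 z :=
        funext fun n => ((s n).2.1 z hz).deriv
      rw [this] at h1
      exact h1.tsum_eq.symm
    rw [← h2]
    exact (hy.differentiableAt (isOpen_ball.mem_nhds hz)).hasDerivAt
  · have h1 := hasSum_deriv_of_summable_norm hsum2 hd2' isOpen_ball hb2 hz
    have h2 : deriv y' z = Q z * y z := by
      have e1 : (fun n => deriv (s n).1.2 z) =
          fun n => if n = 0 then 0 else Q z * (s (n - 1)).1.1 z :=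
        funext fun n => (hd2 n z hz).deriv
      rw [e1] at h1
      have hsm : Summable fun n => (s n).1.1 z :=
        Summable.of_norm_bounded hsum1 fun n => hb1 n z hz
      have h3 : HasSum (fun n => Q z * (s n).1.1 z) (Q z * y z) := hsm.hasSum.mul_left _
      have h4 : HasSum (fun n : ℕ => if n = 0 then (0:ℂ) else Q z * (s (n - 1)).1.1 z)
          (Q z * y z) := by
        rw [← hasSum_nat_add_iff' 1]
        simpa using h3
      exact h1.unique h4
    rw [← h2]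
    exact (hy'.differentiableAt (isOpen_ball.mem_nhds hz)).hasDerivAt
  · have hz : z0 ∈ ball z0 r := mem_ball_self hr0
    have : ∀ n, n ≠ 0 → (s n).1.1 z0 = 0 := by
      intro n hn
      obtain ⟨m, rfl⟩ := Nat.exists_eq_succ_of_ne_zero hn
      exact n2 m (s m)
    show ∑' n, (s n).1.1 z0 = α
    rw [tsum_eq_single 0 this]
    simp [hs0]
  · have hz : z0 ∈ ball z0 r := mem_ball_self hr0
    have : ∀ n, n ≠ 0 → (s n).1.2 z0 = 0 := by
      intro n hn
      obtain ⟨m, rfl⟩ := Nat.exists_eq_succ_of_ne_zero hn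
      exact n3 m (s m)
    show ∑' n, (s n).1.2 z0 = β
    rw [tsum_eq_single 0 this]
    rfl

end Crest.Agent.R272.Unif_903
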