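import Mathlib
import Crest.Agent.R272.Unif1_903

/-!
R272 / UnLiou_311: local developing map of a metric of constant negative curvature.
If `u` is `C³` on an open set `U ⊆ ℂ` and `u_{z z̄} = e^u` there, then near every point `c` of `U`
there is a holomorphic `φ` with `φ c = 0`, `|φ| < 1`, `φ' ≠ 0` and
`e^u = 2 |φ'|² / (1 - |φ|²)²`.
-/

set_option autoImplicit false

open Set Filter Topology Metric Complex
open scoped ContDiff ComplexConjugate

noncomputable section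

namespace Crest.Agent.R272.UnLiou_311

/-- the real linear map `v ↦ a v + b v̄` -/
def L (a b : ℂ) : ℂ →L[ℝ] ℂ :=
  (ContinuousLinearMap.mul ℝ ℂ a) + (ContinuousLinearMap.mul ℝ ℂ b).comp
    (Complex.conjCLE : ℂ →L[ℝ] ℂ)

@[simp] theorem L_apply (a b v : ℂ) : L a b v = a * v + b * conj v := by
  simp [L]

/-- `f` is real differentiable at `z` with Wirtinger derivatives `f_z = a`, `f_z̄ = b` -/
def HW (f : ℂ → ℂ) (a b : ℂ) (z : ℂ) : Prop := HasFDerivAt f (L a b) z

theorem ext_L {T S : ℂ →L[ℝ] ℂ} (h1 : T 1 = S 1) (hI : T I = S I) : T = S := by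
  ext v
  have hv : v = v.re • (1 : ℂ) + v.im • I := by
    apply Complex.ext <;> simp
  rw [hv, map_add, map_add, map_smul, map_smul, map_smul, map_smul, h1, hI]

theorem HW.congr {f : ℂ → ℂ} {a b a' b' z : ℂ} (h : HW f a b z) (ha : a = a') (hb : b = b') :
    HW f a' b' z := by subst ha hb; exact h

theorem HW.mul {f g : ℂ → ℂ} {a b a' b' z : ℂ} (hf : HW f a b z) (hg : HW g a' b' z) :
    HW (fun z => f z * g z) (a * g z + f z * a') (b * g z + f z * b') z := by
  have := HasFDerivAt.mul (𝕜 := ℝ) hf hg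
  refine this.congr_fderiv ?_
  ext v
  simp
  ring

theorem HW.add {f g : ℂ → ℂ} {a b a' b' z : ℂ} (hf : HW f a b z) (hg : HW g a' b' z) :
    HW (fun z => f z + g z) (a + a') (b + b') z := by
  have := HasFDerivAt.add hf hg
  refine this.congr_fderiv ?_
  ext v
  simp
  ring

theorem HW.sub {f g : ℂ → ℂ} {a b a' b' z : ℂ} (hf : HW f a b z) (hg : HW g a' b' z) :
    HW (fun z => f z - g z) (a - a') (b - b') z := by
  have := HasFDerivAt.sub hf hg
  refine this.congr_fderiv ?_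
  ext v
  simp
  ring

theorem HW.const (k z : ℂ) : HW (fun _ => k) 0 0 z := by
  refine (hasFDerivAt_const k z).congr_fderiv ?_
  ext v
  simp

theorem HW.const_mul {f : ℂ → ℂ} {a b z : ℂ} (k : ℂ) (hf : HW f a b z) :
    HW (fun z => k * f z) (k * a) (k * b) z :=
  ((HW.const k z).mul hf).congr (by ring) (by ring)

theorem HW.conj {f : ℂ → ℂ} {a b z : ℂ} (hf : HW f a b z) :
    HW (fun z => conj (f z)) (conj b) (conj a) z := by
  have h := (Complex.conjCLE : ℂ →L[ℝ] ℂ).hasFDerivAt.comp z hf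
  refine HasFDerivAt.congr_fderiv h ?_
  ext v
  simp
  ring

theorem HW.cexp {f : ℂ → ℂ} {a b z : ℂ} (hf : HW f a b z) :
    HW (fun z => Complex.exp (f z)) (Complex.exp (f z) * a) (Complex.exp (f z) * b) z := by
  have h := HasFDerivAt.cexp (E := ℂ) (f := f) (x := z) (f' := L a b) hf
  refine h.congr_fderiv ?_
  ext v
  simp
  ring

theorem HW.of_hasDerivAt {f : ℂ → ℂ} {a z : ℂ} (hf : HasDerivAt f a z) : HW f a 0 z := by
  refine (hf.hasFDerivAt.restrictScalars ℝ).congr_fderiv ?_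
  ext v
  simp [mul_comm]

theorem HW.hasDerivAt {f : ℂ → ℂ} {a z : ℂ} (hf : HW f a 0 z) : HasDerivAt f a z := by
  rw [hasDerivAt_iff_hasFDerivAt]
  refine hasFDerivAt_of_restrictScalars ℝ hf ?_
  ext v
  simp [mul_comm]

theorem HW.unique {f : ℂ → ℂ} {a b a' b' z : ℂ} (h : HW f a b z) (h' : HW f a' b' z) :
    a = a' ∧ b = b' := by
  have e : L a b = L a' b' := HasFDerivAt.unique h h'
  have e1 : a + b = a' + b' := by simpa using congrArg (fun T => T 1) e
  have e2 : a * I + b * (-I) = a' * I + b' * (-I) := by simpa using congrArg (fun T => T I) e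
  have e3 : a - b = a' - b' := by
    have : I * (a - b) = I * (a' - b') := by linear_combination e2
    exact mul_left_cancel₀ I_ne_zero this
  constructor
  · linear_combination (e1 + e3) / 2
  · linear_combination (e1 - e3) / 2

/-- `∂f/∂z` -/
def dz (f : ℂ → ℂ) (z : ℂ) : ℂ := (fderiv ℝ f z 1 - I * fderiv ℝ f z I) / 2

/-- `∂f/∂z̄` -/
def db (f : ℂ → ℂ) (z : ℂ) : ℂ := (fderiv ℝ f z 1 + I * fderiv ℝ f z I) / 2

theorem HW.of_diff {f : ℂ → ℂ} {z : ℂ} (h : DifferentiableAt ℝ f z) : HW f (dz f z) (db f z) z := by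
  refine h.hasFDerivAt.congr_fderiv (ext_L ?_ ?_)
  · simp [dz, db]
    ring
  · simp [dz, db]
    linear_combination (fderiv ℝ f z I) * I_mul_I

theorem HW.differentiableAt {f : ℂ → ℂ} {a b z : ℂ} (h : HW f a b z) : DifferentiableAt ℝ f z :=
  HasFDerivAt.differentiableAt h

theorem HW.dz {f : ℂ → ℂ} {a b z : ℂ} (h : HW f a b z) : dz f z = a :=
  ((HW.of_diff h.differentiableAt).unique h).1

theorem HW.db {f : ℂ → ℂ} {a b z : ℂ} (h : HW f a b z) : db f z = b :=
  ((HW.of_diff h.differentiableAt).unique h).2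

theorem fderiv_fderiv_apply {f : ℂ → ℂ} {z : ℂ} (hf : ContDiffAt ℝ 2 f z) (v w : ℂ) :
    fderiv ℝ (fun y => fderiv ℝ f y w) z v = fderiv ℝ (fderiv ℝ f) z v w := by
  have h1 : DifferentiableAt ℝ (fderiv ℝ f) z :=
    (hf.fderiv_right (m := 1) (by norm_num)).differentiableAt one_ne_zero
  rw [fderiv_clm_apply h1 (differentiableAt_const w)]
  simp

theorem differentiableAt_dir {f : ℂ → ℂ} {z : ℂ} (hf : ContDiffAt ℝ 2 f z) (w : ℂ) :
    DifferentiableAt ℝ (fun y => fderiv ℝ f y w) z := by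
  have h1 : DifferentiableAt ℝ (fderiv ℝ f) z :=
    (hf.fderiv_right (m := 1) (by norm_num)).differentiableAt one_ne_zero
  exact h1.clm_apply (differentiableAt_const w)

theorem db_dz {f : ℂ → ℂ} {z : ℂ} (hf : ContDiffAt ℝ 2 f z) : db (dz f) z = dz (db f) z := by
  have h1 := differentiableAt_dir hf 1
  have h2 := differentiableAt_dir hf I
  have hs : fderiv ℝ (fderiv ℝ f) z 1 I = fderiv ℝ (fderiv ℝ f) z I 1 :=
    (hf.isSymmSndFDerivAt (by simp)).eq 1 I
  have e1 : ∀ v, fderiv ℝ (dz f) z v =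
      (fderiv ℝ (fderiv ℝ f) z v 1 - I * fderiv ℝ (fderiv ℝ f) z v I) / 2 := by
    intro v
    have : HasFDerivAt (dz f) ((2 : ℂ)⁻¹ • (fderiv ℝ (fun y => fderiv ℝ f y 1) z
        - I • fderiv ℝ (fun y => fderiv ℝ f y I) z)) z := by
      have h3 := (h1.hasFDerivAt.sub (h2.hasFDerivAt.const_smul I)).const_smul ((2 : ℂ)⁻¹)
      refine h3.congr_of_eventuallyEq (Eventually.of_forall fun y => ?_)
      simp only [dz, Pi.smul_apply, Pi.sub_apply, smul_eq_mul]
      ring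
    rw [this.fderiv]
    simp only [smul_apply, sub_apply, fderiv_fderiv_apply hf, smul_eq_mul]
    ring
  have e2 : ∀ v, fderiv ℝ (db f) z v =
      (fderiv ℝ (fderiv ℝ f) z v 1 + I * fderiv ℝ (fderiv ℝ f) z v I) / 2 := by
    intro v
    have : HasFDerivAt (db f) ((2 : ℂ)⁻¹ • (fderiv ℝ (fun y => fderiv ℝ f y 1) z
        + I • fderiv ℝ (fun y => fderiv ℝ f y I) z)) z := by
      have h3 := (h1.hasFDerivAt.add (h2.hasFDerivAt.const_smul I)).const_smul ((2 : ℂ)⁻¹)
      refine h3.congr_of_eventuallyEq (Eventually.of_forall fun y => ?_)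
      simp only [db, Pi.smul_apply, Pi.add_apply, smul_eq_mul]
      ring
    rw [this.fderiv]
    simp only [smul_apply, add_apply, fderiv_fderiv_apply hf, smul_eq_mul]
    ring
  have e3 : db (dz f) z = (fderiv ℝ (dz f) z 1 + I * fderiv ℝ (dz f) z I) / 2 := rfl
  have e4 : dz (db f) z = (fderiv ℝ (db f) z 1 - I * fderiv ℝ (db f) z I) / 2 := rfl
  rw [e3, e4, e1, e1, e2, e2, hs]
  ring


/-! ### The developing map -/

section Main

variable {u : ℂ → ℝ} {Ω : Set ℂ}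

/-- `∂u/∂z` -/
def pu (u : ℂ → ℝ) (z : ℂ) : ℂ := dz (fun z => (u z : ℂ)) z

theorem uc_contDiffAt (hΩ : IsOpen Ω) (hu : ContDiffOn ℝ ∞ u Ω) {z : ℂ} (hz : z ∈ Ω) :
    ContDiffAt ℝ ∞ (fun z => (u z : ℂ)) z :=
  Complex.ofRealCLM.contDiff.contDiffAt.comp z (hu.contDiffAt (hΩ.mem_nhds hz))

theorem hw_uc (hΩ : IsOpen Ω) (hu : ContDiffOn ℝ ∞ u Ω) {z : ℂ} (hz : z ∈ Ω) :
    HW (fun z => (u z : ℂ)) (pu u z) (conj (pu u z)) z := by
  have hd : DifferentiableAt ℝ (fun z => (u z : ℂ)) z :=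
    (uc_contDiffAt hΩ hu hz).differentiableAt (by simp)
  have h := HW.of_diff hd
  have h' := h.conj
  simp only [Complex.conj_ofReal] at h'
  exact h.congr rfl (h.unique h').2

theorem contDiffAt_dz {f : ℂ → ℂ} {z : ℂ} (hf : ContDiffAt ℝ ∞ f z) : ContDiffAt ℝ ∞ (dz f) z := by
  have h1 : ContDiffAt ℝ ∞ (fderiv ℝ f) z := hf.fderiv_right (m := ∞) (by simp)
  have h2 : ContDiffAt ℝ ∞ (fun y => fderiv ℝ f y 1) z := h1.clm_apply contDiffAt_const
  have h3 : ContDiffAt ℝ ∞ (fun y => fderiv ℝ f y I) z := h1.clm_apply contDiffAt_const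
  exact (h2.sub (contDiffAt_const.mul h3)).div_const 2

theorem contDiffAt_pu (hΩ : IsOpen Ω) (hu : ContDiffOn ℝ ∞ u Ω) {z : ℂ} (hz : z ∈ Ω) :
    ContDiffAt ℝ ∞ (pu u) z := contDiffAt_dz (uc_contDiffAt hΩ hu hz)

theorem db_pu (hΩ : IsOpen Ω) (hu : ContDiffOn ℝ ∞ u Ω)
    (hL : ∀ z ∈ Ω, fderiv ℝ (fderiv ℝ u) z 1 1 + fderiv ℝ (fderiv ℝ u) z I I
      = 4 * Real.exp (u z)) {z : ℂ} (hz : z ∈ Ω) :
    db (pu u) z = (Real.exp (u z) : ℂ) := by
  have hcd : ContDiffAt ℝ ∞ u z := hu.contDiffAt (hΩ.mem_nhds hz)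
  have hd2 : DifferentiableAt ℝ (fderiv ℝ u) z :=
    (hcd.fderiv_right (m := 1) (by norm_cast)).differentiableAt one_ne_zero
  -- near `z`, `fderiv` of the complexified function
  have hev : ∀ᶠ y in 𝓝 z, ∀ v, fderiv ℝ (fun z => (u z : ℂ)) y v = ((fderiv ℝ u y v : ℝ) : ℂ) := by
    filter_upwards [hΩ.mem_nhds hz] with y hy v
    have hdy : DifferentiableAt ℝ u y :=
      (hu.contDiffAt (hΩ.mem_nhds hy)).differentiableAt (by simp)
    have h := (Complex.ofRealCLM.hasFDerivAt.comp y hdy.hasFDerivAt)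
    have h' : fderiv ℝ (fun z => (u z : ℂ)) y = Complex.ofRealCLM.comp (fderiv ℝ u y) := h.fderiv
    rw [h']
    rfl
  have e1 : ∀ w : ℂ, HasFDerivAt (fun y => ((fderiv ℝ u y w : ℝ) : ℂ))
      (Complex.ofRealCLM.comp ((fderiv ℝ (fderiv ℝ u) z).flip w)) z := by
    intro w
    have h := hd2.hasFDerivAt.clm_apply (hasFDerivAt_const w z)
    have h2 : HasFDerivAt (fun y => fderiv ℝ u y w) ((fderiv ℝ (fderiv ℝ u) z).flip w) z := by
      refine h.congr_fderiv ?_
      ext v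
      simp
    exact Complex.ofRealCLM.hasFDerivAt.comp z h2
  have e2 : HasFDerivAt (pu u) ((2 : ℂ)⁻¹ •
      (Complex.ofRealCLM.comp ((fderiv ℝ (fderiv ℝ u) z).flip 1)
        - I • Complex.ofRealCLM.comp ((fderiv ℝ (fderiv ℝ u) z).flip I))) z := by
    have h3 := ((e1 1).sub ((e1 I).const_smul I)).const_smul ((2 : ℂ)⁻¹)
    refine h3.congr_of_eventuallyEq ?_
    filter_upwards [hev] with y hy
    simp only [pu, dz, hy, Pi.smul_apply, Pi.sub_apply, smul_eq_mul]
    ring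
  have hs : fderiv ℝ (fderiv ℝ u) z 1 I = fderiv ℝ (fderiv ℝ u) z I 1 :=
    ((hcd.of_le (m := 2) (by norm_cast)).isSymmSndFDerivAt (by simp)).eq 1 I
  have hL' := hL z hz
  have hLc : ((fderiv ℝ (fderiv ℝ u) z 1 1 : ℝ) : ℂ) + ((fderiv ℝ (fderiv ℝ u) z I I : ℝ) : ℂ)
      = 4 * (Real.exp (u z) : ℂ) := by exact_mod_cast congrArg (fun x : ℝ => (x : ℂ)) hL'
  unfold db
  rw [e2.fderiv]
  simp only [smul_apply, sub_apply, ContinuousLinearMap.comp_apply, ContinuousLinearMap.flip_apply,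
    smul_eq_mul, Complex.ofRealCLM_apply, hs]
  linear_combination (1 / 4) * hLc - (1 / 4) * ((fderiv ℝ (fderiv ℝ u) z I I : ℝ) : ℂ) * I_mul_I

/-- `V = e^{-u/2}` -/
def V (u : ℂ → ℝ) (z : ℂ) : ℂ := Complex.exp (-(1 / 2) * (u z : ℂ))

theorem V_eq (z : ℂ) : V u z = (Real.exp (-(u z) / 2) : ℂ) := by
  unfold V
  rw [Complex.ofReal_exp]
  congr 1
  push_cast
  ring

theorem V_ne (z : ℂ) : V u z ≠ 0 := Complex.exp_ne_zero _

theorem V_sq (z : ℂ) : V u z * V u z * (Real.exp (u z) : ℂ) = 1 := by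
  unfold V
  rw [Complex.ofReal_exp, ← Complex.exp_add, ← Complex.exp_add]
  have : -(1 / 2) * (u z : ℂ) + -(1 / 2) * (u z : ℂ) + (u z : ℂ) = 0 := by ring
  rw [this, Complex.exp_zero]

theorem conj_V (z : ℂ) : conj (V u z) = V u z := by
  rw [V_eq, Complex.conj_ofReal]

theorem hw_V (hΩ : IsOpen Ω) (hu : ContDiffOn ℝ ∞ u Ω) {z : ℂ} (hz : z ∈ Ω) :
    HW (V u) (-(1 / 2) * pu u z * V u z) (-(1 / 2) * conj (pu u z) * V u z) z :=
  ((hw_uc hΩ hu hz).const_mul (-(1 / 2))).cexp.congr (by unfold V; ring) (by unfold V; ring)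

/-- `∂V/∂z` -/
def Vd (u : ℂ → ℝ) (z : ℂ) : ℂ := -(1 / 2) * pu u z * V u z

/-- the potential -/
def Q (u : ℂ → ℝ) (z : ℂ) : ℂ := (1 / 4) * (pu u z * pu u z) - (1 / 2) * dz (pu u) z

variable (hΩ : IsOpen Ω) (hu : ContDiffOn ℝ ∞ u Ω)
  (hL : ∀ z ∈ Ω, fderiv ℝ (fderiv ℝ u) z 1 1 + fderiv ℝ (fderiv ℝ u) z I I
      = 4 * Real.exp (u z))

include hΩ hu hL

theorem hw_pu {z : ℂ} (hz : z ∈ Ω) :
    HW (pu u) (dz (pu u) z) (Real.exp (u z) : ℂ) z :=
  (HW.of_diff ((contDiffAt_pu hΩ hu hz).differentiableAt (by simp))).congr rfl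
    (db_pu hΩ hu hL hz)

theorem hw_Vd {z : ℂ} (hz : z ∈ Ω) :
    HW (Vd u) (Q u z * V u z)
      (-(1 / 2) * (Real.exp (u z) : ℂ) * V u z
        + (1 / 4) * pu u z * conj (pu u z) * V u z) z :=
  (((hw_pu hΩ hu hL hz).const_mul (-(1 / 2))).mul (hw_V hΩ hu hz)).congr
    (by unfold Q; ring) (by ring)

theorem hol_Q {z : ℂ} (hz : z ∈ Ω) : DifferentiableAt ℂ (Q u) z := by
  have h1 := hw_pu hΩ hu hL hz
  have hcd := contDiffAt_pu hΩ hu hz
  have h2 : DifferentiableAt ℝ (dz (pu u)) z := (contDiffAt_dz hcd).differentiableAt (by simp)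
  have h3 := HW.of_diff h2
  have h4 : db (dz (pu u)) z = pu u z * (Real.exp (u z) : ℂ) := by
    rw [db_dz (hcd.of_le (m := 2) (by norm_cast))]
    have h5 : HW (fun z => Complex.exp (u z : ℂ)) (Complex.exp (u z : ℂ) * pu u z)
        (Complex.exp (u z : ℂ) * conj (pu u z)) z := (hw_uc hΩ hu hz).cexp
    have h6 : db (pu u) =ᶠ[𝓝 z] fun z => Complex.exp (u z : ℂ) := by
      filter_upwards [hΩ.mem_nhds hz] with y hy
      rw [db_pu hΩ hu hL hy, Complex.ofReal_exp]
    have h7 : HW (db (pu u)) _ _ z := HasFDerivAt.congr_of_eventuallyEq h5 h6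
    rw [h7.dz, Complex.ofReal_exp]
    ring
  have h8 : HW (Q u) ((1 / 4) * (dz (pu u) z * pu u z + pu u z * dz (pu u) z)
      - (1 / 2) * dz (dz (pu u)) z) 0 z :=
    (((h1.mul h1).const_mul (1 / 4)).sub (h3.const_mul (1 / 2))).congr rfl
      (by rw [h4]; ring)
  exact h8.hasDerivAt.differentiableAt

/-- **Liouville**: a metric of constant negative curvature has a local developing map -/
theorem liouville_local' {z0 : ℂ} (hz0 : z0 ∈ Ω) :
    ∃ r > 0, ball z0 r ⊆ Ω ∧ ∃ f : ℂ → ℂ, DifferentiableOn ℂ f (ball z0 r) ∧ f z0 = 0 ∧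
      ∀ z ∈ ball z0 r, ‖f z‖ < 1 ∧ deriv f z ≠ 0 ∧
        2 * ‖deriv f z‖ ^ 2 / (1 - ‖f z‖ ^ 2) ^ 2 = Real.exp (u z) := by
  obtain ⟨R, hR, hRΩ⟩ := Metric.isOpen_iff.mp hΩ z0 hz0
  set s0 : ℝ := Real.sqrt (Real.exp (-(u z0) / 2)) with hs0
  have hs0p : 0 < s0 := Real.sqrt_pos.mpr (Real.exp_pos _)
  have hs0V : (s0 : ℂ) * s0 = V u z0 := by
    rw [V_eq, ← Complex.ofReal_mul, hs0, Real.mul_self_sqrt (Real.exp_pos _).le]
  have hs0c : (s0 : ℂ) ≠ 0 := by exact_mod_cast hs0p.ne'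
  obtain ⟨r, hr, hrR, y, y', hy, hy', hy0, hy'0⟩ := Crest.Agent.R272.Unif_903.ode hR
    (Q := Q u) (fun z hz => (hol_Q hΩ hu hL (hRΩ hz)).differentiableWithinAt)
    (s0 : ℂ) (Vd u z0 / s0)
  have hrΩ : ball z0 r ⊆ Ω := (ball_subset_ball hrR).trans hRΩ
  -- the antiholomorphic function `a`
  set a : ℂ → ℂ := fun z => V u z * y' z - Vd u z * y z with ha
  have hwa : ∀ z ∈ ball z0 r, HW a 0 (-(1 / 2) * conj (pu u z) * V u z * y' z
      - (-(1 / 2) * (Real.exp (u z) : ℂ) * V u z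
        + (1 / 4) * pu u z * conj (pu u z) * V u z) * y z) z := by
    intro z hz
    refine (((hw_V hΩ hu (hrΩ hz)).mul (HW.of_hasDerivAt (hy' z hz))).sub
      ((hw_Vd hΩ hu hL (hrΩ hz)).mul (HW.of_hasDerivAt (hy z hz)))).congr ?_ ?_
    · unfold Vd
      ring
    · ring
  set b : ℂ → ℂ := fun z => conj (a z) with hb
  -- simplified derivative of `b`
  have hVconj : ∀ z, V u z * conj (y' z) = conj (a z) - (1 / 2) * conj (pu u z) * V u z * conj (y z) := by
    intro z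
    simp only [ha, Vd, map_sub, map_mul, conj_V, map_neg, map_div₀, map_one, map_ofNat]
    ring
  have hwb : ∀ z ∈ ball z0 r, HW b (-(1 / 2) * pu u z * b z + (1 / 2) * (V u z)⁻¹ * conj (y z)) 0 z := by
    intro z hz
    refine (hwa z hz).conj.congr ?_ (map_zero _)
    have hVs := V_sq (u := u) z
    have hVn := V_ne (u := u) z
    have hE : (Real.exp (u z) : ℂ) * V u z = (V u z)⁻¹ := by
      field_simp
      linear_combination hVs
    simp only [map_sub, map_add, map_mul, map_neg, map_div₀, map_one, map_ofNat, conj_V,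
      Complex.conj_conj, Complex.conj_ofReal, hb]
    have h1 := hVconj z
    linear_combination (-(1 / 2) * pu u z) * h1 + (1 / 2) * conj (y z) * hE
  have hbconj : ∀ z, HW b (conj (-(1 / 2) * conj (pu u z) * V u z * y' z
      - (-(1 / 2) * (Real.exp (u z) : ℂ) * V u z
        + (1 / 4) * pu u z * conj (pu u z) * V u z) * y z)) (conj 0) z ∨ z ∉ ball z0 r := by
    intro z
    by_cases hz : z ∈ ball z0 r
    · exact Or.inl (hwa z hz).conj
    · exact Or.inr hz
  clear_value a b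
  have hy'eq : ∀ z, V u z * y' z = a z - (1 / 2) * pu u z * V u z * y z := by
    intro z
    simp only [ha, Vd]
    ring
  -- `N = |y|² - 2 |a|²`
  set N : ℂ → ℂ := fun z => y z * conj (y z) - 2 * (a z * b z) with hN
  set W : ℂ → ℂ := fun z => Complex.exp ((1 / 2) * (u z : ℂ)) with hW
  have hWV : ∀ z, W z * V u z = 1 := by
    intro z
    simp only [hW, V]
    rw [← Complex.exp_add]
    have : (1 / 2) * (u z : ℂ) + -(1 / 2) * (u z : ℂ) = 0 := by ring
    rw [this, Complex.exp_zero]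
  have hwW : ∀ z ∈ ball z0 r, HW W ((1 / 2) * pu u z * W z) ((1 / 2) * conj (pu u z) * W z) z :=
    fun z hz => ((hw_uc hΩ hu (hrΩ hz)).const_mul (1 / 2)).cexp.congr (by ring) (by ring)
  have hwN : ∀ z ∈ ball z0 r, HW N (-(1 / 2) * pu u z * N z) (-(1 / 2) * conj (pu u z) * N z) z := by
    intro z hz
    have hVn := V_ne (u := u) z
    have h1 := HW.of_hasDerivAt (hy z hz)
    have h2 := h1.conj
    have ha' := hwa z hz
    have hb' := hwb z hz
    have hNw := (h1.mul h2).sub ((ha'.mul hb').const_mul 2)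
    have hbb := (hbconj z).resolve_right (fun h => h hz)
    have e1 := (hb'.unique hbb).1
    have e2 : -(1 / 2) * conj (pu u z) * V u z * y' z
      - (-(1 / 2) * (Real.exp (u z) : ℂ) * V u z
        + (1 / 4) * pu u z * conj (pu u z) * V u z) * y z
        = -(1 / 2) * conj (pu u z) * a z + (1 / 2) * (V u z)⁻¹ * y z := by
      have := congrArg conj e1
      rw [Complex.conj_conj] at this
      rw [← this]
      simp only [hb, map_add, map_mul, map_neg, map_div₀, map_one, map_ofNat, map_inv₀, conj_V,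
        Complex.conj_conj]
    have h3 := hy'eq z
    have h4 := congrArg conj h3
    simp only [map_sub, map_mul, map_div₀, map_one, map_ofNat, conj_V] at h4
    rw [show conj (a z) = b z by rw [hb]] at h4
    have h3' : y' z = (a z - (1 / 2) * pu u z * V u z * y z) * (V u z)⁻¹ := by
      rw [eq_mul_inv_iff_mul_eq₀ hVn, mul_comm]
      exact h3
    have h4' : conj (y' z) = (b z - (1 / 2) * conj (pu u z) * V u z * conj (y z)) * (V u z)⁻¹ := by
      rw [eq_mul_inv_iff_mul_eq₀ hVn, mul_comm]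
      exact h4
    refine hNw.congr ?_ ?_
    · rw [h3']
      simp only [hN, map_zero]
      field_simp
      ring
    · rw [e2, h4']
      simp only [hN]
      field_simp
      ring
  have hwK : ∀ z ∈ ball z0 r, HW (fun z => N z * W z) 0 0 z := fun z hz =>
    ((hwN z hz).mul (hwW z hz)).congr (by ring) (by ring)
  have ha0 : a z0 = 0 := by
    simp only [ha, hy0, hy'0, ← hs0V]
    field_simp
    ring
  have hb0 : b z0 = 0 := by simp only [hb, ha0, map_zero]
  have hK : ∀ z ∈ ball z0 r, N z * W z = 1 := by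
    intro z hz
    have h1 := (convex_ball z0 r).is_const_of_fderivWithin_eq_zero (𝕜 := ℝ)
      (f := fun z => N z * W z) (fun x hx => (hwK x hx).differentiableAt.differentiableWithinAt)
      (fun x hx => by
        rw [fderivWithin_of_isOpen isOpen_ball hx]
        have h2 : fderiv ℝ (fun z => N z * W z) x = L 0 0 := HasFDerivAt.fderiv (hwK x hx)
        rw [h2]
        ext v
        simp) hz (mem_ball_self hr)
    have h3 : N z0 * W z0 = 1 := by
      simp only [hN, ha0, hy0, Complex.conj_ofReal]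
      rw [hs0V, zero_mul, mul_zero, sub_zero, mul_comm]
      exact hWV z0
    exact h1.trans h3
  have hNV : ∀ z ∈ ball z0 r, N z = V u z := by
    intro z hz
    have h1 := hK z hz
    have h2 := hWV z
    have h3 : W z ≠ 0 := Complex.exp_ne_zero _
    apply mul_right_cancel₀ h3
    rw [h1, mul_comm, h2]
  -- real form
  have hnorm : ∀ z ∈ ball z0 r, ‖y z‖ ^ 2 - 2 * ‖b z‖ ^ 2 = Real.exp (-(u z) / 2) := by
    intro z hz
    have h1 := hNV z hz
    rw [V_eq] at h1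
    simp only [hN] at h1
    have h2 : a z * b z = ((‖b z‖ ^ 2 : ℝ) : ℂ) := by
      have : a z = conj (b z) := by simp [hb]
      rw [this, mul_comm, Complex.mul_conj, Complex.normSq_eq_norm_sq]
    rw [h2, Complex.mul_conj, Complex.normSq_eq_norm_sq] at h1
    exact_mod_cast h1
  have hypos : ∀ z ∈ ball z0 r, 0 < ‖y z‖ ^ 2 := by
    intro z hz
    have := hnorm z hz
    have h2 := Real.exp_pos (-(u z) / 2)
    nlinarith [sq_nonneg ‖b z‖]
  have hyne : ∀ z ∈ ball z0 r, y z ≠ 0 := by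
    intro z hz h0
    have := hypos z hz
    rw [h0, norm_zero] at this
    norm_num at this
  set f : ℂ → ℂ := fun z => (Real.sqrt 2 : ℂ) * b z / y z with hf
  have hfd : ∀ z ∈ ball z0 r, HasDerivAt f ((Real.sqrt 2 : ℂ) / 2 / y z ^ 2) z := by
    intro z hz
    have h1 := (((hwb z hz).hasDerivAt).const_mul (Real.sqrt 2 : ℂ)).div (hy z hz) (hyne z hz)
    refine h1.congr_deriv ?_
    have hVn := V_ne (u := u) z
    have hyn := hyne z hz
    have h3' : y' z = (a z - (1 / 2) * pu u z * V u z * y z) * (V u z)⁻¹ := by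
      have h3 := hy'eq z
      rw [eq_mul_inv_iff_mul_eq₀ hVn, mul_comm]
      exact h3
    have h5 := hNV z hz
    simp only [hN] at h5
    rw [h3']
    field_simp
    linear_combination h5
  refine ⟨r, hr, hrΩ, f, fun z hz => (hfd z hz).differentiableAt.differentiableWithinAt, ?_, ?_⟩
  · simp only [hf, hb0, mul_zero, zero_div]
  · intro z hz
    have h1 := hnorm z hz
    have h2 := Real.exp_pos (-(u z) / 2)
    have h3 := hypos z hz
    have hs2 : ‖(Real.sqrt 2 : ℂ)‖ ^ 2 = 2 := by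
      rw [Complex.norm_real, Real.norm_eq_abs, sq_abs, Real.sq_sqrt (by norm_num)]
    have hf2 : ‖f z‖ ^ 2 = 2 * ‖b z‖ ^ 2 / ‖y z‖ ^ 2 := by
      simp only [hf, norm_div, norm_mul, div_pow, mul_pow, hs2]
    have hfe : 1 - ‖f z‖ ^ 2 = Real.exp (-(u z) / 2) / ‖y z‖ ^ 2 := by
      have hn : ‖y z‖ ^ 2 ≠ 0 := h3.ne'
      rw [hf2, ← h1, sub_div, div_self hn]
    have hdf : deriv f z = (Real.sqrt 2 : ℂ) / 2 / y z ^ 2 := (hfd z hz).deriv
    have hdf2 : ‖deriv f z‖ ^ 2 = 1 / 2 / (‖y z‖ ^ 2) ^ 2 := by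
      rw [hdf]
      simp only [norm_div, div_pow, hs2, norm_pow]
      norm_num
    refine ⟨?_, ?_, ?_⟩
    · have h4 : 0 < 1 - ‖f z‖ ^ 2 := by
        rw [hfe]
        positivity
      nlinarith [norm_nonneg (f z)]
    · rw [hdf]
      have : (Real.sqrt 2 : ℂ) ≠ 0 := by
        have := Real.sqrt_pos.mpr (show (0 : ℝ) < 2 by norm_num)
        exact_mod_cast this.ne'
      exact div_ne_zero (div_ne_zero this two_ne_zero) (pow_ne_zero _ (hyne z hz))
    · rw [hdf2, hfe]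
      have h5 : Real.exp (u z) * Real.exp (-(u z) / 2) ^ 2 = 1 := by
        rw [← Real.exp_nat_mul, ← Real.exp_add]
        have : u z + ((2 : ℕ) : ℝ) * (-(u z) / 2) = 0 := by push_cast; ring
        rw [this, Real.exp_zero]
      have hn : ‖y z‖ ^ 2 ≠ 0 := h3.ne'
      have he : Real.exp (-(u z) / 2) ^ 2 ≠ 0 := by positivity
      rw [div_pow, div_div_eq_mul_div, eq_comm, eq_div_iff he, h5]
      generalize ‖y z‖ ^ 2 = t at hn
      field_simp

/-- **Liouville**, in the form of helper903 -/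
theorem liouville_local {z0 : ℂ} (hz0 : z0 ∈ Ω) :
    ∃ r > 0, ball z0 r ⊆ Ω ∧ ∃ f : ℂ → ℂ, DifferentiableOn ℂ f (ball z0 r) ∧ f z0 = 0 ∧
      ∀ z ∈ ball z0 r, ‖f z‖ < 1 ∧
        2 * ‖deriv f z‖ ^ 2 / (1 - ‖f z‖ ^ 2) ^ 2 = Real.exp (u z) := by
  obtain ⟨r, hr, h1, f, h2, h3, h4⟩ := liouville_local' hΩ hu hL hz0
  exact ⟨r, hr, h1, f, h2, h3, fun z hz => ⟨(h4 z hz).1, (h4 z hz).2.2⟩⟩

end Main

end Crest.Agent.R272.UnLiou_311
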