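import Crest.Agent.R272.Unif2_903

/-!
# R272, UNIF (helper903), file 3: hyperbolic surfaces, rigidity, uniform radius
-/

set_option autoImplicit false

open Set Filter Topology Complex Metric

open scoped ComplexConjugate

namespace Crest.Agent.R272.Unif_903

/-- pseudo-hyperbolic ball -/
def Bh (a : ℂ) (ε : ℝ) : Set ℂ := {z | ‖z‖ < 1 ∧ ‖mob a z‖ < ε}

theorem mem_Bh_iff {a : ℂ} (ha : ‖a‖ < 1) {ε : ℝ} (h0 : 0 < ε) (h1 : ε < 1) (z : ℂ) :
    z ∈ Bh a ε ↔ ‖z - a‖ ^ 2 < ε ^ 2 * ‖1 - conj a * z‖ ^ 2 := by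
  constructor
  · rintro ⟨hz, hm⟩
    have hd := norm_pos_iff.mpr (den_ne ha hz)
    rw [mob, norm_div, div_lt_iff₀ hd] at hm
    rw [← mul_pow]
    exact pow_lt_pow_left₀ hm (norm_nonneg _) two_ne_zero
  · intro h
    have hk := mob_key a z
    have h2 : 0 < (1 - ‖a‖ ^ 2) * (1 - ‖z‖ ^ 2) := by
      have : ε ^ 2 ≤ 1 := by nlinarith
      nlinarith [sq_nonneg ‖1 - conj a * z‖]
    have h3 : 0 < 1 - ‖z‖ ^ 2 := (mul_pos_iff_of_pos_left (one_sub_sq_pos ha)).mp h2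
    have hz : ‖z‖ < 1 := by nlinarith [norm_nonneg z]
    refine ⟨hz, ?_⟩
    have hd := norm_pos_iff.mpr (den_ne ha hz)
    rw [mob, norm_div, div_lt_iff₀ hd]
    rw [← mul_pow] at h
    exact lt_of_pow_lt_pow_left₀ 2 (by positivity) h

theorem Bh_eq {a : ℂ} (ha : ‖a‖ < 1) {ε : ℝ} (h0 : 0 < ε) (h1 : ε < 1) :
    ∃ (c : ℂ) (r : ℝ), Bh a ε = ball c r := by
  have hA : 0 < 1 - ε ^ 2 * ‖a‖ ^ 2 := by
    have h2 : ε ^ 2 < 1 := by nlinarith
    have h3 := one_sub_sq_pos ha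
    nlinarith [sq_nonneg ‖a‖]
  refine ⟨(((1 - ε ^ 2) / (1 - ε ^ 2 * ‖a‖ ^ 2) : ℝ) : ℂ) * a,
    ε * (1 - ‖a‖ ^ 2) / (1 - ε ^ 2 * ‖a‖ ^ 2), ?_⟩
  ext z
  rw [mem_Bh_iff ha h0 h1, mem_ball, dist_eq_norm]
  have hr : 0 < ε * (1 - ‖a‖ ^ 2) / (1 - ε ^ 2 * ‖a‖ ^ 2) := by
    have := one_sub_sq_pos ha
    positivity
  rw [← sq_lt_sq₀ (norm_nonneg _) hr.le]
  set κ := (1 - ε ^ 2) / (1 - ε ^ 2 * ‖a‖ ^ 2) with hκ
  have hκ' : κ * (1 - ε ^ 2 * ‖a‖ ^ 2) = 1 - ε ^ 2 := div_mul_cancel₀ _ hA.ne'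
  have key : (‖z - (κ : ℂ) * a‖ ^ 2 - (ε * (1 - ‖a‖ ^ 2) / (1 - ε ^ 2 * ‖a‖ ^ 2)) ^ 2) *
      (1 - ε ^ 2 * ‖a‖ ^ 2) = ‖z - a‖ ^ 2 - ε ^ 2 * ‖1 - conj a * z‖ ^ 2 := by
    have e1 : (ε * (1 - ‖a‖ ^ 2) / (1 - ε ^ 2 * ‖a‖ ^ 2)) ^ 2 * (1 - ε ^ 2 * ‖a‖ ^ 2)
        = ε ^ 2 * (1 - ‖a‖ ^ 2) ^ 2 / (1 - ε ^ 2 * ‖a‖ ^ 2) := by
      field_simp
    have e2 : ε ^ 2 * (1 - ‖a‖ ^ 2) ^ 2 / (1 - ε ^ 2 * ‖a‖ ^ 2)
        = κ * (1 - ε ^ 2) * ‖a‖ ^ 2 - (‖a‖ ^ 2 - ε ^ 2) := by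
      rw [div_eq_iff hA.ne']
      have : κ * (1 - ε ^ 2) * ‖a‖ ^ 2 * (1 - ε ^ 2 * ‖a‖ ^ 2)
        = (κ * (1 - ε ^ 2 * ‖a‖ ^ 2)) * (1 - ε ^ 2) * ‖a‖ ^ 2 := by ring
      rw [sub_mul, this, hκ']
      ring
    rw [sub_mul, e1, e2]
    have e3 : ‖z - (κ : ℂ) * a‖ ^ 2 = ‖z‖ ^ 2 - 2 * κ * (z.re * a.re + z.im * a.im)
        + κ ^ 2 * ‖a‖ ^ 2 := by
      simp only [← Complex.normSq_eq_norm_sq, Complex.normSq_apply]
      simp
      ring
    have e4 : ‖z - a‖ ^ 2 = ‖z‖ ^ 2 - 2 * (z.re * a.re + z.im * a.im) + ‖a‖ ^ 2 := by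
      simp only [← Complex.normSq_eq_norm_sq, Complex.normSq_apply]
      simp
      ring
    have e5 : ‖1 - conj a * z‖ ^ 2 = 1 - 2 * (z.re * a.re + z.im * a.im) + ‖a‖ ^ 2 * ‖z‖ ^ 2 := by
      simp only [← Complex.normSq_eq_norm_sq, Complex.normSq_apply]
      simp
      ring
    rw [e3, e4, e5]
    linear_combination (-2 * (z.re * a.re + z.im * a.im) + κ * ‖a‖ ^ 2) * hκ'
  constructor
  · intro h
    have : (‖z - (κ : ℂ) * a‖ ^ 2 - (ε * (1 - ‖a‖ ^ 2) / (1 - ε ^ 2 * ‖a‖ ^ 2)) ^ 2) *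
      (1 - ε ^ 2 * ‖a‖ ^ 2) < 0 := by rw [key]; linarith
    nlinarith
  · intro h
    have h2 : (‖z - (κ : ℂ) * a‖ ^ 2 - (ε * (1 - ‖a‖ ^ 2) / (1 - ε ^ 2 * ‖a‖ ^ 2)) ^ 2) *
      (1 - ε ^ 2 * ‖a‖ ^ 2) < 0 := mul_neg_of_neg_of_pos (by linarith) hA
    rw [key] at h2
    linarith

theorem isOpen_Bh {a : ℂ} (ha : ‖a‖ < 1) {ε : ℝ} (h0 : 0 < ε) (h1 : ε < 1) : IsOpen (Bh a ε) := by
  obtain ⟨c, r, h⟩ := Bh_eq ha h0 h1
  rw [h]; exact isOpen_ball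

theorem convex_Bh {a : ℂ} (ha : ‖a‖ < 1) {ε : ℝ} (h0 : 0 < ε) (h1 : ε < 1) :
    Convex ℝ (Bh a ε) := by
  obtain ⟨c, r, h⟩ := Bh_eq ha h0 h1
  rw [h]; exact convex_ball c r

theorem self_mem_Bh {a : ℂ} (ha : ‖a‖ < 1) {ε : ℝ} (h0 : 0 < ε) : a ∈ Bh a ε :=
  ⟨ha, by rwa [mob_self, norm_zero]⟩

/-- a hyperbolic structure: charts in the disc with isometric holomorphic transitions -/
structure PH (M : Type*) [TopologicalSpace M] where
  ι : Type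
  ch : ι → OpenPartialHomeomorph M ℂ
  cov : ∀ x, ∃ j, x ∈ (ch j).source
  tgt : ∀ j, (ch j).target ⊆ ball 0 1
  iso : ∀ i j, ∀ z ∈ (ch i).target, (ch i).symm z ∈ (ch j).source → Iso (ch j ∘ (ch i).symm) z

variable {M : Type*} [TopologicalSpace M]

/-- `p` is an infinitesimal isometry at `w` -/
def IsoM (X : PH M) (p : ℂ → M) (w : ℂ) : Prop :=
  ContinuousAt p w ∧ ∀ j, p w ∈ (X.ch j).source → Iso (X.ch j ∘ p) w

theorem IsoM.congr {X : PH M} {p q : ℂ → M} {w : ℂ} (h : IsoM X p w) (he : p =ᶠ[𝓝 w] q) :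
    IsoM X q w := by
  refine ⟨h.1.congr he, fun j hj => ?_⟩
  rw [← he.eq_of_nhds] at hj
  exact (h.2 j hj).congr (he.fun_comp _)

theorem IsoM.comp {X : PH M} {p : ℂ → M} {A : ℂ → ℂ} {w : ℂ} (h : IsoM X p (A w))
    (hA : Iso A w) : IsoM X (p ∘ A) w :=
  ⟨h.1.comp hA.1.continuousAt, fun j hj => Iso.comp (g := X.ch j ∘ p) (h.2 j hj) hA⟩

theorem IsoM.of_chart {X : PH M} {p : ℂ → M} {w : ℂ} (hp : ContinuousAt p w) {i : X.ι}
    (hi : p w ∈ (X.ch i).source) (h : Iso (X.ch i ∘ p) w) : IsoM X p w := by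
  refine ⟨hp, fun j hj => ?_⟩
  have h1 : Iso (X.ch j ∘ (X.ch i).symm) (X.ch i (p w)) :=
    X.iso i j _ ((X.ch i).map_source hi) (by rwa [(X.ch i).left_inv hi])
  refine (Iso.comp (g := X.ch j ∘ (X.ch i).symm) (h := X.ch i ∘ p) h1 h).congr ?_
  have h2 : ∀ᶠ z in 𝓝 w, p z ∈ (X.ch i).source :=
    hp.eventually ((X.ch i).open_source.mem_nhds hi)
  filter_upwards [h2] with z hz
  simp only [Function.comp_apply]
  rw [(X.ch i).left_inv hz]

/-- charts compatible with the hyperbolic structure -/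
structure Good (X : PH M) (f : OpenPartialHomeomorph M ℂ) : Prop where
  tgt : f.target ⊆ ball 0 1
  symm : ∀ z ∈ f.target, IsoM X f.symm z
  iso : ∀ (p : ℂ → M) (w : ℂ), IsoM X p w → p w ∈ f.source → Iso (f ∘ p) w

/-- the Moebius map as a partial homeomorphism -/
noncomputable def mobH (a : ℂ) (ha : ‖a‖ < 1) : OpenPartialHomeomorph ℂ ℂ where
  toFun := mob a
  invFun := mob (-a)
  source := ball 0 1
  target := ball 0 1
  map_source' z hz := by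
    rw [mem_ball_zero_iff] at hz ⊢
    exact norm_mob_lt ha hz
  map_target' z hz := by
    rw [mem_ball_zero_iff] at hz ⊢
    exact norm_mob_lt (by rwa [norm_neg]) hz
  left_inv' z hz := mob_mob ha (by simpa using hz)
  right_inv' z hz := mob_mob' ha (by simpa using hz)
  open_source := isOpen_ball
  open_target := isOpen_ball
  continuousOn_toFun := fun z hz =>
    (continuousAt_mob ha (by simpa using hz)).continuousWithinAt
  continuousOn_invFun := fun z hz =>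
    (continuousAt_mob (by rwa [norm_neg]) (by simpa using hz)).continuousWithinAt

/-- centred chart with target a ball -/
theorem exists_centred (X : PH M) {m : M} {j : X.ι} (hm : m ∈ (X.ch j).source) {ε : ℝ}
    (h0 : 0 < ε) (h1 : ε ≤ 1) (hball : ∀ z, ‖z‖ < ε → mob (-(X.ch j m)) z ∈ (X.ch j).target) :
    ∃ f : OpenPartialHomeomorph M ℂ, Good X f ∧ m ∈ f.source ∧ f m = 0 ∧ f.target = ball 0 ε := by
  have hc : ‖X.ch j m‖ < 1 := by
    simpa using X.tgt j ((X.ch j).map_source hm)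
  have hc' : ‖-(X.ch j m)‖ < 1 := by rwa [norm_neg]
  set c := X.ch j m with hcdef
  let f : OpenPartialHomeomorph M ℂ :=
    ((X.ch j).trans (mobH c hc)).trans (OpenPartialHomeomorph.ofSet (ball 0 ε) isOpen_ball)
  have hfx : ∀ x, f x = mob c (X.ch j x) := fun x => rfl
  have hfs : ∀ z, f.symm z = (X.ch j).symm (mob (-c) z) := fun z => rfl
  have htgt : f.target = ball 0 ε := by
    ext z
    simp only [f, OpenPartialHomeomorph.trans_target, OpenPartialHomeomorph.ofSet_target,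
      mem_inter_iff, mem_preimage, OpenPartialHomeomorph.ofSet_symm,
      OpenPartialHomeomorph.ofSet_apply, id]
    constructor
    · exact fun h => h.1
    · intro h
      have hz : ‖z‖ < ε := by simpa using h
      refine ⟨h, ?_, hball z hz⟩
      show z ∈ ball (0:ℂ) 1
      simpa using hz.trans_le h1
  have hsrc : ∀ x, x ∈ f.source ↔ x ∈ (X.ch j).source ∧ ‖mob c (X.ch j x)‖ < ε := by
    intro x
    simp only [f, OpenPartialHomeomorph.trans_source, OpenPartialHomeomorph.ofSet_source,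
      mem_inter_iff, mem_preimage]
    constructor
    · rintro ⟨⟨h2, h3⟩, h4⟩
      exact ⟨h2, mem_ball_zero_iff.mp h4⟩
    · rintro ⟨h2, h3⟩
      exact ⟨⟨h2, X.tgt j ((X.ch j).map_source h2)⟩, by
        show mob c (X.ch j x) ∈ ball (0:ℂ) ε
        simpa using h3⟩
  refine ⟨f, ⟨?_, ?_, ?_⟩, ?_, ?_, htgt⟩
  · rw [htgt]; exact ball_subset_ball h1
  · intro z hz
    rw [htgt] at hz
    have hz' : ‖z‖ < ε := by simpa using hz
    have hz1 : ‖z‖ < 1 := hz'.trans_le h1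
    have ht : mob (-c) z ∈ (X.ch j).target := hball z hz'
    have h2 : IsoM X (X.ch j).symm (mob (-c) z) := by
      refine ⟨(X.ch j).symm.continuousAt ht, fun k hk => X.iso j k _ ht hk⟩
    exact h2.comp (iso_mob hc' hz1)
  · intro p w hp hpw
    have h2 := (hsrc _).mp hpw
    have h3 := hp.2 j h2.1
    have h4 : ‖(X.ch j) (p w)‖ < 1 := by simpa using X.tgt j ((X.ch j).map_source h2.1)
    exact Iso.comp (g := mob c) (h := X.ch j ∘ p) (iso_mob hc h4) h3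
  · rw [hsrc]
    refine ⟨hm, ?_⟩
    rw [mob_self, norm_zero]; exact h0
  · rw [hfx, mob_self]

theorem norm_mob_sub_le {c z : ℂ} (hc : ‖c‖ < 1) (hz : ‖z‖ < 1) :
    ‖mob (-c) z - c‖ ≤ 2 * ‖z‖ := by
  have hc' : ‖-c‖ < 1 := by rwa [norm_neg]
  have hd := den_ne hc' hz
  have h1 : mob (-c) z - c = z * ((1 - ‖c‖ ^ 2 : ℝ) : ℂ) / (1 - conj (-c) * z) := by
    have h3 : (((1 - ‖c‖ ^ 2 : ℝ)) : ℂ) = 1 - c * conj c := by
      rw [Complex.mul_conj, Complex.normSq_eq_norm_sq]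
      push_cast
      ring
    rw [h3, mob, eq_div_iff hd, sub_mul, div_mul_cancel₀ _ hd, map_neg]
    ring
  rw [h1, norm_div, norm_mul, Complex.norm_real, Real.norm_of_nonneg (one_sub_sq_pos hc).le]
  have h4 : 1 - ‖c‖ ≤ ‖1 - conj (-c) * z‖ := by
    have h5 := norm_sub_norm_le (1:ℂ) (conj (-c) * z)
    rw [norm_one, norm_mul, norm_conj, norm_neg] at h5
    nlinarith [norm_nonneg c, norm_nonneg z]
  rw [div_le_iff₀ (norm_pos_iff.mpr hd)]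
  have h6 : 0 < 1 - ‖c‖ := by linarith
  have h7 : ‖z‖ * (1 - ‖c‖ ^ 2) = ‖z‖ * (1 + ‖c‖) * (1 - ‖c‖) := by ring
  rw [h7]
  have h8 : ‖z‖ * (1 + ‖c‖) ≤ 2 * ‖z‖ := by nlinarith [norm_nonneg z, norm_nonneg c]
  exact mul_le_mul h8 h4 h6.le (by positivity)

/-- uniform radius of the exponential maps -/
theorem exists_unif [CompactSpace M] (X : PH M) : ∃ ε : ℝ, 0 < ε ∧ ε < 1 ∧ ∀ m : M,
    ∃ f : OpenPartialHomeomorph M ℂ, Good X f ∧ m ∈ f.source ∧ f m = 0 ∧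
      f.target = ball 0 ε := by
  choose j hj using X.cov
  have hδ : ∀ x, ∃ δ > 0, ball (X.ch (j x) x) δ ⊆ (X.ch (j x)).target := fun x =>
    Metric.isOpen_iff.mp (X.ch (j x)).open_target _ ((X.ch (j x)).map_source (hj x))
  choose δ hδ0 hδ using hδ
  let V : M → Set M := fun x =>
    (X.ch (j x)).source ∩ (X.ch (j x)) ⁻¹' ball (X.ch (j x) x) (δ x / 2)
  have hV : ∀ x, V x ∈ 𝓝 x := fun x =>
    ((X.ch (j x)).isOpen_inter_preimage isOpen_ball).mem_nhds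
      ⟨hj x, mem_ball_self (half_pos (hδ0 x))⟩
  obtain ⟨t, ht⟩ := CompactSpace.elim_nhds_subcover V hV
  obtain ⟨ε, hε0, hε1, hε⟩ : ∃ ε : ℝ, 0 < ε ∧ ε < 1 ∧ ∀ x ∈ t, ε ≤ δ x / 4 := by
    clear ht
    classical
    induction t using Finset.induction with
    | empty => exact ⟨1 / 2, by norm_num, by norm_num, by simp⟩
    | insert a s _ ih =>
      obtain ⟨ε, h1, h2, h3⟩ := ih
      refine ⟨min ε (δ a / 4), lt_min h1 (by linarith [hδ0 a]), (min_le_left _ _).trans_lt h2, ?_⟩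
      intro x hx
      rcases Finset.mem_insert.mp hx with rfl | hx
      · exact min_le_right _ _
      · exact (min_le_left _ _).trans (h3 x hx)
  refine ⟨ε, hε0, hε1, fun m => ?_⟩
  have hm : m ∈ ⋃ x ∈ t, V x := by rw [ht]; trivial
  simp only [mem_iUnion] at hm
  obtain ⟨x, hx, hmx⟩ := hm
  have hc : ‖X.ch (j x) m‖ < 1 := by
    simpa using X.tgt (j x) ((X.ch (j x)).map_source hmx.1)
  refine exists_centred X hmx.1 hε0 hε1.le (fun z hz => hδ x ?_)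
  have h1 := norm_mob_sub_le hc (hz.trans hε1)
  have h2 : dist (X.ch (j x) m) (X.ch (j x) x) < δ x / 2 := hmx.2
  rw [mem_ball]
  calc dist (mob (-(X.ch (j x) m)) z) (X.ch (j x) x)
      ≤ dist (mob (-(X.ch (j x) m)) z) (X.ch (j x) m) + dist (X.ch (j x) m) (X.ch (j x) x) :=
        dist_triangle _ _ _
    _ < δ x := by
        rw [dist_eq_norm (mob _ z)]
        have := hε x hx
        linarith

/-- rigidity -/
theorem rigid [T2Space M] {X : PH M} {U : Set ℂ} (hU : IsOpen U) (hc : IsPreconnected U)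
    {p q : ℂ → M} (hp : ∀ w ∈ U, IsoM X p w) (hq : ∀ w ∈ U, IsoM X q w) {w0 : ℂ} (h0 : w0 ∈ U)
    (he : p =ᶠ[𝓝 w0] q) : EqOn p q U := by
  let W : Set ℂ := {w | p =ᶠ[𝓝 w] q}
  have hW : IsOpen W := isOpen_setOfPred_eventually_nhds
  have hsub : U ⊆ W := by
    refine hc.subset_of_closure_inter_subset hW ⟨w0, h0, he⟩ ?_
    rintro w ⟨hw, hwU⟩
    have hpq : p w = q w := by
      by_contra hne
      obtain ⟨A, B, hA, hB, hpA, hqB, hAB⟩ := t2_separation hne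
      have h1 : ∀ᶠ z in 𝓝 w, p z ∈ A := (hp w hwU).1.eventually (hA.mem_nhds hpA)
      have h2 : ∀ᶠ z in 𝓝 w, q z ∈ B := (hq w hwU).1.eventually (hB.mem_nhds hqB)
      obtain ⟨z, hz1, hz2⟩ := mem_closure_iff_nhds.mp hw _ (h1.and h2)
      have h3 : p z = q z := Filter.EventuallyEq.eq_of_nhds hz2
      exact Set.disjoint_left.mp hAB hz1.1 (h3 ▸ hz1.2)
    obtain ⟨j, hj⟩ := X.cov (p w)
    have e1 : ∀ᶠ z in 𝓝 w, z ∈ U ∧ p z ∈ (X.ch j).source ∧ q z ∈ (X.ch j).source := by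
      have a1 := hU.mem_nhds hwU
      have a2 := (hp w hwU).1.eventually ((X.ch j).open_source.mem_nhds hj)
      have a3 := (hq w hwU).1.eventually ((X.ch j).open_source.mem_nhds (hpq ▸ hj))
      filter_upwards [a1, a2, a3] with z b1 b2 b3 using ⟨b1, b2, b3⟩
    obtain ⟨r, hr, hr'⟩ := Metric.eventually_nhds_iff_ball.mp e1
    have d1 : DifferentiableOn ℂ (X.ch j ∘ p) (ball w r) := fun z hz =>
      ((hp z (hr' z hz).1).2 j (hr' z hz).2.1).1.differentiableWithinAt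
    have d2 : DifferentiableOn ℂ (X.ch j ∘ q) (ball w r) := fun z hz =>
      ((hq z (hr' z hz).1).2 j (hr' z hz).2.2).1.differentiableWithinAt
    obtain ⟨z1, hz1, hz1W⟩ := mem_closure_iff_nhds.mp hw _ (ball_mem_nhds w hr)
    have e2 : (X.ch j ∘ p) =ᶠ[𝓝 z1] (X.ch j ∘ q) := Filter.EventuallyEq.fun_comp hz1W _
    have e3 : EqOn (X.ch j ∘ p) (X.ch j ∘ q) (ball w r) :=
      (d1.analyticOnNhd isOpen_ball).eqOn_of_preconnected_of_eventuallyEq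
        (d2.analyticOnNhd isOpen_ball) (convex_ball w r).isPreconnected hz1 e2
    show p =ᶠ[𝓝 w] q
    filter_upwards [ball_mem_nhds w hr] with z hz
    exact (X.ch j).injOn (hr' z hz).2.1 (hr' z hz).2.2 (e3 hz)
  exact fun w hw => (hsub hw).eq_of_nhds

/-- normal form of a local isometry in a good chart -/
theorem IsoM.normal {X : PH M} {p : ℂ → M} {w : ℂ} (hw : ‖w‖ < 1)
    (hp : ∀ᶠ z in 𝓝 w, IsoM X p z) {f : OpenPartialHomeomorph M ℂ} (hf : Good X f)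
    (hpw : p w ∈ f.source) : ∃ a c : ℂ, ‖a‖ < 1 ∧ ‖c‖ = 1 ∧ c * mob a w = f (p w) ∧
      ∀ᶠ z in 𝓝 w, p z = f.symm (c * mob a z) := by
  have h1 : ∀ᶠ z in 𝓝 w, p z ∈ f.source :=
    hp.self_of_nhds.1.eventually (f.open_source.mem_nhds hpw)
  have h2 : ∀ᶠ z in 𝓝 w, Iso (f ∘ p) z := by
    filter_upwards [hp, h1] with z a1 a2 using hf.iso p z a1 a2
  have h3 : ‖(f ∘ p) w‖ < 1 := by
    simpa using hf.tgt (f.map_source hpw)
  obtain ⟨a, c, ha, hc, hE⟩ := Unif_903.normal hw h2 h3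
  refine ⟨a, c, ha, hc, hE.self_of_nhds.symm, ?_⟩
  filter_upwards [h1, hE] with z a1 a2
  rw [← a2]
  exact (f.left_inv a1).symm

theorem isoM_model {X : PH M} {f : OpenPartialHomeomorph M ℂ} (hf : Good X f) {ε : ℝ}
    (ht : f.target = ball 0 ε) {a c : ℂ} (ha : ‖a‖ < 1) (hc : ‖c‖ = 1) {z : ℂ}
    (hz : z ∈ Bh a ε) : IsoM X (fun z => f.symm (c * mob a z)) z := by
  have h1 : c * mob a z ∈ f.target := by
    rw [ht, mem_ball_zero_iff, norm_mul, hc, one_mul]; exact hz.2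
  exact (hf.symm _ h1).comp (A := fun z => c * mob a z)
    (Iso.comp (g := fun z => c * z) (h := mob a) (iso_rot hc _) (iso_mob ha hz.1))

end Crest.Agent.R272.Unif_903
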