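import Crest.Agent.R257.AYTop_209
import Crest.Agent.R272.UnLiou_311
import Crest.Agent.R272.Unif3_903

/-!
# R272, UNIF, part (A) (helper311): the hyperbolic structure of a compact Riemann surface with a
positive metric of the canonical bundle (Kaehler-Einstein metric of `AYTop_209.ay_ke`, `n = 1`, and
Liouville's theorem `UnLiou_311.liouville_local'`)
-/

set_option autoImplicit false

open Set Filter Topology Complex Metric
open scoped ContDiff Matrix ComplexConjugate ComplexOrder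

namespace Crest.Agent.R272.UnInst_311

open Crest.Agent.R275.Geo Crest.Agent.R275.Core144 Crest.Agent.R275.GC293
open Crest.Agent.R273.Defs_333 Crest.Agent.R273.YauDefs_635 Crest.Agent.R273.HM_333
open Crest.Agent.R272.Unif_903

noncomputable section

/-- `ℂ ≃ Cn 1` -/
def c1 : ℂ ≃L[ℂ] Cn 1 :=
  ((EuclideanSpace.equiv (Fin 1) ℂ).trans (ContinuousLinearEquiv.funUnique (Fin 1) ℂ ℂ)).symm

theorem c1_symm_apply (w : Cn 1) : c1.symm w = w 0 := rfl

theorem c1_apply (z : ℂ) : c1 z = EuclideanSpace.single 0 z := by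
  rw [← c1.symm.injective.eq_iff, c1.symm_apply_apply, c1_symm_apply]
  simp

/-- the real linear version -/
def c1R : ℂ →L[ℝ] Cn 1 := (c1 : ℂ →L[ℂ] Cn 1).restrictScalars ℝ

theorem c1R_apply (z : ℂ) : c1R z = c1 z := rfl

theorem fderiv2_comp {U : Cn 1 → ℝ} {T : Set (Cn 1)} (hT : IsOpen T) (hU : ContDiffOn ℝ ∞ U T)
    {ζ : ℂ} (hζ : c1 ζ ∈ T) (a b : ℂ) :
    fderiv ℝ (fderiv ℝ (fun ζ => U (c1 ζ))) ζ a b = D2 U (c1 ζ) (c1 a) (c1 b) := by
  have hcont : ContinuousAt (fun ζ : ℂ => c1 ζ) ζ := c1.continuous.continuousAt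
  have h1 : (fderiv ℝ (fun ζ => U (c1 ζ))) =ᶠ[𝓝 ζ]
      fun ζ' => (fderiv ℝ U (c1 ζ')).comp c1R := by
    filter_upwards [hcont.preimage_mem_nhds (hT.mem_nhds hζ)] with y hy
    have hd : DifferentiableAt ℝ U (c1 y) :=
      (hU.contDiffAt (hT.mem_nhds hy)).differentiableAt (by simp)
    have h2 : HasFDerivAt (fun ζ : ℂ => c1 ζ) c1R y := c1R.hasFDerivAt
    exact (hd.hasFDerivAt.comp y h2).fderiv
  rw [h1.fderiv_eq]
  have hd2 : DifferentiableAt ℝ (fderiv ℝ U) (c1 ζ) :=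
    ((hU.contDiffAt (hT.mem_nhds hζ)).fderiv_right (m := 1) (by norm_cast)).differentiableAt
      one_ne_zero
  have h3 : HasFDerivAt (fun ζ : ℂ => fderiv ℝ U (c1 ζ))
      ((fderiv ℝ (fderiv ℝ U) (c1 ζ)).comp c1R) ζ := by
    have h2 : HasFDerivAt (fun ζ : ℂ => c1 ζ) c1R ζ := c1R.hasFDerivAt
    exact hd2.hasFDerivAt.comp ζ h2
  have h4 := h3.clm_comp (hasFDerivAt_const c1R ζ)
  rw [h4.fderiv]
  simp [D2, c1R_apply]

theorem hL_of_ke {U : Cn 1 → ℝ} {T : Set (Cn 1)} (hT : IsOpen T) (hU : ContDiffOn ℝ ∞ U T)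
    (h : ∀ z ∈ T, (cH U z).det = (Real.exp (U z) : ℂ)) {ζ : ℂ} (hζ : c1 ζ ∈ T) :
    fderiv ℝ (fderiv ℝ (fun ζ => U (c1 ζ))) ζ 1 1 + fderiv ℝ (fderiv ℝ (fun ζ => U (c1 ζ))) ζ I I
      = 4 * Real.exp (U (c1 ζ)) := by
  have h1 := congrArg Complex.re (h _ hζ)
  rw [Matrix.det_fin_one, Complex.ofReal_re] at h1
  rw [fderiv2_comp hT hU hζ, fderiv2_comp hT hU hζ, c1_apply 1, c1_apply I, ← h1]
  simp only [cH, Matrix.of_apply]
  generalize D2 U (c1 ζ) (EuclideanSpace.single 0 1) (EuclideanSpace.single 0 1) = p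
  generalize D2 U (c1 ζ) (EuclideanSpace.single 0 I) (EuclideanSpace.single 0 I) = q
  generalize D2 U (c1 ζ) (EuclideanSpace.single 0 1) (EuclideanSpace.single 0 I) = r
  generalize D2 U (c1 ζ) (EuclideanSpace.single 0 I) (EuclideanSpace.single 0 1) = s
  have : ((1 : ℂ) / 4 * (((p + q : ℝ) : ℂ) + I * ((r - s : ℝ) : ℂ))).re = (p + q) / 4 := by
    rw [show (1 : ℂ) / 4 = ((1 / 4 : ℝ) : ℂ) by push_cast; ring, Complex.re_ofReal_mul]
    simp
    ring
  rw [this]
  ring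

variable {M : Type} [TopologicalSpace M]

/-- the chart `i` with values in `ℂ` -/
def ec (A : Atl 1 M) (i : A.ι) : OpenPartialHomeomorph M ℂ :=
  (A.e i).trans c1.symm.toHomeomorph.toOpenPartialHomeomorph

theorem ec_source (A : Atl 1 M) (i : A.ι) : (ec A i).source = (A.e i).source := by
  simp [ec]

theorem mem_ec_target (A : Atl 1 M) (i : A.ι) (ζ : ℂ) :
    ζ ∈ (ec A i).target ↔ c1 ζ ∈ (A.e i).target := by
  simp [ec]

theorem ec_apply (A : Atl 1 M) (i : A.ι) (x : M) : ec A i x = c1.symm (A.e i x) := rfl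

theorem ec_symm_apply (A : Atl 1 M) (i : A.ι) (ζ : ℂ) :
    (ec A i).symm ζ = (A.e i).symm (c1 ζ) := rfl

theorem c1_ec (A : Atl 1 M) (i : A.ι) (x : M) : c1 (ec A i x) = A.e i x :=
  c1.apply_symm_apply _

/-- the transition function between charts, with derivative the transition function of the
canonical bundle -/
theorem hasDerivAt_trans (A : Atl 1 M) (i j : A.ι) {ζ : ℂ} (hζ : ζ ∈ (ec A i).target)
    (hj : (ec A i).symm ζ ∈ (A.e j).source) :
    HasDerivAt (fun ζ => ec A j ((ec A i).symm ζ)) ((KB A).g i j ((ec A i).symm ζ)) ζ := by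
  have hx : c1 ζ ∈ A.ov i j := ⟨(mem_ec_target A i ζ).1 hζ, hj⟩
  have h1 : DifferentiableAt ℂ (fun w => A.e j ((A.e i).symm w)) (c1 ζ) :=
    (A.holo i j).differentiableAt ((Crest.Agent.R275.GC293.isOpen_ov A i j).mem_nhds hx)
  have h2 : HasFDerivAt (fun ζ : ℂ => c1 ζ) (c1 : ℂ →L[ℂ] Cn 1) ζ := c1.hasFDerivAt
  have h3 := (c1.symm.hasFDerivAt (x := A.e j ((A.e i).symm (c1 ζ)))).comp ζ
    (h1.hasFDerivAt.comp ζ h2)
  have h4 : HasDerivAt (fun ζ => ec A j ((ec A i).symm ζ)) _ ζ := h3.hasDerivAt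
  convert h4 using 1
  have hs : (ec A i).symm ζ ∈ (A.e i).source ∩ (A.e j).source :=
    ⟨by rw [ec_symm_apply]; exact (A.e i).map_target hx.1, hj⟩
  have h5 : (KB A).g i j ((ec A i).symm ζ) = (Jm A i j ((ec A i).symm ζ)).det := by
    simp only [KB]
    rw [if_pos hs]
  rw [h5, Matrix.det_fin_one, Jm_apply, Atl.J]
  have h6 : A.e i ((ec A i).symm ζ) = c1 ζ := by
    rw [ec_symm_apply, (A.e i).right_inv hx.1]
  rw [h6, ← c1_apply]
  rfl

/-! ### Liouville metrics -/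

/-- a conformal metric `e^{u_i} |dζ|²` with `u_{ζ ζ̄} = e^u` -/
structure LM (A : Atl 1 M) where
  u : A.ι → ℂ → ℝ
  sm : ∀ i, ContDiffOn ℝ ∞ (u i) (ec A i).target
  li : ∀ i, ∀ ζ ∈ (ec A i).target, fderiv ℝ (fderiv ℝ (u i)) ζ 1 1
    + fderiv ℝ (fderiv ℝ (u i)) ζ I I = 4 * Real.exp (u i ζ)
  tr : ∀ i j, ∀ ζ ∈ (ec A i).target, (ec A i).symm ζ ∈ (A.e j).source →
    Real.exp (u i ζ) = ‖(KB A).g i j ((ec A i).symm ζ)‖ ^ 2 *
      Real.exp (u j (ec A j ((ec A i).symm ζ)))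

/-- a chart in which the metric is the Poincare metric -/
structure LG {A : Atl 1 M} (L : LM A) (c : OpenPartialHomeomorph M ℂ) : Prop where
  tgt : c.target ⊆ ball 0 1
  fwd : ∀ j, ∀ ζ ∈ (ec A j).target, (ec A j).symm ζ ∈ c.source →
    DifferentiableAt ℂ (fun ζ => c ((ec A j).symm ζ)) ζ ∧
    2 * ‖deriv (fun ζ => c ((ec A j).symm ζ)) ζ‖ ^ 2 / (1 - ‖c ((ec A j).symm ζ)‖ ^ 2) ^ 2
      = Real.exp (L.u j ζ)
  bwd : ∀ j, ∀ z ∈ c.target, c.symm z ∈ (A.e j).source →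
    DifferentiableAt ℂ (fun z => ec A j (c.symm z)) z

theorem exists_LG {A : Atl 1 M} (L : LM A) (m : M) :
    ∃ c : OpenPartialHomeomorph M ℂ, m ∈ c.source ∧ LG L c := by
  obtain ⟨i, hi⟩ := A.cover m
  have hi' : m ∈ (ec A i).source := by rw [ec_source]; exact hi
  obtain ⟨r, hr, hrt, f, hf, hf0, hfm⟩ := Crest.Agent.R272.UnLiou_311.liouville_local'
    (ec A i).open_target (L.sm i) (L.li i) ((ec A i).map_source hi')
  set ζ0 := ec A i m with hζ0
  have hfd : ∀ ζ ∈ ball ζ0 r, DifferentiableAt ℂ f ζ := fun ζ hζ =>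
    hf.differentiableAt (isOpen_ball.mem_nhds hζ)
  have hst : HasStrictDerivAt f (deriv f ζ0) ζ0 := by
    have h1 : AnalyticAt ℂ f ζ0 := hf.analyticAt (isOpen_ball.mem_nhds (mem_ball_self hr))
    exact h1.hasStrictDerivAt
  have hne : deriv f ζ0 ≠ 0 := (hfm ζ0 (mem_ball_self hr)).2.1
  set P := (hst.hasStrictFDerivAt_equiv hne).toOpenPartialHomeomorph f with hP
  have hP0 : ζ0 ∈ P.source := HasStrictFDerivAt.mem_toOpenPartialHomeomorph_source _
  have hPf : ∀ ζ, P ζ = f ζ := fun ζ => rfl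
  set P' := P.restrOpen (ball ζ0 r) isOpen_ball with hP'
  have hP's : ∀ ζ, ζ ∈ P'.source ↔ ζ ∈ P.source ∧ ζ ∈ ball ζ0 r := fun ζ => by
    simp [hP']
  have hP'f : ∀ ζ, P' ζ = f ζ := fun ζ => rfl
  clear_value P'
  set c := (ec A i).trans P' with hc
  have hcs : ∀ x, x ∈ c.source ↔ x ∈ (A.e i).source ∧ ec A i x ∈ P'.source := fun x => by
    rw [hc, OpenPartialHomeomorph.trans_source, mem_inter_iff, ec_source]
    rfl
  have hct : ∀ z, z ∈ c.target ↔ z ∈ P'.target ∧ P'.symm z ∈ (ec A i).target := fun z => by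
    rw [hc, OpenPartialHomeomorph.trans_target]
    rfl
  have hcf : ∀ x, c x = f (ec A i x) := fun x => by
    rw [hc, OpenPartialHomeomorph.coe_trans, Function.comp_apply, hP'f]
  have hcy : ∀ z, c.symm z = (ec A i).symm (P'.symm z) := fun z => rfl
  clear_value c
  refine ⟨c, (hcs m).2 ⟨hi, (hP's _).2 ⟨hP0, mem_ball_self hr⟩⟩, ?_, ?_, ?_⟩
  · intro z hz
    obtain ⟨h1, h2⟩ := (hct z).1 hz
    have h3 := P'.map_target h1
    have h4 : f (P'.symm z) = z := by rw [← hP'f, P'.right_inv h1]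
    rw [mem_ball_zero_iff, ← h4]
    exact (hfm _ ((hP's _).1 h3).2).1
  · intro j ζ hζ hx
    obtain ⟨h1, h2⟩ := (hcs _).1 hx
    have h3 := ((hP's _).1 h2).2
    have h4 := hasDerivAt_trans A j i hζ h1
    have h5 : HasDerivAt (fun ζ => c ((ec A j).symm ζ))
        (deriv f (ec A i ((ec A j).symm ζ)) * (KB A).g j i ((ec A j).symm ζ)) ζ := by
      have h6 := HasDerivAt.comp (h₂ := f) ζ (hfd _ h3).hasDerivAt h4
      refine h6.congr_of_eventuallyEq (Eventually.of_forall fun y => ?_)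
      simp only [hcf, Function.comp]
    refine ⟨h5.differentiableAt, ?_⟩
    rw [h5.deriv, hcf, norm_mul, mul_pow, L.tr j i ζ hζ h1, ← (hfm _ h3).2.2]
    ring
  · intro j z hz hx
    obtain ⟨h1, h2⟩ := (hct z).1 hz
    have h3 := P'.map_target h1
    have h4 := (hP's _).1 h3
    have h5 : HasDerivAt P' (deriv f (P'.symm z)) (P'.symm z) := by
      refine (hfd _ h4.2).hasDerivAt.congr_of_eventuallyEq (Eventually.of_forall fun y => ?_)
      exact hP'f y
    have h6 := P'.hasDerivAt_symm h1 (hfm _ h4.2).2.1 h5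
    rw [hcy] at hx
    have h7 := hasDerivAt_trans A i j h2 hx
    have h8 := HasDerivAt.comp (h₂ := fun ζ => ec A j ((ec A i).symm ζ)) z h7 h6
    refine h8.differentiableAt.congr_of_eventuallyEq (Eventually.of_forall fun y => ?_)
    simp only [hcy, Function.comp]

theorem iso_of_LG {A : Atl 1 M} {L : LM A} {c c' : OpenPartialHomeomorph M ℂ} (hc : LG L c)
    (hc' : LG L c') {z : ℂ} (hz : z ∈ c.target) (hz' : c.symm z ∈ c'.source) :
    Iso (c' ∘ c.symm) z := by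
  obtain ⟨j, hj⟩ := A.cover (c.symm z)
  have hj' : c.symm z ∈ (ec A j).source := by rw [ec_source]; exact hj
  set ζ := ec A j (c.symm z) with hζ
  have hζt : ζ ∈ (ec A j).target := (ec A j).map_source hj'
  have hinv : (ec A j).symm ζ = c.symm z := (ec A j).left_inv hj'
  have hcz : c (c.symm z) = z := c.right_inv hz
  obtain ⟨h1, h2⟩ := hc.fwd j ζ hζt (by rw [hinv]; exact c.map_target hz)
  obtain ⟨h3, h4⟩ := hc'.fwd j ζ hζt (by rw [hinv]; exact hz')
  have h5 := hc.bwd j z hz hj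
  have hnear : ∀ᶠ y in 𝓝 z, y ∈ c.target ∧ c.symm y ∈ (ec A j).source := by
    have hcont : ContinuousAt c.symm z := c.continuousAt_symm hz
    filter_upwards [c.open_target.mem_nhds hz,
      hcont.preimage_mem_nhds ((ec A j).open_source.mem_nhds hj')] with y hy1 hy2
    exact ⟨hy1, hy2⟩
  -- `c ∘ c⁻¹ = id`
  have h6 : deriv (fun ζ => c ((ec A j).symm ζ)) ζ * deriv (fun z => ec A j (c.symm z)) z = 1 := by
    have h7 := HasDerivAt.comp (h₂ := fun ζ => c ((ec A j).symm ζ)) z h1.hasDerivAt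
      h5.hasDerivAt
    have h8 : HasDerivAt (fun y : ℂ => y)
        (deriv (fun ζ => c ((ec A j).symm ζ)) ζ * deriv (fun z => ec A j (c.symm z)) z) z := by
      refine h7.congr_of_eventuallyEq ?_
      filter_upwards [hnear] with y hy
      simp only [Function.comp]
      rw [(ec A j).left_inv hy.2, c.right_inv hy.1]
    exact h8.unique (hasDerivAt_id z)
  have h9 : HasDerivAt (c' ∘ c.symm)
      (deriv (fun ζ => c' ((ec A j).symm ζ)) ζ * deriv (fun z => ec A j (c.symm z)) z) z := by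
    have h7 := HasDerivAt.comp (h₂ := fun ζ => c' ((ec A j).symm ζ)) z h3.hasDerivAt
      h5.hasDerivAt
    refine h7.congr_of_eventuallyEq ?_
    filter_upwards [hnear] with y hy
    simp only [Function.comp]
    rw [(ec A j).left_inv hy.2]
  refine ⟨h9.differentiableAt, ?_⟩
  rw [h9.deriv, norm_mul]
  have h10 : ‖deriv (fun ζ => c ((ec A j).symm ζ)) ζ‖ * ‖deriv (fun z => ec A j (c.symm z)) z‖ = 1 := by
    rw [← norm_mul, h6, norm_one]
  rw [hinv, hcz] at h2
  rw [hinv] at h4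
  have hz1 : ‖z‖ < 1 := mem_ball_zero_iff.1 (hc.tgt hz)
  have hw1 : ‖c' (c.symm z)‖ < 1 := mem_ball_zero_iff.1 (hc'.tgt (c'.map_source hz'))
  have hp1 : 0 < 1 - ‖z‖ ^ 2 := one_sub_sq_pos hz1
  have hp2 : 0 < 1 - ‖c' (c.symm z)‖ ^ 2 := one_sub_sq_pos hw1
  show _ = 1 - ‖c' (c.symm z)‖ ^ 2
  generalize ‖deriv (fun ζ => c ((ec A j).symm ζ)) ζ‖ = a at h2 h10
  have hb0 := norm_nonneg (deriv (fun ζ => c' ((ec A j).symm ζ)) ζ)
  generalize ‖deriv (fun ζ => c' ((ec A j).symm ζ)) ζ‖ = b at h4 hb0 ⊢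
  have hq0 := norm_nonneg (deriv (fun z => ec A j (c.symm z)) z)
  generalize ‖deriv (fun z => ec A j (c.symm z)) z‖ = q at h10 hq0 ⊢
  generalize 1 - ‖z‖ ^ 2 = s at h2 hp1 ⊢
  generalize 1 - ‖c' (c.symm z)‖ ^ 2 = t at h4 hp2 ⊢
  have h11 : (b * s) ^ 2 = (a * t) ^ 2 := by
    have e := h2.trans h4.symm
    rw [div_eq_div_iff (by positivity) (by positivity)] at e
    nlinarith
  have ha0 : 0 < a := by
    rcases lt_or_ge 0 a with h | h
    · exact h
    · nlinarith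
  have h12 : b * s = a * t := by
    have := (sq_eq_sq₀ (by positivity) (by positivity)).1 h11
    exact this
  calc b * q * s = (b * s) * q := by ring
    _ = (a * q) * t := by rw [h12]; ring
    _ = t := by rw [h10, one_mul]

/-- the hyperbolic structure of a Liouville metric -/
def LM.ph {A : Atl 1 M} (L : LM A) : PH M where
  ι := M
  ch m := (exists_LG L m).choose
  cov x := ⟨x, (exists_LG L x).choose_spec.1⟩
  tgt m := (exists_LG L m).choose_spec.2.tgt
  iso i j _ hz hz' := iso_of_LG (exists_LG L i).choose_spec.2 (exists_LG L j).choose_spec.2 hz hz'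

theorem LM.lg {A : Atl 1 M} (L : LM A) (m : M) : LG L (L.ph.ch m) := (exists_LG L m).choose_spec.2

theorem LM.mem {A : Atl 1 M} (L : LM A) (m : M) : m ∈ (L.ph.ch m).source :=
  (exists_LG L m).choose_spec.1

/-- **the Kaehler-Einstein metric as a Liouville metric** -/
theorem nonempty_LM {A : Atl 1 M} [T2Space M] [CompactSpace M] [ConnectedSpace M] [Finite A.ι]
    (hG : GoodA A) (hP : Nonempty (Part A)) {H : HM (KB A)} (hp : H.Pos) : Nonempty (LM A) := by
  obtain ⟨φ, hφ, -, -, -, hke⟩ := Crest.Agent.R257.AYTop_209.ay_ke hG hP hp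
  have hsm : ∀ i, ContDiffOn ℝ ∞ (pot H φ i) (A.e i).target := fun i =>
    (wt_smooth H i).add (hφ i)
  refine ⟨⟨fun i ζ => pot H φ i (c1 ζ), fun i => ?_, fun i ζ hζ => ?_, fun i j ζ hζ hj => ?_⟩⟩
  · have h1 : ContDiff ℝ ∞ (fun ζ : ℂ => c1 ζ) := c1R.contDiff
    exact (hsm i).comp h1.contDiffOn fun ζ hζ => (mem_ec_target A i ζ).1 hζ
  · exact hL_of_ke (A.e i).open_target (hsm i) (hke i) ((mem_ec_target A i ζ).1 hζ)
  · have hz := (mem_ec_target A i ζ).1 hζ
    have hx : (A.e i).symm (c1 ζ) ∈ (A.e i).source := (A.e i).map_target hz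
    have h1 := H.tr i j ((A.e i).symm (c1 ζ)) ⟨hx, hj⟩
    have h2 : ∀ k, ∀ x ∈ (A.e k).source, Real.exp (pot H φ k (A.e k x))
        = Real.exp (φ x) / H.w k x := by
      intro k x hx
      have hw := H.pos k x hx
      simp only [pot, inC, HM.wt, (A.e k).left_inv hx]
      rw [Real.exp_add, Real.exp_neg, Real.exp_log hw]
      field_simp
    have h3 := h2 i _ hx
    have h4 := h2 j _ hj
    rw [(A.e i).right_inv hz] at h3
    rw [ec_symm_apply] at h4
    rw [c1_ec, ec_symm_apply, h3, h4, h1]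
    have hw := H.pos i _ hx
    have hg : ‖(KB A).g i j ((A.e i).symm (c1 ζ))‖ ≠ 0 := norm_ne_zero_iff.2 (LB.ne_zero _ i j _)
    field_simp

/-- **part (A) of UNIF**: a compact Riemann surface with a positive metric of the canonical bundle
has a hyperbolic structure `X : PH M`, the charts of which are holomorphic in both directions with
respect to the atlas -/
theorem exists_ph {A : Atl 1 M} [T2Space M] [CompactSpace M] [ConnectedSpace M] [Finite A.ι]
    (hG : GoodA A) (hP : Nonempty (Part A)) {H : HM (KB A)} (hp : H.Pos) :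
    ∃ X : PH M,
      (∀ a j, ∀ ζ ∈ (ec A j).target, (ec A j).symm ζ ∈ (X.ch a).source →
        DifferentiableAt ℂ (fun ζ => X.ch a ((ec A j).symm ζ)) ζ) ∧
      (∀ a j, ∀ z ∈ (X.ch a).target, (X.ch a).symm z ∈ (A.e j).source →
        DifferentiableAt ℂ (fun z => ec A j ((X.ch a).symm z)) z) := by
  obtain ⟨L⟩ := nonempty_LM hG hP hp
  exact ⟨L.ph, fun a j ζ hζ hx => ((L.lg a).fwd j ζ hζ hx).1, fun a j z hz hx =>
    (L.lg a).bwd j z hz hx⟩

end

end Crest.Agent.R272.UnInst_311
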