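import Crest.Agent.R272.Unif7_903
import Crest.Agent.R272.UnInst_311

/-!
# R272, UNIF (helper903), file 8: uniformisation of compact complex curves with positive canonical
bundle (on top of Aubin-Yau, `AYTop_209.ay_ke`)
-/

set_option autoImplicit false

open Set Filter Topology Complex Metric

namespace Crest.Agent.R272.Unif_903

open Crest.Agent.R275.Geo Crest.Agent.R275.Core144 Crest.Agent.R275.GC293
open Crest.Agent.R273.Map_835
open Crest.Agent.R273.Defs_333 Crest.Agent.R273.HM_333
open Crest.Agent.R272.UnB_894 Crest.Agent.R272.UnInst_311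

variable {M : Type} [TopologicalSpace M]

theorem compat_of_ph {A : Atl 1 M} {X : PH M}
    (h1 : ∀ a j, ∀ ζ ∈ (ec A j).target, (ec A j).symm ζ ∈ (X.ch a).source →
        DifferentiableAt ℂ (fun ζ => X.ch a ((ec A j).symm ζ)) ζ)
    (h2 : ∀ a j, ∀ z ∈ (X.ch a).target, (X.ch a).symm z ∈ (A.e j).source →
        DifferentiableAt ℂ (fun z => ec A j ((X.ch a).symm z)) z) : Compat A X := by
  intro a j z hz hzj
  set x := (X.ch a).symm z with hx
  have hxs : x ∈ (X.ch a).source := (X.ch a).map_target hz
  have hxj : x ∈ (ec A j).source := by rw [ec_source]; exact hzj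
  have d2 := (h2 a j z hz hzj).hasDerivAt
  set d := deriv (fun z => ec A j ((X.ch a).symm z)) z with hd
  have d1 := (h1 a j (ec A j x) ((ec A j).map_source hxj)
    (by rwa [(ec A j).left_inv hxj])).hasDerivAt
  have hcomp := HasDerivAt.comp z (h₂ := fun ζ => X.ch a ((ec A j).symm ζ)) d1 d2
  have hid : (fun z => z) =ᶠ[𝓝 z]
      (fun ζ => X.ch a ((ec A j).symm ζ)) ∘ fun z => ec A j ((X.ch a).symm z) := by
    have c1 : ContinuousAt (X.ch a).symm z := (X.ch a).symm.continuousAt hz
    filter_upwards [(X.ch a).open_target.mem_nhds hz,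
      c1.eventually ((ec A j).open_source.mem_nhds hxj)] with w b1 b2
    simp only [Function.comp_apply]
    rw [(ec A j).left_inv b2, (X.ch a).right_inv b1]
  have h3 : deriv (fun ζ => X.ch a ((ec A j).symm ζ)) (ec A j x) * d = 1 :=
    (hcomp.congr_of_eventuallyEq hid).unique (hasDerivAt_id z)
  have hd0 : d ≠ 0 := by
    intro h
    rw [h, mul_zero] at h3
    exact zero_ne_one h3
  refine ⟨UnInst_311.c1 d, ?_, fun h => hd0 ((map_eq_zero_iff _ UnInst_311.c1.injective).mp h)⟩
  have h4 : HasDerivAt (fun z => UnInst_311.c1 (ec A j ((X.ch a).symm z)))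
      (UnInst_311.c1 d) z :=
    (UnInst_311.c1 : ℂ →L[ℂ] Cn 1).hasFDerivAt.comp_hasDerivAt z d2
  refine h4.congr_of_eventuallyEq (Filter.Eventually.of_forall fun w => ?_)
  exact (c1_ec A j _).symm

/-- **(U1)**: a compact connected complex curve with positive canonical bundle is a quotient of the
disc -/
theorem unif_ay {A : Atl 1 M} [T2Space M] [CompactSpace M] [ConnectedSpace M] [Finite A.ι]
    (hG : GoodA A) (hP : Nonempty (Part A)) {H : HM (KB A)} (hp : H.Pos) (x0 : M) :
    ∃ p : DD → M, IsCoveringMap p ∧ LBD A p ∧ p o = x0 := by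
  obtain ⟨X, h1, h2⟩ := exists_ph hG hP hp
  exact exists_disc (compat_of_ph h1 h2) x0

end Crest.Agent.R272.Unif_903
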