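import Crest.Agent.R272.Kps3_595
import Crest.Agent.R272.Unif8_903

/-!
# R272, S14-KPOS (helper595), part 4: the universal cover of the Fermat quartic is the disc

`disc_of` : `D : DCov_426.Data A1 ρ`, `y⁴ = a0⁴ - a1⁴`, `D.X` connected ⟹ for every compatible
atlas `A'` and every point a holomorphic covering `DD → D.X` through this point.
-/

set_option autoImplicit false
set_option linter.unusedSectionVars false

open Set Filter Topology Complex
open scoped ContDiff Matrix ComplexConjugate Manifold

namespace Crest.Agent.R272.Kps_595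

open Crest.Agent.R275.Geo Crest.Agent.R275.Core144 Crest.Agent.R273.Defs_333
open Crest.Agent.R273.Fam_835 Crest.Agent.R273.Map_835
open Crest.Agent.R272.P1F_54 Crest.Agent.R272.P1S_590 Crest.Agent.R272.DCov_426
open Crest.Agent.R272.UnB_894 Crest.Agent.R272.Unif_903

noncomputable section

/-- two atlases which are compatible with the same family are compatible -/
theorem cmp_cmp {n : ℕ} {X : Type} [TopologicalSpace X] {C : Fam n X} {A B : Atl n X}
    (hA : Cmp C A) (hB : Cmp C B) : HolMap A B id :=
  holC_iff.1 (hB.bwd.comp hA.fwd)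

variable {ρ : Type} [Fintype ρ] (D : Data A1 ρ) {A' : Atl 1 D.X} (hc : Cmp D.famX A')

include hc in
/-- **uniformisation of `y⁴ = a0⁴ - a1⁴`** -/
theorem disc_of [Unique ρ] [ConnectedSpace D.X] (hk : D.k default = 4)
    (h0 : ∀ t ∈ (A1.e false).source, D.s default false t = 1 - pc false t ^ 4)
    (h1 : ∀ t ∈ (A1.e true).source, D.s default true t = pc true t ^ 4 - 1)
    (hg : ∀ t ∈ (A1.e false).source ∩ (A1.e true).source,
      (D.L default).g true false t = pc true t) (x0 : D.X) :
    ∃ p : DD → D.X, IsCoveringMap p ∧ LBD A' p ∧ p o = x0 := by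
  have : T2Space D.X := D.t2_X
  have : CompactSpace D.X := D.compact_X
  obtain ⟨B, hf, hG, hP, hB, -⟩ := D.exists_atlX
  obtain ⟨H, hH⟩ := kpos_of D hB hk h0 h1 hg
  obtain ⟨p, hp, hl, hx⟩ := unif_ay hG hP hH x0
  exact ⟨p, hp, lbd_of_compatible (cmp_cmp hB hc) (cmp_cmp hc hB) hl, hx⟩

end

end Crest.Agent.R272.Kps_595
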