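import Mathlib

/-!
# R272 / lower bound for S0415: Hermitian forms of signature `(n,1)` and the quasi-metric inequality

`Lor V` : an abstract Hermitian form such that the orthogonal of a negative vector is
non-negative.  `D L u x y = ‖h x y‖ / (‖h x u‖ * ‖h u y‖)`.
Main results: `qm` (quasi-metric inequality, constant `5`), `ident` (Behrstock identity),
`D_rho` (reflection inequality).
-/

set_option autoImplicit false

open Complex ComplexConjugate

namespace Crest.Agent.R272.LBForm_585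

/-- Hermitian form of signature `(n,1)` (or degenerate/definite), abstractly. -/
structure Lor (V : Type*) [AddCommGroup V] [Module ℂ V] where
  /-- the form -/
  h : V → V → ℂ
  add_left : ∀ x y z, h (x + y) z = h x z + h y z
  smul_left : ∀ (c : ℂ) x z, h (c • x) z = c * h x z
  symm : ∀ x y, h y x = conj (h x y)
  neg : ∀ b x, (h b b).re < 0 → h x b = 0 → 0 ≤ (h x x).re

variable {V : Type*} [AddCommGroup V] [Module ℂ V]

namespace Lor

variable (L : Lor V)

theorem add_right (x y z : V) : L.h x (y + z) = L.h x y + L.h x z := by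
  rw [L.symm (y + z) x, L.add_left, map_add, ← L.symm, ← L.symm]

theorem smul_right (c : ℂ) (x z : V) : L.h x (c • z) = conj c * L.h x z := by
  rw [L.symm (c • z) x, L.smul_left, map_mul, ← L.symm]

theorem zero_left (x : V) : L.h 0 x = 0 := by
  have := L.smul_left 0 0 x
  simpa using this

theorem zero_right (x : V) : L.h x 0 = 0 := by
  have := L.smul_right 0 x 0
  simpa using this

theorem neg_left (x y : V) : L.h (-x) y = - L.h x y := by
  have := L.smul_left (-1) x y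
  simpa using this

theorem neg_right (x y : V) : L.h x (-y) = - L.h x y := by
  have := L.smul_right (-1) x y
  simpa using this

theorem sub_left (x y z : V) : L.h (x - y) z = L.h x z - L.h y z := by
  rw [sub_eq_add_neg, L.add_left, L.neg_left, sub_eq_add_neg]

theorem sub_right (x y z : V) : L.h x (y - z) = L.h x y - L.h x z := by
  rw [sub_eq_add_neg, L.add_right, L.neg_right, sub_eq_add_neg]

theorem im_self (x : V) : (L.h x x).im = 0 := by
  have := congrArg Complex.im (L.symm x x)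
  simp only [conj_im] at this
  linarith

theorem self_eq (x : V) : L.h x x = (((L.h x x).re : ℝ) : ℂ) := by
  apply Complex.ext
  · simp
  · simp [L.im_self x]

theorem norm_symm (x y : V) : ‖L.h x y‖ = ‖L.h y x‖ := by
  rw [L.symm x y, Complex.norm_conj]

/-- The arithmetic-geometric form of Cauchy-Schwarz on the orthogonal of a negative vector. -/
theorem cs_am {b x y : V} (hb : (L.h b b).re < 0) (hx : L.h x b = 0) (hy : L.h y b = 0) :
    ‖L.h x y‖ ≤ ((L.h x x).re + (L.h y y).re) / 2 := by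
  -- choose a unit `c` with `c * h x y = -‖h x y‖`
  obtain ⟨c, hc, hcv⟩ : ∃ c : ℂ, ‖c‖ = 1 ∧ c * L.h x y = -(‖L.h x y‖ : ℂ) := by
    by_cases h0 : L.h x y = 0
    · exact ⟨1, by simp, by simp [h0]⟩
    · refine ⟨-(conj (L.h x y)) / (‖L.h x y‖ : ℂ), ?_, ?_⟩
      · have : (‖L.h x y‖ : ℝ) ≠ 0 := by simpa using h0
        rw [norm_div, norm_neg, Complex.norm_conj]
        simp [this]
      · have h1 : (‖L.h x y‖ : ℂ) ≠ 0 := by
          simpa using h0
        have h2 : conj (L.h x y) * L.h x y = (‖L.h x y‖ : ℂ) ^ 2 := by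
          rw [mul_comm, Complex.mul_conj, Complex.normSq_eq_norm_sq]
          push_cast
          ring
        field_simp
        rw [h2]
  have hz : L.h (c • x + y) b = 0 := by
    rw [L.add_left, L.smul_left, hx, hy]; simp
  have hp := L.neg b (c • x + y) hb hz
  have hexp : (L.h (c • x + y) (c • x + y)).re
      = (L.h x x).re + (L.h y y).re - 2 * ‖L.h x y‖ := by
    rw [L.add_left, L.add_right, L.add_right, L.smul_left, L.smul_right, L.smul_left,
      L.smul_right]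
    have e1 : c * (conj c * L.h x x) = L.h x x := by
      rw [← mul_assoc, Complex.mul_conj, Complex.normSq_eq_norm_sq, hc]
      simp
    have e2 : conj c * L.h y x = conj (c * L.h x y) := by
      rw [map_mul, ← L.symm]
    rw [e1, e2, hcv]
    simp
    ring
  linarith

/-- Cauchy-Schwarz on the orthogonal of a negative vector. -/
theorem cs {b x y : V} (hb : (L.h b b).re < 0) (hx : L.h x b = 0) (hy : L.h y b = 0) :
    ‖L.h x y‖ ^ 2 ≤ (L.h x x).re * (L.h y y).re := by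
  have hxx := L.neg b x hb hx
  have hyy := L.neg b y hb hy
  -- scaling argument
  by_contra hcon
  push Not at hcon
  set a := (L.h x x).re with ha
  set d := (L.h y y).re with hd
  set p := ‖L.h x y‖ with hp
  have hp0 : 0 ≤ p := norm_nonneg _
  have key : ∀ t : ℝ, 0 < t → 2 * t * p ≤ t ^ 2 * a + d := by
    intro t ht
    have h1 := L.cs_am (x := (t : ℂ) • x) (y := y) hb (by rw [L.smul_left, hx]; simp) hy
    rw [L.smul_left, L.smul_left, L.smul_right, norm_mul] at h1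
    have e : ((t : ℂ) * (conj (t : ℂ) * L.h x x)).re = t ^ 2 * a := by
      rw [Complex.conj_ofReal, ← mul_assoc, ← Complex.ofReal_mul, Complex.re_ofReal_mul]
      ring
    rw [e] at h1
    have e2 : ‖(t : ℂ)‖ = t := by simp [abs_of_pos ht]
    rw [e2] at h1
    linarith
  have hppos : 0 < p := by
    rcases hp0.lt_or_eq with h | h
    · exact h
    · exfalso
      rw [← h] at hcon
      nlinarith [mul_nonneg hxx hyy]
  rcases hxx.lt_or_eq with ha0 | ha0
  · have := key (p / a) (by positivity)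
    have e : 2 * (p / a) * p = 2 * p ^ 2 / a := by ring
    have e' : (p / a) ^ 2 * a = p ^ 2 / a := by field_simp
    rw [e, e'] at this
    have h3 : p ^ 2 / a ≤ d := by
      have : 2 * p ^ 2 / a = p ^ 2 / a + p ^ 2 / a := by ring
      linarith
    rw [div_le_iff₀ ha0] at h3
    nlinarith
  · have := key ((d + 1) / p) (by positivity)
    rw [← ha0] at this
    have e : 2 * ((d + 1) / p) * p = 2 * (d + 1) := by field_simp
    rw [e] at this
    linarith

end Lor

/-! ### The normalised quasi-metric inequality -/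

/-- Auxiliary bound (pure complex numbers). -/
theorem aux_bd {δ sy s a b : ℝ} {r γ : ℂ} {A B : ℂ} (hδ0 : 0 < δ) (hδ1 : 2 / 5 ≤ δ)
    (hδs : 1 / 2 - sy ≤ δ) (hsy0 : 0 ≤ sy) (ha : A.re = a) (hb : B.re = b)
    (hγ : γ = (1 / 2 - r) / (δ : ℂ)) (hr : ‖r‖ ≤ 1)
    (hW : A = 1 / 2 - (δ : ℂ) * γ * conj γ + B) (hs : a ≤ s) :
    b ≤ s + 5 / 4 * sy + 5 * ‖r‖ := by
  have e1 : a = 1 / 2 - δ * ‖γ‖ ^ 2 + b := by
    rw [← ha, ← hb, hW, mul_assoc, Complex.mul_conj, Complex.normSq_eq_norm_sq,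
      ← Complex.ofReal_mul, Complex.add_re, Complex.sub_re, Complex.ofReal_re]
    norm_num
  have e2 : ‖γ‖ ≤ (1 / 2 + ‖r‖) / δ := by
    rw [hγ, norm_div]
    have h1 : ‖(1 / 2 - r : ℂ)‖ ≤ 1 / 2 + ‖r‖ := by
      refine (norm_sub_le _ _).trans ?_
      simp
    have h2 : ‖(δ : ℂ)‖ = δ := by simp [abs_of_pos hδ0]
    rw [h2]
    gcongr
  have e3 : δ * ‖γ‖ ^ 2 ≤ (1 / 2 + ‖r‖) ^ 2 / δ := by
    have : ‖γ‖ ^ 2 ≤ ((1 / 2 + ‖r‖) / δ) ^ 2 := by gcongr
    calc δ * ‖γ‖ ^ 2 ≤ δ * ((1 / 2 + ‖r‖) / δ) ^ 2 := by gcongr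
      _ = (1 / 2 + ‖r‖) ^ 2 / δ := by field_simp
  have e4 : (1 / 2 + ‖r‖) ^ 2 / δ ≤ 1 / 2 + 5 / 4 * sy + 5 * ‖r‖ := by
    rw [div_le_iff₀ hδ0]
    have hr0 := norm_nonneg r
    have h5 : (1 / 2 + ‖r‖) ^ 2 ≤ 1 / 4 + 2 * ‖r‖ := by nlinarith
    have h6 : 1 / 4 + 2 * ‖r‖ ≤ (1 / 2 + 5 / 4 * sy + 5 * ‖r‖) * δ := by
      have : 1 / 2 * δ + 5 / 4 * sy * δ ≥ 1 / 4 := by
        nlinarith
      nlinarith
    linarith
  linarith

/-- Auxiliary bound (pure complex numbers). -/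
theorem aux_mt {δ sy : ℝ} {p q α β : ℂ} (hδ0 : 0 < δ) (hδ1 : 2 / 5 ≤ δ)
    (hδs : 1 / 2 - sy ≤ δ) (hδu : δ ≤ 1 / 2 + sy) (hsy0 : 0 ≤ sy)
    (hα : α = (1 / 2 - p) / (δ : ℂ)) (hβ : β = (1 / 2 - q) / (δ : ℂ))
    (ha : ‖p‖ ≤ 1) (hb : ‖q‖ ≤ 1) :
    ‖(1 / 2 - (δ : ℂ) * α * conj β : ℂ)‖ ≤ 5 / 4 * sy + 5 / 2 * (‖p‖ + ‖q‖) := by
  have hδc : (δ : ℂ) ≠ 0 := by exact_mod_cast hδ0.ne'
  have e : (1 / 2 - (δ : ℂ) * α * conj β : ℂ)
      = ((((δ / 2 - 1 / 4 : ℝ)) : ℂ) + (p + conj q) / 2 - p * conj q) / (δ : ℂ) := by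
    rw [hα, hβ]
    simp only [map_div₀, map_sub, map_one, Complex.conj_ofNat, Complex.conj_ofReal]
    push_cast
    field_simp
    ring
  rw [e, norm_div]
  have h2 : ‖(δ : ℂ)‖ = δ := by simp [abs_of_pos hδ0]
  rw [h2, div_le_iff₀ hδ0]
  have hp0 := norm_nonneg p
  have hq0 := norm_nonneg q
  have n1 : ‖(((δ / 2 - 1 / 4 : ℝ)) : ℂ)‖ ≤ sy / 2 := by
    rw [Complex.norm_real, Real.norm_eq_abs, abs_le]
    constructor <;> linarith
  have n2 : ‖(p + conj q) / 2‖ ≤ (‖p‖ + ‖q‖) / 2 := by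
    rw [norm_div]
    have : ‖p + conj q‖ ≤ ‖p‖ + ‖q‖ := by
      refine (norm_add_le _ _).trans ?_
      rw [Complex.norm_conj]
    simpa using by linarith
  have n3 : ‖p * conj q‖ ≤ (‖p‖ + ‖q‖) / 2 := by
    rw [norm_mul, Complex.norm_conj]
    nlinarith
  have n4 : ‖(((δ / 2 - 1 / 4 : ℝ)) : ℂ) + (p + conj q) / 2 - p * conj q‖
      ≤ sy / 2 + (‖p‖ + ‖q‖) / 2 + (‖p‖ + ‖q‖) / 2 := by
    refine (norm_sub_le _ _).trans ?_
    refine add_le_add ((norm_add_le _ _).trans (add_le_add n1 n2)) n3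
  refine n4.trans ?_
  nlinarith [mul_nonneg hsy0 (by linarith : 0 ≤ δ - 2 / 5),
    mul_nonneg (add_nonneg hp0 hq0) (by linarith : 0 ≤ δ - 2 / 5)]

set_option maxHeartbeats 1000000 in
/-- Normalised form: all pairings with the mirror `u` equal to `1`. -/
theorem qm_norm (L : Lor V) {u X Y Z : V} {sx sy sz : ℝ}
    (huu : L.h u u = 2) (hX : L.h X u = 1) (hY : L.h Y u = 1) (hZ : L.h Z u = 1)
    (hyy : |(L.h Y Y).re| ≤ sy) (hsy : sy ≤ 1 / 10)
    (hxx : (L.h X X).re ≤ sx) (hzz : (L.h Z Z).re ≤ sz)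
    (ha : ‖L.h X Y‖ ≤ 1) (hb : ‖L.h Z Y‖ ≤ 1) :
    ‖L.h X Z‖ ≤ 5 * (‖L.h X Y‖ + ‖L.h Z Y‖) + 5 / 2 * sy + (sx + sz) / 2 := by
  set η := (L.h Y Y).re with hη
  set δ : ℝ := 1 / 2 - η with hδ
  have hηl : -sy ≤ η := (abs_le.1 hyy).1
  have hηu : η ≤ sy := (abs_le.1 hyy).2
  have hδ1 : 2 / 5 ≤ δ := by rw [hδ]; linarith
  have hδ0 : 0 < δ := by linarith
  have hYY : L.h Y Y = ((1 / 2 - δ : ℝ) : ℂ) := by
    rw [L.self_eq Y]; congr 1; rw [hδ]; ring
  -- the vector `Y' = Y - u/2`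
  set Y' : V := Y - ((1 / 2 : ℝ) : ℂ) • u with hY'
  have huY : L.h u Y = 1 := by rw [L.symm Y u, hY]; simp
  have huX : L.h u X = 1 := by rw [L.symm X u, hX]; simp
  have huZ : L.h u Z = 1 := by rw [L.symm Z u, hZ]; simp
  have hYY' : L.h Y' Y' = ((-δ : ℝ) : ℂ) := by
    rw [hY', L.sub_left, L.sub_right, L.sub_right, L.smul_left, L.smul_right, L.smul_left,
      L.smul_right, huY, hY, huu, hYY]
    push_cast
    simp only [map_div₀, map_one, Complex.conj_ofNat]
    ring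
  have hneg : (L.h Y' Y').re < 0 := by
    rw [hYY', Complex.ofReal_re]; linarith
  -- generic decomposition
  have gen : ∀ W : V, L.h W u = 1 →
      let p := L.h W Y
      let α : ℂ := (1 / 2 - p) / (δ : ℂ)
      let W2 : V := W - ((1 / 2 : ℝ) : ℂ) • u - α • Y'
      L.h W2 Y' = 0 := by
    intro W hW p α W2
    have hWY' : L.h W Y' = p - 1 / 2 := by
      simp only [hY', L.sub_right, L.smul_right, hW, p]
      push_cast
      simp only [map_div₀, map_one, Complex.conj_ofNat]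
      ring
    have huY' : L.h u Y' = 0 := by
      simp only [hY', L.sub_right, L.smul_right, huY, huu]
      push_cast
      simp only [map_div₀, map_one, Complex.conj_ofNat]
      norm_num
    simp only [W2, L.sub_left, L.smul_left, hWY', huY', hYY', α]
    have : (δ : ℂ) ≠ 0 := by exact_mod_cast hδ0.ne'
    push_cast
    field_simp
    ring
  set p := L.h X Y with hp
  set q := L.h Z Y with hq
  set α : ℂ := (1 / 2 - p) / (δ : ℂ) with hα
  set β : ℂ := (1 / 2 - q) / (δ : ℂ) with hβ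
  set X2 : V := X - ((1 / 2 : ℝ) : ℂ) • u - α • Y' with hX2
  set Z2 : V := Z - ((1 / 2 : ℝ) : ℂ) • u - β • Y' with hZ2
  have hX2Y : L.h X2 Y' = 0 := gen X hX
  have hZ2Y : L.h Z2 Y' = 0 := gen Z hZ
  have hYX2 : L.h Y' X2 = 0 := by rw [L.symm X2 Y', hX2Y]; simp
  have hYZ2 : L.h Y' Z2 = 0 := by rw [L.symm Z2 Y', hZ2Y]; simp
  have hδc : (δ : ℂ) ≠ 0 := by exact_mod_cast hδ0.ne'
  -- `X = u/2 + α Y' + X2`
  have huY' : L.h u Y' = 0 := by
    simp only [hY', L.sub_right, L.smul_right, huY, huu]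
    push_cast
    simp only [map_div₀, map_one, Complex.conj_ofNat]
    norm_num
  have hY'u : L.h Y' u = 0 := by rw [L.symm u Y', huY']; simp
  have hX2u : L.h X2 u = 0 := by
    simp only [hX2, L.sub_left, L.smul_left, hX, huu, hY'u]
    push_cast
    ring
  have hZ2u : L.h Z2 u = 0 := by
    simp only [hZ2, L.sub_left, L.smul_left, hZ, huu, hY'u]
    push_cast
    ring
  have huZ2 : L.h u Z2 = 0 := by rw [L.symm Z2 u, hZ2u]; simp
  have huX2 : L.h u X2 = 0 := by rw [L.symm X2 u, hX2u]; simp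
  have eX : X = ((1 / 2 : ℝ) : ℂ) • u + α • Y' + X2 := by rw [hX2]; abel
  have eZ : Z = ((1 / 2 : ℝ) : ℂ) • u + β • Y' + Z2 := by rw [hZ2]; abel
  have hXZ : L.h X Z = 1 / 2 - (δ : ℂ) * α * conj β + L.h X2 Z2 := by
    rw [eX, eZ]
    simp only [L.add_left, L.add_right, L.smul_left, L.smul_right, huu, huY', hY'u, hX2u, huZ2,
      hX2Y, hYZ2, hYY']
    push_cast
    simp only [map_div₀, map_one, Complex.conj_ofNat]
    ring
  have hXX : L.h X X = 1 / 2 - (δ : ℂ) * α * conj α + L.h X2 X2 := by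
    conv_lhs => rw [eX]
    simp only [L.add_left, L.add_right, L.smul_left, L.smul_right, huu, huY', hY'u, hX2u, huX2,
      hX2Y, hYX2, hYY']
    push_cast
    simp only [map_div₀, map_one, Complex.conj_ofNat]
    ring
  have hZZ : L.h Z Z = 1 / 2 - (δ : ℂ) * β * conj β + L.h Z2 Z2 := by
    conv_lhs => rw [eZ]
    simp only [L.add_left, L.add_right, L.smul_left, L.smul_right, huu, huY', hY'u, hZ2u, huZ2,
      hZ2Y, hYZ2, hYY']
    push_cast
    simp only [map_div₀, map_one, Complex.conj_ofNat]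
    ring
  -- bounds for the `2`-parts
  have hsy0 : 0 ≤ sy := by linarith
  have hδs : 1 / 2 - sy ≤ δ := by rw [hδ]; linarith
  have hδu : δ ≤ 1 / 2 + sy := by rw [hδ]; linarith
  have bX := aux_bd hδ0 hδ1 hδs hsy0 rfl rfl hα ha hXX hxx
  have bZ := aux_bd hδ0 hδ1 hδs hsy0 rfl rfl hβ hb hZZ hzz
  have cs := L.cs_am hneg hX2Y hZ2Y
  have mt := aux_mt hδ0 hδ1 hδs hδu hsy0 hα hβ ha hb
  rw [hXZ]
  refine (norm_add_le _ _).trans ?_
  linarith

/-! ### The scale free quantity `D` -/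

/-- `D L u x y = ‖h x y‖ / (‖h x u‖ ‖h y u‖)`: small iff `x`, `y` are close as seen from `u`. -/
noncomputable def D (L : Lor V) (u x y : V) : ℝ := ‖L.h x y‖ / (‖L.h x u‖ * ‖L.h y u‖)

theorem D_nonneg (L : Lor V) (u x y : V) : 0 ≤ D L u x y := by
  unfold D; positivity

theorem D_symm (L : Lor V) (u x y : V) : D L u x y = D L u y x := by
  unfold D; rw [L.norm_symm x y, mul_comm]

/-- Quasi-metric inequality. -/
theorem qm (L : Lor V) {u x y z : V} {sx sy sz : ℝ}
    (huu : L.h u u = 2) (hx : L.h x u ≠ 0) (hy : L.h y u ≠ 0) (hz : L.h z u ≠ 0)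
    (hyy : |(L.h y y).re| ≤ sy * ‖L.h y u‖ ^ 2) (hsy : sy ≤ 1 / 10)
    (hxx : (L.h x x).re ≤ sx * ‖L.h x u‖ ^ 2) (hzz : (L.h z z).re ≤ sz * ‖L.h z u‖ ^ 2)
    (ha : D L u x y ≤ 1) (hb : D L u z y ≤ 1) :
    D L u x z ≤ 5 * (D L u x y + D L u z y) + 5 / 2 * sy + (sx + sz) / 2 := by
  have key : ∀ a b : V, L.h a u ≠ 0 → L.h b u ≠ 0 →
      ‖L.h ((L.h a u)⁻¹ • a) ((L.h b u)⁻¹ • b)‖ = D L u a b := by
    intro a b ha hb
    rw [L.smul_left, L.smul_right, norm_mul, norm_mul, Complex.norm_conj, norm_inv, norm_inv]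
    unfold D
    have h1 : ‖L.h a u‖ ≠ 0 := by simpa using ha
    have h2 : ‖L.h b u‖ ≠ 0 := by simpa using hb
    field_simp
  have nrm : ∀ a : V, L.h a u ≠ 0 → L.h ((L.h a u)⁻¹ • a) u = 1 := by
    intro a ha
    rw [L.smul_left]
    exact inv_mul_cancel₀ ha
  have self : ∀ a : V, L.h a u ≠ 0 →
      (L.h ((L.h a u)⁻¹ • a) ((L.h a u)⁻¹ • a)).re = (L.h a a).re / ‖L.h a u‖ ^ 2 := by
    intro a ha
    rw [L.smul_left, L.smul_right, ← mul_assoc, Complex.mul_conj, Complex.normSq_eq_norm_sq,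
      Complex.re_ofReal_mul, norm_inv]
    have h1 : ‖L.h a u‖ ≠ 0 := by simpa using ha
    field_simp
  have pos : ∀ a : V, L.h a u ≠ 0 → 0 < ‖L.h a u‖ ^ 2 := by
    intro a ha
    have h1 : ‖L.h a u‖ ≠ 0 := by simpa using ha
    positivity
  have := qm_norm L (u := u) (X := (L.h x u)⁻¹ • x) (Y := (L.h y u)⁻¹ • y)
    (Z := (L.h z u)⁻¹ • z) (sx := sx) (sy := sy) (sz := sz) huu (nrm x hx) (nrm y hy) (nrm z hz)
    (by
      rw [self y hy, abs_div, abs_of_pos (pos y hy), div_le_iff₀ (pos y hy)]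
      exact hyy) hsy
    (by rw [self x hx, div_le_iff₀ (pos x hx)]; exact hxx)
    (by rw [self z hz, div_le_iff₀ (pos z hz)]; exact hzz)
    (by rw [key x y hx hy]; exact ha) (by rw [key z y hz hy]; exact hb)
  rwa [key x z hx hz, key x y hx hy, key z y hz hy] at this

/-- Lower bound form of the quasi-metric inequality. -/
theorem ql (L : Lor V) {u x y z : V} {sx sy sz β : ℝ}
    (huu : L.h u u = 2) (hx : L.h x u ≠ 0) (hy : L.h y u ≠ 0) (hz : L.h z u ≠ 0)
    (hyy : |(L.h y y).re| ≤ sy * ‖L.h y u‖ ^ 2) (hsy : sy ≤ 1 / 10)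
    (hxx : (L.h x x).re ≤ sx * ‖L.h x u‖ ^ 2) (hzz : (L.h z z).re ≤ sz * ‖L.h z u‖ ^ 2)
    (hβ : β ≤ 6) (hb : D L u z y ≤ 1)
    (herr : 5 * D L u z y + 5 / 2 * sy + (sx + sz) / 2 ≤ β / 6)
    (hxz : β ≤ D L u x z) : β / 6 ≤ D L u x y := by
  by_cases ha : D L u x y ≤ 1
  · have := qm L huu hx hy hz hyy hsy hxx hzz ha hb
    linarith
  · push Not at ha
    linarith

/-- The Behrstock identity. -/
theorem ident (L : Lor V) {u v x : V} (h1 : L.h u v ≠ 0) (h2 : L.h x u ≠ 0)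
    (h3 : L.h x v ≠ 0) :
    D L u v x * D L v u x = 1 / ‖L.h u v‖ ^ 2 := by
  unfold D
  have e1 : ‖L.h v u‖ = ‖L.h u v‖ := L.norm_symm v u
  have e2 : ‖L.h v x‖ = ‖L.h x v‖ := L.norm_symm v x
  have e3 : ‖L.h u x‖ = ‖L.h x u‖ := L.norm_symm u x
  rw [e1, e2, e3]
  have h1' : ‖L.h u v‖ ≠ 0 := by simpa using h1
  have h2' : ‖L.h x u‖ ≠ 0 := by simpa using h2
  have h3' : ‖L.h x v‖ ≠ 0 := by simpa using h3
  field_simp

/-! ### Reflections -/

/-- The reflection in a vector of norm `2`. -/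
def rho (L : Lor V) (w x : V) : V := x - L.h x w • w

theorem rho_neg (L : Lor V) (w x : V) : rho L (-w) x = rho L w x := by
  unfold rho
  rw [L.neg_right]; simp

theorem h_rho_left (L : Lor V) (w x y : V) :
    L.h (rho L w x) y = L.h x y - L.h x w * L.h w y := by
  unfold rho
  rw [L.sub_left, L.smul_left]

theorem h_rho_right (L : Lor V) (w x y : V) :
    L.h x (rho L w y) = L.h x y - conj (L.h y w) * L.h x w := by
  unfold rho
  rw [L.sub_right, L.smul_right]

theorem h_rho_rho (L : Lor V) {w : V} (hw : L.h w w = 2) (x y : V) :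
    L.h (rho L w x) (rho L w y) = L.h x y := by
  rw [h_rho_left, h_rho_right, h_rho_right, hw, ← L.symm y w]
  ring

theorem rho_rho (L : Lor V) {w : V} (hw : L.h w w = 2) (x : V) :
    rho L w (rho L w x) = x := by
  have : L.h (rho L w x) w = - L.h x w := by
    rw [h_rho_left, hw]; ring
  unfold rho at *
  rw [this]
  module

theorem rho_self (L : Lor V) {w : V} (hw : L.h w w = 2) : rho L w w = -w := by
  unfold rho
  rw [hw]; module

theorem h_rho_w (L : Lor V) {w : V} (hw : L.h w w = 2) (x : V) :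
    L.h (rho L w x) w = - L.h x w := by
  rw [h_rho_left, hw]; ring

theorem rho_add (L : Lor V) (w x y : V) : rho L w (x + y) = rho L w x + rho L w y := by
  unfold rho
  rw [L.add_left]; module

theorem rho_smul (L : Lor V) (w : V) (c : ℂ) (x : V) : rho L w (c • x) = c • rho L w x := by
  unfold rho
  rw [L.smul_left]; module

theorem rho_negx (L : Lor V) (w x : V) : rho L w (-x) = - rho L w x := by
  have := rho_smul L w (-1) x
  simpa using this

/-- Conjugation of a reflection. -/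
theorem rho_conj (L : Lor V) {g : V → V} (gadd : ∀ x y, g (x + y) = g x + g y)
    (gsmul : ∀ (c : ℂ) x, g (c • x) = c • g x) (giso : ∀ x y, L.h (g x) (g y) = L.h x y)
    (w x : V) : rho L (g w) (g x) = g (rho L w x) := by
  unfold rho
  rw [giso, sub_eq_add_neg, sub_eq_add_neg, gadd]
  congr 1
  have : -(L.h x w • w) = (-(L.h x w)) • w := by module
  rw [this, gsmul]
  module

theorem D_rho (L : Lor V) {w : V} (hw : L.h w w = 2) (u x y : V) :
    D L (rho L w u) (rho L w x) (rho L w y) = D L u x y := by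
  unfold D
  rw [h_rho_rho L hw, h_rho_rho L hw, h_rho_rho L hw]

/-- The reflection inequality. -/
theorem D_refl (L : Lor V) {s x y : V} (hs : L.h s s = 2) (hx : L.h x s ≠ 0)
    (hy : L.h y s ≠ 0) : 1 - D L s x y ≤ D L s x (rho L s y) := by
  have h1 : ‖L.h x s‖ ≠ 0 := by simpa using hx
  have h2 : ‖L.h y s‖ ≠ 0 := by simpa using hy
  have e : ‖L.h (rho L s y) s‖ = ‖L.h y s‖ := by rw [h_rho_w L hs, norm_neg]
  unfold D
  rw [e]
  have h3 : ‖L.h x s‖ * ‖L.h y s‖ - ‖L.h x y‖ ≤ ‖L.h x (rho L s y)‖ := by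
    have hh : ‖L.h x (rho L s y)‖ = ‖conj (L.h y s) * L.h x s - L.h x y‖ := by
      rw [h_rho_right, norm_sub_rev]
    rw [hh]
    have h4 : ‖conj (L.h y s) * L.h x s‖ = ‖L.h x s‖ * ‖L.h y s‖ := by
      rw [norm_mul, Complex.norm_conj, mul_comm]
    calc ‖L.h x s‖ * ‖L.h y s‖ - ‖L.h x y‖ = ‖conj (L.h y s) * L.h x s‖ - ‖L.h x y‖ := by rw [h4]
      _ ≤ _ := norm_sub_norm_le _ _
  have hpos : 0 < ‖L.h x s‖ * ‖L.h y s‖ := by positivity
  rw [sub_le_iff_le_add, ← add_div, le_div_iff₀ hpos]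
  linarith

/-! ### Points -/

/-- Pairings with a point: `‖h a b‖ ≤ ‖h a o‖ ‖h o b‖ + √.. √..`, in a crude form. -/
theorem point_bound (L : Lor V) {o a b : V} (ho : L.h o o = -1) :
    ‖L.h a b + L.h a o * L.h o b‖ ^ 2
      ≤ ((L.h a a).re + ‖L.h a o‖ ^ 2) * ((L.h b b).re + ‖L.h b o‖ ^ 2) := by
  have hneg : (L.h o o).re < 0 := by rw [ho]; norm_num
  set a' : V := a + L.h a o • o with ha'
  set b' : V := b + L.h b o • o with hb'
  have h1 : L.h a' o = 0 := by rw [ha', L.add_left, L.smul_left, ho]; ring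
  have h2 : L.h b' o = 0 := by rw [hb', L.add_left, L.smul_left, ho]; ring
  have cs := L.cs hneg h1 h2
  have hob : conj (L.h b o) = L.h o b := by rw [← L.symm]
  have hoa : conj (L.h a o) = L.h o a := by rw [← L.symm]
  have e : L.h a' b' = L.h a b + L.h a o * L.h o b := by
    rw [ha', hb', L.add_left, L.add_right, L.add_right, L.smul_left, L.smul_left, L.smul_right,
      L.smul_right, ho, hob]
    ring
  have ea : (L.h a' a').re = (L.h a a).re + ‖L.h a o‖ ^ 2 := by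
    have : L.h a' a' = L.h a a + ((‖L.h a o‖ ^ 2 : ℝ) : ℂ) := by
      rw [ha', L.add_left, L.add_right, L.add_right, L.smul_left, L.smul_left, L.smul_right,
        L.smul_right, ho, ← Complex.normSq_eq_norm_sq, ← Complex.mul_conj, hoa]
      ring
    rw [this, Complex.add_re, Complex.ofReal_re]
  have eb : (L.h b' b').re = (L.h b b).re + ‖L.h b o‖ ^ 2 := by
    have : L.h b' b' = L.h b b + ((‖L.h b o‖ ^ 2 : ℝ) : ℂ) := by
      rw [hb', L.add_left, L.add_right, L.add_right, L.smul_left, L.smul_left, L.smul_right,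
        L.smul_right, ho, ← Complex.normSq_eq_norm_sq, ← Complex.mul_conj, hob]
      ring
    rw [this, Complex.add_re, Complex.ofReal_re]
  rw [e, ea, eb] at cs
  exact cs

/-- Two points have pairing at least `1`. -/
theorem one_le_points (L : Lor V) {o p : V} (ho : L.h o o = -1) (hp : L.h p p = -1) :
    1 ≤ ‖L.h p o‖ := by
  have hneg : (L.h o o).re < 0 := by rw [ho]; norm_num
  have h1 : L.h (p + L.h p o • o) o = 0 := by rw [L.add_left, L.smul_left, ho]; ring
  have h2 := L.neg o _ hneg h1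
  have hoa : conj (L.h p o) = L.h o p := by rw [← L.symm]
  have : L.h (p + L.h p o • o) (p + L.h p o • o) = L.h p p + ((‖L.h p o‖ ^ 2 : ℝ) : ℂ) := by
    rw [L.add_left, L.add_right, L.add_right, L.smul_left, L.smul_left, L.smul_right,
      L.smul_right, ho, ← Complex.normSq_eq_norm_sq, ← Complex.mul_conj, hoa]
    ring
  rw [this, Complex.add_re, Complex.ofReal_re, hp] at h2
  have h3 : 1 ≤ ‖L.h p o‖ ^ 2 := by
    have : (-1 : ℂ).re = -1 := by simp
    rw [this] at h2; linarith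
  nlinarith [norm_nonneg (L.h p o)]

end Crest.Agent.R272.LBForm_585
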