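import Crest.Agent.R272.LBForm_585

/-!
# R272 / LB-GR, part 1: words in reflections, the chain lemma, the windmill step (far part)
-/

set_option autoImplicit false
set_option linter.unusedSectionVars false

open Complex ComplexConjugate

namespace Crest.Agent.R272.LBWord_585

open Crest.Agent.R272.LBForm_585

variable {V : Type*} [AddCommGroup V] [Module ℂ V]

/-- Parallel up to a unit scalar. -/
def Par (x y : V) : Prop := ∃ c : ℂ, ‖c‖ = 1 ∧ y = c • x

theorem Par.rfl' (x : V) : Par x x := ⟨1, by simp, by simp⟩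

theorem Par.symm {x y : V} (h : Par x y) : Par y x := by
  obtain ⟨c, hc, rfl⟩ := h
  have h0 : c ≠ 0 := by
    intro h; rw [h] at hc; simp at hc
  exact ⟨c⁻¹, by rw [norm_inv, hc]; simp, by rw [smul_smul, inv_mul_cancel₀ h0, one_smul]⟩

theorem Par.trans {x y z : V} (h : Par x y) (h' : Par y z) : Par x z := by
  obtain ⟨c, hc, rfl⟩ := h
  obtain ⟨d, hd, rfl⟩ := h'
  exact ⟨d * c, by rw [norm_mul, hc, hd]; simp, by rw [smul_smul]⟩

theorem Par.neg (x : V) : Par x (-x) := ⟨-1, by simp, by simp⟩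

variable (L : Lor V)

variable {L} in
theorem Par.norm_right {x y : V} (h : Par x y) (z : V) : ‖L.h z y‖ = ‖L.h z x‖ := by
  obtain ⟨c, hc, rfl⟩ := h
  rw [L.smul_right, norm_mul, Complex.norm_conj, hc, one_mul]

variable {L} in
theorem Par.norm_left {x y : V} (h : Par x y) (z : V) : ‖L.h y z‖ = ‖L.h x z‖ := by
  obtain ⟨c, hc, rfl⟩ := h
  rw [L.smul_left, norm_mul, hc, one_mul]

variable {L} in
theorem Par.self {x y : V} (h : Par x y) : L.h y y = L.h x x := by
  obtain ⟨c, hc, rfl⟩ := h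
  rw [L.smul_left, L.smul_right, ← mul_assoc, Complex.mul_conj, Complex.normSq_eq_norm_sq, hc]
  simp

variable {L} in
theorem Par.rho {x y : V} (h : Par x y) (z : V) : rho L y z = rho L x z := by
  obtain ⟨c, hc, rfl⟩ := h
  unfold LBForm_585.rho
  rw [L.smul_right, smul_smul]
  congr 2
  have : conj c * c = 1 := by
    rw [mul_comm, Complex.mul_conj, Complex.normSq_eq_norm_sq, hc]; simp
  calc conj c * L.h z x * c = (conj c * c) * L.h z x := by ring
    _ = L.h z x := by rw [this, one_mul]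

variable {L} in
theorem Par.D {u u' : V} (h : Par u u') (x y : V) : D L u' x y = D L u x y := by
  unfold LBForm_585.D
  rw [h.norm_right, h.norm_right]

theorem Par.rho' {x y : V} (w : V) (h : Par x y) : Par (LBForm_585.rho L w x) (LBForm_585.rho L w y) := by
  obtain ⟨c, hc, rfl⟩ := h
  exact ⟨c, hc, rho_smul L w c x⟩

/-- Composition of reflections: `W [w1,...,wk] x = ρ_{w1} ... ρ_{wk} x`. -/
def W (l : List V) (x : V) : V := l.foldr (fun w y => rho L w y) x

@[simp] theorem W_nil (x : V) : W L [] x = x := rfl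

@[simp] theorem W_cons (w : V) (l : List V) (x : V) : W L (w :: l) x = rho L w (W L l x) := rfl

theorem W_append (p q : List V) (x : V) : W L (p ++ q) x = W L p (W L q x) := by
  unfold W; rw [List.foldr_append]

theorem W_add (l : List V) (x y : V) : W L l (x + y) = W L l x + W L l y := by
  induction l with
  | nil => rfl
  | cons w l ih => rw [W_cons, W_cons, W_cons, ih, rho_add]

theorem W_smul (l : List V) (c : ℂ) (x : V) : W L l (c • x) = c • W L l x := by
  induction l with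
  | nil => rfl
  | cons w l ih => rw [W_cons, W_cons, ih, rho_smul]

theorem W_neg (l : List V) (x : V) : W L l (-x) = - W L l x := by
  have := W_smul L l (-1) x
  simpa using this

/-- All letters have norm `2`. -/
def N2 (l : List V) : Prop := ∀ w ∈ l, L.h w w = 2

variable {L}

theorem N2.tail {w : V} {l : List V} (h : N2 L (w :: l)) : N2 L l :=
  fun x hx => h x (List.mem_cons_of_mem _ hx)

theorem N2.head {w : V} {l : List V} (h : N2 L (w :: l)) : L.h w w = 2 :=
  h w List.mem_cons_self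

theorem N2.reverse {l : List V} (h : N2 L l) : N2 L l.reverse :=
  fun x hx => h x (List.mem_reverse.1 hx)

theorem N2.append {p q : List V} (h : N2 L p) (h' : N2 L q) : N2 L (p ++ q) := by
  intro x hx
  rcases List.mem_append.1 hx with hx | hx
  · exact h x hx
  · exact h' x hx

theorem h_W_W {l : List V} (hl : N2 L l) (x y : V) : L.h (W L l x) (W L l y) = L.h x y := by
  induction l with
  | nil => rfl
  | cons w l ih => rw [W_cons, W_cons, h_rho_rho L hl.head, ih hl.tail]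

theorem D_W {l : List V} (hl : N2 L l) (u x y : V) :
    D L (W L l u) (W L l x) (W L l y) = D L u x y := by
  unfold D
  rw [h_W_W hl, h_W_W hl, h_W_W hl]

theorem W_reverse {l : List V} (hl : N2 L l) (x : V) : W L l.reverse (W L l x) = x := by
  induction l generalizing x with
  | nil => rfl
  | cons w l ih =>
    rw [List.reverse_cons, W_append, W_cons, W_cons, W_nil, rho_rho L hl.head, ih hl.tail]

theorem W_reverse' {l : List V} (hl : N2 L l) (x : V) : W L l (W L l.reverse x) = x := by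
  have := W_reverse (L := L) (l := l.reverse) hl.reverse x
  rwa [List.reverse_reverse] at this

theorem Par.W {x y : V} (l : List V) (h : Par x y) : Par (W L l x) (W L l y) := by
  obtain ⟨c, hc, rfl⟩ := h
  exact ⟨c, hc, W_smul L l c x⟩

theorem rho_W {l : List V} (hl : N2 L l) (a x : V) :
    rho L (W L l a) x = W L l (rho L a (W L l.reverse x)) := by
  have := rho_conj L (g := LBWord_585.W L l) (W_add L l) (W_smul L l) (h_W_W hl) a
    (LBWord_585.W L l.reverse x)
  rwa [W_reverse' hl] at this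

theorem rho_map {a : V} (ha : L.h a a = 2) (l : List V) (x : V) :
    rho L a (W L l x) = W L (l.map (rho L a)) (rho L a x) := by
  induction l with
  | nil => rfl
  | cons w l ih =>
    rw [List.map_cons, W_cons, W_cons, ← ih]
    have := rho_conj L (g := rho L a) (rho_add L a) (rho_smul L a) (h_rho_rho L ha) w (W L l x)
    rw [this]

/-! ### The mirror system -/

/-- A system of mirrors: norm `2`, closed under its reflections, separated. -/
structure Sys (L : Lor V) (𝓦 : Set V) : Prop where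
  norm : ∀ w ∈ 𝓦, L.h w w = 2
  refl : ∀ w ∈ 𝓦, ∀ w' ∈ 𝓦, rho L w w' ∈ 𝓦
  sep : ∀ w ∈ 𝓦, ∀ w' ∈ 𝓦, Par w w' ∨ (10 : ℝ) ^ 10 ≤ ‖L.h w w'‖

theorem Sys.W_mem {𝓦 : Set V} (hS : Sys L 𝓦) {l : List V} (hl : ∀ w ∈ l, w ∈ 𝓦) {x : V}
    (hx : x ∈ 𝓦) : W L l x ∈ 𝓦 := by
  induction l with
  | nil => exact hx
  | cons w l ih =>
    exact hS.refl w (hl w List.mem_cons_self) _ (ih (fun v hv => hl v (List.mem_cons_of_mem _ hv)))

theorem Sys.n2 {𝓦 : Set V} (hS : Sys L 𝓦) {l : List V} (hl : ∀ w ∈ l, w ∈ 𝓦) : N2 L l :=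
  fun w hw => hS.norm w (hl w hw)

/-- Hypotheses of the windmill step. -/
structure Stp (L : Lor V) (𝓦 M S : Set V) : Prop where
  sub : ∀ x ∈ M, x ∈ 𝓦 ∨ L.h x x = -1
  par : ∀ w ∈ M, ∀ w' ∈ 𝓦, Par w w' → w' ∈ M
  refl : ∀ w ∈ M, w ∈ 𝓦 → ∀ x ∈ M, rho L w x ∈ M
  Ssub : S ⊆ 𝓦
  Spar : ∀ s ∈ S, ∀ w' ∈ 𝓦, Par s w' → w' ∈ S
  Srefl : ∀ w ∈ M, w ∈ 𝓦 → ∀ s ∈ S, rho L w s ∈ S
  s0 : ∀ s ∈ S, ∀ e ∈ M ∪ S, ¬ Par s e → 1 ≤ ‖L.h e s‖
  s1 : ∀ s ∈ S, ∀ e ∈ M ∪ S, ∀ e' ∈ M ∪ S, ¬ Par s e → ¬ Par s e' →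
    1 / 2 ≤ D L s e (rho L s e')
  s2 : ∀ v ∈ 𝓦, v ∉ M → v ∉ S → ∀ e ∈ M ∪ S, ∀ e' ∈ M ∪ S,
    (10 : ℝ) ^ 6 * ‖L.h e e'‖ ≤ ‖L.h e v‖ * ‖L.h e' v‖

/-- The new set. -/
def Mp (L : Lor V) (M S : Set V) : Set V :=
  {x | ∃ l : List V, (∀ t ∈ l, t ∈ S) ∧ ∃ a ∈ M ∪ S, x = W L l a}

section step

variable {𝓦 M S : Set V} (hW : Sys L 𝓦) (hT : Stp L 𝓦 M S)

include hW hT

/-- An element of `M ∪ S` which is not a mirror is a point. -/
theorem cases_E {a : V} (ha : a ∈ M ∪ S) : a ∈ 𝓦 ∨ L.h a a = -1 := by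
  rcases ha with h | h
  · exact hT.sub a h
  · exact Or.inl (hT.Ssub h)

/-- Smallness of the norm term. -/
theorem small_of {a t : V} (ha : a ∈ M ∪ S) (ht : t ∈ 𝓦) (hp : ¬ Par t a) :
    (L.h a a).re ≤ 1 / 10 ^ 15 * ‖L.h a t‖ ^ 2 := by
  rcases cases_E hW hT ha with h | h
  · rcases hW.sep t ht a h with h' | h'
    · exact absurd h' hp
    · rw [hW.norm a h]
      rw [L.norm_symm t a] at h'
      have : ((10 : ℝ) ^ 10) ^ 2 ≤ ‖L.h a t‖ ^ 2 := by gcongr
      norm_num at this ⊢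
      linarith
  · rw [h]
    have : 0 ≤ ‖L.h a t‖ ^ 2 := by positivity
    norm_num
    linarith

theorem re_le_two {a : V} (ha : a ∈ M ∪ S) : |(L.h a a).re| ≤ 2 := by
  rcases cases_E hW hT ha with h | h
  · rw [hW.norm a h]; norm_num
  · rw [h]; norm_num

/-- The next mirror is visually close. -/
theorem next_small {t t2 b y : V} (ht : t ∈ S) (ht2 : t2 ∈ S) (hb : b ∈ M ∪ S)
    (hp : ¬ Par t t2) (hyb : L.h y y = L.h b b) (hy1 : 1 ≤ ‖L.h y t2‖)
    (j1 : 1 / 12 ≤ D L t2 t (rho L t2 y)) :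
    (10 : ℝ) ^ 10 / 12 ≤ ‖L.h (rho L t2 y) t‖ ∧
    |(L.h (rho L t2 y) (rho L t2 y)).re| ≤ 1 / 10 ^ 15 * ‖L.h (rho L t2 y) t‖ ^ 2 ∧
    D L t t2 (rho L t2 y) ≤ 1 / 10 ^ 15 := by
  have htW : t ∈ 𝓦 := hT.Ssub ht
  have ht2W : t2 ∈ 𝓦 := hT.Ssub ht2
  have nt2 : L.h t2 t2 = 2 := hW.norm t2 ht2W
  have hsep : (10 : ℝ) ^ 10 ≤ ‖L.h t t2‖ := by
    rcases hW.sep t htW t2 ht2W with h | h
    · exact absurd h hp
    · exact h
  set z := rho L t2 y with hz
  have j2 : ‖L.h z t2‖ = ‖L.h y t2‖ := by rw [hz, h_rho_w L nt2, norm_neg]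
  have hy2 : 1 ≤ ‖L.h z t2‖ := by rw [j2]; exact hy1
  have hbig : (1 / 12) * (‖L.h t t2‖ * ‖L.h z t2‖) ≤ ‖L.h t z‖ := by
    have hpos : 0 < ‖L.h t t2‖ * ‖L.h z t2‖ := by positivity
    have : 1 / 12 ≤ ‖L.h t z‖ / (‖L.h t t2‖ * ‖L.h z t2‖) := j1
    rwa [le_div_iff₀ hpos] at this
  have hbig2 : (10 : ℝ) ^ 10 / 12 ≤ ‖L.h z t‖ := by
    rw [L.norm_symm z t]
    have : (10 : ℝ) ^ 10 * 1 ≤ ‖L.h t t2‖ * ‖L.h z t2‖ := by gcongr
    linarith
  have hnz : L.h z t ≠ 0 := by
    intro h0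
    rw [h0, norm_zero] at hbig2
    norm_num at hbig2
  have hzz : L.h z z = L.h b b := by
    rw [hz, h_rho_rho L nt2, hyb]
  have hzz2 : |(L.h z z).re| ≤ 1 / 10 ^ 15 * ‖L.h z t‖ ^ 2 := by
    rw [hzz]
    have h1 := re_le_two hW hT hb
    have h2 : ((10 : ℝ) ^ 10 / 12) ^ 2 ≤ ‖L.h z t‖ ^ 2 := by gcongr
    norm_num at h2 ⊢
    linarith
  have hD2 : D L t t2 z ≤ 1 / 10 ^ 15 := by
    have id := ident L (u := t2) (v := t) (x := z)
      (by intro h0; rw [L.norm_symm, h0, norm_zero] at hsep; norm_num at hsep)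
      (by intro h0; rw [h0, norm_zero] at hy2; norm_num at hy2) hnz
    have h3 : D L t2 t z * D L t t2 z = 1 / ‖L.h t t2‖ ^ 2 := by
      rw [L.norm_symm t t2, ← id]
    have h4 : 0 ≤ D L t t2 z := D_nonneg L _ _ _
    have h5 : (1 / 12) * D L t t2 z ≤ 1 / ‖L.h t t2‖ ^ 2 := by
      rw [← h3]
      gcongr
    have h6 : 1 / ‖L.h t t2‖ ^ 2 ≤ 1 / ((10 : ℝ) ^ 10) ^ 2 := by gcongr
    norm_num at h6 h5 ⊢
    linarith
  exact ⟨hbig2, hzz2, hD2⟩

/-- One-sided chain lemma. -/
theorem chain_one (l : List V) : ∀ (t b : V), (∀ x ∈ t :: l, x ∈ S) → b ∈ M ∪ S →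
    List.IsChain (fun x y => ¬ Par x y) (t :: (l ++ [b])) →
    (∀ e ∈ M ∪ S, ¬ Par t e → 1 / 12 ≤ D L t e (rho L t (W L l b))) ∧
    1 ≤ ‖L.h (W L l b) t‖ ∧ (L.h b b).re ≤ 1 / 10 ^ 15 * ‖L.h (W L l b) t‖ ^ 2 := by
  induction l with
  | nil =>
    intro t b hl hb hc
    have ht : t ∈ S := hl t List.mem_cons_self
    have hp : ¬ Par t b := by
      rw [List.nil_append, List.isChain_cons_cons] at hc
      exact hc.1
    refine ⟨?_, ?_, ?_⟩
    · intro e he hte
      have := hT.s1 t ht e he b hb hte hp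
      rw [W_nil]
      linarith
    · exact hT.s0 t ht b hb hp
    · exact small_of hW hT hb (hT.Ssub ht) hp
  | cons t2 l ih =>
    intro t b hl hb hc
    have ht : t ∈ S := hl t List.mem_cons_self
    have ht2 : t2 ∈ S := hl t2 (List.mem_cons_of_mem _ List.mem_cons_self)
    rw [List.cons_append, List.isChain_cons_cons] at hc
    obtain ⟨hp, hc2⟩ := hc
    obtain ⟨i1, i2, i3⟩ := ih t2 b (fun x hx => hl x (List.mem_cons_of_mem _ hx)) hb hc2
    have hp' : ¬ Par t2 t := fun h => hp h.symm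
    have htW : t ∈ 𝓦 := hT.Ssub ht
    have ht2W : t2 ∈ 𝓦 := hT.Ssub ht2
    have hl2 : N2 L l := hW.n2 (fun x hx => hT.Ssub
      (hl x (List.mem_cons_of_mem _ (List.mem_cons_of_mem _ hx))))
    have ntt : L.h t t = 2 := hW.norm t htW
    have nt2 : L.h t2 t2 = 2 := hW.norm t2 ht2W
    have hsep : (10 : ℝ) ^ 10 ≤ ‖L.h t t2‖ := by
      rcases hW.sep t htW t2 ht2W with h | h
      · exact absurd h hp
      · exact h
    obtain ⟨hbig2, hzz2, hD2⟩ := next_small hW hT ht ht2 hb hp (h_W_W hl2 b b) i2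
      (i1 t (Or.inr ht) hp')
    set y := W L l b with hy
    set z := rho L t2 y with hz
    have hW2 : W L (t2 :: l) b = z := rfl
    rw [hW2]
    have hzz : L.h z z = L.h b b := by
      rw [hz, h_rho_rho L nt2, hy, h_W_W hl2]
    refine ⟨?_, ?_, ?_⟩
    · intro e he hte
      have hen : 1 ≤ ‖L.h e t‖ := hT.s0 t ht e he hte
      have h2n : 1 ≤ ‖L.h t2 t‖ := by
        rw [L.norm_symm]; refine le_trans ?_ hsep; norm_num
      have e1 : ‖L.h (rho L t z) t‖ = ‖L.h z t‖ := by rw [h_rho_w L ntt, norm_neg]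
      have e2 : ‖L.h (rho L t t2) t‖ = ‖L.h t2 t‖ := by rw [h_rho_w L ntt, norm_neg]
      have e3 : L.h (rho L t z) (rho L t z) = L.h z z := h_rho_rho L ntt _ _
      have e4 : L.h (rho L t t2) (rho L t t2) = L.h t2 t2 := h_rho_rho L ntt _ _
      have e5 : D L t (rho L t t2) (rho L t z) = D L t t2 z := by
        have := D_rho L ntt t t2 z
        rw [rho_self L ntt] at this
        rw [← this]
        exact ((Par.neg t).D _ _).symm
      have s1 := hT.s1 t ht e he t2 (Or.inr ht2) hte hp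
      have := ql L (u := t) (x := e) (y := rho L t z) (z := rho L t t2)
        (sx := 1 / 10 ^ 15) (sy := 1 / 10 ^ 15) (sz := 1 / 10 ^ 15) (β := 1 / 2) ntt
        (by intro h0; rw [h0, norm_zero] at hen; norm_num at hen)
        (by intro h0; rw [h0, norm_zero] at e1; rw [← e1] at hbig2; norm_num at hbig2)
        (by intro h0; rw [h0, norm_zero] at e2; rw [← e2] at h2n; norm_num at h2n)
        (by rw [e1, e3]; exact hzz2) (by norm_num)
        (small_of hW hT he htW hte)
        (by rw [e2, e4]; exact small_of hW hT (Or.inr ht2) htW hp)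
        (by norm_num) (by rw [e5]; refine hD2.trans ?_; norm_num)
        (by rw [e5]; norm_num at hD2 ⊢; linarith) s1
      linarith
    · refine le_trans ?_ hbig2; norm_num
    · rw [← hzz]; exact (le_abs_self _).trans hzz2

/-- Two-sided chain lemma: the translated mirror `W p t` lies between the ends. -/
theorem chain_two {p q : List V} {t a b : V} (hl : ∀ x ∈ p ++ t :: q, x ∈ S) (ha : a ∈ M ∪ S)
    (hb : b ∈ M ∪ S) (hc : List.IsChain (fun x y => ¬ Par x y) (a :: (p ++ t :: (q ++ [b])))) :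
    1 / 72 ≤ D L (W L p t) a (W L (p ++ t :: q) b) ∧
    (L.h a a).re ≤ 1 / 10 ^ 15 * ‖L.h a (W L p t)‖ ^ 2 ∧
    (L.h b b).re ≤ 1 / 10 ^ 15 * ‖L.h (W L (p ++ t :: q) b) (W L p t)‖ ^ 2 ∧
    1 ≤ ‖L.h a (W L p t)‖ ∧ 1 ≤ ‖L.h (W L (p ++ t :: q) b) (W L p t)‖ := by
  have ht : t ∈ S := hl t (by simp)
  have htW : t ∈ 𝓦 := hT.Ssub ht
  have ntt : L.h t t = 2 := hW.norm t htW
  have hpS : ∀ x ∈ p, x ∈ S := fun x hx => hl x (by simp [hx])
  have hqS : ∀ x ∈ q, x ∈ S := fun x hx => hl x (by simp [hx])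
  have hp2 : N2 L p := hW.n2 (fun x hx => hT.Ssub (hpS x hx))
  have hq2 : N2 L q := hW.n2 (fun x hx => hT.Ssub (hqS x hx))
  have hsplit : a :: (p ++ t :: (q ++ [b])) = (a :: p) ++ t :: (q ++ [b]) := by simp
  rw [hsplit, List.isChain_split] at hc
  obtain ⟨hcl, hcr⟩ := hc
  have hcl' : List.IsChain (fun x y => ¬ Par x y) (t :: (p.reverse ++ [a])) := by
    have e : t :: (p.reverse ++ [a]) = ((a :: p) ++ [t]).reverse := by simp
    rw [e, List.isChain_reverse]
    exact hcl.imp (fun x y hxy h => hxy h.symm)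
  obtain ⟨r1, r2, r3⟩ := chain_one hW hT q t b
    (by intro x hx
        rcases List.mem_cons.1 hx with h | h
        · rw [h]; exact ht
        · exact hqS x h) hb hcr
  have hprS : ∀ x ∈ p.reverse, x ∈ S := fun x hx => hpS x (List.mem_reverse.1 hx)
  obtain ⟨-, l2, l3⟩ := chain_one hW hT p.reverse t a
    (by intro x hx
        rcases List.mem_cons.1 hx with h | h
        · rw [h]; exact ht
        · exact hprS x h) ha hcl'
  set z1 := W L p.reverse a with hz1
  set y1 := W L q b with hy1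
  set x1 := rho L t y1 with hx1
  have ea : a = W L p z1 := by rw [hz1, W_reverse' hp2]
  have eb : W L (p ++ t :: q) b = W L p x1 := by rw [W_append, W_cons]
  have n1 : L.h a (W L p t) = L.h z1 t := by
    conv_lhs => rw [ea]
    exact h_W_W hp2 _ _
  have n2 : L.h (W L (p ++ t :: q) b) (W L p t) = L.h x1 t := by
    rw [eb, h_W_W hp2]
  have n3 : ‖L.h x1 t‖ = ‖L.h y1 t‖ := by rw [hx1, h_rho_w L ntt, norm_neg]
  have eD : D L (W L p t) a (W L (p ++ t :: q) b) = D L t z1 x1 := by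
    rw [eb]
    conv_lhs => rw [ea]
    exact D_W hp2 _ _ _
  rw [eD, n1, n2, n3]
  refine ⟨?_, l3, r3, l2, r2⟩
  -- the main estimate
  rcases hpr : p.reverse with _ | ⟨s, r⟩
  · have hp0 : p = [] := by
      have := congrArg List.reverse hpr
      simpa using this
    have hta : ¬ Par t a := by
      rw [hpr, List.nil_append, List.isChain_cons_cons] at hcl'
      exact hcl'.1
    have := r1 a ha hta
    have hz : z1 = a := by rw [hz1, hpr]; rfl
    rw [hz]
    linarith
  · rw [hpr, List.cons_append, List.isChain_cons_cons] at hcl'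
    obtain ⟨hts, hcr2⟩ := hcl'
    have hs : s ∈ S := hprS s (by rw [hpr]; simp)
    have hsW : s ∈ 𝓦 := hT.Ssub hs
    have hrS : ∀ x ∈ r, x ∈ S := fun x hx => hprS x (by rw [hpr]; simp [hx])
    have hr2 : N2 L r := hW.n2 (fun x hx => hT.Ssub (hrS x hx))
    obtain ⟨k1, k2, -⟩ := chain_one hW hT r s a
      (by intro x hx
          rcases List.mem_cons.1 hx with h | h
          · rw [h]; exact hs
          · exact hrS x h) ha hcr2
    have hz : z1 = rho L s (W L r a) := by rw [hz1, hpr]; rfl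
    have hst : ¬ Par s t := fun h => hts h.symm
    obtain ⟨m1, m2, m3⟩ := next_small hW hT ht hs ha hts (h_W_W hr2 a a) k2
      (k1 t (Or.inr ht) hst)
    rw [← hz] at m1 m2 m3
    have hsn : 1 ≤ ‖L.h s t‖ := hT.s0 t ht s (Or.inr hs) hts
    have q1 := r1 s (Or.inr hs) hts
    have hxx : L.h x1 x1 = L.h b b := by rw [hx1, h_rho_rho L ntt, hy1, h_W_W hq2]
    have := ql L (u := t) (x := x1) (y := z1) (z := s)
      (sx := 1 / 10 ^ 15) (sy := 1 / 10 ^ 15) (sz := 1 / 10 ^ 15) (β := 1 / 12) ntt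
      (by intro h0; rw [h0, norm_zero] at n3; rw [← n3] at r2; norm_num at r2)
      (by intro h0; rw [h0, norm_zero] at m1; norm_num at m1)
      (by intro h0; rw [h0, norm_zero] at hsn; norm_num at hsn)
      m2 (by norm_num)
      (by rw [n3, hxx]; exact r3)
      (small_of hW hT (Or.inr hs) htW hts)
      (by norm_num) (by refine m3.trans ?_; norm_num)
      (by norm_num at m3 ⊢; linarith) (by rw [D_symm]; exact q1)
    rw [D_symm]
    linarith

/-! ### Closure properties of the new set -/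

omit hW hT in
theorem mem_Mp {a : V} (ha : a ∈ M ∪ S) : a ∈ Mp L M S :=
  ⟨[], by simp, a, ha, rfl⟩

omit hW hT in
theorem W_mem_Mp {l : List V} (hl : ∀ t ∈ l, t ∈ S) {x : V} (hx : x ∈ Mp L M S) :
    W L l x ∈ Mp L M S := by
  obtain ⟨l', hl', a, ha, rfl⟩ := hx
  refine ⟨l ++ l', ?_, a, ha, by rw [W_append]⟩
  intro t ht
  rcases List.mem_append.1 ht with h | h
  · exact hl t h
  · exact hl' t h

theorem SW {l : List V} (hl : ∀ t ∈ l, t ∈ S) : N2 L l := hW.n2 (fun x hx => hT.Ssub (hl x hx))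

omit hW in
theorem E_par {a w : V} (ha : a ∈ M ∪ S) (hw : w ∈ 𝓦) (hp : Par a w) : w ∈ M ∪ S := by
  rcases ha with h | h
  · exact Or.inl (hT.par a h w hw hp)
  · exact Or.inr (hT.Spar a h w hw hp)

theorem Mp_sub {x : V} (hx : x ∈ Mp L M S) : x ∈ 𝓦 ∨ L.h x x = -1 := by
  obtain ⟨l, hl, a, ha, rfl⟩ := hx
  rcases cases_E hW hT ha with h | h
  · exact Or.inl (hW.W_mem (fun w hw => hT.Ssub (hl w hw)) h)
  · right; rw [h_W_W (SW hW hT hl), h]

theorem rev_notMem {l : List V} (hl : ∀ t ∈ l, t ∈ S) {v : V} (hv : v ∈ 𝓦) (hv' : v ∉ Mp L M S) :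
    W L l.reverse v ∈ 𝓦 ∧ W L l.reverse v ∉ Mp L M S := by
  have hlr : ∀ t ∈ l.reverse, t ∈ S := fun t ht => hl t (List.mem_reverse.1 ht)
  refine ⟨hW.W_mem (fun w hw => hT.Ssub (hlr w hw)) hv, ?_⟩
  intro h
  apply hv'
  have := W_mem_Mp (L := L) hl h
  rwa [W_reverse' (SW hW hT hl)] at this

theorem Mp_par {w w' : V} (hw : w ∈ Mp L M S) (hw' : w' ∈ 𝓦) (hp : Par w w') :
    w' ∈ Mp L M S := by
  obtain ⟨l, hl, a, ha, rfl⟩ := hw
  have hn := SW hW hT hl
  have hlr : ∀ t ∈ l.reverse, t ∈ S := fun t ht => hl t (List.mem_reverse.1 ht)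
  have h1 : W L l.reverse w' ∈ 𝓦 := hW.W_mem (fun w hw => hT.Ssub (hlr w hw)) hw'
  have h2 : Par a (W L l.reverse w') := by
    have := hp.W (L := L) l.reverse
    rwa [W_reverse hn] at this
  have h3 := E_par hT ha h1 h2
  exact ⟨l, hl, _, h3, by rw [W_reverse' hn]⟩

theorem Mp_refl {w x : V} (hw : w ∈ Mp L M S) (hw' : w ∈ 𝓦) (hx : x ∈ Mp L M S) :
    rho L w x ∈ Mp L M S := by
  obtain ⟨l, hl, a, ha, rfl⟩ := hw
  have hn := SW hW hT hl
  have hlr : ∀ t ∈ l.reverse, t ∈ S := fun t ht => hl t (List.mem_reverse.1 ht)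
  have haW : a ∈ 𝓦 := by
    have := hW.W_mem (L := L) (l := l.reverse) (fun w hw => hT.Ssub (hlr w hw)) hw'
    rwa [W_reverse hn] at this
  rw [rho_W hn]
  apply W_mem_Mp hl
  obtain ⟨l', hl', b, hb, hxb⟩ := W_mem_Mp (L := L) hlr hx
  rw [hxb]
  rcases ha with ha | ha
  · rw [rho_map (hW.norm a haW)]
    refine ⟨l'.map (rho L a), ?_, rho L a b, ?_, rfl⟩
    · intro t ht
      obtain ⟨s, hs, rfl⟩ := List.mem_map.1 ht
      exact hT.Srefl a ha haW s (hl' s hs)
    · rcases hb with hb | hb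
      · exact Or.inl (hT.refl a ha haW b hb)
      · exact Or.inr (hT.Srefl a ha haW b hb)
  · refine ⟨a :: l', ?_, b, hb, rfl⟩
    intro t ht
    rcases List.mem_cons.1 ht with h | h
    · rw [h]; exact ha
    · exact hl' t h

/-! ### Visibility from an outer mirror -/

theorem one_le_self {a : V} (ha : a ∈ M ∪ S) : 1 ≤ ‖L.h a a‖ := by
  rcases cases_E hW hT ha with h | h
  · rw [hW.norm a h]; norm_num
  · rw [h]; norm_num

theorem far_nz {l : List V} (hl : ∀ t ∈ l, t ∈ S) {a v : V} (ha : a ∈ M ∪ S) (hv : v ∈ 𝓦)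
    (hv' : v ∉ Mp L M S) : (10 : ℝ) ^ 3 ≤ ‖L.h (W L l a) v‖ ∧
    (L.h (W L l a) (W L l a)).re ≤ 1 / 10 ^ 15 * ‖L.h (W L l a) v‖ ^ 2 := by
  have hn := SW hW hT hl
  obtain ⟨h1, h2⟩ := rev_notMem hW hT hl hv hv'
  set v' := W L l.reverse v with hvv
  have ev : v = W L l v' := by rw [hvv, W_reverse' hn]
  have e1 : L.h (W L l a) v = L.h a v' := by
    conv_lhs => rw [ev]
    exact h_W_W hn _ _
  have h3 : v' ∉ M := fun h => h2 (mem_Mp (Or.inl h))
  have h4 : v' ∉ S := fun h => h2 (mem_Mp (Or.inr h))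
  rw [e1, h_W_W hn]
  constructor
  · have := hT.s2 v' h1 h3 h4 a ha a ha
    have h5 := one_le_self hW hT ha
    have h6 : (10 : ℝ) ^ 6 * 1 ≤ ‖L.h a v'‖ * ‖L.h a v'‖ := by
      refine le_trans ?_ this
      gcongr
    by_contra hcon
    push Not at hcon
    nlinarith [norm_nonneg (L.h a v')]
  · apply small_of hW hT ha h1
    intro hp
    exact h2 (mem_Mp (E_par hT ha h1 hp.symm))

theorem far_mirror {u v : V} (hu : u ∈ Mp L M S) (hu' : u ∈ 𝓦) (hv : v ∈ 𝓦)
    (hv' : v ∉ Mp L M S) : (10 : ℝ) ^ 10 ≤ ‖L.h u v‖ := by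
  rcases hW.sep u hu' v hv with h | h
  · exact absurd (Mp_par hW hT hu hv h) hv'
  · exact h

/-- Consecutive elements of a path are visually close. -/
theorem pair_small {p : List V} {t b v : V} (hp : ∀ x ∈ p, x ∈ S) (ht : t ∈ S)
    (hb : b ∈ M ∪ S) (hv : v ∈ 𝓦) (hv' : v ∉ Mp L M S) :
    D L v (W L p t) (W L (p ++ [t]) b) ≤ 1 / 10 ^ 6 := by
  have hpt : ∀ x ∈ p ++ [t], x ∈ S := by
    intro x hx
    rcases List.mem_append.1 hx with h | h
    · exact hp x h
    · rw [List.mem_singleton.1 h]; exact ht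
  have hn := SW hW hT hpt
  have ntt : L.h t t = 2 := hW.norm t (hT.Ssub ht)
  obtain ⟨h1, h2⟩ := rev_notMem hW hT hpt hv hv'
  set v' := W L (p ++ [t]).reverse v with hvv
  have ev : v = W L (p ++ [t]) v' := by rw [hvv, W_reverse' hn]
  have e1 : W L p t = W L (p ++ [t]) (-t) := by
    rw [W_append, W_cons, W_nil, rho_negx, rho_self L ntt, neg_neg]
  have h3 : v' ∉ M := fun h => h2 (mem_Mp (Or.inl h))
  have h4 : v' ∉ S := fun h => h2 (mem_Mp (Or.inr h))
  rw [e1, ev, D_W hn]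
  have h5 := hT.s2 v' h1 h3 h4 t (Or.inr ht) b hb
  have h6 := (far_nz hW hT (l := []) (by simp) (Or.inr ht : t ∈ M ∪ S) h1 h2).1
  have h7 := (far_nz hW hT (l := []) (by simp) hb h1 h2).1
  rw [W_nil] at h6 h7
  unfold D
  rw [L.neg_left, L.neg_left, norm_neg, norm_neg, div_le_iff₀ (by positivity)]
  norm_num at h5 ⊢
  linarith

/-- The path from `a` to `W l b` cannot avoid the outer mirror visually. -/
theorem find {l : List V} (hl : ∀ x ∈ l, x ∈ S) {a b v : V} (ha : a ∈ M ∪ S) (hb : b ∈ M ∪ S)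
    (hv : v ∈ 𝓦) (hv' : v ∉ Mp L M S)
    (hc : List.IsChain (fun x y => ¬ Par x y) (a :: (l ++ [b])))
    (hD : 1 / 10 ^ 4 < D L v a (W L l b)) (q : List V) : ∀ (p : List V) (t : V),
    l = p ++ t :: q → D L v a (W L p t) ≤ 1 / 10 ^ 6 → False := by
  obtain ⟨av, asm⟩ := far_nz hW hT (l := []) (by simp) ha hv hv'
  rw [W_nil] at av asm
  obtain ⟨yv, ysm⟩ := far_nz hW hT hl hb hv hv'
  set y := W L l b with hy
  have nvv : L.h v v = 2 := hW.norm v hv
  have ne_of : ∀ {c : ℝ} {z : ℂ}, 0 < c → c ≤ ‖z‖ → z ≠ 0 := by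
    intro c z hc0 hz h0
    rw [h0, norm_zero] at hz
    linarith
  -- membership of path mirrors
  have mir : ∀ (p : List V) (t : V) (q : List V), l = p ++ t :: q →
      W L p t ∈ 𝓦 ∧ W L p t ∈ Mp L M S ∧ (10 : ℝ) ^ 10 ≤ ‖L.h (W L p t) v‖ := by
    intro p t q h
    have hp : ∀ x ∈ p, x ∈ S := fun x hx => hl x (by rw [h]; simp [hx])
    have ht : t ∈ S := hl t (by rw [h]; simp)
    have h1 : W L p t ∈ 𝓦 := hW.W_mem (fun w hw => hT.Ssub (hp w hw)) (hT.Ssub ht)
    have h2 : W L p t ∈ Mp L M S := W_mem_Mp hp (mem_Mp (Or.inr ht))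
    exact ⟨h1, h2, far_mirror hW hT h2 h1 hv hv'⟩
  have usm : ∀ {u : V}, u ∈ 𝓦 → (10 : ℝ) ^ 10 ≤ ‖L.h u v‖ →
      |(L.h u u).re| ≤ 1 / 10 ^ 15 * ‖L.h u v‖ ^ 2 := by
    intro u hu h
    rw [hW.norm u hu]
    have : ((10 : ℝ) ^ 10) ^ 2 ≤ ‖L.h u v‖ ^ 2 := by gcongr
    norm_num at this ⊢
    linarith
  -- not both
  have notboth' : ∀ {u : V}, u ∈ 𝓦 → (10 : ℝ) ^ 10 ≤ ‖L.h u v‖ → D L v a u ≤ 11 / 10 ^ 6 →
      D L v y u ≤ 1 / 10 ^ 6 → False := by
    intro u hu huv h1 h2
    have := qm L (u := v) (x := a) (y := u) (z := y)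
      (sx := 1 / 10 ^ 15) (sy := 1 / 10 ^ 15) (sz := 1 / 10 ^ 15) nvv
      (ne_of (by norm_num) av) (ne_of (by norm_num) huv) (ne_of (by norm_num) yv)
      (usm hu huv) (by norm_num) asm ysm (h1.trans (by norm_num)) (h2.trans (by norm_num))
    norm_num at this h1 h2 hD
    linarith
  -- dichotomy
  have dich : ∀ (p : List V) (t : V) (q : List V), l = p ++ t :: q →
      D L v a (W L p t) ≤ 1 / 10 ^ 6 ∨ D L v y (W L p t) ≤ 1 / 10 ^ 6 := by
    intro p t q h
    by_contra hcon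
    push Not at hcon
    obtain ⟨c1, c2⟩ := hcon
    obtain ⟨m1, m2, m3⟩ := mir p t q h
    have hc' : List.IsChain (fun x y => ¬ Par x y) (a :: (p ++ t :: (q ++ [b]))) := by
      have : p ++ t :: (q ++ [b]) = l ++ [b] := by rw [h]; simp
      rw [this]; exact hc
    have hl' : ∀ x ∈ p ++ t :: q, x ∈ S := by rw [← h]; exact hl
    obtain ⟨b1, b2, b3, b4, b5⟩ := chain_two hW hT hl' ha hb hc'
    rw [← h, ← hy] at b1 b3 b5
    set u := W L p t with hu
    have nuu : L.h u u = 2 := hW.norm u m1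
    have id1 := ident L (u := u) (v := v) (x := a) (ne_of (by norm_num) m3)
      (ne_of (by norm_num) b4) (ne_of (by norm_num) av)
    have id2 := ident L (u := u) (v := v) (x := y) (ne_of (by norm_num) m3)
      (ne_of (by norm_num) b5) (ne_of (by norm_num) yv)
    have hinv : 1 / ‖L.h u v‖ ^ 2 ≤ 1 / ((10 : ℝ) ^ 10) ^ 2 := by gcongr
    have f1 : D L u a v ≤ 1 / 10 ^ 13 := by
      have g1 : D L u v a * (1 / 10 ^ 6) ≤ 1 / ‖L.h u v‖ ^ 2 := by
        rw [← id1]
        have := D_nonneg L u v a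
        rw [D_symm L v a u] at c1
        gcongr
      rw [D_symm]
      norm_num at g1 hinv ⊢
      linarith
    have f2 : D L u y v ≤ 1 / 10 ^ 13 := by
      have g1 : D L u v y * (1 / 10 ^ 6) ≤ 1 / ‖L.h u v‖ ^ 2 := by
        rw [← id2]
        have := D_nonneg L u v y
        rw [D_symm L v y u] at c2
        gcongr
      rw [D_symm]
      norm_num at g1 hinv ⊢
      linarith
    have huv : (10 : ℝ) ^ 10 ≤ ‖L.h v u‖ := by rw [L.norm_symm]; exact m3
    have := qm L (u := u) (x := a) (y := v) (z := y)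
      (sx := 1 / 10 ^ 15) (sy := 1 / 10 ^ 15) (sz := 1 / 10 ^ 15) nuu
      (ne_of (by norm_num) b4) (ne_of (by norm_num) huv) (ne_of (by norm_num) b5)
      (by
        rw [nvv]
        have : ((10 : ℝ) ^ 10) ^ 2 ≤ ‖L.h v u‖ ^ 2 := by gcongr
        norm_num at this ⊢
        linarith) (by norm_num) b2
      (by rw [hy, h_W_W (SW hW hT hl)]; exact b3)
      (f1.trans (by norm_num)) (f2.trans (by norm_num))
    norm_num at this f1 f2
    linarith
  induction q with
  | nil =>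
    intro p t h hle
    obtain ⟨m1, m2, m3⟩ := mir p t [] h
    refine notboth' m1 m3 (hle.trans (by norm_num)) ?_
    rw [D_symm, hy, h]
    exact pair_small hW hT (fun x hx => hl x (by rw [h]; simp [hx])) (hl t (by rw [h]; simp)) hb
      hv hv'
  | cons t' q ih =>
    intro p t h hle
    have h' : l = (p ++ [t]) ++ t' :: q := by rw [h]; simp
    have htS : t ∈ S := hl t (by rw [h]; simp)
    have htS' : t' ∈ S := hl t' (by rw [h]; simp)
    obtain ⟨m1, m2, m3⟩ := mir p t _ h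
    obtain ⟨m1', m2', m3'⟩ := mir (p ++ [t]) t' q h'
    have hpair := pair_small hW hT (fun x hx => hl x (by rw [h]; simp [hx]) : ∀ x ∈ p, x ∈ S)
      htS (Or.inr htS' : t' ∈ M ∪ S) hv hv'
    rcases dich (p ++ [t]) t' q h' with hd | hd
    · exact ih (p ++ [t]) t' h' hd
    · refine notboth' m1' m3' ?_ hd
      have := qm L (u := v) (x := a) (y := W L p t) (z := W L (p ++ [t]) t')
        (sx := 1 / 10 ^ 15) (sy := 1 / 10 ^ 15) (sz := 1 / 10 ^ 15) nvv
        (ne_of (by norm_num) av) (ne_of (by norm_num) m3) (ne_of (by norm_num) m3')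
        (usm m1 m3) (by norm_num) asm ((le_abs_self _).trans (usm m1' m3'))
        (hle.trans (by norm_num)) (by rw [D_symm]; exact hpair.trans (by norm_num))
      rw [D_symm L v (W L (p ++ [t]) t') (W L p t)] at this
      norm_num at this hle hpair ⊢
      linarith

/-! ### The far condition for the new set -/

theorem far_chain {l : List V} (hl : ∀ x ∈ l, x ∈ S) {a b v : V} (ha : a ∈ M ∪ S)
    (hb : b ∈ M ∪ S) (hv : v ∈ 𝓦) (hv' : v ∉ Mp L M S)
    (hc : l = [] ∨ List.IsChain (fun x y => ¬ Par x y) (a :: (l ++ [b]))) :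
    (10 : ℝ) ^ 4 * ‖L.h a (W L l b)‖ ≤ ‖L.h a v‖ * ‖L.h (W L l b) v‖ := by
  obtain ⟨av, -⟩ := far_nz hW hT (l := []) (by simp) ha hv hv'
  rw [W_nil] at av
  obtain ⟨yv, -⟩ := far_nz hW hT hl hb hv hv'
  have h3 : v ∉ M := fun h => hv' (mem_Mp (Or.inl h))
  have h4 : v ∉ S := fun h => hv' (mem_Mp (Or.inr h))
  rcases l with _ | ⟨t, q⟩
  · rw [W_nil]
    have h1 := hT.s2 v hv h3 h4 a ha b hb
    have h2 : (10 : ℝ) ^ 4 * ‖L.h a b‖ ≤ (10 : ℝ) ^ 6 * ‖L.h a b‖ := by
      have := norm_nonneg (L.h a b)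
      norm_num
      linarith
    linarith
  · have hc' : List.IsChain (fun x y => ¬ Par x y) (a :: ((t :: q) ++ [b])) := by
      rcases hc with h | h
      · exact absurd h (by simp)
      · exact h
    have htS : t ∈ S := hl t (by simp)
    have tv := (far_nz hW hT (l := []) (by simp) (Or.inr htS : t ∈ M ∪ S) hv hv').1
    rw [W_nil] at tv
    have h1 := hT.s2 v hv h3 h4 a ha t (Or.inr htS)
    have hat : D L v a t ≤ 1 / 10 ^ 6 := by
      unfold D
      rw [div_le_iff₀ (by positivity)]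
      norm_num at h1 ⊢
      linarith
    by_contra hcon
    push Not at hcon
    have hD : 1 / 10 ^ 4 < D L v a (W L (t :: q) b) := by
      unfold D
      rw [lt_div_iff₀ (by positivity)]
      norm_num at hcon ⊢
      linarith
    exact find hW hT hl ha hb hv hv' hc' hD q [] t rfl hat

theorem far_all (l : List V) : ∀ (hl : ∀ x ∈ l, x ∈ S) {a b v : V} (ha : a ∈ M ∪ S)
    (hb : b ∈ M ∪ S) (hv : v ∈ 𝓦) (hv' : v ∉ Mp L M S),
    (10 : ℝ) ^ 4 * ‖L.h a (W L l b)‖ ≤ ‖L.h a v‖ * ‖L.h (W L l b) v‖ := by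
  -- strong induction on the length
  induction hn : l.length using Nat.strong_induction_on generalizing l with
  | _ n ih =>
    intro hl a b v ha hb hv hv'
    by_cases hc : l = [] ∨ List.IsChain (fun x y => ¬ Par x y) (a :: (l ++ [b]))
    · exact far_chain hW hT hl ha hb hv hv' hc
    push Not at hc
    obtain ⟨hne, hnc⟩ := hc
    -- find a parallel adjacent pair
    rcases l with _ | ⟨t, q⟩
    · exact absurd rfl hne
    have htS : t ∈ S := hl t (by simp)
    have htW : t ∈ 𝓦 := hT.Ssub htS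
    have ntt : L.h t t = 2 := hW.norm t htW
    have hqS : ∀ x ∈ q, x ∈ S := fun x hx => hl x (by simp [hx])
    have hlen : q.length < n := by rw [← hn]; simp
    by_cases hat : Par a t
    · -- move the first reflection
      have h1 : rho L t v ∈ 𝓦 := hW.refl t htW v hv
      have h2 : rho L t v ∉ Mp L M S := by
        intro h
        apply hv'
        have := W_mem_Mp (L := L) (M := M) (l := [t]) (by simpa using htS) h
        rwa [W_cons, W_nil, rho_rho L ntt] at this
      have h3 := ih q.length hlen q rfl hqS ha hb h1 h2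
      have e1 : ‖L.h a (rho L t (W L q b))‖ = ‖L.h a (W L q b)‖ := by
        have : L.h a (rho L t (W L q b)) = L.h (rho L t a) (W L q b) := by
          rw [← h_rho_rho L ntt, rho_rho L ntt]
        rw [this]
        have hp : Par a (rho L t a) := by
          rw [hat.rho a, rho_self L (by rw [← hat.self, ntt])]
          exact Par.neg a
        exact hp.norm_left _
      have e2 : ‖L.h a v‖ = ‖L.h a (rho L t v)‖ := by
        have : L.h a (rho L t v) = L.h (rho L t a) v := by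
          rw [← h_rho_rho L ntt, rho_rho L ntt]
        rw [this]
        have hp : Par a (rho L t a) := by
          rw [hat.rho a, rho_self L (by rw [← hat.self, ntt])]
          exact Par.neg a
        exact (hp.norm_left _).symm
      have e3 : L.h (rho L t (W L q b)) v = L.h (W L q b) (rho L t v) := by
        rw [← h_rho_rho L ntt, rho_rho L ntt]
      rw [W_cons, e1, e2, e3]
      exact h3
    · -- interior pair
      have hsub : ∃ (p : List V) (x y : V) (r : List V), (t :: q) ++ [b] = p ++ x :: y :: r ∧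
          Par x y := by
        by_contra hcon
        push Not at hcon
        apply hnc
        rw [List.cons_append, List.isChain_cons_cons]
        refine ⟨hat, ?_⟩
        rw [List.isChain_iff_forall_rel_of_append_cons_cons]
        intro x y p r h
        rw [List.cons_append] at hcon
        exact hcon p x y r h
      obtain ⟨p, x, y, r, he, hxy⟩ := hsub
      rcases List.eq_nil_or_concat r with hr | ⟨r', z, hr⟩
      · -- the last pair
        rw [hr] at he
        have he' : (t :: q) = p ++ [x] ∧ b = y := by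
          have : (t :: q) ++ [b] = (p ++ [x]) ++ [y] := by rw [he]; simp
          have h1 := List.append_inj' this rfl
          exact ⟨h1.1, by simpa using h1.2⟩
        obtain ⟨h1, rfl⟩ := he'
        have hxS : x ∈ S := hl x (by rw [h1]; simp)
        have nxx : L.h x x = 2 := hW.norm x (hT.Ssub hxS)
        have hpS : ∀ z ∈ p, z ∈ S := fun z hz => hl z (by rw [h1]; simp [hz])
        have hlen' : p.length < n := by
          have : (t :: q).length = p.length + 1 := by rw [h1]; simp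
          omega
        have h3 := ih p.length hlen' p rfl hpS ha hb hv hv'
        have hp : Par b (rho L x b) := by
          rw [← hxy.rho b, rho_self L (by rw [hxy.self, nxx])]
          exact Par.neg b
        have e1 : Par (W L p b) (W L (t :: q) b) := by
          rw [h1, W_append, W_cons, W_nil]
          exact hp.W p
        rw [e1.norm_right, e1.norm_left]
        exact h3
      · -- an interior pair
        rw [hr, List.concat_eq_append] at he
        have he' : (t :: q) = p ++ x :: y :: r' ∧ b = z := by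
          have : (t :: q) ++ [b] = (p ++ x :: y :: r') ++ [z] := by rw [he]; simp
          have h1 := List.append_inj' this rfl
          exact ⟨h1.1, by simpa using h1.2⟩
        obtain ⟨h1, -⟩ := he'
        have hxS : x ∈ S := hl x (by rw [h1]; simp)
        have nxx : L.h x x = 2 := hW.norm x (hT.Ssub hxS)
        have hpS : ∀ z ∈ p ++ r', z ∈ S := by
          intro z hz
          apply hl z
          rw [h1]
          rcases List.mem_append.1 hz with h | h
          · simp [h]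
          · simp [h]
        have hlen' : (p ++ r').length < n := by
          have : (t :: q).length = (p ++ r').length + 2 := by rw [h1]; simp; omega
          omega
        have h3 := ih (p ++ r').length hlen' (p ++ r') rfl hpS ha hb hv hv'
        have e1 : W L (t :: q) b = W L (p ++ r') b := by
          rw [h1, W_append, W_append, W_cons, W_cons, hxy.rho, rho_rho L nxx]
        rw [e1]
        exact h3

theorem far_Mp {v e e' : V} (hv : v ∈ 𝓦) (hv' : v ∉ Mp L M S) (he : e ∈ Mp L M S)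
    (he' : e' ∈ Mp L M S) : (10 : ℝ) ^ 4 * ‖L.h e e'‖ ≤ ‖L.h e v‖ * ‖L.h e' v‖ := by
  obtain ⟨l, hl, a, ha, rfl⟩ := he
  obtain ⟨l', hl', b, hb, rfl⟩ := he'
  have hn := SW hW hT hl
  obtain ⟨h1, h2⟩ := rev_notMem hW hT hl hv hv'
  have hlr : ∀ x ∈ l.reverse ++ l', x ∈ S := by
    intro x hx
    rcases List.mem_append.1 hx with h | h
    · exact hl x (List.mem_reverse.1 h)
    · exact hl' x h
  have h3 := far_all hW hT (l.reverse ++ l') hlr ha hb h1 h2
  have e0 : ∀ y, L.h (W L l a) y = L.h a (W L l.reverse y) := by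
    intro y
    conv_lhs => rw [← W_reverse' hn y]
    exact h_W_W hn _ _
  have e2 : L.h (W L l' b) v = L.h (W L (l.reverse ++ l') b) (W L l.reverse v) := by
    rw [W_append, h_W_W hn.reverse]
  rw [e0, e0, e2, ← W_append]
  exact h3

end step

end Crest.Agent.R272.LBWord_585
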