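import Crest.Agent.R272.SupDefs_528
import Crest.Agent.R272.SympE_771
import Crest.Agent.R272.ETh4_445

/-!
Row 272, division E (helper92): an `ee`-self-dual lattice `L` of `V1 n × W m` is the lattice
`lv P Q (ℤ^J × ℤ^J)` of helper445's file in the coordinates `co (uu v)`; the sign `ε`.
-/

set_option autoImplicit false

open Complex
open scoped ComplexConjugate Topology Real

namespace Crest.Agent.R272.LatE_92

open Crest.Agent.R272.EBase_641 Crest.Agent.R272.EBase2_641 Crest.Agent.R272.EThDefs_445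
open Crest.Agent.R272.Sup_528
open Crest.Agent.R272.SympE_771 (eeB eeB_apply)
open Crest.Agent.R272.SympZ_771 (Lag SelfDual)

noncomputable section

variable {n m : ℕ}

/-- index type of the complex coordinates -/
abbrev Ix (n m : ℕ) := Option (Fin n ⊕ Fin m)

/-- complex coordinates as a function -/
def co (A : Co n m) : Ix n m → ℂ
  | none => A.1
  | some (Sum.inl j) => A.2.1 j
  | some (Sum.inr k) => A.2.2 k

@[simp] theorem co_none (A : Co n m) : co A none = A.1 := rfl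
@[simp] theorem co_inl (A : Co n m) (j : Fin n) : co A (some (Sum.inl j)) = A.2.1 j := rfl
@[simp] theorem co_inr (A : Co n m) (k : Fin m) : co A (some (Sum.inr k)) = A.2.2 k := rfl

theorem co_ext {f g : Ix n m → ℂ} (h0 : f none = g none)
    (h1 : ∀ j, f (some (Sum.inl j)) = g (some (Sum.inl j)))
    (h2 : ∀ k, f (some (Sum.inr k)) = g (some (Sum.inr k))) : f = g := by
  funext i
  rcases i with _ | i
  · exact h0
  · rcases i with j | k
    · exact h1 j
    · exact h2 k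

/-- the inverse of `co` -/
def oc (u : Ix n m → ℂ) : Co n m :=
  (u none, WithLp.toLp 2 (fun j => u (some (Sum.inl j))), WithLp.toLp 2 (fun k => u (some (Sum.inr k))))

@[simp] theorem co_oc (u : Ix n m → ℂ) : co (oc u) = u := co_ext rfl (fun _ => rfl) fun _ => rfl

@[simp] theorem oc_co (A : Co n m) : oc (co A) = A := rfl

theorem co_add (A B : Co n m) : co (A + B) = co A + co B :=
  co_ext rfl (fun _ => rfl) fun _ => rfl

theorem co_smul (c : ℂ) (A : Co n m) : co (c • A) = c • co A :=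
  co_ext rfl (fun _ => rfl) fun _ => rfl

theorem co_sub (A B : Co n m) : co (A - B) = co A - co B :=
  co_ext rfl (fun _ => rfl) fun _ => rfl

theorem hp_co (A B : Co n m) : ETh445.hp (co A) (co B) = her A B := by
  rw [ETh445.hp, Fintype.sum_option, Fintype.sum_sum_type, her]
  simp only [co_none, co_inl, co_inr, PiLp.inner_apply, RCLike.inner_apply]
  ring

theorem nsq_co (A : Co n m) : ETh445.nsq (co A) = nsq A := by
  rw [ETh445.nsq, Fintype.sum_option, Fintype.sum_sum_type, nsq, EuclideanSpace.norm_sq_eq,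
    EuclideanSpace.norm_sq_eq]
  simp only [co_none, co_inl, co_inr]
  ring

theorem uu_add (v w : V1 n × W m) : uu (v + w) = uu v + uu w := by
  simp [uu]

theorem uu_smul (c : ℝ) (v : V1 n × W m) : uu (c • v) = (c : ℂ) • uu v := by
  simp only [uu, Prod.smul_fst, Prod.smul_snd]
  refine Prod.ext ?_ (Prod.ext ?_ ?_)
  · show conj (c • v.1.2) = (c : ℂ) • conj v.1.2
    simp
  · exact (Complex.coe_smul c v.1.1).symm 
  · exact (Complex.coe_smul c v.2).symm

theorem her_uu_im (v w : V1 n × W m) : (her (uu v) (uu w)).im = ee v w := by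
  simp only [her, uu, ee, hh, Complex.conj_conj, add_im, sub_im, mul_im, Complex.conj_re,
    Complex.conj_im]
  ring

/-- the coordinates of a real vector -/
def cu (v : V1 n × W m) : Ix n m → ℂ := co (uu v)

theorem cu_add (v w : V1 n × W m) : cu (v + w) = cu v + cu w := by
  rw [cu, uu_add, co_add, cu, cu]

theorem cu_smul (c : ℝ) (v : V1 n × W m) : cu (c • v) = (c : ℂ) • cu v := by
  rw [cu, uu_smul, co_smul, cu]

theorem cu_zero : cu (0 : V1 n × W m) = 0 := by
  have := cu_smul (0 : ℝ) (0 : V1 n × W m)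
  simpa using this

theorem cu_sum {ι : Type*} (s : Finset ι) (f : ι → V1 n × W m) :
    cu (∑ i ∈ s, f i) = ∑ i ∈ s, cu (f i) := by
  classical
  induction s using Finset.induction_on with
  | empty => simp [cu_zero]
  | insert a s ha ih => rw [Finset.sum_insert ha, Finset.sum_insert ha, cu_add, ih]

theorem hp_cu_im (v w : V1 n × W m) : (ETh445.hp (cu v) (cu w)).im = ee v w := by
  rw [cu, cu, hp_co, her_uu_im]

theorem nsq_cu (v : V1 n × W m) : ETh445.nsq (cu v) = nsq (uu v) := nsq_co _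

/-- coherent state `e_B` -/
def eB (B : Co n m) (u : Ix n m → ℂ) : ℂ := cexp (π * ETh445.hp u (co B))

/-- 528's kernel is the Heisenberg operator on the coherent state -/
theorem G_eq_hei (v : V1 n × W m) (A B : Co n m) :
    G v A B = ETh445.hei (cu v) (eB B) (co A) := by
  rw [G, ETh445.hei, eB, ← Complex.exp_add, cu, ← co_add, hp_co, hp_co, nsq_co]
  congr 1
  have : her (A + uu v) B = her A B + her (uu v) B := by
    simp only [her, Prod.fst_add, Prod.snd_add, inner_add_right]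
    ring
  rw [this]
  ring

/-! ### lattices -/

/-- the four fields of `EDat` on a lattice -/
structure SD (L : AddSubgroup (V1 n × W m)) : Prop where
  disc : ∀ r : ℝ, {v : V1 n × W m | v ∈ L ∧ ‖v‖ ≤ r}.Finite
  span : Submodule.span ℝ (L : Set (V1 n × W m)) = ⊤
  int : ∀ v ∈ L, ∀ w ∈ L, ∃ k : ℤ, ee v w = k
  dual : ∀ v, (∀ w ∈ L, ∃ k : ℤ, ee v w = k) → v ∈ L

variable {L : AddSubgroup (V1 n × W m)}

theorem SD.selfDual (h : SD L) : SelfDual (eeB n m) L where
  alt := fun x => SympE_771.ee_self x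
  disc := h.disc
  span := h.span
  int := h.int
  dual := h.dual

/-- index of the symplectic basis -/
abbrev Jx (n m : ℕ) := Fin (n + 1 + m)

theorem SD.exists_lag (h : SD L) :
    ∃ pq : (Jx n m → V1 n × W m) × (Jx n m → V1 n × W m), Lag (eeB n m) L pq.1 pq.2 := by
  obtain ⟨N, p, q, h'⟩ := SympZ_771.exists_lag h.selfDual
  have h1 := h'.finrank_eq h.selfDual.alt
  rw [SympE_771.finrank_VW] at h1
  have hN : N = n + 1 + m := by omega
  subst hN
  exact ⟨(p, q), h'⟩

theorem card_eq : Fintype.card (Jx n m) = Fintype.card (Ix n m) := by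
  simp
  ring

/-- the Lagrangian basis -/
def SD.p (h : SD L) : Jx n m → V1 n × W m := h.exists_lag.choose.1
def SD.q (h : SD L) : Jx n m → V1 n × W m := h.exists_lag.choose.2

theorem SD.lag (h : SD L) : Lag (eeB n m) L h.p h.q := h.exists_lag.choose_spec

/-- helper445's families: `Im⟨Q_i,P_j⟩ = δ_ij` -/
def SD.P (h : SD L) (i : Jx n m) : Ix n m → ℂ := cu (h.q i)
def SD.Q (h : SD L) (i : Jx n m) : Ix n m → ℂ := cu (h.p i)

theorem SD.symp (h : SD L) : ETh445.Symp h.P h.Q where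
  pp i j := by
    rw [SD.P, SD.P, hp_cu_im]; exact h.lag.qq i j
  qq i j := by
    rw [SD.Q, SD.Q, hp_cu_im]; exact h.lag.pp i j
  qp i j := by
    rw [SD.P, SD.Q, hp_cu_im]; exact h.lag.pq i j

/-- the lattice vector with coordinates `x` -/
def SD.vec (h : SD L) (x : (Jx n m → ℤ) × (Jx n m → ℤ)) : V1 n × W m :=
  (h.lag.equiv h.selfDual.alt).symm (fun i => (x.2 i : ℝ), fun i => (x.1 i : ℝ))

theorem SD.vec_eq (h : SD L) (x : (Jx n m → ℤ) × (Jx n m → ℤ)) :
    h.vec x = ∑ i, (((x.2 i : ℤ) : ℝ) • h.p i + ((x.1 i : ℤ) : ℝ) • h.q i) := rfl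

theorem SD.vec_mem (h : SD L) (x : (Jx n m → ℤ) × (Jx n m → ℤ)) : h.vec x ∈ L :=
  (h.lag.mem_iff h.selfDual.alt h.selfDual.int _).2 ⟨x.2, x.1, rfl⟩

theorem SD.vec_add (h : SD L) (x y : (Jx n m → ℤ) × (Jx n m → ℤ)) :
    h.vec (x + y) = h.vec x + h.vec y := by
  rw [SD.vec, SD.vec, SD.vec, ← map_add]
  congr 1
  ext i <;> simp

theorem SD.vec_injective (h : SD L) : Function.Injective h.vec := by
  intro x y hxy
  have h1 := (h.lag.equiv h.selfDual.alt).symm.injective hxy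
  have h2 := congrArg Prod.fst h1
  have h3 := congrArg Prod.snd h1
  refine Prod.ext ?_ ?_
  · funext i
    have : ((x.1 i : ℤ) : ℝ) = y.1 i := congrFun h3 i
    exact_mod_cast this
  · funext i
    have : ((x.2 i : ℤ) : ℝ) = y.2 i := congrFun h2 i
    exact_mod_cast this

theorem SD.vec_surj (h : SD L) {v : V1 n × W m} (hv : v ∈ L) : ∃ x, h.vec x = v := by
  obtain ⟨a, b, hab⟩ := (h.lag.mem_iff h.selfDual.alt h.selfDual.int v).1 hv
  exact ⟨(b, a), hab.symm⟩

/-- `ℤ^J × ℤ^J ≃ L` -/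
def SD.eqv (h : SD L) : (Jx n m → ℤ) × (Jx n m → ℤ) ≃ L :=
  Equiv.ofBijective (fun x => ⟨h.vec x, h.vec_mem x⟩)
    ⟨fun x y hxy => h.vec_injective (congrArg Subtype.val hxy), fun v => by
      obtain ⟨x, hx⟩ := h.vec_surj v.2
      exact ⟨x, Subtype.ext hx⟩⟩

theorem SD.eqv_coe (h : SD L) (x : (Jx n m → ℤ) × (Jx n m → ℤ)) :
    ((h.eqv x : L) : V1 n × W m) = h.vec x := rfl

theorem SD.cu_vec (h : SD L) (x : (Jx n m → ℤ) × (Jx n m → ℤ)) :
    cu (h.vec x) = ETh445.lv h.P h.Q x := by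
  rw [h.vec_eq, cu_sum]
  funext k
  simp only [Finset.sum_apply, cu_add, cu_smul, Pi.add_apply, Pi.smul_apply, smul_eq_mul,
    ETh445.lv, ETh445.lc, SD.P, SD.Q, Finset.sum_add_distrib, Complex.ofReal_intCast]
  ring

theorem SD.ee_vec (h : SD L) (x y : (Jx n m → ℤ) × (Jx n m → ℤ)) :
    ee (h.vec x) (h.vec y) = ((∑ i, (x.2 i * y.1 i - x.1 i * y.2 i) : ℤ) : ℝ) := by
  have := h.lag.form h.selfDual.alt (fun i => (x.2 i : ℝ), fun i => (x.1 i : ℝ))
    (fun i => (y.2 i : ℝ), fun i => (y.1 i : ℝ))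
  rw [eeB_apply] at this
  rw [SD.vec, SD.vec, this]
  push_cast
  rfl

/-- the sign character -/
def SD.ε (h : SD L) (v : V1 n × W m) : ℂ := by
  classical
  exact if hv : v ∈ L then ETh445.sg (h.eqv.symm ⟨v, hv⟩) else 1

theorem SD.ε_vec (h : SD L) (x : (Jx n m → ℤ) × (Jx n m → ℤ)) : h.ε (h.vec x) = ETh445.sg x := by
  rw [SD.ε, dif_pos (h.vec_mem x)]
  congr 1
  rw [Equiv.symm_apply_eq]
  rfl

theorem SD.ε_eqv (h : SD L) (x : (Jx n m → ℤ) × (Jx n m → ℤ)) :
    h.ε (h.eqv x : L) = ETh445.sg x := h.ε_vec x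

theorem SD.ε_pm (h : SD L) : ∀ l ∈ L, h.ε l = 1 ∨ h.ε l = -1 := by
  intro l hl
  obtain ⟨x, rfl⟩ := h.vec_surj hl
  rw [h.ε_vec]
  have h1 := ETh445.sg_sq x
  have h2 : (ETh445.sg x - 1) * (ETh445.sg x + 1) = 0 := by linear_combination h1
  rcases mul_eq_zero.1 h2 with h3 | h3
  · left; linear_combination h3
  · right; linear_combination h3

theorem SD.ε_add (h : SD L) : ∀ l ∈ L, ∀ l' ∈ L, h.ε (l + l') = h.ε l * h.ε l' * ph (ee l l') := by
  intro l hl l' hl'
  obtain ⟨x, rfl⟩ := h.vec_surj hl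
  obtain ⟨y, rfl⟩ := h.vec_surj hl'
  rw [← h.vec_add, h.ε_vec, h.ε_vec, h.ε_vec, h.ee_vec, ph]
  have h1 := ETh445.sg_add h.symp x y
  have h2 := h.symp
  have e1 : (ETh445.hp (ETh445.lv h.P h.Q y) (ETh445.lv h.P h.Q x)).im = ee (h.vec y) (h.vec x) := by
    rw [← h.cu_vec, ← h.cu_vec, hp_cu_im]
  rw [e1, h.ee_vec] at h1
  have e2 : ((∑ i, (y.2 i * x.1 i - y.1 i * x.2 i) : ℤ) : ℝ) =
      -((∑ i, (x.2 i * y.1 i - x.1 i * y.2 i) : ℤ) : ℝ) := by
    rw [← Int.cast_neg, ← Finset.sum_neg_distrib]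
    congr 1
    refine Finset.sum_congr rfl fun i _ => ?_
    ring
  rw [e2] at h1
  have e3 : cexp (-(π * I) * ((-((∑ i, (x.2 i * y.1 i - x.1 i * y.2 i) : ℤ) : ℝ) : ℝ) : ℂ)) =
      cexp (π * I * (((∑ i, (x.2 i * y.1 i - x.1 i * y.2 i) : ℤ) : ℝ) : ℂ)) := by
    congr 1
    push_cast
    ring
  rw [e3] at h1
  have h3 := ETh445.sg_sq y
  calc ETh445.sg (x + y) = ETh445.sg (x + y) * (ETh445.sg y * ETh445.sg y) := by rw [h3, mul_one]
    _ = (ETh445.sg (x + y) * ETh445.sg y) * ETh445.sg y := by ring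
    _ = _ := by rw [← h1]; ring

/-- transport of sums over `L` to sums over `ℤ^J × ℤ^J` -/
theorem SD.hasSum_iff (h : SD L) (F : (Ix n m → ℂ) → ℂ) (S : ℂ) :
    HasSum (fun l : L => h.ε l * F (cu (l : V1 n × W m))) S ↔
      HasSum (fun x : (Jx n m → ℤ) × (Jx n m → ℤ) => ETh445.sg x * F (ETh445.lv h.P h.Q x)) S := by
  rw [← h.eqv.hasSum_iff]
  have : ((fun l : L => h.ε l * F (cu (l : V1 n × W m))) ∘ h.eqv) =
      fun x => ETh445.sg x * F (ETh445.lv h.P h.Q x) := by
    funext x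
    simp only [Function.comp_apply]
    rw [h.ε_eqv, h.eqv_coe, h.cu_vec]
  rw [this]

/-- for 528's kernel -/
theorem SD.hasSum_G (h : SD L) (A B : Co n m) (S : ℂ) :
    HasSum (fun l : L => h.ε l * G (l : V1 n × W m) A B) S ↔
      HasSum (fun x : (Jx n m → ℤ) × (Jx n m → ℤ) =>
        ETh445.sg x * ETh445.hei (ETh445.lv h.P h.Q x) (eB B) (co A)) S := by
  simp only [G_eq_hei]
  exact h.hasSum_iff (fun v => ETh445.hei v (eB B) (co A)) S

end

end Crest.Agent.R272.LatE_92
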