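import Crest.Agent.R272.LbSep_990
import Crest.Agent.R272.Per2_939

/-!
# Row 272, LB-ASM part 1 (helper990): the function `Θ = θ₁ + θ₁ ∘ σ` on the Galois cover

`Y` (the space `X_1`) with a continuous action of `Γ`, an equivariant map `q` to the ball, a subgroup
`R0` (even part of the killed reflections), the swap `σ`.  `th : Y → ℝ/ℤ` is the wall function.
-/

set_option autoImplicit false

open scoped Topology
open Crest.Agent.R272.EBase_641 Crest.Agent.R272.LbPP_990 Crest.Agent.R272.LbSep_990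
open Crest.Agent.R272.Per_939

namespace Crest.Agent.R272.LbAsm_990

noncomputable section

variable {Y Γ : Type*} [TopologicalSpace Y] [Group Γ] [MulAction Γ Y]

/-- the invariant function on the Galois cover -/
def Th (R0 : Subgroup Γ) (σ : Γ) (th : Y → Cir) (y : Y) : Cir := per R0 th y + per R0 th (σ • y)

theorem per_smul' (R0 : Subgroup Γ) (th : Y → Cir) {g : Γ} (hg : g ∈ R0) (y : Y) :
    per R0 th (g • y) = per R0 th y :=
  per_smul (G := R0) th ⟨g, hg⟩ y

/-- invariance under the group generated by the killed reflections -/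
theorem Th_smul {R0 : Subgroup Γ} {σ : Γ} (hσ : ∀ g ∈ R0, σ * g * σ⁻¹ ∈ R0) (hσ2 : σ * σ ∈ R0)
    (th : Y → Cir) {g : Γ} (hg : g ∈ R0 ∨ g * σ⁻¹ ∈ R0) (y : Y) :
    Th R0 σ th (g • y) = Th R0 σ th y := by
  rcases hg with hg | hg
  · have e : σ • g • y = (σ * g * σ⁻¹) • σ • y := by
      rw [← mul_smul, ← mul_smul]; group
    rw [Th, Th, per_smul' R0 th hg, e, per_smul' R0 th (hσ g hg)]
  · have e1 : g • y = (g * σ⁻¹) • σ • y := by
      rw [← mul_smul]; group
    have e2 : σ • g • y = (σ * (g * σ⁻¹) * σ⁻¹ * (σ * σ)) • y := by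
      rw [← mul_smul]; group
    rw [Th, Th, e2, per_smul' R0 th (R0.mul_mem (hσ _ hg) hσ2), e1, per_smul' R0 th hg, add_comm]

variable {n : ℕ}

/-- **assembly of the invariant circle valued function on the Galois cover.** -/
theorem exists_Th [ContinuousConstSMul Γ Y] (φ : Γ →* UG n) (q : Y → E n) (hq : Continuous q)
    (hmem : ∀ y, q y ∈ Ball n) (heq : ∀ (g : Γ) y, q (g • y) = act (φ g) (q y))
    (R0 : Subgroup Γ) (σ : Γ) (hσ : ∀ g ∈ R0, σ * g * σ⁻¹ ∈ R0) (hσ2 : σ * σ ∈ R0)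
    {O : Set (E n)}
    (hpp : ∀ g ∈ R0, ∀ x ∈ O, ∀ y ∈ O, x ∈ Ball n → y ∈ Ball n →
      ‖hh (xx x) ((φ g).1 (xx y))‖ ≤ 2 → g = 1)
    (th : Y → Cir) (hth : Continuous th) (hO : ∀ y, th y ≠ 0 → q y ∈ O) :
    ∃ F : Y → Cir, Continuous F ∧
      (∀ g : Γ, (g ∈ R0 ∨ g * σ⁻¹ ∈ R0) → ∀ y, F (g • y) = F y) ∧
      ∀ y, q y ∈ O → q (σ • y) ∈ O → F y = th y + th (σ • y) := by
  obtain ⟨h1, h2⟩ := locFin_of_sep (G := R0) (φ.comp R0.subtype) q hq hmem
    (fun g y => heq g.1 y) (O := O) (fun g x hx y hy hxb hyb h =>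
      Subtype.ext (hpp g.1 g.2 x hx y hy hxb hyb h))
  haveI : ContinuousConstSMul R0 Y := ⟨fun g => continuous_const_smul (g : Γ)⟩
  have hcont : Continuous (per R0 th) := continuous_per h1 hth hO
  refine ⟨Th R0 σ th, ?_, fun g hg y => Th_smul hσ hσ2 th hg y, ?_⟩
  · exact hcont.add (hcont.comp (continuous_const_smul σ))
  · intro y hy hσy
    rw [Th, per_eq_self h2 hO hy, per_eq_self h2 hO (y := σ • y) hσy]

omit [TopologicalSpace Y] in
/-- degree of `F` along a path over collar points: only the colour 1 part counts if the colour 2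
part is constant. -/
theorem hasDeg_of_path {q : Y → E n} {σ : Γ} {O : Set (E n)} {F th : Y → Cir}
    (hF : ∀ y, q y ∈ O → q (σ • y) ∈ O → F y = th y + th (σ • y))
    {γ : unitInterval → Y} (h1 : ∀ t, q (γ t) ∈ O) (h2 : ∀ t, q (σ • γ t) ∈ O)
    {a : Cir} (ha : ∀ t, th (σ • γ t) = a) {d : ℝ} (hd : HasDeg (fun t => th (γ t)) d) :
    HasDeg (fun t => F (γ t)) d := by
  have h3 : (fun t => F (γ t)) = fun t => th (γ t) + a := by
    funext t
    rw [hF _ (h1 t) (h2 t), ha]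
  rw [h3]
  have := hd.add (HasDeg.const a)
  rwa [add_zero] at this

end

end Crest.Agent.R272.LbAsm_990
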