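import Crest.Agent.R272.LbAsm4_990

/-!
# Row 272, LB-ASM (helper990), part 5: wall functions, pulled back along any map

`Wl` : a circle valued function with the properties of 936's `Gm.main`, stable under pull back;
`exists_wl` : from the graph model; `Wl.ana`, `Wl.hneg`, `Wl.deg`, `lb_wl` (the lower bound).
-/

set_option autoImplicit false
set_option linter.unusedSectionVars false

open scoped ComplexConjugate Topology unitInterval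
open Crest.Agent.R272.EBase_641 Crest.Agent.R272.LbPP_990 Crest.Agent.R272.LbSep_990
open Crest.Agent.R272.LbGood_990 Crest.Agent.R272.St2_702 Crest.Agent.R272.LbCap_382
open Crest.Agent.R272.LbFin_990 Crest.Agent.R272.LbFin2_990 Crest.Agent.R272.Per_939
open Crest.Agent.R272.CovOrd_463 Crest.Agent.R272.LbExt_259 Crest.Agent.R272.TLoop_463
open Crest.Agent.R272.UB_20 Crest.Agent.R272.MQ_783 Crest.Agent.R272.Refl_246
open Crest.Agent.R272.AJ_956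

namespace Crest.Agent.R272.LbAsm_990

noncomputable section

section wl

variable {P : Type*} [TopologicalSpace P] {n d : P → ℂ}

/-- a wall function on `Y` (`z`, `t`, `k` the coordinates, `a` the real slope): continuous, supported
over `Og`, odd under `k ↦ -k`, and `± T` on paths over the origin whose slopes cross the annulus
once. -/
structure Wl (n d : P → ℂ) {Y : Type*} [TopologicalSpace Y] (z : Y → E 3) (t k : Y → P)
    (a : Y → ℝ) (m1 m2 : ℝ) (Og : Set (E 3)) (θ : Y → Cir) : Prop where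
  cont : Continuous θ
  supp : ∀ y, θ y ≠ 0 → z y ∈ Og
  neg : ∀ y y', z y = z y' → t y = t y' → n (k y') * d (k y) = -(n (k y) * d (k y')) →
    θ y' = -θ y
  path : ∀ α : I → Y, Continuous α → (∀ τ, z (α τ) = 0) →
    IsPreconnected {τ | m1 < a (α τ) ∧ a (α τ) < m2} →
    ∃ (s : ℝ) (T : I → ℝ), (s = 1 ∨ s = -1) ∧ Continuous T ∧
      (∀ τ, a (α τ) ≤ m1 → T τ = 0) ∧ (∀ τ, m2 ≤ a (α τ) → T τ = 1) ∧
      (∀ τ τ', t (α τ) = t (α τ') → T τ = T τ') ∧ ∀ τ, θ (α τ) = ((s * T τ : ℝ) : Cir)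

/-- pull back -/
theorem Wl.comap {Y Y' : Type*} [TopologicalSpace Y] [TopologicalSpace Y'] {z : Y → E 3}
    {t k : Y → P} {a : Y → ℝ} {m1 m2 : ℝ} {Og : Set (E 3)} {θ : Y → Cir}
    (H : Wl n d z t k a m1 m2 Og θ) {f : Y' → Y} (hf : Continuous f) :
    Wl n d (fun y => z (f y)) (fun y => t (f y)) (fun y => k (f y)) (fun y => a (f y)) m1 m2 Og
      (fun y => θ (f y)) where
  cont := H.cont.comp hf
  supp _ hy := H.supp _ hy
  neg _ _ h1 h2 h3 := H.neg _ _ h1 h2 h3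
  path α hα hz hp := H.path (fun τ => f (α τ)) (hf.comp hα) hz hp

variable {Y : Type*} [TopologicalSpace Y] {z : Y → E 3} {t k : Y → P}
    {e : ℂ} {a0 b0 qN qD : E 3 → ℂ} {SN SD : Finset (V1 3)}

/-- **the wall function of the graph model** (936's `Gm.main` and `exists_isWall`). -/
theorem exists_wl {W : Set (V1 3)} {Λ : ℝ} (hW2 : ∀ w ∈ W, hh w w = 2)
    (G : LbSq_936.Gm Y n d z t k e a0 b0 qN qD SN SD)
    {ι : Type*} {V : ι → V1 3} (hL : Link W Λ V)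
    {Nn : ι → ℝ} {Nmin Nmax c0 Lam Lam' kc : ℝ}
    (Wd : LbSq_936.WData ι V Nn Nmin Nmax c0 Lam Lam' kc)
    {S : Set (V1 3)} {Fs : E 3 → ℂ} {S0 : Finset (V1 3)} {v1 v2 : V1 3} {c : ℂ} {r1 r2 : ℝ}
    (Fd : LbSq_936.FData S Fs S0 v1 v2 V c r1 r2 (r1 / (1 + r1)) (r2 / (1 + r2)))
    (A : LbSq_936.Gm.AD S Fs S0 SN SD qN qD)
    (hprod : ∀ f : V1 3 → ℂ, ∏ v ∈ S0, f v = (∏ v ∈ SN, f v) * ∏ v ∈ SD, f v)
    (h12 : r1 < r2) (hδ : slopeδ kc (capA Nmin c0) Nmax Lam' ≤ 1 / 2)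
    (hδ2 : 4 * slopeδ kc (capA Nmin c0) Nmax Lam' * (1 + ‖c‖) * (3 + 2 * ‖c‖) <
      (r2 / (1 + r2) - r1 / (1 + r1)) / 2)
    (hΛ : 0 < Λ) {r C0 : ℝ} (hr : ‖c‖ + r2 ≤ r) (hC : 0 ≤ C0)
    (hkC : 1 + C0 + 2 * C0 / Λ * kc ≤ kc ^ 2) :
    ∃ θ : Y → Cir, Wl n d z t k (LbSq_936.Gm.aa c n d e a0 b0 z t) (r1 / (1 + r1))
      (r2 / (1 + r2)) (OO W r C0 Λ) θ := by
  have hr10 := Fd.r1_nonneg
  have hr20 := Fd.r2_pos
  have hm12 : r1 / (1 + r1) < r2 / (1 + r2) := by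
    rw [div_lt_div_iff₀ (by linarith) (by linarith)]
    linarith
  obtain ⟨T, hT⟩ := LbSq_936.exists_isWall Wd c hm12 hδ hδ2
  obtain ⟨θ, hθc, hθO, hθneg, hθα⟩ := LbSq_936.Gm.main G Wd Fd hT A hprod
  refine ⟨θ, hθc, fun y hy => ?_, hθneg, fun α hα hz hp => ?_⟩
  · have h7 := mem_OO_of_wall (x := G.pi c y) hL Wd hr20 hT hr hC hΛ hkC hW2 (hθO y hy)
    rwa [LbSq_936.Gm.pi_fst] at h7
  · obtain ⟨s, hs, hsα⟩ := hθα α hα hz hp
    refine ⟨s, fun τ => T (G.pi c (α τ)), hs, T.continuous.comp ((G.continuous_pi c).comp hα),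
      fun τ h => hT.lo _ (by rw [LbSq_936.Gm.pi_snd]; exact h),
      fun τ h => hT.hi _ (by rw [LbSq_936.Gm.pi_snd]; exact h), fun τ τ' h => ?_, hsα⟩
    dsimp only
    rw [pi_congr G c (by rw [hz, hz]) h]

end wl

/-! ### consequences -/

section cons

variable {P : Type*} [TopologicalSpace P] {n d : P → ℂ}
variable {Y : Type} [TopologicalSpace Y] {z : Y → E 3} {t k : Y → P}
variable {a : Y → ℝ} {m1 m2 : ℝ} {W : Set (V1 3)} {Λ r C0 : ℝ} {θ : Y → Cir}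

/-- helper585's `Ana` -/
theorem Wl.ana (H : Wl n d z t k a m1 m2 (OO W r C0 Λ) θ) {Γ : Type*} [Group Γ] {φ : Γ →* UG 3}
    (Gd : GrpData φ W Λ) [MulAction Γ Y] (hzc : Continuous z) (hzB : ∀ y, ‖z y‖ < 1)
    (heq : ∀ (g : Γ) y, z (g • y) = act (φ g) (z y))
    (hΛ : (10 : ℝ) ^ 10 ≤ Λ) (hr : 0 ≤ r) (hC : 16512 < C0)
    (hCΛ : 6 * C0 ≤ Λ ^ 2) (hrΛ : 9 * (1 + r) ^ 2 < Λ - 1) :
    LBAsm_585.Ana (Gd.R ⊓ Gd.K) θ (z ⁻¹' OO W r C0 Λ) :=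
  Gd.ana hΛ hr hC hCΛ hrΛ z hzc (fun y => by rw [mem_Ball]; exact hzB y) heq _ H.cont H.supp

/-- points over the origin are good -/
theorem flat_mem {y : Y} (hy : z y = 0) : y ∈ z ⁻¹' OO W r C0 Λ := by
  show z y ∈ OO W r C0 Λ
  rw [hy]
  refine mem_OO_of_flat ?_ rfl rfl
  rw [mem_Ball, norm_zero]
  exact one_pos

/-- helper585's `hneg` on the curve `{j (x, iv x)}` -/
theorem Wl.hneg {Og : Set (E 3)} (H : Wl n d z t k a m1 m2 Og θ) {Γ : Type*} [Group Γ]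
    [MulAction Γ Y] {K : Subgroup Γ} {sw : Γ} (hK : KAct K n d z t k)
    {C : Type} [TopologicalSpace C] {iv : C → C} {j : C × C → Y} (hj : Fib iv n d z t k j)
    (hsw : ∀ x, sw • j x = j x.swap) :
    ∀ x ∈ Set.range (fun x : C => j (x, iv x)), ∀ g ∈ K, θ (g • sw • x) = - θ (g • x) := by
  refine hneg_of hK H.neg ?_
  rintro _ ⟨x, rfl⟩
  have e1 : sw • j (x, iv x) = j (iv x, x) := hsw _
  refine ⟨?_, ?_, ?_⟩
  · dsimp only
    rw [e1, hj.jz, hj.jz]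
  · dsimp only
    rw [e1, hj.it, hj.jt x (iv x) x]
  · dsimp only
    rw [e1, hj.jk x (iv x) x]
    exact hj.ik x x

/-- degree of `θ` along an arc and the mirrored arc: `± T` -/
theorem Wl.deg_arc {Og : Set (E 3)} (H : Wl n d z t k a m1 m2 Og θ)
    {C : Type} [TopologicalSpace C] {iv : C → C} {j : C × C → Y}
    (hj : Fib iv n d z t k j) {P₀ : C} {γ : C(I, C)}
    (hγ : Arc (fun x => a (j (x, P₀))) m1 m2 γ) :
    ∃ (s : ℝ) (T : I → ℝ), (s = 1 ∨ s = -1) ∧ Continuous T ∧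
      ((T 0 = 0 ∧ T 1 = 1) ∨ (T 0 = 1 ∧ T 1 = 0)) ∧
      (∀ τ, θ (j (γ τ, P₀)) = ((s * T τ : ℝ) : Cir)) ∧
      ∀ τ, θ (j (iv (γ τ), P₀)) = ((-(s * T τ) : ℝ) : Cir) := by
  obtain ⟨s, T, hs, hTc, hlo, hhi, -, hsα⟩ := H.path (fun τ => j (γ τ, P₀))
    (hj.cont.comp (γ.continuous.prodMk continuous_const)) (fun τ => hj.jz _) hγ.pre
  refine ⟨s, T, hs, hTc, ?_, hsα, fun τ => ?_⟩
  · rcases hγ.ends with ⟨h1, h2⟩ | ⟨h1, h2⟩
    · exact Or.inl ⟨hlo 0 h1, hhi 1 h2⟩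
    · exact Or.inr ⟨hhi 0 h1, hlo 1 h2⟩
  · have h1 : θ (j (iv (γ τ), P₀)) = - θ (j (γ τ, P₀)) := by
      refine H.neg _ _ ?_ ?_ ?_
      · rw [hj.jz, hj.jz]
      · exact (hj.it _ _).symm
      · exact hj.ik _ _
    rw [h1, hsα τ, AddCircle.coe_neg]

/-- `θ` is constant along paths with constant first factor -/
theorem Wl.deg_const {Og : Set (E 3)} (H : Wl n d z t k a m1 m2 Og θ)
    (ha : ∀ y y', z y = z y' → t y = t y' → a y = a y')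
    {C : Type} [TopologicalSpace C] {iv : C → C} {j : C × C → Y}
    (hj : Fib iv n d z t k j) {P₀ : C} {δ : I → Y} (hδc : Continuous δ)
    (hδ : ∀ τ, ∃ x, δ τ = j (P₀, x)) : HasDeg (fun τ => θ (δ τ)) 0 := by
  have hδz : ∀ τ, z (δ τ) = 0 := by
    intro τ
    obtain ⟨x, hx⟩ := hδ τ
    rw [hx, hj.jz]
  have hδt : ∀ τ, t (δ τ) = t (δ 0) := by
    intro τ
    obtain ⟨x, hx⟩ := hδ τ
    obtain ⟨x0, hx0⟩ := hδ 0
    rw [hx, hx0, hj.jt P₀ x x0]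
  have hδa : ∀ τ, a (δ τ) = a (δ 0) := fun τ => ha _ _ (by rw [hδz, hδz]) (hδt τ)
  obtain ⟨s', T, -, -, -, -, hT, hs'⟩ := H.path δ hδc hδz (by
    by_cases hc : m1 < a (δ 0) ∧ a (δ 0) < m2
    · have : {τ | m1 < a (δ τ) ∧ a (δ τ) < m2} = Set.univ := by
        ext τ
        simp only [hδa τ, hc, Set.mem_univ, Set.mem_ofPred_eq, and_self]
      rw [this]
      exact isPreconnected_univ
    · have : {τ | m1 < a (δ τ) ∧ a (δ τ) < m2} = ∅ := by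
        ext τ
        simp only [hδa τ, hc, Set.mem_empty_iff_false, Set.mem_ofPred_eq]
      rw [this]
      exact isPreconnected_empty)
  have h1 : (fun τ => θ (δ τ)) = fun _ => ((s' * T 0 : ℝ) : Cir) := by
    funext τ
    rw [hs' τ, hT τ 0 (hδt τ)]
  rw [h1]
  exact HasDeg.const _

end cons

/-- the slope function of 936's graph model depends on `z`, `t` only -/
theorem aa_congr {P : Type*} {n d : P → ℂ} {Y : Type*} {z : Y → E 3} {t : Y → P} {e c : ℂ}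
    {a0 b0 : E 3 → ℂ} {y y' : Y} (hz : z y = z y') (ht : t y = t y') :
    LbSq_936.Gm.aa c n d e a0 b0 z t y = LbSq_936.Gm.aa c n d e a0 b0 z t y' := by
  unfold LbSq_936.Gm.aa LbSq_936.Gm.F1 LbSq_936.Gm.sg0 LbSq_936.Gm.sg1
  rw [hz, ht]

section live

variable {P : Type*} [TopologicalSpace P] {n d : P → ℂ}
variable {Y : Type} [TopologicalSpace Y] {z : Y → E 3} {t k : Y → P} {a : Y → ℝ} {m1 m2 : ℝ}
  {W : Set (V1 3)} {Λ r C0 : ℝ} {θ : Y → Cir}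

/-- **THE LOWER BOUND from a wall function.** -/
theorem lb_wl (Hw : Wl n d z t k a m1 m2 (OO W r C0 Λ) θ)
    (ha : ∀ y y', z y = z y' → t y = t y' → a y = a y')
    (hzc : Continuous z) (hzB : ∀ y, ‖z y‖ < 1)
    -- the group
    {Γ : Type} [Group Γ] {φ : Γ →* UG 3} (Gd : GrpData φ W Λ)
    (hW : ∀ g : Γ, ∀ w ∈ W, (φ g).1 w ∈ W)
    -- the spaces
    {B X' : Type} [TopologicalSpace B] [TopologicalSpace X'] [MulAction Γ Y] [MulAction Γ B]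
    [ContinuousConstSMul Γ Y] [ContinuousConstSMul Γ B] [ProperlyDiscontinuousSMul Γ B]
    [T2Space B] [LocallyCompactSpace B]
    (hstab : ∀ (b : B) (g : Γ), g • b = b → g ∈ Gd.R) {p : Y → B} (hpc : Continuous p)
    (hp : ∀ (g : Γ) x, p (g • x) = g • p x)
    (heq : ∀ (g : Γ) y, z (g • y) = act (φ g) (z y)) (hK : KAct Gd.K n d z t k)
    -- the numbers
    (hΛ : (10 : ℝ) ^ 10 ≤ Λ) (hr : 0 ≤ r) (hC : 16512 < C0)
    (hCΛ : 6 * C0 ≤ Λ ^ 2) (hrΛ : 9 * (1 + r) ^ 2 < Λ - 1)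
    -- the curve and the torus
    {C A' : Type} [TopologicalSpace C] [TopologicalSpace A'] {𝒞 : Cur C} {q : C × C → A'}
    {L : AddSubgroup E2} {πA : E2 → A'} (J : 𝒞.IsJac q L πA) (hq : Continuous q)
    -- the fibre over the origin
    {j : C × C → Y} (hj : Fib 𝒞.iv n d z t k j) (hsw : ∀ x, Gd.σ • j x = j x.swap)
    -- the surgery
    {π' : X' → Orb Γ B} {Vs : Set X'} {ψ : X' → Orb Γ Y} {eX : Set (Orb Γ Y)}
    (Sg : Surg (orbMap p hp) π' Vs ψ eX)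
    (heX : ∀ y : Y, pr Γ y ∈ eX → ∃ (g : Γ) (x : C), y = g • j (x, 𝒞.iv x))
    -- the torus map
    {F : C(E2, X')} {inc : A' → X'} (hF : ∀ v, F v = inc (πA v)) (hper : Per F L)
    {P₀ : C} (hVs : ∀ x, x ≠ 𝒞.iv P₀ → inc (q (x, P₀)) ∈ Vs)
    (hψ : ∀ x, x ≠ 𝒞.iv P₀ → ψ (inc (q (x, P₀))) = pr Γ (j (x, P₀)))
    -- the arc
    {γ : C(I, C)} (hγP : ∀ τ, γ τ ≠ P₀ ∧ γ τ ≠ 𝒞.iv P₀)
    (hγ : Arc (fun x => a (j (x, P₀))) m1 m2 γ)
    {hh : C(I, E2)} (H : IsInt 𝒞 γ hh) (hs : 𝒞.iv (γ 0) = γ 0) (he : 𝒞.iv (γ 1) = γ 1)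
    (v₀ : E2) :
    ¬ IsOfFinOrder (perHom hper v₀
      (Multiplicative.ofAdd (⟨hh 1 + hh 1, two_mem J hq H hs he⟩ : L))) := by
  have hN := Hw.ana Gd hzc hzB heq hΛ hr hC hCΛ hrΛ
  have hA := Gd.alg hW
  have hneg := Hw.hneg hK hj hsw
  obtain ⟨s, T, hs1, hTc, hends, hsα, hsβ⟩ := Hw.deg_arc hj hγ
  -- the paths of `Y`
  let α : C(I, Y) := ⟨fun τ => j (γ τ, P₀), hj.cont.comp (γ.continuous.prodMk continuous_const)⟩
  let β : C(I, Y) := ⟨fun τ => j (𝒞.iv (γ τ), P₀),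
    hj.cont.comp ((𝒞.iv_cont.comp γ.continuous).prodMk continuous_const)⟩
  have hαβ : α 1 = β 1 := by
    show j (γ 1, P₀) = j (𝒞.iv (γ 1), P₀)
    rw [he]
  have hαβ0 : α 0 = β 0 := by
    show j (γ 0, P₀) = j (𝒞.iv (γ 0), P₀)
    rw [hs]
  have hdeg := hasDeg_ob (a := α) (b := β) (h := hαβ) (θ := θ) hTc
    (by rcases hends with h | h
        · exact Or.inr h.2
        · exact Or.inl h.2) hs1 hsα hsβ
  -- the swapped path
  have hdeg' : HasDeg (fun τ => θ (Gd.σ • ob α β hαβ τ)) 0 := by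
    refine Hw.deg_const ha hj (P₀ := P₀) (δ := fun τ => Gd.σ • ob α β hαβ τ)
      ((ob α β hαβ).continuous.const_smul Gd.σ) (fun τ => ?_)
    refine ob_forall (P := fun y => ∃ x, Gd.σ • y = j (P₀, x)) (fun τ => ?_) (fun τ => ?_) τ
    · exact ⟨γ τ, hsw _⟩
    · exact ⟨𝒞.iv (γ τ), hsw _⟩
  have hdd : 2 * s * (T 1 - T 0) + 0 ≠ 0 := by
    rcases hends with ⟨h1, h2⟩ | ⟨h1, h2⟩ <;> rw [h1, h2] <;> rcases hs1 with rfl | rfl <;>
      norm_num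
  -- the path of `ℂ²`
  obtain ⟨z₀, hz⟩ := J.surj (q (γ 0, P₀))
  have g1 := lift_eq J hq H P₀ z₀ hz
  have g2 := lift_eq J hq H.neg P₀ z₀ (by
    show πA z₀ = q (𝒞.iv (γ 0), P₀)
    rw [hs, hz])
  have hl : hh 1 + hh 1 ∈ L := two_mem J hq H hs he
  have g2' : ∀ τ, πA (z₀ + (hh 1 + hh 1) - hh τ) = q (𝒞.iv (γ τ), P₀) := by
    intro τ
    have h3 : πA (z₀ + - hh τ) = q (𝒞.iv (γ τ), P₀) := g2 τ
    rw [← h3, J.eq_iff]
    have e : z₀ + (hh 1 + hh 1) - hh τ - (z₀ + -hh τ) = hh 1 + hh 1 := by abel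
    rwa [e]
  let a' : C(I, E2) := ⟨fun τ => z₀ + hh τ, by fun_prop⟩
  let b' : C(I, E2) := ⟨fun τ => z₀ + (hh 1 + hh 1) - hh τ, by fun_prop⟩
  have hab : a' 1 = b' 1 := by
    show z₀ + hh 1 = z₀ + (hh 1 + hh 1) - hh 1
    abel
  have hFa : ∀ τ, F (a' τ) = inc (q (γ τ, P₀)) := fun τ => by
    rw [hF]; exact congrArg inc (g1 τ)
  have hFb : ∀ τ, F (b' τ) = inc (q (𝒞.iv (γ τ), P₀)) := fun τ => by
    rw [hF]; exact congrArg inc (g2' τ)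
  have hne : ∀ τ, 𝒞.iv (γ τ) ≠ 𝒞.iv P₀ := fun τ h =>
    (hγP τ).1 (by rw [← 𝒞.iv_iv (γ τ), h, 𝒞.iv_iv])
  refine LbEnd_259.lb_per hA hstab hpc hp hN Sg (e₀ := Set.range fun x : C => j (x, 𝒞.iv x))
    ?_ hneg hper (ob α β hαβ) ?_ ?_ Gd.R.one_mem ?_ hdd hdeg hdeg' (ob a' b' hab)
    ⟨hh 1 + hh 1, hl⟩ ?_ ?_ ?_ v₀
  · intro y hy
    obtain ⟨g, x, hx⟩ := heX y hy
    exact ⟨g, _, ⟨x, rfl⟩, hx⟩
  · exact ob_forall (P := fun y => y ∈ z ⁻¹' OO W r C0 Λ) (fun τ => flat_mem (hj.jz _))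
      (fun τ => flat_mem (hj.jz _))
  · intro τ
    refine ob_forall (P := fun y => Gd.σ • y ∈ z ⁻¹' OO W r C0 Λ) (fun τ => ?_) (fun τ => ?_) τ
    · refine flat_mem (y := Gd.σ • α τ) ?_
      show z (Gd.σ • j _) = 0
      rw [hsw, hj.jz]
    · refine flat_mem (y := Gd.σ • β τ) ?_
      show z (Gd.σ • j _) = 0
      rw [hsw, hj.jz]
  · rw [one_smul, ob_zero, ob_one, hαβ0]
  · rw [ob_zero, ob_one]
    show z₀ + (hh 1 + hh 1) - hh 0 = z₀ + hh 0 + (hh 1 + hh 1)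
    rw [H.zero]
    abel
  · exact ob_forall (P := fun v => F v ∈ Vs) (fun τ => by rw [hFa]; exact hVs _ (hγP τ).2)
      (fun τ => by rw [hFb]; exact hVs _ (hne τ))
  · intro τ
    rw [ob_apply, ob_apply]
    split_ifs
    · rw [hFa]; exact hψ _ (hγP _).2
    · rw [hFb]; exact hψ _ (hne _)

end live

end

end Crest.Agent.R272.LbAsm_990
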