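import Mathlib

/-!
# LB-CLUSTER (row 272, lower bound for S0415): the cap / cluster lemma

585 #5391 (3) = 876 #5389 (1).  Pure quasi-metric statement.

`d` is a symmetric nonnegative function with `d x z ≤ K (d x y + d y z)`
(no `d x x = 0` is required: Rudin's metric on the closed ball is covered).
A family of "caps" has centres `w v` and radii `r v > 0`; two different caps OF COMPARABLE SIZE
(`r v / (4 K^2) ≤ r u ≤ r v`) satisfy the dichotomy `d (w u) (w v) ≤ A * r v` or
`d (w u) (w v) > capC2 K A B * r v`;
caps are adjacent when `d (w v) (w v') ≤ B (r v + r v')`.  Then every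
chain of adjacent caps lies within `capC K A B * r v₁` of the largest cap `v₁` of the chain.
-/

set_option autoImplicit false

namespace Crest.Agent.R272.LbClu_382

open Relation

/-- The constant `C` of the cap lemma. -/
noncomputable def capC (K A B : ℝ) : ℝ := 2 * K ^ 3 * (2 * B + A)

/-- The threshold in the dichotomy of the cap lemma. -/
noncomputable def capC2 (K A B : ℝ) : ℝ := K * (capC K A B + K * (2 * B + A))

/-- The threshold for `Lam` in the sqrt form of the dichotomy. -/
noncomputable def lam0 (K A B : ℝ) : ℝ := 2 * K * capC2 K A B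

section cap

variable {X ι : Type*} (d : X → X → ℝ) (w : ι → X) (r : ι → ℝ)

/-- Adjacency of caps. -/
def Adj (B : ℝ) (u v : ι) : Prop := d (w u) (w v) ≤ B * (r u + r v)

/-- The data of a family of caps satisfying the dichotomy for pairs of comparable size. -/
structure Caps (K A B : ℝ) : Prop where
  one_le : 1 ≤ K
  hA : 0 ≤ A
  hB : 0 ≤ B
  symm : ∀ x y, d x y = d y x
  nonneg : ∀ x y, 0 ≤ d x y
  tri : ∀ x y z, d x z ≤ K * (d x y + d y z)
  pos : ∀ v, 0 < r v
  dich : ∀ u v, u ≠ v → r v ≤ 4 * K ^ 2 * r u → r u ≤ r v →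
    d (w u) (w v) ≤ A * r v ∨ capC2 K A B * r v < d (w u) (w v)

variable {d w r} {K A B : ℝ}

theorem Adj.symm' (H : Caps d w r K A B) {u v : ι} (h : Adj d w r B u v) :
    Adj d w r B v u := by
  unfold Adj at *
  rw [H.symm, add_comm]
  exact h

theorem capC_nonneg (hK : 1 ≤ K) (hA : 0 ≤ A) (hB : 0 ≤ B) : 0 ≤ capC K A B := by
  unfold capC
  positivity

/-- The relation "both in `T` and adjacent". -/
def Rel (d : X → X → ℝ) (w : ι → X) (r : ι → ℝ) (B : ℝ) (T : Set ι) (x y : ι) : Prop :=
  x ∈ T ∧ y ∈ T ∧ Adj d w r B x y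

theorem Rel.symm' (H : Caps d w r K A B) {T : Set ι} {x y : ι}
    (h : Rel d w r B T x y) : Rel d w r B T y x :=
  ⟨h.2.1, h.1, h.2.2.symm' H⟩

theorem reach_symm (H : Caps d w r K A B) {T : Set ι} {a b : ι}
    (h : ReflTransGen (Rel d w r B T) a b) : ReflTransGen (Rel d w r B T) b a := by
  induction h with
  | refl => exact .refl
  | tail _ h2 ih => exact ih.head (h2.symm' H)

theorem reach_mem {T : Set ι} {a b : ι} (ha : a ∈ T)
    (h : ReflTransGen (Rel d w r B T) a b) : b ∈ T := by
  induction h with
  | refl => exact ha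
  | tail _ h _ => exact h.2.1

/-- The component of `v` in `T`. -/
def Comp (d : X → X → ℝ) (w : ι → X) (r : ι → ℝ) (B : ℝ) (T : Set ι) (v : ι) : Set ι :=
  {u | ReflTransGen (Rel d w r B T) v u}

theorem comp_reach {T : Set ι} {v u : ι}
    (hu : u ∈ Comp d w r B T v) :
    ReflTransGen (Rel d w r B (Comp d w r B T v)) v u := by
  have hu' : ReflTransGen (Rel d w r B T) v u := hu
  induction hu' with
  | refl => exact .refl
  | tail h1 h2 ih =>
    exact (ih h1).tail ⟨h1, h1.tail h2, h2.2.2⟩

/-- **The cap lemma (finite form).** -/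
theorem cap_finite (H : Caps d w r K A B) (n : ℕ) :
    ∀ (F : Finset ι), F.card ≤ n → ∀ v₁ ∈ F, (∀ v ∈ F, r v ≤ r v₁) →
      (∀ v ∈ F, ReflTransGen (Rel d w r B (F : Set ι)) v₁ v) →
      ∀ v ∈ F, v ≠ v₁ → d (w v) (w v₁) ≤ capC K A B * r v₁ := by
  classical
  have hK := H.one_le
  have hA := H.hA
  have hB := H.hB
  have hC0 := capC_nonneg hK hA hB
  induction n with
  | zero =>
    intro F hF v₁ hv₁
    have : F = ∅ := by
      rw [← Finset.card_eq_zero]; omega
    rw [this] at hv₁
    simp at hv₁
  | succ n ih =>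
    intro F hF v₁ hv₁ hmax hconn v hv hvne
    set κ : ℝ := 1 / (4 * K ^ 2) with hκ
    have hκ0 : 0 < κ := by positivity
    have hr1 : 0 < r v₁ := H.pos v₁
    -- the core `R`
    let R : Finset ι := F.filter
      (fun u => u = v₁ ∨ (d (w u) (w v₁) ≤ A * r v₁ ∧ κ * r v₁ ≤ r u))
    have hv₁R : v₁ ∈ R := by simp [R, hv₁]
    have hRbd : ∀ u ∈ R, u ≠ v₁ → d (w u) (w v₁) ≤ A * r v₁ := by
      intro u hu hne
      simp only [R, Finset.mem_filter] at hu
      rcases hu.2 with h | h
      · exact absurd h hne
      · exact h.1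
    by_cases hvR : v ∈ R
    · refine (hRbd v hvR hvne).trans ?_
      apply mul_le_mul_of_nonneg_right _ hr1.le
      unfold capC
      have h1 : (1 : ℝ) ≤ K ^ 3 := one_le_pow₀ hK
      nlinarith [mul_nonneg (sub_nonneg.2 h1) hA, mul_nonneg (sub_nonneg.2 h1) hB]
    · -- component of `v` in `F \ R`
      let T : Set ι := {u | u ∈ F ∧ u ∉ R}
      have hvT : v ∈ T := ⟨hv, hvR⟩
      let Fj : Finset ι := F.filter (fun u => u ∈ Comp d w r B T v)
      have hFj : ∀ u, u ∈ Fj ↔ u ∈ Comp d w r B T v := by
        intro u
        simp only [Fj, Finset.mem_filter]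
        constructor
        · exact fun h => h.2
        · intro h
          exact ⟨(reach_mem hvT h).1, h⟩
      have hFjset : (Fj : Set ι) = Comp d w r B T v := by
        ext u
        rw [Finset.mem_coe, hFj]
      have hvFj : v ∈ Fj := (hFj v).2 .refl
      have hFjT : ∀ u ∈ Fj, u ∈ T := fun u hu => reach_mem hvT ((hFj u).1 hu)
      have hcard : Fj.card ≤ n := by
        have hsub : Fj ⊆ F.erase v₁ := by
          intro u hu
          rw [Finset.mem_erase]
          refine ⟨?_, (hFjT u hu).1⟩
          rintro rfl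
          exact (hFjT _ hu).2 hv₁R
        have := Finset.card_le_card hsub
        rw [Finset.card_erase_of_mem hv₁] at this
        omega
      -- largest element of `Fj`
      obtain ⟨vj, hvj, hvjmax⟩ := Finset.exists_max_image Fj r ⟨v, hvFj⟩
      have hconnj : ∀ u ∈ Fj, ReflTransGen (Rel d w r B (Fj : Set ι)) vj u := by
        intro u hu
        have h1 : ReflTransGen (Rel d w r B (Fj : Set ι)) v vj := by
          rw [hFjset]; exact comp_reach ((hFj vj).1 hvj)
        have h2 : ReflTransGen (Rel d w r B (Fj : Set ι)) v u := by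
          rw [hFjset]; exact comp_reach ((hFj u).1 hu)
        exact (reach_symm H h1).trans h2
      have hind := ih Fj hcard vj hvj hvjmax hconnj
      -- `Fj` touches `R`
      have htouch : ∃ u ∈ Fj, ∃ t ∈ R, Adj d w r B u t := by
        by_contra hcon
        push Not at hcon
        have hall : ∀ y, ReflTransGen (Rel d w r B (F : Set ι)) v y → y ∈ Fj := by
          intro y hy
          induction hy with
          | refl => exact hvFj
          | tail h1 h2 ih2 =>
            rename_i x y
            have hyR : y ∉ R := fun h => hcon x ih2 y h h2.2.2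
            have hyT : y ∈ T := ⟨h2.2.1, hyR⟩
            rw [hFj]
            exact ((hFj x).1 ih2 : ReflTransGen _ _ _).tail ⟨hFjT x ih2, hyT, h2.2.2⟩
        have := hall v₁ (reach_symm H (hconn v hv))
        exact (hFjT _ this).2 hv₁R
      obtain ⟨u, hu, t, ht, hut⟩ := htouch
      have htF : t ∈ F := (Finset.mem_filter.1 ht).1
      have huF : u ∈ F := (hFjT u hu).1
      have hvjF : vj ∈ F := (hFjT vj hvj).1
      have hut' : d (w u) (w t) ≤ 2 * B * r v₁ := by
        refine (show d (w u) (w t) ≤ B * (r u + r t) from hut).trans ?_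
        have := hmax u huF
        have := hmax t htF
        nlinarith
      have hu1 : d (w u) (w v₁) ≤ K * (2 * B + A) * r v₁ := by
        by_cases hte : t = v₁
        · rw [hte] at hut'
          refine hut'.trans (mul_le_mul_of_nonneg_right ?_ hr1.le)
          nlinarith
        · have h1 := H.tri (w u) (w t) (w v₁)
          have h2 := hRbd t ht hte
          nlinarith
      have hrj : 0 < r vj := H.pos vj
      have hj1 : d (w vj) (w v₁) ≤ K * (capC K A B * r vj + K * (2 * B + A) * r v₁) := by
        by_cases huj : u = vj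
        · rw [huj] at hu1
          refine hu1.trans ?_
          have h3 : 0 ≤ capC K A B * r vj := mul_nonneg hC0 hrj.le
          have h4 : 0 ≤ K * (2 * B + A) * r v₁ := by positivity
          nlinarith
        · have h1 := H.tri (w vj) (w u) (w v₁)
          have h2 := hind u hu huj
          rw [H.symm] at h2
          nlinarith
      have hvj1 : vj ≠ v₁ := by
        rintro rfl
        exact (hFjT _ hvj).2 hv₁R
      have hrjκ : r vj ≤ κ * r v₁ := by
        by_contra hlt
        push Not at hlt
        have hcomp : r v₁ ≤ 4 * K ^ 2 * r vj := by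
          have h1 : 4 * K ^ 2 * (κ * r v₁) = r v₁ := by
            rw [hκ]; field_simp
          rw [← h1]
          exact mul_le_mul_of_nonneg_left hlt.le (by positivity)
        rcases H.dich vj v₁ hvj1 hcomp (hmax vj hvjF) with h | h
        · -- first kind, hence small
          have : vj ∉ R := (hFjT vj hvj).2
          simp only [R, Finset.mem_filter, not_and, not_or] at this
          have := (this hvjF).2 h
          linarith
        · -- second kind
          have hrle := hmax vj hvjF
          have h5 : d (w vj) (w v₁) ≤ capC2 K A B * r v₁ := by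
            refine hj1.trans ?_
            unfold capC2
            have := mul_le_mul_of_nonneg_left hrle hC0
            nlinarith
          linarith
      -- conclusion
      have hcκ : K ^ 2 * (capC K A B * r vj) ≤ capC K A B * r v₁ / 4 := by
        have h1 : K ^ 2 * (capC K A B * r vj) ≤ K ^ 2 * (capC K A B * (κ * r v₁)) := by
          apply mul_le_mul_of_nonneg_left _ (by positivity)
          exact mul_le_mul_of_nonneg_left hrjκ hC0
        have h2 : K ^ 2 * (capC K A B * (κ * r v₁)) = capC K A B * r v₁ / 4 := by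
          rw [hκ]
          field_simp
        linarith
      have hKK : K * (capC K A B * r vj) ≤ K ^ 2 * (capC K A B * r vj) := by
        have h3 : 0 ≤ capC K A B * r vj := mul_nonneg hC0 hrj.le
        have h4 : K ≤ K ^ 2 := by nlinarith
        exact mul_le_mul_of_nonneg_right h4 h3
      have hK3 : K ^ 3 * (2 * B + A) * r v₁ = capC K A B * r v₁ / 2 := by
        unfold capC; ring
      have hK23 : K ^ 2 * (2 * B + A) * r v₁ ≤ K ^ 3 * (2 * B + A) * r v₁ := by
        have h4 : K ^ 2 ≤ K ^ 3 := by
          have : 0 ≤ K ^ 2 := by positivity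
          nlinarith
        have h5 : 0 ≤ (2 * B + A) * r v₁ := by positivity
        nlinarith
      by_cases hvvj : v = vj
      · rw [hvvj]
        refine hj1.trans ?_
        have e1 : K * (capC K A B * r vj + K * (2 * B + A) * r v₁)
            = K * (capC K A B * r vj) + K ^ 2 * (2 * B + A) * r v₁ := by ring
        rw [e1]
        have : 0 ≤ capC K A B * r v₁ := by positivity
        linarith
      · have h1 := H.tri (w v) (w vj) (w v₁)
        have h2 := hind v hvFj hvvj
        have h3 : d (w v) (w v₁) ≤
            K * (capC K A B * r vj) + K ^ 2 * (capC K A B * r vj)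
              + K ^ 3 * (2 * B + A) * r v₁ := by
          refine h1.trans ?_
          have : K * (d (w v) (w vj) + d (w vj) (w v₁)) ≤
              K * (capC K A B * r vj + K * (capC K A B * r vj + K * (2 * B + A) * r v₁)) := by
            apply mul_le_mul_of_nonneg_left _ (by linarith)
            linarith
          refine this.trans (le_of_eq ?_)
          ring
        have : 0 ≤ capC K A B * r v₁ := by positivity
        linarith

theorem Rel.mono {S T : Set ι} (hST : S ⊆ T) {x y : ι} (h : Rel d w r B S x y) :
    Rel d w r B T x y :=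
  ⟨hST h.1, hST h.2.1, h.2.2⟩

theorem reach_mono {S T : Set ι} (hST : S ⊆ T) {a b : ι}
    (h : ReflTransGen (Rel d w r B S) a b) : ReflTransGen (Rel d w r B T) a b := by
  induction h with
  | refl => exact .refl
  | tail _ h2 ih => exact ih.tail (h2.mono hST)

/-- A chain inside `S` is supported on a finite chain-connected subset of `S`. -/
theorem exists_finset_chain {S : Set ι} {a b : ι} (ha : a ∈ S)
    (h : ReflTransGen (Rel d w r B S) a b) :
    ∃ F : Finset ι, (F : Set ι) ⊆ S ∧ a ∈ F ∧ b ∈ F ∧
      ∀ u ∈ F, ReflTransGen (Rel d w r B (F : Set ι)) a u := by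
  classical
  induction h with
  | refl =>
    refine ⟨{a}, by simpa using ha, by simp, by simp, ?_⟩
    intro u hu
    rw [Finset.mem_singleton] at hu
    rw [hu]
  | tail h1 h2 ih =>
    rename_i x y
    obtain ⟨F, hFS, haF, hxF, hF⟩ := ih
    refine ⟨insert y F, ?_, by simp [haF], by simp, ?_⟩
    · intro z hz
      rcases Finset.mem_insert.1 (Finset.mem_coe.1 hz) with rfl | hz
      · exact h2.2.1
      · exact hFS hz
    · have hsub : (F : Set ι) ⊆ ((insert y F : Finset ι) : Set ι) := by
        intro z hz
        simp only [Finset.coe_insert, Set.mem_insert_iff]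
        exact Or.inr hz
      have hxy : ReflTransGen (Rel d w r B ((insert y F : Finset ι) : Set ι)) a y := by
        refine (reach_mono hsub (hF x hxF)).tail ⟨?_, ?_, h2.2.2⟩
        · simp [hxF]
        · simp
      intro u hu
      rcases Finset.mem_insert.1 hu with rfl | hu
      · exact hxy
      · exact reach_mono hsub (hF u hu)

/-- **The cap lemma (chain form).**  For every chain of caps inside `S` from `a` to `b` there is
a cap `m` of the chain (the largest one) such that both ends lie within `capC * r m` of `m`. -/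
theorem cap_chain (H : Caps d w r K A B) {S : Set ι} {a b : ι} (ha : a ∈ S)
    (h : ReflTransGen (Rel d w r B S) a b) :
    ∃ m ∈ S, ReflTransGen (Rel d w r B S) a m ∧ r a ≤ r m ∧ r b ≤ r m ∧
      (a ≠ m → d (w a) (w m) ≤ capC K A B * r m) ∧
      (b ≠ m → d (w b) (w m) ≤ capC K A B * r m) := by
  classical
  obtain ⟨F, hFS, haF, hbF, hF⟩ := exists_finset_chain ha h
  obtain ⟨m, hm, hmax⟩ := Finset.exists_max_image F r ⟨a, haF⟩
  have hconn : ∀ v ∈ F, ReflTransGen (Rel d w r B (F : Set ι)) m v := fun v hv =>
    (reach_symm H (hF m hm)).trans (hF v hv)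
  have key := cap_finite H F.card F le_rfl m hm hmax hconn
  exact ⟨m, hFS hm, reach_mono hFS (hF m hm), hmax a haF, hmax b hbF, key a haF, key b hbF⟩

/-- The cap lemma around a largest cap: if `v₁` is at least as large as every cap which is
chain-connected to it inside `S`, then the whole chain component is within `capC * r v₁`. -/
theorem cap_component (H : Caps d w r K A B) {S : Set ι} {v₁ : ι} (h₁ : v₁ ∈ S)
    (hmax : ∀ v, ReflTransGen (Rel d w r B S) v₁ v → r v ≤ r v₁) {v : ι}
    (h : ReflTransGen (Rel d w r B S) v₁ v) (hne : v ≠ v₁) :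
    d (w v) (w v₁) ≤ capC K A B * r v₁ := by
  classical
  obtain ⟨F, hFS, haF, hbF, hF⟩ := exists_finset_chain h₁ h
  exact cap_finite H F.card F le_rfl v₁ haF (fun u hu => hmax u (reach_mono hFS (hF u hu)))
    hF v hbF hne

/-- Distance between the two ends of a chain of caps. -/
theorem cap_chain_dist (H : Caps d w r K A B) {S : Set ι} {a b : ι} (ha : a ∈ S)
    (h : ReflTransGen (Rel d w r B S) a b) (hab : a ≠ b) :
    ∃ m ∈ S, ReflTransGen (Rel d w r B S) a m ∧ r a ≤ r m ∧ r b ≤ r m ∧
      d (w a) (w b) ≤ 2 * K * capC K A B * r m := by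
  obtain ⟨m, hm, ham, hra, hrb, h1, h2⟩ := cap_chain H ha h
  refine ⟨m, hm, ham, hra, hrb, ?_⟩
  have hC0 := capC_nonneg H.one_le H.hA H.hB
  have hr : 0 < r m := H.pos m
  have hK := H.one_le
  have hCr : 0 ≤ capC K A B * r m := by positivity
  by_cases hma : a = m
  · subst hma
    have := h2 (Ne.symm hab)
    rw [H.symm] at this
    nlinarith
  · by_cases hmb : b = m
    · subst hmb
      have := h1 hab
      nlinarith
    · have e1 := h1 hma
      have e2 := h2 hmb
      rw [H.symm] at e2
      have := H.tri (w a) (w m) (w b)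
      nlinarith

end cap

/-! ### The metric case `K = 1` -/

section metric

variable {X ι : Type*} {d : X → X → ℝ} {w : ι → X} {r : ι → ℝ} {A B Lam : ℝ}

theorem capC_one (A B : ℝ) : capC 1 A B = 2 * (2 * B + A) := by
  unfold capC; ring

theorem capC2_one (A B : ℝ) : capC2 1 A B = 3 * (2 * B + A) := by
  unfold capC2; rw [capC_one]; ring

theorem lam0_one (A B : ℝ) : lam0 1 A B = 6 * (2 * B + A) := by
  unfold lam0; rw [capC2_one]; ring

/-- Constructor for the metric case: dichotomy for pairs with `r v / 4 ≤ r u ≤ r v`: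
`d ≤ A * r v` or `3 (2 B + A) * r v < d`; the constant of the conclusion is `2 (2 B + A)`. -/
theorem Caps.of_metric (hA : 0 ≤ A) (hB : 0 ≤ B)
    (symm : ∀ x y, d x y = d y x) (nonneg : ∀ x y, 0 ≤ d x y)
    (tri : ∀ x y z, d x z ≤ d x y + d y z) (pos : ∀ v, 0 < r v)
    (dich : ∀ u v, u ≠ v → r v ≤ 4 * r u → r u ≤ r v →
      d (w u) (w v) ≤ A * r v ∨ 3 * (2 * B + A) * r v < d (w u) (w v)) :
    Caps d w r 1 A B where
  one_le := le_rfl
  hA := hA
  hB := hB
  symm := symm
  nonneg := nonneg
  tri := fun x y z => by rw [one_mul]; exact tri x y z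
  pos := pos
  dich := fun u v huv h1 h2 => by
    rw [capC2_one]
    exact dich u v huv (by simpa using h1) h2

/-- Constructor from the sqrt form of the dichotomy (876 #5389 (1)). -/
theorem Caps.of_sqrt {K : ℝ} (hK : 1 ≤ K) (hA : 0 ≤ A) (hB : 0 ≤ B) (hLam : lam0 K A B < Lam)
    (symm : ∀ x y, d x y = d y x) (nonneg : ∀ x y, 0 ≤ d x y)
    (tri : ∀ x y z, d x z ≤ K * (d x y + d y z)) (pos : ∀ v, 0 < r v)
    (dich : ∀ u v, u ≠ v →
      d (w u) (w v) ≤ A * Real.sqrt (r u * r v) ∨ Lam * Real.sqrt (r u * r v) ≤ d (w u) (w v)) :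
    Caps d w r K A B where
  one_le := hK
  hA := hA
  hB := hB
  symm := symm
  nonneg := nonneg
  tri := tri
  pos := pos
  dich := fun u v huv h1 h2 => by
    have hru := pos u
    have hrv := pos v
    have hC0 := capC_nonneg hK hA hB
    rcases dich u v huv with h | h
    · left
      refine h.trans (mul_le_mul_of_nonneg_left ?_ hA)
      rw [Real.sqrt_le_left hrv.le]
      nlinarith
    · right
      have hs : r v ≤ 2 * K * Real.sqrt (r u * r v) := by
        have h3 : r v * r v ≤ (2 * K) ^ 2 * (r u * r v) := by nlinarith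
        have h4 : Real.sqrt (r v * r v) ≤ Real.sqrt ((2 * K) ^ 2 * (r u * r v)) :=
          Real.sqrt_le_sqrt h3
        rw [Real.sqrt_mul_self hrv.le, Real.sqrt_mul (by positivity),
          Real.sqrt_sq (by positivity)] at h4
        exact h4
      have hc2 : 0 ≤ capC2 K A B := by unfold capC2; positivity
      have hspos : 0 < Real.sqrt (r u * r v) := Real.sqrt_pos.2 (by positivity)
      have h5 : capC2 K A B * r v ≤ lam0 K A B * Real.sqrt (r u * r v) := by
        unfold lam0
        have := mul_le_mul_of_nonneg_left hs hc2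
        nlinarith
      have h6 : lam0 K A B * Real.sqrt (r u * r v) < Lam * Real.sqrt (r u * r v) :=
        mul_lt_mul_of_pos_right hLam hspos
      linarith

end metric

/-! ### Topology: pieces of a locally finite union of closed caps -/

section top

variable {Y ι : Type*} [TopologicalSpace Y] {D : ι → Set Y}

/-- Any subfamily of a locally finite family of closed sets has closed union. -/
theorem isClosed_biUnion_of_locallyFinite (hf : LocallyFinite D) (hc : ∀ i, IsClosed (D i))
    (J : Set ι) : IsClosed (⋃ i ∈ J, D i) := by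
  rw [Set.biUnion_eq_iUnion]
  exact (hf.comp_injective Subtype.val_injective).isClosed_iUnion fun i => hc i

/-- The pieces (unions over the fibres of any map `q`) of a locally finite family form a locally
finite family. -/
theorem locallyFinite_pieces (hf : LocallyFinite D) {Q : Type*} (q : ι → Q) :
    LocallyFinite (fun c : Q => ⋃ i ∈ {i | q i = c}, D i) := by
  intro x
  obtain ⟨t, ht, hfin⟩ := hf x
  refine ⟨t, ht, (hfin.image q).subset ?_⟩
  rintro c ⟨y, hy, hyt⟩
  simp only [Set.mem_iUnion, Set.mem_ofPred_eq, exists_prop] at hy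
  obtain ⟨i, rfl, hi⟩ := hy
  exact ⟨i, ⟨y, hi, hyt⟩, rfl⟩

omit [TopologicalSpace Y] in
/-- If intersecting caps are identified by `q`, different pieces are disjoint. -/
theorem disjoint_pieces {Q : Type*} (q : ι → Q)
    (hq : ∀ i j, (D i ∩ D j).Nonempty → q i = q j) {c c' : Q} (hcc : c ≠ c') :
    Disjoint (⋃ i ∈ {i | q i = c}, D i) (⋃ i ∈ {i | q i = c'}, D i) := by
  rw [Set.disjoint_left]
  intro y hy hy'
  simp only [Set.mem_iUnion, Set.mem_ofPred_eq, exists_prop] at hy hy'
  obtain ⟨i, rfl, hi⟩ := hy
  obtain ⟨j, rfl, hj⟩ := hy'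
  exact hcc (hq i j ⟨y, hi, hj⟩)

end top

/-! ### Chain classes -/

section classes

variable {X ι : Type*} {d : X → X → ℝ} {w : ι → X} {r : ι → ℝ} {K A B : ℝ}

/-- The chain relation as a setoid. -/
def chainSetoid (H : Caps d w r K A B) : Setoid ι where
  r u v := ReflTransGen (Rel d w r B Set.univ) u v
  iseqv := ⟨fun _ => .refl, fun h => reach_symm H h, fun h h' => h.trans h'⟩

theorem chainSetoid_iff (H : Caps d w r K A B) {u v : ι} :
    (Quotient.mk (chainSetoid H) u = Quotient.mk (chainSetoid H) v) ↔
      ReflTransGen (Rel d w r B Set.univ) u v :=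
  Quotient.eq (r := chainSetoid H)

theorem chainSetoid_of_adj (H : Caps d w r K A B) {u v : ι} (h : Adj d w r B u v) :
    Quotient.mk (chainSetoid H) u = Quotient.mk (chainSetoid H) v :=
  (chainSetoid_iff H).2 (.single ⟨trivial, trivial, h⟩)

/-- Two caps in the same chain class: there is a cap `m` in the class, at least as large as both,
with both within `capC * r m` of `m`. -/
theorem chainSetoid_dist (H : Caps d w r K A B) {u v : ι}
    (h : Quotient.mk (chainSetoid H) u = Quotient.mk (chainSetoid H) v) :
    ∃ m, Quotient.mk (chainSetoid H) m = Quotient.mk (chainSetoid H) u ∧ r u ≤ r m ∧ r v ≤ r m ∧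
      (u ≠ m → d (w u) (w m) ≤ capC K A B * r m) ∧
      (v ≠ m → d (w v) (w m) ≤ capC K A B * r m) := by
  obtain ⟨m, -, hm, h1, h2, h3, h4⟩ := cap_chain H (Set.mem_univ u) ((chainSetoid_iff H).1 h)
  exact ⟨m, ((chainSetoid_iff H).2 hm).symm, h1, h2, h3, h4⟩

end classes

end Crest.Agent.R272.LbClu_382
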