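import Crest.Agent.R272.EBase_641
import Crest.Agent.R272.LbClu_382

/-!
# LB-CAP, part 1 (row 272, lower bound for S0415, 585 #5391 (2))

Rudin's function on the closed unit ball of `E n`, the unit vector `omv v` and the size `ep v`
of a positive vector `v : V1 n`, and the relation between `hh v w` and `rd (omv v) (omv w)`.
-/

set_option autoImplicit false

open scoped ComplexConjugate

namespace Crest.Agent.R272.LbCap_382

open Crest.Agent.R272.EBase_641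

noncomputable section

variable {n : ℕ}

/-! ### Rudin's function -/

/-- Rudin's function `sqrt |1 - <a,b>|`. -/
def rd (a b : E n) : ℝ := Real.sqrt ‖1 - inner ℂ b a‖

theorem rd_nonneg (a b : E n) : 0 ≤ rd a b := Real.sqrt_nonneg _

theorem rd_comm (a b : E n) : rd a b = rd b a := by
  unfold rd
  congr 1
  rw [← inner_conj_symm, ← RCLike.norm_conj (1 - inner ℂ a b)]
  simp

theorem rd_sq (a b : E n) : rd a b ^ 2 = ‖1 - inner ℂ b a‖ := Real.sq_sqrt (norm_nonneg _)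

/-- Decomposition estimate: for a unit vector `b` the parts of `a`, `c` orthogonal to `b`. -/
theorem inner_sub_le {a b c : E n} (hb : ‖b‖ = 1) :
    ‖inner ℂ c a - inner ℂ b a * inner ℂ c b‖ ^ 2 ≤
      (‖a‖ ^ 2 - ‖inner ℂ b a‖ ^ 2) * (‖c‖ ^ 2 - ‖inner ℂ b c‖ ^ 2) := by
  set a' : E n := a - (inner ℂ b a : ℂ) • b with ha'
  set c' : E n := c - (inner ℂ b c : ℂ) • b with hc'
  have hbb : inner ℂ b b = (1 : ℂ) := by
    rw [inner_self_eq_norm_sq_to_K, hb]; simp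
  have h1 : inner ℂ c' a' = inner ℂ c a - inner ℂ b a * inner ℂ c b := by
    rw [ha', hc', inner_sub_left, inner_sub_right, inner_sub_right, inner_smul_left,
      inner_smul_right, inner_smul_right, inner_smul_left, hbb]
    ring
  have h2 : ‖a'‖ ^ 2 = ‖a‖ ^ 2 - ‖inner ℂ b a‖ ^ 2 := by
    have h : (inner ℂ a' a' : ℂ) = inner ℂ a a - inner ℂ b a * inner ℂ a b := by
      rw [ha', inner_sub_left, inner_sub_right, inner_sub_right, inner_smul_left,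
        inner_smul_right, inner_smul_right, inner_smul_left, hbb]
      ring
    have h' := congrArg Complex.re h
    rw [inner_self_eq_norm_sq_to_K, inner_self_eq_norm_sq_to_K] at h'
    have h3 : (inner ℂ b a * inner ℂ a b : ℂ) = ((‖(inner ℂ b a : ℂ)‖ ^ 2 : ℝ) : ℂ) := by
      rw [← inner_conj_symm a b, Complex.mul_conj, Complex.normSq_eq_norm_sq]
    rw [h3] at h'
    have h4 : ∀ x : ℝ, (((x : ℂ)) ^ 2).re = x ^ 2 := by
      intro x; rw [← Complex.ofReal_pow, Complex.ofReal_re]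
    simpa [h4] using h'
  have h2' : ‖c'‖ ^ 2 = ‖c‖ ^ 2 - ‖inner ℂ b c‖ ^ 2 := by
    have h : (inner ℂ c' c' : ℂ) = inner ℂ c c - inner ℂ b c * inner ℂ c b := by
      rw [hc', inner_sub_left, inner_sub_right, inner_sub_right, inner_smul_left,
        inner_smul_right, inner_smul_right, inner_smul_left, hbb]
      ring
    have h' := congrArg Complex.re h
    rw [inner_self_eq_norm_sq_to_K, inner_self_eq_norm_sq_to_K] at h'
    have h3 : (inner ℂ b c * inner ℂ c b : ℂ) = ((‖(inner ℂ b c : ℂ)‖ ^ 2 : ℝ) : ℂ) := by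
      rw [← inner_conj_symm c b, Complex.mul_conj, Complex.normSq_eq_norm_sq]
    rw [h3] at h'
    have h4 : ∀ x : ℝ, (((x : ℂ)) ^ 2).re = x ^ 2 := by
      intro x; rw [← Complex.ofReal_pow, Complex.ofReal_re]
    simpa [h4] using h'
  rw [← h1, ← h2, ← h2', mul_comm, ← mul_pow]
  exact pow_le_pow_left₀ (norm_nonneg _) (norm_inner_le_norm c' a') 2

/-- Triangle inequality through a unit vector. -/
theorem rd_tri {a b c : E n} (ha : ‖a‖ ≤ 1) (hb : ‖b‖ = 1) (hc : ‖c‖ ≤ 1) :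
    rd a c ≤ rd a b + rd b c := by
  set α : ℂ := inner ℂ b a with hα
  set γ : ℂ := inner ℂ b c with hγ
  have hα1 : ‖α‖ ≤ 1 := by
    calc ‖α‖ ≤ ‖b‖ * ‖a‖ := norm_inner_le_norm b a
      _ ≤ 1 := by rw [hb, one_mul]; exact ha
  have hγ1 : ‖γ‖ ≤ 1 := by
    calc ‖γ‖ ≤ ‖b‖ * ‖c‖ := norm_inner_le_norm b c
      _ ≤ 1 := by rw [hb, one_mul]; exact hc
  have hcb : (inner ℂ c b : ℂ) = conj γ := by rw [hγ, inner_conj_symm]
  have e1 : rd a b ^ 2 = ‖1 - α‖ := rd_sq a b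
  have e2 : rd b c ^ 2 = ‖1 - γ‖ := by rw [rd_comm, rd_sq]
  have p1 := rd_nonneg a b
  have p2 := rd_nonneg b c
  have k1 : ‖a‖ ^ 2 - ‖α‖ ^ 2 ≤ 2 * rd a b ^ 2 := by
    rw [e1]
    have h1 : 1 - ‖α‖ ≤ ‖1 - α‖ := by
      have := norm_sub_norm_le (1 : ℂ) α
      simpa using this
    have h2 : ‖a‖ ^ 2 ≤ 1 := by nlinarith [norm_nonneg a]
    nlinarith [norm_nonneg α]
  have k2 : ‖c‖ ^ 2 - ‖γ‖ ^ 2 ≤ 2 * rd b c ^ 2 := by
    rw [e2]
    have h1 : 1 - ‖γ‖ ≤ ‖1 - γ‖ := by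
      have := norm_sub_norm_le (1 : ℂ) γ
      simpa using this
    have h2 : ‖c‖ ^ 2 ≤ 1 := by nlinarith [norm_nonneg c]
    nlinarith [norm_nonneg γ]
  have k0 : 0 ≤ ‖c‖ ^ 2 - ‖γ‖ ^ 2 := by
    have : ‖γ‖ ≤ ‖b‖ * ‖c‖ := norm_inner_le_norm b c
    rw [hb, one_mul] at this
    nlinarith [norm_nonneg γ, norm_nonneg c]
  have key := inner_sub_le (a := a) (c := c) hb
  rw [← hα, ← hγ, hcb] at key
  have key2 : ‖inner ℂ c a - α * conj γ‖ ≤ 2 * (rd a b * rd b c) := by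
    have h3 : ‖inner ℂ c a - α * conj γ‖ ^ 2 ≤ (2 * (rd a b * rd b c)) ^ 2 := by
      refine key.trans ?_
      calc (‖a‖ ^ 2 - ‖α‖ ^ 2) * (‖c‖ ^ 2 - ‖γ‖ ^ 2)
          ≤ (2 * rd a b ^ 2) * (‖c‖ ^ 2 - ‖γ‖ ^ 2) := mul_le_mul_of_nonneg_right k1 k0
        _ ≤ (2 * rd a b ^ 2) * (2 * rd b c ^ 2) := by
            apply mul_le_mul_of_nonneg_left k2; positivity
        _ = (2 * (rd a b * rd b c)) ^ 2 := by ring
    exact le_of_sq_le_sq h3 (by positivity)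
  have key3 : ‖1 - α * conj γ‖ ≤ rd a b ^ 2 + rd b c ^ 2 := by
    have h4 : (1 : ℂ) - α * conj γ = (1 - α) + α * (1 - conj γ) := by ring
    have h5 : ‖(1 : ℂ) - conj γ‖ = ‖1 - γ‖ := by
      rw [← RCLike.norm_conj (1 - γ)]; simp
    rw [h4, e1, e2]
    refine (norm_add_le _ _).trans ?_
    rw [norm_mul, h5]
    have := mul_le_mul_of_nonneg_right hα1 (norm_nonneg (1 - γ))
    linarith
  have key4 : rd a c ^ 2 ≤ (rd a b + rd b c) ^ 2 := by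
    have h6 : (1 : ℂ) - inner ℂ c a = (1 - α * conj γ) - (inner ℂ c a - α * conj γ) := by ring
    rw [rd_sq, h6]
    refine (norm_sub_le _ _).trans ?_
    nlinarith
  exact le_of_sq_le_sq key4 (by positivity)

theorem norm_sub_sq_le {a b : E n} (ha : ‖a‖ ≤ 1) (hb : ‖b‖ ≤ 1) :
    ‖a - b‖ ^ 2 ≤ 2 * rd a b ^ 2 := by
  rw [rd_sq, norm_sub_sq (𝕜 := ℂ)]
  have h1 : RCLike.re (inner ℂ a b) = (inner ℂ b a : ℂ).re := by
    have h := congrArg Complex.re (inner_conj_symm (𝕜 := ℂ) b a)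
    rw [Complex.conj_re] at h
    exact h
  rw [h1]
  have h2 : 1 - (inner ℂ b a : ℂ).re ≤ ‖1 - inner ℂ b a‖ := by
    have := Complex.re_le_norm (1 - inner ℂ b a)
    simpa using this
  nlinarith [norm_nonneg a, norm_nonneg b]

theorem norm_sub_le_rd {a b : E n} (ha : ‖a‖ ≤ 1) (hb : ‖b‖ ≤ 1) :
    ‖a - b‖ ≤ 2 * rd a b := by
  apply le_of_sq_le_sq _ (by have := rd_nonneg a b; positivity)
  have := norm_sub_sq_le ha hb
  nlinarith [rd_nonneg a b]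

/-! ### The unit vector and the size of a positive vector -/

/-- `t = |v_0| / |v'|`. -/
def tt (v : V1 n) : ℝ := ‖v.2‖ / ‖v.1‖

/-- the unit vector of `v`: the hyperplane of `v` is `<u, omv v> = tt v`. -/
def omv (v : V1 n) : E n := (conj v.2 / ((‖v.2‖ * ‖v.1‖ : ℝ) : ℂ)) • v.1

/-- the size of the cap of `v`. -/
def ep (v : V1 n) : ℝ := Real.sqrt (1 - tt v)

/-- A positive vector of norm `N` with non zero time part. -/
structure Pv (N : ℝ) (v : V1 n) : Prop where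
  pos : 0 < N
  norm : ‖v.1‖ ^ 2 - ‖v.2‖ ^ 2 = N
  ne : v.2 ≠ 0

variable {N N' : ℝ} {v w : V1 n}

theorem Pv.n2 (h : Pv N v) : 0 < ‖v.2‖ := norm_pos_iff.2 h.ne

theorem Pv.n1 (h : Pv N v) : 0 < ‖v.1‖ := by
  by_contra h0
  have h1 : ‖v.1‖ = 0 := le_antisymm (not_lt.1 h0) (norm_nonneg _)
  have h2 := h.norm
  rw [h1] at h2
  have := h.pos
  nlinarith [h.n2]

theorem Pv.lt (h : Pv N v) : ‖v.2‖ < ‖v.1‖ := by
  have h1 := h.norm
  have h2 := h.pos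
  nlinarith [h.n1, h.n2]

theorem Pv.tt_pos (h : Pv N v) : 0 < tt v := div_pos h.n2 h.n1

theorem Pv.tt_lt (h : Pv N v) : tt v < 1 := (div_lt_one h.n1).2 h.lt

theorem Pv.ep_pos (h : Pv N v) : 0 < ep v := Real.sqrt_pos.2 (by linarith [h.tt_lt])

theorem Pv.ep_sq (h : Pv N v) : ep v ^ 2 = 1 - tt v := Real.sq_sqrt (by linarith [h.tt_lt])

theorem Pv.ep_lt_one (h : Pv N v) : ep v < 1 := by
  have h1 := h.ep_sq
  have h2 := h.tt_pos
  have h3 := h.ep_pos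
  nlinarith

theorem Pv.norm_omv (h : Pv N v) : ‖omv v‖ = 1 := by
  have h1 := h.n1
  have h2 := h.n2
  rw [omv, norm_smul, norm_div, RCLike.norm_conj, Complex.norm_real, Real.norm_of_nonneg
    (by positivity)]
  field_simp

/-- `|v'|^2 ep^2 (1+t) = N`. -/
theorem Pv.sq_mul (h : Pv N v) : ‖v.1‖ ^ 2 * ep v ^ 2 * (1 + tt v) = N := by
  have h1 := h.n1
  rw [h.ep_sq, ← h.norm, tt]
  field_simp
  ring

theorem Pv.sq_le (h : Pv N v) : ‖v.1‖ ^ 2 * ep v ^ 2 ≤ N := by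
  have h1 := h.sq_mul
  have h2 := h.tt_pos
  have h3 : 0 ≤ ‖v.1‖ ^ 2 * ep v ^ 2 := by positivity
  nlinarith

theorem Pv.le_sq (h : Pv N v) : N ≤ 2 * (‖v.1‖ ^ 2 * ep v ^ 2) := by
  have h1 := h.sq_mul
  have h2 := h.tt_lt
  have h3 : 0 ≤ ‖v.1‖ ^ 2 * ep v ^ 2 := by positivity
  nlinarith

theorem Pv.inner_omv (h : Pv N v) (z : E n) :
    inner ℂ (omv v) z = v.2 / ((‖v.2‖ * ‖v.1‖ : ℝ) : ℂ) * inner ℂ v.1 z := by
  rw [omv, inner_smul_left, map_div₀, Complex.conj_conj, Complex.conj_ofReal]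

theorem Pv.phase (h : Pv N v) : ‖v.2 / ((‖v.2‖ * ‖v.1‖ : ℝ) : ℂ)‖ = ‖v.1‖⁻¹ := by
  have h1 := h.n1
  have h2 := h.n2
  rw [norm_div, Complex.norm_real, Real.norm_of_nonneg (by positivity)]
  field_simp

/-- `|lin v z| = |v'| |<z, om> - t|`. -/
theorem Pv.norm_lin (h : Pv N v) (z : E n) :
    ‖lin v z‖ = ‖v.1‖ * ‖inner ℂ (omv v) z - (tt v : ℂ)‖ := by
  have h1 := h.n1
  have h2 := h.n2
  have e1 : inner ℂ (omv v) z - (tt v : ℂ) = v.2 / ((‖v.2‖ * ‖v.1‖ : ℝ) : ℂ) * lin v z := by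
    rw [h.inner_omv, lin, mul_sub]
    congr 1
    rw [div_mul_eq_mul_div, Complex.mul_conj, Complex.normSq_eq_norm_sq, tt]
    have : (‖v.2‖ : ℂ) ≠ 0 := by exact_mod_cast h2.ne'
    have : (‖v.1‖ : ℂ) ≠ 0 := by exact_mod_cast h1.ne'
    push_cast
    field_simp
  rw [e1, norm_mul, h.phase, ← mul_assoc, mul_inv_cancel₀ h1.ne', one_mul]

/-- `|hh v w| = |v'||w'| |<om v, om w> - t_v t_w|`. -/
theorem Pv.norm_hh (h : Pv N v) (h' : Pv N' w) :
    ‖hh v w‖ = ‖v.1‖ * ‖w.1‖ * ‖inner ℂ (omv w) (omv v) - ((tt v * tt w : ℝ) : ℂ)‖ := by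
  have h1 := h.n1
  have h2 := h.n2
  have h1' := h'.n1
  have h2' := h'.n2
  have e1 : inner ℂ (omv w) (omv v) - ((tt v * tt w : ℝ) : ℂ) =
      (w.2 / ((‖w.2‖ * ‖w.1‖ : ℝ) : ℂ)) * (conj v.2 / ((‖v.2‖ * ‖v.1‖ : ℝ) : ℂ)) * hh v w := by
    rw [h'.inner_omv, hh, mul_sub]
    congr 1
    · rw [omv, inner_smul_right]; ring
    · have e2 : w.2 * conj w.2 = ((‖w.2‖ ^ 2 : ℝ) : ℂ) := by
        rw [Complex.mul_conj, Complex.normSq_eq_norm_sq]
      have e3 : conj v.2 * v.2 = ((‖v.2‖ ^ 2 : ℝ) : ℂ) := by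
        rw [mul_comm, Complex.mul_conj, Complex.normSq_eq_norm_sq]
      have e4 : w.2 / ((‖w.2‖ * ‖w.1‖ : ℝ) : ℂ) * (conj v.2 / ((‖v.2‖ * ‖v.1‖ : ℝ) : ℂ)) *
          (v.2 * conj w.2) = (w.2 * conj w.2) * (conj v.2 * v.2) /
            (((‖w.2‖ * ‖w.1‖ : ℝ) : ℂ) * ((‖v.2‖ * ‖v.1‖ : ℝ) : ℂ)) := by ring
      rw [e4, e2, e3, tt, tt]
      have : (‖v.2‖ : ℂ) ≠ 0 := by exact_mod_cast h2.ne'
      have : (‖v.1‖ : ℂ) ≠ 0 := by exact_mod_cast h1.ne'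
      have : (‖w.2‖ : ℂ) ≠ 0 := by exact_mod_cast h2'.ne'
      have : (‖w.1‖ : ℂ) ≠ 0 := by exact_mod_cast h1'.ne'
      push_cast
      field_simp
  have hp : ‖conj v.2 / ((‖v.2‖ * ‖v.1‖ : ℝ) : ℂ)‖ = ‖v.1‖⁻¹ := by
    rw [← h.phase, ← RCLike.norm_conj (v.2 / _)]
    congr 1
    rw [map_div₀, Complex.conj_ofReal]
  rw [e1, norm_mul, norm_mul, h'.phase, hp]
  field_simp

/-- `1 - t t' ≤ ep^2 + ep'^2`, and it is nonnegative. -/
theorem one_sub_tt (h : Pv N v) (h' : Pv N' w) :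
    0 ≤ 1 - tt v * tt w ∧ 1 - tt v * tt w ≤ ep v ^ 2 + ep w ^ 2 := by
  rw [h.ep_sq, h'.ep_sq]
  have h1 := h.tt_pos
  have h2 := h.tt_lt
  have h1' := h'.tt_pos
  have h2' := h'.tt_lt
  constructor <;> nlinarith

/-- upper bound of the Rudin distance of the directions of two vectors. -/
theorem rd_omv_sq_le (h : Pv N v) (h' : Pv N' w) :
    rd (omv v) (omv w) ^ 2 ≤ ep v ^ 2 + ep w ^ 2 + ‖hh v w‖ / (‖v.1‖ * ‖w.1‖) := by
  have h1 := h.n1
  have h1' := h'.n1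
  have e := h.norm_hh h'
  have e' : ‖inner ℂ (omv w) (omv v) - ((tt v * tt w : ℝ) : ℂ)‖ =
      ‖hh v w‖ / (‖v.1‖ * ‖w.1‖) := by
    rw [e]; field_simp
  rw [rd_sq, ← e']
  have h3 : (1 : ℂ) - inner ℂ (omv w) (omv v) = ((1 - tt v * tt w : ℝ) : ℂ) -
      (inner ℂ (omv w) (omv v) - ((tt v * tt w : ℝ) : ℂ)) := by push_cast; ring
  rw [h3]
  refine (norm_sub_le _ _).trans ?_
  have h4 := one_sub_tt h h'
  rw [Complex.norm_real, Real.norm_of_nonneg h4.1]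
  linarith [h4.2]

/-- lower bound of the Rudin distance of the directions of two vectors. -/
theorem le_rd_omv_sq (h : Pv N v) (h' : Pv N' w) :
    ‖hh v w‖ / (‖v.1‖ * ‖w.1‖) - (ep v ^ 2 + ep w ^ 2) ≤ rd (omv v) (omv w) ^ 2 := by
  have h1 := h.n1
  have h1' := h'.n1
  have e := h.norm_hh h'
  have e' : ‖inner ℂ (omv w) (omv v) - ((tt v * tt w : ℝ) : ℂ)‖ =
      ‖hh v w‖ / (‖v.1‖ * ‖w.1‖) := by
    rw [e]; field_simp
  rw [rd_sq, ← e']
  have h3 : (inner ℂ (omv w) (omv v) - ((tt v * tt w : ℝ) : ℂ)) =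
      ((1 - tt v * tt w : ℝ) : ℂ) - ((1 : ℂ) - inner ℂ (omv w) (omv v)) := by push_cast; ring
  rw [h3]
  have h4 := one_sub_tt h h'
  have h5 := norm_sub_le (((1 - tt v * tt w : ℝ) : ℂ)) ((1 : ℂ) - inner ℂ (omv w) (omv v))
  rw [Complex.norm_real, Real.norm_of_nonneg h4.1] at h5
  linarith [h4.2]

/-- `1/(|v'||w'|)` in terms of the sizes. -/
theorem inv_norm_mul (h : Pv N v) (h' : Pv N' w) :
    ep v * ep w / Real.sqrt (N * N') ≤ 1 / (‖v.1‖ * ‖w.1‖) ∧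
      1 / (‖v.1‖ * ‖w.1‖) ≤ 2 * (ep v * ep w) / Real.sqrt (N * N') := by
  have h1 := h.n1
  have h1' := h'.n1
  have hN := h.pos
  have hN' := h'.pos
  have e1 := h.ep_pos
  have e1' := h'.ep_pos
  have hs : 0 < Real.sqrt (N * N') := Real.sqrt_pos.2 (by positivity)
  have hs2 : Real.sqrt (N * N') ^ 2 = N * N' := Real.sq_sqrt (by positivity)
  have a1 := h.sq_le
  have a1' := h'.sq_le
  have a2 := h.le_sq
  have a2' := h'.le_sq
  constructor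
  · rw [div_le_div_iff₀ hs (by positivity), one_mul]
    apply le_of_sq_le_sq _ hs.le
    rw [hs2]
    calc (ep v * ep w * (‖v.1‖ * ‖w.1‖)) ^ 2
        = (‖v.1‖ ^ 2 * ep v ^ 2) * (‖w.1‖ ^ 2 * ep w ^ 2) := by ring
      _ ≤ N * N' := mul_le_mul a1 a1' (by positivity) hN.le
  · rw [div_le_div_iff₀ (by positivity) hs, one_mul]
    apply le_of_sq_le_sq _ (by positivity)
    rw [hs2]
    calc N * N' ≤ (2 * (‖v.1‖ ^ 2 * ep v ^ 2)) * (2 * (‖w.1‖ ^ 2 * ep w ^ 2)) :=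
          mul_le_mul a2 a2' hN'.le (by positivity)
      _ = (2 * (ep v * ep w) * (‖v.1‖ * ‖w.1‖)) ^ 2 := by ring

/-- standard pairs: `rd^2 ≤ ep^2 + ep'^2 + (2 c / sqrt(N N')) ep ep'`. -/
theorem rd_omv_sq_le_std (h : Pv N v) (h' : Pv N' w) {c : ℝ} (hc : ‖hh v w‖ ≤ c) :
    rd (omv v) (omv w) ^ 2 ≤
      ep v ^ 2 + ep w ^ 2 + 2 * c / Real.sqrt (N * N') * (ep v * ep w) := by
  have h1 := h.n1
  have h1' := h'.n1
  refine (rd_omv_sq_le h h').trans ?_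
  have h2 := (inv_norm_mul h h').2
  have hc0 : 0 ≤ c := (norm_nonneg _).trans hc
  have h3 : ‖hh v w‖ / (‖v.1‖ * ‖w.1‖) ≤ c * (1 / (‖v.1‖ * ‖w.1‖)) := by
    rw [div_eq_mul_one_div]
    exact mul_le_mul_of_nonneg_right hc (by positivity)
  have h4 := mul_le_mul_of_nonneg_left h2 hc0
  have h5 : c * (2 * (ep v * ep w) / Real.sqrt (N * N')) =
      2 * c / Real.sqrt (N * N') * (ep v * ep w) := by ring
  linarith

/-- far pairs: `Lam / sqrt(N N') ep ep' - ep^2 - ep'^2 ≤ rd^2`. -/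
theorem le_rd_omv_sq_far (h : Pv N v) (h' : Pv N' w) {Lam : ℝ} (hL : Lam ≤ ‖hh v w‖) :
    Lam / Real.sqrt (N * N') * (ep v * ep w) - (ep v ^ 2 + ep w ^ 2) ≤
      rd (omv v) (omv w) ^ 2 := by
  have h1 := h.n1
  have h1' := h'.n1
  refine le_trans ?_ (le_rd_omv_sq h h')
  have h2 := (inv_norm_mul h h').1
  have h3 : ‖hh v w‖ * (1 / (‖v.1‖ * ‖w.1‖)) = ‖hh v w‖ / (‖v.1‖ * ‖w.1‖) := by
    rw [← div_eq_mul_one_div]
  have h4 := mul_le_mul_of_nonneg_left h2 (norm_nonneg (hh v w))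
  have h5 : 0 ≤ ep v * ep w / Real.sqrt (N * N') := by
    have := h.ep_pos
    have := h'.ep_pos
    positivity
  have h6 := mul_le_mul_of_nonneg_right hL h5
  have h7 : Lam * (ep v * ep w / Real.sqrt (N * N')) =
      Lam / Real.sqrt (N * N') * (ep v * ep w) := by ring
  linarith

end

end Crest.Agent.R272.LbCap_382
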