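import Crest.Agent.R272.UB1_20
import Crest.Agent.R272.TLoop_463

/-!
# R272, leaf UB-DISC (helper20), part 2: from arcs to periods

`V` a real topological vector space, `f : C(V, Y)` periodic. If two paths of `V` from the same point
`v` to `v'`, `v''` with `v' = v'' + l`, `l` a period, have images homotopic rel end points, then the
class of `l` in the fundamental group is trivial, at every base point.
-/

set_option autoImplicit false

open Set Topology Crest.Agent.R272.CovOrd_463 Crest.Agent.R272.TLoop_463

namespace Crest.Agent.R272.UB_20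

noncomputable section

local notation "I" => unitInterval

universe u v

variable {V : Type u} [AddCommGroup V] [Module ℝ V] [TopologicalSpace V] [ContinuousAdd V]
  [ContinuousSMul ℝ V] {Y : Type v} [TopologicalSpace Y]

/-- triviality of a period does not depend on the base point -/
theorem perHom_base {f : C(V, Y)} {Λ : AddSubgroup V} (hf : Per f Λ) (v w : V) (l : Λ)
    (h : perHom hf v (Multiplicative.ofAdd l) = 1) : perHom hf w (Multiplicative.ofAdd l) = 1 := by
  rw [perHom_apply] at h ⊢
  -- the square `(s,t) ↦ f (w + s (v - w) + t l)`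
  let H : C(I × I, Y) := ⟨fun x => f (w + (x.1 : ℝ) • (v - w) + (x.2 : ℝ) • (l : V)), by
    refine f.continuous.comp ?_
    have h1 : Continuous fun x : I × I => (x.1 : ℝ) • (v - w) := by fun_prop
    have h2 : Continuous fun x : I × I => (x.2 : ℝ) • (l : V) := by fun_prop
    exact (continuous_const.add h1).add h2⟩
  have hH : ∀ s t : I, H (s, t) = f (w + (s : ℝ) • (v - w) + (t : ℝ) • (l : V)) := fun _ _ => rfl
  have hsub : Continuous fun s : I => f (w + (s : ℝ) • (v - w)) := by
    refine f.continuous.comp ?_
    have h1 : Continuous fun x : I => (x : ℝ) • (v - w) := by fun_prop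
    exact continuous_const.add h1
  let c : Path (f w) (f v) := ⟨⟨fun s => f (w + (s : ℝ) • (v - w)), hsub⟩, by
    change f (w + ((0 : I) : ℝ) • (v - w)) = f w
    simp, by
    change f (w + ((1 : I) : ℝ) • (v - w)) = f v
    simp⟩
  let pw : Path (f w) (f w) := lp f (seg w (l : V)) (hf w l l.2)
  let pv : Path (f v) (f v) := lp f (seg v (l : V)) (hf v l l.2)
  have hsq : (pw.trans c).Homotopic (c.trans pv) := by
    refine square H pw pv c c ?_ ?_ ?_ ?_
    · intro t
      rw [hH]
      show f (w + (t : ℝ) • (l : V)) = _
      simp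
    · intro t
      rw [hH]
      show f (v + (t : ℝ) • (l : V)) = _
      simp
    · intro s
      rw [hH]
      show f (w + (s : ℝ) • (v - w)) = _
      simp
    · intro s
      rw [hH]
      show f (w + (s : ℝ) • (v - w)) = _
      rw [Icc.coe_one, one_smul, hf _ _ l.2]
  have hv : pv.Homotopic (Path.refl _) := by
    have : (⟦pv⟧ : Path.Homotopic.Quotient (f v) (f v)) = ⟦Path.refl _⟧ := h
    exact Quotient.exact this
  have h1 : (pw.trans c).Homotopic ((Path.refl _).trans c) := by
    refine hsq.trans ?_
    refine (Path.Homotopic.hcomp (Path.Homotopic.refl c) hv).trans ?_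
    exact Path.Homotopic.trans ⟨Path.Homotopy.transRefl c⟩
      (Path.Homotopic.symm ⟨Path.Homotopy.reflTrans c⟩)
  have h2 : pw.Homotopic (Path.refl _) := cancel_right c h1
  exact Quotient.sound h2

/-- **two lifts of homotopic arcs whose end points differ by a period**: the period dies -/
theorem perHom_eq_one {f : C(V, Y)} {Λ : AddSubgroup V} (hf : Per f Λ) (v₀ : V) (l : Λ)
    {v v' v'' : V} (p : Path v v') (q : Path v v'') (hl : v' = v'' + (l : V))
    (h : HR (p.map f.continuous) (q.map f.continuous)) :
    perHom hf v₀ (Multiplicative.ofAdd l) = 1 := by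
  refine perHom_base hf v'' v₀ l ?_
  subst hl
  rw [perHom_apply]
  have e : f (v'' + (l : V)) = f v'' := hf v'' l l.2
  let γ : Path v'' (v'' + (l : V)) := q.symm.trans p
  have h0 : cls (lp f γ (hf v'' l l.2)) = cls (lp f (seg v'' (l : V)) (hf v'' l l.2)) :=
    cls_lp_eq f _ _ _
  rw [← h0]
  -- the loop is `q⁻¹ p`
  have h1 : HR (lp f γ (hf v'' l l.2)) ((q.map f.continuous).symm.trans (p.map f.continuous)) := by
    refine HR_of_eq (fun t => ?_)
    show ((q.symm.trans p).map f.continuous) t = _
    rw [Path.map_trans, Path.map_symm]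
  have h2 : HR ((q.map f.continuous).symm.trans (p.map f.continuous))
      ((q.map f.continuous).symm.trans (q.map f.continuous)) := HR_comp (HR.refl _) h
  have h3 : HR ((q.map f.continuous).symm.trans (q.map f.continuous)) (Path.refl (f v'')) :=
    (HR_iff _ _).2 (Path.Homotopic.symm ⟨Path.Homotopy.reflSymmTrans _⟩)
  have h4 : HR (lp f γ (hf v'' l l.2)) (Path.refl (f v'')) := h1.trans (h2.trans h3)
  exact Quotient.sound ((HR_iff _ _).1 h4)

end

end Crest.Agent.R272.UB_20
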