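import Crest.Agent.R272.LbExt2_259
import Crest.Agent.R272.MQ1_783
import Crest.Agent.R272.UB2_20
import Crest.Agent.R272.AJDefs_956

/-!
# R272 (S0415), leaf LB-ASM-3 (helper259), part 1: from `θ̂` on `X₁` to an infinite period in `X⁺`

* `regular_orb`   : the orbit space of a properly discontinuous action is regular;
* `qdata_orb`     : the literal `QData` for `P : E → B` equivariant (`Orb G E → Orb G B`,
  `Orb R B → Orb G B`);
* `not_fin_base`  : infinite order of a period does not depend on the base point;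
* `exists_period` : the lift to `ℂ²` of a closed path of the torus;
* `lb_end`, `lb_end'` : the last step of the lower bound, in terms of `perHom`.
-/

set_option autoImplicit false
set_option linter.unusedSectionVars false

open Topology Set Filter unitInterval

namespace Crest.Agent.R272.LbEnd_259

open Crest.Agent.R272.Per_939 Crest.Agent.R272.CovOrd_463
open Crest.Agent.R272.LbExt_259 Crest.Agent.R272.TLoop_463 Crest.Agent.R272.UB_20
open Crest.Agent.R272.MQ_783 Crest.Agent.R272.Refl_246 Crest.Agent.R272.AJ_956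

noncomputable section

section Orb

variable (G : Type) [Group G] {E B : Type} [TopologicalSpace E] [TopologicalSpace B]
  [MulAction G E] [MulAction G B] [ContinuousConstSMul G E] [ContinuousConstSMul G B]

theorem regular_orb [ProperlyDiscontinuousSMul G B] [T2Space B] [LocallyCompactSpace B] :
    RegularSpace (Orb G B) := by
  have h1 : T2Space (Orb G B) := t2_orb G B
  have h2 : LocallyCompactSpace (Orb G B) :=
    (isOpenQuotientMap_pr (G := G) (Y := B)).locallyCompactSpace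
  infer_instance

variable {G}

theorem pr_eq_orbit {Y : Type} [TopologicalSpace Y] [MulAction G Y] {y y' : Y} :
    pr G y = pr G y' ↔ y ∈ MulAction.orbit G y' := by
  rw [pr_eq_iff, MulAction.mem_orbit_iff]
  constructor
  · rintro ⟨g, hg⟩
    exact ⟨g⁻¹, by rw [← hg, inv_smul_smul]⟩
  · rintro ⟨g, hg⟩
    exact ⟨g⁻¹, by rw [← hg, inv_smul_smul]⟩

/-- **the literal `QData`** -/
theorem qdata_orb [ProperlyDiscontinuousSMul G B] [T2Space B] [LocallyCompactSpace B]
    (R : Subgroup G) [R.Normal] (hstab : ∀ (b : B) (g : G), g • b = b → g ∈ R)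
    {P : E → B} (hPc : Continuous P) (hP : ∀ (g : G) x, P (g • x) = g • P x) :
    QData R P (pr G : E → Orb G E) (pr G : B → Orb G B) (pr R : B → Orb R B)
      (up (sub_orb R)) (orbMap P hP) := by
  have hRc : ContinuousConstSMul R B := ⟨fun n => continuous_const_smul (n : G)⟩
  exact QData.of_stab hPc hP isOpenQuotientMap_pr.isQuotientMap
    isOpenQuotientMap_pr.isQuotientMap isOpenQuotientMap_pr.isQuotientMap (fun _ => rfl)
    (fun _ => rfl) pr_eq_orbit pr_eq_orbit pr_eq_orbit hstab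

end Orb

section Period

universe u v

variable {V : Type u} [AddCommGroup V] [Module ℝ V] [TopologicalSpace V] [ContinuousAdd V]
  [ContinuousSMul ℝ V] {Y : Type v} [TopologicalSpace Y]

/-- infinite order does not depend on the base point -/
theorem not_fin_base {f : C(V, Y)} {Λ : AddSubgroup V} (hf : Per f Λ) (v w : V) (l : Λ)
    (h : ¬ IsOfFinOrder (perHom hf v (Multiplicative.ofAdd l))) :
    ¬ IsOfFinOrder (perHom hf w (Multiplicative.ofAdd l)) := by
  intro h1
  apply h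
  rw [isOfFinOrder_iff_pow_eq_one] at h1 ⊢
  obtain ⟨m, hm, h2⟩ := h1
  refine ⟨m, hm, ?_⟩
  rw [← map_pow, ← ofAdd_nsmul] at h2 ⊢
  exact perHom_base hf w v (m • l) h2

/-- the class of any path ending at a translate -/
theorem not_fin_of_path {f : C(V, Y)} {Λ : AddSubgroup V} (hf : Per f Λ) (w : V) {v v' : V}
    (Γ : Path v v') (l : Λ) (hl : v' = v + (l : V)) {y : Y} (γ : Path y y)
    (hγ : ∀ t, γ t = f (Γ t)) (h : ¬ IsOfFinOrder (cls γ)) :
    ¬ IsOfFinOrder (perHom hf w (Multiplicative.ofAdd l)) := by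
  subst hl
  apply not_fin_base hf v w l
  have h1 : perHom hf v (Multiplicative.ofAdd l) = cls (lp f Γ (hf v l l.2)) :=
    (perCls_eq hf v l Γ).symm
  rw [h1]
  have hy : y = f v := by
    rw [← γ.source, hγ, Γ.source]
  exact cls_transport hy (lp f Γ (hf v l l.2)) γ (fun t => by rw [hγ t]; rfl) h

end Period

section Lift

/-- a path of the torus whose ends agree lifts to a path of `ℂ²` whose ends differ by a period -/
theorem exists_period {V A : Type*} [AddCommGroup V] [TopologicalSpace V] [TopologicalSpace A]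
    {π : V → A} {Λ : AddSubgroup V} (hπ : IsCoveringMap π)
    (hΛ : ∀ z w, π z = π w ↔ z - w ∈ Λ) {α : I → A} (hα : Continuous α) (h01 : α 0 = α 1)
    {z₀ : V} (hz₀ : π z₀ = α 0) :
    ∃ (Γ : C(I, V)) (l : Λ), Γ 0 = z₀ ∧ (∀ t, π (Γ t) = α t) ∧ Γ 1 = Γ 0 + (l : V) := by
  let α' : C(I, A) := ⟨α, hα⟩
  have h0 : α' 0 = π z₀ := hz₀.symm
  refine ⟨hπ.liftPath α' z₀ h0, ⟨hπ.liftPath α' z₀ h0 1 - hπ.liftPath α' z₀ h0 0, ?_⟩, ?_, ?_, ?_⟩
  · have h1 := (hπ.liftPath_lifts α' z₀ h0)
    have h2 : π (hπ.liftPath α' z₀ h0 1) = α 1 := congrFun h1 1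
    have h3 : π (hπ.liftPath α' z₀ h0 0) = α 0 := congrFun h1 0
    rw [← hΛ, h2, h3, h01]
  · exact hπ.liftPath_zero α' z₀ h0
  · intro t
    exact congrFun (hπ.liftPath_lifts α' z₀ h0) t
  · simp

end Lift

section End

variable {G : Type} [Group G] {E B X Z W X' : Type} [TopologicalSpace E] [TopologicalSpace B]
  [TopologicalSpace X] [TopologicalSpace Z] [TopologicalSpace W] [TopologicalSpace X']
  [MulAction G E] [MulAction G B] {R : Subgroup G} {β : E → B} {f : E → X} {k : B → Z}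
  {h : B → W} {p : W → Z} {π : X → Z} {π' : X' → Z} {V : Set X'} {ψ : X' → X} {eX : Set X}

/-- **the last step of the lower bound**: `F` is the torus map into `X'` (periodic), `Γ` a path of
`ℂ²` with `Γ 1 = Γ 0 + l`, whose image `F ∘ Γ` avoids the surgery set and comes from the closed path
`γ` of `E`, on which `θ` has non-zero degree -/
theorem lb_end [RegularSpace Z] (D : QData R β f k h p π) (S : Surg π π' V ψ eX) {θ : E → Cir}
    (hθ : Continuous θ) (hθR : ∀ g ∈ R, ∀ e, θ (g • e) = θ e)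
    (hθe : ∀ e, f e ∈ eX → θ e = 0)
    {F : C(E2, X')} {Λ : AddSubgroup E2} (hper : Per F Λ) (Γ : C(I, E2)) (l : Λ)
    (hl : Γ 1 = Γ 0 + (l : E2)) (γ : C(I, E)) {g : G} (hg : g ∈ R) (hγ : g • γ 0 = γ 1)
    (hV : ∀ t, F (Γ t) ∈ V) (hψ : ∀ t, ψ (F (Γ t)) = f (γ t)) {d : ℝ} (hd : d ≠ 0)
    (hdeg : HasDeg (fun t => θ (γ t)) d) (z₀ : E2) :
    ¬ IsOfFinOrder (perHom hper z₀ (Multiplicative.ofAdd l)) := by
  let Γ' : Path (Γ 0) (Γ 1) := ⟨Γ, rfl, rfl⟩
  let γ' : Path (γ 0) (γ 1) := ⟨γ, rfl, rfl⟩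
  have h01 : F (Γ 1) = F (Γ 0) := by rw [hl, hper _ _ l.2]
  let α : Path (F (Γ 0)) (F (Γ 0)) := ⟨F.comp Γ, rfl, h01⟩
  have h1 := D.not_isOfFinOrder_surg S hθ hθR hθe γ' hg hγ hd hdeg α hV hψ
  exact not_fin_of_path hper z₀ Γ' l hl α (fun t => rfl) h1

/-- the same with the map of the symmetric square: `q : C × C → A`, `πA : ℂ² → A` the covering,
`inc : A → X'`; `j : C × C → E` the fibre over the base point, `c` a closed path of `C`, `P₀` a point
with `(c t, P₀) ∉ Γ` -/
theorem lb_end' [RegularSpace Z] (D : QData R β f k h p π) (S : Surg π π' V ψ eX) {θ : E → Cir}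
    (hθ : Continuous θ) (hθR : ∀ g ∈ R, ∀ e, θ (g • e) = θ e)
    (hθe : ∀ e, f e ∈ eX → θ e = 0)
    {C A : Type} [TopologicalSpace C] [TopologicalSpace A] {q : C × C → A} {πA : E2 → A}
    {Λ : AddSubgroup E2} {F : C(E2, X')} {inc : A → X'}
    (hF : ∀ z, F z = inc (πA z)) (hper : Per F Λ) {j : C × C → E} (hj : Continuous j)
    {c : C(I, C)} (hc : c 0 = c 1) {P₀ : C} (hV : ∀ t, inc (q (c t, P₀)) ∈ V)
    (hψ : ∀ t, ψ (inc (q (c t, P₀))) = f (j (c t, P₀))) {d : ℝ} (hd : d ≠ 0)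
    (hdeg : HasDeg (fun t => θ (j (c t, P₀))) d) (Γ : C(I, E2))
    (hΓ : ∀ t, πA (Γ t) = q (c t, P₀)) (l : Λ) (hl : Γ 1 = Γ 0 + (l : E2)) (z₀ : E2) :
    ¬ IsOfFinOrder (perHom hper z₀ (Multiplicative.ofAdd l)) := by
  let γ : C(I, E) := ⟨fun t => j (c t, P₀), hj.comp (c.continuous.prodMk continuous_const)⟩
  refine lb_end D S hθ hθR hθe hper Γ l hl γ (g := 1) R.one_mem ?_ (fun t => ?_) (fun t => ?_) hd
    hdeg z₀
  · rw [one_smul]
    show j (c 0, P₀) = j (c 1, P₀)
    rw [hc]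
  · rw [hF, hΓ]; exact hV t
  · rw [hF, hΓ]; exact hψ t

end End

end

end Crest.Agent.R272.LbEnd_259
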