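import Crest.Agent.R272.LbEnd2_259
import Crest.Agent.R272.UB7_20

/-!
# R272 (S0415), leaf LB-ASM-3 (helper259), part 3: the lower bound for the period of an arc

`γ` an arc of `C` between two Weierstrass points, `h = ∫_γ ω` (20's `IsInt`), the period `2 h(1) ∈ Λ`
(20's `two_mem`): it has infinite order in `π₁(X')` as soon as the degrees of `θ` on the two arcs
`γ`, `iv ∘ γ` over it (and on the swapped arcs) satisfy `(a - b) + (a' - b') ≠ 0`.
-/

set_option autoImplicit false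
set_option linter.unusedSectionVars false

open Topology Set Filter

namespace Crest.Agent.R272.LbEnd_259

open Crest.Agent.R272.Per_939 Crest.Agent.R272.CovOrd_463
open Crest.Agent.R272.LbExt_259 Crest.Agent.R272.TLoop_463 Crest.Agent.R272.UB_20
open Crest.Agent.R272.MQ_783 Crest.Agent.R272.Refl_246 Crest.Agent.R272.AJ_956
open Crest.Agent.R272.LBAsm_585

noncomputable section

local notation "I" => unitInterval

section Deg

/-- degree of a concatenation -/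
theorem hasDeg_trans {Y : Type*} [TopologicalSpace Y] {θ : Y → Cir} {a b c : Y} (p : Path a b)
    (p' : Path b c) {d d' : ℝ} (h : HasDeg (fun t => θ (p t)) d)
    (h' : HasDeg (fun t => θ (p' t)) d') : HasDeg (fun t => θ (p.trans p' t)) (d + d') := by
  obtain ⟨L, hL, h1, h2⟩ := h
  obtain ⟨L', hL', h1', h2'⟩ := h'
  have g1 : ∀ t, ((L t : ℝ) : Cir) = θ (p t) := h1
  have g1' : ∀ t, ((L' t : ℝ) : Cir) = θ (p' t) := h1'
  have e0 : ((L' 0 - L 1 : ℝ) : Cir) = 0 := by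
    rw [AddCircle.coe_sub, g1, g1', p.target, p'.source, sub_self]
  let l : Path (L 0) (L 1) := ⟨⟨L, hL⟩, rfl, rfl⟩
  let l' : Path (L 1) (L' 1 - (L' 0 - L 1)) :=
    ⟨⟨fun t => L' t - (L' 0 - L 1), by fun_prop⟩, by simp, rfl⟩
  refine ⟨fun t => l.trans l' t, (l.trans l').continuous, fun t => ?_, ?_⟩
  · show ((l.trans l' t : ℝ) : Cir) = θ (p.trans p' t)
    rw [Path.trans_apply, Path.trans_apply]
    split_ifs with ht
    · exact g1 _
    · show ((L' _ - (L' 0 - L 1) : ℝ) : Cir) = _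
      rw [AddCircle.coe_sub, e0, sub_zero]
      exact g1' _
  · show l.trans l' 1 - l.trans l' 0 = _
    rw [(l.trans l').target, (l.trans l').source]
    linarith

/-- degree of the reversed path -/
theorem hasDeg_symm {Y : Type*} [TopologicalSpace Y] {θ : Y → Cir} {a b : Y} (p : Path a b) {d : ℝ}
    (h : HasDeg (fun t => θ (p t)) d) : HasDeg (fun t => θ (p.symm t)) (-d) := by
  obtain ⟨L, hL, h1, h2⟩ := h
  refine ⟨fun t => L (unitInterval.symm t), by fun_prop, fun t => h1 _, ?_⟩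
  show L (unitInterval.symm 1) - L (unitInterval.symm 0) = _
  rw [unitInterval.symm_one, unitInterval.symm_zero]
  linarith

end Deg

section Main

variable {G : Type} [Group G] {E B X' : Type} [TopologicalSpace E] [TopologicalSpace B]
  [TopologicalSpace X'] [MulAction G E] [MulAction G B] [ContinuousConstSMul G E]
  [ContinuousConstSMul G B] [ProperlyDiscontinuousSMul G B] [T2Space B] [LocallyCompactSpace B]

/-- **the lower bound for the period of an arc between two Weierstrass points** -/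
theorem lb_arc {K R : Subgroup G} {sw : G} (A : Alg K R sw)
    (hstab : ∀ (b : B) (g : G), g • b = b → g ∈ R) {P : E → B} (hPc : Continuous P)
    (hP : ∀ (g : G) x, P (g • x) = g • P x) {th : E → Cir} {O : Set E}
    (N : Ana (R ⊓ K) th O) {π' : X' → Orb G B} {V : Set X'} {ψ : X' → Orb G E}
    {eX : Set (Orb G E)} (S : Surg (orbMap P hP) π' V ψ eX) {e₀ : Set E}
    (heX : ∀ y : E, pr G y ∈ eX → ∃ g : G, ∃ x ∈ e₀, y = g • x)
    (hneg : ∀ x ∈ e₀, ∀ g ∈ K, th (g • sw • x) = - th (g • x))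
    {C : Type} [TopologicalSpace C] {𝒞 : Cur C} {T : Type} [TopologicalSpace T] {q : C × C → T}
    {Λ : AddSubgroup E2} {πA : E2 → T} (J : 𝒞.IsJac q Λ πA) (hq : Continuous q)
    {F : C(E2, X')} {inc : T → X'} (hF : ∀ z, F z = inc (πA z))
    (hper : Per F Λ) {j : C × C → E} (hj : Continuous j)
    (hjO : ∀ x, j x ∈ O) (hsw : ∀ x, sw • j x = j x.swap)
    (hψ : ∀ x ∉ 𝒞.Gam, inc (q x) ∈ V ∧ ψ (inc (q x)) = pr G (j x))
    {γ : C(I, C)} {h : C(I, E2)} (H : IsInt 𝒞 γ h) (hs : 𝒞.iv (γ 0) = γ 0)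
    (he : 𝒞.iv (γ 1) = γ 1) {P₀ : C} (hP₀ : ∀ t, P₀ ≠ γ t ∧ P₀ ≠ 𝒞.iv (γ t))
    {a b a' b' : ℝ} (hne : (a - b) + (a' - b') ≠ 0)
    (ha : HasDeg (fun t => th (j (γ t, P₀))) a)
    (hb : HasDeg (fun t => th (j (𝒞.iv (γ t), P₀))) b)
    (ha' : HasDeg (fun t => th (j (P₀, γ t))) a')
    (hb' : HasDeg (fun t => th (j (P₀, 𝒞.iv (γ t)))) b') (z₀ : E2) :
    ¬ IsOfFinOrder (perHom hper z₀ (Multiplicative.ofAdd
      (⟨h 1 + h 1, two_mem J hq H hs he⟩ : Λ))) := by
  -- the closed path of `C`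
  let p : Path (γ 0) (γ 1) := ⟨γ, rfl, rfl⟩
  let p' : Path (γ 0) (γ 1) := ⟨⟨fun t => 𝒞.iv (γ t), 𝒞.iv_cont.comp γ.continuous⟩, hs, he⟩
  let c : Path (γ 0) (γ 0) := p.trans p'.symm
  -- its lift
  obtain ⟨w, hw⟩ := J.surj (q (γ 0, P₀))
  have h1 := lift_eq J hq H P₀ w hw
  have hw2 : πA (w + (h 1 + h 1)) = πA w := by
    rw [J.eq_iff]
    have := two_mem J hq H hs he
    rwa [add_sub_cancel_left]
  have h2 := lift_eq J hq H.neg P₀ (w + (h 1 + h 1)) (by
    show πA _ = q (𝒞.iv (γ 0), P₀)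
    rw [hw2, hs, hw])
  let g : Path w (w + h 1) := ⟨⟨fun t => w + h t, by fun_prop⟩, by
    show w + h 0 = w
    rw [H.zero, add_zero], rfl⟩
  let g' : Path (w + (h 1 + h 1)) (w + h 1) := ⟨⟨fun t => w + (h 1 + h 1) + - h t, by fun_prop⟩, by
    show w + (h 1 + h 1) + - h 0 = _
    rw [H.zero, neg_zero, add_zero], by
    show w + (h 1 + h 1) + - h 1 = _
    abel⟩
  let Γ : Path w (w + (h 1 + h 1)) := g.trans g'.symm
  have hΓ : ∀ t, πA (Γ t) = q (c t, P₀) := by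
    intro t
    show πA (g.trans g'.symm t) = q (p.trans p'.symm t, P₀)
    rw [Path.trans_apply, Path.trans_apply]
    split_ifs with ht
    · exact h1 _
    · exact h2 _
  -- the points of the closed path
  have hc : ∀ t, (∃ s, c t = γ s) ∨ ∃ s, c t = 𝒞.iv (γ s) := by
    intro t
    show (∃ s, p.trans p'.symm t = γ s) ∨ ∃ s, p.trans p'.symm t = 𝒞.iv (γ s)
    rw [Path.trans_apply]
    split_ifs with ht
    · exact Or.inl ⟨_, rfl⟩
    · exact Or.inr ⟨_, rfl⟩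
  have hG : ∀ t, ((c t, P₀) : C × C) ∉ 𝒞.Gam := by
    intro t h
    have h3 : P₀ = 𝒞.iv (c t) := h
    rcases hc t with ⟨s, hs⟩ | ⟨s, hs⟩
    · rw [hs] at h3
      exact (hP₀ s).2 h3
    · rw [hs, 𝒞.iv_iv] at h3
      exact (hP₀ s).1 h3
  have d1 : HasDeg (fun t => th (j (c t, P₀))) (a + -b) :=
    hasDeg_trans (θ := fun x : C => th (j (x, P₀))) p p'.symm ha
      (hasDeg_symm (θ := fun x : C => th (j (x, P₀))) p' hb)
  have d2 : HasDeg (fun t => th (j (P₀, c t))) (a' + -b') :=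
    hasDeg_trans (θ := fun x : C => th (j (P₀, x))) p p'.symm ha'
      (hasDeg_symm (θ := fun x : C => th (j (P₀, x))) p' hb')
  exact lb_per' A hstab hPc hP N S heX hneg hF hper hj hjO hsw (c := c.toContinuousMap)
    (by show c 0 = c 1; rw [c.source, c.target]) (P₀ := P₀) (fun t => (hψ _ (hG t)).1)
    (fun t => (hψ _ (hG t)).2) (d := a + -b) (d' := a' + -b') (by
      intro h; apply hne; linarith) d1 d2 Γ.toContinuousMap hΓ
    ⟨h 1 + h 1, two_mem J hq H hs he⟩ (by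
      show Γ 1 = Γ 0 + _
      rw [Γ.source, Γ.target]) z₀

/-- the same for degrees `a, -a` on the two arcs, `0` on the swapped arcs (`θ` of colour 1 only) -/
theorem lb_arc' {K R : Subgroup G} {sw : G} (A : Alg K R sw)
    (hstab : ∀ (b : B) (g : G), g • b = b → g ∈ R) {P : E → B} (hPc : Continuous P)
    (hP : ∀ (g : G) x, P (g • x) = g • P x) {th : E → Cir} {O : Set E}
    (N : Ana (R ⊓ K) th O) {π' : X' → Orb G B} {V : Set X'} {ψ : X' → Orb G E}
    {eX : Set (Orb G E)} (S : Surg (orbMap P hP) π' V ψ eX) {e₀ : Set E}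
    (heX : ∀ y : E, pr G y ∈ eX → ∃ g : G, ∃ x ∈ e₀, y = g • x)
    (hneg : ∀ x ∈ e₀, ∀ g ∈ K, th (g • sw • x) = - th (g • x))
    {C : Type} [TopologicalSpace C] {𝒞 : Cur C} {T : Type} [TopologicalSpace T] {q : C × C → T}
    {Λ : AddSubgroup E2} {πA : E2 → T} (J : 𝒞.IsJac q Λ πA) (hq : Continuous q)
    {F : C(E2, X')} {inc : T → X'} (hF : ∀ z, F z = inc (πA z))
    (hper : Per F Λ) {j : C × C → E} (hj : Continuous j)
    (hjO : ∀ x, j x ∈ O) (hsw : ∀ x, sw • j x = j x.swap)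
    (hψ : ∀ x ∉ 𝒞.Gam, inc (q x) ∈ V ∧ ψ (inc (q x)) = pr G (j x))
    {γ : C(I, C)} {h : C(I, E2)} (H : IsInt 𝒞 γ h) (hs : 𝒞.iv (γ 0) = γ 0)
    (he : 𝒞.iv (γ 1) = γ 1) {P₀ : C} (hP₀ : ∀ t, P₀ ≠ γ t ∧ P₀ ≠ 𝒞.iv (γ t))
    {a : ℝ} (hne : a ≠ 0) (ha : HasDeg (fun t => th (j (γ t, P₀))) a)
    (hb : ∀ t, th (j (𝒞.iv (γ t), P₀)) = - th (j (γ t, P₀)))
    (hcol : ∀ c c' c'', th (j (c, c')) = th (j (c, c''))) (z₀ : E2) :
    ¬ IsOfFinOrder (perHom hper z₀ (Multiplicative.ofAdd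
      (⟨h 1 + h 1, two_mem J hq H hs he⟩ : Λ))) := by
  have hneg' : HasDeg (fun t => th (j (𝒞.iv (γ t), P₀))) (-a) := by
    obtain ⟨L, hL, h1, h2⟩ := ha
    refine ⟨fun t => - L t, hL.neg, fun t => ?_, ?_⟩
    · show ((- L t : ℝ) : Cir) = th (j (𝒞.iv (γ t), P₀))
      rw [hb t, AddCircle.coe_neg]
      exact congrArg _ (h1 t)
    · show - L 1 - - L 0 = -a
      linarith
  have h3 : HasDeg (fun t => th (j (P₀, γ t))) 0 :=
    hasDeg_congr (HasDeg.const (th (j (P₀, P₀)))) (fun t => hcol _ _ _)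
  have h4 : HasDeg (fun t => th (j (P₀, 𝒞.iv (γ t)))) 0 :=
    hasDeg_congr (HasDeg.const (th (j (P₀, P₀)))) (fun t => hcol _ _ _)
  exact lb_arc A hstab hPc hP N S heX hneg J hq hF hper hj hjO hsw hψ H hs he hP₀
    (a := a) (b := -a) (a' := 0) (b' := 0) (by
      intro h; apply hne; linarith) ha hneg' h3 h4 z₀

end Main

end

end Crest.Agent.R272.LbEnd_259
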