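import Crest.Agent.R272.LbGood_990
import Crest.Agent.R272.St2_702
import Crest.Agent.R272.WmE_181

/-!
# Row 272, leaf LB-PPFIN (helper990): the separation theorem on `V1 3` without windmill hypotheses
-/

set_option autoImplicit false

open scoped ComplexConjugate Topology
open Crest.Agent.R272.EBase_641 Crest.Agent.R272.LbPP_990 Crest.Agent.R272.LbSep_990
open Crest.Agent.R272.LbGood_990 Crest.Agent.R272.St2_702 Crest.Agent.R272.WmD181

namespace Crest.Agent.R272.LbFin_990

noncomputable section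

variable {n : ℕ}

/-- the form as a `Lor` -/
def LH (n : ℕ) : LBForm_585.Lor (V1 n) where
  h := hh
  add_left := fun x y z => hh_add_left x y z
  smul_left := fun c x z => hh_smul_left c x z
  symm := fun x y => (hh_conj x y).symm
  neg := fun b x hb hx => hF.sig b x hb hx

theorem LH_h (x y : V1 n) : (LH n).h x y = hh x y := rfl

theorem LH_rho (w x : V1 n) : LBForm_585.rho (LH n) w x = x - hh x w • w := rfl

theorem refl_of_not {w : V1 n} (hw : ¬ hh w w = 2) : LbSep_990.refl w = 1 := by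
  unfold LbSep_990.refl
  rw [dif_neg hw]

theorem refl_coe (w : V1 n) : (refl w).1 = sE (LH n) w := by
  by_cases hw : hh w w = 2
  · apply LinearEquiv.ext
    intro x
    rw [refl_apply hw, sE_apply (LH n) hw, LH_rho]
  · have hw' : ¬ (LH n).h w w = 2 := hw
    rw [refl_of_not hw, sE, dif_neg hw']
    rfl

theorem map_closure_refl (S : Set (V1 n)) :
    (Subgroup.closure (refl '' S)).map (UG n).subtype = Subgroup.closure (sE (LH n) '' S) := by
  rw [MonoidHom.map_closure, ← Set.image_comp]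
  congr 2
  funext w
  exact refl_coe w

theorem coe_mem_closure {S : Set (V1 n)} {g : UG n} :
    g.1 ∈ Subgroup.closure (sE (LH n) '' S) ↔ g ∈ Subgroup.closure (refl '' S) := by
  rw [← map_closure_refl]
  exact Subgroup.mem_map_iff_mem (UG n).subtype_injective

theorem refl_smul {u : ℂ} (hu : ‖u‖ = 1) (w : V1 n) : refl (u • w) = refl w := by
  have huu : conj u * u = 1 := by
    rw [mul_comm, Complex.mul_conj, Complex.normSq_eq_norm_sq, hu]; norm_num
  have hn : hh (u • w) (u • w) = hh w w := by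
    rw [hh_smul_left, hh_smul_right, ← mul_assoc, mul_comm u, huu, one_mul]
  by_cases hw : hh w w = 2
  · apply Subtype.ext
    apply LinearEquiv.ext
    intro x
    rw [refl_apply hw, refl_apply (hn.trans hw), hh_smul_right, smul_smul]
    congr 2
    calc conj u * hh x w * u = conj u * u * hh x w := by ring
      _ = hh x w := by rw [huu, one_mul]
  · rw [refl_of_not hw, refl_of_not (fun h => hw (hn ▸ h))]

/-! ### The frame of `V1 3` -/

/-- first basis vector of the space part -/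
def ea : E 3 := EuclideanSpace.single 0 1
/-- second basis vector of the space part -/
def eb : E 3 := EuclideanSpace.single 1 1

theorem inner_ea (x : E 3) : inner ℂ ea x = x 0 := by
  rw [ea, EuclideanSpace.inner_single_left]; simp
theorem inner_eb (x : E 3) : inner ℂ eb x = x 1 := by
  rw [eb, EuclideanSpace.inner_single_left]; simp
theorem norm_ea : ‖ea‖ = 1 := by simp [ea]
theorem norm_eb : ‖eb‖ = 1 := by simp [eb]
theorem inner_ea_eb : inner ℂ ea eb = (0 : ℂ) := by rw [inner_ea]; simp [eb]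
theorem hh_ea (x : V1 3) : hh x (sp ea) = x.1 0 := by rw [hh_sp, inner_ea]
theorem hh_eb (x : V1 3) : hh x (sp eb) = x.1 1 := by rw [hh_sp, inner_eb]
theorem h00 : hh (sp ea) (sp ea) = 1 := by rw [hh_ea]; simp [sp, ea]
theorem h11 : hh (sp eb) (sp eb) = 1 := by rw [hh_eb]; simp [sp, eb]
theorem h01 : hh (sp ea) (sp eb) = 0 := by rw [hh_eb]; simp [sp, ea]
theorem P2_eq3 (x : V1 3) : P2 hh (sp ea) (sp eb) x = ‖x.1 0‖ ^ 2 + ‖x.1 1‖ ^ 2 := by
  rw [P2, hh_ea, hh_eb]

/-- the system of mirrors -/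
structure WSys (W : Set (V1 3)) (Λ : ℝ) : Prop where
  norm : ∀ w ∈ W, hh w w = 2
  neg : ∀ w ∈ W, -w ∈ W
  stab : ∀ w ∈ W, ∀ w' ∈ W, w' - hh w' w • w ∈ W
  sep : ∀ w ∈ W, ∀ w' ∈ W, w' = w ∨ w' = -w ∨ Λ ≤ ‖hh w w'‖
  typ : ∀ w ∈ W, TypeA w ∨ TypeB Λ w

variable {W : Set (V1 3)} {Λ : ℝ}

theorem WSys.mSys (h : WSys W Λ) : MSys (LH 3) W Λ where
  norm := h.norm
  neg := h.neg
  refl := fun w hw w' hw' => h.stab w hw w' hw'
  sep := h.sep

theorem WSys.inv (h : WSys W Λ) {g : UG 3} (hg : g ∈ Subgroup.closure (refl '' W)) :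
    ∀ w ∈ W, g.1 w ∈ W := by
  induction hg using Subgroup.closure_induction_left with
  | one => intro w hw; exact hw
  | mul_left x hx y hy ih =>
    obtain ⟨v, hv, rfl⟩ := hx
    intro w hw
    show (refl v).1 (y.1 w) ∈ W
    rw [refl_apply (h.norm v hv)]
    exact h.stab v hv _ (ih w hw)
  | inv_mul_cancel x hx y hy ih =>
    obtain ⟨v, hv, rfl⟩ := hx
    intro w hw
    have e : (refl v)⁻¹ = refl v := by
      rw [inv_eq_iff_mul_eq_one]; exact refl_mul_self v
    rw [e]
    show (refl v).1 (y.1 w) ∈ W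
    rw [refl_apply (h.norm v hv)]
    exact h.stab v hv _ (ih w hw)

/-- type A members of `W` -/
def WA (W : Set (V1 3)) : Set (V1 3) := {w | w ∈ W ∧ TypeA w}

theorem startData (h : WSys W Λ) (hΛ : 100000000000 ≤ Λ) :
    StartData (LH 3) W {x | IsPt x} (WA W) where
  pt := fun x hx => hx.2.2
  sub := fun x hx => hx.1
  neg := by
    rintro s ⟨hs, h1, h2, h3⟩
    refine ⟨h.neg s hs, ?_, ?_, ?_⟩
    · rw [hF.neg_left, hF.neg_right, neg_neg, h1]
    · simp [h2]
    · simp [h3]
  refl := by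
    intro s hs x hx y hy hxs hys
    have ob : ∀ x, x ∈ {x | IsPt x} ∪ WA W → Obj x := by
      rintro x (hx | hx)
      · exact Or.inl hx
      · exact Or.inr hx.2
    have far : ∀ x, x ∈ {x | IsPt x} ∪ WA W → (x ∈ WA W → x ≠ s ∧ x ≠ -s) →
        TypeA x → 11 ≤ ‖hh x s‖ := by
      intro x hx hxs tx
      have hxA : x ∈ WA W := by
        rcases hx with hx | hx
        · exfalso
          have h1 := hx.2.2
          rw [tx.1] at h1
          norm_num at h1
        · exact hx
      obtain ⟨h1, h2⟩ := hxs hxA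
      rcases h.sep s hs.1 x hxA.1 with h3 | h3 | h3
      · exact absurd h3 h1
      · exact absurd h3 h2
      · rw [norm_hh_symm] at h3; linarith
    exact refl_straight hs.2 (ob x hx) (ob y hy) (far x hx hxs) (far y hy hys)
  far := by
    intro v hv hvA x hx y hy
    have ob : ∀ x, x ∈ {x | IsPt x} ∪ WA W → Obj x := by
      rintro x (hx | hx)
      · exact Or.inl hx
      · exact Or.inr hx.2
    have tv : TypeB Λ v := by
      rcases h.typ v hv with h1 | h1
      · exact absurd ⟨hv, h1⟩ hvA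
      · exact h1
    have far : ∀ x, x ∈ {x | IsPt x} ∪ WA W → TypeA x → Λ ≤ ‖hh x v‖ := by
      intro x hx tx
      have hxA : x ∈ WA W := by
        rcases hx with hx | hx
        · exfalso
          have h1 := hx.2.2
          rw [tx.1] at h1
          norm_num at h1
        · exact hx
      rcases h.sep x hxA.1 v hv with h3 | h3 | h3
      · exfalso; rw [h3] at hvA; exact hvA hxA
      · exfalso
        apply hvA
        refine ⟨hv, ?_⟩
        rw [h3]
        refine ⟨?_, ?_, ?_⟩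
        · rw [hF.neg_left, hF.neg_right, neg_neg, tx.1]
        · simp [tx.2.1]
        · simp [tx.2.2]
      · exact h3
    have key := typeB_V (by linarith) tv (ob x hx) (ob y hy) (far x hx) (far y hy)
    show 20000000000 * ‖hh x y‖ ≤ ‖hh x v‖ * ‖hh v y‖
    have h1 : (20000000000 : ℝ) * 100 ≤ Λ ^ 2 := by nlinarith
    have h2 := mul_le_mul_of_nonneg_right h1 (norm_nonneg (hh x y))
    linarith

/-- points of the collar: slope `≤ r`, outside the `f1`-caps of the type B mirrors -/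
structure GoodW (W : Set (V1 3)) (r C Λ : ℝ) (x : V1 3) : Prop where
  norm : hh x x = -1
  slope : ‖x.1 1‖ ≤ r * ‖x.1 0‖
  cap : ∀ w ∈ W, TypeB Λ w →
    C * √(‖x.1 0‖ ^ 2 + ‖x.1 1‖ ^ 2) ≤ ‖hh x w‖ * √(‖w.1 0‖ ^ 2 + ‖w.1 1‖ ^ 2)

/-- **separation theorem, final form.** -/
theorem sep_final (h : WSys W Λ) (hΛ : 100000000000 ≤ Λ) {r C : ℝ} (hr : 0 ≤ r) (hC : 2752 < C)
    (hCΛ : 2 * C ≤ Λ ^ 2) (hrΛ : 9 * (1 + r) ^ 2 < Λ - 1) {g : UG 3}
    (hg : g ∈ Subgroup.closure (refl '' W)) {x y : V1 3} (hx : GoodW W r C Λ x)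
    (hy : GoodW W r C Λ y) (hxy : ‖hh x (g.1 y)‖ ≤ 2) :
    g = 1 ∨ ∃ w ∈ W, TypeA w ∧ g = refl w := by
  -- the system of all unit multiples
  set W1 : Set (V1 3) := {w1 | ∃ u : ℂ, ‖u‖ = 1 ∧ ∃ w ∈ W, w1 = u • w} with hW1
  have hWW1 : ∀ w ∈ W, w ∈ W1 := fun w hw => ⟨1, by simp, w, hw, by simp⟩
  have nrm : ∀ {u : ℂ}, ‖u‖ = 1 → ∀ w : V1 3, hh (u • w) (u • w) = hh w w := by
    intro u hu w
    have huu : conj u * u = 1 := by
      rw [mul_comm, Complex.mul_conj, Complex.normSq_eq_norm_sq, hu]; norm_num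
    rw [hh_smul_left, hh_smul_right, ← mul_assoc, mul_comm u, huu, one_mul]
  have good : ∀ x, GoodW W r C Λ x → Good hh (sp ea) (sp eb) W1 r C Λ x := by
    intro x hx
    refine ⟨hx.norm, ?_, ?_⟩
    · rw [hh_eb, hh_ea]; exact hx.slope
    · rintro w1 ⟨u, hu, w, hw, rfl⟩ hP
      rw [P2_eq3] at hP
      have e0 : ‖(u • w).1 0‖ = ‖w.1 0‖ := by simp [hu]
      have e1 : ‖(u • w).1 1‖ = ‖w.1 1‖ := by simp [hu]
      rw [e0, e1] at hP
      have h1 := hx.cap w hw ⟨h.norm w hw, hP⟩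
      rw [P2_eq3, P2_eq3, e0, e1, hh_smul_right, norm_mul, Complex.norm_conj, hu, one_mul]
      exact h1
  have hgi : g⁻¹ ∈ Subgroup.closure (refl '' W) := inv_mem hg
  have key := pp_ball (n := 3) (W := W1) (e0 := sp ea) (e1 := sp eb) h00 h11 h01
    (r := r) (C := C) (Λ := Λ) (T := 0) (c := 1 / 2) ?_ ?_ hr le_rfl (by norm_num) (by norm_num)
    (by norm_num; exact hC) (by linarith) hrΛ (by norm_num; linarith) (by linarith) (g := g) ?_
    (good x hx) (good y hy) hxy
  · rcases key with h1 | ⟨w1, ⟨u, hu, w, hw, rfl⟩, tw, h2⟩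
    · exact Or.inl h1
    · right
      refine ⟨w, hw, ⟨h.norm w hw, ?_, ?_⟩, ?_⟩
      · have := tw.w0
        rw [hh_ea] at this
        have hu0 : u ≠ 0 := by
          intro h0; rw [h0, norm_zero] at hu; norm_num at hu
        simpa [hu0] using this
      · have := tw.w1
        rw [hh_eb] at this
        have h3 : ‖(u • w).1 1‖ = 1 := by rw [this, norm_one]
        simpa [hu] using h3
      · rw [h2, refl_smul hu]
  · rintro w1 ⟨u, hu, w, hw, rfl⟩
    rw [nrm hu, h.norm w hw]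
  · rintro w1 ⟨u, hu, w, hw, rfl⟩ w1' ⟨u', hu', w', hw', rfl⟩
    have hu0 : u ≠ 0 := by
      intro h0; rw [h0, norm_zero] at hu; norm_num at hu
    rcases h.sep w hw w' hw' with h1 | h1 | h1
    · left
      refine ⟨u' / u, ?_⟩
      rw [h1, smul_smul, div_mul_cancel₀ _ hu0]
    · left
      refine ⟨-(u' / u), ?_⟩
      rw [h1, smul_smul, neg_mul, div_mul_cancel₀ _ hu0, smul_neg, neg_smul]
    · right
      rw [hh_smul_left, hh_smul_right, norm_mul, norm_mul, Complex.norm_conj, hu, hu']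
      simpa using h1
  · intro hg1 o o' ho ho'
    have hgA : g ∉ Subgroup.closure (refl '' WA W) := by
      intro hcon
      apply hg1
      refine (Subgroup.closure_le _).2 ?_ hcon
      rintro _ ⟨w, ⟨hw, tw⟩, rfl⟩
      have hu : ‖conj (w.1 1)‖ = 1 := by rw [Complex.norm_conj, tw.2.2]
      rw [← refl_smul hu w]
      refine Subgroup.subset_closure ⟨conj (w.1 1) • w, ⟨⟨_, hu, w, hw, rfl⟩, ?_⟩, rfl⟩
      refine ⟨by rw [nrm hu, h.norm w hw], ?_, ?_⟩
      · rw [hh_ea]; simp [tw.2.1]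
      · rw [hh_eb]
        have : conj (w.1 1) * w.1 1 = 1 := by
          rw [mul_comm, Complex.mul_conj, Complex.normSq_eq_norm_sq, tw.2.2]; norm_num
        simpa using this
    have pt : ∀ o, Start hh (sp ea) (sp eb) W1 0 o → IsPt o := by
      intro o ho
      refine ⟨?_, ?_, ho.norm⟩
      · have := ho.o0; rwa [hh_ea] at this
      · have := ho.o1; rwa [hh_eb] at this
    have hne : ({x | IsPt x} : Set (V1 3)).Nonempty := ⟨o, pt o ho⟩
    obtain ⟨w, hw, hw1, hw2, hall⟩ := (startData h hΛ).gr h.mSys hΛ hne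
      (g := g.1) (coe_mem_closure.2 hg) (fun hc => hgA (coe_mem_closure.1 hc))
    have tB : ∀ v ∈ W, v ∉ startSet (LH 3) {x | IsPt x} (WA W) →
        Λ ^ 2 ≤ P2 hh (sp ea) (sp eb) v := by
      intro v hv hvs
      rw [P2_eq3]
      rcases h.typ v hv with h1 | h1
      · have hA : v ∈ WA W := ⟨hv, h1⟩
        exact absurd (mem_startSet (L := LH 3) (P := {x | IsPt x}) (Or.inr hA)) hvs
      · exact h1.2
    have hgiw : (g⁻¹).1 w ∈ W := h.inv hgi w hw
    have h5 := hall o (mem_startSet (Or.inl (pt o ho))) o' (mem_startSet (Or.inl (pt o' ho')))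
    refine ⟨w, hWW1 w hw, tB w hw hw1, hWW1 _ hgiw, tB _ hgiw hw2, ?_⟩
    have h6 : ‖hh o w‖ * ‖hh w (g.1 o')‖ ≤ 2 * ‖hh o (g.1 o')‖ := h5
    linarith

end

end Crest.Agent.R272.LbFin_990
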