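import Crest.Agent.R272.LbSep_990
import Crest.Agent.R272.LbCap2_382

/-!
# Row 272, leaf LB-GOOD (helper990): points of the collar outside the caps are `Good`
-/

set_option autoImplicit false

open scoped ComplexConjugate Topology
open Crest.Agent.R272.EBase_641 Crest.Agent.R272.LbPP_990 Crest.Agent.R272.LbSep_990
open Crest.Agent.R272.LbCap_382

namespace Crest.Agent.R272.LbGood_990

noncomputable section

variable {n : ℕ}

/-- a space vector as a vector of the Hermitian space -/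
def sp (a : E n) : V1 n := (a, 0)

theorem hh_sp (v : V1 n) (a : E n) : hh v (sp a) = inner ℂ a v.1 := by
  simp [hh, sp]

theorem hh_sp_sp (a b : E n) : hh (sp a) (sp b) = inner ℂ b a := hh_sp _ _

/-- orthogonal projection to `⟨a, b⟩` (for orthonormal `a`, `b`) -/
def PP (a b : E n) : E n →L[ℂ] E n :=
  (innerSL ℂ a).smulRight a + (innerSL ℂ b).smulRight b

theorem PP_apply (a b u : E n) : PP a b u = (inner ℂ a u : ℂ) • a + (inner ℂ b u : ℂ) • b := rfl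

theorem norm_PP_sq {a b : E n} (ha : ‖a‖ = 1) (hb : ‖b‖ = 1) (hab : inner ℂ a b = (0 : ℂ))
    (u : E n) : ‖PP a b u‖ ^ 2 = ‖(inner ℂ a u : ℂ)‖ ^ 2 + ‖(inner ℂ b u : ℂ)‖ ^ 2 := by
  rw [PP_apply, pow_two, norm_add_sq_eq_norm_sq_add_norm_sq_of_inner_eq_zero (𝕜 := ℂ)]
  · rw [norm_smul, norm_smul, ha, hb]; ring
  · rw [inner_smul_left, inner_smul_right, hab]; simp

theorem norm_PP_le {a b : E n} (ha : ‖a‖ = 1) (hb : ‖b‖ = 1) (hab : inner ℂ a b = (0 : ℂ))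
    (u : E n) : ‖PP a b u‖ ≤ ‖u‖ := by
  have h1 : inner ℂ (PP a b u) (u - PP a b u) = (0 : ℂ) := by
    have haa : inner ℂ a a = (1 : ℂ) := by rw [inner_self_eq_norm_sq_to_K, ha]; simp
    have hbb : inner ℂ b b = (1 : ℂ) := by rw [inner_self_eq_norm_sq_to_K, hb]; simp
    have hba : inner ℂ b a = (0 : ℂ) := by rw [← inner_conj_symm, hab]; simp
    rw [PP_apply]
    simp only [inner_add_left, inner_sub_right, inner_add_right, inner_smul_left,
      inner_smul_right, haa, hbb, hab, hba]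
    ring
  have h2 := norm_add_sq_eq_norm_sq_add_norm_sq_of_inner_eq_zero (𝕜 := ℂ) _ _ h1
  have h3 : PP a b u + (u - PP a b u) = u := by abel
  rw [h3] at h2
  nlinarith [norm_nonneg (u - PP a b u), norm_nonneg u, norm_nonneg (PP a b u)]

theorem P2_eq {a b : E n} (ha : ‖a‖ = 1) (hb : ‖b‖ = 1) (hab : inner ℂ a b = (0 : ℂ))
    (v : V1 n) : P2 hh (sp a) (sp b) v = ‖PP a b v.1‖ ^ 2 := by
  rw [P2, hh_sp, hh_sp, norm_PP_sq ha hb hab]

theorem P2_xx {a b : E n} (ha : ‖a‖ = 1) (hb : ‖b‖ = 1) (hab : inner ℂ a b = (0 : ℂ))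
    {z : E n} : √(P2 hh (sp a) (sp b) (xx z)) = 1 / √(1 - ‖z‖ ^ 2) * ‖PP a b z‖ := by
  rw [P2_eq ha hb hab, Real.sqrt_sq (norm_nonneg _), xx]
  simp only [Prod.smul_fst, map_smul]
  rw [norm_smul, Complex.norm_real, Real.norm_of_nonneg (by positivity)]

/-- **collar points outside the caps of the type B mirrors are good** -/
theorem good_xx {a b : E n} (ha : ‖a‖ = 1) (hb : ‖b‖ = 1) (hab : inner ℂ a b = (0 : ℂ))
    {W : Set (V1 n)} {r C Λ k : ℝ} (hC : 0 ≤ C) (hΛ : 0 < Λ) (hk : 0 < k)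
    (hkC : 1 + C + 2 * C / Λ * k ≤ k ^ 2)
    (hPv : ∀ w ∈ W, Λ ^ 2 ≤ P2 hh (sp a) (sp b) w → Pv 2 w ∧ k ^ 2 * ep w ^ 2 < 1)
    {z : E n} (hz : z ∈ Ball n) (hslope : ‖(inner ℂ b z : ℂ)‖ ≤ r * ‖(inner ℂ a z : ℂ)‖)
    (hcap : ∀ w ∈ W, Λ ^ 2 ≤ P2 hh (sp a) (sp b) w → z ∉ Cap k w) :
    Good hh (sp a) (sp b) W r C Λ (xx z) := by
  have h1 := one_sub_pos hz
  have hs0 : 0 < √(1 - ‖z‖ ^ 2) := Real.sqrt_pos.2 h1
  refine ⟨xx_self hz, ?_, ?_⟩
  · rw [hh_sp, hh_sp, xx]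
    simp only [Prod.smul_fst, inner_smul_right]
    rw [norm_mul, norm_mul]
    have : 0 ≤ ‖((1 / √(1 - ‖z‖ ^ 2) : ℝ) : ℂ)‖ := norm_nonneg _
    nlinarith
  · intro w hw hP
    by_contra hlt
    push Not at hlt
    obtain ⟨hv, hkep⟩ := hPv w hw hP
    refine hcap w hw hP ?_
    have hfar : Λ ≤ ‖PP a b w.1‖ := by
      rw [P2_eq ha hb hab] at hP
      exact le_of_sq_le_sq hP (norm_nonneg _)
    refine mem_Cap_of_lin_le hv hk hkep (PP a b) (norm_PP_le ha hb hab) hC hΛ hfar ?_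
      (mem_Ball.1 hz).le ?_
    · have e : √(2 / 2 : ℝ) = 1 := by norm_num
      rw [e]
      refine le_trans (le_of_eq ?_) hkC
      ring
    · rw [P2_xx ha hb hab, norm_xx, P2_eq ha hb hab, Real.sqrt_sq (norm_nonneg _)] at hlt
      have h2 : 1 / √(1 - ‖z‖ ^ 2) * (‖lin w z‖ * ‖PP a b w.1‖)
          ≤ 1 / √(1 - ‖z‖ ^ 2) * (C * ‖PP a b z‖) := by
        refine le_trans (le_of_eq ?_) (hlt.le.trans (le_of_eq ?_)) <;> ring
      exact le_of_mul_le_mul_left h2 (by positivity)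

end

end Crest.Agent.R272.LbGood_990
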