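import Crest.Agent.R272.LbCap2_382
import Crest.Agent.R272.LbSq3_936

/-!
# LB-CAP, part 3 (row 272): the hypotheses `hosc`, `hf1`, `hR` of `LbSq_936.wallQ0`
for caps of far vectors.
-/

set_option autoImplicit false

open scoped ComplexConjugate

namespace Crest.Agent.R272.LbCap_382

open Crest.Agent.R272.EBase_641 Crest.Agent.R272.LbClu_382 Crest.Agent.R272.LbSq_936

noncomputable section

/-- projection to the first two coordinates. -/
def P01 : E 3 →L[ℂ] E 3 :=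
  LinearMap.toContinuousLinearMap
    { toFun := fun x => !₂[x 0, x 1, 0]
      map_add' := by
        intro x y
        ext i
        fin_cases i <;> simp
      map_smul' := by
        intro c x
        ext i
        fin_cases i <;> simp }

@[simp] theorem P01_zero (x : E 3) : P01 x 0 = x 0 := by simp [P01]
@[simp] theorem P01_one (x : E 3) : P01 x 1 = x 1 := by simp [P01]
@[simp] theorem P01_two (x : E 3) : P01 x 2 = 0 := by simp [P01]

theorem norm_P01_sq (x : E 3) : ‖P01 x‖ ^ 2 = ‖x 0‖ ^ 2 + ‖x 1‖ ^ 2 := by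
  rw [EuclideanSpace.norm_sq_eq, Fin.sum_univ_three]
  simp

theorem norm_P01_le (x : E 3) : ‖P01 x‖ ≤ ‖x‖ := by
  apply le_of_sq_le_sq _ (norm_nonneg _)
  rw [norm_P01_sq, EuclideanSpace.norm_sq_eq, Fin.sum_univ_three]
  nlinarith [norm_nonneg (x 2)]

theorem mm_P01 (c : ℂ) (x : E 3) : mm c (P01 x) = mm c x := by
  simp [mm, nu, de]

theorem mm_dir (c : ℂ) {x : E 3} (hx : x ≠ 0) : mm c (dir x) = mm c x := by
  have h : 0 < ‖x‖ := norm_pos_iff.2 hx
  have e0 : dir x 0 = ((‖x‖⁻¹ : ℝ) : ℂ) * x 0 := by simp [dir]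
  have e1 : dir x 1 = ((‖x‖⁻¹ : ℝ) : ℂ) * x 1 := by simp [dir]
  have e2 : nu c (dir x) = ‖x‖⁻¹ * nu c x := by
    rw [nu, nu, e0, e1, show ((‖x‖⁻¹ : ℝ) : ℂ) * x 1 - c * (((‖x‖⁻¹ : ℝ) : ℂ) * x 0) =
      ((‖x‖⁻¹ : ℝ) : ℂ) * (x 1 - c * x 0) by ring, norm_mul, Complex.norm_real,
      Real.norm_of_nonneg (by positivity)]
  have e3 : de c (dir x) = ‖x‖⁻¹ * de c x := by
    have e4 : de c (dir x) = ‖dir x 0‖ + nu c (dir x) := rfl
    rw [e4, e2, e0, norm_mul, Complex.norm_real, Real.norm_of_nonneg (by positivity)]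
    rw [de, nu]; ring
  rw [mm, mm, e2, e3]
  rw [mul_div_mul_left]
  positivity

/-- Lipschitz estimate of the real slope. -/
theorem mm_sub_le (c : ℂ) {a b : E 3} {δ : ℝ} (ha : 0 < ‖P01 a‖)
    (hab : ‖P01 b - P01 a‖ ≤ δ * ‖P01 a‖) (hb : P01 b ≠ 0) :
    |mm c b - mm c a| ≤ (3 + 2 * ‖c‖) * (1 + ‖c‖) * δ := by
  have hc := norm_nonneg c
  have h0 : ‖b 0 - a 0‖ ≤ ‖P01 b - P01 a‖ := by
    apply le_of_sq_le_sq _ (norm_nonneg _)
    rw [← map_sub, norm_P01_sq]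
    simp only [PiLp.sub_apply]
    nlinarith [norm_nonneg (b 1 - a 1)]
  have h1 : ‖b 1 - a 1‖ ≤ ‖P01 b - P01 a‖ := by
    apply le_of_sq_le_sq _ (norm_nonneg _)
    rw [← map_sub, norm_P01_sq]
    simp only [PiLp.sub_apply]
    nlinarith [norm_nonneg (b 0 - a 0)]
  set t := ‖P01 b - P01 a‖ with ht
  have ht0 : 0 ≤ t := norm_nonneg _
  have hN : |nu c b - nu c a| ≤ (1 + ‖c‖) * t := by
    rw [nu, nu]
    refine (abs_norm_sub_norm_le _ _).trans ?_
    have e : b 1 - c * b 0 - (a 1 - c * a 0) = (b 1 - a 1) - c * (b 0 - a 0) := by ring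
    rw [e]
    refine (norm_sub_le _ _).trans ?_
    rw [norm_mul]
    have := mul_le_mul_of_nonneg_left h0 hc
    linarith
  have hD : |de c b - de c a| ≤ (2 + ‖c‖) * t := by
    have e : de c b - de c a = (‖b 0‖ - ‖a 0‖) + (nu c b - nu c a) := by
      simp only [de, nu]; ring
    rw [e]
    refine (abs_add_le _ _).trans ?_
    have := abs_norm_sub_norm_le (b 0) (a 0)
    linarith
  have hPa : ‖P01 a‖ ≤ (1 + ‖c‖) * de c a := by
    have h2 : ‖P01 a‖ ≤ ‖a 0‖ + ‖a 1‖ := by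
      apply le_of_sq_le_sq _ (by positivity)
      rw [norm_P01_sq]
      nlinarith [norm_nonneg (a 0), norm_nonneg (a 1)]
    have h3 : ‖a 1‖ ≤ nu c a + ‖c‖ * ‖a 0‖ := by
      have e : a 1 = (a 1 - c * a 0) + c * a 0 := by ring
      calc ‖a 1‖ = ‖(a 1 - c * a 0) + c * a 0‖ := by rw [← e]
        _ ≤ ‖a 1 - c * a 0‖ + ‖c * a 0‖ := norm_add_le _ _
        _ = nu c a + ‖c‖ * ‖a 0‖ := by rw [norm_mul, nu]
    have h4 : de c a = ‖a 0‖ + nu c a := rfl
    have h5 : 0 ≤ nu c a := norm_nonneg _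
    rw [h4]
    nlinarith [norm_nonneg (a 0), mul_nonneg hc h5]
  have hDa : 0 < de c a := by
    by_contra hneg
    push Not at hneg
    have : (1 + ‖c‖) * de c a ≤ 0 := by
      apply mul_nonpos_of_nonneg_of_nonpos (by positivity) hneg
    linarith
  have hDb : 0 < de c b := by
    have h6 : 0 ≤ de c b := by rw [de]; positivity
    rcases h6.eq_or_lt with h | h
    · exfalso
      apply hb
      obtain ⟨h7, h8⟩ := de_eq_zero.1 h.symm
      ext i
      fin_cases i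
      · simpa using h7
      · simpa using h8
      · simp
    · exact h
  have hNb : nu c b ≤ de c b := by rw [de]; linarith [norm_nonneg (b 0), show nu c b = ‖b 1 - c * b 0‖ from rfl]
  have hNb0 : 0 ≤ nu c b := norm_nonneg _
  have e : mm c b - mm c a = ((nu c b - nu c a) + mm c b * (de c a - de c b)) / de c a := by
    rw [mm, mm]
    field_simp
    ring
  rw [e, abs_div, abs_of_pos hDa, div_le_iff₀ hDa]
  have hm1 : |mm c b| ≤ 1 := by
    rw [mm, abs_of_nonneg (div_nonneg hNb0 hDb.le), div_le_one hDb]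
    exact hNb
  have h9 : |nu c b - nu c a + mm c b * (de c a - de c b)| ≤ (3 + 2 * ‖c‖) * t := by
    refine (abs_add_le _ _).trans ?_
    rw [abs_mul, abs_sub_comm (de c a)]
    have := mul_le_mul hm1 hD (abs_nonneg _) (by norm_num)
    linarith
  refine h9.trans ?_
  have h10 : t ≤ (1 + ‖c‖) * δ * de c a := by
    have hδ : 0 ≤ δ := by
      by_contra hneg
      push Not at hneg
      have := mul_neg_of_neg_of_pos hneg ha
      linarith
    have := mul_le_mul_of_nonneg_left hPa hδ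
    linarith
  have := mul_le_mul_of_nonneg_left h10 (show 0 ≤ 3 + 2 * ‖c‖ by positivity)
  linarith

section family

variable {ι : Type*} {V : ι → V1 3} {Nn : ι → ℝ} {Nmax k A Lam' : ℝ}

/-- the points of a cap of a far vector are not on `f₁`. -/
theorem cap_P01_ne {v : V1 3} {N : ℝ} (hv : Pv N v) (hk : 0 ≤ k) (hN : N ≤ Nmax)
    (hfar : Lam' ≤ ‖P01 v.1‖) (hbig : 4 * k * Real.sqrt Nmax < Lam') {u : E 3}
    (hu : u ∈ Cap k v) : P01 (dir u) ≠ 0 := by
  intro h0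
  have h1 := Cap.norm_dir_sub_le hv hu
  have h2 := hv.le_norm_P_omv P01 hfar
  have h3 := norm_P01_le (dir u - omv v)
  rw [map_sub, h0, zero_sub, norm_neg] at h3
  have he := hv.ep_pos
  have hN0 := hv.pos
  have hs : 0 < Real.sqrt N := Real.sqrt_pos.2 hN0
  have hs2 : Real.sqrt N ≤ Real.sqrt Nmax := Real.sqrt_le_sqrt hN
  have h4 : 4 * k * ep v < Lam' / Real.sqrt N * ep v := by
    apply mul_lt_mul_of_pos_right _ he
    rw [lt_div_iff₀ hs]
    have := mul_le_mul_of_nonneg_left hs2 (show 0 ≤ 4 * k by positivity)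
    linarith
  linarith

/-- **`hf1` of `wallQ0`.** -/
theorem hf1_of (hV : ∀ i, Pv (Nn i) (V i)) (hmax : ∀ i, Nn i ≤ Nmax) (hk : 0 ≤ k)
    (hfar : ∀ i, Lam' ≤ ‖P01 (V i).1‖) (hbig : 4 * k * Real.sqrt Nmax < Lam') :
    ∀ i, ∀ z ∈ Cap k (V i), ‖z‖ < 1 → ¬ (z 0 = 0 ∧ z 1 = 0) := by
  rintro i z hz - ⟨h0, h1⟩
  apply cap_P01_ne (hV i) hk (hmax i) (hfar i) hbig hz
  ext j
  fin_cases j
  · simp [dir, h0]
  · simp [dir, h1]
  · simp

/-- **`hR` of `wallQ0`.** -/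
theorem hR_of (hV : ∀ i, Pv (Nn i) (V i)) (hke : ∀ i, k ^ 2 * ep (V i) ^ 2 < 1) :
    ∀ i j, (∃ z, ‖z‖ < 1 ∧ z ∈ Cap k (V i) ∧ z ∈ Cap k (V j)) →
      rd (omv (V i)) (omv (V j)) ≤ 2 * k * (ep (V i) + ep (V j)) := by
  rintro i j ⟨z, -, h1, h2⟩
  exact Cap.rd_le (hV i) (hV j) (hke i) h1 h2

theorem class_of_eqvGen (hV : ∀ i, Pv (Nn i) (V i))
    (H : Caps (fun a b : Sph 3 => rd a.1 b.1) (fun i => omS (V i) (hV i)) (fun i => ep (V i))
      1 A (2 * k)) {i j : ι}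
    (hij : Relation.EqvGen
        (fun i j => rd (omv (V i)) (omv (V j)) ≤ 2 * k * (ep (V i) + ep (V j))) i j) :
    Quotient.mk (chainSetoid H) i = Quotient.mk (chainSetoid H) j := by
  induction hij with
  | rel i j h => exact chainSetoid_of_adj H h
  | refl i => rfl
  | symm i j _ ih => exact ih.symm
  | trans i j l _ _ ih1 ih2 => exact ih1.trans ih2

/-- **`hosc` of `wallQ0`.** -/
theorem hosc_of (hV : ∀ i, Pv (Nn i) (V i)) (hmax : ∀ i, Nn i ≤ Nmax) (hk : 0 ≤ k)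
    (H : Caps (fun a b : Sph 3 => rd a.1 b.1) (fun i => omS (V i) (hV i)) (fun i => ep (V i))
      1 A (2 * k))
    (hke : ∀ i, k ^ 2 * ep (V i) ^ 2 < 1)
    (hfar : ∀ i, Lam' ≤ ‖P01 (V i).1‖) (hbig : 4 * k * Real.sqrt Nmax < Lam') (c : ℂ) {η : ℝ}
    (hη : 2 * ((3 + 2 * ‖c‖) * (1 + ‖c‖) * slopeδ k A Nmax Lam') < η) :
    ∀ i j, Relation.EqvGen
        (fun i j => rd (omv (V i)) (omv (V j)) ≤ 2 * k * (ep (V i) + ep (V j))) i j →
      ∀ x ∈ Cap k (V i), ∀ y ∈ Cap k (V j), ‖x‖ < 1 → ‖y‖ < 1 → mm c x - mm c y < η := by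
  intro i j hij x hx y hy _ _
  have hcl := class_of_eqvGen hV H hij
  have hLam' : 0 < Lam' := lt_of_le_of_lt (by positivity) hbig
  obtain ⟨a, ha, h1, h2⟩ := piece_slope hV hmax hk H P01 norm_P01_le hLam' hfar hcl hx hy
  have hx0 : x ≠ 0 := Cap.ne_zero (hke i) hx
  have hy0 : y ≠ 0 := Cap.ne_zero (hke j) hy
  have e1 := mm_sub_le c ha h1 (cap_P01_ne (hV i) hk (hmax i) (hfar i) hbig hx)
  have e2 := mm_sub_le c ha h2 (cap_P01_ne (hV j) hk (hmax j) (hfar j) hbig hy)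
  rw [mm_dir c hx0] at e1
  rw [mm_dir c hy0] at e2
  have e3 := (abs_le.1 e1).2
  have e4 := (abs_le.1 e2).1
  linarith

end family

end

end Crest.Agent.R272.LbCap_382
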