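import Mathlib

/-!
# Row 272, leaf LB-PP (helper990): Hermitian geometry of signature `(n,1)`

`HF h` : `h : V → V → ℂ` is a Hermitian form, linear in the first variable, such that the
orthogonal complement of a negative vector is semidefinite.
-/

namespace Crest.Agent.R272.LbPP_990

set_option linter.unusedSectionVars false

open ComplexConjugate

/-- Hermitian form (linear in the first variable) of signature `(n,1)`. -/
structure HF {V : Type*} [AddCommGroup V] [Module ℂ V] (h : V → V → ℂ) : Prop where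
  add_left : ∀ x y z, h (x + y) z = h x z + h y z
  smul_left : ∀ (c : ℂ) (x y : V), h (c • x) y = c * h x y
  symm : ∀ x y, conj (h x y) = h y x
  sig : ∀ b v, (h b b).re < 0 → h v b = 0 → 0 ≤ (h v v).re

namespace HF

variable {V : Type*} [AddCommGroup V] [Module ℂ V] {h : V → V → ℂ} (H : HF h)
include H

theorem add_right (x y z : V) : h x (y + z) = h x y + h x z := by
  rw [← H.symm (y + z) x, H.add_left, map_add, H.symm, H.symm]

theorem smul_right (c : ℂ) (x y : V) : h x (c • y) = conj c * h x y := by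
  rw [← H.symm (c • y) x, H.smul_left, map_mul, H.symm]

theorem neg_left (x y : V) : h (-x) y = -h x y := by
  have := H.smul_left (-1) x y
  simpa using this

theorem neg_right (x y : V) : h x (-y) = -h x y := by
  have := H.smul_right (-1) x y
  simpa using this

theorem sub_left (x y z : V) : h (x - y) z = h x z - h y z := by
  rw [sub_eq_add_neg, H.add_left, H.neg_left, sub_eq_add_neg]

theorem sub_right (x y z : V) : h x (y - z) = h x y - h x z := by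
  rw [sub_eq_add_neg, H.add_right, H.neg_right, sub_eq_add_neg]

theorem zero_left (x : V) : h 0 x = 0 := by
  have := H.smul_left 0 0 x
  simpa using this

theorem zero_right (x : V) : h x 0 = 0 := by
  have := H.smul_right 0 x 0
  simpa using this

theorem self_eq (x : V) : h x x = ((h x x).re : ℂ) :=
  (Complex.conj_eq_iff_re.1 (H.symm x x)).symm

theorem norm_symm (x y : V) : ‖h x y‖ = ‖h y x‖ := by
  rw [← H.symm x y, Complex.norm_conj]

theorem eq_zero_symm {x y : V} (h0 : h x y = 0) : h y x = 0 := by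
  rw [← H.symm x y, h0, map_zero]

theorem expand_re (u v : V) (t : ℝ) :
    (h (u + (-(t : ℂ) * h u v) • v) (u + (-(t : ℂ) * h u v) • v)).re
      = (h u u).re - 2 * t * ‖h u v‖ ^ 2 + t ^ 2 * ‖h u v‖ ^ 2 * (h v v).re := by
  have e : h v u = conj (h u v) := (H.symm u v).symm
  have n : ‖h u v‖ ^ 2 = (h u v).re ^ 2 + (h u v).im ^ 2 := by
    rw [← Complex.normSq_eq_norm_sq, Complex.normSq_apply]; ring
  rw [H.add_left, H.add_right, H.add_right, H.smul_left, H.smul_right, H.smul_left, H.smul_right,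
    e, H.self_eq u, H.self_eq v, n]
  simp
  ring

theorem cs_pos {u v : V} (hv : 0 ≤ (h v v).re)
    (hpos : ∀ z : ℂ, 0 ≤ (h (u + z • v) (u + z • v)).re) :
    ‖h u v‖ ^ 2 ≤ (h u u).re * (h v v).re := by
  have key : ∀ t : ℝ, 0 ≤ (h u u).re - 2 * t * ‖h u v‖ ^ 2 + t ^ 2 * ‖h u v‖ ^ 2 * (h v v).re := by
    intro t
    rw [← H.expand_re]
    exact hpos _
  rcases hv.eq_or_lt with h0 | h0
  · rw [← h0, mul_zero]
    by_contra hc
    push Not at hc
    have := key (((h u u).re + 1) / (2 * ‖h u v‖ ^ 2))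
    rw [← h0] at this
    have h2 : 2 * (((h u u).re + 1) / (2 * ‖h u v‖ ^ 2)) * ‖h u v‖ ^ 2 = (h u u).re + 1 := by
      have h3 : ‖h u v‖ ^ 2 ≠ 0 := hc.ne'
      generalize ‖h u v‖ ^ 2 = N at h3
      field_simp
    rw [h2] at this
    linarith
  · have := key (1 / (h v v).re)
    have e2 : (h u u).re - 2 * (1 / (h v v).re) * ‖h u v‖ ^ 2
        + (1 / (h v v).re) ^ 2 * ‖h u v‖ ^ 2 * (h v v).re
        = (h u u).re - ‖h u v‖ ^ 2 / (h v v).re := by
      field_simp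
      ring
    rw [e2, sub_nonneg, div_le_iff₀ h0] at this
    exact this

/-- Cauchy–Schwarz in the complement of a negative unit vector. -/
theorem cs_perp {b u v : V} (hb : (h b b).re < 0) (hu : h u b = 0) (hv : h v b = 0) :
    ‖h u v‖ ^ 2 ≤ (h u u).re * (h v v).re := by
  refine H.cs_pos (H.sig b v hb hv) fun z => H.sig b _ hb ?_
  rw [H.add_left, H.smul_left, hu, hv]; simp

/-- projection to the complement of a negative unit vector -/
theorem proj_perp {b : V} (hb : h b b = -1) (u : V) : h (u + h u b • b) b = 0 := by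
  rw [H.add_left, H.smul_left, hb]; ring

theorem proj_inner {b : V} (hb : h b b = -1) (u v : V) :
    h (u + h u b • b) (v + h v b • b) = h u v + h u b * h b v := by
  rw [H.add_left, H.add_right, H.add_right, H.smul_left, H.smul_right, H.smul_left, H.smul_right,
    hb, H.symm]
  ring

theorem proj_norm {b : V} (hb : h b b = -1) (u : V) :
    (h (u + h u b • b) (u + h u b • b)).re = (h u u).re + ‖h u b‖ ^ 2 := by
  rw [H.proj_inner hb, ← H.symm u b, Complex.mul_conj, Complex.normSq_eq_norm_sq,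
    Complex.add_re, Complex.ofReal_re]

theorem sig_unit {b : V} (hb : h b b = -1) (u : V) : 0 ≤ (h u u).re + ‖h u b‖ ^ 2 := by
  rw [← H.proj_norm hb]
  exact H.sig b _ (by rw [hb]; simp) (H.proj_perp hb u)

/-- Cauchy–Schwarz relative to a negative unit vector. -/
theorem cs_unit {b : V} (hb : h b b = -1) (u v : V) :
    ‖h u v + h u b * h b v‖ ^ 2 ≤ ((h u u).re + ‖h u b‖ ^ 2) * ((h v v).re + ‖h v b‖ ^ 2) := by
  rw [← H.proj_norm hb u, ← H.proj_norm hb v, ← H.proj_inner hb]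
  exact H.cs_perp (b := b) (by rw [hb]; simp) (H.proj_perp hb u) (H.proj_perp hb v)

/-- norm form of `cs_unit` -/
theorem norm_le_unit {b : V} (hb : h b b = -1) (u v : V) :
    ‖h u v‖ ≤ ‖h u b‖ * ‖h b v‖
      + √((h u u).re + ‖h u b‖ ^ 2) * √((h v v).re + ‖h v b‖ ^ 2) := by
  have h1 := H.cs_unit hb u v
  have h2 : ‖h u v + h u b * h b v‖ ≤ √((h u u).re + ‖h u b‖ ^ 2) * √((h v v).re + ‖h v b‖ ^ 2) := by
    rw [← Real.sqrt_mul (H.sig_unit hb u)]
    exact Real.le_sqrt_of_sq_le h1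
  have h3 : ‖h u v‖ ≤ ‖h u v + h u b * h b v‖ + ‖h u b * h b v‖ := by
    have := norm_sub_le (h u v + h u b * h b v) (h u b * h b v)
    simpa using this
  rw [norm_mul] at h3
  linarith

/-- reverse Cauchy–Schwarz: `x` negative -/
theorem rev_cs {x : V} (hx : (h x x).re < 0) (w : V) :
    (h w w).re * (h x x).re ≤ ‖h w x‖ ^ 2 := by
  set N : ℝ := -(h x x).re with hN
  have hN0 : 0 < N := by rw [hN]; linarith
  set b : V := ((1 / √N : ℝ) : ℂ) • x with hb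
  have hs : √N * √N = N := Real.mul_self_sqrt hN0.le
  have hs0 : 0 < √N := Real.sqrt_pos.2 hN0
  have hbb : h b b = -1 := by
    rw [hb, H.smul_left, H.smul_right, H.self_eq x, Complex.conj_ofReal, ← Complex.ofReal_mul,
      ← Complex.ofReal_mul]
    have : 1 / √N * (1 / √N * (h x x).re) = -1 := by
      have : (h x x).re = -N := by rw [hN]; ring
      rw [this]
      field_simp
      rw [pow_two, hs]
    rw [this]; simp
  have h1 := H.sig_unit hbb w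
  have h2 : ‖h w b‖ ^ 2 = ‖h w x‖ ^ 2 / N := by
    rw [hb, H.smul_right, Complex.conj_ofReal, norm_mul, mul_pow, Complex.norm_real,
      Real.norm_of_nonneg (by positivity), div_pow, pow_two √N, hs]
    ring
  rw [h2] at h1
  have h3 : 0 ≤ (h w w).re * N + ‖h w x‖ ^ 2 := by
    have := mul_nonneg h1 hN0.le
    rwa [add_mul, div_mul_cancel₀ _ hN0.ne'] at this
  have : (h x x).re = -N := by rw [hN]; ring
  rw [this]
  linarith

/-- removing the component along a positive unit vector -/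
theorem projpos_perp {s : V} (hs : h s s = 1) (v : V) : h (v - h v s • s) s = 0 := by
  rw [H.sub_left, H.smul_left, hs]; ring

theorem projpos_norm {s : V} (hs : h s s = 1) (v : V) :
    (h (v - h v s • s) (v - h v s • s)).re = (h v v).re - ‖h v s‖ ^ 2 := by
  have e : h (v - h v s • s) (v - h v s • s) = h v v - h v s * conj (h v s) := by
    rw [H.sub_right, H.smul_right, H.projpos_perp hs, H.sub_left, H.smul_left, H.symm]; ring
  rw [e, Complex.mul_conj, Complex.normSq_eq_norm_sq, Complex.sub_re, Complex.ofReal_re]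

theorem self_unit_of {x : V} {N : ℝ} (hx : (h x x).re = N) : h x x = (N : ℂ) := by
  rw [H.self_eq, hx]

/-- a negative vector is a positive multiple of a unit one -/
theorem exists_unit {x : V} {M : ℝ} (hM : 0 < M) (hx : (h x x).re = -M) :
    ∃ b : V, h b b = -1 ∧ x = ((√M : ℝ) : ℂ) • b := by
  have hs : √M * √M = M := Real.mul_self_sqrt hM.le
  have hs0 : 0 < √M := Real.sqrt_pos.2 hM
  refine ⟨((1 / √M : ℝ) : ℂ) • x, ?_, ?_⟩
  · rw [H.smul_left, H.smul_right, H.self_eq x, Complex.conj_ofReal, ← Complex.ofReal_mul,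
      ← Complex.ofReal_mul, hx]
    have : 1 / √M * (1 / √M * (-M)) = -1 := by
      field_simp
      rw [pow_two, hs]
    rw [this]; simp
  · rw [smul_smul, ← Complex.ofReal_mul]
    have : √M * (1 / √M) = 1 := by field_simp
    rw [this]; simp

/-- Cauchy–Schwarz relative to a negative vector of norm `-M`. -/
theorem norm_le_neg {b : V} {M : ℝ} (hM : 0 < M) (hb : (h b b).re = -M) (u v : V) :
    ‖h u v‖ ≤ ‖h u b‖ * ‖h b v‖ / M
      + √((h u u).re + ‖h u b‖ ^ 2 / M) * √((h v v).re + ‖h v b‖ ^ 2 / M) := by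
  obtain ⟨c, hc, rfl⟩ := H.exists_unit hM hb
  have hs : √M * √M = M := Real.mul_self_sqrt hM.le
  have hs0 : 0 < √M := Real.sqrt_pos.2 hM
  have e1 : ∀ w, ‖h w (((√M : ℝ) : ℂ) • c)‖ = √M * ‖h w c‖ := fun w => by
    rw [H.smul_right, norm_mul, Complex.conj_ofReal, Complex.norm_real,
      Real.norm_of_nonneg hs0.le]
  have e2 : ∀ w, ‖h w (((√M : ℝ) : ℂ) • c)‖ ^ 2 / M = ‖h w c‖ ^ 2 := fun w => by
    rw [e1, mul_pow, pow_two √M, hs]; field_simp
  have e3 : ‖h u (((√M : ℝ) : ℂ) • c)‖ * ‖h (((√M : ℝ) : ℂ) • c) v‖ / M = ‖h u c‖ * ‖h c v‖ := by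
    rw [H.norm_symm _ v, e1, e1, H.norm_symm v c]
    have : √M * ‖h u c‖ * (√M * ‖h c v‖) / M = (√M * √M) * (‖h u c‖ * ‖h c v‖) / M := by ring
    rw [this, hs]; field_simp
  rw [e2, e2, e3]
  exact H.norm_le_unit hc u v

/-- normalised quasi-metric inequality -/
theorem qm_aux {u x y z : V} (hu : h u u = 2) (hxu : h x u = 1) (hyu : h y u = 1) (hzu : h z u = 1)
    (hx : (h x x).re ≤ 0) (hz : (h z z).re ≤ 0) {d A B : ℝ} (hd : 0 ≤ d) (hy : h y y = -(d : ℂ))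
    (hA : ‖h x y‖ + d ≤ A) (hB : ‖h y z‖ + d ≤ B) (hA1 : A ≤ 1) (hB1 : B ≤ 1) :
    ‖h x z‖ ≤ 4 * (A + B) := by
  have huy : h u y = 1 := by rw [← H.symm, hyu]; simp
  set c : V := y - (1 / 2 : ℂ) • u with hc
  have hcc : (h c c).re = -(1 / 2 + d) := by
    have : h c c = -((1 / 2 + d : ℝ) : ℂ) := by
      rw [hc, H.sub_left, H.sub_right, H.sub_right, H.smul_left, H.smul_right, H.smul_left,
        H.smul_right, hy, hyu, huy, hu]
      simp
      ring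
    rw [this]; simp
  have hM : 0 < 1 / 2 + d := by linarith
  have hpc : ∀ w : V, h w u = 1 → h (w - y) c = h w y + d := by
    intro w hw
    rw [hc, H.sub_left, H.sub_right, H.sub_right, H.smul_right, H.smul_right, hw, hyu, hy]
    ring
  have hA0 : 0 ≤ A := le_trans (by positivity) hA
  have hB0 : 0 ≤ B := le_trans (by positivity) hB
  have hyz : ‖h z y‖ = ‖h y z‖ := H.norm_symm _ _
  have bound : ∀ (w : V) (E : ℝ), h w u = 1 → (h w w).re ≤ 0 → ‖h w y‖ + d ≤ E → E ≤ 1 →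
      ‖h (w - y) c‖ ≤ E ∧ √((h (w - y) (w - y)).re + ‖h (w - y) c‖ ^ 2 / (1 / 2 + d)) ≤ 2 * √E := by
    intro w E hw hww hE hE1
    have hE0 : 0 ≤ E := le_trans (by positivity) hE
    have h1 : ‖h (w - y) c‖ ≤ E := by
      rw [hpc w hw]
      refine (norm_add_le _ _).trans ?_
      rw [Complex.norm_real, Real.norm_of_nonneg hd]
      exact hE
    refine ⟨h1, ?_⟩
    have h2 : (h (w - y) (w - y)).re ≤ 2 * E := by
      rw [H.sub_left, H.sub_right, H.sub_right, hy]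
      have e : (h y w).re = (h w y).re := by rw [← H.symm w y]; simp
      have : -(h w y).re ≤ ‖h w y‖ := by
        have := Complex.abs_re_le_norm (h w y)
        have := neg_abs_le (h w y).re
        linarith
      simp only [Complex.sub_re, Complex.neg_re, Complex.ofReal_re, e]
      linarith
    have h3 : ‖h (w - y) c‖ ^ 2 / (1 / 2 + d) ≤ 2 * E := by
      rw [div_le_iff₀ hM]
      have : ‖h (w - y) c‖ ^ 2 ≤ E ^ 2 := by gcongr
      nlinarith
    have h4 : (h (w - y) (w - y)).re + ‖h (w - y) c‖ ^ 2 / (1 / 2 + d) ≤ 4 * E := by linarith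
    calc √((h (w - y) (w - y)).re + ‖h (w - y) c‖ ^ 2 / (1 / 2 + d)) ≤ √(4 * E) :=
          Real.sqrt_le_sqrt h4
      _ = 2 * √E := by
          rw [Real.sqrt_mul (by norm_num)]
          have : √(4:ℝ) = 2 := by
            rw [show (4:ℝ) = 2 ^ 2 by norm_num, Real.sqrt_sq (by norm_num)]
          rw [this]
  obtain ⟨x1, x2⟩ := bound x A hxu hx hA hA1
  obtain ⟨z1, z2⟩ := bound z B hzu hz (by rw [hyz]; exact hB) hB1
  have hpq := H.norm_le_neg hM hcc (x - y) (z - y)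
  have hcz : ‖h c (z - y)‖ ≤ B := by rw [H.norm_symm]; exact z1
  have h5 : ‖h (x - y) c‖ * ‖h c (z - y)‖ / (1 / 2 + d) ≤ 2 * (A * B) := by
    rw [div_le_iff₀ hM]
    have : ‖h (x - y) c‖ * ‖h c (z - y)‖ ≤ A * B := by gcongr
    have hAB : 0 ≤ A * B := by positivity
    nlinarith
  have h6 : √((h (x - y) (x - y)).re + ‖h (x - y) c‖ ^ 2 / (1 / 2 + d)) *
      √((h (z - y) (z - y)).re + ‖h (z - y) c‖ ^ 2 / (1 / 2 + d)) ≤ (2 * √A) * (2 * √B) := by
    gcongr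
  have h7 : (2 * √A) * (2 * √B) ≤ 2 * (A + B) := by
    nlinarith [sq_nonneg (√A - √B), Real.sq_sqrt hA0, Real.sq_sqrt hB0]
  have h8 : 2 * (A * B) ≤ A + B := by nlinarith
  have h9 : ‖h (x - y) (z - y)‖ ≤ 3 * (A + B) := by linarith
  have h10 : h x z = h (x - y) (z - y) + h x y + h y z + d := by
    rw [H.sub_left, H.sub_right, H.sub_right, hy]; ring
  rw [h10]
  have h11 : ‖h (x - y) (z - y) + h x y + h y z + (d : ℂ)‖
      ≤ ‖h (x - y) (z - y)‖ + ‖h x y‖ + ‖h y z‖ + d := by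
    refine (norm_add_le _ _).trans ?_
    rw [Complex.norm_real, Real.norm_of_nonneg hd]
    gcongr
    refine (norm_add_le _ _).trans ?_
    gcongr
    exact norm_add_le _ _
  linarith

/-- **quasi-metric inequality** (QM) relative to the mirror `u`; `y` is the middle point. -/
theorem qm {u x y z : V} (hu : h u u = 2) (hxu : h x u ≠ 0) (hyu : h y u ≠ 0) (hzu : h z u ≠ 0)
    (hx : (h x x).re ≤ 0) (hz : (h z z).re ≤ 0) (hy : h y y = -1) {A B : ℝ}
    (hA : ‖h x y‖ / (‖h x u‖ * ‖h y u‖) + 1 / ‖h y u‖ ^ 2 ≤ A)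
    (hB : ‖h y z‖ / (‖h y u‖ * ‖h z u‖) + 1 / ‖h y u‖ ^ 2 ≤ B)
    (hA1 : A ≤ 1) (hB1 : B ≤ 1) :
    ‖h x z‖ / (‖h x u‖ * ‖h z u‖) ≤ 4 * (A + B) := by
  have nx : ‖h x u‖ ≠ 0 := norm_ne_zero_iff.2 hxu
  have ny : ‖h y u‖ ≠ 0 := norm_ne_zero_iff.2 hyu
  have nz : ‖h z u‖ ≠ 0 := norm_ne_zero_iff.2 hzu
  have key := H.qm_aux (u := u) (x := (h x u)⁻¹ • x) (y := (h y u)⁻¹ • y) (z := (h z u)⁻¹ • z)
    (d := 1 / ‖h y u‖ ^ 2) (A := A) (B := B) hu
    (by rw [H.smul_left, inv_mul_cancel₀ hxu]) (by rw [H.smul_left, inv_mul_cancel₀ hyu])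
    (by rw [H.smul_left, inv_mul_cancel₀ hzu])
  have sc : ∀ a b : V, ‖h ((h a u)⁻¹ • a) ((h b u)⁻¹ • b)‖ = ‖h a b‖ / (‖h a u‖ * ‖h b u‖) := by
    intro a b
    rw [H.smul_left, H.smul_right, norm_mul, norm_mul, norm_inv, Complex.norm_conj, norm_inv,
      mul_comm ‖h a u‖, div_eq_mul_inv, mul_inv]
    ring
  have sc2 : ∀ a : V, h a u ≠ 0 → h ((h a u)⁻¹ • a) ((h a u)⁻¹ • a)
      = ((1 / ‖h a u‖ ^ 2 : ℝ) : ℂ) * h a a := by
    intro a ha
    rw [H.smul_left, H.smul_right, ← mul_assoc, Complex.mul_conj, Complex.normSq_eq_norm_sq,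
      norm_inv]
    congr 2
    rw [inv_pow, one_div]
  rw [← sc]
  refine key ?_ ?_ (by positivity) ?_ ?_ ?_ hA1 hB1
  · rw [sc2 x hxu, Complex.re_ofReal_mul]
    exact mul_nonpos_of_nonneg_of_nonpos (by positivity) hx
  · rw [sc2 z hzu, Complex.re_ofReal_mul]
    exact mul_nonpos_of_nonneg_of_nonpos (by positivity) hz
  · rw [sc2 y hyu, hy]; ring
  · rw [sc]; exact hA
  · rw [sc]; exact hB

end HF

/-! ## The frame `e0, e1`, the mirrors and the caps -/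

section Frame

variable {V : Type*} [AddCommGroup V] [Module ℂ V] {h : V → V → ℂ}

/-- projection to the orthogonal complement of `⟨e0, e1⟩` -/
def pr (h : V → V → ℂ) (e0 e1 x : V) : V := x - h x e0 • e0 - h x e1 • e1

/-- squared length of the projection to `⟨e0, e1⟩` -/
noncomputable def P2 (h : V → V → ℂ) (e0 e1 x : V) : ℝ := ‖h x e0‖ ^ 2 + ‖h x e1‖ ^ 2

theorem P2_nonneg (e0 e1 x : V) : 0 ≤ P2 h e0 e1 x := by unfold P2; positivity

variable (H : HF h) {e0 e1 : V} (h00 : h e0 e0 = 1) (h11 : h e1 e1 = 1) (h01 : h e0 e1 = 0)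
include H h00 h11 h01

theorem pr_e0 (x : V) : h (pr h e0 e1 x) e0 = 0 := by
  have h10 : h e1 e0 = 0 := H.eq_zero_symm h01
  rw [pr, H.sub_left, H.sub_left, H.smul_left, H.smul_left, h00, h10]; ring

theorem pr_e1 (x : V) : h (pr h e0 e1 x) e1 = 0 := by
  rw [pr, H.sub_left, H.sub_left, H.smul_left, H.smul_left, h11, h01]; ring

theorem pr_left (x y : V) : h (pr h e0 e1 x) y = h x y - h x e0 * h e0 y - h x e1 * h e1 y := by
  rw [pr, H.sub_left, H.sub_left, H.smul_left, H.smul_left]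

theorem pr_pr (x y : V) : h (pr h e0 e1 x) (pr h e0 e1 y) = h (pr h e0 e1 x) y := by
  conv_lhs => rw [← H.symm, pr_left H h00 h11 h01, H.eq_zero_symm (pr_e0 H h00 h11 h01 x),
    H.eq_zero_symm (pr_e1 H h00 h11 h01 x)]
  rw [mul_zero, mul_zero, sub_zero, sub_zero, H.symm]

theorem pr_self (x : V) : (h (pr h e0 e1 x) (pr h e0 e1 x)).re = (h x x).re - P2 h e0 e1 x := by
  rw [pr_pr H h00 h11 h01, pr_left H h00 h11 h01, ← H.symm x e0, ← H.symm x e1, Complex.mul_conj,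
    Complex.mul_conj, Complex.normSq_eq_norm_sq, Complex.normSq_eq_norm_sq, P2]
  rw [Complex.sub_re, Complex.sub_re, Complex.ofReal_re, Complex.ofReal_re]
  ring

theorem norm_pr_le (x w : V) : ‖h (pr h e0 e1 x) (pr h e0 e1 w)‖
    ≤ ‖h x w‖ + √(P2 h e0 e1 x) * √(P2 h e0 e1 w) := by
  rw [pr_pr H h00 h11 h01, pr_left H h00 h11 h01]
  have h1 : ‖h x w - h x e0 * h e0 w - h x e1 * h e1 w‖
      ≤ ‖h x w‖ + (‖h x e0‖ * ‖h w e0‖ + ‖h x e1‖ * ‖h w e1‖) := by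
    have a1 := norm_sub_le (h x w - h x e0 * h e0 w) (h x e1 * h e1 w)
    have a2 := norm_sub_le (h x w) (h x e0 * h e0 w)
    rw [norm_mul, H.norm_symm e1 w] at a1
    rw [norm_mul, H.norm_symm e0 w] at a2
    linarith
  have h2 : ‖h x e0‖ * ‖h w e0‖ + ‖h x e1‖ * ‖h w e1‖ ≤ √(P2 h e0 e1 x) * √(P2 h e0 e1 w) := by
    rw [← Real.sqrt_mul (P2_nonneg _ _ _)]
    apply Real.le_sqrt_of_sq_le
    unfold P2
    nlinarith [sq_nonneg (‖h x e0‖ * ‖h w e1‖ - ‖h x e1‖ * ‖h w e0‖)]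
  linarith

/-- the basic estimate: `x` negative unit vector, `w` a mirror -/
theorem cap_rev {x w : V} (hx : h x x = -1) (hw : h w w = 2) :
    (P2 h e0 e1 w - 2) * (1 + P2 h e0 e1 x) ≤ ‖h (pr h e0 e1 x) (pr h e0 e1 w)‖ ^ 2 := by
  have h1 : (h (pr h e0 e1 x) (pr h e0 e1 x)).re = -(1 + P2 h e0 e1 x) := by
    rw [pr_self H h00 h11 h01, hx]; simp; ring
  have h2 : (h (pr h e0 e1 w) (pr h e0 e1 w)).re = -(P2 h e0 e1 w - 2) := by
    rw [pr_self H h00 h11 h01, hw]; simp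
  have h3 := H.rev_cs (x := pr h e0 e1 x)
    (by rw [h1]; have := P2_nonneg (h := h) e0 e1 x; linarith) (pr h e0 e1 w)
  rw [h1, h2, H.norm_symm] at h3
  linarith

/-- outside the `f1`-cap of a type B mirror the pairing is large -/
theorem cap_lower {x w : V} (hx : h x x = -1) (hw : h w w = 2) {C : ℝ} (hC : 16 ≤ C)
    (hP : C ≤ P2 h e0 e1 w) (hcap : C * √(P2 h e0 e1 x) ≤ ‖h x w‖ * √(P2 h e0 e1 w)) :
    C / 8 ≤ ‖h x w‖ ^ 2 := by
  have h1 := cap_rev H h00 h11 h01 hx hw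
  have h2 := norm_pr_le H h00 h11 h01 x w
  have hp := P2_nonneg (h := h) e0 e1 w
  have ht := P2_nonneg (h := h) e0 e1 x
  have hps := Real.sq_sqrt hp
  have hts := Real.sq_sqrt ht
  have h3 : ‖h (pr h e0 e1 x) (pr h e0 e1 w)‖ ^ 2
      ≤ (‖h x w‖ + √(P2 h e0 e1 x) * √(P2 h e0 e1 w)) ^ 2 := by gcongr
  have h4 := h1.trans h3
  set P := √(P2 h e0 e1 w) with hPdef
  set t := √(P2 h e0 e1 x) with htdef
  set a := ‖h x w‖ with ha
  rw [← hps, ← hts] at h4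
  rw [← hps] at hP
  have hP0 : 0 ≤ P := Real.sqrt_nonneg _
  have ht0 : 0 ≤ t := Real.sqrt_nonneg _
  have ha0 : 0 ≤ a := norm_nonneg _
  have hC0 : 0 < C := by linarith
  -- `P² - 2 - 2 t² ≤ a² + 2 a t P`
  have h5 : P ^ 2 - 2 - 2 * t ^ 2 ≤ a ^ 2 + 2 * a * t * P := by nlinarith
  have h6 : C * (2 * a * t * P) ≤ 2 * (a ^ 2 * P ^ 2) := by
    have : 0 ≤ 2 * a * P := by positivity
    nlinarith [mul_le_mul_of_nonneg_left hcap this]
  have h7 : C ^ 2 * t ^ 2 ≤ a ^ 2 * P ^ 2 := by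
    have : (C * t) ^ 2 ≤ (a * P) ^ 2 := by gcongr
    nlinarith
  by_contra hlt
  push Not at hlt
  have h8 : a ^ 2 * P ^ 2 ≤ C / 8 * P ^ 2 := by gcongr
  have h9 : 2 * a * t * P ≤ P ^ 2 / 4 := by
    have : C * (2 * a * t * P) ≤ C * (P ^ 2 / 4) := by linarith
    exact le_of_mul_le_mul_left this hC0
  have h10 : 2 * t ^ 2 ≤ P ^ 2 / 64 := by
    have h11 : C * (C * t ^ 2) ≤ C * (P ^ 2 / 8) := by nlinarith
    have h12 : C * t ^ 2 ≤ P ^ 2 / 8 := le_of_mul_le_mul_left h11 hC0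
    nlinarith [sq_nonneg t]
  nlinarith

/-- the foot of `x` on `f1` -/
theorem exists_foot {x : V} (hx : h x x = -1) :
    ∃ q : V, h q q = -1 ∧ h q e0 = 0 ∧ h q e1 = 0 ∧ ‖h q x‖ = √(1 + P2 h e0 e1 x) ∧
      ∀ w, ‖h (pr h e0 e1 x) (pr h e0 e1 w)‖ = √(1 + P2 h e0 e1 x) * ‖h q w‖ := by
  have ht := P2_nonneg (h := h) e0 e1 x
  have h1 : (h (pr h e0 e1 x) (pr h e0 e1 x)).re = -(1 + P2 h e0 e1 x) := by
    rw [pr_self H h00 h11 h01, hx]; simp; ring
  have hM : 0 < 1 + P2 h e0 e1 x := by linarith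
  have hs0 : 0 < √(1 + P2 h e0 e1 x) := Real.sqrt_pos.2 hM
  have hs : √(1 + P2 h e0 e1 x) * √(1 + P2 h e0 e1 x) = 1 + P2 h e0 e1 x :=
    Real.mul_self_sqrt hM.le
  obtain ⟨q, hq, hqx⟩ := H.exists_unit hM h1
  have hne : ((√(1 + P2 h e0 e1 x) : ℝ) : ℂ) ≠ 0 := by exact_mod_cast hs0.ne'
  have hsc : ∀ w, h (pr h e0 e1 x) w = ((√(1 + P2 h e0 e1 x) : ℝ) : ℂ) * h q w := by
    intro w
    conv_lhs => rw [hqx, H.smul_left]
  have hsn : ∀ w, ‖h (pr h e0 e1 x) w‖ = √(1 + P2 h e0 e1 x) * ‖h q w‖ := by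
    intro w
    rw [hsc, norm_mul, Complex.norm_real, Real.norm_of_nonneg hs0.le]
  refine ⟨q, hq, ?_, ?_, ?_, ?_⟩
  · have := hsc e0
    rw [pr_e0 H h00 h11 h01] at this
    exact (mul_eq_zero.1 this.symm).resolve_left hne
  · have := hsc e1
    rw [pr_e1 H h00 h11 h01] at this
    exact (mul_eq_zero.1 this.symm).resolve_left hne
  · have h2 := hsn x
    have h3 : ‖h (pr h e0 e1 x) x‖ = 1 + P2 h e0 e1 x := by
      rw [← pr_pr H h00 h11 h01, H.self_eq, h1, Complex.norm_real, Real.norm_eq_abs, abs_neg,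
        abs_of_pos hM]
    rw [h3] at h2
    have h4 : √(1 + P2 h e0 e1 x) * √(1 + P2 h e0 e1 x) = √(1 + P2 h e0 e1 x) * ‖h q x‖ := by
      rw [hs, ← h2]
    exact (mul_left_cancel₀ hs0.ne' h4).symm
  · intro w
    rw [pr_pr H h00 h11 h01, hsn]

/-- a type B mirror is far from the points of `f1` -/
theorem foot_far {q w : V} (hq : h q q = -1) (hq0 : h q e0 = 0) (hq1 : h q e1 = 0)
    (hw : h w w = 2) : P2 h e0 e1 w - 2 ≤ ‖h q w‖ ^ 2 := by
  have h1 := cap_rev H h00 h11 h01 hq hw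
  have h2 : P2 h e0 e1 q = 0 := by unfold P2; rw [hq0, hq1]; simp
  have h3 : h (pr h e0 e1 q) (pr h e0 e1 w) = h q w := by
    rw [pr_pr H h00 h11 h01, pr_left H h00 h11 h01, hq0, hq1]; ring
  rw [h2, h3] at h1
  linarith

/-- the `D_w`-distance between `x` (outside the cap of `w`) and its foot -/
theorem foot_D {x q w : V} (hx : h x x = -1) (hw : h w w = 2) {C : ℝ} (hC : 16 ≤ C)
    (hP : C ≤ P2 h e0 e1 w) (hcap : C * √(P2 h e0 e1 x) ≤ ‖h x w‖ * √(P2 h e0 e1 w))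
    (hq2 : P2 h e0 e1 w - 2 ≤ ‖h q w‖ ^ 2) (hqx : ‖h q x‖ = √(1 + P2 h e0 e1 x)) :
    ‖h q x‖ / (‖h q w‖ * ‖h x w‖) ≤ 5 / C := by
  have hC0 : 0 < C := by linarith
  have hcl := cap_lower H h00 h11 h01 hx hw hC hP hcap
  have hxw0 : 0 < ‖h x w‖ := by
    rcases (norm_nonneg (h x w)).eq_or_lt with h0 | h0
    · rw [← h0] at hcl; nlinarith
    · exact h0
  have hqw0 : 0 < ‖h q w‖ := by
    rcases (norm_nonneg (h q w)).eq_or_lt with h0 | h0
    · rw [← h0] at hq2; nlinarith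
    · exact h0
  have hp := P2_nonneg (h := h) e0 e1 w
  have ht := P2_nonneg (h := h) e0 e1 x
  have hcap2 : C ^ 2 * P2 h e0 e1 x ≤ ‖h x w‖ ^ 2 * P2 h e0 e1 w := by
    have h1 : (C * √(P2 h e0 e1 x)) ^ 2 ≤ (‖h x w‖ * √(P2 h e0 e1 w)) ^ 2 := by gcongr
    rwa [mul_pow, mul_pow, Real.sq_sqrt hp, Real.sq_sqrt ht] at h1
  rw [div_le_div_iff₀ (by positivity) hC0]
  rw [hqx]
  apply le_of_sq_le_sq _ (by positivity)
  rw [mul_pow, Real.sq_sqrt (by linarith)]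
  set p := P2 h e0 e1 w
  set t2 := P2 h e0 e1 x
  set a2 := ‖h x w‖ ^ 2 with ha2
  set b2 := ‖h q w‖ ^ 2 with hb2
  have e : (5 * (‖h q w‖ * ‖h x w‖)) ^ 2 = 25 * (b2 * a2) := by rw [ha2, hb2]; ring
  rw [e]
  have ha0 : 0 ≤ a2 := by positivity
  have h5 : p / 2 ≤ b2 := by linarith
  have h6 : p / 2 * a2 ≤ b2 * a2 := by gcongr
  have h7 : C ^ 2 / 8 ≤ a2 * p := by nlinarith
  nlinarith

end Frame

/-! ## Type A mirrors -/

section TypeA

variable {V : Type*} [AddCommGroup V] [Module ℂ V] {h : V → V → ℂ}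

/-- mirror of type A: norm `2`, orthogonal to `e0`, `e1`-coordinate `1` -/
structure TA (h : V → V → ℂ) (e0 e1 w : V) : Prop where
  norm : h w w = 2
  w0 : h w e0 = 0
  w1 : h w e1 = 1

variable (H : HF h) {e0 e1 : V} (h00 : h e0 e0 = 1) (h11 : h e1 e1 = 1) (h01 : h e0 e1 = 0)
include H h00 h11 h01

theorem TA.s_e0 {w : V} (hw : TA h e0 e1 w) : h (e1 - w) e0 = 0 := by
  rw [H.sub_left, hw.w0, H.eq_zero_symm h01]; ring

theorem TA.s_e1 {w : V} (hw : TA h e0 e1 w) : h (e1 - w) e1 = 0 := by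
  rw [H.sub_left, hw.w1, h11]; ring

theorem TA.e1_w {w : V} (hw : TA h e0 e1 w) : h e1 w = 1 := by
  rw [← H.symm, hw.w1]; simp

theorem TA.s_s {w : V} (hw : TA h e0 e1 w) : h (e1 - w) (e1 - w) = 1 := by
  rw [H.sub_left, H.sub_right, H.sub_right, hw.w1, h11, hw.norm, TA.e1_w H h00 h11 h01 hw]; ring

theorem TA.s_w {w : V} (hw : TA h e0 e1 w) : h (e1 - w) w = -1 := by
  rw [H.sub_left, hw.norm, TA.e1_w H h00 h11 h01 hw]; ring

theorem TA.s_s' {w w' : V} (hw : TA h e0 e1 w) (hw' : TA h e0 e1 w') :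
    h (e1 - w) (e1 - w') = h w w' - 1 := by
  rw [H.sub_left, H.sub_right, H.sub_right, hw.w1, h11, TA.e1_w H h00 h11 h01 hw']; ring

theorem TA.kappa {w w' : V} (hw : TA h e0 e1 w) (hw' : TA h e0 e1 w') {Λ : ℝ}
    (hΛ : Λ ≤ ‖h w w'‖) : Λ - 1 ≤ ‖h (e1 - w) (e1 - w')‖ := by
  rw [TA.s_s' H h00 h11 h01 hw hw']
  have := norm_sub_norm_le (h w w') 1
  rw [norm_one] at this
  linarith

/-- **start point**: every point `q` of `f1` is close to a point `o` of `f1` far from all vertices -/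
theorem exists_start {A : Set V} (hA : ∀ w ∈ A, TA h e0 e1 w) {Λ T : ℝ} (hT : 0 ≤ T)
    (hsep : ∀ w ∈ A, ∀ w' ∈ A, w ≠ w' → Λ ≤ ‖h w w'‖) (hΛT : 2 * T ^ 2 + 2 ≤ Λ)
    {q : V} (hq : h q q = -1) (hq0 : h q e0 = 0) (hq1 : h q e1 = 0) :
    ∃ o : V, h o o = -1 ∧ h o e0 = 0 ∧ h o e1 = 0 ∧ (∀ w ∈ A, T ≤ ‖h o w‖) ∧
      ‖h o q‖ ≤ 2 * T ^ 2 + 1 := by
  by_cases hall : ∀ w ∈ A, T ≤ ‖h q w‖
  · refine ⟨q, hq, hq0, hq1, hall, ?_⟩
    rw [hq, norm_neg, norm_one]; nlinarith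
  push Not at hall
  obtain ⟨w, hw, hlt⟩ := hall
  have tw := hA w hw
  set s : V := e1 - w with hs
  have ss : h s s = 1 := TA.s_s H h00 h11 h01 tw
  have s0 : h s e0 = 0 := TA.s_e0 H h00 h11 h01 tw
  have s1 : h s e1 = 0 := TA.s_e1 H h00 h11 h01 tw
  have hqs : h q s = -h q w := by rw [hs, H.sub_right, hq1]; ring
  set α : ℂ := h q s with hα
  have hαn : ‖α‖ < T := by rw [hqs, norm_neg]; exact hlt
  have hsq : h s q = conj α := by rw [hα, H.symm]
  have hαα : α * conj α = ((‖α‖ ^ 2 : ℝ) : ℂ) := by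
    rw [Complex.mul_conj, Complex.normSq_eq_norm_sq]
  have hαα' : conj α * α = ((‖α‖ ^ 2 : ℝ) : ℂ) := by rw [mul_comm, hαα]
  set c : V := q - α • s with hc
  have hcs : h c s = 0 := by rw [hc, H.sub_left, H.smul_left, ss]; rw [← hα]; ring
  have hcc' : h c c = ((-(1 + ‖α‖ ^ 2) : ℝ) : ℂ) := by
    have : h c c = h c q := by
      conv_lhs => rw [hc]
      rw [H.sub_right, H.smul_right, ← hc, hcs]; ring
    rw [this, hc, H.sub_left, H.smul_left, hsq, hαα, hq]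
    push_cast; ring
  have hcc : (h c c).re = -(1 + ‖α‖ ^ 2) := by rw [hcc', Complex.ofReal_re]
  have hM : 0 < 1 + ‖α‖ ^ 2 := by positivity
  obtain ⟨b, hb, hcb⟩ := H.exists_unit hM hcc
  have hm0 : 0 < √(1 + ‖α‖ ^ 2) := Real.sqrt_pos.2 hM
  have hmne : ((√(1 + ‖α‖ ^ 2) : ℝ) : ℂ) ≠ 0 := by exact_mod_cast hm0.ne'
  have hcv : ∀ v, h c v = ((√(1 + ‖α‖ ^ 2) : ℝ) : ℂ) * h b v := by
    intro v
    conv_lhs => rw [hcb, H.smul_left]
  have hbs : h b s = 0 := by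
    have := hcv s; rw [hcs] at this
    exact (mul_eq_zero.1 this.symm).resolve_left hmne
  have hb0 : h b e0 = 0 := by
    have := hcv e0; rw [hc, H.sub_left, H.smul_left, hq0, s0] at this
    simp only [mul_zero, sub_zero] at this
    exact (mul_eq_zero.1 this.symm).resolve_left hmne
  have hb1 : h b e1 = 0 := by
    have := hcv e1; rw [hc, H.sub_left, H.smul_left, hq1, s1] at this
    simp only [mul_zero, sub_zero] at this
    exact (mul_eq_zero.1 this.symm).resolve_left hmne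
  have hsb : h s b = 0 := H.eq_zero_symm hbs
  have hbq : ‖h b q‖ = √(1 + ‖α‖ ^ 2) := by
    have e1 : h c q = ((-(1 + ‖α‖ ^ 2) : ℝ) : ℂ) := by
      rw [hc, H.sub_left, H.smul_left, hsq, hαα, hq]; push_cast; ring
    have e2 := hcv q
    have e3 : ‖h c q‖ = 1 + ‖α‖ ^ 2 := by
      rw [e1, Complex.norm_real, Real.norm_eq_abs, abs_neg, abs_of_pos hM]
    rw [e2, norm_mul, Complex.norm_real, Real.norm_of_nonneg hm0.le] at e3
    have e4 : √(1 + ‖α‖ ^ 2) * ‖h b q‖ = √(1 + ‖α‖ ^ 2) * √(1 + ‖α‖ ^ 2) := by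
      rw [e3, Real.mul_self_sqrt hM.le]
    exact mul_left_cancel₀ hm0.ne' e4
  -- the point
  have hT1 : 0 < 1 + T ^ 2 := by positivity
  set τ : ℝ := √(1 + T ^ 2) with hτ
  have hτ0 : 0 < τ := Real.sqrt_pos.2 hT1
  have hττ : τ * τ = 1 + T ^ 2 := Real.mul_self_sqrt hT1.le
  refine ⟨(T : ℂ) • s + (τ : ℂ) • b, ?_, ?_, ?_, ?_, ?_⟩
  · have e : h ((T : ℂ) • s + (τ : ℂ) • b) ((T : ℂ) • s + (τ : ℂ) • b)
        = ((T * T - τ * τ : ℝ) : ℂ) := by
      rw [H.add_left, H.add_right, H.add_right, H.smul_left, H.smul_left, H.smul_left, H.smul_left,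
        H.smul_right, H.smul_right, H.smul_right, H.smul_right, ss, hb, hsb, hbs,
        Complex.conj_ofReal, Complex.conj_ofReal]
      push_cast; ring
    rw [e, hττ]
    push_cast; ring
  · rw [H.add_left, H.smul_left, H.smul_left, s0, hb0]; ring
  · rw [H.add_left, H.smul_left, H.smul_left, s1, hb1]; ring
  · intro w2 hw2
    have o1 : h ((T : ℂ) • s + (τ : ℂ) • b) e1 = 0 := by
      rw [H.add_left, H.smul_left, H.smul_left, s1, hb1]; ring
    by_cases hww : w2 = w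
    · subst hww
      have : h ((T : ℂ) • s + (τ : ℂ) • b) w2 = -(T : ℂ) := by
        have e : h ((T : ℂ) • s + (τ : ℂ) • b) w2 = h ((T : ℂ) • s + (τ : ℂ) • b) e1
            - h ((T : ℂ) • s + (τ : ℂ) • b) s := by
          rw [← H.sub_right, hs]; congr 1; abel
        rw [e, o1, H.add_left, H.smul_left, H.smul_left, ss, hbs]; ring
      rw [this, norm_neg, Complex.norm_real, Real.norm_of_nonneg hT]
    · have tw2 := hA w2 hw2
      set s2 : V := e1 - w2 with hs2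
      have ss2 : h s2 s2 = 1 := TA.s_s H h00 h11 h01 tw2
      have hκ : Λ - 1 ≤ ‖h s s2‖ := TA.kappa H h00 h11 h01 tw tw2 (hsep w hw w2 hw2 (Ne.symm hww))
      have e : h ((T : ℂ) • s + (τ : ℂ) • b) w2 = -((T : ℂ) * h s s2 + (τ : ℂ) * h b s2) := by
        have e : h ((T : ℂ) • s + (τ : ℂ) • b) w2 = h ((T : ℂ) • s + (τ : ℂ) • b) e1
            - h ((T : ℂ) • s + (τ : ℂ) • b) s2 := by
          rw [← H.sub_right, hs2]; congr 1; abel
        rw [e, o1, H.add_left, H.smul_left, H.smul_left]; ring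
      rw [e, norm_neg]
      -- `‖h b s2‖² ≥ κ² - 1`
      have hβ : ‖h s s2‖ ^ 2 - 1 ≤ ‖h b s2‖ ^ 2 := by
        have h1 := H.sig_unit hb (s2 - h s2 s • s)
        have e2 : h (s2 - h s2 s • s) b = h s2 b := by
          rw [H.sub_left, H.smul_left, hsb]; ring
        have e3 : (h (s2 - h s2 s • s) (s2 - h s2 s • s)).re = 1 - ‖h s s2‖ ^ 2 := by
          rw [H.projpos_norm ss, ss2, H.norm_symm s2 s, Complex.one_re]
        rw [e2, e3, H.norm_symm s2 b] at h1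
        linarith
      set κ := ‖h s s2‖
      set β := ‖h b s2‖
      have hκ0 : 1 ≤ κ := by nlinarith
      have hβ0 : 0 ≤ β := norm_nonneg _
      have h2 : τ * β - T * κ ≤ ‖(T : ℂ) * h s s2 + (τ : ℂ) * h b s2‖ := by
        have h3 := norm_sub_norm_le ((τ : ℂ) * h b s2) (-((T : ℂ) * h s s2))
        rw [norm_neg, norm_mul, norm_mul, Complex.norm_real, Complex.norm_real,
          Real.norm_of_nonneg hT, Real.norm_of_nonneg hτ0.le, sub_neg_eq_add, add_comm] at h3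
        exact h3
      have h4 : T * (κ + 1) ≤ τ * β := by
        apply le_of_sq_le_sq _ (by positivity)
        have h5 : (τ * β) ^ 2 = (1 + T ^ 2) * β ^ 2 := by rw [mul_pow, pow_two τ, hττ]
        rw [h5]
        have h6 : (1 + T ^ 2) * (κ ^ 2 - 1) ≤ (1 + T ^ 2) * β ^ 2 := by gcongr
        have h7 : 2 * T ^ 2 ≤ κ - 1 := by linarith
        nlinarith [mul_le_mul_of_nonneg_right h7 (by linarith : 0 ≤ κ + 1)]
      linarith
  · rw [H.add_left, H.smul_left, H.smul_left]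
    refine (norm_add_le _ _).trans ?_
    rw [norm_mul, norm_mul, Complex.norm_real, Complex.norm_real, Real.norm_of_nonneg hT,
      Real.norm_of_nonneg hτ0.le, hbq, H.norm_symm s q, ← hα]
    have h1 : T * ‖α‖ ≤ T * T := by gcongr
    have h2 : √(1 + ‖α‖ ^ 2) ≤ τ := by
      rw [hτ]; apply Real.sqrt_le_sqrt; gcongr
    have h3 : τ * √(1 + ‖α‖ ^ 2) ≤ τ * τ := by gcongr
    rw [hττ] at h3
    nlinarith

/-- the invariant of the three term recursion -/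
structure Inv (h : V → V → ℂ) (e0 e1 : V) (Λ : ℝ) (v w : V) : Prop where
  norm : h v v = 1
  v0 : h v e0 = 0
  big : Λ - 1 ≤ ‖h v e1‖
  small : 4 * ‖h v (e1 - w)‖ ≤ ‖h v e1‖

/-- reflection in `w` (norm `2`) -/
def rf (h : V → V → ℂ) (w v : V) : V := v - h v w • w

omit h00 h11 h01 in
theorem rf_isom {w : V} (hw : h w w = 2) (x y : V) : h (rf h w x) (rf h w y) = h x y := by
  rw [rf, rf, H.sub_left, H.sub_right, H.sub_right, H.smul_left, H.smul_left, H.smul_right,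
    H.smul_right, hw, H.symm]
  ring

/-- the reflection in a type A mirror exchanges the `e1`- and the `s`-coordinates -/
theorem TA.rf_e1 {w : V} (hw : TA h e0 e1 w) (v : V) : h (rf h w v) e1 = h v (e1 - w) := by
  rw [rf, H.sub_left, H.smul_left, H.sub_right, hw.w1]; ring

theorem TA.rf_s {w : V} (hw : TA h e0 e1 w) (v : V) : h (rf h w v) (e1 - w) = h v e1 := by
  have : h w (e1 - w) = -1 := by rw [H.sub_right, hw.w1, hw.norm]; ring
  rw [rf, H.sub_left, H.smul_left, this, H.sub_right]; ring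

theorem TA.rf_e0 {w : V} (hw : TA h e0 e1 w) (v : V) : h (rf h w v) e0 = h v e0 := by
  rw [rf, H.sub_left, H.smul_left, hw.w0]; ring

/-- one step of the recursion -/
theorem Inv.step {Λ : ℝ} (hΛ : 7 ≤ Λ) {v w w2 : V} (hv : Inv h e0 e1 Λ v w)
    (tw : TA h e0 e1 w) (tw2 : TA h e0 e1 w2) (hww : Λ ≤ ‖h w w2‖) :
    Inv h e0 e1 Λ (rf h w2 v) w2 := by
  obtain ⟨hn, hv0, hbig, hsmall⟩ := hv
  have key : 4 * ‖h v e1‖ ≤ ‖h v (e1 - w2)‖ := by
    obtain ⟨s, hs⟩ : ∃ s, s = e1 - w := ⟨_, rfl⟩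
    obtain ⟨s2, hs2⟩ : ∃ s2, s2 = e1 - w2 := ⟨_, rfl⟩
    have ss : h s s = 1 := by rw [hs]; exact TA.s_s H h00 h11 h01 tw
    have ss2 : h s2 s2 = 1 := by rw [hs2]; exact TA.s_s H h00 h11 h01 tw2
    have s1 : h s e1 = 0 := by rw [hs]; exact TA.s_e1 H h00 h11 h01 tw
    have s21 : h s2 e1 = 0 := by rw [hs2]; exact TA.s_e1 H h00 h11 h01 tw2
    have hκ : Λ - 1 ≤ ‖h s s2‖ := by rw [hs, hs2]; exact TA.kappa H h00 h11 h01 tw tw2 hww
    rw [← hs2]
    rw [← hs] at hsmall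
    obtain ⟨c, hc⟩ : ∃ c, c = s2 - h s2 s • s := ⟨_, rfl⟩
    have hcs : h c s = 0 := by rw [hc]; exact H.projpos_perp ss s2
    have hcc : (h c c).re = 1 - ‖h s s2‖ ^ 2 := by
      rw [hc, H.projpos_norm ss, ss2, H.norm_symm s2 s, Complex.one_re]
    have hc1 : h c e1 = 0 := by rw [hc, H.sub_left, H.smul_left, s1, s21]; ring
    have hcneg : (h c c).re < 0 := by rw [hcc]; nlinarith
    -- `v1` = part of `v` orthogonal to `e1` and `s`
    obtain ⟨v1, hv1⟩ : ∃ v1, v1 = v - h v e1 • e1 := ⟨_, rfl⟩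
    obtain ⟨v2, hv2⟩ : ∃ v2, v2 = v1 - h v1 s • s := ⟨_, rfl⟩
    have n1 : (h v1 v1).re = 1 - ‖h v e1‖ ^ 2 := by
      rw [hv1, H.projpos_norm h11, hn, Complex.one_re]
    have hv1s : h v1 s = h v s := by
      rw [hv1, H.sub_left, H.smul_left, H.eq_zero_symm s1]; ring
    have n2 : (h v2 v2).re = 1 - ‖h v e1‖ ^ 2 - ‖h v s‖ ^ 2 := by
      rw [hv2, H.projpos_norm ss, n1, hv1s]
    have hv2c : h v2 c = h v c := by
      rw [hv2, H.sub_left, H.smul_left, H.eq_zero_symm hcs, hv1, H.sub_left, H.smul_left,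
        H.eq_zero_symm hc1]; ring
    have hrev := H.rev_cs hcneg v2
    rw [n2, hcc, hv2c] at hrev
    have hdec : h v s2 = conj (h s2 s) * h v s + h v c := by
      rw [hc, H.sub_right, H.smul_right]; ring
    have h3 : ‖h v c‖ - ‖h s s2‖ * ‖h v s‖ ≤ ‖h v s2‖ := by
      have := norm_sub_norm_le (h v c) (-(conj (h s2 s) * h v s))
      rw [norm_neg, norm_mul, Complex.norm_conj, sub_neg_eq_add, add_comm (h v c), ← hdec,
        H.norm_symm s2 s] at this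
      exact this
    set a := ‖h v e1‖
    set a' := ‖h v s‖
    set κ := ‖h s s2‖
    have ha6 : 6 ≤ a := by linarith
    have hκ6 : 6 ≤ κ := by linarith
    have ha'0 : 0 ≤ a' := norm_nonneg _
    -- `‖h v c‖ ≥ (15/16) κ a`
    have h4 : 15 / 16 * (κ * a) ≤ ‖h v c‖ := by
      apply le_of_sq_le_sq _ (norm_nonneg _)
      have h5 : 15 / 16 * a ^ 2 ≤ a ^ 2 - 1 := by nlinarith
      have h6 : 15 / 16 * κ ^ 2 ≤ κ ^ 2 - 1 := by nlinarith
      have h7 : (15 / 16 * a ^ 2) * (15 / 16 * κ ^ 2) ≤ (a ^ 2 - 1) * (κ ^ 2 - 1) := by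
        apply mul_le_mul h5 h6 (by positivity) (by nlinarith)
      have h8 : (a ^ 2 - 1) * (κ ^ 2 - 1) ≤ (1 - a ^ 2 - a' ^ 2) * (1 - κ ^ 2) := by
        have : 0 ≤ a' ^ 2 * (κ ^ 2 - 1) := mul_nonneg (by positivity) (by nlinarith)
        nlinarith
      nlinarith
    have h9 : κ * a' ≤ κ * (a / 4) := by
      apply mul_le_mul_of_nonneg_left _ (by linarith)
      linarith
    nlinarith [mul_le_mul_of_nonneg_right hκ6 (by linarith : 0 ≤ a)]
  refine ⟨?_, ?_, ?_, ?_⟩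
  · rw [rf_isom H tw2.norm, hn]
  · rw [TA.rf_e0 H h00 h11 h01 tw2, hv0]
  · rw [TA.rf_e1 H h00 h11 h01 tw2]; have := norm_nonneg (h v e1); linarith
  · rw [TA.rf_e1 H h00 h11 h01 tw2, TA.rf_s H h00 h11 h01 tw2]; exact key

/-- start of the recursion -/
theorem Inv.start {Λ : ℝ} {w w2 : V}
    (tw : TA h e0 e1 w) (tw2 : TA h e0 e1 w2) (hww : Λ ≤ ‖h w w2‖) :
    Inv h e0 e1 Λ (rf h w2 (rf h w e1)) w2 := by
  have e : rf h w e1 = e1 - w := by
    rw [rf, TA.e1_w H h00 h11 h01 tw, one_smul]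
  have he10 : h e1 e0 = 0 := H.eq_zero_symm h01
  refine ⟨?_, ?_, ?_, ?_⟩
  · rw [rf_isom H tw2.norm, rf_isom H tw.norm, h11]
  · rw [TA.rf_e0 H h00 h11 h01 tw2, TA.rf_e0 H h00 h11 h01 tw, he10]
  · rw [TA.rf_e1 H h00 h11 h01 tw2, e]
    exact TA.kappa H h00 h11 h01 tw tw2 hww
  · rw [TA.rf_s H h00 h11 h01 tw2, e, TA.s_e1 H h00 h11 h01 tw, norm_zero]; simp

/-- apply the reflections of a list, the head last -/
def vec (h : V → V → ℂ) : List V → V → V
  | [], v => v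
  | w :: l, v => rf h w (vec h l v)

/-- **recursion lemma**: a reduced word of length `≥ 2` in the type A reflections moves `e1` far -/
theorem typeA_word {A : Set V} (hA : ∀ w ∈ A, TA h e0 e1 w) {Λ : ℝ} (hΛ : 7 ≤ Λ)
    (hsep : ∀ w ∈ A, ∀ w' ∈ A, w ≠ w' → Λ ≤ ‖h w w'‖) :
    ∀ (l : List V) (w w' : V), (∀ x ∈ w :: w' :: l, x ∈ A) → (w :: w' :: l).IsChain (· ≠ ·) →
      Inv h e0 e1 Λ (vec h (w :: w' :: l) e1) w := by
  intro l
  induction l with
  | nil =>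
    intro w w' hmem hch
    have hw : w ∈ A := hmem w (by simp)
    have hw' : w' ∈ A := hmem w' (by simp)
    have hne : w ≠ w' := by simpa using hch
    exact Inv.start H h00 h11 h01 (hA _ hw') (hA _ hw) (hsep _ hw' _ hw hne.symm)
  | cons w'' l ih =>
    intro w w' hmem hch
    have hw : w ∈ A := hmem w (by simp)
    have hw' : w' ∈ A := hmem w' (by simp)
    rw [List.isChain_cons_cons] at hch
    have h1 := ih w' w'' (fun x hx => hmem x (List.mem_cons_of_mem _ hx)) hch.2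
    exact Inv.step H h00 h11 h01 hΛ h1 (hA _ hw') (hA _ hw) (hsep _ hw' _ hw hch.1.symm)

/-- **close points**: if `x`, `y` have slope `≤ r` and `x`, `g y` are close then `e1`, `g e1` are
close; `N = g e1`, `z = g y`, `g e0 = e0`. -/
theorem close_bound {x z N : V} {r : ℝ} (hr : 0 ≤ r) (hx : h x x = -1) (hz : h z z = -1)
    (hN : h N N = 1) (hN0 : h N e0 = 0) (hx1 : ‖h x e1‖ ≤ r * ‖h x e0‖)
    (hzN : ‖h z N‖ ≤ r * ‖h z e0‖) (hxz : ‖h x z‖ ≤ 2) :
    ‖h N e1‖ ≤ 9 * (1 + r) ^ 2 := by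
  -- `ξ`, `ζ`: projections to `e0^⊥`
  obtain ⟨ξ, hξ⟩ : ∃ ξ, ξ = x - h x e0 • e0 := ⟨_, rfl⟩
  obtain ⟨ζ, hζ⟩ : ∃ ζ, ζ = z - h z e0 • e0 := ⟨_, rfl⟩
  have nξ : (h ξ ξ).re = -(1 + ‖h x e0‖ ^ 2) := by
    rw [hξ, H.projpos_norm h00, hx]; simp; ring
  have nζ : (h ζ ζ).re = -(1 + ‖h z e0‖ ^ 2) := by
    rw [hζ, H.projpos_norm h00, hz]; simp; ring
  have hMx : 0 < 1 + ‖h x e0‖ ^ 2 := by positivity
  have hMz : 0 < 1 + ‖h z e0‖ ^ 2 := by positivity
  obtain ⟨ξ', hξ', hξe⟩ := H.exists_unit hMx nξ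
  obtain ⟨ζ', hζ', hζe⟩ := H.exists_unit hMz nζ
  have hsx : 0 < √(1 + ‖h x e0‖ ^ 2) := Real.sqrt_pos.2 hMx
  have hsz : 0 < √(1 + ‖h z e0‖ ^ 2) := Real.sqrt_pos.2 hMz
  have hx0le : ‖h x e0‖ ≤ √(1 + ‖h x e0‖ ^ 2) := by
    apply Real.le_sqrt_of_sq_le; linarith
  have hz0le : ‖h z e0‖ ≤ √(1 + ‖h z e0‖ ^ 2) := by
    apply Real.le_sqrt_of_sq_le; linarith
  have sx : ∀ v, ‖h ξ v‖ = √(1 + ‖h x e0‖ ^ 2) * ‖h ξ' v‖ := by
    intro v
    conv_lhs => rw [hξe, H.smul_left, norm_mul, Complex.norm_real, Real.norm_of_nonneg hsx.le]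
  have sz : ∀ v, ‖h ζ v‖ = √(1 + ‖h z e0‖ ^ 2) * ‖h ζ' v‖ := by
    intro v
    conv_lhs => rw [hζe, H.smul_left, norm_mul, Complex.norm_real, Real.norm_of_nonneg hsz.le]
  have he01 : h e0 e1 = 0 := h01
  have ξe1 : ‖h ξ' e1‖ ≤ r := by
    have h1 : h ξ e1 = h x e1 := by rw [hξ, H.sub_left, H.smul_left, h01]; ring
    have h2 := sx e1
    rw [h1] at h2
    have h3 : √(1 + ‖h x e0‖ ^ 2) * ‖h ξ' e1‖ ≤ √(1 + ‖h x e0‖ ^ 2) * r := by
      rw [← h2]
      calc ‖h x e1‖ ≤ r * ‖h x e0‖ := hx1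
        _ ≤ r * √(1 + ‖h x e0‖ ^ 2) := by gcongr
        _ = _ := by ring
    exact le_of_mul_le_mul_left h3 hsx
  have ζN : ‖h ζ' N‖ ≤ r := by
    have h1 : h ζ N = h z N := by rw [hζ, H.sub_left, H.smul_left, H.eq_zero_symm hN0]; ring
    have h2 := sz N
    rw [h1] at h2
    have h3 : √(1 + ‖h z e0‖ ^ 2) * ‖h ζ' N‖ ≤ √(1 + ‖h z e0‖ ^ 2) * r := by
      rw [← h2]
      calc ‖h z N‖ ≤ r * ‖h z e0‖ := hzN
        _ ≤ r * √(1 + ‖h z e0‖ ^ 2) := by gcongr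
        _ = _ := by ring
    exact le_of_mul_le_mul_left h3 hsz
  have ξζ : ‖h ξ' ζ'‖ ≤ 2 := by
    have h1 : h ξ ζ = h x z - h x e0 * h e0 z := by
      have : h ξ e0 = 0 := by rw [hξ]; exact H.projpos_perp h00 x
      rw [hζ, H.sub_right, H.smul_right, this, hξ, H.sub_left, H.smul_left]; ring
    have h2 : ‖h ξ ζ‖ ≤ 2 + ‖h x e0‖ * ‖h z e0‖ := by
      rw [h1]
      refine (norm_sub_le _ _).trans ?_
      rw [norm_mul, H.norm_symm e0 z]
      gcongr
    have h3 : ‖h ξ ζ‖ = √(1 + ‖h x e0‖ ^ 2) * (√(1 + ‖h z e0‖ ^ 2) * ‖h ξ' ζ'‖) := by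
      rw [sx, H.norm_symm ξ' ζ, sz, H.norm_symm ζ' ξ']
    have h4 : 2 + ‖h x e0‖ * ‖h z e0‖ ≤ (√(1 + ‖h x e0‖ ^ 2) * √(1 + ‖h z e0‖ ^ 2)) * 2 := by
      rw [← Real.sqrt_mul hMx.le]
      have : (2 + ‖h x e0‖ * ‖h z e0‖) / 2 ≤ √((1 + ‖h x e0‖ ^ 2) * (1 + ‖h z e0‖ ^ 2)) := by
        apply Real.le_sqrt_of_sq_le
        nlinarith [sq_nonneg (‖h x e0‖ - ‖h z e0‖), sq_nonneg (‖h x e0‖ * ‖h z e0‖),
          norm_nonneg (h x e0), norm_nonneg (h z e0), sq_nonneg (‖h x e0‖ + ‖h z e0‖)]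
      linarith
    have h5 : (√(1 + ‖h x e0‖ ^ 2) * √(1 + ‖h z e0‖ ^ 2)) * ‖h ξ' ζ'‖
        ≤ (√(1 + ‖h x e0‖ ^ 2) * √(1 + ‖h z e0‖ ^ 2)) * 2 := by
      refine le_trans (le_of_eq ?_) ((h3 ▸ h2).trans h4)
      ring
    exact le_of_mul_le_mul_left h5 (by positivity)
  -- bound `‖h N ξ'‖`
  have q1 : ‖h N ξ'‖ ≤ 4 * (1 + r) := by
    have h1 := H.norm_le_unit hζ' N ξ'
    rw [hN, hξ'] at h1
    have h2 : √((1 : ℂ).re + ‖h N ζ'‖ ^ 2) ≤ 1 + r := by
      rw [Real.sqrt_le_left (by linarith), H.norm_symm N ζ', Complex.one_re]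
      nlinarith [norm_nonneg (h ζ' N)]
    have h3 : √((-1 : ℂ).re + ‖h ξ' ζ'‖ ^ 2) ≤ 2 := by
      rw [Real.sqrt_le_left (by norm_num)]
      simp only [Complex.neg_re, Complex.one_re]
      nlinarith [norm_nonneg (h ξ' ζ')]
    have h4 : ‖h N ζ'‖ * ‖h ζ' ξ'‖ ≤ r * 2 := by
      rw [H.norm_symm N ζ', H.norm_symm ζ' ξ']
      gcongr
    have h5 : √((1 : ℂ).re + ‖h N ζ'‖ ^ 2) * √((-1 : ℂ).re + ‖h ξ' ζ'‖ ^ 2) ≤ (1 + r) * 2 := by
      gcongr
    linarith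
  have h1 := H.norm_le_unit hξ' N e1
  rw [hN, h11] at h1
  have h2 : √((1 : ℂ).re + ‖h N ξ'‖ ^ 2) ≤ 1 + 4 * (1 + r) := by
    rw [Real.sqrt_le_left (by linarith), Complex.one_re]
    nlinarith [norm_nonneg (h N ξ')]
  have h3 : √((1 : ℂ).re + ‖h e1 ξ'‖ ^ 2) ≤ 1 + r := by
    rw [Real.sqrt_le_left (by linarith), H.norm_symm e1 ξ', Complex.one_re]
    nlinarith [norm_nonneg (h ξ' e1)]
  have h4 : ‖h N ξ'‖ * ‖h ξ' e1‖ ≤ (4 * (1 + r)) * r := by gcongr
  have h5 : √((1 : ℂ).re + ‖h N ξ'‖ ^ 2) * √((1 : ℂ).re + ‖h e1 ξ'‖ ^ 2)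
      ≤ (1 + 4 * (1 + r)) * (1 + r) := by gcongr
  nlinarith

/-- the chain estimate: `x`, `g y` close, `w = g w'` and `w'` of type B, `x` outside the cap of `w`,
`y` outside the cap of `w'`; then `w` does not separate the start points `o`, `g o'`. -/
theorem chain_bound {x y q q' o o' w w' : V} {g : V → V} (hg : ∀ a b, h (g a) (g b) = h a b)
    (hgw : g w' = w) {C T : ℝ} (hC : 1376 ≤ C) (hT : 0 ≤ T)
    (hx : h x x = -1) (hy : h y y = -1) (hw : h w w = 2) (hw' : h w' w' = 2)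
    (hPw : 2 * C * (2 * T ^ 2 + 1) ≤ P2 h e0 e1 w) (hPw' : 2 * C * (2 * T ^ 2 + 1) ≤ P2 h e0 e1 w')
    (hcx : C * √(P2 h e0 e1 x) ≤ ‖h x w‖ * √(P2 h e0 e1 w))
    (hcy : C * √(P2 h e0 e1 y) ≤ ‖h y w'‖ * √(P2 h e0 e1 w'))
    (hq : h q q = -1) (hq0 : h q e0 = 0) (hq1 : h q e1 = 0) (hqx : ‖h q x‖ = √(1 + P2 h e0 e1 x))
    (hq' : h q' q' = -1) (hq0' : h q' e0 = 0) (hq1' : h q' e1 = 0)
    (hqy : ‖h q' y‖ = √(1 + P2 h e0 e1 y))
    (ho : h o o = -1) (ho0 : h o e0 = 0) (ho1 : h o e1 = 0) (hoq : ‖h o q‖ ≤ 2 * T ^ 2 + 1)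
    (ho' : h o' o' = -1) (ho0' : h o' e0 = 0) (ho1' : h o' e1 = 0)
    (hoq' : ‖h o' q'‖ ≤ 2 * T ^ 2 + 1)
    (hxy : ‖h x (g y)‖ ≤ 2) :
    ‖h o (g o')‖ / (‖h o w‖ * ‖h (g o') w‖) ≤ 1376 / C := by
  have hC0 : 0 < C := by linarith
  have hCP : ∀ v, 2 * C * (2 * T ^ 2 + 1) ≤ P2 h e0 e1 v → C ≤ P2 h e0 e1 v := by
    intro v hv
    have : 0 ≤ C * T ^ 2 := by positivity
    nlinarith
  have hg1 : ∀ a, h (g a) w = h a w' := fun a => by rw [← hgw, hg]
  -- basic lower bounds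
  have key : ∀ (z p a v : V), h z z = -1 → h v v = 2 → 2 * C * (2 * T ^ 2 + 1) ≤ P2 h e0 e1 v →
      C * √(P2 h e0 e1 z) ≤ ‖h z v‖ * √(P2 h e0 e1 v) →
      h p p = -1 → h p e0 = 0 → h p e1 = 0 → ‖h p z‖ = √(1 + P2 h e0 e1 z) →
      h a a = -1 → h a e0 = 0 → h a e1 = 0 → ‖h a p‖ ≤ 2 * T ^ 2 + 1 →
      h z v ≠ 0 ∧ h p v ≠ 0 ∧ h a v ≠ 0 ∧ 1 / ‖h z v‖ ^ 2 ≤ 8 / C ∧ 1 / ‖h p v‖ ^ 2 ≤ 2 / C ∧
        ‖h p z‖ / (‖h p v‖ * ‖h z v‖) ≤ 5 / C ∧ ‖h a p‖ / (‖h a v‖ * ‖h p v‖) ≤ 1 / C := by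
    intro z p a v hz hv hP hcap hp hp0 hp1 hpz ha ha0 ha1 hap
    have hCv := hCP v hP
    have h1 := cap_lower H h00 h11 h01 hz hv (by linarith) hCv hcap
    have h2 := foot_far H h00 h11 h01 hp hp0 hp1 hv
    have h3 := foot_far H h00 h11 h01 ha ha0 ha1 hv
    have h4 := foot_D H h00 h11 h01 hz hv (by linarith) hCv hcap h2 hpz
    have hzv : 0 < ‖h z v‖ := by
      rcases (norm_nonneg (h z v)).eq_or_lt with h0 | h0
      · rw [← h0] at h1; nlinarith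
      · exact h0
    have hpv : 0 < ‖h p v‖ := by
      rcases (norm_nonneg (h p v)).eq_or_lt with h0 | h0
      · rw [← h0] at h2; nlinarith
      · exact h0
    have hav : 0 < ‖h a v‖ := by
      rcases (norm_nonneg (h a v)).eq_or_lt with h0 | h0
      · rw [← h0] at h3; nlinarith
      · exact h0
    refine ⟨norm_pos_iff.1 hzv, norm_pos_iff.1 hpv, norm_pos_iff.1 hav, ?_, ?_, h4, ?_⟩
    · rw [div_le_div_iff₀ (by positivity) hC0]; linarith
    · rw [div_le_div_iff₀ (by positivity) hC0]; linarith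
    · rw [div_le_div_iff₀ (by positivity) hC0]
      have h5 : P2 h e0 e1 v / 2 ≤ ‖h a v‖ * ‖h p v‖ := by
        have h6 : P2 h e0 e1 v / 2 ≤ ‖h a v‖ ^ 2 := by linarith
        have h7 : P2 h e0 e1 v / 2 ≤ ‖h p v‖ ^ 2 := by linarith
        apply le_of_sq_le_sq _ (by positivity)
        rw [mul_pow]
        have h8 : 0 ≤ P2 h e0 e1 v / 2 := by linarith
        calc (P2 h e0 e1 v / 2) ^ 2 = (P2 h e0 e1 v / 2) * (P2 h e0 e1 v / 2) := by ring
          _ ≤ _ := mul_le_mul h6 h7 h8 (by positivity)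
      nlinarith
  obtain ⟨hxw, hqw, how, dx, dq, fx, fo⟩ :=
    key x q o w hx hw hPw hcx hq hq0 hq1 hqx ho ho0 ho1 hoq
  obtain ⟨hyw, hqw', how', dy, dq', fy, fo'⟩ :=
    key y q' o' w' hy hw' hPw' hcy hq' hq0' hq1' hqy ho' ho0' ho1' hoq'
  -- translate the second half
  have hyw2 : h (g y) w ≠ 0 := by rw [hg1]; exact hyw
  have hqw2 : h (g q') w ≠ 0 := by rw [hg1]; exact hqw'
  have how2 : h (g o') w ≠ 0 := by rw [hg1]; exact how'
  have ngy : h (g y) (g y) = -1 := by rw [hg, hy]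
  have ngq : h (g q') (g q') = -1 := by rw [hg, hq']
  have ngo : h (g o') (g o') = -1 := by rw [hg, ho']
  have neg1 : ((-1 : ℂ)).re ≤ 0 := by simp
  -- o -> q -> x
  have s1 : ‖h o x‖ / (‖h o w‖ * ‖h x w‖) ≤ 4 * (3 / C + 7 / C) := by
    refine H.qm hw how hqw hxw (by rw [ho]; exact neg1) (by rw [hx]; exact neg1) hq ?_ ?_ ?_ ?_
    · calc _ ≤ 1 / C + 2 / C := add_le_add fo dq
        _ = 3 / C := by ring
    · calc _ ≤ 5 / C + 2 / C := add_le_add fx dq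
        _ = 7 / C := by ring
    · rw [div_le_one hC0]; linarith
    · rw [div_le_one hC0]; linarith
  -- g y -> g q' -> g o'
  have s2 : ‖h (g y) (g o')‖ / (‖h (g y) w‖ * ‖h (g o') w‖) ≤ 4 * (7 / C + 3 / C) := by
    refine H.qm hw hyw2 hqw2 how2 (by rw [ngy]; exact neg1) (by rw [ngo]; exact neg1) ngq ?_ ?_ ?_ ?_
    · rw [hg, hg1, hg1, H.norm_symm y q', mul_comm ‖h y w'‖]
      calc _ ≤ 5 / C + 2 / C := add_le_add fy dq'
        _ = 7 / C := by ring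
    · rw [hg, hg1, hg1, H.norm_symm q' o', mul_comm ‖h q' w'‖]
      calc _ ≤ 1 / C + 2 / C := add_le_add fo' dq'
        _ = 3 / C := by ring
    · rw [div_le_one hC0]; linarith
    · rw [div_le_one hC0]; linarith
  -- x -> g y
  have s3 : ‖h x (g y)‖ / (‖h x w‖ * ‖h (g y) w‖) ≤ 16 / C := by
    rw [hg1]
    have hxw' : 0 < ‖h x w‖ := norm_pos_iff.2 hxw
    have hyw' : 0 < ‖h y w'‖ := norm_pos_iff.2 hyw
    rw [div_le_div_iff₀ (by positivity) hC0]
    rw [div_le_div_iff₀ (by positivity) hC0] at dx dy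
    have h5 : C / 8 ≤ ‖h x w‖ * ‖h y w'‖ := by
      apply le_of_sq_le_sq _ (by positivity)
      rw [mul_pow]
      have h6 : C / 8 ≤ ‖h x w‖ ^ 2 := by linarith
      have h7 : C / 8 ≤ ‖h y w'‖ ^ 2 := by linarith
      calc (C / 8) ^ 2 = C / 8 * (C / 8) := by ring
        _ ≤ _ := mul_le_mul h6 h7 (by positivity) (by positivity)
    nlinarith
  -- o -> x -> g y
  have s4 : ‖h o (g y)‖ / (‖h o w‖ * ‖h (g y) w‖) ≤ 4 * (48 / C + 24 / C) := by
    refine H.qm hw how hxw hyw2 (by rw [ho]; exact neg1) (by rw [ngy]; exact neg1) hx ?_ ?_ ?_ ?_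
    · calc _ ≤ 4 * (3 / C + 7 / C) + 8 / C := add_le_add s1 dx
        _ = 48 / C := by ring
    · calc _ ≤ 16 / C + 8 / C := add_le_add s3 dx
        _ = 24 / C := by ring
    · rw [div_le_one hC0]; linarith
    · rw [div_le_one hC0]; linarith
  -- o -> g y -> g o'
  have s5 : ‖h o (g o')‖ / (‖h o w‖ * ‖h (g o') w‖) ≤ 4 * (296 / C + 48 / C) := by
    refine H.qm hw how hyw2 how2 (by rw [ho]; exact neg1) (by rw [ngo]; exact neg1) ngy ?_ ?_ ?_ ?_
    · calc _ ≤ 4 * (48 / C + 24 / C) + 8 / C := add_le_add s4 (by rw [hg1]; exact dy)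
        _ = 296 / C := by ring
    · calc _ ≤ 4 * (7 / C + 3 / C) + 8 / C := add_le_add s2 (by rw [hg1]; exact dy)
        _ = 48 / C := by ring
    · rw [div_le_one hC0]; linarith
    · rw [div_le_one hC0]; linarith
  calc _ ≤ _ := s5
    _ = 1376 / C := by ring

end TypeA

/-! ## Reduced words -/

/-- every element of the group generated by involutions `ρ w`, `w ∈ A`, is a reduced product -/
theorem exists_reduced {Γ V : Type*} [Group Γ] (ρ : V → Γ) (A : Set V)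
    (hinv : ∀ w ∈ A, ρ w * ρ w = 1) {g : Γ} (hg : g ∈ Subgroup.closure (ρ '' A)) :
    ∃ l : List V, (∀ w ∈ l, w ∈ A) ∧ l.IsChain (· ≠ ·) ∧ (l.map ρ).prod = g := by
  classical
  have step : ∀ w ∈ A, ∀ y : Γ,
      (∃ l : List V, (∀ w ∈ l, w ∈ A) ∧ l.IsChain (· ≠ ·) ∧ (l.map ρ).prod = y) →
      ∃ l : List V, (∀ w ∈ l, w ∈ A) ∧ l.IsChain (· ≠ ·) ∧ (l.map ρ).prod = ρ w * y := by
    rintro w hw y ⟨l, hl, hc, rfl⟩
    cases l with
    | nil => exact ⟨[w], by simpa using hw, by simp, by simp⟩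
    | cons v l =>
      by_cases hvw : v = w
      · subst hvw
        refine ⟨l, fun x hx => hl x (List.mem_cons_of_mem _ hx), ?_, ?_⟩
        · exact hc.tail
        · rw [List.map_cons, List.prod_cons, ← mul_assoc, hinv v hw, one_mul]
      · refine ⟨w :: v :: l, ?_, ?_, ?_⟩
        · intro x hx
          rcases List.mem_cons.1 hx with rfl | hx
          · exact hw
          · exact hl x hx
        · rw [List.isChain_cons_cons]
          exact ⟨fun h => hvw h.symm, hc⟩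
        · simp
  induction hg using Subgroup.closure_induction_left with
  | one => exact ⟨[], by simp, by simp, by simp⟩
  | mul_left x hx y hy ih =>
    obtain ⟨w, hw, rfl⟩ := hx
    exact step w hw y ih
  | inv_mul_cancel x hx y hy ih =>
    obtain ⟨w, hw, rfl⟩ := hx
    have : (ρ w)⁻¹ = ρ w := by
      rw [inv_eq_iff_mul_eq_one]; exact hinv w hw
    rw [this]
    exact step w hw y ih

/-! ## The separation theorem (PP+) -/

section PP

variable {V : Type*} [AddCommGroup V] [Module ℂ V] {h : V → V → ℂ}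

/-- points of the set `O`: slope `≤ r` and outside the `f1`-caps of all type B mirrors -/
structure Good (h : V → V → ℂ) (e0 e1 : V) (W : Set V) (r C Λ : ℝ) (x : V) : Prop where
  norm : h x x = -1
  slope : ‖h x e1‖ ≤ r * ‖h x e0‖
  cap : ∀ w ∈ W, Λ ^ 2 ≤ P2 h e0 e1 w → C * √(P2 h e0 e1 x) ≤ ‖h x w‖ * √(P2 h e0 e1 w)

/-- start points: points of `f1` far from the vertices -/
structure Start (h : V → V → ℂ) (e0 e1 : V) (W : Set V) (T : ℝ) (o : V) : Prop where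
  norm : h o o = -1
  o0 : h o e0 = 0
  o1 : h o e1 = 0
  far : ∀ w ∈ W, TA h e0 e1 w → T ≤ ‖h o w‖

variable (H : HF h) {e0 e1 : V} (h00 : h e0 e0 = 1) (h11 : h e1 e1 = 1) (h01 : h e0 e1 = 0)
include H h00 h11 h01

/-- a reduced word of length `≥ 2` in the type A reflections separates good points -/
theorem typeA_sep {W : Set V} {r C Λ : ℝ} (hr : 0 ≤ r) (hΛ : 7 ≤ Λ)
    (hΛr : 9 * (1 + r) ^ 2 < Λ - 1)
    (hsep : ∀ w ∈ W, ∀ w' ∈ W, (∃ u : ℂ, w' = u • w) ∨ Λ ≤ ‖h w w'‖)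
    {x y : V} (hx : Good h e0 e1 W r C Λ x) (hy : Good h e0 e1 W r C Λ y)
    {l : List V} {w w' : V} (hmem : ∀ v ∈ w :: w' :: l, v ∈ W ∧ TA h e0 e1 v)
    (hch : (w :: w' :: l).IsChain (· ≠ ·)) (hxy : ‖h x (vec h (w :: w' :: l) y)‖ ≤ 2) : False := by
  set A : Set V := {v | v ∈ W ∧ TA h e0 e1 v} with hA
  have hsepA : ∀ w ∈ A, ∀ w' ∈ A, w ≠ w' → Λ ≤ ‖h w w'‖ := by
    rintro w ⟨hw, tw⟩ w' ⟨hw', tw'⟩ hne
    rcases hsep w hw w' hw' with ⟨u, h1⟩ | h1
    · exfalso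
      have h2 := tw'.w1
      rw [h1, H.smul_left, tw.w1, mul_one] at h2
      rw [h2, one_smul] at h1
      exact hne h1.symm
    · exact h1
  have hInv := typeA_word H h00 h11 h01 (A := A) (fun w hw => hw.2) hΛ hsepA l w w'
    (fun v hv => hmem v hv) hch
  -- the word is an isometry fixing `e0`
  have iso : ∀ l' : List V, (∀ v ∈ l', v ∈ W ∧ TA h e0 e1 v) → ∀ a b,
      h (vec h l' a) (vec h l' b) = h a b := by
    intro l'
    induction l' with
    | nil => intro _ a b; rfl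
    | cons v l' ih =>
      intro hm a b
      rw [vec, vec, rf_isom H (hm v (by simp)).2.norm]
      exact ih (fun u hu => hm u (List.mem_cons_of_mem _ hu)) a b
  have fix : ∀ l' : List V, (∀ v ∈ l', v ∈ W ∧ TA h e0 e1 v) → ∀ a,
      h (vec h l' a) e0 = h a e0 := by
    intro l'
    induction l' with
    | nil => intro _ a; rfl
    | cons v l' ih =>
      intro hm a
      rw [vec, TA.rf_e0 H h00 h11 h01 (hm v (by simp)).2]
      exact ih (fun u hu => hm u (List.mem_cons_of_mem _ hu)) a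
  have hb := close_bound H h00 h11 h01 (x := x) (z := vec h (w :: w' :: l) y)
    (N := vec h (w :: w' :: l) e1) hr hx.norm
    (by rw [iso _ hmem, hy.norm]) hInv.norm hInv.v0 hx.slope
    (by rw [iso _ hmem, fix _ hmem]; exact hy.slope) hxy
  have := hInv.big
  linarith

/-- **(PP+)**: separation of the set of good points by the group of the mirrors. -/
theorem pp {Γ : Type*} [Group Γ] [MulAction Γ V] {W : Set V} {r C Λ T c : ℝ} {ρ : V → Γ}
    (hiso : ∀ (g : Γ) (a b : V), h (g • a) (g • b) = h a b)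
    (hρ : ∀ w ∈ W, ∀ x, ρ w • x = x - h x w • w)
    (hρ2 : ∀ w ∈ W, ρ w * ρ w = 1)
    (hW2 : ∀ w ∈ W, h w w = 2)
    (hsep : ∀ w ∈ W, ∀ w' ∈ W, (∃ u : ℂ, w' = u • w) ∨ Λ ≤ ‖h w w'‖)
    (hr : 0 ≤ r) (hT : 0 ≤ T) (hc : 0 < c) (hc1 : c ≤ 1) (hC : 1376 / c < C)
    (hΛ : 7 ≤ Λ) (hΛr : 9 * (1 + r) ^ 2 < Λ - 1) (hΛT : 2 * T ^ 2 + 2 ≤ Λ)
    (hΛC : 2 * C * (2 * T ^ 2 + 1) ≤ Λ ^ 2)
    {g : Γ}
    (GR : g ∉ Subgroup.closure (ρ '' {w | w ∈ W ∧ TA h e0 e1 w}) →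
      ∀ o o', Start h e0 e1 W T o → Start h e0 e1 W T o' →
      ∃ w ∈ W, Λ ^ 2 ≤ P2 h e0 e1 w ∧ g⁻¹ • w ∈ W ∧ Λ ^ 2 ≤ P2 h e0 e1 (g⁻¹ • w) ∧
        c * (‖h o w‖ * ‖h w (g • o')‖) ≤ ‖h o (g • o')‖)
    {x y : V} (hx : Good h e0 e1 W r C Λ x) (hy : Good h e0 e1 W r C Λ y)
    (hxy : ‖h x (g • y)‖ ≤ 2) :
    g = 1 ∨ ∃ w ∈ W, TA h e0 e1 w ∧ g = ρ w := by
  have hC1 : 1376 ≤ C := by
    have : 1376 ≤ 1376 / c := by
      rw [le_div_iff₀ hc]; nlinarith
    linarith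
  have hC0 : 0 < C := by linarith
  set A : Set V := {w | w ∈ W ∧ TA h e0 e1 w} with hA
  by_cases hgA : g ∈ Subgroup.closure (ρ '' A)
  · obtain ⟨l, hl, hch, rfl⟩ := exists_reduced ρ A (fun w hw => hρ2 w hw.1) hgA
    match l, hl, hch with
    | [], _, _ => left; simp
    | [w], hl, _ =>
      right
      have hw := hl w (by simp)
      exact ⟨w, hw.1, hw.2, by simp⟩
    | w :: w' :: l, hl, hch =>
      exfalso
      have hvec : ∀ l' : List V, (∀ v ∈ l', v ∈ A) → ∀ a, (l'.map ρ).prod • a = vec h l' a := by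
        intro l'
        induction l' with
        | nil => intro _ a; simp [vec]
        | cons v l' ih =>
          intro hm a
          rw [List.map_cons, List.prod_cons, mul_smul,
            ih (fun u hu => hm u (List.mem_cons_of_mem _ hu)), hρ v (hm v (by simp)).1]
          rfl
      rw [hvec _ hl] at hxy
      exact typeA_sep H h00 h11 h01 hr hΛ hΛr hsep hx hy hl hch hxy
  · exfalso
    have hsepA : ∀ w ∈ A, ∀ w' ∈ A, w ≠ w' → Λ ≤ ‖h w w'‖ := by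
      rintro w ⟨hw, tw⟩ w' ⟨hw', tw'⟩ hne
      rcases hsep w hw w' hw' with ⟨u, h1⟩ | h1
      · exfalso
        have h2 := tw'.w1
        rw [h1, H.smul_left, tw.w1, mul_one] at h2
        rw [h2, one_smul] at h1
        exact hne h1.symm
      · exact h1
    obtain ⟨q, hq, hq0, hq1, hqx, -⟩ := exists_foot H h00 h11 h01 hx.norm
    obtain ⟨q', hq', hq0', hq1', hqy, -⟩ := exists_foot H h00 h11 h01 hy.norm
    obtain ⟨o, ho, ho0, ho1, hoA, hoq⟩ :=
      exists_start H h00 h11 h01 (A := A) (fun w hw => hw.2) hT hsepA hΛT hq hq0 hq1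
    obtain ⟨o', ho', ho0', ho1', hoA', hoq'⟩ :=
      exists_start H h00 h11 h01 (A := A) (fun w hw => hw.2) hT hsepA hΛT hq' hq0' hq1'
    obtain ⟨w, hw, hPw, hw', hPw', hgr⟩ := GR hgA o o' ⟨ho, ho0, ho1, fun w hw tw => hoA w ⟨hw, tw⟩⟩
      ⟨ho', ho0', ho1', fun w hw tw => hoA' w ⟨hw, tw⟩⟩
    have hgw : g • (g⁻¹ • w) = w := smul_inv_smul g w
    have hb := chain_bound H h00 h11 h01 (g := fun a => g • a) (w := w) (w' := g⁻¹ • w)
      (fun a b => hiso g a b) hgw hC1 hT hx.norm hy.norm (hW2 w hw) (hW2 _ hw')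
      (hΛC.trans hPw) (hΛC.trans hPw') (hx.cap w hw hPw) (hy.cap _ hw' hPw')
      hq hq0 hq1 hqx hq' hq0' hq1' hqy ho ho0 ho1 hoq ho' ho0' ho1' hoq' hxy
    have how : 0 < ‖h o w‖ := by
      have h3 := foot_far H h00 h11 h01 ho ho0 ho1 (hW2 w hw)
      rcases (norm_nonneg (h o w)).eq_or_lt with h0 | h0
      · exfalso
        rw [← h0] at h3; nlinarith
      · exact h0
    have how' : 0 < ‖h (g • o') w‖ := by
      have e : h (g • o') w = h o' (g⁻¹ • w) := by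
        rw [← hiso g o' (g⁻¹ • w), hgw]
      rw [e]
      have h3 := foot_far H h00 h11 h01 ho' ho0' ho1' (hW2 _ hw')
      rcases (norm_nonneg (h o' (g⁻¹ • w))).eq_or_lt with h0 | h0
      · exfalso
        rw [← h0] at h3; nlinarith
      · exact h0
    rw [H.norm_symm w (g • o')] at hgr
    have h5 : c ≤ ‖h o (g • o')‖ / (‖h o w‖ * ‖h (g • o') w‖) := by
      rw [le_div_iff₀ (by positivity)]; exact hgr
    have h6 : c ≤ 1376 / C := h5.trans hb
    rw [div_lt_iff₀ hc] at hC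
    rw [le_div_iff₀ hC0] at h6
    linarith

end PP

end Crest.Agent.R272.LbPP_990
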