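import Mathlib

/-!
# LB-PER (1): periodisation of a compactly varying function under a group with separated translates

`Y` a topological space with a continuous action of a (discrete) group `G`, `th : Y → M` continuous with
values in a commutative topological group (for us `M = ℝ/ℤ`), zero off the preimage of a set `O`
whose translates are locally finite (separated).  Then `per th y = ∑ᶠ g, th (g⁻¹ • y)` is
continuous and invariant.
-/

set_option linter.unusedSectionVars false

open Set Topology Filter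

noncomputable section

namespace Crest.Agent.R272.Per_939

variable {G Y M : Type*} [Group G] [TopologicalSpace Y] [MulAction G Y]
  [TopologicalSpace M] [AddCommGroup M] [IsTopologicalAddGroup M]

/-- The periodisation. -/
def per (G : Type*) {Y M : Type*} [Group G] [MulAction G Y] [AddCommGroup M] (th : Y → M) (y : Y) :
    M := ∑ᶠ g : G, th (g⁻¹ • y)

/-- invariance of the periodisation (no hypothesis at all). -/
theorem per_smul (th : Y → M) (h : G) (y : Y) : per G th (h • y) = per G th y := by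
  unfold per
  have e : (fun g : G => th (g⁻¹ • h • y)) = (fun g : G => (fun k : G => th (k⁻¹ • y)) (h⁻¹ * g)) := by
    funext g
    simp [mul_smul]
  rw [e]
  exact finsum_comp_equiv (Equiv.mulLeft h⁻¹) (f := fun k : G => th (k⁻¹ • y))

/-- local finiteness of the translates of `O`. -/
def LocFin (G : Type*) {Y : Type*} [Group G] [TopologicalSpace Y] [MulAction G Y] (O : Set Y) :
    Prop :=
  ∀ y : Y, ∃ N ∈ 𝓝 y, {g : G | ∃ x ∈ O, g • x ∈ N}.Finite

/-- the form `g • W ∩ O ≠ ∅` for at most one `g`. -/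
theorem LocFin.of_sep' {O : Set Y} (h : ∀ y : Y, ∃ W ∈ 𝓝 y, ∀ g g' : G,
    (∃ w ∈ W, g • w ∈ O) → (∃ w ∈ W, g' • w ∈ O) → g = g') : LocFin G O := by
  intro y
  obtain ⟨W, hW, h1⟩ := h y
  refine ⟨W, hW, Set.Subsingleton.finite ?_⟩
  rintro g ⟨x, hx, hgx⟩ g' ⟨x', hx', hgx'⟩
  have h2 := h1 g⁻¹ g'⁻¹ ⟨_, hgx, by simpa using hx⟩ ⟨_, hgx', by simpa using hx'⟩
  exact inv_injective h2

theorem locallyFinite_of_locFin {O : Set Y} (hO : LocFin G O) {th : Y → M}
    (h0 : ∀ y, th y ≠ 0 → y ∈ O) :
    LocallyFinite (fun g : G => Function.support fun y => th (g⁻¹ • y)) := by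
  intro y
  obtain ⟨N, hN, hf⟩ := hO y
  refine ⟨N, hN, hf.subset ?_⟩
  rintro g ⟨x, hx, hxN⟩
  refine ⟨g⁻¹ • x, h0 _ hx, by simpa using hxN⟩

/-- **(P1)** continuity of the periodisation. -/
theorem continuous_per [ContinuousConstSMul G Y] {O : Set Y} (hO : LocFin G O) {th : Y → M}
    (hc : Continuous th) (h0 : ∀ y, th y ≠ 0 → y ∈ O) : Continuous (per G th) := by
  unfold per
  exact continuous_finsum (fun g => hc.comp (continuous_const_smul _))
    (locallyFinite_of_locFin hO h0)

/-- If the translates of `O` are pairwise disjoint, the value on `g • O` is the value of one term. -/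
theorem per_eq_of_mem {O : Set Y} (hd : ∀ g : G, ∀ x ∈ O, g • x ∈ O → g = 1) {th : Y → M}
    (h0 : ∀ y, th y ≠ 0 → y ∈ O) {g : G} {y : Y} (hy : g⁻¹ • y ∈ O) :
    per G th y = th (g⁻¹ • y) := by
  unfold per
  refine finsum_eq_single _ g ?_
  intro k hk
  by_contra hne
  have h1 := h0 _ hne
  have h2 : (k⁻¹ * g) • (g⁻¹ • y) ∈ O := by simpa [mul_smul] using h1
  have h3 := hd _ _ hy h2
  exact hk (inv_mul_eq_one.mp h3)

theorem per_eq_self {O : Set Y} (hd : ∀ g : G, ∀ x ∈ O, g • x ∈ O → g = 1) {th : Y → M}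
    (h0 : ∀ y, th y ≠ 0 → y ∈ O) {y : Y} (hy : y ∈ O) : per G th y = th y := by
  have := per_eq_of_mem (g := (1 : G)) hd h0 (y := y) (by simpa using hy)
  simpa using this

theorem per_eq_zero {O : Set Y} {th : Y → M} (h0 : ∀ y, th y ≠ 0 → y ∈ O) {y : Y}
    (hy : ∀ g : G, g • y ∉ O) : per G th y = 0 := by
  unfold per
  refine finsum_eq_zero_of_forall_eq_zero fun g => ?_
  by_contra hne
  exact hy _ (h0 _ hne)

/-- more flexible: `y` in no translate except possibly the trivial one. -/
theorem per_eq_self' {O : Set Y} {th : Y → M} (h0 : ∀ y, th y ≠ 0 → y ∈ O) {y : Y}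
    (hy : ∀ g : G, g ≠ 1 → g • y ∉ O) : per G th y = th y := by
  unfold per
  rw [finsum_eq_single _ (1 : G)]
  · simp
  · intro k hk
    by_contra hne
    exact hy k⁻¹ (by simpa using hk) (h0 _ hne)

section Separated

variable {B : Type*} [TopologicalSpace B] [MulAction G B]

/-- separation of the translates of `O'` in the base: every point has a neighbourhood meeting at
most one translate. -/
def Sep (G : Type*) {B : Type*} [Group G] [TopologicalSpace B] [MulAction G B] (O' : Set B) : Prop :=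
  ∀ b : B, ∃ N ∈ 𝓝 b, ∀ g g' : G, ∀ x ∈ O', ∀ y ∈ O', g • x ∈ N → g' • y ∈ N → g = g'

theorem Sep.locFin {O' : Set B} (h : Sep G O') {q : Y → B} (hq : Continuous q)
    (he : ∀ (g : G) y, q (g • y) = g • q y) : LocFin G (q ⁻¹' O') := by
  intro y
  obtain ⟨N, hN, hs⟩ := h (q y)
  refine ⟨q ⁻¹' N, hq.continuousAt hN, Set.Subsingleton.finite ?_⟩
  rintro g ⟨x, hx, hgx⟩ g' ⟨x', hx', hgx'⟩
  refine hs g g' (q x) hx (q x') hx' ?_ ?_
  · simpa [he] using hgx
  · simpa [he] using hgx'

theorem Sep.disj {O' : Set B} (h : Sep G O') {q : Y → B}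
    (he : ∀ (g : G) y, q (g • y) = g • q y) :
    ∀ g : G, ∀ x ∈ q ⁻¹' O', g • x ∈ q ⁻¹' O' → g = 1 := by
  intro g x hx hgx
  obtain ⟨N, hN, hs⟩ := h (g • q x)
  have hm : g • q x ∈ N := mem_of_mem_nhds hN
  have h1 : (1 : G) • q (g • x) ∈ N := by simpa [he] using hm
  exact hs g 1 (q x) hx (q (g • x)) hgx hm h1

/-- separation from a uniform "distance" estimate `(PP+)`: `D : B → B → ℝ` (for instance the
hyperbolic distance), invariant, with the triangle inequality, small near the diagonal. -/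
theorem sep_of_dist {O' : Set B} (D : B → B → ℝ) (hsymm : ∀ x y, D x y = D y x)
    (htri : ∀ x y z, D x z ≤ D x y + D y z)
    (hinv : ∀ (g : G) x y, D (g • x) (g • y) = D x y)
    (hnhds : ∀ b, {x | D b x < 1 / 2} ∈ 𝓝 b)
    (hpp : ∀ g : G, ∀ x ∈ O', ∀ y ∈ O', D x (g • y) ≤ 1 → g = 1) : Sep G O' := by
  intro b
  refine ⟨_, hnhds b, ?_⟩
  intro g g' x hx y hy hgx hgy
  have h1 : D (g • x) (g' • y) ≤ 1 := by
    have := htri (g • x) b (g' • y)
    have h2 : D (g • x) b < 1 / 2 := by rw [hsymm]; exact hgx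
    have h3 : D b (g' • y) < 1 / 2 := hgy
    linarith
  have h2 : D x ((g⁻¹ * g') • y) ≤ 1 := by
    have := hinv g⁻¹ (g • x) (g' • y)
    rw [inv_smul_smul, ← mul_smul] at this
    rw [this]; exact h1
  have h3 := hpp _ x hx y hy h2
  exact inv_mul_eq_one.mp h3

/-- metric corollary: isometric action on a pseudo metric space and `(PP+)`. -/
theorem sep_of_isometric {B : Type*} [PseudoMetricSpace B] [MulAction G B] {O' : Set B}
    (hinv : ∀ (g : G) (x y : B), dist (g • x) (g • y) = dist x y)
    (hpp : ∀ g : G, ∀ x ∈ O', ∀ y ∈ O', dist x (g • y) ≤ 1 → g = 1) : Sep G O' :=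
  sep_of_dist (fun x y => dist x y) dist_comm dist_triangle hinv
    (fun b => by
      have : {x | dist b x < 1 / 2} = Metric.ball b (1 / 2) := by
        ext x; simp [dist_comm]
      rw [this]; exact Metric.ball_mem_nhds _ (by norm_num)) hpp

/-- **(P1) assembled**: separated translates in the base. -/
theorem continuous_per_of_sep [ContinuousConstSMul G Y] {O' : Set B} (h : Sep G O') {q : Y → B}
    (hq : Continuous q) (he : ∀ (g : G) y, q (g • y) = g • q y) {th : Y → M}
    (hc : Continuous th) (h0 : ∀ y, th y ≠ 0 → q y ∈ O') : Continuous (per G th) :=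
  continuous_per (h.locFin hq he) hc h0

theorem per_eq_self_of_sep {O' : Set B} (h : Sep G O') {q : Y → B}
    (he : ∀ (g : G) y, q (g • y) = g • q y) {th : Y → M}
    (h0 : ∀ y, th y ≠ 0 → q y ∈ O') {y : Y} (hy : q y ∈ O') : per G th y = th y :=
  per_eq_self (h.disj he) h0 hy

end Separated

end Crest.Agent.R272.Per_939
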