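import Crest.Agent.R272.EBase_641
import Crest.Agent.R272.Per1_939
import Crest.Agent.R272.LbPP_990

/-!
# Row 272, leaf LB-SEP (helper990): the collar translates are separated, in the language of EBase_641

`xx z` is the unit negative vector over the point `z` of the ball, `refl w : UG n` the reflection in a
vector of norm `2`.  `HF hh` (`hF`).  From the separation statement (PP+) in the form
`‖hh (xx x) (g (xx y))‖ ≤ 2 → g = 1` we get local finiteness and disjointness of the translates of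
`q ⁻¹' O` on every space `Y` with an equivariant continuous map `q` to the ball.
-/

set_option autoImplicit false

open scoped ComplexConjugate Topology
open Crest.Agent.R272.EBase_641 Crest.Agent.R272.LbPP_990

namespace Crest.Agent.R272.LbSep_990

noncomputable section

variable {n : ℕ}

/-- the form of `EBase_641` has signature `(n,1)` -/
theorem hF : HF (hh (n := n)) where
  add_left := fun x y z => hh_add_left x y z
  smul_left := fun c x y => hh_smul_left c x y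
  symm := fun x y => hh_conj x y
  sig := by
    intro b v hb hv
    rw [hh_self, Complex.ofReal_re] at hb
    rw [hh_self, Complex.ofReal_re]
    have h1 : inner ℂ b.1 v.1 = v.2 * conj b.2 := by
      have : hh v b = 0 := hv
      rw [hh] at this
      exact sub_eq_zero.1 this
    have h2 : ‖v.2‖ * ‖b.2‖ ≤ ‖b.1‖ * ‖v.1‖ := by
      have := norm_inner_le_norm (𝕜 := ℂ) b.1 v.1
      rw [h1, norm_mul, Complex.norm_conj] at this
      exact this
    have h3 : ‖b.1‖ < ‖b.2‖ := by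
      have : ‖b.1‖ ^ 2 < ‖b.2‖ ^ 2 := by linarith
      exact lt_of_pow_lt_pow_left₀ 2 (norm_nonneg _) this
    have hb2 : 0 < ‖b.2‖ := lt_of_le_of_lt (norm_nonneg _) h3
    have h4 : ‖v.2‖ * ‖b.2‖ ≤ ‖v.1‖ * ‖b.2‖ := by
      calc ‖v.2‖ * ‖b.2‖ ≤ ‖b.1‖ * ‖v.1‖ := h2
        _ ≤ ‖b.2‖ * ‖v.1‖ := by gcongr
        _ = _ := by ring
    have h5 : ‖v.2‖ ≤ ‖v.1‖ := le_of_mul_le_mul_right h4 hb2
    have h6 : ‖v.2‖ ^ 2 ≤ ‖v.1‖ ^ 2 := by gcongr
    linarith

/-- the unit negative vector over `z` -/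
def xx (z : E n) : V1 n := ((1 / √(1 - ‖z‖ ^ 2) : ℝ) : ℂ) • ((z, 1) : V1 n)

theorem one_sub_pos {z : E n} (hz : z ∈ Ball n) : 0 < 1 - ‖z‖ ^ 2 := by
  have h1 : ‖z‖ < 1 := mem_Ball.1 hz
  nlinarith [norm_nonneg z]

theorem xx_self {z : E n} (hz : z ∈ Ball n) : hh (xx z) (xx z) = -1 := by
  have h1 := one_sub_pos hz
  have hs : √(1 - ‖z‖ ^ 2) ^ 2 = 1 - ‖z‖ ^ 2 := Real.sq_sqrt h1.le
  have hs0 : 0 < √(1 - ‖z‖ ^ 2) := Real.sqrt_pos.2 h1
  rw [xx, hh_smul_left, hh_smul_right, hh_self, Complex.conj_ofReal, ← Complex.ofReal_mul,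
    ← Complex.ofReal_mul]
  have : 1 / √(1 - ‖z‖ ^ 2) * (1 / √(1 - ‖z‖ ^ 2) * (‖((z, 1) : V1 n).1‖ ^ 2
      - ‖((z, 1) : V1 n).2‖ ^ 2)) = -1 := by
    simp only [norm_one]
    field_simp
    rw [hs]; ring
  rw [this]; simp

/-- pairings with a unit lift are those with `lin` -/
theorem norm_xx {z : E n} (v : V1 n) :
    ‖hh (xx z) v‖ = 1 / √(1 - ‖z‖ ^ 2) * ‖lin v z‖ := by
  rw [xx, hh_smul_left, norm_mul, Complex.norm_real, lin_eq_hh,
    Real.norm_of_nonneg (by positivity)]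

/-- `g (xx w)` and `xx (g w)` differ by a unit scalar -/
theorem xx_act (g : UG n) {w : E n} (hw : w ∈ Ball n) :
    ∃ u : ℂ, ‖u‖ = 1 ∧ g.1 (xx w) = u • xx (act g w) := by
  have hj := jj_ne_zero g hw
  have hj' : 0 < ‖jj g w‖ := by simpa using hj
  have h1 := one_sub_pos hw
  have h2 := one_sub_norm_act g hw
  have e : √(1 - ‖act g w‖ ^ 2) = √(1 - ‖w‖ ^ 2) / ‖jj g w‖ := by
    rw [h2, Real.sqrt_div h1.le, Real.sqrt_sq hj'.le]
  have hs0 : 0 < √(1 - ‖w‖ ^ 2) := Real.sqrt_pos.2 h1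
  refine ⟨jj g w / (‖jj g w‖ : ℂ), ?_, ?_⟩
  · rw [norm_div, Complex.norm_real, norm_norm, div_self hj'.ne']
  · rw [xx, xx, map_smul, apply_eq g hw, smul_smul, smul_smul, e]
    congr 1
    have h3 : (‖jj g w‖ : ℂ) ≠ 0 := by exact_mod_cast hj'.ne'
    have h4 : ((√(1 - ‖w‖ ^ 2) : ℝ) : ℂ) ≠ 0 := by exact_mod_cast hs0.ne'
    push_cast
    field_simp

theorem norm_hh_xx_act (g : UG n) (v : V1 n) {w : E n} (hw : w ∈ Ball n) :
    ‖hh (xx (act g w)) v‖ = ‖hh (g.1 (xx w)) v‖ := by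
  obtain ⟨u, hu, e⟩ := xx_act g hw
  rw [e, hh_smul_left, norm_mul, hu, one_mul]

/-- closeness function -/
def cl (z w : E n) : ℝ := ‖hh (xx z) (xx w)‖

theorem cl_act_act (g g' : UG n) {z w : E n} (hz : z ∈ Ball n) (hw : w ∈ Ball n) :
    cl (act g z) (act g' w) = ‖hh (xx z) ((g⁻¹ * g').1 (xx w))‖ := by
  obtain ⟨u, hu, e⟩ := xx_act g hz
  obtain ⟨u', hu', e'⟩ := xx_act g' hw
  have h1 : ‖hh (g.1 (xx z)) (g'.1 (xx w))‖ = cl (act g z) (act g' w) := by
    rw [e, e', hh_smul_left, hh_smul_right, norm_mul, norm_mul, Complex.norm_conj, hu, hu', cl]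
    ring
  have h2 : g'.1 (xx w) = g.1 ((g⁻¹ * g').1 (xx w)) := by
    have : g' = g * (g⁻¹ * g') := by group
    conv_lhs => rw [this]
    rfl
  rw [← h1, h2, UG_hh]

theorem cl_eq {z w : E n} : cl z w = 1 / √(1 - ‖z‖ ^ 2) * (1 / √(1 - ‖w‖ ^ 2))
    * ‖hh ((z, 1) : V1 n) ((w, 1) : V1 n)‖ := by
  rw [cl, xx, xx, hh_smul_left, hh_smul_right, norm_mul, norm_mul, Complex.norm_conj,
    Complex.norm_real, Complex.norm_real, Real.norm_of_nonneg (by positivity),
    Real.norm_of_nonneg (by positivity)]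
  ring

theorem cl_self {z : E n} (hz : z ∈ Ball n) : cl z z = 1 := by
  rw [cl, xx_self hz]; simp

theorem continuousAt_cl {b : E n} (hb : b ∈ Ball n) :
    ContinuousAt (fun p : E n × E n => cl p.1 p.2) (b, b) := by
  have h1 := one_sub_pos hb
  have h2 : √(1 - ‖b‖ ^ 2) ≠ 0 := (Real.sqrt_pos.2 h1).ne'
  have e : (fun p : E n × E n => cl p.1 p.2) = fun p : E n × E n =>
      1 / √(1 - ‖p.1‖ ^ 2) * (1 / √(1 - ‖p.2‖ ^ 2)) * ‖inner ℂ p.2 p.1 - 1‖ := by
    funext p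
    rw [cl_eq]
    simp [hh]
  rw [e]
  refine ContinuousAt.mul (ContinuousAt.mul ?_ ?_) ?_
  · refine ContinuousAt.div (by fun_prop) ?_ h2
    exact (Real.continuous_sqrt.continuousAt).comp (by fun_prop)
  · refine ContinuousAt.div (by fun_prop) ?_ h2
    exact (Real.continuous_sqrt.continuousAt).comp (by fun_prop)
  · refine ContinuousAt.norm (ContinuousAt.sub ?_ continuousAt_const)
    exact ContinuousAt.inner (𝕜 := ℂ) continuousAt_snd continuousAt_fst

/-- neighbourhoods of pairwise close points -/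
theorem exists_close_nhds {b : E n} (hb : b ∈ Ball n) :
    ∃ N ∈ 𝓝 b, ∀ z ∈ N, ∀ w ∈ N, cl z w ≤ 2 := by
  have h := (continuousAt_cl hb).eventually_lt_const (u := 2) (by
    show cl b b < 2
    rw [cl_self hb]; norm_num)
  rw [nhds_prod_eq] at h
  obtain ⟨N, hN, hN2⟩ := (Filter.eventually_prod_self_iff (r := fun z w => cl z w < 2)).1 h
  exact ⟨N, hN, fun z hz w hw => (hN2 z hz w hw).le⟩

/-- **local finiteness and disjointness of the collar translates** on a space over the ball. -/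
theorem locFin_of_sep {Y G : Type*} [TopologicalSpace Y] [Group G] [MulAction G Y]
    (φ : G →* UG n) (q : Y → E n) (hq : Continuous q) (hmem : ∀ y, q y ∈ Ball n)
    (heq : ∀ (g : G) y, q (g • y) = act (φ g) (q y)) {O : Set (E n)}
    (hpp : ∀ g : G, ∀ x ∈ O, ∀ y ∈ O, x ∈ Ball n → y ∈ Ball n →
      ‖hh (xx x) ((φ g).1 (xx y))‖ ≤ 2 → g = 1) :
    Per_939.LocFin G (q ⁻¹' O) ∧ ∀ g : G, ∀ x ∈ q ⁻¹' O, g • x ∈ q ⁻¹' O → g = 1 := by
  constructor
  · intro y
    obtain ⟨N, hN, hN2⟩ := exists_close_nhds (hmem y)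
    refine ⟨q ⁻¹' N, hq.continuousAt hN, Set.Subsingleton.finite ?_⟩
    rintro g ⟨x, hx, hgx⟩ g' ⟨x', hx', hgx'⟩
    have h1 := hN2 _ hgx _ hgx'
    rw [heq, heq, cl_act_act _ _ (hmem x) (hmem x')] at h1
    have h2 := hpp (g⁻¹ * g') (q x) hx (q x') hx' (hmem x) (hmem x') (by
      rw [map_mul, map_inv]; exact h1)
    exact inv_mul_eq_one.mp h2
  · intro g x hx hgx
    refine hpp g (q (g • x)) hgx (q x) hx (hmem _) (hmem _) ?_
    have h1 : ‖hh (xx (q (g • x))) ((φ g).1 (xx (q x)))‖ = cl (act 1 (q (g • x))) (act (φ g) (q x)) := by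
      rw [cl_act_act 1 (φ g) (hmem _) (hmem _)]; simp
    rw [h1, act_one, ← heq, cl_self (hmem _)]; norm_num

/-! ### Reflections as elements of `UG n` -/

/-- the reflection in a vector of norm `2` as a linear map -/
def reflL (w : V1 n) : V1 n →ₗ[ℂ] V1 n where
  toFun x := x - hh x w • w
  map_add' x y := by rw [hh_add_left, add_smul]; abel
  map_smul' c x := by
    rw [hh_smul_left, RingHom.id_apply, smul_sub, smul_smul]

theorem reflL_reflL {w : V1 n} (hw : hh w w = 2) (x : V1 n) : reflL w (reflL w x) = x := by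
  show x - hh x w • w - hh (x - hh x w • w) w • w = x
  rw [hF.sub_left, hh_smul_left, hw]
  module

/-- the reflection in a vector of norm `2` as an element of `UG n` (`1` if the norm is not `2`) -/
def refl (w : V1 n) : UG n :=
  open Classical in
  if hw : hh w w = 2 then
    ⟨LinearEquiv.ofInvolutive (reflL w) (fun x => reflL_reflL hw x), fun x y => by
      show hh (x - hh x w • w) (y - hh y w • w) = hh x y
      exact rf_isom hF hw x y⟩
  else 1

theorem refl_apply {w : V1 n} (hw : hh w w = 2) (x : V1 n) :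
    (refl w).1 x = x - hh x w • w := by
  rw [refl, dif_pos hw]
  rfl

theorem refl_mul_self (w : V1 n) : refl w * refl w = 1 := by
  by_cases hw : hh w w = 2
  · apply Subtype.ext
    apply LinearEquiv.ext
    intro x
    show (refl w).1 ((refl w).1 x) = x
    rw [refl_apply hw, refl_apply hw, hF.sub_left, hh_smul_left, hw]
    module
  · rw [refl, dif_neg hw, one_mul]

instance : MulAction (UG n) (V1 n) where
  smul g x := g.1 x
  one_smul _ := rfl
  mul_smul _ _ _ := rfl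

theorem smul_def (g : UG n) (x : V1 n) : g • x = g.1 x := rfl

/-- conjugation: `refl (g w) = g refl w g⁻¹` -/
theorem refl_conj (g : UG n) (w : V1 n) : refl (g.1 w) = g * refl w * g⁻¹ := by
  by_cases hw : hh w w = 2
  · have hgw : hh (g.1 w) (g.1 w) = 2 := by rw [UG_hh, hw]
    apply Subtype.ext
    apply LinearEquiv.ext
    intro x
    rw [refl_apply hgw]
    show _ = g.1 ((refl w).1 ((g⁻¹).1 x))
    rw [refl_apply hw, map_sub, map_smul]
    have e : g.1 ((g⁻¹).1 x) = x := by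
      show (g * g⁻¹).1 x = x
      rw [mul_inv_cancel]; rfl
    have e2 : hh ((g⁻¹).1 x) w = hh x (g.1 w) := by
      rw [← UG_hh g ((g⁻¹).1 x) w, e]
    rw [e, e2]
  · have hgw : ¬ hh (g.1 w) (g.1 w) = 2 := by rw [UG_hh]; exact hw
    rw [refl, dif_neg hgw, refl, dif_neg hw, mul_one, mul_inv_cancel]

/-- **(PP+) in the language of EBase**: the reflection group of `W` separates the good points. -/
theorem pp_ball {W : Set (V1 n)} {e0 e1 : V1 n} (h00 : hh e0 e0 = 1) (h11 : hh e1 e1 = 1)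
    (h01 : hh e0 e1 = 0) {r C Λ T c : ℝ}
    (hW2 : ∀ w ∈ W, hh w w = 2)
    (hsep : ∀ w ∈ W, ∀ w' ∈ W, (∃ u : ℂ, w' = u • w) ∨ Λ ≤ ‖hh w w'‖)
    (hr : 0 ≤ r) (hT : 0 ≤ T) (hc : 0 < c) (hc1 : c ≤ 1) (hC : 1376 / c < C)
    (hΛ : 7 ≤ Λ) (hΛr : 9 * (1 + r) ^ 2 < Λ - 1) (hΛT : 2 * T ^ 2 + 2 ≤ Λ)
    (hΛC : 2 * C * (2 * T ^ 2 + 1) ≤ Λ ^ 2) {g : UG n}
    (GR : g ∉ Subgroup.closure (refl '' {w | w ∈ W ∧ TA hh e0 e1 w}) →
      ∀ o o', Start hh e0 e1 W T o → Start hh e0 e1 W T o' →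
      ∃ w ∈ W, Λ ^ 2 ≤ P2 hh e0 e1 w ∧ (g⁻¹).1 w ∈ W ∧ Λ ^ 2 ≤ P2 hh e0 e1 ((g⁻¹).1 w) ∧
        c * (‖hh o w‖ * ‖hh w (g.1 o')‖) ≤ ‖hh o (g.1 o')‖)
    {x y : V1 n} (hx : Good hh e0 e1 W r C Λ x) (hy : Good hh e0 e1 W r C Λ y)
    (hxy : ‖hh x (g.1 y)‖ ≤ 2) :
    g = 1 ∨ ∃ w ∈ W, TA hh e0 e1 w ∧ g = refl w :=
  pp hF h00 h11 h01 (Γ := UG n) (ρ := refl) (fun g a b => UG_hh g a b)
    (fun w hw x => refl_apply (hW2 w hw) x) (fun w _ => refl_mul_self w) hW2 hsep hr hT hc hc1 hC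
    hΛ hΛr hΛT hΛC GR hx hy hxy

end

end Crest.Agent.R272.LbSep_990
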