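import Crest.Agent.R272.MirW_702
import Crest.Agent.R272.LbFd_936
import Crest.Agent.R272.Cls9_620

/-!
# Row 272, LB-WDATA (helper382), part 1: the arithmetic input of the wall

The far vectors: scaled (`WM_74.wv`) vectors of all the classes `VV O z μ a` (620) and all the
mirror vectors `WM h μ` (74) whose first two coordinates are `≥ Λ'`. They satisfy `WData` (936).
Class vectors which are not far have the same first two coordinates as the base vector; from this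
the hypothesis `hrest` of 936's `fdata`.
-/

set_option autoImplicit false
set_option linter.unusedSectionVars false

open scoped ComplexConjugate
open Set

namespace Crest.Agent.R272.LbWd_382

open EBase_641 In_68 Cls_620 WM_74 LbCap_382 LbSq_936

noncomputable section

variable {O : Subring (Fin 2 → ℂ)} {z μ : Fin 2 → ℂ}

/-! ### dichotomies -/

lemma gram_at (a b : Lb) (h : Z5 O z) : ‖Cls_620.hh (HH z) (base z a) (base z b) 0‖ ≤ 4 :=
  gram_le h a b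

/-- class against class -/
lemma dich_cc (h : Z5 O z) {K : ℝ} (hD : Deep O z μ K) {a b : Lb} {v w : Fin 4 → Fin 2 → ℂ}
    (hv : v ∈ VV O z μ a) (hw : w ∈ VV O z μ b) :
    Cls_620.hh (HH z) v w = Cls_620.hh (HH z) (base z a) (base z b) ∨
      K < ‖Cls_620.hh (HH z) v w 0‖ := by
  by_cases hle : ‖Cls_620.hh (HH z) v w 0‖ ≤ K
  · exact Or.inl (hD a b v (VV.low h hv) w (VV.low h hw) hle)
  · exact Or.inr (not_le.1 hle)

lemma self_le (h : Z5 O z) {a : Lb} {v : Fin 4 → Fin 2 → ℂ} (hv : v ∈ VV O z μ a) :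
    ‖Cls_620.hh (HH z) v v 0‖ ≤ 2 := by
  have h1 : Cls_620.hh (HH z) v v = Cls_620.hh (HH z) (base z a) (base z a) := hv.2.2
  have h2 := n_at0 h a
  have h3 : Cls_620.hh (HH z) v v 0 = ((Cls_620.hh (HH z) v v 0).re : ℂ) := by
    have := congrFun (hh_star (HH z) h.frm.real v v) 0
    simp only [Pi.star_apply] at this
    exact (Complex.conj_eq_iff_re.mp this).symm
  rw [h3, Complex.norm_real, Real.norm_eq_abs, h1, abs_of_nonneg h2.2]
  exact h2.1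

/-- class against mirror -/
lemma dich_cm (h : Z5 O z) {K Λ : ℝ} (hK : Λ ^ 2 + 2 ≤ K) (hΛ : 0 ≤ Λ) (hD : Deep O z μ K)
    {a : Lb} {v r : Fin 4 → Fin 2 → ℂ} (hv : v ∈ VV O z μ a) (hr : Mir O z μ r) :
    ‖Cls_620.hh (HH z) v r 0‖ ≤ 4 ∨ Λ ≤ ‖Cls_620.hh (HH z) v r 0‖ := by
  have h1 := hr.map h hv
  set x := Cls_620.hh (HH z) v r with hx
  have e : Cls_620.hh (HH z) v (rf (HH z) r v) = Cls_620.hh (HH z) v v - star x * x := by
    rw [rf, Cls_620.hh_sub_right, Cls_620.hh_smul_right, ← hx]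
  have e0 := congrFun e 0
  simp only [Pi.sub_apply, Pi.mul_apply, Pi.star_apply] at e0
  have e1 : star (x 0) * x 0 = ((‖x 0‖ ^ 2 : ℝ) : ℂ) := by
    rw [mul_comm, Complex.star_def, Complex.mul_conj, Complex.normSq_eq_norm_sq]
  rw [e1] at e0
  have h2 := self_le h hv
  have h3 : ‖((‖x 0‖ ^ 2 : ℝ) : ℂ)‖ = ‖x 0‖ ^ 2 := by
    rw [Complex.norm_real, Real.norm_of_nonneg (sq_nonneg _)]
  rcases dich_cc h hD hv h1 with h4 | h4
  · left
    have h5 : ‖Cls_620.hh (HH z) v (rf (HH z) r v) 0‖ ≤ 4 := by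
      rw [h4]; exact gram_le h _ _
    have h6 : ((‖x 0‖ ^ 2 : ℝ) : ℂ) =
        Cls_620.hh (HH z) v v 0 - Cls_620.hh (HH z) v (rf (HH z) r v) 0 := by
      rw [e0]; ring
    have h7 : ‖x 0‖ ^ 2 ≤ 2 + 4 := by
      rw [← h3, h6]
      exact (norm_sub_le _ _).trans (add_le_add h2 h5)
    nlinarith [norm_nonneg (x 0)]
  · right
    have h5 : K < 2 + ‖x 0‖ ^ 2 := by
      refine h4.trans_le ?_
      rw [e0]
      refine (norm_sub_le _ _).trans ?_
      rw [h3]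
      linarith
    have h6 : Λ ^ 2 ≤ ‖x 0‖ ^ 2 := by linarith
    exact (sq_le_sq₀ hΛ (norm_nonneg _)).1 h6

/-! ### far or standard -/

lemma hh_e0r (v : Fin 4 → Fin 2 → ℂ) : Cls_620.hh (HH z) v e0 = v 0 := by
  simp [Cls_620.hh, Fin.sum_univ_four, HH, e0]

lemma hh_e1r (v : Fin 4 → Fin 2 → ℂ) : Cls_620.hh (HH z) v e1 = v 1 := by
  simp [Cls_620.hh, Fin.sum_univ_four, HH, e1]

lemma e0_mem (h : Z5 O z) : e0 ∈ VV O z μ .o := ⟨base_mem h .o, Cg.refl _ _, rfl⟩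

lemma e1_mem (h : Z5 O z) : e1 ∈ VV O z μ (.n false) := ⟨base_mem h (.n false), Cg.refl _ _, rfl⟩

lemma norm_PP_wv (h : Z5r O z) (v : Fin 4 → Fin 2 → ℂ) :
    ‖PP (wv h v).1‖ ^ 2 = ‖v 0 0‖ ^ 2 + ‖v 1 0‖ ^ 2 := by
  rw [norm_PP_sq, wv_zero, wv_one]

/-- a class vector is far, or has the first two coordinates of the base vector. -/
theorem far_or (h : Z5r O z) {K : ℝ} (hK : 0 ≤ K) (hD : Deep O z μ K) {a : Lb}
    {v : Fin 4 → Fin 2 → ℂ} (hv : v ∈ VV O z μ a) :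
    K ≤ ‖PP (wv h v).1‖ ∨ (v 0 = base z a 0 ∧ v 1 = base z a 1) := by
  have h0 := norm_PP_wv h v
  rcases dich_cc h.toZ5 hD hv (e0_mem (μ := μ) h.toZ5) with h1 | h1
  · rcases dich_cc h.toZ5 hD hv (e1_mem (μ := μ) h.toZ5) with h2 | h2
    · right
      have e1' : Cls_620.hh (HH z) v e0 = Cls_620.hh (HH z) (base z a) e0 := h1
      have e2' : Cls_620.hh (HH z) v e1 = Cls_620.hh (HH z) (base z a) e1 := h2
      rw [hh_e0r, hh_e0r] at e1'
      rw [hh_e1r, hh_e1r] at e2'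
      exact ⟨e1', e2'⟩
    · left
      rw [hh_e1r] at h2
      apply le_of_sq_le_sq _ (norm_nonneg _)
      rw [h0]
      have := sq_nonneg ‖v 0 0‖
      have h3 : K ^ 2 ≤ ‖v 1 0‖ ^ 2 := pow_le_pow_left₀ hK h2.le 2
      linarith
  · left
    rw [hh_e0r] at h1
    apply le_of_sq_le_sq _ (norm_nonneg _)
    rw [h0]
    have := sq_nonneg ‖v 1 0‖
    have h3 : K ^ 2 ≤ ‖v 0 0‖ ^ 2 := pow_le_pow_left₀ hK h1.le 2
    linarith

/-- the sum at the definite place -/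
lemma hh1 (h : Z5 O z) (v : Fin 4 → Fin 2 → ℂ) : (Cls_620.hh (HH z) v v 1).re =
    ‖v 0 1‖ ^ 2 + ‖v 1 1‖ ^ 2 + ‖v 2 1‖ ^ 2 + (Real.sqrt 5 - 1) / 2 * ‖v 3 1‖ ^ 2 := by
  have e3' : (HH z 3 1).re = (Real.sqrt 5 - 1) / 2 := by
    show ((z ^ 2 + z ^ 3) 1).re = _
    simp only [Pi.add_apply, Pi.pow_apply]
    rw [h.at1', Complex.ofReal_re]
  rw [re_diag h.frm.real v 1, Fin.sum_univ_four, e3']
  simp [HH]

/-- the sum at the ball place -/
lemma hh0 (h : Z5 O z) (v : Fin 4 → Fin 2 → ℂ) : (Cls_620.hh (HH z) v v 0).re =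
    ‖v 0 0‖ ^ 2 + ‖v 1 0‖ ^ 2 + ‖v 2 0‖ ^ 2 - (Real.sqrt 5 + 1) / 2 * ‖v 3 0‖ ^ 2 := by
  have e3' : (HH z 3 0).re = -(Real.sqrt 5 + 1) / 2 := by
    show ((z ^ 2 + z ^ 3) 0).re = _
    simp only [Pi.add_apply, Pi.pow_apply]
    rw [h.at0', Complex.ofReal_re]
  rw [re_diag h.frm.real v 0, Fin.sum_univ_four, e3']
  simp [HH]
  ring

end

end Crest.Agent.R272.LbWd_382
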