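import Crest.Agent.R272.LbWd1_382
import Crest.Agent.R272.LbSq5_936

/-!
# Row 272, LB-WDATA (helper382), part 2: `WData` for the far vectors
-/

set_option autoImplicit false
set_option linter.unusedSectionVars false

open scoped ComplexConjugate
open Set

namespace Crest.Agent.R272.LbWd_382

open EBase_641 In_68 Cls_620 WM_74 LbCap_382 LbSq_936
open LbFin2_990 (WSysP)

noncomputable section

variable {O : Subring (Fin 2 → ℂ)} {z μ : Fin 2 → ℂ}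

/-- the vectors: classes and mirrors -/
def AV (h : Z5r O z) (μ : Fin 2 → ℂ) : Set (V1 3) :=
  {x | (∃ a, x ∈ wv h '' VV O z μ a) ∨ x ∈ WM h μ}

/-- **the far vectors** -/
def FV (h : Z5r O z) (μ : Fin 2 → ℂ) (Λ' : ℝ) : Set (V1 3) :=
  {x | x ∈ AV h μ ∧ Λ' ≤ ‖PP x.1‖}

lemma n_lo (h : Z5 O z) (a : Lb) : 1 / 3 ≤ (Cls_620.hh (HH z) (base z a) (base z a) 0).re := by
  have hs := sqrt5_bd
  cases a with
  | o => simp [base, hh_e00]; norm_num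
  | n i => simp [base, hh_ei]; norm_num
  | v i j => rw [n_v h]; simp; norm_num
  | b i k =>
    rw [nb_re h]
    linarith

/-- the norm of a scaled vector -/
lemma nrm_wv (h : Z5r O z) (v : Fin 4 → Fin 2 → ℂ) :
    ‖(wv h v).1‖ ^ 2 - ‖(wv h v).2‖ ^ 2 = (Cls_620.hh (HH z) v v 0).re := by
  have h1 := hh_wv h v v
  rw [hh_self] at h1
  have := congrArg Complex.re h1
  rwa [Complex.ofReal_re] at this

/-- the norms of the vectors -/
lemma AV_norm (h : Z5r O z) {x : V1 3} (hx : x ∈ AV h μ) :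
    1 / 3 ≤ ‖x.1‖ ^ 2 - ‖x.2‖ ^ 2 ∧ ‖x.1‖ ^ 2 - ‖x.2‖ ^ 2 ≤ 2 := by
  rcases hx with ⟨a, v, hv, rfl⟩ | ⟨r, hr, rfl⟩
  · rw [nrm_wv h]
    have h1 : Cls_620.hh (HH z) v v = Cls_620.hh (HH z) (base z a) (base z a) := hv.2.2
    rw [h1]
    exact ⟨n_lo h.toZ5 a, (n_at0 h.toZ5 a).1⟩
  · rw [nrm_wv h, hr.two]
    constructor
    · show (1 : ℝ) / 3 ≤ (2 : ℂ).re
      norm_num
    · show (2 : ℂ).re ≤ 2
      norm_num

/-- **the dichotomy** -/
lemma AV_dich (h : Z5r O z) {K Λ : ℝ} (hD : Deep O z μ K) (hW : WSysP (WM h μ) Λ)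
    (hΛ : 0 ≤ Λ) (hK : Λ ^ 2 + 2 ≤ K) {x y : V1 3} (hx : x ∈ AV h μ) (hy : y ∈ AV h μ) :
    ‖EBase_641.hh x y‖ ≤ 4 ∨ Λ ≤ ‖EBase_641.hh x y‖ := by
  have hKΛ : Λ ≤ K := by nlinarith [sq_nonneg (Λ - 1)]
  rcases hx with ⟨a, v, hv, rfl⟩ | ⟨r, hr, rfl⟩
  · rcases hy with ⟨b, w, hw, rfl⟩ | ⟨r, hr, rfl⟩
    · rw [hh_wv]
      rcases dich_cc h.toZ5 hD hv hw with h1 | h1
      · left
        rw [h1]
        exact gram_le h.toZ5 _ _
      · right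
        exact hKΛ.trans h1.le
    · rw [hh_wv]
      exact dich_cm h.toZ5 hK hΛ hD hv hr
  · rcases hy with ⟨b, w, hw, rfl⟩ | ⟨r', hr', rfl⟩
    · have e : ‖EBase_641.hh (wv h r) (wv h w)‖ = ‖Cls_620.hh (HH z) w r 0‖ := by
        rw [hh_wv, ← hh_star (HH z) h.toZ5.frm.real w r, Pi.star_apply, norm_star]
      rw [e]
      exact dich_cm h.toZ5 hK hΛ hD hw hr
    · rcases hW.sep _ ⟨r, hr, rfl⟩ _ ⟨r', hr', rfl⟩ with ⟨c, hc, e⟩ | h1
      · left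
        rw [e, EBase_641.hh_smul_right, norm_mul, hW.norm _ ⟨r, hr, rfl⟩, RCLike.norm_conj, hc]
        norm_num
      · exact Or.inr h1

/-- the vectors come from integral vectors with bounded second place -/
lemma AV_int (h : Z5r O z) {x : V1 3} (hx : x ∈ AV h μ) : ∃ v : Fin 4 → Fin 2 → ℂ,
    wv h v = x ∧ Int' O v ∧ (Cls_620.hh (HH z) v v 1).re ≤ 3 := by
  rcases hx with ⟨a, v, hv, rfl⟩ | ⟨r, hr, rfl⟩
  · refine ⟨v, rfl, hv.1, ?_⟩
    have h1 : Cls_620.hh (HH z) v v = Cls_620.hh (HH z) (base z a) (base z a) := hv.2.2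
    rw [h1]
    exact n_at1 h.toZ5 a
  · refine ⟨r, rfl, hr.int, ?_⟩
    rw [hr.two]
    show (2 : ℂ).re ≤ 3
    norm_num

/-- **discreteness** -/
lemma AV_fin (h : Z5r O z) (T : ℝ) : {x : V1 3 | x ∈ AV h μ ∧ ‖x.1‖ ≤ T}.Finite := by
  set R : ℝ := max ((sc z)⁻¹ * T) (Real.sqrt (dd z 1 * 3)) with hR
  refine ((LO_disc h R).image (fun p => (sc z : ℂ) • p.1)).subset ?_
  rintro x ⟨hx, hT⟩
  obtain ⟨v, rfl, hv, h1⟩ := AV_int h hx
  refine ⟨io h v, ⟨(io_mem h).2 hv, ?_⟩, rfl⟩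
  have hsc := sc_pos h
  have hN := (AV_norm h hx).1
  have h2 : ‖(wv h v).2‖ ≤ ‖(wv h v).1‖ := by
    apply le_of_sq_le_sq _ (norm_nonneg _)
    linarith
  have h3 : ‖wv h v‖ ≤ T := by
    rw [Prod.norm_def]
    exact max_le hT (h2.trans hT)
  have h4 : ‖(io h v).1‖ ≤ (sc z)⁻¹ * T := by
    have e : ‖wv h v‖ = sc z * ‖(io h v).1‖ := by
      rw [wv, norm_smul, Complex.norm_real, Real.norm_of_nonneg hsc.le]
    rw [e] at h3
    rw [inv_mul_eq_div, le_div_iff₀ hsc, mul_comm]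
    exact h3
  have h5 : ‖(io h v).2‖ ^ 2 = dd z 1 * (Cls_620.hh (HH z) v v 1).re := by
    have := inner_io h v v
    rw [inner_self_eq_norm_sq_to_K] at this
    have h6 := congrArg Complex.re this
    rw [Complex.re_ofReal_mul] at h6
    rw [← h6]
    norm_cast
  have h6 : ‖(io h v).2‖ ≤ Real.sqrt (dd z 1 * 3) := by
    apply Real.le_sqrt_of_sq_le
    rw [h5]
    exact mul_le_mul_of_nonneg_left h1 (dd_pos h 1).le
  rw [Prod.norm_def]
  exact max_le (h4.trans (le_max_left _ _)) (h6.trans (le_max_right _ _))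

/-- **WData for the far vectors** -/
theorem wdata (h : Z5r O z) {K Λ Λ' k : ℝ} (hD : Deep O z μ K) (hW : WSysP (WM h μ) Λ)
    (hK : Λ ^ 2 + 2 ≤ K) (hk : 1 ≤ k)
    (hL : 4 * 2 * (2 + (3 * (2 * (2 * k) + capA (1 / 3) 4)) ^ 2) < Λ)
    (hL' : 0 < Λ') (hkL : k ^ 2 * 2 < Λ' ^ 2) :
    WData (FV h μ Λ') (fun i => (i : V1 3)) (fun i => ‖(i : V1 3).1‖ ^ 2 - ‖(i : V1 3).2‖ ^ 2)
      (1 / 3) 2 4 Λ Λ' k where
  pv i := by
    have h1 := AV_norm h i.2.1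
    refine ⟨by linarith, rfl, fun h0 => ?_⟩
    have h2 : Λ' ≤ ‖(i : V1 3).1‖ := i.2.2.trans (norm_PP_le _)
    have h3 : Λ' ^ 2 ≤ ‖(i : V1 3).1‖ ^ 2 := pow_le_pow_left₀ hL'.le h2 2
    rw [h0, norm_zero] at h1
    nlinarith [h1.2]
  min_pos := by norm_num
  le_min i := (AV_norm h i.2.1).1
  le_max i := (AV_norm h i.2.1).2
  hk := hk
  hc0 := by norm_num
  dich i j _ := AV_dich h hD hW (by
    have : 0 ≤ 4 * 2 * (2 + (3 * (2 * (2 * k) + capA (1 / 3) 4)) ^ 2) := by positivity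
    linarith) hK i.2.1 j.2.1
  hLam := hL
  disc T := by
    refine ((AV_fin (μ := μ) h T).preimage (f := fun i : FV h μ Λ' => (i : V1 3))
      (fun a _ b _ hab => Subtype.ext hab)).subset ?_
    intro i hi
    exact ⟨i.2.1, hi⟩
  hLam' := hL'
  far i := i.2.2
  hkLam := hkL

end

end Crest.Agent.R272.LbWd_382
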