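import Crest.Agent.R272.LbWd2_382
import Crest.Agent.R272.LbAd4_936
import Crest.Agent.R272.Cls10_620

/-!
# Row 272, LB-WDATA (helper382), part 3: `Cla` (936) for the scaled classes `wv h '' VV O z μ a`,
and the data `FData` of the colour 1 divisor.
-/

set_option autoImplicit false
set_option linter.unusedSectionVars false

open scoped ComplexConjugate
open Set

namespace Crest.Agent.R272.LbWd_382

open EBase_641 In_68 Cls_620 WM_74 LbCap_382 LbSq_936
open LbFin2_990 (WSysP)

noncomputable section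

variable {O : Subring (Fin 2 → ℂ)} {z μ : Fin 2 → ℂ}

/-- the scaled classes -/
def CC (h : Z5r O z) (μ : Fin 2 → ℂ) (a : Lb) : Set (V1 3) := wv h '' VV O z μ a

/-- the root of unity -/
theorem rz (h : Z5 O z) : RZ (z 0) where
  pow5 := by
    have := congrFun h.z5 0
    simpa using this
  neg := by
    rw [h.at0', gr]
    push_cast
    ring

/-! ### base vectors -/

theorem wv_snd (h : Z5r O z) (r : Fin 4 → Fin 2 → ℂ) :
    (wv h r).2 = (sc z : ℂ) * ((ww z 3 0 : ℂ) * r 3 0) := rfl

theorem wv_eq (h : Z5r O z) {r : Fin 4 → Fin 2 → ℂ} {x : V1 3} (h0 : r 0 0 = x.1 0)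
    (h1 : r 1 0 = x.1 1) (h2 : r 2 0 = x.1 2) (h3 : r 3 0 = 0) (h4 : x.2 = 0) : wv h r = x := by
  refine Prod.ext ?_ ?_
  · ext i
    fin_cases i
    · exact (wv_zero h r).trans h0
    · exact (wv_one h r).trans h1
    · exact (wv_two h r).trans h2
  · rw [wv_snd, h3, h4, mul_zero, mul_zero]

theorem wv_o (h : Z5r O z) : wv h (base z .o) = bo :=
  wv_eq h (by simp [base, e0, bo]) (by simp [base, e0, bo]) (by simp [base, e0, bo])
    (by simp [base, e0]) rfl

theorem wv_n (h : Z5r O z) : wv h (base z (.n false)) = be :=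
  wv_eq h (by simp [base, ei, e1, be]) (by simp [base, ei, e1, be]) (by simp [base, ei, e1, be])
    (by simp [base, ei, e1]) rfl

theorem wv_v (h : Z5r O z) (j : Fin 5) : wv h (base z (.v false j)) = bv (z 0) j :=
  wv_eq h (by simp [base, ei, e0, e1, bv]) (by simp [base, ei, e0, e1, bv])
    (by simp [base, ei, e0, e1, bv]) (by simp [base, ei, e0, e1]) rfl

theorem base_in (h : Z5r O z) (a : Lb) : wv h (base z a) ∈ CC h μ a :=
  ⟨_, ⟨base_mem h.toZ5 a, Cg.refl _ _, rfl⟩, rfl⟩

/-! ### injectivity -/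

lemma zero_of (h : Z5 O z) {x : Fin 2 → ℂ} (hx : x ∈ O) {t : Fin 2} (h0 : x t = 0) : x = 0 := by
  by_contra hne
  have h1 := h.ord.norm_ge x hx hne
  rw [Finset.prod_eq_zero (Finset.mem_univ t) (by rw [h0, norm_zero])] at h1
  linarith

lemma eq_of (h : Z5 O z) {x y : Fin 2 → ℂ} (hx : x ∈ O) (hy : y ∈ O) {t : Fin 2}
    (h0 : x t = y t) : x = y :=
  sub_eq_zero.1 (zero_of h (O.sub_mem hx hy) (t := t) (by simp [h0]))

theorem wv_inj (h : Z5r O z) {v w : Fin 4 → Fin 2 → ℂ} (hv : Int' O v) (hw : Int' O w)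
    (e : wv h v = wv h w) : v = w := by
  have h3 : v 3 0 = w 3 0 := by
    have h1 : (sc z : ℂ) ≠ 0 := by exact_mod_cast (sc_pos h).ne'
    have h2 : (ww z 3 0 : ℂ) ≠ 0 := by exact_mod_cast (ww_pos h 3 0).ne'
    have := congrArg Prod.snd e
    rw [wv_snd, wv_snd] at this
    exact mul_left_cancel₀ h2 (mul_left_cancel₀ h1 this)
  have h0 : v 0 0 = w 0 0 := by rw [← wv_zero h v, ← wv_zero h w, e]
  have h1 : v 1 0 = w 1 0 := by rw [← wv_one h v, ← wv_one h w, e]
  have h2 : v 2 0 = w 2 0 := by rw [← wv_two h v, ← wv_two h w, e]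
  funext i
  fin_cases i
  · exact eq_of h.toZ5 (hv 0) (hw 0) h0
  · exact eq_of h.toZ5 (hv 1) (hw 1) h1
  · exact eq_of h.toZ5 (hv 2) (hw 2) h2
  · exact eq_of h.toZ5 (hv 3) (hw 3) h3

lemma zpow_inj (h : Z5 O z) {j k : Fin 5} (e : z 0 ^ (j : ℕ) = z 0 ^ (k : ℕ)) : j = k :=
  Fin.ext ((rz h).inj j j.2 k k.2 e)

/-- base vectors of different branch labels are different -/
lemma base_inj (h : Z5 O z) {a b : Lb} (ha : isBr a) (hb : isBr b)
    (e : base z a = base z b) : a = b := by
  have e0' := congrFun (congrFun e 0) 0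
  have e3' := congrFun (congrFun e 3) 0
  have hz : ∀ n : ℕ, z 0 ^ n ≠ 0 := fun n => pow_ne_zero _ (rz h).ne
  cases a with
  | o => exact ha.elim
  | n i =>
    cases i with
    | true => exact ha.elim
    | false =>
      cases b with
      | o => exact hb.elim
      | n i' =>
        cases i' with
        | true => exact hb.elim
        | false => rfl
      | v i' k =>
        cases i' with
        | true => exact hb.elim
        | false => simp [base, ei, e0, e1, (rz h).ne] at e0'
      | b i' k =>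
        cases i' with
        | true => exact hb.elim
        | false => simp [base, ei, e0, e1, e3] at e3'
  | v i j =>
    cases i with
    | true => exact ha.elim
    | false =>
      cases b with
      | o => exact hb.elim
      | n i' =>
        cases i' with
        | true => exact hb.elim
        | false => simp [base, ei, e0, e1, (rz h).ne] at e0'
      | v i' k =>
        cases i' with
        | true => exact hb.elim
        | false =>
          have : z 0 ^ (j : ℕ) = z 0 ^ (k : ℕ) := by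
            simpa [base, ei, e0, e1] using e0'
          rw [zpow_inj h this]
      | b i' k =>
        cases i' with
        | true => exact hb.elim
        | false => simp [base, ei, e0, e1, e3] at e3'
  | b i j =>
    cases i with
    | true => exact ha.elim
    | false =>
      cases b with
      | o => exact hb.elim
      | n i' =>
        cases i' with
        | true => exact hb.elim
        | false => simp [base, ei, e0, e1, e3] at e3'
      | v i' k =>
        cases i' with
        | true => exact hb.elim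
        | false => simp [base, ei, e0, e1, e3] at e3'
      | b i' k =>
        cases i' with
        | true => exact hb.elim
        | false =>
          have : z 0 ^ (j : ℕ) = z 0 ^ (k : ℕ) := by
            simpa [base, ei, e0, e1, e3] using e0'
          rw [zpow_inj h this]

/-- the classes are disjoint -/
theorem disj (h : Z5r O z) {K : ℝ} (hD : Deep O z μ K) (hK : 2 ≤ K) {a b : Lb} (ha : isBr a)
    (hb : isBr b) (hab : a ≠ b) : Disjoint (CC h μ a) (CC h μ b) := by
  rw [Set.disjoint_left]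
  rintro _ ⟨v, hv, rfl⟩ ⟨w, hw, e⟩
  have e1' : w = v := wv_inj h hw.1 hv.1 e
  rw [e1'] at hw
  have h1 : Cls_620.hh (HH z) v v = Cls_620.hh (HH z) (base z a) (base z b) :=
    hD a b v (VV.low h.toZ5 hv) v (VV.low h.toZ5 hw) ((self_le h.toZ5 hv).trans hK)
  have h2 : Cls_620.hh (HH z) v v = Cls_620.hh (HH z) (base z a) (base z a) := hv.2.2
  have h3 : Cls_620.hh (HH z) v v = Cls_620.hh (HH z) (base z b) (base z b) := hw.2.2
  have h4 : Cls_620.hh (HH z) (base z b) (base z a) = Cls_620.hh (HH z) v v := by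
    rw [← hh_star (HH z) h.toZ5.frm.real, ← h1, hh_star (HH z) h.toZ5.frm.real]
  have h5 : Cls_620.hh (HH z) (base z a - base z b) (base z a - base z b) = 0 := by
    rw [Cls_620.hh_sub_left, Cls_620.hh_sub_right, Cls_620.hh_sub_right, ← h1, ← h2, ← h3, h4]
    ring
  have h6 := aniso h.toZ5.ord h.toZ5.frm (t := 1) (by decide)
    ((base_mem h.toZ5 a).sub (base_mem h.toZ5 b)) (by rw [h5]; simp)
  exact hab (base_inj h.toZ5 ha hb (sub_eq_zero.1 h6))

theorem ne_zero (h : Z5r O z) {a : Lb} {x : V1 3} (hx : x ∈ CC h μ a) : x.1 ≠ 0 := by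
  intro h0
  have h1 := (AV_norm (μ := μ) h (Or.inl ⟨a, hx⟩)).1
  rw [h0, norm_zero] at h1
  nlinarith [sq_nonneg ‖x.2‖]

/-- near `f₁` only the base vector -/
theorem std_f1 (h : Z5r O z) {K : ℝ} (hD : Deep O z μ K) (hK : 2 ≤ K) {a : Lb} {w : E3}
    (hw : ‖w‖ < 1) (hb : lin (wv h (base z a)) w = 0) {v : V1 3} (hv : v ∈ CC h μ a)
    (h0 : lin v w = 0) : v = wv h (base z a) := by
  obtain ⟨v, hv, rfl⟩ := hv
  rw [lin_wv_zero] at h0 hb
  have hP := (perp_iff h (base z a) w).2 hb
  have hp : h1 (c0 0 (HH z)) (at0 0 (base z a)) (pt h w) = 0 := hP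
  have h2 := std_of_near h.toZ5 (by linarith) hD hv (neg_pt h (mem_Ball.2 hw))
    ((perp_iff h v w).2 h0) (by
      rw [hp, norm_zero]
      have h4 : (2 : ℝ) * 2 ≤ K ^ 2 := by nlinarith
      simpa using h4)
  rw [h2]

theorem lin_bo (w : E3) : lin bo w = w 0 := by
  simp [lin, bo, PiLp.inner_apply, Fin.sum_univ_three]

theorem lin_bv0 {w : E3} (h0 : w 0 = 0) (h1 : w 1 = 0) (ζ : ℂ) (j : ℕ) : lin (bv ζ j) w = 0 := by
  simp [lin, bv, PiLp.inner_apply, Fin.sum_univ_three, h0, h1]

/-- **`Cla` for the scaled classes** -/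
theorem cla (h : Z5r O z) {K : ℝ} (hD : Deep O z μ K) (hK : 2 ≤ K) {Fn : Lb → E3 → ℂ}
    (hdiv : ∀ a, Wei_392.Div 3 (Prod.fst '' (io h '' VV O z μ a)) (Fn a)) :
    Cla (z 0) (CC h μ) Fn where
  rz := rz h.toZ5
  div a _ := by
    have h1 : (sc z : ℂ) ≠ 0 := by exact_mod_cast (sc_pos h).ne'
    have h2 := Div.scale (hdiv a) h1
    have e : (fun v : V1 3 => (sc z : ℂ) • v) '' (Prod.fst '' (io h '' VV O z μ a)) = CC h μ a := by
      rw [Set.image_image, Set.image_image]
      rfl
    rw [e] at h2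
    exact h2
  mo := by rw [← wv_o h]; exact base_in h .o
  mn := by rw [← wv_n h]; exact base_in h (.n false)
  mv j := by rw [← wv_v h j]; exact base_in h (.v false j)
  disj a b ha hb hab := disj h hD hK ha hb hab
  ne a _ v hv := ne_zero h hv
  uo w hw h0 h1 v hv hl := by
    rw [← wv_o h]
    exact std_f1 h hD hK hw (by rw [wv_o, lin_bo, h0]) hv hl
  uv w hw h0 h1 v hv hl := by
    have e : bv (z 0) 0 = wv h (base z (.v false 0)) := (wv_v h 0).symm
    rw [e]
    exact std_f1 h hD hK hw (by rw [wv_v]; exact lin_bv0 h0 h1 _ _) hv hl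

/-! ### the remaining vectors -/

/-- a class vector with the same first two coordinates as its base vector, whose last two
coordinates are zero, is the base vector. -/
lemma std_coord (h : Z5 O z) {a : Lb} {v : Fin 4 → Fin 2 → ℂ} (hv : v ∈ VV O z μ a)
    (h0 : v 0 = base z a 0) (h1 : v 1 = base z a 1) (h2 : base z a 2 = 0) (h3 : base z a 3 = 0) :
    v = base z a := by
  have e : (Cls_620.hh (HH z) v v 1).re = (Cls_620.hh (HH z) (base z a) (base z a) 1).re := by
    rw [hv.2.2]
  rw [hh1 h, hh1 h, h0, h1, h2, h3] at e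
  have hs := sqrt5_bd
  simp only [Pi.zero_apply, norm_zero] at e
  have p3 : 0 ≤ (Real.sqrt 5 - 1) / 2 * ‖v 3 1‖ ^ 2 := by
    have : 0 ≤ (Real.sqrt 5 - 1) / 2 := by linarith
    positivity
  have p2 := sq_nonneg ‖v 2 1‖
  have q2 : ‖v 2 1‖ ^ 2 = 0 := by nlinarith
  have q3 : (Real.sqrt 5 - 1) / 2 * ‖v 3 1‖ ^ 2 = 0 := by nlinarith
  have r2 : v 2 1 = 0 := by
    have := pow_eq_zero_iff (two_ne_zero) |>.1 q2
    exact norm_eq_zero.1 this
  have r3 : v 3 1 = 0 := by
    rcases mul_eq_zero.1 q3 with h4 | h4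
    · exfalso; linarith
    · exact norm_eq_zero.1 ((pow_eq_zero_iff two_ne_zero).1 h4)
  funext i
  fin_cases i
  · exact h0
  · exact h1
  · show v 2 = base z a 2
    rw [h2]; exact zero_of h (hv.1 2) r2
  · show v 3 = base z a 3
    rw [h3]; exact zero_of h (hv.1 3) r3

/-- a bridge with the first two coordinates of the base vector -/
lemma isBr_of (h : Z5r O z) {k : Fin 5} {v : Fin 4 → Fin 2 → ℂ}
    (hv : v ∈ VV O z μ (.b false k)) (h0 : v 0 = base z (.b false k) 0)
    (h1 : v 1 = base z (.b false k) 1) : IsBr (z 0) k (wv h v) := by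
  have e0' : v 0 0 = -z 0 ^ (k : ℕ) := by
    rw [h0]; simp [base, ei, e0, e1, e3]
  have e1' : v 1 0 = 1 := by
    rw [h1]; simp [base, ei, e0, e1, e3]
  refine ⟨by rw [wv_zero, e0'], by rw [wv_one, e1'], ?_⟩
  have h2 := nrm_wv h v
  have h3 : (Cls_620.hh (HH z) v v 0).re = (3 - Real.sqrt 5) / 2 := nrm_b h.toZ5 hv
  rw [h3, EuclideanSpace.norm_sq_eq, Fin.sum_univ_three, wv_zero, wv_one, e0', e1', norm_neg,
    norm_pow, (rz h.toZ5).norm] at h2
  rw [gr]
  simp only [norm_one, one_pow] at h2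
  linarith

/-- **every branch vector of colour `false` is a base vector, far, or a bridge** -/
theorem rest (h : Z5r O z) {K Λ' : ℝ} (hK : 0 ≤ K) (hD : Deep O z μ K) (hΛ : Λ' ≤ K) :
    ∀ v ∈ Sall (CC h μ), v ∉ S0 (z 0) → (∃ i : FV h μ Λ', (i : V1 3) = v) ∨
      IsBr (z 0) 4 v ∨ IsBr (z 0) 1 v ∨ IsBr (z 0) 2 v := by
  rintro _ ⟨a, ha, v, hv, rfl⟩ hn
  rcases far_or h hK hD hv with h1 | ⟨h0, h1⟩
  · exact Or.inl ⟨⟨_, Or.inl ⟨a, v, hv, rfl⟩, hΛ.trans h1⟩, rfl⟩
  · right
    cases a with
    | o => exact ha.elim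
    | n i =>
      cases i with
      | true => exact ha.elim
      | false =>
        exfalso
        apply hn
        rw [std_coord h.toZ5 hv h0 h1 (by simp [base, ei, e1]) (by simp [base, ei, e1]), wv_n]
        exact mem_S0.2 (Or.inl rfl)
    | v i j =>
      cases i with
      | true => exact ha.elim
      | false =>
        exfalso
        apply hn
        rw [std_coord h.toZ5 hv h0 h1 (by simp [base, ei, e0, e1]) (by simp [base, ei, e0, e1]),
          wv_v]
        exact mem_S0.2 (Or.inr ⟨j, j.2, rfl⟩)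
    | b i k =>
      cases i with
      | true => exact ha.elim
      | false =>
        have h2 := isBr_of h hv h0 h1
        rcases ha with rfl | rfl | rfl
        · exact Or.inr (Or.inl h2)
        · exact Or.inr (Or.inr h2)
        · exact Or.inl h2

/-- **FData of the colour 1 divisor** -/
theorem fdataW (h : Z5r O z) {K Λ' : ℝ} (hK : 2 ≤ K) (hD : Deep O z μ K) (hΛ : Λ' ≤ K)
    {Fn : Lb → E3 → ℂ}
    (hdiv : ∀ a, Wei_392.Div 3 (Prod.fst '' (io h '' VV O z μ a)) (Fn a)) :
    FData (Sall (CC h μ)) (fun w => PF Fn w * QF Fn w) (S0 (z 0)) (bv (z 0) 1) (bv (z 0) 2)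
      (fun i : FV h μ Λ' => (i : V1 3)) (-3 * z 0) (27 / 10) 3 (27 / 37) (3 / 4) :=
  fdata (rz h.toZ5) (cla h hD hK hdiv).divPQ (fun _ hv => (cla h hD hK hdiv).base_mem hv) _
    (rest h (by linarith) hD hΛ)

end

end Crest.Agent.R272.LbWd_382
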