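import Crest.Agent.R272.LbWd3_382
import Crest.Agent.R272.LbAsm3_990

/-!
# Row 272, LB-WDATA (helper382), part 4: the numbers

`Λ = Λ' = 10^10`, `K = 10^20 + 2`, `k = 200`, `C = 20000`, `r = 6`, `c = -3 ζ`, `r1 = 27/10`,
`r2 = 3`. One hypothesis: `10^21 ≤ ∏ ‖μ t‖`.
-/

set_option autoImplicit false
set_option linter.unusedSectionVars false

open scoped ComplexConjugate
open Set

namespace Crest.Agent.R272.LbWd_382

open EBase_641 In_68 Cls_620 WM_74 LbCap_382 LbClu_382 LbSq_936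
open LbFin2_990 (WSysP)
open LbAsm_990 (Link)

noncomputable section

variable {O : Subring (Fin 2 → ℂ)} {z μ : Fin 2 → ℂ}

/-- `Λ` -/
def L0 : ℝ := 10 ^ 10

theorem L0_pos : 0 < L0 := by norm_num [L0]

theorem capA_le : capA (1 / 3) 4 ≤ 6 := by
  unfold capA
  apply Real.sqrt_le_iff.2
  constructor <;> norm_num

theorem capA_nonneg : 0 ≤ capA (1 / 3) 4 := Real.sqrt_nonneg _

theorem numL : 4 * 2 * (2 + (3 * (2 * (2 * (200 : ℝ)) + capA (1 / 3) 4)) ^ 2) < L0 := by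
  have h1 := capA_le
  have h0 := capA_nonneg
  have h2 : (3 * (2 * (2 * (200 : ℝ)) + capA (1 / 3) 4)) ^ 2 ≤ (3 * (2 * (2 * 200) + 6)) ^ 2 :=
    pow_le_pow_left₀ (by positivity) (by linarith) 2
  unfold L0
  have h3 : (3 * (2 * (2 * (200 : ℝ)) + 6)) ^ 2 = 5846724 := by norm_num
  rw [h3] at h2
  linarith

theorem slope_le : slopeδ 200 (capA (1 / 3) 4) 2 L0 ≤ 1 / 1000000 := by
  have h1 := capA_le
  have h0 := capA_nonneg
  have hs : Real.sqrt 2 ≤ 3 / 2 := by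
    apply Real.sqrt_le_iff.2
    constructor <;> norm_num
  have hs0 := Real.sqrt_nonneg 2
  unfold slopeδ capC
  rw [div_le_iff₀ L0_pos]
  unfold L0
  have h2 : 4 * (200 : ℝ) + 2 * (2 * 1 ^ 3 * (2 * (2 * 200) + capA (1 / 3) 4)) ≤ 4024 := by linarith
  have h3 : (0 : ℝ) ≤ 4 * (200 : ℝ) + 2 * (2 * 1 ^ 3 * (2 * (2 * 200) + capA (1 / 3) 4)) := by
    linarith
  have h4 := mul_le_mul h2 hs hs0 (by norm_num)
  linarith

theorem slope_nonneg : 0 ≤ slopeδ 200 (capA (1 / 3) 4) 2 L0 := by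
  have h0 := capA_nonneg
  have := L0_pos
  unfold slopeδ capC
  positivity

theorem deep20 (h : Z5r O z) {ε : Fin 2 → ℂ} (hε : ε ∈ O) (hμs : star μ = μ * ε)
    (hM : (10 : ℝ) ^ 21 ≤ ∏ t, ‖μ t‖) : Deep O z μ (L0 ^ 2 + 2) := by
  refine deep_of h.toZ5 hε hμs (lt_of_lt_of_le ?_ hM)
  norm_num [L0]

theorem one_le_pz (h : Z5r O z) : 1 ≤ ∏ t, ‖pz z t‖ := by
  refine h.ord.norm_ge _ h.toZ5.pz_mem ?_
  intro h0
  exact h.toZ5.pz_ne 0 (congrFun h0 0)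

theorem wsys (h : Z5r O z) (hμ : μ ∈ O) (hM : (10 : ℝ) ^ 21 ≤ ∏ t, ‖μ t‖) :
    WSysP (WM h μ) L0 := by
  refine MirW_702.wsysP h hμ ?_
  have e : ∏ t, ‖(pz z * μ) t‖ = (∏ t, ‖pz z t‖) * ∏ t, ‖μ t‖ := by
    rw [← Finset.prod_mul_distrib]
    exact Finset.prod_congr rfl fun t _ => by rw [Pi.mul_apply, norm_mul]
  rw [e]
  have h1 := one_le_pz h
  have h2 : (1 : ℝ) * 10 ^ 21 ≤ (∏ t, ‖pz z t‖) * ∏ t, ‖μ t‖ :=
    mul_le_mul h1 hM (by norm_num) (by linarith)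
  refine le_trans ?_ h2
  norm_num [L0]

/-- the mirrors of type B are far -/
theorem link (h : Z5r O z) : Link (WM h μ) L0 (fun i : FV h μ L0 => (i : V1 3)) := by
  intro w hw hB
  refine ⟨⟨w, Or.inr hw, ?_⟩, 1, one_ne_zero, by simp⟩
  apply le_of_sq_le_sq _ (norm_nonneg _)
  rw [norm_PP_sq]
  exact hB.2

/-- **WData with the numbers** -/
theorem wdataN (h : Z5r O z) (hμ : μ ∈ O) {ε : Fin 2 → ℂ} (hε : ε ∈ O) (hμs : star μ = μ * ε)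
    (hM : (10 : ℝ) ^ 21 ≤ ∏ t, ‖μ t‖) :
    WData (FV h μ L0) (fun i => (i : V1 3)) (fun i => ‖(i : V1 3).1‖ ^ 2 - ‖(i : V1 3).2‖ ^ 2)
      (1 / 3) 2 4 L0 L0 200 :=
  wdata h (deep20 h hε hμs hM) (wsys h hμ hM) le_rfl (by norm_num) numL L0_pos
    (by norm_num [L0])

/-- **the wall exists** -/
theorem wallN (h : Z5r O z) (hμ : μ ∈ O) {ε : Fin 2 → ℂ} (hε : ε ∈ O) (hμs : star μ = μ * ε)
    (hM : (10 : ℝ) ^ 21 ≤ ∏ t, ‖μ t‖) : ∃ T : C(Q0 (-3 * z 0), ℝ),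
    IsWall (fun i : FV h μ L0 => (i : V1 3)) 200 (-3 * z 0) ((27 / 10) / (1 + 27 / 10))
      (3 / (1 + 3)) T := by
  have h1 := slope_le
  have h0 := slope_nonneg
  have hc : ‖-3 * z 0‖ = 3 := by
    rw [norm_mul, (rz h.toZ5).norm, mul_one, norm_neg]
    norm_num
  refine exists_isWall (wdataN h hμ hε hμs hM) (-3 * z 0) (by norm_num) (by linarith) ?_
  rw [hc]
  norm_num
  linarith

/-- **FData with the numbers** -/
theorem fdataN (h : Z5r O z) {ε : Fin 2 → ℂ} (hε : ε ∈ O) (hμs : star μ = μ * ε)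
    (hM : (10 : ℝ) ^ 21 ≤ ∏ t, ‖μ t‖) {Fn : Lb → E3 → ℂ}
    (hdiv : ∀ a, Wei_392.Div 3 (Prod.fst '' (io h '' VV O z μ a)) (Fn a)) :
    FData (Sall (CC h μ)) (fun w => PF Fn w * QF Fn w) (S0 (z 0)) (bv (z 0) 1) (bv (z 0) 2)
      (fun i : FV h μ L0 => (i : V1 3)) (-3 * z 0) (27 / 10) 3 ((27 / 10) / (1 + 27 / 10))
      (3 / (1 + 3)) := by
  have h1 := fdataW (K := L0 ^ 2 + 2) (Λ' := L0) h (by norm_num [L0]) (deep20 h hε hμs hM)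
    (by norm_num [L0]) hdiv
  have e1 : (27 : ℝ) / 37 = (27 / 10) / (1 + 27 / 10) := by norm_num
  have e2 : (3 : ℝ) / 4 = 3 / (1 + 3) := by norm_num
  rw [e1, e2] at h1
  exact h1

/-- `Cla` with the numbers -/
theorem claN (h : Z5r O z) {ε : Fin 2 → ℂ} (hε : ε ∈ O) (hμs : star μ = μ * ε)
    (hM : (10 : ℝ) ^ 21 ≤ ∏ t, ‖μ t‖) {Fn : Lb → E3 → ℂ}
    (hdiv : ∀ a, Wei_392.Div 3 (Prod.fst '' (io h '' VV O z μ a)) (Fn a)) :
    Cla (z 0) (CC h μ) Fn :=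
  cla h (deep20 h hε hμs hM) (by norm_num [L0]) hdiv

/-- the numerical hypotheses of `LbAsm_990.exists_th` (`Λ = L0`, `r = 6`, `C = 20000`,
`kc = 200`) -/
theorem nums (h : Z5r O z) : (10 : ℝ) ^ 10 ≤ L0 ∧ ‖-3 * z 0‖ + 3 ≤ 6 ∧ (16512 : ℝ) < 20000 ∧
    6 * (20000 : ℝ) ≤ L0 ^ 2 ∧ 9 * (1 + (6 : ℝ)) ^ 2 < L0 - 1 ∧
    1 + (20000 : ℝ) + 2 * 20000 / L0 * 200 ≤ 200 ^ 2 := by
  have hc : ‖-3 * z 0‖ = 3 := by
    rw [norm_mul, (rz h.toZ5).norm, mul_one, norm_neg]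
    norm_num
  rw [hc]
  unfold L0
  norm_num

/-- the level `μ = N` (natural number) -/
theorem prod_nat (N : ℕ) : ∏ t : Fin 2, ‖((N : Fin 2 → ℂ) t)‖ = (N : ℝ) ^ 2 := by
  rw [Fin.prod_univ_two]
  simp [sq]

end

end Crest.Agent.R272.LbWd_382
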