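import Crest.Agent.R272.Lc9_220
import Crest.Agent.R272.Ins1_939

/-!
# R272, LC-MINUS (helper220), part 10: non vanishing on the base

* `nz_all`   : identity theorem on a connected manifold;
* `nz_clu`   : at a cluster point of a `GData` none of `f0, x_i, P_i, Q_i` vanishes identically;
* `nz_base`  : hence nowhere on a connected base;
* `nz_ins M` : the instance of M15.
-/

set_option autoImplicit false
set_option linter.unusedSectionVars false
set_option linter.unusedVariables false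

open Set Filter Topology

namespace Crest.Agent.R272.Lc_220

open Crest.Agent.R275.Geo Crest.Agent.R273.Fam_835 Crest.Agent.R272.Quot_783
  Crest.Agent.R272.Gr_559

noncomputable section

/-- **identity theorem** -/
theorem nz_all {n : ℕ} {X : Type} [TopologicalSpace X] [PreconnectedSpace X] {C : Fam n X}
    {f : X → ℂ} (hf : ∀ x, HolN C x f) {x₀ : X} (h0 : NZ x₀ f) (x : X) : NZ x f := by
  let S : Set X := {x | ∀ᶠ y in 𝓝 x, f y = 0}
  have h1 : IsOpen S := isOpen_iff_mem_nhds.2 fun x hx => eventually_eventually_nhds.2 hx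
  have h2 : IsClosed S := by
    rw [← closure_subset_iff_isClosed]
    intro x hx
    obtain ⟨U, hU, hxU, -, h3⟩ := exists_idt (hf x)
    obtain ⟨y, hyU, hy⟩ := mem_closure_iff.1 hx U hU hxU
    exact eventually_of_mem (hU.mem_nhds hxU) fun w hw => h3 y hyU hy w hw
  rcases isClopen_iff.1 ⟨h2, h1⟩ with h3 | h3
  · intro h4
    have : x ∈ S := h4
    rw [h3] at this
    exact this
  · exact absurd (show x₀ ∈ S by rw [h3]; exact mem_univ _) h0

variable {N : Type} [TopologicalSpace N] {F : Fam 3 N}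

/-- a non zero differential -/
theorem nz_of_dd {s : N → ℂ} {q : N} {w : ℂ} (hw : w ≠ 0)
    (h : ∀ i, q ∈ (F.e i).source → ∃ v, dd F i s q v = w) : NZ q s := by
  have h1 : ∃ᶠ z in 𝓝 q, s z ≠ 0 := by
    refine MQ_783.frequently_of_dd (F := F) fun i hi => ?_
    obtain ⟨v, hv⟩ := h i hi
    exact ⟨w⁻¹ • v, by rw [map_smul, hv, smul_eq_mul, inv_mul_cancel₀ hw]⟩
  intro h2
  exact h1 (h2.mono fun z hz => not_not.2 hz)

theorem holN_pen {U : Set N} (hU : IsOpen U) {f : N → ℂ} (h : HolF F U f) {q : N} (hq : q ∈ U) :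
    HolN F q f := (Crest.Agent.R272.Lc_220.holF_iff hU).1 h q hq

section Pen

variable {f0 x P Q : N → ℂ} {q : N} (p : Pen F f0 x P Q q)

/-- the factors `s1 - c s0` -/
theorem nz_lin (hs : ∀ i, q ∈ (F.e i).source → ∀ w0 w1 : ℂ, ∃ v : Cn 3,
    dd F i p.s0 q v = w0 ∧ dd F i p.s1 q v = w1) (c : ℂ) :
    NZ q fun z => p.s1 z - c * p.s0 z := by
  refine nz_of_dd (F := F) one_ne_zero fun i hi => ?_
  obtain ⟨v, hv0, hv1⟩ := hs i hi 0 1
  refine ⟨v, ?_⟩
  rw [dd_sub_smul p.U_open p.s1_hol p.s0_hol hi p.mem, hv0, hv1]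
  ring

theorem hol_lin (c : ℂ) : HolN F q fun z => p.s1 z - c * p.s0 z :=
  (holN_pen p.U_open p.s1_hol p.mem).sub
    ((holN_const c).mul (holN_pen p.U_open p.s0_hol p.mem))

/-- none of the four functions vanishes identically near a flat point -/
theorem nz_pen (hs : ∀ i, q ∈ (F.e i).source → ∀ w0 w1 : ℂ, ∃ v : Cn 3,
    dd F i p.s0 q v = w0 ∧ dd F i p.s1 q v = w1) : NZ q f0 ∧ NZ q x ∧ NZ q P ∧ NZ q Q := by
  have hU := p.U_open.mem_nhds p.mem
  have hq := p.mem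
  have hl := fun c => nz_lin p hs c
  have hh := fun c => hol_lin p c
  have h3 : ∀ c d e : ℂ, HolN F q (fun z => (p.s1 z - c * p.s0 z) * (p.s1 z - d * p.s0 z) *
      (p.s1 z - e * p.s0 z)) ∧ NZ q (fun z => (p.s1 z - c * p.s0 z) * (p.s1 z - d * p.s0 z) *
      (p.s1 z - e * p.s0 z)) := by
    intro c d e
    exact ⟨((hh c).mul (hh d)).mul (hh e),
      NZ.mul ((hh c).mul (hh d)) (hh e) (NZ.mul (hh c) (hh d) (hl c) (hl d)) (hl e)⟩
  refine ⟨?_, ?_, ?_, ?_⟩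
  · have hs0 : NZ q p.s0 := nz_of_dd (F := F) one_ne_zero fun i hi => by
      obtain ⟨v, hv0, -⟩ := hs i hi 1 0
      exact ⟨v, hv0⟩
    have ha := holN_pen p.U_open p.a_hol hq
    exact (NZ.mul ha (holN_pen p.U_open p.s0_hol hq)
      (nz_of_ne ha.continuousAt (p.a_ne q hq)) hs0).congr
      (eventually_of_mem hU fun z hz => p.ef z hz)
  · have hb := holN_pen p.U_open p.b_hol hq
    exact (NZ.mul hb (hh _) (nz_of_ne hb.continuousAt (p.b_ne q hq)) (hl _)).congr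
      (eventually_of_mem hU fun z hz => p.ex z hz)
  · have hu := holN_pen p.U_open p.u_hol hq
    exact (NZ.mul hu (h3 _ _ _).1 (nz_of_ne hu.continuousAt (p.u_ne q hq)) (h3 _ _ _).2).congr
      (eventually_of_mem hU fun z hz => p.eP z hz)
  · have hw := holN_pen p.U_open p.w_hol hq
    exact (NZ.mul hw (h3 _ _ _).1 (nz_of_ne hw.continuousAt (p.w_ne q hq)) (h3 _ _ _).2).congr
      (eventually_of_mem hU fun z hz => p.eQ z hz)

end Pen

variable (D : GData F)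

/-- cluster points -/
theorem nz_clu {q : N} (h0 : D.f0 q = 0) (hx : ∀ i, D.x i q = 0) :
    NZ q D.f0 ∧ ∀ i, NZ q (D.x i) ∧ NZ q (D.P i) ∧ NZ q (D.Q i) := by
  obtain ⟨p, p', hpp, hS⟩ := D.ff q h0 (hx 0) (hx 1)
  have e0 : p.s0 q = 0 := p.s0_zero h0
  have e1 : p.s1 q = 0 := p.s1_zero h0 (hx 0)
  have e1' : p'.s1 q = 0 := p'.s1_zero h0 (hx 1)
  have h1 := nz_pen p fun i hi w0 w1 => by
    obtain ⟨v, hv⟩ := hS i hi ![w0, w1, 0]
    exact ⟨v, hv 0 e0, hv 1 e1⟩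
  have h2 := nz_pen p' fun i hi w0 w1 => by
    obtain ⟨v, hv⟩ := hS i hi ![w0, 0, w1]
    refine ⟨v, ?_, hv 2 e1'⟩
    rw [hpp]
    exact hv 0 e0
  refine ⟨h1.1, fun i => ?_⟩
  fin_cases i
  · exact h1.2
  · exact h2.2

/-- nowhere on a connected base -/
theorem nz_base [PreconnectedSpace N] {q : N} (h0 : D.f0 q = 0) (hx : ∀ i, D.x i q = 0) :
    (∀ z, NZ z D.f0) ∧ (∀ i z, NZ z (D.x i)) ∧ (∀ i z, NZ z (D.P i)) ∧ ∀ i z, NZ z (D.Q i) := by
  obtain ⟨h1, h2⟩ := nz_clu D h0 hx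
  have hh : ∀ {f : N → ℂ}, HolF F univ f → ∀ z, HolN F z f := fun hf z =>
    holN_pen isOpen_univ hf (mem_univ z)
  exact ⟨nz_all (hh D.f0_hol) h1, fun i => nz_all (hh (D.x_hol i)) (h2 i).1,
    fun i => nz_all (hh (D.P_hol i)) (h2 i).2.1, fun i => nz_all (hh (D.Q_hol i)) (h2 i).2.2⟩

/-- the product of everything -/
theorem nz_prod7 [PreconnectedSpace N] {q : N} (h0 : D.f0 q = 0) (hx : ∀ i, D.x i q = 0) (z : N) :
    NZ z fun z => D.f0 z * (D.x 0 z * D.x 1 z) * ((D.P 0 z * D.P 1 z) * (D.Q 0 z * D.Q 1 z)) := by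
  obtain ⟨h1, h2, h3, h4⟩ := nz_base D h0 hx
  have hh : ∀ {f : N → ℂ}, HolF F univ f → HolN F z f := fun hf =>
    holN_pen isOpen_univ hf (mem_univ z)
  have f0 := hh D.f0_hol
  have x0 := hh (D.x_hol 0)
  have x1 := hh (D.x_hol 1)
  have P0 := hh (D.P_hol 0)
  have P1 := hh (D.P_hol 1)
  have Q0 := hh (D.Q_hol 0)
  have Q1 := hh (D.Q_hol 1)
  exact NZ.mul (f0.mul (x0.mul x1)) ((P0.mul P1).mul (Q0.mul Q1))
    (NZ.mul f0 (x0.mul x1) (h1 z) (NZ.mul x0 x1 (h2 0 z) (h2 1 z)))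
    (NZ.mul (P0.mul P1) (Q0.mul Q1) (NZ.mul P0 P1 (h3 0 z) (h3 1 z))
      (NZ.mul Q0 Q1 (h4 0 z) (h4 1 z)))

/-- the instance of M15 -/
theorem nz_ins (M : M15_939.Ar) : (∀ z, NZ z M.DX.f0) ∧ (∀ i z, NZ z (M.DX.x i)) ∧
    (∀ i z, NZ z (M.DX.P i)) ∧ ∀ i z, NZ z (M.DX.Q i) := by
  have B := M.bpt
  refine nz_base M.DX (q := M.p0) ?_ fun i => ?_
  · exact B.f0_zero
  · exact B.x_zero i

end

end Crest.Agent.R272.Lc_220
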