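import Crest.Agent.R272.Lc10_220
import Crest.Agent.R272.PEnd7_732

/-!
# R272, B + C composition (helper220): positivity of `XP` over the instance `M : Ar` of M15

`pos15` : everything except the surgery data and the germ at the cluster point is inside.
-/

set_option autoImplicit false
set_option linter.unusedSectionVars false
set_option linter.unusedVariables false

open Set Filter Topology

namespace Crest.Agent.R272.Pos15_220

open Crest.Agent.R275.Geo Crest.Agent.R275.Core144 Crest.Agent.R275.GC293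
open Crest.Agent.R273 Crest.Agent.R273.Defs_333 Crest.Agent.R273.Map_835
open Crest.Agent.R273.Fam_835
open Crest.Agent.R272.Quot_783 Crest.Agent.R272.Gr_559 Crest.Agent.R272.Refl_246
open Crest.Agent.R272.MQ_783 Crest.Agent.R272.Act_302 Crest.Agent.R272.CB_232
open Crest.Agent.R272.Sur_342 Crest.Agent.R272.PEnd_732 Crest.Agent.R272.Lc_220
open Crest.Agent.R272.M15_939

noncomputable section

variable (M : Ar)

/-- the space `X⁻` -/
abbrev Xm : Type := XM M.A

/-- the bad point of the base -/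
abbrev q0 : Orb M.G M.N := pr M.G M.p0

instance t2_Xm : T2Space (Xm M) := t2_XM M.A

instance compact_Xm : CompactSpace (Xm M) := compact_XM M.A

instance t2_N : T2Space (Orb M.G M.N) := t2_orb M.G M.N

variable {M} (hX : RA M.CX M.G) (hz : NzX M.A)

/-- equations of `L_1²` -/
def J : Eqs hX.fam univ := JX M.A hX hz

/-- equations of the branch divisor -/
def R : Eqs hX.fam univ := (LcR_783.brLE hX).eqs

theorem hJ (a : (J hX hz).α) : HolF hX.fam ((J hX hz).V a) ((J hX hz).f a) :=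
  hol_JX M.A hX hz a

theorem hR (a : (R hX).α) : HolF hX.fam ((R hX).V a) ((R hX).f a) :=
  (Crest.Agent.R272.Lc_220.holF_iff ((R hX).op a)).2 fun q hq =>
    (LcR_783.brLE hX).hol (LEq.LE_eqs _ hq)

theorem hJpos (q : Orb M.G M.N) : PosNear ((J hX hz).idl 1) (piM M.A ⁻¹' {q}) :=
  pos_JX M.A hX hz M.ra q

/-- **positivity of the surgered space** -/
theorem pos15 {e : OpenPartialHomeomorph (Xm M) Flop_66.Um} {ε : ℝ} {ε0 : 0 < ε}
    {sub : ∀ a : Flop_66.Um, a.N ≤ ε → a ∈ e.target}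
    (h : (Flop_66.sur e ε ε0 sub).Hol hX.fam Flop_66.Um.fam Flop_66.Up.fam)
    (h0 : ∀ x ∈ (Flop_66.sur e ε ε0 sub).K, piM M.A x = q0 M) (k : ℕ)
    (germ : ∀ m₀ : ℕ, ∃ mm : ℕ, m₀ ≤ mm ∧ Nonempty (PhiS (Flop_66.sur e ε ε0 sub) hX.fam
      Flop_66.Up.fam (piM M.A) (q0 M) (J hX hz) (R hX) mm k)) :
    ∃ A : Atl 3 (Flop_66.sur e ε ε0 sub).XP, Finite A.ι ∧ GoodA A ∧ Nonempty (Part A) ∧
      HolC (fam A) (Sur.fam h) id ∧ HolC (Sur.fam h) (fam A) id ∧ Nonempty (ProjD A) := by
  obtain ⟨-, hc, -, B, -, -, -, hB1, hB2, ⟨P⟩⟩ := Gi_295.base M.kd M.D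
  have hp : HolC hX.fam (fam B) (piM M.A) := hB2.comp (holC_piM M.A hX M.ra)
  exact pos_flop B (FS_333.fs_pos P) h hp (q0 M) h0 (J hX hz) (R hX) (hJ hX hz) k
    (hJpos hX hz) germ

end

end Crest.Agent.R272.Pos15_220
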