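import Crest.Agent.R272.Lc4_220

/-!
# R272, LC-MINUS (helper220), part 5: the vector of values, its behaviour under the group

* `GS.gn y`    : a generator germ at `y`; `GS.vv y e` : value of `F e / gn y` at `y`;
* `vv_ne_zero`, `val_prop` : change of generator multiplies the vector by a constant;
* `val_smul`   : `(F e ∘ g) / (F a)` at `y` is proportional to `vv (g • y)`.
-/

set_option autoImplicit false
set_option linter.unusedSectionVars false
set_option linter.unusedVariables false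

open Set Filter Topology

namespace Crest.Agent.R272.Lc_220

open Crest.Agent.R275.Geo Crest.Agent.R273.Fam_835 Crest.Agent.R272.Refl_246
open Crest.Agent.R272.MQ_783 Crest.Agent.R272.CB_232

noncomputable section

variable {n : ℕ} {Y : Type} [TopologicalSpace Y] {C : Fam n Y} {E : Type}

/-- pull back of a value along a biholomorphic map -/
theorem qv_comp {f g : Y → ℂ} {p : Y → Y} {y : Y} (hp : HolC C C p) (hd : Dvd C (p y) g f)
    (hg : HolN C y fun v => g (p v)) (h0 : NZ y fun v => g (p v)) (hg' : HolN C (p y) g)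
    (h0' : NZ (p y) g) : qv C y (fun v => g (p v)) (fun v => f (p v)) = qv C (p y) g f := by
  obtain ⟨u, hu, he⟩ := hd
  rw [qv_eq hg' h0' hu he]
  exact qv_eq (h := fun v => u (p v)) hg h0 (hu.comp hp) (hp.cont.continuousAt.eventually he)

/-- change of the generator, all values at once -/
theorem qv_change {ι : Type*} {f : ι → Y → ℂ} {g g' : Y → ℂ} {y : Y} (h1 : Asc C y g' g)
    (hg : HolN C y g) (h0 : NZ y g) (h2 : ∀ i, Dvd C y g (f i)) :
    ∃ c : ℂ, c ≠ 0 ∧ ∀ i, qv C y g' (f i) = c * qv C y g (f i) := by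
  have hg' := h1.hol hg
  have h0' := h1.nz hg h0
  obtain ⟨v, hv, hv0, hv2⟩ := h1.symm
  refine ⟨v y, hv0, fun i => ?_⟩
  obtain ⟨a, ha, ha2⟩ := h2 i
  rw [qv_eq hg h0 ha ha2]
  exact qv_eq hg' h0' (h := fun y => v y * a y) (hv.mul ha) (f := f i)
    ((ha2.and hv2).mono fun y hy => by rw [hy.1, hy.2]; ring)

/-- change of the numerator by a unit -/
theorem qv_unit {f f' g : Y → ℂ} {y : Y} (h1 : Asc C y f' f) (hg : HolN C y g) (h0 : NZ y g)
    (h2 : Dvd C y g f) : ∃ c : ℂ, c ≠ 0 ∧ qv C y g f' = c * qv C y g f := by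
  obtain ⟨a, ha, ha2⟩ := h2
  obtain ⟨u, hu, hu0, hu2⟩ := h1
  refine ⟨u y, hu0, ?_⟩
  rw [qv_eq hg h0 ha ha2]
  exact qv_eq (h := fun y => u y * a y) hg h0 (hu.mul ha)
    ((ha2.and hu2).mono fun y hy => by rw [hy.2, hy.1]; ring)

namespace GS

variable (S : GS C E)

/-- a generator germ at `y` -/
def gn (y : Y) : Y → ℂ := (S.exists_isG y).choose

theorem gn_isG (y : Y) : S.IsG y (S.gn y) := (S.exists_isG y).choose_spec

/-- the vector of values at `y` -/
def vv (y : Y) (e : E) : ℂ := qv C y (S.gn y) (S.F e)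

variable {S}

theorem val_prop {y : Y} {g : Y → ℂ} (hg : S.IsG y g) :
    ∃ c : ℂ, c ≠ 0 ∧ ∀ e, qv C y g (S.F e) = c * S.vv y e :=
  qv_change (hg.asc (S.gn_isG y)) (S.gn_isG y).hol (S.gn_isG y).nz (S.gn_isG y).dvd

theorem vv_ne_zero (y : Y) : S.vv y ≠ 0 := by
  obtain ⟨a, ha⟩ := S.gen y
  obtain ⟨c, hc, h1⟩ := val_prop (IsGen.isG ha)
  intro h0
  have h2 := h1 a
  rw [qv_self (S.hol a y) (IsGen.nz ha), h0] at h2
  simp at h2

variable {G : Type} [Group G] [MulAction G Y]

theorem dvd_smul (hst : S.St G) (hol : ∀ g : G, HolC C C (fun y => g • y)) {y : Y} (g : G)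
    {f : Y → ℂ} (hf : S.IsG y f) (e : E) : Dvd C y f fun v => S.F e (g • v) := by
  obtain ⟨e', he'⟩ := hst g y e
  exact he'.dvd.trans (hf.dvd e')

theorem hol_smul (hol : ∀ g : G, HolC C C (fun y => g • y)) {y : Y} (g : G) (e : E) :
    HolN C y fun v => S.F e (g • v) :=
  HolN.comp (C := C) (D := C) (p := fun v => g • v) (S.hol e (g • y)) (hol g)

/-- the values at `y` of the functions moved by `g` -/
theorem val_smul (hst : S.St G) (hol : ∀ g : G, HolC C C (fun y => g • y)) {y : Y} (g : G)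
    {f : Y → ℂ} (hf : S.IsG y f) :
    ∃ c : ℂ, c ≠ 0 ∧ ∀ e, qv C y f (fun v => S.F e (g • v)) = c * S.vv (g • y) e := by
  have h1 := S.gn_isG (g • y)
  have h2 : S.IsG y fun v => S.gn (g • y) (g • v) := h1.smul hst hol g
  obtain ⟨c, hc, h3⟩ := qv_change (f := fun e v => S.F e (g • v)) (hf.asc h2) h2.hol h2.nz
    (fun e => dvd_smul hst hol g h2 e)
  refine ⟨c, hc, fun e => ?_⟩
  rw [h3 e]
  congr 1
  exact qv_comp (C := C) (p := fun v => g • v) (hol g) (h1.dvd e) h2.hol h2.nz h1.hol h1.nz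

end GS

end

end Crest.Agent.R272.Lc_220
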