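import Crest.Agent.R272.Lc5_220

/-!
# R272, LC-MINUS (helper220), part 6: the sections near a fibre over the base

`P : Y → N` equivariant and continuous; `B : BV G z` a small neighbourhood of `z : N`
(`V`, `s`: the only possible non trivial element with `g • v ∈ V`).
* `T B P p`    : descent of `F e * (F e' ∘ s) + F e' * (F e ∘ s)`, `p = (e, e')`;
* `val_T`      : its values are the symmetric product of `vv y` and `vv (s • y)`;
* `secT`       : section of `J2` over the preimage of `pr '' V`;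
* `secT_nz`, `secT_fin` : no common zero, finite fibres.
-/

set_option autoImplicit false
set_option linter.unusedSectionVars false
set_option linter.unusedVariables false

open Set Filter Topology

namespace Crest.Agent.R272.Lc_220

open Crest.Agent.R275.Geo Crest.Agent.R273.Fam_835 Crest.Agent.R272.Refl_246
open Crest.Agent.R272.MQ_783 Crest.Agent.R272.CB_232

noncomputable section

/-- small neighbourhood of a point of the base -/
structure BV (G : Type) [Group G] {N : Type} [TopologicalSpace N] [MulAction G N] (z : N) where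
  V : Set N
  s : G
  op : IsOpen V
  mem : z ∈ V
  ss : s * s = 1
  sV : ∀ v ∈ V, s • v ∈ V
  two : ∀ g : G, ∀ v ∈ V, g • v ∈ V → g = 1 ∨ g = s
  sz : s • z = z

section

variable {G N : Type} [Group G] [TopologicalSpace N] [MulAction G N]

theorem exists_BV {l : ℕ} {D : Fam l N} [ContinuousConstSMul G N] (h : RA D G) (z : N) :
    Nonempty (BV G z) := by
  obtain ⟨c0, hc0⟩ := h.cov z
  obtain ⟨c, hc, hfix⟩ := exists_RC_fix (h.pd z) c0 hc0
  rcases hk : c.k with _ | ⟨s, a⟩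
  · exact ⟨⟨c.e.source, 1, c.e.open_source, hc, one_mul 1, fun v hv => by rwa [one_smul],
      fun g v hv hgv => Or.inl (c.free hk g v hv hgv), one_smul G z⟩⟩
  · have hss : s * s = 1 := by
      have h1 : (s * s) • z = z := by rw [mul_smul]; exact RC.invol c hk hc
      rcases c.two s a hk (s * s) z hc (by rw [h1]; exact hc) with h2 | h2
      · exact h2
      · have : s = 1 := by
          have h3 : s * s = s * 1 := by rw [h2, mul_one]
          exact mul_left_cancel h3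
        rw [this, one_mul]
    exact ⟨⟨c.e.source, s, c.e.open_source, hc, hss, c.inv s a hk, c.two s a hk,
      hfix s a hk⟩⟩

end

variable {n : ℕ} {Y N : Type} [TopologicalSpace Y] [TopologicalSpace N] {C : Fam n Y} {E : Type}
  {G : Type} [Group G] [MulAction G Y] [MulAction G N] {P : Y → N} {z : N}

namespace GS

variable (S : GS C E) (B : BV G z)

/-- upstairs -/
def SS (p : E × E) (y : Y) : ℂ :=
  S.F p.1 y * S.F p.2 (B.s • y) + S.F p.2 y * S.F p.1 (B.s • y)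

theorem SS_smul (p : E × E) (y : Y) : S.SS B p (B.s • y) = S.SS B p y := by
  unfold SS
  rw [← mul_smul, B.ss, one_smul]
  ring

variable (P) in
open Classical in
/-- the descended function -/
def T (p : E × E) (q : Orb G Y) : ℂ :=
  if h : ∃ y, P y ∈ B.V ∧ pr G y = q then S.SS B p h.choose else 0

variable {S B}

theorem T_pr (hP : ∀ (g : G) y, P (g • y) = g • P y) (p : E × E) {y : Y} (hy : P y ∈ B.V) :
    S.T P B p (pr G y) = S.SS B p y := by
  have h : ∃ y', P y' ∈ B.V ∧ pr G y' = pr G y := ⟨y, hy, rfl⟩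
  unfold T
  rw [dif_pos h]
  obtain ⟨h1, h2⟩ := h.choose_spec
  obtain ⟨g, hg⟩ := pr_eq_iff.1 h2.symm
  have h3 : g • P y ∈ B.V := by
    rw [← hP, hg]; exact h1
  rcases B.two g (P y) hy h3 with h4 | h4
  · rw [← hg, h4, one_smul]
  · rw [← hg, h4, SS_smul]

variable [ContinuousConstSMul G Y] [Nonempty Y]

theorem T_pr_ev (hPc : Continuous P) (hP : ∀ (g : G) y, P (g • y) = g • P y) (p : E × E) {y : Y}
    (hy : P y ∈ B.V) : ∀ᶠ v in 𝓝 y, S.T P B p (pr G v) = S.SS B p v := by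
  filter_upwards [(B.op.preimage hPc).mem_nhds hy] with v hv
  exact T_pr hP p hv

/-- `F e * (F e' ∘ s)` and its value -/
theorem SS_dvd (hst : S.St G) (hol : ∀ g : G, HolC C C (fun y => g • y)) (p : E × E) {y : Y}
    {g : Y → ℂ} (hg : S.IsG y g) : Dvd C y (fun v => g v * g v) (S.SS B p) := by
  have h1 : Dvd C y (fun v => g v * g v) fun v => S.F p.1 v * S.F p.2 (B.s • v) :=
    (hg.dvd p.1).mul (dvd_smul hst hol B.s hg p.2)
  have h2 : Dvd C y (fun v => g v * g v) fun v => S.F p.2 v * S.F p.1 (B.s • v) :=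
    (hg.dvd p.2).mul (dvd_smul hst hol B.s hg p.1)
  exact h1.add h2

theorem SS_val (hst : S.St G) (hol : ∀ g : G, HolC C C (fun y => g • y)) {y : Y} {g : Y → ℂ}
    (hg : S.IsG y g) : ∃ c : ℂ, c ≠ 0 ∧ ∀ p : E × E,
      qv C y (fun v => g v * g v) (S.SS B p) = c * sm (S.vv y) (S.vv (B.s • y)) p := by
  obtain ⟨c, hc, h1⟩ := val_prop hg
  obtain ⟨d, hd, h2⟩ := val_smul hst hol B.s hg
  refine ⟨c * d, mul_ne_zero hc hd, fun p => ?_⟩
  have hgg : HolN C y fun v => g v * g v := hg.hol.mul hg.hol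
  have hgz : NZ y fun v => g v * g v := NZ.mul hg.hol hg.hol hg.nz hg.nz
  obtain ⟨a1, ha1, hb1⟩ := hg.dvd p.1
  obtain ⟨a2, ha2, hb2⟩ := hg.dvd p.2
  obtain ⟨a3, ha3, hb3⟩ := dvd_smul hst hol B.s hg p.1
  obtain ⟨a4, ha4, hb4⟩ := dvd_smul hst hol B.s hg p.2
  have e1 := qv_eq hg.hol hg.nz ha1 hb1
  have e2 := qv_eq hg.hol hg.nz ha2 hb2
  have e3 := qv_eq hg.hol hg.nz ha3 hb3
  have e4 := qv_eq hg.hol hg.nz ha4 hb4
  rw [h1] at e1 e2
  rw [h2] at e3 e4
  have h3 : qv C y (fun v => g v * g v) (S.SS B p) = a1 y * a4 y + a2 y * a3 y := by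
    refine qv_eq (h := fun v => a1 v * a4 v + a2 v * a3 v) hgg hgz
      ((ha1.mul ha4).add (ha2.mul ha3)) ?_
    filter_upwards [hb1, hb2, hb3, hb4] with v h3 h4 h5 h6
    unfold SS
    rw [h3, h4, h5, h6]
    ring
  rw [h3, ← e1, ← e2, ← e3, ← e4]
  simp only [sm]
  ring

/-- the values downstairs -/
theorem val_T (h : RA C G) (hst : S.St G) (hPc : Continuous P)
    (hP : ∀ (g : G) y, P (g • y) = g • P y) {y : Y} (hy : P y ∈ B.V) {f : Orb G Y → ℂ}
    (hf : S.LE y f) : ∃ c : ℂ, c ≠ 0 ∧ ∀ p : E × E,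
      qv h.fam (pr G y) (fun q => f q ^ 1) (S.T P B p) = c * sm (S.vv y) (S.vv (B.s • y)) p := by
  have hg := S.gn_isG y
  have hgg : HolN C y fun v => S.gn y v * S.gn y v := hg.hol.mul hg.hol
  have hgz : NZ y fun v => S.gn y v * S.gn y v := NZ.mul hg.hol hg.hol hg.nz hg.nz
  have h1 : Asc C y (fun v => f (pr G v) ^ 1) fun v => S.gn y v * S.gn y v :=
    (hf.all hg).congr (Eventually.of_forall fun v => pow_one _) (Eventually.of_forall fun _ => rfl)
  have h2 : ∀ p, Dvd C y (fun v => S.gn y v * S.gn y v) fun v => S.T P B p (pr G v) := fun p =>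
    (SS_dvd hst h.hol p hg).congr (Eventually.of_forall fun _ => rfl) (T_pr_ev hPc hP p hy)
  obtain ⟨c, hc, h3⟩ := qv_change h1 hgg hgz h2
  obtain ⟨d, hd, h4⟩ := SS_val (B := B) hst h.hol hg
  refine ⟨c * d, mul_ne_zero hc hd, fun p => ?_⟩
  rw [qv_pr h (F := S.T P B p) (H := fun q => f q ^ 1) (h1.hol hgg) (h1.nz hgg hgz), h3 p]
  have h5 : qv C y (fun v => S.gn y v * S.gn y v) (fun v => S.T P B p (pr G v)) =
      qv C y (fun v => S.gn y v * S.gn y v) (S.SS B p) := by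
    obtain ⟨u, hu, he⟩ := SS_dvd (B := B) hst h.hol p hg
    rw [qv_eq hgg hgz hu he]
    exact qv_eq hgg hgz hu (((T_pr_ev hPc hP p hy).and he).mono fun v hv => by
      rw [hv.1, hv.2])
  rw [h5, h4 p]
  ring

/-- the open set over which the sections live -/
def WB (P : Y → N) (hP : ∀ (g : G) y, P (g • y) = g • P y) (B : BV G z) : Set (Orb G Y) :=
  orbMap P hP ⁻¹' (pr G '' B.V)

theorem isOpen_WB [ContinuousConstSMul G N] (hPc : Continuous P)
    (hP : ∀ (g : G) y, P (g • y) = g • P y) (B : BV G z) : IsOpen (WB P hP B) :=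
  (isOpenQuotientMap_pr.isOpenMap _ B.op).preimage (continuous_orbMap hPc hP)

theorem exists_rep (hP : ∀ (g : G) y, P (g • y) = g • P y) {q : Orb G Y} (hq : q ∈ WB P hP B) :
    ∃ y, P y ∈ B.V ∧ pr G y = q := by
  obtain ⟨y, rfl⟩ := surjective_pr (G := G) q
  obtain ⟨v, hv, hvy⟩ := hq
  rw [orbMap_pr] at hvy
  obtain ⟨g, hg⟩ := pr_eq_iff.1 hvy.symm
  exact ⟨g • y, by rw [hP, hg]; exact hv, pr_smul g y⟩

theorem T_dvd [Finite E] (h : RA C G) (hst : S.St G) (hPc : Continuous P)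
    (hP : ∀ (g : G) y, P (g • y) = g • P y) (p : E × E) (q : Orb G Y) (hq : q ∈ WB P hP B) :
    ∃ f, (S.leq h hst).LE q f ∧ Dvd h.fam q (fun q => f q ^ 1) (S.T P B p) := by
  obtain ⟨y, hy, rfl⟩ := exists_rep hP hq
  obtain ⟨f, hf⟩ := exists_LE h hst y
  refine ⟨f, (leq_LE h hst).2 hf, ?_⟩
  have hg := S.gn_isG y
  have h1 : Asc C y (fun v => f (pr G v) ^ 1) fun v => S.gn y v * S.gn y v :=
    (hf.all hg).congr (Eventually.of_forall fun v => pow_one _) (Eventually.of_forall fun _ => rfl)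
  have hgg : HolN C y fun v => S.gn y v * S.gn y v := hg.hol.mul hg.hol
  have hgz : NZ y fun v => S.gn y v * S.gn y v := NZ.mul hg.hol hg.hol hg.nz hg.nz
  refine (dvd_desc h (H := fun q => f q ^ 1) (h1.hol hgg) (h1.nz hgg hgz)).2 ?_
  have h2 : Dvd C y (fun v => S.gn y v * S.gn y v) fun v => S.T P B p (pr G v) :=
    (SS_dvd hst h.hol p hg).congr (Eventually.of_forall fun _ => rfl) (T_pr_ev hPc hP p hy)
  exact h2.trans h1.symm.dvd

/-- the sections -/
def secT [Finite E] (h : RA C G) (hst : S.St G) (hPc : Continuous P)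
    (hP : ∀ (g : G) y, P (g • y) = g • P y) (B : BV G z) (p : E × E) :
    Sec (S.J2 h hst) (WB P hP B) :=
  (S.leq h hst).sec 1 (F := S.T P B p) (T_dvd h hst hPc hP p)

/-- the values of the sections -/
theorem secT_val [Finite E] (h : RA C G) (hst : S.St G) (hPc : Continuous P)
    (hP : ∀ (g : G) y, P (g • y) = g • P y) {y : Y} (hy : P y ∈ B.V)
    {a : (S.J2 h hst).α} (ha : pr G y ∈ (S.J2 h hst).V a) : ∃ c : ℂ, c ≠ 0 ∧ ∀ p : E × E,
      (secT h hst hPc hP B p).s a (pr G y) = c * sm (S.vv y) (S.vv (B.s • y)) p := by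
  have hf : S.LE y ((S.leq h hst).eqs.f a) := (leq_LE h hst).1 ((S.leq h hst).LE_eqs ha)
  obtain ⟨c, hc, h1⟩ := val_T (B := B) h hst hPc hP hy hf
  refine ⟨c, hc, fun p => ?_⟩
  rw [← h1 p]
  exact (S.leq h hst).sec_s 1 (F := S.T P B p) (T_dvd h hst hPc hP p) ha
    ⟨P y, hy, (orbMap_pr hP y).symm⟩

variable [Fintype E]

theorem secT_nz (h : RA C G) (hst : S.St G) (hPc : Continuous P)
    (hP : ∀ (g : G) y, P (g • y) = g • P y) (x : Orb G Y) (hx : x ∈ WB P hP B) :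
    ∃ p a, x ∈ (S.J2 h hst).V a ∧ (secT h hst hPc hP B p).s a x ≠ 0 := by
  classical
  obtain ⟨y, hy, rfl⟩ := exists_rep hP hx
  obtain ⟨a, ha⟩ := (S.J2 h hst).cov (pr G y) (mem_univ _)
  obtain ⟨c, hc, h1⟩ := secT_val (B := B) h hst hPc hP hy ha
  have h2 := sm_ne_zero (S.vv_ne_zero y) (S.vv_ne_zero (B.s • y))
  obtain ⟨p, hp⟩ : ∃ p, sm (S.vv y) (S.vv (B.s • y)) p ≠ 0 := by
    by_contra hcon
    push Not at hcon
    exact h2 (funext hcon)
  refine ⟨p, a, ha, ?_⟩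
  rw [h1 p]
  exact mul_ne_zero hc hp

/-- finite fibres upstairs -/
def FinV (S : GS C E) (P : Y → N) : Prop :=
  ∀ y₀, {y | P y = P y₀ ∧ ∃ c : ℂ, S.vv y = c • S.vv y₀}.Finite

theorem secT_fin (h : RA C G) (hst : S.St G) (hPc : Continuous P)
    (hP : ∀ (g : G) y, P (g • y) = g • P y) (hfin : S.FinV P) (q : Orb G Y)
    (hq : q ∈ orbMap P hP ⁻¹' {pr G z}) :
    ∃ a, q ∈ (S.J2 h hst).V a ∧ {x | x ∈ orbMap P hP ⁻¹' {pr G z} ∧ ∀ b,
      x ∈ (S.J2 h hst).V b → ∀ k l, (secT h hst hPc hP B k).s a q * (secT h hst hPc hP B l).s b x =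
        (secT h hst hPc hP B l).s a q * (secT h hst hPc hP B k).s b x}.Finite := by
  classical
  have hrep : ∀ x ∈ orbMap P hP ⁻¹' {pr G z}, ∃ y, P y = z ∧ pr G y = x := by
    intro x hx
    obtain ⟨y, rfl⟩ := surjective_pr (G := G) x
    have hx' : pr G (P y) = pr G z := hx
    obtain ⟨g, hg⟩ := pr_eq_iff.1 hx'
    exact ⟨g • y, by rw [hP, hg], pr_smul g y⟩
  obtain ⟨y₀, hy₀, rfl⟩ := hrep q hq
  obtain ⟨a, ha⟩ := (S.J2 h hst).cov (pr G y₀) (mem_univ _)
  refine ⟨a, ha, ?_⟩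
  obtain ⟨c₀, hc₀, h₀⟩ := secT_val (B := B) h hst hPc hP (by rw [hy₀]; exact B.mem) ha
  have h2 := sm_ne_zero (S.vv_ne_zero y₀) (S.vv_ne_zero (B.s • y₀))
  obtain ⟨p₀, hp₀⟩ : ∃ p, sm (S.vv y₀) (S.vv (B.s • y₀)) p ≠ 0 := by
    by_contra hcon
    push Not at hcon
    exact h2 (funext hcon)
  refine (((hfin y₀).image (pr G)).union ((hfin y₀).image (pr G))).subset ?_
  rintro x ⟨hx, hx2⟩
  obtain ⟨y, hy, rfl⟩ := hrep x hx
  obtain ⟨b, hb⟩ := (S.J2 h hst).cov (pr G y) (mem_univ _)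
  obtain ⟨c, hc, h1⟩ := secT_val (B := B) h hst hPc hP (by rw [hy]; exact B.mem) hb
  have h3 : sm (S.vv y) (S.vv (B.s • y)) =
      (sm (S.vv y) (S.vv (B.s • y)) p₀ / sm (S.vv y₀) (S.vv (B.s • y₀)) p₀) •
        sm (S.vv y₀) (S.vv (B.s • y₀)) := by
    funext p
    have h4 := hx2 b hb p₀ p
    rw [h₀, h₀, h1, h1] at h4
    rw [Pi.smul_apply, smul_eq_mul]
    have h5 : c₀ * c ≠ 0 := mul_ne_zero hc₀ hc
    field_simp
    refine mul_left_cancel₀ h5 ?_
    linear_combination h4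
  rcases prop_of_sm (S.vv_ne_zero y₀) h3 with h4 | h4
  · left
    exact ⟨y, ⟨by rw [hy, hy₀], h4⟩, rfl⟩
  · right
    refine ⟨B.s • y, ⟨?_, h4⟩, pr_smul B.s y⟩
    rw [hP, hy, hy₀, B.sz]

end GS

end

end Crest.Agent.R272.Lc_220
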