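import Crest.Agent.R272.Lc6_220
import Crest.Agent.R272.FinCB1_876

/-!
# R272, LC-MINUS (helper220), part 7: **positivity of `J2 = L²` near every fibre of `X^- → M`**

`pos_J2` : `P : Y → N` equivariant, continuous, finite fibres of the value vectors on the fibres of
`P`; then `J2` is positive near `(orbMap P)⁻¹ {q}` for every `q : Orb G N`.
-/

set_option autoImplicit false
set_option linter.unusedSectionVars false
set_option linter.unusedVariables false

open Set Filter Topology

namespace Crest.Agent.R272.Lc_220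

open Crest.Agent.R275.Geo Crest.Agent.R273.Fam_835 Crest.Agent.R272.Refl_246
open Crest.Agent.R272.MQ_783 Crest.Agent.R272.CB_232

noncomputable section

variable {n : ℕ} {Y N : Type} [TopologicalSpace Y] [TopologicalSpace N] {C : Fam n Y} {E : Type}
  {G : Type} [Group G] [MulAction G Y] [MulAction G N] {P : Y → N}
  [ContinuousConstSMul G Y] [Nonempty Y] [ContinuousConstSMul G N] [Fintype E]

/-- **positivity near the fibres** -/
theorem GS.pos_J2 [CompactSpace (Orb G Y)] [T2Space (Orb G Y)] [T1Space (Orb G N)]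
    (S : GS C E) (h : RA C G) (hst : S.St G) (hPc : Continuous P)
    (hP : ∀ (g : G) y, P (g • y) = g • P y) (hB : ∀ z : N, Nonempty (BV G z))
    (hfin : S.FinV P) (q : Orb G N) : PosNear (S.J2 h hst) (orbMap P hP ⁻¹' {q}) := by
  obtain ⟨z, rfl⟩ := surjective_pr (G := G) q
  obtain ⟨B⟩ := hB z
  have hK : IsCompact (orbMap P hP ⁻¹' {pr G z}) :=
    (isClosed_singleton.preimage (continuous_orbMap hPc hP)).isCompact
  have hKW : orbMap P hP ⁻¹' {pr G z} ⊆ GS.WB P hP B := by
    intro x hx
    have hx' : orbMap P hP x = pr G z := hx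
    exact ⟨z, B.mem, hx'.symm⟩
  exact PosNear.of_fin hK (GS.isOpen_WB hPc hP B) hKW (GS.secT h hst hPc hP B)
    (fun x hx => GS.secT_nz h hst hPc hP x (hKW hx))
    (fun q hq => GS.secT_fin h hst hPc hP hfin q hq)

end

end Crest.Agent.R272.Lc_220
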