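import Crest.Agent.R272.Lc7_220
import Crest.Agent.R272.GrP1_559

/-!
# R272, LC-MINUS (helper220), part 8: generator systems from pairs of functions

Pairs `(a k, b k)`, `k : K`, with ratio `t k y : P1`.
* `PairAt C a b t y` : near `y` the ratio `[a : b]` is `[f : g]`, `f`, `g` holomorphic without common
  zero, with value `t`;
* `ofPairs`          : the products `∏ (a k or b k)` form a generator system;
* `finV_ofPairs`     : finite fibres; `st_ofPairs` : stability.
-/

set_option autoImplicit false
set_option linter.unusedSectionVars false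
set_option linter.unusedVariables false

open Set Filter Topology

namespace Crest.Agent.R272.Lc_220

open Crest.Agent.R275.Geo Crest.Agent.R273.Fam_835
open Crest.Agent.R272.Gr_559

noncomputable section

variable {n : ℕ} {Y : Type} [TopologicalSpace Y] {C : Fam n Y}

theorem asc_prod {κ : Type*} (s : Finset κ) {f g : κ → Y → ℂ} {y : Y}
    (h : ∀ k ∈ s, Asc C y (f k) (g k)) :
    Asc C y (fun v => ∏ k ∈ s, f k v) fun v => ∏ k ∈ s, g k v := by
  classical
  induction s using Finset.induction_on with
  | empty => simpa using Asc.refl (C := C) (x := y) (fun _ => (1 : ℂ))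
  | insert a s ha ih =>
    have h1 := (h a (Finset.mem_insert_self a s)).mul
      (ih fun k hk => h k (Finset.mem_insert_of_mem hk))
    simp only [Finset.prod_insert ha]
    exact h1

/-- `[a : b]` has the value `t` at `y` -/
def PairAt (C : Fam n Y) (a b : Y → ℂ) (t : P1) (y : Y) : Prop :=
  ∃ f g, HolN C y f ∧ HolN C y g ∧ f y * P1.d t = g y * P1.n t ∧ (f y ≠ 0 ∨ g y ≠ 0) ∧
    ∀ᶠ v in 𝓝 y, a v * g v = b v * f v

theorem P1_cases (t : P1) : (P1.d t = 0 ∧ P1.n t = 1) ∨ P1.d t = 1 := by
  induction t using OnePoint.rec with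
  | infty => exact Or.inl ⟨rfl, rfl⟩
  | coe c => exact Or.inr rfl

theorem P1_ext {t t' : P1} (h : P1.n t * P1.d t' = P1.d t * P1.n t') : t = t' := by
  have h1 := (P1.rel_iff (P1.nd_ne t) t').1 h
  rw [h1, P1.mk_nd]

/-- the generator of a pair and the values -/
theorem PairAt.gen {a b : Y → ℂ} {t : P1} {y : Y} (h : PairAt C a b t y) :
    ∃ ua ub : Y → ℂ, HolN C y ua ∧ HolN C y ub ∧ ua y = P1.n t ∧ ub y = P1.d t ∧
      (∀ᶠ v in 𝓝 y, a v = ua v * (if P1.d t = 0 then a v else b v)) ∧
      ∀ᶠ v in 𝓝 y, b v = ub v * (if P1.d t = 0 then a v else b v) := by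
  obtain ⟨f, g, hf, hg, he, h0, hr⟩ := h
  rcases P1_cases t with ⟨hd, hn⟩ | hd
  · rw [hd, hn, mul_zero, mul_one] at he
    have hf0 : f y ≠ 0 := h0.resolve_right fun h => h he.symm
    refine ⟨fun _ => 1, fun v => g v / f v, holN_const 1, hg.div hf hf0, hn.symm, ?_, ?_, ?_⟩
    · show g y / f y = _
      rw [← he, zero_div, hd]
    · refine Eventually.of_forall fun v => ?_
      rw [if_pos hd, one_mul]
    · filter_upwards [hr, hf.continuousAt.eventually_ne hf0] with v h1 h2
      rw [if_pos hd]
      field_simp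
      linear_combination -h1
  · rw [hd, mul_one] at he
    have hg0 : g y ≠ 0 := by
      intro h1
      rw [h1, zero_mul] at he
      rcases h0 with h2 | h2
      · exact h2 he
      · exact h2 h1
    have hd0 : P1.d t ≠ 0 := by rw [hd]; exact one_ne_zero
    refine ⟨fun v => f v / g v, fun _ => 1, hf.div hg hg0, holN_const 1, ?_, hd.symm, ?_, ?_⟩
    · show f y / g y = _
      rw [he]; field_simp
    · filter_upwards [hr, hg.continuousAt.eventually_ne hg0] with v h1 h2
      rw [if_neg hd0]
      field_simp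
      linear_combination h1
    · refine Eventually.of_forall fun v => ?_
      rw [if_neg hd0, one_mul]

theorem dvd_prod {κ : Type*} (s : Finset κ) {f g : κ → Y → ℂ} {y : Y}
    (h : ∀ k ∈ s, Dvd C y (g k) (f k)) :
    Dvd C y (fun v => ∏ k ∈ s, g k v) fun v => ∏ k ∈ s, f k v := by
  classical
  induction s using Finset.induction_on with
  | empty => simpa using Dvd.refl (C := C) (x := y) (fun _ => (1 : ℂ))
  | insert a s ha ih =>
    have h1 := (h a (Finset.mem_insert_self a s)).mul
      (ih fun k hk => h k (Finset.mem_insert_of_mem hk))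
    simp only [Finset.prod_insert ha]
    exact h1

section Pairs

variable {K : Type} [Fintype K]

/-- the products -/
def sel (a b : K → Y → ℂ) (e : K → Bool) (y : Y) : ℂ := ∏ k, if e k then a k y else b k y

/-- the choice of the generator -/
def cho (t : K → P1) (k : K) : Bool := open Classical in decide (P1.d (t k) = 0)

theorem sel_cho (a b : K → Y → ℂ) (t : K → P1) (y : Y) :
    sel a b (cho t) y = ∏ k, if P1.d (t k) = 0 then a k y else b k y := by
  unfold sel cho
  refine Finset.prod_congr rfl fun k _ => ?_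
  simp only [decide_eq_true_eq]

variable {a b : K → Y → ℂ} {t : K → Y → P1}

theorem hol_sel (ha : ∀ k y, HolN C y (a k)) (hb : ∀ k y, HolN C y (b k)) (e : K → Bool) (y : Y) :
    HolN C y (sel a b e) := by
  refine holN_prod Finset.univ (F := fun k y => if e k then a k y else b k y) fun k _ => ?_
  cases e k
  · simpa using hb k y
  · simpa using ha k y

/-- division by the generator, with values -/
theorem sel_div (hp : ∀ k y, PairAt C (a k) (b k) (t k y) y) (e : K → Bool) (y : Y) :
    ∃ u : Y → ℂ, HolN C y u ∧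
      u y = ∏ k, (if e k then P1.n (t k y) else P1.d (t k y)) ∧
      ∀ᶠ v in 𝓝 y, sel a b e v = u v * sel a b (cho fun k => t k y) v := by
  choose ua ub h1 h2 h3 h4 h5 h6 using fun k => (hp k y).gen
  refine ⟨fun v => ∏ k, if e k then ua k v else ub k v, ?_, ?_, ?_⟩
  · refine holN_prod Finset.univ (F := fun k y => if e k then ua k y else ub k y) fun k _ => ?_
    cases e k
    · simpa using h2 k
    · simpa using h1 k
  · refine Finset.prod_congr rfl fun k _ => ?_
    cases e k
    · simpa using h4 k
    · simpa using h3 k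
  · filter_upwards [eventually_all.2 h5, eventually_all.2 h6] with v h7 h8
    rw [sel_cho, ← Finset.prod_mul_distrib]
    refine Finset.prod_congr rfl fun k _ => ?_
    cases e k
    · simpa using h8 k
    · simpa using h7 k

/-- **generator system from pairs** -/
def ofPairs (ha : ∀ k y, HolN C y (a k)) (hb : ∀ k y, HolN C y (b k))
    (hp : ∀ k y, PairAt C (a k) (b k) (t k y) y) (hz : ∀ k y, NZ y (a k) ∨ NZ y (b k)) :
    GS C (K → Bool) where
  F := sel a b
  hol := hol_sel ha hb
  nz y := by
    classical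
    refine ⟨fun k => decide (NZ y (a k)), ?_⟩
    refine nz_prod (C := C) Finset.univ
      (F := fun k v => if decide (NZ y (a k)) = true then a k v else b k v)
      (fun k _ => ?_) (fun k _ => ?_)
    · by_cases h : NZ y (a k)
      · simpa [h] using ha k y
      · simpa [h] using hb k y
    · by_cases h : NZ y (a k)
      · simpa [h] using h
      · simpa [h] using (hz k y).resolve_left h
  gen y := ⟨cho fun k => t k y, fun e => by
    obtain ⟨u, hu, -, he⟩ := sel_div hp e y
    exact ⟨u, hu, he⟩⟩

variable (ha : ∀ k y, HolN C y (a k)) (hb : ∀ k y, HolN C y (b k))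
  (hp : ∀ k y, PairAt C (a k) (b k) (t k y) y) (hz : ∀ k y, NZ y (a k) ∨ NZ y (b k))

theorem isGen_cho (y : Y) : (ofPairs ha hb hp hz).IsGen y (cho fun k => t k y) := fun e => by
  obtain ⟨u, hu, -, he⟩ := sel_div hp e y
  exact ⟨u, hu, he⟩

/-- explicit generators: a generator of every pair -/
theorem isG_ofPairs {y : Y} {γ : K → Y → ℂ}
    (h : ∀ k, (Asc C y (a k) (γ k) ∧ Dvd C y (γ k) (b k)) ∨
      (Asc C y (b k) (γ k) ∧ Dvd C y (γ k) (a k))) :
    (ofPairs ha hb hp hz).IsG y fun v => ∏ k, γ k v := by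
  classical
  let e : K → Bool := fun k => decide (Asc C y (a k) (γ k) ∧ Dvd C y (γ k) (b k))
  have h1 : ∀ k, Asc C y (fun v => if e k then a k v else b k v) (γ k) := by
    intro k
    by_cases hk : Asc C y (a k) (γ k) ∧ Dvd C y (γ k) (b k)
    · simpa [e, hk] using hk.1
    · simpa [e, hk] using ((h k).resolve_left hk).1
  have h2 : ∀ k, Dvd C y (γ k) (a k) ∧ Dvd C y (γ k) (b k) := by
    intro k
    rcases h k with h3 | h3
    · exact ⟨h3.1.dvd, h3.2⟩
    · exact ⟨h3.2, h3.1.dvd⟩
  have h3 : Asc C y (fun v => ∏ k, γ k v) (sel a b e) := by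
    refine (asc_prod Finset.univ (f := fun k v => if e k then a k v else b k v) (g := γ)
      fun k _ => h1 k).symm
  refine ⟨e, fun e' => ?_, h3⟩
  have h4 : Dvd C y (fun v => ∏ k, γ k v) (sel a b e') := by
    refine dvd_prod Finset.univ (f := fun k v => if e' k then a k v else b k v) (g := γ)
      fun k _ => ?_
    cases e' k
    · simpa using (h2 k).2
    · simpa using (h2 k).1
  exact h4.trans h3.dvd

/-- the values -/
theorem vv_ofPairs (y : Y) : ∃ c : ℂ, c ≠ 0 ∧ ∀ e : K → Bool,
    (∏ k, if e k then P1.n (t k y) else P1.d (t k y)) = c * (ofPairs ha hb hp hz).vv y e := by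
  have hg := isGen_cho ha hb hp hz y
  obtain ⟨c, hc, h1⟩ := GS.val_prop (GS.IsGen.isG hg)
  refine ⟨c, hc, fun e => ?_⟩
  rw [← h1 e]
  obtain ⟨u, hu, hu2, he⟩ := sel_div hp e y
  rw [← hu2]
  exact (qv_eq ((ofPairs ha hb hp hz).hol _ y) hg.nz hu he).symm

/-- the value vector determines all ratios -/
theorem t_eq_of_vv {y y' : Y} {c : ℂ}
    (h : (ofPairs ha hb hp hz).vv y = c • (ofPairs ha hb hp hz).vv y') (k : K) :
    t k y = t k y' := by
  classical
  obtain ⟨c₁, hc₁, h1⟩ := vv_ofPairs ha hb hp hz y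
  obtain ⟨c₂, hc₂, h2⟩ := vv_ofPairs ha hb hp hz y'
  -- `∏ u = c₁ c / c₂ * ∏ u'`
  have h3 : ∀ e : K → Bool, c₂ * (∏ k, if e k then P1.n (t k y) else P1.d (t k y)) =
      c₁ * c * ∏ k, if e k then P1.n (t k y') else P1.d (t k y') := by
    intro e
    rw [h1, h2, h]
    simp only [Pi.smul_apply, smul_eq_mul]
    ring
  have hnz : ∀ y : Y, ∃ e : K → Bool, (∏ k, if e k then P1.n (t k y) else P1.d (t k y)) ≠ 0 := by
    intro y
    refine ⟨fun k => decide (P1.n (t k y) ≠ 0), Finset.prod_ne_zero_iff.2 fun k _ => ?_⟩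
    by_cases hn : P1.n (t k y) = 0
    · have hd : P1.d (t k y) ≠ 0 := fun hd => P1.nd_ne (t k y) ⟨hn, hd⟩
      simpa [hn] using hd
    · simpa [hn] using hn
  obtain ⟨e, he⟩ := hnz y
  have hcc : c₁ * c ≠ 0 := by
    intro h0
    have h4 := h3 e
    rw [h0, zero_mul] at h4
    exact mul_ne_zero hc₂ he h4
  have he' : (∏ k, if e k then P1.n (t k y') else P1.d (t k y')) ≠ 0 := by
    intro h0
    have h4 := h3 e
    rw [h0, mul_zero] at h4
    exact mul_ne_zero hc₂ he h4
  -- change one entry
  have h5 : ∀ (z : Y) (β : Bool), (∏ j, if (Function.update e k β) j then P1.n (t j z)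
      else P1.d (t j z)) = (if β then P1.n (t k z) else P1.d (t k z)) *
        ∏ j ∈ Finset.univ.erase k, if e j then P1.n (t j z) else P1.d (t j z) := by
    intro z β
    rw [← Finset.mul_prod_erase Finset.univ _ (Finset.mem_univ k), Function.update_self]
    congr 1
    refine Finset.prod_congr rfl fun j hj => ?_
    rw [Function.update_of_ne (Finset.ne_of_mem_erase hj)]
  have h6 : ∀ (z : Y), (∏ j, if e j then P1.n (t j z) else P1.d (t j z)) ≠ 0 →
      (∏ j ∈ Finset.univ.erase k, if e j then P1.n (t j z) else P1.d (t j z)) ≠ 0 := by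
    intro z hz
    rw [Finset.prod_ne_zero_iff] at hz ⊢
    exact fun j hj => hz j (Finset.mem_univ j)
  have r := h6 y he
  have r' := h6 y' he'
  have e1 := h3 (Function.update e k true)
  have e2 := h3 (Function.update e k false)
  rw [h5, h5] at e1 e2
  simp only [if_true, Bool.false_eq_true, if_false] at e1 e2
  refine P1_ext ?_
  have h7 : (c₂ * (∏ j ∈ Finset.univ.erase k, if e j then P1.n (t j y) else P1.d (t j y))) *
      (c₁ * c * (∏ j ∈ Finset.univ.erase k, if e j then P1.n (t j y') else P1.d (t j y'))) *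
        (P1.n (t k y) * P1.d (t k y') - P1.d (t k y) * P1.n (t k y')) = 0 := by
    linear_combination (c₁ * c * P1.d (t k y') *
      (∏ j ∈ Finset.univ.erase k, if e j then P1.n (t j y') else P1.d (t j y'))) * e1 -
      (c₁ * c * P1.n (t k y') *
      (∏ j ∈ Finset.univ.erase k, if e j then P1.n (t j y') else P1.d (t j y'))) * e2
  have h8 := (mul_eq_zero.1 h7).resolve_left (mul_ne_zero (mul_ne_zero hc₂ r)
    (mul_ne_zero hcc r'))
  exact sub_eq_zero.1 h8

theorem finV_ofPairs {N : Type} {P : Y → N}
    (hfin : ∀ y₀, {y | P y = P y₀ ∧ ∀ k, t k y = t k y₀}.Finite) :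
    (ofPairs ha hb hp hz).FinV P := by
  intro y₀
  refine (hfin y₀).subset ?_
  rintro y ⟨h1, c, h2⟩
  exact ⟨h1, fun k => t_eq_of_vv ha hb hp hz h2 k⟩

theorem st_ofPairs {G : Type} [Group G] [MulAction G Y]
    (hst : ∀ (g : G) (y : Y), ∃ π : K ≃ K, ∀ k, Asc C y (fun v => a k (g • v)) (a (π k)) ∧
      Asc C y (fun v => b k (g • v)) (b (π k))) : (ofPairs ha hb hp hz).St G := by
  intro g y e
  obtain ⟨π, hπ⟩ := hst g y
  refine ⟨fun k => e (π.symm k), ?_⟩
  have h1 : Asc C y (fun v => ∏ k, if e k then a k (g • v) else b k (g • v))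
      fun v => ∏ k, if e k then a (π k) v else b (π k) v := by
    refine asc_prod Finset.univ (f := fun k v => if e k then a k (g • v) else b k (g • v))
      (g := fun k v => if e k then a (π k) v else b (π k) v) fun k _ => ?_
    cases e k
    · simpa using (hπ k).2
    · simpa using (hπ k).1
  refine h1.congr (Eventually.of_forall fun v => rfl) (Eventually.of_forall fun v => ?_)
  show sel a b (fun k => e (π.symm k)) v = _
  unfold sel
  rw [← Equiv.prod_comp π]
  refine Finset.prod_congr rfl fun k _ => ?_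
  simp only [Equiv.symm_apply_apply]

end Pairs

end

end Crest.Agent.R272.Lc_220
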