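import Crest.Agent.R272.Lc8_220
import Crest.Agent.R272.MQ5_783
import Crest.Agent.R272.LcR2_783

/-!
# R272, LC-MINUS (helper220), part 9: the generator system of the graph model

`A : GAct D G`; the pairs `(x_i, f0)`, `(x_0 x_1, f0)`, `(P_i, Q_i)` pulled back to `A.X`, with the
ratios `t_i`, `v`, `k_i²`.
* `gsX A h hz : GS (A.fam h) (KP → Bool)`;  `st_gsX`, `finV_gsX`;
* `JX A h hX hz : Eqs hX.fam univ` (local equations of `L_1²` on `X⁻ = XM A`);
* `pos_JX` : `PosNear ((JX ..).idl 1) (piM A ⁻¹' {q})` for all `q`.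
-/

set_option autoImplicit false
set_option linter.unusedSectionVars false
set_option linter.unusedVariables false

open Set Filter Topology

namespace Crest.Agent.R272.Lc_220

open Crest.Agent.R275.Geo Crest.Agent.R273.Fam_835 Crest.Agent.R272.Quot_783
  Crest.Agent.R272.Gr_559 Crest.Agent.R272.FamP_54 Crest.Agent.R272.P1A_54
  Crest.Agent.R272.Refl_246 Crest.Agent.R272.MQ_783 Crest.Agent.R272.Act_302
  Crest.Agent.R272.CB_232
open Crest.Agent.R272.P1F_54 (nn dd hmk p1Fam)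

noncomputable section

section General

variable {n : ℕ} {Y : Type} [TopologicalSpace Y] {C : Fam n Y}

theorem holN_of_hfa {f : Y → ℂ} {y : Y} (h : ∀ᶠ v in 𝓝 y, HFA C f v) : HolN C y f := by
  obtain ⟨i, hi⟩ := C.cover y
  refine holN_of hi ?_
  refine Crest.Agent.R266.SCV.analyticAt_of_eventually_differentiableAt ?_
  have h1 : ∀ᶠ z in 𝓝 (C.e i y), HFA C f ((C.e i).symm z) := (ev_chart hi).2 h
  filter_upwards [h1, (C.e i).open_target.mem_nhds ((C.e i).map_source hi)] with z h2 h3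
  have h4 := h2 i ((C.e i).map_target h3)
  rwa [(C.e i).right_inv h3] at h4

/-- holomorphic maps to `P1` with `a * d t = b * n t` -/
theorem pairAt_of {t : Y → P1} (ht : HolC C p1Fam t) {a b : Y → ℂ}
    (hr : ∀ y, a y * P1.d (t y) = b y * P1.n (t y)) (y : Y) : PairAt C a b (t y) y := by
  obtain ⟨f, g, hf, hg, h0, he⟩ := P1F_54.HolC.exists_lift ht y
  have key : ∀ v, t v = hmk (f v) (g v) → ∃ c : ℂ, c ≠ 0 ∧ f v = c * P1.n (t v) ∧
      g v = c * P1.d (t v) := by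
    intro v hv
    obtain ⟨c, hc, h1, h2⟩ := P1F_54.hmk_rel (h0 v)
    refine ⟨c, hc, ?_, ?_⟩
    · rw [hv]; exact h1
    · rw [hv]; exact h2
  refine ⟨f, g, holN_of_hfa hf, holN_of_hfa hg, ?_, h0 y, ?_⟩
  · obtain ⟨c, hc, h1, h2⟩ := key y he.self_of_nhds
    rw [h1, h2]; ring
  · filter_upwards [he] with v hv
    obtain ⟨c, hc, h1, h2⟩ := key v hv
    rw [h1, h2]
    linear_combination c * hr v

/-- the square of a point of `P1` -/
def sqP (k : P1) : P1 := P1.mk (P1.n k ^ 2) (P1.d k ^ 2)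

theorem sqP_rel (k : P1) : P1.n k ^ 2 * P1.d (sqP k) = P1.d k ^ 2 * P1.n (sqP k) := by
  refine P1.rel_mk fun h => P1.nd_ne k ⟨?_, ?_⟩
  · exact pow_eq_zero_iff (two_ne_zero) |>.1 h.1
  · exact pow_eq_zero_iff (two_ne_zero) |>.1 h.2

/-- the same with squares -/
theorem pairAt_sq {k : Y → P1} (hk : HolC C p1Fam k) {a b : Y → ℂ}
    (hr : ∀ y, P1.n (k y) ^ 2 * b y = P1.d (k y) ^ 2 * a y) (y : Y) :
    PairAt C a b (sqP (k y)) y := by
  obtain ⟨f, g, hf, hg, h0, he⟩ := P1F_54.HolC.exists_lift hk y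
  have key : ∀ v, k v = hmk (f v) (g v) → ∃ c : ℂ, c ≠ 0 ∧ f v = c * P1.n (k v) ∧
      g v = c * P1.d (k v) := by
    intro v hv
    obtain ⟨c, hc, h1, h2⟩ := P1F_54.hmk_rel (h0 v)
    refine ⟨c, hc, ?_, ?_⟩
    · rw [hv]; exact h1
    · rw [hv]; exact h2
  refine ⟨fun v => f v ^ 2, fun v => g v ^ 2, (holN_of_hfa hf).pow 2, (holN_of_hfa hg).pow 2,
    ?_, ?_, ?_⟩
  · obtain ⟨c, hc, h1, h2⟩ := key y he.self_of_nhds
    show f y ^ 2 * _ = g y ^ 2 * _
    rw [h1, h2]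
    linear_combination c ^ 2 * sqP_rel (k y)
  · rcases h0 y with h | h
    · exact Or.inl (pow_ne_zero 2 h)
    · exact Or.inr (pow_ne_zero 2 h)
  · filter_upwards [he] with v hv
    obtain ⟨c, hc, h1, h2⟩ := key v hv
    rw [h1, h2]
    linear_combination -c ^ 2 * hr v

theorem finite_sqP (s : P1) : {k : P1 | sqP k = s}.Finite := by
  by_cases he : {k : P1 | sqP k = s} = ∅
  · rw [he]; exact finite_empty
  obtain ⟨k₀, hk₀⟩ := Set.nonempty_iff_ne_empty.2 he
  refine ((Set.toFinite {k₀, P1.mk (-P1.n k₀) (P1.d k₀)})).subset ?_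
  intro k hk
  have h1 : sqP k = sqP k₀ := by rw [hk, hk₀]
  have h2 := sqP_rel k
  have h3 := sqP_rel k₀
  rw [h1] at h2
  have h4 : (P1.n k ^ 2 * P1.d k₀ ^ 2 - P1.d k ^ 2 * P1.n k₀ ^ 2) = 0 := by
    rcases P1_cases (sqP k₀) with ⟨e1, e2⟩ | e1
    · rw [e1, e2] at h2 h3
      have e3 : P1.d k ^ 2 = 0 := by linear_combination -h2
      have e4 : P1.d k₀ ^ 2 = 0 := by linear_combination -h3
      rw [e3, e4]; ring
    · rw [e1] at h2 h3
      linear_combination P1.d k₀ ^ 2 * h2 - P1.d k ^ 2 * h3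
  have h5 : (P1.n k * P1.d k₀ - P1.d k * P1.n k₀) * (P1.n k * P1.d k₀ + P1.d k * P1.n k₀) = 0 := by
    linear_combination h4
  rcases mul_eq_zero.1 h5 with h6 | h6
  · left
    exact P1_ext (sub_eq_zero.1 h6)
  · right
    refine (P1.rel_iff (a := -P1.n k₀) (b := P1.d k₀) (fun h => P1.nd_ne k₀ ⟨?_, h.2⟩) k).1 ?_
    · exact neg_eq_zero.1 h.1
    · linear_combination -h6

end General

/-- the five pairs -/
inductive KP where
  | t (i : Fin 2)
  | v
  | k (i : Fin 2)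
  deriving DecidableEq, Fintype

/-- permutation of the pairs -/
def KP.perm (s : Equiv.Perm (Fin 2)) : KP ≃ KP where
  toFun | .t i => .t (s i) | .v => .v | .k i => .k (s i)
  invFun | .t i => .t (s.symm i) | .v => .v | .k i => .k (s.symm i)
  left_inv := by rintro (i | _ | i) <;> simp
  right_inv := by rintro (i | _ | i) <;> simp

variable {N : Type} [TopologicalSpace N] {F : Fam 3 N} {D : GData F} {G : Type} [Group G]
  [MulAction G N] (A : GAct D G) (h : SubF_54.IsSl (ambFam F) D.X1 3)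

/-- numerators on the base -/
def nuB (D : GData F) : KP → N → ℂ
  | .t i, z => D.x i z
  | .v, z => D.x 0 z * D.x 1 z
  | .k i, z => D.P i z

/-- denominators on the base -/
def deB (D : GData F) : KP → N → ℂ
  | .t _, z => D.f0 z
  | .v, z => D.f0 z
  | .k i, z => D.Q i z

/-- the ratios -/
def raX : KP → A.X → P1
  | .t i, y => D.t i y
  | .v, y => D.v y
  | .k i, y => sqP (D.k i y)

theorem rel_t (y : D.X1) (i : Fin 2) :
    D.x i (D.pz y) * P1.d (D.t i y) = D.f0 (D.pz y) * P1.n (D.t i y) :=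
  Flat2_302.Y_rel D (y.2.1 i)

theorem rel_k (y : D.X1) (i : Fin 2) :
    P1.n (D.k i y) ^ 2 * D.Q i (D.pz y) = P1.d (D.k i y) ^ 2 * D.P i (D.pz y) := by
  have h1 := Flat2_302.Y_sq D (p := (D.pz y, D.t i y, D.k i y)) (y.2.1 i)
  simp only at h1
  exact h1

theorem rel_v (y : D.X1) : (D.x 0 (D.pz y) * D.x 1 (D.pz y)) * P1.d (D.v y) =
    D.f0 (D.pz y) * P1.n (D.v y) := by
  have h1 : P1.n (D.v y) * P1.d (D.t 0 y) = P1.d (D.v y) * P1.n (D.t 0 y) * D.x 1 (D.pz y) :=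
    y.2.2.1
  have h2 := rel_t y 0
  rcases P1_cases (D.t 0 y) with ⟨e1, e2⟩ | e1
  · rw [e1, e2] at h1 h2
    have h3 : D.f0 (D.pz y) = 0 := by linear_combination -h2
    rw [h3]
    linear_combination -D.x 0 (D.pz y) * h1
  · rw [e1] at h1 h2
    linear_combination (P1.d (D.v y) * D.x 1 (D.pz y)) * h2 - D.f0 (D.pz y) * h1

theorem holN_pz {f : N → ℂ} (hf : HolF F univ f) (y : A.X) :
    HolN (A.fam h) y fun y => f (A.pz y) :=
  HolN.comp (C := F) (D := A.fam h) (p := A.pz)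
    ((Crest.Agent.R272.Lc_220.holF_iff isOpen_univ).1 hf _ (mem_univ _)) (A.holC_pz h)

theorem hol_nuB (D : GData F) (k : KP) : HolF F univ (nuB D k) := by
  rcases k with i | _ | i
  · exact D.x_hol i
  · exact holF_mul (D.x_hol 0) (D.x_hol 1)
  · exact D.P_hol i

theorem hol_deB (D : GData F) (k : KP) : HolF F univ (deB D k) := by
  rcases k with i | _ | i
  · exact D.f0_hol
  · exact D.f0_hol
  · exact D.Q_hol i

theorem pair_X (k : KP) (y : A.X) :
    PairAt (A.fam h) (fun y => nuB D k (A.pz y)) (fun y => deB D k (A.pz y)) (raX A k y) y := by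
  rcases k with i | _ | i
  · exact pairAt_of (A.holC_t h i) (fun y => rel_t y i) y
  · exact pairAt_of (A.holC_v h) (fun y => rel_v y) y
  · exact pairAt_sq (A.holC_k h i) (fun y => rel_k y i) y

/-- the non vanishing hypothesis -/
def NzX : Prop := ∀ (k : KP) (y : A.X), NZ y (fun y => nuB D k (A.pz y)) ∨
  NZ y (fun y => deB D k (A.pz y))

/-- **the generator system of the model** -/
def gsX (hz : NzX A) : GS (A.fam h) (KP → Bool) :=
  ofPairs (a := fun k y => nuB D k (A.pz y)) (b := fun k y => deB D k (A.pz y))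
    (t := fun k y => raX A k y)
    (fun k y => holN_pz A h (hol_nuB D k) y) (fun k y => holN_pz A h (hol_deB D k) y)
    (pair_X A h) hz

theorem finV_gsX (hz : NzX A) : (gsX A h hz).FinV A.pz := by
  refine finV_ofPairs _ _ _ _ fun y₀ => ?_
  have h1 : {κ : Fin 2 → P1 | ∀ i, κ i ∈ {k : P1 | sqP k = sqP (D.k i y₀)}}.Finite :=
    Set.Finite.pi' fun i => finite_sqP _
  refine Set.Finite.of_finite_image (f := fun y : A.X => fun i => D.k i y) (h1.subset ?_) ?_
  · rintro _ ⟨y, ⟨-, hy⟩, rfl⟩ i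
    exact hy (.k i)
  · intro y hy y' hy' hk
    have h2 : ∀ i, D.t i y = D.t i y' := fun i => (hy.2 (.t i)).trans (hy'.2 (.t i)).symm
    have h3 : D.v y = D.v y' := (hy.2 .v).trans (hy'.2 .v).symm
    have h4 : D.pz y = D.pz y' := hy.1.trans hy'.1.symm
    exact (GData.ext_iff D).2 ⟨h4, h2, h3, fun i => congrFun hk i⟩

theorem asc_unit {n : ℕ} {Y : Type} [TopologicalSpace Y] {C : Fam n Y} {y : Y} {f g u : Y → ℂ}
    (hu : HolN C y u) (h0 : u y ≠ 0) (he : ∀ v, f v = u v * g v) : Asc C y f g :=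
  ⟨u, hu, h0, Eventually.of_forall he⟩

theorem st_gsX (hz : NzX A) : (gsX A h hz).St G := by
  refine st_ofPairs _ _ _ _ fun g y => ⟨KP.perm (A.σ g).symm, fun k => ?_⟩
  have hx : ∀ i z, D.x i (g • z) = A.j g ((A.σ g).symm i) z * D.x ((A.σ g).symm i) z := by
    intro i z
    have := A.x_smul g ((A.σ g).symm i) z
    rwa [Equiv.apply_symm_apply] at this
  have hP : ∀ i z, D.P i (g • z) = A.p g ((A.σ g).symm i) z ^ 2 * D.P ((A.σ g).symm i) z := by
    intro i z
    have := A.P_smul g ((A.σ g).symm i) z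
    rwa [Equiv.apply_symm_apply] at this
  have hQ : ∀ i z, D.Q i (g • z) = A.q g ((A.σ g).symm i) z ^ 2 * D.Q ((A.σ g).symm i) z := by
    intro i z
    have := A.Q_smul g ((A.σ g).symm i) z
    rwa [Equiv.apply_symm_apply] at this
  have hf : Asc (A.fam h) y (fun v => D.f0 (A.pz (g • v))) fun v => D.f0 (A.pz v) :=
    asc_unit (u := fun v => A.j0 g (A.pz v)) (holN_pz A h (A.j0_hol g) y) (A.j0_ne g _)
      fun v => by rw [A.pz_smul, A.f0_smul]
  rcases k with i | _ | i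
  · refine ⟨?_, hf⟩
    exact asc_unit (u := fun v => A.j g ((A.σ g).symm i) (A.pz v))
      (holN_pz A h (A.j_hol g _) y) (A.j_ne g _ _) fun v => by
        show D.x i (A.pz (g • v)) = _ * D.x ((A.σ g).symm i) (A.pz v)
        rw [A.pz_smul, hx]
  · refine ⟨?_, hf⟩
    refine asc_unit (u := fun v => A.jv g (A.pz v))
      (holN_pz A h (holF_mul (A.j_hol g 0) (A.j_hol g 1)) y) (A.jv_ne g _) fun v => ?_
    show D.x 0 (A.pz (g • v)) * D.x 1 (A.pz (g • v)) =
      A.jv g (A.pz v) * (D.x 0 (A.pz v) * D.x 1 (A.pz v))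
    rw [A.pz_smul, hx, hx, ← A.jv_perm g (A.σ g).symm (A.pz v)]
    rcases GAct.perm_cases (A.σ g).symm with ⟨e0, e1⟩ | ⟨e0, e1⟩
    · rw [e0, e1]; ring
    · rw [e0, e1]; ring
  · constructor
    · refine asc_unit (u := fun v => A.p g ((A.σ g).symm i) (A.pz v) ^ 2)
        ((holN_pz A h (A.p_hol g _) y).pow 2) (pow_ne_zero 2 (A.p_ne g _ _)) fun v => ?_
      show D.P i (A.pz (g • v)) = _ * D.P ((A.σ g).symm i) (A.pz v)
      rw [A.pz_smul, hP]
    · refine asc_unit (u := fun v => A.q g ((A.σ g).symm i) (A.pz v) ^ 2)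
        ((holN_pz A h (A.q_hol g _) y).pow 2) (pow_ne_zero 2 (A.q_ne g _ _)) fun v => ?_
      show D.Q i (A.pz (g • v)) = _ * D.Q ((A.σ g).symm i) (A.pz v)
      rw [A.pz_smul, hQ]

section XM

variable [Nonempty N] {h}

/-- **local equations of `L_1²` on `X⁻`** -/
def JX (hX : RA (A.fam h) G) (hz : NzX A) : Eqs hX.fam univ :=
  ((gsX A h hz).leq hX (st_gsX A h hz)).eqs

theorem hol_JX (hX : RA (A.fam h) G) (hz : NzX A) (a : (JX A hX hz).α) :
    HolF hX.fam ((JX A hX hz).V a) ((JX A hX hz).f a) :=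
  (Crest.Agent.R272.Lc_220.holF_iff ((JX A hX hz).op a)).2 fun q hq =>
    ((gsX A h hz).leq hX (st_gsX A h hz)).hol (LEq.LE_eqs _ hq)

/-- **positivity of `L_1²` on `X⁻` near every fibre** -/
theorem pos_JX (hX : RA (A.fam h) G) (hz : NzX A) (hN : RA F G) [ContinuousConstSMul G N]
    [CompactSpace (XM A)] [T2Space (XM A)] [T1Space (Orb G N)] (q : Orb G N) :
    PosNear ((JX A hX hz).idl 1) (piM A ⁻¹' {q}) :=
  GS.pos_J2 (gsX A h hz) hX (st_gsX A h hz) A.continuous_pz A.pz_smul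
    (fun z => exists_BV hN z) (finV_gsX A h hz) q

/-- the local equations of `JX` at the image of `y`: `f ∘ pr ~ γ²` for one (all) generators `γ` -/
theorem JX_LE (hX : RA (A.fam h) G) (hz : NzX A) {y : A.X} {f : XM A → ℂ} {γ : A.X → ℂ}
    (hγ : (gsX A h hz).IsG y γ)
    (hf : Asc (A.fam h) y (fun v => f (pr G v)) fun v => γ v * γ v) :
    ∃ a, pr G y ∈ (JX A hX hz).V a ∧ (JX A hX hz).f a = f :=
  LEq.exists_idx _ ((GS.leq_LE hX (st_gsX A h hz)).2 ⟨γ, hγ, hf⟩)

/-- conversely -/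
theorem asc_of_JX (hX : RA (A.fam h) G) (hz : NzX A) {y : A.X} {a : (JX A hX hz).α}
    (ha : pr G y ∈ (JX A hX hz).V a) {γ : A.X → ℂ} (hγ : (gsX A h hz).IsG y γ) :
    Asc (A.fam h) y (fun v => (JX A hX hz).f a (pr G v)) fun v => γ v * γ v :=
  GS.LE.all ((GS.leq_LE hX (st_gsX A h hz)).1 (LEq.LE_eqs _ ha)) hγ

end XM

/-- explicit generators of the model -/
theorem isG_X (hz : NzX A) {y : A.X} {γ : KP → A.X → ℂ}
    (hγ : ∀ k, (Asc (A.fam h) y (fun y => nuB D k (A.pz y)) (γ k) ∧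
        Dvd (A.fam h) y (γ k) (fun y => deB D k (A.pz y))) ∨
      (Asc (A.fam h) y (fun y => deB D k (A.pz y)) (γ k) ∧
        Dvd (A.fam h) y (γ k) (fun y => nuB D k (A.pz y)))) :
    (gsX A h hz).IsG y fun v => ∏ k, γ k v :=
  isG_ofPairs (a := fun k y => nuB D k (A.pz y)) (b := fun k y => deB D k (A.pz y)) _ _ _ _ hγ

end

end Crest.Agent.R272.Lc_220
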