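import Crest.Agent.R272.MQ2_783
import Crest.Agent.R272.Lc1_220
import Crest.Agent.R272.CB6_232

/-!
# R272, LC-4 (helper783), part 1: the branch divisor of `pr : X → Orb G X`

`exists_div`      : division of an analytic function by a coordinate (the proof of the star shaped case
                    is the one of `Blup6_102`);
`eqU c`, `eqB c`  : local equation of the fixed divisor on `c.e.source`, of the branch divisor on
                    `c.eM.source` (`eqB c (pr u) = eqU c u ^ 2`), `1` if the chart has no reflection;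
`Br`              : the branch set; `eqB_eq_zero_iff`;
`dvd_eqB`         : a holomorphic function which vanishes on the branch set is divisible by `eqB c`;
`asc_eqB`         : two equations differ by a unit;
`brE h`           : the local equations as `Eqs h.fam univ` (`(brE h).cb` = O(R₊), `(brE h).idl k` = O(-k R₊)).
-/

set_option autoImplicit false
set_option linter.unusedSectionVars false

open Set Filter Topology

namespace Crest.Agent.R272.LcR_783

open Crest.Agent.R275.Geo Crest.Agent.R273.Fam_835 Crest.Agent.R272.Refl_246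
  Crest.Agent.R272.MQ_783 Crest.Agent.R272.Lc_220 Crest.Agent.R272.CB_232
  Crest.Agent.R272.Quot_783

noncomputable section

variable {n : ℕ}

/-! ### division by a coordinate -/

section Div

variable {D : Set (Cn n)} {a : Fin n}

/-- the basis vector -/
abbrev ev (a : Fin n) : Cn n := EuclideanSpace.single a 1

theorem frequently_ne (u : Cn n) (a : Fin n) (hu : u a = 0) : ∃ᶠ v : Cn n in 𝓝 u, v a ≠ 0 := by
  have hc : Tendsto (fun t : ℂ => u + t • ev a) (𝓝 0) (𝓝 u) := by
    have h1 : ContinuousAt (fun t : ℂ => u + t • ev a) 0 := by fun_prop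
    have h2 := h1.tendsto
    simp only [zero_smul, add_zero] at h2
    exact h2
  have hfr : ∃ᶠ t : ℂ in 𝓝 0, t ≠ 0 := by
    have : (𝓝[≠] (0 : ℂ)).NeBot := inferInstance
    rw [Filter.frequently_iff]
    intro U hU
    obtain ⟨t, ht1, ht2⟩ := this.nonempty_of_mem (inter_mem_nhdsWithin {0}ᶜ hU)
    exact ⟨t, ht2, ht1⟩
  refine hc.frequently (hfr.mono fun t ht => ?_)
  simp [hu, ht]

/-- division by a coordinate, on a domain which is star shaped in this coordinate -/
theorem exists_div_one (hD : IsOpen D)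
    (hstar : ∀ u ∈ D, ∀ t ∈ Icc (0 : ℝ) 1, u - (((1 - t : ℝ) : ℂ) * u a) • ev a ∈ D)
    {Φ : Cn n → ℂ} (hΦ : DifferentiableOn ℂ Φ D) (h0 : ∀ u ∈ D, u a = 0 → Φ u = 0) :
    ∃ Ψ : Cn n → ℂ, DifferentiableOn ℂ Ψ D ∧ ∀ u ∈ D, Φ u = u a * Ψ u := by
  have hA : AnalyticOnNhd ℂ Φ D := Crest.Agent.R266.SCV.analyticOnNhd_of_differentiableOn hD hΦ
  have hA1 : AnalyticOnNhd ℂ (fun w => fderiv ℂ Φ w (ev a)) D := fun w hw =>
    (ContinuousLinearMap.apply ℂ ℂ (ev a)).analyticAt _ |>.comp (hA.fderiv w hw)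
  set F : Cn n × ℝ → ℂ := fun y => fderiv ℂ Φ (y.1 - (((1 - y.2 : ℝ) : ℂ) * y.1 a) • ev a) (ev a)
    with hF
  have hu01 : uIcc (0 : ℝ) 1 = Icc 0 1 := uIcc_of_le zero_le_one
  have hcF : ContinuousOn F (D ×ˢ uIcc (0 : ℝ) 1) := by
    refine ContinuousOn.comp (g := fun w => fderiv ℂ Φ w (ev a)) (t := D)
      (f := fun y : Cn n × ℝ => y.1 - (((1 - y.2 : ℝ) : ℂ) * y.1 a) • ev a) hA1.continuousOn ?_ ?_
    · have : Continuous fun y : Cn n × ℝ => y.1 - (((1 - y.2 : ℝ) : ℂ) * y.1 a) • ev a := by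
        fun_prop
      exact this.continuousOn
    · rintro ⟨u, t⟩ ⟨h1, h2⟩
      rw [hu01] at h2
      exact hstar u h1 t h2
  have hdF : ∀ t ∈ uIcc (0 : ℝ) 1, DifferentiableOn ℂ (fun x => F (x, t)) D := by
    intro t ht
    rw [hu01] at ht
    refine DifferentiableOn.comp (g := fun w => fderiv ℂ Φ w (ev a)) (t := D)
      (f := fun x : Cn n => x - (((1 - t : ℝ) : ℂ) * x a) • ev a) hA1.differentiableOn ?_ ?_
    · have : Differentiable ℂ fun x : Cn n => x - (((1 - t : ℝ) : ℂ) * x a) • ev a := by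
        fun_prop
      exact this.differentiableOn
    · intro u hu
      exact hstar u hu t ht
  have hI := Crest.Agent.R266.SCV.analyticOnNhd_intervalIntegral hD hcF hdF
  refine ⟨fun x => ∫ t in (0 : ℝ)..1, F (x, t), hI.differentiableOn, fun u hu => ?_⟩
  have hd : ∀ t ∈ uIcc (0 : ℝ) 1, HasDerivAt
      (fun t : ℝ => Φ (u - (((1 - t : ℝ) : ℂ) * u a) • ev a)) (u a * F (u, t)) t := by
    intro t ht
    rw [hu01] at ht
    have h1 : HasFDerivAt Φ (fderiv ℂ Φ (u - (((1 - t : ℝ) : ℂ) * u a) • ev a))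
        (u - (((1 - t : ℝ) : ℂ) * u a) • ev a) :=
      (hΦ.differentiableAt (hD.mem_nhds (hstar u hu t ht))).hasFDerivAt
    have h2 : HasDerivAt (fun t : ℝ => u - (((1 - t : ℝ) : ℂ) * u a) • ev a) (u a • ev a) t := by
      have h3 : HasDerivAt (fun t : ℝ => (((1 - t : ℝ) : ℂ) * u a)) (-u a) t := by
        have h4 : HasDerivAt (fun t : ℝ => ((1 - t : ℝ) : ℂ)) (-1) t := by
          have h5 : HasDerivAt (fun t : ℝ => 1 - t) (-1) t := by
            simpa using (hasDerivAt_id t).const_sub 1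
          simpa using h5.ofReal_comp
        simpa using h4.mul_const (u a)
      have h6 := (h3.smul_const (ev a)).const_sub u
      simpa using h6
    have h7 := (h1.restrictScalars ℝ).comp_hasDerivAt t h2
    refine h7.congr_deriv ?_
    simp only [ContinuousLinearMap.coe_restrictScalars', map_smul, smul_eq_mul, hF]
  have hint : IntervalIntegrable (fun t => u a * F (u, t)) MeasureTheory.volume 0 1 := by
    refine ContinuousOn.intervalIntegrable ?_
    refine continuousOn_const.mul (hcF.comp (Continuous.continuousOn (by fun_prop)) ?_)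
    intro t ht
    exact ⟨hu, ht⟩
  have h8 := intervalIntegral.integral_eq_sub_of_hasDerivAt hd hint
  rw [intervalIntegral.integral_const_mul] at h8
  rw [h8]
  have h9 : Φ (u - (((1 - 0 : ℝ) : ℂ) * u a) • ev a) = 0 := by
    refine h0 _ (hstar u hu 0 ⟨le_rfl, zero_le_one⟩) ?_
    simp
  rw [h9]
  simp

/-- **division by a coordinate**, germs -/
theorem exists_div {z₀ : Cn n} {Φ : Cn n → ℂ} (hΦ : AnalyticAt ℂ Φ z₀) (h0 : z₀ a = 0)
    (hv : ∀ᶠ z in 𝓝 z₀, z a = 0 → Φ z = 0) :
    ∃ Ψ : Cn n → ℂ, AnalyticAt ℂ Ψ z₀ ∧ ∀ᶠ z in 𝓝 z₀, Φ z = Ψ z * z a := by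
  obtain ⟨r, hr, hr2⟩ := Metric.eventually_nhds_iff_ball.1 (hΦ.eventually_analyticAt.and hv)
  have hstar : ∀ u ∈ Metric.ball z₀ r, ∀ t ∈ Icc (0 : ℝ) 1,
      u - (((1 - t : ℝ) : ℂ) * u a) • ev a ∈ Metric.ball z₀ r := by
    intro u hu t ht
    rw [mem_ball_iff_norm] at hu ⊢
    refine lt_of_le_of_lt ?_ hu
    rw [EuclideanSpace.norm_eq, EuclideanSpace.norm_eq]
    refine Real.sqrt_le_sqrt (Finset.sum_le_sum fun b _ => ?_)
    refine pow_le_pow_left₀ (norm_nonneg _) ?_ 2
    by_cases hb : b = a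
    · subst hb
      have h3 : (u - (((1 - t : ℝ) : ℂ) * u b) • ev b - z₀) b = (t : ℂ) * (u - z₀) b := by
        simp [h0]
        ring
      rw [h3, norm_mul, Complex.norm_real, Real.norm_eq_abs, abs_of_nonneg ht.1]
      exact mul_le_of_le_one_left (norm_nonneg _) ht.2
    · have h3 : (u - (((1 - t : ℝ) : ℂ) * u a) • ev a - z₀) b = (u - z₀) b := by
        simp [hb]
      rw [h3]
  obtain ⟨Ψ, h1, h2⟩ := exists_div_one (D := Metric.ball z₀ r) (a := a) Metric.isOpen_ball
    hstar (Φ := Φ)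
    (fun z hz => (hr2 z hz).1.differentiableAt.differentiableWithinAt)
    (fun z hz => (hr2 z hz).2)
  refine ⟨Ψ, Crest.Agent.R266.SCV.analyticOnNhd_of_differentiableOn Metric.isOpen_ball h1 z₀
    (Metric.mem_ball_self hr), ?_⟩
  filter_upwards [Metric.ball_mem_nhds z₀ hr] with z hz
  rw [h2 z hz, mul_comm]

end Div

/-! ### local equations -/

variable {X : Type} [TopologicalSpace X] {C : Fam n X} {G : Type} [Group G] [MulAction G X]

/-- local equation of the fixed divisor -/
def eqU (c : RC G C) (x : X) : ℂ :=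
  match c.k with
  | none => 1
  | some p => c.e x p.2

theorem eqU_none {c : RC G C} (hk : c.k = none) (x : X) : eqU c x = 1 := by
  unfold eqU
  rw [hk]

theorem eqU_some {c : RC G C} {s : G} {a : Fin n} (hk : c.k = some (s, a)) (x : X) :
    eqU c x = c.e x a := by
  unfold eqU
  rw [hk]

theorem fix_iff {c : RC G C} {s : G} {a : Fin n} (hk : c.k = some (s, a)) {u : X}
    (hu : u ∈ c.e.source) : s • u = u ↔ c.e u a = 0 := by
  constructor
  · intro h
    have h1 := c.ref s a hk u hu
    rw [h] at h1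
    have h2 := congrArg (fun w : Cn n => w a) h1
    simp only [rf_same] at h2
    have h3 : 2 * c.e u a = 0 := by linear_combination h2
    simpa using h3
  · intro h
    refine c.e.injOn (c.inv s a hk u hu) hu ?_
    rw [c.ref s a hk u hu, rf, h, neg_zero, ← h, up_self]

theorem ne_one {c : RC G C} {s : G} {a : Fin n} (hk : c.k = some (s, a)) {u : X}
    (hu : u ∈ c.e.source) : s ≠ 1 := by
  rintro rfl
  have h1 : ∀ v ∈ c.e.source, c.e v a = 0 := fun v hv => (fix_iff hk hv).1 (one_smul _ _)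
  have h2 := (frequently_ne (c.e u) a (h1 u hu)).and_eventually
    (c.e.open_target.mem_nhds (c.e.map_source hu))
  obtain ⟨z, hz1, hz2⟩ := h2.exists
  have h3 := h1 _ (c.e.map_target hz2)
  rw [c.e.right_inv hz2] at h3
  exact hz1 h3

theorem eqU_zero_iff {c : RC G C} {u : X} (hu : u ∈ c.e.source) :
    eqU c u = 0 ↔ ∃ g : G, g ≠ 1 ∧ g • u = u := by
  rcases hk : c.k with _ | ⟨s, a⟩
  · rw [eqU_none hk]
    constructor
    · intro h; exact absurd h one_ne_zero
    · rintro ⟨g, hg1, hg2⟩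
      exact absurd (c.free hk g u hu (by rw [hg2]; exact hu)) hg1
  · rw [eqU_some hk, ← fix_iff hk hu]
    constructor
    · intro h
      exact ⟨s, ne_one hk hu, h⟩
    · rintro ⟨g, hg1, hg2⟩
      rcases c.two s a hk g u hu (by rw [hg2]; exact hu) with h | h
      · exact absurd h hg1
      · rw [← h]; exact hg2

/-- the branch set -/
def Br (G : Type) [Group G] (X : Type) [MulAction G X] : Set (Orb G X) :=
  pr G '' {x | ∃ g : G, g ≠ 1 ∧ g • x = x}

theorem pr_mem_Br {x : X} : pr G x ∈ Br G X ↔ ∃ g : G, g ≠ 1 ∧ g • x = x := by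
  constructor
  · rintro ⟨y, ⟨g, hg1, hg2⟩, hyx⟩
    obtain ⟨k, rfl⟩ := pr_eq_iff.1 hyx
    refine ⟨k * g * k⁻¹, ?_, ?_⟩
    · intro h
      apply hg1
      have h2 : k⁻¹ * (k * g * k⁻¹) * k = k⁻¹ * 1 * k := by rw [h]
      simpa [mul_assoc] using h2
    · rw [mul_smul, mul_smul, inv_smul_smul, hg2]
  · intro h
    exact ⟨x, h, rfl⟩

section Down

variable [ContinuousConstSMul G X] [Nonempty X]

/-- local equation of the branch divisor -/
def eqB (c : RC G C) (m : Orb G X) : ℂ :=
  match c.k with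
  | none => 1
  | some p => c.eM m p.2

theorem eqB_none {c : RC G C} (hk : c.k = none) (m : Orb G X) : eqB c m = 1 := by
  unfold eqB
  rw [hk]

theorem eqB_some {c : RC G C} {s : G} {a : Fin n} (hk : c.k = some (s, a)) (m : Orb G X) :
    eqB c m = c.eM m a := by
  unfold eqB
  rw [hk]

/-- the equation of the branch divisor pulls back to the square of the one of the fixed divisor -/
theorem eqB_pr {c : RC G C} {u : X} (hu : u ∈ c.e.source) : eqB c (pr G u) = eqU c u ^ 2 := by
  rcases hk : c.k with _ | ⟨s, a⟩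
  · rw [eqB_none hk, eqU_none hk, one_pow]
  · rw [eqB_some hk, eqU_some hk, c.eM_apply hu, hk, qk_some, sq_same]

theorem eqB_eq_zero_iff {c : RC G C} {m : Orb G X} (hm : m ∈ c.eM.source) :
    eqB c m = 0 ↔ m ∈ Br G X := by
  rw [c.eM_source] at hm
  obtain ⟨u, hu, rfl⟩ := hm
  rw [eqB_pr hu, pr_mem_Br, ← eqU_zero_iff hu]
  exact pow_eq_zero_iff two_ne_zero

theorem holF_eqB (h : RA C G) (c : RC G C) : HolF h.fam c.eM.source (eqB c) := by
  intro c'
  rcases hk : c.k with _ | ⟨s, a⟩
  · exact (differentiableOn_const 1).congr fun z _ => eqB_none hk _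
  · have h1 : DifferentiableOn ℂ (fun z => c.eM ((RC.eM (c' : RC G C)).symm z))
        ((RC.eM (c' : RC G C)).target ∩ (RC.eM (c' : RC G C)).symm ⁻¹' c.eM.source) :=
      h.fam.holo c' c
    have h2 : Differentiable ℂ fun w : Cn n => w a := by fun_prop
    exact (h2.comp_differentiableOn h1).congr fun z _ => eqB_some hk _

theorem holN_eqB (h : RA C G) {c : RC G C} {m : Orb G X} (hm : m ∈ c.eM.source) :
    HolN h.fam m (eqB c) :=
  (Lc_220.holF_iff c.eM.open_source).1 (holF_eqB h c) m hm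

theorem dense_eqB (c : RC G C) : c.eM.source ⊆ closure {m | eqB c m ≠ 0} := by
  intro m hm
  by_cases h0 : eqB c m = 0
  · rcases hk : c.k with _ | ⟨s, a⟩
    · rw [eqB_none hk] at h0
      exact absurd h0 one_ne_zero
    · rw [eqB_some hk] at h0
      rw [mem_closure_iff_frequently]
      have h1 := (frequently_ne (c.eM m) a h0).and_eventually
        (c.eM.open_target.mem_nhds (c.eM.map_source hm))
      have h2 : Tendsto c.eM.symm (𝓝 (c.eM m)) (𝓝 m) := by
        have := c.eM.continuousAt_symm (c.eM.map_source hm)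
        have h3 := this.tendsto
        rwa [c.eM.left_inv hm] at h3
      refine h2.frequently (h1.mono fun z hz => ?_)
      change eqB c (c.eM.symm z) ≠ 0
      rw [eqB_some hk, c.eM.right_inv hz.2]
      exact hz.1
  · exact subset_closure h0

theorem nz_eqB {c : RC G C} {m : Orb G X} (hm : m ∈ c.eM.source) : NZ m (eqB c) := by
  intro h
  have h1 := mem_closure_iff_frequently.1 (dense_eqB c hm)
  exact h1 (h.mono fun y hy hy2 => hy2 hy)

/-- **a holomorphic function which vanishes on the branch set is divisible by `eqB c`** -/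
theorem dvd_eqB (h : RA C G) {c : RC G C} {m : Orb G X} (hm : m ∈ c.eM.source)
    {F : Orb G X → ℂ} (hF : HolN h.fam m F) (hz : ∀ᶠ y in 𝓝 m, y ∈ Br G X → F y = 0) :
    Dvd h.fam m (eqB c) F := by
  by_cases h0 : eqB c m = 0
  · rcases hk : c.k with _ | ⟨s, a⟩
    · rw [eqB_none hk] at h0
      exact absurd h0 one_ne_zero
    · have h0' := h0
      rw [eqB_some hk] at h0'
      have hΦ : AnalyticAt ℂ (fun z => F (c.eM.symm z)) (c.eM m) := hF c hm
      have hz2 : ∀ᶠ z in 𝓝 (c.eM m), c.eM.symm z ∈ Br G X → F (c.eM.symm z) = 0 :=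
        (ev_chart (C := h.fam) (i := c) hm (P := fun y => y ∈ Br G X → F y = 0)).2 hz
      obtain ⟨Ψ, hΨ, hΨ2⟩ := exists_div hΦ h0' (by
        filter_upwards [hz2, c.eM.open_target.mem_nhds (c.eM.map_source hm)] with z h1 h2 h3
        refine h1 ((eqB_eq_zero_iff (c.eM.map_target h2)).1 ?_)
        rw [eqB_some hk, c.eM.right_inv h2]
        exact h3)
      refine ⟨fun y => Ψ (c.eM y), ?_, ?_⟩
      · refine holN_of (C := h.fam) (i := c) hm ?_
        refine hΨ.congr ?_
        filter_upwards [c.eM.open_target.mem_nhds (c.eM.map_source hm)] with z h2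
        change Ψ z = Ψ (c.eM (c.eM.symm z))
        rw [c.eM.right_inv h2]
      · filter_upwards [(c.eM.continuousAt hm).eventually hΨ2, c.eM.open_source.mem_nhds hm]
          with y h1 h2
        rw [c.eM.left_inv h2] at h1
        rw [h1, eqB_some hk]
  · refine ⟨fun y => F y / eqB c y, hF.div (holN_eqB h hm) h0, ?_⟩
    filter_upwards [(holN_eqB h hm).continuousAt.eventually_ne h0] with y hy
    rw [div_mul_cancel₀ _ hy]

/-- two local equations differ by a unit -/
theorem asc_eqB (h : RA C G) {c c' : RC G C} {m : Orb G X} (hm : m ∈ c.eM.source)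
    (hm' : m ∈ c'.eM.source) : Asc h.fam m (eqB c) (eqB c') := by
  refine Asc.of_dvd (holN_eqB h hm) (nz_eqB hm) (dvd_eqB h hm' (holN_eqB h hm) ?_)
    (dvd_eqB h hm (holN_eqB h hm') ?_)
  · filter_upwards [c.eM.open_source.mem_nhds hm] with y hy hB
    exact (eqB_eq_zero_iff hy).2 hB
  · filter_upwards [c'.eM.open_source.mem_nhds hm'] with y hy hB
    exact (eqB_eq_zero_iff hy).2 hB

end Down

/-- `Asc` as a statement on an open set -/
theorem asc_open {Y : Type} [TopologicalSpace Y] {D : Fam n Y} {y : Y} {f g : Y → ℂ}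
    (h : Asc D y f g) : ∃ W, IsOpen W ∧ y ∈ W ∧ ∃ u, HolF D W u ∧ (∀ x ∈ W, u x ≠ 0) ∧
      ∀ x ∈ W, f x = u x * g x := by
  obtain ⟨u, hu, hu0, hu2⟩ := h
  obtain ⟨W, hW, hWo, hyW⟩ := eventually_nhds_iff.1
    ((hu.eventually.and hu2).and (hu.continuousAt.eventually_ne hu0))
  exact ⟨W, hWo, hyW, u, (Lc_220.holF_iff hWo).2 fun x hx => (hW x hx).1.1, fun x hx => (hW x hx).2,
    fun x hx => (hW x hx).1.2⟩

section Bundle

variable [ContinuousConstSMul G X] [Nonempty X]

/-- **the local equations of the branch divisor** -/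
def brE (h : RA C G) : Eqs h.fam univ where
  α := RC G C
  V c := c.eM.source
  op c := c.eM.open_source
  cov m _ := h.fam.cover m
  f := eqB
  dense := dense_eqB
  loc _ _ _ hm := asc_open (asc_eqB h hm.1 hm.2)

theorem exists_met_brE (h : RA C G) [CompactSpace (Orb G X)] [T2Space (Orb G X)] (k : ℤ) :
    Nonempty (Met ((brE h).cb.zpow k) univ) := exists_met _

end Bundle

end

end Crest.Agent.R272.LcR_783
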