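import Crest.Agent.R275.CousC_686

/-!
Row 272 (helper297): LIFT, part 1.
* `approx` : Taylor approximation on balls by entire functions;
* `cousin2_global` : local data (in the sense of `Cous686.LocData`) at every point of `ℂⁿ` are given
  by ONE function.
-/

set_option autoImplicit false
set_option linter.unusedSectionVars false

open Set Filter Topology Metric Complex
open Crest.Agent.R266.SCV Crest.Agent.R275.Geo Crest.Agent.R275.Cous686

noncomputable section

namespace Crest.Agent.R272.Lift_297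

/-- Taylor approximation on balls -/
theorem approx {E : Type*} [NormedAddCommGroup E] [NormedSpace ℂ E] [FiniteDimensional ℂ E]
    {v : E → ℂ} {r R ε : ℝ} (h0 : 0 < r) (hrR : r < R) (hv : DifferentiableOn ℂ v (ball 0 R))
    (hε : 0 < ε) :
    ∃ p : E → ℂ, Differentiable ℂ p ∧ ∀ z ∈ closedBall (0 : E) r, ‖v z - p z‖ ≤ ε := by
  have : ProperSpace E := FiniteDimensional.proper ℂ E
  have hR0 : 0 < R := h0.trans hrR
  set r' : ℝ := (r + R) / 2 with hr'
  have hr'R : r' < R := by rw [hr']; linarith
  have hrr' : r < r' := by rw [hr']; linarith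
  have hr'0 : 0 < r' := h0.trans hrr'
  set q : NNReal := ⟨r' / r, by positivity⟩ with hq
  have hqv : (q : ℝ) = r' / r := rfl
  have hq1 : (1 : ℝ) < q := by rw [hqv]; exact (one_lt_div h0).2 hrr'
  have hq0 : 0 < q := by
    have : (0 : ℝ) < q := by linarith
    exact_mod_cast this
  obtain ⟨C, hC⟩ := (isCompact_closedBall (0 : E) r').exists_bound_of_continuousOn
    (f := v) (hv.continuousOn.mono (closedBall_subset_ball hr'R))
  have hva : AnalyticAt ℂ v 0 :=
    (analyticOnNhd_of_differentiableOn isOpen_ball hv) 0 (mem_ball_self hR0)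
  obtain ⟨p, hp⟩ := hva
  have hC0 : 0 ≤ C := (norm_nonneg _).trans (hC 0 (mem_closedBall_self hr'0.le))
  -- the geometric bound
  obtain ⟨M, hM⟩ : ∃ M : ℕ, C * ((q : ℝ)⁻¹) ^ M / (1 - (q : ℝ)⁻¹) ≤ ε := by
    have h1 : (q : ℝ)⁻¹ < 1 := inv_lt_one_of_one_lt₀ hq1
    have h2 : Tendsto (fun M : ℕ => C * ((q : ℝ)⁻¹) ^ M / (1 - (q : ℝ)⁻¹)) atTop
        (𝓝 (C * 0 / (1 - (q : ℝ)⁻¹))) :=
      ((tendsto_pow_atTop_nhds_zero_of_lt_one (by positivity) h1).const_mul C).div_const _
    rw [mul_zero, zero_div] at h2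
    exact ((h2.eventually (ge_mem_nhds hε)).exists)
  refine ⟨fun z => ∑ m ∈ Finset.range M, p m (fun _ => z), ?_, ?_⟩
  · refine Differentiable.fun_sum fun m _ => ?_
    have h1 : Differentiable ℂ (fun x : Fin m → E => p m x) :=
      ((p m).contDiff (n := 1)).differentiable (by norm_num)
    exact h1.comp (differentiable_pi.2 fun _ => differentiable_id)
  · intro z hz
    have hz' : ‖z‖ ≤ r := by simpa using hz
    set g : ℂ → ℂ := fun ζ => v (ζ • z) with hg
    have hmap : ∀ ζ ∈ closedBall (0 : ℂ) q, ζ • z ∈ closedBall (0 : E) r' := by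
      intro ζ hζ
      have h1 : ‖ζ‖ ≤ r' / r := by simpa [hqv] using hζ
      rw [mem_closedBall_zero_iff, norm_smul]
      calc ‖ζ‖ * ‖z‖ ≤ r' / r * r := mul_le_mul h1 hz' (norm_nonneg _) (by positivity)
        _ = r' := by field_simp
    have hgd : DifferentiableOn ℂ g (closedBall 0 q) := by
      refine hv.comp (by fun_prop) fun ζ hζ => ?_
      exact closedBall_subset_ball hr'R (hmap ζ hζ)
    have hgs := hgd.hasFPowerSeriesOnBall hq0
    have hL : HasFPowerSeriesAt g
        (p.compContinuousLinearMap (ContinuousLinearMap.toSpanSingleton ℂ z)) 0 := by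
      have hp' : HasFPowerSeriesAt v p ((ContinuousLinearMap.toSpanSingleton ℂ z) 0) := by
        rw [map_zero]; exact hp
      have := hp'.compContinuousLinearMap
      exact this
    have heq := hgs.hasFPowerSeriesAt.eq_formalMultilinearSeries hL
    have hsum := hgs.hasSum (y := 1) (by
      rw [mem_eball_zero_iff]
      have : (1 : ENNReal) < q := by
        have : (1 : NNReal) < q := by exact_mod_cast hq1
        exact_mod_cast this
      simpa using this)
    have hterm : ∀ m, cauchyPowerSeries g 0 q m (fun _ => 1) = p m (fun _ => z) := by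
      intro m
      rw [heq]
      simp [FormalMultilinearSeries.compContinuousLinearMap]
    have hbd : ∀ m, ‖p m (fun _ => z)‖ ≤ C * ((q : ℝ)⁻¹) ^ m := by
      intro m
      rw [← hterm m]
      have h1 := (cauchyPowerSeries g 0 q m).le_opNorm (fun _ => (1 : ℂ))
      simp only [norm_one, Finset.prod_const_one, mul_one] at h1
      refine h1.trans ((norm_cauchyPowerSeries_le g 0 q m).trans ?_)
      have h2 : (2 * Real.pi)⁻¹ * ∫ θ : ℝ in (0)..2 * Real.pi, ‖g (circleMap 0 q θ)‖ ≤ C := by
        have h3 : ∫ θ : ℝ in (0)..2 * Real.pi, ‖g (circleMap 0 q θ)‖ ≤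
            ∫ θ : ℝ in (0)..2 * Real.pi, C := by
          refine intervalIntegral.integral_mono_on Real.two_pi_pos.le ?_ (by simp) ?_
          · refine ContinuousOn.intervalIntegrable ?_
            refine ContinuousOn.norm (hgd.continuousOn.comp (by fun_prop) ?_)
            intro θ _
            simp [circleMap]
          · intro θ _
            exact hC _ (hmap _ (by simp [circleMap]))
        calc _ ≤ (2 * Real.pi)⁻¹ * ∫ θ : ℝ in (0)..2 * Real.pi, C := by gcongr
          _ = C := by
            rw [intervalIntegral.integral_const]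
            have := Real.pi_pos
            simp only [smul_eq_mul, sub_zero]
            field_simp
      rw [abs_of_pos (by exact_mod_cast hq0 : (0 : ℝ) < q)]
      gcongr
    have hsum' : HasSum (fun m => p m (fun _ => z)) (v z) := by
      have h1 := hsum
      simp only [hterm, zero_add] at h1
      simpa [hg] using h1
    have h1 : (q : ℝ)⁻¹ < 1 := inv_lt_one_of_one_lt₀ hq1
    have h2 := norm_sub_le_of_geometric_bound_of_hasSum h1 hbd hsum' M
    rw [← norm_neg, neg_sub]
    exact h2.trans hM

variable {n : ℕ}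

/-- **global Cousin II on `ℂⁿ`** in the language of `Cous686.LocData` -/
theorem cousin2_global {P : (Cn n → ℂ) → Cn n → Prop} (hP : LocData P)
    (h : ∀ x : Cn n, ∃ f, P f x) : ∃ f, ∀ x, P f x := by
  classical
  have step1 : ∀ k : ℕ, ∃ f, ∀ x ∈ closedBall (0 : Cn n) (k + 2), P f x := by
    intro k
    have hb : ∀ p : RI n, ∃ C : ℝ, ∀ x ∈ closedBall (0 : Cn n) (k + 2), ‖rc x p‖ ≤ C := fun p =>
      (isCompact_closedBall (0 : Cn n) (k + 2)).exists_bound_of_continuousOn
        (continuous_rc_apply p).continuousOn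
    choose C hC using hb
    obtain ⟨f, hf⟩ := cousin2 hP (fun p => -C p) C (fun x _ => h x)
    refine ⟨f, fun x hx => hf x fun p => ?_⟩
    have := hC p x hx
    rw [Real.norm_eq_abs, abs_le] at this
    exact this
  choose f hf using step1
  have step2 : ∀ k : ℕ, ∃ v : Cn n → ℂ, DifferentiableOn ℂ v (ball 0 (k + 2)) ∧
      ∀ x ∈ ball (0 : Cn n) (k + 2), f (k + 1) x = exp (v x) * f k x := by
    intro k
    obtain ⟨u, hu1, hu2, hu3⟩ := hP.quot (O := ball (0 : Cn n) (k + 2)) isOpen_ball
      (fun x hx => hf (k + 1) x (by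
        rw [mem_closedBall_zero_iff]
        rw [mem_ball_zero_iff] at hx
        push_cast
        linarith)) (fun x hx => hf k x (ball_subset_closedBall hx))
    obtain ⟨v, hv1, hv2⟩ := exists_log isOpen_ball (convex_ball (0 : Cn n) (k + 2)) hu1 hu2
    exact ⟨v, hv1, fun x hx => by rw [hv2 x hx, hu3 x hx]⟩
  choose v hv hfv using step2
  have step3 : ∀ k : ℕ, ∃ p : Cn n → ℂ, Differentiable ℂ p ∧
      ∀ z ∈ closedBall (0 : Cn n) (k + 1), ‖v k z - p z‖ ≤ (1 / 2 : ℝ) ^ k := fun k =>
    approx (by positivity) (by linarith) (hv k) (by positivity)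
  choose p hp hvp using step3
  set s : ℕ → Cn n → ℂ := fun k x => ∑ j ∈ Finset.range k, p j x with hs
  have hsd : ∀ k, Differentiable ℂ (s k) := fun k => Differentiable.fun_sum fun j _ => hp j
  set w : ℕ → Cn n → ℂ := fun k x => ∑' i, (v (k + i) x - p (k + i) x) with hw
  have hbd : ∀ k i : ℕ, ∀ x ∈ ball (0 : Cn n) (k + 1),
      ‖v (k + i) x - p (k + i) x‖ ≤ (1 / 2 : ℝ) ^ i := by
    intro k i x hx
    refine (hvp (k + i) x ?_).trans ?_
    · rw [mem_closedBall_zero_iff]
      rw [mem_ball_zero_iff] at hx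
      push_cast
      have : (0 : ℝ) ≤ i := Nat.cast_nonneg i
      linarith
    · exact pow_le_pow_of_le_one (by norm_num) (by norm_num) (Nat.le_add_left i k)
  have hgs : Summable fun i : ℕ => (1 / 2 : ℝ) ^ i := summable_geometric_two
  have hwd : ∀ k : ℕ, DifferentiableOn ℂ (w k) (ball 0 (k + 1)) := by
    intro k
    have h1 : TendstoUniformlyOn
        (fun N x => ∑ i ∈ Finset.range N, (v (k + i) x - p (k + i) x)) (w k) atTop
        (ball (0 : Cn n) (k + 1)) := tendstoUniformlyOn_tsum_nat hgs (hbd k)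
    refine (analyticOnNhd_of_tendstoLocallyUniformlyOn isOpen_ball
      h1.tendstoLocallyUniformlyOn (Eventually.of_forall fun N => ?_)).differentiableOn
    refine DifferentiableOn.fun_sum fun i _ => ?_
    refine ((hv (k + i)).mono (ball_subset_ball ?_)).sub (hp _).differentiableOn
    push_cast
    have : (0 : ℝ) ≤ i := Nat.cast_nonneg i
    linarith
  have hws : ∀ k : ℕ, ∀ x ∈ ball (0 : Cn n) (k + 1), w k x = (v k x - p k x) + w (k + 1) x := by
    intro k x hx
    have h1 : Summable fun i => (v (k + i) x - p (k + i) x) :=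
      Summable.of_norm_bounded hgs (fun i => hbd k i x hx)
    simp only [hw]
    rw [h1.tsum_eq_zero_add]
    simp only [add_zero]
    congr 1
    refine tsum_congr fun i => ?_
    rw [show k + (i + 1) = k + 1 + i by ring]
  set G : ℕ → Cn n → ℂ := fun k x => exp (w k x - s k x) * f k x with hG
  have hGs : ∀ k : ℕ, ∀ x ∈ ball (0 : Cn n) (k + 1), G k x = G (k + 1) x := by
    intro k x hx
    have hx2 : x ∈ ball (0 : Cn n) (k + 2) := ball_subset_ball (by linarith) hx
    simp only [hG]
    rw [hfv k x hx2, ← mul_assoc, ← Complex.exp_add, hws k x hx]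
    congr 2
    simp only [hs]
    rw [Finset.sum_range_succ]
    ring
  have hGG : ∀ k j : ℕ, ∀ x ∈ ball (0 : Cn n) (k + 1), G k x = G (k + j) x := by
    intro k j x hx
    induction j with
    | zero => rfl
    | succ j ih =>
      rw [ih, ← add_assoc]
      refine hGs (k + j) x (ball_subset_ball ?_ hx)
      push_cast
      have : (0 : ℝ) ≤ j := Nat.cast_nonneg j
      linarith
  refine ⟨fun x => G ⌊‖x‖⌋₊ x, fun x => ?_⟩
  set k := ⌊‖x‖⌋₊ with hk
  have hxk : x ∈ ball (0 : Cn n) (k + 1) := by
    rw [mem_ball_zero_iff]; exact Nat.lt_floor_add_one _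
  have hev : (fun y => G ⌊‖y‖⌋₊ y) =ᶠ[𝓝 x] G k := by
    filter_upwards [isOpen_ball.mem_nhds hxk] with y hy
    rw [mem_ball_zero_iff] at hy
    have h1 : ⌊‖y‖⌋₊ ≤ k := by
      have : ⌊‖y‖⌋₊ < k + 1 := (Nat.floor_lt (norm_nonneg y)).2 (by push_cast; exact hy)
      omega
    obtain ⟨j, hj⟩ := Nat.exists_eq_add_of_le h1
    rw [hj]
    exact hGG _ j y (by rw [mem_ball_zero_iff]; exact Nat.lt_floor_add_one _)
  have hPk : P (f k) x := hf k x (by
    rw [mem_closedBall_zero_iff]
    rw [mem_ball_zero_iff] at hxk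
    linarith)
  refine hP.mul hPk (u := fun y => exp (w k y - s k y)) ?_ (Complex.exp_ne_zero _) hev
  filter_upwards [isOpen_ball.mem_nhds hxk] with y hy
  exact (((hwd k).differentiableAt (isOpen_ball.mem_nhds hy)).sub (hsd k y)).cexp

end Crest.Agent.R272.Lift_297
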