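import Mathlib

/-!
# R272 (S0415), stabilisers on `X₁` (helper302): reflections by a trace count

* `refl_of_trace` : an involution of trace `dim - 2` is `w ↦ w - ℓ w • v`, `ℓ v = 2`;
* `trace_exact` : the trace is additive in exact sequences;
* `trace_level` : trace of the derivative of a map of a level set `{Φ = 0}` at a fixed point;
* `trace_semi` : trace of the derivative of `(z, f) ↦ (s z, L z f)`.
-/

set_option autoImplicit false

open Set Filter Topology Module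

namespace Crest.Agent.R272.LinTr_302

noncomputable section

section Lin

variable {V V' V'' : Type*} [AddCommGroup V] [Module ℂ V] [AddCommGroup V'] [Module ℂ V']
  [AddCommGroup V''] [Module ℂ V''] [FiniteDimensional ℂ V] [FiniteDimensional ℂ V']
  [FiniteDimensional ℂ V'']

/-- an involution with trace `dim - 2` is a reflection -/
theorem refl_of_trace (A : V →ₗ[ℂ] V) (hA : ∀ w, A (A w) = w)
    (ht : LinearMap.trace ℂ V A = finrank ℂ V - 2) :
    ∃ (ℓ : V →ₗ[ℂ] ℂ) (v : V), ℓ v = 2 ∧ ∀ w, A w = w - ℓ w • v := by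
  let p : V →ₗ[ℂ] V := (1 / 2 : ℂ) • (LinearMap.id - A)
  have hp : ∀ w, p w = (1 / 2 : ℂ) • (w - A w) := fun w => rfl
  have hpp : ∀ w, p (p w) = p w := by
    intro w
    simp only [hp, map_smul, map_sub, hA]
    module
  have hid : IsIdempotentElem p := LinearMap.ext hpp
  have h1 := (LinearMap.IsIdempotentElem.isProj_range p hid).trace
  have h2 : LinearMap.trace ℂ V p = 1 := by
    simp only [p, map_smul, map_sub, LinearMap.trace_id, ht, smul_eq_mul]
    ring
  rw [h2] at h1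
  have h3 : finrank ℂ (LinearMap.range p) = 1 := by exact_mod_cast h1.symm
  obtain ⟨⟨v, hv⟩, hv0, hspan⟩ := finrank_eq_one_iff'.1 h3
  have hv0' : v ≠ 0 := fun h => hv0 (Subtype.ext h)
  -- the coefficient
  have hc : ∀ w, ∃ c : ℂ, c • v = p w := by
    intro w
    obtain ⟨c, hc⟩ := hspan ⟨p w, ⟨w, rfl⟩⟩
    exact ⟨c, congrArg Subtype.val hc⟩
  choose c hc using hc
  have hinj : ∀ a b : ℂ, a • v = b • v → a = b := fun a b h => smul_left_injective ℂ hv0' h
  let ℓ' : V →ₗ[ℂ] ℂ :=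
    { toFun := c
      map_add' := fun x y => hinj _ _ (by rw [hc, map_add, add_smul, hc, hc])
      map_smul' := fun a x => hinj _ _ (by
        rw [hc, map_smul, RingHom.id_apply, smul_eq_mul, mul_smul, hc]) }
  have hpv : p v = v := by
    obtain ⟨w, rfl⟩ := hv
    exact hpp w
  have hcv : c v = 1 := hinj _ _ (by rw [hc, hpv, one_smul])
  refine ⟨(2 : ℂ) • ℓ', v, ?_, fun w => ?_⟩
  · show (2 : ℂ) * c v = 2
    rw [hcv, mul_one]
  · show A w = w - ((2 : ℂ) * c w) • v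
    rw [mul_smul, hc, hp]
    module

/-- additivity of the trace -/
theorem trace_exact (ι : V' →ₗ[ℂ] V) (π : V →ₗ[ℂ] V'') (hι : Function.Injective ι)
    (hπ : Function.Surjective π) (hex : LinearMap.range ι = LinearMap.ker π)
    (A : V →ₗ[ℂ] V) (A' : V' →ₗ[ℂ] V') (A'' : V'' →ₗ[ℂ] V'')
    (h1 : ∀ w, A (ι w) = ι (A' w)) (h2 : ∀ w, π (A w) = A'' (π w)) :
    LinearMap.trace ℂ V A = LinearMap.trace ℂ V' A' + LinearMap.trace ℂ V'' A'' := by
  obtain ⟨j, hj⟩ := LinearMap.exists_rightInverse_of_surjective π (LinearMap.range_eq_top.2 hπ)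
  have hj' : ∀ w, π (j w) = w := fun w => LinearMap.congr_fun hj w
  have hπι : ∀ w, π (ι w) = 0 := fun w => by
    have : ι w ∈ LinearMap.ker π := hex ▸ LinearMap.mem_range_self ι w
    exact this
  have hr : ∀ w, ∃ u, ι u = w - j (π w) := by
    intro w
    have : w - j (π w) ∈ LinearMap.ker π := by
      rw [LinearMap.mem_ker, map_sub, hj', sub_self]
    rw [← hex] at this
    exact this
  choose r hr using hr
  let R : V →ₗ[ℂ] V' :=
    { toFun := r
      map_add' := fun x y => hι (by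
        rw [map_add ι (r x) (r y), hr, hr, hr, map_add, map_add]; abel)
      map_smul' := fun a x => hι (by
        rw [hr, map_smul, map_smul, RingHom.id_apply, map_smul, hr, smul_sub]) }
  have hR : ∀ w, ι (R w) = w - j (π w) := hr
  have e1 : R ∘ₗ ι = LinearMap.id := by
    ext w
    apply hι
    show ι (R (ι w)) = ι w
    rw [hR, hπι, map_zero, sub_zero]
  have e2 : A = (A ∘ₗ ι) ∘ₗ R + (A ∘ₗ j) ∘ₗ π := by
    ext w
    show A w = A (ι (R w)) + A (j (π w))
    rw [hR, ← map_add, sub_add_cancel]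
  have e3 : (A ∘ₗ ι) = ι ∘ₗ A' := LinearMap.ext h1
  have e4 : π ∘ₗ A = A'' ∘ₗ π := LinearMap.ext h2
  have e5 : LinearMap.trace ℂ V ((A ∘ₗ ι) ∘ₗ R) = LinearMap.trace ℂ V' A' := by
    rw [e3, LinearMap.comp_assoc, LinearMap.trace_comp_comm', LinearMap.comp_assoc, e1,
      LinearMap.comp_id]
  have e6 : LinearMap.trace ℂ V ((A ∘ₗ j) ∘ₗ π) = LinearMap.trace ℂ V'' A'' := by
    rw [LinearMap.trace_comp_comm', ← LinearMap.comp_assoc, e4, LinearMap.comp_assoc, hj,
      LinearMap.comp_id]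
  rw [← e5, ← e6, ← map_add, ← e2]

end Lin

section Ana

variable {V E F : Type*} [NormedAddCommGroup V] [NormedSpace ℂ V] [NormedAddCommGroup E]
  [NormedSpace ℂ E] [NormedAddCommGroup F] [NormedSpace ℂ F] [FiniteDimensional ℂ V]
  [FiniteDimensional ℂ E] [FiniteDimensional ℂ F]

omit [FiniteDimensional ℂ E] [FiniteDimensional ℂ F] in
/-- derivative of `M x (Φ x)` where `Φ` vanishes -/
theorem hasFDerivAt_apply_zero {M : E → F →L[ℂ] F} {Φ : E → F} {e : E} {DΦ : E →L[ℂ] F}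
    (hM : DifferentiableAt ℂ M e) (hΦ : HasFDerivAt Φ DΦ e) (h0 : Φ e = 0) :
    HasFDerivAt (fun x => M x (Φ x)) ((M e).comp DΦ) e := by
  have h1 := hM.hasFDerivAt.clm_apply hΦ
  refine h1.congr_fderiv ?_
  ext w
  simp [h0]

/-- **trace on a level set** -/
theorem trace_level {g : V → E} {T : V → V} {S : E → E} {Φ : E → F} {M : E → F →L[ℂ] F} {p : V}
    {ι : V →L[ℂ] E} {A : V →L[ℂ] V} {DS : E →L[ℂ] E} {DΦ : E →L[ℂ] F}
    (hg : HasFDerivAt g ι p) (hι : Function.Injective ι) (hT : HasFDerivAt T A p) (hTp : T p = p)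
    (hS : HasFDerivAt S DS (g p)) (hgT : ∀ᶠ x in 𝓝 p, g (T x) = S (g x))
    (hΦ : HasFDerivAt Φ DΦ (g p)) (hsurj : Function.Surjective DΦ)
    (hdim : finrank ℂ E = finrank ℂ V + finrank ℂ F) (hΦg : ∀ᶠ x in 𝓝 p, Φ (g x) = 0)
    (hM : DifferentiableAt ℂ M (g p)) (hΦS : ∀ᶠ x in 𝓝 (g p), Φ (S x) = M x (Φ x)) :
    LinearMap.trace ℂ V (A : V →ₗ[ℂ] V) =
      LinearMap.trace ℂ E (DS : E →ₗ[ℂ] E) - LinearMap.trace ℂ F (M (g p) : F →ₗ[ℂ] F) := by
  have h0 : Φ (g p) = 0 := hΦg.self_of_nhds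
  have hSg : S (g p) = g p := by rw [← hgT.self_of_nhds, hTp]
  -- `ι A = DS ι`
  have e1 : ι.comp A = DS.comp ι := by
    have a1 : HasFDerivAt (fun x => g (T x)) (ι.comp A) p := by
      have : HasFDerivAt g ι (T p) := by rw [hTp]; exact hg
      exact this.comp p hT
    have a2 : HasFDerivAt (fun x => S (g x)) (DS.comp ι) p := hS.comp p hg
    exact a1.unique (a2.congr_of_eventuallyEq hgT)
  -- `DΦ ι = 0`
  have e2 : DΦ.comp ι = 0 := by
    have a1 : HasFDerivAt (fun x => Φ (g x)) (DΦ.comp ι) p := hΦ.comp p hg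
    have a2 : HasFDerivAt (fun _ : V => (0 : F)) (0 : V →L[ℂ] F) p := hasFDerivAt_const 0 p
    exact a1.unique (a2.congr_of_eventuallyEq hΦg)
  -- `DΦ DS = M DΦ`
  have e3 : DΦ.comp DS = (M (g p)).comp DΦ := by
    have a1 : HasFDerivAt (fun x => Φ (S x)) (DΦ.comp DS) (g p) := by
      have : HasFDerivAt Φ DΦ (S (g p)) := by rw [hSg]; exact hΦ
      exact this.comp (g p) hS
    exact a1.unique ((hasFDerivAt_apply_zero hM hΦ h0).congr_of_eventuallyEq hΦS)
  have hrange : LinearMap.range (ι : V →ₗ[ℂ] E) = LinearMap.ker (DΦ : E →ₗ[ℂ] F) := by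
    apply Submodule.eq_of_le_of_finrank_eq
    · rintro _ ⟨w, rfl⟩
      exact DFunLike.congr_fun e2 w
    · have b1 : finrank ℂ (LinearMap.range (ι : V →ₗ[ℂ] E)) = finrank ℂ V :=
        LinearMap.finrank_range_of_inj hι
      have b2 := LinearMap.finrank_range_add_finrank_ker (DΦ : E →ₗ[ℂ] F)
      have b3 : finrank ℂ (LinearMap.range (DΦ : E →ₗ[ℂ] F)) = finrank ℂ F := by
        rw [LinearMap.range_eq_top.2 hsurj, finrank_top]
      omega
  have key := trace_exact (ι : V →ₗ[ℂ] E) (DΦ : E →ₗ[ℂ] F) hι hsurj hrange (DS : E →ₗ[ℂ] E)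
    (A : V →ₗ[ℂ] V) (M (g p) : F →ₗ[ℂ] F) (fun w => (DFunLike.congr_fun e1 w).symm)
    (fun w => DFunLike.congr_fun e3 w)
  rw [key]
  ring

variable {W : Type*} [NormedAddCommGroup W] [NormedSpace ℂ W] [FiniteDimensional ℂ W]

/-- derivative and trace of `(z, f) ↦ (s z, L z f)` -/
theorem trace_semi {s : W → W} {L : W → F →L[ℂ] F} {z : W} {f : F} {B : W →L[ℂ] W}
    (hs : HasFDerivAt s B z) (hL : DifferentiableAt ℂ L z) :
    ∃ DS : (W × F) →L[ℂ] (W × F), HasFDerivAt (fun x : W × F => (s x.1, L x.1 x.2)) DS (z, f) ∧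
      LinearMap.trace ℂ (W × F) (DS : (W × F) →ₗ[ℂ] (W × F)) =
        LinearMap.trace ℂ W (B : W →ₗ[ℂ] W) + LinearMap.trace ℂ F (L z : F →ₗ[ℂ] F) := by
  have h1 : HasFDerivAt (fun x : W × F => s x.1) (B.comp (ContinuousLinearMap.fst ℂ W F)) (z, f) :=
    HasFDerivAt.comp (z, f) (g := s) (f := fun x : W × F => x.1) hs hasFDerivAt_fst
  have h2 : HasFDerivAt (fun x : W × F => L x.1)
      ((fderiv ℂ L z).comp (ContinuousLinearMap.fst ℂ W F)) (z, f) :=
    HasFDerivAt.comp (z, f) (g := L) (f := fun x : W × F => x.1) hL.hasFDerivAt hasFDerivAt_fst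
  have h3 := h2.clm_apply (hasFDerivAt_snd (𝕜 := ℂ) (E := W) (F := F) (p := (z, f)))
  refine ⟨_, h1.prodMk h3, ?_⟩
  have hr : LinearMap.range (LinearMap.inr ℂ W F) = LinearMap.ker (LinearMap.fst ℂ W F) := by
    ext x
    constructor
    · rintro ⟨y, rfl⟩; rfl
    · intro hx
      refine ⟨x.2, Prod.ext ?_ rfl⟩
      exact (LinearMap.mem_ker.1 hx).symm
  have key := trace_exact (LinearMap.inr ℂ W F) (LinearMap.fst ℂ W F) LinearMap.inr_injective
    LinearMap.fst_surjective hr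
    (((B.comp (ContinuousLinearMap.fst ℂ W F)).prod
      ((L z).comp (ContinuousLinearMap.snd ℂ W F) +
        ((fderiv ℂ L z).comp (ContinuousLinearMap.fst ℂ W F)).flip f) : (W × F) →L[ℂ] (W × F)) :
      (W × F) →ₗ[ℂ] (W × F)) (L z : F →ₗ[ℂ] F) (B : W →ₗ[ℂ] W)
    (fun w => by
      refine Prod.ext ?_ ?_
      · simp
      · simp)
    (fun w => by simp)
  exact key.trans (add_comm _ _)

end Ana

end

end Crest.Agent.R272.LinTr_302
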