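import Crest.Agent.R272.UnB1_894

/-!
Row 272 (S0414), UNIF-B, part 4: if `p = g ∘ q` with `p`, `g` covering maps and the base locally
connected, then `q` is a covering map; surjectivity of a covering onto a connected space.
-/

set_option autoImplicit false

open Metric Set Filter Topology Function

namespace Crest.Agent.R272.UnB_894

noncomputable section

variable {E Y X : Type*} [TopologicalSpace E] [TopologicalSpace Y] [TopologicalSpace X]

/-- `p = g ∘ q`, `p` and `g` coverings, the base locally connected: then `q` is a covering -/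
theorem covering_of_comp [LocallyConnectedSpace X] {p : E → X} (hp : IsCoveringMap p)
    {g : Y → X} (hg : IsCoveringMap g) {q : E → Y} (hq : Continuous q)
    (h : ∀ e, g (q e) = p e) : IsCoveringMap q := by
  have key0 : ∀ y : Y, ∀ (I : Type _) (_ : TopologicalSpace I) (K : Type _)
      (_ : TopologicalSpace K), IsEvenlyCovered g (g y) I → IsEvenlyCovered p (g y) K →
      ∃ (J : Type _) (_ : TopologicalSpace J), IsEvenlyCovered q y J := by
    intro y I tI K tK hcg hcp
    obtain ⟨hI, Ug, hxUg, hUg, hgUg, Hg, hHg⟩ := hcg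
    obtain ⟨hI', Up, hxUp, hUp, hpUp, Hp, hHp⟩ := hcp
    -- a connected open neighbourhood in both
    obtain ⟨U, hU1, hU2, hU3, hU4⟩ := locallyConnectedSpace_iff_subsets_isOpen_isConnected.1
      ‹_› (g y) (Ug ∩ Up) ((hUg.inter hUp).mem_nhds ⟨hxUg, hxUp⟩)
    have hUg' : U ⊆ Ug := fun x hx => (hU1 hx).1
    have hUp' : U ⊆ Up := fun x hx => (hU1 hx).2
    set i0 : I := (Hg ⟨y, hxUg⟩).2 with hi0
    -- the sheet of `g` through `y`
    set V : Set Y := {z | ∃ hz : g z ∈ U, (Hg ⟨z, hUg' hz⟩).2 = i0} with hV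
    -- sheets of `p`
    have hsub : ∀ {z : Y} (h1 h2 : z ∈ g ⁻¹' Ug), Hg ⟨z, h1⟩ = Hg ⟨z, h2⟩ := fun _ _ => rfl
    -- the lift of `U` to the sheet `k` of `p`
    let sp : K → U → E := fun k x => (Hp.symm (⟨x.1, hUp' x.2⟩, k) : E)
    have hsp : ∀ k, Continuous (sp k) := fun k => by
      refine continuous_subtype_val.comp (Hp.symm.continuous.comp ?_)
      exact (Continuous.subtype_mk continuous_subtype_val _).prodMk continuous_const
    have psp : ∀ k x, p (sp k x) = x.1 := fun k x => by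
      have := hHp (Hp.symm (⟨x.1, hUp' x.2⟩, k))
      rw [Homeomorph.apply_symm_apply] at this
      exact this.symm
    have gqsp : ∀ k x, g (q (sp k x)) = x.1 := fun k x => (h _).trans (psp k x)
    -- the sheet of `g` which contains `q (sp k x)`
    let sh : K → U → I := fun k x =>
      (Hg ⟨q (sp k x), by rw [mem_preimage, gqsp]; exact hUg' x.2⟩).2
    have hsh : ∀ k, Continuous (sh k) := fun k => by
      refine continuous_snd.comp (Hg.continuous.comp ?_)
      exact Continuous.subtype_mk (hq.comp (hsp k)) _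
    have hshc : ∀ k x x', sh k x = sh k x' := by
      intro k x x'
      have : PreconnectedSpace U := isPreconnected_iff_preconnectedSpace.1 hU4.isPreconnected
      exact PreconnectedSpace.constant ‹_› (hsh k)
    let x0 : U := ⟨g y, hU3⟩
    let J : Type _ := {k : K // sh k x0 = i0}
    refine ⟨J, inferInstance, inferInstance, V, ⟨hU3, rfl⟩, ?_, ?_, ?_⟩
    · -- `V` is open
      have h1 : IsOpen {z : g ⁻¹' Ug | g z ∈ U ∧ (Hg z).2 = i0} := by
        refine (hU2.preimage (hg.continuous.comp continuous_subtype_val)).inter ?_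
        exact (isOpen_discrete ({i0} : Set I)).preimage (continuous_snd.comp Hg.continuous)
      have h2 := hgUg.isOpenMap_subtype_val _ h1
      convert h2 using 1
      ext z
      constructor
      · rintro ⟨hz, hz'⟩
        exact ⟨⟨z, hUg' hz⟩, ⟨hz, hz'⟩, rfl⟩
      · rintro ⟨⟨z, hz0⟩, ⟨hz, hz'⟩, rfl⟩
        exact ⟨hz, hz'⟩
    · -- `q ⁻¹' V` is open
      have h1 : IsOpen {z : g ⁻¹' Ug | g z ∈ U ∧ (Hg z).2 = i0} := by
        refine (hU2.preimage (hg.continuous.comp continuous_subtype_val)).inter ?_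
        exact (isOpen_discrete ({i0} : Set I)).preimage (continuous_snd.comp Hg.continuous)
      have h2 := (hgUg.isOpenMap_subtype_val _ h1).preimage hq
      convert h2 using 1
      ext e
      constructor
      · rintro ⟨hz, hz'⟩
        exact ⟨⟨q e, hUg' hz⟩, ⟨hz, hz'⟩, rfl⟩
      · rintro ⟨⟨z, hz0⟩, ⟨hz, hz'⟩, hze⟩
        change z = q e at hze
        subst hze
        exact ⟨hz, hz'⟩
    · -- the homeomorphism
      have hpe : ∀ {e : E}, e ∈ q ⁻¹' V → p e ∈ U := fun {e} he => by
        rw [← h]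
        exact he.1
      -- a point over `U` is `sp` of its sheet
      have esp : ∀ (e : E) (he : p e ∈ U), sp (Hp ⟨e, hUp' he⟩).2 ⟨p e, he⟩ = e := by
        intro e he
        have h1 : ((⟨p e, hUp' he⟩ : Up), (Hp ⟨e, hUp' he⟩).2) = Hp ⟨e, hUp' he⟩ :=
          Prod.ext (Subtype.ext (hHp ⟨e, hUp' he⟩).symm) rfl
        change ((Hp.symm (⟨p e, hUp' he⟩, (Hp ⟨e, hUp' he⟩).2) : p ⁻¹' Up) : E) = e
        rw [h1, Homeomorph.symm_apply_apply]
      have shp : ∀ (k : K) (x : U), (Hp ⟨sp k x, by rw [mem_preimage, psp]; exact hUp' x.2⟩).2 = k := by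
        intro k x
        have h1 : (⟨sp k x, by rw [mem_preimage, psp]; exact hUp' x.2⟩ : p ⁻¹' Up) =
          Hp.symm (⟨x.1, hUp' x.2⟩, k) := rfl
        rw [h1, Homeomorph.apply_symm_apply]
      have hJ : ∀ {e : E} (he : e ∈ q ⁻¹' V), sh (Hp ⟨e, hUp' (hpe he)⟩).2 x0 = i0 := by
        intro e he
        rw [hshc _ x0 ⟨p e, hpe he⟩, ← he.2]
        have h1 : q (sp (Hp ⟨e, hUp' (hpe he)⟩).2 ⟨p e, hpe he⟩) = q e := by rw [esp]
        change (Hg ⟨q (sp (Hp ⟨e, hUp' (hpe he)⟩).2 ⟨p e, hpe he⟩), _⟩).2 = _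
        congr 2
        exact Subtype.ext h1
      have hVin : ∀ (v : V) (j : J), sp j.1 ⟨g v.1, v.2.1⟩ ∈ q ⁻¹' V := by
        intro v j
        refine ⟨by rw [gqsp]; exact v.2.1, ?_⟩
        have := hshc j.1 ⟨g v.1, v.2.1⟩ x0
        rw [j.2] at this
        exact this
      -- `V → U` is injective
      have hVinj : ∀ (v v' : V), g v.1 = g v'.1 → v = v' := by
        intro v v' e
        have h1 : Hg ⟨v.1, hUg' v.2.1⟩ = Hg ⟨v'.1, hUg' v'.2.1⟩ := by
          refine Prod.ext (Subtype.ext ?_) ?_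
          · exact (hHg ⟨v.1, hUg' v.2.1⟩).trans (e.trans (hHg ⟨v'.1, hUg' v'.2.1⟩).symm)
          · exact v.2.2.trans v'.2.2.symm
        exact Subtype.ext (congrArg (fun z : g ⁻¹' Ug => (z : Y)) (Hg.injective h1))
      refine ⟨⟨⟨fun e => (⟨q e.1, e.2⟩, ⟨(Hp ⟨e.1, hUp' (hpe e.2)⟩).2, hJ e.2⟩),
        fun x => ⟨sp x.2.1 ⟨g x.1.1, x.1.2.1⟩, hVin x.1 x.2⟩, ?_, ?_⟩, ?_, ?_⟩, fun e => rfl⟩
      · intro e
        apply Subtype.ext
        change sp (Hp ⟨e.1, hUp' (hpe e.2)⟩).2 ⟨g (q e.1), _⟩ = e.1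
        have h1 : (⟨g (q e.1), e.2.1⟩ : U) = ⟨p e.1, hpe e.2⟩ := Subtype.ext (h e.1)
        rw [h1, esp]
      · intro x
        refine Prod.ext ?_ ?_
        · refine hVinj _ _ ?_
          change g (q (sp x.2.1 ⟨g x.1.1, x.1.2.1⟩)) = g x.1.1
          rw [gqsp]
        · exact Subtype.ext (shp x.2.1 ⟨g x.1.1, x.1.2.1⟩)
      · refine Continuous.prodMk ?_ ?_
        · exact Continuous.subtype_mk (hq.comp continuous_subtype_val) _
        · refine Continuous.subtype_mk ?_ _
          refine continuous_snd.comp (Hp.continuous.comp ?_)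
          exact Continuous.subtype_mk continuous_subtype_val _
      · refine Continuous.subtype_mk ?_ _
        change Continuous fun x : V × J => ((Hp.symm (⟨g x.1.1, hUp' x.1.2.1⟩, x.2.1) : p ⁻¹' Up) : E)
        refine continuous_subtype_val.comp (Hp.symm.continuous.comp ?_)
        refine Continuous.prodMk ?_ (continuous_subtype_val.comp continuous_snd)
        exact Continuous.subtype_mk (hg.continuous.comp
          (continuous_subtype_val.comp continuous_fst)) _
  intro y
  obtain ⟨J, tJ, hJ⟩ := key0 y _ _ _ _ (hg (g y)) (hp (g y))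
  exact hJ.to_isEvenlyCovered_preimage

/-- a covering with non-empty total space over a connected space is surjective -/
theorem covering_surjective [PreconnectedSpace X] [Nonempty E] {p : E → X}
    (hp : IsCoveringMap p) : Surjective p := by
  have h1 : IsOpen (range p) := hp.isOpenMap.isOpen_range
  have h2 : IsOpen (range p)ᶜ := by
    rw [isOpen_iff_mem_nhds]
    intro x hx
    obtain ⟨hI, U, hxU, hU, hpU, H, hH⟩ := hp x
    have : IsEmpty (p ⁻¹' {x}) := ⟨fun e => hx ⟨e.1, e.2⟩⟩
    filter_upwards [hU.mem_nhds hxU] with z hz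
    rintro ⟨e, rfl⟩
    exact this.elim (H ⟨e, hz⟩).2
  have h3 : IsClopen (range p) := ⟨isOpen_compl_iff.1 h2, h1⟩
  exact range_eq_univ.1 (h3.eq_univ (range_nonempty p))

end

end Crest.Agent.R272.UnB_894
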