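import Crest.Agent.R272.UnB3_894
import Crest.Agent.R272.UnB4_894

/-!
Row 272 (S0414), UNIF-B, part 5: étale maps, ramification, and the final statement `discs`.
-/

set_option autoImplicit false

open Metric Set Filter Topology Function
open scoped Classical

namespace Crest.Agent.R272.UnB_894

open Crest.Agent.R275.Geo Crest.Agent.R275.Core144 Crest.Agent.R273.Map_835

noncomputable section

variable {M M' M'' : Type} [TopologicalSpace M] [TopologicalSpace M'] [TopologicalSpace M'']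

/-- the charted space of an atlas -/
@[reducible] def cs {n : ℕ} (A : Atl n M) : ChartedSpace (Cn n) M where
  atlas := range A.e
  chartAt x := A.e (A.cover x).choose
  mem_chart_source x := (A.cover x).choose_spec
  chart_mem_atlas _ := mem_range_self _

theorem lpc_of_atl {n : ℕ} (A : Atl n M) : LocallyPathConnectedSpace M := by
  let _ := cs A
  exact ChartedSpace.locallyPathConnectedSpace (Cn n) M

theorem lc_of_atl {n : ℕ} (A : Atl n M) : LocallyConnectedSpace M := by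
  let _ := cs A
  exact ChartedSpace.locallyConnectedSpace (Cn n) M

variable {A : Atl 1 M} {A' : Atl 1 M'} {A'' : Atl 1 M''}

/-- the point of `Cn 1` with coordinate `u` -/
def pt (u : ℂ) : Cn 1 := WithLp.toLp 2 fun _ => u

@[simp] theorem pt_zero (u : ℂ) : pt u 0 = u := rfl

theorem pt_co (x : M) (i : A.ι) : pt (co A i x) = A.e i x := by
  ext a
  rw [Subsingleton.elim a 0]
  rfl

theorem pt_inj {u v : ℂ} (h : pt u = pt v) : u = v := by
  have := congrArg (fun z : Cn 1 => z 0) h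
  exact this

theorem pt_surj (z : Cn 1) : pt (z 0) = z := by
  ext a
  rw [Subsingleton.elim a 0]
  rfl

theorem continuous_pt : Continuous pt := by
  unfold pt
  exact (PiLp.continuous_toLp 2 _).comp (continuous_pi fun _ => continuous_id)

theorem differentiable_pt : Differentiable ℂ pt := by
  intro u
  unfold pt
  rw [differentiableAt_euclidean]
  intro a
  exact differentiableAt_id

/-- a holomorphic map between curves, read in charts as a function of one variable -/
def rd1 (A' : Atl 1 M') (A : Atl 1 M) (f : M' → M) (j : A'.ι) (i : A.ι) (u : ℂ) : ℂ :=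
  co A i (f ((A'.e j).symm (pt u)))

theorem rd1_co (f : M' → M) {j : A'.ι} {i : A.ι} {x : M'} (hx : x ∈ (A'.e j).source) :
    rd1 A' A f j i (co A' j x) = co A i (f x) := by
  rw [rd1, pt_co, (A'.e j).left_inv hx]

theorem rd1_diff {f : M' → M} (hf : HolMap A' A f) {j : A'.ι} {i : A.ι} {u : ℂ}
    (h1 : pt u ∈ (A'.e j).target) (h2 : f ((A'.e j).symm (pt u)) ∈ (A.e i).source) :
    DifferentiableAt ℂ (rd1 A' A f j i) u := by
  have h3 : DifferentiableAt ℂ (rd A' A f j i) (pt u) := hf.diffAt ⟨h1, h2⟩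
  have h4 : DifferentiableAt ℂ (fun v => rd A' A f j i (pt v)) u :=
    DifferentiableAt.comp u (g := rd A' A f j i) (f := pt) h3 (differentiable_pt u)
  rw [differentiableAt_euclidean] at h4
  exact h4 0

theorem isOpen_rd1 {f : M' → M} (hf : Continuous f) (j : A'.ι) (i : A.ι) {N : Set M'}
    (hN : IsOpen N) : IsOpen {u : ℂ | pt u ∈ (A'.e j).target ∧
      (A'.e j).symm (pt u) ∈ N ∧ f ((A'.e j).symm (pt u)) ∈ (A.e i).source} := by
  have h1 := (A'.e j).isOpen_inter_preimage_symm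
    (hN.inter ((A.e i).open_source.preimage hf))
  exact h1.preimage continuous_pt

theorem rd1_analyticAt {f : M' → M} (hf : HolMap A' A f) {j : A'.ι} {i : A.ι} {u : ℂ}
    (h1 : pt u ∈ (A'.e j).target) (h2 : f ((A'.e j).symm (pt u)) ∈ (A.e i).source) :
    AnalyticAt ℂ (rd1 A' A f j i) u := by
  rw [Complex.analyticAt_iff_eventually_differentiableAt]
  filter_upwards [(isOpen_rd1 hf.cont j i isOpen_univ).mem_nhds ⟨h1, mem_univ _, h2⟩]
    with v hv
  exact rd1_diff hf hv.1 hv.2.2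

/-- a locally injective holomorphic map of curves has non-zero derivative -/
theorem rd1_deriv_ne {f : M' → M} (hf : HolMap A' A f) {j : A'.ι} {i : A.ι} {x : M'}
    (hx : x ∈ (A'.e j).source) (hi : f x ∈ (A.e i).source)
    (hinj : ∃ N ∈ 𝓝 x, InjOn f N) : deriv (rd1 A' A f j i) (co A' j x) ≠ 0 := by
  obtain ⟨N0, hN0, hinj⟩ := hinj
  obtain ⟨N, hN, hNo, hxN⟩ := mem_nhds_iff.1 hN0
  refine Crest.Agent.Lib.deriv_ne_zero_of_injOn (isOpen_rd1 hf.cont j i hNo)
    (fun u hu => (rd1_diff hf hu.1 hu.2.2).differentiableWithinAt) ?_ ?_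
  · intro u hu v hv e
    have h1 := co_inj hu.2.2 hv.2.2 e
    have h2 := hinj (hN hu.2.1) (hN hv.2.1) h1
    exact pt_inj ((A'.e j).symm.injOn hu.1 hv.1 h2)
  · refine ⟨?_, ?_, ?_⟩
    · rw [pt_co]
      exact (A'.e j).map_source hx
    · rw [pt_co, (A'.e j).left_inv hx]
      exact hxN
    · rw [pt_co, (A'.e j).left_inv hx]
      exact hi

/-- a lift of a local biholomorphism through an étale map is a local biholomorphism -/
theorem lbd_of_etale {p : DD → M} (hp : LBD A p) {g : M' → M} (hg : HolMap A' A g)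
    (hgl : ∀ x, ∃ N ∈ 𝓝 x, InjOn g N) {q : DD → M'} (hq : Continuous q)
    (h : ∀ t, g (q t) = p t) : LBD A' q := by
  have key : ∀ (z : DD) (j : A'.ι), q z ∈ (A'.e j).source →
      ∃ d : ℂ, d ≠ 0 ∧ HasDerivAt (rdD A' q j) d (z : ℂ) := by
    intro z j hj
    obtain ⟨i, hi⟩ := A.cover (p z)
    have hi' : g (q z) ∈ (A.e i).source := by rwa [h]
    have hne := rd1_deriv_ne hg hj hi' (hgl (q z))
    set G := rd1 A' A g j i with hG
    have hGa : AnalyticAt ℂ G (co A' j (q z)) := by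
      refine rd1_analyticAt hg ?_ ?_
      · rw [pt_co]
        exact (A'.e j).map_source hj
      · rw [pt_co, (A'.e j).left_inv hj]
        exact hi'
    have hs := hGa.hasStrictDerivAt
    set L := hs.localInverse G _ _ hne with hL
    have hL1 : HasStrictDerivAt L (deriv G (co A' j (q z)))⁻¹ (G (co A' j (q z))) :=
      hs.to_localInverse hne
    have hGz : G (co A' j (q z)) = rdD A p i z := by
      rw [hG, rd1_co g hj, rdD_coe, h]
    have hP := (hp.strict hi).hasDerivAt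
    have h1 : HasDerivAt L (deriv G (co A' j (q z)))⁻¹ (rdD A p i z) := by
      rw [← hGz]
      exact hL1.hasDerivAt
    have h2 : HasDerivAt (fun w => L (rdD A p i w))
        ((deriv G (co A' j (q z)))⁻¹ * deriv (rdD A p i) z) (z : ℂ) :=
      HasDerivAt.comp (z : ℂ) (h₂ := L) (h := rdD A p i) h1 hP
    refine ⟨_, mul_ne_zero (inv_ne_zero hne) (hp.ne z i hi), h2.congr_of_eventuallyEq ?_⟩
    have h3 : ∀ᶠ u : ℂ in 𝓝 (co A' j (q z)), L (G u) = u :=
      (hs.hasStrictFDerivAt_equiv hne).eventually_left_inverse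
    have h4 : ContinuousAt (fun s : DD => co A' j (q s)) z :=
      continuous_co_comp hq.continuousAt hj
    have h5 : ∀ᶠ s : DD in 𝓝 z, q s ∈ (A'.e j).source :=
      hq.continuousAt.eventually_mem ((A'.e j).open_source.mem_nhds hj)
    have h6 := (h4.eventually h3).and h5
    rw [eventually_mk] at h6
    filter_upwards [h6] with w ⟨hw, hw1, hw2⟩
    change rdD A' q j ((⟨w, hw⟩ : DD) : ℂ) = L (rdD A p i ((⟨w, hw⟩ : DD) : ℂ))
    rw [rdD_coe, rdD_coe, ← h, ← rd1_co g hw2, ← hG, hw1]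
  exact ⟨⟨hq, fun z j hj => (key z j hj).choose_spec.2.differentiableAt⟩, fun z j hj => by
    rw [(key z j hj).choose_spec.2.deriv]
    exact (key z j hj).choose_spec.1⟩

theorem deck_hol {p : DD → M} (hpl : LBD A p) {g : DD ≃ₜ DD}
    (hg : g ∈ Deck p) : Hol g :=
  hol_lift hpl hpl.toHolD g.continuous hg

/-- holomorphic lift of a holomorphic map of curves -/
theorem exists_hol_lift {p : DD → M} (hp : IsCoveringMap p) (hpl : LBD A p) {q : DD → M'}
    (hq : HolD A' q) {f : M' → M} (hf : HolMap A' A f) (a b : DD) (h : p b = f (q a)) :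
    ∃ F : DD → DD, Hol F ∧ F a = b ∧ ∀ t, p (F t) = f (q t) := by
  obtain ⟨F, hF, hFa, hF'⟩ := exists_liftD hp hq.cont hf.cont a b h
  exact ⟨F, hol_lift hpl (hq.comp hf) hF hF', hFa, hF'⟩

/-! ### ramification -/

theorem exw_eventually {φ ψ : DD → ℂ} {t : DD} (h : ∀ᶠ s : DD in 𝓝 t, φ s = ψ s) :
    exw φ =ᶠ[𝓝 (t : ℂ)] exw ψ := by
  rw [eventually_mk] at h
  filter_upwards [h] with w ⟨hw, hw'⟩
  rw [exw_mk _ hw, exw_mk _ hw, hw']

/-- the order of the lift at a point is the order of the map in charts -/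
theorem order_lift {p : DD → M} (hpl : LBD A p) {q : DD → M'} (hql : LBD A' q) {f : M' → M}
    {F : DD → DD} (hF : Hol F) (h : ∀ t, p (F t) = f (q t)) (t : DD)
    {j : A'.ι} {i : A.ι} (hj : q t ∈ (A'.e j).source) (hi : f (q t) ∈ (A.e i).source) :
    analyticOrderAt (fun z => ex F z - F t) (t : ℂ) =
      analyticOrderAt (fun u => rd1 A' A f j i u - co A i (f (q t))) (co A' j (q t)) := by
  have hi' : p (F t) ∈ (A.e i).source := by rwa [h]
  have hPa := hpl.analyticAt hi'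
  have hPne := hpl.ne (F t) i hi'
  have hQa := hql.analyticAt hj
  have hQne := hql.ne t j hj
  -- `P ∘ F - c`
  set c := co A i (f (q t)) with hc
  have e1 : analyticOrderAt ((fun w => rdD A p i w - c) ∘ ex F) (t : ℂ) =
      analyticOrderAt (fun z => ex F z - F t) (t : ℂ) := by
    have hFt : ex F t = F t := exw_coe _ t
    have h1 : AnalyticAt ℂ (fun w => rdD A p i w - c) (ex F t) := by
      rw [hFt]
      exact hPa.sub analyticAt_const
    rw [h1.analyticOrderAt_comp (hF.analyticAt t), hFt]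
    have h2 : analyticOrderAt (fun w => rdD A p i w - c) (F t : ℂ) = 1 := by
      have := hPa.analyticOrderAt_sub_eq_one_of_deriv_ne_zero hPne
      rwa [rdD_coe, h] at this
    rw [h2, one_mul]
  have e2 : analyticOrderAt ((fun u => rd1 A' A f j i u - c) ∘ rdD A' q j) (t : ℂ) =
      analyticOrderAt (fun u => rd1 A' A f j i u - c) (co A' j (q t)) := by
    have := analyticOrderAt_comp_of_deriv_ne_zero (f := fun u => rd1 A' A f j i u - c) hQa hQne
    rwa [rdD_coe] at this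
  rw [← e1, ← e2]
  refine analyticOrderAt_congr ?_
  have h5 := hql.toHolD.eventually_mem hj
  rw [eventually_mk] at h5
  filter_upwards [h5] with w ⟨hw, hw'⟩
  change rdD A p i (ex F ((⟨w, hw⟩ : DD) : ℂ)) - c =
    rd1 A' A f j i (rdD A' q j ((⟨w, hw⟩ : DD) : ℂ)) - c
  rw [show ex F ((⟨w, hw⟩ : DD) : ℂ) = F ⟨w, hw⟩ from exw_coe _ _, rdD_coe, rdD_coe,
    rd1_co f hw', h]

/-- ramification of index `n` -/
theorem ex_factor {F : DD → DD} (hF : Hol F) {n : ℕ}
    (hn : analyticOrderAt (ex F) 0 = n) :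
    ∃ u : ℂ → ℂ, AnalyticAt ℂ u 0 ∧ u 0 ≠ 0 ∧ ∀ᶠ z in 𝓝 0, ex F z = z ^ n * u z := by
  have ha : AnalyticAt ℂ (ex F) 0 := hF.analyticAt o
  obtain ⟨u, h1, h2, h3⟩ := ha.analyticOrderAt_eq_natCast.1 hn
  refine ⟨u, h1, h2, ?_⟩
  filter_upwards [h3] with z hz
  rw [hz, sub_zero, smul_eq_mul]

theorem deriv_ex_zero {F : DD → DD} (hF : Hol F) {n : ℕ} (h2 : 2 ≤ n)
    (hn : analyticOrderAt (ex F) 0 = n) : deriv (ex F) 0 = 0 := by
  have ha : AnalyticAt ℂ (ex F) 0 := hF.analyticAt o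
  obtain ⟨u, h1, -, h3⟩ := ha.analyticOrderAt_eq_natCast.1 hn
  obtain ⟨k, rfl⟩ : ∃ k, n = k + 2 := ⟨n - 2, by omega⟩
  have h4 : ex F =ᶠ[𝓝 0] fun z => z * (z * (z ^ k * u z)) := by
    filter_upwards [h3] with z hz
    rw [hz, sub_zero, smul_eq_mul]
    ring
  rw [h4.deriv_eq]
  have h5 : DifferentiableAt ℂ (fun z => z * (z ^ k * u z)) 0 := by
    have := h1.differentiableAt
    fun_prop
  have h6 := (hasDerivAt_id (0 : ℂ)).mul h5.hasDerivAt
  have h7 : HasDerivAt (fun z : ℂ => z * (z * (z ^ k * u z))) 0 0 := by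
    convert! h6 using 1
    simp
  exact h7.deriv

/-! ### the final statement -/

/-- All the data of S0414 on the discs.  `p : disc → C` the covering (U1), `f : B → C` étale,
`h : B → C` holomorphic, `f z0 = h z0 = p 0`. -/
theorem discs {B C : Type} [TopologicalSpace B] [TopologicalSpace C] {A' : Atl 1 B}
    {A : Atl 1 C} {p : DD → C} (hp : IsCoveringMap p) (hpl : LBD A p) {f h : B → C}
    (hf : HolMap A' A f) (hfc : IsCoveringMap f) (hh : HolMap A' A h) {z0 : B}
    (h1 : f z0 = p o) (h2 : h z0 = p o) :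
    ∃ q : DD → B, IsCoveringMap q ∧ LBD A' q ∧ q o = z0 ∧ (∀ t, f (q t) = p t) ∧
      ∃ F : DD → DD, Hol F ∧ F o = o ∧ (∀ t, p (F t) = h (q t)) ∧
        (∀ t, ‖(F t : ℂ)‖ ≤ ‖(t : ℂ)‖) ∧
        ∀ (j : A'.ι) (i : A.ι), z0 ∈ (A'.e j).source → h z0 ∈ (A.e i).source →
          analyticOrderAt (ex F) 0 =
            analyticOrderAt (fun u => rd1 A' A h j i u - co A i (h z0)) (co A' j z0) := by
  have := lc_of_atl A
  obtain ⟨q, hq, hqo, hq'⟩ := exists_lift hfc hp.continuous o z0 h1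
  have hqc : IsCoveringMap q := covering_of_comp hp hfc hq hq'
  have hfi : ∀ x, ∃ N ∈ 𝓝 x, InjOn f N := by
    intro x
    obtain ⟨e, hx, rfl⟩ := hfc.isLocalHomeomorph x
    exact ⟨e.source, e.open_source.mem_nhds hx, e.injOn⟩
  have hql : LBD A' q := lbd_of_etale hpl hf hfi hq hq'
  obtain ⟨F, hF, hFo, hF'⟩ := exists_hol_lift hp hpl hql.toHolD hh o o (by rw [hqo, h2])
  refine ⟨q, hqc, hql, hqo, hq', F, hF, hFo, hF', schwarz hF hFo, fun j i hj hi => ?_⟩
  have := order_lift hpl hql hF hF' o (j := j) (i := i) (by rwa [hqo]) (by rwa [hqo])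
  rw [hqo, hFo] at this
  simpa using this

/-- the version with a ramification point: `|F t| ≤ |t|²`, `F = t^n u`, `u 0 ≠ 0` -/
theorem discs_ram {B C : Type} [TopologicalSpace B] [TopologicalSpace C] {A' : Atl 1 B}
    {A : Atl 1 C} {p : DD → C} (hp : IsCoveringMap p) (hpl : LBD A p) {f h : B → C}
    (hf : HolMap A' A f) (hfc : IsCoveringMap f) (hh : HolMap A' A h) {z0 : B}
    (h1 : f z0 = p o) (h2 : h z0 = p o) {n : ℕ} (hn : 2 ≤ n)
    (hram : ∃ (j : A'.ι) (i : A.ι), z0 ∈ (A'.e j).source ∧ h z0 ∈ (A.e i).source ∧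
      analyticOrderAt (fun u => rd1 A' A h j i u - co A i (h z0)) (co A' j z0) = n) :
    ∃ q : DD → B, IsCoveringMap q ∧ LBD A' q ∧ q o = z0 ∧ (∀ t, f (q t) = p t) ∧
      ∃ F : DD → DD, Hol F ∧ F o = o ∧ (∀ t, p (F t) = h (q t)) ∧
        (∀ t, ‖(F t : ℂ)‖ ≤ ‖(t : ℂ)‖ ^ 2) ∧
        ∃ u : ℂ → ℂ, AnalyticAt ℂ u 0 ∧ u 0 ≠ 0 ∧ ∀ᶠ z in 𝓝 0, ex F z = z ^ n * u z := by
  obtain ⟨q, hqc, hql, hqo, hq', F, hF, hFo, hF', hS, hO⟩ := discs hp hpl hf hfc hh h1 h2
  obtain ⟨j, i, hj, hi, ho⟩ := hram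
  have h3 : analyticOrderAt (ex F) 0 = n := (hO j i hj hi).trans ho
  exact ⟨q, hqc, hql, hqo, hq', F, hF, hFo, hF',
    schwarz_sq hF hFo (deriv_ex_zero hF hn h3), ex_factor hF h3⟩

end

end Crest.Agent.R272.UnB_894
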