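import Crest.Agent.R272.M14a_590
import Crest.Agent.R272.UnB5_894

/-!
# R272 (S0414), M14 (helper590), part 2: order of `φ` at `z0`

* `Co A x κ`     : `κ` is a local coordinate of the curve at `x`
* `order_of_co`  : `κ (f y) - κ (f x) = (κ' y - κ' x) ^ m` near `x` ⇒ the order of `f` at `x` is `m`
* `co_pc`        : `pc s ∘ D.p` is a coordinate where no root vanishes
* `hram`         : the input of 894 / 414
-/

set_option autoImplicit false
set_option linter.unusedSectionVars false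

open Set Filter Topology Complex

namespace Crest.Agent.R272.M14_590

open Crest.Agent.R275.Geo Crest.Agent.R275.Core144
open Crest.Agent.R273.Fam_835 Crest.Agent.R273.Map_835
open Crest.Agent.R272.FamP_54 Crest.Agent.R272.P1F_54 Crest.Agent.R272.DCov_426
open Crest.Agent.R272.P1S_590 Crest.Agent.R272.Hom_839
open Crest.Agent.R272.P1L_426 (Ch F8 CC BB f16 f8 f4 g8)
open Crest.Agent.R272.UnB_894 (co rd1 rd1_co rd1_analyticAt pt_co)

noncomputable section

section Order

variable {M M' : Type} [TopologicalSpace M] [TopologicalSpace M'] {A : Atl 1 M} {A' : Atl 1 M'}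

/-- `κ` is a local coordinate at `x` -/
structure Co (A : Atl 1 M) (x : M) (κ : M → ℂ) : Prop where
  hf : ∀ᶠ y in 𝓝 x, HFA (fam A) κ y
  inj : ∀ i, x ∈ (A.e i).source →
    Function.Injective (fderiv ℂ (fun w => κ ((A.e i).symm w)) (A.e i x))

/-- the coordinate read in a chart -/
def rdf (A : Atl 1 M) (i : A.ι) (κ : M → ℂ) (u : ℂ) : ℂ := κ ((A.e i).symm (UnB_894.pt u))

theorem rdf_co {i : A.ι} {x : M} (hx : x ∈ (A.e i).source) (κ : M → ℂ) :
    rdf A i κ (co A i x) = κ x := by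
  rw [rdf, pt_co, (A.e i).left_inv hx]

theorem Co.analytic {x : M} {κ : M → ℂ} (h : Co A x κ) {i : A.ι} (hx : x ∈ (A.e i).source) :
    AnalyticAt ℂ (rdf A i κ) (co A i x) := by
  rw [Complex.analyticAt_iff_eventually_differentiableAt]
  have h1 : ∀ᶠ z in 𝓝 (A.e i x), z ∈ (A.e i).target ∧ HFA (fam A) κ ((A.e i).symm z) := by
    filter_upwards [(A.e i).open_target.mem_nhds ((A.e i).map_source hx),
      eventually_chart (F := fam A) (i := i) hx h.hf] with z hz hz'
    exact ⟨hz, hz'⟩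
  have h2 : Tendsto UnB_894.pt (𝓝 (co A i x)) (𝓝 (A.e i x)) := by
    have := UnB_894.continuous_pt.tendsto (co A i x)
    rwa [pt_co] at this
  filter_upwards [h2.eventually h1] with u hu
  have h3 := hu.2 i ((A.e i).map_target hu.1)
  have h4 : ((fam A).e i) ((A.e i).symm (UnB_894.pt u)) = UnB_894.pt u := (A.e i).right_inv hu.1
  rw [h4] at h3
  exact DifferentiableAt.comp u (g := fun w => κ ((A.e i).symm w)) (f := UnB_894.pt) h3
    (UnB_894.differentiable_pt u)

theorem hasDerivAt_pt (u : ℂ) : HasDerivAt UnB_894.pt (UnB_894.pt 1) u := by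
  have h1 : UnB_894.pt = fun u : ℂ => u • UnB_894.pt 1 := by
    funext u
    ext a
    simp [UnB_894.pt]
  rw [h1]
  simpa using (hasDerivAt_id u).smul_const (UnB_894.pt 1)

theorem Co.deriv_ne {x : M} {κ : M → ℂ} (h : Co A x κ) {i : A.ι} (hx : x ∈ (A.e i).source) :
    deriv (rdf A i κ) (co A i x) ≠ 0 := by
  have h1 : DifferentiableAt ℂ (fun w => κ ((A.e i).symm w)) (A.e i x) :=
    h.hf.self_of_nhds i hx
  have h2 : HasFDerivAt (fun w => κ ((A.e i).symm w))
      (fderiv ℂ (fun w => κ ((A.e i).symm w)) (A.e i x)) (UnB_894.pt (co A i x)) := by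
    rw [pt_co]
    exact h1.hasFDerivAt
  have h3 := h2.comp_hasDerivAt (co A i x) (hasDerivAt_pt (co A i x))
  have h4 : deriv (rdf A i κ) (co A i x) =
      fderiv ℂ (fun w => κ ((A.e i).symm w)) (A.e i x) (UnB_894.pt 1) := h3.deriv
  rw [h4]
  intro h5
  have h6 := h.inj i hx (h5.trans (map_zero _).symm)
  have h7 := congrArg (fun z : Cn 1 => z 0) h6
  exact one_ne_zero (α := ℂ) h7

theorem Co.order {x : M} {κ : M → ℂ} (h : Co A x κ) {i : A.ι} (hx : x ∈ (A.e i).source) :
    analyticOrderAt (fun u => rdf A i κ u - κ x) (co A i x) = 1 := by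
  have h1 := (h.analytic hx).analyticOrderAt_sub_eq_one_of_deriv_ne_zero (h.deriv_ne hx)
  rwa [rdf_co hx] at h1

/-- **order of a map of curves from an equation between coordinates** -/
theorem order_of_co {f : M' → M} (hf : HolMap A' A f) {x : M'} {κ' : M' → ℂ} {κ : M → ℂ}
    (h' : Co A' x κ') (h : Co A (f x) κ) {m : ℕ}
    (he : ∀ᶠ y in 𝓝 x, κ (f y) - κ (f x) = (κ' y - κ' x) ^ m)
    {j : A'.ι} {i : A.ι} (hj : x ∈ (A'.e j).source) (hi : f x ∈ (A.e i).source) :
    analyticOrderAt (fun u => rd1 A' A f j i u - co A i (f x)) (co A' j x) = m := by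
  have hr : AnalyticAt ℂ (rd1 A' A f j i) (co A' j x) := rd1_analyticAt hf
    (by rw [pt_co]; exact (A'.e j).map_source hj)
    (by rw [pt_co, (A'.e j).left_inv hj]; exact hi)
  have hr0 : rd1 A' A f j i (co A' j x) = co A i (f x) := rd1_co f hj
  have hb : AnalyticAt ℂ (fun v => rdf A i κ v - κ (f x)) (rd1 A' A f j i (co A' j x)) := by
    rw [hr0]
    exact (h.analytic hi).sub analyticAt_const
  have h1 := hb.analyticOrderAt_comp hr
  rw [hr0, h.order hi, one_mul] at h1
  rw [← h1]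
  have h2 : ((fun v => rdf A i κ v - κ (f x)) ∘ rd1 A' A f j i) =ᶠ[𝓝 (co A' j x)]
      (fun u => rdf A' j κ' u - κ' x) ^ m := by
    have h0 : ∀ᶠ y in 𝓝 x, f y ∈ (A.e i).source :=
      hf.cont.continuousAt.preimage_mem_nhds ((A.e i).open_source.mem_nhds hi)
    have h3 : ∀ᶠ z in 𝓝 (A'.e j x), f ((A'.e j).symm z) ∈ (A.e i).source ∧
        κ (f ((A'.e j).symm z)) - κ (f x) = (κ' ((A'.e j).symm z) - κ' x) ^ m :=
      eventually_chart (F := fam A') (i := j) hj (h0.and he)
    have h4 : Tendsto UnB_894.pt (𝓝 (co A' j x)) (𝓝 (A'.e j x)) := by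
      have := UnB_894.continuous_pt.tendsto (co A' j x)
      rwa [pt_co] at this
    filter_upwards [h4.eventually h3] with u hu
    show rdf A i κ (co A i (f ((A'.e j).symm (UnB_894.pt u)))) - κ (f x) = _
    rw [rdf_co hu.1, hu.2]
    rfl
  have h3 : AnalyticAt ℂ (fun u => rdf A' j κ' u - κ' x) (co A' j x) :=
    (h'.analytic hj).sub analyticAt_const
  rw [analyticOrderAt_congr h2, analyticOrderAt_pow h3, h'.order hj]
  simp

end Order

/-! ### coordinates of the covers -/

section Cov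

variable {ρ : Type} [Fintype ρ] {D : DCov_426.Data A1 ρ} {A' : Atl 1 D.X} (hc : Cmp D.famX A')

include hc in
/-- the affine coordinate is a coordinate where no root vanishes -/
theorem co_pc {s : Bool} {q : D.X} (hs : D.p q ∈ (A1.e s).source) (ha : ∀ a, D.y a s q ≠ 0) :
    Co A' q (fun q => pc s (D.p q)) := by
  refine ⟨?_, fun i hi => P1L_426.coord_pc D hc hi hs ha⟩
  filter_upwards [D.continuous_p.continuousAt.preimage_mem_nhds ((A1.e s).open_source.mem_nhds hs)]
    with q' hq'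
  exact HFA.comp_right (p := id) (hfa_pcp hq') hc.fwd

include hc in
/-- the root `y_a` is a coordinate where it vanishes -/
theorem co_y {s : Bool} {q : D.X} (hs : D.p q ∈ (A1.e s).source) {a : ρ} (ha : D.y a s q = 0) :
    Co A' q (D.y a s) := by
  refine ⟨?_, fun i hi => P1L_426.coord_y D hc hi hs ha⟩
  filter_upwards [D.continuous_p.continuousAt.preimage_mem_nhds ((A1.e s).open_source.mem_nhds hs)]
    with q' hq'
  exact HFA.comp_right (p := id) (hfa_y hq' a) hc.fwd

end Cov

/-! ### `φ` at `z0` -/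

/-- the affine coordinate of `φ q` is the square of the one of `q` -/
theorem pc_phi {q : CC.X} {s : Bool} (hs : CC.p q ∈ ps s) :
    BB.p (phi q) ∈ ps s ∧ pc s (BB.p (phi q)) = pc s (CC.p q) ^ 2 := by
  obtain ⟨a0, a1, v, r⟩ := isHom_CC.exists_rep q
  have r' := rep_phi r
  rw [r.p, mem_ps_pt r.ne] at hs
  have hs' : sel s (a0 ^ 2) (a1 ^ 2) ≠ 0 := by
    cases s
    · exact pow_ne_zero 2 hs
    · exact pow_ne_zero 2 hs
  refine ⟨by rw [r'.p, mem_ps_pt r'.ne]; exact hs', ?_⟩
  rw [r'.p, r.p, pc_pt hs', pc_pt hs]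
  cases s
  · exact (div_pow _ _ _).symm
  · exact (div_pow _ _ _).symm

theorem z0_mem : CC.p z0 ∈ (A1.e false).source := by
  rw [rep_z0.p, mem_src_pt rep_z0.ne]
  norm_num [oth, sel]

theorem w0_mem : BB.p w0 ∈ (A1.e false).source := by
  rw [rep_w0.p, mem_src_pt rep_w0.ne]
  norm_num [oth, sel]

theorem co_z0 : Co CC.atlX z0 (fun q => pc false (CC.p q)) := by
  refine co_pc CC.cmp_atlX z0_mem fun a => ?_
  rw [rep_z0.y a false (by rw [← rep_z0.p]; exact z0_mem)]
  simp

theorem co_w0 : Co BB.atlX w0 (fun q => pc false (BB.p q)) := by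
  refine co_pc BB.cmp_atlX w0_mem fun a => ?_
  rw [rep_w0.y a false (by rw [← rep_w0.p]; exact w0_mem)]
  simp

theorem pc_z0 : pc false (CC.p z0) = 0 := by
  rw [rep_z0.p, pc_pt (by simp)]
  simp

theorem pc_w0 : pc false (BB.p w0) = 0 := by
  rw [rep_w0.p, pc_pt (by simp)]
  simp

/-- **the order of `φ` at `z0` is two**, in every pair of charts -/
theorem order_phi {j : CC.atlX.ι} {i : BB.atlX.ι} (hj : z0 ∈ (CC.atlX.e j).source)
    (hi : phi z0 ∈ (BB.atlX.e i).source) :
    analyticOrderAt (fun u => rd1 CC.atlX BB.atlX phi j i u - co BB.atlX i (phi z0))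
      (co CC.atlX j z0) = (2 : ℕ) := by
  refine order_of_co holMap_phi co_z0 (by rw [phi_z0]; exact co_w0) ?_ hj hi
  filter_upwards [CC.continuous_p.continuousAt.preimage_mem_nhds
    ((A1.e false).open_source.mem_nhds z0_mem)] with q hq
  rw [(pc_phi (mem_ch1.1 hq).1).2, phi_z0, pc_w0, pc_z0, sub_zero, sub_zero]

/-- the hypothesis `hram` of 414's `exists_discs` -/
theorem hram : ∃ (j : CC.atlX.ι) (i : BB.atlX.ι), z0 ∈ (CC.atlX.e j).source ∧
    phi z0 ∈ (BB.atlX.e i).source ∧
    analyticOrderAt (fun u => rd1 CC.atlX BB.atlX phi j i u - co BB.atlX i (phi z0))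
      (co CC.atlX j z0) = (2 : ℕ) := by
  obtain ⟨j, hj⟩ := CC.atlX.cover z0
  obtain ⟨i, hi⟩ := BB.atlX.cover (phi z0)
  exact ⟨j, i, hj, hi, order_phi hj hi⟩

end

end Crest.Agent.R272.M14_590
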