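import Mathlib

/-!
# Macbeath's theorem (helper562, row 272, division E)

* `Crest.Agent.R272.Macb_562.cech` : a constant non-abelian Čech 1-cocycle on a simply connected,
  locally path connected space with respect to an open cover by preconnected sets is a coboundary.
* `macbeath` : Macbeath's theorem in extension form.
* `closure_eq_top` : `Γ` is generated by the elements `g` with `U ∩ g • U ≠ ∅`.
* `coboundary_of_local` : a 2-cocycle which is a coboundary on the nerve is a coboundary.
-/

set_option autoImplicit false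

namespace Crest.Agent.R272.Macb_562

open Set Topology Function
open scoped Pointwise

/-- A function on the index set of an open cover of a preconnected space by non-empty sets which
takes equal values on the indices of intersecting sets is constant. -/
theorem const_of_cover {X ι T : Type*} [TopologicalSpace X] [PreconnectedSpace X] (V : ι → Set X)
    (hV : ∀ i, IsOpen (V i)) (hne : ∀ i, (V i).Nonempty) (hcov : ∀ x, ∃ i, x ∈ V i) (φ : ι → T)
    (hφ : ∀ i j, (V i ∩ V j).Nonempty → φ i = φ j) (i j : ι) : φ i = φ j := by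
  classical
  choose k hk using hcov
  have hloc : IsLocallyConstant (fun x => φ (k x)) := by
    refine (IsLocallyConstant.iff_eventually_eq _).2 fun x => ?_
    filter_upwards [(hV (k x)).mem_nhds (hk x)] with y hy
    exact hφ _ _ ⟨y, hk y, hy⟩
  obtain ⟨x, hx⟩ := hne i
  obtain ⟨y, hy⟩ := hne j
  have h1 : φ i = φ (k x) := hφ _ _ ⟨x, hx, hk x⟩
  have h2 : φ j = φ (k y) := hφ _ _ ⟨y, hy, hk y⟩
  rw [h1, h2]
  exact hloc.apply_eq_of_preconnectedSpace x y

section Cech

variable {X ι : Type*} {G : Type*} [TopologicalSpace X] [Group G]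

/-- The principal bundle of a constant cocycle. -/
noncomputable def core [TopologicalSpace G] [DiscreteTopology G] (V : ι → Set X)
    (hV : ∀ i, IsOpen (V i)) (k : X → ι) (hk : ∀ x, x ∈ V (k x)) (t : ι → ι → G)
    (ht : ∀ i j l, (V i ∩ V j ∩ V l).Nonempty → t l j * t j i = t l i) :
    FiberBundleCore ι X G where
  baseSet := V
  isOpen_baseSet := hV
  indexAt := k
  mem_baseSet_at := hk
  coordChange i j _ v := t j i * v
  coordChange_self i x hx v := by
    have h := ht i i i ⟨x, ⟨hx, hx⟩, hx⟩
    have : t i i = 1 := by simpa using h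
    simp [this]
  continuousOn_coordChange i j := by
    have : Continuous fun p : X × G => t j i * p.2 :=
      (continuous_of_discreteTopology (f := fun v : G => t j i * v)).comp continuous_snd
    exact this.continuousOn
  coordChange_comp i j l x hx v := by
    rw [← mul_assoc, ht i j l ⟨x, hx⟩]

/-- **Vanishing of non-abelian constant Čech `H¹`** on a simply connected space. -/
theorem cech [SimplyConnectedSpace X] [LocallyPathConnectedSpace X] (V : ι → Set X)
    (hV : ∀ i, IsOpen (V i)) (hpc : ∀ i, IsPreconnected (V i)) (hcov : ∀ x, ∃ i, x ∈ V i)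
    (t : ι → ι → G)
    (ht : ∀ i j l, (V i ∩ V j ∩ V l).Nonempty → t l j * t j i = t l i) :
    ∃ a : ι → G, ∀ i j, (V i ∩ V j).Nonempty → a j = t j i * a i := by
  classical
  let _ : TopologicalSpace G := ⊥
  have : DiscreteTopology G := ⟨rfl⟩
  choose k hk using hcov
  let Z := core V hV k hk t ht
  have hcv : IsCoveringMap (Bundle.TotalSpace.proj (F := G) (E := Z.Fiber)) :=
    FiberBundle.isCoveringMap
  have : PathConnectedSpace X := inferInstance
  obtain ⟨x₀⟩ := (PathConnectedSpace.nonempty : Nonempty X)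
  obtain ⟨σ, ⟨-, hσ⟩, -⟩ := hcv.existsUnique_continuousMap_lifts (ContinuousMap.id X) x₀
    (⟨x₀, (1 : G)⟩ : Z.TotalSpace) rfl
  have hσ' : ∀ x, (σ x).proj = x := fun x => congrFun hσ x
  -- the coordinates of the section
  let b : ι → X → G := fun i x => (Z.localTriv i (σ x)).2
  have hb : ∀ i, ∀ x ∈ V i, ∀ y ∈ V i, b i x = b i y := by
    intro i x hx y hy
    have hc : ContinuousOn (b i) (V i) := by
      have h1 : ContinuousOn (fun x => Z.localTriv i (σ x)) (V i) := by
        refine ((Z.localTriv i).continuousOn_toFun).comp σ.continuous.continuousOn ?_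
        intro z hz
        show σ z ∈ (Z.localTriv i).source
        rw [(Z.localTriv i).mem_source]
        show (σ z).proj ∈ V i
        rw [hσ']
        exact hz
      exact continuous_snd.comp_continuousOn h1
    exact (hpc i).constant hc hx hy
  have hch : ∀ i j x, x ∈ V i → x ∈ V j → b j x = t j i * b i x := by
    intro i j x hi hj
    have e : (σ x).proj = x := hσ' x
    let v : G := (σ x).2
    show t j (k (σ x).proj) * v = t j i * (t i (k (σ x).proj) * v)
    rw [← mul_assoc, ht (k (σ x).proj) i j]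
    refine ⟨x, ⟨?_, hi⟩, hj⟩
    rw [e]
    exact hk x
  refine ⟨fun i => if h : (V i).Nonempty then b i h.some else 1, ?_⟩
  rintro i j ⟨x, hi, hj⟩
  have hi' : (V i).Nonempty := ⟨x, hi⟩
  have hj' : (V j).Nonempty := ⟨x, hj⟩
  simp only [hi', hj', dif_pos]
  rw [hb i _ hi'.some_mem x hi, hb j _ hj'.some_mem x hj]
  exact hch i j x hi hj

end Cech

section Action

variable {Γ X : Type*} [Group Γ] [TopologicalSpace X] [MulAction Γ X] [ContinuousConstSMul Γ X]

/-- The elements moving `U` to a set meeting `U`. -/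
def meets (Γ : Type*) {X : Type*} [Group Γ] [MulAction Γ X] (U : Set X) : Set Γ :=
  {g | (U ∩ g • U).Nonempty}

/-- The pairs `(g, h)` such that `U`, `g • U`, `(g * h) • U` have a common point. -/
def triples (Γ : Type*) {X : Type*} [Group Γ] [MulAction Γ X] (U : Set X) : Set (Γ × Γ) :=
  {p | (U ∩ p.1 • U ∩ (p.1 * p.2) • U).Nonempty}

omit [TopologicalSpace X] [ContinuousConstSMul Γ X] in
theorem inter_smul_iff (U : Set X) (i j : Γ) :
    (i • U ∩ j • U).Nonempty ↔ (U ∩ (i⁻¹ * j) • U).Nonempty := by
  rw [← smul_set_nonempty (a := i⁻¹) (s := i • U ∩ j • U), smul_set_inter, inv_smul_smul,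
    smul_smul]

omit [TopologicalSpace X] [ContinuousConstSMul Γ X] in
theorem inter3_smul_iff (U : Set X) (i j l : Γ) :
    (i • U ∩ j • U ∩ l • U).Nonempty ↔
      (U ∩ (i⁻¹ * j) • U ∩ (i⁻¹ * l) • U).Nonempty := by
  rw [← smul_set_nonempty (a := i⁻¹) (s := i • U ∩ j • U ∩ l • U), smul_set_inter, smul_set_inter,
    inv_smul_smul, smul_smul, smul_smul]

omit [TopologicalSpace X] [ContinuousConstSMul Γ X] in
theorem meets_inv {U : Set X} {g : Γ} (h : g ∈ meets Γ U) : g⁻¹ ∈ meets Γ U := by
  have h' : (U ∩ g • U).Nonempty := h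
  have := (inter_smul_iff U g (1 : Γ)).1 (by rw [one_smul, inter_comm]; exact h')
  simpa [meets] using this

/-- a function on `Γ` with equal values at `i, j` whenever `i • U` meets `j • U` is constant. -/
theorem const_of_smul [PreconnectedSpace X] {T : Type*} (U : Set X) (hU : IsOpen U)
    (hne : U.Nonempty) (hcov : ∀ x : X, ∃ g : Γ, x ∈ g • U) (φ : Γ → T)
    (hφ : ∀ i g, g ∈ meets Γ U → φ i = φ (i * g)) (i j : Γ) : φ i = φ j := by
  refine const_of_cover (fun g : Γ => g • U) (fun g => hU.smul g) (fun g => hne.smul_set) hcov φ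
    (fun i j hij => ?_) i j
  have := hφ i (i⁻¹ * j) ((inter_smul_iff U i j).1 hij)
  simpa using this

/-- `Γ` is generated by the elements `g` with `U ∩ g • U ≠ ∅`. -/
theorem closure_eq_top [PreconnectedSpace X] (U : Set X) (hU : IsOpen U) (hne : U.Nonempty)
    (hcov : ∀ x : X, ∃ g : Γ, x ∈ g • U) : Subgroup.closure (meets Γ U) = ⊤ := by
  rw [eq_top_iff]
  rintro g -
  have := const_of_smul U hU hne hcov
    (fun g : Γ => (QuotientGroup.mk g : Γ ⧸ Subgroup.closure (meets Γ U)))
    (fun i s hs => by
      rw [QuotientGroup.eq]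
      simpa using Subgroup.subset_closure hs) 1 g
  rw [QuotientGroup.eq] at this
  simpa using this

/-- **Macbeath's theorem**, extension form. -/
theorem macbeath [SimplyConnectedSpace X] [LocallyPathConnectedSpace X] {G : Type*} [Group G]
    (U : Set X) (hU : IsOpen U) (hpc : IsPreconnected U)
    (hcov : ∀ x : X, ∃ g : Γ, x ∈ g • U) (f : Γ → G)
    (hf : ∀ g h, (g, h) ∈ triples Γ U → f (g * h) = f g * f h) :
    ∃ F : Γ →* G, ∀ g ∈ meets Γ U, F g = f g := by
  have : PathConnectedSpace X := inferInstance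
  have hne : U.Nonempty := by
    obtain ⟨x⟩ := (PathConnectedSpace.nonempty : Nonempty X)
    obtain ⟨g, hg⟩ := hcov x
    exact smul_set_nonempty.1 ⟨x, hg⟩
  obtain ⟨a, ha⟩ := cech (fun g : Γ => g • U) (fun g => hU.smul g)
    (fun g => by
      have := hpc.image (fun x => g • x) (continuous_const_smul g).continuousOn
      simpa [image_smul] using this) hcov
    (fun j i => f (j⁻¹ * i)) (by
      intro i j l h
      have h' : (l • U ∩ j • U ∩ i • U).Nonempty := by
        obtain ⟨x, ⟨h1, h2⟩, h3⟩ := h
        exact ⟨x, ⟨h3, h2⟩, h1⟩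
      have h3 := (inter3_smul_iff U l j i).1 h'
      have := hf (l⁻¹ * j) (j⁻¹ * i) (by
        show (U ∩ (l⁻¹ * j) • U ∩ (l⁻¹ * j * (j⁻¹ * i)) • U).Nonempty
        have e : l⁻¹ * j * (j⁻¹ * i) = l⁻¹ * i := by group
        rw [e]; exact h3)
      have e : l⁻¹ * j * (j⁻¹ * i) = l⁻¹ * i := by group
      rw [e] at this
      exact this.symm)
  -- constants
  have hc : ∀ γ i : Γ, (a i)⁻¹ * a (γ * i) = (a 1)⁻¹ * a γ := by
    intro γ i
    have := const_of_smul U hU hne hcov (fun i : Γ => (a i)⁻¹ * a (γ * i)) (by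
      intro i g hg
      have h1 : (i • U ∩ (i * g) • U).Nonempty := by
        rw [inter_smul_iff]; simpa [meets] using hg
      have h2 : ((γ * i) • U ∩ (γ * (i * g)) • U).Nonempty := by
        rw [inter_smul_iff]
        have e : (γ * i)⁻¹ * (γ * (i * g)) = g := by group
        rw [e]; exact hg
      have e1 := ha _ _ h1
      have e2 := ha _ _ h2
      have e3 : (γ * (i * g))⁻¹ * (γ * i) = (i * g)⁻¹ * i := by group
      simp only [e3] at e2
      simp only [e1, e2]
      group) i 1
    simpa using this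
  refine ⟨{ toFun := fun γ => a 1 * (a γ)⁻¹, map_one' := by simp, map_mul' := ?_ }, ?_⟩
  · intro γ γ'
    have h := hc γ γ'
    have h' : a (γ * γ') = a γ' * ((a 1)⁻¹ * a γ) := by rw [← h]; group
    rw [h']; group
  · intro g hg
    show a 1 * (a g)⁻¹ = f g
    have h1 : (g • U ∩ (1 : Γ) • U).Nonempty := by
      rw [one_smul, inter_comm]; exact hg
    have := ha _ _ h1
    simp only [inv_one, one_mul] at this
    rw [this]; group

/-- A 2-cocycle of `Γ` with values in `M`, which is the coboundary of `f` on the nerve of the cover,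
is a coboundary. -/
theorem coboundary_of_local [SimplyConnectedSpace X] [LocallyPathConnectedSpace X] {M : Type*}
    [AddCommGroup M] (U : Set X) (hU : IsOpen U) (hpc : IsPreconnected U)
    (hcov : ∀ x : X, ∃ g : Γ, x ∈ g • U) (c : Γ → Γ → M)
    (hc : ∀ g h k, c g h + c (g * h) k = c h k + c g (h * k)) (f : Γ → M)
    (hf : ∀ g h, (g, h) ∈ triples Γ U → c g h = f g + f h - f (g * h)) :
    ∃ F : Γ → M, ∀ g h, c g h = F g + F h - F (g * h) := by
  have : PathConnectedSpace X := inferInstance
  have hne : U.Nonempty := by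
    obtain ⟨x⟩ := (PathConnectedSpace.nonempty : Nonempty X)
    obtain ⟨g, hg⟩ := hcov x
    exact smul_set_nonempty.1 ⟨x, hg⟩
  obtain ⟨a, ha⟩ := cech (G := Multiplicative M) (fun g : Γ => g • U) (fun g => hU.smul g)
    (fun g => by
      have := hpc.image (fun x => g • x) (continuous_const_smul g).continuousOn
      simpa [image_smul] using this) hcov
    (fun j i => Multiplicative.ofAdd (c i (i⁻¹ * j) - f (i⁻¹ * j))) (by
      intro i j l h
      have h3 := (inter3_smul_iff U i j l).1 h
      have e : i⁻¹ * j * (j⁻¹ * l) = i⁻¹ * l := by group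
      have h4 := hf (i⁻¹ * j) (j⁻¹ * l) (by
        show (U ∩ (i⁻¹ * j) • U ∩ (i⁻¹ * j * (j⁻¹ * l)) • U).Nonempty
        rw [e]; exact h3)
      have h5 := hc i (i⁻¹ * j) (j⁻¹ * l)
      rw [e] at h4 h5
      have e2 : i * (i⁻¹ * j) = j := by group
      rw [e2] at h5
      rw [← ofAdd_add]
      congr 1
      rw [h4] at h5
      have h6 : c j (j⁻¹ * l) = f (i⁻¹ * j) + f (j⁻¹ * l) - f (i⁻¹ * l) + c i (i⁻¹ * l) -
        c i (i⁻¹ * j) := by rw [← h5]; abel
      rw [h6]; abel)
  let b : Γ → M := fun i => (a i).toAdd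
  have hb : ∀ i g, g ∈ meets Γ U → b (i * g) = c i g - f g + b i := by
    intro i g hg
    have h1 : (i • U ∩ (i * g) • U).Nonempty := by
      rw [inter_smul_iff]; simpa [meets] using hg
    have := ha _ _ h1
    have e : i⁻¹ * (i * g) = g := by group
    simp only [e] at this
    show (a (i * g)).toAdd = _
    rw [this]; rfl
  have hk : ∀ γ i : Γ, b (γ * i) - b i - c γ i = b γ - b 1 - c γ 1 := by
    intro γ i
    have := const_of_smul U hU hne hcov (fun i : Γ => b (γ * i) - b i - c γ i) (by
      intro i g hg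
      have h1 := hb i g hg
      have h2 := hb (γ * i) g hg
      rw [mul_assoc] at h2
      show b (γ * i) - b i - c γ i = b (γ * (i * g)) - b (i * g) - c γ (i * g)
      rw [h1, h2]
      have h3 := hc γ i g
      have h4 : c γ (i * g) = c γ i + c (γ * i) g - c i g := by rw [h3]; abel
      rw [h4]; abel) i 1
    simpa using this
  have h11 : ∀ g, c g 1 = c 1 1 := by
    intro g
    have := hc g 1 1
    simp only [mul_one] at this
    have h2 : c g 1 + c g 1 = c 1 1 + c g 1 := this
    exact add_right_cancel h2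
  refine ⟨fun γ => -b γ + b 1 + c 1 1, fun g h => ?_⟩
  have h1 := hk g h
  rw [h11 g] at h1
  have h2 : c g h = b (g * h) - b h - (b g - b 1 - c 1 1) := by rw [← h1]; abel
  show c g h = (-b g + b 1 + c 1 1) + (-b h + b 1 + c 1 1) - (-b (g * h) + b 1 + c 1 1)
  rw [h2]; abel

end Action

end Crest.Agent.R272.Macb_562
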