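import Crest.Agent.R272.Macb1_562

/-!
# Finiteness of `H²(Γ; ℝ)` and closedness of unions of classes (helper562, row 272, division E)

Real 2-cocycles are functions `c : Γ → Γ → ℝ` with
`c g h + c (g * h) k = c h k + c g (h * k)`; coboundaries are `f g + f h - f (g * h)`.

* `LocFin Γ` : there is a finite set of pairs on which coboundaries are recognised.
* `locFin_of_action` : `LocFin Γ` for a group acting on a simply connected space, `Γ • U = X`,
  with finitely many `g` such that `U ∩ g • U ≠ ∅` (Macbeath).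
* `wclosed` : a directed union of subspaces of cocycles containing the coboundaries is closed
  under pointwise limits.
* `cupV K` : the cocycles of `Γ` whose restriction to `K` is a sum of cup products of
  homomorphisms `K → ℝ` and a coboundary; `cup_closed`.
-/

set_option autoImplicit false

namespace Crest.Agent.R272.Macb_562

open Set Topology Function Filter
open scoped Pointwise

section Cochains

variable (Γ : Type*) [Group Γ]

/-- real 2-cocycles -/
def Z2 : Submodule ℝ (Γ → Γ → ℝ) where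
  carrier := {c | ∀ g h k, c g h + c (g * h) k = c h k + c g (h * k)}
  zero_mem' := by intro g h k; simp
  add_mem' := by
    intro c d hc hd g h k
    have h1 := hc g h k
    have h2 := hd g h k
    simp only [Pi.add_apply]
    linarith
  smul_mem' := by
    intro r c hc g h k
    have h1 := hc g h k
    simp only [Pi.smul_apply, smul_eq_mul]
    rw [← mul_add, h1, mul_add]

/-- the coboundary of a real 1-cochain, as a linear map -/
def dlt : (Γ → ℝ) →ₗ[ℝ] (Γ → Γ → ℝ) where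
  toFun f := fun g h => f g + f h - f (g * h)
  map_add' f f' := by
    funext g h
    simp only [Pi.add_apply]
    ring
  map_smul' r f := by
    funext g h
    simp only [Pi.smul_apply, smul_eq_mul, RingHom.id_apply]
    ring

/-- real 2-coboundaries -/
def B2 : Submodule ℝ (Γ → Γ → ℝ) := LinearMap.range (dlt Γ)

variable {Γ}

theorem mem_Z2 {c : Γ → Γ → ℝ} :
    c ∈ Z2 Γ ↔ ∀ g h k, c g h + c (g * h) k = c h k + c g (h * k) := Iff.rfl

theorem mem_B2 {c : Γ → Γ → ℝ} :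
    c ∈ B2 Γ ↔ ∃ f : Γ → ℝ, ∀ g h, c g h = f g + f h - f (g * h) := by
  constructor
  · rintro ⟨f, rfl⟩
    exact ⟨f, fun _ _ => rfl⟩
  · rintro ⟨f, hf⟩
    exact ⟨f, by funext g h; exact (hf g h).symm⟩

theorem B2_le_Z2 : B2 Γ ≤ Z2 Γ := by
  intro c hc
  obtain ⟨f, hf⟩ := mem_B2.1 hc
  intro g h k
  rw [hf, hf, hf, hf, mul_assoc]
  ring

variable (Γ)

/-- coboundaries are recognised on a finite set of pairs. -/
def LocFin : Prop :=
  ∃ T : Finset (Γ × Γ), ∀ c ∈ Z2 Γ,
    (∃ f : Γ → ℝ, ∀ p ∈ T, c p.1 p.2 = f p.1 + f p.2 - f (p.1 * p.2)) → c ∈ B2 Γ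

variable {Γ}

/-- restriction to a finite set of pairs -/
def rho (T : Finset (Γ × Γ)) : (Γ → Γ → ℝ) →ₗ[ℝ] (T → ℝ) where
  toFun c := fun p => c p.1.1 p.1.2
  map_add' _ _ := rfl
  map_smul' _ _ := rfl

theorem mem_of_rho {T : Finset (Γ × Γ)}
    (hT : ∀ c ∈ Z2 Γ,
      (∃ f : Γ → ℝ, ∀ p ∈ T, c p.1 p.2 = f p.1 + f p.2 - f (p.1 * p.2)) → c ∈ B2 Γ)
    {V : Submodule ℝ (Γ → Γ → ℝ)} (hB : B2 Γ ≤ V) (hZ : V ≤ Z2 Γ) {c : Γ → Γ → ℝ}
    (hc : c ∈ Z2 Γ) (h : rho T c ∈ V.map (rho T)) : c ∈ V := by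
  obtain ⟨v, hv, hvc⟩ := h
  have h1 : c - v ∈ B2 Γ := by
    refine hT _ (sub_mem hc (hZ hv)) ⟨0, fun p hp => ?_⟩
    have := congrFun hvc ⟨p, hp⟩
    have h2 : v p.1 p.2 = c p.1 p.2 := this
    simp [h2]
  have := V.add_mem (hB h1) hv
  simpa using this

/-- In a finite-dimensional space a directed family of subspaces has a largest element. -/
theorem exists_top_of_directed {E J : Type*} [AddCommGroup E] [Module ℝ E]
    [FiniteDimensional ℝ E] [Nonempty J] (W : J → Submodule ℝ E)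
    (hdir : Directed (· ≤ ·) W) : ∃ j, ∀ i, W i ≤ W j := by
  classical
  -- maximal dimension
  obtain ⟨j, hj⟩ : ∃ j, ∀ i, Module.finrank ℝ (W i) ≤ Module.finrank ℝ (W j) := by
    have hbdd : BddAbove (Set.range fun j => Module.finrank ℝ (W j)) :=
      ⟨Module.finrank ℝ E, by rintro _ ⟨j, rfl⟩; exact Submodule.finrank_le _⟩
    have hmem := Nat.sSup_mem (Set.range_nonempty fun j => Module.finrank ℝ (W j)) hbdd
    obtain ⟨j, hj⟩ := hmem
    exact ⟨j, fun i => by
      have h1 : Module.finrank ℝ (W i) ≤ sSup (Set.range fun j => Module.finrank ℝ (W j)) :=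
        le_csSup hbdd ⟨i, rfl⟩
      exact h1.trans hj.ge⟩
  refine ⟨j, fun i => ?_⟩
  obtain ⟨k, hik, hjk⟩ := hdir i j
  have : W j = W k := Submodule.eq_of_le_of_finrank_le hjk (hj k)
  rw [this]
  exact hik

/-- **Closedness of directed unions of cocycle spaces.** -/
theorem wclosed (hL : LocFin Γ) {J : Type*} [Nonempty J] (V : J → Submodule ℝ (Γ → Γ → ℝ))
    (hdir : Directed (· ≤ ·) V) (hB : ∀ j, B2 Γ ≤ V j) (hZ : ∀ j, V j ≤ Z2 Γ)
    {N : Type*} {l : Filter N} [l.NeBot] (cn : N → Γ → Γ → ℝ) (hcn : ∀ n, ∃ j, cn n ∈ V j)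
    (c : Γ → Γ → ℝ) (hlim : ∀ g h, Tendsto (fun n => cn n g h) l (𝓝 (c g h))) :
    ∃ j, c ∈ V j := by
  obtain ⟨T, hT⟩ := hL
  have hdir' : Directed (· ≤ ·) fun j => (V j).map (rho T) := by
    intro i j
    obtain ⟨k, h1, h2⟩ := hdir i j
    exact ⟨k, Submodule.map_mono h1, Submodule.map_mono h2⟩
  obtain ⟨j, hj⟩ := exists_top_of_directed (fun j => (V j).map (rho T)) hdir'
  have hle : ∀ i, V i ≤ V j := fun i c hc =>
    mem_of_rho hT (hB j) (hZ j) (hZ i hc) (hj i ⟨c, hc, rfl⟩)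
  refine ⟨j, mem_of_rho hT (hB j) (hZ j) ?_ ?_⟩
  · intro g h k
    have h1 : Tendsto (fun n => cn n g h + cn n (g * h) k) l (𝓝 (c g h + c (g * h) k)) :=
      (hlim g h).add (hlim (g * h) k)
    have h2 : Tendsto (fun n => cn n h k + cn n g (h * k)) l (𝓝 (c h k + c g (h * k))) :=
      (hlim h k).add (hlim g (h * k))
    refine tendsto_nhds_unique h1 (h2.congr fun n => ?_)
    obtain ⟨i, hi⟩ := hcn n
    exact (hZ i hi g h k).symm
  · have hcl : IsClosed (((V j).map (rho T) : Submodule ℝ (T → ℝ)) : Set (T → ℝ)) :=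
      Submodule.closed_of_finiteDimensional _
    refine hcl.mem_of_tendsto (f := fun n => rho T (cn n)) (b := l) ?_ (Eventually.of_forall ?_)
    · rw [tendsto_pi_nhds]
      rintro ⟨p, hp⟩
      exact hlim p.1 p.2
    · intro n
      obtain ⟨i, hi⟩ := hcn n
      exact hj i ⟨cn n, hi, rfl⟩

/-- `H²(Γ; ℝ)` is finite-dimensional. -/
theorem finiteDimensional_H2 (hL : LocFin Γ) :
    FiniteDimensional ℝ (Z2 Γ ⧸ (B2 Γ).comap (Z2 Γ).subtype) := by
  obtain ⟨T, hT⟩ := hL
  -- the quotient of `T → ℝ` by the coboundaries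
  let f : Z2 Γ →ₗ[ℝ] ((T → ℝ) ⧸ (B2 Γ).map (rho T)) :=
    ((B2 Γ).map (rho T)).mkQ.comp ((rho T).comp (Z2 Γ).subtype)
  have hker : LinearMap.ker f = (B2 Γ).comap (Z2 Γ).subtype := by
    ext c
    rw [LinearMap.mem_ker, Submodule.mem_comap]
    constructor
    · intro h
      have h' : rho T c.1 ∈ (B2 Γ).map (rho T) := (Submodule.Quotient.mk_eq_zero _).1 h
      exact mem_of_rho hT le_rfl B2_le_Z2 c.2 h'
    · intro h
      exact (Submodule.Quotient.mk_eq_zero _).2 ⟨c.1, h, rfl⟩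
  rw [← hker]
  exact FiniteDimensional.of_injective (LinearMap.ker f |>.liftQ f le_rfl)
    (LinearMap.ker_eq_bot.1 (Submodule.ker_liftQ_eq_bot _ _ _ le_rfl))

end Cochains

section Action

variable {Γ X : Type*} [Group Γ] [TopologicalSpace X] [MulAction Γ X] [ContinuousConstSMul Γ X]

omit [TopologicalSpace X] [ContinuousConstSMul Γ X] in
theorem triples_finite (U : Set X) (hfin : (meets Γ U).Finite) : (triples Γ U).Finite := by
  have h : triples Γ U ⊆ (fun p : Γ × Γ => (p.1, p.1⁻¹ * p.2)) '' (meets Γ U ×ˢ meets Γ U) := by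
    rintro ⟨g, h⟩ hgh
    obtain ⟨x, ⟨h1, h2⟩, h3⟩ := hgh
    refine ⟨(g, g * h), ⟨⟨x, h1, h2⟩, ⟨x, h1, h3⟩⟩, ?_⟩
    simp
  exact ((hfin.prod hfin).image _).subset h

/-- Macbeath: coboundaries are recognised on finitely many pairs. -/
theorem locFin_of_action [SimplyConnectedSpace X] [LocallyPathConnectedSpace X]
    (U : Set X) (hU : IsOpen U) (hpc : IsPreconnected U)
    (hcov : ∀ x : X, ∃ g : Γ, x ∈ g • U) (hfin : (meets Γ U).Finite) : LocFin Γ := by
  classical
  refine ⟨(triples_finite U hfin).toFinset, ?_⟩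
  rintro c hc ⟨f, hf⟩
  obtain ⟨F, hF⟩ := coboundary_of_local U hU hpc hcov c hc f (fun g h hgh =>
    hf (g, h) ((triples_finite U hfin).mem_toFinset.2 hgh))
  exact mem_B2.2 ⟨F, hF⟩

end Action

section Cup

variable {Γ : Type*} [Group Γ]

/-- sums of cup products of homomorphisms to `ℝ`, modulo coboundaries. -/
def cupSub (Γ : Type*) [Group Γ] : Submodule ℝ (Γ → Γ → ℝ) where
  carrier := {c | ∃ (n : ℕ) (α β : Fin n → Γ → ℝ) (f : Γ → ℝ),
    (∀ i g h, α i (g * h) = α i g + α i h) ∧ (∀ i g h, β i (g * h) = β i g + β i h) ∧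
    ∀ g h, c g h = ∑ i, α i g * β i h + (f g + f h - f (g * h))}
  zero_mem' := ⟨0, Fin.elim0, Fin.elim0, 0, fun i => i.elim0, fun i => i.elim0, by simp⟩
  add_mem' := by
    rintro c d ⟨n, α, β, f, h1, h2, h3⟩ ⟨m, α', β', f', h1', h2', h3'⟩
    refine ⟨n + m, Fin.append α α', Fin.append β β', f + f', ?_, ?_, ?_⟩
    · intro i
      refine Fin.addCases (fun i => ?_) (fun i => ?_) i
      · simpa using h1 i
      · simpa using h1' i
    · intro i
      refine Fin.addCases (fun i => ?_) (fun i => ?_) i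
      · simpa using h2 i
      · simpa using h2' i
    · intro g h
      rw [Fin.sum_univ_add]
      simp only [Fin.append_left, Fin.append_right, Pi.add_apply, h3, h3']
      ring
  smul_mem' := by
    rintro r c ⟨n, α, β, f, h1, h2, h3⟩
    refine ⟨n, fun i g => r * α i g, β, fun g => r * f g, ?_, h2, ?_⟩
    · intro i g h
      simp only [h1]; ring
    · intro g h
      simp only [Pi.smul_apply, smul_eq_mul, h3, mul_add, Finset.mul_sum, mul_sub, mul_assoc]

theorem mem_cupSub {c : Γ → Γ → ℝ} : c ∈ cupSub Γ ↔ ∃ (n : ℕ) (α β : Fin n → Γ → ℝ) (f : Γ → ℝ),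
    (∀ i g h, α i (g * h) = α i g + α i h) ∧ (∀ i g h, β i (g * h) = β i g + β i h) ∧
    ∀ g h, c g h = ∑ i, α i g * β i h + (f g + f h - f (g * h)) := Iff.rfl

/-- restriction of 2-cochains to a subgroup -/
def res (K : Subgroup Γ) : (Γ → Γ → ℝ) →ₗ[ℝ] (K → K → ℝ) where
  toFun c := fun g h => c g h
  map_add' _ _ := rfl
  map_smul' _ _ := rfl

/-- cocycles of `Γ` whose restriction to `K` is a sum of cup products and a coboundary. -/
def cupV (K : Subgroup Γ) : Submodule ℝ (Γ → Γ → ℝ) := Z2 Γ ⊓ (cupSub K).comap (res K)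

theorem cupV_anti {K L : Subgroup Γ} (h : K ≤ L) : cupV L ≤ cupV K := by
  rintro c ⟨hc, n, α, β, f, h1, h2, h3⟩
  refine ⟨hc, n, fun i g => α i ⟨g, h g.2⟩, fun i g => β i ⟨g, h g.2⟩, fun g => f ⟨g, h g.2⟩,
    fun i g k => h1 i ⟨g, h g.2⟩ ⟨k, h k.2⟩, fun i g k => h2 i ⟨g, h g.2⟩ ⟨k, h k.2⟩,
    fun g k => h3 ⟨g, h g.2⟩ ⟨k, h k.2⟩⟩

theorem B2_le_cupV (K : Subgroup Γ) : B2 Γ ≤ cupV K := by
  intro c hc
  obtain ⟨f, hf⟩ := mem_B2.1 hc
  exact ⟨B2_le_Z2 hc, 0, Fin.elim0, Fin.elim0, fun g => f g, fun i => i.elim0, fun i => i.elim0,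
    fun g h => by
      have h1 : (res K c) g h = f g + f h - f (g * h) := hf g h
      rw [h1]
      simp⟩

theorem cupV_le_Z2 (K : Subgroup Γ) : cupV K ≤ Z2 Γ := inf_le_left

/-- A cocycle which is a pointwise limit of cocycles which become sums of cup products of
homomorphisms on some subgroup of a filtering family becomes one itself. -/
theorem cup_closed (hL : LocFin Γ) {J : Type*} [Nonempty J] (K : J → Subgroup Γ)
    (hdir : ∀ i j, ∃ k, K k ≤ K i ∧ K k ≤ K j)
    {N : Type*} {l : Filter N} [l.NeBot] (cn : N → Γ → Γ → ℝ)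
    (hcn : ∀ n, ∃ j, cn n ∈ cupV (K j))
    (c : Γ → Γ → ℝ) (hlim : ∀ g h, Tendsto (fun n => cn n g h) l (𝓝 (c g h))) :
    ∃ j, c ∈ cupV (K j) := by
  refine wclosed hL (fun j => cupV (K j)) ?_ (fun j => B2_le_cupV _) (fun j => cupV_le_Z2 _)
    cn hcn c hlim
  intro i j
  obtain ⟨k, h1, h2⟩ := hdir i j
  exact ⟨k, cupV_anti h1, cupV_anti h2⟩

end Cup

end Crest.Agent.R272.Macb_562
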