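import Crest.Agent.R272.Macb1_562
import Crest.Agent.R272.E5_528

/-!
# Macbeath's presentation (helper562, row 272, division E)

`Γ` acts continuously on the simply connected, locally path connected space `X`, `U` is open and
preconnected, `Γ • U = X`, and finitely many `g` satisfy `U ∩ g • U ≠ ∅`.  Then `Γ` is finitely
presented.

* `pres_of_action` : `Nonempty (E5_528.Pres Γ)`.
* `lim_of_action` : the LIM statement of `E5_528` for such a `Γ`.
-/

set_option autoImplicit false

namespace Crest.Agent.R272.Macb_562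

open Set Topology Function Filter
open scoped Pointwise

section

variable {Γ X : Type*} [Group Γ] [TopologicalSpace X] [MulAction Γ X] [ContinuousConstSMul Γ X]

omit [TopologicalSpace X] [ContinuousConstSMul Γ X] in
theorem triples_meets {U : Set X} {g h : Γ} (H : (g, h) ∈ triples Γ U) :
    g ∈ meets Γ U ∧ h ∈ meets Γ U ∧ g * h ∈ meets Γ U := by
  obtain ⟨x, ⟨h1, h2⟩, h3⟩ := H
  refine ⟨⟨x, h1, h2⟩, ?_, ⟨x, h1, h3⟩⟩
  have : (g • U ∩ (g * h) • U).Nonempty := ⟨x, h2, h3⟩
  rw [inter_smul_iff] at this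
  simpa [meets] using this

/-- **Macbeath's theorem**: the presentation by the nerve of the cover. -/
theorem macbeath_ker [SimplyConnectedSpace X] [LocallyPathConnectedSpace X]
    (U : Set X) (hU : IsOpen U) (hpc : IsPreconnected U)
    (hcov : ∀ x : X, ∃ g : Γ, x ∈ g • U) {S : Type*} (e : S ≃ meets Γ U) :
    (FreeGroup.lift (fun s => (e s : Γ))).ker = Subgroup.normalClosure
      {w : FreeGroup S | ∃ i j k : S, ((e i : Γ), (e j : Γ)) ∈ triples Γ U ∧
        (e k : Γ) = e i * e j ∧ w = FreeGroup.of i * FreeGroup.of j * (FreeGroup.of k)⁻¹} := by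
  classical
  set R : Set (FreeGroup S) := {w : FreeGroup S | ∃ i j k : S,
    ((e i : Γ), (e j : Γ)) ∈ triples Γ U ∧
        (e k : Γ) = e i * e j ∧ w = FreeGroup.of i * FreeGroup.of j * (FreeGroup.of k)⁻¹} with hR
  apply le_antisymm
  · let N := Subgroup.normalClosure R
    obtain ⟨F, hF⟩ := macbeath (G := FreeGroup S ⧸ N) U hU hpc hcov
      (fun g => if h : g ∈ meets Γ U then QuotientGroup.mk' N (FreeGroup.of (e.symm ⟨g, h⟩))
        else 1) (by
      intro g h H
      obtain ⟨h1, h2, h3⟩ := triples_meets H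
      simp only [h1, h2, h3, dite_true]
      rw [← map_mul, eq_comm, ← mul_inv_eq_one, ← map_inv, ← map_mul]
      rw [QuotientGroup.mk'_apply, QuotientGroup.eq_one_iff]
      apply Subgroup.subset_normalClosure
      refine ⟨_, _, _, ?_, ?_, rfl⟩
      · simpa using H
      · simp)
    have key : F.comp (FreeGroup.lift (fun s => (e s : Γ))) = QuotientGroup.mk' N := by
      apply FreeGroup.ext_hom
      intro s
      rw [MonoidHom.comp_apply, FreeGroup.lift_apply_of, hF _ (e s).2]
      simp
    intro w hw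
    rw [MonoidHom.mem_ker] at hw
    have := DFunLike.congr_fun key w
    rw [MonoidHom.comp_apply, hw, map_one] at this
    exact (QuotientGroup.eq_one_iff w).1 this.symm
  · apply Subgroup.normalClosure_le_normal
    rintro w ⟨i, j, k, -, h, rfl⟩
    rw [SetLike.mem_coe, MonoidHom.mem_ker]
    simp [h]

/-- **Macbeath's theorem**: `Γ` is finitely presented. -/
theorem pres_of_action [SimplyConnectedSpace X] [LocallyPathConnectedSpace X]
    (U : Set X) (hU : IsOpen U) (hpc : IsPreconnected U)
    (hcov : ∀ x : X, ∃ g : Γ, x ∈ g • U) (hfin : (meets Γ U).Finite) :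
    Nonempty (E5_528.Pres Γ) := by
  classical
  have : PathConnectedSpace X := inferInstance
  have hne : U.Nonempty := by
    obtain ⟨x⟩ := (PathConnectedSpace.nonempty : Nonempty X)
    obtain ⟨g, hg⟩ := hcov x
    exact smul_set_nonempty.1 ⟨x, hg⟩
  have : Finite (meets Γ U) := hfin
  obtain ⟨n, ⟨e'⟩⟩ := Finite.exists_equiv_fin (meets Γ U)
  let e := e'.symm
  let R : Set (FreeGroup (Fin n)) := {w : FreeGroup (Fin n) | ∃ i j k : Fin n,
    ((e i : Γ), (e j : Γ)) ∈ triples Γ U ∧
        (e k : Γ) = e i * e j ∧ w = FreeGroup.of i * FreeGroup.of j * (FreeGroup.of k)⁻¹}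
  have hRf : R.Finite := by
    refine (Set.finite_range (fun p : Fin n × Fin n × Fin n =>
      FreeGroup.of p.1 * FreeGroup.of p.2.1 * (FreeGroup.of p.2.2)⁻¹)).subset ?_
    rintro w ⟨i, j, k, -, -, rfl⟩
    exact ⟨(i, j, k), rfl⟩
  refine ⟨{ S := Fin n, fin := inferInstance, π := FreeGroup.lift (fun s => (e s : Γ)),
            surj := ?_, R := hRf.toFinset, ker := ?_ }⟩
  · rw [← MonoidHom.range_eq_top, FreeGroup.range_lift_eq_closure]
    have : range (fun s => (e s : Γ)) = meets Γ U := by
      ext g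
      constructor
      · rintro ⟨s, rfl⟩; exact (e s).2
      · intro hg; exact ⟨e.symm ⟨g, hg⟩, by simp⟩
    rw [this]
    exact closure_eq_top U hU hne hcov
  · rw [Finite.coe_toFinset]
    exact macbeath_ker U hU hpc hcov e

/-- LIM for a group acting on a simply connected space. -/
theorem lim_of_action [SimplyConnectedSpace X] [LocallyPathConnectedSpace X]
    (U : Set X) (hU : IsOpen U) (hpc : IsPreconnected U)
    (hcov : ∀ x : X, ∃ g : Γ, x ∈ g • U) (hfin : (meets Γ U).Finite)
    {c : ℕ → Γ → Γ → ℝ} {d : Γ → Γ → ℝ} (hc : ∀ n, E5_528.IsCoc (c n))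
    (h : ∀ g g', Tendsto (fun n => c n g g') atTop (𝓝 (d g g')))
    (hv : ∀ n, E5_528.Virt (c n)) : E5_528.Virt d := by
  obtain ⟨P⟩ := pres_of_action U hU hpc hcov hfin
  exact E5_528.lim P hc h hv

end

end Crest.Agent.R272.Macb_562
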