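import Crest.Agent.R272.Cv14_414
import Crest.Agent.R272.Nl3_595

/-!
# R272, S14-ASM (helper414): S0414 on the literal model

`s14_nloc` : `h : NLoc k` (595), discs, square classes, curves, `Loc`, roots and paths on `X = h.D.X` ⟹ S0414.
-/

set_option autoImplicit false
set_option linter.unusedSectionVars false

open Set Filter Topology
open scoped unitInterval

namespace Crest.Agent.R272.Main14_414

open Crest.Agent.R275.Geo Crest.Agent.R275.Core144 Crest.Agent.R273.Fam_835 Crest.Agent.R273.Map_835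
open Crest.Agent.R273.Defs_333 Crest.Agent.R273.HM_333
open Root_83 UnB_894 LbExt_259 Gm2_235 Top14_414 Wall4_275 DCov_426 Blup1_102 G14a_414 Dt14_414
open BlA_266 Adp_409 Asm2_102 CpRat423 Nl_595 P1L_426

noncomputable section

variable {B C : Type} [TopologicalSpace B] [TopologicalSpace C] {AB : Atl 1 B} {AC : Atl 1 C}
  {h g : B → C} {z0 : B} {w0 : C} {k : ℂ} (M : NLoc k)

/-- **S0414 on the literal model** -/
theorem s14_nloc (S : Discs AB AC h g z0 w0) {π1 : M.D.X → B} {π2 : M.D.X → C}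
    (s : Sq14 M.D.famX AB AC h g z0 w0 π1 π2) {Zc : Set M.D.X} (hcv : CurvesOn M.D.famX Zc)
    (hloc : Loc ((S.dat s).bd S.hS) ((S.dat s).rsB S.hS)) {Zh : Set (S.dat s).Xh}
    (hZh : ∀ y ∈ Zh, ((S.dat s).T y : ℂ) = 0 ∧ ((S.dat s).W y : ℂ) = 0)
    (hZγ : ∀ y ∈ Zh, pbFst (S.dat s).qp (S.dat s).π y ∈ Zc)
    (R : Zh → Fin 4 → (S.dat s).Xh → ℂ)
    (hR : ∀ (y : Zh) (a : Fin 4), HRt (S.dat s).CXh ((S.dat s).gg a) (R y a) (y : (S.dat s).Xh))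
    (hRc : ∀ y : Zh, ∀ᶠ y' : Zh in 𝓝 y, ∀ a, R y' a =ᶠ[𝓝 (y' : (S.dat s).Xh)] R y a)
    {z₀ z₁ z₂ z₃ : Zh} (k₁ : Path z₀ z₁) (r₁ : Path z₁ z₂) (k₂ : Path z₂ z₃) (r₂ : Path z₃ z₀)
    (hk₁ : Arc R k₁) (hk₂ : Arc R k₂) (hr₁ : ∀ t, SlR (R (r₁ t)) (r₁ t : (S.dat s).Xh) 0)
    (hr₂ : ∀ t, SlR (R (r₂ t)) (r₂ t : (S.dat s).Xh) 0) : S14 := by
  obtain ⟨hX1, hX2, A', hcmp, -, hF, -, ⟨PA⟩, ⟨P⟩⟩ := Middle_414.mid' M.D M.pos
  exact s14_gen hcmp PA P hcv (S.dat s).cov_fst ((S.dat s).bd S.hS) ((S.dat s).rsB S.hS)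
    hloc hZh hZγ R hR hRc k₁ r₁ k₂ r₂ hk₁ hk₂ hr₁ hr₂

end

end Crest.Agent.R272.Main14_414
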