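import Crest.Agent.R272.Ins1_939
import Crest.Agent.R272.Ax7_834
import Crest.Agent.R272.Sur3_342
import Crest.Agent.R272.K3F_227
import Crest.Agent.R272.AJg_956
import Crest.Agent.R272.As156_338
import Crest.Agent.R272.Lc11_220

/-!
# R272 (S0415), the blocks `X⁻`, `X⁺`, `T` of M15 over 939's `M : Ar` (helper834)

`Md M` : the smooth model is a complex manifold with a good group action (`ra`, 302), the germ of
the model at the cluster point (`Ge`, 60), the zero section (`z`, `Z`, `pz`, 916), and the chosen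
identification `e` with 66's standard germ; `exists_md`.

Over `W : Md M`: `W.I`, `W.S` (66's `sur`), `W.H`, `W.XP`, `W.CXP`, `W.h0`, `W.surg`, `W.heX`,
`W.T`, `W.q`, `W.hq`, `W.inc`, `W.himm`, `W.hpsi`, and `W.s15`.
-/

set_option autoImplicit false
set_option linter.unusedSectionVars false

open Set Filter Topology

namespace Crest.Agent.R272.Md_834

open Crest.Agent.R275.Geo Crest.Agent.R273.Fam_835
open Crest.Agent.R272 Crest.Agent.R272.MQ_783 Crest.Agent.R272.Refl_246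
open Crest.Agent.R272.HFam_342 Crest.Agent.R272.Sur_342 Crest.Agent.R272.Flop_66
open Crest.Agent.R272.AJ_956 Crest.Agent.R272.Idn_834 Crest.Agent.R272.Ax_834
open Crest.Agent.R272.Cur_297 Crest.Agent.R272.K3E_227 Crest.Agent.R272.M15_939
open Crest.Agent.R272.LbExt_259 Crest.Agent.R272.As15_338 Crest.Agent.R272.Comp_259

noncomputable section

/-- the blocks `X⁻`, `X⁺`, `T` of M15 -/
structure Md (M : Ar) where
  /-- 302 (B) -/
  ra : RA M.CX M.G
  /-- 60 -/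
  Ge : Germ (cur Pz) M.CX M.G M.s
  /-- 916 -/
  z : Cz × Cz → M.X
  Z : ZSec Ge z
  pz : ∀ x, M.A.pz (z x) = M.p0
  /-- 956 -/
  NN : Set (Cz × Cz)
  U : Cz × Cz → E2
  hN : (cur Pz).NearE NN U
  /-- 834 -/
  e : OpenPartialHomeomorph (Orb M.G M.X) Um
  isId : IsId (⟨hN, k3P hN, Ge, Um.stdU⟩ : Inp (cur Pz) NN U M.CX M.G M.s Um.fam) e
  he : ∀ x ∈ e.source, HC ra.fam Um.fam e x
  he' : ∀ u ∈ e.target, HC Um.fam ra.fam e.symm u
  ε : ℝ
  ε0 : 0 < ε
  sub : ∀ a : Um, a.N ≤ ε → a ∈ e.target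

theorem exists_md {M : Ar} (ra : RA M.CX M.G) (Ge : Germ (cur Pz) M.CX M.G M.s)
    {z : Cz × Cz → M.X} (Z : ZSec Ge z) (pz : ∀ x, M.A.pz (z x) = M.p0) :
    Nonempty (Md M) := by
  obtain ⟨NN, U, hN⟩ := Crest.Agent.R272.AJg_956.exists_nearE (cur Pz)
  obtain ⟨e, he, he1, he2⟩ := exists_isId
    (⟨hN, k3P hN, Ge, Um.stdU⟩ : Inp (cur Pz) NN U M.CX M.G M.s Um.fam) ra.hol ra.cov
  obtain ⟨ε, h1, -, h3, -⟩ := exists_eps_sur e (he.sub_target fun _ => rfl) isOpen_univ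
    (fun _ _ => mem_univ _) one_pos
  exact ⟨⟨ra, Ge, z, Z, pz, NN, U, hN, e, he, he1, he2, ε, h1, h3⟩⟩

namespace Md

variable {M : Ar} (W : Md M)

/-- a smaller radius -/
def shrink {ε : ℝ} (ε0 : 0 < ε) (hε : ε ≤ W.ε) : Md M :=
  ⟨W.ra, W.Ge, W.z, W.Z, W.pz, W.NN, W.U, W.hN, W.e, W.isId, W.he, W.he', ε, ε0,
    fun a ha => W.sub a (ha.trans hε)⟩

/-- the input of IDENT-E -/
abbrev I : Inp (cur Pz) W.NN W.U M.CX M.G M.s Um.fam := ⟨W.hN, k3P W.hN, W.Ge, Um.stdU⟩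

/-- the surgery -/
abbrev S : Sur (Orb M.G M.X) Um Up := sur W.e W.ε W.ε0 W.sub

theorem H : W.S.Hol W.ra.fam Um.fam Up.fam := surHol W.he W.he'

instance : T2Space (Orb M.G M.X) := Pos15_220.t2_Xm M

instance : CompactSpace (Orb M.G M.X) := Pos15_220.compact_Xm M

/-- **the manifold of S0415** -/
abbrev XP : Type := W.S.XP

/-- its complex structure -/
abbrev CXP : Fam 3 W.XP := Sur.fam W.H

theorem hd (i : Fin 2) : W.I.S.d i = Um.dix i := rfl

/-- **the centre** -/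
theorem mem_K {x : Orb M.G M.X} :
    x ∈ W.S.K ↔ ∃ c, x = pr M.G (W.z (c, (cur Pz).iv c)) := by
  rw [mem_K_iff]
  constructor
  · rintro ⟨h1, h2⟩
    obtain ⟨i, c, hc, h3⟩ := W.isId.exists_c (fun _ => rfl) h1 h2
    exact ⟨c, by rw [h3, z_gam (I := W.I) W.Z hc]⟩
  · rintro ⟨c, rfl⟩
    have h1 := (near_sig (I := W.I) W.isId (fun _ => rfl) W.Z c).self_of_nhds
    obtain ⟨-, h2, h3, h4⟩ := h1
    refine ⟨h2, Um.N_eq_zero.2 ⟨?_, h4⟩⟩
    rw [h3]
    exact U_gam W.hN rfl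

/-- `heX` -/
theorem mem_K_pr {y : M.X} : pr M.G y ∈ W.S.K ↔
    ∃ (g : M.G) (c : Cz), y = g • W.z (c, (cur Pz).iv c) := by
  rw [W.mem_K]
  constructor
  · rintro ⟨c, h⟩
    obtain ⟨g, hg⟩ := pr_eq_iff.1 h
    exact ⟨g⁻¹, c, by rw [← hg, inv_smul_smul]⟩
  · rintro ⟨g, c, rfl⟩
    exact ⟨c, pr_smul g _⟩

theorem h0 : ∀ x ∈ W.S.K, piM M.A x = Pos15_220.q0 M := by
  intro x hx
  obtain ⟨c, rfl⟩ := W.mem_K.1 hx
  rw [piM_pr, W.pz]

/-- the projection to the base -/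
def piP : W.XP → Orb M.G M.N := W.S.push (piM M.A) (Pos15_220.q0 M)

/-- the old part -/
abbrev V : Set W.XP := {y | W.S.nf y ≠ 0}

/-- **259's surgery** -/
theorem surg : Surg (piM M.A) W.piP W.V W.S.iota.symm W.S.K :=
  W.S.surg (continuous_piM M.A) W.h0

theorem continuous_piP : Continuous W.piP := W.surg.π'c

/-! ### the surface -/

/-- the map `C × C → XP` -/
abbrev qq : Cz × Cz → W.XP := qP (cur Pz) W.e W.ε W.ε0 W.sub W.z

theorem qHol : QHol (cur Pz) W.CXP W.qq :=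
  Ax_834.qHol (I := W.I) W.isId (fun _ => rfl) W.Z W.ra.hol W.ra.cov W.H

/-- the torus -/
abbrev T : Type := range W.qq

/-- the map onto the torus -/
abbrev q : Cz × Cz → W.T := rq W.qq

theorem hq : (cur Pz).IsQ W.q := W.qHol.isQ

/-- the inclusion of the torus -/
abbrev inc : W.T → W.XP := Subtype.val

theorem himm (Λ : AddSubgroup E2) (π : E2 → W.T) (J : (cur Pz).IsJac W.q Λ π) :
    ImmF W.CXP fun z => W.inc (π z) := immF W.qHol J W.hN

theorem hpsi (x : Cz × Cz) (hx : x ∉ (cur Pz).Gam) :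
    W.inc (W.q x) ∈ W.V ∧ W.S.iota.symm (W.inc (W.q x)) = pr M.G (W.z x) :=
  qP_psi (I := W.I) W.isId (fun _ => rfl) W.Z x hx

theorem inc_q (x : Cz × Cz) (hx : x ∉ (cur Pz).Gam) :
    W.inc (W.q x) = W.S.iota (pr M.G (W.z x)) := qP_off hx

/-- **S0415** -/
theorem s15 (hz : Lc_220.NzX M.A) (k : ℕ)
    (germ : ∀ m₀ : ℕ, ∃ mm : ℕ, m₀ ≤ mm ∧ Nonempty (PEnd_732.PhiS W.S W.ra.fam Up.fam (piM M.A)
      (Pos15_220.q0 M) (Pos15_220.J W.ra hz) (Pos15_220.R W.ra) mm k))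
    (g : C(unitInterval, Cz)) (hs : (cur Pz).iv (g 0) = g 0) (he : (cur Pz).iv (g 1) = g 1)
    (die0 : Dies (cur Pz) W.hq.cont W.inc g)
    (live : Lives (cur Pz) W.hq.cont W.inc (alC.comp g))
    (die2 : Dies (cur Pz) W.hq.cont W.inc (alC.comp (alC.comp g)))
    (die3 : Dies (cur Pz) W.hq.cont W.inc (alC.comp (alC.comp (alC.comp g)))) : S15 :=
  s15_z (posF_of_gen2 (Pos15_220.pos15 W.ra hz W.H W.h0 k germ)) W.hq continuous_subtype_val
    Subtype.val_injective W.himm g hs he die0 live die2 die3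

end Md

end

end Crest.Agent.R272.Md_834
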