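import Crest.Agent.R272.Md1_834
import Crest.Agent.R272.LbIn1_936

/-!
# R272 (S0415), M15: the lower bound over `W : Md M`, and S0415 with 297's arcs (helper834)
-/

set_option autoImplicit false
set_option linter.unusedSectionVars false

open Set Filter Topology

namespace Crest.Agent.R272.Md_834

open Crest.Agent.R275.Geo Crest.Agent.R273.Fam_835
open Crest.Agent.R272 Crest.Agent.R272.MQ_783 Crest.Agent.R272.Refl_246
open Crest.Agent.R272.HFam_342 Crest.Agent.R272.Sur_342 Crest.Agent.R272.Flop_66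
open Crest.Agent.R272.AJ_956 Crest.Agent.R272.Idn_834 Crest.Agent.R272.Ax_834
open Crest.Agent.R272.Cur_297 Crest.Agent.R272.M15_939
open Crest.Agent.R272.LbExt_259 Crest.Agent.R272.As15_338 Crest.Agent.R272.Comp_259

noncomputable section

/-- existence, with the given germ and zero section, and a small radius -/
theorem exists_md' {M : Ar} (ra : RA M.CX M.G) (Ge : Germ (cur Pz) M.CX M.G M.s)
    {z : Cz × Cz → M.X} (Z : ZSec Ge z) (pz : ∀ x, M.A.pz (z x) = M.p0) {δ : ℝ} (hδ : 0 < δ) :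
    ∃ W : Md M, W.Ge = Ge ∧ W.z = z ∧ W.ε ≤ δ := by
  obtain ⟨NN, U, hN⟩ := Crest.Agent.R272.AJg_956.exists_nearE (cur Pz)
  obtain ⟨e, he, he1, he2⟩ := exists_isId
    (⟨hN, K3E_227.k3P hN, Ge, Um.stdU⟩ : Inp (cur Pz) NN U M.CX M.G M.s Um.fam) ra.hol ra.cov
  obtain ⟨ε, h1, h2, h3, -⟩ := exists_eps_sur e (he.sub_target fun _ => rfl) isOpen_univ
    (fun _ _ => mem_univ _) hδ
  exact ⟨⟨ra, Ge, z, Z, pz, NN, U, hN, e, he, he1, he2, ε, h1, h3⟩, rfl, rfl, h2⟩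

namespace Md

variable {M : Ar} (W : Md M)

/-- **the arc `2` lives** (936) -/
theorem lives {L : Tp3_60.Loc Pz M.N} (hL : LbIn_936.ZS M L W.z) :
    Lives (cur Pz) W.hq.cont W.inc (arc 2) :=
  LbIn_936.lives hL W.Z.cont W.Z.swap W.surg (fun _ h => W.mem_K_pr.1 h) W.hq.cont W.hpsi

/-- **S0415**, with the arcs of 297 -/
theorem s15' {L : Tp3_60.Loc Pz M.N} (hL : LbIn_936.ZS M L W.z) (hz : Lc_220.NzX M.A) (k : ℕ)
    (germ : ∀ m₀ : ℕ, ∃ mm : ℕ, m₀ ≤ mm ∧ Nonempty (PEnd_732.PhiS W.S W.ra.fam Up.fam (piM M.A)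
      (Pos15_220.q0 M) (Pos15_220.J W.ra hz) (Pos15_220.R W.ra) mm k))
    (die1 : Dies (cur Pz) W.hq.cont W.inc (arc 1))
    (die3 : Dies (cur Pz) W.hq.cont W.inc (arc 3))
    (die4 : Dies (cur Pz) W.hq.cont W.inc (arc 4)) : S15 :=
  W.s15 hz k germ (arc 1) (iv_arc_zero 1) (iv_arc_one 1) die1
    ((W.lives hL).congr fun _ => rfl) (die3.congr fun _ => rfl) (die4.congr fun _ => rfl)

end Md

end

end Crest.Agent.R272.Md_834
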