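import Crest.Agent.R272.Md2_834

/-!
# R272 (S0415), M15: the collar in coordinates (helper834)

`bx_form` : a point `u` of `Up` with `0 < N u < ε` comes from `y = E i p` in the old part, and
`phi.symm u` has the coordinates `(TT U i x, U x i, ξ g_i x)`, `p = (x, ξ)`.
-/

set_option autoImplicit false
set_option linter.unusedSectionVars false

open Set Filter Topology

namespace Crest.Agent.R272.Md_834

open Crest.Agent.R275.Geo Crest.Agent.R273.Fam_835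
open Crest.Agent.R272 Crest.Agent.R272.MQ_783 Crest.Agent.R272.Refl_246
open Crest.Agent.R272.HFam_342 Crest.Agent.R272.Sur_342 Crest.Agent.R272.Flop_66
open Crest.Agent.R272.AJ_956 Crest.Agent.R272.Idn_834 Crest.Agent.R272.Ax_834
open Crest.Agent.R272.Cur_297 Crest.Agent.R272.M15_939

noncomputable section

namespace Md

variable {M : Ar} (W : Md M)

/-- points of the old part in coordinates -/
theorem src_form {y : Orb M.G M.X} (hy : y ∈ W.e.source) :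
    ∃ (i : Fin 2) (p : (Cz × Cz) × ℂ), p ∈ W.I.Dm i ∧ W.Ge.E i p ∈ W.I.OO ∧
      pr M.G (W.Ge.E i p) = y ∧ W.e y = (Um.fam.e (Um.dix i)).symm (h3 (W.I.co W.I i p)) := by
  rw [W.isId.src] at hy
  obtain ⟨x, hx, rfl⟩ := hy
  obtain ⟨i, p, hp, rfl⟩ := (W.I.OO_sub hx).1
  exact ⟨i, p, hp, hx, rfl, W.isId.form i p hp hx⟩

/-- **the collar in coordinates** -/
theorem bx_form {u : Up} (h0 : u.N ≠ 0) (h1 : u.N < W.ε) :
    ∃ (i : Fin 2) (p : (Cz × Cz) × ℂ), p ∈ W.I.Dm i ∧ W.Ge.E i p ∈ W.I.OO ∧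
      pr M.G (W.Ge.E i p) = W.S.bx u ∧
      phi.symm u = (Um.fam.e (Um.dix i)).symm (h3 (W.I.co W.I i p)) := by
  have h2 : W.S.bx u ∈ W.e.source := W.S.bx_source (b := u) h0 h1.le
  have h3 : W.e (W.S.bx u) = phi.symm u := W.S.e_bx (b := u) h0 h1.le
  obtain ⟨i, p, hp, hO, hpr, he⟩ := W.src_form h2
  exact ⟨i, p, hp, hO, hpr, by rw [← h3, he]⟩

/-- the coordinates `z`, `m` of `phi.symm u` -/
theorem co_z {i : Fin 2} {p : (Cz × Cz) × ℂ} (hp : p ∈ W.I.Dm i) :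
    ((Um.fam.e (Um.dix i)).symm (h3 (W.I.co W.I i p))).z = W.U p.1 := by
  have hT : W.U p.1 i * (cur Pz).TT W.U i p.1 = W.U p.1 (1 - i) := by
    by_cases hg : p.1 ∈ (cur Pz).Gam
    · rw [U_gam W.hN hg]
      simp
    · have h5 : W.U p.1 i ≠ 0 := (W.I.K.dom i p.1 hp.2.2).2.2.resolve_left hg
      rw [TT_off hg]
      field_simp
  fin_cases i
  · funext k
    fin_cases k
    · rfl
    · exact hT
  · funext k
    fin_cases k
    · exact hT
    · rfl

theorem co_m0 {p : (Cz × Cz) × ℂ} :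
    ((Um.fam.e (Um.dix 0)).symm (h3 (W.I.co W.I 0 p))).m = ![p.2 * W.I.K.g 0 p.1,
      p.2 * W.I.K.g 0 p.1 * (cur Pz).TT W.U 0 p.1,
      p.2 * W.I.K.g 0 p.1 * (cur Pz).TT W.U 0 p.1 ^ 2] := by
  funext k
  fin_cases k <;> rfl

theorem co_m1 {p : (Cz × Cz) × ℂ} :
    ((Um.fam.e (Um.dix 1)).symm (h3 (W.I.co W.I 1 p))).m = ![
      p.2 * W.I.K.g 1 p.1 * (cur Pz).TT W.U 1 p.1 ^ 2,
      p.2 * W.I.K.g 1 p.1 * (cur Pz).TT W.U 1 p.1, p.2 * W.I.K.g 1 p.1] := by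
  funext k
  fin_cases k <;> rfl

end Md

end

end Crest.Agent.R272.Md_834
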