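import Crest.Agent.R272.Mid_414
import Crest.Agent.R272.NPos_102
import Crest.Agent.R272.BlA1_266

/-!
# R272, S14-ASM (helper414): the middle part, with two blow-ups

`mid'` : `Mid_414.mid` without finiteness of the atlas of the base;
`middle` : `N` compact T2 with a positive bundle, two blow-ups, `D` a cover of the second one.
-/

set_option autoImplicit false
set_option linter.unusedSectionVars false

open Set Filter Topology

namespace Crest.Agent.R272.Middle_414

open Crest.Agent.R275.Geo Crest.Agent.R275.Core144 Crest.Agent.R275.GC293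
open Crest.Agent.R273.Map_835 Crest.Agent.R273.Fam_835 Crest.Agent.R273.PB_835
open Crest.Agent.R273.Defs_333 Crest.Agent.R273.HM_333
open DCov_426 Part_414 Mid_414 Blup1_102 NPos_102 BlA_266

noncomputable section

variable {n : ℕ} {M : Type} [TopologicalSpace M] {A : Atl n M} {ρ : Type} [Fintype ρ]

/-- **the cover of a compact manifold with a positive bundle is projective** (any atlas) -/
theorem mid' [T2Space M] [CompactSpace M] (D : Data A ρ)
    (hpos : ∃ (L : LB A) (g : HM L), g.Pos) : CompactSpace D.X ∧ T2Space D.X ∧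
      ∃ (A' : Atl n D.X) (_ : Cmp D.famX A') (_ : Ref A' A D.p),
        Finite A'.ι ∧ GoodA A' ∧ Nonempty (Part A') ∧ Nonempty (ProjD A') := by
  obtain ⟨H, hH, hHp⟩ := hpos
  have h1 : CompactSpace D.X := D.compact_X
  have h2 : T2Space D.X := D.t2_X
  obtain ⟨A', hc, R, h3, h4, h5, m0, h6⟩ := D.exists_all' hHp
  obtain ⟨hh, hp⟩ := h6 m0 le_rfl
  exact ⟨h1, h2, A', hc, R, h3, h4, h5, exists_projD_any hp⟩

variable [NeZero n]

/-- two blow-ups and a cover -/
theorem middle [T2Space M] [CompactSpace M] (hpos : ∃ (L : LB A) (g : HM L), g.Pos)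
    (C₁ : Ctr A) (C₂ : Ctr C₁.atl) (D : Data C₂.atl ρ) : CompactSpace D.X ∧ T2Space D.X ∧
      ∃ (A' : Atl n D.X) (_ : Cmp D.famX A') (_ : Ref A' C₂.atl D.p),
        Finite A'.ι ∧ GoodA A' ∧ Nonempty (Part A') ∧ Nonempty (ProjD A') :=
  mid' D (bl_pos C₂ (bl_pos C₁ hpos))

/-- positivity on a finer / coarser compatible atlas -/
theorem pos_of_ref {A A₁ : Atl n M} (h : HolMap A₁ A id) (h' : HolMap A A₁ id) (R : Ref A₁ A id)
    (hpos : ∃ (L : LB A) (g : HM L), g.Pos) : ∃ (L : LB A₁) (g : HM L), g.Pos := by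
  obtain ⟨L, g, hg⟩ := hpos
  exact ⟨_, _, (PB.ref h R L).pullHM_pos h hg (imm_id h h')⟩

end

end Crest.Agent.R272.Middle_414
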