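import Crest.Agent.R272.Nl1_595
import Crest.Agent.R272.P1L2_426

/-!
# R272 (S0414), NLOC-ASM (helper595), part 2: the two sections over the literal curves `Ch`, `F8`

* `twoD`      : `Two AC AF` from a datum with `L 0 = O²` and a datum over the same line;
* `two14`     : `Two AC AF` for `P1L_426.Ch`, `P1L_426.F8`, any compatible atlases over `A1`;
* `TW`, `PN k`: the canonical atlases, `PN k : PD (Ch.atlX.prod F8.atlX) (Fin 2)`;
* values of everything in the frames `(i, j)` with `s = i.k`, `s' = j.k : Bool`.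
-/

set_option autoImplicit false
set_option linter.unusedSectionVars false

open Set Filter Topology Complex

namespace Crest.Agent.R272.Nl_595

open Crest.Agent.R275.Geo Crest.Agent.R275.Core144 Crest.Agent.R275.Prod363
open Crest.Agent.R273.Map_835 Crest.Agent.R273.PB_835 Crest.Agent.R273.Fam_835
open Crest.Agent.R272.DCov_426 Crest.Agent.R272.BlA_266
open Crest.Agent.R272.Pr_414 Crest.Agent.R272.P1F_54
open Crest.Agent.R272.P1S_590 (A1 O1 O sec u0 u1 sec_of_mem)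
open Crest.Agent.R272.P1L_426 (HC HP Ch F8)

noncomputable section

section TwoD

variable {M : Type} [TopologicalSpace M] {A : Atl 1 M} (H : HC A)
  (DC : Data A (Fin 2)) (hL : DC.L 0 = H.O ^ 2) (DF : Data A (Fin 1))
  {AC : Atl 1 DC.X} (hC : Cmp DC.famX AC) (RC : Ref AC A DC.p)
  {AF : Atl 1 DF.X} (hF : Cmp DF.famX AF) (RF : Ref AF A DF.p)

/-- the data on the two curves -/
def twoD : Two AC AF where
  LC := pullLB (DC.holMap_p hC) RC H.O
  LF := pullLB (DF.holMap_p hF) RF H.O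
  t0 := upS DC RC H.a0
  t1 := upS DC RC H.a1
  d := DC.yS RC 0
  z := upS DF RF H.a0
  o := upS DF RF H.a1
  ht0 := isHS_upS DC hC RC H.hol0 H.tr0
  ht1 := isHS_upS DC hC RC H.hol1 H.tr1
  hd := by
    have h1 := DC.isHS_yS hC RC 0
    rw [hL, pull_pow] at h1
    exact h1
  hz := isHS_upS DF hF RF H.hol0 H.tr0
  ho := isHS_upS DF hF RF H.hol1 H.tr1

end TwoD

section Inst

variable {AC : Atl 1 Ch.X} (hC : Cmp Ch.famX AC) (RC : Ref AC A1 Ch.p)
  {AF : Atl 1 F8.X} (hF : Cmp F8.famX AF) (RF : Ref AF A1 F8.p)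

/-- **the data on `C^` and `F8`** -/
def two14 : Two AC AF := twoD HP Ch rfl F8 hC RC hF RF

variable {i : AC.ι} {j : AF.ι} {x : Ch.X} {y : F8.X}

theorem two14_t0 (hx : x ∈ (AC.e i).source) :
    (two14 hC RC hF RF).t0 i x = u0 (RC.r i) (pc (RC.r i) (Ch.p x)) :=
  upS_of_mem Ch RC HP.a0 hx

theorem two14_t1 (hx : x ∈ (AC.e i).source) :
    (two14 hC RC hF RF).t1 i x = u1 (RC.r i) (pc (RC.r i) (Ch.p x)) :=
  upS_of_mem Ch RC HP.a1 hx

theorem two14_d (hx : x ∈ (AC.e i).source) :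
    (two14 hC RC hF RF).d i x = Ch.y 0 (RC.r i) x := by
  show Ch.yS RC 0 i x = _
  exact if_pos hx

theorem two14_z (hy : y ∈ (AF.e j).source) :
    (two14 hC RC hF RF).z j y = u0 (RF.r j) (pc (RF.r j) (F8.p y)) :=
  upS_of_mem F8 RF HP.a0 hy

theorem two14_o (hy : y ∈ (AF.e j).source) :
    (two14 hC RC hF RF).o j y = u1 (RF.r j) (pc (RF.r j) (F8.p y)) :=
  upS_of_mem F8 RF HP.a1 hy

/-- the value of `s_M` in the frame `(i, j)` -/
theorem two14_sM (hx : x ∈ (AC.e i).source) (hy : y ∈ (AF.e j).source) :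
    (two14 hC RC hF RF).sM (i, j) (x, y) =
      u1 (RF.r j) (pc (RF.r j) (F8.p y)) ^ 2 * u0 (RC.r i) (pc (RC.r i) (Ch.p x)) ^ 4 -
        u0 (RF.r j) (pc (RF.r j) (F8.p y)) ^ 2 * u1 (RC.r i) (pc (RC.r i) (Ch.p x)) ^ 4 := by
  rw [Two.sM_apply, two14_t0 hC RC hF RF hx, two14_t1 hC RC hF RF hx,
    two14_z hC RC hF RF hy, two14_o hC RC hF RF hy]

/-- the value of `s_N` in the frame `(i, j)` -/
theorem two14_sN (k : ℂ) (hx : x ∈ (AC.e i).source) (hy : y ∈ (AF.e j).source) :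
    (two14 hC RC hF RF).sN k (i, j) (x, y) =
      u1 (RF.r j) (pc (RF.r j) (F8.p y)) ^ 2 *
        (u1 (RC.r i) (pc (RC.r i) (Ch.p x)) ^ 8 - I * u0 (RC.r i) (pc (RC.r i) (Ch.p x)) ^ 8) -
        k * (u0 (RC.r i) (pc (RC.r i) (Ch.p x)) ^ 2 * u1 (RC.r i) (pc (RC.r i) (Ch.p x)) ^ 2 *
          Ch.y 0 (RC.r i) x ^ 2 * u0 (RF.r j) (pc (RF.r j) (F8.p y)) ^ 2) := by
  rw [Two.sN_apply, two14_t0 hC RC hF RF hx, two14_t1 hC RC hF RF hx, two14_d hC RC hF RF hx,
    two14_z hC RC hF RF hy, two14_o hC RC hF RF hy]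

end Inst

/-! ### the canonical atlases -/

/-- the base atlas of the tower -/
abbrev AN : Atl 2 (Ch.X × F8.X) := Ch.atlX.prod F8.atlX

/-- the data on `C^` and `F8`, canonical atlases -/
def TW : Two Ch.atlX F8.atlX := two14 Ch.cmp_atlX Ch.refX F8.cmp_atlX F8.refX

/-- **the two sections of S0414** -/
def PN (k : ℂ) : PD AN (Fin 2) := TW.pd k

@[simp] theorem PN_k (k : ℂ) (a : Fin 2) : (PN k).k a = 2 := rfl
@[simp] theorem PN_s0 (k : ℂ) : (PN k).s 0 = TW.sM := rfl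
@[simp] theorem PN_s1 (k : ℂ) : (PN k).s 1 = TW.sN k := rfl

end

end Crest.Agent.R272.Nl_595
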