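import Crest.Agent.R272.NlB1_426
import Crest.Agent.R272.Nl2_595
import Crest.Agent.R272.Asm2_102

/-!
# R272 (S0414), NLOC-ASM (B) (helper426), part 2: the Nodes at the centres

* `Ty`            : the six types `P Q T1 T2 S S'` of centres, with frames `f1`, `f2`, functions
                    `Tf : Ch.X → ℂ`, `Sf : F8.X → ℂ` and shapes `shp`
* `Is k ty q`     : `q` is a centre of type `ty`; `exists_ty`, `Is.mem_Z`, `Is.unique`
* `Is.node`       : the `Node (PN k) q`
* `ty`, `node`    : type and node of the points of `Z k`; `adm`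
-/

set_option autoImplicit false
set_option linter.unusedSectionVars false

open Set Filter Topology Complex

namespace Crest.Agent.R272.NlB_426

open Crest.Agent.R275.Geo Crest.Agent.R275.Core144 Crest.Agent.R275.Prod363
open Crest.Agent.R273.Map_835 Crest.Agent.R273.Fam_835 Crest.Agent.R272.DCov_426
open Crest.Agent.R272.P1F_54 Crest.Agent.R272.P1L_426
open Crest.Agent.R272.P1S_590 (A1 O1 O u0 u1 O_g u0_false u1_false u0_true u1_true exists_pt
  mem_src_pt sel_ne pc_pt)
open Crest.Agent.R272.Quot_783 Crest.Agent.R272.Root_83 Crest.Agent.R272.Adp_409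
open Crest.Agent.R272.Nl_595 Crest.Agent.R272.Asm2_102

noncomputable section

/-! ### charts and frames -/

/-- a chart of the canonical atlas over a given chart of the base -/
theorem exists_chart {ρ : Type} [Fintype ρ] (D : Data A1 ρ) {q : D.X} {s : Bool}
    (hs : D.p q ∈ (A1.e s).source) :
    ∃ i : D.atlX.ι, q ∈ (D.atlX.e i).source ∧ D.refX.r i = s := by
  obtain ⟨c, hc⟩ := D.famX.cover q
  have h1 : (D.famX.e c).target ∩ (D.famX.e c).symm ⁻¹' (D.p ⁻¹' (A1.e s).source) ∈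
      𝓝 (D.famX.e c q) :=
    ((D.famX.e c).isOpen_inter_preimage_symm (D.isOpen_pre s)).mem_nhds
      ⟨(D.famX.e c).map_source hc, by rw [mem_preimage, (D.famX.e c).left_inv hc]; exact hs⟩
  obtain ⟨r, hr, h2⟩ := Metric.mem_nhds_iff.1 h1
  exact ⟨⟨c, D.famX.e c q, r, s, hr, fun z hz => h2 hz⟩,
    (LI.mem_source _).2 ⟨hc, Metric.mem_ball_self hr⟩, rfl⟩

theorem mem_false_of {t : P1} (ht : t ∈ (A1.e true).source) (h : 1 / 2 < ‖pc true t‖) :
    t ∈ (A1.e false).source := by
  obtain ⟨a0, a1, hne, rfl⟩ := exists_pt t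
  have h1 : a1 ≠ 0 := sel_ne hne ht
  rw [pc_pt (s := true) h1] at h
  rw [mem_src_pt hne]
  have h2 : 1 / 2 < ‖a0 / a1‖ := h
  rw [norm_div, lt_div_iff₀ (norm_pos_iff.2 h1)] at h2
  show ‖a1‖ < 2 * ‖a0‖
  linarith

/-- the preferred frame -/
theorem pref (t : P1) : ∃ s : Bool, t ∈ (A1.e s).source ∧ (s = true → ‖pc true t‖ ≤ 1 / 2) := by
  obtain ⟨s, hs⟩ := A1.cover t
  by_cases h : t ∈ (A1.e false).source
  · exact ⟨false, h, fun h => absurd h (by decide)⟩
  · refine ⟨true, ?_, fun _ => ?_⟩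
    · match s, hs with
      | true, hs => exact hs
      | false, hs => exact absurd hs h
    · by_contra h2
      push Not at h2
      refine h (mem_false_of ?_ h2)
      match s, hs with
      | true, hs => exact hs
      | false, hs => exact absurd hs h

theorem norm_one_of {c : ℂ} {n : ℕ} (hn : n ≠ 0) (h : ‖c ^ n‖ = 1) : ‖c‖ = 1 := by
  rw [norm_pow] at h
  exact (pow_eq_one_iff_of_nonneg (norm_nonneg _) hn).1 h

theorem dl_true {q : Ch.X} (hq : Ch.p q ∈ (A1.e true).source) (h : dl true q = 0) :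
    ‖pc true (Ch.p q)‖ = 1 := by
  have h1 := Ch_y0 hq
  have h2 : Ch.y 0 true q = 0 := h
  rw [h2, u0_true, u1_true, one_pow, zero_pow (by norm_num)] at h1
  refine norm_one_of (n := 16) (by norm_num) ?_
  rw [show pc true (Ch.p q) ^ 16 = 1 by linear_combination -h1, norm_one]

theorem rh_true {q : Ch.X} (hq : Ch.p q ∈ (A1.e true).source) (h : rh true q = 0) :
    ‖pc true (Ch.p q)‖ = 1 := by
  have h1 := Ch_y1 hq
  have h2 : Ch.y 1 true q = 0 := h
  rw [h2, u0_true, u1_true, one_pow, zero_pow (by norm_num)] at h1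
  refine norm_one_of (n := 8) (by norm_num) ?_
  have h3 : pc true (Ch.p q) ^ 8 = I := by
    linear_combination I * h1 + pc true (Ch.p q) ^ 8 * I_sq
  rw [h3, norm_I]

theorem et_true {q : F8.X} (hq : F8.p q ∈ (A1.e true).source) (h : et true q = 0) :
    ‖pc true (F8.p q)‖ = 1 := by
  have h1 := F8_y hq
  have h2 : F8.y 0 true q = 0 := h
  rw [h2, u0_true, u1_true, one_pow, zero_pow (by norm_num)] at h1
  refine norm_one_of (n := 8) (by norm_num) ?_
  rw [show pc true (F8.p q) ^ 8 = 1 by linear_combination -h1, norm_one]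

/-! ### the values of the sections in the frames -/

variable {k : ℂ}

theorem ev_sM {s s' : Bool} {i : Ch.atlX.ι} {j : F8.atlX.ι} {a : Ch.X} {b : F8.X}
    (hi : a ∈ (Ch.atlX.e i).source) (hj : b ∈ (F8.atlX.e j).source) (hri : Ch.refX.r i = s)
    (hrj : F8.refX.r j = s') : ∀ᶠ y : Ch.X × F8.X in 𝓝 (a, b), (PN k).s 0 (i, j) y =
      Tra3_178.sM (t0 s y.1) (t1 s y.1) (ze s' y.2) (om s' y.2) := by
  have h1 : ∀ᶠ y : Ch.X × F8.X in 𝓝 (a, b), y.1 ∈ (Ch.atlX.e i).source :=
    ev_fst (P := fun x => x ∈ (Ch.atlX.e i).source) ((Ch.atlX.e i).open_source.mem_nhds hi)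
  have h2 : ∀ᶠ y : Ch.X × F8.X in 𝓝 (a, b), y.2 ∈ (F8.atlX.e j).source :=
    ev_snd (P := fun x => x ∈ (F8.atlX.e j).source) ((F8.atlX.e j).open_source.mem_nhds hj)
  filter_upwards [h1, h2] with y hy1 hy2
  subst hri hrj
  exact two14_sM Ch.cmp_atlX Ch.refX F8.cmp_atlX F8.refX hy1 hy2

theorem ev_sN {s s' : Bool} {i : Ch.atlX.ι} {j : F8.atlX.ι} {a : Ch.X} {b : F8.X}
    (hi : a ∈ (Ch.atlX.e i).source) (hj : b ∈ (F8.atlX.e j).source) (hri : Ch.refX.r i = s)
    (hrj : F8.refX.r j = s') : ∀ᶠ y : Ch.X × F8.X in 𝓝 (a, b), (PN k).s 1 (i, j) y =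
      Tra3_178.sN k (t0 s y.1) (t1 s y.1) (dl s y.1) (ze s' y.2) (om s' y.2) := by
  have h1 : ∀ᶠ y : Ch.X × F8.X in 𝓝 (a, b), y.1 ∈ (Ch.atlX.e i).source :=
    ev_fst (P := fun x => x ∈ (Ch.atlX.e i).source) ((Ch.atlX.e i).open_source.mem_nhds hi)
  have h2 : ∀ᶠ y : Ch.X × F8.X in 𝓝 (a, b), y.2 ∈ (F8.atlX.e j).source :=
    ev_snd (P := fun x => x ∈ (F8.atlX.e j).source) ((F8.atlX.e j).open_source.mem_nhds hj)
  filter_upwards [h1, h2] with y hy1 hy2
  subst hri hrj
  have h3 := two14_sN Ch.cmp_atlX Ch.refX F8.cmp_atlX F8.refX k hy1 hy2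
  have h4 : (PN k).s 1 (i, j) y = (two14 Ch.cmp_atlX Ch.refX F8.cmp_atlX F8.refX).sN k (i, j) y :=
    rfl
  rw [h4, show y = (y.1, y.2) from rfl, h3]
  unfold Tra3_178.sN
  show _ = om _ y.2 ^ 2 * _ - _
  simp only [t0, t1, dl, ze, om]
  ring

/-! ### the types -/

/-- the six types of centres -/
inductive Ty : Type
  | P | Q | T1 | T2 | S | S'
  deriving DecidableEq

/-- frame on `C^` -/
def Ty.f1 : Ty → Bool
  | .Q => true
  | .T2 => true
  | _ => false

/-- frame on `F8` -/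
def Ty.f2 : Ty → Bool
  | .Q => true
  | _ => false

/-- the coordinate on `C^` -/
def Ty.Tf : Ty → Ch.X → ℂ
  | .P => t1 false
  | .Q => t0 true
  | .T1 => dl false
  | .T2 => t0 true
  | .S => dl false
  | .S' => rh false

/-- the coordinate on `F8` -/
def Ty.Sf : Ty → F8.X → ℂ
  | .P => om false
  | .Q => ze true
  | .T1 => om false
  | .T2 => om false
  | .S => et false
  | .S' => et false

/-- the shapes of `s_M`, `s_N` -/
def Ty.shp : Ty → Fin 2 → Shape
  | .P => ![.tac, .star 1]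
  | .Q => ![.tac, .unit]
  | .T1 => ![.unit, .star 1]
  | .T2 => ![.unit, .star 1]
  | .S => ![.star 4, .unit]
  | .S' => ![.unit, .star 4]

/-- the section which has to vanish in the types `S`, `S'` -/
def Ty.Ex (k : ℂ) : Ty → Ch.X × F8.X → Prop
  | .S, q => Tra3_178.sM (t0 false q.1) (t1 false q.1) (ze false q.2) (om false q.2) = 0
  | .S', q =>
    Tra3_178.sN k (t0 false q.1) (t1 false q.1) (dl false q.1) (ze false q.2) (om false q.2) = 0
  | _, _ => True

/-- `q` is a centre of type `ty` -/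
structure Is (k : ℂ) (ty : Ty) (q : Ch.X × F8.X) : Prop where
  m1 : Ch.p q.1 ∈ (A1.e ty.f1).source
  m2 : F8.p q.2 ∈ (A1.e ty.f2).source
  T0 : ty.Tf q.1 = 0
  S0 : ty.Sf q.2 = 0
  ex : ty.Ex k q

theorem t0_false (x : Ch.X) : t0 false x = 1 := rfl
theorem t1_true (x : Ch.X) : t1 true x = 1 := rfl
theorem ze_false (x : F8.X) : ze false x = 1 := rfl
theorem om_true (x : F8.X) : om true x = 1 := rfl

/-- **every centre has a type** -/
theorem exists_ty (hk : k ^ 4 = 8 * I) {q : Ch.X × F8.X} (hq : q ∈ Z k) : ∃ ty, Is k ty q := by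
  obtain ⟨s, hs, hst⟩ := pref (Ch.p q.1)
  obtain ⟨s', hs', hst'⟩ := pref (F8.p q.2)
  have hP := pt hk hs hs'
  have hc := (mem_Z hs hs').1 hq
  have hd : dl s q.1 = 0 → s = false := by
    intro h
    cases s
    · rfl
    · have h1 := hst rfl
      rw [dl_true hs h] at h1
      norm_num at h1
  have hr : rh s q.1 = 0 → s = false := by
    intro h
    cases s
    · rfl
    · have h1 := hst rfl
      rw [rh_true hs h] at h1
      norm_num at h1
  have he : et s' q.2 = 0 → s' = false := by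
    intro h
    cases s'
    · rfl
    · have h1 := hst' rfl
      rw [et_true hs' h] at h1
      norm_num at h1
  have ho : om s' q.2 = 0 → s' = false := by
    intro h
    cases s'
    · rfl
    · exact absurd h one_ne_zero
  have hz : ze s' q.2 = 0 → s' = true := by
    intro h
    cases s'
    · exact absurd h one_ne_zero
    · rfl
  have ha : t1 s q.1 = 0 → s = false := by
    intro h
    cases s
    · rfl
    · exact absurd h one_ne_zero
  have hb : t0 s q.1 = 0 → s = true := by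
    intro h
    cases s
    · exact absurd h one_ne_zero
    · rfl
  rcases hP.cases hc with ⟨h1, h2, -⟩ | ⟨h1, h2, -⟩ | ⟨h1, h2, -⟩ | ⟨h1, h2, -⟩ |
    ⟨h1, h2, -, -, -, -, -, h3, -⟩ | ⟨h1, h2, -, -, -, -, -, -, h3⟩
  · obtain rfl := ha h1
    obtain rfl := ho h2
    exact ⟨.P, hs, hs', h1, h2, trivial⟩
  · obtain rfl := hb h1
    obtain rfl := hz h2
    exact ⟨.Q, hs, hs', h1, h2, trivial⟩
  · obtain rfl := hd h2
    obtain rfl := ho h1
    exact ⟨.T1, hs, hs', h2, h1, trivial⟩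
  · obtain rfl := hb h2
    obtain rfl := ho h1
    exact ⟨.T2, hs, hs', h2, h1, trivial⟩
  · obtain rfl := hd h1
    obtain rfl := he h2
    exact ⟨.S, hs, hs', h1, h2, h3⟩
  · obtain rfl := hr h1
    obtain rfl := he h2
    exact ⟨.S', hs, hs', h1, h2, h3⟩

/-- a point of one of the six types is a centre -/
theorem Is.mem_Z {ty : Ty} {q : Ch.X × F8.X} (h : Is k ty q) : q ∈ Z k := by
  refine ⟨ty.f1, ty.f2, h.m1, h.m2, ?_⟩
  have h1 := h.T0
  have h2 := h.S0
  have h3 := h.ex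
  cases ty
  · exact Or.inl ⟨h1, h2⟩
  · exact Or.inr (Or.inl ⟨h1, h2⟩)
  · exact Or.inr (Or.inr (Or.inl ⟨h2, Or.inr h1⟩))
  · exact Or.inr (Or.inr (Or.inl ⟨h2, Or.inl h1⟩))
  · exact Or.inr (Or.inr (Or.inr (Or.inl ⟨h1, h2, h3⟩)))
  · exact Or.inr (Or.inr (Or.inr (Or.inr ⟨h1, h2, h3⟩)))

/-! ### the nodes -/

theorem Is.pt {ty : Ty} {q : Ch.X × F8.X} (hk : k ^ 4 = 8 * I) (h : Is k ty q) :
    Tra3_178.Pt k (t0 ty.f1 q.1) (t1 ty.f1 q.1) (dl ty.f1 q.1) (rh ty.f1 q.1) (ze ty.f2 q.2)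
      (om ty.f2 q.2) (et ty.f2 q.2) := NlB_426.pt hk h.m1 h.m2

theorem Is.cen {ty : Ty} {q : Ch.X × F8.X} (h : Is k ty q) : CenF k ty.f1 ty.f2 q :=
  (NlB_426.mem_Z h.m1 h.m2).1 h.mem_Z

theorem Is.crT {ty : Ty} {a : Ch.X} {b : F8.X} (hk : k ^ 4 = 8 * I) (h : Is k ty (a, b)) :
    Cr1 Ch.atlX a ty.Tf := by
  have hf := (h.pt hk).cases h.cen
  have h0 := h.T0
  have h1 := h.S0
  cases ty
  · have h0' : t1 false a = 0 := h0
    have h1' : om false b = 0 := h1
    simp only [Ty.f1, Ty.f2] at hf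
    refine cr_t1 Ch.cmp_atlX h.m1 ?_ ?_ <;> tauto
  · have h0' : t0 true a = 0 := h0
    have h1' : ze true b = 0 := h1
    simp only [Ty.f1, Ty.f2] at hf
    refine cr_t0 Ch.cmp_atlX h.m1 ?_ ?_ <;> tauto
  · exact cr_dl Ch.cmp_atlX h.m1 h0
  · have h0' : t0 true a = 0 := h0
    have h1' : om false b = 0 := h1
    simp only [Ty.f1, Ty.f2] at hf
    refine cr_t0 Ch.cmp_atlX h.m1 ?_ ?_ <;> tauto
  · exact cr_dl Ch.cmp_atlX h.m1 h0
  · exact cr_rh Ch.cmp_atlX h.m1 h0

theorem Is.crS {ty : Ty} {a : Ch.X} {b : F8.X} (hk : k ^ 4 = 8 * I) (h : Is k ty (a, b)) :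
    Cr1 F8.atlX b ty.Sf := by
  have hf := (h.pt hk).cases h.cen
  have h0 := h.T0
  have h1 := h.S0
  cases ty
  · have h0' : t1 false a = 0 := h0
    have h1' : om false b = 0 := h1
    simp only [Ty.f1, Ty.f2] at hf
    refine cr_om F8.cmp_atlX h.m2 ?_
    tauto
  · have h0' : t0 true a = 0 := h0
    have h1' : ze true b = 0 := h1
    simp only [Ty.f1, Ty.f2] at hf
    refine cr_ze F8.cmp_atlX h.m2 ?_
    tauto
  · have h0' : dl false a = 0 := h0
    have h1' : om false b = 0 := h1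
    simp only [Ty.f1, Ty.f2] at hf
    refine cr_om F8.cmp_atlX h.m2 ?_
    tauto
  · have h0' : t0 true a = 0 := h0
    have h1' : om false b = 0 := h1
    simp only [Ty.f1, Ty.f2] at hf
    refine cr_om F8.cmp_atlX h.m2 ?_
    tauto
  · exact cr_et F8.cmp_atlX h.m2 h1
  · exact cr_et F8.cmp_atlX h.m2 h1

/-- **the local forms** -/
theorem Is.form {ty : Ty} {a : Ch.X} {b : F8.X} (hk : k ^ 4 = 8 * I) (h : Is k ty (a, b))
    {i : Ch.atlX.ι} {j : F8.atlX.ι} (hi : a ∈ (Ch.atlX.e i).source)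
    (hj : b ∈ (F8.atlX.e j).source) (hri : Ch.refX.r i = ty.f1) (hrj : F8.refX.r j = ty.f2)
    (c : Fin 2) : HasForm (fam (Ch.atlX.prod F8.atlX)) (ty.shp c) ((PN k).s c (i, j))
      (fun q => ty.Tf q.1) (fun q => ty.Sf q.2) (a, b) := by
  have eM := ev_sM (k := k) hi hj hri hrj
  have eN := ev_sN (k := k) hi hj hri hrj
  have h0 := h.T0
  have h1 := h.S0
  have h2 := h.ex
  have m1 := h.m1
  have m2 := h.m2
  cases ty
  · have hf := NF_140.form_P (ptC (AC := Ch.atlX) (AF := F8.atlX) Ch.cmp_atlX (b := b) m1) hk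
      (o := fun q : Ch.X × F8.X => om false q.2) h0 h1
    fin_cases c
    · refine HasForm.of_tac (hf.1.congr ?_)
      filter_upwards [eM] with y hy
      refine hy.trans ?_
      simp only [Ty.f1, Ty.f2, Tra3_178.sM, NF_140.sMto, t0_false, ze_false]
      ring
    · refine HasForm.of_star1 (hf.2.congr ?_)
      filter_upwards [eN] with y hy
      refine hy.trans ?_
      simp only [Ty.f1, Ty.f2, Tra3_178.sN, NF_140.sNto, t0_false, ze_false]
      ring
  · have hf := NF_140.form_Q (k := k) (pcC (AC := Ch.atlX) (AF := F8.atlX) Ch.cmp_atlX (b := b) m1)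
      (pzF (AC := Ch.atlX) F8.cmp_atlX (a := a) m2) h0 h1
    fin_cases c
    · refine HasForm.of_tac (hf.1.congr ?_)
      filter_upwards [eM] with y hy
      refine hy.trans ?_
      simp only [Ty.f1, Ty.f2, Tra3_178.sM, NF_140.sMcz, t1_true, om_true]
      ring
    · refine HasForm.of_unt (hf.2.unit_mul (HG.const 1) one_ne_zero ?_)
      filter_upwards [eN] with y hy
      refine hy.trans ?_
      simp only [Ty.f1, Ty.f2, Tra3_178.sN, NF_140.sNcz, t1_true, om_true]
      ring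
  · have hf := NF_140.form_T1 (ptC (AC := Ch.atlX) (AF := F8.atlX) Ch.cmp_atlX (b := b) m1)
      (poF (AC := Ch.atlX) F8.cmp_atlX (a := a) m2) hk h0 h1
    fin_cases c
    · refine HasForm.of_unt (hf.1.unit_mul (HG.const 1) one_ne_zero ?_)
      filter_upwards [eM] with y hy
      refine hy.trans ?_
      simp only [Ty.f1, Ty.f2, Tra3_178.sM, NF_140.sMto, t0_false, ze_false]
      ring
    · refine HasForm.of_star1 (hf.2.congr ?_)
      filter_upwards [eN] with y hy
      refine hy.trans ?_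
      simp only [Ty.f1, Ty.f2, Tra3_178.sN, NF_140.sNto, t0_false, ze_false]
      ring
  · have hf := NF_140.form_T2 (pcC (AC := Ch.atlX) (AF := F8.atlX) Ch.cmp_atlX (b := b) m1)
      (poF (AC := Ch.atlX) F8.cmp_atlX (a := a) m2) hk h0 h1
    fin_cases c
    · refine HasForm.of_unt (hf.1.unit_mul (HG.const 1) one_ne_zero ?_)
      filter_upwards [eM] with y hy
      refine hy.trans ?_
      simp only [Ty.f1, Ty.f2, Tra3_178.sM, NF_140.sMco, t1_true, ze_false]
      ring
    · refine HasForm.of_star1 (hf.2.congr ?_)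
      filter_upwards [eN] with y hy
      refine hy.trans ?_
      simp only [Ty.f1, Ty.f2, Tra3_178.sN, NF_140.sNco, t1_true, ze_false]
      ring
  · have hot : om false b ^ 2 = t1 false a ^ 4 := by
      have h3 : Tra3_178.sM (t0 false a) (t1 false a) (ze false b) (om false b) = 0 := h2
      unfold Tra3_178.sM at h3
      rw [t0_false, ze_false] at h3
      linear_combination h3
    have hf := NF_140.form_S (k := k)
      (ptC (AC := Ch.atlX) (AF := F8.atlX) Ch.cmp_atlX (b := b) m1)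
      (poF (AC := Ch.atlX) F8.cmp_atlX (a := a) m2) h0 h1 hot
    fin_cases c
    · refine HasForm.of_star4 (hf.1.congr ?_)
      filter_upwards [eM] with y hy
      refine hy.trans ?_
      simp only [Ty.f1, Ty.f2, Tra3_178.sM, NF_140.sMto, t0_false, ze_false]
      ring
    · refine HasForm.of_unt (hf.2.unit_mul (HG.const 1) one_ne_zero ?_)
      filter_upwards [eN] with y hy
      refine hy.trans ?_
      simp only [Ty.f1, Ty.f2, Tra3_178.sN, NF_140.sNto, t0_false, ze_false]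
      ring
  · have hN : NF_140.sNto k (fun q : Ch.X × F8.X => t1 false q.1) (fun q => dl false q.1)
        (fun q => om false q.2) (a, b) = 0 := by
      have h3 : Tra3_178.sN k (t0 false a) (t1 false a) (dl false a) (ze false b) (om false b) = 0 :=
        h2
      unfold Tra3_178.sN at h3
      rw [t0_false, ze_false] at h3
      simp only [NF_140.sNto]
      linear_combination h3
    have hf := NF_140.form_S' (ptC (AC := Ch.atlX) (AF := F8.atlX) Ch.cmp_atlX (b := b) m1)
      (poF (AC := Ch.atlX) F8.cmp_atlX (a := a) m2) hk h0 h1 hN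
    fin_cases c
    · refine HasForm.of_unt (hf.1.unit_mul (HG.const 1) one_ne_zero ?_)
      filter_upwards [eM] with y hy
      refine hy.trans ?_
      simp only [Ty.f1, Ty.f2, Tra3_178.sM, NF_140.sMto, t0_false, ze_false]
      ring
    · refine HasForm.of_star4 (hf.2.congr ?_)
      filter_upwards [eN] with y hy
      refine hy.trans ?_
      simp only [Ty.f1, Ty.f2, Tra3_178.sN, NF_140.sNto, t0_false, ze_false]
      ring

/-- **the node at a centre of type `ty`** -/
def Is.node {ty : Ty} {q : Ch.X × F8.X} (hk : k ^ 4 = 8 * I) (h : Is k ty q) : Node (PN k) q :=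
  prodNode (A := Ch.atlX) (B := F8.atlX) (a := q.1) (b := q.2) (PN k) (h.crT hk) (h.crS hk) h.T0
    h.S0 ty.shp ((exists_chart Ch h.m1).choose, (exists_chart F8 h.m2).choose)
    ⟨(exists_chart Ch h.m1).choose_spec.1, (exists_chart F8 h.m2).choose_spec.1⟩
    (h.form hk (exists_chart Ch h.m1).choose_spec.1 (exists_chart F8 h.m2).choose_spec.1
      (exists_chart Ch h.m1).choose_spec.2 (exists_chart F8 h.m2).choose_spec.2)

@[simp] theorem Is.node_T {ty : Ty} {q : Ch.X × F8.X} (hk : k ^ 4 = 8 * I) (h : Is k ty q) :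
    (h.node hk).T = fun x => ty.Tf x.1 := rfl

@[simp] theorem Is.node_S {ty : Ty} {q : Ch.X × F8.X} (hk : k ^ 4 = 8 * I) (h : Is k ty q) :
    (h.node hk).S = fun x => ty.Sf x.2 := rfl

@[simp] theorem Is.node_sh {ty : Ty} {q : Ch.X × F8.X} (hk : k ^ 4 = 8 * I) (h : Is k ty q) :
    (h.node hk).sh = ty.shp := rfl

theorem adm_shp (ty : Ty) : Adm ty.shp := by
  cases ty
  · refine Or.inr (Or.inr ⟨0, 1, by decide, rfl, Or.inr ⟨1, one_pos, rfl⟩, fun c h0 h1 => ?_⟩)
    fin_cases c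
    · exact absurd rfl h0
    · exact absurd rfl h1
  · refine Or.inr (Or.inr ⟨0, 1, by decide, rfl, Or.inl rfl, fun c h0 h1 => ?_⟩)
    fin_cases c
    · exact absurd rfl h0
    · exact absurd rfl h1
  · refine Or.inr (Or.inl ⟨1, 1, one_pos, rfl, fun c h1 => ?_⟩)
    fin_cases c
    · rfl
    · exact absurd rfl h1
  · refine Or.inr (Or.inl ⟨1, 1, one_pos, rfl, fun c h1 => ?_⟩)
    fin_cases c
    · rfl
    · exact absurd rfl h1
  · refine Or.inr (Or.inl ⟨0, 4, by norm_num, rfl, fun c h1 => ?_⟩)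
    fin_cases c
    · exact absurd rfl h1
    · rfl
  · refine Or.inr (Or.inl ⟨1, 4, by norm_num, rfl, fun c h1 => ?_⟩)
    fin_cases c
    · rfl
    · exact absurd rfl h1

/-- the type of a centre -/
def ty (hk : k ^ 4 = 8 * I) (x : Z k) : Ty := (exists_ty hk x.2).choose

theorem is_ty (hk : k ^ 4 = 8 * I) (x : Z k) : Is k (ty hk x) (x : Ch.X × F8.X) :=
  (exists_ty hk x.2).choose_spec

/-- **the nodes at all centres** -/
def node (hk : k ^ 4 = 8 * I) (x : Z k) : Node (PN k) (x : Ch.X × F8.X) := (is_ty hk x).node hk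

theorem node_T (hk : k ^ 4 = 8 * I) (x : Z k) : (node hk x).T = fun q => (ty hk x).Tf q.1 := rfl
theorem node_S (hk : k ^ 4 = 8 * I) (x : Z k) : (node hk x).S = fun q => (ty hk x).Sf q.2 := rfl
theorem node_sh (hk : k ^ 4 = 8 * I) (x : Z k) : (node hk x).sh = (ty hk x).shp := rfl

/-- **admissible** (hypothesis `hadm` of 102's `asm`) -/
theorem hadm (hk : k ^ 4 = 8 * I) (x : Z k) : Adm (node hk x).sh := adm_shp _

end

end Crest.Agent.R272.NlB_426
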