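import Crest.Agent.R272.GrDefs_559
import Crest.Agent.R272.Cur1_297

/-!
# R272 (S0415): the base cluster point (helper939), definitions

`BPt D P G p₀ s` : at the point `p₀` of the base both pens of `D : GData F` have the slopes `P.c`
(`P : Cur_297.Par`, the branch slopes of the curve), the same first coordinate `s0`, independent
differentials of `s0, s1, s1'`; `s : G` is an involution which generates the stabiliser of `p₀`, fixes
`s0` and exchanges `s1, s1'`.
-/

set_option autoImplicit false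

open Set Filter Topology

namespace Crest.Agent.R272.P0_939

open Crest.Agent.R273.Fam_835 Crest.Agent.R272.Gr_559 Crest.Agent.R272

/-- the base cluster point -/
structure BPt {N : Type} [TopologicalSpace N] {F : Fam 3 N} (D : GData F) (P : Cur_297.Par)
    (G : Type) [Group G] [MulAction G N] (p₀ : N) (s : G) where
  p : Pen F D.f0 (D.x 0) (D.P 0) (D.Q 0) p₀
  p' : Pen F D.f0 (D.x 1) (D.P 1) (D.Q 1) p₀
  s0_eq : p'.s0 = p.s0
  c_eq : p.c = P.c
  c'_eq : p'.c = P.c
  snc : SNC F p₀ ![p.s0, p.s1, p'.s1]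
  s0_zero : p.s0 p₀ = 0
  s1_zero : p.s1 p₀ = 0
  s1'_zero : p'.s1 p₀ = 0
  f0_zero : D.f0 p₀ = 0
  x_zero : ∀ i, D.x i p₀ = 0
  s_sq : s * s = 1
  s_ne : s ≠ 1
  s_fix : s • p₀ = p₀
  stab : ∀ g : G, g • p₀ = p₀ → g = 1 ∨ g = s
  s0_smul : ∀ z, p.s0 (s • z) = p.s0 z
  s1_smul : ∀ z, p.s1 (s • z) = p'.s1 z
  s1'_smul : ∀ z, p'.s1 (s • z) = p.s1 z

end Crest.Agent.R272.P0_939
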