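import Crest.Agent.R272.P1F_54
import Crest.Agent.R272.GrDefs_559

/-!
# R272 (S0415), MODEL tools (helper54): `P1F_54` in the language of `GrP1_559`, `GrDefs_559`

* `n_eq`, `d_eq`, `mk_eq` : `P1.n = nn`, `P1.d = dd`, `P1.mk = hmk`; `c0_eq`, `c1_eq`;
* `closed_rel`, `closed_sq`, `closed_rel3` : closedness of the relations of `GData.X1`;
* `continuousAt_mk`, `mk_holC`, `holC_mk_of` : holomorphic maps to `P1`;
* `holF_iff` : `HolF F U f ↔ HF F U f`;
* `tranH`, `twoFam G : Fam (m + m) (Fin 2 → Y)`, `ambFam F : Fam (N + 5) (Amb X)`.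
-/

set_option autoImplicit false
set_option linter.unusedSectionVars false

open Set Filter Topology Complex

namespace Crest.Agent.R272.P1A_54

open Crest.Agent.R275.Geo Crest.Agent.R273.Fam_835 Crest.Agent.R272.FamP_54
  Crest.Agent.R272.P1F_54 Crest.Agent.R272.Quot_783
open Crest.Agent.R272.Gr_559 (P1.n P1.d P1.mk P1.c0 P1.c1)

noncomputable section

/-! ### dictionary -/

@[simp] theorem n_eq (t : P1) : P1.n t = nn t := rfl

@[simp] theorem d_eq (t : P1) : P1.d t = Crest.Agent.R272.P1F_54.dd t := rfl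

theorem mk_eq (a b : ℂ) : P1.mk a b = hmk a b := by
  by_cases hb : b = 0
  · subst hb
    rw [hmk_zero, Gr_559.P1.mk_zero]
  · rw [hmk_of_ne hb, Gr_559.P1.mk_of_ne hb]

theorem ps_false : ps false = P1.c0.source := by
  ext t
  rw [mem_ps_false, Gr_559.P1.c0_source]
  rfl

theorem ps_true : ps true = P1.c1.source := by
  ext t
  rw [mem_ps_true, Gr_559.P1.c1_source]
  rfl

theorem c0_eq {t : P1} (ht : t ≠ OnePoint.infty) : P1.c0 t = pc false t := by
  obtain ⟨h1, h2⟩ := Gr_559.P1.c0_rel ht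
  rw [n_eq, d_eq] at h1
  rw [pc_false, h1]
  field_simp [show Crest.Agent.R272.P1F_54.dd t ≠ 0 from h2]

theorem c1_eq {t : P1} (ht : t ≠ ((0 : ℂ) : P1)) : P1.c1 t = pc true t := by
  obtain ⟨h1, h2⟩ := Gr_559.P1.c1_rel ht
  rw [n_eq, d_eq] at h1
  rw [pc_true, h1]
  field_simp [show nn t ≠ 0 from h2]

/-! ### closedness -/

section closed

variable {Z : Type*} [TopologicalSpace Z]

/-- `{z | a z * d (t z) = b z * n (t z)}` is closed -/
theorem closed_rel {t : Z → P1} (ht : Continuous t) {a b : Z → ℂ} (ha : Continuous a)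
    (hb : Continuous b) : IsClosed {z | a z * P1.d (t z) = b z * P1.n (t z)} :=
  isClosed_rel ht ha hb

/-- `{z | n (k z) ^ 2 * a z = d (k z) ^ 2 * b z}` is closed -/
theorem closed_sq {k : Z → P1} (hk : Continuous k) {a b : Z → ℂ} (ha : Continuous a)
    (hb : Continuous b) : IsClosed {z | P1.n (k z) ^ 2 * a z = P1.d (k z) ^ 2 * b z} :=
  isClosed_sq hk ha hb

/-- `{z | n (v z) * d (t z) = d (v z) * n (t z) * a z}` is closed -/
theorem closed_rel3 {v t : Z → P1} (hv : Continuous v) (ht : Continuous t) {a : Z → ℂ}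
    (ha : Continuous a) :
    IsClosed {z | P1.n (v z) * P1.d (t z) = P1.d (v z) * P1.n (t z) * a z} := by
  have h := isClosed_hom2 hv ht (0 : ℂ) (fun z x y x' y' => x * y' - y * x' * a z)
    (by fun_prop) (fun z x y x' y' c c' hc hc' => by
      rw [show c * x * (c' * y') - c * y * (c' * x') * a z =
        (c * c') * (x * y' - y * x' * a z) by ring]
      simp [hc, hc'])
  simp only [sub_eq_zero] at h
  exact h

/-- `{z | n (k z) ^ 2 * α(z, [n t : d t]) = d (k z) ^ 2 * β(z, [n t : d t])}` is closed for `α`,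
`β` homogeneous of the same degree `r` in the coordinates of `t` -/
theorem closed_sq_hom {k t : Z → P1} (hk : Continuous k) (ht : Continuous t) (r : ℕ)
    (α β : Z → ℂ → ℂ → ℂ) (hα : Continuous fun p : Z × ℂ × ℂ => α p.1 p.2.1 p.2.2)
    (hβ : Continuous fun p : Z × ℂ × ℂ => β p.1 p.2.1 p.2.2)
    (hα' : ∀ z c a b, α z (c * a) (c * b) = c ^ r * α z a b)
    (hβ' : ∀ z c a b, β z (c * a) (c * b) = c ^ r * β z a b) :
    IsClosed {z | P1.n (k z) ^ 2 * α z (P1.n (t z)) (P1.d (t z)) =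
      P1.d (k z) ^ 2 * β z (P1.n (t z)) (P1.d (t z))} := by
  have h := isClosed_hom2 hk ht (0 : ℂ) (fun z x y x' y' => x ^ 2 * α z x' y' - y ^ 2 * β z x' y')
    (by
      have h1 : Continuous fun p : Z × (ℂ × ℂ) × (ℂ × ℂ) => α p.1 p.2.2.1 p.2.2.2 :=
        hα.comp (continuous_fst.prodMk (continuous_snd.comp continuous_snd))
      have h2 : Continuous fun p : Z × (ℂ × ℂ) × (ℂ × ℂ) => β p.1 p.2.2.1 p.2.2.2 :=
        hβ.comp (continuous_fst.prodMk (continuous_snd.comp continuous_snd))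
      have h3 : Continuous fun p : Z × (ℂ × ℂ) × (ℂ × ℂ) => p.2.1.1 ^ 2 := by fun_prop
      have h4 : Continuous fun p : Z × (ℂ × ℂ) × (ℂ × ℂ) => p.2.1.2 ^ 2 := by fun_prop
      exact (h3.mul h1).sub (h4.mul h2))
    (fun z x y x' y' c c' hc hc' => by
      rw [hα', hβ', show (c * x) ^ 2 * (c' ^ r * α z x' y') - (c * y) ^ 2 * (c' ^ r * β z x' y') =
        (c ^ 2 * c' ^ r) * (x ^ 2 * α z x' y' - y ^ 2 * β z x' y') by ring]
      simp [hc, hc'])
  simp only [sub_eq_zero] at h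
  exact h

end closed

/-! ### maps to `P1` -/

theorem continuousAt_mk {Z : Type*} [TopologicalSpace Z] {f g : Z → ℂ} {z : Z}
    (hf : ContinuousAt f z) (hg : ContinuousAt g z) (h : ¬ (f z = 0 ∧ g z = 0)) :
    ContinuousAt (fun z => P1.mk (f z) (g z)) z := by
  simp only [mk_eq]
  exact P1F_54.ContinuousAt.hmk hf hg (by tauto)

section hol

variable {N m : ℕ} {X Y : Type} [TopologicalSpace X] [TopologicalSpace Y] {F : Fam N X}
  {G : Fam m Y}

theorem holF_iff {U : Set X} (hU : IsOpen U) {f : X → ℂ} : HolF F U f ↔ HF F U f := by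
  constructor
  · intro h x hx i hi
    exact HolF.diffAt hU h hi hx
  · intro h i z hz
    refine DifferentiableAt.differentiableWithinAt ?_
    have h1 := h _ hz.2 i ((F.e i).map_target hz.1)
    rwa [(F.e i).right_inv hz.1] at h1

theorem mk_holC {f g : X → ℂ} (hf : HolF F univ f) (hg : HolF F univ g)
    (h0 : ∀ x, ¬ (f x = 0 ∧ g x = 0)) : HolC F p1Fam (fun x => P1.mk (f x) (g x)) := by
  simp only [mk_eq]
  exact hmk_holC ((holF_iff isOpen_univ).1 hf) ((holF_iff isOpen_univ).1 hg)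
    (fun x => by have := h0 x; tauto)

/-- a map which is locally `[f : g]` is holomorphic -/
theorem holC_mk_of {p : X → P1} (h : ∀ x, ∃ f g : X → ℂ, HFA F f x ∧ HFA F g x ∧
    ¬ (f x = 0 ∧ g x = 0) ∧ ∀ᶠ y in 𝓝 x, p y = P1.mk (f y) (g y)) : HolC F p1Fam p := by
  refine holC_p1_of fun x => ?_
  obtain ⟨f, g, hf, hg, h0, he⟩ := h x
  exact ⟨f, g, hf, hg, by tauto, he.mono fun y hy => by rw [hy, mk_eq]⟩

/-- a map which locally satisfies `f * d p = g * n p` is holomorphic -/
theorem holC_rel_of {p : X → P1} (h : ∀ x, ∃ f g : X → ℂ, HFA F f x ∧ HFA F g x ∧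
    ¬ (f x = 0 ∧ g x = 0) ∧ ∀ᶠ y in 𝓝 x, f y * P1.d (p y) = g y * P1.n (p y)) :
    HolC F p1Fam p := by
  refine holC_mk_of fun x => ?_
  obtain ⟨f, g, hf, hg, h0, he⟩ := h x
  refine ⟨f, g, hf, hg, h0, ?_⟩
  have h1 : ∀ᶠ y in 𝓝 x, ¬ (f y = 0 ∧ g y = 0) := by
    by_cases hfx : f x = 0
    · have hgx : g x ≠ 0 := fun h2 => h0 ⟨hfx, h2⟩
      exact (hg.continuousAt.eventually_ne hgx).mono fun y hy h3 => hy h3.2
    · exact (hf.continuousAt.eventually_ne hfx).mono fun y hy h3 => hy h3.1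
  filter_upwards [he, h1] with y hy hy1
  exact (Gr_559.P1.rel_iff hy1 _).1 hy

/-! ### transport and the ambient space -/

/-- transport of a family along a homeomorphism -/
def tranH (h : X ≃ₜ Y) (G : Fam m Y) : Fam m X where
  ι := G.ι
  e i := h.toOpenPartialHomeomorph.trans (G.e i)
  cover x := by
    obtain ⟨i, hi⟩ := G.cover (h x)
    exact ⟨i, by simpa using hi⟩
  holo i j := by
    refine (G.holo i j).congr_mono (fun z hz => ?_) ?_
    · show G.e j (h (h.symm ((G.e i).symm z))) = _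
      rw [h.apply_symm_apply]
    · rintro z ⟨h1, h2⟩
      simp only [OpenPartialHomeomorph.trans_target, Homeomorph.toOpenPartialHomeomorph_target,
        preimage_univ, inter_univ] at h1
      refine ⟨h1, ?_⟩
      simpa using h2

theorem tranH_hol (h : X ≃ₜ Y) (G : Fam m Y) : HolC (tranH h G) G h := by
  refine (holC_iff_hfa h.continuous).2 fun x => ?_
  obtain ⟨i, hi⟩ := G.cover (h x)
  refine ⟨i, hi, ?_⟩
  exact hfa_chart (F := tranH h G) (i := i) (x := x) (by simpa [tranH] using hi)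

theorem tranH_symm_hol (h : X ≃ₜ Y) (G : Fam m Y) : HolC G (tranH h G) h.symm := by
  refine (holC_iff_hfa h.symm.continuous).2 fun y => ?_
  obtain ⟨i, hi⟩ := G.cover y
  refine ⟨i, by simpa [tranH] using hi, ?_⟩
  refine (hfa_chart (F := G) hi).congr (Eventually.of_forall fun z => ?_)
  show G.e i (h (h.symm z)) = _
  rw [h.apply_symm_apply]

/-- `Fin 2 → Y` -/
def twoFam (G : Fam m Y) : Fam (m + m) (Fin 2 → Y) :=
  tranH (Homeomorph.finTwoArrow (X := Y)) (prodFam G G)

variable {k : ℕ} {P : Type} [TopologicalSpace P] {E : Fam k P}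

theorem two_apply (i : Fin 2) : HolC (twoFam G) G (fun y => y i) := by
  have h := tranH_hol (Homeomorph.finTwoArrow (X := Y)) (prodFam G G)
  fin_cases i
  · exact prod_fst.comp h
  · exact prod_snd.comp h

theorem holC_two_iff {f : P → Fin 2 → Y} :
    HolC E (twoFam G) f ↔ ∀ i, HolC E G (fun x => f x i) := by
  constructor
  · exact fun h i => (two_apply i).comp h
  · intro h
    have h1 := (tranH_symm_hol (Homeomorph.finTwoArrow (X := Y)) (prodFam G G)).comp
      (prodMk (h 0) (h 1))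
    have h2 : (fun x => (Homeomorph.finTwoArrow (X := Y)).symm (f x 0, f x 1)) = f := by
      funext x
      exact (Homeomorph.finTwoArrow (X := Y)).symm_apply_apply (f x)
    rw [h2] at h1
    exact h1

open Crest.Agent.R272.Gr_559.GData (Amb)

/-- the ambient space `N × (Fin 2 → P1) × P1 × (Fin 2 → P1)` -/
def ambFam (F : Fam N X) : Fam (N + 5) (Amb X) :=
  prodFam F (prodFam (twoFam p1Fam) (prodFam p1Fam (twoFam p1Fam)))

theorem holC_amb_iff {f : P → Amb X} : HolC E (ambFam F) f ↔ HolC E F (fun x => (f x).1) ∧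
    (∀ i, HolC E p1Fam (fun x => (f x).2.1 i)) ∧ HolC E p1Fam (fun x => (f x).2.2.1) ∧
      ∀ i, HolC E p1Fam (fun x => (f x).2.2.2 i) := by
  have h : HolC E (ambFam F) f ↔
    HolC E (prodFam F (prodFam (twoFam p1Fam) (prodFam p1Fam (twoFam p1Fam)))) f := Iff.rfl
  rw [h, holC_prod_iff, holC_prod_iff, holC_prod_iff, holC_two_iff, holC_two_iff]

theorem amb_z : HolC (ambFam F) F (fun p => p.1) := (holC_amb_iff.1 (HolC.id _)).1

theorem amb_t (i : Fin 2) : HolC (ambFam F) p1Fam (fun p => p.2.1 i) :=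
  (holC_amb_iff.1 (HolC.id _)).2.1 i

theorem amb_v : HolC (ambFam F) p1Fam (fun p => p.2.2.1) := (holC_amb_iff.1 (HolC.id _)).2.2.1

theorem amb_k (i : Fin 2) : HolC (ambFam F) p1Fam (fun p => p.2.2.2 i) :=
  (holC_amb_iff.1 (HolC.id _)).2.2.2 i

end hol

end

end Crest.Agent.R272.P1A_54
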