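import Crest.Agent.R272.FamP_54

/-!
# R272 (S0415), MODEL tools (helper54): the projective line `P1 = OnePoint ℂ`

* `nn t`, `dd t` : numerator and denominator (`nn ∞ = 1`, `dd ∞ = 0`, `nn c = c`, `dd c = 1`);
* `hmk a b = [a : b]` (`∞` if `b = 0`), `hmk_iff : (a ≠ 0 ∨ b ≠ 0) → (a * dd t = b * nn t ↔ t = hmk a b)`;
* `ps s`, `pc s` (`s : Bool`) : the two coordinate discs (`false` : `t ≠ ∞`, coordinate `nn t / dd t`;
  `true` : `t ≠ 0`, coordinate `dd t / nn t`), `ln s c`, `ld s c` : homogeneous coordinates of the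
  point with coordinate `c`; `lift_rel`;
* `p1Fam : Fam 1 P1` (index type `Bool`);
* `isClosed_hom` : closedness of homogeneous relations between points of `P1` and a space;
* `hmk_holC`, `holC_p1_of`, `mulP` : holomorphic maps to `P1`.
-/

set_option autoImplicit false
set_option linter.unusedSectionVars false

open Set Filter Topology Complex OnePoint
namespace Crest.Agent.R272.P1F_54

open Crest.Agent.R275.Geo Crest.Agent.R273.Fam_835 Crest.Agent.R272.FamP_54

noncomputable section

/-- the projective line -/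
abbrev P1 : Type := OnePoint ℂ

/-- numerator -/
def nn (t : P1) : ℂ := t.elim 1 id

/-- denominator -/
def dd (t : P1) : ℂ := t.elim 0 fun _ => 1

@[simp] theorem nn_coe (c : ℂ) : nn (c : P1) = c := rfl

@[simp] theorem dd_coe (c : ℂ) : dd (c : P1) = 1 := rfl

@[simp] theorem nn_infty : nn ∞ = 1 := rfl

@[simp] theorem dd_infty : dd ∞ = 0 := rfl

theorem p1_cases (t : P1) : t = ∞ ∨ ∃ c : ℂ, t = (c : P1) := by
  induction t using OnePoint.rec with
  | infty => exact Or.inl rfl
  | coe c => exact Or.inr ⟨c, rfl⟩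

theorem dd_eq_zero {t : P1} : dd t = 0 ↔ t = ∞ := by
  rcases p1_cases t with rfl | ⟨c, rfl⟩
  · simp
  · simp

theorem nn_eq_zero {t : P1} : nn t = 0 ↔ t = ((0 : ℂ) : P1) := by
  rcases p1_cases t with rfl | ⟨c, rfl⟩
  · simp
  · simp

theorem nd_ne (t : P1) : nn t ≠ 0 ∨ dd t ≠ 0 := by
  rcases p1_cases t with rfl | ⟨c, rfl⟩
  · simp
  · simp

theorem dd_eq (t : P1) : dd t = 0 ∨ dd t = 1 := by
  rcases p1_cases t with rfl | ⟨c, rfl⟩
  · simp
  · simp

/-- `[a : b]` -/
def hmk (a b : ℂ) : P1 := open Classical in if b = 0 then ∞ else ((a / b : ℂ) : P1)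

theorem hmk_zero (a : ℂ) : hmk a 0 = ∞ := by simp [hmk]

theorem hmk_of_ne {a b : ℂ} (hb : b ≠ 0) : hmk a b = ((a / b : ℂ) : P1) := by simp [hmk, hb]

@[simp] theorem hmk_one (a : ℂ) : hmk a 1 = (a : P1) := by rw [hmk_of_ne one_ne_zero, div_one]

@[simp] theorem hmk_nn_dd (t : P1) : hmk (nn t) (dd t) = t := by
  rcases p1_cases t with rfl | ⟨c, rfl⟩
  · simp [hmk_zero]
  · simp

theorem hmk_iff {a b : ℂ} (h : a ≠ 0 ∨ b ≠ 0) (t : P1) :
    a * dd t = b * nn t ↔ t = hmk a b := by
  rcases p1_cases t with rfl | ⟨c, rfl⟩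
  · rw [nn_infty, dd_infty, mul_zero, mul_one]
    constructor
    · intro h1
      rw [← h1, hmk_zero]
    · intro h1
      by_contra h2
      rw [hmk_of_ne (Ne.symm h2)] at h1
      exact infty_ne_coe _ h1
  · rw [nn_coe, dd_coe, mul_one]
    by_cases hb : b = 0
    · subst hb
      rw [hmk_zero, zero_mul]
      constructor
      · intro h1
        rcases h with h | h
        · exact absurd h1 h
        · exact absurd rfl h
      · intro h1
        exact absurd h1 (coe_ne_infty _)
    · rw [hmk_of_ne hb, coe_eq_coe, eq_div_iff hb]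
      constructor
      · intro h1
        rw [h1, mul_comm]
      · intro h1
        rw [← h1, mul_comm]

theorem hmk_smul {c : ℂ} (hc : c ≠ 0) (a b : ℂ) : hmk (c * a) (c * b) = hmk a b := by
  by_cases hb : b = 0
  · subst hb
    rw [mul_zero, hmk_zero, hmk_zero]
  · rw [hmk_of_ne hb, hmk_of_ne (mul_ne_zero hc hb), mul_div_mul_left _ _ hc]

/-- the homogeneous coordinates of `[a : b]` are proportional to `(a, b)` -/
theorem hmk_rel {a b : ℂ} (h : a ≠ 0 ∨ b ≠ 0) :
    ∃ c : ℂ, c ≠ 0 ∧ a = c * nn (hmk a b) ∧ b = c * dd (hmk a b) := by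
  by_cases hb : b = 0
  · subst hb
    rw [hmk_zero]
    rcases h with h | h
    · exact ⟨a, h, by simp, by simp⟩
    · exact absurd rfl h
  · rw [hmk_of_ne hb]
    exact ⟨b, hb, by rw [nn_coe]; field_simp, by simp⟩

theorem hmk_eq_hmk {a b a' b' : ℂ} (h : a ≠ 0 ∨ b ≠ 0) (h' : a' ≠ 0 ∨ b' ≠ 0) :
    hmk a b = hmk a' b' ↔ a * b' = b * a' := by
  obtain ⟨c, hc, h1, h2⟩ := hmk_rel h'
  have h3 := hmk_iff h (hmk a' b')
  rw [eq_comm, ← h3]
  constructor
  · intro h4
    linear_combination c * h4 + a * h2 - b * h1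
  · intro h4
    refine mul_left_cancel₀ hc ?_
    linear_combination h4 - a * h2 + b * h1

theorem hmk_eq_infty {a b : ℂ} : hmk a b = ∞ ↔ b = 0 := by
  constructor
  · intro h
    by_contra hb
    rw [hmk_of_ne hb] at h
    exact coe_ne_infty _ h
  · rintro rfl
    exact hmk_zero a

theorem hmk_eq_zero {a b : ℂ} (h : a ≠ 0 ∨ b ≠ 0) : hmk a b = ((0 : ℂ) : P1) ↔ a = 0 := by
  rw [← hmk_one 0, hmk_eq_hmk h (Or.inr one_ne_zero)]
  simp

/-! ### coordinate discs -/

/-- the open set where the homogeneous coordinate number `s` does not vanish -/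
def ps (s : Bool) : Set P1 := {t | (if s then nn t else dd t) ≠ 0}

/-- the coordinate -/
def pc (s : Bool) (t : P1) : ℂ := if s then dd t / nn t else nn t / dd t

/-- first homogeneous coordinate of the point with coordinate `c` -/
def ln (s : Bool) (c : ℂ) : ℂ := if s then 1 else c

/-- second homogeneous coordinate of the point with coordinate `c` -/
def ld (s : Bool) (c : ℂ) : ℂ := if s then c else 1

/-- the point with coordinate `c` -/
def pinv (s : Bool) (c : ℂ) : P1 := hmk (ln s c) (ld s c)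

@[simp] theorem ln_false (c : ℂ) : ln false c = c := rfl
@[simp] theorem ln_true (c : ℂ) : ln true c = 1 := rfl
@[simp] theorem ld_false (c : ℂ) : ld false c = 1 := rfl
@[simp] theorem ld_true (c : ℂ) : ld true c = c := rfl

theorem pc_false (t : P1) : pc false t = nn t / dd t := rfl
theorem pc_true (t : P1) : pc true t = dd t / nn t := rfl
@[simp] theorem pc_false_coe (c : ℂ) : pc false (c : P1) = c := by simp [pc]
@[simp] theorem pc_true_coe (c : ℂ) : pc true (c : P1) = c⁻¹ := by simp [pc]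
@[simp] theorem pc_true_infty : pc true ∞ = 0 := by simp [pc]
@[simp] theorem pinv_false (c : ℂ) : pinv false c = (c : P1) := by simp [pinv]

theorem mem_ps_false {t : P1} : t ∈ ps false ↔ t ≠ ∞ := by
  rw [ne_eq, ← dd_eq_zero]; rfl

theorem mem_ps_true {t : P1} : t ∈ ps true ↔ t ≠ ((0 : ℂ) : P1) := by
  rw [ne_eq, ← nn_eq_zero]; rfl

theorem coe_mem_ps_false (c : ℂ) : (c : P1) ∈ ps false := mem_ps_false.2 (coe_ne_infty c)

theorem infty_mem_ps_true : (∞ : P1) ∈ ps true := mem_ps_true.2 (infty_ne_coe _)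

theorem lnd_ne (s : Bool) (c : ℂ) : ln s c ≠ 0 ∨ ld s c ≠ 0 := by
  cases s
  · exact Or.inr (by simp)
  · exact Or.inl (by simp)

theorem ps_cover (t : P1) : ∃ s, t ∈ ps s := by
  rcases nd_ne t with h | h
  · exact ⟨true, h⟩
  · exact ⟨false, h⟩

/-- the homogeneous coordinates in a coordinate disc -/
theorem lift_rel {s : Bool} {t : P1} (ht : t ∈ ps s) :
    ∃ c : ℂ, c ≠ 0 ∧ nn t = c * ln s (pc s t) ∧ dd t = c * ld s (pc s t) := by
  cases s
  · have h : dd t ≠ 0 := ht
    exact ⟨dd t, h, by rw [ln_false, pc_false]; field_simp, by simp⟩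
  · have h : nn t ≠ 0 := ht
    exact ⟨nn t, h, by simp, by rw [ld_true, pc_true]; field_simp⟩

theorem pinv_pc {s : Bool} {t : P1} (ht : t ∈ ps s) : pinv s (pc s t) = t := by
  obtain ⟨c, hc, h1, h2⟩ := lift_rel ht
  rw [pinv, ← hmk_smul hc, ← h1, ← h2, hmk_nn_dd]

theorem hmk_mem_ps {a b : ℂ} (h : a ≠ 0 ∨ b ≠ 0) (s : Bool) :
    hmk a b ∈ ps s ↔ (if s then a else b) ≠ 0 := by
  cases s
  · rw [mem_ps_false, ne_eq, hmk_eq_infty]; simp
  · rw [mem_ps_true, ne_eq, hmk_eq_zero h]; simp

/-- coordinate of `[a : b]` -/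
theorem pc_hmk {a b : ℂ} (s : Bool) (h : (if s then a else b) ≠ 0) :
    pc s (hmk a b) = if s then b / a else a / b := by
  cases s
  · have hb : b ≠ 0 := by simpa using h
    rw [hmk_of_ne hb]
    simp
  · have ha : a ≠ 0 := by simpa using h
    obtain ⟨c, hc, h1, h2⟩ := hmk_rel (b := b) (Or.inl ha)
    have hn : nn (hmk a b) ≠ 0 := by
      intro h0
      rw [h0, mul_zero] at h1
      exact ha h1
    rw [pc_true]
    simp only [if_true]
    rw [div_eq_div_iff hn ha]
    refine mul_left_cancel₀ hc ?_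
    linear_combination (c * dd (hmk a b)) * h1 - (c * nn (hmk a b)) * h2

theorem pinv_mem (s : Bool) (c : ℂ) : pinv s c ∈ ps s := by
  rw [pinv, hmk_mem_ps (lnd_ne s c)]
  cases s <;> simp

theorem pc_pinv (s : Bool) (c : ℂ) : pc s (pinv s c) = c := by
  rw [pinv, pc_hmk]
  · cases s <;> simp
  · cases s <;> simp

theorem isOpen_ps (s : Bool) : IsOpen (ps s) := by
  cases s
  · have h : ps false = {∞}ᶜ := by ext t; exact mem_ps_false
    rw [h]
    exact isOpen_compl_singleton
  · have h : ps true = {((0 : ℂ) : P1)}ᶜ := by ext t; exact mem_ps_true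
    rw [h]
    exact isOpen_compl_singleton

theorem continuousAt_pc {s : Bool} {t : P1} (ht : t ∈ ps s) : ContinuousAt (pc s) t := by
  cases s
  · obtain ⟨c, rfl⟩ := ne_infty_iff_exists.1 (mem_ps_false.1 ht)
    rw [continuousAt_coe]
    have h : pc false ∘ (fun c : ℂ => (c : P1)) = id := by funext c; simp
    rw [h]
    exact continuousAt_id
  · rcases p1_cases t with rfl | ⟨c, rfl⟩
    · rw [continuousAt_infty', pc_true_infty]
      have h : pc true ∘ (fun c : ℂ => (c : P1)) = fun c => c⁻¹ := by funext c; simp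
      rw [h, coclosedCompact_eq_cocompact, ← Metric.cobounded_eq_cocompact]
      exact tendsto_inv₀_cobounded
    · have hc : c ≠ 0 := by
        rintro rfl
        exact mem_ps_true.1 ht rfl
      rw [continuousAt_coe]
      have h : pc true ∘ (fun c : ℂ => (c : P1)) = fun c => c⁻¹ := by funext c; simp
      rw [h]
      exact continuousAt_inv₀ hc

theorem continuousOn_pc (s : Bool) : ContinuousOn (pc s) (ps s) :=
  fun _ ht => (continuousAt_pc ht).continuousWithinAt

/-- `hmk` is continuous off the origin -/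
theorem continuousAt_hmk {a b : ℂ} (h : a ≠ 0 ∨ b ≠ 0) :
    ContinuousAt (fun p : ℂ × ℂ => hmk p.1 p.2) (a, b) := by
  by_cases hb : b = 0
  · subst hb
    have ha : a ≠ 0 := by
      rcases h with h | h
      · exact h
      · exact absurd rfl h
    rw [ContinuousAt, hmk_zero]
    have h1 : Tendsto (fun p : ℂ × ℂ => p.2 / p.1) (𝓝 (a, 0)) (𝓝 0) := by
      have h2 : ContinuousAt (fun p : ℂ × ℂ => p.2 / p.1) (a, 0) :=
        continuousAt_snd.div continuousAt_fst ha
      have h3 : ((a, 0) : ℂ × ℂ).2 / ((a, 0) : ℂ × ℂ).1 = 0 := by simp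
      rw [ContinuousAt, h3] at h2
      exact h2
    have h4 : Tendsto (fun c : ℂ => hmk 1 c) (𝓝 0) (𝓝 (∞ : P1)) := by
      rw [← nhdsNE_sup_pure, tendsto_sup]
      constructor
      · have h5 : Tendsto (fun c : ℂ => ((c⁻¹ : ℂ) : P1)) (𝓝[≠] 0) (𝓝 (∞ : P1)) := by
          refine (tendsto_coe_infty (X := ℂ)).comp ?_
          rw [coclosedCompact_eq_cocompact, ← Metric.cobounded_eq_cocompact]
          exact tendsto_inv₀_nhdsNE_zero
        refine h5.congr' ?_
        filter_upwards [self_mem_nhdsWithin] with c hc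
        rw [hmk_of_ne hc, one_div]
      · rw [tendsto_pure_left]
        intro s hs
        rw [hmk_zero]
        exact mem_of_mem_nhds hs
    refine (h4.comp h1).congr' ?_
    have h6 : ∀ᶠ p : ℂ × ℂ in 𝓝 (a, 0), p.1 ≠ 0 :=
      continuousAt_fst.eventually_ne ha
    filter_upwards [h6] with p hp
    simp only [Function.comp]
    rw [← hmk_smul hp, mul_one]
    congr 1
    field_simp
  · have h1 : ContinuousAt (fun p : ℂ × ℂ => ((p.1 / p.2 : ℂ) : P1)) (a, b) :=
      ContinuousAt.comp (g := fun c : ℂ => (c : P1)) continuous_coe.continuousAt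
        (continuousAt_fst.div continuousAt_snd hb)
    refine h1.congr ?_
    have h6 : ∀ᶠ p : ℂ × ℂ in 𝓝 (a, b), p.2 ≠ 0 :=
      continuousAt_snd.eventually_ne hb
    filter_upwards [h6] with p hp
    rw [hmk_of_ne hp]

theorem ContinuousAt.hmk {Z : Type*} [TopologicalSpace Z] {f g : Z → ℂ} {z : Z}
    (hf : ContinuousAt f z) (hg : ContinuousAt g z) (h : f z ≠ 0 ∨ g z ≠ 0) :
    ContinuousAt (fun z => hmk (f z) (g z)) z :=
  ContinuousAt.comp (g := fun p : ℂ × ℂ => P1F_54.hmk p.1 p.2) (f := fun z => (f z, g z))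
    (continuousAt_hmk h) (hf.prodMk hg)

theorem continuous_ln (s : Bool) : Continuous (ln s) := by
  cases s
  · exact continuous_id
  · exact continuous_const

theorem continuous_ld (s : Bool) : Continuous (ld s) := by
  cases s
  · exact continuous_const
  · exact continuous_id

theorem differentiable_ln (s : Bool) : Differentiable ℂ (ln s) := by
  cases s
  · exact differentiable_id
  · exact differentiable_const _

theorem differentiable_ld (s : Bool) : Differentiable ℂ (ld s) := by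
  cases s
  · exact differentiable_const _
  · exact differentiable_id

theorem continuous_pinv (s : Bool) : Continuous (pinv s) :=
  continuous_iff_continuousAt.2 fun c => ContinuousAt.hmk (continuous_ln s).continuousAt
    (continuous_ld s).continuousAt (lnd_ne s c)

/-- the chart -/
def pch (s : Bool) : OpenPartialHomeomorph P1 (Cn 1) where
  toFun t := oneL (pc s t)
  invFun z := pinv s (z 0)
  source := ps s
  target := univ
  map_source' _ _ := trivial
  map_target' z _ := pinv_mem s _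
  left_inv' t ht := pinv_pc ht
  right_inv' z _ := by
    show oneL (pc s (pinv s (z 0))) = z
    rw [pc_pinv]
    ext a
    fin_cases a
    rfl
  open_source := isOpen_ps s
  open_target := isOpen_univ
  continuousOn_toFun := oneL.continuous.comp_continuousOn (continuousOn_pc s)
  continuousOn_invFun := ((continuous_pinv s).comp
    (oneL.symm : Cn 1 ≃L[ℂ] ℂ).continuous).continuousOn

@[simp] theorem pch_apply (s : Bool) (t : P1) : pch s t = oneL (pc s t) := rfl

@[simp] theorem pch_symm (s : Bool) (z : Cn 1) : (pch s).symm z = pinv s (z 0) := rfl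

@[simp] theorem pch_source (s : Bool) : (pch s).source = ps s := rfl

@[simp] theorem pch_target (s : Bool) : (pch s).target = univ := rfl

theorem diffAt_trans (s s' : Bool) {c : ℂ} (h : pinv s c ∈ ps s') :
    DifferentiableAt ℂ (fun c => pc s' (pinv s c)) c := by
  have h1 : (if s' then ln s c else ld s c) ≠ 0 := (hmk_mem_ps (lnd_ne s c) s').1 h
  have h2 : ∀ᶠ c' in 𝓝 c, (if s' then ln s c' else ld s c') ≠ 0 := by
    cases s'
    · exact (continuous_ld s).continuousAt.eventually_ne h1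
    · exact (continuous_ln s).continuousAt.eventually_ne h1
  have h3 : DifferentiableAt ℂ (fun c => if s' then ld s c / ln s c else ln s c / ld s c) c := by
    cases s'
    · exact (differentiable_ln s).differentiableAt.fun_div
        (differentiable_ld s).differentiableAt h1
    · exact (differentiable_ld s).differentiableAt.fun_div
        (differentiable_ln s).differentiableAt h1
  refine h3.congr_of_eventuallyEq ?_
  filter_upwards [h2] with c' hc'
  exact pc_hmk s' hc'

/-- `P1` as a complex manifold -/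
def p1Fam : Fam 1 P1 where
  ι := Bool
  e := pch
  cover := ps_cover
  holo s s' := by
    rintro z ⟨-, hz⟩
    refine DifferentiableAt.differentiableWithinAt ?_
    have h1 : DifferentiableAt ℂ (fun c => pc s' (pinv s c)) (oneL.symm z) := diffAt_trans s s' hz
    have h2 : DifferentiableAt ℂ (fun z : Cn 1 => pc s' (pinv s (oneL.symm z))) z :=
      DifferentiableAt.comp z (g := fun c => pc s' (pinv s c)) h1
        (oneL.symm : Cn 1 ≃L[ℂ] ℂ).differentiableAt
    exact DifferentiableAt.comp z (g := oneL) oneL.differentiableAt h2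

@[simp] theorem p1Fam_e (s : Bool) : p1Fam.e s = pch s := rfl

theorem hf_pc (s : Bool) : HF p1Fam (ps s) (pc s) := by
  intro t ht
  refine HFA.of (F := p1Fam) s ht ?_
  have h1 : DifferentiableAt ℂ (fun z : Cn 1 => z 0) (pch s t) :=
    (oneL.symm : Cn 1 ≃L[ℂ] ℂ).differentiableAt
  refine h1.congr_of_eventuallyEq (Eventually.of_forall fun z => ?_)
  exact pc_pinv s _

/-! ### holomorphic maps to `P1` -/

section maps

variable {N : ℕ} {X : Type} [TopologicalSpace X] {F : Fam N X}

theorem hfa_pc_hmk {f g : X → ℂ} {x : X} (hf : HFA F f x) (hg : HFA F g x) (s : Bool)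
    (h : (if s then f x else g x) ≠ 0) : HFA F (fun y => pc s (hmk (f y) (g y))) x := by
  cases s
  · have h1 : g x ≠ 0 := by simpa using h
    refine (hf.div hg h1).congr ?_
    filter_upwards [hg.continuousAt.eventually_ne h1] with y hy
    simpa using pc_hmk (a := f y) (b := g y) false (by simpa using hy)
  · have h1 : f x ≠ 0 := by simpa using h
    refine (hg.div hf h1).congr ?_
    filter_upwards [hf.continuousAt.eventually_ne h1] with y hy
    simpa using pc_hmk (a := f y) (b := g y) true (by simpa using hy)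

/-- a map to `P1` which is locally of the form `[f : g]` is holomorphic -/
theorem holC_p1_of {p : X → P1} (h : ∀ x, ∃ f g : X → ℂ, HFA F f x ∧ HFA F g x ∧
    (f x ≠ 0 ∨ g x ≠ 0) ∧ ∀ᶠ y in 𝓝 x, p y = hmk (f y) (g y)) : HolC F p1Fam p := by
  have hc : Continuous p := continuous_iff_continuousAt.2 fun x => by
    obtain ⟨f, g, hf, hg, h0, he⟩ := h x
    exact (ContinuousAt.hmk hf.continuousAt hg.continuousAt h0).congr
      (he.mono fun y hy => hy.symm)
  refine (holC_iff_hfa hc).2 fun x => ?_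
  obtain ⟨f, g, hf, hg, h0, he⟩ := h x
  obtain ⟨s, hs⟩ := ps_cover (p x)
  refine ⟨s, hs, ?_⟩
  have h1 : (if s then f x else g x) ≠ 0 := by
    rw [he.self_of_nhds] at hs
    exact (hmk_mem_ps h0 s).1 hs
  refine HFA.comp_left (g := oneL) (f := fun y => pc s (p y)) oneL.differentiableAt ?_
  exact (hfa_pc_hmk hf hg s h1).congr (he.mono fun y hy => by rw [hy])

theorem hmk_holC {f g : X → ℂ} (hf : HF F univ f) (hg : HF F univ g)
    (h0 : ∀ x, f x ≠ 0 ∨ g x ≠ 0) : HolC F p1Fam (fun x => hmk (f x) (g x)) :=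
  holC_p1_of fun x => ⟨f, g, hf x trivial, hg x trivial, h0 x, Eventually.of_forall fun _ => rfl⟩

/-- every holomorphic map to `P1` has local homogeneous coordinates -/
theorem HolC.exists_lift {p : X → P1} (hp : HolC F p1Fam p) (x : X) :
    ∃ f g : X → ℂ, (∀ᶠ y in 𝓝 x, HFA F f y) ∧ (∀ᶠ y in 𝓝 x, HFA F g y) ∧
      (∀ y, f y ≠ 0 ∨ g y ≠ 0) ∧ ∀ᶠ y in 𝓝 x, p y = hmk (f y) (g y) := by
  obtain ⟨s, hs⟩ := ps_cover (p x)
  have h1 : ∀ᶠ y in 𝓝 x, p y ∈ ps s :=
    hp.cont.continuousAt.preimage_mem_nhds ((isOpen_ps s).mem_nhds hs)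
  refine ⟨fun y => ln s (pc s (p y)), fun y => ld s (pc s (p y)), ?_, ?_,
    fun y => lnd_ne s _, ?_⟩
  · filter_upwards [h1] with y hy
    exact HFA.comp_left (g := ln s) (differentiable_ln s).differentiableAt
      (HFA.comp_right (hf_pc s _ hy) hp)
  · filter_upwards [h1] with y hy
    exact HFA.comp_left (g := ld s) (differentiable_ld s).differentiableAt
      (HFA.comp_right (hf_pc s _ hy) hp)
  · filter_upwards [h1] with y hy
    exact (pinv_pc hy).symm

/-- the holomorphic action `t ↦ [a nn t : b dd t]` -/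
def mulP (a b : ℂ) (t : P1) : P1 := hmk (a * nn t) (b * dd t)

theorem mulP_ne {a b : ℂ} (ha : a ≠ 0) (hb : b ≠ 0) (t : P1) :
    a * nn t ≠ 0 ∨ b * dd t ≠ 0 := by
  rcases nd_ne t with h | h
  · exact Or.inl (mul_ne_zero ha h)
  · exact Or.inr (mul_ne_zero hb h)

/-- `mulP` on homogeneous coordinates -/
theorem mulP_hmk (a b : ℂ) {x y : ℂ} (h : x ≠ 0 ∨ y ≠ 0) :
    mulP a b (hmk x y) = hmk (a * x) (b * y) := by
  obtain ⟨c, hc, h1, h2⟩ := hmk_rel h
  rw [mulP, ← hmk_smul hc]
  congr 1
  · rw [← mul_assoc, mul_comm c a, mul_assoc, ← h1]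
  · rw [← mul_assoc, mul_comm c b, mul_assoc, ← h2]

theorem mulP_mulP (a b : ℂ) {a' b' : ℂ} (ha' : a' ≠ 0) (hb' : b' ≠ 0)
    (t : P1) : mulP a b (mulP a' b' t) = mulP (a * a') (b * b') t := by
  show mulP a b (hmk (a' * nn t) (b' * dd t)) = _
  rw [mulP_hmk a b (mulP_ne ha' hb' t), mulP, mul_assoc, mul_assoc]

@[simp] theorem mulP_one (t : P1) : mulP 1 1 t = t := by simp [mulP]

theorem mulP_scale {c : ℂ} (hc : c ≠ 0) (t : P1) : mulP c c t = t := by
  rw [mulP, hmk_smul hc, hmk_nn_dd]

/-- the homogeneous coordinates of `mulP a b t` -/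
theorem mulP_rel {a b : ℂ} (ha : a ≠ 0) (hb : b ≠ 0) (t : P1) :
    ∃ c : ℂ, c ≠ 0 ∧ a * nn t = c * nn (mulP a b t) ∧ b * dd t = c * dd (mulP a b t) :=
  hmk_rel (mulP_ne ha hb t)

theorem mulP_holC {a b : X → ℂ} {p : X → P1} (ha : HF F univ a) (hb : HF F univ b)
    (ha0 : ∀ x, a x ≠ 0) (hb0 : ∀ x, b x ≠ 0) (hp : HolC F p1Fam p) :
    HolC F p1Fam (fun x => mulP (a x) (b x) (p x)) := by
  refine holC_p1_of fun x => ?_
  obtain ⟨f, g, hf, hg, h0, he⟩ := HolC.exists_lift hp x
  refine ⟨fun y => a y * f y, fun y => b y * g y, (ha x trivial).mul hf.self_of_nhds,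
    (hb x trivial).mul hg.self_of_nhds, ?_, ?_⟩
  · rcases h0 x with h | h
    · exact Or.inl (mul_ne_zero (ha0 x) h)
    · exact Or.inr (mul_ne_zero (hb0 x) h)
  · filter_upwards [he] with y hy
    rw [hy, mulP_hmk _ _ (h0 y)]

end maps

/-! ### closed homogeneous relations -/

/-- homogeneous relations between points of `P1` and a topological space are closed -/
theorem isClosed_hom {Z : Type*} [TopologicalSpace Z] {r : ℕ} (T : Z → Fin r → P1)
    (hT : ∀ i, Continuous fun z => T z i) {Y : Type*} [TopologicalSpace Y] [T1Space Y] (y₀ : Y)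
    (Φ : Z → (Fin r → ℂ × ℂ) → Y) (hΦ : Continuous fun p : Z × (Fin r → ℂ × ℂ) => Φ p.1 p.2)
    (hh : ∀ z (v : Fin r → ℂ × ℂ) (c : Fin r → ℂ), (∀ i, c i ≠ 0) →
      (Φ z (fun i => (c i * (v i).1, c i * (v i).2)) = y₀ ↔ Φ z v = y₀)) :
    IsClosed {z | Φ z (fun i => (nn (T z i), dd (T z i))) = y₀} := by
  rw [← isOpen_compl_iff, isOpen_iff_mem_nhds]
  intro z hz
  choose s hs using fun i => ps_cover (T z i)
  have h1 : ∀ᶠ w in 𝓝 z, ∀ i, T w i ∈ ps (s i) :=
    eventually_all.2 fun i => (hT i).continuousAt.preimage_mem_nhds ((isOpen_ps _).mem_nhds (hs i))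
  have key : ∀ w, (∀ i, T w i ∈ ps (s i)) →
      (Φ w (fun i => (nn (T w i), dd (T w i))) = y₀ ↔
        Φ w (fun i => (ln (s i) (pc (s i) (T w i)), ld (s i) (pc (s i) (T w i)))) = y₀) := by
    intro w hw
    choose c hc h2 h3 using fun i => lift_rel (hw i)
    have h7 : (fun i => (nn (T w i), dd (T w i))) =
        fun i => (c i * ln (s i) (pc (s i) (T w i)), c i * ld (s i) (pc (s i) (T w i))) := by
      funext i
      rw [← h2 i, ← h3 i]
    rw [h7]
    exact hh w (fun i => (ln (s i) (pc (s i) (T w i)), ld (s i) (pc (s i) (T w i)))) c hc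
  have h4 : Φ z (fun i => (ln (s i) (pc (s i) (T z i)), ld (s i) (pc (s i) (T z i)))) ≠ y₀ :=
    fun h => hz ((key z hs).2 h)
  have h5 : ContinuousAt (fun w => Φ w (fun i => (ln (s i) (pc (s i) (T w i)),
      ld (s i) (pc (s i) (T w i))))) z := by
    refine ContinuousAt.comp (g := fun p : Z × (Fin r → ℂ × ℂ) => Φ p.1 p.2)
      (f := fun w => (w, fun i => (ln (s i) (pc (s i) (T w i)), ld (s i) (pc (s i) (T w i)))))
      hΦ.continuousAt (continuousAt_id.prodMk (continuousAt_pi.2 fun i => ?_))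
    have h6 : ContinuousAt (fun w => pc (s i) (T w i)) z :=
      ContinuousAt.comp (g := pc (s i)) (continuousAt_pc (hs i)) (hT i).continuousAt
    exact ((continuous_ln (s i)).continuousAt.comp h6).prodMk
      ((continuous_ld (s i)).continuousAt.comp h6)
  filter_upwards [h1, h5.eventually_ne h4] with w hw hw2 hw3
  exact hw2 ((key w hw).1 hw3)

/-- one point of `P1` -/
theorem isClosed_hom1 {Z : Type*} [TopologicalSpace Z] {t : Z → P1} (ht : Continuous t)
    {Y : Type*} [TopologicalSpace Y] [T1Space Y] (y₀ : Y)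
    (Φ : Z → ℂ → ℂ → Y) (hΦ : Continuous fun p : Z × ℂ × ℂ => Φ p.1 p.2.1 p.2.2)
    (hh : ∀ z a b c, c ≠ 0 → (Φ z (c * a) (c * b) = y₀ ↔ Φ z a b = y₀)) :
    IsClosed {z | Φ z (nn (t z)) (dd (t z)) = y₀} := by
  refine isClosed_hom (r := 1) (fun z _ => t z) (fun _ => ht) y₀
    (fun z v => Φ z (v 0).1 (v 0).2) ?_ ?_
  · exact hΦ.comp (continuous_fst.prodMk ((continuous_fst.comp ((continuous_apply 0).comp
      continuous_snd)).prodMk (continuous_snd.comp ((continuous_apply 0).comp continuous_snd))))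
  · intro z v c hc
    exact hh z _ _ _ (hc 0)

/-- two points of `P1` -/
theorem isClosed_hom2 {Z : Type*} [TopologicalSpace Z] {t k : Z → P1} (ht : Continuous t)
    (hk : Continuous k) {Y : Type*} [TopologicalSpace Y] [T1Space Y] (y₀ : Y)
    (Φ : Z → ℂ → ℂ → ℂ → ℂ → Y)
    (hΦ : Continuous fun p : Z × (ℂ × ℂ) × (ℂ × ℂ) => Φ p.1 p.2.1.1 p.2.1.2 p.2.2.1 p.2.2.2)
    (hh : ∀ z a b a' b' c c', c ≠ 0 → c' ≠ 0 →
      (Φ z (c * a) (c * b) (c' * a') (c' * b') = y₀ ↔ Φ z a b a' b' = y₀)) :
    IsClosed {z | Φ z (nn (t z)) (dd (t z)) (nn (k z)) (dd (k z)) = y₀} := by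
  refine isClosed_hom (r := 2) (fun z => ![t z, k z]) ?_ y₀
    (fun z v => Φ z (v 0).1 (v 0).2 (v 1).1 (v 1).2) ?_ ?_
  · intro i
    fin_cases i
    · exact ht
    · exact hk
  · have h0 : Continuous fun p : Z × (Fin 2 → ℂ × ℂ) => p.2 0 :=
      (continuous_apply 0).comp continuous_snd
    have h1 : Continuous fun p : Z × (Fin 2 → ℂ × ℂ) => p.2 1 :=
      (continuous_apply 1).comp continuous_snd
    exact hΦ.comp (continuous_fst.prodMk (h0.prodMk h1))
  · intro z v c hc
    exact hh z _ _ _ _ _ _ (hc 0) (hc 1)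

/-- `{z | a z * dd (t z) = b z * nn (t z)}` is closed -/
theorem isClosed_rel {Z : Type*} [TopologicalSpace Z] {t : Z → P1} (ht : Continuous t)
    {a b : Z → ℂ} (ha : Continuous a) (hb : Continuous b) :
    IsClosed {z | a z * dd (t z) = b z * nn (t z)} := by
  have h := isClosed_hom1 ht (0 : ℂ) (fun z x y => a z * y - b z * x) (by fun_prop)
    (fun z x y c hc => by
      rw [show a z * (c * y) - b z * (c * x) = c * (a z * y - b z * x) by ring]
      simp [hc])
  simpa only [sub_eq_zero] using h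

/-- `{z | nn (k z) ^ 2 * a z = dd (k z) ^ 2 * b z}` is closed -/
theorem isClosed_sq {Z : Type*} [TopologicalSpace Z] {k : Z → P1} (hk : Continuous k)
    {a b : Z → ℂ} (ha : Continuous a) (hb : Continuous b) :
    IsClosed {z | nn (k z) ^ 2 * a z = dd (k z) ^ 2 * b z} := by
  have h := isClosed_hom1 hk (0 : ℂ) (fun z x y => x ^ 2 * a z - y ^ 2 * b z) (by fun_prop)
    (fun z x y c hc => by
      rw [show (c * x) ^ 2 * a z - (c * y) ^ 2 * b z = c ^ 2 * (x ^ 2 * a z - y ^ 2 * b z) by ring]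
      simp [hc])
  simpa only [sub_eq_zero] using h

example : CompactSpace P1 := inferInstance
example : T2Space P1 := inferInstance
example : ConnectedSpace P1 := inferInstance

end

end Crest.Agent.R272.P1F_54
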