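import Crest.Agent.R272.CB4_232

/-!
# R272, task POS-END (helper732), part 1: uniform twist

`pos_twist` : `L` positive near every fibre of `p : X → N` (compact spaces), `D` any bundle with a metric
⟹ one `m₀` with `L^m ⊗ D` positive near every fibre for all `m ≥ m₀`.
-/

set_option autoImplicit false
set_option linter.unusedSectionVars false
set_option linter.unusedVariables false

open Set Filter Topology Complex
open scoped ContDiff Matrix ComplexConjugate Manifold

namespace Crest.Agent.R272.PEnd_732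

open Crest.Agent.R275.Geo Crest.Agent.R275.Core144 Crest.Agent.R275.GC293
open Crest.Agent.R273 Crest.Agent.R273.Defs_333 Crest.Agent.R273.Map_835
open Crest.Agent.R273.Fam_835
open Crest.Agent.R272.Quot_783 Crest.Agent.R272.PosGlue_232 Crest.Agent.R272.CB_232

noncomputable section

variable {n m : ℕ} {X N : Type} [TopologicalSpace X] [TopologicalSpace N]
  {C : Fam n X} {p : X → N} {U V W : Set X}

/-- neighbourhoods of fibres of a map between compact spaces -/
theorem tube [CompactSpace X] [T2Space N] (hp : Continuous p) {W : Set X} (hW : IsOpen W) {q : N}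
    (hq : p ⁻¹' {q} ⊆ W) : ∃ U : Set N, IsOpen U ∧ q ∈ U ∧ p ⁻¹' U ⊆ W := by
  refine ⟨(p '' Wᶜ)ᶜ, ((hW.isClosed_compl.isCompact).image hp).isClosed.isOpen_compl, ?_, ?_⟩
  · rintro ⟨x, hx, rfl⟩
    exact hx (hq rfl)
  · intro x hx
    by_contra hxW
    exact hx ⟨x, hxW, rfl⟩

theorem posAtC_mono {L : CBo C U} {h : Met L W} (hV : V ⊆ W) {x : X} (hp : PosAtC h x) :
    PosAtC (h.mono hV) x := fun a j ha hj v hv => hp a j ha hj v hv

/-- **uniform twist** -/
theorem pos_twist [CompactSpace X] [T2Space X] [CompactSpace N] [T2Space N] (hp : Continuous p)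
    (L D : CB C) (hD : Nonempty (Met D univ)) (hloc : ∀ q, PosNear L (p ⁻¹' {q})) :
    ∃ m₀ : ℕ, ∀ m : ℕ, m₀ ≤ m → ∀ q, PosNear ((L.zpow m).tens D) (p ⁻¹' {q}) := by
  obtain ⟨hD⟩ := hD
  have key : ∀ q : N, ∃ F : Set N, IsOpen F ∧ q ∈ F ∧ ∃ k : ℕ, ∀ m : ℕ, k ≤ m → ∀ q' ∈ F,
      PosNear ((L.zpow m).tens D) (p ⁻¹' {q'}) := by
    intro q
    obtain ⟨W, hW, hqW, h, hh⟩ := hloc q
    obtain ⟨U, hU, hqU, hUW⟩ := tube hp hW hqW
    obtain ⟨F, hFc, hqF, hFU⟩ := exists_compact_subset hU hqU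
    have hK : IsCompact (p ⁻¹' F) := (hFc.isClosed.preimage hp).isCompact
    have hKW : p ⁻¹' F ⊆ W := (preimage_mono hFU).trans hUW
    obtain ⟨k, hk⟩ := exists_posAtC hW h (hD.mono (subset_univ W)) hh hK hKW (subset_univ _)
    refine ⟨interior F, isOpen_interior, hqF, k, fun m hm q' hq' => ?_⟩
    have hV : p ⁻¹' interior F ⊆ W := (preimage_mono interior_subset).trans hKW
    refine ⟨p ⁻¹' interior F, isOpen_interior.preimage hp, ?_,
      ((h.npow m).tens (hD.mono (subset_univ W))).mono hV, fun x hx => ?_⟩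
    · rintro x rfl
      exact hq'
    · exact posAtC_mono hV (hk m hm x (show p x ∈ F from interior_subset (show p x ∈ interior F from hx)))
  choose F hF hqF k hk using key
  obtain ⟨t, ht⟩ := isCompact_univ.elim_finite_subcover F hF
    (fun q _ => mem_iUnion.2 ⟨q, hqF q⟩)
  refine ⟨t.sup k, fun m hm q => ?_⟩
  obtain ⟨q', hq't, hq'⟩ := mem_iUnion₂.1 (ht (mem_univ q))
  exact hk q' m ((Finset.le_sup hq't).trans hm) q hq'

end

end Crest.Agent.R272.PEnd_732
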