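import Crest.Agent.R272.CB6_232

/-!
# R272, task POS-END (helper732), part 2: products and powers of local equations, ideals from generators

`Eqs.mul`, `Eqs.pow` (holomorphic equations), isomorphisms of the ideals; `Eqs.ofGen`: the invertible ideal
generated by finitely many functions `Φ i = γ * ψ i`.
-/

set_option autoImplicit false
set_option linter.unusedSectionVars false
set_option linter.unusedVariables false

open Set Filter Topology Complex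
open scoped ContDiff Matrix ComplexConjugate Manifold

namespace Crest.Agent.R272.PEnd_732

open Crest.Agent.R275.Geo Crest.Agent.R275.Core144 Crest.Agent.R275.GC293
open Crest.Agent.R273 Crest.Agent.R273.Defs_333 Crest.Agent.R273.Map_835
open Crest.Agent.R273.Fam_835
open Crest.Agent.R272.Quot_783 Crest.Agent.R272.PosGlue_232 Crest.Agent.R272.CB_232

noncomputable section

variable {n m : ℕ} {X N : Type} [TopologicalSpace X] [TopologicalSpace N]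
  {C : Fam n X} {U V W : Set X}

/-- holomorphic local equations -/
def HolE (E : Eqs C U) : Prop := ∀ a, HolF C (E.V a) (E.f a)

theorem dense_mul {V : Set X} (hV : IsOpen V) {f g : X → ℂ} (hf : ContinuousOn f V)
    (h1 : V ⊆ closure {x | f x ≠ 0}) (h2 : V ⊆ closure {x | g x ≠ 0}) :
    V ⊆ closure {x | f x * g x ≠ 0} := by
  intro x hx
  rw [mem_closure_iff]
  intro O hO hxO
  obtain ⟨y, hy, hfy⟩ := mem_closure_iff.1 (h1 hx) (O ∩ V) (hO.inter hV) ⟨hxO, hx⟩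
  have ho : IsOpen (V ∩ f ⁻¹' {z | z ≠ 0}) := hf.isOpen_inter_preimage hV isOpen_ne
  obtain ⟨z, hz, hgz⟩ := mem_closure_iff.1 (h2 hy.2) (O ∩ (V ∩ f ⁻¹' {z | z ≠ 0}))
    (hO.inter ho) ⟨hy.1, hy.2, hfy⟩
  exact ⟨z, hz.1, mul_ne_zero hz.2.2 hgz⟩

theorem holF_contOn (hU : IsOpen U) {F : X → ℂ} (hF : HolF C U F) : ContinuousOn F U :=
  fun _ hx => (holF_contAt hU hF hx).continuousWithinAt

/-- product of local equations -/
def emul (E F : Eqs C U) (hE : HolE E) : Eqs C U where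
  α := E.α × F.α
  V a := E.V a.1 ∩ F.V a.2
  op a := (E.op a.1).inter (F.op a.2)
  cov x hx := by
    obtain ⟨a, ha⟩ := E.cov x hx
    obtain ⟨b, hb⟩ := F.cov x hx
    exact ⟨(a, b), ha, hb⟩
  f a x := E.f a.1 x * F.f a.2 x
  dense a := dense_mul ((E.op a.1).inter (F.op a.2))
    ((holF_contOn (E.op a.1) (hE a.1)).mono inter_subset_left)
    (inter_subset_left.trans (E.dense a.1)) (inter_subset_right.trans (F.dense a.2))
  loc a b x hx := by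
    obtain ⟨W₁, hW₁, hx₁, u₁, hu₁, h0₁, he₁⟩ := E.loc a.1 b.1 x ⟨hx.1.1, hx.2.1⟩
    obtain ⟨W₂, hW₂, hx₂, u₂, hu₂, h0₂, he₂⟩ := F.loc a.2 b.2 x ⟨hx.1.2, hx.2.2⟩
    refine ⟨W₁ ∩ W₂, hW₁.inter hW₂, ⟨hx₁, hx₂⟩, fun y => u₁ y * u₂ y,
      holF_mul (holF_mono hu₁ inter_subset_left) (holF_mono hu₂ inter_subset_right),
      fun y hy => mul_ne_zero (h0₁ y hy.1) (h0₂ y hy.2), fun y hy => ?_⟩
    rw [he₁ y hy.1, he₂ y hy.2]
    ring

theorem holE_mul {E F : Eqs C U} (hE : HolE E) (hF : HolE F) : HolE (emul E F hE) := fun a =>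
  holF_mul (holF_mono (hE a.1) inter_subset_left) (holF_mono (hF a.2) inter_subset_right)

/-- powers of local equations -/
def epow (E : Eqs C U) (k : ℕ) : Eqs C U where
  α := E.α
  V := E.V
  op := E.op
  cov := E.cov
  f a x := E.f a x ^ k
  dense a := E.dense_pow k a
  loc a b x hx := by
    obtain ⟨W₁, hW₁, hx₁, u₁, hu₁, h0₁, he₁⟩ := E.loc a b x hx
    refine ⟨W₁, hW₁, hx₁, fun y => u₁ y ^ k, holF_pow hu₁ k, fun y hy => pow_ne_zero k (h0₁ y hy),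
      fun y hy => ?_⟩
    rw [he₁ y hy]
    ring

theorem holE_pow {E : Eqs C U} (hE : HolE E) (k : ℕ) : HolE (epow E k) := fun a => holF_pow (hE a) k

theorem idl_g (E : Eqs C U) (k : ℕ) {a b : E.α} {x : X} (hx : x ∈ E.V a ∩ E.V b) {W : Set X}
    (hW : IsOpen W) (hxW : x ∈ W) {u : X → ℂ} (hu : HolF C W u)
    (he : ∀ y ∈ W, E.f a y = u y * E.f b y) : (E.idl k).g a b x = (u x ^ k)⁻¹ := by
  show E.cb.g a b x ^ (-(k : ℤ)) = _
  rw [E.g_eq hx hW hxW hu he, zpow_neg, zpow_natCast]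

/-- the ideal of a product -/
def isoMul (E F : Eqs C U) (hE : HolE E) (k l : ℕ) (W : Set X) :
    IsoOn ((emul (epow E k) (epow F l) (holE_pow hE k)).idl 1) ((E.idl k).tens (F.idl l)) W :=
  IsoOn.ofSub (L := (emul (epow E k) (epow F l) (holE_pow hE k)).idl 1)
    (L' := (E.idl k).tens (F.idl l)) (fun a => a) (fun a => inter_subset_left) (by
    intro a b x hx
    obtain ⟨W₁, hW₁, hx₁, u₁, hu₁, h0₁, he₁⟩ := E.loc a.1 b.1 x ⟨hx.1.1.1, hx.1.2.1⟩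
    obtain ⟨W₂, hW₂, hx₂, u₂, hu₂, h0₂, he₂⟩ := F.loc a.2 b.2 x ⟨hx.1.1.2, hx.1.2.2⟩
    have h1 := idl_g E k (a := a.1) (b := b.1) ⟨hx.1.1.1, hx.1.2.1⟩ hW₁ hx₁ hu₁ he₁
    have h2 := idl_g F l (a := a.2) (b := b.2) ⟨hx.1.1.2, hx.1.2.2⟩ hW₂ hx₂ hu₂ he₂
    have h3 := idl_g (emul (epow E k) (epow F l) (holE_pow hE k)) 1 (a := a) (b := b) hx.1
      (hW₁.inter hW₂) ⟨hx₁, hx₂⟩ (u := fun y => u₁ y ^ k * u₂ y ^ l)
      (holF_mul (holF_pow (holF_mono hu₁ inter_subset_left) k)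
        (holF_pow (holF_mono hu₂ inter_subset_right) l)) (fun y hy => by
          show E.f a.1 y ^ k * F.f a.2 y ^ l = _ * (E.f b.1 y ^ k * F.f b.2 y ^ l)
          rw [he₁ y hy.1, he₂ y hy.2]
          ring)
    rw [h3]
    show _ = (E.idl k).g a.1 b.1 x * (F.idl l).g a.2 b.2 x
    rw [h1, h2, pow_one, mul_inv])

/-- powers of ideals -/
def isoPow (E : Eqs C U) (k j : ℕ) (W : Set X) :
    IsoOn (E.idl (k * j)) ((E.idl k).zpow (j : ℤ)) W :=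
  IsoOn.ofSub (L := E.idl (k * j)) (L' := (E.idl k).zpow (j : ℤ)) (fun a => a)
    (fun a => inter_subset_left) (by
    intro a b x hx
    show E.cb.g a b x ^ (-((k * j : ℕ) : ℤ)) = (E.cb.g a b x ^ (-(k : ℤ))) ^ (j : ℤ)
    rw [← zpow_mul]
    congr 1
    push_cast
    ring)

/-! ### ideals generated by functions -/

/-- `Φ i = γ * ψ i` on `O`, `ψ` without common zero -/
structure Gen {κ : Type} (C : Fam n X) (Φ : κ → X → ℂ) (O : Set X) (γ : X → ℂ) (ψ : κ → X → ℂ) :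
    Prop where
  op : IsOpen O
  hol : ∀ i, HolF C O (ψ i)
  nz : ∀ y ∈ O, ∃ i, ψ i y ≠ 0
  eq : ∀ i, ∀ y ∈ O, Φ i y = γ y * ψ i y
  dense : O ⊆ closure {y | γ y ≠ 0}

/-- two generators differ by a unit -/
theorem Gen.unit {κ : Type} {Φ : κ → X → ℂ} {O O' : Set X} {γ γ' : X → ℂ} {ψ ψ' : κ → X → ℂ}
    (h : Gen C Φ O γ ψ) (h' : Gen C Φ O' γ' ψ') {x : X} (hx : x ∈ O ∩ O') :
    ∃ W, IsOpen W ∧ x ∈ W ∧ ∃ u, HolF C W u ∧ (∀ y ∈ W, u y ≠ 0) ∧ ∀ y ∈ W, γ y = u y * γ' y := by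
  obtain ⟨i, hi⟩ := h.nz x hx.1
  obtain ⟨k, hk⟩ := h'.nz x hx.2
  have c1 := holF_contOn h.op (h.hol i)
  have c2 := holF_contOn h'.op (h'.hol k)
  set W : Set X := (O ∩ ψ i ⁻¹' {z | z ≠ 0}) ∩ (O' ∩ ψ' k ⁻¹' {z | z ≠ 0}) with hWd
  have hW : IsOpen W := (c1.isOpen_inter_preimage h.op isOpen_ne).inter
    (c2.isOpen_inter_preimage h'.op isOpen_ne)
  have hWO : W ⊆ O := fun y hy => hy.1.1
  have hWO' : W ⊆ O' := fun y hy => hy.2.1
  have hu : HolF C W fun y => ψ' i y * (ψ i y)⁻¹ :=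
    holF_mul (holF_mono (h'.hol i) hWO') (holF_inv (holF_mono (h.hol i) hWO) fun y hy => hy.1.2)
  have hu' : HolF C W fun y => ψ k y * (ψ' k y)⁻¹ :=
    holF_mul (holF_mono (h.hol k) hWO) (holF_inv (holF_mono (h'.hol k) hWO') fun y hy => hy.2.2)
  have e1 : ∀ y ∈ W, γ y = (ψ' i y * (ψ i y)⁻¹) * γ' y := by
    intro y hy
    have h1 := h.eq i y (hWO hy)
    have h2 := h'.eq i y (hWO' hy)
    have h3 : ψ i y ≠ 0 := hy.1.2
    rw [h1] at h2
    field_simp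
    linear_combination h2
  have e2 : ∀ y ∈ W, γ' y = (ψ k y * (ψ' k y)⁻¹) * γ y := by
    intro y hy
    have h1 := h.eq k y (hWO hy)
    have h2 := h'.eq k y (hWO' hy)
    have h3 : ψ' k y ≠ 0 := hy.2.2
    rw [h1] at h2
    field_simp
    linear_combination -h2
  have e3 : ∀ y ∈ W, (ψ' i y * (ψ i y)⁻¹) * (ψ k y * (ψ' k y)⁻¹) = 1 := by
    intro y hy
    by_contra hne
    have hc : ContinuousOn (fun y => (ψ' i y * (ψ i y)⁻¹) * (ψ k y * (ψ' k y)⁻¹)) W :=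
      holF_contOn hW (holF_mul hu hu')
    have ho : IsOpen (W ∩ (fun y => (ψ' i y * (ψ i y)⁻¹) * (ψ k y * (ψ' k y)⁻¹)) ⁻¹' {z | z ≠ 1}) :=
      hc.isOpen_inter_preimage hW isOpen_ne
    obtain ⟨z, hz, hz0⟩ := mem_closure_iff.1 (h.dense (hWO hy)) _ ho ⟨hy, hne⟩
    have h1 := e1 z hz.1
    rw [e2 z hz.1, ← mul_assoc] at h1
    exact hz.2 (mul_right_cancel₀ hz0 (by rw [one_mul]; exact h1.symm))
  exact ⟨W, hW, ⟨⟨hx.1, hi⟩, hx.2, hk⟩, _, hu, fun y hy => left_ne_zero_of_mul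
    (a := ψ' i y * (ψ i y)⁻¹) (b := ψ k y * (ψ' k y)⁻¹) (by rw [e3 y hy]; exact one_ne_zero), e1⟩

/-- the invertible ideal generated by the functions `Φ` -/
def ofGen {κ : Type} (C : Fam n X) (Φ : κ → X → ℂ) (U : Set X)
    (h : ∀ x ∈ U, ∃ O γ ψ, x ∈ O ∧ Gen C Φ O γ ψ) : Eqs C U where
  α := {t : Set X × (X → ℂ) × (κ → X → ℂ) // Gen C Φ t.1 t.2.1 t.2.2}
  V t := t.1.1
  op t := t.2.op
  cov x hx := by
    obtain ⟨O, γ, ψ, hxO, hG⟩ := h x hx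
    exact ⟨⟨(O, γ, ψ), hG⟩, hxO⟩
  f t := t.1.2.1
  dense t := t.2.dense
  loc a b x hx := a.2.unit b.2 hx

/-- the generators as sections -/
def genSec {κ : Type} {Φ : κ → X → ℂ} (h : ∀ x ∈ U, ∃ O γ ψ, x ∈ O ∧ Gen C Φ O γ ψ) (i : κ)
    (W : Set X) : Sec ((ofGen C Φ U h).idl 1) W :=
  (ofGen C Φ U h).secFun 1 (F := Φ i) (fun a x hx => ⟨a.1.1, a.2.op, hx.1, a.1.2.2 i, a.2.hol i,
    fun y hy => by
      show Φ i y = a.1.2.2 i y * a.1.2.1 y ^ 1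
      rw [a.2.eq i y hy, pow_one, mul_comm]⟩)

theorem genSec_s {κ : Type} {Φ : κ → X → ℂ} (h : ∀ x ∈ U, ∃ O γ ψ, x ∈ O ∧ Gen C Φ O γ ψ) (i : κ)
    {W : Set X} {a : (ofGen C Φ U h).α} {x : X} (ha : x ∈ a.1.1) :
    (genSec h i W).s a x = a.1.2.2 i x :=
  (ofGen C Φ U h).secFun_s 1 _ (a := a) ha a.2.op ha (a.2.hol i) fun y hy => by
    show Φ i y = a.1.2.2 i y * a.1.2.1 y ^ 1
    rw [a.2.eq i y hy, pow_one, mul_comm]

end

end Crest.Agent.R272.PEnd_732
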