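import Crest.Agent.R272.CB8_232
import Crest.Agent.R272.Kod8_410

/-!
# R272, task POS-END (helper732), part 4: the composition

`pos_top` : positivity of the glued ideal on `Y = X⁺` from the ideal `J^mm R^k` on `X = X⁻` (positive near all
fibres for `mm ≥ m₀`), a biholomorphic `ι : X ⇀ Y` over `N ∖ q₀`, and an ideal near the fibre over `q₀` with
the same equations up to units and positive near this fibre; output = a projective embedding of `Y`.
-/

set_option autoImplicit false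
set_option linter.unusedSectionVars false
set_option linter.unusedVariables false

open Set Filter Topology Complex
open scoped ContDiff Matrix ComplexConjugate Manifold

namespace Crest.Agent.R272.PEnd_732

open Crest.Agent.R275.Geo Crest.Agent.R275.Core144 Crest.Agent.R275.GC293
open Crest.Agent.R273 Crest.Agent.R273.Defs_333 Crest.Agent.R273.Map_835
open Crest.Agent.R273.Fam_835
open Crest.Agent.R272.Quot_783 Crest.Agent.R272.PosGlue_232 Crest.Agent.R272.HFam_342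
open Crest.Agent.R272.CB_232

noncomputable section

variable {n m : ℕ} {X Y N : Type} [TopologicalSpace X] [TopologicalSpace Y] [TopologicalSpace N]
  {C : Fam n X} {C' : Fam n Y} {p : X → N} {p' : Y → N} {U V W : Set X}

theorem lC_symm {ι : OpenPartialHomeomorph X Y} (hι : ∀ x ∈ ι.source, LC C C' ι x) :
    ∀ y ∈ ι.symm.source, LC C' C ι.symm y := by
  intro y hy
  have hy' : y ∈ ι.target := hy
  have hx := ι.map_target hy'
  have h1 : HC C' C ι.symm y := by
    have := LC.symm ι hx (hι _ hx)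
    rwa [ι.right_inv hy'] at this
  refine LC.of_left_inverse (q := ι) h1 (hι _ hx).1 ?_
  filter_upwards [ι.open_target.mem_nhds hy'] with z hz
  exact ι.right_inv hz

/-- the equations `J^mm R^k` -/
def eqJR (J R : Eqs C univ) (hJ : ∀ a, HolF C (J.V a) (J.f a)) (mm k : ℕ) : Eqs C univ :=
  (J.npow mm).mul (R.npow k) (Eqs.npow_hol hJ mm)

/-- the ideal of `J^mm R^k` -/
def isoJR (J R : Eqs C univ) (hJ : ∀ a, HolF C (J.V a) (J.f a)) (mm k : ℕ) (W : Set X) :
    IsoOn ((eqJR J R hJ mm k).idl 1) (((J.idl 1).zpow mm).tens (R.idl k)) W :=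
  IsoOn.ofSub (L := (eqJR J R hJ mm k).idl 1) (L' := ((J.idl 1).zpow mm).tens (R.idl k))
    (fun a => a) (fun a x hx => hx.1) (fun a b x hx => by
      show (eqJR J R hJ mm k).cb.g a b x ^ (-((1 : ℕ) : ℤ)) =
        (J.cb.g a.1 b.1 x ^ (-((1 : ℕ) : ℤ))) ^ (mm : ℤ) * R.cb.g a.2 b.2 x ^ (-(k : ℤ))
      have h1 : (eqJR J R hJ mm k).cb.g a b x =
          J.cb.g a.1 b.1 x ^ mm * R.cb.g a.2 b.2 x ^ k := by
        have h2 := Eqs.mul_g (E := J.npow mm) (E' := R.npow k) (Eqs.npow_hol hJ mm) a b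
          (x := x) hx.1
        rw [Eqs.npow_g (E := J) mm (a := a.1) (b := b.1) ⟨hx.1.1.1, hx.1.2.1⟩,
          Eqs.npow_g (E := R) k (a := a.2) (b := b.2) ⟨hx.1.1.2, hx.1.2.2⟩] at h2
        exact h2
      rw [h1, ← zpow_mul, mul_zpow, ← zpow_natCast, ← zpow_mul, ← zpow_natCast, ← zpow_mul]
      congr 2
      · push_cast; ring
      · push_cast; ring)

/-- the ideal of the transported equations -/
def isoPush {U : Set Y} (φ : OpenPartialHomeomorph X Y) (hφ : ∀ x ∈ φ.source, LC C C' φ x)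
    (E : Eqs C' U) (k : ℕ) (W : Set X) :
    IsoOn ((E.push φ hφ).idl k) ((E.idl k).push φ hφ) W :=
  IsoOn.ofSub (L := (E.push φ hφ).idl k) (L' := (E.idl k).push φ hφ)
    (fun a => a) (fun a x hx => hx.1) (fun a b x hx => by
      show (E.push φ hφ).cb.g a b x ^ (-(k : ℤ)) = E.cb.g a b (φ x) ^ (-(k : ℤ))
      congr 1
      obtain ⟨T, hT, hxT, u, hu, hu0, he⟩ := E.loc a b (φ x) ⟨hx.1.1.2, hx.1.2.2⟩
      rw [E.g_eq (a := a) (b := b) ⟨hx.1.1.2, hx.1.2.2⟩ hT hxT hu he]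
      refine (E.push φ hφ).g_eq (a := a) (b := b) hx.1 (isOpen_pre φ hT) ⟨hx.1.1.1, hxT⟩
        (u := fun y => u (φ y)) ?_ (fun y hy => he _ hy.2)
      exact holF_compHC (isOpen_pre φ hT) (fun x hx => (hφ x hx.1).1) hT (fun x hx => hx.2) hu)

/-- local equations on an open set which is everything -/
def eUniv (E : Eqs C U) (h : ∀ x, x ∈ U) : Eqs C univ where
  α := E.α
  V := E.V
  op := E.op
  cov x _ := E.cov x (h x)
  f := E.f
  dense := E.dense
  loc := E.loc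

theorem posNear_univ {E : Eqs C U} (h : ∀ x, x ∈ U) {k : ℕ} {K : Set X}
    (hK : PosNear (E.idl k) K) : PosNear ((eUniv E h).idl k) K :=
  PosNear.ofIso isOpen_univ Subset.rfl (fun x _ => h x) (subset_univ _)
    (IsoOn.ofSub (L := (eUniv E h).idl k) (L' := E.idl k) (fun a => a) (fun a x hx => hx.1)
      (fun a b x hx => rfl)) hK

/-- the equations `J^mm R^k` transported to `Y` -/
def eqY (J R : Eqs C univ) (hJ : ∀ a, HolF C (J.V a) (J.f a)) (ι : OpenPartialHomeomorph X Y)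
    (hι : ∀ x ∈ ι.source, LC C C' ι x) (mm k : ℕ) :
    Eqs C' (ι.symm.source ∩ ι.symm ⁻¹' univ) :=
  (eqJR J R hJ mm k).push ι.symm (lC_symm hι)

/-- **the composition**: ideal `J^mm R^k` off the fibre over `q₀`, another ideal with the same equations near
this fibre -/
theorem pos_top [CompactSpace X] [T2Space X] [CompactSpace Y] [T2Space Y] [CompactSpace N]
    [T2Space N] (B : Atl m N) {H : LB B} {hH : HM H} (hpos : hH.Pos) (hp : Continuous p)
    (hp' : HolC C' (fam B) p') (J R : Eqs C univ) (hJ : ∀ a, HolF C (J.V a) (J.f a)) (k : ℕ)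
    (hJpos : ∀ q, PosNear (J.idl 1) (p ⁻¹' {q})) (ι : OpenPartialHomeomorph X Y)
    (hι : ∀ x ∈ ι.source, LC C C' ι x) (hιp : ∀ x ∈ ι.source, p' (ι x) = p x) (q₀ : N)
    (htgt : ∀ y, p' y ≠ q₀ → y ∈ ι.target)
    (germ : ∀ m₀ : ℕ, ∃ mm : ℕ, m₀ ≤ mm ∧ ∃ (W : Set Y), IsOpen W ∧ p' ⁻¹' {q₀} ⊆ W ∧
      ∃ E : Eqs C' W, (∀ a b, ∀ y ∈ (eqY J R hJ ι hι mm k).V a ∩ E.V b,
        UnitAt C' ((eqY J R hJ ι hι mm k).f a) (E.f b) y) ∧ PosNear (E.idl 1) (p' ⁻¹' {q₀})) :
    ∃ A : Atl n Y, Finite A.ι ∧ GoodA A ∧ Nonempty (Part A) ∧ HolC (fam A) C' id ∧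
      HolC C' (fam A) id ∧ Nonempty (ProjD A) := by
  obtain ⟨m₀, hm₀⟩ := exists_posNear_tens (C := C) (p := p) hp (Q := J.idl 1) (D := R.idl k) hJpos
  obtain ⟨mm, hmm, W, hW, hqW, E, hE, hEpos⟩ := germ m₀
  set E₀ := eqY J R hJ ι hι mm k with hE₀
  let E₁ : Eqs C' ((ι.symm.source ∩ ι.symm ⁻¹' univ) ∪ W) := Eqs.join E₀ E hE
  have hcov : ∀ y : Y, y ∈ (ι.symm.source ∩ ι.symm ⁻¹' univ) ∪ W := by
    intro y
    by_cases hy : p' y = q₀
    · exact Or.inr (hqW hy)
    · exact Or.inl ⟨htgt y hy, mem_univ _⟩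
  have hloc : ∀ q, PosNear ((eUniv E₁ hcov).idl 1) (p' ⁻¹' {q}) := by
    intro q
    refine posNear_univ hcov ?_
    by_cases hq : q = q₀
    · subst hq
      exact PosNear.join_right (E₀ := E₀) (E₁ := E) (h := hE) (-((1 : ℕ) : ℤ)) hW hqW hEpos
    · have hO : IsOpen (ι.symm.source ∩ ι.symm ⁻¹' (univ : Set X)) :=
        ι.symm.isOpen_inter_preimage isOpen_univ
      have hK : p' ⁻¹' {q} ⊆ ι.symm.source ∩ ι.symm ⁻¹' univ := by
        intro y hy
        refine ⟨htgt y ?_, mem_univ _⟩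
        rintro h
        exact hq (by rw [← h]; exact (show p' y = q from hy).symm)
      refine PosNear.join_left (E₀ := E₀) (E₁ := E) (h := hE) (-((1 : ℕ) : ℤ)) hO hK ?_
      have h1 : PosNear ((eqJR J R hJ mm k).idl 1) (p ⁻¹' {q}) :=
        PosNear.ofIso isOpen_univ Subset.rfl Subset.rfl (subset_univ _) (isoJR J R hJ mm k univ)
          (hm₀ mm hmm q)
      have h2 := PosNear.push ι.symm (lC_symm hι) (K := p ⁻¹' {q}) isOpen_univ h1
      have h3 : p' ⁻¹' {q} ⊆ ι.symm.source ∩ ι.symm ⁻¹' (p ⁻¹' {q} ∩ univ) := by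
        intro y hy
        have hy1 : y ∈ ι.target := (hK hy).1
        refine ⟨hy1, ?_, mem_univ _⟩
        show p (ι.symm y) = q
        have h4 := hιp _ (ι.map_target hy1)
        rw [ι.right_inv hy1] at h4
        rw [← h4]
        exact hy
      exact PosNear.ofIso hO Subset.rfl Subset.rfl hK
        (isoPush ι.symm (lC_symm hι) (eqJR J R hJ mm k) 1 (ι.symm.source ∩ ι.symm ⁻¹' univ))
        (h2.mono h3)
  obtain ⟨A, h1, h2, ⟨PA⟩, h4, h5, P, g, hg⟩ := pos_end C' B hpos hp' _ hloc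
  obtain ⟨r, -, P', -⟩ := Kod8_410.exists_projD PA hg
  exact ⟨A, h1, h2, ⟨PA⟩, h4, h5, ⟨P'⟩⟩

end

end Crest.Agent.R272.PEnd_732
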