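import Crest.Agent.R272.PEnd2_732
import Crest.Agent.R272.PEnd4_732
import Crest.Agent.R272.FinCB3_876

/-!
# R272, task POS-END (helper732), part 5: the composition with functions `Φ` near the bad fibre

`pos_top'`  : the composition with ONE family of local equations `E` on `Y`;
`pos_gen`   : the composition with finitely many functions `Φ` near `p'⁻¹(q₀)` (helper848's form #7179).
-/

set_option autoImplicit false
set_option linter.unusedSectionVars false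
set_option linter.unusedVariables false

open Set Filter Topology Complex
open scoped ContDiff Matrix ComplexConjugate Manifold

namespace Crest.Agent.R272.PEnd_732

open Crest.Agent.R275.Geo Crest.Agent.R275.Core144 Crest.Agent.R275.GC293
open Crest.Agent.R273 Crest.Agent.R273.Defs_333 Crest.Agent.R273.Map_835
open Crest.Agent.R273.Fam_835
open Crest.Agent.R272.Quot_783 Crest.Agent.R272.PosGlue_232 Crest.Agent.R272.HFam_342
open Crest.Agent.R272.CB_232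

noncomputable section

variable {n m : ℕ} {X Y N : Type} [TopologicalSpace X] [TopologicalSpace Y] [TopologicalSpace N]
  {C : Fam n X} {C' : Fam n Y} {p : X → N} {p' : Y → N} {U U' V W : Set X} {κ : Type}

/-- equations which differ by units have the same positivity -/
theorem posNear_units {E₀ : Eqs C U} {E₁ : Eqs C U'}
    (h : ∀ a b, ∀ x ∈ E₀.V a ∩ E₁.V b, UnitAt C (E₀.f a) (E₁.f b) x) (k : ℕ) {K : Set X}
    (hU : IsOpen U) (hU' : IsOpen U') (hK : K ⊆ U) (hK' : K ⊆ U')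
    (hp : PosNear (E₀.idl k) K) : PosNear (E₁.idl k) K := by
  have h1 : PosNear ((E₀.join E₁ h).cb.zpow (-(k : ℤ))) K :=
    PosNear.join_left (E₀ := E₀) (E₁ := E₁) (h := h) (-(k : ℤ)) hU hK hp
  exact PosNear.ofIso hU' Subset.rfl subset_union_right hK'
    (joinR (E₀ := E₀) (E₁ := E₁) (h := h) (-(k : ℤ)) U').symm h1

theorem eqY_open {ι : OpenPartialHomeomorph X Y} :
    IsOpen (ι.symm.source ∩ ι.symm ⁻¹' (univ : Set X)) :=
  ι.symm.isOpen_inter_preimage isOpen_univ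

/-- **the composition, one family of equations on `Y`** -/
theorem pos_top' [CompactSpace X] [T2Space X] [CompactSpace Y] [T2Space Y] [CompactSpace N]
    [T2Space N] (B : Atl m N) {H : LB B} {hH : HM H} (hpos : hH.Pos) (hp : Continuous p)
    (hp' : HolC C' (fam B) p') (J R : Eqs C univ) (hJ : ∀ a, HolF C (J.V a) (J.f a)) (k : ℕ)
    (hJpos : ∀ q, PosNear (J.idl 1) (p ⁻¹' {q})) (ι : OpenPartialHomeomorph X Y)
    (hι : ∀ x ∈ ι.source, LC C C' ι x) (hιp : ∀ x ∈ ι.source, p' (ι x) = p x) (q₀ : N)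
    (htgt : ∀ y, p' y ≠ q₀ → y ∈ ι.target)
    (germ : ∀ m₀ : ℕ, ∃ mm : ℕ, m₀ ≤ mm ∧ ∃ E : Eqs C' univ,
      (∀ a b, ∀ y ∈ (eqY J R hJ ι hι mm k).V a ∩ E.V b,
        UnitAt C' ((eqY J R hJ ι hι mm k).f a) (E.f b) y) ∧ PosNear (E.idl 1) (p' ⁻¹' {q₀})) :
    ∃ A : Atl n Y, Finite A.ι ∧ GoodA A ∧ Nonempty (Part A) ∧ HolC (fam A) C' id ∧
      HolC C' (fam A) id ∧ Nonempty (ProjD A) :=
  pos_top B hpos hp hp' J R hJ k hJpos ι hι hιp q₀ htgt fun m₀ => by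
    obtain ⟨mm, hmm, E, hE, hEp⟩ := germ m₀
    exact ⟨mm, hmm, univ, isOpen_univ, subset_univ _, E, hE, hEp⟩

/-! ### the ideal generated by `Φ` near the bad fibre -/

theorem valC_gen {Φ : κ → X → ℂ} {y : X} {c : κ → ℂ} (h : FinCB3_876.ValC C Φ y c) :
    ∃ O γ ψ, y ∈ O ∧ Gen C Φ O γ ψ := by
  obtain ⟨hc, W, hW, hy, e, hed, u, hu, he, huy⟩ := h
  obtain ⟨j, hj⟩ := Function.ne_iff.1 hc
  have h1 : IsOpen (W ∩ u j ⁻¹' {z | z ≠ 0}) := (holF_contOn hW (hu j)).isOpen_inter_preimage hW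
    isOpen_ne
  refine ⟨W ∩ u j ⁻¹' {z | z ≠ 0}, e, u, ⟨hy, ?_⟩, h1, fun i => holF_mono (hu i) inter_subset_left,
    fun z hz => ⟨j, hz.2⟩, fun i z hz => ?_, inter_subset_left.trans hed⟩
  · show u j y ≠ 0
    rw [huy j]
    exact hj
  · rw [he z hz.1 i, mul_comm]

theorem genAt_gen {Φ : κ → X → ℂ} {y : X} {e : X → ℂ} (h : FinCB3_876.GenAt C Φ e y) {V : Set X}
    (hV : IsOpen V) (hyV : y ∈ V) (hd : V ⊆ closure {z | e z ≠ 0}) :
    ∃ O ψ, y ∈ O ∧ Gen C Φ O e ψ := by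
  obtain ⟨W, hW, hy, u, hu, he, j, hj⟩ := h
  have h1 : IsOpen (W ∩ u j ⁻¹' {z | z ≠ 0}) := (holF_contOn hW (hu j)).isOpen_inter_preimage hW
    isOpen_ne
  refine ⟨(W ∩ u j ⁻¹' {z | z ≠ 0}) ∩ V, u, ⟨⟨hy, hj⟩, hyV⟩, h1.inter hV,
    fun i => holF_mono (hu i) fun z hz => hz.1.1, fun z hz => ⟨j, hz.1.2⟩, fun i z hz => ?_,
    inter_subset_right.trans hd⟩
  rw [he z hz.1.1 i, mul_comm]

/-- the ideal generated by `Φ`, on an open set -/
def genE (C : Fam n X) (Φ : κ → X → ℂ) (U : Set X) (hU : IsOpen U)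
    (h : ∀ x ∈ U, ∃ O γ ψ, x ∈ O ∧ Gen C Φ O γ ψ) : Eqs C U where
  α := {t : Set X × (X → ℂ) × (κ → X → ℂ) // Gen C Φ t.1 t.2.1 t.2.2}
  V t := t.1.1 ∩ U
  op t := t.2.op.inter hU
  cov x hx := by
    obtain ⟨O, γ, ψ, hxO, hG⟩ := h x hx
    exact ⟨⟨(O, γ, ψ), hG⟩, hxO, hx⟩
  f t := t.1.2.1
  dense t := inter_subset_left.trans t.2.dense
  loc a b x hx := a.2.unit b.2 ⟨hx.1.1, hx.2.1⟩

theorem isOpen_genSet (C : Fam n X) (Φ : κ → X → ℂ) :
    IsOpen {x | ∃ O γ ψ, x ∈ O ∧ Gen C Φ O γ ψ} := by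
  rw [isOpen_iff_mem_nhds]
  rintro x ⟨O, γ, ψ, hx, hG⟩
  filter_upwards [hG.op.mem_nhds hx] with y hy using ⟨O, γ, ψ, hy, hG⟩

/-- transport of generators along `ι` -/
theorem genAt_push {ι : OpenPartialHomeomorph X Y} (hι : ∀ x ∈ ι.source, LC C C' ι x)
    {Φ : κ → Y → ℂ} {e : X → ℂ} {y : Y} (hy : y ∈ ι.target)
    (h : FinCB3_876.GenAt C (fun j z => Φ j (ι z)) e (ι.symm y)) :
    FinCB3_876.GenAt C' Φ (fun z => e (ι.symm z)) y := by
  obtain ⟨W, hW, hyW, u, hu, he, j, hj⟩ := h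
  have hO : IsOpen (ι.symm.source ∩ ι.symm ⁻¹' W) := ι.symm.isOpen_inter_preimage hW
  refine ⟨ι.symm.source ∩ ι.symm ⁻¹' W, hO, ⟨hy, hyW⟩, fun i z => u i (ι.symm z), fun i => ?_, ?_,
    j, hj⟩
  · exact holF_compHC hO (fun x hx => (lC_symm hι x hx.1).1) hW (fun x hx => hx.2) (hu i)
  · intro z hz i
    have h1 := he (ι.symm z) hz.2 i
    have h2 : z ∈ ι.target := hz.1
    simp only [ι.right_inv h2] at h1
    exact h1

/-- **data near the bad fibre**: functions `Φ j` which generate an invertible ideal near `p'⁻¹(q₀)`, with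
finite fibres there, and which generate `J^mm R^k` off the exceptional set -/
structure PhiData (C : Fam n X) (C' : Fam n Y) (p' : Y → N) (q₀ : N)
    (ι : OpenPartialHomeomorph X Y) (J R : Eqs C univ) (mm k : ℕ) where
  κ : Type
  fin : Fintype κ
  Φ : κ → Y → ℂ
  W : Set Y
  hW : IsOpen W
  sub : p' ⁻¹' {q₀} ⊆ W
  gen : ∀ y ∈ p' ⁻¹' {q₀}, ∃ c, FinCB3_876.ValC C' Φ y c
  cmp : ∀ x ∈ ι.source, ι x ∈ W → ∃ a b, x ∈ J.V a ∧ x ∈ R.V b ∧
    FinCB3_876.GenAt C (fun j z => Φ j (ι z)) (fun z => J.f a z ^ mm * R.f b z ^ k) x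
  ff : ∀ q ∈ p' ⁻¹' {q₀}, {x | x ∈ p' ⁻¹' {q₀} ∧ ∃ c c', FinCB3_876.ValC C' Φ q c ∧
    FinCB3_876.ValC C' Φ x c' ∧ ∀ i j, c i * c' j = c j * c' i}.Finite

/-- **the composition with functions `Φ`** -/
theorem pos_gen [CompactSpace X] [T2Space X] [CompactSpace Y] [T2Space Y] [CompactSpace N]
    [T2Space N] (B : Atl m N) {H : LB B} {hH : HM H} (hpos : hH.Pos) (hp : Continuous p)
    (hp' : HolC C' (fam B) p') (J R : Eqs C univ) (hJ : ∀ a, HolF C (J.V a) (J.f a)) (k : ℕ)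
    (hJpos : ∀ q, PosNear (J.idl 1) (p ⁻¹' {q})) (ι : OpenPartialHomeomorph X Y)
    (hι : ∀ x ∈ ι.source, LC C C' ι x) (hιp : ∀ x ∈ ι.source, p' (ι x) = p x) (q₀ : N)
    (htgt : ∀ y, p' y ≠ q₀ → y ∈ ι.target)
    (germ : ∀ m₀ : ℕ, ∃ mm : ℕ, m₀ ≤ mm ∧ Nonempty (PhiData C C' p' q₀ ι J R mm k)) :
    ∃ A : Atl n Y, Finite A.ι ∧ GoodA A ∧ Nonempty (Part A) ∧ HolC (fam A) C' id ∧
      HolC C' (fam A) id ∧ Nonempty (ProjD A) := by
  refine pos_top' B hpos hp hp' J R hJ k hJpos ι hι hιp q₀ htgt fun m₀ => ?_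
  obtain ⟨mm, hmm, ⟨D⟩⟩ := germ m₀
  refine ⟨mm, hmm, ?_⟩
  have := D.fin
  set U : Set Y := D.W ∩ {y | ∃ O γ ψ, y ∈ O ∧ Gen C' D.Φ O γ ψ} with hUd
  have hU : IsOpen U := D.hW.inter (isOpen_genSet C' D.Φ)
  have hKU : p' ⁻¹' {q₀} ⊆ U := by
    intro y hy
    obtain ⟨c, hc⟩ := D.gen y hy
    exact ⟨D.sub hy, valC_gen hc⟩
  set E₀ := eqY J R hJ ι hι mm k with hE₀
  let E₁ : Eqs C' U := genE C' D.Φ U hU fun x hx => hx.2
  -- units on the overlap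
  have hE : ∀ a b, ∀ y ∈ E₀.V a ∩ E₁.V b, UnitAt C' (E₀.f a) (E₁.f b) y := by
    intro a b y hy
    have hy1 : y ∈ ι.target := hy.1.1
    have hx := ι.map_target hy1
    obtain ⟨a', b', ha', hb', hg⟩ := D.cmp (ι.symm y) hx (by
      rw [ι.right_inv hy1]; exact hy.2.2.1)
    have h1 := genAt_push hι hy1 hg
    let ab : E₀.α := (a', b')
    have hab : y ∈ E₀.V ab := ⟨hy1, ha', hb'⟩
    obtain ⟨O, ψ, hyO, hG⟩ := genAt_gen h1 (E₀.op ab) hab (E₀.dense ab)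
    have h2 : UnitAt C' (E₀.f ab) (E₁.f b) y := hG.unit b.2 ⟨hyO, hy.2.1⟩
    have h3 : UnitAt C' (E₀.f a) (E₀.f ab) y := E₀.loc a ab y ⟨hy.1, hab⟩
    exact h3.trans h2
  let E₂ : Eqs C' ((ι.symm.source ∩ ι.symm ⁻¹' univ) ∪ U) := Eqs.join E₀ E₁ hE
  have hcov : ∀ y : Y, y ∈ (ι.symm.source ∩ ι.symm ⁻¹' univ) ∪ U := by
    intro y
    by_cases hy : p' y = q₀
    · exact Or.inr (hKU hy)
    · exact Or.inl ⟨htgt y hy, mem_univ _⟩
  refine ⟨eUniv E₂ hcov, ?_, ?_⟩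
  · rintro a (b | b) y hy
    · exact E₀.loc a b y hy
    · exact hE a b y hy
  · have hN : IsClosed (p' ⁻¹' {q₀}) := isClosed_singleton.preimage hp'.cont
    refine FinCB3_876.posNear_idl (eUniv E₂ hcov) hN.isCompact D.Φ (fun y hy => ?_) D.ff
    obtain ⟨b, hb⟩ := E₁.cov y (hKU hy)
    refine ⟨Sum.inr b, hb, b.1.1, b.2.op, hb.1, b.1.2.2, b.2.hol, fun z hz j => ?_, b.2.nz y hb.1⟩
    rw [b.2.eq j z hz, mul_comm]
    rfl

end

end Crest.Agent.R272.PEnd_732
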