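import Crest.Agent.R272.Refl2_246

/-!
# R272, leaf MOD-REFL (helper246), part 3: existence of adapted charts

`Cpt C e`          : `e` is a holomorphic chart for the family `C`;
`exists_RC_free`   : trivial stabiliser;
`exists_RC_lin`    : stabiliser `{1, s}`, `s` a linear reflection in some chart;
`exists_RC_deriv`  : the same from the derivative of `s` at the fixed point (Cartan linearisation).
-/

set_option autoImplicit false
set_option linter.unusedSectionVars false

open Set Filter Topology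
open scoped ContDiff

namespace Crest.Agent.R272.Refl_246

open Crest.Agent.R275.Geo Crest.Agent.R273.Fam_835

noncomputable section

variable {n : ℕ} {Y : Type} [TopologicalSpace Y] {C : Fam n Y}

/-- `e` is a chart compatible with the family `C` -/
structure Cpt (C : Fam n Y) (e : OpenPartialHomeomorph Y (Cn n)) : Prop where
  hol : ∀ j, DifferentiableOn ℂ (fun z => C.e j (e.symm z)) (e.target ∩ e.symm ⁻¹' (C.e j).source)
  holi : ∀ j, DifferentiableOn ℂ (fun z => e ((C.e j).symm z))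
    ((C.e j).target ∩ (C.e j).symm ⁻¹' e.source)

theorem cpt_e (i : C.ι) : Cpt C (C.e i) := ⟨fun j => C.holo i j, fun j => C.holo j i⟩

theorem Cpt.restrOpen {e : OpenPartialHomeomorph Y (Cn n)} (h : Cpt C e) {s : Set Y}
    (hs : IsOpen s) : Cpt C (e.restrOpen s hs) := by
  constructor
  · intro j
    refine (h.hol j).mono ?_
    rintro z ⟨hz, hz2⟩
    refine ⟨?_, hz2⟩
    rw [OpenPartialHomeomorph.restrOpen_toPartialEquiv] at hz
    exact hz.1
  · intro j
    refine (h.holi j).mono ?_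
    rintro z ⟨hz, hz2⟩
    refine ⟨hz, ?_⟩
    rw [mem_preimage, OpenPartialHomeomorph.restrOpen_source] at hz2
    exact hz2.1

theorem Cpt.transLin {e : OpenPartialHomeomorph Y (Cn n)} (h : Cpt C e) (A : Cn n ≃L[ℂ] Cn n) :
    Cpt C (e.transHomeomorph A.toHomeomorph) := by
  constructor
  · intro j
    have h1 : DifferentiableOn ℂ ((fun z => C.e j (e.symm z)) ∘ A.symm)
        (A.symm ⁻¹' (e.target ∩ e.symm ⁻¹' (C.e j).source)) :=
      (h.hol j).comp A.symm.differentiable.differentiableOn fun z hz => hz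
    exact h1
  · intro j
    have h1 : DifferentiableOn ℂ (A ∘ (fun z => e ((C.e j).symm z)))
        ((C.e j).target ∩ (C.e j).symm ⁻¹' e.source) :=
      A.differentiable.comp_differentiableOn (h.holi j)
    exact h1

variable {G : Type} [Group G] [MulAction G Y]

/-- local form of proper discontinuity at `y` -/
def PD (G : Type) [Group G] [MulAction G Y] (y : Y) : Prop :=
  ∃ V : Set Y, IsOpen V ∧ y ∈ V ∧ ∀ g : G, ∀ u ∈ V, g • u ∈ V → g • y = y

theorem pd_of_finite [T2Space Y] [ContinuousConstSMul G Y] (y : Y) {K : Set Y} (hK : K ∈ 𝓝 y)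
    (hfin : {g : G | ∃ u ∈ K, g • u ∈ K}.Finite) : PD G y := by
  classical
  have h1 : ∀ g : G, ∃ V : Set Y, V ∈ 𝓝 y ∧ (g • y ≠ y → ∀ u ∈ V, g • u ∉ V) := by
    intro g
    by_cases hg : g • y = y
    · exact ⟨univ, univ_mem, fun h => absurd hg h⟩
    · obtain ⟨A, B, hA, hB, hyA, hyB, hAB⟩ := t2_separation (Ne.symm hg)
      refine ⟨A ∩ (fun u => g • u) ⁻¹' B, inter_mem (hA.mem_nhds hyA)
        ((hB.preimage (continuous_const_smul g)).mem_nhds hyB), fun _ u hu hgu => ?_⟩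
      exact disjoint_left.1 hAB hgu.1 hu.2
  choose V hV hV2 using h1
  have h2 : (K ∩ ⋂ g ∈ {g : G | ∃ u ∈ K, g • u ∈ K}, V g) ∈ 𝓝 y :=
    inter_mem hK ((biInter_mem hfin).2 fun g _ => hV g)
  obtain ⟨W, hW, hWo, hyW⟩ := mem_nhds_iff.1 h2
  refine ⟨W, hWo, hyW, fun g u hu hgu => ?_⟩
  by_contra hne
  have h3 : g ∈ {g : G | ∃ u ∈ K, g • u ∈ K} := ⟨u, (hW hu).1, (hW hgu).1⟩
  have h4 := mem_iInter₂.1 (hW hu).2 g h3
  have h5 := mem_iInter₂.1 (hW hgu).2 g h3
  exact hV2 g hne u h4 h5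

theorem pd_of_properly [T2Space Y] [LocallyCompactSpace Y] [ContinuousConstSMul G Y]
    [ProperlyDiscontinuousSMul G Y] (y : Y) : PD G y := by
  obtain ⟨K, hK, hKy⟩ := exists_compact_mem_nhds y
  refine pd_of_finite y hKy ?_
  refine (ProperlyDiscontinuousSMul.finite_disjoint_inter_image (Γ := G) hK hK).subset ?_
  rintro g ⟨u, hu, hgu⟩
  exact ⟨g • u, mem_image_of_mem _ hu, hgu⟩

theorem exists_RC_free {y : Y} (hpd : PD G y) (hst : ∀ g : G, g • y = y → g = 1) :
    ∃ c : RC G C, y ∈ c.e.source := by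
  obtain ⟨V, hV, hyV, hVg⟩ := hpd
  obtain ⟨i, hi⟩ := C.cover y
  have hc := (cpt_e (C := C) i).restrOpen hV
  refine ⟨⟨(C.e i).restrOpen V hV, hc.hol, hc.holi, none, ?_, ?_, ?_, ?_⟩, ?_⟩
  · intro _ g u hu hgu
    rw [OpenPartialHomeomorph.restrOpen_source] at hu hgu
    exact hst g (hVg g u hu.2 hgu.2)
  · intro s a h; exact absurd h (by simp)
  · intro s a h; exact absurd h (by simp)
  · intro s a h; exact absurd h (by simp)
  · change y ∈ ((C.e i).restrOpen V hV).source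
    rw [OpenPartialHomeomorph.restrOpen_source]
    exact ⟨hi, hyV⟩

/-- coordinates in which the linear reflection `w ↦ w - ℓ w • v` (`ℓ v = 2`) is `rf a` -/
theorem exists_lin (ℓ : Cn n →L[ℂ] ℂ) (v : Cn n) (hv : ℓ v = 2) :
    ∃ (a : Fin n) (A : Cn n ≃L[ℂ] Cn n), ∀ w, A (w - ℓ w • v) = rf a (A w) := by
  classical
  have hv0 : v ≠ 0 := by
    rintro rfl
    rw [map_zero] at hv
    norm_num at hv
  obtain ⟨a, ha⟩ : ∃ a, v a ≠ 0 := by
    by_contra h
    push Not at h
    exact hv0 (by ext b; exact h b)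
  let T : Cn n →L[ℂ] Cn n := ContinuousLinearMap.id ℂ (Cn n) -
    ((v a)⁻¹ • (EuclideanSpace.proj a : Cn n →L[ℂ] ℂ)).smulRight v +
    ℓ.smulRight (EuclideanSpace.single a (1 : ℂ))
  have hT : ∀ w, T w = w - ((v a)⁻¹ * w a) • v + ℓ w • EuclideanSpace.single a (1 : ℂ) := by
    intro w
    simp [T]
  have hTa : ∀ w, T w a = ℓ w := by
    intro w
    rw [hT]
    simp only [PiLp.add_apply, PiLp.sub_apply, PiLp.smul_apply, smul_eq_mul,
      PiLp.single_apply, if_true, mul_one]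
    field_simp
    ring
  have hTv : T v = (2 : ℂ) • EuclideanSpace.single a (1 : ℂ) := by
    rw [hT, inv_mul_cancel₀ ha, one_smul, sub_self, zero_add, hv]
  have hinj : Function.Injective T := by
    rw [injective_iff_map_eq_zero]
    intro w hw
    have h1 : ℓ w = 0 := by rw [← hTa, hw]; rfl
    have h2 := hT w
    rw [hw, h1, zero_smul, add_zero] at h2
    have h3 : w = ((v a)⁻¹ * w a) • v := (sub_eq_zero.1 h2.symm)
    have h4 := congrArg ℓ h3
    rw [map_smul, hv, h1, smul_eq_mul] at h4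
    have h5 : (v a)⁻¹ * w a = 0 := by
      rcases mul_eq_zero.1 h4.symm with h | h
      · exact h
      · norm_num at h
    rw [h3, h5, zero_smul]
  let A : Cn n ≃L[ℂ] Cn n :=
    (LinearEquiv.ofInjectiveEndo (T : Cn n →ₗ[ℂ] Cn n) hinj).toContinuousLinearEquiv
  have hA : ∀ w, A w = T w := fun w => rfl
  refine ⟨a, A, fun w => ?_⟩
  rw [hA, hA, map_sub, map_smul, hTv, rf, up, hTa, smul_smul, sub_eq_add_neg, ← neg_smul]
  congr 2
  ring

/-- adapted chart at a fixed point of a reflection which is linear in the chart `φ` -/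
theorem exists_RC_lin [ContinuousConstSMul G Y] {y : Y} (hpd : PD G y) {s : G} (hs2 : s * s = 1)
    (hst : ∀ g : G, g • y = y → g = 1 ∨ g = s) (hsy : s • y = y)
    {φ : OpenPartialHomeomorph Y (Cn n)} (hφ : Cpt C φ) (hy : y ∈ φ.source)
    (ℓ : Cn n →L[ℂ] ℂ) (v : Cn n) (hv : ℓ v = 2)
    (hlin : ∀ᶠ u in 𝓝 y, φ (s • u) = φ u - ℓ (φ u) • v) :
    ∃ c : RC G C, y ∈ c.e.source := by
  obtain ⟨V, hV, hyV, hVg⟩ := hpd
  obtain ⟨O, hO, hOo, hyO⟩ := eventually_nhds_iff.1 hlin
  obtain ⟨a, A, hA⟩ := exists_lin ℓ v hv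
  have hcs : Continuous fun u : Y => s • u := continuous_const_smul s
  have hss : ∀ u : Y, s • s • u = u := fun u => by rw [smul_smul, hs2, one_smul]
  let W0 : Set Y := (V ∩ O) ∩ φ.source
  have hW0 : IsOpen W0 := (hV.inter hOo).inter φ.open_source
  let W : Set Y := W0 ∩ (fun u => s • u) ⁻¹' W0
  have hW : IsOpen W := hW0.inter (hW0.preimage hcs)
  have hyW : y ∈ W := by
    refine ⟨⟨⟨hyV, hyO⟩, hy⟩, ?_⟩
    rw [mem_preimage]
    simp only [hsy]
    exact ⟨⟨hyV, hyO⟩, hy⟩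
  have hc := (hφ.restrOpen hW).transLin A
  have hsrc : ((φ.restrOpen W hW).transHomeomorph A.toHomeomorph).source = φ.source ∩ W := by
    rw [OpenPartialHomeomorph.transHomeomorph_source, OpenPartialHomeomorph.restrOpen_source]
  have hinv : ∀ u ∈ W, s • u ∈ W := fun u hu => ⟨hu.2, by
    rw [mem_preimage]
    simp only [hss]
    exact hu.1⟩
  refine ⟨⟨(φ.restrOpen W hW).transHomeomorph A.toHomeomorph, hc.hol, hc.holi, some (s, a),
    ?_, ?_, ?_, ?_⟩, ?_⟩
  · intro h; exact absurd h (by simp)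
  · intro s' a' h u hu
    rw [Option.some.injEq, Prod.mk.injEq] at h
    obtain ⟨rfl, rfl⟩ := h
    rw [hsrc] at hu ⊢
    exact ⟨(hinv u hu.2).1.2, hinv u hu.2⟩
  · intro s' a' h u hu
    rw [Option.some.injEq, Prod.mk.injEq] at h
    obtain ⟨rfl, rfl⟩ := h
    rw [hsrc] at hu
    change A (φ (s • u)) = rf a (A (φ u))
    rw [hO u hu.2.1.1.2, hA]
  · intro s' a' h g u hu hgu
    rw [Option.some.injEq, Prod.mk.injEq] at h
    obtain ⟨rfl, rfl⟩ := h
    rw [hsrc] at hu hgu
    exact hst g (hVg g u hu.2.1.1.1 hgu.2.1.1.1)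
  · change y ∈ ((φ.restrOpen W hW).transHomeomorph A.toHomeomorph).source
    rw [hsrc]
    exact ⟨hy, hyW⟩

end

end Crest.Agent.R272.Refl_246
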