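import Crest.Agent.R272.Tp1_60

/-!
# R272 (S0415), MODEL, type tp (helper60): the standard model

`K` a space with `T : K → P1` (the curve and its coordinate `t`).
`Std T` : all `((S₀,S₁,S₂), c, c', v)` with `S₁ = S₀ t`, `S₂ = S₀ t'`, `v = t S₂ = t' S₁`
(homogeneous relations); `D0, O0, e0 : D0 ≃ₜ O0`, `Di, Oi, ei : Di ≃ₜ Oi`.
-/

set_option autoImplicit false
set_option linter.unusedSectionVars false

open Set Filter Topology OnePoint

namespace Crest.Agent.R272.Tp2_60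

open Crest.Agent.R272.Tp1_60

noncomputable section

theorem mob_mob {α β γ δ α' β' γ' δ' : ℂ} (h : α * δ - β * γ ≠ 0) (t : P1) :
    mob α' β' γ' δ' (mob α β γ δ t) =
      mob (α' * α + β' * γ) (α' * β + β' * δ) (γ' * α + δ' * γ) (γ' * β + δ' * δ) t := by
  obtain ⟨c, hc, h1, h2⟩ := exists_rat (mob_ne h t)
  change _ = c * nn (mob α β γ δ t) at h1
  change _ = c * dd (mob α β γ δ t) at h2
  set y := mob α β γ δ t
  conv_lhs => unfold mob
  rw [← rat_mul hc]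
  unfold mob
  congr 1
  · linear_combination -α' * h1 - β' * h2
  · linear_combination -γ' * h1 - δ' * h2

theorem mob_smul {l : ℂ} (hl : l ≠ 0) (t : P1) : mob l 0 0 l t = t := by
  unfold mob
  rw [show l * nn t + 0 * dd t = l * nn t by ring, show 0 * nn t + l * dd t = l * dd t by ring,
    rat_mul hl, rat_nn_dd]

variable {K : Type} [TopologicalSpace K] (T : K → P1)

/-- the ambient of the standard model -/
abbrev Amb (K : Type) : Type := (ℂ × ℂ × ℂ) × K × K × P1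

/-- the relations of the standard model -/
structure Rel (y : Amb K) : Prop where
  r1 : y.1.2.1 * dd (T y.2.1) = y.1.1 * nn (T y.2.1)
  r2 : y.1.2.2 * dd (T y.2.2.1) = y.1.1 * nn (T y.2.2.1)
  v1 : nn y.2.2.2 * dd (T y.2.1) = dd y.2.2.2 * (nn (T y.2.1) * y.1.2.2)
  v2 : nn y.2.2.2 * dd (T y.2.2.1) = dd y.2.2.2 * (nn (T y.2.2.1) * y.1.2.1)

/-- the standard model -/
def Std : Set (Amb K) := {y | Rel T y}

/-- domain of `E0` -/
def D0 (r : ℝ) : Set (K × K × ℂ) :=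
  {p | T p.1 ≠ ∞ ∧ T p.2.1 ≠ ∞ ∧ ‖p.2.2‖ * (1 + ‖nn (T p.1)‖) * (1 + ‖nn (T p.2.1)‖) < r}

/-- domain of `Einf` -/
def Di (r : ℝ) : Set (K × K × ℂ) :=
  {p | T p.1 ≠ ((0 : ℂ) : P1) ∧ T p.2.1 ≠ ((0 : ℂ) : P1) ∧
    ‖p.2.2‖ * (1 + ‖iv (T p.1)‖) * (1 + ‖iv (T p.2.1)‖) < r}

/-- image of `E0` -/
def O0 (r : ℝ) : Set (Std T) :=
  {y | T y.1.2.1 ≠ ∞ ∧ T y.1.2.2.1 ≠ ∞ ∧
    ‖y.1.1.1‖ * (1 + ‖nn (T y.1.2.1)‖) * (1 + ‖nn (T y.1.2.2.1)‖) < r}

/-- image of `Einf` -/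
def Oi (r : ℝ) : Set (Std T) :=
  {y | T y.1.2.1 ≠ ((0 : ℂ) : P1) ∧ T y.1.2.2.1 ≠ ((0 : ℂ) : P1) ∧ y.1.2.2.2 ≠ ∞ ∧
    ‖nn y.1.2.2.2‖ * (1 + ‖iv (T y.1.2.1)‖) * (1 + ‖iv (T y.1.2.2.1)‖) < r}

/-- `E0` -/
def f0 (p : K × K × ℂ) : Amb K :=
  ((p.2.2, p.2.2 * nn (T p.1), p.2.2 * nn (T p.2.1)), p.1, p.2.1,
    ((nn (T p.1) * nn (T p.2.1) * p.2.2 : ℂ) : P1))

/-- `Einf` -/
def fi (p : K × K × ℂ) : Amb K :=
  ((p.2.2 * iv (T p.1) * iv (T p.2.1), p.2.2 * iv (T p.2.1), p.2.2 * iv (T p.1)), p.1, p.2.1,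
    ((p.2.2 : ℂ) : P1))

variable {T}

theorem f0_mem {p : K × K × ℂ} (h : T p.1 ≠ ∞) (h' : T p.2.1 ≠ ∞) : f0 T p ∈ Std T := by
  have e1 := dd_of_ne h
  have e2 := dd_of_ne h'
  constructor <;> simp only [f0, e1, e2, nn_coe, dd_coe] <;> ring

theorem fi_mem {p : K × K × ℂ} (h : T p.1 ≠ ((0 : ℂ) : P1)) (h' : T p.2.1 ≠ ((0 : ℂ) : P1)) :
    fi T p ∈ Std T := by
  have e1 := nn_mul_iv h
  have e2 := nn_mul_iv h'
  constructor <;> simp only [fi, nn_coe, dd_coe]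
  · linear_combination (-p.2.2 * iv (T p.2.1)) * e1
  · linear_combination (-p.2.2 * iv (T p.1)) * e2
  · linear_combination (-p.2.2) * e1
  · linear_combination (-p.2.2) * e2

theorem f0_eq {y : Amb K} (hy : y ∈ Std T) (h : T y.2.1 ≠ ∞) (h' : T y.2.2.1 ≠ ∞) :
    f0 T (y.2.1, y.2.2.1, y.1.1) = y := by
  have e1 := dd_of_ne h
  have e2 := dd_of_ne h'
  have h1 : y.1.2.1 = y.1.1 * nn (T y.2.1) := by have := hy.r1; rwa [e1, mul_one] at this
  have h2 : y.1.2.2 = y.1.1 * nn (T y.2.2.1) := by have := hy.r2; rwa [e2, mul_one] at this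
  have h3 : y.2.2.2 = ((nn (T y.2.1) * nn (T y.2.2.1) * y.1.1 : ℂ) : P1) := by
    rw [← rat_one, eq_rat_iff (Or.inr one_ne_zero)]
    have := hy.v1
    rw [e1, h2] at this
    linear_combination -this
  obtain ⟨⟨a, b, c⟩, k, k', v⟩ := y
  simp only at h1 h2 h3
  simp only [f0]
  rw [← h1, ← h2, ← h3]

theorem fi_eq {y : Amb K} (hy : y ∈ Std T) (h : T y.2.1 ≠ ((0 : ℂ) : P1))
    (h' : T y.2.2.1 ≠ ((0 : ℂ) : P1)) (hv : y.2.2.2 ≠ ∞) :
    fi T (y.2.1, y.2.2.1, nn y.2.2.2) = y := by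
  have e1 := nn_mul_iv h
  have e2 := nn_mul_iv h'
  have n1 := nn_ne h
  have n2 := nn_ne h'
  have e3 := dd_of_ne hv
  have h2 : y.1.2.2 = nn y.2.2.2 * iv (T y.2.1) := by
    have := hy.v1
    rw [e3, one_mul] at this
    refine mul_left_cancel₀ n1 ?_
    linear_combination -this - nn y.2.2.2 * e1
  have h1 : y.1.2.1 = nn y.2.2.2 * iv (T y.2.2.1) := by
    have := hy.v2
    rw [e3, one_mul] at this
    refine mul_left_cancel₀ n2 ?_
    linear_combination -this - nn y.2.2.2 * e2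
  have h0 : y.1.1 = nn y.2.2.2 * iv (T y.2.1) * iv (T y.2.2.1) := by
    have := hy.r1
    rw [h1] at this
    refine mul_left_cancel₀ n1 ?_
    linear_combination -this - nn y.2.2.2 * iv (T y.2.2.1) * e1
  have h3 := coe_nn hv
  obtain ⟨⟨a, b, c⟩, k, k', v⟩ := y
  simp only at h0 h1 h2 h3
  simp only [fi]
  rw [← h0, ← h1, ← h2, h3]

theorem fi_f0 {c c' : K} {x : ℂ} (h : T c ≠ ∞) (h' : T c' ≠ ∞) (h0 : T c ≠ ((0 : ℂ) : P1))
    (h0' : T c' ≠ ((0 : ℂ) : P1)) :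
    fi T (c, c', x * nn (T c) * nn (T c')) = f0 T (c, c', x) := by
  have n1 := nn_ne h0
  have n2 := nn_ne h0'
  simp only [fi, f0, inv_nn h, inv_nn h']
  refine Prod.ext (Prod.ext ?_ (Prod.ext ?_ ?_)) (Prod.ext rfl (Prod.ext rfl ?_))
  · simp only; field_simp
  · simp only; field_simp
  · simp only; field_simp
  · simp only; congr 1; ring

variable (T)

/-- `E0` as a homeomorphism onto an open set -/
def e0 (hT : Continuous T) (r : ℝ) : D0 T r ≃ₜ O0 T r where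
  toFun p := ⟨⟨f0 T p.1, f0_mem p.2.1 p.2.2.1⟩, p.2.1, p.2.2.1, p.2.2.2⟩
  invFun y := ⟨(y.1.1.2.1, y.1.1.2.2.1, y.1.1.1.1), y.2.1, y.2.2.1, y.2.2.2⟩
  left_inv p := rfl
  right_inv y := by
    refine Subtype.ext (Subtype.ext ?_)
    exact f0_eq y.1.2 y.2.1 y.2.2.1
  continuous_toFun := by
    refine Continuous.subtype_mk (Continuous.subtype_mk ?_ _) _
    rw [continuous_iff_continuousAt]
    intro p
    have c1 : ContinuousAt (fun p : D0 T r => nn (T p.1.1)) p :=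
      ContinuousAt.comp (g := nn) (continuousAt_nn p.2.1) (by fun_prop)
    have c2 : ContinuousAt (fun p : D0 T r => nn (T p.1.2.1)) p :=
      ContinuousAt.comp (g := nn) (continuousAt_nn p.2.2.1) (by fun_prop)
    have c3 : ContinuousAt (fun p : D0 T r => ((nn (T p.1.1) * nn (T p.1.2.1) * p.1.2.2 : ℂ) : P1))
        p := ContinuousAt.comp (g := ((↑) : ℂ → P1)) OnePoint.continuous_coe.continuousAt
          (by fun_prop)
    unfold f0
    fun_prop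
  continuous_invFun := by
    refine Continuous.subtype_mk ?_ _
    fun_prop

/-- `Einf` as a homeomorphism onto an open set -/
def ei (hT : Continuous T) (r : ℝ) : Di T r ≃ₜ Oi T r where
  toFun p := ⟨⟨fi T p.1, fi_mem p.2.1 p.2.2.1⟩, p.2.1, p.2.2.1, by simp [fi], by
    simpa [fi] using p.2.2.2⟩
  invFun y := ⟨(y.1.1.2.1, y.1.1.2.2.1, nn y.1.1.2.2.2), y.2.1, y.2.2.1, y.2.2.2.2⟩
  left_inv p := by
    refine Subtype.ext ?_
    simp [fi]
  right_inv y := by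
    refine Subtype.ext (Subtype.ext ?_)
    exact fi_eq y.1.2 y.2.1 y.2.2.1 y.2.2.2.1
  continuous_toFun := by
    refine Continuous.subtype_mk (Continuous.subtype_mk ?_ _) _
    rw [continuous_iff_continuousAt]
    intro p
    have c1 : ContinuousAt (fun p : Di T r => iv (T p.1.1)) p :=
      ContinuousAt.comp (g := iv) (continuousAt_iv p.2.1) (by fun_prop)
    have c2 : ContinuousAt (fun p : Di T r => iv (T p.1.2.1)) p :=
      ContinuousAt.comp (g := iv) (continuousAt_iv p.2.2.1) (by fun_prop)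
    have c3 : ContinuousAt (fun p : Di T r => ((p.1.2.2 : ℂ) : P1))
        p := ContinuousAt.comp (g := ((↑) : ℂ → P1)) OnePoint.continuous_coe.continuousAt
          (by fun_prop)
    unfold fi
    fun_prop
  continuous_invFun := by
    refine Continuous.subtype_mk ?_ _
    rw [continuous_iff_continuousAt]
    intro y
    have c1 : ContinuousAt (fun y : Oi T r => nn y.1.1.2.2.2) y :=
      ContinuousAt.comp (g := nn) (continuousAt_nn y.2.2.2.1) (by fun_prop)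
    fun_prop

variable {T}

theorem isOpen_D0 (hT : Continuous T) (r : ℝ) : IsOpen (D0 T r) := by
  rw [isOpen_iff_mem_nhds]
  intro p hp
  have h1 : ∀ᶠ q : K × K × ℂ in 𝓝 p, T q.1 ≠ ∞ :=
    (hT.comp continuous_fst).continuousAt.eventually_ne hp.1
  have h2 : ∀ᶠ q : K × K × ℂ in 𝓝 p, T q.2.1 ≠ ∞ :=
    (hT.comp (continuous_fst.comp continuous_snd)).continuousAt.eventually_ne hp.2.1
  have c1 : ContinuousAt (fun p : K × K × ℂ => nn (T p.1)) p :=
      ContinuousAt.comp (g := nn) (continuousAt_nn hp.1) (by fun_prop)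
  have c2 : ContinuousAt (fun p : K × K × ℂ => nn (T p.2.1)) p :=
      ContinuousAt.comp (g := nn) (continuousAt_nn hp.2.1) (by fun_prop)
  have h3 : ContinuousAt (fun p : K × K × ℂ =>
    ‖p.2.2‖ * (1 + ‖nn (T p.1)‖) * (1 + ‖nn (T p.2.1)‖)) p := by fun_prop
  filter_upwards [h1, h2, h3.eventually_lt_const hp.2.2] with q a b c
  exact ⟨a, b, c⟩

theorem isOpen_Di (hT : Continuous T) (r : ℝ) : IsOpen (Di T r) := by
  rw [isOpen_iff_mem_nhds]
  intro p hp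
  have h1 : ∀ᶠ q : K × K × ℂ in 𝓝 p, T q.1 ≠ ((0 : ℂ) : P1) :=
    (hT.comp continuous_fst).continuousAt.eventually_ne hp.1
  have h2 : ∀ᶠ q : K × K × ℂ in 𝓝 p, T q.2.1 ≠ ((0 : ℂ) : P1) :=
    (hT.comp (continuous_fst.comp continuous_snd)).continuousAt.eventually_ne hp.2.1
  have c1 : ContinuousAt (fun p : K × K × ℂ => iv (T p.1)) p :=
      ContinuousAt.comp (g := iv) (continuousAt_iv hp.1) (by fun_prop)
  have c2 : ContinuousAt (fun p : K × K × ℂ => iv (T p.2.1)) p :=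
      ContinuousAt.comp (g := iv) (continuousAt_iv hp.2.1) (by fun_prop)
  have h3 : ContinuousAt (fun p : K × K × ℂ =>
    ‖p.2.2‖ * (1 + ‖iv (T p.1)‖) * (1 + ‖iv (T p.2.1)‖)) p := by fun_prop
  filter_upwards [h1, h2, h3.eventually_lt_const hp.2.2] with q a b c
  exact ⟨a, b, c⟩

theorem isOpen_O0 (hT : Continuous T) (r : ℝ) : IsOpen (O0 T r) := by
  rw [isOpen_iff_mem_nhds]
  intro p hp
  have h1 : ∀ᶠ q : Std T in 𝓝 p, T q.1.2.1 ≠ ∞ :=
    ContinuousAt.eventually_ne (by fun_prop) hp.1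
  have h2 : ∀ᶠ q : Std T in 𝓝 p, T q.1.2.2.1 ≠ ∞ :=
    ContinuousAt.eventually_ne (by fun_prop) hp.2.1
  have c1 : ContinuousAt (fun p : Std T => nn (T p.1.2.1)) p :=
      ContinuousAt.comp (g := nn) (continuousAt_nn hp.1) (by fun_prop)
  have c2 : ContinuousAt (fun p : Std T => nn (T p.1.2.2.1)) p :=
      ContinuousAt.comp (g := nn) (continuousAt_nn hp.2.1) (by fun_prop)
  have h3 : ContinuousAt (fun p : Std T =>
    ‖p.1.1.1‖ * (1 + ‖nn (T p.1.2.1)‖) * (1 + ‖nn (T p.1.2.2.1)‖)) p := by fun_prop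
  filter_upwards [h1, h2, h3.eventually_lt_const hp.2.2] with q a b c
  exact ⟨a, b, c⟩

theorem isOpen_Oi (hT : Continuous T) (r : ℝ) : IsOpen (Oi T r) := by
  rw [isOpen_iff_mem_nhds]
  intro p hp
  have h1 : ∀ᶠ q : Std T in 𝓝 p, T q.1.2.1 ≠ ((0 : ℂ) : P1) :=
    ContinuousAt.eventually_ne (by fun_prop) hp.1
  have h2 : ∀ᶠ q : Std T in 𝓝 p, T q.1.2.2.1 ≠ ((0 : ℂ) : P1) :=
    ContinuousAt.eventually_ne (by fun_prop) hp.2.1
  have h2' : ∀ᶠ q : Std T in 𝓝 p, q.1.2.2.2 ≠ ∞ :=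
    ContinuousAt.eventually_ne (by fun_prop) hp.2.2.1
  have c1 : ContinuousAt (fun p : Std T => iv (T p.1.2.1)) p :=
      ContinuousAt.comp (g := iv) (continuousAt_iv hp.1) (by fun_prop)
  have c2 : ContinuousAt (fun p : Std T => iv (T p.1.2.2.1)) p :=
      ContinuousAt.comp (g := iv) (continuousAt_iv hp.2.1) (by fun_prop)
  have c3 : ContinuousAt (fun p : Std T => nn p.1.2.2.2) p :=
      ContinuousAt.comp (g := nn) (continuousAt_nn hp.2.2.1) (by fun_prop)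
  have h3 : ContinuousAt (fun p : Std T =>
    ‖nn p.1.2.2.2‖ * (1 + ‖iv (T p.1.2.1)‖) * (1 + ‖iv (T p.1.2.2.1)‖)) p := by fun_prop
  filter_upwards [h1, h2, h2', h3.eventually_lt_const hp.2.2.2] with q a b c d
  exact ⟨a, b, c, d⟩

end

end Crest.Agent.R272.Tp2_60
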