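import Crest.Agent.R272.P1A_54
import Crest.Agent.R272.HFam_342
import Crest.Agent.R272.Refl3_246
import Crest.Agent.R272.Tp2_60

/-!
# R272 (S0415), MODEL, type tp (helper60): pointwise holomorphy of maps to `P1`, to products, to
submanifolds

`HP F f x` : the map `f : X → P1` is holomorphic at `x` (local homogeneous coordinates);
`HP.nn`, `HP.iv`, `HP.mob`, `HP.comp`; `hC_prod`, `hC_amb`, `hC_sl`, `cpt_of`.
-/

set_option autoImplicit false
set_option linter.unusedSectionVars false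

open Set Filter Topology OnePoint

namespace Crest.Agent.R272.Tp5_60

open Crest.Agent.R275.Geo Crest.Agent.R273.Fam_835 Crest.Agent.R272.FamP_54
open Crest.Agent.R272.HFam_342 Crest.Agent.R272.Tp1_60 Crest.Agent.R272.Refl_246
open Crest.Agent.R272.P1F_54 (p1Fam ps pc pinv ln ld hmk pinv_pc ps_cover isOpen_ps hf_pc
  hfa_pc_hmk hmk_mem_ps)

noncomputable section

variable {n N k m : ℕ} {X Y Z : Type} [TopologicalSpace X] [TopologicalSpace Y]
  [TopologicalSpace Z] {F : Fam N X} {G : Fam m Y} {E : Fam k Z}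

theorem rat_eq (a b : ℂ) : rat a b = hmk a b := by
  by_cases hb : b = 0
  · subst hb
    rw [rat_zero, P1F_54.hmk_zero]
  · rw [rat_ne hb, P1F_54.hmk_of_ne hb]

/-- `f : X → P1` is holomorphic at `x` -/
def HP (F : Fam N X) (f : X → P1) (x : X) : Prop :=
  ∃ a b : X → ℂ, HFA F a x ∧ HFA F b x ∧ (a x ≠ 0 ∨ b x ≠ 0) ∧
    ∀ᶠ y in 𝓝 x, f y = rat (a y) (b y)

variable {f : X → P1} {x : X}

theorem hP_rat {a b : X → ℂ} (ha : HFA F a x) (hb : HFA F b x) (h : a x ≠ 0 ∨ b x ≠ 0) :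
    HP F (fun y => rat (a y) (b y)) x := ⟨a, b, ha, hb, h, Eventually.of_forall fun _ => rfl⟩

theorem hP_coe {a : X → ℂ} (ha : HFA F a x) : HP F (fun y => ((a y : ℂ) : P1)) x :=
  ⟨a, fun _ => 1, ha, HFA.const 1 x, Or.inr one_ne_zero,
    Eventually.of_forall fun _ => (rat_one _).symm⟩

theorem HP.congr {g : X → P1} (h : HP F f x) (he : ∀ᶠ y in 𝓝 x, g y = f y) : HP F g x := by
  obtain ⟨a, b, ha, hb, h0, h1⟩ := h
  exact ⟨a, b, ha, hb, h0, he.mp (h1.mono fun y h2 h3 => h3.trans h2)⟩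

theorem HP.contAt (h : HP F f x) : ContinuousAt f x := by
  obtain ⟨a, b, ha, hb, h0, h1⟩ := h
  exact (ContinuousAt.rat60 ha.continuousAt hb.continuousAt h0).congr
    (h1.mono fun y hy => hy.symm)

theorem HP.nn (h : HP F f x) (hx : f x ≠ ∞) : HFA F (fun y => Tp1_60.nn (f y)) x := by
  obtain ⟨a, b, ha, hb, h0, h1⟩ := h
  have hbx : b x ≠ 0 := by
    intro h2
    apply hx
    rw [h1.self_of_nhds, h2, rat_zero]
  refine (ha.div hb hbx).congr ?_
  filter_upwards [h1, hb.continuousAt.eventually_ne hbx] with y h2 h3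
  rw [h2, rat_ne h3, nn_coe]

theorem HP.iv (h : HP F f x) (hx : f x ≠ ((0 : ℂ) : P1)) :
    HFA F (fun y => Tp1_60.iv (f y)) x := by
  obtain ⟨a, b, ha, hb, h0, h1⟩ := h
  have hax : a x ≠ 0 := by
    intro h2
    apply hx
    have hbx : b x ≠ 0 := h0.resolve_left (fun h => h h2)
    rw [h1.self_of_nhds, rat_ne hbx, h2, zero_div]
  refine (hb.div ha hax).congr ?_
  filter_upwards [h1, ha.continuousAt.eventually_ne hax] with y h2 h3
  rw [h2]
  by_cases hb0 : b y = 0
  · rw [hb0, rat_zero, iv_inf, zero_div]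
  · rw [rat_ne hb0, iv_coe, inv_div]

theorem HP.mob (h : HP F f x) {α β γ δ : X → ℂ} (hα : HFA F α x) (hβ : HFA F β x)
    (hγ : HFA F γ x) (hδ : HFA F δ x) (h0 : α x * δ x - β x * γ x ≠ 0) :
    HP F (fun y => Tp1_60.mob (α y) (β y) (γ y) (δ y) (f y)) x := by
  obtain ⟨a, b, ha, hb, hab, h1⟩ := h
  have key : ∀ y, (a y ≠ 0 ∨ b y ≠ 0) → f y = rat (a y) (b y) →
      Tp1_60.mob (α y) (β y) (γ y) (δ y) (f y) =
        rat (α y * a y + β y * b y) (γ y * a y + δ y * b y) := by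
    intro y hy hf
    obtain ⟨c, hc, h2, h3⟩ := exists_rat hy
    rw [← hf] at h2 h3
    unfold Tp1_60.mob
    rw [← rat_mul hc]
    congr 1
    · conv_rhs => rw [h2, h3]
      ring
    · conv_rhs => rw [h2, h3]
      ring
  have hne : ∀ᶠ y in 𝓝 x, a y ≠ 0 ∨ b y ≠ 0 := by
    rcases hab with h2 | h2
    · exact (ha.continuousAt.eventually_ne h2).mono fun y hy => Or.inl hy
    · exact (hb.continuousAt.eventually_ne h2).mono fun y hy => Or.inr hy
  refine ⟨_, _, (hα.mul ha).add (hβ.mul hb), (hγ.mul ha).add (hδ.mul hb), ?_, ?_⟩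
  · by_contra hc
    push Not at hc
    obtain ⟨h2, h3⟩ := hc
    have h4 : (α x * δ x - β x * γ x) * a x = 0 := by linear_combination δ x * h2 - β x * h3
    have h5 : (α x * δ x - β x * γ x) * b x = 0 := by linear_combination α x * h3 - γ x * h2
    rcases hab with h6 | h6
    · exact h6 ((mul_eq_zero.1 h4).resolve_left h0)
    · exact h6 ((mul_eq_zero.1 h5).resolve_left h0)
  · filter_upwards [hne, h1] with y h2 h3
    exact key y h2 h3

/-! ### composition with holomorphic maps -/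

theorem hfa_comp {W : Type*} [NormedAddCommGroup W] [NormedSpace ℂ W] {g : Y → W} {p : X → Y}
    (hg : HFA G g (p x)) (hp : HC F G p x) : HFA F (fun y => g (p y)) x :=
  FC.comp (f := g) hg hp

theorem HP.comp {g : Y → P1} {p : X → Y} (hg : HP G g (p x)) (hp : HC F G p x) :
    HP F (fun y => g (p y)) x := by
  obtain ⟨a, b, ha, hb, hab, h1⟩ := hg
  exact ⟨_, _, hfa_comp ha hp, hfa_comp hb hp, hab, hp.1.eventually h1⟩

theorem hC_p1_iff : HC F p1Fam f x ↔ HP F f x := by
  constructor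
  · intro h
    obtain ⟨s, hs⟩ := ps_cover (f x)
    have h1 : HFA F (fun y => pc s (f y)) x := hfa_comp (G := p1Fam) (hf_pc s (f x) hs) h
    have h2 : ∀ᶠ y in 𝓝 x, f y ∈ ps s := h.1.preimage_mem_nhds ((isOpen_ps s).mem_nhds hs)
    refine ⟨fun y => ln s (pc s (f y)), fun y => ld s (pc s (f y)),
      HFA.comp_left (g := ln s) (P1F_54.differentiable_ln s _) h1,
      HFA.comp_left (g := ld s) (P1F_54.differentiable_ld s _) h1, P1F_54.lnd_ne s _, ?_⟩
    filter_upwards [h2] with y hy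
    rw [rat_eq]
    exact (pinv_pc hy).symm
  · rintro h
    obtain ⟨a, b, ha, hb, hab, h1⟩ := h
    have hc : ContinuousAt f x := HP.contAt ⟨a, b, ha, hb, hab, h1⟩
    obtain ⟨s, hs⟩ := ps_cover (f x)
    refine hC_of_fC (j := (s : p1Fam.ι)) hc hs ?_
    have e1 : f x = hmk (a x) (b x) := by rw [← rat_eq]; exact h1.self_of_nhds
    have h2 : HFA F (fun y => pc s (hmk (a y) (b y))) x :=
      hfa_pc_hmk ha hb s ((hmk_mem_ps hab s).1 (by rw [← e1]; exact hs))
    have h3 : HFA F (fun y => pc s (f y)) x := h2.congr (by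
      filter_upwards [h1] with y hy
      rw [hy, rat_eq])
    exact HFA.comp_left (g := oneL) oneL.differentiableAt h3

/-! ### products -/

theorem hC_prodMk {f : Z → X} {g : Z → Y} {z : Z} (hf : HC E F f z) (hg : HC E G g z) :
    HC E (prodFam F G) (fun y => (f y, g y)) z := by
  obtain ⟨i, hi⟩ := E.cover z
  obtain ⟨j, hj⟩ := F.cover (f z)
  obtain ⟨l, hl⟩ := G.cover (g z)
  refine HC.of (hf.1.prodMk hg.1) i (j, l) hi ⟨hj, hl⟩ ?_
  exact DifferentiableAt.comp (E.e i z) (g := Crest.Agent.R275.Prod363.appL N m)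
    (Crest.Agent.R275.Prod363.appL N m).differentiableAt ((hf.2 i j hi hj).prodMk (hg.2 i l hi hl))

open Crest.Agent.R272.P1A_54
open Crest.Agent.R272.Gr_559.GData (Amb)

theorem hC_two {f : Z → Fin 2 → Y} {z : Z} (h : ∀ i, HC E G (fun y => f y i) z) :
    HC E (twoFam G) f z := by
  have h1 := (tranH_symm_hol (Homeomorph.finTwoArrow (X := Y)) (prodFam G G)).hC
    ((f z 0, f z 1))
  have h2 : HC E (prodFam G G) (fun y => (f y 0, f y 1)) z := hC_prodMk (h 0) (h 1)
  have h3 := HC.comp (p := fun y => (f y 0, f y 1)) h1 h2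
  refine h3.congr (Eventually.of_forall fun y => ?_)
  exact (Homeomorph.finTwoArrow (X := Y)).symm_apply_apply (f y)

theorem hC_amb {f : Z → Amb X} {z : Z} (h1 : HC E F (fun y => (f y).1) z)
    (h2 : ∀ i, HP E (fun y => (f y).2.1 i) z) (h3 : HP E (fun y => (f y).2.2.1) z)
    (h4 : ∀ i, HP E (fun y => (f y).2.2.2 i) z) : HC E (ambFam F) f z :=
  hC_prodMk h1 (hC_prodMk (hC_two fun i => hC_p1_iff.2 (h2 i))
    (hC_prodMk (hC_p1_iff.2 h3) (hC_two fun i => hC_p1_iff.2 (h4 i))))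

/-! ### submanifolds -/

open Crest.Agent.R272.SubF_54

theorem hC_sl {S : Set X} (h : IsSl F S n) {f : Z → S} {z : Z} (hc : ContinuousAt f z)
    (hf : HC E F (fun y => (f y).1) z) : HC E (slFam h) f z := by
  obtain ⟨i, hi⟩ := E.cover z
  refine HC.of hc i (f z) hi (h.mem_sl (f z)) ?_
  set c := h.sl (f z) with hcdef
  have hxd : (f z).1 ∈ c.dom := h.mem_sl (f z)
  have h1 : HFA E (fun y => F.e c.j (f y).1) z := hfa_comp (G := F) (hfa_chart hxd.1) hf
  have h2 : DifferentiableAt ℂ c.ψ (F.e c.j (f z).1) :=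
    (c.dψ).differentiableAt (c.hV.mem_nhds hxd.2)
  have h3 : HFA E (fun y => c.ψ (F.e c.j (f y).1)) z := HFA.comp_left (g := c.ψ) h2 h1
  exact h3 i hi

/-! ### compatible charts -/

/-- a chart with holomorphic inverse and holomorphic coordinates is compatible -/
theorem cpt_of {e : OpenPartialHomeomorph X (Cn N)}
    (h1 : ∀ z ∈ e.target, HC (cnFam N) F e.symm z) (h2 : ∀ y ∈ e.source, HFA F e y) : Cpt F e := by
  constructor
  · rintro j z ⟨hz, hz2⟩
    have h3 := (h1 z hz).2 () j trivial hz2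
    exact h3.differentiableWithinAt
  · rintro j z ⟨hz, hz2⟩
    have h3 := h2 _ hz2 j ((F.e j).map_target hz)
    rw [(F.e j).right_inv hz] at h3
    exact h3.differentiableWithinAt

end

end Crest.Agent.R272.Tp5_60
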