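import Crest.Agent.R272.Tp4_60
import Crest.Agent.R272.Tp5_60
import Crest.Agent.R272.IdnDefs_834

/-!
# R272 (S0415), MODEL, type tp (helper60): `E 0`, `E 1` are biholomorphic

`toA : E6 N ≃ₜ Amb N`; `HLoc F L` : the local data are holomorphic; `CH 𝒞` : the charts of the
curve and the coordinates `t, κ` are holomorphic functions of each other;
`exists_EA` : `E i : OpenPartialHomeomorph ((C × C) × ℂ) X1`; `cpt_E` : compatible with `slFam`.
-/

set_option autoImplicit false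
set_option linter.unusedSectionVars false

open Set Filter Topology OnePoint

namespace Crest.Agent.R272.Tp6_60

open Crest.Agent.R275.Geo Crest.Agent.R273.Fam_835 Crest.Agent.R272.FamP_54
open Crest.Agent.R272.HFam_342 Crest.Agent.R272.Tp1_60 Crest.Agent.R272.Refl_246
open Crest.Agent.R272.Tp2_60 hiding Amb
open Crest.Agent.R272.Tp3_60 Crest.Agent.R272.Tp4_60
open Crest.Agent.R272.Tp5_60 Crest.Agent.R272.SubF_54
open Crest.Agent.R272.Cur_297 (Par Cv Cset Eqn hA hB tt kk continuous_tt continuous_kk)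
open Crest.Agent.R272.P1A_54 (ambFam amb_z amb_t amb_v amb_k)
open Crest.Agent.R272.Gr_559.GData (Amb)
open Crest.Agent.R272.AJ_956 (Cur)
open Crest.Agent.R272.Idn_834 (h3 pc)

noncomputable section

variable {N : Type} [TopologicalSpace N] {F : Fam 3 N} {P : Par}

/-- reordering of the ambient space of `X1` -/
def toA (N : Type) [TopologicalSpace N] : E6 N ≃ₜ Amb N where
  toFun y := (y.1, ![y.2.1, y.2.2.1], y.2.2.2.1, ![y.2.2.2.2.1, y.2.2.2.2.2])
  invFun p := (p.1, p.2.1 0, p.2.1 1, p.2.2.1, p.2.2.2 0, p.2.2.2 1)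
  left_inv y := rfl
  right_inv p := by
    refine Prod.ext rfl (Prod.ext ?_ (Prod.ext rfl ?_))
    · funext i; fin_cases i <;> rfl
    · funext i; fin_cases i <;> rfl
  continuous_toFun := by
    refine continuous_fst.prodMk (Continuous.prodMk ?_ (Continuous.prodMk (by fun_prop) ?_))
    · refine continuous_pi fun i => ?_
      fin_cases i
      · show Continuous fun y : E6 N => y.2.1
        fun_prop
      · show Continuous fun y : E6 N => y.2.2.1
        fun_prop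
    · refine continuous_pi fun i => ?_
      fin_cases i
      · show Continuous fun y : E6 N => y.2.2.2.2.1
        fun_prop
      · show Continuous fun y : E6 N => y.2.2.2.2.2
        fun_prop
  continuous_invFun := by fun_prop

@[simp] theorem toA_1 (y : E6 N) : (toA N y).1 = y.1 := rfl
@[simp] theorem toA_t0 (y : E6 N) : (toA N y).2.1 0 = y.2.1 := rfl
@[simp] theorem toA_t1 (y : E6 N) : (toA N y).2.1 1 = y.2.2.1 := rfl
@[simp] theorem toA_v (y : E6 N) : (toA N y).2.2.1 = y.2.2.2.1 := rfl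
@[simp] theorem toA_k0 (y : E6 N) : (toA N y).2.2.2 0 = y.2.2.2.2.1 := rfl
@[simp] theorem toA_k1 (y : E6 N) : (toA N y).2.2.2 1 = y.2.2.2.2.2 := rfl

/-- the local data are holomorphic -/
structure HLoc (F : Fam 3 N) (L : Loc P N) : Prop where
  ha : ∀ z ∈ L.sh.source, HFA F L.a z
  hb : ∀ i, ∀ z ∈ L.sh.source, HFA F (L.b i) z
  hm : ∀ i, ∀ z ∈ L.sh.source, HFA F (L.m i) z
  hS : ∀ z ∈ L.sh.source, HFA F L.sh z
  hs : ∀ S ∈ L.sh.target, ∀ j, L.sh.symm S ∈ (F.e j).source →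
    DifferentiableAt ℂ (fun S => F.e j (L.sh.symm S)) S

/-- the charts of the curve and the coordinates `t`, `κ` are holomorphic functions of each other -/
structure CH (𝒞 : Cur (Cv P)) : Prop where
  hT : ∀ c, ∀ s ∈ (𝒞.k c).target, HP cFam (fun s => tt ((𝒞.k c).symm s)) s
  hK : ∀ c, ∀ s ∈ (𝒞.k c).target, HP cFam (fun s => kk ((𝒞.k c).symm s)) s
  back : ∀ {n : ℕ} {X : Type} [TopologicalSpace X] (F : Fam n X) (γ : X → Cv P) (x : X),
    ContinuousAt γ x → HP F (fun y => tt (γ y)) x → HP F (fun y => kk (γ y)) x →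
      ∀ c, γ x ∈ (𝒞.k c).source → HFA F (fun y => 𝒞.k c (γ y)) x
  w0 : ∀ c, 𝒞.w c 0 ≠ 0 ↔ tt c ≠ ∞
  w1 : ∀ c, 𝒞.w c 1 ≠ 0 ↔ tt c ≠ ((0 : ℂ) : P1)
  tv0 : ∀ c, tt c ≠ ∞ → Idn_834.tv 𝒞 0 c = nn (tt c)
  iv : ∀ c, tt (𝒞.iv c) = tt c

section exist

variable (L : Loc P N) {X0 : Set (Amb N)}
  (hX : ∀ y : E6 N, y.1 ∈ L.sh.source → (toA N y ∈ X0 ↔ RelX L y))
  {r : ℝ} (hr : 0 < r) (hb : Metric.ball (0 : ℂ × ℂ × ℂ) r ⊆ L.sh.target)

include hX hr hb in
theorem exists_EA (hc : ∃ c : Cv P, tt c ≠ ∞ ∧ tt c ≠ ((0 : ℂ) : P1)) :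
    ∃ E : Fin 2 → OpenPartialHomeomorph ((Cv P × Cv P) × ℂ) X0, (∀ i, (E i).source = DE P r i) ∧
      ∀ i, ∀ p ∈ DE P r i, ((E i p).1 = toA N (L.fro (FE P i p)) ∧
        FE P i p ∈ Std (tt : Cv P → P1)) ∧ (FE P i p).1 ∈ Metric.ball (0 : ℂ × ℂ × ℂ) r := by
  set X : Set (E6 N) := toA N ⁻¹' X0 with hXdef
  have e : X ≃ₜ X0 := (toA N).subtype (fun _ => Iff.rfl)
  have he : ∃ e : X ≃ₜ X0, ∀ y : X, (e y).1 = toA N y.1 :=
    ⟨(toA N).subtype (fun _ => Iff.rfl), fun _ => rfl⟩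
  obtain ⟨e, he⟩ := he
  choose E h1 h2 using fun i => exists_E L X hX hr hb i hc
  refine ⟨fun i => (E i).transHomeomorph e, fun i => ?_, fun i p hp => ?_⟩
  · rw [← h1 i]; rfl
  · obtain ⟨h3, h4, h5⟩ := h2 i p hp
    refine ⟨⟨?_, h4⟩, h5⟩
    show (e (E i p)).1 = _
    rw [he, h3]

end exist

section cpt

variable {L : Loc P N} (H : HLoc F L) {𝒞 : Cur (Cv P)} (hC : CH 𝒞)

/-- evaluation at a coordinate -/
theorem hC_coord (i : Fin 3) (z : Cn 3) : HC (cnFam 3) cFam (fun z : Cn 3 => z i) z := by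
  refine hC_of_fC (j := ()) (by fun_prop) trivial ?_
  have h1 : HFA (cnFam 3) (fun z : Cn 3 => z i) z := hfa_cn.2 (by fun_prop)
  exact HFA.comp_left (g := oneL) oneL.differentiableAt h1

theorem hfa_coord (i : Fin 3) (z : Cn 3) : HFA (cnFam 3) (fun z : Cn 3 => z i) z :=
  hfa_cn.2 (by fun_prop)

include H in
/-- holomorphy of `fro` along holomorphic standard coordinates -/
theorem hC_fro {k : ℕ} {Z : Type} [TopologicalSpace Z] {E : Fam k Z} {g : Z → Tp2_60.Amb (Cv P)}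
    {z : Z} (h : (g z).1 ∈ L.sh.target) (hS : HFA E (fun y => (g y).1) z)
    (hT : HP E (fun y => tt (g y).2.1) z) (hT' : HP E (fun y => tt (g y).2.2.1) z)
    (hV : HP E (fun y => (g y).2.2.2) z)
    (hK : HP E (fun y => kk (g y).2.1) z) (hK' : HP E (fun y => kk (g y).2.2.1) z) :
    HC E (ambFam F) (fun y => toA N (L.fro (g y))) z := by
  have hm := L.sh.map_target h
  have h1 : HC E F (fun y => L.sh.symm (g y).1) z := by
    obtain ⟨i, hi⟩ := E.cover z
    obtain ⟨j, hj⟩ := F.cover (L.sh.symm (g z).1)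
    refine HC.of (ContinuousAt.comp (g := L.sh.symm) (L.sh.continuousAt_symm h) hS.continuousAt)
      i j hi hj ?_
    have h2 := H.hs _ h j hj
    have h3 : HFA E (fun y => F.e j (L.sh.symm (g y).1)) z :=
      HFA.comp_left (g := fun S => F.e j (L.sh.symm S)) h2 hS
    exact h3 i hi
  have ha : HFA E (fun y => L.a (L.sh.symm (g y).1)) z := hfa_comp (H.ha _ hm) h1
  have hb0 : HFA E (fun y => L.b 0 (L.sh.symm (g y).1)) z := hfa_comp (H.hb 0 _ hm) h1
  have hb1 : HFA E (fun y => L.b 1 (L.sh.symm (g y).1)) z := hfa_comp (H.hb 1 _ hm) h1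
  have hm0 : HFA E (fun y => L.m 0 (L.sh.symm (g y).1)) z := hfa_comp (H.hm 0 _ hm) h1
  have hm1 : HFA E (fun y => L.m 1 (L.sh.symm (g y).1)) z := hfa_comp (H.hm 1 _ hm) h1
  have na := L.a0 _ hm
  have nb0 := L.b0 0 _ hm
  have nb1 := L.b0 1 _ hm
  have nm0 := L.m0 0 _ hm
  have nm1 := L.m0 1 _ hm
  have hee : HFA E (fun y => Loc.ee P (g y).1) z := by
    refine HFA.comp_left (g := Loc.ee P) ?_ hS
    unfold Loc.ee
    fun_prop
  refine hC_amb h1 (fun i => ?_) ?_ (fun i => ?_)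
  · fin_cases i
    · exact HP.mob hT hb0 ((HFA.const (P.c 5) z).mul hb0).neg (HFA.const 0 z) ha
        (by rw [mul_zero, sub_zero]; exact mul_ne_zero nb0 na)
    · exact HP.mob hT' hb1 ((HFA.const (P.c 5) z).mul hb1).neg (HFA.const 0 z) ha
        (by rw [mul_zero, sub_zero]; exact mul_ne_zero nb1 na)
  · exact HP.mob hV (hb0.mul hb1) (hee.mul (hb0.mul hb1)) (HFA.const 0 z) ha
      (by rw [mul_zero, sub_zero]; exact mul_ne_zero (mul_ne_zero nb0 nb1) na)
  · fin_cases i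
    · exact HP.mob hK hm0 (HFA.const 0 z) (HFA.const 0 z) (HFA.const 1 z)
        (by rw [mul_zero, sub_zero, mul_one]; exact nm0)
    · exact HP.mob hK' hm1 (HFA.const 0 z) (HFA.const 0 z) (HFA.const 1 z)
        (by rw [mul_zero, sub_zero, mul_one]; exact nm1)

/-- `T`-coordinate of a point over the cluster, in the ambient space -/
def TA (L : Loc P N) (i : Fin 2) (y : Amb N) : P1 := Tm P (L.a y.1) (L.b i y.1) (y.2.1 i)
/-- `K`-coordinate -/
def KA (L : Loc P N) (i : Fin 2) (y : Amb N) : P1 := Km (L.m i y.1) (y.2.2.2 i)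
/-- `V`-coordinate -/
def VA (L : Loc P N) (y : Amb N) : P1 := L.vv y.1 y.2.2.1

include H in
theorem hP_TA (i : Fin 2) {y : Amb N} (hy : y.1 ∈ L.sh.source) : HP (ambFam F) (TA L i) y := by
  have ha : HFA (ambFam F) (fun y => L.a y.1) y := hfa_comp (H.ha _ hy) (amb_z.hC y)
  have hb : HFA (ambFam F) (fun y => L.b i y.1) y := hfa_comp (H.hb i _ hy) (amb_z.hC y)
  have ht : HP (ambFam F) (fun y : Amb N => y.2.1 i) y := hC_p1_iff.1 ((amb_t i).hC y)
  exact HP.mob ht ha ((HFA.const (P.c 5) y).mul hb) (HFA.const 0 y) hb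
    (by rw [mul_zero, sub_zero]; exact mul_ne_zero (L.a0 _ hy) (L.b0 i _ hy))

include H in
theorem hP_KA (i : Fin 2) {y : Amb N} (hy : y.1 ∈ L.sh.source) : HP (ambFam F) (KA L i) y := by
  have hm : HFA (ambFam F) (fun y => L.m i y.1) y := hfa_comp (H.hm i _ hy) (amb_z.hC y)
  have ht : HP (ambFam F) (fun y : Amb N => y.2.2.2 i) y := hC_p1_iff.1 ((amb_k i).hC y)
  exact HP.mob ht (HFA.const 1 y) (HFA.const 0 y) (HFA.const 0 y) hm
    (by rw [mul_zero, sub_zero, one_mul]; exact L.m0 i _ hy)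

include H in
theorem hP_VA {y : Amb N} (hy : y.1 ∈ L.sh.source) : HP (ambFam F) (VA L) y := by
  have ha : HFA (ambFam F) (fun y => L.a y.1) y := hfa_comp (H.ha _ hy) (amb_z.hC y)
  have hb0 : HFA (ambFam F) (fun y => L.b 0 y.1) y := hfa_comp (H.hb 0 _ hy) (amb_z.hC y)
  have hb1 : HFA (ambFam F) (fun y => L.b 1 y.1) y := hfa_comp (H.hb 1 _ hy) (amb_z.hC y)
  have hS : HFA (ambFam F) (fun y => L.sh y.1) y := hfa_comp (H.hS _ hy) (amb_z.hC y)
  have hee : HFA (ambFam F) (fun y => Loc.ee P (L.sh y.1)) y := by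
    refine HFA.comp_left (g := Loc.ee P) ?_ hS
    unfold Loc.ee
    fun_prop
  have ht : HP (ambFam F) (fun y : Amb N => y.2.2.1) y := hC_p1_iff.1 (amb_v.hC y)
  have hne := mul_ne_zero (L.a0 _ hy) (mul_ne_zero (L.b0 0 _ hy) (L.b0 1 _ hy))
  exact HP.mob ht ha (hee.mul (hb0.mul hb1)).neg (HFA.const 0 y) (hb0.mul hb1)
    (by rw [mul_zero, sub_zero]; exact hne)

/-- the standard coordinates of `toA (fro s)` -/
theorem co_fro {s : Tp2_60.Amb (Cv P)} (h : s.1 ∈ L.sh.target) :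
    L.sh (toA N (L.fro s)).1 = s.1 ∧ TA L 0 (toA N (L.fro s)) = tt s.2.1 ∧
      TA L 1 (toA N (L.fro s)) = tt s.2.2.1 ∧ VA L (toA N (L.fro s)) = s.2.2.2 ∧
      KA L 0 (toA N (L.fro s)) = kk s.2.1 ∧ KA L 1 (toA N (L.fro s)) = kk s.2.2.1 := by
  have hz := L.sh.map_target h
  have ha := L.a0 _ hz
  have hb := L.b0 0 _ hz
  have hb' := L.b0 1 _ hz
  have e0 : L.sh (L.fro s).1 = s.1 := L.sh.right_inv h
  refine ⟨e0, Tm_tm ha hb _, Tm_tm ha hb' _, ?_, Km_km (L.m0 0 _ hz) _, Km_km (L.m0 1 _ hz) _⟩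
  show L.vv (L.fro s).1 (L.fro s).2.2.2.1 = s.2.2.2
  unfold Loc.vv
  rw [e0]
  exact Vm_vm _ ha (mul_ne_zero hb hb') _

end cpt

end

end Crest.Agent.R272.Tp6_60
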