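import Crest.Agent.R272.Tq4_916
import Crest.Agent.R272.Tp6_60
import Crest.Agent.R272.Act1_302
import Crest.Agent.R272.Lc6_220

/-!
# R272 (S0415), POS at `p0` (helper732): the neighbourhood of the cluster fibre (`hprop` of 848)

`st A L hX y`   : the standard coordinates (60's `toS`) of `y : A.X` over `L.sh.source`;
`exists_cover`  : over a small neighbourhood of the cluster point all points lie in the charts `Eij`, `Em`;
`exists_BV'`    : the same on a small neighbourhood `B : BV G z` (220).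
-/

set_option autoImplicit false
set_option linter.unusedSectionVars false
set_option linter.unusedVariables false

open Set Filter Topology OnePoint

namespace Crest.Agent.R272.PEnd8_732

open Crest.Agent.R275.Geo Crest.Agent.R273.Fam_835 Crest.Agent.R272.Gr_559
open Crest.Agent.R272.Act_302 Crest.Agent.R272.Lc_220 Crest.Agent.R272.Refl_246
open Crest.Agent.R272.MQ_783
open Crest.Agent.R272.Cur_297 (Par Cv tt kk)
open Crest.Agent.R272.Tp1_60 (iv nn dd)
open Crest.Agent.R272.Tp2_60 (Amb Std)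
open Crest.Agent.R272.Tp3_60 (Loc RelX E6)
open Crest.Agent.R272.Tp6_60 (toA)
open Crest.Agent.R272.Tq1_916 (pole dl nu fij fm Inf Dm swA xi Dij fibre cover exists_frame fij_eq
  fm_eq std_m swA_mem)
open Crest.Agent.R272.Tq3_916 (DEij FEij DEm zst exists_Em)
open Crest.Agent.R272.Tq4_916 (ib ib_cover pinf exists_EijC)

noncomputable section

/-! ### topology -/

/-- tube lemma for closed maps -/
theorem exists_tube {Y N : Type*} [TopologicalSpace Y] [TopologicalSpace N] {π : Y → N}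
    (hπ : IsClosedMap π) {z : N} {U : Set Y} (hU : IsOpen U) (h : ∀ y, π y = z → y ∈ U) :
    ∃ W : Set N, IsOpen W ∧ z ∈ W ∧ ∀ y, π y ∈ W → y ∈ U := by
  refine ⟨(π '' Uᶜ)ᶜ, (hπ _ hU.isClosed_compl).isOpen_compl, ?_, ?_⟩
  · rintro ⟨y, hy, hyz⟩
    exact hy (h y hyz)
  · intro y hy
    by_contra hyU
    exact hy ⟨y, hyU, rfl⟩

/-- shrink a small neighbourhood -/
def shrink {G N : Type} [Group G] [TopologicalSpace N] [MulAction G N] [ContinuousConstSMul G N]
    {z : N} (B : BV G z) (W : Set N) (hW : IsOpen W) (hz : z ∈ W) : BV G z where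
  V := B.V ∩ (W ∩ (fun v => B.s • v) ⁻¹' W)
  s := B.s
  op := B.op.inter (hW.inter (hW.preimage (continuous_const_smul B.s)))
  mem := ⟨B.mem, hz, by
    show B.s • z ∈ W
    rw [B.sz]
    exact hz⟩
  ss := B.ss
  sV v hv := ⟨B.sV v hv.1, hv.2.2, by
    show B.s • B.s • v ∈ W
    rw [← mul_smul, B.ss, one_smul]
    exact hv.2.1⟩
  two g v hv hgv := B.two g v hv.1 hgv.1
  sz := B.sz

section shr

variable {G N : Type} [Group G] [TopologicalSpace N] [MulAction G N] [ContinuousConstSMul G N]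
  {z : N} (B : BV G z) (W : Set N) (hW : IsOpen W) (hz : z ∈ W)

theorem shrink_sub : (shrink B W hW hz).V ⊆ W := fun _ hv => hv.2.1

theorem shrink_sub' : (shrink B W hW hz).V ⊆ B.V := fun _ hv => hv.1

@[simp] theorem shrink_s : (shrink B W hW hz).s = B.s := rfl

end shr

/-- in a small neighbourhood the orbit of the centre is the centre -/
theorem BV_orbit {G N : Type} [Group G] [TopologicalSpace N] [MulAction G N] {z : N} (B : BV G z)
    {g : G} (h : g • z ∈ B.V) : g • z = z := by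
  rcases B.two g z B.mem h with rfl | rfl
  · exact one_smul G z
  · exact B.sz

/-! ### standard coordinates -/

variable {N : Type} [TopologicalSpace N] {F : Fam 3 N} {D : GData F} {G : Type} [Group G]
  [MulAction G N] (A : GAct D G) {P : Par} (L : Loc P N)

/-- the equations of `X₁` over the source of the coordinates -/
def LX (D : GData F) (L : Loc P N) : Prop :=
  ∀ y : E6 N, y.1 ∈ L.sh.source → (toA N y ∈ D.X1 ↔ RelX L y)

/-- the underlying point of `N × P1^5` -/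
def yE (y : A.X) : E6 N := (toA N).symm (A.val y)

theorem yE_fst (y : A.X) : (yE A y).1 = A.pz y := rfl

theorem toA_yE (y : A.X) : toA N (yE A y) = A.val y := (toA N).apply_symm_apply _

variable {L} in
theorem yE_mem {y : A.X} (h : A.pz y ∈ L.sh.source) : (yE A y).1 ∈ L.sh.source := h

variable {L} in
theorem LX.rel (hX : LX D L) (y : A.X) (h : A.pz y ∈ L.sh.source) : RelX L (yE A y) :=
  (hX _ (yE_mem A h)).1 (by rw [toA_yE]; exact A.val_mem y)

open Classical in
/-- the standard coordinates -/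
def st (hX : LX D L) (y : A.X) : Amb (Cv P) :=
  if h : A.pz y ∈ L.sh.source then L.toS (yE A y) (yE_mem A h) (hX.rel A y h)
  else zst (pinf P true, pinf P true)

variable {L} {hX : LX D L}

theorem st_eq {y : A.X} (h : A.pz y ∈ L.sh.source) :
    st A L hX y = L.toS (yE A y) (yE_mem A h) (hX.rel A y h) := by
  classical
  exact dif_pos h

theorem st_mem {y : A.X} (h : A.pz y ∈ L.sh.source) :
    st A L hX y ∈ Std (tt : Cv P → Cur_297.P1) := by
  rw [st_eq A h]
  exact L.toS_mem _ _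

theorem st_fst {y : A.X} (h : A.pz y ∈ L.sh.source) : (st A L hX y).1 = L.sh (A.pz y) := by
  rw [st_eq A h]
  rfl

theorem st_fst_mem {y : A.X} (h : A.pz y ∈ L.sh.source) : (st A L hX y).1 ∈ L.sh.target := by
  rw [st_fst A h]
  exact L.sh.map_source h

theorem fro_st {y : A.X} (h : A.pz y ∈ L.sh.source) :
    toA N (L.fro (st A L hX y)) = A.val y := by
  rw [st_eq A h, L.fro_toS]
  exact toA_yE A y

/-- uniqueness of the standard coordinates -/
theorem st_of {y : A.X} {σ : Amb (Cv P)} (hσ : σ ∈ Std (tt : Cv P → Cur_297.P1))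
    (h : σ.1 ∈ L.sh.target) (he : A.val y = toA N (L.fro σ)) :
    A.pz y ∈ L.sh.source ∧ st A L hX y = σ := by
  have h1 : A.pz y = L.sh.symm σ.1 := by
    rw [A.pz_eq, he]
    rfl
  have h2 : A.pz y ∈ L.sh.source := by
    rw [h1]
    exact L.sh.map_target h
  refine ⟨h2, ?_⟩
  have h3 := fro_st (hX := hX) A h2
  rw [he] at h3
  exact Tp4_60.fro_inj L (st_mem A h2) (st_fst_mem A h2) hσ h ((toA N).injective h3)

/-- a point with standard coordinates `σ` -/
theorem exists_st (hX : LX D L) {σ : Amb (Cv P)} (hσ : σ ∈ Std (tt : Cv P → Cur_297.P1))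
    (h : σ.1 ∈ L.sh.target) : ∃ y : A.X, A.val y = toA N (L.fro σ) := by
  have h1 : toA N (L.fro σ) ∈ D.X1 := (hX _ (L.sh.map_target h)).2 (L.fro_rel hσ h)
  exact ⟨⟨_, h1⟩, rfl⟩

/-! ### the charts -/

/-- `σ` lies in a chart -/
def InCh (P : Par) (r : ℝ) (σ : Amb (Cv P)) : Prop :=
  (∃ i j p, p ∈ DEij P r i j ∧ σ = FEij P i j p) ∨
    ∃ b b' p, p ∈ DEm (ib P b) (ib P b') r ∧ σ = fm (ib P b) (ib P b') p

/-- the points over the origin are in charts -/
theorem inCh_zero {r : ℝ} (hr : 0 < r) {σ : Amb (Cv P)} (hσ : σ ∈ Std (tt : Cv P → Cur_297.P1))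
    (h0 : σ.1 = 0) : InCh P r σ := by
  have h0' : σ.1 = (0, 0, 0) := h0
  rcases eq_or_ne σ.2.2.2 ((0 : ℂ) : Cur_297.P1) with hv | hv
  · left
    obtain ⟨i, hi⟩ := exists_frame (tt σ.2.1)
    obtain ⟨j, hj⟩ := exists_frame (tt σ.2.2.1)
    have e : FEij P i j ((σ.2.1, σ.2.2.1), 0) = σ := by
      rw [Tq3_916.zst_eq]
      exact Prod.ext h0'.symm (Prod.ext rfl (Prod.ext rfl hv.symm))
    exact ⟨i, j, ((σ.2.1, σ.2.2.1), 0), ⟨hi, hj, by simpa using hr⟩, e.symm⟩
  · right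
    rcases (fibre h0').1 hσ with h | ⟨h1, h2⟩
    · exact absurd h hv
    · obtain ⟨b, hb⟩ := ib_cover _ h1
      obtain ⟨b', hb'⟩ := ib_cover _ h2
      have e := fm_eq (ib P b) (ib P b') hσ hv hb hb'
      rw [h0'] at e
      refine ⟨b, b', (iv σ.2.2.2, 0, 0), ⟨⟨?_, ?_⟩, ?_⟩, e.symm⟩
      · simpa using (ib P b).r_pos
      · simpa using (ib P b').r_pos
      · rw [Tq3_916.norm_prod_lt]
        simpa using hr

variable {r : ℝ}

/-- the set of points in charts is open -/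
theorem isOpen_inCh (hX : LX D L) (hr : 0 < r)
    (hb : Metric.ball (0 : ℂ × ℂ × ℂ) r ⊆ L.sh.target) :
    ∃ U : Set A.X, IsOpen U ∧ ∀ y, y ∈ U ↔ A.pz y ∈ L.sh.source ∧ InCh P r (st A L hX y) := by
  set X : Set (E6 N) := toA N ⁻¹' D.X1 with hXdef
  obtain ⟨e, he⟩ : ∃ e : X ≃ₜ A.X, ∀ y : X, A.val (e y) = toA N y.1 :=
    ⟨(toA N).subtype (p := fun y => y ∈ X) (q := fun y => y ∈ D.X1) (fun _ => Iff.rfl),
      fun _ => rfl⟩
  choose E h1 h2 using fun i j => exists_EijC L X hX hr hb i j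
  choose M h3 h4 using fun b b' => exists_Em L X hX hr hb (ib P b) (ib P b')
  let U : Set A.X := (⋃ i, ⋃ j, e.symm ⁻¹' (E i j).target) ∪
    ⋃ b, ⋃ b', e.symm ⁻¹' (M b b').target
  have hU : IsOpen U := by
    refine IsOpen.union ?_ ?_
    · exact isOpen_iUnion fun i => isOpen_iUnion fun j =>
        (E i j).open_target.preimage e.symm.continuous
    · exact isOpen_iUnion fun i => isOpen_iUnion fun j =>
        (M i j).open_target.preimage e.symm.continuous
  refine ⟨U, hU, fun y => ⟨fun hy => ?_, fun hy => ?_⟩⟩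
  · rcases hy with hy | hy
    · obtain ⟨i, hy⟩ := mem_iUnion.1 hy
      obtain ⟨j, hy⟩ := mem_iUnion.1 hy
      have hp := (E i j).map_target hy
      obtain ⟨h5, h6, h7⟩ := h2 i j _ (by rw [h1] at hp; exact hp)
      rw [(E i j).right_inv hy] at h5
      have h8 : A.val y = toA N (L.fro (FEij P i j ((E i j).symm (e.symm y)))) := by
        rw [← h5, ← he, e.apply_symm_apply]
      obtain ⟨h9, h10⟩ := st_of (hX := hX) A h6 (hb h7) h8
      refine ⟨h9, Or.inl ⟨i, j, _, ?_, h10⟩⟩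
      rw [h1] at hp
      exact hp
    · obtain ⟨i, hy⟩ := mem_iUnion.1 hy
      obtain ⟨j, hy⟩ := mem_iUnion.1 hy
      have hp := (M i j).map_target hy
      obtain ⟨h5, h6, h7⟩ := h4 i j _ (by rw [h3] at hp; exact hp)
      rw [(M i j).right_inv hy] at h5
      have h8 : A.val y = toA N (L.fro (fm (ib P i) (ib P j) ((M i j).symm (e.symm y)))) := by
        rw [← h5, ← he, e.apply_symm_apply]
      obtain ⟨h9, h10⟩ := st_of (hX := hX) A h6 (hb h7) h8
      refine ⟨h9, Or.inr ⟨i, j, _, ?_, h10⟩⟩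
      rw [h3] at hp
      exact hp
  · obtain ⟨hy, h | h⟩ := hy
    · obtain ⟨i, j, p, hp, hσ⟩ := h
      obtain ⟨h5, h6, h7⟩ := h2 i j p hp
      left
      refine mem_iUnion.2 ⟨i, mem_iUnion.2 ⟨j, ?_⟩⟩
      have h8 : e.symm y = E i j p := by
        rw [e.symm_apply_eq]
        refine A.val_injective ?_
        rw [he, h5, ← hσ, fro_st A hy]
      show e.symm y ∈ (E i j).target
      rw [h8]
      exact (E i j).map_source (by rw [h1]; exact hp)
    · obtain ⟨i, j, p, hp, hσ⟩ := h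
      obtain ⟨h5, h6, h7⟩ := h4 i j p hp
      right
      refine mem_iUnion.2 ⟨i, mem_iUnion.2 ⟨j, ?_⟩⟩
      have h8 : e.symm y = M i j p := by
        rw [e.symm_apply_eq]
        refine A.val_injective ?_
        rw [he, h5, ← hσ, fro_st A hy]
      show e.symm y ∈ (M i j).target
      rw [h8]
      exact (M i j).map_source (by rw [h3]; exact hp)

/-- **the charts cover a neighbourhood of the cluster fibre** -/
theorem exists_cover (hX : LX D L) (hr : 0 < r)
    (hb : Metric.ball (0 : ℂ × ℂ × ℂ) r ⊆ L.sh.target) :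
    ∃ W : Set N, IsOpen W ∧ L.sh.symm 0 ∈ W ∧ W ⊆ L.sh.source ∧
      (∀ z ∈ W, L.sh z ∈ Metric.ball (0 : ℂ × ℂ × ℂ) r) ∧
      ∀ y : A.X, A.pz y ∈ W → InCh P r (st A L hX y) := by
  have h0 : (0 : ℂ × ℂ × ℂ) ∈ L.sh.target := hb (Metric.mem_ball_self hr)
  obtain ⟨U, hU, hUi⟩ := isOpen_inCh A hX hr hb
  obtain ⟨W, hW, hzW, hWU⟩ := exists_tube A.isProperMap_pz.isClosedMap (z := L.sh.symm 0) hU
    fun y hy => by
      have h1 : A.pz y ∈ L.sh.source := by rw [hy]; exact L.sh.map_target h0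
      refine (hUi y).2 ⟨h1, inCh_zero hr (st_mem A h1) ?_⟩
      rw [st_fst A h1, hy, L.sh.right_inv h0]
  refine ⟨W ∩ (L.sh.source ∩ L.sh ⁻¹' Metric.ball (0 : ℂ × ℂ × ℂ) r),
    hW.inter (L.sh.isOpen_inter_preimage Metric.isOpen_ball), ⟨hzW, L.sh.map_target h0, ?_⟩,
    fun z hz => hz.2.1, fun z hz => hz.2.2, fun y hy => ((hUi y).1 (hWU y hy.1)).2⟩
  show L.sh (L.sh.symm 0) ∈ Metric.ball (0 : ℂ × ℂ × ℂ) r
  rw [L.sh.right_inv h0]
  exact Metric.mem_ball_self hr

/-- off the cluster point the fibre coordinate does not vanish -/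
theorem xi_ne {y : A.X} (h : A.pz y ∈ L.sh.source) (h0 : (0 : ℂ × ℂ × ℂ) ∈ L.sh.target)
    (hy : A.pz y ≠ L.sh.symm 0) {i j : Fin 2} {p : (Cv P × Cv P) × ℂ}
    (hp : st A L hX y = FEij P i j p) : p.2 ≠ 0 := by
  intro hp0
  refine hy ?_
  have h1 : (st A L hX y).1 = 0 := by
    have h2 : p = (p.1, 0) := Prod.ext rfl hp0
    rw [hp, h2, Tq3_916.zst_eq]
    rfl
  rw [st_fst A h] at h1
  rw [← h1, L.sh.left_inv h]

/-- off the cluster point, in the `m`-charts -/
theorem s_ne {y : A.X} (h : A.pz y ∈ L.sh.source) (h0 : (0 : ℂ × ℂ × ℂ) ∈ L.sh.target)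
    (hy : A.pz y ≠ L.sh.symm 0) {b b' : Bool} {p : ℂ × ℂ × ℂ}
    (hp : st A L hX y = fm (ib P b) (ib P b') p) : p.2.1 ≠ 0 ∨ p.2.2 ≠ 0 := by
  by_contra hcon
  push Not at hcon
  refine hy ?_
  have h1 : (st A L hX y).1 = 0 := by
    rw [hp]
    show (p.1 * p.2.1 * p.2.2, p.2.1, p.2.2) = (0 : ℂ × ℂ × ℂ)
    rw [hcon.1, hcon.2, mul_zero]
    rfl
  rw [st_fst A h] at h1
  rw [← h1, L.sh.left_inv h]

/-- **the small neighbourhood of the cluster point** -/
theorem exists_BV' [ContinuousConstSMul G N] (hN : RA F G) (hX : LX D L) (hr : 0 < r)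
    (hb : Metric.ball (0 : ℂ × ℂ × ℂ) r ⊆ L.sh.target) {O : Set N} (hO : IsOpen O)
    (hzO : L.sh.symm 0 ∈ O) :
    ∃ B : BV G (L.sh.symm 0), B.V ⊆ O ∧ B.V ⊆ L.sh.source ∧
      (∀ z ∈ B.V, L.sh z ∈ Metric.ball (0 : ℂ × ℂ × ℂ) r) ∧
      ∀ y : A.X, A.pz y ∈ B.V → InCh P r (st A L hX y) := by
  obtain ⟨W, h1, h2, h3, h4, h5⟩ := exists_cover A hX hr hb
  obtain ⟨B⟩ := exists_BV hN (L.sh.symm 0)
  have h6 := shrink_sub B (W ∩ O) (h1.inter hO) ⟨h2, hzO⟩
  exact ⟨shrink B (W ∩ O) (h1.inter hO) ⟨h2, hzO⟩, fun z hz => (h6 hz).2,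
    fun z hz => h3 (h6 hz).1, fun z hz => h4 z (h6 hz).1, fun y hy => h5 y (h6 hy).1⟩

/-! ### the swap -/

/-- the swap in standard coordinates, over `V` -/
def Swp (A : GAct D G) (L : Loc P N) (s : G) (V : Set N) : Prop :=
  ∀ σ ∈ Std (tt : Cv P → Cur_297.P1), σ.1 ∈ L.sh.target → L.sh.symm σ.1 ∈ V →
    (swA σ).1 ∈ L.sh.target ∧ A.act s (toA N (L.fro σ)) = toA N (L.fro (swA σ))

theorem st_smul {s : G} {V : Set N} (hV : V ⊆ L.sh.source) (hs : Swp A L s V) {y : A.X}
    (hy : A.pz y ∈ V) : st A L hX (s • y) = swA (st A L hX y) := by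
  have h1 := hV hy
  have h2 := st_mem (hX := hX) A h1
  have h3 := st_fst_mem (hX := hX) A h1
  have h4 : L.sh.symm (st A L hX y).1 = A.pz y := by
    rw [st_fst A h1, L.sh.left_inv h1]
  obtain ⟨h5, h6⟩ := hs _ h2 h3 (by rw [h4]; exact hy)
  refine (st_of A (swA_mem h2) h5 ?_).2
  rw [A.val_smul, ← h6, fro_st A h1]

/-- **a swap-invariant function of the standard coordinates is constant on orbits over `V`** -/
theorem inv_of_swA {z : N} {B : BV G z} (hV : B.V ⊆ L.sh.source) (hs : Swp A L B.s B.V)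
    {Z : Type*} {f : Amb (Cv P) → Z} (hf : ∀ σ, f (swA σ) = f σ) {y : A.X} {g : G}
    (hy : A.pz y ∈ B.V) (hgy : A.pz (g • y) ∈ B.V) :
    f (st A L hX (g • y)) = f (st A L hX y) := by
  rcases B.two g _ hy hgy with rfl | rfl
  · rw [one_smul]
  · rw [st_smul A hV hs hy, hf]

theorem inv_of_pr {z : N} {B : BV G z} (hV : B.V ⊆ L.sh.source) (hs : Swp A L B.s B.V)
    {Z : Type*} {f : Amb (Cv P) → Z} (hf : ∀ σ, f (swA σ) = f σ) {y y' : A.X}
    (hy : A.pz y ∈ B.V) (hy' : A.pz y' ∈ B.V) (h : pr G y = pr G y') :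
    f (st A L hX y) = f (st A L hX y') := by
  obtain ⟨g, rfl⟩ := pr_eq_iff.1 h.symm
  exact inv_of_swA A hV hs hf hy' hy

end

end Crest.Agent.R272.PEnd8_732
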