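import Crest.Agent.R272.CmF_220
import Crest.Agent.R272.Tq12_916
import Crest.Agent.R272.Th4_876

/-!
# R272 (S0415), POS at `p0` (helper220): the germ clause from the collar alone

* `Collar W Γ`      : the only remaining hypothesis (92);
* `germ_of_collar`  : the germ clause of `s15_W`.
-/

set_option autoImplicit false
set_option linter.unusedSectionVars false
set_option linter.unusedVariables false

open Set Filter Topology

namespace Crest.Agent.R272.PEndZ_220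

open Crest.Agent.R275.Geo Crest.Agent.R273.Fam_835
open Crest.Agent.R272 Crest.Agent.R272.MQ_783 Crest.Agent.R272.Refl_246
open Crest.Agent.R272.HFam_342 Crest.Agent.R272.Sur_342 Crest.Agent.R272.Flop_66
open Crest.Agent.R272.AJ_956 Crest.Agent.R272.Idn_834 Crest.Agent.R272.Ax_834
open Crest.Agent.R272.Cur_297 Crest.Agent.R272.K3E_227 Crest.Agent.R272.M15_939
open Crest.Agent.R272.Md_834 Crest.Agent.R272.PEnd_732 Crest.Agent.R272.Pos15_220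
open Crest.Agent.R272.Tp6_60 (toA)
open Crest.Agent.R272.Tp10_60 (GermE)
open Crest.Agent.R272.Tq3_916 (zst)
open Crest.Agent.R272.Tq11_916 (zG)
open Crest.Agent.R272.Tq12_916 (GE)
open Crest.Agent.R272.PosP5_848 Crest.Agent.R272.PosP6_848 Crest.Agent.R272.PosP7_848
open Crest.Agent.R272.PW_92 (IPhi KF KD)
open Crest.Agent.R272.Th_876 (KdP exists_kd)
open Crest.Agent.R272.Lc_220 Crest.Agent.R272.PEnd8_732

noncomputable section

variable {M : Ar}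

/-- **the collar** (92) -/
def Collar (W : Md M) (Γ : GE M) : Prop :=
  ∀ (B : BV M.G M.p0), B.s = M.s → B.V ⊆ Γ.L.sh.source → Swp M.A Γ.L B.s B.V →
    ∀ T : YC Pz M.CX M.A.pz M.p0 (M.A.pz ⁻¹' B.V), T.st = st M.A Γ.L Γ.hX →
    ∀ (q : Fin 3 → E2 → ℂ) (K : KF 4⁻¹ q), (∀ᶠ x in 𝓝ˢ (cur Pz).Gam, KdP W.hN q x) →
    ∀ b, 15 ≤ b → ∃ δ > 0, ∀ u : Up, u.N ≠ 0 → u.N < δ → u.N < W.ε →
      ∃ y ∈ M.A.pz ⁻¹' B.V, pr M.G y = W.S.bx u ∧ ∀ j, K.PhiU b j u = T.ff b j y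

/-- **the germ clause of `s15_W`, from the collar** -/
theorem germ_of_collar (W : Md M) (Γ : GE M) (hG : W.Ge = Γ.g) (hz : W.z = zG Γ)
    (hU : Γ.L.sh.source ⊆ M.bpt.p.U ∩ M.bpt.p'.U)
    (hsh : ∀ z ∈ Γ.L.sh.source, Γ.L.sh z = (M.bpt.p.s0 z, M.bpt.p.s1 z, M.bpt.p'.s1 z))
    (hC : Collar W Γ) (m₀ : ℕ) :
    ∃ mm : ℕ, m₀ ≤ mm ∧ Nonempty (PhiS W.S W.ra.fam Up.fam (piM M.A) (q0 M)
      (JM W.ra) (R W.ra) mm 4) := by
  obtain ⟨q, hkd, -, hq⟩ := exists_kd W.hN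
  obtain ⟨K⟩ := hkd.exists_kf
  obtain ⟨B, hBs, -, hBV, hsw, T, hT, -⟩ := exists_YC Γ (Tq12_916.sigM0 M) M.bpt.s_fix M.s_sq
    isOpen_univ (mem_univ M.p0)
  have hne : B.s ≠ 1 := by rw [hBs]; exact M.bpt.s_ne
  let E : MdE M := ⟨W, Γ, hG, fun x => by rw [hz]; rfl⟩
  exact E.germ15 T hT (ff_inv (hX := Γ.hX) hBV hsw T hT) T.hol' T.val' T.fin'
    (fun mm hmm y hy hy0 => Cm_220.cmp_O M.A (nzX_ins M) W.ra M.bpt.p M.bpt.p' M.bpt.s0_eq hU hsh
      (hL := Γ.hX) hBV hsw hne T hT (by omega) hy hy0)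
    (upDat K) (fun b hb => hC B hBs hBV hsw T hT q K hq b hb) m₀

end

end Crest.Agent.R272.PEndZ_220
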