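import Crest.Agent.R275.Loc2A_879

/-!
# R272, (5W) of #6650 (helper92), part 1: analytic functions of two variables of order `≥ k`

`decomp` : `f` analytic at `0 ∈ ℂ²`, `f = O(|z|^k)` ⟹ `f z = ∑_{i ≤ k} z₀^(k-i) z₁^i A_i(z)` near `0`
with `A_i` analytic.
-/

set_option autoImplicit false
set_option linter.unusedSectionVars false

open Filter Topology Asymptotics Set Metric

namespace Crest.Agent.R272.PW_92

noncomputable section

/-- one variable -/
theorem div_one' {c : ℂ → ℂ} (hc : AnalyticAt ℂ c 0) {k : ℕ}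
    (ho : c =O[𝓝 0] fun z : ℂ => ‖z‖ ^ k) :
    ∃ h : ℂ → ℂ, AnalyticAt ℂ h 0 ∧ ∀ᶠ z in 𝓝 (0 : ℂ), c z = z ^ k * h z := by
  have key : (k : ℕ∞) ≤ analyticOrderAt c 0 := by
    by_contra hlt
    rw [not_le] at hlt
    obtain ⟨m, hm⟩ := ENat.ne_top_iff_exists.1 (ne_top_of_lt hlt)
    rw [← hm] at hlt
    have hmk : m < k := by exact_mod_cast hlt
    obtain ⟨u, hu, hu0, he⟩ := (hc.analyticOrderAt_eq_natCast).1 hm.symm
    obtain ⟨C, hC⟩ := ho.bound
    have h1 : ∀ᶠ z in 𝓝[≠] (0 : ℂ), ‖u z‖ ≤ C * ‖z‖ ^ (k - m) := by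
      filter_upwards [nhdsWithin_le_nhds hC, nhdsWithin_le_nhds he, self_mem_nhdsWithin]
        with z h2 h3 h4
      have hz : 0 < ‖z‖ := norm_pos_iff.2 h4
      rw [sub_zero, smul_eq_mul] at h3
      rw [h3, norm_mul, norm_pow, norm_pow, norm_norm] at h2
      have h5 : ‖z‖ ^ k = ‖z‖ ^ m * ‖z‖ ^ (k - m) := by
        rw [← pow_add]; congr 1; omega
      rw [h5] at h2
      have h6 : ‖z‖ ^ m * ‖u z‖ ≤ ‖z‖ ^ m * (C * ‖z‖ ^ (k - m)) := by
        linarith [h2, mul_left_comm C (‖z‖ ^ m) (‖z‖ ^ (k - m))]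
      exact le_of_mul_le_mul_left h6 (pow_pos hz m)
    have h2 : Tendsto (fun z : ℂ => C * ‖z‖ ^ (k - m)) (𝓝[≠] 0) (𝓝 0) := by
      have : Tendsto (fun z : ℂ => C * ‖z‖ ^ (k - m)) (𝓝 0) (𝓝 (C * ‖(0 : ℂ)‖ ^ (k - m))) := by
        apply Continuous.tendsto
        fun_prop
      rw [norm_zero, zero_pow (by omega), mul_zero] at this
      exact this.mono_left nhdsWithin_le_nhds
    have h3 : Tendsto (fun z : ℂ => ‖u z‖) (𝓝[≠] 0) (𝓝 ‖u 0‖) :=
      (hu.continuousAt.norm).tendsto.mono_left nhdsWithin_le_nhds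
    have h4 : ‖u 0‖ ≤ 0 := le_of_tendsto_of_tendsto h3 h2 h1
    exact hu0 (norm_le_zero_iff.1 h4)
  obtain ⟨h, hh, he⟩ := (natCast_le_analyticOrderAt hc).1 key
  refine ⟨h, hh, he.mono fun z hz => ?_⟩
  rw [hz, sub_zero, smul_eq_mul]

/-- the coordinate change -/
def ee : (ℂ × ℂ) →L[ℂ] (Fin 2 → ℂ) :=
  ContinuousLinearMap.pi ![ContinuousLinearMap.snd ℂ ℂ ℂ, ContinuousLinearMap.fst ℂ ℂ ℂ]

theorem ee_apply (p : ℂ × ℂ) : ee p = ![p.2, p.1] := by
  funext i
  fin_cases i <;> simp [ee]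

theorem norm_vec2 (a c : ℂ) : ‖(![a, c] : Fin 2 → ℂ)‖ = max ‖a‖ ‖c‖ := by
  refine le_antisymm ?_ ?_
  · rw [pi_norm_le_iff_of_nonneg (le_max_of_le_left (norm_nonneg a))]
    intro i
    fin_cases i
    · exact le_max_left _ _
    · exact le_max_right _ _
  · exact max_le (by simpa using norm_le_pi_norm (![a, c] : Fin 2 → ℂ) 0)
      (by simpa using norm_le_pi_norm (![a, c] : Fin 2 → ℂ) 1)

theorem vec2_eta (z : Fin 2 → ℂ) : ![z 0, z 1] = z := by
  funext i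
  fin_cases i <;> rfl

/-- the step -/
theorem div_step {f : (Fin 2 → ℂ) → ℂ} (hf : AnalyticAt ℂ f 0) {k : ℕ}
    (ho : f =O[𝓝 0] fun z : Fin 2 → ℂ => ‖z‖ ^ (k + 1)) :
    ∃ (g : (Fin 2 → ℂ) → ℂ) (h : ℂ → ℂ), AnalyticAt ℂ g 0 ∧ AnalyticAt ℂ h 0 ∧
      (g =O[𝓝 0] fun z : Fin 2 → ℂ => ‖z‖ ^ k) ∧
      ∀ᶠ z in 𝓝 (0 : Fin 2 → ℂ), f z = z 0 * g z + z 1 ^ (k + 1) * h (z 1) := by
  have he0 : ee (0, 0) = 0 := by rw [ee_apply]; funext i; fin_cases i <;> rfl
  have hF : AnalyticAt ℂ (fun p : ℂ × ℂ => f (ee p)) (0, 0) := by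
    refine AnalyticAt.comp (g := f) ?_ (ee.analyticAt _)
    rw [he0]; exact hf
  have hsnd : AnalyticAt ℂ (fun p : ℂ × ℂ => p.2) ((0 : ℂ), (0 : ℂ)) := analyticAt_snd
  have hord : analyticOrderAt (fun w : ℂ => ((0 : ℂ), w).2) 0 = (1 : ℕ) := by
    rw [AnalyticAt.analyticOrderAt_eq_natCast (by exact analyticAt_id)]
    refine ⟨fun _ => 1, analyticAt_const, one_ne_zero, Eventually.of_forall fun w => ?_⟩
    simp
  obtain ⟨q, c, hq, hc, hqc⟩ := Crest.Agent.R275.Loc2879.wdiv hsnd hord hF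
  simp only [Finset.univ_unique, Fin.default_eq_zero, Fin.isValue, Fin.val_eq_zero, pow_zero,
    mul_one, Finset.sum_singleton] at hqc
  -- back to `Fin 2 → ℂ`
  let dd : (Fin 2 → ℂ) →L[ℂ] (ℂ × ℂ) :=
    (ContinuousLinearMap.proj 1).prod (ContinuousLinearMap.proj 0)
  have hdd : ∀ z, dd z = (z 1, z 0) := fun z => rfl
  have hed : ∀ z, ee (dd z) = z := fun z => by rw [hdd, ee_apply]; exact vec2_eta z
  have hd0 : dd 0 = (0, 0) := rfl
  have hg : AnalyticAt ℂ (fun z => q (dd z)) 0 := by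
    refine AnalyticAt.comp (g := q) ?_ (dd.analyticAt _)
    rw [hd0]; exact hq
  have hdt : Tendsto dd (𝓝 0) (𝓝 ((0 : ℂ), (0 : ℂ))) := by
    rw [← hd0]; exact dd.continuous.continuousAt
  have hid : ∀ᶠ z in 𝓝 (0 : Fin 2 → ℂ), f z = q (dd z) * z 0 + c 0 (z 1) := by
    filter_upwards [hdt.eventually hqc] with z hz
    rw [hed] at hz
    exact hz
  -- the bound for `c`
  have ht : Tendsto (fun w : ℂ => (![0, w] : Fin 2 → ℂ)) (𝓝 0) (𝓝 0) := by
    have h1 : Continuous (fun w : ℂ => (![0, w] : Fin 2 → ℂ)) := by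
      refine continuous_pi fun i => ?_
      fin_cases i
      · exact continuous_const
      · exact continuous_id
    have h2 := h1.tendsto 0
    have h3 : (![0, 0] : Fin 2 → ℂ) = 0 := by funext i; fin_cases i <;> rfl
    rw [h3] at h2
    exact h2
  have hco : c 0 =O[𝓝 0] fun w : ℂ => ‖w‖ ^ (k + 1) := by
    have h1 := ho.comp_tendsto ht
    refine (h1.congr' ?_ ?_)
    · filter_upwards [ht.eventually hid] with w hw
      simp only [Function.comp]
      rw [hw]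
      simp
    · refine Eventually.of_forall fun w => ?_
      simp only [Function.comp]
      rw [norm_vec2, norm_zero, max_eq_right (norm_nonneg w)]
  obtain ⟨h, hh, hh2⟩ := div_one' (hc 0) hco
  refine ⟨fun z => q (dd z), h, hg, hh, ?_, ?_⟩
  · -- bound for `g`
    obtain ⟨C1, hC1⟩ := ho.bound
    obtain ⟨C2, hC2⟩ := hco.bound
    have hp1 : Tendsto (fun z : Fin 2 → ℂ => z 1) (𝓝 0) (𝓝 0) :=
      (continuous_apply (1 : Fin 2)).tendsto' _ _ rfl
    have hall := ((hid.and (hC1.and (hp1.eventually hC2))).and hg.eventually_analyticAt)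
    obtain ⟨ρ, hρ, hρ2⟩ := Metric.eventually_nhds_iff_ball.1 hall
    have hC1' : 0 ≤ |C1| + |C2| := by positivity
    have key : ∀ z ∈ ball (0 : Fin 2 → ℂ) ρ, z 0 ≠ 0 →
        ‖z 0‖ * ‖q (dd z)‖ ≤ (|C1| + |C2|) * ‖z‖ ^ (k + 1) := by
      intro z hz _
      obtain ⟨⟨h1, h2, h3⟩, -⟩ := hρ2 z hz
      have h4 : z 0 * q (dd z) = f z - c 0 (z 1) := by rw [h1]; ring
      have h5 : ‖z 1‖ ≤ ‖z‖ := norm_le_pi_norm z 1
      rw [norm_pow, norm_norm] at h2 h3
      rw [← norm_mul, h4]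
      calc ‖f z - c 0 (z 1)‖ ≤ ‖f z‖ + ‖c 0 (z 1)‖ := norm_sub_le _ _
        _ ≤ |C1| * ‖z‖ ^ (k + 1) + |C2| * ‖z‖ ^ (k + 1) := by
            refine add_le_add (h2.trans ?_) (h3.trans ?_)
            · exact mul_le_mul_of_nonneg_right (le_abs_self _) (by positivity)
            · refine mul_le_mul (le_abs_self _) (pow_le_pow_left₀ (norm_nonneg _) h5 _)
                (by positivity) (abs_nonneg _)
        _ = _ := by ring
    have key2 : ∀ z ∈ ball (0 : Fin 2 → ℂ) ρ, z ≠ 0 →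
        ‖q (dd z)‖ ≤ (|C1| + |C2|) * ‖z‖ ^ k := by
      intro z hz hz0
      have hr : 0 < ‖z‖ := norm_pos_iff.2 hz0
      have hzρ : ‖z‖ < ρ := mem_ball_zero_iff.1 hz
      have hmem : ∀ ζ : ℂ, ‖ζ‖ ≤ ‖z‖ → (![ζ, z 1] : Fin 2 → ℂ) ∈ ball 0 ρ := by
        intro ζ hζ
        rw [mem_ball_zero_iff, norm_vec2]
        exact (max_le hζ (norm_le_pi_norm z 1)).trans_lt hzρ
      have hdiff : DiffContOnCl ℂ (fun ζ : ℂ => q (dd ![ζ, z 1])) (ball 0 ‖z‖) := by
        refine DifferentiableOn.diffContOnCl ?_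
        rw [closure_ball _ hr.ne']
        intro ζ hζ
        have h1 := (hρ2 _ (hmem ζ (mem_closedBall_zero_iff.1 hζ))).2.differentiableAt
        have h2 : DifferentiableAt ℂ (fun ζ : ℂ => (![ζ, z 1] : Fin 2 → ℂ)) ζ := by
          rw [differentiableAt_pi]
          intro i
          fin_cases i
          · exact differentiableAt_id
          · exact differentiableAt_const _
        exact (DifferentiableAt.comp ζ (g := fun z => q (dd z)) h1 h2).differentiableWithinAt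
      have hfr : ∀ ζ ∈ frontier (ball (0 : ℂ) ‖z‖), ‖q (dd ![ζ, z 1])‖ ≤
          (|C1| + |C2|) * ‖z‖ ^ k := by
        intro ζ hζ
        rw [frontier_ball _ hr.ne', mem_sphere_zero_iff_norm] at hζ
        have hζ0 : ζ ≠ 0 := norm_pos_iff.1 (by rw [hζ]; exact hr)
        have h1 := key _ (hmem ζ hζ.le) (by simpa using hζ0)
        have h2 : ‖(![ζ, z 1] : Fin 2 → ℂ)‖ = ‖z‖ := by
          rw [norm_vec2, hζ]
          exact max_eq_left (norm_le_pi_norm z 1)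
        rw [h2] at h1
        simp only [Matrix.cons_val_zero] at h1
        rw [hζ] at h1
        have h3 : ‖z‖ * ‖q (dd ![ζ, z 1])‖ ≤ ‖z‖ * ((|C1| + |C2|) * ‖z‖ ^ k) := by
          calc _ ≤ (|C1| + |C2|) * ‖z‖ ^ (k + 1) := h1
            _ = _ := by ring
        exact le_of_mul_le_mul_left h3 hr
      have h1 := Complex.norm_le_of_forall_mem_frontier_norm_le isBounded_ball hdiff hfr
        (z := z 0) (by
          rw [closure_ball _ hr.ne', mem_closedBall_zero_iff]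
          exact norm_le_pi_norm z 0)
      rwa [vec2_eta] at h1
    refine IsBigO.of_bound (|C1| + |C2|) ?_
    filter_upwards [ball_mem_nhds (0 : Fin 2 → ℂ) hρ] with z hz
    rw [norm_pow, norm_norm]
    by_cases hz0 : z = 0
    · subst hz0
      have : NeBot (𝓝[≠] (0 : Fin 2 → ℂ)) := Module.punctured_nhds_neBot ℂ (Fin 2 → ℂ) 0
      have t1 : Tendsto (fun z => ‖q (dd z)‖) (𝓝[≠] (0 : Fin 2 → ℂ)) (𝓝 ‖q (dd 0)‖) :=
        (hg.continuousAt.norm).tendsto.mono_left nhdsWithin_le_nhds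
      have t2 : Tendsto (fun z : Fin 2 → ℂ => (|C1| + |C2|) * ‖z‖ ^ k) (𝓝[≠] 0)
          (𝓝 ((|C1| + |C2|) * ‖(0 : Fin 2 → ℂ)‖ ^ k)) := by
        refine Tendsto.mono_left ?_ nhdsWithin_le_nhds
        apply Continuous.tendsto
        fun_prop
      refine le_of_tendsto_of_tendsto t1 t2 ?_
      filter_upwards [nhdsWithin_le_nhds (ball_mem_nhds (0 : Fin 2 → ℂ) hρ),
        self_mem_nhdsWithin] with z h1 h2
      exact key2 z h1 h2
    · exact key2 z hz hz0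
  · have hp1 : Tendsto (fun z : Fin 2 → ℂ => z 1) (𝓝 0) (𝓝 0) :=
      (continuous_apply (1 : Fin 2)).tendsto' _ _ rfl
    filter_upwards [hid, hp1.eventually hh2] with z h1 h2
    rw [h1, h2]
    ring

/-- **division** -/
theorem decomp (k : ℕ) : ∀ {f : (Fin 2 → ℂ) → ℂ}, AnalyticAt ℂ f 0 →
    (f =O[𝓝 0] fun z : Fin 2 → ℂ => ‖z‖ ^ k) →
    ∃ A : ℕ → (Fin 2 → ℂ) → ℂ, (∀ i, AnalyticAt ℂ (A i) 0) ∧
      ∀ᶠ z in 𝓝 (0 : Fin 2 → ℂ), f z = ∑ i ∈ Finset.range (k + 1), z 0 ^ (k - i) * z 1 ^ i * A i z := by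
  induction k with
  | zero =>
    intro f hf _
    exact ⟨fun _ => f, fun _ => hf, Eventually.of_forall fun z => by simp⟩
  | succ k ih =>
    intro f hf ho
    obtain ⟨g, h, hg, hh, hgo, hfe⟩ := div_step hf ho
    obtain ⟨A, hA, hAe⟩ := ih hg hgo
    refine ⟨fun i => if i ≤ k then A i else fun z => h (z 1), fun i => ?_, ?_⟩
    · by_cases hi : i ≤ k
      · simp only [hi, if_true]; exact hA i
      · simp only [hi, if_false]
        have h1 : AnalyticAt ℂ (fun z : Fin 2 → ℂ => z 1) 0 :=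
          (ContinuousLinearMap.proj (R := ℂ) (φ := fun _ : Fin 2 => ℂ) (1 : Fin 2)).analyticAt _
        exact AnalyticAt.comp (g := h) (f := fun z : Fin 2 → ℂ => z 1) hh h1
    · filter_upwards [hfe, hAe] with z h1 h2
      rw [Finset.sum_range_succ, h1, h2, Finset.mul_sum]
      congr 1
      · refine Finset.sum_congr rfl fun i hi => ?_
        have hi' : i ≤ k := Nat.lt_succ_iff.1 (Finset.mem_range.1 hi)
        simp only [hi', if_true]
        have e : k + 1 - i = (k - i) + 1 := by omega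
        rw [e, pow_succ]
        ring
      · have e : ¬ (k + 1 ≤ k) := by omega
        simp only [e, if_false, Nat.sub_self, pow_zero, one_mul]

end

end Crest.Agent.R272.PW_92
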