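import Crest.Agent.R272.PW2_92
import Crest.Agent.R272.Flop5_66
import Crest.Agent.R272.Lc1_220
import Crest.Agent.R272.FinCB3_876

/-!
# R272, (5W) of #6650 (helper92), part 3: the list `Φ` on `Up`

`K.PhiU b x`  : the list `Φ` at `x : Up`, through `(z, m)`;
`sC, τC, ρC`  : `z = τ s`, `m = ρ (s₀², s₀ s₁, s₁²)` in the four charts;
`valC_mu`, `valC_xi` : values of `[Φ]` in the charts.
-/

set_option autoImplicit false
set_option linter.unusedSectionVars false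

open Filter Topology Asymptotics Set Metric

namespace Crest.Agent.R272.PW_92

open Crest.Agent.R275.Geo Crest.Agent.R273.Fam_835
open Crest.Agent.R272.Flop_66 Crest.Agent.R272.Lc_220 Crest.Agent.R272.FinCB3_876

noncomputable section

/-! ### generalities -/

section Gen

variable {n : ℕ} {X : Type} [TopologicalSpace X] {C : Fam n X} {x : X}

theorem holN_chart {i : C.ι} (hi : x ∈ (C.e i).source) {F : Cn n → ℂ}
    (hF : AnalyticAt ℂ F (C.e i x)) : HolN C x fun y => F (C.e i y) := by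
  refine holN_of hi (hF.congr ?_)
  filter_upwards [(C.e i).open_target.mem_nhds ((C.e i).map_source hi)] with z hz
  rw [(C.e i).right_inv hz]

theorem nz_chart {i : C.ι} (hi : x ∈ (C.e i).source) {F : Cn n → ℂ}
    (hF : ¬ ∀ᶠ z in 𝓝 (C.e i x), F z = 0) : NZ x fun y => F (C.e i y) := by
  intro h
  apply hF
  have h1 := (ev_chart hi (P := fun y => F (C.e i y) = 0)).2 h
  filter_upwards [h1, (C.e i).open_target.mem_nhds ((C.e i).map_source hi)] with z hz hz2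
  rwa [(C.e i).right_inv hz2] at hz

theorem mem_closure_of_nz {f : X → ℂ} (h : NZ x f) : x ∈ closure {y | f y ≠ 0} := by
  rw [mem_closure_iff_frequently]
  exact not_eventually.1 h

/-- points with all coordinates non-zero are dense -/
theorem freq_coord (c₀ : Cn n) : ∃ᶠ c in 𝓝 c₀, ∀ i, c i ≠ 0 := by
  have h1 : Tendsto (fun a : ℂ => c₀ + a • (WithLp.toLp 2 fun _ => (1 : ℂ) : Cn n)) (𝓝[≠] 0)
      (𝓝 c₀) := by
    have h2 : Continuous (fun a : ℂ => c₀ + a • (WithLp.toLp 2 fun _ => (1 : ℂ) : Cn n)) := by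
      fun_prop
    have h3 := h2.tendsto 0
    rw [zero_smul, add_zero] at h3
    exact h3.mono_left nhdsWithin_le_nhds
  refine h1.frequently (Eventually.frequently ?_)
  refine eventually_all.2 fun i => ?_
  have h4 : ∀ a : ℂ, (c₀ + a • (WithLp.toLp 2 fun _ => (1 : ℂ) : Cn n)) i = c₀ i + a := by
    intro a
    simp
  simp only [h4]
  by_cases h0 : c₀ i = 0
  · filter_upwards [self_mem_nhdsWithin] with a ha
    rw [h0, zero_add]
    exact ha
  · have h5 : ContinuousAt (fun a : ℂ => c₀ i + a) 0 := by fun_prop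
    have h6 : ∀ᶠ a in 𝓝 (0 : ℂ), c₀ i + a ≠ 0 := h5.eventually_ne (by rw [add_zero]; exact h0)
    exact nhdsWithin_le_nhds h6

theorem an_cn (i : Fin n) (c : Cn n) : AnalyticAt ℂ (fun c : Cn n => c i) c :=
  (EuclideanSpace.proj (𝕜 := ℂ) i).analyticAt c

end Gen

/-! ### the charts of `Up` -/

/-- `s` -/
def sC (k : Fin 4) (c : Cn 3) : Fin 2 → ℂ :=
  ![![1, c 0], ![c 0, 1], ![c 0, c 1], ![c 0, c 1]] k

/-- `τ` -/
def τC (k : Fin 4) (c : Cn 3) : ℂ := ![c 1 * c 2, c 1 * c 2, c 2, 1] k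

/-- `α`, `τ = α ρ` -/
def αC (k : Fin 4) (c : Cn 3) : ℂ := ![c 1, c 1, 1, 1] k

theorem an_sC (k : Fin 4) (i : Fin 2) (c : Cn 3) : AnalyticAt ℂ (fun c => sC k c i) c := by
  fin_cases k <;> fin_cases i <;>
    first
      | exact analyticAt_const
      | exact an_cn 0 c
      | exact an_cn 1 c

theorem an_τC (k : Fin 4) (c : Cn 3) : AnalyticAt ℂ (τC k) c := by
  fin_cases k
  · exact (an_cn 1 c).mul (an_cn 2 c)
  · exact (an_cn 1 c).mul (an_cn 2 c)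
  · exact an_cn 2 c
  · exact analyticAt_const

theorem an_αC (k : Fin 4) (c : Cn 3) : AnalyticAt ℂ (αC k) c := by
  fin_cases k
  · exact an_cn 1 c
  · exact an_cn 1 c
  · exact analyticAt_const
  · exact analyticAt_const

theorem mk_z (k : Fin 4) (c : Cn 3) : ((Up.ch k).symm c).z = τC k c • sC k c := by
  funext i
  fin_cases k <;> fin_cases i
  · show (Up.mk1 (c 0) (c 1) (c 2)).z 0 = _
    simp [Up.mk1, τC, sC]
  · show (Up.mk1 (c 0) (c 1) (c 2)).z 1 = _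
    simp [Up.mk1, τC, sC]
  · show (Up.mk2 (c 0) (c 1) (c 2)).z 0 = _
    simp [Up.mk2, τC, sC]
  · show (Up.mk2 (c 0) (c 1) (c 2)).z 1 = _
    simp [Up.mk2, τC, sC]
  · show (Up.mk3 (c 0) (c 1) (c 2)).z 0 = _
    simp [Up.mk3, τC, sC]
  · show (Up.mk3 (c 0) (c 1) (c 2)).z 1 = _
    simp [Up.mk3, τC, sC]
  · show (Up.mk4 (c 0) (c 1) (c 2)).z 0 = _
    simp [Up.mk4, τC, sC]
  · show (Up.mk4 (c 0) (c 1) (c 2)).z 1 = _
    simp [Up.mk4, τC, sC]

theorem mk_m (k : Fin 4) (c : Cn 3) : ((Up.ch k).symm c).m = KF.qu (c 2) (sC k c) := by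
  funext i
  fin_cases k <;> fin_cases i
  · show (Up.mk1 (c 0) (c 1) (c 2)).m 0 = _
    simp [Up.mk1, sC, KF.qu]
  · show (Up.mk1 (c 0) (c 1) (c 2)).m 1 = _
    simp [Up.mk1, sC, KF.qu]
  · show (Up.mk1 (c 0) (c 1) (c 2)).m 2 = _
    simp [Up.mk1, sC, KF.qu]
  · show (Up.mk2 (c 0) (c 1) (c 2)).m 0 = _
    simp [Up.mk2, sC, KF.qu]
  · show (Up.mk2 (c 0) (c 1) (c 2)).m 1 = _
    simp [Up.mk2, sC, KF.qu]
  · show (Up.mk2 (c 0) (c 1) (c 2)).m 2 = _
    simp [Up.mk2, sC, KF.qu]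
  · show (Up.mk3 (c 0) (c 1) (c 2)).m 0 = _
    simp [Up.mk3, sC, KF.qu]
  · show (Up.mk3 (c 0) (c 1) (c 2)).m 1 = _
    simp [Up.mk3, sC, KF.qu]; ring
  · show (Up.mk3 (c 0) (c 1) (c 2)).m 2 = _
    simp [Up.mk3, sC, KF.qu]
  · show (Up.mk4 (c 0) (c 1) (c 2)).m 0 = _
    simp [Up.mk4, sC, KF.qu]
  · show (Up.mk4 (c 0) (c 1) (c 2)).m 1 = _
    simp [Up.mk4, sC, KF.qu]; ring
  · show (Up.mk4 (c 0) (c 1) (c 2)).m 2 = _
    simp [Up.mk4, sC, KF.qu]

theorem z_eq {k : Fin 4} {x : Up} (hx : x ∈ (Up.ch k).source) :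
    x.z = τC k (Up.ch k x) • sC k (Up.ch k x) := by
  rw [← mk_z, (Up.ch k).left_inv hx]

theorem m_eq {k : Fin 4} {x : Up} (hx : x ∈ (Up.ch k).source) :
    x.m = KF.qu (Up.ch k x 2) (sC k (Up.ch k x)) := by
  rw [← mk_m, (Up.ch k).left_inv hx]

theorem ch_target (k : Fin 4) : (Up.ch k).target = univ := by
  fin_cases k <;> rfl

/-- the chart `W4` is dense -/
theorem freq_W4 (x : Up) : ∃ᶠ y in 𝓝 x, y ∈ (Up.ch 3).source := by
  obtain ⟨k, hk⟩ := Up.cover x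
  intro h
  have h1 := (ev_chart (C := Up.fam) (i := k) hk (P := fun y => ¬ y ∈ (Up.ch 3).source)).2 h
  refine freq_coord (Up.ch k x) (h1.mono fun c hc h0 => hc ?_)
  have h4 : (Up.ch k).symm c ∈ (Up.ch 3).source := by
    fin_cases k
    · exact Up.mk1_mem4.2 ⟨h0 1, h0 2⟩
    · exact Up.mk2_mem4.2 ⟨h0 1, h0 2⟩
    · exact Up.mk3_mem4.2 (h0 2)
    · exact (Up.ch 3).map_target (by rw [ch_target]; exact mem_univ _)
  exact h4

/-- functions of `z` which do not vanish identically -/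
theorem nz_of_z {F : (Fin 2 → ℂ) → ℂ} {U : Set (Fin 2 → ℂ)} (hU : IsOpen U)
    (hF : ∀ z ∈ U, ¬ ∀ᶠ w in 𝓝 z, F w = 0) {x : Up} (hx : x.z ∈ U) : NZ x fun y => F y.z := by
  intro h
  have hc : ContinuousAt (fun y : Up => y.z) x := Up.c_z.continuousAt
  obtain ⟨y, hy4, hy1, hy2⟩ := ((freq_W4 x).and_eventually
    (h.eventually_nhds.and (hc.eventually (hU.mem_nhds hx)))).exists
  refine hF _ hy2 ?_
  have h1 := (ev_chart (C := Up.fam) (i := (3 : Fin 4)) hy4 (P := fun y => F y.z = 0)).2 hy1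
  let j : (Fin 2 → ℂ) → Cn 3 := fun z => !₂[z 0, z 1, Up.ch 3 y 2]
  have hj : Continuous j := by
    refine (PiLp.continuous_toLp 2 _).comp (continuous_pi fun i => ?_)
    fin_cases i
    · exact continuous_apply 0
    · exact continuous_apply 1
    · exact continuous_const
  have hjy : j y.z = Up.ch 3 y := by
    have e := z_eq hy4
    ext i
    fin_cases i
    · show y.z 0 = _
      rw [e]; simp [τC, sC]
    · show y.z 1 = _
      rw [e]; simp [τC, sC]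
    · rfl
  have h2 : Tendsto j (𝓝 y.z) (𝓝 (Up.ch 3 y)) := by
    rw [← hjy]; exact hj.continuousAt
  filter_upwards [h2.eventually h1] with w hw
  have e : ((Up.ch 3).symm (j w)).z = w := by
    rw [mk_z]
    funext i
    fin_cases i
    · simp [τC, sC, j]
    · simp [τC, sC, j]
  have hw' : F ((Up.ch 3).symm (j w)).z = 0 := hw
  rwa [e] at hw'

namespace KF

variable {κ : ℂ} {q : Fin 3 → (Fin 2 → ℂ) → ℂ} (K : KF κ q)

/-- **the list `Φ` on `Up`** -/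
def PhiU (b : ℕ) (i : IPhi) (x : Up) : ℂ :=
  Phi b (K.X x.z x.m 0) (K.X x.z x.m 1) (K.X x.z x.m 0 * K.X x.z x.m 2)
    (K.X x.z x.m 0 ^ 3 * K.RR x.z x.m) i

/-- the region `|z| < ε` -/
def Reg : Set Up := {x | x.z ∈ ball (0 : Fin 2 → ℂ) K.ε}

theorem isOpen_Reg : IsOpen K.Reg := isOpen_ball.preimage Up.c_z

/-- the reduced coordinates in the chart `k` -/
def yC (k : Fin 4) (c : Cn 3) : Fin 3 → ℂ := K.yy (sC k c) (τC k c)

/-- `β` in the chart `k` -/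
def bC (k : Fin 4) (c : Cn 3) : ℂ := K.be (sC k c) (τC k c)

variable {K} {k : Fin 4} {x : Up}

theorem ball_of (hx : x ∈ (Up.ch k).source) (hR : x ∈ K.Reg) :
    τC k (Up.ch k x) • sC k (Up.ch k x) ∈ ball (0 : Fin 2 → ℂ) K.ε := by
  rw [← z_eq hx]; exact hR

theorem holN_yC (hx : x ∈ (Up.ch k).source) (hR : x ∈ K.Reg) (j : Fin 3) :
    HolN Up.fam x fun y => K.yC k (Up.ch k y) j :=
  holN_chart (C := Up.fam) (i := k) hx (F := fun c => K.yC k c j)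
    (K.an_yy (fun i => an_sC k i _) (an_τC k _) (ball_of hx hR) j)

theorem holN_bC (hx : x ∈ (Up.ch k).source) (hR : x ∈ K.Reg) :
    HolN Up.fam x fun y => K.bC k (Up.ch k y) :=
  holN_chart (C := Up.fam) (i := k) hx (F := K.bC k)
    (K.an_be (fun i => an_sC k i _) (an_τC k _) (ball_of hx hR))

theorem holN_ρ (hx : x ∈ (Up.ch k).source) (i : Fin 3) : HolN Up.fam x fun y => Up.ch k y i :=
  holN_chart (C := Up.fam) (i := k) hx (F := fun c => c i) (an_cn i _)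

theorem holN_α (hx : x ∈ (Up.ch k).source) : HolN Up.fam x fun y => αC k (Up.ch k y) :=
  holN_chart (C := Up.fam) (i := k) hx (F := αC k) (an_αC k _)

theorem nz_ρ (hx : x ∈ (Up.ch k).source) (i : Fin 3) : NZ x fun y => Up.ch k y i :=
  nz_chart (C := Up.fam) (i := k) hx (F := fun c => c i) fun h =>
    freq_coord (Up.ch k x) (h.mono fun _ hc h0 => h0 i hc)

theorem ev_src (hx : x ∈ (Up.ch k).source) : ∀ᶠ y in 𝓝 x, y ∈ (Up.ch k).source :=
  (Up.ch k).open_source.mem_nhds hx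

theorem ev_reg (hR : x ∈ K.Reg) : ∀ᶠ y in 𝓝 x, y ∈ K.Reg := K.isOpen_Reg.mem_nhds hR

theorem nz_bC (hx : x ∈ (Up.ch k).source) (hR : x ∈ K.Reg) :
    NZ x fun y => K.bC k (Up.ch k y) := by
  intro h
  refine nz_of_z isOpen_ball K.nzP hR ?_
  filter_upwards [h, ev_src hx, ev_reg hR] with y h1 h2 h3
  have h4 := K.P_be (ball_of h2 h3)
  rw [← z_eq h2] at h4
  rw [h4]
  have h5 : K.be (sC k (Up.ch k y)) (τC k (Up.ch k y)) = 0 := h1
  rw [h5, mul_zero]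

theorem nz_yC (hx : x ∈ (Up.ch k).source) (hR : x ∈ K.Reg) :
    NZ x fun y => K.yC k (Up.ch k y) 0 := by
  intro h
  refine nz_of_z isOpen_ball K.nzq hR ?_
  filter_upwards [h, ev_src hx, ev_reg hR] with y h1 h2 h3
  have h4 := K.q_yy (ball_of h2 h3) 0
  rw [← z_eq h2] at h4
  rw [h4]
  have h5 : K.yy (sC k (Up.ch k y)) (τC k (Up.ch k y)) 0 = 0 := h1
  rw [h5, mul_zero]

theorem X_eq (hx : x ∈ (Up.ch k).source) (j : Fin 3) :
    K.X x.z x.m j = Up.ch k x 2 * K.yC k (Up.ch k x) j := by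
  rw [m_eq hx, z_eq hx]
  exact K.X_qu _ _ _ _

theorem RR_eq (hx : x ∈ (Up.ch k).source) :
    K.RR x.z x.m = Up.ch k x 2 ^ 3 * K.bC k (Up.ch k x) := by
  rw [m_eq hx, z_eq hx]
  exact K.RR_qu _ _ _

theorem disc_eq (hx : x ∈ (Up.ch k).source) (hR : x ∈ K.Reg) :
    disc (K.X x.z x.m) = Up.ch k x 2 ^ 2 * (τC k (Up.ch k x) ^ 2 * K.bC k (Up.ch k x)) := by
  have h1 := K.disc_yy (ball_of hx hR)
  have h2 : disc (K.X x.z x.m) = Up.ch k x 2 ^ 2 * disc (K.yC k (Up.ch k x)) := by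
    simp only [disc, X_eq hx]
    ring
  rw [h2]
  congr 1

/-- first shape (`W1`, `W2`, `W3`) -/
theorem phi_mu' {b : ℕ} (hb : 15 ≤ b) (hτ : ∀ c : Cn 3, τC k c = αC k c * c 2)
    (hx : x ∈ (Up.ch k).source) (hR : x ∈ K.Reg) (i : IPhi) :
    K.PhiU b i x = Ymu b (αC k (Up.ch k x)) (Up.ch k x 2) (K.yC k (Up.ch k x)) i *
      gmu b (Up.ch k x 2) (K.bC k (Up.ch k x)) (K.yC k (Up.ch k x) 0) := by
  rw [PhiU, phi_eq hb (x := K.X x.z x.m) (R := K.RR x.z x.m) rfl rfl rfl rfl, mul_comm]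
  refine phi_mu hb (fun j => X_eq hx j) (RR_eq hx) ?_ i
  rw [disc_eq hx hR, hτ]
  ring

/-- second shape (`W4`) -/
theorem phi_xi' {b : ℕ} (hb : 15 ≤ b) (hx : x ∈ (Up.ch 3).source) (hR : x ∈ K.Reg) (i : IPhi) :
    K.PhiU b i x = Yxi b (Up.ch 3 x 2) 1 (K.yC 3 (Up.ch 3 x)) i *
      gxi b (Up.ch 3 x 2) (K.bC 3 (Up.ch 3 x)) (K.yC 3 (Up.ch 3 x) 0) := by
  rw [PhiU, phi_eq hb (x := K.X x.z x.m) (R := K.RR x.z x.m) rfl rfl rfl rfl, mul_comm]
  refine phi_xi hb (fun j => X_eq hx j) ?_ ?_ i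
  · rw [RR_eq hx, mul_one]
  · rw [disc_eq hx hR]
    have : τC 3 (Up.ch 3 x) = 1 := rfl
    rw [this]
    ring

theorem valC_mu {b : ℕ} (hb : 15 ≤ b) (hτ : ∀ c : Cn 3, τC k c = αC k c * c 2)
    (hx : x ∈ (Up.ch k).source) (hR : x ∈ K.Reg)
    (h0 : Ymu b (αC k (Up.ch k x)) (Up.ch k x 2) (K.yC k (Up.ch k x)) ≠ 0) :
    ValC Up.fam (K.PhiU b) x (Ymu b (αC k (Up.ch k x)) (Up.ch k x 2) (K.yC k (Up.ch k x))) := by
  have hW : IsOpen ((Up.ch k).source ∩ K.Reg) := (Up.ch k).open_source.inter K.isOpen_Reg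
  refine ⟨h0, (Up.ch k).source ∩ K.Reg, hW, ⟨hx, hR⟩,
    fun y => gmu b (Up.ch k y 2) (K.bC k (Up.ch k y)) (K.yC k (Up.ch k y) 0), ?_,
    fun i y => Ymu b (αC k (Up.ch k y)) (Up.ch k y 2) (K.yC k (Up.ch k y)) i, ?_, ?_, fun _ => rfl⟩
  · intro y hy
    refine mem_closure_of_nz (f := fun y => gmu b (Up.ch k y 2) (K.bC k (Up.ch k y))
      (K.yC k (Up.ch k y) 0)) ?_
    unfold gmu
    have h1 := holN_ρ hy.1 2
    have h2 := holN_bC hy.1 hy.2
    have h3 := holN_yC hy.1 hy.2 0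
    exact NZ.mul ((h1.pow _).mul (h2.pow _)) (h3.pow _)
      (NZ.mul (h1.pow _) (h2.pow _) ((nz_ρ hy.1 2).pow h1 _) ((nz_bC hy.1 hy.2).pow h2 _))
      ((nz_yC hy.1 hy.2).pow h3 _)
  · intro i
    rw [holF_iff hW]
    intro y hy
    have h1 := holN_ρ hy.1 2
    have h2 := holN_α hy.1
    have h3 := fun j => holN_yC hy.1 hy.2 j
    cases i with
    | l j => exact ((h2.pow 8).mul (h1.pow 3)).mul (h3 j)
    | W => exact (h2.pow 6).mul h1
    | W2 => exact h2.pow 4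
    | W3 j => exact (h2.pow 2).mul (h3 j)
    | W4 j l => exact (h3 j).mul (h3 l)
    | v => exact ((h2.pow 8).mul (h1.pow _)).mul ((h3 2).pow _)
    | last => exact (h1.pow _).mul ((h3 2).pow _)
  · intro y hy i
    exact phi_mu' hb hτ hy.1 hy.2 i

theorem valC_xi {b : ℕ} (hb : 15 ≤ b) (hx : x ∈ (Up.ch 3).source) (hR : x ∈ K.Reg) :
    ValC Up.fam (K.PhiU b) x (Yxi b (Up.ch 3 x 2) 1 (K.yC 3 (Up.ch 3 x))) := by
  have hW : IsOpen ((Up.ch 3).source ∩ K.Reg) := (Up.ch 3).open_source.inter K.isOpen_Reg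
  refine ⟨fun h => one_ne_zero (congrFun h IPhi.W), (Up.ch 3).source ∩ K.Reg, hW, ⟨hx, hR⟩,
    fun y => gxi b (Up.ch 3 y 2) (K.bC 3 (Up.ch 3 y)) (K.yC 3 (Up.ch 3 y) 0), ?_,
    fun i y => Yxi b (Up.ch 3 y 2) 1 (K.yC 3 (Up.ch 3 y)) i, ?_, ?_, fun _ => rfl⟩
  · intro y hy
    refine mem_closure_of_nz (f := fun y => gxi b (Up.ch 3 y 2) (K.bC 3 (Up.ch 3 y))
      (K.yC 3 (Up.ch 3 y) 0)) ?_
    unfold gxi
    have h1 := holN_ρ hy.1 2
    have h2 := holN_bC hy.1 hy.2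
    have h3 := holN_yC hy.1 hy.2 0
    exact NZ.mul ((h1.pow _).mul (h2.pow _)) (h3.pow _)
      (NZ.mul (h1.pow _) (h2.pow _) ((nz_ρ hy.1 2).pow h1 _) ((nz_bC hy.1 hy.2).pow h2 _))
      ((nz_yC hy.1 hy.2).pow h3 _)
  · intro i
    rw [holF_iff hW]
    intro y hy
    have h1 := holN_ρ hy.1 2
    have h2 : HolN Up.fam y fun _ => (1 : ℂ) := holN_const 1
    have h3 := fun j => holN_yC hy.1 hy.2 j
    cases i with
    | l j => exact h3 j
    | W => exact h2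
    | W2 => exact h1.mul (h2.pow 2)
    | W3 j => exact ((h1.pow 3).mul (h2.pow 3)).mul (h3 j)
    | W4 j l => exact (((h1.pow 5).mul (h2.pow 4)).mul (h3 j)).mul (h3 l)
    | v => exact (h1.pow _).mul ((h3 2).pow _)
    | last => exact ((h1.pow _).mul (h2.pow 4)).mul ((h3 2).pow _)
  · intro y hy i
    exact phi_xi' hb hy.1 hy.2 i

end KF

end

end Crest.Agent.R272.PW_92
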