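import Crest.Agent.R272.Th2_876
import Crest.Agent.R272.K3F_227

/-!
# R272 (helper876), THETA, part 3: the discriminant; the final structure `Theta`

`id6`          : `(t - t')² g_i = U_i² (F(t,t') - 2 y y')` near `Γ`;
`Theta S h`    : the three germs `q 0, q 1, q 2` (`1/G, (t+t')/G, t t'/G` as functions of `z = U(c,c')`);
`exists_theta` : existence;
`Theta.fs`, `Theta.fS` : the functions `x₀, x₁ + x₂, x₁ x₂, S = x₀³ R` in terms of `(z, ω)`.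
-/

set_option autoImplicit false
set_option linter.unusedSectionVars false
set_option linter.unusedVariables false

open Set Filter Topology Asymptotics

namespace Crest.Agent.R272.Th_876

open Crest.Agent.R272.AJ_956 Crest.Agent.R272.Idn_834
open Crest.Agent.R272.K3E_227 (Sext k3 fp Fp lr rv)

noncomputable section

variable {C : Type} [TopologicalSpace C] {𝒞 : Cur C} {N : Set (C × C)} {U : C × C → E2}
  {l : Fin 7 → ℂ}

/-- `F(t,t') - 2 y y'` in the frame `i` -/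
def Ph (S : Sext 𝒞 l) (i : Fin 2) (x : C × C) : ℂ :=
  Fp (lr l i) (tv 𝒞 i x.1) (tv 𝒞 i x.2) - 2 * S.y i x.1 * S.y i x.2

theorem y_cont (S : Sext 𝒞 l) {i : Fin 2} {c : C} (hc : c ∈ Ci 𝒞 i) :
    ContinuousAt (S.y i) c := by
  have h1 : ContinuousAt (fun z => S.y i ((𝒞.k c).symm z)) (𝒞.k c c) := by
    rw [𝒞.k_zero]; exact (S.an i c hc).continuousAt
  have h2 := h1.comp ((𝒞.k c).continuousAt (𝒞.k_mem c))
  refine h2.congr ?_
  filter_upwards [(𝒞.k c).open_source.mem_nhds (𝒞.k_mem c)] with y hy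
  simp only [Function.comp_apply]
  rw [(𝒞.k c).left_inv hy]

theorem fst_cont {f : C → ℂ} {x : C × C} (h : ContinuousAt f x.1) :
    ContinuousAt (fun y : C × C => f y.1) x := h.comp (f := Prod.fst) continuousAt_fst

theorem snd_cont {f : C → ℂ} {x : C × C} (h : ContinuousAt f x.2) :
    ContinuousAt (fun y : C × C => f y.2) x := h.comp (f := Prod.snd) continuousAt_snd

theorem Ph_cont (S : Sext 𝒞 l) {i : Fin 2} {x : C × C} (h1 : x.1 ∈ Ci 𝒞 i)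
    (h2 : x.2 ∈ Ci 𝒞 i) : ContinuousAt (Ph S i) x := by
  have a1 := fst_cont (K3E_227.tv_cont i x.1 h1)
  have a2 := snd_cont (K3E_227.tv_cont i x.2 h2)
  have b1 := fst_cont (y_cont S h1)
  have b2 := snd_cont (y_cont S h2)
  have hF : Continuous fun p : ℂ × ℂ => Fp (lr l i) p.1 p.2 := by
    unfold Fp; fun_prop
  have c1 : ContinuousAt (fun y : C × C => Fp (lr l i) (tv 𝒞 i y.1) (tv 𝒞 i y.2)) x :=
    ContinuousAt.comp (g := fun p : ℂ × ℂ => Fp (lr l i) p.1 p.2)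
      (f := fun y : C × C => (tv 𝒞 i y.1, tv 𝒞 i y.2)) hF.continuousAt (a1.prodMk a2)
  exact c1.sub ((continuousAt_const.mul b1).mul b2)

/-- **the relation `(t - t')² g = U² (F - 2 y y')`** -/
theorem id6 (S : Sext 𝒞 l) (h : 𝒞.NearE N U) {i : Fin 2} {x : C × C}
    (hx : x ∈ (k3 S h).N i) :
    (tv 𝒞 i x.1 - tv 𝒞 i x.2) ^ 2 * (k3 S h).g i x = U x i ^ 2 * Ph S i x := by
  have hx' : x ∈ interior (K3E_227.Tset S N U i) := hx.1
  obtain ⟨⟨m1, m2⟩, m3, m4, m5, m6, m7, m8⟩ := interior_subset hx'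
  have : NeBot (𝓝[K3E_227.As 𝒞 i] x) := mem_closure_iff_nhdsWithin_neBot.1 m7
  have cU : ContinuousAt (fun y => U y i) x :=
    (continuous_apply i).continuousAt.comp (K3E_227.U_cont h x m5)
  have cL : ContinuousAt (fun y : C × C => (tv 𝒞 i y.1 - tv 𝒞 i y.2) ^ 2 *
      K3E_227.gg S U i y) x :=
    (((fst_cont (K3E_227.tv_cont i x.1 m1)).sub
      (snd_cont (K3E_227.tv_cont i x.2 m2))).pow 2).mul m6
  have cR : ContinuousAt (fun y : C × C => U y i ^ 2 * Ph S i y) x :=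
    (cU.pow 2).mul (Ph_cont S m1 m2)
  have hag : ∀ᶠ y in 𝓝[K3E_227.As 𝒞 i] x, (tv 𝒞 i y.1 - tv 𝒞 i y.2) ^ 2 *
      K3E_227.gg S U i y = U y i ^ 2 * Ph S i y := by
    filter_upwards [mem_nhdsWithin_of_mem_nhds (isOpen_interior.mem_nhds hx'),
      self_mem_nhdsWithin] with y hy hyA
    have n8 := (interior_subset hy).2.2.2.2.2.2
    rw [n8 hyA]
    have hne : tv 𝒞 i y.1 - tv 𝒞 i y.2 ≠ 0 := sub_ne_zero.2 hyA
    unfold K3E_227.frm Ph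
    field_simp
  have l1 := cL.tendsto.mono_left (nhdsWithin_le_nhds (s := K3E_227.As 𝒞 i))
  have l2 := cR.tendsto.mono_left (nhdsWithin_le_nhds (s := K3E_227.As 𝒞 i))
  exact tendsto_nhds_unique (l1.congr' hag) l2

/-- discriminant of `Tj` -/
theorem Tj_disc (i : Fin 2) (x : C × C) :
    Tj 𝒞 i 1 x ^ 2 - 4 * Tj 𝒞 i 0 x * Tj 𝒞 i 2 x = (tv 𝒞 i x.1 - tv 𝒞 i x.2) ^ 2 := by
  fin_cases i
  · show (tv 𝒞 0 x.1 + tv 𝒞 0 x.2) ^ 2 - 4 * 1 * (tv 𝒞 0 x.1 * tv 𝒞 0 x.2) =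
      (tv 𝒞 0 x.1 - tv 𝒞 0 x.2) ^ 2
    ring
  · show (tv 𝒞 1 x.1 + tv 𝒞 1 x.2) ^ 2 - 4 * (tv 𝒞 1 x.1 * tv 𝒞 1 x.2) * 1 =
      (tv 𝒞 1 x.1 - tv 𝒞 1 x.2) ^ 2
    ring

/-- the discriminant near `Γ` -/
theorem disc_fm (S : Sext 𝒞 l) (h : 𝒞.NearE N U) {i : Fin 2} {x : C × C}
    (hx : x ∈ (k3 S h).N i) :
    fm (k3 S h) i 1 x ^ 2 - 4 * fm (k3 S h) i 0 x * fm (k3 S h) i 2 x =
      U x i ^ 6 * Ph S i x / (k3 S h).g i x ^ 3 := by
  have h1 := id6 S h hx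
  have h2 := Tj_disc (𝒞 := 𝒞) i x
  have hg := (k3 S h).ne i x hx
  rw [← h2] at h1
  have e : fm (k3 S h) i 1 x ^ 2 - 4 * fm (k3 S h) i 0 x * fm (k3 S h) i 2 x =
      (Tj 𝒞 i 1 x ^ 2 - 4 * Tj 𝒞 i 0 x * Tj 𝒞 i 2 x) * U x i ^ 4 / (k3 S h).g i x ^ 2 := by
    unfold fm; ring
  rw [e, div_eq_div_iff (pow_ne_zero 2 hg) (pow_ne_zero 3 hg)]
  linear_combination (U x i ^ 4 * (k3 S h).g i x ^ 2) * h1

/-- the three germs -/
structure Theta (S : Sext 𝒞 l) (h : 𝒞.NearE N U) where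
  q : Fin 3 → E2 → ℂ
  an : ∀ j, AnalyticAt ℂ (q j) 0
  zero : ∀ j, q j 0 = 0
  exp : ∀ j, (fun z => q j z - 4⁻¹ * mm j z) =O[𝓝 0] fun z => ‖z‖ ^ 3
  disc : (fun z => q 1 z ^ 2 - 4 * q 0 z * q 2 z) =O[𝓝 0] fun z => ‖z‖ ^ 6
  nz : ∃ᶠ z in 𝓝 0, q 1 z ^ 2 - 4 * q 0 z * q 2 z ≠ 0
  form : ∀ᶠ x in 𝓝ˢ 𝒞.Gam, x ∈ N ∧ ∀ i, x ∈ (k3 S h).N i → ∀ j,
    q j (U x) * (k3 S h).g i x = Tj 𝒞 i j x * U x i ^ 2

/-- `Γ` has empty interior -/
theorem freq_gam (c : C) : ∃ᶠ x in 𝓝 ((c, 𝒞.iv c) : C × C), x ∉ 𝒞.Gam := by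
  intro h
  have h1 : ∀ᶠ y in 𝓝 c, ((y, 𝒞.iv c) : C × C) ∈ 𝒞.Gam := by
    have h2 : Tendsto (fun y : C => ((y, 𝒞.iv c) : C × C)) (𝓝 c) (𝓝 (c, 𝒞.iv c)) :=
      (Continuous.prodMk continuous_id continuous_const).tendsto' _ _ rfl
    filter_upwards [h2.eventually h] with y hy
    exact not_not.1 hy
  have h2 : ∀ᶠ y in 𝓝 c, y = c := by
    filter_upwards [h1] with y hy
    have : 𝒞.iv c = 𝒞.iv y := hy
    have := congrArg 𝒞.iv this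
    rw [𝒞.iv_iv, 𝒞.iv_iv] at this
    exact this.symm
  have h3 := (K3E_227.tendsto_ks (𝒞 := 𝒞) c).eventually h2
  have h4 : ∀ᶠ z : ℂ in 𝓝 0, z = 0 := by
    filter_upwards [h3, (𝒞.k c).open_target.mem_nhds (K3E_227.zero_mem 𝒞 c)] with z hz hz2
    rw [← (𝒞.k c).right_inv hz2, hz, 𝒞.k_zero]
  have h5 : ({0} : Set ℂ) ∈ 𝓝 (0 : ℂ) := h4
  exact (not_isOpen_singleton (0 : ℂ)) (isOpen_singleton_iff_nhds_eq_pure (0 : ℂ) |>.2
    (le_antisymm (by rwa [← Filter.principal_singleton, Filter.le_principal_iff])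
      (pure_le_nhds 0)))

/-- **existence of the theta germs** -/
theorem exists_theta [T2Space C] (S : Sext 𝒞 l) (h : 𝒞.NearE N U)
    (hy : ∃ i, ∃ c ∈ Ci 𝒞 i, S.y i c ≠ 0) : Nonempty (Theta S h) := by
  choose q hqa hq0 hqU using fun j => exists_q h (k3 S h) j
  have hall : ∀ᶠ x in 𝓝ˢ 𝒞.Gam, ∀ j, QQ (k3 S h) j x = q j (U x) := by
    rw [eventually_all]
    exact hqU
  have hNn : ∀ᶠ x in 𝓝ˢ 𝒞.Gam, x ∈ N := h.open_N.mem_nhdsSet.2 h.sub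
  have hd : AnalyticAt ℂ (fun z => q 1 z ^ 2 - 4 * q 0 z * q 2 z) 0 :=
    ((hqa 1).pow 2).sub ((analyticAt_const.mul (hqa 0)).mul (hqa 2))
  have hform : ∀ᶠ x in 𝓝ˢ 𝒞.Gam, x ∈ N ∧ ∀ i, x ∈ (k3 S h).N i → ∀ j,
      q j (U x) * (k3 S h).g i x = Tj 𝒞 i j x * U x i ^ 2 := by
    filter_upwards [hall, hNn] with x h1 h2
    refine ⟨h2, fun i hi j => ?_⟩
    rw [← h1 j, QQ_eq h _ hi h2 j]
    exact div_mul_cancel₀ _ ((k3 S h).ne i x hi)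
  -- the discriminant
  have hdx : ∀ᶠ x in 𝓝ˢ 𝒞.Gam, ∀ i, x ∈ (k3 S h).N i →
      q 1 (U x) ^ 2 - 4 * q 0 (U x) * q 2 (U x) = U x i ^ 6 * Ph S i x / (k3 S h).g i x ^ 3 := by
    filter_upwards [hall, hNn] with x h1 h2 i hi
    rw [← h1 0, ← h1 1, ← h1 2, QQ_eq h _ hi h2 0, QQ_eq h _ hi h2 1, QQ_eq h _ hi h2 2]
    exact disc_fm S h hi
  have hgt : ∀ (i : Fin 2) (c : C), c ∈ Ci 𝒞 i →
      Tendsto (fun x => Ph S i x / (k3 S h).g i x ^ 3) (𝓝 (c, 𝒞.iv c))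
        (𝓝 (Ph S i (c, 𝒞.iv c) / 4 ^ 3)) := by
    intro i c hi
    have h1 := (Ph_cont S (x := (c, 𝒞.iv c)) hi ((K3E_227.Ci_iv 𝒞).2 hi)).tendsto
    obtain ⟨γ, hγ, hg⟩ := (k3 S h).an i c hi
    have h2 : Tendsto (fun x : C × C => γ (𝒞.k c x.1, 𝒞.k (𝒞.iv c) x.2)) (𝓝 (c, 𝒞.iv c))
        (𝓝 (γ 0)) := hγ.continuousAt.tendsto.comp (kk_tendsto c)
    have h3 : γ 0 = 4 := by
      have := hg.self_of_nhds
      simp only [𝒞.k_zero] at this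
      rw [K3E_227.k3_Gam S h i c hi] at this
      exact this.symm
    rw [h3] at h2
    have h4 : Tendsto ((k3 S h).g i) (𝓝 (c, 𝒞.iv c)) (𝓝 4) :=
      h2.congr' (hg.mono fun x hx => hx.symm)
    exact h1.div (h4.pow 3) (by norm_num)
  refine ⟨⟨q, hqa, hq0, fun j => q_exp h (k3 S h) (by norm_num)
    (fun i c hc => K3E_227.k3_Gam S h i c hc) (hqa j) (hqU j), ?_, ?_, hform⟩⟩
  · refine isBigO_of_isLittleO 5 hd ?_
    rw [isLittleO_iff]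
    intro ε hε
    have key : ∀ᶠ x in 𝓝ˢ 𝒞.Gam,
        ‖q 1 (U x) ^ 2 - 4 * q 0 (U x) * q 2 (U x)‖ ≤ ε * ‖U x‖ ^ 5 := by
      have h1 : ∀ᶠ x in 𝓝ˢ 𝒞.Gam, ∃ i, x ∈ (k3 S h).N i ∧
          ‖U x i ^ 6 * Ph S i x / (k3 S h).g i x ^ 3‖ ≤ ε * ‖U x‖ ^ 5 := by
        rw [eventually_nhdsSet_iff_forall]
        intro x₀ hx₀
        obtain ⟨c, rfl⟩ : ∃ c, x₀ = (c, 𝒞.iv c) := ⟨x₀.1, Prod.ext rfl hx₀⟩
        obtain ⟨i, hi⟩ := exists_Ci (𝒞 := 𝒞) c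
        have hU : Tendsto (fun x => U x i) (𝓝 (c, 𝒞.iv c)) (𝓝 0) := by
          have h2 : ContinuousAt U (c, 𝒞.iv c) := K3E_227.U_cont h _ (h.sub rfl)
          have h3 : ContinuousAt (fun x => U x i) (c, 𝒞.iv c) :=
            (continuous_apply i).continuousAt.comp h2
          have h4 : U (c, 𝒞.iv c) i = 0 := by rw [U_gam h (show (c, 𝒞.iv c) ∈ 𝒞.Gam from rfl)]; rfl
          have h5 := h3.tendsto
          rwa [h4] at h5
        have h2 := (hU.mul (hgt i c hi)).norm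
        rw [zero_mul, norm_zero] at h2
        filter_upwards [h2.eventually (ge_mem_nhds hε), near_K (k3 S h) hi] with x h3 h4
        refine ⟨i, h4, ?_⟩
        have e : U x i ^ 6 * Ph S i x / (k3 S h).g i x ^ 3 =
            U x i ^ 5 * (U x i * (Ph S i x / (k3 S h).g i x ^ 3)) := by ring
        rw [e, norm_mul, norm_pow]
        have h5 : ‖U x i‖ ≤ ‖U x‖ := norm_le_pi_norm (U x) i
        calc ‖U x i‖ ^ 5 * ‖U x i * (Ph S i x / (k3 S h).g i x ^ 3)‖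
            ≤ ‖U x‖ ^ 5 * ε := by gcongr
          _ = ε * ‖U x‖ ^ 5 := mul_comm _ _
      filter_upwards [h1, hdx] with x h2 h3
      obtain ⟨i, hi, h4⟩ := h2
      rw [h3 i hi]
      exact h4
    have h2 := eventually_zero h (R := fun z => ‖q 1 z ^ 2 - 4 * q 0 z * q 2 z‖ ≤ ε * ‖z‖ ^ 5)
      key fun x hx hP => hP
    filter_upwards [h2] with z hz
    rw [norm_pow, norm_norm]
    exact hz
  · intro hev
    obtain ⟨i, c, hc, hyc⟩ := hy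
    have hU : Tendsto U (𝓝 (c, 𝒞.iv c)) (𝓝 0) := by
      have h2 : ContinuousAt U (c, 𝒞.iv c) := K3E_227.U_cont h _ (h.sub rfl)
      have h5 := h2.tendsto
      rwa [U_gam h (show (c, 𝒞.iv c) ∈ 𝒞.Gam from rfl)] at h5
    have hPh : Ph S i (c, 𝒞.iv c) = 4 * S.y i c ^ 2 := by
      unfold Ph
      simp only
      rw [K3E_227.tv_iv, K3E_227.Fp_eq, S.iv i c hc, ← S.sq i c hc]
      ring
    have hne : ∀ᶠ x in 𝓝 ((c, 𝒞.iv c) : C × C), Ph S i x ≠ 0 := by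
      refine (Ph_cont S (x := (c, 𝒞.iv c)) hc ((K3E_227.Ci_iv 𝒞).2 hc)).eventually_ne ?_
      rw [hPh]
      exact mul_ne_zero (by norm_num) (pow_ne_zero 2 hyc)
    have hdx' := eventually_nhdsSet_iff_forall.1 hdx (c, 𝒞.iv c) rfl
    have hev' := hU.eventually hev
    refine freq_gam (𝒞 := 𝒞) c ?_
    filter_upwards [hne, hdx', hev', near_K (k3 S h) hc] with x h1 h2 h3 h4
    rw [not_not]
    by_contra hG
    have h5 := ((k3 S h).dom i x h4).2.2.resolve_left hG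
    apply h3
    rw [h2 i h4]
    exact div_ne_zero (mul_ne_zero (pow_ne_zero 6 h5) h1) (pow_ne_zero 3 ((k3 S h).ne i x h4))

end

end Crest.Agent.R272.Th_876
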