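import Crest.Agent.R272.PW4_92
import Crest.Agent.R272.Th3_876
import Crest.Agent.R272.PosP6_848

/-!
# R272 (S0415), POS at `p0` (helper92), part 5: the data of the new side from the theta germs

`kd_of_theta` : `Th_876.Theta S h → KD 4⁻¹ T.q`; `kf_of_theta` : the coefficients;
`upDat K hb`  : 848's `UpDat Up.fam Up.N IPhi` with `FB = K.PhiU b`.
-/

set_option autoImplicit false
set_option linter.unusedSectionVars false
set_option linter.unusedVariables false

open Set Filter Topology Complex Asymptotics

namespace Crest.Agent.R272.PW_92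

open Crest.Agent.R272.AJ_956 Crest.Agent.R272.Idn_834
open Crest.Agent.R272.K3E_227 (Sext k3)
open Crest.Agent.R272.Th_876 (Theta mm)
open Crest.Agent.R272.PosP4_848 Crest.Agent.R272.PosP5_848
open Crest.Agent.R275.Geo Crest.Agent.R273.Fam_835
open Crest.Agent.R272.Flop_66 Crest.Agent.R272.Lc_220 Crest.Agent.R272.FinCB3_876

noncomputable section

section theta

variable {C : Type} [TopologicalSpace C] {𝒞 : Cur C} {N : Set (C × C)} {U : C × C → E2}
  {l : Fin 7 → ℂ} {S : Sext 𝒞 l} {h : 𝒞.NearE N U}

theorem kd_of_theta (T : Theta S h) : KD 4⁻¹ T.q where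
  κ_ne := by norm_num
  an := T.an
  j0 := by
    have := T.exp 0
    simpa [mm] using this
  j1 := by
    have := T.exp 1
    refine this.congr_left fun z => ?_
    simp only [mm, Matrix.cons_val_one, Matrix.cons_val_zero]
    ring
  j2 := by
    have := T.exp 2
    simpa [mm] using this
  disc6 := T.disc
  nz := by
    intro hc
    apply T.nz
    filter_upwards [hc] with z hz
    rw [not_not]
    exact hz

theorem kf_of_theta (T : Theta S h) : Nonempty (KF 4⁻¹ T.q) := (kd_of_theta T).exists_kf

end theta

/-- **the data on the new side** -/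
def upDat {κ : ℂ} {q : Fin 3 → (Fin 2 → ℂ) → ℂ} (K : KF κ q) {b : ℕ} (hb : 15 ≤ b) :
    UpDat Up.fam Up.N IPhi where
  FB := K.PhiU b
  valB x hx := K.valC_N0 hb hx
  ffB := fun x hx => K.ff_N0 hb x hx

end

end Crest.Agent.R272.PW_92
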