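import Crest.Agent.R273.Fam_835

/-!
# R272 (helper414): every atlas of a compact Hausdorff space has a partition of unity

`exists_part_any (A : Atl n M) : Nonempty (Part A)` for `M` compact and T2 (no finiteness of the index
set, no convexity); `exists_hm_any` : every line bundle has a smooth metric.
-/

set_option autoImplicit false
set_option linter.unusedSectionVars false

open Set Filter Topology Metric
open scoped ContDiff Manifold

namespace Crest.Agent.R272.Part_414

open Crest.Agent.R275 Crest.Agent.R275.Geo Crest.Agent.R275.Core144 Crest.Agent.R275.GC293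
open Crest.Agent.R273.Defs_333 Crest.Agent.R273.Map_835 Crest.Agent.R273.PB_835
open Crest.Agent.R273.Fam_835 Crest.Agent.R273.HM_333

noncomputable section

variable {n : ℕ} {M : Type} [TopologicalSpace M]

theorem sm_of_contMDiff (A : Atl n M) {W : Type*} [NormedAddCommGroup W] [NormedSpace ℝ W]
    {f : M → W} (hf : letI := (fam A).cs
      ContMDiff 𝓘(ℝ, Cn n) 𝓘(ℝ, W) ∞ f) : A.Sm f := by
  let _ := (fam A).cs
  have _ := (fam A).isManifold
  have : IsManifold 𝓘(ℝ, Cn n) ∞ M := ZC352.isManifold_real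
  intro i
  have hm : A.e i ∈ IsManifold.maximalAtlas 𝓘(ℝ, Cn n) ∞ M :=
    StructureGroupoid.subset_maximalAtlas _ (mem_range_self (f := (fam A).e) i)
  have h1 : ContMDiffOn 𝓘(ℝ, Cn n) 𝓘(ℝ, Cn n) ∞ (A.e i).symm (A.e i).target :=
    contMDiffOn_symm_of_mem_maximalAtlas hm
  have h2 : ContMDiffOn 𝓘(ℝ, Cn n) 𝓘(ℝ, W) ∞ (f ∘ (A.e i).symm) (A.e i).target :=
    hf.comp_contMDiffOn h1
  exact contMDiffOn_iff_contDiffOn.1 h2

/-- **every atlas on a compact Hausdorff space has a partition of unity** -/
theorem exists_part_any [CompactSpace M] [T2Space M] (A : Atl n M) : Nonempty (Part A) := by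
  classical
  let _ := (fam A).cs
  have _ := (fam A).isManifold
  have : IsManifold 𝓘(ℝ, Cn n) ∞ M := ZC352.isManifold_real
  -- a finite subcover
  obtain ⟨t, ht⟩ := isCompact_univ.elim_finite_subcover (fun i => (A.e i).source)
    (fun i => (A.e i).open_source) (fun x _ => mem_iUnion.2 (A.cover x))
  obtain ⟨f, hf⟩ := SmoothPartitionOfUnity.exists_isSubordinate 𝓘(ℝ, Cn n) (s := (univ : Set M))
    isClosed_univ (fun i : t => (A.e i).source) (fun i => (A.e i).open_source)
    (fun x _ => by
      obtain ⟨i, hi, hx⟩ := mem_iUnion₂.1 (ht (mem_univ x))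
      exact mem_iUnion.2 ⟨⟨i, hi⟩, hx⟩)
  have h1 : ∀ i : t, ∃ χ : C^∞⟮𝓘(ℝ, Cn n), M; 𝓘(ℝ), ℝ⟯,
      (∀ᶠ x in 𝓝ˢ ((A.e i).source)ᶜ, χ x = 0) ∧
      (∀ᶠ x in 𝓝ˢ (tsupport (f i)), χ x = 1) ∧ ∀ x, χ x ∈ Icc (0 : ℝ) 1 := by
    intro i
    apply exists_contMDiffMap_zero_one_nhds_of_isClosed
    · exact (A.e i).open_source.isClosed_compl
    · exact isClosed_tsupport _
    · rw [disjoint_compl_left_iff_subset]
      exact hf i
  choose χ hχ0 hχ1 hχ using h1
  have hsub : ∀ i, tsupport (χ i) ⊆ (A.e i).source := by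
    intro i x hx
    by_contra hxs
    have h2 : ∀ᶠ y in 𝓝 x, χ i y = 0 :=
      (hχ0 i).filter_mono (nhds_le_nhdsSet (mem_compl hxs))
    exact (notMem_tsupport_iff_eventuallyEq.2 h2) hx
  have hts0 : tsupport (fun _ : M => (0 : ℝ)) = ∅ := by
    rw [tsupport_eq_empty_iff]; rfl
  refine ⟨⟨fun i => if h : i ∈ t then f ⟨i, h⟩ else fun _ => 0,
    fun i => if h : i ∈ t then χ ⟨i, h⟩ else fun _ => 0, ?_, ?_, ?_, ?_, ?_, ?_, ?_⟩⟩
  · intro i
    by_cases h : i ∈ t
    · simp only [h, dite_true]
      exact sm_of_contMDiff A (f ⟨i, h⟩).contMDiff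
    · simp only [h, dite_false]
      exact fun j => contDiffOn_const
  · intro i
    by_cases h : i ∈ t
    · simp only [h, dite_true]
      exact sm_of_contMDiff A (χ ⟨i, h⟩).contMDiff
    · simp only [h, dite_false]
      exact fun j => contDiffOn_const
  · intro i
    exact (isClosed_tsupport _).isCompact
  · intro i
    by_cases h : i ∈ t
    · simp only [h, dite_true]
      exact hsub ⟨i, h⟩
    · simp only [h, dite_false]
      rw [hts0]
      exact empty_subset _
  · intro i x hx
    by_cases h : i ∈ t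
    · simp only [h, dite_true] at hx ⊢
      exact (hχ1 ⟨i, h⟩).filter_mono (nhds_le_nhdsSet hx)
    · simp only [h, dite_false] at hx
      rw [hts0] at hx
      exact absurd hx (notMem_empty x)
  · intro K _
    refine t.finite_toSet.subset fun i hi => ?_
    by_contra h
    have h' : i ∉ t := h
    obtain ⟨x, hx, -⟩ := hi
    simp only [h', dite_false] at hx
    rw [hts0] at hx
    exact notMem_empty x hx
  · intro x
    have h2 : ∑ᶠ i, f i x = 1 := f.sum_eq_one (mem_univ x)
    rw [finsum_eq_sum_of_fintype] at h2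
    rw [finsum_eq_sum_of_support_subset (s := t)]
    · rw [← h2, ← Finset.sum_coe_sort t]
      refine Finset.sum_congr rfl fun i _ => ?_
      simp only [i.2, dite_true]
    · intro i hi
      rw [Function.mem_support] at hi
      by_contra h
      have h' : i ∉ t := h
      simp only [h', dite_false] at hi
      exact hi rfl

end

end Crest.Agent.R272.Part_414
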