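import Crest.Agent.R272.CB9_232
import Crest.Agent.R272.PEnd6_732
import Crest.Agent.R272.Sur2_342

/-!
# R272 (helper232): abstract assembly of 732's `PhiD` on 342's surgery `S.XP`

* `glu S f0 f1` : the function on `S.XP` equal to `f0 ∘ iota⁻¹` off `K'`, `f1 ∘ ep` on `K'`;
* `valC_iota_iff`, `valC_ep_iff`, `genAt_iota_iff` : `ValC` / `GenAt` of the glued functions;
* `Parts` : the data on the two pieces `X` (= X⁻) and `B` (= Up); `Parts.phiD : PhiD ..`.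
-/

set_option autoImplicit false
set_option linter.unusedSectionVars false
set_option linter.unusedVariables false

open Set Filter Topology Complex

namespace Crest.Agent.R272.PhA_232

open Crest.Agent.R275.Geo Crest.Agent.R273.Fam_835
open Crest.Agent.R272.Quot_783 Crest.Agent.R272.CB_232 Crest.Agent.R272.FinCB3_876
open Crest.Agent.R272.Lc_220 Crest.Agent.R272.HFam_342 Crest.Agent.R272.Sur_342
open Crest.Agent.R272.CB9_232

noncomputable section

variable {n : ℕ} {X A B N : Type} [TopologicalSpace X] [TopologicalSpace A] [TopologicalSpace B]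
  [TopologicalSpace N] {C : Fam n X} {DA : Fam n A} {DB : Fam n B} {κ : Type} (S : Sur X A B)
  [T2Space X] (h : S.Hol C DA DB) {Φm : κ → X → ℂ} {Φp : κ → B → ℂ} {c : κ → ℂ} {δ : ℝ}

open Classical in
/-- functions on the two pieces give a function on the new space -/
def glu (f0 : X → ℂ) (f1 : B → ℂ) (z : S.XP) : ℂ :=
  if S.nf z = 0 then f1 (S.ep z) else f0 (S.iota.symm z)

theorem glu_of {f0 : X → ℂ} {f1 : B → ℂ} {z : S.XP} (hz : S.nf z ≠ 0) :
    glu S f0 f1 z = f0 (S.iota.symm z) := if_neg hz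

theorem glu_K' {f0 : X → ℂ} {f1 : B → ℂ} {z : S.XP} (hz : S.nf z = 0) :
    glu S f0 f1 z = f1 (S.ep z) := if_pos hz

theorem glu_iota {f0 : X → ℂ} {f1 : B → ℂ} {x : X} (hx : x ∉ S.K) :
    glu S f0 f1 (S.iota x) = f0 x := by
  rw [glu_of S (by rw [S.nf_iota hx]; exact S.nX_ne_zero.2 hx),
    S.iota.left_inv (S.mem_iota_source.2 hx)]

/-- agreement near the centre -/
def AG (f0 : X → ℂ) (f1 : B → ℂ) (δ : ℝ) : Prop :=
  ∀ x ∈ S.e.source, S.NA (S.e x) ≠ 0 → S.NA (S.e x) < δ → f1 (S.φ (S.e x)) = f0 x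

theorem glu_near {f0 : X → ℂ} {f1 : B → ℂ} (hδ : δ ≤ S.ε) (ha : AG S f0 f1 δ) {z : S.XP}
    (hz : S.nf z < δ) : glu S f0 f1 z = f1 (S.ep z) := by
  by_cases h0 : S.nf z = 0
  · exact glu_K' S h0
  · have h1 : S.nf z < S.ε := lt_of_lt_of_le hz hδ
    obtain ⟨h2, h3⟩ := S.e_iota_symm h0 h1
    have h4 : S.NB (S.ep z) ≠ 0 := by rw [S.NB_ep h1]; exact h0
    have h5 : S.NA (S.e (S.iota.symm z)) = S.nf z := by
      rw [h3, S.NA_symm h4, S.NB_ep h1]
    have h6 := ha _ h2 (by rw [h5]; exact h0) (by rw [h5]; exact hz)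
    rw [glu_of S h0, ← h6, h3, S.φ.right_inv (S.φ_target h4)]

theorem lCι : ∀ x ∈ S.iota.source, LC C (Sur.fam h) S.iota x := fun x hx =>
  Sur.lC_iota h (S.mem_iota_source.1 hx)

theorem lCe : ∀ z ∈ S.ep.source, LC (Sur.fam h) DB S.ep z := fun z hz =>
  Sur.lC_ep h (S.mem_ep_source.1 hz)

theorem ev_glu_iota {f0 : X → ℂ} {f1 : B → ℂ} {x : X} (hx : x ∉ S.K) :
    ∀ᶠ y in 𝓝 x, f0 y = glu S f0 f1 (S.iota y) := by
  filter_upwards [S.isClosed_K.isOpen_compl.mem_nhds hx] with y hy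
  exact (glu_iota S hy).symm

theorem valC_iota_iff [Finite κ] {x : X} (hx : x ∉ S.K) :
    ValC (Sur.fam h) (fun j => glu S (Φm j) (Φp j)) (S.iota x) c ↔ ValC C Φm x c :=
  (valC_push_congr S.iota (lCι S h) (S.mem_iota_source.2 hx) fun j => ev_glu_iota S hx).symm

theorem valC_off_iff [Finite κ] {z : S.XP} (hz : S.nf z ≠ 0) :
    ValC (Sur.fam h) (fun j => glu S (Φm j) (Φp j)) z c ↔ ValC C Φm (S.iota.symm z) c := by
  rw [← valC_iota_iff S h (Φp := Φp) (S.iota_symm_not_mem hz),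
    S.iota.right_inv (S.mem_iota_target.2 hz)]

theorem valC_ep_iff [Finite κ] (hδ : δ ≤ S.ε) (ha : ∀ j, AG S (Φm j) (Φp j) δ) {z : S.XP}
    (hz : S.nf z < δ) :
    ValC (Sur.fam h) (fun j => glu S (Φm j) (Φp j)) z c ↔ ValC DB Φp (S.ep z) c := by
  refine valC_push_congr S.ep (lCe S h) (S.mem_ep_source.2 (lt_of_lt_of_le hz hδ)) fun j => ?_
  filter_upwards [(isOpen_lt S.continuous_nf continuous_const).mem_nhds hz] with y hy
  exact glu_near S hδ (ha j) hy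

theorem genAt_iota [Finite κ] {x : X} (hx : x ∉ S.K) {e : X → ℂ} (hg : GenAt C Φm e x) :
    GenAt C (fun j z => glu S (Φm j) (Φp j) (S.iota z)) e x :=
  hg.congr (fun j => (ev_glu_iota S hx).mono fun y hy => hy.symm) (Eventually.of_forall fun _ => rfl)

/-- **the data on the two pieces** -/
structure Parts (S : Sur X A B) (C : Fam n X) (DB : Fam n B) (p : X → N) (q₀ : N)
    (J R : Eqs C univ) (mm k : ℕ) where
  κ : Type
  fin : Fintype κ
  /-- the functions on `X` (junk away from `V`) and on `B` -/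
  Φm : κ → X → ℂ
  Φp : κ → B → ℂ
  δ : ℝ
  δ0 : 0 < δ
  δε : δ ≤ S.ε
  ag : ∀ j, AG S (Φm j) (Φp j) δ
  V : Set X
  hV : IsOpen V
  sub : p ⁻¹' {q₀} ⊆ V
  cmp : ∀ x ∈ V, p x ≠ q₀ → ∃ a b, x ∈ J.V a ∧ x ∈ R.V b ∧
    GenAt C Φm (fun z => J.f a z ^ mm * R.f b z ^ k) x
  genm : ∀ x, x ∉ S.K → p x = q₀ → ∃ c, ValC C Φm x c
  genp : ∀ u, S.NB u = 0 → ∃ c, ValC DB Φp u c
  /-- finitely many pieces with finite fibres -/
  ι₁ : Type
  fin₁ : Finite ι₁
  P₁ : ι₁ → Set X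
  cov₁ : ∀ x, x ∉ S.K → p x = q₀ → ∃ i, x ∈ P₁ i
  ff₁ : ∀ i, ∀ x ∈ P₁ i, x ∉ S.K → p x = q₀ → {y | y ∈ P₁ i ∧ y ∉ S.K ∧ p y = q₀ ∧
    ∃ c c', ValC C Φm x c ∧ ValC C Φm y c' ∧ ∀ i j, c i * c' j = c j * c' i}.Finite
  ι₂ : Type
  fin₂ : Finite ι₂
  P₂ : ι₂ → Set B
  cov₂ : ∀ u, S.NB u = 0 → ∃ i, u ∈ P₂ i
  ff₂ : ∀ i, ∀ u ∈ P₂ i, S.NB u = 0 → {v | v ∈ P₂ i ∧ S.NB v = 0 ∧
    ∃ c c', ValC DB Φp u c ∧ ValC DB Φp v c' ∧ ∀ i j, c i * c' j = c j * c' i}.Finite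

namespace Parts

variable {S h} {p : X → N} {q₀ : N} {J R : Eqs C univ} {mm k : ℕ}

/-- the neighbourhood of the fibre -/
theorem isOpen_W [CompactSpace X] [T2Space B] {V : Set X} (hV : IsOpen V) (hK : S.K ⊆ V) :
    IsOpen {z : S.XP | S.nf z ≠ 0 → S.iota.symm z ∈ V} := by
  have : T2Space S.XP := S.t2
  have h1 : IsCompact (S.iota '' Vᶜ) :=
    S.isCompact_image_iota hV.isClosed_compl.isCompact
      (disjoint_left.2 fun x hx hx' => hx (hK hx'))
  have h2 : {z : S.XP | S.nf z ≠ 0 → S.iota.symm z ∈ V} = (S.iota '' Vᶜ)ᶜ := by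
    ext z
    simp only [mem_ofPred_eq, mem_compl_iff, mem_image, not_exists, not_and]
    constructor
    · rintro hz x hx rfl
      have hxK : x ∉ S.K := fun h' => hx (hK h')
      have h3 := hz (by rw [S.nf_iota hxK]; exact S.nX_ne_zero.2 hxK)
      rw [S.iota.left_inv (S.mem_iota_source.2 hxK)] at h3
      exact hx h3
    · intro hz h3
      by_contra h4
      exact hz _ h4 (S.iota.right_inv (S.mem_iota_target.2 h3))
  rw [h2]
  exact h1.isClosed.isOpen_compl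

/-- **732's data** -/
def phiD [CompactSpace X] [T2Space B] (D : Parts S C DB p q₀ J R mm k) (h : S.Hol C DA DB)
    (hK : ∀ x ∈ S.K, p x = q₀) :
    Crest.Agent.R272.PEnd_732.PhiD C (Sur.fam h) p (S.push p q₀) q₀ S.iota J R mm k where
  κ := D.κ
  fin := D.fin
  Φ := fun j => glu S (D.Φm j) (D.Φp j)
  W := {z : S.XP | S.nf z ≠ 0 → S.iota.symm z ∈ D.V}
  hW := isOpen_W D.hV fun x hx => D.sub (hK x hx)
  sub := by
    intro z hz hz0
    refine D.sub ?_
    have h1 : S.push p q₀ z = q₀ := hz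
    rw [S.push_of p q₀ hz0] at h1
    exact h1
  gen := by
    intro z hz
    have := D.fin
    have h1 : S.push p q₀ z = q₀ := hz
    by_cases h0 : S.nf z = 0
    · have h2 : S.nf z < D.δ := by rw [h0]; exact D.δ0
      have h3 : S.nf z < S.ε := by rw [h0]; exact S.ε0
      obtain ⟨c, hc⟩ := D.genp (S.ep z) (by rw [S.NB_ep h3, h0])
      exact ⟨c, (valC_ep_iff S h D.δε D.ag h2).2 hc⟩
    · rw [S.push_of p q₀ h0] at h1
      obtain ⟨c, hc⟩ := D.genm _ (S.iota_symm_not_mem h0) h1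
      exact ⟨c, (valC_off_iff S h h0).2 hc⟩
  cmp := by
    intro x hx hxW hxp
    have := D.fin
    have hxK : x ∉ S.K := S.mem_iota_source.1 hx
    have h1 : x ∈ D.V := by
      have h2 := hxW (by rw [S.nf_iota hxK]; exact S.nX_ne_zero.2 hxK)
      rwa [S.iota.left_inv hx] at h2
    obtain ⟨a, b, ha, hb, hg⟩ := D.cmp x h1 hxp
    exact ⟨a, b, ha, hb, genAt_iota S hxK hg⟩
  ff := by
    have := D.fin
    have := D.fin₁
    have := D.fin₂
    intro q hq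
    let P : D.ι₁ ⊕ D.ι₂ → Set S.XP := Sum.elim
      (fun i => {z | S.nf z ≠ 0 ∧ S.iota.symm z ∈ D.P₁ i})
      (fun i => {z | S.nf z = 0 ∧ S.ep z ∈ D.P₂ i})
    refine ff_of_pieces (K := S.push p q₀ ⁻¹' {q₀}) P (fun z hz => ?_) ?_ q hq
    · have h1 : S.push p q₀ z = q₀ := hz
      by_cases h0 : S.nf z = 0
      · have h3 : S.nf z < S.ε := by rw [h0]; exact S.ε0
        obtain ⟨i, hi⟩ := D.cov₂ (S.ep z) (by rw [S.NB_ep h3, h0])
        exact mem_iUnion.2 ⟨Sum.inr i, h0, hi⟩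
      · rw [S.push_of p q₀ h0] at h1
        obtain ⟨i, hi⟩ := D.cov₁ _ (S.iota_symm_not_mem h0) h1
        exact mem_iUnion.2 ⟨Sum.inl i, h0, hi⟩
    · rintro (i | i) z ⟨hz, h0, hi⟩
      · have h1 : S.push p q₀ z = q₀ := hz
        rw [S.push_of p q₀ h0] at h1
        refine ((D.ff₁ i _ hi (S.iota_symm_not_mem h0) h1).image S.iota).subset ?_
        rintro w ⟨⟨hw, h0', hi'⟩, c, c', hc, hc', hcc⟩
        have h1' : S.push p q₀ w = q₀ := hw
        rw [S.push_of p q₀ h0'] at h1'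
        exact ⟨S.iota.symm w, ⟨hi', S.iota_symm_not_mem h0', h1', c, c',
          (valC_off_iff S h h0).1 hc, (valC_off_iff S h h0').1 hc', hcc⟩,
          S.iota.right_inv (S.mem_iota_target.2 h0')⟩
      · have h3 : S.nf z < S.ε := by rw [h0]; exact S.ε0
        have h4 : S.nf z < D.δ := by rw [h0]; exact D.δ0
        refine ((D.ff₂ i _ hi (by rw [S.NB_ep h3, h0])).image S.ep.symm).subset ?_
        rintro w ⟨⟨hw, h0', hi'⟩, c, c', hc, hc', hcc⟩
        have h3' : S.nf w < S.ε := by rw [h0']; exact S.ε0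
        have h4' : S.nf w < D.δ := by rw [h0']; exact D.δ0
        exact ⟨S.ep w, ⟨hi', by rw [S.NB_ep h3', h0'], c, c',
          (valC_ep_iff S h D.δε D.ag h4).1 hc, (valC_ep_iff S h D.δε D.ag h4').1 hc', hcc⟩,
          S.ep.left_inv (S.mem_ep_source.2 h3')⟩

end Parts

end

end Crest.Agent.R272.PhA_232
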