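import Mathlib

/-!
Row 272, (E): the scalar identity behind the polarized potentials (post #5446 (a)).
`Ein` is any entire function with `x * Ein' x = 1 - exp (-x)`.
-/
set_option autoImplicit false

namespace Crest.Agent.R272.Pol_898

open Complex MeasureTheory Set Filter Topology
open scoped ComplexConjugate Real

/-- the only facts about `Ein` which are used here -/
structure EinLike (Ein : ℂ → ℂ) : Prop where
  diff : Differentiable ℂ Ein
  der : ∀ x, x * deriv Ein x = 1 - exp (-x)

namespace EinLike

variable {Ein : ℂ → ℂ} (h : EinLike Ein)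
include h

lemma diff' : Differentiable ℂ (deriv Ein) :=
  (h.diff.contDiff (n := 2)).differentiable_deriv_two

lemma der2 (x : ℂ) : x * deriv (deriv Ein) x + deriv Ein x = exp (-x) := by
  have h1 : HasDerivAt (fun x : ℂ => x * deriv Ein x) (1 * deriv Ein x + x * deriv (deriv Ein) x) x :=
    (hasDerivAt_id x).mul (h.diff' x).hasDerivAt
  have h2 : HasDerivAt (fun x : ℂ => 1 - exp (-x)) (exp (-x)) x := by
    have := ((hasDerivAt_id x).neg.cexp).const_sub 1
    simpa using this
  have h3 : (fun x : ℂ => x * deriv Ein x) = fun x : ℂ => 1 - exp (-x) := funext h.der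
  rw [h3] at h1
  have := h1.unique h2
  rw [← this]; ring

end EinLike

/-- `R = a b / q`, the point value of the kernel `e^{-πR} (Berg - π W)` in terms of the scalar data. -/
noncomputable def kerS (a a1 b b1 q qs qt qst : ℂ) : ℂ :=
  exp (-(π * (a * b / q))) *
    ((qs * qt - qst * q) / q ^ 2 - π * ((a1 - a * qs / q) * (b1 - b * qt / q) / q))

variable {Ein : ℂ → ℂ} 

/-- first derivative of `Ein (π R) + log q` -/
lemma hasDerivAt_pot1 (h : EinLike Ein) {a q : ℝ → ℂ} {a1 b qs : ℂ} {s : ℝ}
    (ha : HasDerivAt a a1 s) (hq : HasDerivAt q qs s) (hs : q s ∈ slitPlane) :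
    HasDerivAt (fun s => Ein (π * (a s * b / q s)) + log (q s))
      (π * deriv Ein (π * (a s * b / q s)) * (b / q s * (a1 - a s * qs / q s)) + qs / q s) s := by
  have hq0 : q s ≠ 0 := slitPlane_ne_zero hs
  have h1 : HasDerivAt (fun s => π * (a s * b / q s))
      (π * (b / q s * (a1 - a s * qs / q s))) s := by
    refine (((ha.mul_const b).fun_div hq hq0).const_mul (π : ℂ)).congr_deriv ?_
    field_simp
  have h2 := HasDerivAt.scomp s ((h.diff (π * (a s * b / q s))).hasDerivAt) h1
  have h3 : HasDerivAt (fun s => log (q s)) (qs / q s) s := hq.clog_real hs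
  refine (h2.add h3).congr_deriv ?_
  simp only [smul_eq_mul]
  ring

/-- second (mixed) derivative -/
lemma hasDerivAt_pot2 (h : EinLike Ein) {b q qs : ℝ → ℂ} {a a1 b1 qt qst : ℂ} {t : ℝ}
    (hb : HasDerivAt b b1 t) (hq : HasDerivAt q qt t) (hqs : HasDerivAt qs qst t) (hs : q t ≠ 0) :
    HasDerivAt (fun t => π * deriv Ein (π * (a * b t / q t)) * (b t / q t * (a1 - a * qs t / q t)) + qs t / q t)
      (- kerS a a1 (b t) b1 (q t) (qs t) qt qst) t := by
  have h1 : HasDerivAt (fun t => π * (a * b t / q t))
      (π * (a / q t * (b1 - b t * qt / q t))) t := by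
    refine (((hb.const_mul a).fun_div hq hs).const_mul (π : ℂ)).congr_deriv ?_
    field_simp
  have h2 := HasDerivAt.scomp t ((h.diff' (π * (a * b t / q t))).hasDerivAt) h1
  have h3 : HasDerivAt (fun t => b t / q t * (a1 - a * qs t / q t))
      ((b1 * q t - b t * qt) / q t ^ 2 * (a1 - a * qs t / q t) +
        b t / q t * (-((a * qst * q t - a * qs t * qt) / q t ^ 2))) t := by
    have e1 := hb.fun_div hq hs
    have e2 := (((hqs.const_mul a).fun_div hq hs).const_sub a1)
    exact e1.fun_mul e2
  have h4 := hqs.fun_div hq hs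
  have h5 := ((h2.const_mul (π : ℂ)).fun_mul h3).fun_add h4
  refine h5.congr_deriv ?_
  simp only [smul_eq_mul, Function.comp_apply]
  set X : ℂ := π * (a * b t / q t) with hX
  have k2 := h.der2 X
  have k1' : X * deriv Ein X = 1 - exp (-X) := h.der X
  unfold kerS
  rw [← hX]
  generalize deriv (deriv Ein) X = g' at k2 ⊢
  generalize deriv Ein X = g at k1' k2 ⊢
  have key : π * (π * (a / q t * (b1 - b t * qt / q t)) * g') * (b t / q t * (a1 - a * qs t / q t)) +
      π * g * ((b1 * q t - b t * qt) / q t ^ 2 * (a1 - a * qs t / q t) +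
        b t / q t * (-((a * qst * q t - a * qs t * qt) / q t ^ 2))) +
      (qst * q t - qs t * qt) / q t ^ 2 =
      (π * (a1 - a * qs t / q t) * (b1 - b t * qt / q t) / q t) * (X * g' + g) +
        (qs t * qt - qst * q t) / q t ^ 2 * (X * g - 1) := by
    rw [hX]; field_simp; ring
  rw [key, k2, k1']
  ring

end Crest.Agent.R272.Pol_898
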