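import Crest.Agent.R272.EBase_641
import Crest.Agent.R272.E5_528
import Crest.Agent.R272.Pol1_898

/-!
Row 272, (E): polarized kernels on the ball (posts #5446 (898) / #5491 (429)).

`qq z w = 1 - <w,z>`, `RR v z w = lin v z * conj (lin v w) / qq z w`,
`QQ v z w = - Ein (π RR) - log qq`, `dd F p z w` = second difference at the base point `p`,
`Psi p v z w = dd (QQ v) p z w`.
-/
set_option autoImplicit false

namespace Crest.Agent.R272.Pol_898

open Complex Set Filter Topology
open scoped ComplexConjugate Real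
open Crest.Agent.R272.EBase_641

noncomputable section

/-! ### second differences -/

section dd

variable {X : Type*}

/-- second difference of a function of two variables at the base point `p` -/
def dd (F : X → X → ℂ) (p z w : X) : ℂ := F z w - F z p - F p w + F p p

theorem dd_left (F : X → X → ℂ) (p w : X) : dd F p p w = 0 := by simp [dd]

theorem dd_right (F : X → X → ℂ) (p z : X) : dd F p z p = 0 := by simp [dd]

/-- second difference of a second difference -/
theorem dd_dd (F : X → X → ℂ) (p q z w : X) : dd (dd F q) p z w = dd F p z w := by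
  simp only [dd]; ring

/-- second differences kill functions of one variable -/
theorem dd_sum (F : X → X → ℂ) (P Q : X → ℂ) (p z w : X) :
    dd (fun z w => F z w + P z + Q w) p z w = dd F p z w := by
  simp only [dd]; ring

theorem dd_neg (F : X → X → ℂ) (p z w : X) :
    dd (fun z w => - F z w) p z w = - dd F p z w := by
  simp only [dd]; ring

theorem dd_add (F F' : X → X → ℂ) (p z w : X) :
    dd (fun z w => F z w + F' z w) p z w = dd F p z w + dd F' p z w := by
  simp only [dd]; ring

theorem dd_const_mul (c : ℂ) (F : X → X → ℂ) (p z w : X) :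
    dd (fun z w => c * F z w) p z w = c * dd F p z w := by
  simp only [dd]; ring

theorem dd_conj {F : X → X → ℂ} (hF : ∀ z w, conj (F z w) = F w z) (p z w : X) :
    conj (dd F p z w) = dd F p w z := by
  simp only [dd, map_add, map_sub, hF]; ring

/-- a product `A(z) conj B(w)` -/
theorem dd_mul (A B : X → ℂ) (p z w : X) :
    dd (fun z w => A z * conj (B w)) p z w = (A z - A p) * conj (B w - B p) := by
  simp only [dd, map_sub]; ring

end dd

/-! ### the cocycle of an invariant kernel -/

section coc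

open Crest.Agent.R272.E5_528 (IsCoc)

/-- an (abstract) action of a group on a subset `B` -/
structure ActOn {G X : Type*} [Group G] (a : G → X → X) (B : Set X) : Prop where
  mem : ∀ g, ∀ z ∈ B, a g z ∈ B
  mul : ∀ g h, ∀ z ∈ B, a (g * h) z = a g (a h z)
  one : ∀ z ∈ B, a 1 z = z

variable {G X : Type*} [Group G] {a : G → X → X} {B : Set X}

theorem ActOn.inv_act (h : ActOn a B) (g : G) {z : X} (hz : z ∈ B) : a g⁻¹ (a g z) = z := by
  rw [← h.mul _ _ _ hz, inv_mul_cancel, h.one _ hz]

theorem ActOn.act_inv (h : ActOn a B) (g : G) {z : X} (hz : z ∈ B) : a g (a g⁻¹ z) = z := by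
  rw [← h.mul _ _ _ hz, mul_inv_cancel, h.one _ hz]

/-- the kernel `S` is invariant up to functions of one variable; normalised at `p` -/
structure InvKer (a : G → X → X) (B : Set X) (p : X) (S : X → X → ℂ) : Prop where
  left : ∀ w ∈ B, S p w = 0
  right : ∀ z ∈ B, S z p = 0
  inv : ∀ g, ∀ z ∈ B, ∀ w ∈ B, S (a g z) (a g w) - S (a g z) (a g p) - S (a g p) (a g w)
      + S (a g p) (a g p) = S z w

/-- the 2-cocycle `σ(g,h) = S(h p, g⁻¹ p)` -/
def sig (a : G → X → X) (p : X) (S : X → X → ℂ) (g h : G) : ℂ := S (a h p) (a g⁻¹ p)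

variable {p : X} {S : X → X → ℂ}

/-- `S(hz, g⁻¹p) + S(z, h⁻¹p) = S(z, (gh)⁻¹p) + σ(g,h)` -/
theorem InvKer.cob (hS : InvKer a B p S) (ha : ActOn a B) (hp : p ∈ B) (g h : G) {z : X}
    (hz : z ∈ B) :
    S (a h z) (a g⁻¹ p) + S z (a h⁻¹ p) = S z (a (g * h)⁻¹ p) + sig a p S g h := by
  have h1 := hS.inv h z hz (a (g * h)⁻¹ p) (ha.mem _ _ hp)
  have e1 : a h (a (g * h)⁻¹ p) = a g⁻¹ p := by
    rw [← ha.mul _ _ _ hp]; congr 1; group
  have h2 := hS.inv h z hz (a h⁻¹ p) (ha.mem _ _ hp)
  have e2 : a h (a h⁻¹ p) = p := ha.act_inv h hp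
  rw [e1] at h1
  rw [e2, hS.right _ (ha.mem _ _ hz), hS.right _ (ha.mem _ _ hp)] at h2
  rw [sig, ← h1, ← h2]; ring

theorem InvKer.isCoc (hS : InvKer a B p S) (ha : ActOn a B) (hp : p ∈ B) :
    IsCoc (sig a p S) := by
  intro g h k
  -- σ(g,h) = A_g(h z) + A_h(z) - A_{gh}(z), with A_g(z) = S(z, g⁻¹ p)
  have hkp := ha.mem k p hp
  have h1 := hS.cob ha hp g h hkp
  have h2 := hS.cob ha hp (g * h) k hp
  have h3 := hS.cob ha hp h k hp
  have h4 := hS.cob ha hp g (h * k) hp
  rw [ha.mul h k p hp] at h4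
  rw [mul_assoc] at h2
  linear_combination -h1 - h2 + h3 + h4

theorem InvKer.self (hS : InvKer a B p S) (ha : ActOn a B) (hp : p ∈ B) (g h : G) :
    sig a p S g h = S (a g p) (a g p) - S (a (g * h) p) (a g p) := by
  have hh := ha.mem h p hp
  have h1 := hS.inv g (a h p) hh (a g⁻¹ p) (ha.mem _ _ hp)
  rw [ha.act_inv g hp, hS.right _ (ha.mem _ _ hh), hS.right _ (ha.mem _ _ hp),
    ← ha.mul _ _ _ hp] at h1
  rw [sig, ← h1]; ring

/-- for a Hermitian kernel the real part of the cocycle is a coboundary -/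
theorem InvKer.re_sig (hS : InvKer a B p S) (ha : ActOn a B) (hp : p ∈ B)
    (hH : ∀ z ∈ B, ∀ w ∈ B, conj (S z w) = S w z) (g h : G) :
    (sig a p S g h).re = (S (a g p) (a g p)).re / 2 + (S (a h p) (a h p)).re / 2
      - (S (a (g * h) p) (a (g * h) p)).re / 2 := by
  have hg := ha.mem g p hp
  have hh := ha.mem h p hp
  have hgh := ha.mem (g * h) p hp
  have h1 := hS.self ha hp g h
  have h2 := hS.inv g (a h p) hh (a h p) hh
  rw [← ha.mul _ _ _ hp] at h2
  have h3 : (S (a g p) (a (g * h) p)).re = (S (a (g * h) p) (a g p)).re := by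
    rw [← hH _ hgh _ hg, conj_re]
  have h4 := congrArg re h1
  have h5 := congrArg re h2
  simp only [sub_re, add_re] at h4 h5
  rw [h4]; linarith

/-- products `(A z - A p) conj (B w - B p)` with `A (gz) = A z + α g`, `B (gz) = B z + β g`:
the cocycle is `- α h * conj (β g)`, a product of homomorphisms. -/
theorem sig_prod (ha : ActOn a B) (hp : p ∈ B) {A A' : X → ℂ} {α β : G → ℂ}
    (hA : ∀ g, ∀ z ∈ B, A (a g z) = A z + α g) (hA' : ∀ g, ∀ z ∈ B, A' (a g z) = A' z + β g)
    (g h : G) :
    sig a p (fun z w => (A z - A p) * conj (A' w - A' p)) g h = - (α h * conj (β g)) := by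
  have h1 : A' (a g⁻¹ p) = A' p - β g := by
    have := hA' g (a g⁻¹ p) (ha.mem _ _ hp)
    rw [ha.act_inv g hp] at this
    rw [this]; ring
  simp only [sig]
  rw [h1, hA h p hp]
  have : A' p - β g - A' p = - β g := by ring
  rw [this, map_neg]; ring

end coc

end

end Crest.Agent.R272.Pol_898
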