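import Crest.Agent.R272.Pol4_898

/-!
Row 272, (E): BRIDGE. From the polarized kernel identity (theta leaf, `EThetaK`) to the
identity for the potentials `Psi`.
-/
set_option autoImplicit false

namespace Crest.Agent.R272.Pol_898

open Complex Set Filter Topology MeasureTheory
open scoped ComplexConjugate Real
open Crest.Agent.R272.EBase_641
open Crest.Agent.R272.EPol_429 (sp R2 om2 K2)

noncomputable section

variable {n : ℕ} {Ein : ℂ → ℂ}

/-- the inner integral in closed form -/
theorem inner_integral (h : EinLike Ein) (v : V1 n) {p z w : E n} (hp : p ∈ Ball n)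
    (hz : z ∈ Ball n) (hw : w ∈ Ball n) {s : ℝ} (hs : s ∈ Icc (0:ℝ) 1) :
    ∫ t in (0:ℝ)..1, K2 v (seg p z s) (seg p w t) (z - p) (w - p)
      = - D1 Ein v (seg p z s) w (z - p) - - D1 Ein v (seg p z s) p (z - p) := by
  have hIcc : uIcc (0:ℝ) 1 = Icc 0 1 := uIcc_of_le zero_le_one
  have hzs := seg_mem hp hz hs
  have h1 := intervalIntegral.integral_eq_sub_of_hasDerivAt
    (f := fun t : ℝ => - D1 Ein v (seg p z s) (seg p w t) (z - p))
    (f' := fun t : ℝ => K2 v (seg p z s) (seg p w t) (z - p) (w - p)) (a := 0) (b := 1)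
    (fun t ht => ?_) ?_
  · rw [h1, seg_zero, seg_one]
  · exact (hasDerivAt_D1_seg h v (z - p) hp hzs hw (by rwa [hIcc] at ht)).fun_neg.congr_deriv
      (neg_neg _)
  · refine ContinuousOn.intervalIntegrable ?_
    rw [hIcc]
    refine (continuousOn_K2 v (z - p) (w - p)).comp
      (f := fun t : ℝ => (seg p z s, seg p w t)) ?_ fun t ht => ⟨hzs, seg_mem hp hw ht⟩
    exact (continuous_const.prodMk (continuous_seg p w)).continuousOn

theorem continuousOn_inner_integral (h : EinLike Ein) (v : V1 n) {p z w : E n} (hp : p ∈ Ball n)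
    (hz : z ∈ Ball n) (hw : w ∈ Ball n) :
    ContinuousOn (fun s : ℝ => ∫ t in (0:ℝ)..1, K2 v (seg p z s) (seg p w t) (z - p) (w - p))
      (Icc 0 1) := by
  have hc : ∀ w' ∈ Ball n, ContinuousOn (fun s : ℝ => D1 Ein v (seg p z s) w' (z - p))
      (Icc 0 1) := fun w' hw' =>
    (continuousOn_D1 h v (z - p) w' hw').comp (continuous_seg p z).continuousOn
        fun s hs => seg_mem hp hz hs
  exact (((hc w hw).neg).sub (hc p hp).neg).congr fun s hs => inner_integral h v hp hz hw hs

/-! ### primitives along segments -/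

theorem isOpen_cseg (p z : E n) : IsOpen {ζ : ℂ | p + ζ • (z - p) ∈ Ball n} := by
  have : Continuous fun ζ : ℂ => p + ζ • (z - p) :=
    continuous_const.add (continuous_id.smul continuous_const)
  exact Metric.isOpen_ball.preimage this

theorem hasDerivAt_cseg {A : E n → ℂ} (hA : DifferentiableOn ℂ A (Ball n)) (p z : E n) {ζ : ℂ}
    (hζ : p + ζ • (z - p) ∈ Ball n) :
    HasDerivAt (fun ζ : ℂ => A (p + ζ • (z - p))) (fderiv ℂ A (p + ζ • (z - p)) (z - p)) ζ := by
  have h1 : HasFDerivAt A (fderiv ℂ A (p + ζ • (z - p))) (p + ζ • (z - p)) :=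
    (hA.differentiableAt (Metric.isOpen_ball.mem_nhds hζ)).hasFDerivAt
  have h2 : HasDerivAt (fun ζ : ℂ => p + ζ • (z - p)) (z - p) ζ := by
    have := ((hasDerivAt_id ζ).smul_const (z - p)).const_add p
    simpa using this
  exact h1.comp_hasDerivAt ζ h2

theorem continuousOn_fderiv_seg {A : E n → ℂ} (hA : DifferentiableOn ℂ A (Ball n)) {p z : E n}
    (hp : p ∈ Ball n) (hz : z ∈ Ball n) :
    ContinuousOn (fun s : ℝ => fderiv ℂ A (seg p z s) (z - p)) (Icc 0 1) := by
  have hU := isOpen_cseg p z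
  have hg : DifferentiableOn ℂ (fun ζ : ℂ => A (p + ζ • (z - p))) {ζ : ℂ | p + ζ • (z - p) ∈ Ball n} :=
    fun ζ hζ => (hasDerivAt_cseg hA p z hζ).differentiableAt.differentiableWithinAt
  have h1 := (hg.deriv hU).continuousOn
  have h2 : ContinuousOn (fun s : ℝ => deriv (fun ζ : ℂ => A (p + ζ • (z - p))) (s : ℂ))
      (Icc 0 1) :=
    h1.comp continuous_ofReal.continuousOn fun s hs => seg_mem hp hz hs
  refine h2.congr fun s hs => ?_
  exact (hasDerivAt_cseg hA p z (ζ := (s : ℂ)) (seg_mem hp hz hs)).deriv.symm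

theorem integral_fderiv_seg {A : E n → ℂ} (hA : DifferentiableOn ℂ A (Ball n)) {p z : E n}
    (hp : p ∈ Ball n) (hz : z ∈ Ball n) :
    ∫ s in (0:ℝ)..1, fderiv ℂ A (seg p z s) (z - p) = A z - A p := by
  have hIcc : uIcc (0:ℝ) 1 = Icc 0 1 := uIcc_of_le zero_le_one
  have h1 := intervalIntegral.integral_eq_sub_of_hasDerivAt
    (f := fun s : ℝ => A (seg p z s))
    (f' := fun s : ℝ => fderiv ℂ A (seg p z s) (z - p)) (a := 0) (b := 1)
    (fun s hs => ?_) ?_
  · rw [h1, seg_zero, seg_one]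
  · exact (hasDerivAt_cseg hA p z (ζ := (s : ℂ))
      (seg_mem hp hz (by rwa [hIcc] at hs))).comp_ofReal
  · refine ContinuousOn.intervalIntegrable ?_
    rw [hIcc]
    exact continuousOn_fderiv_seg hA hp hz

/-- conjugation and interval integrals -/
theorem integral_conj' (f : ℝ → ℂ) :
    ∫ t in (0:ℝ)..1, conj (f t) = conj (∫ t in (0:ℝ)..1, f t) := by
  rw [intervalIntegral.integral_of_le zero_le_one, intervalIntegral.integral_of_le zero_le_one]
  exact integral_conj

/-- interchange of a sum and an interval integral, constant bound -/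
theorem hasSum_interval {ι : Type*} [Countable ι] {F : ι → ℝ → ℂ} {f : ℝ → ℂ} {b : ι → ℝ}
    (hb : Summable b) (hF : ∀ i, ContinuousOn (F i) (Icc 0 1))
    (hFb : ∀ i, ∀ s ∈ Icc (0:ℝ) 1, ‖F i s‖ ≤ b i)
    (hs : ∀ s ∈ Icc (0:ℝ) 1, HasSum (fun i => F i s) (f s)) :
    HasSum (fun i => ∫ s in (0:ℝ)..1, F i s) (∫ s in (0:ℝ)..1, f s) := by
  have hI : ∀ s : ℝ, s ∈ uIoc (0:ℝ) 1 → s ∈ Icc (0:ℝ) 1 := by
    intro s hs
    rw [uIoc_of_le zero_le_one] at hs
    exact ⟨hs.1.le, hs.2⟩
  refine intervalIntegral.hasSum_integral_of_dominated_convergence (fun i _ => b i) ?_ ?_ ?_ ?_ ?_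
  · intro i
    exact ((hF i).mono hI).aestronglyMeasurable measurableSet_uIoc
  · exact fun i => ae_of_all _ fun s hs' => hFb i s (hI s hs')
  · exact ae_of_all _ fun s _ => hb
  · exact intervalIntegrable_const
  · exact ae_of_all _ fun s hs' => hs s (hI s hs')

/-- the majorant -/
def maj0 {m : ℕ} (c : ℝ) (v : V1 n × W m) : ℝ :=
  (1 + N1 v.1) * Real.exp (-c * (N1 v.1 + ‖v.2‖ ^ 2))

theorem maj0_pos {m : ℕ} (c : ℝ) (v : V1 n × W m) : 0 < maj0 c v := by
  have := N1_nonneg v.1
  unfold maj0; positivity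

theorem countable_of_summable {ι : Type*} {b : ι → ℝ} (hb : Summable b) (h : ∀ i, 0 < b i) :
    Countable ι := by
  have h1 := hb.countable_support
  have h2 : Function.support b = univ := by
    ext i; simp [(h i).ne']
  rw [h2] at h1
  exact countable_univ_iff.1 h1

/-- **BRIDGE**: the kernel identity integrated twice. -/
theorem hasSum_Psi (h : EinLike Ein) {m r : ℕ} {ι : Type*} (v : ι → V1 n × W m) (a : ι → ℂ)
    {C₀ : ℝ} (ha : ∀ i, ‖a i‖ ≤ C₀)
    (hsum : ∀ c : ℝ, 0 < c → Summable fun i => maj0 c (v i))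
    (c : Fin r → ℂ) (A B : Fin r → E n → ℂ)
    (hA : ∀ j, DifferentiableOn ℂ (A j) (Ball n)) (hB : ∀ j, DifferentiableOn ℂ (B j) (Ball n))
    (hK : ∀ z ∈ Ball n, ∀ w ∈ Ball n, ∀ X Y : E n,
      HasSum (fun i => a i * ((wt (v i) : ℂ) * K2 (v i).1 z w X Y))
        (∑ j, c j * (fderiv ℂ (A j) z X * conj (fderiv ℂ (B j) w Y))))
    {p z w : E n} (hp : p ∈ Ball n) (hz : z ∈ Ball n) (hw : w ∈ Ball n) :
    HasSum (fun i => a i * ((wt (v i) : ℂ) * Psi Ein p (v i).1 z w))
      (∑ j, c j * ((A j z - A j p) * conj (B j w - B j p))) := by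
  -- a radius
  set ρ : ℝ := max ‖p‖ (max ‖z‖ ‖w‖) with hρ
  have hρ0 : 0 ≤ ρ := (norm_nonneg p).trans (le_max_left _ _)
  have hρ1 : ρ < 1 := max_lt (mem_Ball.1 hp) (max_lt (mem_Ball.1 hz) (mem_Ball.1 hw))
  have hpr : ‖p‖ ≤ ρ := le_max_left _ _
  have hzr : ‖z‖ ≤ ρ := (le_max_left _ _).trans (le_max_right _ _)
  have hwr : ‖w‖ ≤ ρ := (le_max_right _ _).trans (le_max_right _ _)
  have hd0 : 0 < 1 - ρ ^ 2 := by nlinarith
  set b : ι → ℝ := fun i => (|C₀| * (8 * π / (1 - ρ ^ 2) ^ 3) * (‖z - p‖ * ‖w - p‖)) *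
    maj0 (cr ρ) (v i) with hb
  have hbs : Summable b := (hsum _ (cr_pos hρ0 hρ1)).mul_left _
  haveI : Countable ι := countable_of_summable (hsum _ (cr_pos hρ0 hρ1)) fun i => maj0_pos _ _
  have hbound : ∀ i, ∀ s ∈ Icc (0:ℝ) 1, ∀ t ∈ Icc (0:ℝ) 1,
      ‖a i * ((wt (v i) : ℂ) * K2 (v i).1 (seg p z s) (seg p w t) (z - p) (w - p))‖ ≤ b i := by
    intro i s hs t ht
    rw [norm_mul]
    have h1 := norm_wt_K2_le hρ0 hρ1 (v i) (z - p) (w - p) (norm_seg_le hpr hzr hs)
      (norm_seg_le hpr hwr ht)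
    have h2 : ‖a i‖ ≤ |C₀| := (ha i).trans (le_abs_self _)
    have h3 := mul_le_mul h2 h1 (norm_nonneg _) (abs_nonneg _)
    refine h3.trans (le_of_eq ?_)
    simp only [hb, maj0]; ring
  -- inner sum
  have hin : ∀ s ∈ Icc (0:ℝ) 1, HasSum (fun i => a i * ((wt (v i) : ℂ) *
      ∫ t in (0:ℝ)..1, K2 (v i).1 (seg p z s) (seg p w t) (z - p) (w - p)))
      (∑ j, c j * (fderiv ℂ (A j) (seg p z s) (z - p) * conj (B j w - B j p))) := by
    intro s hs
    have hzs := seg_mem hp hz hs
    have h1 := hasSum_interval (F := fun i t => a i * ((wt (v i) : ℂ) *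
        K2 (v i).1 (seg p z s) (seg p w t) (z - p) (w - p)))
      (f := fun t => ∑ j, c j * (fderiv ℂ (A j) (seg p z s) (z - p) *
        conj (fderiv ℂ (B j) (seg p w t) (w - p)))) hbs ?_ (fun i t ht => hbound i s hs t ht)
      (fun t ht => hK _ hzs _ (seg_mem hp hw ht) _ _)
    · have e1 : ∀ i, ∫ t in (0:ℝ)..1, a i * ((wt (v i) : ℂ) *
          K2 (v i).1 (seg p z s) (seg p w t) (z - p) (w - p)) = a i * ((wt (v i) : ℂ) *
          ∫ t in (0:ℝ)..1, K2 (v i).1 (seg p z s) (seg p w t) (z - p) (w - p)) := by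
        intro i
        rw [intervalIntegral.integral_const_mul, intervalIntegral.integral_const_mul]
      have e2 : ∫ t in (0:ℝ)..1, (∑ j, c j * (fderiv ℂ (A j) (seg p z s) (z - p) *
          conj (fderiv ℂ (B j) (seg p w t) (w - p))))
          = ∑ j, c j * (fderiv ℂ (A j) (seg p z s) (z - p) * conj (B j w - B j p)) := by
        rw [intervalIntegral.integral_finset_sum]
        · refine Finset.sum_congr rfl fun j _ => ?_
          rw [intervalIntegral.integral_const_mul, intervalIntegral.integral_const_mul,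
            integral_conj', integral_fderiv_seg (hB j) hp hw]
        · intro j _
          refine ContinuousOn.intervalIntegrable ?_
          rw [uIcc_of_le zero_le_one]
          exact continuousOn_const.mul (continuousOn_const.mul
            (continuous_conj.comp_continuousOn (continuousOn_fderiv_seg (hB j) hp hw)))
      rw [e2] at h1
      simpa only [e1] using h1
    · intro i
      refine continuousOn_const.mul (continuousOn_const.mul ?_)
      refine (continuousOn_K2 (v i).1 (z - p) (w - p)).comp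
        (f := fun t : ℝ => (seg p z s, seg p w t)) ?_ fun t ht => ⟨hzs, seg_mem hp hw ht⟩
      exact (continuous_const.prodMk (continuous_seg p w)).continuousOn
  -- outer sum
  have hout := hasSum_interval (F := fun i s => a i * ((wt (v i) : ℂ) *
      ∫ t in (0:ℝ)..1, K2 (v i).1 (seg p z s) (seg p w t) (z - p) (w - p)))
    (f := fun s => ∑ j, c j * (fderiv ℂ (A j) (seg p z s) (z - p) * conj (B j w - B j p)))
    hbs ?_ ?_ hin
  · have e1 : ∀ i, ∫ s in (0:ℝ)..1, a i * ((wt (v i) : ℂ) *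
        ∫ t in (0:ℝ)..1, K2 (v i).1 (seg p z s) (seg p w t) (z - p) (w - p))
        = a i * ((wt (v i) : ℂ) * Psi Ein p (v i).1 z w) := by
      intro i
      rw [intervalIntegral.integral_const_mul, intervalIntegral.integral_const_mul,
        Psi_eq_integral h (v i).1 hp hz hw]
    have e2 : ∫ s in (0:ℝ)..1, (∑ j, c j * (fderiv ℂ (A j) (seg p z s) (z - p) *
        conj (B j w - B j p))) = ∑ j, c j * ((A j z - A j p) * conj (B j w - B j p)) := by
      rw [intervalIntegral.integral_finset_sum]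
      · refine Finset.sum_congr rfl fun j _ => ?_
        rw [intervalIntegral.integral_const_mul, intervalIntegral.integral_mul_const,
          integral_fderiv_seg (hA j) hp hz]
      · intro j _
        refine ContinuousOn.intervalIntegrable ?_
        rw [uIcc_of_le zero_le_one]
        exact continuousOn_const.mul ((continuousOn_fderiv_seg (hA j) hp hz).mul
          continuousOn_const)
    rw [e2] at hout
    simpa only [e1] using hout
  · intro i
    exact continuousOn_const.mul (continuousOn_const.mul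
      (continuousOn_inner_integral h (v i).1 hp hz hw))
  · intro i s hs
    rw [← intervalIntegral.integral_const_mul, ← intervalIntegral.integral_const_mul]
    have h2 := intervalIntegral.norm_integral_le_of_norm_le_const (a := (0:ℝ)) (b := 1)
      (f := fun t => a i * ((wt (v i) : ℂ) *
        K2 (v i).1 (seg p z s) (seg p w t) (z - p) (w - p))) (C := b i) (fun t ht => ?_)
    · simpa using h2
    · rw [uIoc_of_le zero_le_one] at ht
      exact hbound i s hs t ⟨ht.1.le, ht.2⟩

end

end Crest.Agent.R272.Pol_898
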