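import Crest.Agent.R272.PImm1_102

/-!
# R272, POS-CL (helper732), file 1: Levi form of `log ∑ |f_a|² e^{u_a}`

`lse_eq`    : exact formula (Lagrange);
`lse_nonneg`: nonnegative if all `u_a` are plurisubharmonic in the direction `v`;
`lse_zero`  : if it vanishes, then `lev u_a = 0` where `f_a ≠ 0` and there is `c` with
              `∂_v f_a + f_a ∂_v u_a = c f_a` for all `a`;
`lev_log_one_add` : `log (1 + G)` at a zero of second order of `G`.
-/

set_option autoImplicit false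
set_option linter.unusedSectionVars false

open Set Filter Topology Complex
open scoped ContDiff Matrix ComplexConjugate Manifold

namespace Crest.Agent.R272.PosCl1_732

open Crest.Agent.R275.Geo Crest.Agent.R275.Core144
open Crest.Agent.R273.Levi_145 Crest.Agent.R272.PImm1_102

noncomputable section

variable {n : ℕ} {z : Cn n}

/-! ### `gr` calculus -/

theorem gr_mul {g u : Cn n → ℝ} (hg : DifferentiableAt ℝ g z) (hu : DifferentiableAt ℝ u z)
    (v : Cn n) : gr (fun w => g w * u w) z v = gr g z v * u z + g z * gr u z v := by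
  have hm : DifferentiableAt ℝ (fun w => g w * u w) z := hg.mul hu
  rw [gr_eq hm, gr_eq hg, gr_eq hu, PImm1_102.fderiv_mul' hg hu, PImm1_102.fderiv_mul' hg hu]
  push_cast
  ring

theorem gr_add {g u : Cn n → ℝ} (hg : DifferentiableAt ℝ g z) (hu : DifferentiableAt ℝ u z)
    (v : Cn n) : gr (fun w => g w + u w) z v = gr g z v + gr u z v := by
  have hm : DifferentiableAt ℝ (fun w => g w + u w) z := hg.add hu
  rw [gr_eq hm, gr_eq hg, gr_eq hu, fderiv_fun_add hg hu]
  simp only [_root_.add_apply]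
  push_cast
  ring

theorem gr_sum {α : Type*} (s : Finset α) {f : α → Cn n → ℝ}
    (hf : ∀ a ∈ s, DifferentiableAt ℝ (f a) z) (v : Cn n) :
    gr (fun w => ∑ a ∈ s, f a w) z v = ∑ a ∈ s, gr (f a) z v := by
  have h1 : DifferentiableAt ℝ (fun w => ∑ a ∈ s, f a w) z := DifferentiableAt.fun_sum hf
  have h2 : fderiv ℝ (fun w => ∑ a ∈ s, f a w) z = ∑ a ∈ s, fderiv ℝ (f a) z :=
    (HasFDerivAt.fun_sum fun a ha => (hf a ha).hasFDerivAt).fderiv
  have h3 : ∀ a ∈ s, gr (f a) z v = (1 / 2 : ℂ) * (fderiv ℝ (f a) z v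
      - I * fderiv ℝ (f a) z (I • v)) := fun a ha => gr_eq (hf a ha) v
  rw [gr_eq h1, h2, Finset.sum_congr rfl h3]
  simp only [_root_.sum_apply]
  push_cast
  rw [Finset.mul_sum, ← Finset.sum_sub_distrib, Finset.mul_sum]

theorem gr_exp {u : Cn n → ℝ} (hu : DifferentiableAt ℝ u z) (v : Cn n) :
    gr (fun w => Real.exp (u w)) z v = Real.exp (u z) * gr u z v := by
  rw [gr_eq hu.exp, gr_eq hu, fderiv_exp hu]
  simp only [_root_.smul_apply, smul_eq_mul]
  push_cast
  ring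

theorem gr_normSq {f : Cn n → ℂ} (hf : AnalyticAt ℂ f z) (v : Cn n) :
    gr (fun w => ‖f w‖ ^ 2) z v = conj (f z) * fderiv ℂ f z v := by
  have h := gr_sumSq (F := fun _ : Unit => f) (fun _ => hf) v
  have e : (sumSq fun _ : Unit => f) = fun w => ‖f w‖ ^ 2 := by
    funext w
    simp [sumSq]
  rw [e] at h
  simpa using h

theorem gr_comp {m : ℕ} {U : Cn m → ℝ} {P : Cn n → Cn m} (hP : AnalyticAt ℂ P z)
    (hU : DifferentiableAt ℝ U (P z)) (v : Cn n) :
    gr (fun w => U (P w)) z v = gr U (P z) (fderiv ℂ P z v) := by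
  have hPr : HasFDerivAt P ((fderiv ℂ P z).restrictScalars ℝ) z :=
    hP.differentiableAt.hasFDerivAt.restrictScalars ℝ
  have hc : HasFDerivAt (fun w => U (P w)) _ z := hU.hasFDerivAt.comp z hPr
  rw [gr_eq hc.differentiableAt, gr_eq hU, hc.fderiv]
  simp only [ContinuousLinearMap.coe_comp, Function.comp_apply,
    ContinuousLinearMap.coe_restrictScalars', map_smul]

theorem gr_zero (u : Cn n → ℝ) : gr u z 0 = 0 := by
  simp [gr]

/-- the cross term of `lev_mul` -/
theorem cross {g u : Cn n → ℝ} (hg : DifferentiableAt ℝ g z) (hu : DifferentiableAt ℝ u z)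
    (v : Cn n) :
    (fderiv ℝ g z v * fderiv ℝ u z v + fderiv ℝ g z (I • v) * fderiv ℝ u z (I • v)) / 2
      = 2 * (gr g z v * conj (gr u z v)).re := by
  rw [gr_eq hg, gr_eq hu]
  simp only [map_mul, map_sub, conj_I, map_div₀, map_one, map_ofNat, conj_ofReal, mul_re, mul_im,
    sub_re, sub_im, ofReal_re, ofReal_im, I_re, I_im, neg_re, neg_im]
  norm_num
  ring

theorem lev_mul' {g u : Cn n → ℝ} (hg : ContDiffAt ℝ 2 g z) (hu : ContDiffAt ℝ 2 u z) (v : Cn n) :
    lev (fun w => g w * u w) z v = lev g z v * u z + g z * lev u z v +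
      2 * (gr g z v * conj (gr u z v)).re := by
  rw [lev_mul hg hu, cross (c2_diff hg) (c2_diff hu)]

/-! ### one term -/

section term

variable {f : Cn n → ℂ} {u : Cn n → ℝ}

theorem c2_term {k : ℕ∞ω} (hf : AnalyticAt ℂ f z) (hu : ContDiffAt ℝ k u z) :
    ContDiffAt ℝ k (fun w => ‖f w‖ ^ 2 * Real.exp (u w)) z :=
  (c2_normSq hf k).mul hu.exp

theorem gr_term (hf : AnalyticAt ℂ f z) (hu : ContDiffAt ℝ 2 u z) (v : Cn n) :
    gr (fun w => ‖f w‖ ^ 2 * Real.exp (u w)) z v =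
      Real.exp (u z) * (conj (f z) * (fderiv ℂ f z v + f z * gr u z v)) := by
  rw [gr_mul (c2_diff (c2_normSq hf 2)) (c2_diff hu.exp), gr_normSq hf, gr_exp (c2_diff hu)]
  have : ((‖f z‖ ^ 2 : ℝ) : ℂ) = f z * conj (f z) := by
    rw [Complex.mul_conj']; push_cast; rfl
  rw [this]
  ring

theorem lev_term (hf : AnalyticAt ℂ f z) (hu : ContDiffAt ℝ 2 u z) (v : Cn n) :
    lev (fun w => ‖f w‖ ^ 2 * Real.exp (u w)) z v =
      Real.exp (u z) * (‖fderiv ℂ f z v + f z * gr u z v‖ ^ 2 + ‖f z‖ ^ 2 * lev u z v) := by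
  rw [lev_mul' (c2_normSq hf 2) hu.exp, lev_normSq hf, lev_exp hu, gr_normSq hf,
    gr_exp (c2_diff hu)]
  have h1 : ‖fderiv ℂ f z v + f z * gr u z v‖ ^ 2 = ‖fderiv ℂ f z v‖ ^ 2
      + ‖f z‖ ^ 2 * ‖gr u z v‖ ^ 2 + 2 * (conj (f z) * fderiv ℂ f z v * conj (gr u z v)).re := by
    rw [← Complex.normSq_eq_norm_sq, Complex.normSq_add, ← Complex.normSq_eq_norm_sq,
      ← Complex.normSq_eq_norm_sq, ← Complex.normSq_eq_norm_sq, map_mul Complex.normSq, map_mul]
    congr 3
    ring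
  rw [h1]
  simp only [map_mul, conj_ofReal]
  have h2 : (conj (f z) * fderiv ℂ f z v * (((Real.exp (u z) : ℝ) : ℂ) * conj (gr u z v))).re
      = Real.exp (u z) * (conj (f z) * fderiv ℂ f z v * conj (gr u z v)).re := by
    rw [← Complex.re_ofReal_mul]
    congr 1
    ring
  rw [h2]
  ring

end term

/-! ### the log-sum-exp formula -/

variable {α : Type*} [Fintype α] {f : α → Cn n → ℂ} {u : α → Cn n → ℝ}

/-- `∑ |f_a|² e^{u_a}` -/
def se (f : α → Cn n → ℂ) (u : α → Cn n → ℝ) (w : Cn n) : ℝ := ∑ a, ‖f a w‖ ^ 2 * Real.exp (u a w)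

/-- the covariant derivative `∂_v f_a + f_a ∂_v u_a` -/
def cov (f : α → Cn n → ℂ) (u : α → Cn n → ℝ) (z v : Cn n) (a : α) : ℂ :=
  fderiv ℂ (f a) z v + f a z * gr (u a) z v

theorem c2_se {k : ℕ∞ω} (hf : ∀ a, AnalyticAt ℂ (f a) z) (hu : ∀ a, ContDiffAt ℝ k (u a) z) :
    ContDiffAt ℝ k (se f u) z :=
  ContDiffAt.sum fun a _ => c2_term (hf a) (hu a)

theorem se_nonneg (w : Cn n) : 0 ≤ se f u w :=
  Finset.sum_nonneg fun a _ => by positivity

theorem se_pos {w : Cn n} (h0 : ∃ a, f a w ≠ 0) : 0 < se f u w := by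
  obtain ⟨a, ha⟩ := h0
  exact Finset.sum_pos' (fun b _ => by positivity) ⟨a, Finset.mem_univ a, by positivity⟩

theorem lev_se (hf : ∀ a, AnalyticAt ℂ (f a) z) (hu : ∀ a, ContDiffAt ℝ 2 (u a) z) (v : Cn n) :
    lev (se f u) z v =
      ∑ a, Real.exp (u a z) * (‖cov f u z v a‖ ^ 2 + ‖f a z‖ ^ 2 * lev (u a) z v) := by
  have h1 : lev (se f u) z v = ∑ a, lev (fun w => ‖f a w‖ ^ 2 * Real.exp (u a w)) z v :=
    lev_sum Finset.univ (f := fun a w => ‖f a w‖ ^ 2 * Real.exp (u a w))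
      (fun a _ => c2_term (hf a) (hu a)) v
  rw [h1]
  exact Finset.sum_congr rfl fun a _ => lev_term (hf a) (hu a) v

theorem gr_se (hf : ∀ a, AnalyticAt ℂ (f a) z) (hu : ∀ a, ContDiffAt ℝ 2 (u a) z) (v : Cn n) :
    gr (se f u) z v = ∑ a, Real.exp (u a z) * (conj (f a z) * cov f u z v a) := by
  have h1 : gr (se f u) z v = ∑ a, gr (fun w => ‖f a w‖ ^ 2 * Real.exp (u a w)) z v :=
    gr_sum Finset.univ (f := fun a w => ‖f a w‖ ^ 2 * Real.exp (u a w))
      (fun a _ => c2_diff (c2_term (hf a) (hu a))) v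
  rw [h1]
  exact Finset.sum_congr rfl fun a _ => gr_term (hf a) (hu a) v

/-- **Levi form of `log ∑ |f_a|² e^{u_a}`** -/
theorem lse_eq (hf : ∀ a, AnalyticAt ℂ (f a) z) (hu : ∀ a, ContDiffAt ℝ 2 (u a) z)
    (h0 : ∃ a, f a z ≠ 0) (v : Cn n) :
    lev (fun w => Real.log (se f u w)) z v =
      (∑ a, ∑ b, Real.exp (u a z) * Real.exp (u b z) *
        ‖f a z * cov f u z v b - f b z * cov f u z v a‖ ^ 2) / (2 * (se f u z) ^ 2)
      + (∑ a, Real.exp (u a z) * (‖f a z‖ ^ 2 * lev (u a) z v)) / se f u z := by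
  have hp : 0 < se f u z := se_pos h0
  rw [lev_log (c2_se hf hu) hp, lev_se hf hu, gr_se hf hu]
  -- the vectors `x`, `y`
  let s : α → ℝ := fun a => Real.sqrt (Real.exp (u a z))
  have hs : ∀ a, s a * s a = Real.exp (u a z) := fun a => Real.mul_self_sqrt (Real.exp_pos _).le
  have hs0 : ∀ a, 0 ≤ s a := fun a => Real.sqrt_nonneg _
  let x : α → ℂ := fun a => (s a : ℂ) * f a z
  let y : α → ℂ := fun a => (s a : ℂ) * cov f u z v a
  have hx : ∀ a, ‖x a‖ ^ 2 = Real.exp (u a z) * ‖f a z‖ ^ 2 := by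
    intro a
    simp only [x]
    rw [norm_mul, mul_pow, Complex.norm_real, Real.norm_of_nonneg (hs0 a), sq, hs a]
  have hy : ∀ a, ‖y a‖ ^ 2 = Real.exp (u a z) * ‖cov f u z v a‖ ^ 2 := by
    intro a
    simp only [y]
    rw [norm_mul, mul_pow, Complex.norm_real, Real.norm_of_nonneg (hs0 a), sq, hs a]
  have hxy : ∀ a, conj (x a) * y a = Real.exp (u a z) * (conj (f a z) * cov f u z v a) := by
    intro a
    simp only [x, y, map_mul, conj_ofReal]
    rw [← hs a]
    push_cast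
    ring
  have hX : ∑ a, ‖x a‖ ^ 2 = se f u z := by
    simp only [hx, se]
    exact Finset.sum_congr rfl fun a _ => mul_comm _ _
  have hL := lagrange x y
  have hd : ∀ a b, ‖x a * y b - x b * y a‖ ^ 2 = Real.exp (u a z) * Real.exp (u b z) *
        ‖f a z * cov f u z v b - f b z * cov f u z v a‖ ^ 2 := by
    intro a b
    have : x a * y b - x b * y a = ((s a * s b : ℝ) : ℂ) *
        (f a z * cov f u z v b - f b z * cov f u z v a) := by
      simp only [x, y]; push_cast; ring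
    rw [this, norm_mul, mul_pow, Complex.norm_real,
      Real.norm_of_nonneg (mul_nonneg (hs0 a) (hs0 b))]
    rw [show (s a * s b) ^ 2 = (s a * s a) * (s b * s b) by ring, hs, hs]
  rw [hX] at hL
  simp only [hxy, hd, hy] at hL
  have hsplit : ∑ a, Real.exp (u a z) * (‖cov f u z v a‖ ^ 2 + ‖f a z‖ ^ 2 * lev (u a) z v) =
      ∑ a, Real.exp (u a z) * ‖cov f u z v a‖ ^ 2 +
        ∑ a, Real.exp (u a z) * (‖f a z‖ ^ 2 * lev (u a) z v) := by
    rw [← Finset.sum_add_distrib]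
    exact Finset.sum_congr rfl fun a _ => by ring
  rw [hsplit, ← hL]
  field_simp
  ring

theorem lse_nonneg (hf : ∀ a, AnalyticAt ℂ (f a) z) (hu : ∀ a, ContDiffAt ℝ 2 (u a) z)
    (h0 : ∃ a, f a z ≠ 0) {v : Cn n} (hl : ∀ a, 0 ≤ lev (u a) z v) :
    0 ≤ lev (fun w => Real.log (se f u w)) z v := by
  rw [lse_eq hf hu h0]
  have hp : 0 < se f u z := se_pos h0
  refine add_nonneg (by positivity) (div_nonneg (Finset.sum_nonneg fun a _ => ?_) hp.le)
  have := hl a
  positivity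

theorem lse_zero (hf : ∀ a, AnalyticAt ℂ (f a) z) (hu : ∀ a, ContDiffAt ℝ 2 (u a) z)
    (h0 : ∃ a, f a z ≠ 0) {v : Cn n} (hl : ∀ a, 0 ≤ lev (u a) z v)
    (h : lev (fun w => Real.log (se f u w)) z v = 0) :
    (∀ a, f a z ≠ 0 → lev (u a) z v = 0) ∧
      ∃ c : ℂ, ∀ a, fderiv ℂ (f a) z v + f a z * gr (u a) z v = c * f a z := by
  rw [lse_eq hf hu h0] at h
  have hp : 0 < se f u z := se_pos h0
  have hA : 0 ≤ (∑ a, ∑ b, Real.exp (u a z) * Real.exp (u b z) *
        ‖f a z * cov f u z v b - f b z * cov f u z v a‖ ^ 2) / (2 * (se f u z) ^ 2) := by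
    positivity
  have hBn : ∀ a ∈ (Finset.univ : Finset α), 0 ≤ Real.exp (u a z) * (‖f a z‖ ^ 2 * lev (u a) z v) :=
    fun a _ => by have := hl a; positivity
  have hB : 0 ≤ (∑ a, Real.exp (u a z) * (‖f a z‖ ^ 2 * lev (u a) z v)) / se f u z :=
    div_nonneg (Finset.sum_nonneg hBn) hp.le
  obtain ⟨hA0, hB0⟩ := (add_eq_zero_iff_of_nonneg hA hB).1 h
  constructor
  · intro a ha
    have h1 := (div_eq_zero_iff.1 hB0).resolve_right hp.ne'
    have h2 := (Finset.sum_eq_zero_iff_of_nonneg hBn).1 h1 a (Finset.mem_univ a)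
    have h3 : ‖f a z‖ ^ 2 ≠ 0 := by positivity
    rcases mul_eq_zero.1 h2 with h4 | h4
    · exact absurd h4 (Real.exp_pos _).ne'
    · exact (mul_eq_zero.1 h4).resolve_left h3
  · have h1 := (div_eq_zero_iff.1 hA0).resolve_right (by positivity)
    have h2 : ∀ a b, f a z * cov f u z v b - f b z * cov f u z v a = 0 := by
      intro a b
      have h3 := (Finset.sum_eq_zero_iff_of_nonneg
        (fun i _ => Finset.sum_nonneg fun j _ => by positivity)).1 h1 a (Finset.mem_univ a)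
      have h4 := (Finset.sum_eq_zero_iff_of_nonneg (fun j _ => by positivity)).1 h3 b
        (Finset.mem_univ b)
      rcases mul_eq_zero.1 h4 with h5 | h5
      · exact absurd h5 (mul_pos (Real.exp_pos _) (Real.exp_pos _)).ne'
      · simpa using h5
    obtain ⟨i, hi⟩ := h0
    refine ⟨cov f u z v i / f i z, fun a => ?_⟩
    have := h2 i a
    show cov f u z v a = _
    field_simp
    linear_combination this

/-- Levi form of `log (1 + G)` at a point where `G` vanishes to second order. -/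
theorem lev_log_one_add {G : Cn n → ℝ} (hG : ContDiffAt ℝ 2 G z) (h0 : G z = 0) {v : Cn n}
    (h1 : fderiv ℝ G z v = 0) (h2 : fderiv ℝ G z (I • v) = 0) :
    lev (fun w => Real.log (1 + G w)) z v = lev G z v := by
  have hc : ContDiffAt ℝ 2 (fun w => 1 + G w) z := contDiffAt_const.add hG
  have hd : DifferentiableAt ℝ G z := c2_diff hG
  have h3 : gr (fun w => 1 + G w) z v = 0 := by
    rw [gr_add (differentiableAt_const _) hd, gr_eq hd, h1, h2, gr_eq (differentiableAt_const _)]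
    simp
  rw [lev_log hc (by rw [h0]; norm_num), h3, h0, lev_add contDiffAt_const hG, lev_const]
  simp

end

end Crest.Agent.R272.PosCl1_732
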