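import Crest.Agent.R272.PosGlue2_232

/-!
# R272, POS-FIB (helper220), file 1: tools

* `perturb`   : strict positivity of the Levi form is stable under smooth perturbations with a parameter
* `PosO h x`  : positive curvature of `h : HMo L U` at `x` (all charts); `posO_of` one chart suffices;
                `isOpen_posO`
* `HMo.mulExp`: the metric `h * exp (-u)`
* `NN A u x`  : the function `u` has Levi form `≥ 0` at `x`; `nn_of` one chart suffices
-/

set_option autoImplicit false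
set_option linter.unusedSectionVars false

open Set Filter Topology Complex
open scoped ContDiff Matrix ComplexConjugate Manifold

namespace Crest.Agent.R272.PosFib_220

open Crest.Agent.R275.Geo Crest.Agent.R275.Core144 Crest.Agent.R273.Defs_333
open Crest.Agent.R273.Map_835 Crest.Agent.R273 Crest.Agent.R275.QN2b734
open Crest.Agent.R272.PosGlue_232

noncomputable section

variable {n : ℕ}

/-! ### perturbation -/

theorem lev_param {Φ : ℝ × Cn n → ℝ} {p : ℝ × Cn n} (h : ContDiffAt ℝ 2 Φ p) (v : Cn n) :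
    Levi_145.lev (fun z => Φ (p.1, z)) p.2 v =
      (fderiv ℝ (fderiv ℝ Φ) p ((0 : ℝ), v) ((0 : ℝ), v) +
        fderiv ℝ (fderiv ℝ Φ) p ((0 : ℝ), I • v) ((0 : ℝ), I • v)) / 4 := by
  let ι : Cn n →L[ℝ] ℝ × Cn n := ContinuousLinearMap.inr ℝ ℝ (Cn n)
  have ht : Tendsto (fun z : Cn n => (p.1, z)) (𝓝 p.2) (𝓝 p) := by
    have : ContinuousAt (fun z : Cn n => (p.1, z)) p.2 := by fun_prop
    exact this
  have hd : ∀ q : ℝ × Cn n, HasFDerivAt (fun z : Cn n => (q.1, z)) ι q.2 := fun q =>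
    hasFDerivAt_prodMk_right q.1 q.2
  have he : ∀ᶠ q in 𝓝 p, DifferentiableAt ℝ Φ q := by
    have := h.eventually (by norm_num)
    exact this.mono fun q hq => hq.differentiableAt (by norm_num)
  have e1 : fderiv ℝ (fun z => Φ (p.1, z)) =ᶠ[𝓝 p.2] fun z => (fderiv ℝ Φ (p.1, z)).comp ι := by
    filter_upwards [ht.eventually he] with z hz
    exact (hz.hasFDerivAt.comp z (hd (p.1, z))).fderiv
  have h2 : HasFDerivAt (fderiv ℝ Φ) (fderiv ℝ (fderiv ℝ Φ) p) p :=
    ((h.fderiv_right (m := 1) (by norm_num)).differentiableAt (by norm_num)).hasFDerivAt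
  have e2 : HasFDerivAt (fun z => fderiv ℝ Φ (p.1, z)) ((fderiv ℝ (fderiv ℝ Φ) p).comp ι) p.2 :=
    HasFDerivAt.comp p.2 (g := fderiv ℝ Φ) h2 (hd p)
  have e3 : HasFDerivAt (fun z => (fderiv ℝ Φ (p.1, z)).comp ι)
      ((((ContinuousLinearMap.compL ℝ (Cn n) (ℝ × Cn n) ℝ).flip ι)).comp
        ((fderiv ℝ (fderiv ℝ Φ) p).comp ι)) p.2 :=
    (((ContinuousLinearMap.compL ℝ (Cn n) (ℝ × Cn n) ℝ).flip ι).hasFDerivAt).comp p.2 e2
  unfold Levi_145.lev
  rw [e1.fderiv_eq, e3.fderiv]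
  rfl

theorem perturb {Φ : ℝ × Cn n → ℝ} {z0 : Cn n} (hΦ : ContDiffAt ℝ ∞ Φ ((0 : ℝ), z0))
    (hpos : ∀ v : Cn n, v ≠ 0 → 0 < lev (fun z => Φ ((0 : ℝ), z)) z0 v) :
    ∀ᶠ p in 𝓝 ((0 : ℝ), z0), ∀ v : Cn n, v ≠ 0 → 0 < lev (fun z => Φ (p.1, z)) p.2 v := by
  have h2 : ContDiffAt ℝ 2 Φ ((0 : ℝ), z0) := hΦ.of_le (by norm_cast)
  have hD : ContinuousAt (fderiv ℝ (fderiv ℝ Φ)) ((0 : ℝ), z0) := by
    have h3 : ContDiffAt ℝ 1 (fderiv ℝ Φ) ((0 : ℝ), z0) := h2.fderiv_right (by norm_num)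
    exact (h3.fderiv_right (m := 0) (by norm_num)).continuousAt
  let Q : (ℝ × Cn n) → Cn n → ℝ := fun p v =>
    fderiv ℝ (fderiv ℝ Φ) p ((0 : ℝ), v) ((0 : ℝ), v) +
        fderiv ℝ (fderiv ℝ Φ) p ((0 : ℝ), I • v) ((0 : ℝ), I • v)
  have hQ : ∀ p v, ContDiffAt ℝ 2 Φ p → lev (fun z => Φ (p.1, z)) p.2 v = Q p v := by
    intro p v hp
    rw [PB_835.lev_bridge, lev_param hp]
    ring
  have hQc : ∀ v : Cn n, ContinuousAt (fun q : (ℝ × Cn n) × Cn n => Q q.1 q.2)
      (((0 : ℝ), z0), v) := by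
    intro v
    have k1 : ContinuousAt (fun q : (ℝ × Cn n) × Cn n => fderiv ℝ (fderiv ℝ Φ) q.1)
        (((0 : ℝ), z0), v) :=
      ContinuousAt.comp (f := fun q : (ℝ × Cn n) × Cn n => q.1) (g := fderiv ℝ (fderiv ℝ Φ))
        hD continuousAt_fst
    have k2 : ContinuousAt (fun q : (ℝ × Cn n) × Cn n => ((0 : ℝ), q.2))
        (((0 : ℝ), z0), v) := by fun_prop
    have k3 : ContinuousAt (fun q : (ℝ × Cn n) × Cn n => ((0 : ℝ), I • q.2))
        (((0 : ℝ), z0), v) := by fun_prop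
    exact ((k1.clm_apply k2).clm_apply k2).add ((k1.clm_apply k3).clm_apply k3)
  have hS : IsCompact (Metric.sphere (0 : Cn n) 1) := isCompact_sphere 0 1
  have h4 : ∀ᶠ p in 𝓝 ((0 : ℝ), z0), ∀ v ∈ Metric.sphere (0 : Cn n) 1, 0 < Q p v := by
    refine hS.eventually_forall_of_forall_eventually fun v hv => ?_
    have hv0 : v ≠ 0 := by
      intro h0
      rw [h0] at hv
      simp at hv
    have h5 := hpos v hv0
    have h6 := hQ ((0 : ℝ), z0) v h2
    simp only at h6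
    rw [h6] at h5
    exact (hQc v).eventually (lt_mem_nhds h5)
  filter_upwards [h4, h2.eventually (by norm_num)] with p hp hp2 v hv
  have hn : 0 < ‖v‖ := norm_pos_iff.2 hv
  have h7 : ((‖v‖⁻¹ : ℝ) : ℂ) • v ∈ Metric.sphere (0 : Cn n) 1 := by
    simp [norm_smul, hn.ne']
  have h8 := hp _ h7
  rw [← hQ p _ hp2, lev_real_smul] at h8
  exact (mul_pos_iff_of_pos_left (by positivity)).1 h8

/-! ### positivity of a metric at a point -/

variable {M : Type} [TopologicalSpace M] {A : Atl n M}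

section HMoTools

variable {L : LB A} {U : Set M}

/-- positive curvature at the point `x` -/
def PosO (h : HMo L U) (x : M) : Prop :=
  ∀ i, x ∈ (A.e i).source → ∀ v : Cn n, v ≠ 0 → 0 < lev (h.wt i) (A.e i x) v

theorem tr_anal {i j : A.ι} {z : Cn n} (hz : z ∈ A.ov i j) :
    AnalyticAt ℂ (fun y => A.e j ((A.e i).symm y)) z :=
  Crest.Agent.R266.SCV.analyticOnNhd_of_differentiableOn (isOpen_ov i j) (A.holo i j) z hz

theorem g_anal (L : LB A) {i j : A.ι} {z : Cn n} (hz : z ∈ A.ov i j) :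
    AnalyticAt ℂ (fun y => L.g i j ((A.e i).symm y)) z :=
  Crest.Agent.R266.SCV.analyticOnNhd_of_differentiableOn (isOpen_ov i j) (L.hol i j) z hz

theorem wt_contDiffAt (h : HMo L U) (hU : IsOpen U) {i : A.ι} {x : M}
    (hx : x ∈ (A.e i).source) (hxU : x ∈ U) : ContDiffAt ℝ ∞ (h.wt i) (A.e i x) := by
  have ho : IsOpen ((A.e i).target ∩ (A.e i).symm ⁻¹' U) := (A.e i).isOpen_inter_preimage_symm hU
  refine (h.wt_smooth i).contDiffAt (ho.mem_nhds ⟨(A.e i).map_source hx, ?_⟩)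
  show (A.e i).symm (A.e i x) ∈ U
  rwa [(A.e i).left_inv hx]

theorem lev_chgO (h : HMo L U) (hU : IsOpen U) {i j : A.ι} {x : M} (hi : x ∈ (A.e i).source)
    (hj : x ∈ (A.e j).source) (hxU : x ∈ U) (v : Cn n) :
    lev (h.wt i) (A.e i x) v = lev (h.wt j) (A.e j x)
      (fderiv ℂ (fun y => A.e j ((A.e i).symm y)) (A.e i x) v) := by
  have hz : A.e i x ∈ A.ov i j := ⟨(A.e i).map_source hi, by rwa [(A.e i).left_inv hi]⟩
  have hox : (A.e i).symm (A.e i x) = x := (A.e i).left_inv hi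
  have ho : IsOpen ((A.e i).target ∩ (A.e i).symm ⁻¹' U) := (A.e i).isOpen_inter_preimage_symm hU
  have he : h.wt i =ᶠ[𝓝 (A.e i x)] fun y => h.wt j (A.e j ((A.e i).symm y)) +
      Real.log (‖L.g i j ((A.e i).symm y)‖ ^ 2) := by
    filter_upwards [(isOpen_ov i j).mem_nhds hz,
      ho.mem_nhds ⟨hz.1, show (A.e i).symm (A.e i x) ∈ U by rwa [hox]⟩] with y hy hyU
    have h1 : (A.e i).symm y ∈ (A.e i).source ∩ (A.e j).source := ⟨(A.e i).map_target hy.1, hy.2⟩
    have h2 := h.tr i j _ h1 hyU.2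
    have h3 := h.pos i _ h1.1 hyU.2
    have h4 := L.ne_zero i j ((A.e i).symm y)
    simp only [HMo.wt]
    rw [(A.e j).left_inv hy.2, h2, Real.log_mul (by positivity) h3.ne']
    ring
  have ht := tr_anal hz
  have hto : A.e j ((A.e i).symm (A.e i x)) = A.e j x := by rw [hox]
  have c1 : ContDiffAt ℝ 2 (h.wt j) (A.e j ((A.e i).symm (A.e i x))) := by
    rw [hto]
    exact (wt_contDiffAt h hU hj hxU).of_le (by norm_cast)
  have c2 : ContDiffAt ℝ 2 (fun y => h.wt j (A.e j ((A.e i).symm y))) (A.e i x) :=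
    ContDiffAt.comp (g := h.wt j) (f := fun y => A.e j ((A.e i).symm y)) (A.e i x) c1
      (ht.contDiffAt.restrict_scalars ℝ)
  have hg := g_anal L hz
  have hg0 : L.g i j ((A.e i).symm (A.e i x)) ≠ 0 := L.ne_zero _ _ _
  rw [PB_835.lev_congr' he, PB_835.lev_bridge,
    Levi_145.lev_add c2 (Levi_145.c2_log_normSq (f := fun y => L.g i j ((A.e i).symm y)) hg hg0 2),
    Levi_145.lev_log_normSq (f := fun y => L.g i j ((A.e i).symm y)) hg hg0,
    Levi_145.lev_comp (u := h.wt j) ht c1, hto, PB_835.lev_bridge]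
  ring

theorem posO_of (h : HMo L U) (hU : IsOpen U) {i : A.ι} {x : M} (hi : x ∈ (A.e i).source)
    (hxU : x ∈ U) (hp : ∀ v : Cn n, v ≠ 0 → 0 < lev (h.wt i) (A.e i x) v) : PosO h x := by
  intro j hj v hv
  have hz : A.e j x ∈ A.ov j i := ⟨(A.e j).map_source hj, by rwa [(A.e j).left_inv hj]⟩
  rw [lev_chgO h hU hj hi hxU v]
  exact hp _ fun h0 => hv (chg_inj hz h0)

theorem isOpen_posO (h : HMo L U) (hU : IsOpen U) : IsOpen {x | x ∈ U ∧ PosO h x} := by
  rw [isOpen_iff_mem_nhds]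
  rintro x ⟨hxU, hx⟩
  obtain ⟨i, hi⟩ := A.cover x
  have h1 : ContDiffAt ℝ ∞ (fun p : ℝ × Cn n => h.wt i p.2) ((0 : ℝ), A.e i x) :=
    ContDiffAt.comp (g := h.wt i) (f := fun p : ℝ × Cn n => p.2) ((0 : ℝ), A.e i x)
      (wt_contDiffAt h hU hi hxU) contDiffAt_snd
  have h2 := perturb h1 (hx i hi)
  have h3 : Tendsto (fun y => ((0 : ℝ), A.e i y)) (𝓝 x) (𝓝 ((0 : ℝ), A.e i x)) :=
    (continuousAt_const.prodMk ((A.e i).continuousAt hi))
  filter_upwards [h3.eventually h2, (A.e i).open_source.mem_nhds hi, hU.mem_nhds hxU] with y h4 h5 h6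
  exact ⟨h6, posO_of h hU h5 h6 h4⟩

/-- the metric `h * exp (-u)` -/
def mulExp (h : HMo L U) (hU : IsOpen U) (u : M → ℝ) (hu : ∀ x ∈ U, SmP A u x) : HMo L U where
  w i x := h.w i x * Real.exp (-(u x))
  pos i x hx hxU := mul_pos (h.pos i x hx hxU) (Real.exp_pos _)
  sm i := by
    refine (h.sm i).mul ?_
    intro z hz
    have h1 := hu _ hz.2 i ((A.e i).map_target hz.1)
    rw [(A.e i).right_inv hz.1] at h1
    exact (Real.contDiff_exp.contDiffAt.comp z h1.neg).contDiffWithinAt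
  tr i j x hx hxU := by
    rw [h.tr i j x hx hxU]
    ring

theorem mulExp_lev (h : HMo L U) (hU : IsOpen U) (u : M → ℝ) (hu : ∀ x ∈ U, SmP A u x) {i : A.ι}
    {x : M} (hi : x ∈ (A.e i).source) (hxU : x ∈ U) (v : Cn n) :
    lev ((mulExp h hU u hu).wt i) (A.e i x) v = lev (h.wt i) (A.e i x) v +
      lev (fun z => u ((A.e i).symm z)) (A.e i x) v := by
  have ho : IsOpen ((A.e i).target ∩ (A.e i).symm ⁻¹' U) := (A.e i).isOpen_inter_preimage_symm hU
  have he : (mulExp h hU u hu).wt i =ᶠ[𝓝 (A.e i x)] fun z => h.wt i z + u ((A.e i).symm z) := by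
    filter_upwards [ho.mem_nhds ⟨(A.e i).map_source hi,
      show (A.e i).symm (A.e i x) ∈ U by rwa [(A.e i).left_inv hi]⟩] with y hy
    have h3 := h.pos i _ ((A.e i).map_target hy.1) hy.2
    simp only [HMo.wt, mulExp]
    rw [Real.log_mul h3.ne' (Real.exp_pos _).ne', Real.log_exp]
    ring
  rw [PB_835.lev_congr' he, PB_835.lev_bridge,
    Levi_145.lev_add ((wt_contDiffAt h hU hi hxU).of_le (by norm_cast))
      ((hu x hxU i hi).of_le (by norm_cast)), PB_835.lev_bridge, PB_835.lev_bridge]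
  ring

end HMoTools

/-! ### functions -/

/-- the function `u` has Levi form `≥ 0` at the point `x` -/
def NN (A : Atl n M) (u : M → ℝ) (x : M) : Prop :=
  ∀ i, x ∈ (A.e i).source → ∀ v : Cn n, 0 ≤ lev (fun z => u ((A.e i).symm z)) (A.e i x) v

theorem lev_fun_chg {u : M → ℝ} {i j : A.ι} {x : M} (hi : x ∈ (A.e i).source)
    (hj : x ∈ (A.e j).source) (hu : ContDiffAt ℝ 2 (fun z => u ((A.e j).symm z)) (A.e j x))
    (v : Cn n) :
    lev (fun z => u ((A.e i).symm z)) (A.e i x) v = lev (fun z => u ((A.e j).symm z)) (A.e j x)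
      (fderiv ℂ (fun y => A.e j ((A.e i).symm y)) (A.e i x) v) := by
  have hz : A.e i x ∈ A.ov i j := ⟨(A.e i).map_source hi, by rwa [(A.e i).left_inv hi]⟩
  have hox : (A.e i).symm (A.e i x) = x := (A.e i).left_inv hi
  have he : (fun z => u ((A.e i).symm z)) =ᶠ[𝓝 (A.e i x)]
      fun y => (fun z => u ((A.e j).symm z)) (A.e j ((A.e i).symm y)) := by
    filter_upwards [(isOpen_ov i j).mem_nhds hz] with y hy
    show u _ = u _
    rw [(A.e j).left_inv hy.2]
  have hto : A.e j ((A.e i).symm (A.e i x)) = A.e j x := by rw [hox]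
  have hu' : ContDiffAt ℝ 2 (fun z => u ((A.e j).symm z)) (A.e j ((A.e i).symm (A.e i x))) := by
    rwa [hto]
  rw [PB_835.lev_congr' he, PB_835.lev_bridge,
    Levi_145.lev_comp (u := fun z => u ((A.e j).symm z)) (tr_anal hz) hu', hto,
    PB_835.lev_bridge]

theorem nn_of {u : M → ℝ} {i : A.ι} {x : M} (hi : x ∈ (A.e i).source)
    (hu : ContDiffAt ℝ 2 (fun z => u ((A.e i).symm z)) (A.e i x))
    (h : ∀ v : Cn n, 0 ≤ lev (fun z => u ((A.e i).symm z)) (A.e i x) v) : NN A u x := by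
  intro j hj v
  rw [lev_fun_chg hj hi hu]
  exact h _

theorem nn_zero {u : M → ℝ} {x : M} (h : ∀ᶠ y in 𝓝 x, u y = 0) : NN A u x := by
  intro i hi v
  have h1 : (fun z => u ((A.e i).symm z)) =ᶠ[𝓝 (A.e i x)] fun _ => (0 : ℝ) :=
    (tendsto_symm hi h)
  rw [PB_835.lev_congr' h1, PB_835.lev_bridge, Levi_145.lev_const]
  simp

theorem nn_sum {ι : Type*} (t : Finset ι) {u : ι → M → ℝ} {x : M} (hs : ∀ a ∈ t, SmP A (u a) x)
    (h : ∀ a ∈ t, NN A (u a) x) : NN A (fun y => ∑ a ∈ t, u a y) x := by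
  intro i hi v
  rw [PB_835.lev_bridge, Levi_145.lev_sum t (f := fun a z => u a ((A.e i).symm z))
    (fun a ha => (hs a ha i hi).of_le (by norm_cast)), Finset.mul_sum]
  refine Finset.sum_nonneg fun a ha => ?_
  have := h a ha i hi v
  rwa [PB_835.lev_bridge] at this

theorem smP_sum {ι : Type*} (t : Finset ι) {u : ι → M → ℝ} {x : M}
    (hs : ∀ a ∈ t, SmP A (u a) x) : SmP A (fun y => ∑ a ∈ t, u a y) x := by
  intro i hi
  exact ContDiffAt.sum fun a ha => hs a ha i hi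

end

end Crest.Agent.R272.PosFib_220
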