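import Crest.Agent.R272.PosFib1_220

/-!
# R272, POS-FIB (helper220), file 2: positivity near a compact set from a few sections

`M` Hausdorff, `A : Atl n M`, `L : LB A`, `W` open, `K ⊆ W` compact, `S` finite, `y a` finitely many
holomorphic sections of `L` over `W`; `Fib` : for every `x ∈ K \ S`, in some chart,

* (NZ)  some `y a` is not zero at `x`;
* (TAN) if `v ≠ 0` and `d y_a (v) = c y_a` for all `a` (one `c`), then some holomorphic function vanishing on `K`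
        near `x` has `dg (v) ≠ 0`.

`posfib` : there are an open `W'`, `K ⊆ W' ⊆ W`, and a metric of `L` over `W'` with positive curvature at
all points of `W'`.
-/

set_option autoImplicit false
set_option linter.unusedSectionVars false
set_option linter.unusedVariables false

open Set Filter Topology Complex
open scoped ContDiff Matrix ComplexConjugate Manifold

namespace Crest.Agent.R272.PosFib_220

open Crest.Agent.R275.Geo Crest.Agent.R275.Core144 Crest.Agent.R273.Defs_333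
open Crest.Agent.R273.Map_835 Crest.Agent.R273 Crest.Agent.R275.QN2b734
open Crest.Agent.R272.PosGlue_232

noncomputable section

variable {n : ℕ} {M : Type} [TopologicalSpace M] {A : Atl n M} {L : LB A}
  {α : Type} [Fintype α]

/-- the good point condition -/
def Good (K : Set M) (y : α → A.ι → M → ℂ) (x : M) : Prop :=
  ∃ i, x ∈ (A.e i).source ∧ (∃ a, y a i x ≠ 0) ∧ ∀ v : Cn n, v ≠ 0 →
    (∃ c : ℂ, ∀ a, fderiv ℂ (fun z => y a i ((A.e i).symm z)) (A.e i x) v = c * y a i x) →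
    ∃ g : Cn n → ℂ, AnalyticAt ℂ g (A.e i x) ∧
      (∀ᶠ z in 𝓝 (A.e i x), (A.e i).symm z ∈ K → g z = 0) ∧ fderiv ℂ g (A.e i x) v ≠ 0

/-! ### sections in charts -/

theorem sec_anal {s : A.ι → M → ℂ} {W : Set M} (hW : IsOpen W) (hs : IsHS L W s) {i : A.ι} {x : M}
    (hi : x ∈ (A.e i).source) (hx : x ∈ W) :
    AnalyticAt ℂ (fun z => s i ((A.e i).symm z)) (A.e i x) := by
  refine Crest.Agent.R266.SCV.analyticOnNhd_of_differentiableOn
    ((A.e i).isOpen_inter_preimage_symm hW) (hs.hol i) _ ⟨(A.e i).map_source hi, ?_⟩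
  show (A.e i).symm (A.e i x) ∈ W
  rwa [(A.e i).left_inv hi]

/-- the local expression: `∑ |y_a|² + ε ∑_s χ_s |g_{i,c s}|²` -/
def FF (L : LB A) (y : α → A.ι → M → ℂ) (T : Finset M) (c : M → A.ι) (χ : M → M → ℝ) (ε : ℝ)
    (i : A.ι) (x : M) : ℝ :=
  ∑ a, ‖y a i x‖ ^ 2 + ε * ∑ s ∈ T, χ s x * ‖L.g i (c s) x‖ ^ 2

/-- the domain of positivity of `FF` -/
theorem FF_tr {W : Set M} {y : α → A.ι → M → ℂ} (hy : ∀ a, IsHS L W (y a)) {T : Finset M}
    {c : M → A.ι} {χ : M → M → ℝ} (hχ : ∀ s ∈ T, tsupport (χ s) ⊆ (A.e (c s)).source) {ε : ℝ}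
    {i j : A.ι} {x : M} (hx : x ∈ (A.e i).source ∩ (A.e j).source) (hW : x ∈ W) :
    FF L y T c χ ε i x = ‖L.g i j x‖ ^ 2 * FF L y T c χ ε j x := by
  unfold FF
  have h1 : ∀ a, ‖y a i x‖ ^ 2 = ‖L.g i j x‖ ^ 2 * ‖y a j x‖ ^ 2 := fun a => by
    rw [(hy a).tr i j x hx hW, norm_mul, mul_pow]
  have h2 : ∀ s ∈ T, χ s x * ‖L.g i (c s) x‖ ^ 2 =
      ‖L.g i j x‖ ^ 2 * (χ s x * ‖L.g j (c s) x‖ ^ 2) := by
    intro s hs
    by_cases hxs : x ∈ (A.e (c s)).source
    · rw [← L.mul i j (c s) x ⟨hx, hxs⟩, norm_mul]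
      ring
    · have : χ s x = 0 := image_eq_zero_of_notMem_tsupport fun h => hxs (hχ s hs h)
      rw [this]
      ring
  rw [Finset.sum_congr rfl fun a _ => h1 a, Finset.sum_congr rfl h2, ← Finset.mul_sum,
    ← Finset.mul_sum]
  ring

/-- joint smoothness of `FF` in `(ε, z)` -/
theorem FF_smooth {W : Set M} (hW : IsOpen W) {y : α → A.ι → M → ℂ} (hy : ∀ a, IsHS L W (y a))
    {T : Finset M} {c : M → A.ι} {χ : M → M → ℝ} (hsm : ∀ s x, SmP A (χ s) x)
    (hχ : ∀ s ∈ T, tsupport (χ s) ⊆ (A.e (c s)).source) {i : A.ι} {x : M}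
    (hi : x ∈ (A.e i).source) (hx : x ∈ W) (ε : ℝ) :
    ContDiffAt ℝ ∞ (fun p : ℝ × Cn n => FF L y T c χ p.1 i ((A.e i).symm p.2)) (ε, A.e i x) := by
  have hcomp : ∀ f : Cn n → ℝ, ContDiffAt ℝ ∞ f (A.e i x) →
      ContDiffAt ℝ ∞ (fun p : ℝ × Cn n => f p.2) (ε, A.e i x) := fun f hf =>
    ContDiffAt.comp (g := f) (f := fun p : ℝ × Cn n => p.2) (ε, A.e i x) hf contDiffAt_snd
  unfold FF
  refine ContDiffAt.add ?_ (ContDiffAt.mul contDiffAt_fst ?_)
  · refine ContDiffAt.sum fun a _ => ?_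
    exact hcomp (fun z => ‖y a i ((A.e i).symm z)‖ ^ 2)
      (Levi_145.c2_normSq (sec_anal hW (hy a) hi hx) ∞)
  · refine ContDiffAt.sum fun s hs => ?_
    refine hcomp (fun z => χ s ((A.e i).symm z) * ‖L.g i (c s) ((A.e i).symm z)‖ ^ 2) ?_
    by_cases hxs : x ∈ (A.e (c s)).source
    · have hz : A.e i x ∈ A.ov i (c s) := ⟨(A.e i).map_source hi, by rwa [(A.e i).left_inv hi]⟩
      exact (hsm s x i hi).mul
        (Levi_145.c2_normSq (f := fun z => L.g i (c s) ((A.e i).symm z)) (g_anal L hz) ∞)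
    · have h1 : x ∉ tsupport (χ s) := fun h => hxs (hχ s hs h)
      have h2 : ∀ᶠ y in 𝓝 x, χ s y = 0 := notMem_tsupport_iff_eventuallyEq.1 h1
      have h3 : (fun z => χ s ((A.e i).symm z) * ‖L.g i (c s) ((A.e i).symm z)‖ ^ 2) =ᶠ[𝓝 (A.e i x)]
          fun _ => (0 : ℝ) := by
        filter_upwards [tendsto_symm hi h2] with z hz
        rw [hz, zero_mul]
      exact contDiffAt_const.congr_of_eventuallyEq h3

/-- the open set where `FF` is positive -/
def FU (L : LB A) (W : Set M) (y : α → A.ι → M → ℂ) (T : Finset M) (c : M → A.ι) (χ : M → M → ℝ)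
    (ε : ℝ) : Set M :=
  {x | x ∈ W ∧ ∀ i, x ∈ (A.e i).source → 0 < FF L y T c χ ε i x}

section Fix

variable {W : Set M} {y : α → A.ι → M → ℂ} {T : Finset M} {c : M → A.ι} {χ : M → M → ℝ}

theorem mem_FU (hy : ∀ a, IsHS L W (y a))
    (hχ : ∀ s ∈ T, tsupport (χ s) ⊆ (A.e (c s)).source) {ε : ℝ} {i : A.ι} {x : M}
    (hi : x ∈ (A.e i).source) (hx : x ∈ W) (h : 0 < FF L y T c χ ε i x) :
    x ∈ FU L W y T c χ ε := by
  refine ⟨hx, fun j hj => ?_⟩
  rw [FF_tr hy hχ ⟨hj, hi⟩ hx]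
  have := L.ne_zero j i x
  positivity

theorem FF_smooth1 (hW : IsOpen W) (hy : ∀ a, IsHS L W (y a)) (hsm : ∀ s x, SmP A (χ s) x)
    (hχ : ∀ s ∈ T, tsupport (χ s) ⊆ (A.e (c s)).source) {i : A.ι} {x : M}
    (hi : x ∈ (A.e i).source) (hx : x ∈ W) (ε : ℝ) :
    ContDiffAt ℝ ∞ (fun z : Cn n => FF L y T c χ ε i ((A.e i).symm z)) (A.e i x) := by
  have h1 := FF_smooth hW hy hsm hχ hi hx ε
  have h2 : ContDiffAt ℝ ∞ (fun z : Cn n => (ε, z)) (A.e i x) :=
    contDiffAt_const.prodMk contDiffAt_id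
  exact ContDiffAt.comp (g := fun p : ℝ × Cn n => FF L y T c χ p.1 i ((A.e i).symm p.2))
    (f := fun z : Cn n => (ε, z)) (A.e i x) h1 h2

theorem isOpen_FU (hW : IsOpen W) (hy : ∀ a, IsHS L W (y a)) (hsm : ∀ s x, SmP A (χ s) x)
    (hχ : ∀ s ∈ T, tsupport (χ s) ⊆ (A.e (c s)).source) (ε : ℝ) :
    IsOpen (FU L W y T c χ ε) := by
  rw [isOpen_iff_mem_nhds]
  rintro x ⟨hxW, hx⟩
  obtain ⟨i, hi⟩ := A.cover x
  have h1 : ContinuousAt (fun z : Cn n => FF L y T c χ ε i ((A.e i).symm z)) (A.e i x) :=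
    (FF_smooth1 hW hy hsm hχ hi hxW ε).continuousAt
  have h2 : ContinuousAt (fun y' => FF L y T c χ ε i ((A.e i).symm (A.e i y'))) x :=
    ContinuousAt.comp (f := A.e i) (g := fun z : Cn n => FF L y T c χ ε i ((A.e i).symm z)) h1
      ((A.e i).continuousAt hi)
  have h3 : 0 < FF L y T c χ ε i ((A.e i).symm (A.e i x)) := by
    rw [(A.e i).left_inv hi]; exact hx i hi
  filter_upwards [h2.eventually (lt_mem_nhds h3), (A.e i).open_source.mem_nhds hi,
    hW.mem_nhds hxW] with y' h4 h5 h6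
  rw [(A.e i).left_inv h5] at h4
  exact mem_FU hy hχ h5 h6 h4

/-- the metric `1 / FF` -/
def hF (hW : IsOpen W) (hy : ∀ a, IsHS L W (y a)) (hsm : ∀ s x, SmP A (χ s) x)
    (hχ : ∀ s ∈ T, tsupport (χ s) ⊆ (A.e (c s)).source) (ε : ℝ) :
    HMo L (FU L W y T c χ ε) where
  w i x := (FF L y T c χ ε i x)⁻¹
  pos i x hx hU := inv_pos.2 (hU.2 i hx)
  sm i := by
    intro z hz
    have hx := (A.e i).map_target hz.1
    have h1 := FF_smooth1 hW hy hsm hχ hx hz.2.1 ε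
    rw [(A.e i).right_inv hz.1] at h1
    exact (h1.inv (hz.2.2 i hx).ne').contDiffWithinAt
  tr i j x hx hU := by
    have h1 := hU.2 j hx.2
    have h2 := L.ne_zero i j x
    rw [FF_tr hy hχ hx hU.1]
    field_simp

theorem hF_wt (hW : IsOpen W) (hy : ∀ a, IsHS L W (y a)) (hsm : ∀ s x, SmP A (χ s) x)
    (hχ : ∀ s ∈ T, tsupport (χ s) ⊆ (A.e (c s)).source) (ε : ℝ) (i : A.ι) (z : Cn n) :
    (hF hW hy hsm hχ ε).wt i z = Real.log (FF L y T c χ ε i ((A.e i).symm z)) := by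
  simp only [HMo.wt, hF, Real.log_inv, neg_neg]

theorem FF_zero (i : A.ι) (x : M) : FF L y T c χ 0 i x = ∑ a, ‖y a i x‖ ^ 2 := by
  simp [FF]

/-! ### the functions vanishing on `K` -/

/-- at a good point `x`: a smooth function `u`, Levi form `≥ 0` at the points of `K`, such that
`log ∑ |y_a|² + u` has positive Levi form at `x` -/
theorem exists_u [T2Space M] (hW : IsOpen W) (hy : ∀ a, IsHS L W (y a)) {K : Set M} {x : M}
    (hxW : x ∈ W) (hg : Good K y x) :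
    ∃ u : M → ℝ, (∀ p, SmP A u p) ∧ (∀ k ∈ K, NN A u k) ∧ ∃ i, x ∈ (A.e i).source ∧
      0 < ∑ a, ‖y a i x‖ ^ 2 ∧ ∀ v : Cn n, v ≠ 0 →
        0 < lev (fun z => Real.log (∑ a, ‖y a i ((A.e i).symm z)‖ ^ 2)) (A.e i x) v +
          lev (fun z => u ((A.e i).symm z)) (A.e i x) v := by
  classical
  obtain ⟨i, hi, hnz, htan⟩ := hg
  set z0 := A.e i x with hz0
  have hox : (A.e i).symm z0 = x := (A.e i).left_inv hi
  have hz0t : z0 ∈ (A.e i).target := (A.e i).map_source hi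
  have hF : ∀ a, AnalyticAt ℂ (fun z => y a i ((A.e i).symm z)) z0 := fun a =>
    sec_anal hW (hy a) hi hxW
  have hnz' : ∃ a, (fun a z => y a i ((A.e i).symm z)) a z0 ≠ 0 := by
    obtain ⟨a, ha⟩ := hnz
    exact ⟨a, by simpa [hox] using ha⟩
  -- the functions `g_v`
  have key : ∀ v : Cn n, ∃ g : Cn n → ℂ, AnalyticAt ℂ g z0 ∧
      (∀ᶠ z in 𝓝 z0, (A.e i).symm z ∈ K → g z = 0) ∧
      (v ≠ 0 → Levi_145.lev (fun z => Real.log (Levi_145.sumSq
        (fun a z => y a i ((A.e i).symm z)) z)) z0 v = 0 → fderiv ℂ g z0 v ≠ 0) := by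
    intro v
    by_cases hv : v ≠ 0 ∧ Levi_145.lev (fun z => Real.log (Levi_145.sumSq
        (fun a z => y a i ((A.e i).symm z)) z)) z0 v = 0
    · obtain ⟨c', hc'⟩ := Levi_145.lev_log_sumSq_eq_zero hF hnz' hv.2
      obtain ⟨g, g1, g2, g3⟩ := htan v hv.1 ⟨c', fun a => by
        have := hc' a
        simp only [hox] at this
        exact this⟩
      exact ⟨g, g1, g2, fun _ _ => g3⟩
    · exact ⟨0, analyticAt_const, Eventually.of_forall fun _ _ => rfl, fun h1 h2 =>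
        absurd ⟨h1, h2⟩ hv⟩
  choose g g1 g2 g3 using key
  -- the compact set of null directions
  let φ0 : Cn n → ℝ := fun z => Real.log (Levi_145.sumSq (fun a z => y a i ((A.e i).symm z)) z)
  let Sp : Set (Cn n) := Metric.sphere (0 : Cn n) 1
  have hSp : IsCompact Sp := isCompact_sphere 0 1
  have hne : ∀ v ∈ Sp, v ≠ 0 := by
    intro v hv h0
    rw [h0] at hv
    simp [Sp] at hv
  have hφc : Continuous fun v => Levi_145.lev φ0 z0 v := by
    unfold Levi_145.lev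
    fun_prop
  let Z : Set (Cn n) := Sp ∩ {v | Levi_145.lev φ0 z0 v = 0}
  have hZ : IsCompact Z := hSp.inter_right (isClosed_eq hφc continuous_const)
  obtain ⟨t, ht⟩ := hZ.elim_finite_subcover (fun v => {w : Cn n | fderiv ℂ (g v) z0 w ≠ 0})
    (fun v => (isOpen_ne_fun (fderiv ℂ (g v) z0).continuous continuous_const))
    (fun v hv => mem_iUnion.2 ⟨v, g3 v (hne v hv.1) hv.2⟩)
  -- `ρ = ∑ |g_v|²`
  let G : t → Cn n → ℂ := fun v => g v.1
  let ρ : Cn n → ℝ := Levi_145.sumSq G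
  have hGev : ∀ᶠ z in 𝓝 z0, ∀ v : t, AnalyticAt ℂ (G v) z := by
    rw [eventually_all]
    exact fun v => (g1 v.1).eventually_analyticAt
  have hGK : ∀ᶠ z in 𝓝 z0, ∀ v : t, (A.e i).symm z ∈ K → G v z = 0 := by
    rw [eventually_all]
    exact fun v => g2 v.1
  -- a neighbourhood and a bump
  have hN : {p | p ∈ (A.e i).source ∧ (∀ v : t, AnalyticAt ℂ (G v) (A.e i p)) ∧
      ∀ v : t, p ∈ K → G v (A.e i p) = 0} ∈ 𝓝 x := by
    have h1 : Tendsto (A.e i) (𝓝 x) (𝓝 z0) := (A.e i).continuousAt hi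
    filter_upwards [(A.e i).open_source.mem_nhds hi, h1.eventually hGev, h1.eventually hGK]
      with p h2 h3 h4
    refine ⟨h2, h3, fun v hp => h4 v ?_⟩
    rwa [(A.e i).left_inv h2]
  obtain ⟨ψ, p1, p2, p3, p4, p5⟩ := exists_bump_point A hN
  let u : M → ℝ := fun p => ψ p * ρ (A.e i p)
  have hu_in : ∀ p ∈ tsupport ψ, ContDiffAt ℝ ∞ (fun z => u ((A.e i).symm z)) (A.e i p) ∧
      (fun z => u ((A.e i).symm z)) =ᶠ[𝓝 (A.e i p)] fun z => ρ z * ψ ((A.e i).symm z) := by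
    intro p hp
    obtain ⟨q1, q2, q3⟩ := p5 hp
    have h1 : (fun z => u ((A.e i).symm z)) =ᶠ[𝓝 (A.e i p)]
        fun z => ρ z * ψ ((A.e i).symm z) := by
      filter_upwards [(A.e i).open_target.mem_nhds ((A.e i).map_source q1)] with z hz
      show ψ _ * ρ _ = _
      rw [(A.e i).right_inv hz, mul_comm]
    refine ⟨ContDiffAt.congr_of_eventuallyEq ?_ h1, h1⟩
    exact (Levi_145.c2_sumSq (F := G) q2 ∞).mul (p1 p i q1)
  have husm : ∀ p, SmP A u p := by
    intro p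
    by_cases hp : p ∈ tsupport ψ
    · exact smP_of (p5 hp).1 (hu_in p hp).1
    · have h1 : ∀ᶠ q in 𝓝 p, ψ q = 0 := notMem_tsupport_iff_eventuallyEq.1 hp
      intro j hj
      have h2 : (fun z => u ((A.e j).symm z)) =ᶠ[𝓝 (A.e j p)] fun _ => (0 : ℝ) := by
        filter_upwards [tendsto_symm hj h1] with z hz
        show ψ _ * _ = _
        rw [hz, zero_mul]
      exact contDiffAt_const.congr_of_eventuallyEq h2
  have hunn : ∀ k ∈ K, NN A u k := by
    intro k hk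
    by_cases hp : k ∈ tsupport ψ
    · obtain ⟨q1, q2, q3⟩ := p5 hp
      refine nn_of q1 ((hu_in k hp).1.of_le (by norm_cast)) fun v => ?_
      have hv0 : ∀ v : t, G v (A.e i k) = 0 := fun v => q3 v hk
      have hρ0 : ρ (A.e i k) = 0 := by
        show ∑ v, ‖G v (A.e i k)‖ ^ 2 = 0
        exact Finset.sum_eq_zero fun v _ => by rw [hv0 v]; simp
      have hρc : ContDiffAt ℝ 2 ρ (A.e i k) := Levi_145.c2_sumSq (F := G) q2 2
      have hmin : IsLocalMin ρ (A.e i k) := by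
        refine Eventually.of_forall fun z => ?_
        rw [hρ0]
        exact Levi_145.sumSq_nonneg G z
      have hd : fderiv ℝ ρ (A.e i k) = 0 := hmin.fderiv_eq_zero
      rw [PB_835.lev_congr' (hu_in k hp).2, lev_mul_ker hρc ((p1 k i q1).of_le (by norm_cast)) v
        (by rw [hd]; rfl) (by rw [hd]; rfl), hρ0, zero_mul, zero_add, PB_835.lev_bridge,
        Levi_145.lev_sumSq (F := G) q2]
      have := (p2 ((A.e i).symm (A.e i k))).1
      positivity
    · exact nn_zero ((notMem_tsupport_iff_eventuallyEq.1 hp : ∀ᶠ q in 𝓝 k, ψ q = 0).mono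
        fun q hq => by show ψ q * _ = 0; rw [hq]; exact zero_mul _)
  refine ⟨u, husm, hunn, i, hi, ?_, fun v hv => ?_⟩
  · obtain ⟨a, ha⟩ := hnz
    exact Finset.sum_pos' (fun _ _ => by positivity) ⟨a, Finset.mem_univ a, by positivity⟩
  · have hxs : x ∈ tsupport ψ := by
      refine subset_tsupport _ ?_
      rw [Function.mem_support, p3.self_of_nhds]
      exact one_ne_zero
    -- near `x`: `u = ρ`
    have h1 : (fun z => u ((A.e i).symm z)) =ᶠ[𝓝 z0] ρ := by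
      filter_upwards [(hu_in x hxs).2, tendsto_symm hi p3] with z h2 h3
      rw [h2, h3, mul_one]
    have h2 : Levi_145.lev (fun z => Real.log (∑ a, ‖y a i ((A.e i).symm z)‖ ^ 2)) z0 v =
      Levi_145.lev φ0 z0 v := rfl
    rw [PB_835.lev_congr' h1, PB_835.lev_bridge, PB_835.lev_bridge, h2,
      Levi_145.lev_sumSq (F := G) (fun w => g1 w.1)]
    have h3 : 0 ≤ Levi_145.lev φ0 z0 v := Levi_145.lev_log_sumSq_nonneg hF hnz' v
    have h4 : 0 ≤ ∑ w : t, ‖fderiv ℂ (G w) z0 v‖ ^ 2 := Finset.sum_nonneg fun _ _ => by positivity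
    rcases h3.lt_or_eq with h5 | h5
    · linarith
    · -- null direction
      have hn : 0 < ‖v‖ := norm_pos_iff.2 hv
      have hc2 : ContDiffAt ℝ 2 φ0 z0 :=
        (Levi_145.c2_sumSq hF 2).log (Levi_145.sumSq_pos hnz').ne'
      have h6 : ((‖v‖⁻¹ : ℝ) : ℂ) • v ∈ Z := by
        refine ⟨by simp [Sp, norm_smul, hn.ne'], ?_⟩
        show Levi_145.lev φ0 z0 _ = 0
        rw [Levi_145.lev_smul hc2, ← h5, mul_zero]
      obtain ⟨w, hw, h7⟩ := mem_iUnion₂.1 (ht h6)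
      have h8 : fderiv ℂ (g w) z0 v ≠ 0 := by
        intro h0
        apply h7
        show fderiv ℂ (g w) z0 _ = 0
        rw [map_smul, h0, smul_zero]
      have h9 : 0 < ∑ w : t, ‖fderiv ℂ (G w) z0 v‖ ^ 2 :=
        Finset.sum_pos' (fun _ _ => by positivity) ⟨⟨w, hw⟩, Finset.mem_univ _, by
          show 0 < ‖fderiv ℂ (g w) z0 v‖ ^ 2
          positivity⟩
      linarith

end Fix

end

end Crest.Agent.R272.PosFib_220
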