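import Crest.Agent.R273.PB_835
import Crest.Agent.R275.QN2b_734

/-!
# R272, model division (helper232), POS-GLUE, file 1: gluing metrics which are positive along a map

`p : M → N` holomorphic (`HolMap A B p`), `P : LB A`.

* `HMo P U`        : smooth Hermitian metric on the part of `P` over the open set `U` of `M`
* `VK A B p i z v` : the vector `v` at the point `z` of the chart `i` is killed by `dp`
* `HMo.PosK`, `PosKAt`, `PosK` : curvature positive on the non-zero vectors killed by `dp`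
* `glue`           : `N` compact (or: a compact part `K` of `N`), finitely or infinitely many open
                     `V a` covering, metrics `h a` of `P` over `p ⁻¹' V a` with `PosK` ⟹ a global
                     metric with `PosK`; `h = ∏ (h a) ^ (χ a ∘ p)`.
-/

set_option autoImplicit false
set_option linter.unusedSectionVars false

open Set Filter Topology Complex
open scoped ContDiff Matrix ComplexConjugate Manifold

namespace Crest.Agent.R272.PosGlue_232

open Crest.Agent.R275.Geo Crest.Agent.R275.Core144 Crest.Agent.R273.Defs_333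
open Crest.Agent.R273.Map_835 Crest.Agent.R273 Crest.Agent.R275.QN2b734

noncomputable section

variable {n m : ℕ} {M N : Type} [TopologicalSpace M] [TopologicalSpace N]
  {A : Atl n M} {B : Atl m N} {p : M → N}

/-- smooth Hermitian metric on the part of `L` over `U` -/
structure HMo (L : LB A) (U : Set M) where
  w : A.ι → M → ℝ
  pos : ∀ i, ∀ x ∈ (A.e i).source, x ∈ U → 0 < w i x
  sm : ∀ i, ContDiffOn ℝ ∞ (fun z => w i ((A.e i).symm z))
    ((A.e i).target ∩ (A.e i).symm ⁻¹' U)
  tr : ∀ i j, ∀ x ∈ (A.e i).source ∩ (A.e j).source, x ∈ U → w j x = ‖L.g i j x‖ ^ 2 * w i x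

/-- the local weight `-log w` read in the chart `i` -/
def HMo.wt {L : LB A} {U : Set M} (h : HMo L U) (i : A.ι) : Cn n → ℝ :=
  fun z => - Real.log (h.w i ((A.e i).symm z))

/-- a global metric restricted to `U` -/
def HMo.ofHM {L : LB A} (h : HM L) (U : Set M) : HMo L U where
  w := h.w
  pos i x hx _ := h.pos i x hx
  sm i := (h.sm i).mono inter_subset_left
  tr i j x hx _ := h.tr i j x hx

/-- smaller open sets -/
def HMo.mono {L : LB A} {U V : Set M} (h : HMo L U) (hV : V ⊆ U) : HMo L V where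
  w := h.w
  pos i x hx hU := h.pos i x hx (hV hU)
  sm i := (h.sm i).mono fun _ hz => ⟨hz.1, hV hz.2⟩
  tr i j x hx hU := h.tr i j x hx (hV hU)

theorem HMo.wt_smooth {L : LB A} {U : Set M} (h : HMo L U) (i : A.ι) :
    ContDiffOn ℝ ∞ (h.wt i) ((A.e i).target ∩ (A.e i).symm ⁻¹' U) := by
  have h1 : ContDiffOn ℝ ∞ (fun z => Real.log (h.w i ((A.e i).symm z)))
      ((A.e i).target ∩ (A.e i).symm ⁻¹' U) :=
    (h.sm i).log fun z hz => (h.pos i _ ((A.e i).map_target hz.1) hz.2).ne'
  exact h1.neg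

/-- the vector `v` at `z` (chart `i`) is killed by the derivative of `p` -/
def VK (A : Atl n M) (B : Atl m N) (p : M → N) (i : A.ι) (z v : Cn n) : Prop :=
  ∀ j, z ∈ dm A B p i j → fderiv ℂ (rd A B p i j) z v = 0

/-- curvature positive along the map `p`, over `U` -/
def HMo.PosK {L : LB A} {U : Set M} (B : Atl m N) (p : M → N) (h : HMo L U) : Prop :=
  ∀ i, ∀ z ∈ (A.e i).target, (A.e i).symm z ∈ U → ∀ v : Cn n, v ≠ 0 → VK A B p i z v →
    0 < lev (h.wt i) z v

/-- curvature positive along the map `p`, at the points of `U` -/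
def PosKOn {L : LB A} (B : Atl m N) (p : M → N) (h : HM L) (U : Set M) : Prop :=
  ∀ i, ∀ z ∈ (A.e i).target, (A.e i).symm z ∈ U → ∀ v : Cn n, v ≠ 0 → VK A B p i z v →
    0 < lev (h.wt i) z v

/-! ### the Levi form of a product -/

theorem fd2_mul {f g : Cn n → ℝ} {z : Cn n} (hf : ContDiffAt ℝ 2 f z) (hg : ContDiffAt ℝ 2 g z)
    (v : Cn n) (hv : fderiv ℝ f z v = 0) :
    fderiv ℝ (fderiv ℝ (fun y => f y * g y)) z v v =
      f z * fderiv ℝ (fderiv ℝ g) z v v + g z * fderiv ℝ (fderiv ℝ f) z v v := by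
  have e1 : fderiv ℝ (fun y => f y * g y) =ᶠ[𝓝 z] fun y => f y • fderiv ℝ g y + g y • fderiv ℝ f y := by
    filter_upwards [Levi_145.c2_evd hf, Levi_145.c2_evd hg] with y h1 h2
    exact (h1.hasFDerivAt.mul h2.hasFDerivAt).fderiv
  have e2 : HasFDerivAt (fun y => f y • fderiv ℝ g y + g y • fderiv ℝ f y) _ z :=
    ((Levi_145.c2_diff hf).hasFDerivAt.smul (Levi_145.c2_fd hg).hasFDerivAt).add
      ((Levi_145.c2_diff hg).hasFDerivAt.smul (Levi_145.c2_fd hf).hasFDerivAt)
  rw [e1.fderiv_eq, e2.fderiv]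
  simp only [_root_.add_apply, _root_.smul_apply, ContinuousLinearMap.smulRight_apply, smul_eq_mul]
  rw [hv]
  ring

theorem lev_mul_ker {f g : Cn n → ℝ} {z : Cn n} (hf : ContDiffAt ℝ 2 f z)
    (hg : ContDiffAt ℝ 2 g z) (v : Cn n) (hv : fderiv ℝ f z v = 0)
    (hIv : fderiv ℝ f z (I • v) = 0) :
    lev (fun y => f y * g y) z v = f z * lev g z v + g z * lev f z v := by
  simp only [PB_835.lev_bridge, Levi_145.lev]
  rw [fd2_mul hf hg v hv, fd2_mul hf hg _ hIv]
  ring

/-! ### functions pulled back from the base -/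

/-- a smooth function on the base, pulled back and read in a chart upstairs -/
theorem pull_fun (hp : HolMap A B p) {χ : N → ℝ} {i : A.ι} {j : B.ι} {z : Cn n}
    (hz : z ∈ dm A B p i j) :
    (fun y => χ (p ((A.e i).symm y))) =ᶠ[𝓝 z]
      fun y => (fun w => χ ((B.e j).symm w)) (rd A B p i j y) := by
  filter_upwards [(hp.isOpen_dm i j).mem_nhds hz] with y hy
  simp only [rd]
  rw [(B.e j).left_inv hy.2]

theorem pull_fun_smooth (hp : HolMap A B p) {χ : N → ℝ} (hχ : B.Sm χ) {i : A.ι} {z : Cn n}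
    (hz : z ∈ (A.e i).target) : ContDiffAt ℝ ∞ (fun y => χ (p ((A.e i).symm y))) z := by
  obtain ⟨j, hj⟩ := B.cover (p ((A.e i).symm z))
  have hzd : z ∈ dm A B p i j := ⟨hz, hj⟩
  have h1 : ContDiffAt ℝ ∞ (fun w => χ ((B.e j).symm w)) (rd A B p i j z) :=
    (hχ j).contDiffAt ((B.e j).open_target.mem_nhds ((B.e j).map_source hj))
  have h2 : ContDiffAt ℝ ∞ (rd A B p i j) z := (hp.analyticAt hzd).contDiffAt.restrict_scalars ℝ
  exact (h1.comp z h2).congr_of_eventuallyEq (pull_fun hp hzd)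

theorem pull_fun_fderiv (hp : HolMap A B p) {χ : N → ℝ} (hχ : B.Sm χ) {i : A.ι} {z : Cn n}
    (hz : z ∈ (A.e i).target) {v : Cn n} (hv : VK A B p i z v) :
    fderiv ℝ (fun y => χ (p ((A.e i).symm y))) z v = 0 := by
  obtain ⟨j, hj⟩ := B.cover (p ((A.e i).symm z))
  have hzd : z ∈ dm A B p i j := ⟨hz, hj⟩
  have h1 : DifferentiableAt ℝ (fun w => χ ((B.e j).symm w)) (rd A B p i j z) :=
    ((hχ j).contDiffAt ((B.e j).open_target.mem_nhds ((B.e j).map_source hj))).differentiableAt
      (by norm_num)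
  have h2 := (hp.analyticAt hzd).differentiableAt
  have h3 : HasFDerivAt (fun y => (fun w => χ ((B.e j).symm w)) (rd A B p i j y)) _ z :=
    h1.hasFDerivAt.comp z (h2.hasFDerivAt.restrictScalars ℝ)
  rw [(pull_fun hp hzd).fderiv_eq, h3.fderiv]
  simp only [ContinuousLinearMap.coe_comp, Function.comp_apply,
    ContinuousLinearMap.coe_restrictScalars']
  rw [hv j hzd, map_zero]

theorem VK.smul {i : A.ι} {z v : Cn n} (h : VK A B p i z v) (c : ℂ) : VK A B p i z (c • v) := by
  intro j hj
  rw [map_smul, h j hj, smul_zero]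

theorem pull_fun_lev (hp : HolMap A B p) {χ : N → ℝ} (hχ : B.Sm χ) {i : A.ι} {z : Cn n}
    (hz : z ∈ (A.e i).target) {v : Cn n} (hv : VK A B p i z v) :
    lev (fun y => χ (p ((A.e i).symm y))) z v = 0 := by
  obtain ⟨j, hj⟩ := B.cover (p ((A.e i).symm z))
  have hzd : z ∈ dm A B p i j := ⟨hz, hj⟩
  have h1 : ContDiffAt ℝ 2 (fun w => χ ((B.e j).symm w)) (rd A B p i j z) :=
    ((hχ j).contDiffAt ((B.e j).open_target.mem_nhds ((B.e j).map_source hj))).of_le
      (by norm_cast)
  rw [PB_835.lev_congr' (pull_fun hp hzd), PB_835.lev_bridge,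
    Levi_145.lev_comp (hp.analyticAt hzd) h1, hv j hzd, Levi_145.lev_zero, mul_zero]

/-! ### gluing -/

section Glue

variable {L : LB A}

/-- the data: a finite partition of unity on the base and local metrics upstairs -/
theorem glue_aux (hp : HolMap A B p) {ι : Type*} (t : Finset ι) (V : ι → Set N)
    (hVo : ∀ a, IsOpen (V a)) (χ : ι → N → ℝ) (hχ : ∀ a, B.Sm (χ a)) (h0 : ∀ a y, 0 ≤ χ a y)
    (hsub : ∀ a, tsupport (χ a) ⊆ V a) (h1 : ∀ y, ∑ a ∈ t, χ a y = 1)
    (h : ∀ a, HMo L (p ⁻¹' V a)) (hk : ∀ a, (h a).PosK B p) :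
    ∃ H : HM L, PosKOn B p H univ ∧
      ∀ i x, H.w i x = Real.exp (∑ a ∈ t, χ a (p x) * Real.log ((h a).w i x)) := by
  classical
  have hoff : ∀ a y, y ∉ V a → χ a y = 0 := fun a y hy =>
    image_eq_zero_of_notMem_tsupport fun h' => hy (hsub a h')
  -- smoothness of one term, and its Levi form on killed vectors
  have hterm : ∀ a i, ∀ z ∈ (A.e i).target,
      ContDiffAt ℝ ∞ (fun y => χ a (p ((A.e i).symm y)) * (h a).wt i y) z ∧
      ∀ v, VK A B p i z v → lev (fun y => χ a (p ((A.e i).symm y)) * (h a).wt i y) z v =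
        χ a (p ((A.e i).symm z)) * lev ((h a).wt i) z v := by
    intro a i z hz
    by_cases hV : p ((A.e i).symm z) ∈ V a
    · have ho : IsOpen ((A.e i).target ∩ (A.e i).symm ⁻¹' (p ⁻¹' V a)) :=
        (A.e i).isOpen_inter_preimage_symm ((hVo a).preimage hp.cont)
      have k1 := pull_fun_smooth hp (hχ a) hz
      have k2 : ContDiffAt ℝ ∞ ((h a).wt i) z :=
        ((h a).wt_smooth i).contDiffAt (ho.mem_nhds ⟨hz, hV⟩)
      refine ⟨k1.mul k2, fun v hv => ?_⟩
      rw [lev_mul_ker (k1.of_le (by norm_cast)) (k2.of_le (by norm_cast)) v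
        (pull_fun_fderiv hp (hχ a) hz hv) (pull_fun_fderiv hp (hχ a) hz (hv.smul I)),
        pull_fun_lev hp (hχ a) hz hv]
      ring
    · have k1 : p ((A.e i).symm z) ∉ tsupport (χ a) := fun h' => hV (hsub a h')
      have k2 : ∀ᶠ y in 𝓝 (p ((A.e i).symm z)), χ a y = 0 :=
        notMem_tsupport_iff_eventuallyEq.1 k1
      have k3 : ∀ᶠ y in 𝓝 z, χ a (p ((A.e i).symm y)) = 0 :=
        ((hp.cont.continuousAt.comp ((A.e i).continuousAt_symm hz))).eventually k2
      have k4 : (fun y => χ a (p ((A.e i).symm y)) * (h a).wt i y) =ᶠ[𝓝 z] fun _ => (0 : ℝ) := by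
        filter_upwards [k3] with w hw
        rw [hw, zero_mul]
      refine ⟨contDiffAt_const.congr_of_eventuallyEq k4, fun v _ => ?_⟩
      rw [PB_835.lev_congr' k4, k3.self_of_nhds, zero_mul, PB_835.lev_bridge, Levi_145.lev_const,
        mul_zero]
  have hwt : ∀ i, ∀ z, - (∑ a ∈ t, χ a (p ((A.e i).symm z)) *
      Real.log ((h a).w i ((A.e i).symm z))) =
      ∑ a ∈ t, χ a (p ((A.e i).symm z)) * (h a).wt i z := by
    intro i z
    rw [← Finset.sum_neg_distrib]
    refine Finset.sum_congr rfl fun a _ => ?_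
    simp only [HMo.wt]
    ring
  let H : HM L :=
    { w := fun i x => Real.exp (∑ a ∈ t, χ a (p x) * Real.log ((h a).w i x))
      pos := fun _ _ _ => Real.exp_pos _
      sm := by
        intro i
        refine Real.contDiff_exp.comp_contDiffOn ?_
        intro z hz
        have k1 : ContDiffAt ℝ ∞ (fun y => - ∑ a ∈ t, χ a (p ((A.e i).symm y)) *
            (h a).wt i y) z := (ContDiffAt.sum fun a _ => (hterm a i z hz).1).neg
        refine (k1.congr_of_eventuallyEq ?_).contDiffWithinAt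
        refine Eventually.of_forall fun y => ?_
        show _ = - _
        rw [← hwt i y, neg_neg]
      tr := by
        intro i j x hx
        have k1 : ∀ a, χ a (p x) * Real.log ((h a).w j x) =
            χ a (p x) * Real.log (‖L.g i j x‖ ^ 2) + χ a (p x) * Real.log ((h a).w i x) := by
          intro a
          by_cases hV : p x ∈ V a
          · rw [(h a).tr i j x hx hV, Real.log_mul]
            · ring
            · have := L.ne_zero i j x
              positivity
            · exact ((h a).pos i x hx.1 hV).ne'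
          · rw [hoff a _ hV]; ring
        simp only [k1]
        rw [Finset.sum_add_distrib, ← Finset.sum_mul, h1, one_mul, Real.exp_add, Real.exp_log]
        have := L.ne_zero i j x
        positivity }
  have hHwt : ∀ i z, H.wt i z = ∑ a ∈ t, χ a (p ((A.e i).symm z)) * (h a).wt i z := by
    intro i z
    rw [← hwt i z]
    simp only [HM.wt, H, Real.log_exp]
  refine ⟨H, ?_, fun _ _ => rfl⟩
  intro i z hz _ v hv hvk
  have k1 : lev (H.wt i) z v = ∑ a ∈ t, χ a (p ((A.e i).symm z)) * lev ((h a).wt i) z v := by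
    have e : H.wt i = fun z => ∑ a ∈ t, χ a (p ((A.e i).symm z)) * (h a).wt i z :=
      funext (hHwt i)
    rw [e, PB_835.lev_bridge, Levi_145.lev_sum t (fun a _ => ((hterm a i z hz).1).of_le
      (by norm_cast)), Finset.mul_sum]
    refine Finset.sum_congr rfl fun a _ => ?_
    rw [← PB_835.lev_bridge]
    exact (hterm a i z hz).2 v hvk
  rw [k1]
  -- some coefficient is positive
  obtain ⟨a, ha, hpos⟩ : ∃ a ∈ t, 0 < χ a (p ((A.e i).symm z)) := by
    by_contra hcon
    push Not at hcon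
    have : ∑ a ∈ t, χ a (p ((A.e i).symm z)) ≤ 0 := Finset.sum_nonpos hcon
    rw [h1] at this
    exact absurd this (by norm_num)
  have hnn : ∀ a ∈ t, 0 ≤ χ a (p ((A.e i).symm z)) * lev ((h a).wt i) z v := by
    intro a _
    by_cases hV : p ((A.e i).symm z) ∈ V a
    · exact mul_nonneg (h0 _ _) (hk a i z hz hV v hv hvk).le
    · rw [hoff a _ hV, zero_mul]
  refine Finset.sum_pos' hnn ⟨a, ha, mul_pos hpos ?_⟩
  have hV : p ((A.e i).symm z) ∈ V a := by
    by_contra hV
    rw [hoff a _ hV] at hpos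
    exact lt_irrefl _ hpos
  exact hk a i z hz hV v hv hvk

/-- **gluing**: positivity along `p` is local on the (compact) base -/
theorem glue [CompactSpace N] [T2Space N] (hp : HolMap A B p) {ι : Type*} (V : ι → Set N)
    (hVo : ∀ a, IsOpen (V a)) (hVc : ∀ y, ∃ a, y ∈ V a)
    (h : ∀ a, HMo L (p ⁻¹' V a)) (hk : ∀ a, (h a).PosK B p) :
    ∃ H : HM L, PosKOn B p H univ := by
  obtain ⟨t, χ, c1, c2, c3, c4, c5, c6, c7⟩ := Crest.Agent.R275.QN2b734.exists_partition B isCompact_univ V hVo
    (fun x _ => hVc x)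
  have h1 : ∀ y, ∑ a ∈ t, χ a y = 1 := by
    intro y
    rw [nhdsSet_univ] at c7
    exact (Filter.eventually_top.1 c7) y
  obtain ⟨H, hH, -⟩ := glue_aux hp t V hVo χ (fun a => sm_iff.2 fun y => c1 a y)
    (fun a y => (c2 a y).1) c4 h1 h hk
  exact ⟨H, hH⟩

end Glue

end

end Crest.Agent.R272.PosGlue_232
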