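import Mathlib

/-!
# R272 (S0415), POS at `p0`, part (5L) (helper898), file 1: the m-lines, pure part

`rt s = (1 - s⁵)^(1/2)` (principal root, `‖s‖ < 1`).  On the m-charts (`x0 = m x1 x2`,
`1/t1 = m x2`, `1/t2 = m x1`) one has `y1 = ± x1³ rt (m x2)`, `y2 = ± x2³ rt (m x1)` and

* opposite signs: `N = E2³ · hop m x1 x2`, `hop m 0 0 = 4`;
* equal signs: `N = E2³ (E1² - 4 E2) · heq m x1 x2`, `heq m 0 0 = 0`,

`N = 2 E2³ - x0⁵ E1 - 2 y1 y2`.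
-/

set_option autoImplicit false

namespace Crest.Agent.R272.PosL_898

open Complex Filter Topology

noncomputable section

/-- principal root of `1 - s⁵` -/
def rt (s : ℂ) : ℂ := exp (log (1 - s ^ 5) / 2)

theorem one_sub_re_pos {s : ℂ} (hs : ‖s‖ < 1) : 0 < (1 - s ^ 5).re := by
  have h1 : ‖s ^ 5‖ < 1 := by
    rw [norm_pow]
    exact pow_lt_one₀ (norm_nonneg _) hs (by norm_num)
  have h2 : (s ^ 5).re ≤ ‖s ^ 5‖ := re_le_norm _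
  rw [sub_re, one_re]
  linarith

theorem one_sub_ne {s : ℂ} (hs : ‖s‖ < 1) : 1 - s ^ 5 ≠ 0 := fun h => by
  have := one_sub_re_pos hs
  rw [h] at this
  simp at this

theorem rt_zero : rt 0 = 1 := by simp [rt]

theorem rt_sq {s : ℂ} (hs : ‖s‖ < 1) : rt s ^ 2 = 1 - s ^ 5 := by
  unfold rt
  rw [← exp_nat_mul]
  have : ((2 : ℕ) : ℂ) * (log (1 - s ^ 5) / 2) = log (1 - s ^ 5) := by push_cast; ring
  rw [this, exp_log (one_sub_ne hs)]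

theorem rt_re_pos {s : ℂ} (hs : ‖s‖ < 1) : 0 < (rt s).re := by
  unfold rt
  rw [exp_re]
  have h1 : (log (1 - s ^ 5) / 2).im = arg (1 - s ^ 5) / 2 := by
    have : (log (1 - s ^ 5) / 2 : ℂ) = ((1 / 2 : ℝ) : ℂ) * log (1 - s ^ 5) := by
      push_cast; ring
    rw [this, im_ofReal_mul, log_im]; ring
  rw [h1]
  have h2 : |arg (1 - s ^ 5)| < Real.pi / 2 :=
    abs_arg_lt_pi_div_two_iff.2 (Or.inl (one_sub_re_pos hs))
  have h3 := abs_lt.1 h2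
  refine mul_pos (Real.exp_pos _) (Real.cos_pos_of_mem_Ioo ⟨?_, ?_⟩)
  · have := Real.pi_pos; linarith [h3.1]
  · have := Real.pi_pos; linarith [h3.2]

theorem rt_ne {s : ℂ} (hs : ‖s‖ < 1) : rt s ≠ 0 := fun h => by
  have := rt_re_pos hs
  rw [h] at this
  simp at this

theorem rt_add_ne {s t : ℂ} (hs : ‖s‖ < 1) (ht : ‖t‖ < 1) : rt s + rt t ≠ 0 := fun h => by
  have h1 := rt_re_pos hs
  have h2 := rt_re_pos ht
  have h3 : (rt s + rt t).re = 0 := by rw [h, zero_re]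
  rw [add_re] at h3
  linarith

theorem analyticAt_rt {s : ℂ} (hs : ‖s‖ < 1) : AnalyticAt ℂ rt s := by
  have h1 : AnalyticAt ℂ (fun s : ℂ => 1 - s ^ 5) s := by fun_prop
  have h2 : AnalyticAt ℂ (fun s : ℂ => log (1 - s ^ 5)) s :=
    h1.clog (mem_slitPlane_iff.2 (Or.inl (one_sub_re_pos hs)))
  have h3 : AnalyticAt ℂ (fun s : ℂ => log (1 - s ^ 5) / 2) s := h2.div_const
  exact h3.cexp

/-- a square root of `1 - s⁵` is `± rt s` -/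
theorem eq_rt_or {s η : ℂ} (hs : ‖s‖ < 1) (h : η ^ 2 = 1 - s ^ 5) : η = rt s ∨ η = -rt s := by
  rw [← rt_sq hs] at h
  exact sq_eq_sq_iff_eq_or_eq_neg.1 h

/-- opposite sheets -/
def hop (m x1 x2 : ℂ) : ℂ :=
  2 - m ^ 5 * (x1 * x2) ^ 2 * (x1 + x2) + 2 * (rt (m * x2) * rt (m * x1))

/-- equal sheets -/
def heq (m x1 x2 : ℂ) : ℂ :=
  m ^ 5 * ((x1 + x2) * ((x1 + x2) ^ 2 - x1 * x2) + m ^ 5 *
    ((x1 ^ 4 + x1 ^ 3 * x2 + x1 ^ 2 * x2 ^ 2 + x1 * x2 ^ 3 + x2 ^ 4) /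
      (rt (m * x2) + rt (m * x1))) ^ 2)

theorem hop_zero (m : ℂ) : hop m 0 0 = 4 := by
  simp [hop, rt_zero]; norm_num

theorem heq_zero (m : ℂ) : heq m 0 0 = 0 := by
  simp [heq]

theorem hop_swap (m x1 x2 : ℂ) : hop m x2 x1 = hop m x1 x2 := by
  unfold hop; ring

theorem heq_swap (m x1 x2 : ℂ) : heq m x2 x1 = heq m x1 x2 := by
  unfold heq
  rw [add_comm (rt (m * x1)) (rt (m * x2))]
  ring

theorem N_opp (m x1 x2 e : ℂ) (he : e ^ 2 = 1) :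
    2 * (x1 * x2) ^ 3 - (m * (x1 * x2)) ^ 5 * (x1 + x2)
      - 2 * ((x1 ^ 3 * (e * rt (m * x2))) * (x2 ^ 3 * (-e * rt (m * x1)))) =
    (x1 * x2) ^ 3 * hop m x1 x2 := by
  unfold hop
  have : 2 * ((x1 ^ 3 * (e * rt (m * x2))) * (x2 ^ 3 * (-e * rt (m * x1)))) =
      -(2 * (x1 * x2) ^ 3 * e ^ 2 * (rt (m * x2) * rt (m * x1))) := by ring
  rw [this, he]
  ring

theorem N_eq {m x1 x2 e : ℂ} (he : e ^ 2 = 1) (h1 : ‖m * x2‖ < 1) (h2 : ‖m * x1‖ < 1) :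
    2 * (x1 * x2) ^ 3 - (m * (x1 * x2)) ^ 5 * (x1 + x2)
      - 2 * ((x1 ^ 3 * (e * rt (m * x2))) * (x2 ^ 3 * (e * rt (m * x1)))) =
    (x1 * x2) ^ 3 * ((x1 + x2) ^ 2 - 4 * (x1 * x2)) * heq m x1 x2 := by
  have e1 : 2 * ((x1 ^ 3 * (e * rt (m * x2))) * (x2 ^ 3 * (e * rt (m * x1)))) =
      2 * (x1 * x2) ^ 3 * e ^ 2 * (rt (m * x2) * rt (m * x1)) := by ring
  rw [e1, he]
  unfold heq
  have hne := rt_add_ne h1 h2
  have s1 := rt_sq h1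
  have s2 := rt_sq h2
  set a := rt (m * x2) with ha
  set b := rt (m * x1) with hb
  -- (a - b) (a + b) = m⁵ (x1 - x2) Q
  have e2 : (a - b) * (a + b) = m ^ 5 * ((x1 - x2) *
      (x1 ^ 4 + x1 ^ 3 * x2 + x1 ^ 2 * x2 ^ 2 + x1 * x2 ^ 3 + x2 ^ 4)) := by
    have : (a - b) * (a + b) = a ^ 2 - b ^ 2 := by ring
    rw [this, s1, s2]; ring
  set Q := x1 ^ 4 + x1 ^ 3 * x2 + x1 ^ 2 * x2 ^ 2 + x1 * x2 ^ 3 + x2 ^ 4 with hQ
  have e3 : a - b = m ^ 5 * ((x1 - x2) * (Q / (a + b))) := by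
    have : a - b = (a - b) * (a + b) / (a + b) := by field_simp
    rw [this, e2]; ring
  have e4 : (a - b) ^ 2 = m ^ 5 * ((x1 - x2) ^ 2 * (m ^ 5 * (Q / (a + b)) ^ 2)) := by
    rw [e3]; ring
  have e5 : a * b = (a ^ 2 + b ^ 2 - (a - b) ^ 2) / 2 := by ring
  rw [e5, e4, s1, s2]
  ring

/-- `hop` is holomorphic as long as `‖m x1‖, ‖m x2‖ < 1` -/
theorem analyticAt_hop {E : Type*} [NormedAddCommGroup E] [NormedSpace ℂ E] {m x1 x2 : E → ℂ}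
    {z : E} (hm : AnalyticAt ℂ m z) (h1 : AnalyticAt ℂ x1 z) (h2 : AnalyticAt ℂ x2 z)
    (hs : ‖m z * x2 z‖ < 1) (ht : ‖m z * x1 z‖ < 1) :
    AnalyticAt ℂ (fun w => hop (m w) (x1 w) (x2 w)) z := by
  have r1 : AnalyticAt ℂ (fun w => rt (m w * x2 w)) z :=
    AnalyticAt.fun_comp (g := rt) (f := fun w => m w * x2 w) (analyticAt_rt hs) (hm.mul h2)
  have r2 : AnalyticAt ℂ (fun w => rt (m w * x1 w)) z :=
    AnalyticAt.fun_comp (g := rt) (f := fun w => m w * x1 w) (analyticAt_rt ht) (hm.mul h1)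
  unfold hop
  exact ((analyticAt_const.sub (((hm.pow 5).mul ((h1.mul h2).pow 2)).mul (h1.add h2))).add
    (analyticAt_const.mul (r1.mul r2)))

theorem analyticAt_heq {E : Type*} [NormedAddCommGroup E] [NormedSpace ℂ E] {m x1 x2 : E → ℂ}
    {z : E} (hm : AnalyticAt ℂ m z) (h1 : AnalyticAt ℂ x1 z) (h2 : AnalyticAt ℂ x2 z)
    (hs : ‖m z * x2 z‖ < 1) (ht : ‖m z * x1 z‖ < 1) :
    AnalyticAt ℂ (fun w => heq (m w) (x1 w) (x2 w)) z := by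
  have r1 : AnalyticAt ℂ (fun w => rt (m w * x2 w)) z :=
    AnalyticAt.fun_comp (g := rt) (f := fun w => m w * x2 w) (analyticAt_rt hs) (hm.mul h2)
  have r2 : AnalyticAt ℂ (fun w => rt (m w * x1 w)) z :=
    AnalyticAt.fun_comp (g := rt) (f := fun w => m w * x1 w) (analyticAt_rt ht) (hm.mul h1)
  unfold heq
  have q : AnalyticAt ℂ (fun w => (x1 w ^ 4 + x1 w ^ 3 * x2 w + x1 w ^ 2 * x2 w ^ 2 +
      x1 w * x2 w ^ 3 + x2 w ^ 4) / (rt (m w * x2 w) + rt (m w * x1 w))) z := by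
    refine AnalyticAt.div ?_ (r1.add r2) (rt_add_ne hs ht)
    exact ((((h1.pow 4).add ((h1.pow 3).mul h2)).add ((h1.pow 2).mul (h2.pow 2))).add
      (h1.mul (h2.pow 3))).add (h2.pow 4)
  exact (hm.pow 5).mul (((h1.add h2).mul (((h1.add h2).pow 2).sub (h1.mul h2))).add
    ((hm.pow 5).mul (q.pow 2)))

end

end Crest.Agent.R272.PosL_898
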