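import Crest.Agent.R272.PosL1_898
import Crest.Agent.R272.PhiDefs_92

/-!
# R272 (S0415), POS at `p0`, part (5L) (helper898), file 2: the list `Φ` on the m-charts

`x0 = m p`, `p = x1 x2`, `E = x1 + x2`, `D = E² - 4 p`, `zm m E p = (m² p, m E, 1)`.
* equal sheets: `S = p³ D h`: `Φ = D⁴ p^b · YM1`;  on the line `YM1 = (m^(b-1) at l 2, 1 at v)`;
* opposite sheets: `S = p³ h`: `Φ = p^b · YM2`; on the line `YM2 = (h⁴ m^(b-14) at W4 2 2, h⁴ at last)`.
-/

set_option autoImplicit false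

namespace Crest.Agent.R272.PosL_898

open Crest.Agent.R272.PW_92

noncomputable section

/-- `XX (m p) E p = p · zm m E p` -/
def zm (m E p : ℂ) : Fin 3 → ℂ := ![m ^ 2 * p, m * E, 1]

theorem XX_zm (m E p : ℂ) (j : Fin 3) : XX (m * p) E p j = p * zm m E p j := by
  fin_cases j
  · simp [XX, zm]; ring
  · simp [XX, zm]; ring
  · simp [XX, zm]

/-- normalised vector, equal sheets -/
def YM1 (b : ℕ) (m E p h : ℂ) : IPhi → ℂ
  | .l j => m ^ (b - 1) * zm m E p j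
  | .W => m ^ (b - 3) * h
  | .W2 => m ^ (b - 6) * h ^ 2
  | .W3 j => m ^ (b - 10) * h ^ 3 * zm m E p j
  | .W4 j k => m ^ (b - 14) * h ^ 4 * zm m E p j * zm m E p k
  | .v => 1
  | .last => h ^ 4

/-- normalised vector, opposite sheets -/
def YM2 (b : ℕ) (m E p h : ℂ) : IPhi → ℂ
  | .l j => (E ^ 2 - 4 * p) ^ 4 * m ^ (b - 1) * zm m E p j
  | .W => (E ^ 2 - 4 * p) ^ 3 * m ^ (b - 3) * h
  | .W2 => (E ^ 2 - 4 * p) ^ 2 * m ^ (b - 6) * h ^ 2
  | .W3 j => (E ^ 2 - 4 * p) * m ^ (b - 10) * h ^ 3 * zm m E p j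
  | .W4 j k => m ^ (b - 14) * h ^ 4 * zm m E p j * zm m E p k
  | .v => (E ^ 2 - 4 * p) ^ 4
  | .last => h ^ 4

/-- local generator, equal sheets -/
def gM1 (b : ℕ) (E p : ℂ) : ℂ := (E ^ 2 - 4 * p) ^ 4 * p ^ b

/-- local generator, opposite sheets -/
def gM2 (b : ℕ) (p : ℂ) : ℂ := p ^ b

theorem phi_M1 {b : ℕ} (hb : 15 ≤ b) {x0 E p S m h : ℂ} (h0 : x0 = m * p)
    (hS : S = p ^ 3 * (E ^ 2 - 4 * p) * h) (i : IPhi) :
    Phi b x0 E p S i = YM1 b m E p h i * gM1 b E p := by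
  obtain ⟨c, rfl⟩ := Nat.exists_eq_add_of_le hb
  subst h0 hS
  have e1 : 15 + c - 1 = c + 14 := by omega
  have e3 : 15 + c - 3 = c + 12 := by omega
  have e6 : 15 + c - 6 = c + 9 := by omega
  have e10 : 15 + c - 10 = c + 5 := by omega
  have e14 : 15 + c - 14 = c + 1 := by omega
  have e12 : 15 + c - 12 = c + 3 := by omega
  cases i <;> simp only [Phi, YM1, gM1, XX_zm, e1, e3, e6, e10, e12, e14] <;> ring

theorem phi_M2 {b : ℕ} (hb : 15 ≤ b) {x0 E p S m h : ℂ} (h0 : x0 = m * p)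
    (hS : S = p ^ 3 * h) (i : IPhi) :
    Phi b x0 E p S i = YM2 b m E p h i * gM2 b p := by
  obtain ⟨c, rfl⟩ := Nat.exists_eq_add_of_le hb
  subst h0 hS
  have e1 : 15 + c - 1 = c + 14 := by omega
  have e3 : 15 + c - 3 = c + 12 := by omega
  have e6 : 15 + c - 6 = c + 9 := by omega
  have e10 : 15 + c - 10 = c + 5 := by omega
  have e14 : 15 + c - 14 = c + 1 := by omega
  have e12 : 15 + c - 12 = c + 3 := by omega
  cases i <;> simp only [Phi, YM2, gM2, XX_zm, e1, e3, e6, e10, e12, e14] <;> ring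

/-- the values on the lines `L_{++}, L_{--}` -/
def R1 (b : ℕ) (m : ℂ) : IPhi → ℂ := YM1 b m 0 0 0

/-- the values on the line `L_{+-}` -/
def R2 (b : ℕ) (m : ℂ) : IPhi → ℂ := YM2 b m 0 0 4

theorem R1_ne (b : ℕ) (m : ℂ) : R1 b m ≠ 0 := fun h => by
  have := congrFun h .v
  simp [R1, YM1] at this

theorem R2_ne (b : ℕ) (m : ℂ) : R2 b m ≠ 0 := fun h => by
  have := congrFun h .last
  simp [R2, YM2] at this

theorem finite_pow_eq {k : ℕ} (hk : 0 < k) (t : ℂ) : {s : ℂ | s ^ k = t ^ k}.Finite := by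
  have h1 : {s : ℂ | s ^ k = t ^ k} ⊆ ((Polynomial.X ^ k - Polynomial.C (t ^ k)).roots.toFinset :
      Finset ℂ) := by
    intro s hs
    have h2 : (Polynomial.X ^ k - Polynomial.C (t ^ k) : Polynomial ℂ) ≠ 0 :=
      Polynomial.X_pow_sub_C_ne_zero hk _
    simp only [Finset.mem_coe, Multiset.mem_toFinset, Polynomial.mem_roots h2,
      Polynomial.IsRoot.def, Polynomial.eval_sub, Polynomial.eval_pow, Polynomial.eval_X,
      Polynomial.eval_C]
    exact sub_eq_zero.2 hs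
  exact (Finset.finite_toSet _).subset h1

/-- **finite fibres on `L_{++}, L_{--}`** -/
theorem R1_fin {b : ℕ} (hb : 15 ≤ b) (t : ℂ) :
    {s : ℂ | ∀ i j, R1 b t i * R1 b s j = R1 b t j * R1 b s i}.Finite := by
  refine (finite_pow_eq (k := b - 1) (by omega) t).subset fun s hs => ?_
  have h1 := hs (.l 2) .v
  simp only [R1, YM1, zm] at h1
  simpa [eq_comm] using h1

/-- **finite fibres on `L_{+-}`** -/
theorem R2_fin {b : ℕ} (hb : 15 ≤ b) (t : ℂ) :
    {s : ℂ | ∀ i j, R2 b t i * R2 b s j = R2 b t j * R2 b s i}.Finite := by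
  refine (finite_pow_eq (k := b - 14) (by omega) t).subset fun s hs => ?_
  have h1 := hs (.W4 2 2) .last
  simp only [R2, YM2, zm] at h1
  simp at h1
  show s ^ (b - 14) = t ^ (b - 14)
  have h4 : (4:ℂ) ^ 4 ≠ 0 := by norm_num
  have h2 : t ^ (b - 14) * (4 ^ 4 * 4 ^ 4) = s ^ (b - 14) * (4 ^ 4 * 4 ^ 4) := by
    linear_combination h1
  exact (mul_right_cancel₀ (mul_ne_zero h4 h4) h2).symm

end

end Crest.Agent.R272.PosL_898
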