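import Crest.Agent.R272.PosP9_848

/-!
# R272 (S0415), POS at `p0` (helper848), part 11: generators in the `m`-charts

`vv_ball`      : on the disc at infinity `v = ± rt s`;
`YC.genM_eq`   : equal sheets: `GenAt Φ ((x1 - x2)^8 (x1 x2)^n)` at EVERY point of the chart;
`YC.genM_opp`  : opposite sheets: `GenAt Φ ((x1 x2)^n)`.
-/

set_option autoImplicit false
set_option linter.unusedSectionVars false
set_option linter.unusedVariables false

open Set Filter Topology Complex OnePoint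

namespace Crest.Agent.R272.PosP7_848

open Crest.Agent.R275.Geo Crest.Agent.R273.Fam_835
open Crest.Agent.R272.Cur_297 (Par Cv cur tt kk fin tv yv sv vv Pz iv)
open Crest.Agent.R272.Tq1_916 (pole dl nu fij fm Inf Dm swA)
open Crest.Agent.R272.Tq4_916 (ib pinf)
open Crest.Agent.R272.PosP3_848
open Crest.Agent.R272.Kum_977 (cf fh Fh rho)
open Crest.Agent.R272.PW_92 (IPhi Phi)
open Crest.Agent.R272.PosL_898 (rt rt_zero rt_sq rt_ne analyticAt_rt hop heq N_eq N_opp YM1 YM2 gM1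
  gM2 phi_M1 phi_M2 genAt_of holN_YM1 holN_YM2 holN_hop holN_heq)
open Crest.Agent.R272.Lc_220
open Crest.Agent.R272.FinCB3_876 (GenAt ValC)

noncomputable section

theorem vv_ne_ball (b : Bool) {s : ℂ} (hs : ‖s‖ < (ib Pz b).r) :
    vv ((ib Pz b).e.symm s) ≠ 0 := by
  intro h0
  set a := ib Pz b with ha
  have hst : s ∈ a.e.target := by rw [a.tgt]; simpa using hs
  set c := a.e.symm s with hc
  have hcs : c ∈ a.e.source := a.e.map_target hst
  have hic : iv c = c := Cur_297.ext1 (by rw [Cur_297.tt_iv]; exact a.ne c hcs) (Cur_297.tt_iv c)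
    (by rw [Cur_297.vv_iv, h0, neg_zero])
  have hcont : ContinuousAt (iv (P := Pz)) c := (cur Pz).iv_cont.continuousAt
  have h1a : ∀ᶠ d in 𝓝 c, d ∈ a.e.source := a.e.open_source.mem_nhds hcs
  have h1b : ∀ᶠ d in 𝓝 c, iv d ∈ a.e.source :=
    hcont.eventually (a.e.open_source.mem_nhds (by rw [hic]; exact hcs))
  have h1 := h1a.and h1b
  have h2 : ∀ᶠ d in 𝓝 c, vv d = 0 := by
    filter_upwards [h1] with d hd
    have h3 : a.e d = a.e (iv d) := by
      rw [← a.val d hd.1, ← a.val _ hd.2, Cur_297.tt_iv]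
    have h4 : d = iv d := a.e.injOn hd.1 hd.2 h3
    have h5 : vv d = - vv d := by
      conv_lhs => rw [h4]
      exact Cur_297.vv_iv d
    have h6 : 2 * vv d = 0 := by linear_combination h5
    exact (mul_eq_zero.1 h6).resolve_left two_ne_zero
  have h3 : ∀ᶠ z in 𝓝 s, vv (a.e.symm z) = 0 ∧ ‖z‖ < a.r :=
    ((a.e.continuousAt_symm hst).eventually h2).and
      (continuous_norm.continuousAt.eventually_lt_const hs)
  have h4 : (fun z : ℂ => 1 - z ^ 5) =ᶠ[𝓝 s] fun _ => (0 : ℂ) := by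
    filter_upwards [h3] with z hz
    have h5 := YC.vv_sq' (P := Pz) b hz.2
    rw [Kum_977.fh_cf_inf, Cur_297.Pz_p1] at h5
    rw [← h5]
    show vv (a.e.symm z) ^ 2 = 0
    rw [hz.1]
    norm_num
  have h5 : HasDerivAt (fun z : ℂ => 1 - z ^ 5) (-(5 * s ^ 4)) s := by
    have h6 := (hasDerivAt_pow 5 s).const_sub 1
    simpa using h6
  have h6 : -(5 * s ^ 4) = 0 :=
    (h5.congr_of_eventuallyEq h4.symm).unique (hasDerivAt_const s (0 : ℂ))
  have h7 : s = 0 := by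
    have h8 : s ^ 4 = 0 := by
      have : (5 : ℂ) ≠ 0 := by norm_num
      exact (mul_eq_zero.1 (neg_eq_zero.1 h6)).resolve_left this
    exact pow_eq_zero_iff (by norm_num) |>.1 h8
  have h8 := h4.self_of_nhds
  simp [h7] at h8

theorem ib_r_le (b : Bool) : (ib Pz b).r ≤ 1 := by
  by_contra h
  push Not at h
  have h1 : ‖(1 : ℂ)‖ < (ib Pz b).r := by rw [norm_one]; exact h
  refine vv_ne_ball b h1 ?_
  have h2 := YC.vv_sq' (P := Pz) b h1
  rw [Kum_977.fh_cf_inf, Cur_297.Pz_p1] at h2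
  exact pow_eq_zero_iff (two_ne_zero) |>.1 (by rw [h2]; norm_num)

/-- **`v` on the disc at infinity** -/
theorem vv_ball (b : Bool) {s : ℂ} (hs : ‖s‖ < (ib Pz b).r) :
    vv ((ib Pz b).e.symm s) = vv (pinf Pz b) * rt s := by
  set r := (ib Pz b).r with hr
  have hr1 : r ≤ 1 := ib_r_le b
  have hp : IsPreconnected (Metric.ball (0 : ℂ) r) := (convex_ball _ _).isPreconnected
  have hmem : ∀ {z : ℂ}, z ∈ Metric.ball (0 : ℂ) r → ‖z‖ < r := fun h => by simpa using h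
  have h1 : ContinuousOn (fun z => vv ((ib Pz b).e.symm z)) (Metric.ball 0 r) := fun z hz =>
    (YC.an_vv (P := Pz) b (hmem hz)).continuousAt.continuousWithinAt
  have h2 : ContinuousOn (fun z => vv (pinf Pz b) * rt z) (Metric.ball 0 r) := fun z hz =>
    (continuousAt_const.mul
      (analyticAt_rt ((hmem hz).trans_le hr1)).continuousAt).continuousWithinAt
  have hv1 := vv_pinf_sq b
  have hv0 : vv (pinf Pz b) ≠ 0 := by
    intro h; rw [h] at hv1; norm_num at hv1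
  refine hp.eq_of_sq_eq h1 h2 ?_ ?_ (y := 0) ?_ ?_ (x := s) (by simpa using hs)
  · intro z hz
    show vv ((ib Pz b).e.symm z) ^ 2 = (vv (pinf Pz b) * rt z) ^ 2
    rw [YC.vv_sq' (P := Pz) b (hmem hz), Kum_977.fh_cf_inf, Cur_297.Pz_p1, mul_pow, hv1,
      rt_sq ((hmem hz).trans_le hr1), one_mul]
  · intro z hz
    exact mul_ne_zero hv0 (rt_ne ((hmem hz).trans_le hr1))
  · simpa using (ib Pz b).r_pos
  · show vv ((ib Pz b).e.symm 0) = vv (pinf Pz b) * rt 0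
    rw [symm_ib, rt_zero, mul_one]

theorem hop_diag {m x : ℂ} (h : ‖m * x‖ < 1) : hop m x x ≠ 0 := by
  have h1 : hop m x x = 4 * (1 - (m * x) ^ 5) := by
    unfold hop
    have := rt_sq h
    linear_combination 2 * this
  rw [h1]
  exact mul_ne_zero (by norm_num) (PosL_898.one_sub_ne h)

variable {Y N : Type} [TopologicalSpace Y]

namespace YC

variable {CY : Fam 3 Y} {Pm : Y → N} {z₀ : N} {O : Set Y} (T : YC Pz CY Pm z₀ O)
  {b b' : Bool} {q : ℂ × ℂ × ℂ} (hq : q ∈ (T.M b b').source) {n : ℕ} (hn : 15 ≤ n)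

include hq

theorem sm1 : ‖q.1 * q.2.2‖ < 1 := (T.hM b b' q hq).1.trans_le (ib_r_le b)
theorem sm2 : ‖q.1 * q.2.1‖ < 1 := (T.hM b b' q hq).2.trans_le (ib_r_le b')

/-- the fourth function in the chart -/
theorem ss_M : T.ss (T.M b b' q) = 2 * (q.2.1 * q.2.2) ^ 3 -
    (q.1 * (q.2.1 * q.2.2)) ^ 5 * (q.2.1 + q.2.2) -
    2 * ((q.2.1 ^ 3 * (vv (pinf Pz b) * rt (q.1 * q.2.2))) *
      (q.2.2 ^ 3 * (vv (pinf Pz b') * rt (q.1 * q.2.1)))) := by
  rw [(T.stM hq).2.2.2, vv_ball b (T.hM b b' q hq).1, vv_ball b' (T.hM b b' q hq).2]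
  unfold rho
  rw [Fh_Pz]
  ring

include hn

/-- **equal sheets** -/
theorem genM_eq (hb : b = b') :
    GenAt CY (T.ff n) (fun y => (T.x1 y - T.x2 y) ^ 8 * (T.x1 y * T.x2 y) ^ n) (T.M b b' q) := by
  subst hb
  have hm := holN_m0 (T.cM b b) hq
  have h1 := T.holN_x1 hq
  have h2 := T.holN_x2 hq
  have e0 : ((T.M b b).symm (T.M b b q)).1 = q.1 := by rw [(T.M b b).left_inv hq]
  have e1 : T.x1 (T.M b b q) = q.2.1 := (T.stM hq).2.1
  have e2 : T.x2 (T.M b b q) = q.2.2 := (T.stM hq).2.2.1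
  have s1 : ‖((T.M b b).symm (T.M b b q)).1 * T.x2 (T.M b b q)‖ < 1 := by
    rw [e0, e2]; exact T.sm1 hq
  have s2 : ‖((T.M b b).symm (T.M b b q)).1 * T.x1 (T.M b b q)‖ < 1 := by
    rw [e0, e1]; exact T.sm2 hq
  have hh := holN_heq hm h1 h2 s1 s2
  refine genAt_of (u := fun i w => YM1 n ((T.M b b).symm w).1 (T.x1 w + T.x2 w) (T.x1 w * T.x2 w)
    (heq ((T.M b b).symm w).1 (T.x1 w) (T.x2 w)) i) (fun i => holN_YM1 hm h1 h2 hh i) ?_
    ⟨.v, by simp [YM1]⟩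
  refine T.ev_M hq (Q := fun w p => ∀ i, T.ff n i w = YM1 n ((T.M b b).symm w).1
    (T.x1 w + T.x2 w) (T.x1 w * T.x2 w) (heq ((T.M b b).symm w).1 (T.x1 w) (T.x2 w)) i *
    ((T.x1 w - T.x2 w) ^ 8 * (T.x1 w * T.x2 w) ^ n)) fun p hp i => ?_
  obtain ⟨a0, a1, a2, -⟩ := T.stM hp
  have a3 := T.ss_M hp
  rw [N_eq (vv_pinf_sq b) (T.sm1 hp) (T.sm2 hp)] at a3
  have h3 := phi_M1 hn (x0 := T.x0 (T.M b b p)) (E := p.2.1 + p.2.2) (p := p.2.1 * p.2.2)
    (S := T.ss (T.M b b p)) (m := p.1) (h := heq p.1 p.2.1 p.2.2) a0 a3 i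
  rw [(T.M b b).left_inv hp]
  show Phi n (T.x0 (T.M b b p)) (T.x1 (T.M b b p) + T.x2 (T.M b b p))
    (T.x1 (T.M b b p) * T.x2 (T.M b b p)) (T.ss (T.M b b p)) i = _
  rw [a1, a2, h3]
  unfold gM1
  ring

/-- **opposite sheets** -/
theorem genM_opp (hb : b ≠ b') :
    GenAt CY (T.ff n) (fun y => (T.x1 y * T.x2 y) ^ n) (T.M b b' q) := by
  have hm := holN_m0 (T.cM b b') hq
  have h1 := T.holN_x1 hq
  have h2 := T.holN_x2 hq
  have e0 : ((T.M b b').symm (T.M b b' q)).1 = q.1 := by rw [(T.M b b').left_inv hq]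
  have e1 : T.x1 (T.M b b' q) = q.2.1 := (T.stM hq).2.1
  have e2 : T.x2 (T.M b b' q) = q.2.2 := (T.stM hq).2.2.1
  have s1 : ‖((T.M b b').symm (T.M b b' q)).1 * T.x2 (T.M b b' q)‖ < 1 := by
    rw [e0, e2]; exact T.sm1 hq
  have s2 : ‖((T.M b b').symm (T.M b b' q)).1 * T.x1 (T.M b b' q)‖ < 1 := by
    rw [e0, e1]; exact T.sm2 hq
  have hh := holN_hop hm h1 h2 s1 s2
  refine genAt_of (u := fun i w => YM2 n ((T.M b b').symm w).1 (T.x1 w + T.x2 w)
    (T.x1 w * T.x2 w) (hop ((T.M b b').symm w).1 (T.x1 w) (T.x2 w)) i)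
    (fun i => holN_YM2 hm h1 h2 hh i) ?_ ?_
  · refine T.ev_M hq (Q := fun w p => ∀ i, T.ff n i w = YM2 n ((T.M b b').symm w).1
      (T.x1 w + T.x2 w) (T.x1 w * T.x2 w) (hop ((T.M b b').symm w).1 (T.x1 w) (T.x2 w)) i *
      ((T.x1 w * T.x2 w) ^ n)) fun p hp i => ?_
    obtain ⟨a0, a1, a2, -⟩ := T.stM hp
    have a3 := T.ss_M hp
    rw [show vv (pinf Pz b') = - vv (pinf Pz b) by rw [vv_pinf hb, neg_neg],
      N_opp p.1 p.2.1 p.2.2 _ (vv_pinf_sq b)] at a3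
    have h3 := phi_M2 hn (x0 := T.x0 (T.M b b' p)) (E := p.2.1 + p.2.2) (p := p.2.1 * p.2.2)
      (S := T.ss (T.M b b' p)) (m := p.1) (h := hop p.1 p.2.1 p.2.2) a0 a3 i
    rw [(T.M b b').left_inv hp]
    show Phi n (T.x0 (T.M b b' p)) (T.x1 (T.M b b' p) + T.x2 (T.M b b' p))
      (T.x1 (T.M b b' p) * T.x2 (T.M b b' p)) (T.ss (T.M b b' p)) i = _
    rw [a1, a2, h3]
    rfl
  · simp only [e0, e1, e2]
    by_cases h : q.2.1 = q.2.2
    · refine ⟨.last, ?_⟩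
      show hop q.1 q.2.1 q.2.2 ^ 4 ≠ 0
      rw [h]
      exact pow_ne_zero 4 (hop_diag (T.sm1 hq))
    · refine ⟨.v, ?_⟩
      show ((q.2.1 + q.2.2) ^ 2 - 4 * (q.2.1 * q.2.2)) ^ 4 ≠ 0
      have : (q.2.1 + q.2.2) ^ 2 - 4 * (q.2.1 * q.2.2) = (q.2.1 - q.2.2) ^ 2 := by ring
      rw [this]
      exact pow_ne_zero 4 (pow_ne_zero 2 (sub_ne_zero.2 h))

end YC

end

end Crest.Agent.R272.PosP7_848
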