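import Crest.Agent.R272.PosP11_848
import Crest.Agent.R272.Kum8_977

/-!
# R272 (S0415), POS at `p0` (helper848), part 12: the `m`-charts and the reflected coordinate

`YC.x12_asc_eqU` : equal sheets: `x1 - x2 ~ eqU`;
`YC.cmpM_U`      : `GenAt Φ ((x1 x2)^n eqU^8)` at every point of every `m`-chart.
-/

set_option autoImplicit false
set_option linter.unusedSectionVars false
set_option linter.unusedVariables false

open Set Filter Topology Complex OnePoint

namespace Crest.Agent.R272.PosP7_848

open Crest.Agent.R275.Geo Crest.Agent.R273.Fam_835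
open Crest.Agent.R272.Cur_297 (Par Cv cur tt kk fin tv yv sv vv Pz iv)
open Crest.Agent.R272.Tq4_916 (ib pinf)
open Crest.Agent.R272.PW_92 (IPhi Phi)
open Crest.Agent.R272.Lc_220 Crest.Agent.R272.LcR_783 Crest.Agent.R272.Refl_246
open Crest.Agent.R272.FinCB3_876 (GenAt ValC)
open Crest.Agent.R272.Kum_977 (dvd_coord cpt_lin asc_of_units)
open Crest.Agent.R272.PosL_898 (rt rt_ne)

noncomputable section

/-- `(m, s, s') ↦ (m, s - s', s')` -/
def Lm : Cn 3 ≃L[ℂ] Cn 3 :=
  LinearEquiv.toContinuousLinearEquiv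
    { toFun := fun w => WithLp.toLp 2 ![w 0, w 1 - w 2, w 2]
      invFun := fun w => WithLp.toLp 2 ![w 0, w 1 + w 2, w 2]
      map_add' := by
        intro p q
        ext i
        fin_cases i
        · simp
        · simp; ring
        · simp
      map_smul' := by
        intro r p
        ext i
        fin_cases i
        · simp
        · simp; ring
        · simp
      left_inv := by
        intro p
        ext i
        fin_cases i <;> simp
      right_inv := by
        intro z
        ext i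
        fin_cases i <;> simp }

theorem Lm_1 (w : Cn 3) : Lm w 1 = w 1 - w 2 := rfl

variable {Y N : Type} [TopologicalSpace Y]

namespace YC

variable {CY : Fam 3 Y} {Pm : Y → N} {z₀ : N} {O : Set Y} (T : YC Pz CY Pm z₀ O)
  {b b' : Bool} {q : ℂ × ℂ × ℂ} (hq : q ∈ (T.M b b').source)
  {G : Type} [Group G] [MulAction G Y] {c : RC G CY} (hc : T.M b b' q ∈ c.e.source)

/-- 732's `fix_M` -/
def FixM (G : Type) [Group G] [MulAction G Y] (b b' : Bool) (q : ℂ × ℂ × ℂ) : Prop :=
  ∀ᶠ y in 𝓝 (T.M b b' q), (∃ g : G, g ≠ 1 ∧ g • y = y) ↔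
    (((T.M b b').symm y).2.1 = ((T.M b b').symm y).2.2 ∧
      (ib Pz b).e.symm (((T.M b b').symm y).1 * ((T.M b b').symm y).2.1) =
        (ib Pz b').e.symm (((T.M b b').symm y).1 * ((T.M b b').symm y).2.1))

include hq hc

/-- **equal sheets: `x1 - x2` is the reflected coordinate up to a unit** -/
theorem x12_asc_eqU (hfix : T.FixM G b b' q) (hb : b = b') :
    Asc CY (T.M b b' q) (fun y => T.x1 y - T.x2 y) (eqU c) := by
  subst hb
  have hh : HolN CY (T.M b b q) fun y => T.x1 y - T.x2 y := (T.holN_x1 hq).sub (T.holN_x2 hq)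
  have hev : ∀ᶠ y in 𝓝 (T.M b b q), T.x1 y - T.x2 y =
      ((T.M b b).symm y).2.1 - ((T.M b b).symm y).2.2 :=
    T.ev_M hq (Q := fun y p => T.x1 y - T.x2 y = p.2.1 - p.2.2) fun p hp => by
      rw [(T.stM hp).2.1, (T.stM hp).2.2.1]
  refine Asc.of_dvd hh (T.nz_x12 hq) ?_ ?_
  · refine dvd_eqU hc hh ?_
    filter_upwards [hfix, hev] with y k1 k2 k3
    rw [k2, (k1.1 k3).1, sub_self]
  · have hcpt : Refl_246.Cpt CY
        (((T.M b b).symm.transHomeomorph mc.toHomeomorph).transHomeomorph Lm.toHomeomorph) :=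
      cpt_lin (T.cM b b) Lm
    have hmem : T.M b b q ∈
        (((T.M b b).symm.transHomeomorph mc.toHomeomorph).transHomeomorph
          Lm.toHomeomorph).source := (T.M b b).map_source hq
    have h1 := dvd_coord hcpt hmem (a := 1) (holN_eqU hc) (by
      filter_upwards [hfix, c.e.open_source.mem_nhds hc] with y k1 k2 k3
      refine (eqU_zero_iff k2).2 (k1.2 ⟨?_, rfl⟩)
      exact sub_eq_zero.1 k3)
    refine h1.congr (hev.mono fun y hy => hy) (Eventually.of_forall fun _ => rfl)

/-- opposite sheets: no fixed points -/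
theorem eqU_ne (hfix : T.FixM G b b' q) (hb : b ≠ b') : eqU c (T.M b b' q) ≠ 0 := by
  intro h0
  have h1 := (eqU_zero_iff hc).1 h0
  have h2 := hfix.self_of_nhds.1 h1
  rw [(T.M b b').left_inv hq] at h2
  obtain ⟨h3, h4⟩ := h2
  have hs1 : ‖q.1 * q.2.1‖ < (ib Pz b).r := by rw [h3]; exact (T.hM b b' q hq).1
  have hs2 : ‖q.1 * q.2.1‖ < (ib Pz b').r := (T.hM b b' q hq).2
  have h5 := congrArg vv h4
  rw [vv_ball b hs1, vv_ball b' hs2, vv_pinf hb] at h5
  have hr := rt_ne (hs2.trans_le (ib_r_le b'))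
  have hv : vv (pinf Pz b') ≠ 0 := by
    intro h
    have := vv_pinf_sq b'
    rw [h] at this
    norm_num at this
  have h6 : 2 * (vv (pinf Pz b') * rt (q.1 * q.2.1)) = 0 := by linear_combination -h5
  exact mul_ne_zero two_ne_zero (mul_ne_zero hv hr) h6

/-- **the list is generated by `(x1 x2)^n eqU^8` at every point of every `m`-chart** -/
theorem cmpM_U {n : ℕ} (hn : 15 ≤ n) (hfix : T.FixM G b b' q) :
    GenAt CY (T.ff n) (fun y => (T.x1 y * T.x2 y) ^ n * eqU c y ^ 8) (T.M b b' q) := by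
  have hp : HolN CY (T.M b b' q) fun y => (T.x1 y * T.x2 y) ^ n :=
    ((T.holN_x1 hq).mul (T.holN_x2 hq)).pow n
  by_cases hb : b = b'
  · refine (T.genM_eq hq hn hb).asc ?_
    have h1 := ((T.x12_asc_eqU hq hc hfix hb).pow 8).mul
      (Asc.refl (C := CY) (x := T.M b b' q) fun y => (T.x1 y * T.x2 y) ^ n)
    exact h1.congr (Eventually.of_forall fun y => rfl) (Eventually.of_forall fun y => by ring)
  · refine (T.genM_opp hq hn hb).asc ?_
    have h0 := T.eqU_ne hq hc hfix hb
    have h1 := (asc_of_units (C := CY) (x := T.M b b' q) (u := fun _ => (1 : ℂ))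
      (v := fun y => eqU c y ^ 8) (holN_const 1) ((holN_eqU hc).pow 8) one_ne_zero
      (pow_ne_zero 8 h0)).mul
      (Asc.refl (C := CY) (x := T.M b b' q) fun y => (T.x1 y * T.x2 y) ^ n)
    exact h1.congr (Eventually.of_forall fun y => by ring) (Eventually.of_forall fun y => by ring)

end YC

end

end Crest.Agent.R272.PosP7_848
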