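import Crest.Agent.R272.Sur2_342
import Crest.Agent.R272.PEnd5_732

/-!
# R272 (S0415), POS at `p0` (helper848), part 4: assembly on the surgered space

`S : Sur X A B` (342), functions `F j` on `X` near the bad fibre, `FB j` on `B`, compatible.

* `valC_pull`  : value vectors along open partial homeomorphisms;
* `Dat`        : the hypotheses on `X` and on `B`;
* `Dat.phi`    : **732's `PhiData`** for `Φ j = S.desc (F j) (FB j)`, `ι = S.iota` restricted to the
                 complement of the bad fibre.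
-/

set_option autoImplicit false
set_option linter.unusedSectionVars false
set_option linter.unusedVariables false

open Set Filter Topology Complex

namespace Crest.Agent.R272.PosP4_848

open Crest.Agent.R275.Geo Crest.Agent.R273.Fam_835
open Crest.Agent.R272.Quot_783 Crest.Agent.R272.CB_232 Crest.Agent.R272.HFam_342
open Crest.Agent.R272.Sur_342 Crest.Agent.R272.PEnd_732
open Crest.Agent.R272.FinCB3_876 (GenAt ValC ff_of_pieces)

noncomputable section

variable {n m : ℕ} {X Y A B N κ : Type} [TopologicalSpace X] [TopologicalSpace Y]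
  [TopologicalSpace A] [TopologicalSpace B] [TopologicalSpace N]
  {C : Fam n X} {D : Fam n Y} {DA : Fam n A} {DB : Fam n B}

/-- density along an open partial homeomorphism -/
theorem dense_pull (φ : OpenPartialHomeomorph X Y) {e : Y → ℂ} {x : X} (hx : x ∈ φ.source)
    (hd : φ x ∈ closure {y | e y ≠ 0}) : x ∈ closure {z | e (φ z) ≠ 0} := by
  rw [mem_closure_iff]
  intro O hO hxO
  have h1 : IsOpen (φ.target ∩ φ.symm ⁻¹' (φ.source ∩ O)) :=
    φ.isOpen_inter_preimage_symm (φ.open_source.inter hO)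
  have h2 : φ x ∈ φ.target ∩ φ.symm ⁻¹' (φ.source ∩ O) :=
    ⟨φ.map_source hx, by rw [mem_preimage, φ.left_inv hx]; exact ⟨hx, hxO⟩⟩
  obtain ⟨y, hy, hy0⟩ := mem_closure_iff.1 hd _ h1 h2
  refine ⟨φ.symm y, hy.2.2, ?_⟩
  show e (φ (φ.symm y)) ≠ 0
  rw [φ.right_inv hy.1]
  exact hy0

/-- **value vectors along an open partial homeomorphism** -/
theorem valC_pull (φ : OpenPartialHomeomorph X Y) (hφ : ∀ x ∈ φ.source, HC C D φ x)
    {Φ : κ → X → ℂ} {Ψ : κ → Y → ℂ} {x : X} (hx : x ∈ φ.source) {c : κ → ℂ}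
    (h : ValC D Ψ (φ x) c) (heq : ∀ᶠ z in 𝓝 x, ∀ j, Φ j z = Ψ j (φ z)) : ValC C Φ x c := by
  obtain ⟨hc, W, hW, hxW, e, hed, u, hu, he, hux⟩ := h
  obtain ⟨O, hO, hOo, hxO⟩ := eventually_nhds_iff.1 heq
  have h1 : IsOpen (φ.source ∩ φ ⁻¹' W) := φ.isOpen_inter_preimage hW
  refine ⟨hc, (φ.source ∩ φ ⁻¹' W) ∩ O, h1.inter hOo, ⟨⟨hx, hxW⟩, hxO⟩, fun z => e (φ z), ?_,
    fun j z => u j (φ z), fun j => ?_, fun z hz j => ?_, hux⟩
  · intro z hz
    exact dense_pull φ hz.1.1 (hed hz.1.2)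
  · exact holF_mono (holF_compHC h1 (fun z hz => hφ z hz.1) hW (fun z hz => hz.2) (hu j))
      inter_subset_left
  · rw [hO z hz.2 j, he (φ z) hz.1.2 j]

theorem valC_congr {Φ Ψ : κ → X → ℂ} {x : X} {c : κ → ℂ} (h : ValC C Ψ x c)
    (heq : ∀ᶠ z in 𝓝 x, ∀ j, Φ j z = Ψ j z) : ValC C Φ x c := by
  obtain ⟨hc, W, hW, hxW, e, hed, u, hu, he, hux⟩ := h
  obtain ⟨O, hO, hOo, hxO⟩ := eventually_nhds_iff.1 heq
  exact ⟨hc, W ∩ O, hW.inter hOo, ⟨hxW, hxO⟩, e, inter_subset_left.trans hed, u,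
    fun j => holF_mono (hu j) inter_subset_left, fun z hz j => by rw [hO z hz.2 j, he z hz.1 j],
    hux⟩

theorem genAt_congr {Φ Ψ : κ → X → ℂ} {x : X} {e : X → ℂ} (h : GenAt C Ψ e x)
    (heq : ∀ᶠ z in 𝓝 x, ∀ j, Φ j z = Ψ j z) : GenAt C Φ e x := by
  obtain ⟨W, hW, hxW, u, hu, he, j, hj⟩ := h
  obtain ⟨O, hO, hOo, hxO⟩ := eventually_nhds_iff.1 heq
  exact ⟨W ∩ O, hW.inter hOo, ⟨hxW, hxO⟩, u, fun j => holF_mono (hu j) inter_subset_left,
    fun z hz j => by rw [hO z hz.2 j, he z hz.1 j], j, hj⟩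

variable [T2Space X]

/-- the finite fibre condition on a set -/
def FF (C : Fam n X) (F : κ → X → ℂ) (K : Set X) : Prop :=
  ∀ q ∈ K, {x | x ∈ K ∧ ∃ c c', ValC C F q c ∧ ValC C F x c' ∧
    ∀ i j, c i * c' j = c j * c' i}.Finite

/-- **the hypotheses on `X` and on `B`** -/
structure Dat (S : Sur X A B) (C : Fam n X) (DB : Fam n B) (p : X → N) (q₀ : N) (κ : Type)
    (J R : Eqs C univ) (mm k : ℕ) where
  F : κ → X → ℂ
  FB : κ → B → ℂ
  V : Set X
  hV : IsOpen V
  fib : ∀ x, p x = q₀ → x ∈ V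
  Kp : ∀ x ∈ S.K, p x = q₀
  near : ∀ x, S.nX x < S.ε → x ∈ V
  /-- the functions agree on the collar -/
  cp : ∀ j, S.Cp (F j) (FB j)
  /-- generators of `J^mm R^k` off the bad fibre -/
  cmp : ∀ x ∈ V, p x ≠ q₀ → ∃ a b, x ∈ J.V a ∧ x ∈ R.V b ∧
    GenAt C F (fun z => J.f a z ^ mm * R.f b z ^ k) x
  /-- value vectors on the bad fibre, off the old centre -/
  val : ∀ x, p x = q₀ → x ∉ S.K → ∃ c, ValC C F x c
  /-- value vectors on the new centre -/
  valB : ∀ b : B, S.NB b = 0 → ∃ c, ValC DB FB b c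
  ff : FF C F {x | p x = q₀ ∧ x ∉ S.K}
  ffB : FF DB FB {b | S.NB b = 0}

namespace Dat

variable {S : Sur X A B} {p : X → N} {q₀ : N} {J R : Eqs C univ} {mm k : ℕ}
  (T : Dat S C DB p q₀ κ J R mm k) (H : S.Hol C DA DB)

/-- the functions on the new space -/
def Φ (j : κ) : S.XP → ℂ := S.desc (T.F j) (T.FB j)

theorem Φ_off {z : S.XP} (hz : S.nf z ≠ 0) (j : κ) : T.Φ j z = T.F j (S.iota.symm z) :=
  S.desc_of _ _ hz

theorem Φ_on {z : S.XP} (hz : S.nf z < S.ε) (j : κ) : T.Φ j z = T.FB j (S.ep z) :=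
  S.desc_ep (T.cp j) hz

theorem Φ_iota {x : X} (hx : x ∉ S.K) (j : κ) : T.Φ j (S.iota x) = T.F j x :=
  S.desc_iota _ _ hx

include T in
theorem ev_off {z : S.XP} (hz : S.nf z ≠ 0) :
    ∀ᶠ y in 𝓝 z, ∀ j, T.Φ j y = T.F j (S.iota.symm y) := by
  filter_upwards [(isOpen_ne_fun S.continuous_nf continuous_const).mem_nhds hz] with y hy j
  exact T.Φ_off hy j

theorem ev_on {z : S.XP} (hz : S.nf z < S.ε) : ∀ᶠ y in 𝓝 z, ∀ j, T.Φ j y = T.FB j (S.ep y) := by
  filter_upwards [(isOpen_lt S.continuous_nf continuous_const).mem_nhds hz] with y hy j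
  exact T.Φ_on hy j

theorem hiota : ∀ z ∈ S.iota.symm.source, HC (Sur.fam H) C S.iota.symm z := fun z hz =>
  Sur.hC_iota_symm H (S.mem_iota_target.1 hz)

theorem hep : ∀ z ∈ S.ep.source, HC (Sur.fam H) DB S.ep z := fun z hz =>
  Sur.hC_ep H (S.mem_ep_source.1 hz)

/-- values off the new centre -/
theorem val_off {z : S.XP} (hz : S.nf z ≠ 0) {c : κ → ℂ} (h : ValC C T.F (S.iota.symm z) c) :
    ValC (Sur.fam H) T.Φ z c :=
  valC_pull S.iota.symm (hiota H) (S.mem_iota_target.2 hz) h (T.ev_off hz)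

/-- values on the new centre -/
theorem val_on {z : S.XP} (hz : S.nf z < S.ε) {c : κ → ℂ} (h : ValC DB T.FB (S.ep z) c) :
    ValC (Sur.fam H) T.Φ z c :=
  valC_pull S.ep (hep H) (S.mem_ep_source.2 hz) h (T.ev_on hz)

theorem val_iota {x : X} (hx : x ∉ S.K) {c : κ → ℂ} (h : ValC (Sur.fam H) T.Φ (S.iota x) c) :
    ValC C T.F x c := by
  refine valC_pull S.iota (fun y hy => Sur.hC_iota H (S.mem_iota_source.1 hy))
    (S.mem_iota_source.2 hx) h ?_
  filter_upwards [S.isClosed_K.isOpen_compl.mem_nhds hx] with y hy j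
  exact (T.Φ_iota hy j).symm

theorem val_ep_symm {b : B} (hb : S.NB b < S.ε) {c : κ → ℂ}
    (h : ValC (Sur.fam H) T.Φ (S.ep.symm b) c) : ValC DB T.FB b c := by
  refine valC_pull S.ep.symm (fun y hy => Sur.hC_ep_symm H (S.mem_ep_target.1 hy))
    (S.mem_ep_target.2 hb) h ?_
  filter_upwards [(isOpen_lt S.cB continuous_const).mem_nhds hb] with y hy j
  show T.FB j y = T.Φ j (S.ep.symm y)
  rw [T.Φ_on (by rw [S.nf_ep_symm hy]; exact hy), S.ep.right_inv (S.mem_ep_target.2 hy)]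

/-- the neighbourhood of the bad fibre -/
def W : Set S.XP := {z | S.nf z < S.ε} ∪ (S.iota.target ∩ S.iota.symm ⁻¹' T.V)

theorem isOpen_W : IsOpen T.W :=
  (isOpen_lt S.continuous_nf continuous_const).union (S.iota.isOpen_inter_preimage_symm T.hV)

/-- `iota` off the bad fibre -/
def io (S : Sur X A B) {p : X → N} {q₀ : N} (hF : IsOpen {x | p x ≠ q₀}) :
    OpenPartialHomeomorph X S.XP :=
  S.iota.restrOpen _ hF

theorem io_source {hF : IsOpen {x | p x ≠ q₀}} :
    (io S hF).source = S.iota.source ∩ {x | p x ≠ q₀} := rfl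

theorem io_apply {hF : IsOpen {x | p x ≠ q₀}} (x : X) : io S hF x = S.iota x := rfl

theorem io_target {hF : IsOpen {x | p x ≠ q₀}} {y : S.XP} (hy : S.push p q₀ y ≠ q₀) :
    y ∈ (io S hF).target := by
  have h0 : S.nf y ≠ 0 := fun h0 => hy (S.push_K' p q₀ h0)
  have h1 : y ∈ S.iota.target := S.mem_iota_target.2 h0
  rw [S.push_of p q₀ h0] at hy
  have h2 : S.iota.symm y ∈ (io S hF).source := ⟨S.iota.map_target h1, hy⟩
  have h3 := (io S hF).map_source h2
  rw [io_apply, S.iota.right_inv h1] at h3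
  exact h3

theorem lC_io {hF : IsOpen {x | p x ≠ q₀}} : ∀ x ∈ (io S hF).source,
    LC C (Sur.fam H) (io S hF) x := fun x hx => Sur.lC_iota H (S.mem_iota_source.1 hx.1)

theorem push_io {hF : IsOpen {x | p x ≠ q₀}} : ∀ x ∈ (io S hF).source,
    S.push p q₀ (io S hF x) = p x := fun x hx => S.push_iota p q₀ (S.mem_iota_source.1 hx.1)

/-- the bad fibre of the new space -/
theorem mem_fibre {z : S.XP} (hz : S.push p q₀ z = q₀) :
    S.nf z = 0 ∨ (S.nf z ≠ 0 ∧ p (S.iota.symm z) = q₀) := by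
  by_cases h : S.nf z = 0
  · exact Or.inl h
  · rw [S.push_of p q₀ h] at hz
    exact Or.inr ⟨h, hz⟩

/-- **the data of 732** -/
def phi [Fintype κ] (hF : IsOpen {x | p x ≠ q₀}) :
    PhiData C (Sur.fam H) (S.push p q₀) q₀ (io S hF) J R mm k where
  κ := κ
  fin := inferInstance
  Φ := T.Φ
  W := T.W
  hW := T.isOpen_W
  sub := by
    intro z hz
    rcases mem_fibre hz with h | ⟨h, h'⟩
    · left
      show S.nf z < S.ε
      rw [h]; exact S.ε0
    · exact Or.inr ⟨S.mem_iota_target.2 h, T.fib _ h'⟩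
  gen := by
    intro z hz
    rcases mem_fibre hz with h | ⟨h, h'⟩
    · have h1 : S.nf z < S.ε := by rw [h]; exact S.ε0
      obtain ⟨c, hc⟩ := T.valB (S.ep z) (by rw [S.NB_ep h1]; exact h)
      exact ⟨c, T.val_on H h1 hc⟩
    · obtain ⟨c, hc⟩ := T.val _ h' (S.iota_symm_not_mem h)
      exact ⟨c, T.val_off H h hc⟩
  cmp := by
    intro x hx hxW
    have hxK : x ∉ S.K := S.mem_iota_source.1 hx.1
    have hxV : x ∈ T.V := by
      rcases hxW with h | h
      · refine T.near x ?_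
        rw [← S.nf_iota hxK]
        exact h
      · have h2 := h.2
        rw [mem_preimage, io_apply, S.iota.left_inv hx.1] at h2
        exact h2
    obtain ⟨a, b, ha, hb, hg⟩ := T.cmp x hxV hx.2
    refine ⟨a, b, ha, hb, genAt_congr hg ?_⟩
    filter_upwards [S.isClosed_K.isOpen_compl.mem_nhds hxK] with y hy j
    exact T.Φ_iota hy j
  ff := by
    refine ff_of_pieces (fun i : Fin 2 => if i = 0 then {z | S.nf z = 0} else {z | S.nf z ≠ 0})
      (fun z _ => ?_) (fun i q hq => ?_)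
    · by_cases h : S.nf z = 0
      · exact mem_iUnion.2 ⟨0, h⟩
      · exact mem_iUnion.2 ⟨1, h⟩
    · fin_cases i
      · -- the new centre
        have hq0 : S.nf q = 0 := hq.2
        have hq1 : S.nf q < S.ε := by rw [hq0]; exact S.ε0
        refine ((T.ffB (S.ep q) (by rw [mem_ofPred_eq, S.NB_ep hq1]; exact hq0)).image
          S.ep.symm).subset ?_
        rintro z ⟨hz, c, c', hc, hc', hcc⟩
        have hz0 : S.nf z = 0 := hz.2
        have hz1 : S.nf z < S.ε := by rw [hz0]; exact S.ε0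
        refine ⟨S.ep z, ⟨by rw [mem_ofPred_eq, S.NB_ep hz1]; exact hz0, c, c', ?_, ?_, hcc⟩,
          S.ep.left_inv (S.mem_ep_source.2 hz1)⟩
        · refine T.val_ep_symm H (by rw [S.NB_ep hq1]; exact hq1) ?_
          rw [S.ep.left_inv (S.mem_ep_source.2 hq1)]
          exact hc
        · refine T.val_ep_symm H (by rw [S.NB_ep hz1]; exact hz1) ?_
          rw [S.ep.left_inv (S.mem_ep_source.2 hz1)]
          exact hc'
      · -- off the new centre
        have hq0 : S.nf q ≠ 0 := hq.2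
        have hqf : p (S.iota.symm q) = q₀ := by
          have := hq.1
          rcases mem_fibre this with h | h
          · exact absurd h hq0
          · exact h.2
        refine ((T.ff (S.iota.symm q) ⟨hqf, S.iota_symm_not_mem hq0⟩).image S.iota).subset ?_
        rintro z ⟨hz, c, c', hc, hc', hcc⟩
        have hz0 : S.nf z ≠ 0 := hz.2
        have hzf : p (S.iota.symm z) = q₀ := by
          rcases mem_fibre hz.1 with h | h
          · exact absurd h hz0
          · exact h.2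
        refine ⟨S.iota.symm z, ⟨⟨hzf, S.iota_symm_not_mem hz0⟩, c, c', ?_, ?_, hcc⟩,
          S.iota.right_inv (S.mem_iota_target.2 hz0)⟩
        · refine T.val_iota H (S.iota_symm_not_mem hq0) ?_
          rw [S.iota.right_inv (S.mem_iota_target.2 hq0)]
          exact hc
        · refine T.val_iota H (S.iota_symm_not_mem hz0) ?_
          rw [S.iota.right_inv (S.mem_iota_target.2 hz0)]
          exact hc'

end Dat

end

end Crest.Agent.R272.PosP4_848
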