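import Crest.Agent.R272.PosP4_848
import Crest.Agent.R272.CB9_232

/-!
# R272 (S0415), POS at `p0` (helper848), part 5: the data from the cover `Y`

`X = Orb G Y` (`h : RA CY G`), `p = orbMap P`, `q₀ = pr z₀`.

* `YDat`        : functions `f j` on `Y` near `P⁻¹(z₀)`, with local statements on `Y`;
* `UpDat`       : functions on `B` (the new side), agreement on the collar;
* `YDat.dat`    : `PosP4_848.Dat`; `YDat.phi` : **732's `PhiData`**.
-/

set_option autoImplicit false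
set_option linter.unusedSectionVars false
set_option linter.unusedVariables false

open Set Filter Topology Complex

namespace Crest.Agent.R272.PosP5_848

open Crest.Agent.R275.Geo Crest.Agent.R273.Fam_835
open Crest.Agent.R272.Quot_783 Crest.Agent.R272.MQ_783 Crest.Agent.R272.CB_232
open Crest.Agent.R272.Refl_246
open Crest.Agent.R272.HFam_342 Crest.Agent.R272.Sur_342 Crest.Agent.R272.PEnd_732
open Crest.Agent.R272.Lc_220 Crest.Agent.R272.CB9_232 Crest.Agent.R272.PosP4_848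
open Crest.Agent.R272.FinCB3_876 (GenAt ValC ff_of_pieces)

noncomputable section

variable {n m : ℕ} {Y A B N κ : Type} [TopologicalSpace Y]
  [TopologicalSpace A] [TopologicalSpace B] [TopologicalSpace N]
  {CY : Fam n Y} {DA : Fam n A} {DB : Fam n B} {G : Type} [Group G] [MulAction G Y]
  [MulAction G N] [ContinuousConstSMul G Y] [Nonempty Y]

/-- the function on the orbit space given by a function on the part `O` of the cover -/
def dsc (O : Set Y) (f : κ → Y → ℂ) (j : κ) (x : Orb G Y) : ℂ :=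
  open Classical in
  if h : ∃ y ∈ O, pr G y = x then f j h.choose else 0

theorem dsc_pr {O : Set Y} {f : κ → Y → ℂ}
    (inv : ∀ y ∈ O, ∀ g : G, g • y ∈ O → ∀ j, f j (g • y) = f j y) {y : Y} (hy : y ∈ O) (j : κ) :
    dsc O f j (pr G y) = f j y := by
  have h : ∃ y' ∈ O, pr G y' = pr G y := ⟨y, hy, rfl⟩
  unfold dsc
  rw [dif_pos h]
  obtain ⟨g, hg⟩ := pr_eq_iff.1 h.choose_spec.2
  -- `hg : g • h.choose = y` or `g • y = h.choose`
  have h1 := h.choose_spec.1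
  rw [← inv _ h1 g (by rw [hg]; exact hy) j, hg]

/-- **the data on the cover** -/
structure YDat (CY : Fam n Y) (G : Type) [Group G] [MulAction G Y] [MulAction G N]
    [ContinuousConstSMul G Y] [Nonempty Y] (h : RA CY G) (P : Y → N) (z₀ : N)
    (K : Set (Orb G Y)) (κ : Type) (J R : Eqs h.fam univ) (mm k : ℕ) where
  f : κ → Y → ℂ
  O : Set Y
  hO : IsOpen O
  fib : ∀ y, P y = z₀ → y ∈ O
  inv : ∀ y ∈ O, ∀ g : G, g • y ∈ O → ∀ j, f j (g • y) = f j y
  hol : ∀ y ∈ O, ∀ j, HolN CY y (f j)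
  /-- generators of `J^mm R^k` off the bad fibre -/
  cmp : ∀ y ∈ O, P y ≠ z₀ → ∃ a b, pr G y ∈ J.V a ∧ pr G y ∈ R.V b ∧
    GenAt CY f (fun v => J.f a (pr G v) ^ mm * R.f b (pr G v) ^ k) y
  /-- value vectors on the bad fibre, off the old centre -/
  val : ∀ y, P y = z₀ → pr G y ∉ K → ∃ c, ValC CY f y c
  ff : FF CY f {y | P y = z₀ ∧ pr G y ∉ K}

/-- **the data on the new side** (independent of `Y`) -/
structure UpDat (DB : Fam n B) (NB : B → ℝ) (κ : Type) where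
  FB : κ → B → ℂ
  valB : ∀ b : B, NB b = 0 → ∃ c, ValC DB FB b c
  ffB : FF DB FB {b | NB b = 0}

namespace YDat

variable {h : RA CY G} {P : Y → N} {z₀ : N} {K : Set (Orb G Y)} {J R : Eqs h.fam univ} {mm k : ℕ}
  (T : YDat CY G h P z₀ K κ J R mm k)

/-- the descended functions -/
def F (j : κ) : Orb G Y → ℂ := dsc T.O T.f j

theorem F_pr {y : Y} (hy : y ∈ T.O) (j : κ) : T.F j (pr G y) = T.f j y := dsc_pr T.inv hy j

theorem ev_F {y : Y} (hy : y ∈ T.O) (j : κ) : ∀ᶠ v in 𝓝 y, T.F j (pr G v) = T.f j v := by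
  filter_upwards [T.hO.mem_nhds hy] with v hv using T.F_pr hv j

theorem holF_pr {y : Y} (hy : y ∈ T.O) (j : κ) : HolN CY y fun v => T.F j (pr G v) :=
  holN_congr (T.hol y hy j) (T.ev_F hy j)

theorem valC_iff' [Finite κ] {y : Y} (hy : y ∈ T.O) {c : κ → ℂ} :
    ValC h.fam T.F (pr G y) c ↔ ValC CY T.f y c := by
  rw [valC_pr_iff h (T.holF_pr hy)]
  constructor
  · intro hv
    exact hv.congr fun j => (T.ev_F hy j).mono fun v hv => hv.symm
  · intro hv
    exact hv.congr fun j => T.ev_F hy j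

/-- local equations pulled back to the cover -/
theorem hol_eq {E : Eqs h.fam univ} (hE : ∀ a, HolF h.fam (E.V a) (E.f a)) {a : E.α} {y : Y}
    (ha : pr G y ∈ E.V a) (k : ℕ) :
    HolN CY y (fun v => E.f a (pr G v) ^ k) ∧ NZ y (fun v => E.f a (pr G v) ^ k) := by
  have h1 : HolN h.fam (pr G y) (E.f a) := holN_of_holF (E.op a) (hE a) ha
  have h2 : NZ (pr G y) (E.f a) := nz_of_closure (E.dense a ha)
  have h3 : HolN CY y (fun v => E.f a (pr G v)) := (holN_pr_iff h).1 h1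
  exact ⟨h3.pow k, NZ.pow h3 (nz_pr.1 h2) k⟩

/-- **the data on the orbit space** -/
def dat [Finite κ] {N' : Type} {S : Sur (Orb G Y) A B} {p : Orb G Y → N'} {q₀ : N'}
    (T : YDat CY G h P z₀ S.K κ J R mm k) (U : UpDat DB S.NB κ)
    (hJ : ∀ a, HolF h.fam (J.V a) (J.f a)) (hR : ∀ a, HolF h.fam (R.V a) (R.f a))
    (hp : ∀ y, P y = z₀ → p (pr G y) = q₀) (hp' : ∀ x, p x = q₀ → ∃ y, P y = z₀ ∧ pr G y = x)
    (Kp : ∀ x ∈ S.K, p x = q₀) (near : ∀ x, S.nX x < S.ε → ∃ y ∈ T.O, pr G y = x)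
    (cp : ∀ j, ∀ y ∈ T.O, pr G y ∈ S.e.source → S.NA (S.e (pr G y)) ≠ 0 →
      S.NA (S.e (pr G y)) < S.ε → U.FB j (S.φ (S.e (pr G y))) = T.f j y) :
    Dat S h.fam DB p q₀ κ J R mm k where
  F := T.F
  FB := U.FB
  V := pr G '' T.O
  hV := isOpenQuotientMap_pr.isOpenMap _ T.hO
  fib x hx := by
    obtain ⟨y, hy, rfl⟩ := hp' x hx
    exact mem_image_of_mem _ (T.fib y hy)
  Kp := Kp
  near x hx := by
    obtain ⟨y, hy, rfl⟩ := near x hx
    exact mem_image_of_mem _ hy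
  cp j x hx h0 h1 := by
    have h2 : S.nX x < S.ε := (S.nX_lt_iff le_rfl).2 ⟨hx, h1⟩
    obtain ⟨y, hy, rfl⟩ := near x h2
    rw [cp j y hy hx h0 h1, T.F_pr hy]
  cmp := by
    rintro x ⟨y, hy, rfl⟩ hx
    obtain ⟨a, b, ha, hb, hg⟩ := T.cmp y hy fun h0 => hx (hp y h0)
    refine ⟨a, b, ha, hb, ?_⟩
    have hj := hol_eq hJ ha mm
    have hr := hol_eq hR hb k
    rw [genAt_pr_iff h (H := fun z => J.f a z ^ mm * R.f b z ^ k) (hj.1.mul hr.1)
      (NZ.mul hj.1 hr.1 hj.2 hr.2)]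
    exact hg.congr (fun j => T.ev_F hy j) (Eventually.of_forall fun _ => rfl)
  val x hx hK := by
    obtain ⟨y, hy, rfl⟩ := hp' x hx
    obtain ⟨c, hc⟩ := T.val y hy hK
    exact ⟨c, (T.valC_iff' (T.fib y hy)).2 hc⟩
  valB := U.valB
  ff := by
    rintro q ⟨hq, hqK⟩
    obtain ⟨y, hy, rfl⟩ := hp' q hq
    refine ((T.ff y ⟨hy, hqK⟩).image (pr G)).subset ?_
    rintro x ⟨⟨hx, hxK⟩, c, c', hc, hc', hcc⟩
    obtain ⟨v, hv, rfl⟩ := hp' x hx
    exact ⟨v, ⟨⟨hv, hxK⟩, c, c', (T.valC_iff' (T.fib y hy)).1 hc,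
      (T.valC_iff' (T.fib v hv)).1 hc', hcc⟩, rfl⟩
  ffB := U.ffB

end YDat

end

end Crest.Agent.R272.PosP5_848
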