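import Crest.Agent.R272.PosP7_848

/-!
# R272 (S0415), POS at `p0` (helper848), part 8: local statements on `YC`

* `lP_cf`, `cf_Pz`         : the coefficients;
* `YC.ec`                  : 977's `EC` in the chart `E i j`;
* `holN_M`, `YC.holN_*`    : holomorphy in the `m`-charts;
* `YC.hol`                 : all functions of the list are holomorphic on `O`.
-/

set_option autoImplicit false
set_option linter.unusedSectionVars false
set_option linter.unusedVariables false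

open Set Filter Topology Complex OnePoint

namespace Crest.Agent.R272.PosP7_848

open Crest.Agent.R275.Geo Crest.Agent.R273.Fam_835
open Crest.Agent.R272.Cur_297 (Par Cv cur tt kk fin tv yv sv vv Pz)
open Crest.Agent.R272.Tp2_60 (Amb Std)
open Crest.Agent.R272.Tq1_916 (pole dl nu fij fm Inf Dm swA)
open Crest.Agent.R272.Tq3_916 (FEij)
open Crest.Agent.R272.Tq4_916 (ib pinf)
open Crest.Agent.R272.PosP3_848
open Crest.Agent.R272.Kum_977 (cf ECpt EC ech_E ECh fh Fh rho)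
open Crest.Agent.R272.PW_92 (IPhi Phi XX)
open Crest.Agent.R272.K3E_227 (lP aP bP)
open Crest.Agent.R272.Lc_220
open Crest.Agent.R272.AJ_956 (Cur)

noncomputable section

/-! ### coefficients -/

theorem lP_cf (P : Par) : lP P = cf P := by
  funext k
  fin_cases k <;> simp [lP, aP, bP, cf, Kum_977.cfc] <;> ring

theorem Fh_coef (a : Fin 7 → ℂ) (h : ∀ t, fh a 1 t = t ^ 6 - t) (s r s' r' : ℂ) :
    Fh a s r s' r' = 2 * (r * r') ^ 3 - (s * s') ^ 2 * (r * s' + s * r') := by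
  have e0 : a 0 = 0 := by
    have := h 0
    unfold fh at this
    simpa using this
  -- values at 1, -1, 2, -2, 3, -3
  have h1 := h 1
  have h2 := h (-1)
  have h3 := h 2
  have h4 := h (-2)
  have h5 := h 3
  have h6 := h (-3)
  unfold fh at h1 h2 h3 h4 h5 h6
  rw [e0] at h1 h2 h3 h4 h5 h6
  have o1 : a 1 + a 3 + a 5 = -1 := by linear_combination (1 / 2) * h1 - (1 / 2) * h2
  have o2 : 2 * a 1 + 8 * a 3 + 32 * a 5 = -2 := by
    linear_combination (1 / 2) * h3 - (1 / 2) * h4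
  have o3 : 3 * a 1 + 27 * a 3 + 243 * a 5 = -3 := by
    linear_combination (1 / 2) * h5 - (1 / 2) * h6
  have p1 : a 2 + a 4 + a 6 = 1 := by linear_combination (1 / 2) * h1 + (1 / 2) * h2
  have p2 : 4 * a 2 + 16 * a 4 + 64 * a 6 = 64 := by
    linear_combination (1 / 2) * h3 + (1 / 2) * h4
  have p3 : 9 * a 2 + 81 * a 4 + 729 * a 6 = 729 := by
    linear_combination (1 / 2) * h5 + (1 / 2) * h6
  have e5 : a 5 = 0 := by linear_combination (1 / 120) * o3 - (1 / 30) * o2 + (1 / 24) * o1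
  have e3 : a 3 = 0 := by linear_combination (1 / 6) * o2 - (1 / 3) * o1 - 5 * e5
  have e1 : a 1 = -1 := by linear_combination o1 - e3 - e5
  have e6 : a 6 = 1 := by linear_combination (1 / 360) * p3 - (1 / 60) * p2 + (1 / 24) * p1
  have e4 : a 4 = 0 := by linear_combination (1 / 12) * p2 - (1 / 3) * p1 - 5 * e6
  have e2 : a 2 = 0 := by linear_combination p1 - e4 - e6
  unfold Fh
  rw [e0, e1, e2, e3, e4, e5, e6]
  ring

theorem Fh_Pz (s r s' r' : ℂ) :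
    Fh (cf Pz) s r s' r' = 2 * (r * r') ^ 3 - (s * s') ^ 2 * (r * s' + s * r') :=
  Fh_coef _ (fun t => by rw [Kum_977.fh_cf_one, Cur_297.Pz_p0]) s r s' r'

/-- the two definitions of the third frame coordinate -/
theorem eta_eq {P : Par} {i : Fin 2} {c : Cv P} (h : tt c ≠ pole i) :
    PosP3_848.eta i c = Kum_977.eta i c := by
  fin_cases i
  · exact PosP3_848.eta_zero h
  · exact PosP3_848.eta_one c

variable {Y N : Type} [TopologicalSpace Y]

/-! ### polynomials -/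

theorem holN_XX {CY : Fam 3 Y} {y : Y} {x0 E p : Y → ℂ} (h0 : HolN CY y x0) (hE : HolN CY y E)
    (hp : HolN CY y p) (j : Fin 3) : HolN CY y fun v => XX (x0 v) (E v) (p v) j := by
  fin_cases j
  · exact h0.pow 2
  · exact h0.mul hE
  · exact hp

theorem holN_Phi {CY : Fam 3 Y} {y : Y} {x0 E p S : Y → ℂ} (h0 : HolN CY y x0)
    (hE : HolN CY y E) (hp : HolN CY y p) (hS : HolN CY y S) (b : ℕ) (i : IPhi) :
    HolN CY y fun v => Phi b (x0 v) (E v) (p v) (S v) i := by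
  have hD : HolN CY y fun v => E v ^ 2 - 4 * p v := (hE.pow 2).sub ((holN_const 4).mul hp)
  have hX := holN_XX h0 hE hp
  cases i with
  | l j => exact ((hD.pow 4).mul (h0.pow _)).mul (hX j)
  | W => exact ((hD.pow 3).mul hS).mul (h0.pow _)
  | W2 => exact ((hD.pow 2).mul (hS.pow 2)).mul (h0.pow _)
  | W3 j => exact ((hD.mul (hS.pow 3)).mul (h0.pow _)).mul (hX j)
  | W4 j k => exact (((hS.pow 4).mul (h0.pow _)).mul (hX j)).mul (hX k)
  | v => exact (hD.pow 4).mul (hp.pow _)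
  | last => exact (hS.pow 4).mul (hp.pow _)

/-! ### `m`-charts: functions -/

section mchart

variable {CY : Fam 3 Y} {E : OpenPartialHomeomorph (ℂ × ℂ × ℂ) Y}

theorem holN_M (hE : MCpt CY E) {q : ℂ × ℂ × ℂ} (hq : q ∈ E.source) {f : ℂ × ℂ × ℂ → ℂ}
    (hf : AnalyticAt ℂ (fun w : Cn 3 => f (w 0, w 1, w 2)) (mc q)) :
    HolN CY (E q) fun y => f (E.symm y) := by
  have hmem : E q ∈ (E.symm.transHomeomorph mc.toHomeomorph).source := E.map_source hq
  rw [LcR_783.holN_iff_cpt hE hmem]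
  have hval : (E.symm.transHomeomorph mc.toHomeomorph) (E q) = mc q := by
    show mc (E.symm (E q)) = mc q
    rw [E.left_inv hq]
  rw [hval]
  refine hf.congr ?_
  have hcont : ContinuousAt (fun w : Cn 3 => mc.symm w) (mc q) := mc.symm.continuous.continuousAt
  have h0 : mc.symm (mc q) = q := mc.symm_apply_apply q
  have hev : ∀ᶠ w in 𝓝 (mc q), mc.symm w ∈ E.source := by
    refine hcont.preimage_mem_nhds (E.open_source.mem_nhds ?_)
    show mc.symm (mc q) ∈ E.source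
    rw [h0]; exact hq
  filter_upwards [hev] with w hw
  show f (w 0, w 1, w 2) = f (E.symm (E (mc.symm w)))
  rw [E.left_inv hw]
  rfl

theorem an0 (w : Cn 3) (i : Fin 3) : AnalyticAt ℂ (fun w : Cn 3 => w i) w :=
  Kum_977.analyticAt_coord i w

theorem holN_m0 (hE : MCpt CY E) {q : ℂ × ℂ × ℂ} (hq : q ∈ E.source) :
    HolN CY (E q) fun y => (E.symm y).1 := holN_M hE hq (f := fun q => q.1) (an0 _ 0)

theorem holN_m1 (hE : MCpt CY E) {q : ℂ × ℂ × ℂ} (hq : q ∈ E.source) :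
    HolN CY (E q) fun y => (E.symm y).2.1 := holN_M hE hq (f := fun q => q.2.1) (an0 _ 1)

theorem holN_m2 (hE : MCpt CY E) {q : ℂ × ℂ × ℂ} (hq : q ∈ E.source) :
    HolN CY (E q) fun y => (E.symm y).2.2 := holN_M hE hq (f := fun q => q.2.2) (an0 _ 2)

/-- a function of `m s'` resp. `m s` -/
theorem holN_ms' (hE : MCpt CY E) {q : ℂ × ℂ × ℂ} (hq : q ∈ E.source) {g : ℂ → ℂ}
    (hg : AnalyticAt ℂ g (q.1 * q.2.2)) :
    HolN CY (E q) fun y => g ((E.symm y).1 * (E.symm y).2.2) := by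
  refine holN_M hE hq (f := fun q => g (q.1 * q.2.2)) ?_
  exact AnalyticAt.fun_comp (g := g) (f := fun w : Cn 3 => w 0 * w 2) hg
    ((an0 _ 0).mul (an0 _ 2))

theorem holN_ms (hE : MCpt CY E) {q : ℂ × ℂ × ℂ} (hq : q ∈ E.source) {g : ℂ → ℂ}
    (hg : AnalyticAt ℂ g (q.1 * q.2.1)) :
    HolN CY (E q) fun y => g ((E.symm y).1 * (E.symm y).2.1) := by
  refine holN_M hE hq (f := fun q => g (q.1 * q.2.1)) ?_
  exact AnalyticAt.fun_comp (g := g) (f := fun w : Cn 3 => w 0 * w 1) hg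
    ((an0 _ 0).mul (an0 _ 1))

theorem nz_M {q : ℂ × ℂ × ℂ} (hq : q ∈ E.source) {f : ℂ × ℂ × ℂ → ℂ}
    (hf : ∃ᶠ p in 𝓝 q, f p ≠ 0) : NZ (E q) fun y => f (E.symm y) := by
  intro h
  have h1 : ∀ᶠ p in 𝓝 q, f (E.symm (E p)) = 0 := (E.continuousAt hq).eventually h
  have h2 : ∀ᶠ p in 𝓝 q, f p = 0 := by
    filter_upwards [h1, E.open_source.mem_nhds hq] with p h3 h4
    rwa [E.left_inv h4] at h3
  exact hf (h2.mono fun p hp hp2 => hp2 hp)

theorem freq_1 (q : ℂ × ℂ × ℂ) : ∃ᶠ p in 𝓝 q, p.2.1 ≠ (0 : ℂ) := by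
  have h2 : Tendsto (fun z : ℂ => (q.1, z, q.2.2)) (𝓝 q.2.1) (𝓝 q) :=
    (continuous_const.prodMk (continuous_id.prodMk continuous_const)).tendsto' _ _ rfl
  exact h2.frequently (Kum_977.freq_ne q.2.1)

theorem freq_2 (q : ℂ × ℂ × ℂ) : ∃ᶠ p in 𝓝 q, p.2.2 ≠ (0 : ℂ) := by
  have h2 : Tendsto (fun z : ℂ => (q.1, q.2.1, z)) (𝓝 q.2.2) (𝓝 q) :=
    (continuous_const.prodMk (continuous_const.prodMk continuous_id)).tendsto' _ _ rfl
  exact h2.frequently (Kum_977.freq_ne q.2.2)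

theorem freq_12 (q : ℂ × ℂ × ℂ) : ∃ᶠ p in 𝓝 q, p.2.1 - p.2.2 ≠ (0 : ℂ) := by
  have h2 : Tendsto (fun z : ℂ => (q.1, q.2.2 + z, q.2.2)) (𝓝 (q.2.1 - q.2.2)) (𝓝 q) :=
    (continuous_const.prodMk ((continuous_const.add continuous_id).prodMk
      continuous_const)).tendsto' _ _ (by simp)
  refine h2.frequently ((Kum_977.freq_ne (q.2.1 - q.2.2)).mono fun z hz => ?_)
  simpa using hz

end mchart

namespace YC

variable {P : Par} {CY : Fam 3 Y} {Pm : Y → N} {z₀ : N} {O : Set Y} (T : YC P CY Pm z₀ O)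

/-! ### `E`-charts -/

section echart

variable {i j : Fin 2} {p : (Cv P × Cv P) × ℂ} (hp : p ∈ (T.E i j).source)

include hp

theorem stE : (T.st (T.E i j p)).1.1 = p.2 * (dl i (tt p.1.1) * dl j (tt p.1.2)) ∧
    (T.st (T.E i j p)).1.2.1 = p.2 * (nu i (tt p.1.1) * dl j (tt p.1.2)) ∧
    (T.st (T.E i j p)).1.2.2 = p.2 * (dl i (tt p.1.1) * nu j (tt p.1.2)) ∧
    (T.st (T.E i j p)).2.1 = p.1.1 ∧ (T.st (T.E i j p)).2.2.1 = p.1.2 := by
  rw [T.sE i j p hp]
  refine ⟨?_, ?_, ?_, rfl, rfl⟩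
  · show p.2 * dl i (tt p.1.1) * dl j (tt p.1.2) = _
    ring
  · show p.2 * nu i (tt p.1.1) * dl j (tt p.1.2) = _
    ring
  · show p.2 * dl i (tt p.1.1) * nu j (tt p.1.2) = _
    ring

/-- **977's chart data** -/
theorem ec : EC CY (T.E i j) i j p T.x0 T.ee T.pp T.ss := by
  obtain ⟨h1, h2⟩ := T.hE i j p hp
  have hs : ∀ᶠ q in 𝓝 p, q ∈ (T.E i j).source := (T.E i j).open_source.mem_nhds hp
  refine ech_E (T.cE i j) hp h1 h2 (x1 := T.x1) (x2 := T.x2)
    (Y1 := fun y => YY (T.x0 y) (T.x1 y) (T.st y).2.1)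
    (Y2 := fun y => YY (T.x0 y) (T.x2 y) (T.st y).2.2.1)
    (hs.mono fun q hq => (T.stE hq).1) (hs.mono fun q hq => (T.stE hq).2.1)
    (hs.mono fun q hq => (T.stE hq).2.2.1) (hs.mono fun q hq => ?_) (hs.mono fun q hq => ?_)
    (Eventually.of_forall fun _ => rfl) (Eventually.of_forall fun _ => rfl)
    (Eventually.of_forall fun y => ?_)
  · obtain ⟨e0, e1, e2, e3, e4⟩ := T.stE hq
    show YY (T.st (T.E i j q)).1.1 (T.st (T.E i j q)).1.2.1 (T.st (T.E i j q)).2.1 = _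
    rw [e0, e1, e3, ← eta_eq (T.hE i j q hq).1]
    have := YY_smul (q.2 * dl j (tt q.1.2)) (dl i (tt q.1.1)) (nu i (tt q.1.1)) q.1.1
    unfold PosP3_848.eta
    rw [show fs i q.1.1 = dl i (tt q.1.1) from rfl, show fr i q.1.1 = nu i (tt q.1.1) from rfl,
      ← this]
    congr 1 <;> ring
  · obtain ⟨e0, e1, e2, e3, e4⟩ := T.stE hq
    show YY (T.st (T.E i j q)).1.1 (T.st (T.E i j q)).1.2.2 (T.st (T.E i j q)).2.2.1 = _
    rw [e0, e2, e4, ← eta_eq (T.hE i j q hq).2]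
    have := YY_smul (q.2 * dl i (tt q.1.1)) (dl j (tt q.1.2)) (nu j (tt q.1.2)) q.1.2
    unfold PosP3_848.eta
    rw [show fs j q.1.2 = dl j (tt q.1.2) from rfl, show fr j q.1.2 = nu j (tt q.1.2) from rfl,
      ← this]
    congr 1 <;> ring
  · show Sf (T.st y) = _
    unfold Sf
    rw [lP_cf]
    rfl

theorem holE : HolN CY (T.E i j p) T.x0 ∧ HolN CY (T.E i j p) T.ee ∧ HolN CY (T.E i j p) T.pp ∧
    HolN CY (T.E i j p) T.ss := by
  have h := T.ec hp
  have hF := ECh.F h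
  have hF' := ECh.F' h
  have hx := ECh.hξ h
  refine ⟨?_, ?_, ?_, ?_⟩
  · exact holN_congr (hx.mul (hF.hs.mul hF'.hs)) (ECh.e0 h)
  · exact holN_congr (hx.mul ((hF.hr.mul hF'.hs).add (hF.hs.mul hF'.hr))) (ECh.e1 h)
  · exact holN_congr ((hx.pow 2).mul ((hF.hs.mul hF'.hs).mul (hF.hr.mul hF'.hr))) (ECh.e2 h)
  · exact holN_congr (((hx.pow 6).mul ((hF.hs.mul hF'.hs).pow 3)).mul (hF.holN_rho hF'))
      (ECh.eN h)

end echart

/-! ### `m`-charts -/

section mch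

variable {b b' : Bool} {q : ℂ × ℂ × ℂ} (hq : q ∈ (T.M b b').source)

/-- the third frame coordinate of the first point in the `m`-chart -/
def e1 (b b' : Bool) (y : Y) : ℂ :=
  vv ((ib P b).e.symm (((T.M b b').symm y).1 * ((T.M b b').symm y).2.2))
def e2 (b b' : Bool) (y : Y) : ℂ :=
  vv ((ib P b').e.symm (((T.M b b').symm y).1 * ((T.M b b').symm y).2.1))

/-- `vv` in the chart at infinity -/
theorem an_vv (b : Bool) {s : ℂ} (hs : ‖s‖ < (ib P b).r) :
    AnalyticAt ℂ (fun z => vv ((ib P b).e.symm z)) s := by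
  have h1 : s ∈ (Cur_297.k (pinf P b)).target := by
    have := (ib P b).tgt
    rw [show (ib P b).e = Cur_297.k (pinf P b) from rfl] at this
    rw [this]
    simpa using hs
  have h2 : tt ((Cur_297.k (pinf P b)).symm s) ≠ ((0 : ℂ) : Cur_297.P1) :=
    (ib P b).ne _ ((ib P b).mem hs)
  exact (Cur_297.R1 (pinf P b) h1 h2).g_an

theorem vv_sq' (b : Bool) {s : ℂ} (hs : ‖s‖ < (ib P b).r) :
    vv ((ib P b).e.symm s) ^ 2 = fh (cf P) s 1 := by
  have h1 := (ib P b).ne _ ((ib P b).mem hs)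
  have h2 : sv ((ib P b).e.symm s) = s := by
    rw [← PosP3_848.fs_one]; exact (ib P b).iv_symm hs
  have h3 := Cur_297.vv_sq h1
  rw [h3, h2, ← Kum_977.fh_cf_inf]

include hq

theorem holN_e1 : HolN CY (T.M b b' q) (T.e1 b b') :=
  holN_ms' (T.cM b b') hq (g := fun z => vv ((ib P b).e.symm z)) (an_vv b (T.hM b b' q hq).1)

theorem holN_e2 : HolN CY (T.M b b' q) (T.e2 b b') :=
  holN_ms (T.cM b b') hq (g := fun z => vv ((ib P b').e.symm z)) (an_vv b' (T.hM b b' q hq).2)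

theorem ev_M {Q : Y → (ℂ × ℂ × ℂ) → Prop}
    (h : ∀ p ∈ (T.M b b').source, Q (T.M b b' p) p) :
    ∀ᶠ y in 𝓝 (T.M b b' q), Q y ((T.M b b').symm y) := by
  filter_upwards [(T.M b b').open_target.mem_nhds ((T.M b b').map_source hq)] with y hy
  have := h _ ((T.M b b').map_target hy)
  rwa [(T.M b b').right_inv hy] at this

theorem stM : T.x0 (T.M b b' q) = q.1 * (q.2.1 * q.2.2) ∧ T.x1 (T.M b b' q) = q.2.1 ∧
    T.x2 (T.M b b' q) = q.2.2 ∧
    T.ss (T.M b b' q) = (q.2.1 * q.2.2) ^ 3 * rho (cf P) (q.1 * q.2.2) 1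
      (vv ((ib P b).e.symm (q.1 * q.2.2))) (q.1 * q.2.1) 1 (vv ((ib P b').e.symm (q.1 * q.2.1)))
      := by
  have hD := T.hM b b' q hq
  unfold x0 x1 x2 ss
  rw [T.sM b b' q hq]
  refine ⟨?_, rfl, rfl, ?_⟩
  · show q.1 * q.2.1 * q.2.2 = _
    ring
  · have := Sf_fm (P := P) (ib P b) (ib P b') q.1 q.2.1 q.2.2
    rw [show ((q.1, q.2.1, q.2.2) : ℂ × ℂ × ℂ) = q from rfl] at this
    rw [this]
    unfold rm
    rw [lP_cf, YY_chart (ib P b) hD.1, YY_chart (ib P b') hD.2]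

theorem holN_x1 : HolN CY (T.M b b' q) T.x1 :=
  holN_congr (holN_m1 (T.cM b b') hq)
    (T.ev_M hq (Q := fun y p => T.x1 y = p.2.1) fun p hp => (T.stM hp).2.1)

theorem holN_x2 : HolN CY (T.M b b' q) T.x2 :=
  holN_congr (holN_m2 (T.cM b b') hq)
    (T.ev_M hq (Q := fun y p => T.x2 y = p.2.2) fun p hp => (T.stM hp).2.2.1)

theorem fr1 : Kum_977.Fr CY (cf P) (T.M b b' q)
    (fun y => ((T.M b b').symm y).1 * ((T.M b b').symm y).2.2) (fun _ => 1) (T.e1 b b') where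
  hs := (holN_m0 (T.cM b b') hq).mul (holN_m2 (T.cM b b') hq)
  hr := holN_const 1
  he := T.holN_e1 hq
  eq := T.ev_M hq (Q := fun y p => vv ((ib P b).e.symm (((T.M b b').symm y).1 *
    ((T.M b b').symm y).2.2)) ^ 2 = fh (cf P) (((T.M b b').symm y).1 *
    ((T.M b b').symm y).2.2) 1) fun p hp => by
      rw [(T.M b b').left_inv hp]
      exact vv_sq' b (T.hM b b' p hp).1
  ne := Or.inr one_ne_zero

theorem fr2 : Kum_977.Fr CY (cf P) (T.M b b' q)
    (fun y => ((T.M b b').symm y).1 * ((T.M b b').symm y).2.1) (fun _ => 1) (T.e2 b b') where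
  hs := (holN_m0 (T.cM b b') hq).mul (holN_m1 (T.cM b b') hq)
  hr := holN_const 1
  he := T.holN_e2 hq
  eq := T.ev_M hq (Q := fun y p => vv ((ib P b').e.symm (((T.M b b').symm y).1 *
    ((T.M b b').symm y).2.1)) ^ 2 = fh (cf P) (((T.M b b').symm y).1 *
    ((T.M b b').symm y).2.1) 1) fun p hp => by
      rw [(T.M b b').left_inv hp]
      exact vv_sq' b' (T.hM b b' p hp).2
  ne := Or.inr one_ne_zero

theorem holM : HolN CY (T.M b b' q) T.x0 ∧ HolN CY (T.M b b' q) T.ee ∧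
    HolN CY (T.M b b' q) T.pp ∧ HolN CY (T.M b b' q) T.ss := by
  have h0 := holN_m0 (T.cM b b') hq
  have h1 := holN_m1 (T.cM b b') hq
  have h2 := holN_m2 (T.cM b b') hq
  refine ⟨?_, (T.holN_x1 hq).add (T.holN_x2 hq), (T.holN_x1 hq).mul (T.holN_x2 hq), ?_⟩
  · exact holN_congr (h0.mul (h1.mul h2))
      (T.ev_M hq (Q := fun y p => T.x0 y = p.1 * (p.2.1 * p.2.2)) fun p hp => (T.stM hp).1)
  · refine holN_congr (((h1.mul h2).pow 3).mul ((T.fr1 hq).holN_rho (T.fr2 hq))) ?_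
    refine T.ev_M hq (Q := fun y p => T.ss y = (p.2.1 * p.2.2) ^ 3 * rho (cf P) (p.1 * p.2.2) 1
      (vv ((ib P b).e.symm (p.1 * p.2.2))) (p.1 * p.2.1) 1
      (vv ((ib P b').e.symm (p.1 * p.2.1)))) fun p hp => (T.stM hp).2.2.2

end mch

/-! ### holomorphy on `O` -/

theorem cov {y : Y} (hy : y ∈ O) : (∃ i j p, p ∈ (T.E i j).source ∧ T.E i j p = y) ∨
    ∃ b b' q, q ∈ (T.M b b').source ∧ T.M b b' q = y := by
  by_cases h : Pm y = z₀
  · rcases (T.fib y h).2 with ⟨i, j, x, h1, h2⟩ | ⟨b, b', m, h1, h2⟩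
    · exact Or.inl ⟨i, j, _, h1, h2⟩
    · exact Or.inr ⟨b, b', _, h1, h2⟩
  · rcases T.off y hy h with ⟨i, j, p, h1, h2, -⟩ | ⟨b, b', q, h1, h2, -⟩
    · exact Or.inl ⟨i, j, p, h1, h2⟩
    · exact Or.inr ⟨b, b', q, h1, h2⟩

/-- **all functions of the list are holomorphic on `O`** -/
theorem hol {y : Y} (hy : y ∈ O) (b : ℕ) (i : IPhi) : HolN CY y (T.ff b i) := by
  rcases T.cov hy with ⟨i', j, p, h1, rfl⟩ | ⟨b', b'', q, h1, rfl⟩
  · obtain ⟨a1, a2, a3, a4⟩ := T.holE h1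
    exact holN_Phi a1 a2 a3 a4 b i
  · obtain ⟨a1, a2, a3, a4⟩ := T.holM h1
    exact holN_Phi a1 a2 a3 a4 b i

end YC

end

end Crest.Agent.R272.PosP7_848
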