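import Crest.Agent.R272.PosP8_848

/-!
# R272 (S0415), POS at `p0` (helper848), part 9: values and finite fibres on the bad fibre

* `YC.lineAt`   : 898's `LineAt` at the points of the lines;
* `YC.val`      : `ValC` at every point of the bad fibre off `Γ`;
* `YC.fin`      : the finite fibre condition.
-/

set_option autoImplicit false
set_option linter.unusedSectionVars false
set_option linter.unusedVariables false

open Set Filter Topology Complex OnePoint

namespace Crest.Agent.R272.PosP7_848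

open Crest.Agent.R275.Geo Crest.Agent.R273.Fam_835
open Crest.Agent.R272.Cur_297 (Par Cv cur tt kk fin tv yv sv vv Pz iv)
open Crest.Agent.R272.Tp2_60 (Amb Std)
open Crest.Agent.R272.Tq1_916 (pole dl nu fij fm Inf Dm swA)
open Crest.Agent.R272.Tq3_916 (FEij)
open Crest.Agent.R272.Tq4_916 (ib pinf)
open Crest.Agent.R272.PosP3_848
open Crest.Agent.R272.Kum_977 (cf ECpt EC ECh fh Fh rho Kv GK SK q3 kum_val0 SK_q3 q3_fin)
open Crest.Agent.R272.PW_92 (IPhi Phi XX)
open Crest.Agent.R272.PosL_898 (LineAt R1 R2 R1_fin R2_fin)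
open Crest.Agent.R272.Lc_220
open Crest.Agent.R272.FinCB3_876 (GenAt ValC ff_of_pieces ff_of_param)
open Crest.Agent.R272.AJ_956 (Cur)

noncomputable section

variable {Y N : Type} [TopologicalSpace Y]

theorem symm_ib (P : Par) (b : Bool) : (ib P b).e.symm 0 = pinf P b := Cur_297.symm_zero _

theorem vv_pinf_sq (b : Bool) : vv (pinf Pz b) ^ 2 = 1 := by
  have h := YC.vv_sq' (P := Pz) b (s := 0) (by simpa using (ib Pz b).r_pos)
  rw [symm_ib, Kum_977.fh_cf_inf, Cur_297.Pz_p1] at h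
  rw [h]
  norm_num

theorem vv_pinf {b b' : Bool} (h : b ≠ b') : vv (pinf Pz b) = - vv (pinf Pz b') := by
  have h1 := vv_pinf_sq b
  have h2 := vv_pinf_sq b'
  have h3 : (vv (pinf Pz b) - vv (pinf Pz b')) * (vv (pinf Pz b) + vv (pinf Pz b')) = 0 := by
    linear_combination h1 - h2
  rcases mul_eq_zero.1 h3 with h4 | h4
  · exfalso
    have h5 : pinf Pz b = pinf Pz b' := by
      refine Cur_297.ext1 ?_ rfl (sub_eq_zero.1 h4)
      rw [Tq4_916.tt_pinf]
      exact OnePoint.infty_ne_coe _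
    have h6 := Tq4_916.pinf_ne (P := Pz)
    cases b <;> cases b'
    · exact h rfl
    · exact h6 h5.symm
    · exact h6 h5
    · exact h rfl
  · linear_combination h4

namespace YC

variable {CY : Fam 3 Y} {Pm : Y → N} {z₀ : N} {O : Set Y}

section line

variable (T : YC Pz CY Pm z₀ O) {b b' : Bool} {q : ℂ × ℂ × ℂ} (hq : q ∈ (T.M b b').source)

include hq

theorem nz_x1 : NZ (T.M b b' q) T.x1 :=
  (nz_M hq (f := fun q => q.2.1) (freq_1 q)).congr
    (T.ev_M hq (Q := fun y p => T.x1 y = p.2.1) fun p hp => (T.stM hp).2.1)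

theorem nz_x2 : NZ (T.M b b' q) T.x2 :=
  (nz_M hq (f := fun q => q.2.2) (freq_2 q)).congr
    (T.ev_M hq (Q := fun y p => T.x2 y = p.2.2) fun p hp => (T.stM hp).2.2.1)

theorem nz_x12 : NZ (T.M b b' q) fun w => T.x1 w - T.x2 w :=
  (nz_M hq (f := fun q => q.2.1 - q.2.2) (freq_12 q)).congr
    (T.ev_M hq (Q := fun y p => T.x1 y - T.x2 y = p.2.1 - p.2.2) fun p hp => by
      rw [(T.stM hp).2.1, (T.stM hp).2.2.1])

/-- 898's data at a point of a line -/
theorem lineAt (h1 : q.2.1 = 0) (h2 : q.2.2 = 0) :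
    LineAt CY (T.M b b' q) T.x0 T.ee T.pp T.ss (fun y => ((T.M b b').symm y).1) T.x1 T.x2
      (T.e1 b b') (T.e2 b b') where
  hm := holN_m0 (T.cM b b') hq
  h1 := T.holN_x1 hq
  h2 := T.holN_x2 hq
  z1 := by rw [(T.stM hq).2.1, h1]
  z2 := by rw [(T.stM hq).2.2.1, h2]
  n1 := T.nz_x1 hq
  n2 := T.nz_x2 hq
  nd := T.nz_x12 hq
  e0 := T.ev_M hq (Q := fun y p => T.x0 y = p.1 * (T.x1 y * T.x2 y)) fun p hp => by
    rw [(T.stM hp).1, (T.stM hp).2.1, (T.stM hp).2.2.1]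
  eE := Eventually.of_forall fun _ => rfl
  ep := Eventually.of_forall fun _ => rfl
  eS := T.ev_M hq (Q := fun y p => T.ss y = 2 * T.pp y ^ 3 - T.x0 y ^ 5 * T.ee y -
      2 * ((T.x1 y ^ 3 * T.e1 b b' y) * (T.x2 y ^ 3 * T.e2 b b' y))) fun p hp => by
    obtain ⟨a0, a1, a2, a3⟩ := T.stM hp
    rw [a3]
    unfold ee pp e1 e2
    rw [(T.M b b').left_inv hp, a0, a1, a2]
    unfold rho
    rw [Fh_Pz]
    ring
  c1 := (T.holN_e1 hq).continuousAt
  c2 := (T.holN_e2 hq).continuousAt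
  q1 := T.ev_M hq (Q := fun y p => vv ((ib Pz b).e.symm (((T.M b b').symm y).1 *
      ((T.M b b').symm y).2.2)) ^ 2 = 1 - (((T.M b b').symm y).1 * T.x2 y) ^ 5) fun p hp => by
    rw [(T.M b b').left_inv hp, (T.stM hp).2.2.1, vv_sq' b (T.hM b b' p hp).1,
      Kum_977.fh_cf_inf, Cur_297.Pz_p1]
  q2 := T.ev_M hq (Q := fun y p => vv ((ib Pz b').e.symm (((T.M b b').symm y).1 *
      ((T.M b b').symm y).2.1)) ^ 2 = 1 - (((T.M b b').symm y).1 * T.x1 y) ^ 5) fun p hp => by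
    rw [(T.M b b').left_inv hp, (T.stM hp).2.1, vv_sq' b' (T.hM b b' p hp).2,
      Kum_977.fh_cf_inf, Cur_297.Pz_p1]

end line

/-- the value vector on a line -/
def RM (n : ℕ) (b b' : Bool) (m : ℂ) : IPhi → ℂ := if b = b' then R1 n m else R2 n m

theorem RM_fin {n : ℕ} (hn : 15 ≤ n) (b b' : Bool) (t : ℂ) :
    {s : ℂ | ∀ i j, RM n b b' t i * RM n b b' s j = RM n b b' t j * RM n b b' s i}.Finite := by
  unfold RM
  by_cases h : b = b'
  · simp only [h, if_true]
    exact R1_fin hn t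
  · simp only [h, if_false]
    exact R2_fin hn t

variable (T : YC Pz CY Pm z₀ O) {n : ℕ} (hn : 15 ≤ n)

include hn

/-- values on the lines -/
theorem valM {b b' : Bool} {m : ℂ} (hq : (m, (0 : ℂ), (0 : ℂ)) ∈ (T.M b b').source) :
    ValC CY (T.ff n) (T.M b b' (m, 0, 0)) (RM n b b' m) := by
  have L := T.lineAt hq rfl rfl
  have hm : ((T.M b b').symm (T.M b b' (m, 0, 0))).1 = m := by rw [(T.M b b').left_inv hq]
  have e1 : T.e1 b b' (T.M b b' (m, 0, 0)) = vv (pinf Pz b) := by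
    unfold e1
    rw [(T.M b b').left_inv hq]
    show vv ((ib Pz b).e.symm (m * 0)) = _
    rw [mul_zero, symm_ib]
  have e2 : T.e2 b b' (T.M b b' (m, 0, 0)) = vv (pinf Pz b') := by
    unfold e2
    rw [(T.M b b').left_inv hq]
    show vv ((ib Pz b').e.symm (m * 0)) = _
    rw [mul_zero, symm_ib]
  unfold RM
  by_cases h : b = b'
  · rw [if_pos h]
    have h1 := (LineAt.line_eq L hn (by rw [e1, e2, h])).2
    simp only [hm] at h1
    exact h1
  · rw [if_neg h]
    have h1 := (LineAt.line_opp L hn (by rw [e1, e2]; exact vv_pinf h)).2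
    simp only [hm] at h1
    exact h1

/-- values on the zero section, off `Γ` -/
theorem valE {i j : Fin 2} {x : Cv Pz × Cv Pz} (hp : (x, (0 : ℂ)) ∈ (T.E i j).source)
    (hx : x.2 ≠ iv x.1) : ValC CY (T.ff n) (T.E i j (x, 0)) (Kv (GK i j x) (SK i j x)) :=
  kum_val0 hn hp (T.hE i j _ hp).1 (T.hE i j _ hp).2 hx (T.ec hp)

variable {B : Set Y} (hB : ∀ y ∈ B, Pm y = z₀)
  (hK : ∀ i j x, (x, (0 : ℂ)) ∈ (T.E i j).source → T.E i j (x, 0) ∈ B → x.2 ≠ iv x.1)

include hB hK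

/-- **values on the bad fibre** -/
theorem val {y : Y} (hy : y ∈ B) : ∃ c, ValC CY (T.ff n) y c := by
  rcases (T.fib y (hB y hy)).2 with ⟨i, j, x, h1, rfl⟩ | ⟨b, b', m, h1, rfl⟩
  · exact ⟨_, T.valE hn h1 (hK i j x h1 hy)⟩
  · exact ⟨_, T.valM hn h1⟩

/-- **finite fibres on the bad fibre** -/
theorem fin : PosP4_848.FF CY (T.ff n) B := by
  intro q hq
  refine ff_of_pieces (K := B) (ι := (Fin 2 × Fin 2) ⊕ (Bool × Bool))
    (Sum.elim (fun c => {y | ∃ x, (x, (0 : ℂ)) ∈ (T.E c.1 c.2).source ∧ T.E c.1 c.2 (x, 0) = y})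
      (fun c => {y | ∃ m, (m, (0 : ℂ), (0 : ℂ)) ∈ (T.M c.1 c.2).source ∧
        T.M c.1 c.2 (m, 0, 0) = y})) (fun y hy => ?_) (fun c => ?_) q hq
  · rcases (T.fib y (hB y hy)).2 with ⟨i, j, x, h1, h2⟩ | ⟨b, b', m, h1, h2⟩
    · exact mem_iUnion.2 ⟨Sum.inl (i, j), x, h1, h2⟩
    · exact mem_iUnion.2 ⟨Sum.inr (b, b'), m, h1, h2⟩
  · rcases c with ⟨i, j⟩ | ⟨b, b'⟩
    · refine ff_of_param (T := {x : Cv Pz × Cv Pz // (x, (0 : ℂ)) ∈ (T.E i j).source})
        (fun x => T.E i j (x.1, 0)) (fun y hy => ?_)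
        (fun x => Kv (GK i j x.1) (SK i j x.1)) (fun x hx => ?_) (fun x hx => ?_)
      · obtain ⟨x, h1, h2⟩ := hy.2
        exact ⟨⟨x, h1⟩, h2⟩
      · exact T.valE hn x.2 (hK i j x.1 x.2 hx.1)
      · refine ((q3_fin x.1).preimage Subtype.val_injective.injOn).subset ?_
        rintro s ⟨hs, hss⟩
        obtain ⟨g, hg, e⟩ := SK_q3 (T.hE i j _ s.2).1 (T.hE i j _ s.2).2
        obtain ⟨g', hg', e'⟩ := SK_q3 (T.hE i j _ x.2).1 (T.hE i j _ x.2).2
        intro k l
        have h1 := hss (.l k) (.l l)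
        change SK i j x.1 k * SK i j s.1 l = SK i j x.1 l * SK i j s.1 k at h1
        rw [e, e, e', e'] at h1
        have h2 : (g * g') * (q3 s.1 k * q3 x.1 l) = (g * g') * (q3 s.1 l * q3 x.1 k) := by
          linear_combination -h1
        exact mul_left_cancel₀ (mul_ne_zero hg hg') h2
    · refine ff_of_param (T := {m : ℂ // (m, (0 : ℂ), (0 : ℂ)) ∈ (T.M b b').source})
        (fun m => T.M b b' (m.1, 0, 0)) (fun y hy => ?_)
        (fun m => RM n b b' m.1) (fun m hm => ?_) (fun m hm => ?_)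
      · obtain ⟨m, h1, h2⟩ := hy.2
        exact ⟨⟨m, h1⟩, h2⟩
      · exact T.valM hn m.2
      · refine ((RM_fin hn b b' m.1).preimage Subtype.val_injective.injOn).subset ?_
        rintro s ⟨-, hss⟩
        exact hss

end YC

end

end Crest.Agent.R272.PosP7_848
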