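/-
helper392, row 272, (I3), step (1) of helper641 #6419 (COCPT without number theory):
short vectors span.  Minkowski's first theorem only.
-/
import Mathlib
import Crest.Agent.R272.Prop1_392

set_option autoImplicit false

open scoped ComplexConjugate Topology ENNReal
open MeasureTheory Module

namespace Crest.Agent.R272.Prop_392

open Crest.Agent.R272.EBase_641

noncomputable section

section Euclid

variable {X : Type*} [NormedAddCommGroup X] [InnerProductSpace ℝ X] [FiniteDimensional ℝ X]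

/-- a proper subspace has a unit normal vector -/
theorem exists_normal {U : Submodule ℝ X} (hU : U ≠ ⊤) :
    ∃ u : X, ‖u‖ = 1 ∧ ∀ x ∈ U, (inner ℝ u x : ℝ) = 0 := by
  have h1 : Uᗮ ≠ ⊥ := by
    intro h
    exact hU ((Submodule.orthogonal_eq_bot_iff).1 h)
  obtain ⟨w, hw, hw0⟩ := Submodule.exists_mem_ne_zero_of_ne_bot h1
  refine ⟨‖w‖⁻¹ • w, ?_, ?_⟩
  · rw [norm_smul, norm_inv, norm_norm, inv_mul_cancel₀ (norm_ne_zero_iff.2 hw0)]
  · intro x hx
    rw [real_inner_smul_left, Submodule.inner_left_of_mem_orthogonal hx hw, mul_zero]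

/-- **Short vectors span** (Euclidean form).  `b` a real basis, `s > 0`: there is `R` such that
for every linear `g` with `|det g| = 1` and every subgroup `L` containing the `b i` with
`s ≤ ‖g v‖` for `0 ≠ v ∈ L`, the `v ∈ L` with `‖g v‖ ≤ R` span. -/
theorem short_euclid {ι : Type*} [Finite ι] (b : Basis ι ℝ X) {s : ℝ} (hs : 0 < s) :
    ∃ R : ℝ, 0 < R ∧ ∀ (L : AddSubgroup X) (g : X ≃ₗ[ℝ] X), (∀ i, b i ∈ L) →
      |LinearMap.det (g : X →ₗ[ℝ] X)| = 1 → (∀ v ∈ L, v ≠ 0 → s ≤ ‖g v‖) →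
      Submodule.span ℝ {v | v ∈ L ∧ ‖g v‖ ≤ R} = ⊤ := by
  classical
  borelize X
  let μ : Measure X := volume
  set F : Set X := ZSpan.fundamentalDomain b with hF
  set B : Set X := Metric.ball (0 : X) (s / 2) with hB
  have hBpos : 0 < μ B := Metric.measure_ball_pos _ _ (by positivity)
  have hBfin : μ B < ∞ := measure_ball_lt_top
  have hFfin : μ F < ∞ := (ZSpan.fundamentalDomain_isBounded b).measure_lt_top
  set c : ℝ≥0∞ := μ F * 2 ^ finrank ℝ X with hc
  have hcfin : c < ∞ := ENNReal.mul_lt_top hFfin (by finiteness)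
  set t : ℝ := 1 + (c / μ B).toReal with ht
  have ht1 : 1 ≤ t := by
    have : 0 ≤ (c / μ B).toReal := ENNReal.toReal_nonneg
    linarith
  have hct : c < ENNReal.ofReal t * μ B := by
    have h1 : c / μ B < ENNReal.ofReal t := by
      have hfin : c / μ B ≠ ∞ := by
        exact ENNReal.div_ne_top hcfin.ne hBpos.ne'
      rw [← ENNReal.ofReal_toReal hfin]
      exact (ENNReal.ofReal_lt_ofReal_iff (by linarith)).2 (by linarith)
    calc c = c / μ B * μ B := (ENNReal.div_mul_cancel hBpos.ne' hBfin.ne).symm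
      _ < ENNReal.ofReal t * μ B := ENNReal.mul_lt_mul_left hBpos.ne' hBfin.ne h1
  refine ⟨t * (s / 2), by positivity, ?_⟩
  intro L g hbL hdet hsys
  by_contra hne
  set U : Submodule ℝ X := Submodule.span ℝ {v | v ∈ L ∧ ‖g v‖ ≤ t * (s / 2)} with hU
  have hgU : U.map (g : X →ₗ[ℝ] X) ≠ ⊤ := by
    intro h
    apply hne
    rw [Submodule.map_eq_top_iff] at h
    exact h
  obtain ⟨u, hu1, hu⟩ := exists_normal hgU
  -- the dilation in the direction `u`
  let f : Module.Dual ℝ X := (innerSL ℝ u : X →L[ℝ] ℝ)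
  have hf : ∀ x, f x = (inner ℝ u x : ℝ) := fun x => rfl
  let T : X →ₗ[ℝ] X := LinearMap.transvection f ((t - 1) • u)
  have hT : ∀ x, T x = x + ((t - 1) * (inner ℝ u x : ℝ)) • u := by
    intro x
    show x + f x • ((t - 1) • u) = _
    rw [hf, smul_smul, mul_comm]
  have huu : (inner ℝ u u : ℝ) = 1 := by rw [real_inner_self_eq_norm_sq, hu1]; norm_num
  have hdT : LinearMap.det T = t := by
    show LinearMap.det (LinearMap.transvection f ((t - 1) • u)) = t
    rw [LinearMap.transvection.det, map_smul, hf, huu]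
    simp
  have hnT : ∀ x, ‖T x‖ ≤ t * ‖x‖ := by
    intro x
    rw [hT]
    calc ‖x + ((t - 1) * (inner ℝ u x : ℝ)) • u‖ ≤ ‖x‖ + ‖((t - 1) * (inner ℝ u x : ℝ)) • u‖ := norm_add_le _ _
      _ = ‖x‖ + (t - 1) * |(inner ℝ u x : ℝ)| := by
          rw [norm_smul, hu1, mul_one, Real.norm_eq_abs, abs_mul, abs_of_nonneg (by linarith)]
      _ ≤ ‖x‖ + (t - 1) * ‖x‖ := by
          have h1 := abs_real_inner_le_norm u x
          rw [hu1, one_mul] at h1
          have h2 := mul_le_mul_of_nonneg_left h1 (by linarith : 0 ≤ t - 1)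
          linarith
      _ = t * ‖x‖ := by ring
  -- the convex body
  let Q : X →ₗ[ℝ] X := (g.symm : X →ₗ[ℝ] X) ∘ₗ T
  set K : Set X := Q '' B with hK
  have hdQ : |LinearMap.det Q| = t := by
    show |LinearMap.det ((g.symm : X →ₗ[ℝ] X) ∘ₗ T)| = t
    rw [LinearMap.det_comp, abs_mul, hdT, abs_of_nonneg (by linarith : 0 ≤ t)]
    have h1 : LinearMap.det (g.symm : X →ₗ[ℝ] X) * LinearMap.det (g : X →ₗ[ℝ] X) = 1 :=
      LinearEquiv.det_symm_mul_det g
    have h2 := congrArg abs h1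
    rw [abs_mul, hdet, abs_one, mul_one] at h2
    rw [h2, one_mul]
  have hKμ : μ K = ENNReal.ofReal t * μ B := by
    rw [hK, Measure.addHaar_image_linearMap, hdQ]
  have hKsymm : ∀ x ∈ K, -x ∈ K := by
    rintro _ ⟨y, hy, rfl⟩
    refine ⟨-y, ?_, by rw [map_neg]⟩
    rw [hB, mem_ball_zero_iff] at hy ⊢
    rwa [norm_neg]
  have hKconv : Convex ℝ K := (convex_ball (0 : X) (s / 2)).linear_image Q
  have fund : IsAddFundamentalDomain (Submodule.span ℤ (Set.range b)).toAddSubgroup F μ :=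
    ZSpan.isAddFundamentalDomain' b μ
  have hcount : Countable (Submodule.span ℤ (Set.range b)).toAddSubgroup := by
    change Countable (Submodule.span ℤ (Set.range b))
    infer_instance
  obtain ⟨x, hx0, hxK⟩ := exists_ne_zero_mem_lattice_of_measure_mul_two_pow_lt_measure
    fund hKsymm hKconv (by rw [hKμ]; exact hct)
  obtain ⟨y, hy, hyx⟩ := hxK
  have hxL : (x : X) ∈ L := by
    have h1 : Submodule.span ℤ (Set.range b) ≤ AddSubgroup.toIntSubmodule L := by
      rw [Submodule.span_le]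
      rintro _ ⟨i, rfl⟩
      exact hbL i
    exact h1 x.2
  have hx0' : (x : X) ≠ 0 := by
    intro h
    exact hx0 (Subtype.ext h)
  have hgx : g (x : X) = T y := by
    rw [← hyx]
    show g (g.symm (T y)) = T y
    exact g.apply_symm_apply _
  have hyn : ‖y‖ < s / 2 := mem_ball_zero_iff.1 hy
  have hxU : (x : X) ∈ U := by
    apply Submodule.subset_span
    refine ⟨hxL, ?_⟩
    rw [hgx]
    exact le_trans (hnT y) (mul_le_mul_of_nonneg_left hyn.le (by linarith))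
  have h0 : (inner ℝ u (T y) : ℝ) = 0 := by
    rw [← hgx]
    exact hu _ (Submodule.mem_map_of_mem hxU)
  have h1 : (inner ℝ u y : ℝ) = 0 := by
    rw [hT, inner_add_right, real_inner_smul_right, huu] at h0
    have : t * (inner ℝ u y : ℝ) = 0 := by linarith
    rcases mul_eq_zero.1 this with h | h
    · linarith
    · exact h
  have h2 : T y = y := by rw [hT, h1]; simp
  have h3 := hsys _ hxL hx0'
  rw [hgx, h2] at h3
  linarith

end Euclid

variable {n m : ℕ}

/-- the Euclidean model of `V1 n × W m` -/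
abbrev XX (n m : ℕ) := WithLp 2 (WithLp 2 (E n × ℂ) × W m)

def e0 : (V1 n × W m) ≃ₗ[ℝ] XX n m where
  toFun v := WithLp.toLp 2 (WithLp.toLp 2 v.1, v.2)
  invFun x := (x.fst.ofLp, x.snd)
  map_add' _ _ := rfl
  map_smul' _ _ := rfl
  left_inv _ := rfl
  right_inv _ := rfl

theorem norm_e0_sq (v : V1 n × W m) :
    ‖e0 v‖ ^ 2 = ‖v.1.1‖ ^ 2 + ‖v.1.2‖ ^ 2 + ‖v.2‖ ^ 2 := by
  rw [WithLp.prod_norm_sq_eq_of_L2, WithLp.prod_norm_sq_eq_of_L2]
  rfl

theorem qq_zero (v : V1 n × W m) : qq 0 v = ‖e0 v‖ ^ 2 := by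
  rw [norm_e0_sq, qq, maj, R, lin]
  simp
  ring

/-- the real linear map of `V1 n × W m` given by `b ∈ U(n,1)` -/
def rl (b : UG n) (m : ℕ) : (V1 n × W m) ≃ₗ[ℝ] (V1 n × W m) :=
  (b.1.restrictScalars ℝ).prodCongr (LinearEquiv.refl ℝ (W m))

theorem rl_apply (b : UG n) (v : V1 n × W m) : rl b m v = (b.1 v.1, v.2) := rfl

theorem det_rl (b : UG n) (m : ℕ)
    (hb : |LinearMap.det ((b.1 : V1 n →ₗ[ℂ] V1 n).restrictScalars ℝ)| = 1) :
    |LinearMap.det (rl b m : (V1 n × W m) →ₗ[ℝ] (V1 n × W m))| = 1 := by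
  have h : (rl b m : (V1 n × W m) →ₗ[ℝ] (V1 n × W m)) =
      ((b.1 : V1 n →ₗ[ℂ] V1 n).restrictScalars ℝ).prodMap (LinearMap.id : W m →ₗ[ℝ] W m) := rfl
  rw [h, LinearMap.det_prodMap, LinearMap.det_id, mul_one, hb]

/-- **(1) of #6419: SHORT VECTORS SPAN**, uniformly in the point of the ball. -/
theorem short (L : AddSubgroup (V1 n × W m))
    (span : Submodule.span ℝ (L : Set (V1 n × W m)) = ⊤)
    {s : ℝ} (hs : 0 < s) (H1 : ∀ z ∈ Ball n, ∀ v ∈ L, v ≠ 0 → s ^ 2 ≤ qq z v)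
    (boost : ∀ z ∈ Ball n, ∃ b : UG n, act b z = 0)
    (hdet : ∀ b : UG n, |LinearMap.det ((b.1 : V1 n →ₗ[ℂ] V1 n).restrictScalars ℝ)| = 1) :
    ∃ R : ℝ, 0 < R ∧ ∀ z ∈ Ball n, Submodule.span ℝ {v | v ∈ L ∧ qq z v ≤ R ^ 2} = ⊤ := by
  classical
  -- a real basis inside `L`
  obtain ⟨t, htL, hts, hti⟩ := exists_linearIndependent ℝ (L : Set (V1 n × W m))
  rw [span] at hts
  let b : Basis t ℝ (V1 n × W m) := Basis.mk hti (by rw [Subtype.range_coe, hts])
  have hbt : ∀ i, b i = (i : V1 n × W m) := fun i => by rw [Basis.mk_apply]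
  have : Finite t := hti.setFinite
  obtain ⟨R, hR, hshort⟩ := short_euclid (b.map (e0 (n := n) (m := m))) hs
  refine ⟨R, hR, ?_⟩
  intro z hz
  obtain ⟨a, ha⟩ := boost z hz
  let g : XX n m ≃ₗ[ℝ] XX n m := e0.symm ≪≫ₗ rl a m ≪≫ₗ e0
  have hg : ∀ v, g (e0 v) = e0 (rl a m v) := fun v => rfl
  have hdg : |LinearMap.det (g : XX n m →ₗ[ℝ] XX n m)| = 1 := by
    have h1 : (g : XX n m →ₗ[ℝ] XX n m) =
        (e0 (n := n) (m := m) : (V1 n × W m) →ₗ[ℝ] XX n m) ∘ₗ
          (rl a m : (V1 n × W m) →ₗ[ℝ] (V1 n × W m)) ∘ₗ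
            ((e0 (n := n) (m := m)).symm : XX n m →ₗ[ℝ] (V1 n × W m)) := rfl
    rw [h1, LinearMap.det_conj, det_rl a m (hdet a)]
  have hq : ∀ v, qq z v = ‖g (e0 v)‖ ^ 2 := by
    intro v
    rw [hg, ← qq_zero, rl_apply, ← ha]
    exact (qq_act a (LinearIsometryEquiv.refl ℂ (W m)) v hz).symm
  have h2 := hshort (L.map (e0 (n := n) (m := m)).toAddEquiv.toAddMonoidHom) g ?_ hdg ?_
  · -- transport
    have h3 : {v | v ∈ L.map (e0 (n := n) (m := m)).toAddEquiv.toAddMonoidHom ∧ ‖g v‖ ≤ R} =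
        (e0 (n := n) (m := m)) '' {v | v ∈ L ∧ qq z v ≤ R ^ 2} := by
      ext x
      constructor
      · rintro ⟨⟨v, hv, rfl⟩, hx⟩
        refine ⟨v, ⟨hv, ?_⟩, rfl⟩
        rw [hq]
        exact pow_le_pow_left₀ (norm_nonneg _) hx 2
      · rintro ⟨v, ⟨hv, hvR⟩, rfl⟩
        refine ⟨⟨v, hv, rfl⟩, ?_⟩
        rw [hq] at hvR
        exact le_of_sq_le_sq hvR hR.le
    rw [h3] at h2
    have h5 : Submodule.map ((e0 (n := n) (m := m) : (V1 n × W m) ≃ₗ[ℝ] XX n m) :
        (V1 n × W m) →ₗ[ℝ] XX n m) (Submodule.span ℝ {v | v ∈ L ∧ qq z v ≤ R ^ 2}) = ⊤ := by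
      rw [Submodule.map_span]
      exact h2
    rwa [Submodule.map_eq_top_iff] at h5
  · intro i
    refine ⟨b i, ?_, by rw [Basis.map_apply]; rfl⟩
    rw [hbt]
    exact htL i.2
  · rintro _ ⟨v, hv, rfl⟩ hv0
    have hv0' : v ≠ 0 := by
      rintro rfl
      exact hv0 (map_zero _)
    have h4 := H1 z hz v hv hv0'
    rw [hq] at h4
    exact le_of_sq_le_sq h4 (norm_nonneg _)

end

end Crest.Agent.R272.Prop_392
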