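import Crest.Agent.R273.Fam_835

/-!
# R272, leaf QUOT (helper783), part 1: quotients of complex manifolds by free group actions

* `QD B G p`        : `p : X → M` is the quotient map of the complex manifold `(X, B)` (`B : Fam n X`)
                      by a group `G` of biholomorphic maps, and `p` is a local homeomorphism;
* `QD.ofPD`         : the instance for a free, properly discontinuous action (Mathlib);
* `QD.fam`          : the induced complex structure on `M`; `holC_p`, `holC_iff`, `holC_desc`;
* `Sheets h A`      : an atlas `A : Atl n M` of the quotient with holomorphic sections `σ i` of `p`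
                      over its charts; `QD.exists_sheets` (finite, good, with partition of unity,
                      subordinate to any open cover of `M`, when `M` is compact).
-/

set_option autoImplicit false
set_option linter.unusedSectionVars false

open Set Filter Topology Complex
open scoped ContDiff Matrix ComplexConjugate Manifold

namespace Crest.Agent.R272.Quot_783

open Crest.Agent.R275.Geo Crest.Agent.R275.Core144 Crest.Agent.R275.GC293
open Crest.Agent.R273.Defs_333 Crest.Agent.R273.Map_835 Crest.Agent.R273.PB_835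
open Crest.Agent.R273.Fam_835

noncomputable section

variable {n m : ℕ} {X M N : Type} [TopologicalSpace X] [TopologicalSpace M] [TopologicalSpace N]

/-- `p : X → M` is the quotient of the complex manifold `X` by the group `G` of biholomorphic maps,
and `p` is a local homeomorphism -/
structure QD (B : Fam n X) (G : Type*) [Group G] [MulAction G X] (p : X → M) : Prop where
  lh : IsLocalHomeomorph p
  surj : Function.Surjective p
  orb : ∀ x y, p x = p y ↔ ∃ g : G, g • x = y
  hol : ∀ g : G, HolC B B (fun x => g • x)

/-- free properly discontinuous actions -/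
theorem QD.ofPD {B : Fam n X} {G : Type*} [Group G] [MulAction G X] [ProperlyDiscontinuousSMul G X]
    [IsCancelSMul G X] [T2Space X] [LocallyCompactSpace X]
    (hol : ∀ g : G, HolC B B (fun x => g • x)) :
    QD B G (Quotient.mk (MulAction.orbitRel G X) : X → MulAction.orbitRel.Quotient G X) := by
  have : ContinuousConstSMul G X := ⟨fun g => (hol g).cont⟩
  have hq := isQuotientCoveringMap_quotientMk_of_properlyDiscontinuousSMul (E := X) (G := G)
  refine ⟨hq.isCoveringMap.isLocalHomeomorph, Quotient.mk_surjective, fun x y => ?_, hol⟩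
  constructor
  · intro h
    have h1 : (MulAction.orbitRel G X).r x y := Quotient.exact h
    obtain ⟨g, hg⟩ := (MulAction.orbitRel_apply (G := G)).1 h1
    exact ⟨g⁻¹, by rw [← hg]; simp⟩
  · rintro ⟨g, rfl⟩
    apply Quotient.sound
    exact (MulAction.orbitRel_apply (G := G)).2 ⟨g⁻¹, by simp⟩

namespace QD

variable {B : Fam n X} {G : Type*} [Group G] [MulAction G X] {p : X → M} (h : QD B G p)

include h

theorem cont : Continuous p := h.lh.continuous

theorem p_smul (g : G) (x : X) : p (g • x) = p x := ((h.orb x (g • x)).2 ⟨g, rfl⟩).symm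

theorem cont_smul (g : G) : Continuous (fun x : X => g • x) := (h.hol g).cont

omit h in
/-- the chosen local homeomorphism at `x` -/
def lhp (h : QD B G p) (x : X) : OpenPartialHomeomorph X M := (h.lh x).choose

theorem mem_lhp (x : X) : x ∈ (h.lhp x).source := (h.lh x).choose_spec.1

theorem lhp_apply (x y : X) : h.lhp x y = p y := (congrFun (h.lh x).choose_spec.2 y).symm

theorem p_lhp_symm (x : X) {y : M} (hy : y ∈ (h.lhp x).target) : p ((h.lhp x).symm y) = y := by
  rw [← h.lhp_apply x]
  exact (h.lhp x).right_inv hy

theorem lhp_symm_p (x : X) {y : X} (hy : y ∈ (h.lhp x).source) : (h.lhp x).symm (p y) = y := by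
  rw [← h.lhp_apply x]
  exact (h.lhp x).left_inv hy

/-- a continuous local section of `p`, composed with `p`, is locally a translation by `g : G` -/
theorem local_smul {s : M → X} {U : Set M} (hU : IsOpen U) (hs : ContinuousOn s U)
    (hsec : ∀ y ∈ U, p (s y) = y) {u : X} (hu : p u ∈ U) {g : G} (hg : g • u = s (p u)) :
    ∀ᶠ w in 𝓝 u, g • w = s (p w) := by
  -- both sides lie in the source of the same local homeomorphism
  set v := s (p u) with hv
  have h1 : ∀ᶠ w in 𝓝 u, g • w ∈ (h.lhp v).source := by
    have hc : ContinuousAt (fun w : X => g • w) u := (h.cont_smul g).continuousAt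
    refine hc.eventually_mem ?_
    rw [hg]
    exact (h.lhp v).open_source.mem_nhds (h.mem_lhp v)
  have h2 : ∀ᶠ w in 𝓝 u, s (p w) ∈ (h.lhp v).source := by
    have hc : ContinuousAt (fun w : X => s (p w)) u :=
      ContinuousAt.comp (g := s) ((hs.continuousAt (hU.mem_nhds hu))) h.cont.continuousAt
    exact hc.eventually_mem ((h.lhp v).open_source.mem_nhds (h.mem_lhp v))
  have h3 : ∀ᶠ w in 𝓝 u, p w ∈ U := h.cont.continuousAt.eventually_mem (hU.mem_nhds hu)
  filter_upwards [h1, h2, h3] with w hw1 hw2 hw3
  have e1 := h.lhp_symm_p v hw1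
  have e2 := h.lhp_symm_p v hw2
  rw [h.p_smul] at e1
  rw [hsec _ hw3] at e2
  rw [← e1, ← e2]

omit h in
/-- the complex structure of the quotient -/
def fam (h : QD B G p) : Fam n M where
  ι := X
  e x := (h.lhp x).symm.trans (B.e (B.cover x).choose)
  cover y := by
    obtain ⟨x, rfl⟩ := h.surj y
    refine ⟨x, ?_⟩
    have h1 : p x ∈ (h.lhp x).target := by
      rw [← h.lhp_apply x x]
      exact (h.lhp x).map_source (h.mem_lhp x)
    rw [OpenPartialHomeomorph.trans_source]
    refine ⟨h1, ?_⟩
    rw [mem_preimage, h.lhp_symm_p x (h.mem_lhp x)]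
    exact (B.cover x).choose_spec
  holo x y := by
    intro z hz
    set i := (B.cover x).choose with hi
    set j := (B.cover y).choose with hj
    obtain ⟨hz1, hz2⟩ := hz
    rw [OpenPartialHomeomorph.trans_target] at hz1
    have ht : z ∈ (B.e i).target := hz1.1
    have hu : (B.e i).symm z ∈ (h.lhp x).source := hz1.2
    set u := (B.e i).symm z with hudef
    have hpu : ((h.lhp x).symm.trans (B.e i)).symm z = p u := by
      rw [OpenPartialHomeomorph.coe_trans_symm, Function.comp_apply,
        OpenPartialHomeomorph.symm_symm, h.lhp_apply]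
    have hz2' : p u ∈ ((h.lhp y).symm.trans (B.e j)).source := by
      rw [← hpu]; exact hz2
    rw [OpenPartialHomeomorph.trans_source] at hz2'
    have hy1 : p u ∈ (h.lhp y).target := hz2'.1
    have hy2 : (h.lhp y).symm (p u) ∈ (B.e j).source := hz2'.2
    obtain ⟨g, hg⟩ := (h.orb u ((h.lhp y).symm (p u))).1 (h.p_lhp_symm y hy1).symm
    have h1 := h.local_smul (h.lhp y).open_target (h.lhp y).continuousOn_symm
      (fun w hw => h.p_lhp_symm y hw) hy1 hg
    have h2 : DifferentiableAt ℂ (fun w => B.e j (g • ((B.e i).symm w))) z :=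
      (h.hol g).diffAt ht (by rw [← hudef, hg]; exact hy2)
    refine (h2.congr_of_eventuallyEq ?_).differentiableWithinAt
    have hc : ContinuousAt (B.e i).symm z := (B.e i).continuousAt_symm ht
    filter_upwards [hc.eventually h1] with w hw
    show B.e j ((h.lhp y).symm ((h.lhp x).symm.symm ((B.e i).symm w))) = _
    rw [OpenPartialHomeomorph.symm_symm, h.lhp_apply, ← hw]

/-- the projection is holomorphic -/
theorem holC_p : HolC B h.fam p := by
  refine holC_of_local h.cont fun x => ?_
  have hx : x ∈ (B.e (B.cover x).choose).source := (B.cover x).choose_spec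
  have h1 : p x ∈ (h.lhp x).target := by
    rw [← h.lhp_apply x x]
    exact (h.lhp x).map_source (h.mem_lhp x)
  refine ⟨(B.cover x).choose, x, hx, ?_, ?_⟩
  · show p x ∈ ((h.lhp x).symm.trans (B.e (B.cover x).choose)).source
    rw [OpenPartialHomeomorph.trans_source]
    refine ⟨h1, ?_⟩
    rw [mem_preimage, h.lhp_symm_p x (h.mem_lhp x)]
    exact hx
  · set i := (B.cover x).choose
    have hc : ContinuousAt (B.e i).symm (B.e i x) := (B.e i).continuousAt_symm ((B.e i).map_source hx)
    have h2 : ∀ᶠ w in 𝓝 (B.e i x), (B.e i).symm w ∈ (h.lhp x).source := by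
      refine hc.eventually_mem ?_
      rw [(B.e i).left_inv hx]
      exact (h.lhp x).open_source.mem_nhds (h.mem_lhp x)
    refine (differentiableAt_id (𝕜 := ℂ)).congr_of_eventuallyEq ?_
    filter_upwards [h2, (B.e i).open_target.mem_nhds ((B.e i).map_source hx)] with w hw hw'
    show B.e i ((h.lhp x).symm (p ((B.e i).symm w))) = w
    rw [h.lhp_symm_p x hw, (B.e i).right_inv hw']

/-- universal property: a map out of the quotient is holomorphic iff its pull-back is -/
theorem holC_iff' {D : Fam m N} {f : M → N} : HolC h.fam D f ↔ HolC B D (fun x => f (p x)) := by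
  constructor
  · intro hf
    exact hf.comp h.holC_p
  · intro hf
    have hcont : Continuous f := by
      rw [h.lh.isOpenMap.isQuotientMap h.cont h.surj |>.continuous_iff]
      exact hf.cont
    refine holC_of_local hcont fun y => ?_
    obtain ⟨x, rfl⟩ := h.surj y
    have hx : x ∈ (B.e (B.cover x).choose).source := (B.cover x).choose_spec
    have h1 : p x ∈ (h.lhp x).target := by
      rw [← h.lhp_apply x x]
      exact (h.lhp x).map_source (h.mem_lhp x)
    obtain ⟨j, hj⟩ := D.cover (f (p x))
    set i := (B.cover x).choose with hi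
    refine ⟨x, j, ?_, hj, ?_⟩
    · show p x ∈ ((h.lhp x).symm.trans (B.e i)).source
      rw [OpenPartialHomeomorph.trans_source]
      refine ⟨h1, ?_⟩
      rw [mem_preimage, h.lhp_symm_p x (h.mem_lhp x)]
      exact hx
    · have e1 : h.fam.e x (p x) = B.e i x := by
        show B.e i ((h.lhp x).symm (p x)) = _
        rw [h.lhp_symm_p x (h.mem_lhp x)]
      rw [e1]
      have h2 : DifferentiableAt ℂ (fun w => D.e j (f (p ((B.e i).symm w)))) (B.e i x) :=
        hf.diffAt ((B.e i).map_source hx) (by rw [(B.e i).left_inv hx]; exact hj)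
      refine h2.congr_of_eventuallyEq ?_
      filter_upwards with w
      show D.e j (f ((h.lhp x).symm.symm ((B.e i).symm w))) = _
      rw [OpenPartialHomeomorph.symm_symm, h.lhp_apply]

/-- descent of invariant holomorphic maps -/
theorem exists_desc {D : Fam m N} {f : X → N} (hf : HolC B D f) (hinv : ∀ (g : G) x, f (g • x) = f x) :
    ∃ F : M → N, (∀ x, F (p x) = f x) ∧ HolC h.fam D F := by
  choose s hs using h.surj
  have h1 : ∀ x, f (s (p x)) = f x := by
    intro x
    obtain ⟨g, hg⟩ := (h.orb x (s (p x))).1 (hs (p x)).symm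
    rw [← hg, hinv]
  exact ⟨fun y => f (s y), h1, h.holC_iff'.2 (by simpa only [h1] using hf)⟩

end QD

/-! ### atlases of the quotient with sections of `p` over the charts -/

/-- an atlas `A` of the quotient with continuous (hence holomorphic) sections of `p` over its
charts -/
structure Sheets {B : Fam n X} {G : Type*} [Group G] [MulAction G X] {p : X → M} (h : QD B G p)
    (A : Atl n M) where
  σ : A.ι → M → X
  cont : ∀ i, ContinuousOn (σ i) (A.e i).source
  sec : ∀ i, ∀ y ∈ (A.e i).source, p (σ i y) = y
  toF : HolC (Crest.Agent.R273.Fam_835.fam A) h.fam id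
  frF : HolC h.fam (Crest.Agent.R273.Fam_835.fam A) id

variable {B : Fam n X} {G : Type*} [Group G] [MulAction G X] {p : X → M}

/-- on a compact quotient: finite good atlas with partition of unity and sheets, subordinate to a
given open cover of `M` -/
theorem QD.exists_sheets [CompactSpace M] [T2Space M] (h : QD B G p) {κ : Type*} (O : κ → Set M)
    (hO : ∀ k, IsOpen (O k)) (hOc : ∀ x, ∃ k, x ∈ O k) :
    ∃ A : Atl n M, Finite A.ι ∧ GoodA A ∧ Nonempty (Part A) ∧
      (∀ i, ∃ k, (A.e i).source ⊆ O k) ∧ Nonempty (Sheets h A) := by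
  obtain ⟨A, h1, h2, h3, h4, h5, h6⟩ := h.fam.exists_atl
    (fun q : κ × X => O q.1 ∩ (h.lhp q.2).target) (fun q => (hO q.1).inter (h.lhp q.2).open_target)
    (fun y => by
      obtain ⟨k, hk⟩ := hOc y
      obtain ⟨x, rfl⟩ := h.surj y
      refine ⟨(k, x), hk, ?_⟩
      rw [← h.lhp_apply x x]
      exact (h.lhp x).map_source (h.mem_lhp x))
  choose k hk using h4
  refine ⟨A, h1, h2, h3, fun i => ⟨(k i).1, fun y hy => (hk i hy).1⟩, ⟨⟨fun i => (h.lhp (k i).2).symm,
    fun i => (h.lhp (k i).2).continuousOn_symm.mono fun y hy => (hk i hy).2,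
    fun i y hy => h.p_lhp_symm _ (hk i hy).2, h5, h6⟩⟩⟩

end

end Crest.Agent.R272.Quot_783
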