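import Crest.Agent.R272.Quot3_783

/-!
# R272, leaf QUOT (helper783), part 4: roots (EBase_641) as sections over the ball quotient

For `R : Root n k ρ S`:
* `rootF R : AutF (ballFam ρ) Γ`      : the cocycle `R.j` as automorphy factor;
* `rootS R : Sheets.. `               : `f` is a holomorphic section of `(lb (rootF R)) ^ k`;
* `rootS_eq_zero`                     : its zero set is the image of the union of the hyperplanes.
-/

set_option autoImplicit false
set_option linter.unusedSectionVars false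

open Set Filter Topology Complex
open scoped ContDiff Matrix ComplexConjugate Manifold

namespace Crest.Agent.R272.Quot_783

open Crest.Agent.R275.Geo Crest.Agent.R275.Core144 Crest.Agent.R275.GC293
open Crest.Agent.R273.Defs_333 Crest.Agent.R273.Map_835 Crest.Agent.R273.PB_835
open Crest.Agent.R273.Fam_835 Crest.Agent.R272.EBase_641

noncomputable section

variable {n : ℕ} {Γ : Type} [Group Γ] {ρ : Γ →* UG n}

/-- holomorphic functions on the ball as functions on `BX ρ` -/
theorem holF_of_diff {F : E n → ℂ} {U : Set (BX ρ)} {V : Set (E n)} (hV : IsOpen V)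
    (hUV : ∀ x ∈ U, x.val ∈ V) (hF : DifferentiableOn ℂ F V) :
    HolF (ballFam ρ) U (fun x => F x.val) := by
  intro j z hz
  have hzB : z ∈ Ball n := by
    have := hz.1
    rwa [ballFam_target] at this
  have hzV : z ∈ V := by
    have := hUV _ hz.2
    rwa [ballFam_symm ρ j hzB] at this
  refine ((hF.differentiableAt (hV.mem_nhds hzV)).congr_of_eventuallyEq ?_).differentiableWithinAt
  filter_upwards [Metric.isOpen_ball.mem_nhds hzB] with w hw
  show F (((ballFam ρ).e j).symm w).val = _
  rw [ballFam_symm ρ j hw]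

variable {k : ℕ} {T : Set (V1 n)}

/-- the cocycle of a root as an automorphy factor -/
def rootF (R : Root n k ρ T) : AutF (ballFam ρ) Γ where
  J g x := R.j g x.val
  hol g := holF_of_diff Metric.isOpen_ball (fun x _ => x.mem) (R.j_hol g)
  ne g x := R.j_ne g _ x.mem
  mul g g' x := R.j_mul g g' _ x.mem

variable {H : Cpt ρ} {A : Atl n (BQ ρ)} (S : Sheets H.qd A)

/-- the function `f` of a root as a section -/
def rootS (R : Root n k ρ T) : A.ι → BQ ρ → ℂ := S.secF fun x => R.f x.val

theorem isHS_rootS (R : Root n k ρ T) :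
    IsHS ((S.lb H.hfree (rootF R)) ^ k) univ (rootS (H := H) S R) := by
  rw [← S.lb_pow H.hfree]
  refine S.isHS_secF H.hfree _ isOpen_univ ?_ fun g x _ => ?_
  · exact holF_of_diff Metric.isOpen_ball (fun x _ => x.mem) R.f_hol
  · exact R.f_act g _ x.mem

theorem root_eq_zero (R : Root n k ρ T) {z : E n} (hz : z ∈ Ball n) :
    R.f z = 0 ↔ ∃ v ∈ T, lin v z = 0 := by
  obtain ⟨U, hU, u, hu, hu0, F, hF, hf⟩ := R.f_div z hz
  have h1 := hf z (mem_of_mem_nhds hU)
  rw [h1]
  constructor
  · intro h0
    have h2 := (mul_eq_zero.1 h0).resolve_right (hu0 z (mem_of_mem_nhds hU))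
    obtain ⟨v, hv, hv0⟩ := Finset.prod_eq_zero_iff.1 h2
    exact ⟨v, ((hF v).1 hv).1, hv0⟩
  · rintro ⟨v, hv, hv0⟩
    rw [Finset.prod_eq_zero ((hF v).2 ⟨hv, hv0⟩) hv0, zero_mul]

/-- the zero set of the section is the image of the union of the hyperplanes -/
theorem rootS_eq_zero (R : Root n k ρ T) {i : A.ι} {x : BX ρ}
    (hx : BQ.mk ρ x ∈ (A.e i).source) :
    rootS (H := H) S R i (BQ.mk ρ x) = 0 ↔ ∃ v ∈ T, lin v x.val = 0 := by
  rw [← root_eq_zero R x.mem, rootS, S.secF_apply _ hx]
  obtain ⟨g, hg⟩ := (H.qd.orb x (S.σ i (BQ.mk ρ x))).1 (S.sec i _ hx).symm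
  rw [← hg]
  show R.f (act (ρ g) x.val) = 0 ↔ _
  rw [R.f_act g _ x.mem]
  constructor
  · intro h0
    exact (mul_eq_zero.1 h0).resolve_left (pow_ne_zero _ (R.j_ne g _ x.mem))
  · intro h0
    rw [h0, mul_zero]

end

end Crest.Agent.R272.Quot_783
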