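/-
# Row 272 (S0414): coverings by simultaneous square roots (helper275)

`X` a topological space, `a i, b i, y i : X → ℂ` continuous (`i` in a finite type) with `y i ^ 2 = a i * b i` and
`a i`, `b i` without common zero.  Then `E = {(x, ρ, σ) | ρ i ^ 2 = a i x, σ i ^ 2 = b i x, ρ i * σ i = y i x}` is a
covering space of `X` (with fibre `{±1}^ι`), although `√(a i)` alone would be branched along `a i = 0`.
Used with `a i = s_i` (the distinguished lift of the branch curve `D_i`), `b i` = the product of all other lifts,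
`y i` = the root which lives on the branched cover.
-/
import Mathlib

noncomputable section

open Topology Filter Set Metric

namespace Crest.Agent.R272.Rcov_275

/-- principal square root. -/
def rt (x : ℂ) : ℂ := Complex.exp (Complex.log x / 2)

theorem rt_sq {x : ℂ} (h : x ≠ 0) : rt x ^ 2 = x := by
  unfold rt
  rw [← Complex.exp_nat_mul]
  have : ((2 : ℕ) : ℂ) * (Complex.log x / 2) = Complex.log x := by push_cast; ring
  rw [this, Complex.exp_log h]

theorem rt_ne_zero (x : ℂ) : rt x ≠ 0 := Complex.exp_ne_zero _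

theorem continuousAt_rt {x : ℂ} (h : x ∈ Complex.slitPlane) : ContinuousAt rt x :=
  ((Complex.differentiableAt_log h).div_const 2).cexp.continuousAt

variable {X : Type*} [TopologicalSpace X]

/-- continuous local square root of a continuous function at a point where it does not vanish. -/
theorem exists_local_root {b : X → ℂ} (hb : Continuous b) {x : X} (hx : b x ≠ 0) :
    ∃ U : Set X, IsOpen U ∧ x ∈ U ∧ ∃ s : X → ℂ, ContinuousOn s U ∧ (∀ z ∈ U, s z ^ 2 = b z) ∧
      ∀ z ∈ U, s z ≠ 0 := by
  refine ⟨{z | b z / b x ∈ Complex.slitPlane}, ?_, ?_, fun z => rt (b x) * rt (b z / b x), ?_, ?_, ?_⟩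
  · exact Complex.isOpen_slitPlane.preimage (hb.div_const _)
  · simp [div_self hx, Complex.one_mem_slitPlane]
  · intro z hz
    refine (continuousAt_const.mul ?_).continuousWithinAt
    exact (continuousAt_rt hz).comp (f := fun z => b z / b x) (hb.div_const _).continuousAt
  · intro z hz
    simp only [mul_pow, rt_sq hx, rt_sq (Complex.slitPlane_ne_zero hz)]
    field_simp
  · intro z _
    exact mul_ne_zero (rt_ne_zero _) (rt_ne_zero _)

/-- the data. -/
structure RD (X : Type*) [TopologicalSpace X] (ι : Type*) where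
  a : ι → X → ℂ
  b : ι → X → ℂ
  y : ι → X → ℂ
  ca : ∀ i, Continuous (a i)
  cb : ∀ i, Continuous (b i)
  cy : ∀ i, Continuous (y i)
  hy : ∀ i x, y i x ^ 2 = a i x * b i x
  hne : ∀ i x, a i x ≠ 0 ∨ b i x ≠ 0

variable {ι : Type*}

namespace RD

variable (R : RD X ι)

/-- local pair of roots. -/
theorem exists_local_pair (i : ι) (x : X) :
    ∃ U : Set X, IsOpen U ∧ x ∈ U ∧ ∃ r s : X → ℂ, ContinuousOn r U ∧ ContinuousOn s U ∧
      (∀ z ∈ U, r z ^ 2 = R.a i z ∧ s z ^ 2 = R.b i z ∧ r z * s z = R.y i z) ∧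
      ∀ z ∈ U, r z ≠ 0 ∨ s z ≠ 0 := by
  rcases R.hne i x with h | h
  · obtain ⟨U, hU, hxU, r, hr, hr2, hr0⟩ := exists_local_root (R.ca i) h
    refine ⟨U, hU, hxU, r, fun z => R.y i z / r z, hr, (R.cy i).continuousOn.div hr hr0, ?_,
      fun z hz => Or.inl (hr0 z hz)⟩
    intro z hz
    refine ⟨hr2 z hz, ?_, mul_div_cancel₀ _ (hr0 z hz)⟩
    have h1 : R.a i z ≠ 0 := by rw [← hr2 z hz]; exact pow_ne_zero 2 (hr0 z hz)
    rw [div_pow, R.hy, hr2 z hz, mul_div_cancel_left₀ _ h1]
  · obtain ⟨U, hU, hxU, s, hs, hs2, hs0⟩ := exists_local_root (R.cb i) h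
    refine ⟨U, hU, hxU, fun z => R.y i z / s z, s, (R.cy i).continuousOn.div hs hs0, hs, ?_,
      fun z hz => Or.inr (hs0 z hz)⟩
    intro z hz
    refine ⟨?_, hs2 z hz, div_mul_cancel₀ _ (hs0 z hz)⟩
    have h1 : R.b i z ≠ 0 := by rw [← hs2 z hz]; exact pow_ne_zero 2 (hs0 z hz)
    rw [div_pow, R.hy, hs2 z hz, mul_div_cancel_right₀ _ h1]

/-- the covering space. -/
def Cov : Type _ :=
  {p : X × (ι → ℂ) × (ι → ℂ) // ∀ i, p.2.1 i ^ 2 = R.a i p.1 ∧ p.2.2 i ^ 2 = R.b i p.1 ∧
    p.2.1 i * p.2.2 i = R.y i p.1}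

instance : TopologicalSpace R.Cov := inferInstanceAs (TopologicalSpace {p : X × (ι → ℂ) × (ι → ℂ) // _})

/-- the projection. -/
def pr (e : R.Cov) : X := e.1.1
/-- the root of `a i`. -/
def ra (i : ι) (e : R.Cov) : ℂ := e.1.2.1 i
/-- the root of `b i`. -/
def rb (i : ι) (e : R.Cov) : ℂ := e.1.2.2 i

theorem continuous_pr : Continuous R.pr := continuous_fst.comp continuous_subtype_val
theorem continuous_ra (i : ι) : Continuous (R.ra i) :=
  (continuous_apply i).comp (continuous_fst.comp (continuous_snd.comp continuous_subtype_val))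
theorem continuous_rb (i : ι) : Continuous (R.rb i) :=
  (continuous_apply i).comp (continuous_snd.comp (continuous_snd.comp continuous_subtype_val))

theorem ra_sq (i : ι) (e : R.Cov) : R.ra i e ^ 2 = R.a i (R.pr e) := (e.2 i).1
theorem rb_sq (i : ι) (e : R.Cov) : R.rb i e ^ 2 = R.b i (R.pr e) := (e.2 i).2.1
theorem ra_mul_rb (i : ι) (e : R.Cov) : R.ra i e * R.rb i e = R.y i (R.pr e) := (e.2 i).2.2

theorem ext' {e f : R.Cov} (h : R.pr e = R.pr f) (ha : ∀ i, R.ra i e = R.ra i f)
    (hb : ∀ i, R.rb i e = R.rb i f) : e = f :=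
  Subtype.ext (Prod.ext h (Prod.ext (funext ha) (funext hb)))

/-- two pairs with the same squares and the same product are equal or opposite. -/
theorem pair_dich {r s r' s' : ℂ} (h1 : r ^ 2 = r' ^ 2) (h2 : s ^ 2 = s' ^ 2) (h3 : r * s = r' * s') :
    (r = r' ∧ s = s') ∨ (r = -r' ∧ s = -s') := by
  rcases sq_eq_sq_iff_eq_or_eq_neg.mp h1 with h | h
  · by_cases h0 : r = 0
    · have h0' : r' = 0 := by rw [← h, h0]
      rcases sq_eq_sq_iff_eq_or_eq_neg.mp h2 with h4 | h4
      · exact Or.inl ⟨h, h4⟩
      · exact Or.inr ⟨by rw [h0, h0', neg_zero], h4⟩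
    · refine Or.inl ⟨h, ?_⟩
      rw [← h] at h3
      exact mul_left_cancel₀ h0 h3
  · by_cases h0 : r = 0
    · have h0' : r' = 0 := by rw [h0] at h; exact neg_eq_zero.mp h.symm
      rcases sq_eq_sq_iff_eq_or_eq_neg.mp h2 with h4 | h4
      · exact Or.inl ⟨by rw [h0, h0'], h4⟩
      · exact Or.inr ⟨h, h4⟩
    · refine Or.inr ⟨h, ?_⟩
      have h5 : r' = -r := by rw [h, neg_neg]
      rw [h5] at h3
      have h6 : r * s = r * (-s') := by rw [h3]; ring
      exact mul_left_cancel₀ h0 h6

/-- the sign of a pair `(r,s)` with respect to a reference pair. -/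
def sg (r s r' s' : ℂ) : ℂ :=
  (r * (starRingEnd ℂ) r' + s * (starRingEnd ℂ) s') / (r' * (starRingEnd ℂ) r' + s' * (starRingEnd ℂ) s')

theorem den_ne {r' s' : ℂ} (h : r' ≠ 0 ∨ s' ≠ 0) :
    r' * (starRingEnd ℂ) r' + s' * (starRingEnd ℂ) s' ≠ 0 := by
  rw [Complex.mul_conj, Complex.mul_conj, ← Complex.ofReal_add]
  intro h1
  have h2 : Complex.normSq r' + Complex.normSq s' = 0 := by exact_mod_cast h1
  have h3 := Complex.normSq_nonneg r'
  have h4 := Complex.normSq_nonneg s'
  rcases h with h | h
  · have := Complex.normSq_pos.mpr h; linarith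
  · have := Complex.normSq_pos.mpr h; linarith

theorem sg_self {r' s' : ℂ} (h : r' ≠ 0 ∨ s' ≠ 0) : sg r' s' r' s' = 1 := div_self (den_ne h)

theorem sg_neg {r' s' : ℂ} (h : r' ≠ 0 ∨ s' ≠ 0) : sg (-r') (-s') r' s' = -1 := by
  unfold sg
  rw [neg_mul, neg_mul, ← neg_add, neg_div, div_self (den_ne h)]

variable [Finite ι]

/-- **The projection is a covering map.** -/
theorem isCoveringMap : IsCoveringMap R.pr := by
  classical
  intro x
  -- local reference pairs
  choose U hU hxU r s hr hs hrs hne using fun i => R.exists_local_pair i x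
  have hVo : IsOpen (⋂ i, U i) := isOpen_iInter_of_finite hU
  have hxV : x ∈ ⋂ i, U i := mem_iInter.mpr hxU
  set V : Set X := ⋂ i, U i with hV
  have hVU : ∀ i, V ⊆ U i := fun i => iInter_subset _ i
  -- the sign of a point over `V`
  have key : ∀ (e : R.Cov), R.pr e ∈ V → ∀ i,
      (R.ra i e = r i (R.pr e) ∧ R.rb i e = s i (R.pr e)) ∨
      (R.ra i e = -r i (R.pr e) ∧ R.rb i e = -s i (R.pr e)) := by
    intro e he i
    obtain ⟨h1, h2, h3⟩ := hrs i _ (hVU i he)
    exact pair_dich (by rw [R.ra_sq, h1]) (by rw [R.rb_sq, h2]) (by rw [R.ra_mul_rb, h3])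
  let sgn : R.pr ⁻¹' V → ι → Bool := fun e i =>
    decide (0 < (sg (R.ra i e.1) (R.rb i e.1) (r i (R.pr e.1)) (s i (R.pr e.1))).re)
  have sgn_true : ∀ (e : R.pr ⁻¹' V) i, (R.ra i e.1 = r i (R.pr e.1) ∧ R.rb i e.1 = s i (R.pr e.1)) →
      sgn e i = true := by
    intro e i h
    simp only [sgn]
    rw [h.1, h.2, sg_self (hne i _ (hVU i e.2))]
    simp
  have sgn_false : ∀ (e : R.pr ⁻¹' V) i, (R.ra i e.1 = -r i (R.pr e.1) ∧ R.rb i e.1 = -s i (R.pr e.1)) →
      sgn e i = false := by
    intro e i h
    simp only [sgn]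
    rw [h.1, h.2, sg_neg (hne i _ (hVU i e.2))]
    simp
  let bs : Bool → ℂ := fun b => if b then 1 else -1
  have bs_sq : ∀ b, bs b ^ 2 = 1 := by intro b; cases b <;> simp [bs]
  -- the inverse map
  let inv : V × (ι → Bool) → R.pr ⁻¹' V := fun p =>
    ⟨⟨(p.1.1, fun i => bs (p.2 i) * r i p.1.1, fun i => bs (p.2 i) * s i p.1.1), fun i => by
      obtain ⟨h1, h2, h3⟩ := hrs i _ (hVU i p.1.2)
      refine ⟨?_, ?_, ?_⟩
      · simp only [mul_pow, bs_sq, h1, one_mul]
      · simp only [mul_pow, bs_sq, h2, one_mul]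
      · simp only
        rw [← h3]
        have := bs_sq (p.2 i)
        linear_combination (r i p.1.1 * s i p.1.1) * this⟩, p.1.2⟩
  have hsgn_cont : Continuous sgn := by
    refine continuous_pi (fun i => ?_)
    -- the sign function is continuous with values `±1`
    have hc : Continuous (fun e : R.pr ⁻¹' V =>
        sg (R.ra i e.1) (R.rb i e.1) (r i (R.pr e.1)) (s i (R.pr e.1))) := by
      have hp : Continuous (fun e : R.pr ⁻¹' V => R.pr e.1) := R.continuous_pr.comp continuous_subtype_val
      have c1 : Continuous (fun e : R.pr ⁻¹' V => r i (R.pr e.1)) := by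
        have := (hr i).comp_continuous hp (fun e => hVU i e.2)
        exact this
      have c2 : Continuous (fun e : R.pr ⁻¹' V => s i (R.pr e.1)) := by
        have := (hs i).comp_continuous hp (fun e => hVU i e.2)
        exact this
      have c3 : Continuous (fun e : R.pr ⁻¹' V => R.ra i e.1) := (R.continuous_ra i).comp continuous_subtype_val
      have c4 : Continuous (fun e : R.pr ⁻¹' V => R.rb i e.1) := (R.continuous_rb i).comp continuous_subtype_val
      unfold sg
      refine Continuous.div ?_ ?_ (fun e => den_ne (hne i _ (hVU i e.2)))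
      · exact (c3.mul (Complex.continuous_conj.comp c1)).add (c4.mul (Complex.continuous_conj.comp c2))
      · exact (c1.mul (Complex.continuous_conj.comp c1)).add (c2.mul (Complex.continuous_conj.comp c2))
    have hval : ∀ e : R.pr ⁻¹' V,
        (sg (R.ra i e.1) (R.rb i e.1) (r i (R.pr e.1)) (s i (R.pr e.1))).re = 1 ∨
        (sg (R.ra i e.1) (R.rb i e.1) (r i (R.pr e.1)) (s i (R.pr e.1))).re = -1 := by
      intro e
      rcases key e.1 e.2 i with h | h
      · left; rw [h.1, h.2, sg_self (hne i _ (hVU i e.2))]; simp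
      · right; rw [h.1, h.2, sg_neg (hne i _ (hVU i e.2))]; simp
    have hre := Complex.continuous_re.comp hc
    have ho1 : IsOpen {e : R.pr ⁻¹' V | 0 <
        (sg (R.ra i e.1) (R.rb i e.1) (r i (R.pr e.1)) (s i (R.pr e.1))).re} :=
      isOpen_lt continuous_const hre
    have ho2 : IsOpen {e : R.pr ⁻¹' V |
        (sg (R.ra i e.1) (R.rb i e.1) (r i (R.pr e.1)) (s i (R.pr e.1))).re < 0} :=
      isOpen_lt hre continuous_const
    rw [continuous_discrete_rng]
    intro b
    cases b
    · convert ho2 using 1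
      ext e
      simp only [sgn, mem_preimage, mem_singleton_iff, decide_eq_false_iff_not, not_lt, mem_setOf_eq]
      rcases hval e with h | h <;> rw [h] <;> norm_num
    · convert ho1 using 1
      ext e
      simp only [sgn, mem_preimage, mem_singleton_iff, decide_eq_true_eq, mem_setOf_eq]
  have hinv_cont : Continuous inv := by
    refine Continuous.subtype_mk (Continuous.subtype_mk ?_ _) _
    have hv : Continuous (fun p : V × (ι → Bool) => (p.1 : X)) := continuous_subtype_val.comp continuous_fst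
    have hbc : ∀ i, Continuous (fun p : V × (ι → Bool) => bs (p.2 i)) := fun i =>
      (continuous_of_discreteTopology (f := bs)).comp ((continuous_apply i).comp continuous_snd)
    refine hv.prodMk ((continuous_pi fun i => ?_).prodMk (continuous_pi fun i => ?_))
    · exact (hbc i).mul ((hr i).comp_continuous hv (fun p => hVU i p.1.2))
    · exact (hbc i).mul ((hs i).comp_continuous hv (fun p => hVU i p.1.2))
  have hEC : IsEvenlyCovered R.pr x (ι → Bool) := by
    refine ⟨inferInstance, V, hxV, hVo, hVo.preimage R.continuous_pr, ?_⟩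
    refine ⟨{ toFun := fun e => (⟨R.pr e.1, e.2⟩, sgn e)
              invFun := inv
              left_inv := ?_
              right_inv := ?_
              continuous_toFun := ?_
              continuous_invFun := hinv_cont }, fun e => rfl⟩
    · intro e
      refine Subtype.ext (R.ext' rfl ?_ ?_)
      · intro i
        change bs (sgn e i) * r i (R.pr e.1) = R.ra i e.1
        rcases key e.1 e.2 i with h | h
        · rw [sgn_true e i h, h.1]; simp [bs]
        · rw [sgn_false e i h, h.1]; simp [bs]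
      · intro i
        change bs (sgn e i) * s i (R.pr e.1) = R.rb i e.1
        rcases key e.1 e.2 i with h | h
        · rw [sgn_true e i h, h.2]; simp [bs]
        · rw [sgn_false e i h, h.2]; simp [bs]
    · intro p
      refine Prod.ext (Subtype.ext rfl) (funext fun i => ?_)
      change sgn (inv p) i = p.2 i
      by_cases hb : p.2 i = true
      · rw [hb]
        refine sgn_true (inv p) i ⟨?_, ?_⟩
        · change bs (p.2 i) * r i p.1.1 = r i p.1.1
          rw [hb]; simp [bs]
        · change bs (p.2 i) * s i p.1.1 = s i p.1.1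
          rw [hb]; simp [bs]
      · have hb' : p.2 i = false := by simpa using hb
        rw [hb']
        refine sgn_false (inv p) i ⟨?_, ?_⟩
        · change bs (p.2 i) * r i p.1.1 = -r i p.1.1
          rw [hb']; simp [bs]
        · change bs (p.2 i) * s i p.1.1 = -s i p.1.1
          rw [hb']; simp [bs]
    · exact (R.continuous_pr.comp continuous_subtype_val).subtype_mk _ |>.prodMk hsgn_cont
  exact hEC.to_isEvenlyCovered_preimage

end RD

end Crest.Agent.R272.Rcov_275
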