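import Crest.Agent.R272.Refl9_246
import Crest.Agent.R273.FS_333
import Crest.Agent.R273.PB_835

/-!
# R272, leaf MOD-QLB (helper246), part 10: the quotient by a holomorphic involution, with the line
bundle

`exists_projD_quot` : `(Z, B, q)` any quotient of `Y` by `σ` (open quotient map, fibres `{y, σ y}`,
holomorphic, universal property), `P : ProjD A`, `Q : LB B`, `T : PB q (lb P) Q` ⟹
`∃ P' : ProjD B, lb P' = Q ^ 2`;  `exists_pos_quot` : `∃ h : HM (Q ^ 2), h.Pos`.
-/

set_option autoImplicit false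
set_option linter.unusedSectionVars false

open Set Filter Topology
open scoped ContDiff

namespace Crest.Agent.R272.Refl_246

open Crest.Agent.R275.Geo Crest.Agent.R275.GC293 Crest.Agent.R275.Core144
open Crest.Agent.R273.Fam_835 Crest.Agent.R273.Map_835 Crest.Agent.R273.Defs_333
open Crest.Agent.R273.FS_333 Crest.Agent.R273.PB_835

noncomputable section

variable {n : ℕ}

/-! ### more transfer lemmas -/

section transfer

variable {Q Q' : Type} [TopologicalSpace Q] [TopologicalSpace Q'] {B : Fam n Q} {D : Fam n Q'}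
  {k : Q → Q'} {h : Q' → Q}

theorem diffAt_pull {F : Type} [NormedAddCommGroup F] [NormedSpace ℂ F] (hk : HolC B D k)
    {f : Q' → F} {m : Q} {b : B.ι} {c : D.ι} (hb : m ∈ (B.e b).source)
    (hc : k m ∈ (D.e c).source)
    (hd : DifferentiableAt ℂ (fun z => f ((D.e c).symm z)) (D.e c (k m))) :
    DifferentiableAt ℂ (fun z => f (k ((B.e b).symm z))) (B.e b m) := by
  have h1 : DifferentiableAt ℂ (fun z => D.e c (k ((B.e b).symm z))) (B.e b m) :=
    hk.diffAt (i := b) (j := c) ((B.e b).map_source hb) (by rw [(B.e b).left_inv hb]; exact hc)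
  have h2 : DifferentiableAt ℂ (fun z => f ((D.e c).symm z))
      (D.e c (k ((B.e b).symm (B.e b m)))) := by
    rw [(B.e b).left_inv hb]; exact hd
  have h3 := DifferentiableAt.comp (B.e b m) (g := fun z => f ((D.e c).symm z)) h2 h1
  refine h3.congr_of_eventuallyEq ?_
  have h4 : ∀ᶠ w in 𝓝 (B.e b m), k ((B.e b).symm w) ∈ (D.e c).source := by
    have h5 : ContinuousAt (fun w => k ((B.e b).symm w)) (B.e b m) :=
      hk.cont.continuousAt.comp ((B.e b).continuousAt_symm ((B.e b).map_source hb))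
    refine h5.preimage_mem_nhds ?_
    rw [(B.e b).left_inv hb]
    exact (D.e c).open_source.mem_nhds hc
  filter_upwards [h4] with w hw
  simp only [Function.comp]
  rw [(D.e c).left_inv hw]

theorem immAt_pull {κ : Type} [Fintype κ] [DecidableEq κ] (hk : HolC B D k) (hh : HolC D B h)
    (hhk : ∀ m, h (k m) = m)
    {f : Q' → κ → ℂ} {m : Q} {b : B.ι} {c : D.ι} (hb : m ∈ (B.e b).source)
    (hc : k m ∈ (D.e c).source)
    (hd : DifferentiableAt ℂ (fun z => f ((D.e c).symm z)) (D.e c (k m)))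
    (hi : ImmAt (fun z => f ((D.e c).symm z)) (D.e c (k m))) :
    ImmAt (fun z => f (k ((B.e b).symm z))) (B.e b m) := by
  have h1 : DifferentiableAt ℂ (fun z => D.e c (k ((B.e b).symm z))) (B.e b m) :=
    hk.diffAt (i := b) (j := c) ((B.e b).map_source hb) (by rw [(B.e b).left_inv hb]; exact hc)
  have h1' : DifferentiableAt ℂ (fun z => B.e b (h ((D.e c).symm z)))
      (D.e c (k ((B.e b).symm (B.e b m)))) := by
    rw [(B.e b).left_inv hb]
    refine hh.diffAt (i := c) (j := b) ((D.e c).map_source hc) ?_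
    rw [(D.e c).left_inv hc, hhk]
    exact hb
  have h2 : DifferentiableAt ℂ (fun z => f ((D.e c).symm z))
      (D.e c (k ((B.e b).symm (B.e b m)))) := by
    rw [(B.e b).left_inv hb]; exact hd
  have h4 : ∀ᶠ w in 𝓝 (B.e b m), k ((B.e b).symm w) ∈ (D.e c).source := by
    have h5 : ContinuousAt (fun w => k ((B.e b).symm w)) (B.e b m) :=
      hk.cont.continuousAt.comp ((B.e b).continuousAt_symm ((B.e b).map_source hb))
    refine h5.preimage_mem_nhds ?_
    rw [(B.e b).left_inv hb]
    exact (D.e c).open_source.mem_nhds hc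
  have h5 : Function.Injective (fderiv ℂ (fun z => D.e c (k ((B.e b).symm z))) (B.e b m)) := by
    refine injective_fderiv_of_inv h1 h1' ?_
    filter_upwards [h4, (B.e b).open_target.mem_nhds ((B.e b).map_source hb)] with w hw hw2
    rw [(D.e c).left_inv hw, hhk, (B.e b).right_inv hw2]
  have hi' : ImmAt (fun z => f ((D.e c).symm z)) (D.e c (k ((B.e b).symm (B.e b m)))) := by
    rw [(B.e b).left_inv hb]; exact hi
  refine (immAt_comp h2 h1 h5 hi').congr ?_
  filter_upwards [h4] with w hw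
  rw [(D.e c).left_inv hw]

/-- multiplication by a nonvanishing function -/
theorem ImmAt.smul {κ : Type} [Fintype κ] [DecidableEq κ] {f : Cn n → κ → ℂ} {a : Cn n → ℂ}
    {z : Cn n} (ha : DifferentiableAt ℂ a z) (ha0 : a z ≠ 0) (hf : DifferentiableAt ℂ f z)
    (hi : ImmAt f z) : ImmAt (fun w => a w • f w) z := by
  rintro v ⟨c, hc⟩
  have h1 := (ha.hasFDerivAt.smul hf.hasFDerivAt).fderiv
  have h2 : fderiv ℂ (fun w => a w • f w) z v = a z • fderiv ℂ f z v + fderiv ℂ a z v • f z := by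
    change fderiv ℂ (a • f) z v = _
    rw [h1]
    rfl
  rw [h2] at hc
  refine hi v ⟨c - (a z)⁻¹ * fderiv ℂ a z v, ?_⟩
  have h3 : a z • fderiv ℂ f z v = (c * a z - fderiv ℂ a z v) • f z := by
    rw [sub_smul, mul_smul, ← hc]
    abel
  have h4 : fderiv ℂ f z v = (a z)⁻¹ • (a z • fderiv ℂ f z v) := by
    rw [smul_smul, inv_mul_cancel₀ ha0, one_smul]
  rw [h4, h3, smul_smul]
  congr 1
  field_simp

end transfer

/-! ### sections over stable open sets -/

variable {Y : Type} [TopologicalSpace Y] {G : Type} [Group G] [MulAction G Y]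

/-- data for the symmetric sections over an `s`-stable open set -/
structure SD (A : Atl n Y) (s : G) (κ : Type) [Fintype κ] [DecidableEq κ] where
  f : Y → κ → ℂ
  U : Set Y
  hU : IsOpen U
  st : ∀ u ∈ U, s • u ∈ U
  hol : ∀ i, ∀ u ∈ U, u ∈ (A.e i).source →
    DifferentiableAt ℂ (fun z => f ((A.e i).symm z)) (A.e i u)
  imm : ∀ i, ∀ u ∈ U, u ∈ (A.e i).source → ImmAt (fun z => f ((A.e i).symm z)) (A.e i u)
  ne : ∀ u ∈ U, f u ≠ 0
  inj : ∀ u ∈ U, ∀ u' ∈ U, (∃ c : ℂ, f u = c • f u') → u = u'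

namespace SD

variable {A : Atl n Y} {s : G} {κ : Type} [Fintype κ] [DecidableEq κ] (D : SD A s κ)

/-- the symmetric matrix upstairs -/
def M (u : Y) : κ × κ → ℂ := sm (D.f u) (D.f (s • u))

theorem M_smul (hss : s * s = 1) (u : Y) : D.M (s • u) = D.M u := by
  have hss' : s • s • u = u := by rw [smul_smul, hss, one_smul]
  rw [M, M, hss', sm_comm]

/-- the section downstairs -/
def S (m : Orb G Y) : κ × κ → ℂ := D.M (Quotient.out m)

theorem S_pr (hss : s * s = 1) (hG : ∀ g : G, g = 1 ∨ g = s) (u : Y) : D.S (pr G u) = D.M u := by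
  have h1 : pr G (Quotient.out (pr G u)) = pr G u := Quotient.out_eq (pr G u)
  obtain ⟨g, hg⟩ := pr_eq_iff.1 h1
  rw [S]
  rcases hG g with h | h
  · rw [h, one_smul] at hg
    rw [hg]
  · rw [h] at hg
    rw [← hg, D.M_smul hss]
    congr 1
    rw [hg]

variable [ContinuousConstSMul G Y] [Nonempty Y]

theorem diff_f (c : RC G (fam A)) {u : Y} (hu : u ∈ D.U) (hc : u ∈ c.e.source) :
    DifferentiableAt ℂ (fun w => D.f (c.e.symm w)) (c.e u) := by
  obtain ⟨i, hi⟩ := A.cover u
  have h1 : DifferentiableAt ℂ (fun z => D.f ((A.e i).symm z)) (A.e i (c.e.symm (c.e u))) := by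
    rw [c.e.left_inv hc]
    exact D.hol i u hu hi
  have h2 : DifferentiableAt ℂ (fun w => A.e i (c.e.symm w)) (c.e u) :=
    c.diffAt (HolC.id (fam A)) (j := i) hc hi
  have h3 := DifferentiableAt.comp (c.e u) (g := fun z => D.f ((A.e i).symm z)) h1 h2
  refine h3.congr_of_eventuallyEq ?_
  have h4 : ∀ᶠ w in 𝓝 (c.e u), c.e.symm w ∈ (A.e i).source := by
    refine (c.e.continuousAt_symm (c.e.map_source hc)).preimage_mem_nhds ?_
    rw [c.e.left_inv hc]
    exact (A.e i).open_source.mem_nhds hi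
  filter_upwards [h4] with w hw
  simp only [Function.comp]
  rw [(A.e i).left_inv hw]

theorem diff_g (hG : ∀ g : G, HolC (fam A) (fam A) (fun y => g • y)) (c : RC G (fam A)) {u : Y}
    (hu : u ∈ D.U) (hc : u ∈ c.e.source) :
    DifferentiableAt ℂ (fun w => D.f (s • c.e.symm w)) (c.e u) := by
  obtain ⟨j, hj⟩ := A.cover (s • u)
  have h1 : DifferentiableAt ℂ (fun z => D.f ((A.e j).symm z))
      (A.e j (s • c.e.symm (c.e u))) := by
    rw [c.e.left_inv hc]
    exact D.hol j _ (D.st u hu) hj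
  have h2 : DifferentiableAt ℂ (fun w => A.e j (s • c.e.symm w)) (c.e u) :=
    c.diffAt (hG s) (j := j) hc hj
  have h3 := DifferentiableAt.comp (c.e u) (g := fun z => D.f ((A.e j).symm z)) h1 h2
  refine h3.congr_of_eventuallyEq ?_
  have h4 : ∀ᶠ w in 𝓝 (c.e u), s • c.e.symm w ∈ (A.e j).source := by
    have h5 : ContinuousAt (fun w => s • c.e.symm w) (c.e u) :=
      (c.e.continuousAt_symm (c.e.map_source hc)).const_smul s
    refine h5.preimage_mem_nhds ?_
    rw [c.e.left_inv hc]
    exact (A.e j).open_source.mem_nhds hj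
  filter_upwards [h4] with w hw
  simp only [Function.comp]
  rw [(A.e j).left_inv hw]

theorem imm_f (c : RC G (fam A)) {u : Y} (hu : u ∈ D.U) (hc : u ∈ c.e.source) :
    ImmAt (fun w => D.f (c.e.symm w)) (c.e u) := by
  obtain ⟨i, hi⟩ := A.cover u
  have h0 : ImmAt (fun z => D.f ((A.e i).symm z)) (A.e i (c.e.symm (c.e u))) := by
    rw [c.e.left_inv hc]
    exact D.imm i u hu hi
  have h1 : DifferentiableAt ℂ (fun z => D.f ((A.e i).symm z)) (A.e i (c.e.symm (c.e u))) := by
    rw [c.e.left_inv hc]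
    exact D.hol i u hu hi
  have h2 : DifferentiableAt ℂ (fun w => A.e i (c.e.symm w)) (c.e u) :=
    c.diffAt (HolC.id (fam A)) (j := i) hc hi
  have h3 : DifferentiableAt ℂ (fun w => c.e ((A.e i).symm w)) (A.e i (c.e.symm (c.e u))) := by
    rw [c.e.left_inv hc]
    exact c.diffAt' (HolC.id (fam A)) (j := i) hi hc
  have h4 : ∀ᶠ w in 𝓝 (c.e u), c.e.symm w ∈ (A.e i).source := by
    refine (c.e.continuousAt_symm (c.e.map_source hc)).preimage_mem_nhds ?_
    rw [c.e.left_inv hc]
    exact (A.e i).open_source.mem_nhds hi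
  have h5 : Function.Injective (fderiv ℂ (fun w => A.e i (c.e.symm w)) (c.e u)) := by
    refine injective_fderiv_of_inv h2 h3 ?_
    filter_upwards [h4, c.e.open_target.mem_nhds (c.e.map_source hc)] with w hw hw2
    rw [(A.e i).left_inv hw, c.e.right_inv hw2]
  refine (immAt_comp h1 h2 h5 h0).congr ?_
  filter_upwards [h4] with w hw
  rw [(A.e i).left_inv hw]

theorem continuousOn_S (hss : s * s = 1) (hs : ∀ g : G, g = 1 ∨ g = s)
    (hG : ∀ g : G, HolC (fam A) (fam A) (fun y => g • y))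
    (hcov : ∀ y : Y, ∃ c : RC G (fam A), y ∈ c.e.source) :
    ContinuousOn D.S (pr G '' D.U) := by
  have hM : ContinuousOn D.M D.U := by
    intro u hu
    obtain ⟨c, hc⟩ := hcov u
    have h1 : ContinuousAt (fun w => sm (D.f (c.e.symm w)) (D.f (s • c.e.symm w)))
        (c.e u) := (hasFDerivAt_sm (D.diff_f c hu hc) (D.diff_g hG c hu hc)).1.continuousAt
    have h2 : ContinuousAt (fun x => D.M (c.e.symm (c.e x))) u :=
      h1.comp (f := c.e) (c.e.continuousAt hc)
    refine (h2.congr ?_).continuousWithinAt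
    filter_upwards [c.e.open_source.mem_nhds hc] with x hx
    rw [c.e.left_inv hx]
  refine continuousOn_iff'.2 fun t ht => ?_
  obtain ⟨V, hV, hV2⟩ := continuousOn_iff'.1 hM t ht
  refine ⟨pr G '' (V ∩ D.U), isOpenQuotientMap_pr.isOpenMap _ (hV.inter D.hU), ?_⟩
  ext m
  constructor
  · rintro ⟨h1, u, hu, rfl⟩
    refine ⟨⟨u, ?_, rfl⟩, u, hu, rfl⟩
    rw [← hV2]
    refine ⟨?_, hu⟩
    rw [mem_preimage, ← D.S_pr hss hs u]
    exact h1
  · rintro ⟨⟨u, hu, rfl⟩, _⟩
    refine ⟨?_, u, hu.2, rfl⟩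
    rw [mem_preimage, D.S_pr hss hs u]
    rw [← hV2] at hu
    exact hu.1

theorem S_eventually (hss : s * s = 1) (hs : ∀ g : G, g = 1 ∨ g = s) (c : RC G (fam A)) (u : Y) :
    ∀ᶠ w in 𝓝 (c.e u), D.S (pr G (c.e.symm w)) =
      sm (D.f (c.e.symm w)) (D.f (s • c.e.symm w)) :=
  Eventually.of_forall fun _ => D.S_pr hss hs _

theorem diff_S (hss : s * s = 1) (hs : ∀ g : G, g = 1 ∨ g = s)
    (hG : ∀ g : G, HolC (fam A) (fam A) (fun y => g • y))
    (hcov : ∀ y : Y, ∃ c : RC G (fam A), y ∈ c.e.source) (c : RC G (fam A)) {z : Cn n}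
    (hz : z ∈ c.eM.target) (hzU : c.eM.symm z ∈ pr G '' D.U) :
    DifferentiableAt ℂ (fun z => D.S (c.eM.symm z)) z := by
  refine c.desc (isOpenQuotientMap_pr.isOpenMap _ D.hU) (D.continuousOn_S hss hs hG hcov)
    (fun u hu huU => ?_) hz hzU
  obtain ⟨u', hu', hu'u⟩ := huU
  obtain ⟨g, hg⟩ := pr_eq_iff.1 hu'u
  have huU : u ∈ D.U := by
    rcases hs g with h | h
    · rw [h, one_smul] at hg
      rw [← hg]; exact hu'
    · rw [← hg, h]
      exact D.st _ hu'
  exact (hasFDerivAt_sm (D.diff_f c huU hu) (D.diff_g hG c huU hu)).1.congr_of_eventuallyEq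
    (D.S_eventually hss hs c u)

/-- the chart of type `some (s', a)` has `s' = s` -/
theorem eq_of_some (hs : ∀ g : G, g = 1 ∨ g = s) (c : RC G (fam A)) {u : Y}
    (hc : u ∈ c.e.source) {s' : G} {a : Fin n} (hk : c.k = some (s', a)) : s' = s := by
  have htgt : ∀ᶠ w in 𝓝 (c.e u), w ∈ c.e.target :=
    c.e.open_target.mem_nhds (c.e.map_source hc)
  rcases hs s' with h | h
  · exfalso
    have h1 : ∀ᶠ w in 𝓝 (c.e u), rf a w = w := by
      filter_upwards [htgt] with w hw
      have h2 := c.ref s' a hk _ (c.e.map_target hw)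
      rw [h, one_smul, c.e.right_inv hw] at h2
      exact h2.symm
    have h2 : ∀ᶠ w in 𝓝 (c.e u), w a = 0 := by
      filter_upwards [h1] with w hw
      have h3 := congrArg (fun z : Cn n => z a) hw
      simp only [rf_same] at h3
      have h4 : (2 : ℂ) * w a = 0 := by linear_combination -h3
      rcases mul_eq_zero.1 h4 with h5 | h5
      · norm_num at h5
      · exact h5
    have h3 : Tendsto (fun τ : ℂ => c.e u + τ • (EuclideanSpace.single a (1 : ℂ) : Cn n))
        (𝓝 0) (𝓝 (c.e u)) := by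
      have : Continuous fun τ : ℂ => c.e u + τ • (EuclideanSpace.single a (1 : ℂ) : Cn n) := by
        fun_prop
      simpa using this.tendsto 0
    have h4 := h3.eventually h2
    have h5 : (c.e u) a = 0 := h2.self_of_nhds
    have h6 : ∀ᶠ τ : ℂ in 𝓝 0, τ = 0 := by
      filter_upwards [h4] with τ hτ
      simpa [h5] using hτ
    have h7 : ∀ᶠ τ : ℂ in 𝓝[≠] 0, τ = 0 := h6.filter_mono nhdsWithin_le_nhds
    obtain ⟨τ, hτ, hτ0⟩ := (h7.and self_mem_nhdsWithin).exists
    exact hτ0 hτ
  · exact h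

theorem imm_S (hs1 : s ≠ 1) (hss : s * s = 1) (hs : ∀ g : G, g = 1 ∨ g = s)
    (hG : ∀ g : G, HolC (fam A) (fam A) (fun y => g • y))
    (hcov : ∀ y : Y, ∃ c : RC G (fam A), y ∈ c.e.source) (c : RC G (fam A)) {u : Y}
    (hu : u ∈ D.U) (hc : u ∈ c.e.source) :
    ImmAt (fun z => D.S (c.eM.symm z)) (c.eM (pr G u)) := by
  have hf := D.diff_f c hu hc
  have hg := D.diff_g hG c hu hc
  have hfi := D.imm_f c hu hc
  have hf0 : D.f (c.e.symm (c.e u)) ≠ 0 := by
    rw [c.e.left_inv hc]
    exact D.ne u hu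
  have hS := D.S_eventually hss hs c u
  have hdS := D.diff_S hss hs hG hcov c (z := c.eM (pr G u))
    (c.eM.map_source (c.mem_eM_source hc)) (by
      rw [c.eM.left_inv (c.mem_eM_source hc)]
      exact mem_image_of_mem _ hu)
  have hnp : s • u ≠ u → ¬ ∃ a : ℂ, D.f (s • c.e.symm (c.e u)) =
      a • D.f (c.e.symm (c.e u)) := by
    rintro hne ⟨a, ha⟩
    rw [c.e.left_inv hc] at ha
    exact hne (D.inj _ (D.st u hu) _ hu ⟨a, ha⟩)
  have htgt : ∀ᶠ w in 𝓝 (c.e u), w ∈ c.e.target :=
    c.e.open_target.mem_nhds (c.e.map_source hc)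
  rw [c.eM_apply hc] at hdS ⊢
  rcases hk : c.k with _ | ⟨s', a⟩
  · simp only [qk_none, id]
    have hne : s • u ≠ u := fun h => hs1 (c.free hk s u hc (by rw [h]; exact hc))
    refine (immAt_sm hf hg hfi hf0 (hnp hne)).congr ?_
    filter_upwards [hS, htgt] with w hw hw2
    have h2 := c.eM_symm (c.e.map_target hw2)
    rw [c.e.right_inv hw2, hk, qk_none, id] at h2
    rw [h2, hw]
  · have hq : qk c.k = sq a := by rw [hk, qk_some]
    rw [hk] at hdS
    simp only [qk_some] at hdS ⊢
    have hs' : s' = s := eq_of_some hs c hc hk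
    subst hs'
    have hcomp : ∀ᶠ w in 𝓝 (c.e u), D.S (c.eM.symm (sq a w)) =
        sm (D.f (c.e.symm w)) (D.f (s' • c.e.symm w)) := by
      filter_upwards [hS, htgt] with w hw hw2
      have h2 := c.eM_symm (c.e.map_target hw2)
      rw [c.e.right_inv hw2, hq] at h2
      rw [h2, hw]
    by_cases hua : (c.e u) a = 0
    · refine immAt_mirror hua hf hfi hf0 hdS ?_
      filter_upwards [hcomp, htgt] with w hw hw2
      rw [hw]
      have h3 : c.e.symm (rf a w) = s' • c.e.symm w := by
        have h4 := c.ref s' a hk _ (c.e.map_target hw2)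
        rw [c.e.right_inv hw2] at h4
        rw [← h4, c.e.left_inv (c.inv s' a hk _ (c.e.map_target hw2))]
      rw [h3]
    · have hne : s' • u ≠ u := by
        intro h
        have h1 := c.ref s' a hk u hc
        rw [h] at h1
        have h3 := congrArg (fun z : Cn n => z a) h1
        simp only [rf_same] at h3
        have h4 : (2 : ℂ) * (c.e u) a = 0 := by linear_combination h3
        rcases mul_eq_zero.1 h4 with h5 | h5
        · norm_num at h5
        · exact hua h5
      refine immAt_of_comp (q := sq a) hdS (differentiable_sq a _) (surjective_fderiv_sq a hua) ?_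
      refine (immAt_sm hf hg hfi hf0 (hnp hne)).congr ?_
      filter_upwards [hcomp] with w hw
      exact hw.symm

end SD

end

end Crest.Agent.R272.Refl_246
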