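import Crest.Agent.R272.Refl10_246

/-!
# R272, leaf MOD-QLB (helper246), part 11: the quotient by a holomorphic involution, with the line
bundle

`exists_projD_quot` : `(Z, B, q)` any quotient of `Y` by `σ` (open quotient map, fibres `{y, σ y}`,
holomorphic, universal property), `P : ProjD A`, `Q : LB B`, `T : PB q (lb P) Q` ⟹
`∃ P' : ProjD B, lb P' = Q ^ 2`;  `exists_pos_quot` : `∃ h : HM (Q ^ 2), h.Pos`.
-/

set_option autoImplicit false
set_option linter.unusedSectionVars false

open Set Filter Topology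
open scoped ContDiff

namespace Crest.Agent.R272.Refl_246

open Crest.Agent.R275.Geo Crest.Agent.R275.GC293 Crest.Agent.R275.Core144
open Crest.Agent.R273.Fam_835 Crest.Agent.R273.Map_835 Crest.Agent.R273.Defs_333
open Crest.Agent.R273.FS_333 Crest.Agent.R273.PB_835

noncomputable section

variable {n : ℕ}

/-- the group of order two generated by an involution -/
theorem exists_group {Y : Type} [TopologicalSpace Y] [T2Space Y] [Nonempty Y] {A : Atl n Y}
    {σ : Y → Y} (hσ : HolMap A A σ) (hσσ : ∀ y, σ (σ y) = y) (hne : ∃ y, σ y ≠ y)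
    (hfix : ∀ y, σ y = y → ∃ i, y ∈ (A.e i).source ∧ ∃ (ℓ : Cn n →L[ℂ] ℂ) (v : Cn n), ℓ v = 2 ∧
      ∀ w, fderiv ℂ (fun z => A.e i (σ ((A.e i).symm z))) (A.e i y) w = w - ℓ w • v) :
    ∃ (G : Type) (_ : Group G) (_ : MulAction G Y) (_ : ContinuousConstSMul G Y) (s : G), s ≠ 1 ∧
      s * s = 1 ∧ (∀ g : G, g = 1 ∨ g = s) ∧ (∀ y : Y, s • y = σ y) ∧
      (∀ g : G, HolC (fam A) (fam A) (fun y => g • y)) ∧
      ∀ y : Y, ∃ c : RC G (fam A), y ∈ c.e.source := by
  classical
  let τ : Equiv.Perm Y := ⟨σ, σ, hσσ, hσσ⟩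
  have hτ : τ ^ (2 : ℤ) = 1 := by
    ext y
    rw [zpow_ofNat, pow_two]
    exact hσσ y
  let G := Subgroup.zpowers τ
  let s : G := ⟨τ, Subgroup.mem_zpowers τ⟩
  have hsm : ∀ y : Y, s • y = σ y := fun y => rfl
  have hs : ∀ g : G, g = 1 ∨ g = s := by
    rintro ⟨g, hg⟩
    obtain ⟨k, rfl⟩ := Subgroup.mem_zpowers_iff.1 hg
    rcases Int.even_or_odd' k with ⟨j, rfl | rfl⟩
    · left
      apply Subtype.ext
      change τ ^ (2 * j) = 1
      rw [zpow_mul, hτ, one_zpow]
    · right
      apply Subtype.ext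
      change τ ^ (2 * j + 1) = τ
      rw [zpow_add, zpow_mul, hτ, one_zpow, one_mul, zpow_one]
  have hs1 : s ≠ 1 := by
    intro h
    obtain ⟨y, hy⟩ := hne
    exact hy (by rw [← hsm, h, one_smul])
  have hss : s * s = 1 := by
    rcases hs (s * s) with h | h
    · exact h
    · exact absurd (mul_eq_left.1 h) hs1
  have _ := finite_of_two hs
  have hcc : ContinuousConstSMul G Y := ⟨fun g => by
    rcases hs g with h | h
    · rw [h]
      simp only [one_smul]
      exact continuous_id
    · rw [h]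
      exact hσ.cont⟩
  have hG : ∀ g : G, HolC (fam A) (fam A) (fun y => g • y) := by
    intro g
    rcases hs g with h | h
    · rw [h]
      simp only [one_smul]
      exact HolC.id _
    · rw [h]
      exact holC_iff.2 hσ
  refine ⟨G, inferInstance, inferInstance, hcc, s, hs1, hss, hs, hsm, hG, fun y => ?_⟩
  have hpd : PD G y := pd_of_finite y univ_mem (Set.toFinite _)
  by_cases hy : σ y = y
  · obtain ⟨i, hi, ℓ, v, hv, hd⟩ := hfix y hy
    exact exists_RC_deriv hpd hss (fun g _ => hs g) hy (hG s) (cpt_e (C := fam A) i) hi ℓ v hv hd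
  · refine exists_RC_free hpd fun g hg => ?_
    rcases hs g with h | h
    · exact h
    · exact absurd (by rw [h] at hg; exact hg) hy

/-- **MOD-QLB**: projectivity of the quotient by an involution, with the line bundle -/
theorem exists_projD_quot {Y Z : Type} [TopologicalSpace Y] [T2Space Y] [Nonempty Y]
    [TopologicalSpace Z] {A : Atl n Y} {B : Atl n Z} (P : ProjD A) {σ : Y → Y}
    (hσ : HolMap A A σ) (hσσ : ∀ y, σ (σ y) = y) (hne : ∃ y, σ y ≠ y)
    (hfix : ∀ y, σ y = y → ∃ i, y ∈ (A.e i).source ∧ ∃ (ℓ : Cn n →L[ℂ] ℂ) (v : Cn n), ℓ v = 2 ∧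
      ∀ w, fderiv ℂ (fun z => A.e i (σ ((A.e i).symm z))) (A.e i y) w = w - ℓ w • v)
    {q : Y → Z} (hq : IsOpenQuotientMap q) (hfib : ∀ y y', q y = q y' ↔ y = y' ∨ σ y = y')
    (hqh : HolMap A B q)
    (huniv : ∀ {m : ℕ} {N : Type} [TopologicalSpace N] {D : Fam m N} {f : Z → N},
      HolC (fam A) D (fun y => f (q y)) → HolC (fam B) D f)
    {Q : LB B} (T : PB q (lb P) Q) : ∃ P' : ProjD B, lb P' = Q ^ 2 := by
  classical
  obtain ⟨G, _, _, _, s, hs1, hss, hs, hsm, hG, hcov⟩ := exists_group hσ hσσ hne hfix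
  have hqs : ∀ u : Y, q (s • u) = q u := fun u => ((hfib u (s • u)).2 (Or.inr (hsm u).symm)).symm
  -- the sections in the frames of `Q`
  let f : B.ι → Y → Fin (P.N + 1) → ℂ := fun b u =>
    (T.c (PB.ch A u) b u)⁻¹ • P.F (PB.ch A u) u
  have hf : ∀ b i, ∀ u ∈ (A.e i).source, q u ∈ (B.e b).source →
      f b u = (T.c i b u)⁻¹ • P.F i u := by
    intro b i u hi hb
    have h1 := T.left i (PB.ch A u) b u ⟨hi, PB.ch_mem A u⟩ hb
    have h2 := gij_spec P (i := i) (j := PB.ch A u) ⟨hi, PB.ch_mem A u⟩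
    change gij P i (PB.ch A u) u * T.c (PB.ch A u) b u = T.c i b u at h1
    have h3 : gij P i (PB.ch A u) u ≠ 0 := (lb P).ne_zero i (PB.ch A u) u
    simp only [f]
    rw [← h1, h2, smul_smul]
    congr 1
    rw [mul_inv, mul_comm, ← mul_assoc, mul_inv_cancel₀ h3, one_mul]
  have hfb : ∀ b b' u, q u ∈ (B.e b).source → q u ∈ (B.e b').source →
      f b u = Q.g b b' (q u) • f b' u := by
    intro b b' u hb hb'
    obtain ⟨i, hi⟩ := A.cover u
    rw [hf b i u hi hb, hf b' i u hi hb', ← T.right i b b' u hi ⟨hb, hb'⟩, smul_smul]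
    congr 1
    rw [mul_inv, mul_comm (T.c i b u)⁻¹, ← mul_assoc, mul_inv_cancel₀ (Q.ne_zero b b' (q u)),
      one_mul]
  have hUo : ∀ b, IsOpen (q ⁻¹' (B.e b).source) := fun b => (B.e b).open_source.preimage hqh.cont
  have hc_d : ∀ b i, ∀ u ∈ (A.e i).source, q u ∈ (B.e b).source →
      DifferentiableAt ℂ (fun z => (T.c i b ((A.e i).symm z))⁻¹) (A.e i u) := by
    intro b i u hi hb
    refine ((T.hol i b).diffAt (hUo b) hi hb).inv ?_
    rw [(A.e i).left_inv hi]
    exact T.ne i b u hi hb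
  have hF_d : ∀ i, ∀ u ∈ (A.e i).source,
      DifferentiableAt ℂ (fun z => P.F i ((A.e i).symm z)) (A.e i u) := by
    intro i u hi
    rw [differentiableAt_pi]
    intro k
    exact (P.hol i k).diffAt isOpen_univ hi (mem_univ _)
  have hf_ev : ∀ b i, ∀ u ∈ (A.e i).source, q u ∈ (B.e b).source →
      (fun z => (T.c i b ((A.e i).symm z))⁻¹ • P.F i ((A.e i).symm z)) =ᶠ[𝓝 (A.e i u)]
        fun z => f b ((A.e i).symm z) := by
    intro b i u hi hb
    have h1 : (A.e i).target ∩ (A.e i).symm ⁻¹' (q ⁻¹' (B.e b).source) ∈ 𝓝 (A.e i u) := by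
      refine ((A.e i).isOpen_inter_preimage_symm (hUo b)).mem_nhds ⟨(A.e i).map_source hi, ?_⟩
      rw [mem_preimage, (A.e i).left_inv hi]
      exact hb
    filter_upwards [h1] with z hz
    exact (hf b i _ ((A.e i).map_target hz.1) hz.2).symm
  let D : B.ι → SD A s (Fin (P.N + 1)) := fun b =>
    { f := f b
      U := q ⁻¹' (B.e b).source
      hU := hUo b
      st := fun u hu => by rw [mem_preimage, hqs]; exact hu
      hol := fun i u hu hi =>
        ((hc_d b i u hi hu).smul (hF_d i u hi)).congr_of_eventuallyEq (hf_ev b i u hi hu).symm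
      imm := fun i u hu hi => by
        have h0 : (T.c i b ((A.e i).symm (A.e i u)))⁻¹ ≠ 0 := by
          rw [(A.e i).left_inv hi]
          exact inv_ne_zero (T.ne i b u hi hu)
        have h1 : ImmAt (fun z => P.F i ((A.e i).symm z)) (A.e i u) :=
          P.imm i _ ((A.e i).map_source hi)
        exact (ImmAt.smul (hc_d b i u hi hu) h0 (hF_d i u hi) h1).congr (hf_ev b i u hi hu)
      ne := fun u hu => by
        obtain ⟨i, hi⟩ := A.cover u
        rw [hf b i u hi hu]
        exact smul_ne_zero (inv_ne_zero (T.ne i b u hi hu)) (P.ne i u hi)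
      inj := fun u hu u' hu' hc => by
        obtain ⟨c, hc⟩ := hc
        obtain ⟨i, hi⟩ := A.cover u
        obtain ⟨j, hj⟩ := A.cover u'
        rw [hf b i u hi hu, hf b j u' hj hu', smul_smul] at hc
        refine P.inj i j u hi u' hj ⟨T.c i b u * (c * (T.c j b u')⁻¹), ?_⟩
        rw [mul_smul, ← hc, smul_smul, mul_inv_cancel₀ (T.ne i b u hi hu), one_smul] }
  have hDf : ∀ b, (D b).f = f b := fun b => rfl
  have hDU : ∀ b, (D b).U = q ⁻¹' (B.e b).source := fun b => rfl
  -- the identification with the orbit space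
  have hpr : ∀ y y' : Y, pr G y = pr G y' ↔ q y = q y' := by
    intro y y'
    rw [pr_eq_iff, hfib]
    constructor
    · rintro ⟨g, hg⟩
      rcases hs g with h | h
      · left
        rw [← hg, h, one_smul]
      · right
        rw [← hg, h, hsm]
    · rintro (h | h)
      · exact ⟨1, by rw [one_smul, h]⟩
      · exact ⟨s, by rw [hsm, h]⟩
  let k : Z → Orb G Y := fun m => pr G (Function.surjInv hq.surjective m)
  have hkq : ∀ y, k (q y) = pr G y := fun y =>
    (hpr _ _).2 (Function.surjInv_eq hq.surjective (q y))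
  let h : Orb G Y → Z := fun m => q (Quotient.out m)
  have hhpr : ∀ y, h (pr G y) = q y := fun y => by
    have : pr G (Quotient.out (pr G y)) = pr G y := Quotient.out_eq (pr G y)
    exact (hpr _ _).1 this
  have hhk : ∀ m, h (k m) = m := by
    intro m
    obtain ⟨y, rfl⟩ := hq.surjective m
    rw [hkq, hhpr]
  have hkC : HolC (fam B) (qFam hG hcov) k := by
    refine huniv ?_
    have : (fun y => k (q y)) = pr G := funext hkq
    rw [this]
    exact holC_pi hG hcov
  have hhC : HolC (qFam hG hcov) (fam B) h := by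
    refine holC_desc hG hcov ?_
    have : (fun y => h (pr G y)) = q := funext hhpr
    rw [this]
    exact holC_iff.2 hqh
  -- values
  have hval : ∀ b u, (D b).S (k (q u)) = sm (f b u) (f b (s • u)) := by
    intro b u
    rw [hkq, (D b).S_pr hss hs u]
    rfl
  have hinj : ∀ {κ κ' : Type} (e : κ' ≃ κ) (f g : κ → ℂ) (c : ℂ),
      (fun a => f (e a)) = c • (fun a => g (e a)) → f = c • g := by
    intro κ κ' e f g c h
    funext a
    have := congrFun h (e.symm a)
    simpa using this
  have hd0 : ∀ b, ∀ m ∈ (B.e b).source, ∀ c : RC G (fam A), k m ∈ c.eM.source →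
      DifferentiableAt ℂ (fun z => (D b).S (c.eM.symm z)) (c.eM (k m)) := by
    intro b m hm c hc
    refine (D b).diff_S hss hs hG hcov c (c.eM.map_source hc) ?_
    rw [c.eM.left_inv hc]
    obtain ⟨u, rfl⟩ := hq.surjective m
    rw [hkq]
    exact mem_image_of_mem _ hm
  have hdB : ∀ b, ∀ m ∈ (B.e b).source,
      DifferentiableAt ℂ (fun z => (D b).S (k ((B.e b).symm z))) (B.e b m) := by
    intro b m hm
    obtain ⟨c, hc⟩ := (qFam hG hcov).cover (k m)
    exact diffAt_pull (B := fam B) (D := qFam hG hcov) (b := b) (c := c) hkC hm hc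
      (hd0 b m hm c hc)
  have htr : ∀ b b', ∀ m ∈ (B.e b).source ∩ (B.e b').source,
      (D b).S (k m) = (Q.g b b' m * Q.g b b' m) • (D b').S (k m) := by
    intro b b' m hm
    obtain ⟨u, rfl⟩ := hq.surjective m
    rw [hval, hval, hfb b b' u hm.1 hm.2,
      hfb b b' (s • u) (by rw [hqs]; exact hm.1) (by rw [hqs]; exact hm.2), hqs]
    funext p
    simp only [sm, Pi.smul_apply, smul_eq_mul]
    ring
  let P' : ProjD B :=
    { N := P.N * (P.N + 2)
      F := fun b m a => (D b).S (k m) (idx P.N a)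
      hol := by
        intro b a z hz
        have h1 := hdB b _ ((B.e b).map_target hz.1)
        rw [(B.e b).right_inv hz.1] at h1
        exact (differentiableAt_pi.1 h1 (idx P.N a)).differentiableWithinAt
      ne := by
        intro b m hm h0
        obtain ⟨u, rfl⟩ := hq.surjective m
        have h1 : (D b).S (k (q u)) = 0 := by
          have := hinj (idx P.N) ((D b).S (k (q u))) 0 0 (by rw [zero_smul]; exact h0)
          rw [zero_smul] at this
          exact this
        rw [hval] at h1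
        exact sm_ne_zero ((D b).ne u hm) ((D b).ne _ ((D b).st u hm)) h1
      tr := fun b b' m hm => ⟨Q.g b b' m * Q.g b b' m, funext fun a =>
        congrFun (htr b b' m hm) (idx P.N a)⟩
      inj := by
        rintro b b' m hm m' hm' ⟨c, hc⟩
        obtain ⟨u, rfl⟩ := hq.surjective m
        obtain ⟨u', rfl⟩ := hq.surjective m'
        have h1 := hinj (idx P.N) _ _ c hc
        rw [hval, hval] at h1
        obtain ⟨i, hi⟩ := A.cover u
        obtain ⟨i', hi'⟩ := A.cover (s • u)
        obtain ⟨j, hj⟩ := A.cover u'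
        have hpp : ∀ (w : Y) (l : A.ι), w ∈ (A.e l).source → q w ∈ (B.e b).source →
            (∃ a : ℂ, f b w = a • f b' u') → w = u' := by
          rintro w l hl hw ⟨a, ha⟩
          rw [hf b l w hl hw, hf b' j u' hj hm', smul_smul] at ha
          refine P.inj l j w hl u' hj ⟨T.c l b w * (a * (T.c j b' u')⁻¹), ?_⟩
          rw [mul_smul, ← ha, smul_smul, mul_inv_cancel₀ (T.ne l b w hl hw), one_smul]
        rcases prop_of_sm ((D b').ne u' hm') h1 with h2 | h2
        · rw [hpp u i hi hm h2]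
        · rw [← hpp (s • u) i' hi' (by rw [hqs]; exact hm) h2, hqs]
      imm := by
        intro b z hz
        have hm := (B.e b).map_target hz
        set m := (B.e b).symm z with hmz
        have hz' : B.e b m = z := (B.e b).right_inv hz
        obtain ⟨u0, hum⟩ := hq.surjective m
        obtain ⟨c, hc⟩ := hcov u0
        have hkm : k m = pr G u0 := by rw [← hum, hkq]
        have hmc : k m ∈ c.eM.source := by rw [hkm]; exact c.mem_eM_source hc
        have hu0 : u0 ∈ (D b).U := by rw [hDU, mem_preimage, hum]; exact hm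
        have hi : ImmAt (fun z => (D b).S (c.eM.symm z)) (c.eM (k m)) := by
          rw [hkm]
          exact (D b).imm_S hs1 hss hs hG hcov c hu0 hc
        have h7 := immAt_pull (B := fam B) (D := qFam hG hcov) (b := b) (c := c) hkC hhC hhk hm
          hmc (hd0 b m hm c hmc) hi
        have h8 := ImmAt.reindex (idx P.N) (hdB b m hm) h7
        have h9 : ImmAt (fun w a => (D b).S (k ((B.e b).symm w)) (idx P.N a)) z := by
          rw [← hz']; exact h8
        exact h9 }
  refine ⟨P', ?_⟩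
  ext b b' m
  rw [pow_two, LB.mul_g]
  by_cases hm : m ∈ (B.e b).source ∩ (B.e b').source
  · obtain ⟨a, ha⟩ := exists_F_ne P' hm.2
    have h1 := congrFun (gij_spec P' hm) a
    have h2 := congrFun (htr b b' m hm) (idx P.N a)
    change P'.F b m a = (Q.g b b' m * Q.g b b' m) * P'.F b' m a at h2
    rw [Pi.smul_apply, smul_eq_mul] at h1
    rw [h2] at h1
    exact (mul_right_cancel₀ ha h1).symm
  · rw [(lb P').off b b' m hm, Q.off b b' m hm, one_mul]

/-- positive metric on `Q ^ 2` -/
theorem exists_pos_quot {Y Z : Type} [TopologicalSpace Y] [T2Space Y] [Nonempty Y]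
    [TopologicalSpace Z] {A : Atl n Y} {B : Atl n Z} (P : ProjD A) {σ : Y → Y}
    (hσ : HolMap A A σ) (hσσ : ∀ y, σ (σ y) = y) (hne : ∃ y, σ y ≠ y)
    (hfix : ∀ y, σ y = y → ∃ i, y ∈ (A.e i).source ∧ ∃ (ℓ : Cn n →L[ℂ] ℂ) (v : Cn n), ℓ v = 2 ∧
      ∀ w, fderiv ℂ (fun z => A.e i (σ ((A.e i).symm z))) (A.e i y) w = w - ℓ w • v)
    {q : Y → Z} (hq : IsOpenQuotientMap q) (hfib : ∀ y y', q y = q y' ↔ y = y' ∨ σ y = y')
    (hqh : HolMap A B q)
    (huniv : ∀ {m : ℕ} {N : Type} [TopologicalSpace N] {D : Fam m N} {f : Z → N},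
      HolC (fam A) D (fun y => f (q y)) → HolC (fam B) D f)
    {Q : LB B} (T : PB q (lb P) Q) : ∃ h : HM (Q ^ 2), h.Pos := by
  obtain ⟨P', hP'⟩ := exists_projD_quot P hσ hσσ hne hfix hq hfib hqh huniv T
  rw [← hP']
  exact ⟨fs P', fs_pos P'⟩

end

end Crest.Agent.R272.Refl_246
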