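import Crest.Agent.R272.Refl1_246

/-!
# R272, leaf MOD-REFL (helper246), part 2: the quotient of a complex manifold by a group all of
whose non-trivial stabilisers are generated by a reflection

`RC C G`      : a chart `e` of the family `C` in which `G` acts freely (`k = none`) or through one
                reflection `s` (`k = some (s, a)`, `e (s • u) = rf a (e u)`);
`RC.eM`       : the induced chart of the orbit space;
`RC.desc`     : holomorphy of a function of the orbit space can be checked upstairs;
`qFam`        : the family of charts of the orbit space;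
`holC_pi`, `holC_desc` : the projection is holomorphic, invariant holomorphic maps descend.
-/

set_option autoImplicit false
set_option linter.unusedSectionVars false

open Set Filter Topology
open scoped ContDiff

namespace Crest.Agent.R272.Refl_246

open Crest.Agent.R275.Geo Crest.Agent.R273.Fam_835

noncomputable section

variable {n : ℕ}

/-- local inverse of `sq a` -/
theorem exists_sqrt (a : Fin n) {w : Cn n} (hw : w a ≠ 0) : ∃ r : Cn n → Cn n, r (sq a w) = w ∧
    DifferentiableAt ℂ r (sq a w) ∧ ∀ᶠ z in 𝓝 (sq a w), sq a (r z) = z := by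
  let c : ℂ → ℂ := fun t => w a * (t / w a ^ 2) ^ (1 / 2 : ℂ)
  have hw2 : w a ^ 2 ≠ 0 := pow_ne_zero 2 hw
  have hc1 : c (w a ^ 2) = w a := by simp [c, div_self hw2]
  have hc2 : ∀ t, c t ^ 2 = t := by
    intro t
    simp only [c, mul_pow]
    have : ((t / w a ^ 2) ^ (1 / 2 : ℂ)) ^ 2 = t / w a ^ 2 := by
      rw [← Complex.cpow_nat_mul]
      norm_num
    rw [this, mul_div_cancel₀ _ hw2]
  have hc3 : DifferentiableAt ℂ c (w a ^ 2) := by
    refine DifferentiableAt.const_mul ?_ _
    refine DifferentiableAt.cpow (by fun_prop) (by fun_prop) ?_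
    rw [div_self hw2]
    exact Complex.one_mem_slitPlane
  refine ⟨fun z => up a (c (z a)) z, ?_, ?_, ?_⟩
  · simp only [sq_same, hc1]
    rw [sq, up_up, up_self]
  · have h1 : DifferentiableAt ℂ (fun z : Cn n => (c (z a), z)) (sq a w) := by
      refine DifferentiableAt.prodMk ?_ differentiableAt_id
      refine DifferentiableAt.comp (sq a w) (g := c) (f := fun z : Cn n => z a) ?_ (by fun_prop)
      simpa using hc3
    exact (differentiable_up a _).comp _ h1
  · refine Eventually.of_forall fun z => ?_
    rw [sq, up_same, up_up, hc2, up_self]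

variable {Y : Type} [TopologicalSpace Y] {G : Type} [Group G] [MulAction G Y]

/-- the local quotient map of type `k` -/
def qk (k : Option (G × Fin n)) : Cn n → Cn n :=
  match k with
  | none => id
  | some p => sq p.2

@[simp] theorem qk_none : qk (none : Option (G × Fin n)) = id := rfl
@[simp] theorem qk_some (s : G) (a : Fin n) : qk (some (s, a)) = sq a := rfl

theorem differentiable_qk (k : Option (G × Fin n)) : Differentiable ℂ (qk k) := by
  cases k with
  | none => exact differentiable_id
  | some p => exact differentiable_sq p.2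

theorem isOpenMap_qk (k : Option (G × Fin n)) : IsOpenMap (qk k) := by
  cases k with
  | none => exact IsOpenMap.id
  | some p => exact isOpenMap_sq p.2

variable (C : Fam n Y) (G)

/-- charts adapted to the action -/
structure RC where
  e : OpenPartialHomeomorph Y (Cn n)
  hol : ∀ j, DifferentiableOn ℂ (fun z => C.e j (e.symm z)) (e.target ∩ e.symm ⁻¹' (C.e j).source)
  holi : ∀ j, DifferentiableOn ℂ (fun z => e ((C.e j).symm z))
    ((C.e j).target ∩ (C.e j).symm ⁻¹' e.source)
  k : Option (G × Fin n)
  free : k = none → ∀ g : G, ∀ u ∈ e.source, g • u ∈ e.source → g = 1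
  inv : ∀ s a, k = some (s, a) → ∀ u ∈ e.source, s • u ∈ e.source
  ref : ∀ s a, k = some (s, a) → ∀ u ∈ e.source, e (s • u) = rf a (e u)
  two : ∀ s a, k = some (s, a) → ∀ g : G, ∀ u ∈ e.source, g • u ∈ e.source → g = 1 ∨ g = s

variable {C G}

/-- the orbit space -/
abbrev Orb (G Y : Type) [Group G] [MulAction G Y] : Type := Quotient (MulAction.orbitRel G Y)

/-- the projection to the orbit space -/
def pr (G : Type) {Y : Type} [Group G] [MulAction G Y] : Y → Orb G Y :=
  Quotient.mk (MulAction.orbitRel G Y)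

theorem pr_eq_iff {y y' : Y} : pr G y = pr G y' ↔ ∃ g : G, g • y = y' := by
  unfold pr
  rw [Quotient.eq, MulAction.orbitRel_apply, MulAction.mem_orbit_iff]
  constructor
  · rintro ⟨g, hg⟩
    exact ⟨g⁻¹, by rw [← hg, inv_smul_smul]⟩
  · rintro ⟨g, hg⟩
    exact ⟨g⁻¹, by rw [← hg, inv_smul_smul]⟩

@[simp] theorem pr_smul (g : G) (y : Y) : pr G (g • y) = pr G y :=
  (pr_eq_iff.2 ⟨g, rfl⟩).symm

theorem isOpenQuotientMap_pr [ContinuousConstSMul G Y] : IsOpenQuotientMap (pr G : Y → Orb G Y) :=
  ⟨Quotient.mk_surjective, continuous_quot_mk, isOpenMap_quotient_mk'_mul⟩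

theorem surjective_pr : Function.Surjective (pr G : Y → Orb G Y) := Quotient.mk_surjective

namespace RC

variable (c : RC G C)

theorem sep {u v : Y} (hu : u ∈ c.e.source) (hv : v ∈ c.e.source) :
    qk c.k (c.e u) = qk c.k (c.e v) ↔ pr G u = pr G v := by
  rw [pr_eq_iff]
  rcases hk : c.k with _ | ⟨s, a⟩
  · simp only [qk_none, id]
    constructor
    · intro h
      exact ⟨1, by rw [one_smul]; exact c.e.injOn hu hv h⟩
    · rintro ⟨g, hg⟩
      have : g = 1 := c.free hk g u hu (by rw [hg]; exact hv)
      rw [this, one_smul] at hg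
      rw [hg]
  · simp only [qk_some]
    rw [sq_eq_iff]
    constructor
    · rintro (h | h)
      · exact ⟨1, by rw [one_smul]; exact (c.e.injOn hv hu h).symm⟩
      · refine ⟨s, c.e.injOn (c.inv s a hk u hu) hv ?_⟩
        rw [c.ref s a hk u hu, h]
    · rintro ⟨g, hg⟩
      rcases c.two s a hk g u hu (by rw [hg]; exact hv) with h | h
      · rw [h, one_smul] at hg
        left; rw [hg]
      · right
        rw [← hg, h, c.ref s a hk u hu]

variable [ContinuousConstSMul G Y] [Nonempty Y]

theorem exists_eM : ∃ e : OpenPartialHomeomorph (Orb G Y) (Cn n),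
    e.source = pr G '' c.e.source ∧ e.target = (fun u => qk c.k (c.e u)) '' c.e.source ∧
      ∀ u ∈ c.e.source, e (pr G u) = qk c.k (c.e u) := by
  have : Nonempty (Orb G Y) := ⟨pr G (Classical.arbitrary Y)⟩
  refine exists_quot_chart (π := pr G) isOpenQuotientMap_pr c.e.open_source
    (φ := fun u => qk c.k (c.e u)) ?_ ?_ ?_
  · exact (differentiable_qk c.k).continuous.comp_continuousOn c.e.continuousOn
  · intro V hV hVo
    have h1 : (fun u => qk c.k (c.e u)) '' V = qk c.k '' (c.e '' V) := by
      rw [image_image]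
    rw [h1]
    exact isOpenMap_qk c.k _ (c.e.isOpen_image_of_subset_source hVo hV)
  · intro u hu v hv
    exact c.sep hu hv

/-- the chart of the orbit space -/
def eM : OpenPartialHomeomorph (Orb G Y) (Cn n) := c.exists_eM.choose

theorem eM_source : c.eM.source = pr G '' c.e.source := c.exists_eM.choose_spec.1
theorem eM_target : c.eM.target = (fun u => qk c.k (c.e u)) '' c.e.source :=
  c.exists_eM.choose_spec.2.1
theorem eM_apply {u : Y} (hu : u ∈ c.e.source) : c.eM (pr G u) = qk c.k (c.e u) :=
  c.exists_eM.choose_spec.2.2 u hu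

theorem mem_eM_source {u : Y} (hu : u ∈ c.e.source) : pr G u ∈ c.eM.source := by
  rw [eM_source]
  exact mem_image_of_mem _ hu

theorem eM_symm {u : Y} (hu : u ∈ c.e.source) : c.eM.symm (qk c.k (c.e u)) = pr G u := by
  rw [← c.eM_apply hu, c.eM.left_inv (c.mem_eM_source hu)]

/-- **descent**: holomorphy on the orbit space may be checked upstairs -/
theorem desc {F : Type} [NormedAddCommGroup F] [NormedSpace ℂ F] [CompleteSpace F]
    {h : Orb G Y → F} {V : Set (Orb G Y)} (hV : IsOpen V) (hc : ContinuousOn h V)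
    (hd : ∀ u ∈ c.e.source, pr G u ∈ V →
      DifferentiableAt ℂ (fun w => h (pr G (c.e.symm w))) (c.e u))
    {z : Cn n} (hz : z ∈ c.eM.target) (hzV : c.eM.symm z ∈ V) :
    DifferentiableAt ℂ (fun z => h (c.eM.symm z)) z := by
  have hW : IsOpen (c.eM.target ∩ c.eM.symm ⁻¹' V) := c.eM.isOpen_inter_preimage_symm hV
  rcases hk : c.k with _ | ⟨s, a⟩
  · -- free
    have hzt := hz
    rw [c.eM_target] at hzt
    obtain ⟨u, hu, rfl⟩ := hzt
    rw [c.eM_symm hu] at hzV
    have h1 := hd u hu hzV
    simp only [hk, qk_none, id]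
    refine h1.congr_of_eventuallyEq ?_
    filter_upwards [c.e.open_target.mem_nhds (c.e.map_source hu)] with w hw
    have h2 := c.eM_symm (c.e.map_target hw)
    rw [c.e.right_inv hw, hk, qk_none, id] at h2
    rw [h2]
  · refine differentiableAt_of_coord a ?_ ?_
    · filter_upwards [hW.mem_nhds ⟨hz, hzV⟩] with z' hz'
      have h1 : ContinuousAt h (c.eM.symm z') := hc.continuousAt (hV.mem_nhds hz'.2)
      exact h1.comp (f := c.eM.symm) (c.eM.continuousAt_symm hz'.1)
    · filter_upwards [hW.mem_nhds ⟨hz, hzV⟩] with z' hz' hza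
      obtain ⟨h1, h2⟩ := hz'
      rw [c.eM_target] at h1
      obtain ⟨u, hu, rfl⟩ := h1
      rw [mem_preimage, c.eM_symm hu] at h2
      have hq : qk c.k = sq a := by rw [hk, qk_some]
      simp only [hq] at hza ⊢
      have hua : (c.e u) a ≠ 0 := by
        intro h0
        rw [sq_same, h0] at hza
        norm_num at hza
      obtain ⟨r, hr1, hr2, hr3⟩ := exists_sqrt a hua
      have h3 : DifferentiableAt ℂ (fun w => h (pr G (c.e.symm w))) (r (sq a (c.e u))) := by
        rw [hr1]
        exact hd u hu h2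
      have h4 : DifferentiableAt ℂ ((fun w => h (pr G (c.e.symm w))) ∘ r) (sq a (c.e u)) :=
        h3.comp _ hr2
      refine h4.congr_of_eventuallyEq ?_
      have h5 : ∀ᶠ z in 𝓝 (sq a (c.e u)), r z ∈ c.e.target := by
        refine hr2.continuousAt.preimage_mem_nhds ?_
        rw [hr1]
        exact c.e.open_target.mem_nhds (c.e.map_source hu)
      filter_upwards [h5, hr3] with z'' h6 h7
      have h8 := c.eM_symm (c.e.map_target h6)
      rw [c.e.right_inv h6, hq, h7] at h8
      simp only [Function.comp]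
      rw [h8]

end RC

/-! ### the family of charts of the orbit space -/

section Fam

variable [ContinuousConstSMul G Y] [Nonempty Y]

/-- `p ∘ c.e.symm` is holomorphic if `p` is -/
theorem RC.diffAt (c : RC G C) {m : ℕ} {N : Type} [TopologicalSpace N] {D : Fam m N} {p : Y → N}
    (hp : HolC C D p) {j : D.ι} {u : Y} (hu : u ∈ c.e.source) (hj : p u ∈ (D.e j).source) :
    DifferentiableAt ℂ (fun w => D.e j (p (c.e.symm w))) (c.e u) := by
  obtain ⟨i, hi⟩ := C.cover u
  have h1 : DifferentiableAt ℂ (fun w => C.e i (c.e.symm w)) (c.e u) := by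
    refine (c.hol i).differentiableAt ((c.e.isOpen_inter_preimage_symm
      (C.e i).open_source).mem_nhds ⟨c.e.map_source hu, ?_⟩)
    rw [mem_preimage, c.e.left_inv hu]
    exact hi
  have h2 : DifferentiableAt ℂ (fun z => D.e j (p ((C.e i).symm z))) (C.e i (c.e.symm (c.e u))) := by
    rw [c.e.left_inv hu]
    refine hp.diffAt ((C.e i).map_source hi) ?_
    rw [(C.e i).left_inv hi]
    exact hj
  have h3 := DifferentiableAt.comp (c.e u) (g := fun z => D.e j (p ((C.e i).symm z))) h2 h1
  refine h3.congr_of_eventuallyEq ?_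
  have h4 : ∀ᶠ w in 𝓝 (c.e u), c.e.symm w ∈ (C.e i).source := by
    refine (c.e.continuousAt_symm (c.e.map_source hu)).preimage_mem_nhds ?_
    rw [c.e.left_inv hu]
    exact (C.e i).open_source.mem_nhds hi
  filter_upwards [h4] with w hw
  simp only [Function.comp]
  rw [(C.e i).left_inv hw]

/-- `c.e ∘ p` is holomorphic if `p` is -/
theorem RC.diffAt' (c : RC G C) {m : ℕ} {N : Type} [TopologicalSpace N] {D : Fam m N} {p : N → Y}
    (hp : HolC D C p) {j : D.ι} {v : N} (hv : v ∈ (D.e j).source) (hc : p v ∈ c.e.source) :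
    DifferentiableAt ℂ (fun w => c.e (p ((D.e j).symm w))) (D.e j v) := by
  obtain ⟨i, hi⟩ := C.cover (p v)
  have h1 : DifferentiableAt ℂ (fun w => C.e i (p ((D.e j).symm w))) (D.e j v) := by
    refine hp.diffAt ((D.e j).map_source hv) ?_
    rw [(D.e j).left_inv hv]
    exact hi
  have h2 : DifferentiableAt ℂ (fun z => c.e ((C.e i).symm z)) (C.e i (p ((D.e j).symm (D.e j v)))) := by
    rw [(D.e j).left_inv hv]
    refine (c.holi i).differentiableAt (((C.e i).isOpen_inter_preimage_symm
      c.e.open_source).mem_nhds ⟨(C.e i).map_source hi, ?_⟩)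
    rw [mem_preimage, (C.e i).left_inv hi]
    exact hc
  have h3 := DifferentiableAt.comp (D.e j v) (g := fun z => c.e ((C.e i).symm z)) h2 h1
  refine h3.congr_of_eventuallyEq ?_
  have h4 : ∀ᶠ w in 𝓝 (D.e j v), p ((D.e j).symm w) ∈ (C.e i).source := by
    have h5 : ContinuousAt (fun w => p ((D.e j).symm w)) (D.e j v) :=
      (hp.cont.continuousAt).comp (f := (D.e j).symm)
        ((D.e j).continuousAt_symm ((D.e j).map_source hv))
    refine h5.preimage_mem_nhds ?_
    rw [(D.e j).left_inv hv]
    exact (C.e i).open_source.mem_nhds hi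
  filter_upwards [h4] with w hw
  simp only [Function.comp]
  rw [(C.e i).left_inv hw]

/-- the change of adapted charts composed with a group element -/
theorem RC.diffAt_smul (hG : ∀ g : G, HolC C C (fun y => g • y)) (c c' : RC G C) (g : G) {u : Y}
    (hu : u ∈ c.e.source) (hg : g • u ∈ c'.e.source) :
    DifferentiableAt ℂ (fun w => c'.e (g • c.e.symm w)) (c.e u) := by
  obtain ⟨i, hi⟩ := C.cover u
  have h1 : DifferentiableAt ℂ (fun w => C.e i (c.e.symm w)) (c.e u) :=
    c.diffAt (HolC.id C) hu hi
  have h2 : DifferentiableAt ℂ (fun w => c'.e (g • ((C.e i).symm w))) (C.e i u) :=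
    c'.diffAt' (hG g) hi hg
  have h2' : DifferentiableAt ℂ (fun w => c'.e (g • ((C.e i).symm w))) (C.e i (c.e.symm (c.e u))) := by
    rw [c.e.left_inv hu]; exact h2
  have h3 := DifferentiableAt.comp (c.e u) (g := fun w => c'.e (g • ((C.e i).symm w))) h2' h1
  refine h3.congr_of_eventuallyEq ?_
  have h4 : ∀ᶠ w in 𝓝 (c.e u), c.e.symm w ∈ (C.e i).source := by
    refine (c.e.continuousAt_symm (c.e.map_source hu)).preimage_mem_nhds ?_
    rw [c.e.left_inv hu]
    exact (C.e i).open_source.mem_nhds hi
  filter_upwards [h4] with w hw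
  simp only [Function.comp]
  rw [(C.e i).left_inv hw]

variable (hG : ∀ g : G, HolC C C (fun y => g • y)) (hcov : ∀ y : Y, ∃ c : RC G C, y ∈ c.e.source)

/-- **the orbit space as a complex manifold** -/
def qFam : Fam n (Orb G Y) where
  ι := RC G C
  e c := c.eM
  cover m := by
    obtain ⟨y, rfl⟩ := surjective_pr (G := G) m
    obtain ⟨c, hc⟩ := hcov y
    exact ⟨c, c.mem_eM_source hc⟩
  holo c c' := by
    intro z hz
    refine (c.desc c'.eM.open_source c'.eM.continuousOn (fun u hu huV => ?_) hz.1
      hz.2).differentiableWithinAt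
    rw [c'.eM_source] at huV
    obtain ⟨v, hv, hvu⟩ := huV
    obtain ⟨g, hg⟩ := pr_eq_iff.1 hvu.symm
    have hgu : g • u ∈ c'.e.source := by rw [hg]; exact hv
    have h1 := RC.diffAt_smul hG c c' g hu hgu
    have h2 : DifferentiableAt ℂ (fun w => qk c'.k (c'.e (g • c.e.symm w))) (c.e u) :=
      (differentiable_qk c'.k _).comp (c.e u) h1
    refine h2.congr_of_eventuallyEq ?_
    have h4 : ∀ᶠ w in 𝓝 (c.e u), g • c.e.symm w ∈ c'.e.source := by
      have h5 : ContinuousAt (fun w => g • c.e.symm w) (c.e u) :=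
        (c.e.continuousAt_symm (c.e.map_source hu)).const_smul g
      refine h5.preimage_mem_nhds ?_
      rw [c.e.left_inv hu]
      exact c'.e.open_source.mem_nhds hgu
    filter_upwards [h4] with w hw
    rw [← c'.eM_apply hw, pr_smul]

/-- the projection is holomorphic -/
theorem holC_pi : HolC C (qFam hG hcov) (pr G) := by
  refine holC_of_local isOpenQuotientMap_pr.continuous fun y => ?_
  obtain ⟨c, hc⟩ := hcov y
  obtain ⟨i, hi⟩ := C.cover y
  refine ⟨i, c, hi, c.mem_eM_source hc, ?_⟩
  have h1 : DifferentiableAt ℂ (fun w => c.e ((C.e i).symm w)) (C.e i y) :=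
    c.diffAt' (HolC.id C) hi hc
  have h2 : DifferentiableAt ℂ (fun w => qk c.k (c.e ((C.e i).symm w))) (C.e i y) :=
    (differentiable_qk c.k _).comp (C.e i y) h1
  refine h2.congr_of_eventuallyEq ?_
  have h4 : ∀ᶠ w in 𝓝 (C.e i y), (C.e i).symm w ∈ c.e.source := by
    refine ((C.e i).continuousAt_symm ((C.e i).map_source hi)).preimage_mem_nhds ?_
    rw [(C.e i).left_inv hi]
    exact c.e.open_source.mem_nhds hc
  filter_upwards [h4] with w hw
  exact c.eM_apply hw

/-- invariant holomorphic maps descend -/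
theorem holC_desc {m : ℕ} {N : Type} [TopologicalSpace N] {D : Fam m N} {f : Orb G Y → N}
    (hf : HolC C D (fun y => f (pr G y))) : HolC (qFam hG hcov) D f := by
  have hcf : Continuous f := isOpenQuotientMap_pr.isQuotientMap.continuous_iff.2 hf.cont
  refine ⟨hcf, fun c j => ?_⟩
  intro z hz
  have hV : IsOpen (f ⁻¹' (D.e j).source) := (D.e j).open_source.preimage hcf
  refine (RC.desc c hV (h := fun m => D.e j (f m)) ?_ (fun u hu huV => ?_) hz.1
    hz.2).differentiableWithinAt
  · exact (D.e j).continuousOn.comp hcf.continuousOn fun x hx => hx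
  · exact c.diffAt hf hu huV

end Fam

end

end Crest.Agent.R272.Refl_246
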