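import Crest.Agent.R272.Refl3_246

/-!
# R272, leaf MOD-REFL (helper246), part 4: Cartan linearisation

`exists_RC_deriv` : adapted chart at a fixed point `y` of `s` (`s * s = 1`, stabiliser `{1, s}`)
from the derivative `w ↦ w - ℓ w • v` of `s` at `y` in some chart `φ`.
-/

set_option autoImplicit false
set_option linter.unusedSectionVars false

open Set Filter Topology
open scoped ContDiff

namespace Crest.Agent.R272.Refl_246

open Crest.Agent.R275.Geo Crest.Agent.R273.Fam_835

noncomputable section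

variable {n : ℕ} {Y : Type} [TopologicalSpace Y] {C : Fam n Y}

/-- `p` read in compatible charts is holomorphic -/
theorem Cpt.diffAt {m : ℕ} {N : Type} [TopologicalSpace N] {D : Fam m N}
    {φ : OpenPartialHomeomorph Y (Cn n)} {ψ : OpenPartialHomeomorph N (Cn m)} (hφ : Cpt C φ)
    (hψ : Cpt D ψ) {p : Y → N} (hp : HolC C D p) {u : Y} (hu : u ∈ φ.source)
    (hj : p u ∈ ψ.source) : DifferentiableAt ℂ (fun w => ψ (p (φ.symm w))) (φ u) := by
  obtain ⟨i, hi⟩ := C.cover u
  obtain ⟨j, hj'⟩ := D.cover (p u)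
  have h1 : DifferentiableAt ℂ (fun w => C.e i (φ.symm w)) (φ u) := by
    refine (hφ.hol i).differentiableAt ((φ.isOpen_inter_preimage_symm
      (C.e i).open_source).mem_nhds ⟨φ.map_source hu, ?_⟩)
    rw [mem_preimage, φ.left_inv hu]
    exact hi
  have h2 : DifferentiableAt ℂ (fun z => D.e j (p ((C.e i).symm z))) (C.e i (φ.symm (φ u))) := by
    rw [φ.left_inv hu]
    refine hp.diffAt ((C.e i).map_source hi) ?_
    rw [(C.e i).left_inv hi]
    exact hj'
  have h3 : DifferentiableAt ℂ (fun z => ψ ((D.e j).symm z))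
      (D.e j (p ((C.e i).symm (C.e i (φ.symm (φ u)))))) := by
    rw [φ.left_inv hu, (C.e i).left_inv hi]
    refine (hψ.holi j).differentiableAt (((D.e j).isOpen_inter_preimage_symm
      ψ.open_source).mem_nhds ⟨(D.e j).map_source hj', ?_⟩)
    rw [mem_preimage, (D.e j).left_inv hj']
    exact hj
  have h4 := DifferentiableAt.comp (φ u) (g := fun z => D.e j (p ((C.e i).symm z))) h2 h1
  have h5 := DifferentiableAt.comp (φ u) (g := fun z => ψ ((D.e j).symm z)) h3 h4
  refine h5.congr_of_eventuallyEq ?_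
  have h6 : ∀ᶠ w in 𝓝 (φ u), φ.symm w ∈ (C.e i).source ∩ p ⁻¹' (D.e j).source := by
    refine (φ.continuousAt_symm (φ.map_source hu)).preimage_mem_nhds ?_
    rw [φ.left_inv hu]
    exact ((C.e i).open_source.inter ((D.e j).open_source.preimage hp.cont)).mem_nhds ⟨hi, hj'⟩
  filter_upwards [h6] with w hw
  simp only [Function.comp]
  rw [(C.e i).left_inv hw.1, (D.e j).left_inv hw.2]

/-- change of coordinates by an analytic local homeomorphism -/
theorem Cpt.transAn {φ : OpenPartialHomeomorph Y (Cn n)} (hφ : Cpt C φ)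
    {T : OpenPartialHomeomorph (Cn n) (Cn n)} (hT : DifferentiableOn ℂ T T.source)
    (hT' : DifferentiableOn ℂ T.symm T.target) : Cpt C (φ.trans T) := by
  constructor
  · intro j z hz
    have hz1 : z ∈ T.target ∧ T.symm z ∈ φ.target := by
      have := hz.1
      rw [OpenPartialHomeomorph.trans_target] at this
      exact this
    have h1 : DifferentiableAt ℂ T.symm z := hT'.differentiableAt (T.open_target.mem_nhds hz1.1)
    have h2 : DifferentiableAt ℂ (fun z => C.e j (φ.symm z)) (T.symm z) :=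
      (hφ.hol j).differentiableAt ((φ.isOpen_inter_preimage_symm
        (C.e j).open_source).mem_nhds ⟨hz1.2, hz.2⟩)
    exact (h2.comp z h1).differentiableWithinAt
  · intro j z hz
    have hz1 : (C.e j).symm z ∈ φ.source ∧ φ ((C.e j).symm z) ∈ T.source := by
      have := hz.2
      rw [mem_preimage, OpenPartialHomeomorph.trans_source] at this
      exact this
    have h1 : DifferentiableAt ℂ (fun z => φ ((C.e j).symm z)) z :=
      (hφ.holi j).differentiableAt (((C.e j).isOpen_inter_preimage_symm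
        φ.open_source).mem_nhds ⟨hz.1, hz1.1⟩)
    have h2 : DifferentiableAt ℂ T (φ ((C.e j).symm z)) :=
      hT.differentiableAt (T.open_source.mem_nhds hz1.2)
    exact (h2.comp z h1).differentiableWithinAt

variable {G : Type} [Group G] [MulAction G Y]

/-- **Cartan**: adapted chart from the derivative at the fixed point -/
theorem exists_RC_deriv [ContinuousConstSMul G Y] {y : Y} (hpd : PD G y) {s : G}
    (hs2 : s * s = 1) (hst : ∀ g : G, g • y = y → g = 1 ∨ g = s) (hsy : s • y = y)
    (hs : HolC C C (fun u : Y => s • u))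
    {φ : OpenPartialHomeomorph Y (Cn n)} (hφ : Cpt C φ) (hy : y ∈ φ.source)
    (ℓ : Cn n →L[ℂ] ℂ) (v : Cn n) (hv : ℓ v = 2)
    (hd : ∀ w, fderiv ℂ (fun z => φ (s • φ.symm z)) (φ y) w = w - ℓ w • v) :
    ∃ c : RC G C, y ∈ c.e.source := by
  set S : Cn n → Cn n := fun z => φ (s • φ.symm z) with hS
  set p : Cn n := φ y with hp
  have hss : ∀ u : Y, s • s • u = u := fun u => by rw [smul_smul, hs2, one_smul]
  have hcs : Continuous fun u : Y => s • u := continuous_const_smul s
  have hSp : S p = p := by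
    simp only [hS, hp]
    rw [φ.left_inv hy, hsy]
  -- the good open set
  let W : Set Y := φ.source ∩ (fun u => s • u) ⁻¹' φ.source
  have hW : IsOpen W := φ.open_source.inter (φ.open_source.preimage hcs)
  have hyW : y ∈ W := ⟨hy, by rw [mem_preimage]; simp only [hsy]; exact hy⟩
  have hSd : ∀ u ∈ W, DifferentiableAt ℂ S (φ u) := fun u hu => hφ.diffAt hφ hs hu.1 hu.2
  let L : Cn n →L[ℂ] Cn n := ContinuousLinearMap.id ℂ (Cn n) - ℓ.smulRight v
  have hL : ∀ w, L w = w - ℓ w • v := fun w => rfl
  have hLL : ∀ w, L (L w) = w := by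
    intro w
    rw [hL, hL, map_sub, map_smul, hv, smul_eq_mul, sub_sub, ← add_smul]
    have : ℓ w + (ℓ w - ℓ w * 2) = 0 := by ring
    rw [this, zero_smul, sub_zero]
  let T : Cn n → Cn n := fun z => (1 / 2 : ℂ) • ((z - p) + L (S z - p))
  have hU : φ.target ∩ φ.symm ⁻¹' W ∈ 𝓝 p := by
    refine (φ.isOpen_inter_preimage_symm hW).mem_nhds ⟨φ.map_source hy, ?_⟩
    rw [mem_preimage, φ.left_inv hy]
    exact hyW
  have hSd' : ∀ z ∈ φ.target ∩ φ.symm ⁻¹' W, DifferentiableAt ℂ S z := by
    intro z hz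
    have := hSd _ hz.2
    rwa [φ.right_inv hz.1] at this
  have hTd : ∀ z ∈ φ.target ∩ φ.symm ⁻¹' W, DifferentiableAt ℂ T z := by
    intro z hz
    have h1 := hSd' z hz
    have h2 : DifferentiableAt ℂ (fun z => L (S z - p)) z :=
      L.differentiableAt.comp z (h1.sub_const p)
    exact ((differentiableAt_id.sub_const p).add h2).const_smul (1 / 2 : ℂ)
  have hTan : AnalyticAt ℂ T p :=
    Crest.Agent.R266.SCV.analyticAt_of_eventually_differentiableAt (mem_of_superset hU hTd)
  have hS' : HasFDerivAt S L p := by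
    have h1 := (hSd' p (mem_of_mem_nhds hU)).hasFDerivAt
    have h2 : fderiv ℂ S p = L := by
      ext1 w
      rw [hd w, hL]
    rwa [h2] at h1
  have hT' : HasFDerivAt T ((ContinuousLinearEquiv.refl ℂ (Cn n) : Cn n ≃L[ℂ] Cn n) :
      Cn n →L[ℂ] Cn n) p := by
    have h1 : HasFDerivAt (fun z => L (S z - p)) (L.comp L) p :=
      L.hasFDerivAt.comp p (hS'.sub_const p)
    have h2 := (((hasFDerivAt_id p).sub_const p).add h1).const_smul (1 / 2 : ℂ)
    refine h2.congr_fderiv ?_
    ext1 w
    simp only [smul_apply, add_apply,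
      ContinuousLinearMap.coe_id', id_eq, ContinuousLinearMap.comp_apply, hLL,
      ContinuousLinearEquiv.coe_refl]
    rw [← two_smul ℂ w, smul_smul]
    norm_num
  obtain ⟨E, hE1, hE2, hE3, hE4, hE5⟩ :=
    Crest.Agent.R266.SCV.exists_analytic_openPartialHomeomorph hTan _ hT' hU
  have hc : Cpt C (φ.trans E) := hφ.transAn hE4.differentiableOn hE5.differentiableOn
  have hψ : ∀ u, (φ.trans E) u = T (φ u) := fun u => hE3 _
  refine exists_RC_lin hpd hs2 hst hsy hc (φ := φ.trans E) ?_ ℓ v hv ?_
  · rw [OpenPartialHomeomorph.trans_source]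
    exact ⟨hy, hE1⟩
  · filter_upwards [hW.mem_nhds hyW] with u hu
    rw [hψ, hψ]
    have h1 : S (φ u) = φ (s • u) := by simp only [hS]; rw [φ.left_inv hu.1]
    have h2 : S (φ (s • u)) = φ u := by simp only [hS]; rw [φ.left_inv hu.2, hss]
    have h3 : T (φ (s • u)) = L (T (φ u)) := by
      simp only [T, h1, h2, map_smul, map_add, hLL]
      rw [add_comm]
    rw [h3, hL]

end

end Crest.Agent.R272.Refl_246
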