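import Crest.Agent.R272.Refl4_246
import Crest.Agent.R272.Refl5_246

/-!
# R272, leaf MOD-REFL (helper246), part 6: projectivity of the quotient by a reflection-like
involution

Immersion criteria for `S(u) = sm (v u) (v (s u))`, `v` an immersion to a projective space.
-/

set_option autoImplicit false
set_option linter.unusedSectionVars false

open Set Filter Topology Matrix
open scoped ContDiff

namespace Crest.Agent.R272.Refl_246

open Crest.Agent.R275.Geo Crest.Agent.R273.Fam_835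

noncomputable section

variable {n : ℕ} {κ : Type} [Fintype κ] [DecidableEq κ]

/-- projective immersion at a point, in coordinates -/
def ImmAt (f : Cn n → κ → ℂ) (z : Cn n) : Prop :=
  ∀ v : Cn n, (∃ c : ℂ, fderiv ℂ f z v = c • f z) → v = 0

/-- derivative of a symmetric product -/
theorem hasFDerivAt_sm {f g : Cn n → κ → ℂ} {z : Cn n} (hf : DifferentiableAt ℂ f z)
    (hg : DifferentiableAt ℂ g z) :
    DifferentiableAt ℂ (fun w => sm (f w) (g w)) z ∧
      ∀ v, fderiv ℂ (fun w => sm (f w) (g w)) z v =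
        sm (fderiv ℂ f z v) (g z) + sm (f z) (fderiv ℂ g z v) := by
  have hf' : ∀ k, HasFDerivAt (fun w => f w k)
      ((ContinuousLinearMap.proj k).comp (fderiv ℂ f z)) z := fun k =>
    (ContinuousLinearMap.proj k : (κ → ℂ) →L[ℂ] ℂ).hasFDerivAt.comp z hf.hasFDerivAt
  have hg' : ∀ k, HasFDerivAt (fun w => g w k)
      ((ContinuousLinearMap.proj k).comp (fderiv ℂ g z)) z := fun k =>
    (ContinuousLinearMap.proj k : (κ → ℂ) →L[ℂ] ℂ).hasFDerivAt.comp z hg.hasFDerivAt
  have h1 : HasFDerivAt (fun w => sm (f w) (g w))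
      (ContinuousLinearMap.pi fun p : κ × κ =>
        (f z p.1 • ((ContinuousLinearMap.proj p.2).comp (fderiv ℂ g z)) +
          g z p.2 • ((ContinuousLinearMap.proj p.1).comp (fderiv ℂ f z))) +
        (f z p.2 • ((ContinuousLinearMap.proj p.1).comp (fderiv ℂ g z)) +
          g z p.1 • ((ContinuousLinearMap.proj p.2).comp (fderiv ℂ f z)))) z := by
    rw [hasFDerivAt_pi]
    intro p
    exact ((hf' p.1).mul (hg' p.2)).add ((hf' p.2).mul (hg' p.1))
  refine ⟨h1.differentiableAt, fun v => ?_⟩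
  rw [h1.fderiv]
  funext p
  simp only [ContinuousLinearMap.coe_pi', Pi.add_apply, sm]
  simp only [_root_.add_apply, _root_.smul_apply, ContinuousLinearMap.comp_apply,
    ContinuousLinearMap.proj_apply, smul_eq_mul]
  ring

theorem qf_zero (t : κ → ℂ) : qf t 0 = 0 := by simp [qf]

/-- free point: `v`, `v'` not proportional -/
theorem immAt_sm {f g : Cn n → κ → ℂ} {z : Cn n} (hf : DifferentiableAt ℂ f z)
    (hg : DifferentiableAt ℂ g z) (hfi : ImmAt f z) (hf0 : f z ≠ 0)
    (hfg : ¬ ∃ a : ℂ, g z = a • f z) : ImmAt (fun w => sm (f w) (g w)) z := by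
  rintro v ⟨c, hc⟩
  obtain ⟨_, h1⟩ := hasFDerivAt_sm hf hg
  rw [h1] at hc
  refine hfi v ?_
  refine (prop_or_prop (v := f z) (x := fderiv ℂ f z v) (y := g z) hf0 fun t ht => ?_).resolve_right
    hfg
  have h2 := congrArg (qf t) hc
  rw [qf_add, qf_smul, qf_sm, qf_sm, qf_sm, ht] at h2
  have h3 : 2 * ((fderiv ℂ f z v ⬝ᵥ t) * (g z ⬝ᵥ t)) = 0 := by linear_combination h2
  rcases mul_eq_zero.1 h3 with h4 | h4
  · norm_num at h4
  · exact h4

/-- change of coordinates: if `h ∘ q` is immersive at `w` and `dq` is onto, so is `h` at `q w` -/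
theorem immAt_of_comp {h : Cn n → κ → ℂ} {q : Cn n → Cn n} {w : Cn n}
    (hh : DifferentiableAt ℂ h (q w)) (hq : DifferentiableAt ℂ q w)
    (hs : Function.Surjective (fderiv ℂ q w)) (hi : ImmAt (fun x => h (q x)) w) :
    ImmAt h (q w) := by
  rintro v ⟨c, hc⟩
  obtain ⟨x, rfl⟩ := hs v
  have h1 : fderiv ℂ (fun x => h (q x)) w = (fderiv ℂ h (q w)).comp (fderiv ℂ q w) :=
    fderiv_comp w hh hq
  have h2 : x = 0 := hi x ⟨c, by rw [h1]; exact hc⟩
  rw [h2, map_zero]

/-- change of coordinates: if `h` is immersive at `q w` and `dq` is injective, so is `h ∘ q` -/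
theorem immAt_comp {h : Cn n → κ → ℂ} {q : Cn n → Cn n} {w : Cn n}
    (hh : DifferentiableAt ℂ h (q w)) (hq : DifferentiableAt ℂ q w)
    (hs : Function.Injective (fderiv ℂ q w)) (hi : ImmAt h (q w)) :
    ImmAt (fun x => h (q x)) w := by
  rintro v ⟨c, hc⟩
  have h1 : fderiv ℂ (fun x => h (q x)) w = (fderiv ℂ h (q w)).comp (fderiv ℂ q w) :=
    fderiv_comp w hh hq
  have h2 : fderiv ℂ q w v = 0 := hi _ ⟨c, by rw [h1] at hc; exact hc⟩
  exact hs (by rw [h2, map_zero])

theorem ImmAt.congr {f g : Cn n → κ → ℂ} {z : Cn n} (h : f =ᶠ[𝓝 z] g) (hf : ImmAt f z) :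
    ImmAt g z := by
  rintro v ⟨c, hc⟩
  refine hf v ⟨c, ?_⟩
  rw [h.fderiv_eq, hc, h.eq_of_nhds]

/-- the differential of `sq a` off the mirror is onto -/
theorem surjective_fderiv_sq (a : Fin n) {w : Cn n} (hw : w a ≠ 0) :
    Function.Surjective (fderiv ℂ (sq a) w) := by
  obtain ⟨r, hr1, hr2, hr3⟩ := exists_sqrt a hw
  have h1 : fderiv ℂ (fun z => sq a (r z)) (sq a w) = ContinuousLinearMap.id ℂ (Cn n) := by
    have : (fun z => sq a (r z)) =ᶠ[𝓝 (sq a w)] id := hr3
    rw [this.fderiv_eq, fderiv_id]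
  have h2 : fderiv ℂ (fun z => sq a (r z)) (sq a w) =
      (fderiv ℂ (sq a) (r (sq a w))).comp (fderiv ℂ r (sq a w)) :=
    fderiv_comp _ (differentiable_sq a _) hr2
  intro v
  refine ⟨fderiv ℂ r (sq a w) v, ?_⟩
  have h3 := congrArg (fun T : Cn n →L[ℂ] Cn n => T v) (h2.symm.trans h1)
  simp only [ContinuousLinearMap.comp_apply, hr1] at h3
  exact h3

/-- derivative of a scalar function along a line -/
theorem hasDerivAt_line {f : Cn n → ℂ} {w : Cn n} (hf : DifferentiableAt ℂ f w) (v : Cn n) :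
    HasDerivAt (fun τ : ℂ => f (w + τ • v)) (fderiv ℂ f w v) 0 := by
  have h1 : HasFDerivAt f (fderiv ℂ f w) (w + (0 : ℂ) • v) := by simpa using hf.hasFDerivAt
  have h2 : HasDerivAt (fun τ : ℂ => w + τ • v) v 0 := by
    simpa using ((hasDerivAt_id (0 : ℂ)).smul_const v).const_add w
  exact h1.comp_hasDerivAt (0 : ℂ) h2

theorem tendsto_slope {f : ℂ → ℂ} {f' : ℂ} (h : HasDerivAt f f' 0) :
    Tendsto (fun τ => τ⁻¹ * (f τ - f 0)) (𝓝[≠] 0) (𝓝 f') := by
  have := h.tendsto_slope_zero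
  simpa using this

/-- **mirror point** -/
theorem immAt_mirror {f : Cn n → κ → ℂ} {h : Cn n → κ × κ → ℂ} {a : Fin n} {w : Cn n}
    (hw : w a = 0) (hf : DifferentiableAt ℂ f w) (hfi : ImmAt f w) (hf0 : f w ≠ 0)
    (hh : DifferentiableAt ℂ h (sq a w))
    (he : ∀ᶠ x in 𝓝 w, h (sq a x) = sm (f x) (f (rf a x))) :
    ∀ v : Cn n, (∃ c : ℂ, fderiv ℂ h (sq a w) v = c • h (sq a w)) → v = 0 := by
  rintro v ⟨c, hc⟩
  have hrw : rf a w = w := by
    rw [rf, hw, neg_zero, ← hw, up_self]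
  have hsw : sq a w = w := by
    rw [sq, hw]
    have : (0 : ℂ) ^ 2 = w a := by rw [hw]; norm_num
    rw [this, up_self]
  have hh' : DifferentiableAt ℂ h w := by rwa [hsw] at hh
  have hval : h w = sm (f w) (f w) := by
    have := he.self_of_nhds
    rwa [hsw, hrw] at this
  -- the scalar functions
  have hqd : ∀ t : κ → ℂ, DifferentiableAt ℂ (fun z => qf t (h z)) w := by
    intro t
    have h1 : ∀ p : κ × κ, DifferentiableAt ℂ (fun z => h z p) w := fun p =>
      (differentiableAt_pi.1 hh') p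
    unfold qf
    refine DifferentiableAt.fun_sum fun p _ => (h1 p).const_mul _
  have hqf : ∀ (t : κ → ℂ) (x : Cn n), fderiv ℂ (fun z => qf t (h z)) w x =
      qf t (fderiv ℂ h w x) := by
    intro t x
    let Q : (κ × κ → ℂ) →L[ℂ] ℂ := ∑ p : κ × κ, (t p.1 * t p.2) • ContinuousLinearMap.proj p
    have hQ : ∀ m, Q m = qf t m := by
      intro m
      simp [Q, qf]
    have h1 : (fun z => qf t (h z)) = fun z => Q (h z) := by
      funext z
      rw [hQ]
    have h2 : fderiv ℂ (fun z => Q (h z)) w = Q.comp (fderiv ℂ h w) :=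
      (Q.hasFDerivAt.comp w hh'.hasFDerivAt).fderiv
    rw [h1, h2, ContinuousLinearMap.comp_apply, hQ]
  have hfd : ∀ t : κ → ℂ, DifferentiableAt ℂ (fun z => f z ⬝ᵥ t) w := by
    intro t
    have h1 : ∀ k : κ, DifferentiableAt ℂ (fun z => f z k) w := fun k =>
      (differentiableAt_pi.1 hf) k
    unfold dotProduct
    refine DifferentiableAt.fun_sum fun k _ => (h1 k).mul_const _
  have hfdd : ∀ (t : κ → ℂ) (x : Cn n), fderiv ℂ (fun z => f z ⬝ᵥ t) w x =
      fderiv ℂ f w x ⬝ᵥ t := by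
    intro t x
    let Q : (κ → ℂ) →L[ℂ] ℂ := ∑ k : κ, t k • ContinuousLinearMap.proj k
    have hQ : ∀ m, Q m = m ⬝ᵥ t := by
      intro m
      simp [Q, dotProduct, mul_comm]
    have h1 : (fun z => f z ⬝ᵥ t) = fun z => Q (f z) := by
      funext z
      rw [hQ]
    have h2 : fderiv ℂ (fun z => Q (f z)) w = Q.comp (fderiv ℂ f w) :=
      (Q.hasFDerivAt.comp w hf.hasFDerivAt).fderiv
    rw [h1, h2, ContinuousLinearMap.comp_apply, hQ]
  -- the value on curves
  have hcurve : ∀ (t : κ → ℂ) (x : Cn n) , ∀ᶠ τ in 𝓝 (0 : ℂ),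
      qf t (h (sq a (w + τ • x))) = 2 * ((f (w + τ • x) ⬝ᵥ t) * (f (rf a (w + τ • x)) ⬝ᵥ t)) := by
    intro t x
    have h1 : Tendsto (fun τ : ℂ => w + τ • x) (𝓝 0) (𝓝 w) := by
      have : Continuous fun τ : ℂ => w + τ • x := by fun_prop
      simpa using this.tendsto 0
    filter_upwards [h1.eventually he] with τ hτ
    rw [hτ, qf_sm]
  set ea : Cn n := EuclideanSpace.single a (1 : ℂ) with hea
  -- direction `ea`
  have hdir : ∀ t : κ → ℂ, f w ⬝ᵥ t = 0 →
      qf t (fderiv ℂ h w ea) = -2 * (fderiv ℂ f w ea ⬝ᵥ t) ^ 2 := by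
    intro t ht
    have h1 := tendsto_slope (hasDerivAt_line (hqd t) ea)
    rw [hqf] at h1
    simp only [zero_smul, add_zero] at h1
    have h0 : qf t (h w) = 0 := by rw [hval, qf_sm, ht]; ring
    rw [h0] at h1
    simp only [sub_zero] at h1
    have hsqt : Tendsto (fun τ : ℂ => τ ^ 2) (𝓝[≠] 0) (𝓝[≠] 0) := by
      rw [tendsto_nhdsWithin_iff]
      constructor
      · have : Tendsto (fun τ : ℂ => τ ^ 2) (𝓝 0) (𝓝 (0 ^ 2)) := (continuous_pow 2).tendsto 0
        rw [zero_pow two_ne_zero] at this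
        exact this.mono_left nhdsWithin_le_nhds
      · filter_upwards [self_mem_nhdsWithin] with τ hτ
        exact pow_ne_zero 2 hτ
    have h2 := h1.comp hsqt
    have h3 := tendsto_slope (hasDerivAt_line (hfd t) ea)
    have h4 := tendsto_slope (hasDerivAt_line (hfd t) (-ea))
    rw [hfdd] at h3 h4
    simp only [zero_smul, add_zero, ht, sub_zero] at h3 h4
    have h5 := (h3.mul h4).const_mul 2
    have h6 : (fun τ : ℂ => 2 * (τ⁻¹ * (f (w + τ • ea) ⬝ᵥ t) * (τ⁻¹ * (f (w + τ • -ea) ⬝ᵥ t))))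
        =ᶠ[𝓝[≠] 0] ((fun τ => τ⁻¹ * qf t (h (w + τ • ea))) ∘ fun τ => τ ^ 2) := by
      filter_upwards [(hcurve t ea).filter_mono nhdsWithin_le_nhds, self_mem_nhdsWithin] with τ hτ hτ0
      have e1 : sq a (w + τ • ea) = w + τ ^ 2 • ea := by
        ext b
        rcases eq_or_ne b a with rfl | hb
        · simp [hea, hw]
        · rw [sq_ne hb]
          simp [hea, hb]
      have e2 : rf a (w + τ • ea) = w + τ • -ea := by
        ext b
        rcases eq_or_ne b a with rfl | hb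
        · simp [hea, hw]
        · rw [rf_ne hb]
          simp [hea, hb]
      rw [e1, e2] at hτ
      simp only [Function.comp]
      rw [hτ]
      have hτ0' : τ ≠ 0 := hτ0
      field_simp
    have h7 := tendsto_nhds_unique (h2.congr' h6.symm) h5
    rw [h7, map_neg, neg_dotProduct]
    ring
  -- directions in the mirror
  have hmir : ∀ (t : κ → ℂ) (x : Cn n), x a = 0 →
      qf t (fderiv ℂ h w x) = 4 * ((f w ⬝ᵥ t) * (fderiv ℂ f w x ⬝ᵥ t)) := by
    intro t x hx
    have h1 := hasDerivAt_line (hqd t) x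
    have h2 := hasDerivAt_line (hfd t) x
    rw [hqf] at h1
    rw [hfdd] at h2
    have h3 := (h2.mul h2).const_mul 2
    have h4 : (fun τ : ℂ => qf t (h (w + τ • x))) =ᶠ[𝓝 0]
        fun τ : ℂ => 2 * ((f (w + τ • x) ⬝ᵥ t) * (f (w + τ • x) ⬝ᵥ t)) := by
      filter_upwards [hcurve t x] with τ hτ
      have e0 : (w + τ • x) a = 0 := by simp [hw, hx]
      have e1 : sq a (w + τ • x) = w + τ • x := by
        rw [sq]
        have : (w + τ • x) a ^ 2 = (w + τ • x) a := by rw [e0]; norm_num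
        rw [this, up_self]
      have e2 : rf a (w + τ • x) = w + τ • x := by
        rw [rf]
        have : -(w + τ • x) a = (w + τ • x) a := by rw [e0]; norm_num
        rw [this, up_self]
      rw [e1, e2] at hτ
      exact hτ
    have h5 := (h1.congr_of_eventuallyEq h4.symm).unique h3
    rw [h5]
    simp only [zero_smul, add_zero]
    ring
  -- decompose `v`
  rw [hsw] at hc
  set x : Cn n := v - v a • ea with hx
  have hxa : x a = 0 := by simp [hx, hea]
  have hvx : v = v a • ea + x := by rw [hx]; abel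
  have hva : v a = 0 := by
    by_contra hne
    have hprop : ∃ b : ℂ, fderiv ℂ f w ea = b • f w := by
      refine prop_of_perp hf0 fun t ht => ?_
      have h1 := congrArg (qf t) hc
      rw [qf_smul, hval, qf_sm, ht] at h1
      rw [hvx, map_add, map_smul, qf_add, qf_smul, hdir t ht, hmir t x hxa, ht] at h1
      have h2 : v a * (fderiv ℂ f w ea ⬝ᵥ t) ^ 2 = 0 := by linear_combination (-1 / 2 : ℂ) * h1
      rcases mul_eq_zero.1 h2 with h3 | h3
      · exact absurd h3 hne
      · exact pow_eq_zero_iff (two_ne_zero) |>.1 h3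
    obtain ⟨b, hb⟩ := hprop
    have h1 := hfi ea ⟨b, hb⟩
    have h2 := congrArg (fun z : Cn n => z a) h1
    simp [hea] at h2
  have hvx' : v = x := by rw [hvx, hva, zero_smul, zero_add]
  refine hfi v ?_
  have h1 : ∀ t : κ → ℂ, (f w ⬝ᵥ t) * (((2 : ℂ) • fderiv ℂ f w v - c • f w) ⬝ᵥ t) = 0 := by
    intro t
    have h2 := congrArg (qf t) hc
    rw [qf_smul, hval, qf_sm, hvx', hmir t x hxa] at h2
    rw [sub_dotProduct, smul_dotProduct, smul_dotProduct, hvx']
    simp only [smul_eq_mul]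
    linear_combination (1 / 2 : ℂ) * h2
  rcases zero_or_zero h1 with h2 | h2
  · exact absurd h2 hf0
  · refine ⟨c / 2, ?_⟩
    rw [sub_eq_zero] at h2
    have h3 : fderiv ℂ f w v = (1 / 2 : ℂ) • ((2 : ℂ) • fderiv ℂ f w v) := by
      rw [smul_smul]; norm_num
    rw [h3, h2, smul_smul]
    congr 1
    ring

end

end Crest.Agent.R272.Refl_246
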