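import Crest.Agent.R272.Refl6_246

/-!
# R272, leaf MOD-REFL (helper246), part 7: the quotient of a projective manifold by an involution
with reflection-like fixed points is projective

`exists_quot_projD` : main result.
-/

set_option autoImplicit false
set_option linter.unusedSectionVars false

open Set Filter Topology Matrix
open scoped ContDiff

namespace Crest.Agent.R272.Refl_246

open Crest.Agent.R275.Geo Crest.Agent.R275.GC293 Crest.Agent.R275.Core144
open Crest.Agent.R273.Fam_835 Crest.Agent.R273.Map_835 Crest.Agent.R273.Defs_333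

noncomputable section

variable {n : ℕ}

/-- a map with a differentiable left inverse has injective differential -/
theorem injective_fderiv_of_inv {E F : Type} [NormedAddCommGroup E] [NormedSpace ℂ E]
    [NormedAddCommGroup F] [NormedSpace ℂ F] {q : E → F} {r : F → E} {w : E}
    (hq : DifferentiableAt ℂ q w) (hr : DifferentiableAt ℂ r (q w))
    (h : ∀ᶠ x in 𝓝 w, r (q x) = x) : Function.Injective (fderiv ℂ q w) := by
  have h1 : fderiv ℂ (fun z => r (q z)) w = ContinuousLinearMap.id ℂ E := by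
    have : (fun z => r (q z)) =ᶠ[𝓝 w] id := h
    rw [this.fderiv_eq, fderiv_id]
  have h2 : fderiv ℂ (fun z => r (q z)) w = (fderiv ℂ r (q w)).comp (fderiv ℂ q w) :=
    fderiv_comp _ hr hq
  intro x y hxy
  have h3 := congrArg (fun T : E →L[ℂ] E => T x) (h2.symm.trans h1)
  have h4 := congrArg (fun T : E →L[ℂ] E => T y) (h2.symm.trans h1)
  simp only [ContinuousLinearMap.comp_apply, ContinuousLinearMap.coe_id', id_eq] at h3 h4
  rw [← h3, ← h4, hxy]

variable {Y : Type} [TopologicalSpace Y] {G : Type} [Group G] [MulAction G Y]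

/-- local data for the symmetric sections -/
structure LD (A : Atl n Y) (s : G) where
  i : A.ι
  j : A.ι
  U : Set Y
  hU : IsOpen U
  hi : ∀ u ∈ U, u ∈ (A.e i).source
  hj : ∀ u ∈ U, s • u ∈ (A.e j).source
  hs : (i = j ∧ ∀ u ∈ U, s • u ∈ U) ∨ ∀ u ∈ U, s • u ∉ U

theorem exists_LD [T2Space Y] [ContinuousConstSMul G Y] (A : Atl n Y) {s : G} (hss : s * s = 1)
    (y : Y) : ∃ D : LD A s, y ∈ D.U := by
  have hss' : ∀ u : Y, s • s • u = u := fun u => by rw [smul_smul, hss, one_smul]
  have hcs : Continuous fun u : Y => s • u := continuous_const_smul s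
  by_cases hy : s • y = y
  · obtain ⟨i, hi⟩ := A.cover y
    refine ⟨⟨i, i, (A.e i).source ∩ (fun u => s • u) ⁻¹' (A.e i).source,
      (A.e i).open_source.inter ((A.e i).open_source.preimage hcs), fun u hu => hu.1,
      fun u hu => hu.2, Or.inl ⟨rfl, fun u hu => ⟨hu.2, ?_⟩⟩⟩, hi, ?_⟩
    · rw [mem_preimage]
      simp only [hss']
      exact hu.1
    · rw [mem_preimage]
      simp only [hy]
      exact hi
  · obtain ⟨i, hi⟩ := A.cover y
    obtain ⟨j, hj⟩ := A.cover (s • y)
    obtain ⟨V, W, hV, hW, hyV, hyW, hVW⟩ := t2_separation (Ne.symm hy)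
    refine ⟨⟨i, j, (A.e i).source ∩ (fun u => s • u) ⁻¹' (A.e j).source ∩
      (V ∩ (fun u => s • u) ⁻¹' W),
      ((A.e i).open_source.inter ((A.e j).open_source.preimage hcs)).inter
        (hV.inter (hW.preimage hcs)), fun u hu => hu.1.1,
      fun u hu => hu.1.2, Or.inr fun u hu hsu => ?_⟩, ⟨⟨hi, hj⟩, hyV, hyW⟩⟩
    exact disjoint_left.1 hVW hsu.2.1 hu.2.2

namespace LD

variable {A : Atl n Y} {s : G} (D : LD A s) (P : ProjD A)

/-- the symmetric matrix upstairs -/
def M (u : Y) : Fin (P.N + 1) × Fin (P.N + 1) → ℂ := sm (P.F D.i u) (P.F D.j (s • u))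

theorem M_smul (hss : s * s = 1) (hs : D.i = D.j) (u : Y) : D.M P (s • u) = D.M P u := by
  have hss' : s • s • u = u := by rw [smul_smul, hss, one_smul]
  rw [M, M, hss', hs, sm_comm]

theorem M_congr (hss : s * s = 1) (hG : ∀ g : G, g = 1 ∨ g = s) {u u' : Y} (hu : u ∈ D.U)
    (hu' : u' ∈ D.U) (h : pr G u = pr G u') : D.M P u = D.M P u' := by
  obtain ⟨g, hg⟩ := pr_eq_iff.1 h
  rcases hG g with rfl | rfl
  · rw [one_smul] at hg
    rw [hg]
  · rcases D.hs with h1 | h1
    · rw [← hg, D.M_smul P hss h1.1]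
    · exact absurd (hg ▸ hu') (h1 u hu)

open Classical in
/-- the section downstairs -/
def S (m : Orb G Y) : Fin (P.N + 1) × Fin (P.N + 1) → ℂ :=
  if h : ∃ u ∈ D.U, pr G u = m then D.M P h.choose else 0

theorem S_pr (hss : s * s = 1) (hG : ∀ g : G, g = 1 ∨ g = s) {u : Y} (hu : u ∈ D.U) :
    D.S P (pr G u) = D.M P u := by
  have h : ∃ u' ∈ D.U, pr G u' = pr G u := ⟨u, hu, rfl⟩
  rw [S, dif_pos h]
  exact D.M_congr P hss hG h.choose_spec.1 hu h.choose_spec.2

variable [ContinuousConstSMul G Y] [Nonempty Y]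

/-- holomorphy of the two vectors in adapted charts -/
theorem diff_f (c : RC G (fam A)) {u : Y} (hu : u ∈ D.U) (hc : u ∈ c.e.source) :
    DifferentiableAt ℂ (fun w => P.F D.i (c.e.symm w)) (c.e u) := by
  rw [differentiableAt_pi]
  intro k
  have h0 := P.hol D.i k
  have h1 : DifferentiableAt ℂ (fun z => P.F D.i ((A.e D.i).symm z) k) (A.e D.i (c.e.symm (c.e u))) := by
    rw [c.e.left_inv hc]
    have h2 := (A.e D.i).map_source (D.hi u hu)
    exact h0.differentiableAt (((A.e D.i).isOpen_inter_preimage_symm isOpen_univ).mem_nhds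
      ⟨h2, mem_univ _⟩)
  have h2 : DifferentiableAt ℂ (fun w => A.e D.i (c.e.symm w)) (c.e u) :=
    c.diffAt (HolC.id (fam A)) (j := D.i) hc (D.hi u hu)
  have h3 := DifferentiableAt.comp (c.e u) (g := fun z => P.F D.i ((A.e D.i).symm z) k) h1 h2
  refine h3.congr_of_eventuallyEq ?_
  have h4 : ∀ᶠ w in 𝓝 (c.e u), c.e.symm w ∈ (A.e D.i).source := by
    refine (c.e.continuousAt_symm (c.e.map_source hc)).preimage_mem_nhds ?_
    rw [c.e.left_inv hc]
    exact (A.e D.i).open_source.mem_nhds (D.hi u hu)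
  filter_upwards [h4] with w hw
  simp only [Function.comp]
  rw [(A.e D.i).left_inv hw]

theorem diff_g (hG : ∀ g : G, HolC (fam A) (fam A) (fun y => g • y)) (c : RC G (fam A)) {u : Y}
    (hu : u ∈ D.U) (hc : u ∈ c.e.source) :
    DifferentiableAt ℂ (fun w => P.F D.j (s • c.e.symm w)) (c.e u) := by
  rw [differentiableAt_pi]
  intro k
  have h0 := P.hol D.j k
  have h1 : DifferentiableAt ℂ (fun z => P.F D.j ((A.e D.j).symm z) k)
      (A.e D.j (s • c.e.symm (c.e u))) := by
    rw [c.e.left_inv hc]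
    have h2 := (A.e D.j).map_source (D.hj u hu)
    exact h0.differentiableAt (((A.e D.j).isOpen_inter_preimage_symm isOpen_univ).mem_nhds
      ⟨h2, mem_univ _⟩)
  have h2 : DifferentiableAt ℂ (fun w => A.e D.j (s • c.e.symm w)) (c.e u) :=
    c.diffAt (hG s) (j := D.j) hc (D.hj u hu)
  have h3 := DifferentiableAt.comp (c.e u) (g := fun z => P.F D.j ((A.e D.j).symm z) k) h1 h2
  refine h3.congr_of_eventuallyEq ?_
  have h4 : ∀ᶠ w in 𝓝 (c.e u), s • c.e.symm w ∈ (A.e D.j).source := by
    have h5 : ContinuousAt (fun w => s • c.e.symm w) (c.e u) :=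
      (c.e.continuousAt_symm (c.e.map_source hc)).const_smul s
    refine h5.preimage_mem_nhds ?_
    rw [c.e.left_inv hc]
    exact (A.e D.j).open_source.mem_nhds (D.hj u hu)
  filter_upwards [h4] with w hw
  simp only [Function.comp]
  rw [(A.e D.j).left_inv hw]

theorem imm_f (c : RC G (fam A)) {u : Y} (hu : u ∈ D.U) (hc : u ∈ c.e.source) :
    ImmAt (fun w => P.F D.i (c.e.symm w)) (c.e u) := by
  have hui := D.hi u hu
  have h0 : ImmAt (fun z => P.F D.i ((A.e D.i).symm z)) (A.e D.i (c.e.symm (c.e u))) := by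
    rw [c.e.left_inv hc]
    exact P.imm D.i _ ((A.e D.i).map_source hui)
  have h1 : DifferentiableAt ℂ (fun z => P.F D.i ((A.e D.i).symm z))
      (A.e D.i (c.e.symm (c.e u))) := by
    rw [differentiableAt_pi]
    intro k
    rw [c.e.left_inv hc]
    exact (P.hol D.i k).differentiableAt (((A.e D.i).isOpen_inter_preimage_symm
      isOpen_univ).mem_nhds ⟨(A.e D.i).map_source hui, mem_univ _⟩)
  have h2 : DifferentiableAt ℂ (fun w => A.e D.i (c.e.symm w)) (c.e u) :=
    c.diffAt (HolC.id (fam A)) (j := D.i) hc hui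
  have h3 : DifferentiableAt ℂ (fun w => c.e ((A.e D.i).symm w)) (A.e D.i (c.e.symm (c.e u))) := by
    rw [c.e.left_inv hc]
    exact c.diffAt' (HolC.id (fam A)) (j := D.i) hui hc
  have h4 : ∀ᶠ w in 𝓝 (c.e u), c.e.symm w ∈ (A.e D.i).source := by
    refine (c.e.continuousAt_symm (c.e.map_source hc)).preimage_mem_nhds ?_
    rw [c.e.left_inv hc]
    exact (A.e D.i).open_source.mem_nhds hui
  have h5 : Function.Injective (fderiv ℂ (fun w => A.e D.i (c.e.symm w)) (c.e u)) := by
    refine injective_fderiv_of_inv h2 h3 ?_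
    filter_upwards [h4, c.e.open_target.mem_nhds (c.e.map_source hc)] with w hw hw2
    rw [(A.e D.i).left_inv hw, c.e.right_inv hw2]
  refine (immAt_comp h1 h2 h5 h0).congr ?_
  filter_upwards [h4] with w hw
  rw [(A.e D.i).left_inv hw]

/-- the section downstairs in the chart `c.eM` -/
theorem continuousOn_S (hss : s * s = 1) (hs : ∀ g : G, g = 1 ∨ g = s)
    (hG : ∀ g : G, HolC (fam A) (fam A) (fun y => g • y))
    (hcov : ∀ y : Y, ∃ c : RC G (fam A), y ∈ c.e.source) :
    ContinuousOn (D.S P) (pr G '' D.U) := by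
  have hM : ContinuousOn (D.M P) D.U := by
    intro u hu
    obtain ⟨c, hc⟩ := hcov u
    have h1 : ContinuousAt (fun w => sm (P.F D.i (c.e.symm w)) (P.F D.j (s • c.e.symm w)))
        (c.e u) := (hasFDerivAt_sm (D.diff_f P c hu hc) (D.diff_g P hG c hu hc)).1.continuousAt
    have h2 : ContinuousAt (fun x => D.M P (c.e.symm (c.e x))) u :=
      h1.comp (f := c.e) (c.e.continuousAt hc)
    refine (h2.congr ?_).continuousWithinAt
    filter_upwards [c.e.open_source.mem_nhds hc] with x hx
    rw [c.e.left_inv hx]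
  refine continuousOn_iff'.2 fun t ht => ?_
  obtain ⟨V, hV, hV2⟩ := continuousOn_iff'.1 hM t ht
  refine ⟨pr G '' (V ∩ D.U), isOpenQuotientMap_pr.isOpenMap _ (hV.inter D.hU), ?_⟩
  ext m
  constructor
  · rintro ⟨h1, u, hu, rfl⟩
    refine ⟨⟨u, ?_, rfl⟩, u, hu, rfl⟩
    rw [← hV2]
    refine ⟨?_, hu⟩
    rw [mem_preimage, ← D.S_pr P hss hs hu]
    exact h1
  · rintro ⟨⟨u, hu, rfl⟩, _⟩
    refine ⟨?_, u, hu.2, rfl⟩
    rw [mem_preimage, D.S_pr P hss hs hu.2]
    rw [← hV2] at hu
    exact hu.1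

/-- near an adapted chart `S ∘ pr ∘ c.e.symm` is the symmetric product -/
theorem S_eventually (hss : s * s = 1) (hs : ∀ g : G, g = 1 ∨ g = s) (c : RC G (fam A)) {u : Y}
    (hu : u ∈ D.U) (hc : u ∈ c.e.source) : ∀ᶠ w in 𝓝 (c.e u), D.S P (pr G (c.e.symm w)) =
      sm (P.F D.i (c.e.symm w)) (P.F D.j (s • c.e.symm w)) := by
  have h4 : ∀ᶠ w in 𝓝 (c.e u), c.e.symm w ∈ D.U := by
    refine (c.e.continuousAt_symm (c.e.map_source hc)).preimage_mem_nhds ?_
    rw [c.e.left_inv hc]
    exact D.hU.mem_nhds hu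
  filter_upwards [h4] with w hw
  exact D.S_pr P hss hs hw

theorem diff_S (hss : s * s = 1) (hs : ∀ g : G, g = 1 ∨ g = s)
    (hG : ∀ g : G, HolC (fam A) (fam A) (fun y => g • y))
    (hcov : ∀ y : Y, ∃ c : RC G (fam A), y ∈ c.e.source) (c : RC G (fam A)) {z : Cn n}
    (hz : z ∈ c.eM.target) (hzU : c.eM.symm z ∈ pr G '' D.U) :
    DifferentiableAt ℂ (fun z => D.S P (c.eM.symm z)) z := by
  refine c.desc (isOpenQuotientMap_pr.isOpenMap _ D.hU) (D.continuousOn_S P hss hs hG hcov)
    (fun u hu huU => ?_) hz hzU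
  obtain ⟨u', hu', hu'u⟩ := huU
  obtain ⟨g, hg⟩ := pr_eq_iff.1 hu'u.symm
  have hgu : g • u ∈ D.U := by rw [hg]; exact hu'
  -- pass to an adapted chart at `g • u`
  obtain ⟨c', hc'⟩ := hcov (g • u)
  have h1 := D.S_eventually P hss hs c' hgu hc'
  have h2 : DifferentiableAt ℂ (fun w => D.S P (pr G (c'.e.symm w))) (c'.e (g • u)) :=
    (hasFDerivAt_sm (D.diff_f P c' hgu hc') (D.diff_g P hG c' hgu hc')).1.congr_of_eventuallyEq h1
  have h3 := RC.diffAt_smul hG c c' g hu hc'
  have h2' : DifferentiableAt ℂ (fun w => D.S P (pr G (c'.e.symm w)))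
      (c'.e (g • c.e.symm (c.e u))) := by
    rw [c.e.left_inv hu]; exact h2
  have h4 := DifferentiableAt.comp (c.e u) (g := fun w => D.S P (pr G (c'.e.symm w))) h2' h3
  refine h4.congr_of_eventuallyEq ?_
  have h5 : ∀ᶠ w in 𝓝 (c.e u), g • c.e.symm w ∈ c'.e.source := by
    have h5 : ContinuousAt (fun w => g • c.e.symm w) (c.e u) :=
      (c.e.continuousAt_symm (c.e.map_source hu)).const_smul g
    refine h5.preimage_mem_nhds ?_
    rw [c.e.left_inv hu]
    exact c'.e.open_source.mem_nhds hc'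
  filter_upwards [h5] with w hw
  simp only [Function.comp]
  rw [c'.e.left_inv hw, pr_smul]

/-- **the section is immersive downstairs** -/
theorem imm_S (hs1 : s ≠ 1) (hss : s * s = 1) (hs : ∀ g : G, g = 1 ∨ g = s)
    (hG : ∀ g : G, HolC (fam A) (fam A) (fun y => g • y))
    (hcov : ∀ y : Y, ∃ c : RC G (fam A), y ∈ c.e.source) (c : RC G (fam A)) {u : Y}
    (hu : u ∈ D.U) (hc : u ∈ c.e.source) :
    ImmAt (fun z => D.S P (c.eM.symm z)) (c.eM (pr G u)) := by
  have hf := D.diff_f P c hu hc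
  have hg := D.diff_g P hG c hu hc
  have hfi := D.imm_f P c hu hc
  have hf0 : P.F D.i (c.e.symm (c.e u)) ≠ 0 := by
    rw [c.e.left_inv hc]
    exact P.ne D.i u (D.hi u hu)
  have hS := D.S_eventually P hss hs c hu hc
  have hdS := D.diff_S P hss hs hG hcov c (z := c.eM (pr G u))
    (c.eM.map_source (c.mem_eM_source hc)) (by
      rw [c.eM.left_inv (c.mem_eM_source hc)]
      exact mem_image_of_mem _ hu)
  have hnp : s • u ≠ u → ¬ ∃ a : ℂ, P.F D.j (s • c.e.symm (c.e u)) =
      a • P.F D.i (c.e.symm (c.e u)) := by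
    rintro hne ⟨a, ha⟩
    rw [c.e.left_inv hc] at ha
    exact hne (P.inj D.j D.i _ (D.hj u hu) _ (D.hi u hu) ⟨a, ha⟩)
  have htgt : ∀ᶠ w in 𝓝 (c.e u), w ∈ c.e.target :=
    c.e.open_target.mem_nhds (c.e.map_source hc)
  rw [c.eM_apply hc] at hdS ⊢
  rcases hk : c.k with _ | ⟨s', a⟩
  · simp only [qk_none, id]
    have hne : s • u ≠ u := fun h => hs1 (c.free hk s u hc (by rw [h]; exact hc))
    refine (immAt_sm hf hg hfi hf0 (hnp hne)).congr ?_
    filter_upwards [hS, htgt] with w hw hw2
    have h2 := c.eM_symm (c.e.map_target hw2)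
    rw [c.e.right_inv hw2, hk, qk_none, id] at h2
    rw [h2, hw]
  · have hq : qk c.k = sq a := by rw [hk, qk_some]
    rw [hk] at hdS
    simp only [qk_some] at hdS ⊢
    have hs' : s' = s := by
      rcases hs s' with h | h
      · exfalso
        -- `rf a` would be the identity on an open set
        have h1 : ∀ᶠ w in 𝓝 (c.e u), rf a w = w := by
          filter_upwards [htgt] with w hw
          have h2 := c.ref s' a hk _ (c.e.map_target hw)
          rw [h, one_smul, c.e.right_inv hw] at h2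
          exact h2.symm
        have h2 : ∀ᶠ w in 𝓝 (c.e u), w a = 0 := by
          filter_upwards [h1] with w hw
          have h3 := congrArg (fun z : Cn n => z a) hw
          simp only [rf_same] at h3
          have h4 : (2 : ℂ) * w a = 0 := by linear_combination -h3
          rcases mul_eq_zero.1 h4 with h5 | h5
          · norm_num at h5
          · exact h5
        have h3 : Tendsto (fun τ : ℂ => c.e u + τ • (EuclideanSpace.single a (1 : ℂ) : Cn n))
            (𝓝 0) (𝓝 (c.e u)) := by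
          have : Continuous fun τ : ℂ => c.e u + τ • (EuclideanSpace.single a (1 : ℂ) : Cn n) := by
            fun_prop
          simpa using this.tendsto 0
        have h4 := h3.eventually h2
        have h5 : (c.e u) a = 0 := h2.self_of_nhds
        have h6 : ∀ᶠ τ : ℂ in 𝓝 0, τ = 0 := by
          filter_upwards [h4] with τ hτ
          simpa [h5] using hτ
        have h7 : ∀ᶠ τ : ℂ in 𝓝[≠] 0, τ = 0 := h6.filter_mono nhdsWithin_le_nhds
        obtain ⟨τ, hτ, hτ0⟩ := (h7.and self_mem_nhdsWithin).exists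
        exact hτ0 hτ
      · exact h
    subst hs'
    have hcomp : ∀ᶠ w in 𝓝 (c.e u), D.S P (c.eM.symm (sq a w)) =
        sm (P.F D.i (c.e.symm w)) (P.F D.j (s' • c.e.symm w)) := by
      filter_upwards [hS, htgt] with w hw hw2
      have h2 := c.eM_symm (c.e.map_target hw2)
      rw [c.e.right_inv hw2, hq] at h2
      rw [h2, hw]
    by_cases hua : (c.e u) a = 0
    · have hfix : s' • u = u := by
        refine c.e.injOn (c.inv s' a hk u hc) hc ?_
        rw [c.ref s' a hk u hc, rf, hua, neg_zero, ← hua, up_self]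
      have hij : D.i = D.j := by
        rcases D.hs with h1 | h1
        · exact h1.1
        · exact absurd (by rw [hfix]; exact hu) (h1 u hu)
      refine immAt_mirror hua hf hfi hf0 hdS ?_
      filter_upwards [hcomp, htgt] with w hw hw2
      rw [hw, ← hij]
      congr 2
      have h3 : c.e.symm (rf a w) = s' • c.e.symm w := by
        have h4 := c.ref s' a hk _ (c.e.map_target hw2)
        rw [c.e.right_inv hw2] at h4
        rw [← h4, c.e.left_inv (c.inv s' a hk _ (c.e.map_target hw2))]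
      rw [h3]
    · have hne : s' • u ≠ u := by
        intro h
        have h1 := c.ref s' a hk u hc
        rw [h] at h1
        have h3 := congrArg (fun z : Cn n => z a) h1
        simp only [rf_same] at h3
        have h4 : (2 : ℂ) * (c.e u) a = 0 := by linear_combination h3
        rcases mul_eq_zero.1 h4 with h5 | h5
        · norm_num at h5
        · exact hua h5
      refine immAt_of_comp (q := sq a) hdS (differentiable_sq a _) (surjective_fderiv_sq a hua) ?_
      refine (immAt_sm hf hg hfi hf0 (hnp hne)).congr ?_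
      filter_upwards [hcomp] with w hw
      exact hw.symm

end LD

end

end Crest.Agent.R272.Refl_246
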