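import Crest.Agent.R272.Refl7_246

/-!
# R272, leaf MOD-REFL (helper246), part 8: the quotient of a projective manifold by a group of
order two with reflection-like fixed points is projective

`exists_quot_projD` : `G = {1, s}`, adapted charts everywhere, `ProjD` upstairs ⟹ the orbit space
has a finite good atlas `B`, compatible with `qFam`, with `ProjD B`;
`exists_quot_involution` : the same for a holomorphic involution `σ : Y → Y`, the hypothesis at the
fixed points being on the derivative only (a reflection `w ↦ w - ℓ w • v`, `ℓ v = 2`).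
-/

set_option autoImplicit false
set_option linter.unusedSectionVars false

open Set Filter Topology Matrix
open scoped ContDiff

namespace Crest.Agent.R272.Refl_246

open Crest.Agent.R275.Geo Crest.Agent.R275.GC293 Crest.Agent.R275.Core144
open Crest.Agent.R273.Fam_835 Crest.Agent.R273.Map_835 Crest.Agent.R273.Defs_333

noncomputable section

variable {n : ℕ}

/-! ### transfer between compatible families -/

section transfer

variable {Q : Type} [TopologicalSpace Q] {B D : Fam n Q}

theorem diffAt_transfer {F : Type} [NormedAddCommGroup F] [NormedSpace ℂ F] (h : HolC B D id)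
    {f : Q → F} {m : Q} {b : B.ι} {c : D.ι} (hb : m ∈ (B.e b).source) (hc : m ∈ (D.e c).source)
    (hd : DifferentiableAt ℂ (fun z => f ((D.e c).symm z)) (D.e c m)) :
    DifferentiableAt ℂ (fun z => f ((B.e b).symm z)) (B.e b m) := by
  have h1 : DifferentiableAt ℂ (fun z => D.e c ((B.e b).symm z)) (B.e b m) :=
    h.diffAt (i := b) (j := c) ((B.e b).map_source hb) (by rw [(B.e b).left_inv hb]; exact hc)
  have h2 : DifferentiableAt ℂ (fun z => f ((D.e c).symm z)) (D.e c ((B.e b).symm (B.e b m))) := by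
    rw [(B.e b).left_inv hb]; exact hd
  have h3 := DifferentiableAt.comp (B.e b m) (g := fun z => f ((D.e c).symm z)) h2 h1
  refine h3.congr_of_eventuallyEq ?_
  have h4 : ∀ᶠ w in 𝓝 (B.e b m), (B.e b).symm w ∈ (D.e c).source := by
    refine ((B.e b).continuousAt_symm ((B.e b).map_source hb)).preimage_mem_nhds ?_
    rw [(B.e b).left_inv hb]
    exact (D.e c).open_source.mem_nhds hc
  filter_upwards [h4] with w hw
  simp only [Function.comp]
  rw [(D.e c).left_inv hw]

theorem immAt_transfer {κ : Type} [Fintype κ] [DecidableEq κ] (h : HolC B D id) (h' : HolC D B id)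
    {f : Q → κ → ℂ} {m : Q} {b : B.ι} {c : D.ι} (hb : m ∈ (B.e b).source)
    (hc : m ∈ (D.e c).source) (hd : DifferentiableAt ℂ (fun z => f ((D.e c).symm z)) (D.e c m))
    (hi : ImmAt (fun z => f ((D.e c).symm z)) (D.e c m)) :
    ImmAt (fun z => f ((B.e b).symm z)) (B.e b m) := by
  have h1 : DifferentiableAt ℂ (fun z => D.e c ((B.e b).symm z)) (B.e b m) :=
    h.diffAt (i := b) (j := c) ((B.e b).map_source hb) (by rw [(B.e b).left_inv hb]; exact hc)
  have h1' : DifferentiableAt ℂ (fun z => B.e b ((D.e c).symm z))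
      (D.e c ((B.e b).symm (B.e b m))) := by
    rw [(B.e b).left_inv hb]
    exact h'.diffAt (i := c) (j := b) ((D.e c).map_source hc)
      (by rw [(D.e c).left_inv hc]; exact hb)
  have h2 : DifferentiableAt ℂ (fun z => f ((D.e c).symm z)) (D.e c ((B.e b).symm (B.e b m))) := by
    rw [(B.e b).left_inv hb]; exact hd
  have h4 : ∀ᶠ w in 𝓝 (B.e b m), (B.e b).symm w ∈ (D.e c).source := by
    refine ((B.e b).continuousAt_symm ((B.e b).map_source hb)).preimage_mem_nhds ?_
    rw [(B.e b).left_inv hb]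
    exact (D.e c).open_source.mem_nhds hc
  have h5 : Function.Injective (fderiv ℂ (fun z => D.e c ((B.e b).symm z)) (B.e b m)) := by
    refine injective_fderiv_of_inv h1 h1' ?_
    filter_upwards [h4, (B.e b).open_target.mem_nhds ((B.e b).map_source hb)] with w hw hw2
    rw [(D.e c).left_inv hw, (B.e b).right_inv hw2]
  have hi' : ImmAt (fun z => f ((D.e c).symm z)) (D.e c ((B.e b).symm (B.e b m))) := by
    rw [(B.e b).left_inv hb]; exact hi
  refine (immAt_comp h2 h1 h5 hi').congr ?_
  filter_upwards [h4] with w hw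
  rw [(D.e c).left_inv hw]

theorem ImmAt.reindex {κ κ' : Type} [Fintype κ] [DecidableEq κ] [Fintype κ'] [DecidableEq κ']
    (e : κ' ≃ κ) {f : Cn n → κ → ℂ} {z : Cn n} (hf : DifferentiableAt ℂ f z) (h : ImmAt f z) :
    ImmAt (fun w a => f w (e a)) z := by
  rintro v ⟨c, hc⟩
  have h1 : HasFDerivAt (fun w (a : κ') => f w (e a))
      (ContinuousLinearMap.pi fun a : κ' =>
        (ContinuousLinearMap.proj (e a)).comp (fderiv ℂ f z)) z := by
    rw [hasFDerivAt_pi]
    intro a
    exact (ContinuousLinearMap.proj (e a) : (κ → ℂ) →L[ℂ] ℂ).hasFDerivAt.comp z hf.hasFDerivAt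
  rw [h1.fderiv] at hc
  refine h v ⟨c, funext fun k => ?_⟩
  have h2 := congrFun hc (e.symm k)
  simp only [ContinuousLinearMap.coe_pi', ContinuousLinearMap.comp_apply,
    ContinuousLinearMap.proj_apply, Equiv.apply_symm_apply, Pi.smul_apply] at h2
  exact h2

end transfer

/-- pairs as an interval -/
def idx (N : ℕ) : Fin (N * (N + 2) + 1) ≃ Fin (N + 1) × Fin (N + 1) :=
  (finCongr (by ring)).trans finProdFinEquiv.symm

variable {Y : Type} [TopologicalSpace Y] {G : Type} [Group G] [MulAction G Y]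
  [ContinuousConstSMul G Y] [Nonempty Y]

/-- **MOD-REFL (c)**: the quotient of a projective manifold by a group of order two with
reflection-like fixed points is projective -/
theorem exists_quot_projD [CompactSpace Y] [T2Space (Orb G Y)] [T2Space Y] {A : Atl n Y}
    (P : ProjD A) {s : G} (hs1 : s ≠ 1) (hs : ∀ g : G, g = 1 ∨ g = s)
    (hG : ∀ g : G, HolC (fam A) (fam A) (fun y => g • y))
    (hcov : ∀ y : Y, ∃ c : RC G (fam A), y ∈ c.e.source) :
    ∃ B : Atl n (Orb G Y), Finite B.ι ∧ GoodA B ∧ Nonempty (Part B) ∧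
      HolC (fam B) (qFam hG hcov) id ∧ HolC (qFam hG hcov) (fam B) id ∧
      HolMap A B (pr G) ∧ Nonempty (ProjD B) := by
  have hss : s * s = 1 := by
    rcases hs (s * s) with h | h
    · exact h
    · exact absurd (mul_eq_left.1 h) hs1
  have hss' : ∀ u : Y, s • s • u = u := fun u => by rw [smul_smul, hss, one_smul]
  choose D hD using fun y : Y => exists_LD A hss y
  obtain ⟨B, hfin, hgood, hpart, hsub, h5, h6⟩ := (qFam hG hcov).exists_atl
    (fun y => pr G '' (D y).U) (fun y => isOpenQuotientMap_pr.isOpenMap _ (D y).hU)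
    (fun m => by
      obtain ⟨y, rfl⟩ := surjective_pr (G := G) m
      exact ⟨y, mem_image_of_mem _ (hD y)⟩)
  choose k hk using hsub
  refine ⟨B, hfin, hgood, hpart, h5, h6, holC_iff.1 (h6.comp (holC_pi hG hcov)), ⟨?_⟩⟩
  -- differentiability of the sections in the charts of `B`
  have hdiff : ∀ b, ∀ m ∈ (B.e b).source, ∃ c : RC G (fam A), m ∈ c.eM.source ∧
      DifferentiableAt ℂ (fun z => (D (k b)).S P (c.eM.symm z)) (c.eM m) := by
    intro b m hm
    obtain ⟨c, hc⟩ := (qFam hG hcov).cover m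
    have hc' : m ∈ c.eM.source := hc
    refine ⟨c, hc', (D (k b)).diff_S P hss hs hG hcov c (c.eM.map_source hc') ?_⟩
    rw [c.eM.left_inv hc']
    exact hk b hm
  have hdiffB : ∀ b, ∀ m ∈ (B.e b).source,
      DifferentiableAt ℂ (fun z => (D (k b)).S P ((B.e b).symm z)) (B.e b m) := by
    intro b m hm
    obtain ⟨c, hc, hd⟩ := hdiff b m hm
    exact diffAt_transfer (B := fam B) (D := qFam hG hcov) (b := b) (c := c) h5 hm hc hd
  have hinj : ∀ {κ κ' : Type} (e : κ' ≃ κ) (f g : κ → ℂ) (c : ℂ),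
      (fun a => f (e a)) = c • (fun a => g (e a)) → f = c • g := by
    intro κ κ' e f g c h
    funext a
    have := congrFun h (e.symm a)
    simpa using this
  refine ⟨P.N * (P.N + 2), fun b m a => (D (k b)).S P m (idx P.N a), ?_, ?_, ?_, ?_, ?_⟩
  · intro b a z hz
    have h1 := hdiffB b _ ((B.e b).map_target hz.1)
    rw [(B.e b).right_inv hz.1] at h1
    exact (differentiableAt_pi.1 h1 (idx P.N a)).differentiableWithinAt
  · intro b m hm
    obtain ⟨u, hu, rfl⟩ := hk b hm
    intro h0
    have h1 : (D (k b)).S P (pr G u) = 0 := by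
      have := hinj (idx P.N) ((D (k b)).S P (pr G u)) 0 0 (by rw [zero_smul]; exact h0)
      rw [zero_smul] at this
      exact this
    rw [(D (k b)).S_pr P hss hs hu] at h1
    exact sm_ne_zero (P.ne _ u ((D (k b)).hi u hu)) (P.ne _ _ ((D (k b)).hj u hu)) h1
  · intro b b' m hm
    obtain ⟨u, hu, hum⟩ := hk b hm.1
    obtain ⟨u', hu', hum'⟩ := hk b' hm.2
    have h1 : ∃ c : ℂ, (D (k b)).S P m = c • (D (k b')).S P m := by
      rw [← hum, (D (k b)).S_pr P hss hs hu, hum, ← hum', (D (k b')).S_pr P hss hs hu']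
      obtain ⟨g, hg⟩ := pr_eq_iff.1 (hum.trans hum'.symm)
      have hsc : ∀ (v w v' w' : Fin (P.N + 1) → ℂ), (∃ c : ℂ, v = c • v') → (∃ c : ℂ, w = c • w') →
          ∃ c : ℂ, sm v w = c • sm v' w' := by
        rintro v w v' w' ⟨c, rfl⟩ ⟨c', rfl⟩
        refine ⟨c * c', funext fun p => ?_⟩
        simp only [sm, Pi.smul_apply, smul_eq_mul]
        ring
      rcases hs g with h | h
      · rw [h, one_smul] at hg
        subst hg
        exact hsc _ _ _ _ (P.tr _ _ _ ⟨(D (k b)).hi _ hu, (D (k b')).hi _ hu'⟩)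
          (P.tr _ _ _ ⟨(D (k b)).hj _ hu, (D (k b')).hj _ hu'⟩)
      · rw [h] at hg
        subst hg
        have h2 := (D (k b')).hj _ hu'
        rw [hss'] at h2
        unfold LD.M
        rw [hss', sm_comm (P.F (D (k b')).i (s • u))]
        exact hsc _ _ _ _ (P.tr _ _ _ ⟨(D (k b)).hi _ hu, h2⟩)
          (P.tr _ _ _ ⟨(D (k b)).hj _ hu, (D (k b')).hi _ hu'⟩)
    obtain ⟨c, hc⟩ := h1
    exact ⟨c, funext fun a => congrFun hc (idx P.N a)⟩
  · rintro b b' m hm m' hm' ⟨c, hc⟩
    obtain ⟨u, hu, rfl⟩ := hk b hm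
    obtain ⟨u', hu', rfl⟩ := hk b' hm'
    have h1 := hinj (idx P.N) _ _ c hc
    rw [(D (k b)).S_pr P hss hs hu, (D (k b')).S_pr P hss hs hu'] at h1
    rcases prop_of_sm (P.ne _ _ ((D (k b')).hi _ hu')) h1 with h2 | h2
    · rw [P.inj _ _ _ ((D (k b)).hi _ hu) _ ((D (k b')).hi _ hu') h2]
    · rw [← P.inj _ _ _ ((D (k b)).hj _ hu) _ ((D (k b')).hi _ hu') h2, pr_smul]
  · intro b z hz
    have hm := (B.e b).map_target hz
    set m := (B.e b).symm z with hmz
    have hz' : B.e b m = z := (B.e b).right_inv hz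
    obtain ⟨u0, hu0, hum⟩ := hk b hm
    obtain ⟨c, hc⟩ := hcov u0
    have hmc : m ∈ c.eM.source := by rw [← hum]; exact c.mem_eM_source hc
    have hd : DifferentiableAt ℂ (fun z => (D (k b)).S P (c.eM.symm z)) (c.eM m) := by
      refine (D (k b)).diff_S P hss hs hG hcov c (c.eM.map_source hmc) ?_
      rw [c.eM.left_inv hmc]
      exact hk b hm
    have hi : ImmAt (fun z => (D (k b)).S P (c.eM.symm z)) (c.eM m) := by
      rw [← hum]
      exact (D (k b)).imm_S P hs1 hss hs hG hcov c hu0 hc
    have h7 := immAt_transfer (B := fam B) (D := qFam hG hcov) (b := b) (c := c) h5 h6 hm hmc hd hi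
    have h8 := ImmAt.reindex (idx P.N) (hdiffB b m hm) h7
    have h9 : ImmAt (fun w a => (D (k b)).S P ((B.e b).symm w) (idx P.N a)) z := by
      rw [← hz']; exact h8
    exact h9

end

end Crest.Agent.R272.Refl_246
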