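import Crest.Agent.R272.Refl8_246

/-!
# R272, leaf MOD-REFL (helper246), part 9: the quotient by a holomorphic involution

`exists_quot_involution` : `Y` compact Hausdorff, `A : Atl n Y`, `P : ProjD A`, `σ` a holomorphic
involution which is not the identity and whose derivative at every fixed point is a reflection
`w ↦ w - ℓ w • v` (`ℓ v = 2`) ⟹ the quotient `Q = Y/σ` is a compact Hausdorff complex manifold with
a finite good atlas `B`, `ProjD B`, open holomorphic quotient map `q`; invariant holomorphic maps
descend; `q` is locally biholomorphic off the fixed points.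
-/

set_option autoImplicit false
set_option linter.unusedSectionVars false

open Set Filter Topology
open scoped ContDiff

namespace Crest.Agent.R272.Refl_246

open Crest.Agent.R275.Geo Crest.Agent.R275.GC293 Crest.Agent.R275.Core144
open Crest.Agent.R273.Fam_835 Crest.Agent.R273.Map_835 Crest.Agent.R273.Defs_333

noncomputable section

variable {n : ℕ}

/-- finiteness -/
theorem finite_of_two {G : Type} [Group G] {s : G} (hs : ∀ g : G, g = 1 ∨ g = s) : Finite G := by
  refine Finite.of_surjective (fun b : Bool => if b then (1 : G) else s) fun g => ?_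
  rcases hs g with h | h
  · exact ⟨true, by simp [h]⟩
  · exact ⟨false, by simp [h]⟩

section loc

variable {Y : Type} [TopologicalSpace Y] {G : Type} [Group G] [MulAction G Y]
  [ContinuousConstSMul G Y] [Nonempty Y] {C : Fam n Y}

/-- the projection is locally biholomorphic at the points with trivial stabiliser -/
theorem RC.injective_fderiv (c : RC G C) {u : Y} (hc : u ∈ c.e.source)
    (hst : ∀ g : G, g • u = u → g = 1) (hs1 : ∀ s a, c.k = some (s, a) → s ≠ 1) :
    Function.Injective (fderiv ℂ (fun w => c.eM (pr G (c.e.symm w))) (c.e u)) := by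
  have htgt : ∀ᶠ w in 𝓝 (c.e u), w ∈ c.e.target :=
    c.e.open_target.mem_nhds (c.e.map_source hc)
  have h1 : (fun w => c.eM (pr G (c.e.symm w))) =ᶠ[𝓝 (c.e u)] qk c.k := by
    filter_upwards [htgt] with w hw
    rw [c.eM_apply (c.e.map_target hw), c.e.right_inv hw]
  rw [h1.fderiv_eq]
  rcases hk : c.k with _ | ⟨s, a⟩
  · rw [qk_none, fderiv_id]
    exact fun x y h => h
  · rw [qk_some]
    have hua : (c.e u) a ≠ 0 := by
      intro hua
      have hfix : s • u = u := by
        refine c.e.injOn (c.inv s a hk u hc) hc ?_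
        rw [c.ref s a hk u hc, rf, hua, neg_zero, ← hua, up_self]
      exact hs1 s a hk (hst s hfix)
    have h2 := surjective_fderiv_sq a hua
    exact (LinearMap.injective_iff_surjective (f := (fderiv ℂ (sq a) (c.e u) :
      Cn n →ₗ[ℂ] Cn n))).2 h2

end loc

/-- **the quotient of a projective manifold by an involution with reflection-like fixed points** -/
theorem exists_quot_involution {Y : Type} [TopologicalSpace Y] [T2Space Y] [CompactSpace Y]
    [Nonempty Y] {A : Atl n Y} (P : ProjD A) {σ : Y → Y} (hσ : HolMap A A σ)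
    (hσσ : ∀ y, σ (σ y) = y) (hne : ∃ y, σ y ≠ y)
    (hfix : ∀ y, σ y = y → ∃ i, y ∈ (A.e i).source ∧ ∃ (ℓ : Cn n →L[ℂ] ℂ) (v : Cn n), ℓ v = 2 ∧
      ∀ w, fderiv ℂ (fun z => A.e i (σ ((A.e i).symm z))) (A.e i y) w = w - ℓ w • v) :
    ∃ (Q : Type) (_ : TopologicalSpace Q) (_ : T2Space Q) (_ : CompactSpace Q) (B : Atl n Q)
      (q : Y → Q), Finite B.ι ∧ GoodA B ∧ Nonempty (Part B) ∧ Nonempty (ProjD B) ∧
      IsOpenQuotientMap q ∧ (∀ y y', q y = q y' ↔ y = y' ∨ σ y = y') ∧ HolMap A B q ∧
      (∀ {m : ℕ} {N : Type} [TopologicalSpace N] {D : Fam m N} {f : Q → N},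
        HolC (fam A) D (fun y => f (q y)) → HolC (fam B) D f) ∧
      ∀ y, σ y ≠ y → ∀ i b, y ∈ (A.e i).source → q y ∈ (B.e b).source →
        Function.Injective (fderiv ℂ (fun z => B.e b (q ((A.e i).symm z))) (A.e i y)) := by
  classical
  let τ : Equiv.Perm Y := ⟨σ, σ, hσσ, hσσ⟩
  have hτ : τ ^ (2 : ℤ) = 1 := by
    ext y
    rw [zpow_ofNat, pow_two]
    exact hσσ y
  let G := Subgroup.zpowers τ
  let s : G := ⟨τ, Subgroup.mem_zpowers τ⟩
  have hsm : ∀ y : Y, s • y = σ y := fun y => rfl
  have hs : ∀ g : G, g = 1 ∨ g = s := by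
    rintro ⟨g, hg⟩
    obtain ⟨k, rfl⟩ := Subgroup.mem_zpowers_iff.1 hg
    rcases Int.even_or_odd' k with ⟨j, rfl | rfl⟩
    · left
      apply Subtype.ext
      change τ ^ (2 * j) = 1
      rw [zpow_mul, hτ, one_zpow]
    · right
      apply Subtype.ext
      change τ ^ (2 * j + 1) = τ
      rw [zpow_add, zpow_mul, hτ, one_zpow, one_mul, zpow_one]
  have hs1 : s ≠ 1 := by
    intro h
    obtain ⟨y, hy⟩ := hne
    exact hy (by rw [← hsm, h, one_smul])
  have hss : s * s = 1 := by
    rcases hs (s * s) with h | h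
    · exact h
    · exact absurd (mul_eq_left.1 h) hs1
  have _ := finite_of_two hs
  have _ : ContinuousConstSMul G Y := ⟨fun g => by
    rcases hs g with h | h
    · rw [h]
      simp only [one_smul]
      exact continuous_id
    · rw [h]
      exact hσ.cont⟩
  have hG : ∀ g : G, HolC (fam A) (fam A) (fun y => g • y) := by
    intro g
    rcases hs g with h | h
    · rw [h]
      simp only [one_smul]
      exact HolC.id _
    · rw [h]
      exact holC_iff.2 hσ
  have hcov : ∀ y : Y, ∃ c : RC G (fam A), y ∈ c.e.source := by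
    intro y
    have hpd : PD G y := pd_of_properly y
    by_cases hy : σ y = y
    · obtain ⟨i, hi, ℓ, v, hv, hd⟩ := hfix y hy
      exact exists_RC_deriv hpd hss (fun g _ => hs g) hy (hG s) (cpt_e (C := fam A) i) hi ℓ v hv hd
    · refine exists_RC_free hpd fun g hg => ?_
      rcases hs g with h | h
      · exact h
      · exact absurd (by rw [h] at hg; exact hg) hy
  have _ : T2Space (Orb G Y) := t2Space_of_properlyDiscontinuousSMul_of_t2Space
  obtain ⟨B, h1, h2, h3, h4, h5, h6, h7⟩ := exists_quot_projD P hs1 hs hG hcov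
  refine ⟨Orb G Y, inferInstance, inferInstance, inferInstance, B, pr G, h1, h2, h3, h7,
    isOpenQuotientMap_pr, ?_, h6, ?_, ?_⟩
  · intro y y'
    rw [pr_eq_iff]
    constructor
    · rintro ⟨g, hg⟩
      rcases hs g with h | h
      · left
        rw [← hg, h, one_smul]
      · right
        rw [← hg, h]
        exact (hsm y).symm
    · rintro (h | h)
      · exact ⟨1, by rw [one_smul, h]⟩
      · exact ⟨s, by rw [hsm, h]⟩
  · intro m N _ D f hf
    exact (holC_desc hG hcov hf).comp h4
  · intro y hy i b hi hb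
    obtain ⟨c, hc⟩ := hcov y
    have hst : ∀ g : G, g • y = y → g = 1 := by
      intro g hg
      rcases hs g with h | h
      · exact h
      · exact absurd (by rw [h] at hg; exact hg) hy
    have hk1 : ∀ s' a, c.k = some (s', a) → s' ≠ 1 := by
      intro s' a hk h
      -- `rf a` would be the identity on an open set
      have htgt : ∀ᶠ w in 𝓝 (c.e y), w ∈ c.e.target :=
        c.e.open_target.mem_nhds (c.e.map_source hc)
      have h1 : ∀ᶠ w in 𝓝 (c.e y), rf a w = w := by
        filter_upwards [htgt] with w hw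
        have h2 := c.ref s' a hk _ (c.e.map_target hw)
        rw [h, one_smul, c.e.right_inv hw] at h2
        exact h2.symm
      have h2 : ∀ᶠ w in 𝓝 (c.e y), w a = 0 := by
        filter_upwards [h1] with w hw
        have h3 := congrArg (fun z : Cn n => z a) hw
        simp only [rf_same] at h3
        have h4 : (2 : ℂ) * w a = 0 := by linear_combination -h3
        rcases mul_eq_zero.1 h4 with h5 | h5
        · norm_num at h5
        · exact h5
      have h3 : Tendsto (fun τ : ℂ => c.e y + τ • (EuclideanSpace.single a (1 : ℂ) : Cn n))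
          (𝓝 0) (𝓝 (c.e y)) := by
        have : Continuous fun τ : ℂ => c.e y + τ • (EuclideanSpace.single a (1 : ℂ) : Cn n) := by
          fun_prop
        simpa using this.tendsto 0
      have h4 := h3.eventually h2
      have h5 : (c.e y) a = 0 := h2.self_of_nhds
      have h6 : ∀ᶠ τ : ℂ in 𝓝 0, τ = 0 := by
        filter_upwards [h4] with τ hτ
        simpa [h5] using hτ
      have h7 : ∀ᶠ τ : ℂ in 𝓝[≠] 0, τ = 0 := h6.filter_mono nhdsWithin_le_nhds
      obtain ⟨τ, hτ, hτ0⟩ := (h7.and self_mem_nhdsWithin).exists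
      exact hτ0 hτ
    have hinj1 := c.injective_fderiv hc hst hk1
    -- the three maps
    have hd1 : DifferentiableAt ℂ (fun z => c.e ((A.e i).symm z)) (A.e i y) :=
      c.diffAt' (HolC.id (fam A)) (j := i) hi hc
    have hd2 : DifferentiableAt ℂ (fun w => c.eM (pr G (c.e.symm w))) (c.e y) :=
      c.diffAt (holC_pi hG hcov) (j := c) hc (c.mem_eM_source hc)
    have hd3 : DifferentiableAt ℂ (fun w => B.e b (c.eM.symm w)) (c.eM (pr G y)) := by
      have h8 := h5.diffAt (i := c) (j := b) (z := c.eM (pr G y))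
        (c.eM.map_source (c.mem_eM_source hc)) (by
          have : c.eM.symm (c.eM (pr G y)) = pr G y := c.eM.left_inv (c.mem_eM_source hc)
          change c.eM.symm (c.eM (pr G y)) ∈ (B.e b).source
          rw [this]; exact hb)
      exact h8
    have hd3' : DifferentiableAt ℂ (fun w => c.eM ((B.e b).symm w)) (B.e b (pr G y)) := by
      have h8 := h4.diffAt (i := b) (j := c) (z := B.e b (pr G y))
        ((B.e b).map_source hb) (by
          change (B.e b).symm (B.e b (pr G y)) ∈ c.eM.source
          rw [(B.e b).left_inv hb]; exact c.mem_eM_source hc)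
      exact h8
    have hd1' : DifferentiableAt ℂ (fun w => A.e i (c.e.symm w)) (c.e y) :=
      c.diffAt (HolC.id (fam A)) (j := i) hc hi
    have e1 : c.e ((A.e i).symm (A.e i y)) = c.e y := by rw [(A.e i).left_inv hi]
    have e2 : c.eM (pr G (c.e.symm (c.e y))) = c.eM (pr G y) := by rw [c.e.left_inv hc]
    have e3 : B.e b (c.eM.symm (c.eM (pr G y))) = B.e b (pr G y) := by
      rw [c.eM.left_inv (c.mem_eM_source hc)]
    have ev1 : ∀ᶠ z in 𝓝 (A.e i y), (A.e i).symm z ∈ c.e.source := by
      refine ((A.e i).continuousAt_symm ((A.e i).map_source hi)).preimage_mem_nhds ?_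
      rw [(A.e i).left_inv hi]
      exact c.e.open_source.mem_nhds hc
    have ev2 : ∀ᶠ z in 𝓝 (c.eM (pr G y)), c.eM.symm z ∈ (B.e b).source := by
      refine (c.eM.continuousAt_symm (c.eM.map_source (c.mem_eM_source hc))).preimage_mem_nhds ?_
      rw [c.eM.left_inv (c.mem_eM_source hc)]
      exact (B.e b).open_source.mem_nhds hb
    have i1 : Function.Injective (fderiv ℂ (fun z => c.e ((A.e i).symm z)) (A.e i y)) := by
      refine injective_fderiv_of_inv hd1 (r := fun w => A.e i (c.e.symm w)) ?_ ?_
      · rw [e1]; exact hd1'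
      · filter_upwards [ev1, (A.e i).open_target.mem_nhds ((A.e i).map_source hi)] with z hz hz2
        rw [c.e.left_inv hz, (A.e i).right_inv hz2]
    have i3 : Function.Injective (fderiv ℂ (fun w => B.e b (c.eM.symm w)) (c.eM (pr G y))) := by
      refine injective_fderiv_of_inv hd3 (r := fun w => c.eM ((B.e b).symm w)) ?_ ?_
      · rw [e3]; exact hd3'
      · filter_upwards [ev2, c.eM.open_target.mem_nhds (c.eM.map_source (c.mem_eM_source hc))]
          with z hz hz2
        rw [(B.e b).left_inv hz, c.eM.right_inv hz2]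
    have hd2' : DifferentiableAt ℂ (fun w => c.eM (pr G (c.e.symm w)))
        (c.e ((A.e i).symm (A.e i y))) := by rw [e1]; exact hd2
    have hd3'' : DifferentiableAt ℂ (fun w => B.e b (c.eM.symm w))
        (c.eM (pr G (c.e.symm (c.e ((A.e i).symm (A.e i y)))))) := by rw [e1, e2]; exact hd3
    have hA := hd3''.hasFDerivAt.comp (A.e i y) (hd2'.hasFDerivAt.comp (A.e i y) hd1.hasFDerivAt)
    have hev : (fun z => B.e b (pr G ((A.e i).symm z))) =ᶠ[𝓝 (A.e i y)]
        ((fun w => B.e b (c.eM.symm w)) ∘ ((fun w => c.eM (pr G (c.e.symm w))) ∘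
          fun z => c.e ((A.e i).symm z))) := by
      filter_upwards [ev1] with z hz
      simp only [Function.comp]
      rw [c.e.left_inv hz, c.eM.left_inv (c.mem_eM_source hz)]
    rw [hev.fderiv_eq, hA.fderiv, e1, e2]
    intro x x' hxx
    exact i1 (hinj1 (i3 hxx))

end

end Crest.Agent.R272.Refl_246
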