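import Crest.Agent.R272.Refl4_246
import Crest.Agent.R272.LinTr_302

/-!
# R272 (S0415), stabilisers on `X₁` (helper302), part 2: adapted charts from a trace count

* `exists_RC_trace` : `s` fixes `y`, trace of the derivative `n - 2` ⟹ 246's adapted chart;
* `exists_RC_level` : the trace from ambient data: `Y` is near `y` immersed by `g₀` in a level set
  `{Φ = 0}` of maximal rank in `E`, `s` is induced by `S : E → E`, `Φ ∘ S = M Φ`,
  `tr DS - tr M = n - 2`.
-/

set_option autoImplicit false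

open Set Filter Topology Module

namespace Crest.Agent.R272.ReflT_302

open Crest.Agent.R275.Geo Crest.Agent.R275.Core144 Crest.Agent.R275.GC293
open Crest.Agent.R273.Defs_333 Crest.Agent.R273.Map_835 Crest.Agent.R273.Fam_835
open Refl_246 LinTr_302

noncomputable section

variable {n : ℕ} {Y : Type} [TopologicalSpace Y] {C : Fam n Y} {G : Type} [Group G]
  [MulAction G Y]

/-- the chart expression of `s` at a fixed point is an involution to first order -/
theorem invol [ContinuousConstSMul G Y] {y : Y} {s : G} (hs2 : s * s = 1) (hsy : s • y = y)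
    (hs : HolC C C (fun u : Y => s • u)) {φ : OpenPartialHomeomorph Y (Cn n)} (hφ : Cpt C φ)
    (hy : y ∈ φ.source) (w : Cn n) :
    fderiv ℂ (fun z => φ (s • φ.symm z)) (φ y) (fderiv ℂ (fun z => φ (s • φ.symm z)) (φ y) w) =
      w := by
  set S : Cn n → Cn n := fun z => φ (s • φ.symm z) with hS
  have hss : ∀ u : Y, s • s • u = u := fun u => by rw [smul_smul, hs2, one_smul]
  have hcs : Continuous fun u : Y => s • u := continuous_const_smul s
  have hSp : S (φ y) = φ y := by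
    simp only [hS]
    rw [φ.left_inv hy, hsy]
  have hd : DifferentiableAt ℂ S (φ y) := hφ.diffAt hφ hs hy (by
    show s • y ∈ φ.source
    rw [hsy]; exact hy)
  have h1 : HasFDerivAt (fun z => S (S z)) ((fderiv ℂ S (φ y)).comp (fderiv ℂ S (φ y))) (φ y) := by
    have h2 : HasFDerivAt S (fderiv ℂ S (φ y)) (S (φ y)) := by
      rw [hSp]; exact hd.hasFDerivAt
    exact h2.comp (φ y) hd.hasFDerivAt
  have h3 : (fun z => S (S z)) =ᶠ[𝓝 (φ y)] fun z => z := by
    have h4 : ∀ᶠ z in 𝓝 (φ y), z ∈ φ.target ∧ s • φ.symm z ∈ φ.source := by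
      refine Filter.Eventually.and (φ.open_target.mem_nhds (φ.map_source hy)) ?_
      have h5 : ContinuousAt (fun z => s • φ.symm z) (φ y) :=
        hcs.continuousAt.comp (φ.continuousAt_symm (φ.map_source hy))
      refine h5.preimage_mem_nhds (φ.open_source.mem_nhds ?_)
      rw [φ.left_inv hy, hsy]
      exact hy
    filter_upwards [h4] with z hz
    simp only [hS]
    rw [φ.left_inv hz.2, hss, φ.right_inv hz.1]
  have h6 := h1.unique ((hasFDerivAt_id (𝕜 := ℂ) (φ y)).congr_of_eventuallyEq h3)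
  exact DFunLike.congr_fun h6 w

/-- **adapted chart from the trace** -/
theorem exists_RC_trace [ContinuousConstSMul G Y] {y : Y} (hpd : PD G y) {s : G}
    (hs2 : s * s = 1) (hst : ∀ g : G, g • y = y → g = 1 ∨ g = s) (hsy : s • y = y)
    (hs : HolC C C (fun u : Y => s • u)) {φ : OpenPartialHomeomorph Y (Cn n)} (hφ : Cpt C φ)
    (hy : y ∈ φ.source)
    (htr : LinearMap.trace ℂ (Cn n)
      (fderiv ℂ (fun z => φ (s • φ.symm z)) (φ y) : Cn n →ₗ[ℂ] Cn n) = (n : ℂ) - 2) :
    ∃ c : RC G C, y ∈ c.e.source := by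
  obtain ⟨ℓ, v, hv, hd⟩ := refl_of_trace
    (fderiv ℂ (fun z => φ (s • φ.symm z)) (φ y) : Cn n →ₗ[ℂ] Cn n)
    (fun w => invol hs2 hsy hs hφ hy w) (by rw [htr]; simp)
  exact exists_RC_deriv hpd hs2 hst hsy hs hφ hy (LinearMap.toContinuousLinearMap ℓ) v hv
    (fun w => hd w)

variable {E F : Type*} [NormedAddCommGroup E] [NormedSpace ℂ E] [NormedAddCommGroup F]
  [NormedSpace ℂ F] [FiniteDimensional ℂ E] [FiniteDimensional ℂ F]

/-- **adapted chart from ambient data** -/
theorem exists_RC_level [ContinuousConstSMul G Y] {y : Y} (hpd : PD G y) {s : G}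
    (hs2 : s * s = 1) (hst : ∀ g : G, g • y = y → g = 1 ∨ g = s) (hsy : s • y = y)
    (hs : HolC C C (fun u : Y => s • u)) {φ : OpenPartialHomeomorph Y (Cn n)} (hφ : Cpt C φ)
    (hy : y ∈ φ.source) {g₀ : Y → E} {S : E → E} {Φ : E → F} {M : E → F →L[ℂ] F}
    {ι : Cn n →L[ℂ] E} {DS : E →L[ℂ] E} {DΦ : E →L[ℂ] F}
    (hg : HasFDerivAt (fun z => g₀ (φ.symm z)) ι (φ y)) (hι : Function.Injective ι)
    (hS : HasFDerivAt S DS (g₀ y)) (hgS : ∀ᶠ u in 𝓝 y, g₀ (s • u) = S (g₀ u))
    (hΦ : HasFDerivAt Φ DΦ (g₀ y)) (hsurj : Function.Surjective DΦ)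
    (hdim : finrank ℂ E = n + finrank ℂ F) (hΦg : ∀ᶠ u in 𝓝 y, Φ (g₀ u) = 0)
    (hM : DifferentiableAt ℂ M (g₀ y)) (hΦS : ∀ᶠ x in 𝓝 (g₀ y), Φ (S x) = M x (Φ x))
    (htr : LinearMap.trace ℂ E (DS : E →ₗ[ℂ] E) -
      LinearMap.trace ℂ F (M (g₀ y) : F →ₗ[ℂ] F) = (n : ℂ) - 2) :
    ∃ c : RC G C, y ∈ c.e.source := by
  refine exists_RC_trace hpd hs2 hst hsy hs hφ hy ?_
  rw [← htr]
  have hyy : φ.symm (φ y) = y := φ.left_inv hy
  have hcs : Continuous fun u : Y => s • u := continuous_const_smul s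
  have hd : DifferentiableAt ℂ (fun z => φ (s • φ.symm z)) (φ y) := hφ.diffAt hφ hs hy (by
    show s • y ∈ φ.source
    rw [hsy]; exact hy)
  have hc : ContinuousAt φ.symm (φ y) := φ.continuousAt_symm (φ.map_source hy)
  have ev : ∀ {p : Y → Prop}, (∀ᶠ u in 𝓝 y, p u) → ∀ᶠ z in 𝓝 (φ y), p (φ.symm z) := by
    intro p hp
    have h1 : Tendsto φ.symm (𝓝 (φ y)) (𝓝 y) := by
      have h2 := hc.tendsto
      rwa [hyy] at h2
    exact h1.eventually hp
  have hgp : g₀ (φ.symm (φ y)) = g₀ y := by rw [hyy]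
  have key := trace_level (g := fun z => g₀ (φ.symm z)) (T := fun z => φ (s • φ.symm z)) (S := S)
    (Φ := Φ) (M := M) (p := φ y) (ι := ι) (A := fderiv ℂ (fun z => φ (s • φ.symm z)) (φ y))
    (DS := DS) (DΦ := DΦ) hg hι hd.hasFDerivAt (by simp only [hyy, hsy])
    (by simp only [hyy]; exact hS) ?_ (by simp only [hyy]; exact hΦ) hsurj
    (by rw [hdim]; simp) (ev hΦg) (by simp only [hyy]; exact hM) (by simp only [hyy]; exact hΦS)
  · rw [key]
    simp only [hyy]
  · have h2 : ∀ᶠ u in 𝓝 y, s • u ∈ φ.source :=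
      hcs.continuousAt.preimage_mem_nhds (φ.open_source.mem_nhds (by rw [hsy]; exact hy))
    filter_upwards [ev hgS, ev h2] with z hz hz2
    rw [φ.left_inv hz2]
    exact hz

end

end Crest.Agent.R272.ReflT_302
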