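import Crest.Agent.R272.Root1_83
import Crest.Agent.R272.Quot2_783

/-!
# R272, leaf ROOTCOV (helper83), part 2: the two instances

* `RS.ofCont`: continuous roots, the complement of the zero set dense and locally connected;
* `RS.ofHol` : holomorphic roots on a complex manifold (`Fam n Y`), `g a` nowhere locally zero.
-/

set_option autoImplicit false

open Set Topology Filter

namespace Crest.Agent.R272.Root_83

open Crest.Agent.R275.Geo Crest.Agent.R273.Fam_835 Crest.Agent.R272.Quot_783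

noncomputable section

universe u v

/-- `U` has many connected pieces off the zero set of `g` near `x` -/
def LocCon {Y : Type u} [TopologicalSpace Y] (g : Y → ℂ) (x : Y) : Prop :=
  ∀ U ∈ 𝓝 x, ∃ V, V ⊆ U ∧ IsOpen V ∧ x ∈ V ∧ IsPreconnected (V ∩ {z | g z ≠ 0}) ∧
    V ⊆ closure (V ∩ {z | g z ≠ 0})

theorem dich_cont {Y : Type u} [TopologicalSpace Y] {g r r' : Y → ℂ} {x : Y} (hg : LocCon g x)
    (h1 : ∀ᶠ z in 𝓝 x, ContinuousAt r z ∧ r z ^ 2 = g z)
    (h2 : ∀ᶠ z in 𝓝 x, ContinuousAt r' z ∧ r' z ^ 2 = g z) :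
    r' =ᶠ[𝓝 x] r ∨ r' =ᶠ[𝓝 x] -r := by
  obtain ⟨V, hVU, hVo, hxV, hpc, hcl⟩ := hg _ (h1.and h2)
  have hc : ∀ z ∈ V, ContinuousAt r z := fun z hz => (hVU hz).1.1
  have hc' : ∀ z ∈ V, ContinuousAt r' z := fun z hz => (hVU hz).2.1
  have hs : ∀ z ∈ V, r z ^ 2 = g z := fun z hz => (hVU hz).1.2
  have hs' : ∀ z ∈ V, r' z ^ 2 = g z := fun z hz => (hVU hz).2.2
  -- on the connected part
  have hsub : ∀ s t : Y → ℂ, (∀ z ∈ V, ContinuousAt s z) → (∀ z ∈ V, ContinuousAt t z) →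
      (∀ z ∈ V ∩ {z | g z ≠ 0}, s z = t z) → s =ᶠ[𝓝 x] t := by
    intro s t hs1 ht1 he
    filter_upwards [hVo.mem_nhds hxV] with z hz
    have h3 : z ∈ closure (V ∩ {z | g z ≠ 0}) := hcl hz
    have h4 : ∃ᶠ w in 𝓝 z, w ∈ V ∩ {z | g z ≠ 0} := mem_closure_iff_frequently.1 h3
    have h5 : ∃ᶠ w in 𝓝 z, (s - t) w = 0 := h4.mono fun w hw => by
      show s w - t w = 0
      rw [he w hw, sub_self]
    have h6 : ContinuousAt (s - t) z := (hs1 z hz).sub (ht1 z hz)
    by_contra hne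
    have h7 : ∀ᶠ w in 𝓝 z, (s - t) w ≠ 0 := h6.eventually_ne (sub_ne_zero.2 hne)
    exact h5 (h7.mono fun w hw h => hw h)
  have hne : ∀ {z}, z ∈ V ∩ {z | g z ≠ 0} → r z ≠ 0 := by
    intro z hz h0
    exact hz.2 (by rw [← hs z hz.1, h0]; simp)
  have hsq : EqOn (r' ^ 2) (r ^ 2) (V ∩ {z | g z ≠ 0}) := by
    intro z hz
    show r' z ^ 2 = r z ^ 2
    rw [hs z hz.1, hs' z hz.1]
  rcases hpc.eq_or_eq_neg_of_sq_eq (fun z hz => (hc' z hz.1).continuousWithinAt)
    (fun z hz => (hc z hz.1).continuousWithinAt) hsq hne with h | h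
  · exact Or.inl (hsub r' r hc' hc h)
  · exact Or.inr (hsub r' (-r) hc' (fun z hz => (hc z hz).neg) h)

/-- **Instance: continuous roots.** -/
def RS.ofCont {Y : Type u} [TopologicalSpace Y] {ι : Type v} (g : ι → Y → ℂ)
    (hg : ∀ a x, LocCon (g a) x)
    (hr : ∀ a x, ∃ r : Y → ℂ, ∀ᶠ z in 𝓝 x, ContinuousAt r z ∧ r z ^ 2 = g a z) :
    RS Y ι g where
  Rt a r x := ∀ᶠ z in 𝓝 x, ContinuousAt r z ∧ r z ^ 2 = g a z
  opn h := h.eventually_nhds
  sq h := h.self_of_nhds.2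
  cont h := h.self_of_nhds.1
  ex a x := hr a x
  ne a x := by
    intro hev
    obtain ⟨V, hVU, -, hxV, -, hcl⟩ := hg a x _ hev
    have h3 : (V ∩ {z | g a z ≠ 0}).Nonempty := by
      by_contra h4
      rw [not_nonempty_iff_eq_empty] at h4
      have := hcl hxV
      rw [h4] at this
      simp at this
    obtain ⟨z, hz, hz'⟩ := h3
    exact hVU hz hz'
  dich h h' := dich_cont (hg _ _) h h'

/-! ### holomorphic roots -/

/-- two holomorphic functions on a ball whose product vanishes: one of them vanishes -/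
theorem eq_zero_of_mul {n : ℕ} {V : Set (Cn n)} (hV : IsOpen V) (hpc : IsPreconnected V)
    {F G : Cn n → ℂ} (hF : DifferentiableOn ℂ F V) (hG : DifferentiableOn ℂ G V)
    (h : ∀ z ∈ V, F z * G z = 0) : (∀ z ∈ V, F z = 0) ∨ (∀ z ∈ V, G z = 0) := by
  by_cases h1 : ∀ z ∈ V, F z = 0
  · exact Or.inl h1
  · push Not at h1
    obtain ⟨z0, hz0, hne⟩ := h1
    right
    have hG' := Crest.Agent.R266.SCV.analyticOnNhd_of_differentiableOn hV hG
    have h2 : G =ᶠ[𝓝 z0] 0 := by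
      have h3 : ∀ᶠ z in 𝓝 z0, F z ≠ 0 :=
        (hF.differentiableAt (hV.mem_nhds hz0)).continuousAt.eventually_ne hne
      filter_upwards [h3, hV.mem_nhds hz0] with z hz hzV
      exact (mul_eq_zero.1 (h z hzV)).resolve_left hz
    exact fun z hz => hG'.eqOn_zero_of_preconnected_of_eventuallyEq_zero hpc hz0 h2 hz

variable {n : ℕ} {Y : Type} [TopologicalSpace Y]

/-- a holomorphic root near a point -/
def HRt (C : Fam n Y) (g r : Y → ℂ) (x : Y) : Prop :=
  ∃ U, IsOpen U ∧ x ∈ U ∧ HolF C U r ∧ ∀ z ∈ U, r z ^ 2 = g z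

theorem HolF.mono {C : Fam n Y} {U V : Set Y} {r : Y → ℂ} (h : HolF C U r) (hV : V ⊆ U) :
    HolF C V r := fun j => (h j).mono fun _ hz => ⟨hz.1, hV hz.2⟩

theorem HolF.continuousOn {C : Fam n Y} {U : Set Y} (hU : IsOpen U) {r : Y → ℂ}
    (h : HolF C U r) : ContinuousOn r U := by
  intro x hx
  obtain ⟨i, hi⟩ := C.cover x
  have h1 : ContinuousAt (fun z => r ((C.e i).symm z)) (C.e i x) := (h.diffAt hU hi hx).continuousAt
  have h2 : ContinuousAt (fun y => r ((C.e i).symm (C.e i y))) x :=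
    ContinuousAt.comp (f := C.e i) (g := fun z => r ((C.e i).symm z)) h1 ((C.e i).continuousAt hi)
  refine (h2.congr ?_).continuousWithinAt
  filter_upwards [(C.e i).open_source.mem_nhds hi] with y hy
  rw [(C.e i).left_inv hy]

theorem HRt.dich {C : Fam n Y} {g r r' : Y → ℂ} {x : Y} (h : HRt C g r x) (h' : HRt C g r' x) :
    r' =ᶠ[𝓝 x] r ∨ r' =ᶠ[𝓝 x] -r := by
  obtain ⟨U, hU, hxU, hr, hs⟩ := h
  obtain ⟨U', hU', hxU', hr', hs'⟩ := h'
  obtain ⟨i, hi⟩ := C.cover x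
  set z0 := C.e i x with hz0
  have hΩ : IsOpen ((C.e i).target ∩ (C.e i).symm ⁻¹' (U ∩ U')) :=
    (C.e i).isOpen_inter_preimage_symm (hU.inter hU')
  have hz0Ω : z0 ∈ (C.e i).target ∩ (C.e i).symm ⁻¹' (U ∩ U') :=
    ⟨(C.e i).map_source hi, by
      rw [mem_preimage, hz0, (C.e i).left_inv hi]; exact ⟨hxU, hxU'⟩⟩
  obtain ⟨ε, hε, hball⟩ := Metric.isOpen_iff.1 hΩ z0 hz0Ω
  have hd : DifferentiableOn ℂ (fun z => r ((C.e i).symm z)) (Metric.ball z0 ε) :=
    (hr i).mono fun z hz => ⟨(hball hz).1, (hball hz).2.1⟩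
  have hd' : DifferentiableOn ℂ (fun z => r' ((C.e i).symm z)) (Metric.ball z0 ε) :=
    (hr' i).mono fun z hz => ⟨(hball hz).1, (hball hz).2.2⟩
  have hpc : IsPreconnected (Metric.ball z0 ε) := (convex_ball z0 ε).isPreconnected
  have hmem : ∀ᶠ y in 𝓝 x, y ∈ (C.e i).source ∧ C.e i y ∈ Metric.ball z0 ε := by
    filter_upwards [(C.e i).open_source.mem_nhds hi,
      (C.e i).continuousAt hi |>.preimage_mem_nhds (Metric.ball_mem_nhds z0 hε)] with y hy1 hy2
    exact ⟨hy1, hy2⟩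
  rcases eq_zero_of_mul Metric.isOpen_ball hpc (hd'.sub hd) (hd'.add hd) (by
      intro z hz
      have e1 := hs _ (hball hz).2.1
      have e2 := hs' _ (hball hz).2.2
      show (r' _ - r _) * (r' _ + r _) = 0
      linear_combination e2 - e1) with h1 | h1
  · left
    filter_upwards [hmem] with y hy
    have := h1 _ hy.2
    simp only [Pi.sub_apply, (C.e i).left_inv hy.1] at this
    exact sub_eq_zero.1 this
  · right
    filter_upwards [hmem] with y hy
    have := h1 _ hy.2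
    simp only [Pi.add_apply, (C.e i).left_inv hy.1] at this
    show r' y = - r y
    exact eq_neg_of_add_eq_zero_left this

/-- **Instance: holomorphic roots on a complex manifold.** -/
def RS.ofHol (C : Fam n Y) {ι : Type v} (g : ι → Y → ℂ)
    (hne : ∀ a x, ∃ᶠ z in 𝓝 x, g a z ≠ 0) (hr : ∀ a x, ∃ r : Y → ℂ, HRt C (g a) r x) :
    RS Y ι g where
  Rt a r x := HRt C (g a) r x
  opn := by
    rintro a r x ⟨U, hU, hx, h1, h2⟩
    filter_upwards [hU.mem_nhds hx] with z hz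
    exact ⟨U, hU, hz, h1, h2⟩
  sq := by
    rintro a r x ⟨U, hU, hx, h1, h2⟩
    exact h2 x hx
  cont := by
    rintro a r x ⟨U, hU, hx, h1, h2⟩
    exact (HolF.continuousOn hU h1).continuousAt (hU.mem_nhds hx)
  ex := hr
  ne := hne
  dich h h' := HRt.dich h h'

end

end Crest.Agent.R272.Root_83
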