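import Crest.Agent.R272.Root2_83
import Crest.Agent.R272.LbExt1_259

/-!
# R272, leaf ROOTCOV (helper83), part 3: root systems on pulled back coverings

* `pullFam C q hq` : the complex structure on `X'` pulled back along a local homeomorphism `q : X' → X`;
* `RS.ofPB`        : `X̂ = PB q π = {(x,w) | π x = q w}` (`q : P → N` a local homeomorphism, `π : X → N`
                     continuous), `g a : P → ℂ`; if near every point of `X̂` the function `g a (w)` is the
                     square of a holomorphic function of `x`, this is a root system on `X̂`.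
* `exists_root_unit` : a holomorphic function without zero has local holomorphic square roots.
-/

set_option autoImplicit false

open Set Topology Filter

namespace Crest.Agent.R272.Root_83

open Crest.Agent.R275.Geo Crest.Agent.R273.Fam_835 Crest.Agent.R272.Quot_783
open Crest.Agent.R272.LbExt_259

noncomputable section

universe v

section pull

variable {n : ℕ} {X X' : Type} [TopologicalSpace X] [TopologicalSpace X']

/-- the pulled back family of charts -/
def pullFam (C : Fam n X) {q : X' → X} (hq : IsLocalHomeomorph q) : Fam n X' where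
  ι := X' × C.ι
  e p := (hq p.1).choose.trans (C.e p.2)
  cover x := by
    obtain ⟨i, hi⟩ := C.cover (q x)
    refine ⟨(x, i), ?_⟩
    rw [OpenPartialHomeomorph.trans_source]
    refine ⟨(hq x).choose_spec.1, ?_⟩
    rw [mem_preimage, ← (hq x).choose_spec.2]
    exact hi
  holo := by
    rintro ⟨x, i⟩ ⟨y, j⟩
    set ex := (hq x).choose with hex
    set ey := (hq y).choose with hey
    have hx : q = ex := (hq x).choose_spec.2
    have hy : q = ey := (hq y).choose_spec.2
    refine (C.holo i j).congr_mono (f := fun z => C.e j ((C.e i).symm z)) ?_ ?_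
    · rintro z ⟨hz1, hz2⟩
      simp only [OpenPartialHomeomorph.trans_target, OpenPartialHomeomorph.coe_trans,
        OpenPartialHomeomorph.coe_trans_symm, Function.comp, mem_inter_iff, mem_preimage,
        OpenPartialHomeomorph.trans_source] at hz1 hz2 ⊢
      congr 1
      have h1 : ey (ex.symm ((C.e i).symm z)) = (C.e i).symm z := by
        rw [← hy, hx, ex.right_inv hz1.2]
      exact h1
    · rintro z ⟨hz1, hz2⟩
      simp only [OpenPartialHomeomorph.trans_target,
        OpenPartialHomeomorph.coe_trans_symm, Function.comp, mem_inter_iff, mem_preimage,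
        OpenPartialHomeomorph.trans_source] at hz1 hz2 ⊢
      refine ⟨hz1.1, ?_⟩
      have h1 : ey (ex.symm ((C.e i).symm z)) = (C.e i).symm z := by
        rw [← hy, hx, ex.right_inv hz1.2]
      have h2 := hz2.2
      rw [h1] at h2
      exact h2

variable {C : Fam n X} {q : X' → X} (hq : IsLocalHomeomorph q)

theorem pullFam_symm (p : X' × C.ι) {z : Cn n} (hz : z ∈ ((pullFam C hq).e p).target) :
    z ∈ (C.e p.2).target ∧ q (((pullFam C hq).e p).symm z) = (C.e p.2).symm z := by
  have h1 : z ∈ ((hq p.1).choose.trans (C.e p.2)).target := hz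
  rw [OpenPartialHomeomorph.trans_target] at h1
  refine ⟨h1.1, ?_⟩
  have hx : ∀ y, q y = (hq p.1).choose y := congrFun (hq p.1).choose_spec.2
  exact (hx _).trans ((hq p.1).choose.right_inv h1.2)

/-- the local homeomorphism is holomorphic for the pulled back structure -/
theorem holC_pull : HolC (pullFam C hq) C q := by
  refine ⟨hq.continuous, fun p j => ?_⟩
  refine (C.holo p.2 j).congr_mono ?_ ?_
  · rintro z ⟨hz, -⟩
    exact congrArg (C.e j) (pullFam_symm hq p hz).2
  · rintro z ⟨hz, hz2⟩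
    refine ⟨(pullFam_symm hq p hz).1, ?_⟩
    have h2 : q (((pullFam C hq).e p).symm z) ∈ (C.e j).source := hz2
    rw [(pullFam_symm hq p hz).2] at h2
    exact h2

/-- pull back of a holomorphic function -/
theorem holF_pull {U : Set X} {f : X → ℂ} (hf : HolF C U f) {U' : Set X'} (hU : U' ⊆ q ⁻¹' U) :
    HolF (pullFam C hq) U' (fun x => f (q x)) := by
  intro p
  refine (hf p.2).congr_mono ?_ ?_
  · rintro z ⟨hz, -⟩
    exact congrArg f (pullFam_symm hq p hz).2
  · rintro z ⟨hz, hz2⟩
    refine ⟨(pullFam_symm hq p hz).1, ?_⟩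
    have h2 : q (((pullFam C hq).e p).symm z) ∈ U := hU hz2
    rw [(pullFam_symm hq p hz).2] at h2
    exact h2

end pull

section PB

variable {n : ℕ} {X N P : Type} [TopologicalSpace X] [TopologicalSpace N] [TopologicalSpace P]

/-- the projection of the pull back of a local homeomorphism is a local homeomorphism -/
theorem isLocalHomeomorph_pbFst {q : P → N} {π : X → N} (hq : IsCoveringMap q)
    (hπ : Continuous π) : IsLocalHomeomorph (pbFst q π) :=
  (isCoveringMap_fst hq hπ).isLocalHomeomorph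

/-- **The root system on the pulled back covering.** -/
def RS.ofPB (C : Fam n X) {q : P → N} {π : X → N} (hq : IsCoveringMap q) (hπ : Continuous π)
    {ι : Type v} (g : ι → P → ℂ)
    (hr : ∀ (a : ι) (x : X) (w : P), π x = q w → ∃ (U : Set X) (O : Set P) (r : X → ℂ),
      IsOpen U ∧ IsOpen O ∧ x ∈ U ∧ w ∈ O ∧ HolF C U r ∧
      (∀ x' ∈ U, ∀ w' ∈ O, π x' = q w' → r x' ^ 2 = g a w') ∧ ∃ᶠ x' in 𝓝 x, r x' ≠ 0) :
    RS (PB q π) ι (fun a z => g a (pbSnd q π z)) :=
  RS.ofHol (pullFam C (isLocalHomeomorph_pbFst hq hπ)) _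
    (by
      intro a z
      obtain ⟨U, O, r, hU, hO, hx, hw, -, hs, hf⟩ := hr a z.1.1 z.1.2 z.2
      intro hev
      have hlh := isLocalHomeomorph_pbFst hq hπ
      have h1 : ∀ᶠ z' in 𝓝 z, ¬ (r (pbFst q π z') ≠ 0) := by
        have h2 : ∀ᶠ z' in 𝓝 z, pbFst q π z' ∈ U ∧ pbSnd q π z' ∈ O :=
          Filter.Eventually.and
            (continuous_pbFst.continuousAt.preimage_mem_nhds (hU.mem_nhds hx))
            (continuous_pbSnd.continuousAt.preimage_mem_nhds (hO.mem_nhds hw))
        filter_upwards [hev, h2] with z' h3 h4 h5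
        have h6 := hs _ h4.1 _ h4.2 z'.2
        have h7 : g a (pbSnd q π z') = 0 := not_not.1 h3
        rw [h7] at h6
        exact h5 (pow_eq_zero_iff two_ne_zero |>.1 h6)
      have h8 : ∀ᶠ x' in 𝓝 (pbFst q π z), ¬ (r x' ≠ 0) := by
        rw [← hlh.map_nhds_eq z]
        exact h1
      exact hf h8)
    (by
      intro a z
      obtain ⟨U, O, r, hU, hO, hx, hw, hh, hs, hf⟩ := hr a z.1.1 z.1.2 z.2
      refine ⟨fun z' => r (pbFst q π z'), pbFst q π ⁻¹' U ∩ pbSnd q π ⁻¹' O,
        (hU.preimage continuous_pbFst).inter (hO.preimage continuous_pbSnd), ⟨hx, hw⟩,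
        holF_pull _ hh inter_subset_left, ?_⟩
      rintro z' ⟨h1, h2⟩
      exact hs _ h1 _ h2 z'.2)

end PB

/-! ### square roots of units -/

/-- a function differentiable and non-zero at `z0`, has a local square root -/
theorem exists_root_unit {E : Type*} [NormedAddCommGroup E] [NormedSpace ℂ E] {U : Set E}
    (hU : IsOpen U) {f : E → ℂ} (hf : DifferentiableOn ℂ f U) {z0 : E} (hz0 : z0 ∈ U)
    (hne : f z0 ≠ 0) :
    ∃ V, IsOpen V ∧ z0 ∈ V ∧ V ⊆ U ∧ ∃ r : E → ℂ, DifferentiableOn ℂ r V ∧
      (∀ z ∈ V, r z ^ 2 = f z) ∧ ∀ z ∈ V, r z ≠ 0 := by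
  have hcont : ContinuousOn (fun z => f z / f z0) U := hf.continuousOn.div_const _
  have hVo : IsOpen (U ∩ (fun z => f z / f z0) ⁻¹' Complex.slitPlane) :=
    hcont.isOpen_inter_preimage hU Complex.isOpen_slitPlane
  refine ⟨_, hVo, ⟨hz0, ?_⟩, inter_subset_left,
    fun z => (f z0) ^ (1 / 2 : ℂ) * (f z / f z0) ^ (1 / 2 : ℂ), ?_, ?_, ?_⟩
  · rw [mem_preimage, div_self hne]; exact Complex.one_mem_slitPlane
  · intro z hz
    have h1 : DifferentiableWithinAt ℂ (fun z => f z / f z0) (U ∩ (fun z => f z / f z0) ⁻¹'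
        Complex.slitPlane) z := by
      simp only [div_eq_mul_inv]
      exact ((hf z hz.1).mono inter_subset_left).mul_const _
    exact (h1.cpow_const hz.2).const_mul _
  · intro z hz
    have h2 : ((1 / 2 : ℂ)) = (((2 : ℕ) : ℂ))⁻¹ := by norm_num
    simp only
    rw [mul_pow, h2, Complex.cpow_nat_inv_pow _ two_ne_zero, Complex.cpow_nat_inv_pow _ two_ne_zero,
      mul_div_cancel₀ _ hne]
  · intro z hz h0
    have h3 : f z / f z0 ≠ 0 := Complex.slitPlane_ne_zero hz.2
    simp only [mul_eq_zero, Complex.cpow_eq_zero_iff] at h0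
    rcases h0 with h0 | h0
    · exact hne h0.1
    · exact h3 h0.1

/-- a zero-free holomorphic function on a manifold has local holomorphic square roots -/
theorem exists_root_unit_fam {n : ℕ} {X : Type} [TopologicalSpace X] (C : Fam n X) {U : Set X}
    (hU : IsOpen U) {f : X → ℂ} (hf : HolF C U f) {x : X} (hx : x ∈ U) (hne : f x ≠ 0) :
    ∃ V, IsOpen V ∧ x ∈ V ∧ V ⊆ U ∧ ∃ r : X → ℂ, HolF C V r ∧
      (∀ z ∈ V, r z ^ 2 = f z) ∧ ∀ z ∈ V, r z ≠ 0 := by
  have hcont : ContinuousOn (fun z => f z / f x) U := (HolF.continuousOn hU hf).div_const _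
  have hVo : IsOpen (U ∩ (fun z => f z / f x) ⁻¹' Complex.slitPlane) :=
    hcont.isOpen_inter_preimage hU Complex.isOpen_slitPlane
  refine ⟨_, hVo, ⟨hx, ?_⟩, inter_subset_left,
    fun z => (f x) ^ (1 / 2 : ℂ) * (f z / f x) ^ (1 / 2 : ℂ), ?_, ?_, ?_⟩
  · rw [mem_preimage, div_self hne]; exact Complex.one_mem_slitPlane
  · intro j z hz
    have h1 : DifferentiableWithinAt ℂ (fun z => f ((C.e j).symm z) / f x)
        ((C.e j).target ∩ (C.e j).symm ⁻¹' (U ∩ (fun z => f z / f x) ⁻¹' Complex.slitPlane)) z := by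
      have h2 : ((C.e j).target ∩ (C.e j).symm ⁻¹' (U ∩ (fun z => f z / f x) ⁻¹'
          Complex.slitPlane)) ⊆ ((C.e j).target ∩ (C.e j).symm ⁻¹' U) :=
        fun y hy => ⟨hy.1, hy.2.1⟩
      exact ((hf j z ⟨hz.1, hz.2.1⟩).mono h2).mul_const (f x)⁻¹
    exact (h1.cpow_const hz.2.2).const_mul _
  · intro z hz
    have h2 : ((1 / 2 : ℂ)) = (((2 : ℕ) : ℂ))⁻¹ := by norm_num
    simp only
    rw [mul_pow, h2, Complex.cpow_nat_inv_pow _ two_ne_zero, Complex.cpow_nat_inv_pow _ two_ne_zero,
      mul_div_cancel₀ _ hne]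
  · intro z hz h0
    have h3 : f z / f x ≠ 0 := Complex.slitPlane_ne_zero hz.2
    simp only [mul_eq_zero, Complex.cpow_eq_zero_iff] at h0
    rcases h0 with h0 | h0
    · exact hne h0.1
    · exact h3 h0.1

end

end Crest.Agent.R272.Root_83
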