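import Mathlib

/-!
Row 272 (S0414), UNIF-B, part 6: products of covering maps.
-/

set_option autoImplicit false

open Set Filter Topology Function

namespace Crest.Agent.R272.UnB_894

noncomputable section

variable {E E' X X' : Type*} [TopologicalSpace E] [TopologicalSpace E'] [TopologicalSpace X]
  [TopologicalSpace X']

theorem evenly_prod {p : E → X} {p' : E' → X'} {x : X} {x' : X'} {I I' : Type*}
    [TopologicalSpace I] [TopologicalSpace I'] (h : IsEvenlyCovered p x I)
    (h' : IsEvenlyCovered p' x' I') : IsEvenlyCovered (Prod.map p p') (x, x') (I × I') := by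
  obtain ⟨hI, U, hxU, hU, hpU, H, hH⟩ := h
  obtain ⟨hI', U', hxU', hU', hpU', H', hH'⟩ := h'
  refine ⟨inferInstance, U ×ˢ U', ⟨hxU, hxU'⟩, hU.prod hU', ?_, ?_⟩
  · exact hpU.prod hpU'
  · refine ⟨⟨⟨fun e => ((⟨Prod.map p p' e.1, e.2⟩ : (U ×ˢ U' : Set (X × X'))),
        ((H ⟨e.1.1, e.2.1⟩).2, (H' ⟨e.1.2, e.2.2⟩).2)),
      fun y => ⟨((H.symm (⟨y.1.1.1, y.1.2.1⟩, y.2.1) : E), (H'.symm (⟨y.1.1.2, y.1.2.2⟩, y.2.2) : E')),
        ⟨(H.symm (⟨y.1.1.1, y.1.2.1⟩, y.2.1)).2, (H'.symm (⟨y.1.1.2, y.1.2.2⟩, y.2.2)).2⟩⟩,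
      ?_, ?_⟩, ?_, ?_⟩, fun e => rfl⟩
    · rintro ⟨⟨a, b⟩, ha, hb⟩
      apply Subtype.ext
      refine Prod.ext ?_ ?_
      · have h1 : ((⟨p a, ha⟩ : U), (H ⟨a, ha⟩).2) = H ⟨a, ha⟩ :=
          Prod.ext (Subtype.ext (hH ⟨a, ha⟩).symm) rfl
        change ((H.symm (⟨p a, ha⟩, (H ⟨a, ha⟩).2) : p ⁻¹' U) : E) = a
        rw [h1, Homeomorph.symm_apply_apply]
      · have h1 : ((⟨p' b, hb⟩ : U'), (H' ⟨b, hb⟩).2) = H' ⟨b, hb⟩ :=
          Prod.ext (Subtype.ext (hH' ⟨b, hb⟩).symm) rfl
        change ((H'.symm (⟨p' b, hb⟩, (H' ⟨b, hb⟩).2) : p' ⁻¹' U') : E') = b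
        rw [h1, Homeomorph.symm_apply_apply]
    · rintro ⟨⟨⟨a, b⟩, ha, hb⟩, i, i'⟩
      have ha' : a ∈ U := ha
      have hb' : b ∈ U' := hb
      have e1 : H (H.symm (⟨a, ha'⟩, i)) = (⟨a, ha'⟩, i) := H.apply_symm_apply _
      have e2 : H' (H'.symm (⟨b, hb'⟩, i')) = (⟨b, hb'⟩, i') := H'.apply_symm_apply _
      refine Prod.ext (Subtype.ext (Prod.ext ?_ ?_)) (Prod.ext ?_ ?_)
      · change p (H.symm (⟨a, ha'⟩, i) : p ⁻¹' U) = a
        rw [← hH, e1]
      · change p' (H'.symm (⟨b, hb'⟩, i') : p' ⁻¹' U') = b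
        rw [← hH', e2]
      · change (H (H.symm (⟨a, ha'⟩, i))).2 = i
        rw [e1]
      · change (H' (H'.symm (⟨b, hb'⟩, i'))).2 = i'
        rw [e2]
    · refine Continuous.prodMk ?_ (Continuous.prodMk ?_ ?_)
      · refine Continuous.subtype_mk ?_ _
        have c1 : Continuous fun e : (Prod.map p p' ⁻¹' (U ×ˢ U') : Set (E × E')) =>
            ((H ⟨e.1.1, e.2.1⟩).1 : X) := by
          refine continuous_subtype_val.comp (continuous_fst.comp (H.continuous.comp ?_))
          exact Continuous.subtype_mk (continuous_fst.comp continuous_subtype_val) _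
        have c2 : Continuous fun e : (Prod.map p p' ⁻¹' (U ×ˢ U') : Set (E × E')) =>
            ((H' ⟨e.1.2, e.2.2⟩).1 : X') := by
          refine continuous_subtype_val.comp (continuous_fst.comp (H'.continuous.comp ?_))
          exact Continuous.subtype_mk (continuous_snd.comp continuous_subtype_val) _
        refine (c1.prodMk c2).congr fun e => ?_
        exact Prod.ext (hH _) (hH' _)
      · refine continuous_snd.comp (H.continuous.comp ?_)
        exact Continuous.subtype_mk (continuous_fst.comp continuous_subtype_val) _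
      · refine continuous_snd.comp (H'.continuous.comp ?_)
        exact Continuous.subtype_mk (continuous_snd.comp continuous_subtype_val) _
    · refine Continuous.subtype_mk (Continuous.prodMk ?_ ?_) _
      · refine continuous_subtype_val.comp (H.symm.continuous.comp (Continuous.prodMk ?_ ?_))
        · exact Continuous.subtype_mk (continuous_fst.comp
            (continuous_subtype_val.comp continuous_fst)) _
        · exact continuous_fst.comp continuous_snd
      · refine continuous_subtype_val.comp (H'.symm.continuous.comp (Continuous.prodMk ?_ ?_))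
        · exact Continuous.subtype_mk (continuous_snd.comp
            (continuous_subtype_val.comp continuous_fst)) _
        · exact continuous_snd.comp continuous_snd

/-- the product of two covering maps is a covering map -/
theorem prod_covering {p : E → X} {p' : E' → X'} (h : IsCoveringMap p) (h' : IsCoveringMap p') :
    IsCoveringMap (Prod.map p p') := fun x =>
  (evenly_prod (h x.1) (h' x.2)).to_isEvenlyCovered_preimage

end

end Crest.Agent.R272.UnB_894
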