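import Crest.Agent.R272.UnB5_894
import Crest.Agent.R272.UnB6_894
import Crest.Agent.R272.Root3_83

/-!
Row 272 (S0414), UNIF-B, part 7: disc coordinates as holomorphic functions.

* `locInv`   : `φ : X → M` holomorphic, `p : disc → M` covering, locally biholomorphic, `φ x = p w`:
               near `x` there is a holomorphic function `s` with `p (s x') = φ x'`, and every `w'`
               near `w` with `p w' = φ x'` is `s x'`;
* `holF_coord`: the coordinate of the pulled back covering is holomorphic.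
-/

set_option autoImplicit false
set_option linter.unusedSectionVars false

open Metric Set Filter Topology Function
open scoped Classical

namespace Crest.Agent.R272.UnB_894

open Crest.Agent.R275.Geo Crest.Agent.R275.Core144 Crest.Agent.R273.Map_835
open Crest.Agent.R273.Fam_835 Crest.Agent.R272.Quot_783 Crest.Agent.R272.Root_83
open Crest.Agent.R272.LbExt_259

noncomputable section

variable {M M' X : Type} [TopologicalSpace M] [TopologicalSpace M'] [TopologicalSpace X]
  {A : Atl 1 M} {A' : Atl 1 M'} {n : ℕ} {C : Fam n X}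

/-- a locally checkable criterion for holomorphic functions -/
theorem holF_of_local {U : Set X} {F : X → ℂ}
    (h : ∀ x ∈ U, ∃ j, x ∈ (C.e j).source ∧
      DifferentiableAt ℂ (fun z => F ((C.e j).symm z)) (C.e j x)) : HolF C U F := by
  intro i z hz
  obtain ⟨j, hj, hd⟩ := h _ hz.2
  set x := (C.e i).symm z with hx
  have hxi : x ∈ (C.e i).source := (C.e i).map_target hz.1
  have h1 : DifferentiableAt ℂ (fun w => C.e j ((C.e i).symm w)) z :=
    (C.holo i j).differentiableAt (((C.e i).isOpen_inter_preimage_symm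
      (C.e j).open_source).mem_nhds ⟨hz.1, hj⟩)
  have h2 : DifferentiableAt ℂ (fun w => F ((C.e j).symm (C.e j ((C.e i).symm w)))) z :=
    DifferentiableAt.comp z (g := fun z => F ((C.e j).symm z)) (f := fun w => C.e j ((C.e i).symm w))
      hd h1
  refine (h2.congr_of_eventuallyEq ?_).differentiableWithinAt
  have hcont : ContinuousAt (C.e i).symm z := (C.e i).continuousAt_symm hz.1
  filter_upwards [hcont.preimage_mem_nhds ((C.e j).open_source.mem_nhds hj)] with w hw
  rw [(C.e j).left_inv hw]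

/-- **local inverse** -/
theorem locInv {p : DD → M} (hpl : LBD A p) (hp : IsLocalHomeomorph p) {φ : X → M}
    (hφ : HolC C (fam A) φ) {x : X} {w : DD} (h : φ x = p w) :
    ∃ (U : Set X) (O : Set DD) (s : X → DD), IsOpen U ∧ IsOpen O ∧ x ∈ U ∧ w ∈ O ∧ s x = w ∧
      HolF C U (fun x' => (s x' : ℂ)) ∧ (∀ x' ∈ U, s x' ∈ O ∧ p (s x') = φ x') ∧
      ∀ x' ∈ U, ∀ w' ∈ O, φ x' = p w' → s x' = w' := by
  obtain ⟨e, hwe, rfl⟩ := hp w
  obtain ⟨i, hi⟩ := A.cover (e w)
  have hs := hpl.strict hi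
  have hne := hpl.ne w i hi
  set P := rdD A e i with hP
  set L := hs.localInverse P _ _ hne with hL
  have hL1 : HasStrictDerivAt L (deriv P w)⁻¹ (P w) := hs.to_localInverse hne
  have hLw : L (P w) = w := (hs.hasStrictFDerivAt_equiv hne).localInverse_apply_image
  -- `L` is differentiable near `P w`
  have hLd : ∀ᶠ u in 𝓝 (P w), DifferentiableAt ℂ L u := by
    -- near `w` : `P` has non-zero derivative and `L (P z) = z`
    have h1 : ∀ᶠ z : ℂ in 𝓝 (w : ℂ), L (P z) = z :=
      (hs.hasStrictFDerivAt_equiv hne).eventually_left_inverse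
    have h2 : ∀ᶠ u in 𝓝 (P w), P (L u) = u :=
      (hs.hasStrictFDerivAt_equiv hne).eventually_right_inverse
    have h3 : ∀ᶠ z : ℂ in 𝓝 (w : ℂ), ∃ hz : z ∈ ball (0 : ℂ) 1, e ⟨z, hz⟩ ∈ (A.e i).source := by
      have := hpl.toHolD.eventually_mem hi
      rwa [eventually_mk] at this
    have h4 : ∀ᶠ z : ℂ in 𝓝 (w : ℂ), HasDerivAt P (deriv P z) z ∧ deriv P z ≠ 0 := by
      filter_upwards [h3] with z ⟨hz, hz'⟩
      exact ⟨(hpl.strict (z := ⟨z, hz⟩) hz').hasDerivAt, hpl.ne ⟨z, hz⟩ i hz'⟩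
    have hLc : ContinuousAt L (P w) := hL1.hasDerivAt.continuousAt
    have h5 : ∀ᶠ u in 𝓝 (P w), (HasDerivAt P (deriv P (L u)) (L u) ∧ deriv P (L u) ≠ 0) ∧
        ContinuousAt L u := by
      refine Filter.Eventually.and ?_ ?_
      · rw [ContinuousAt, hLw] at hLc
        exact hLc.eventually h4
      · have h6 := hs.hasStrictFDerivAt_equiv hne
        have h7 : L = (h6.toOpenPartialHomeomorph P).symm := rfl
        have h8 : (P w : ℂ) ∈ (h6.toOpenPartialHomeomorph P).target := h6.image_mem_toOpenPartialHomeomorph_target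
        filter_upwards [(h6.toOpenPartialHomeomorph P).open_target.mem_nhds h8] with u hu
        rw [h7]
        exact (h6.toOpenPartialHomeomorph P).continuousAt_symm hu
    have h9 : ∀ᶠ u in 𝓝 (P w), ∀ᶠ v in 𝓝 u, P (L v) = v := eventually_eventually_nhds.2 h2
    filter_upwards [h5, h9] with u hu hu'
    exact (HasDerivAt.of_local_left_inverse hu.2 hu.1.1 hu.1.2 hu').differentiableAt
  -- the open set of good points
  have hPw : P w = co A i (φ x) := by
    rw [hP, rdD_coe, h]
  have hφi : φ x ∈ (A.e i).source := by rw [h]; exact hi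
  have hcφ : ContinuousAt (fun x' => co A i (φ x')) x :=
    continuous_co_comp hφ.cont.continuousAt hφi
  have g1 : ∀ᶠ x' in 𝓝 x, φ x' ∈ e.target ∧ φ x' ∈ (A.e i).source := by
    have ht : φ x ∈ e.target := by rw [h]; exact e.map_source hwe
    exact (hφ.cont.continuousAt.eventually_mem (e.open_target.mem_nhds ht)).and
      (hφ.cont.continuousAt.eventually_mem ((A.e i).open_source.mem_nhds hφi))
  have g2 : ∀ᶠ x' in 𝓝 x, DifferentiableAt ℂ L (co A i (φ x')) := by
    rw [hPw] at hLd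
    exact hcφ.eventually hLd
  -- near `w`, `L (P z) = z`
  have g3 : ∀ᶠ w' : DD in 𝓝 w, L (co A i (e w')) = w' := by
    have h1 : ∀ᶠ z : ℂ in 𝓝 (w : ℂ), L (P z) = z :=
      (hs.hasStrictFDerivAt_equiv hne).eventually_left_inverse
    rw [← eventually_coe (t := w)] at h1
    filter_upwards [h1] with w' hw'
    rwa [hP, rdD_coe] at hw'
  obtain ⟨O', hO'1, hO'2, hO'3⟩ := _root_.mem_nhds_iff.1 (g3.and (e.open_source.mem_nhds hwe))
  have hOs : O' ⊆ e.source := fun z hz => (hO'1 hz).2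
  have gs : ContinuousAt (fun x' => e.symm (φ x')) x := by
    have ht : φ x ∈ e.target := by rw [h]; exact e.map_source hwe
    exact (e.continuousAt_symm ht).comp hφ.cont.continuousAt
  have hsx : e.symm (φ x) = w := by rw [h, e.left_inv hwe]
  have g4 : ∀ᶠ x' in 𝓝 x, e.symm (φ x') ∈ O' := by
    have : O' ∈ 𝓝 (e.symm (φ x)) := by
      rw [hsx]
      exact hO'2.mem_nhds hO'3
    exact gs.eventually_mem this
  obtain ⟨U, hU1, hU2, hU3⟩ := _root_.mem_nhds_iff.1 ((g1.and g2).and g4)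
  refine ⟨U, O', fun x' => e.symm (φ x'), hU2, hO'2, hU3, hO'3, hsx, ?_, ?_, ?_⟩
  · refine holF_of_local fun x' hx' => ?_
    obtain ⟨⟨⟨h1, h2⟩, h3⟩, h4⟩ := hU1 hx'
    obtain ⟨j, hj⟩ := C.cover x'
    refine ⟨j, hj, ?_⟩
    have hd := hφ.diffAt (i := j) (j := i) ((C.e j).map_source hj) (by
      rw [(C.e j).left_inv hj]
      exact h2)
    have hd' : DifferentiableAt ℂ (fun z => co A i (φ ((C.e j).symm z))) (C.e j x') := by
      rw [differentiableAt_euclidean] at hd
      exact hd 0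
    have e3 : DifferentiableAt ℂ L (co A i (φ ((C.e j).symm (C.e j x')))) := by
      rw [(C.e j).left_inv hj]
      exact h3
    have hd2 : DifferentiableAt ℂ (fun z => L (co A i (φ ((C.e j).symm z)))) (C.e j x') :=
      DifferentiableAt.comp (C.e j x') (g := L) (f := fun z => co A i (φ ((C.e j).symm z))) e3 hd'
    refine hd2.congr_of_eventuallyEq ?_
    have hc : ContinuousAt (C.e j).symm (C.e j x') :=
      (C.e j).continuousAt_symm ((C.e j).map_source hj)
    have hUn : U ∈ 𝓝 ((C.e j).symm (C.e j x')) := by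
      rw [(C.e j).left_inv hj]
      exact hU2.mem_nhds hx'
    filter_upwards [hc.eventually_mem hUn] with z hz
    obtain ⟨⟨⟨k1, k2⟩, k3⟩, k4⟩ := hU1 hz
    have := (hO'1 k4).1
    change L (co A i (e (e.symm (φ ((C.e j).symm z))))) = _ at this
    rw [e.right_inv k1] at this
    exact this.symm
  · intro x' hx'
    obtain ⟨⟨⟨h1, h2⟩, h3⟩, h4⟩ := hU1 hx'
    exact ⟨h4, e.right_inv h1⟩
  · intro x' hx' w' hw' e'
    change e.symm (φ x') = w'
    rw [e', e.left_inv (hOs hw')]

/-! ### the pulled back covering -/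

variable {n : ℕ} {B K : Type} [TopologicalSpace B] [TopologicalSpace K] {A' : Atl 1 B}
  {A : Atl 1 K} {C : Fam n X}

/-- the coordinate `T` on `X̂ = X ×_(B × K) (DD × DD)` -/
def Tc (q : DD → B) (p : DD → K) (π : X → B × K) (z : PB (Prod.map q p) π) : DD :=
  (pbSnd _ π z).1

/-- the coordinate `W` on `X̂` -/
def Wc (q : DD → B) (p : DD → K) (π : X → B × K) (z : PB (Prod.map q p) π) : DD :=
  (pbSnd _ π z).2

variable {q : DD → B} {p : DD → K} {π : X → B × K}

theorem continuous_Tc : Continuous (Tc q p π) := continuous_fst.comp continuous_pbSnd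

theorem continuous_Wc : Continuous (Wc q p π) := continuous_snd.comp continuous_pbSnd

theorem q_Tc (z : PB (Prod.map q p) π) : q (Tc q p π z) = (π (pbFst _ π z)).1 :=
  (congrArg Prod.fst z.2).symm

theorem p_Wc (z : PB (Prod.map q p) π) : p (Wc q p π z) = (π (pbFst _ π z)).2 :=
  (congrArg Prod.snd z.2).symm

/-- local data on `X` near `(x, (t, w))`, `π x = (q t, p w)`: holomorphic functions `sT`, `sW` -/
theorem exists_coord (hql : LBD A' q) (hq : IsLocalHomeomorph q) (hpl : LBD A p)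
    (hp : IsLocalHomeomorph p) (h1 : HolC C (fam A') fun x => (π x).1)
    (h2 : HolC C (fam A) fun x => (π x).2) {x : X} {t w : DD} (h : π x = (q t, p w)) :
    ∃ (U : Set X) (O : Set (DD × DD)) (sT sW : X → DD), IsOpen U ∧ IsOpen O ∧ x ∈ U ∧
      (t, w) ∈ O ∧ sT x = t ∧ sW x = w ∧ HolF C U (fun x' => (sT x' : ℂ)) ∧
      HolF C U (fun x' => (sW x' : ℂ)) ∧
      (∀ x' ∈ U, (sT x', sW x') ∈ O ∧ π x' = (q (sT x'), p (sW x'))) ∧
      ∀ x' ∈ U, ∀ v ∈ O, π x' = Prod.map q p v → sT x' = v.1 ∧ sW x' = v.2 := by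
  obtain ⟨U1, O1, s1, a1, a2, a3, a4, a5, a6, a7, a8⟩ :=
    locInv hql hq h1 (x := x) (w := t) (congrArg Prod.fst h)
  obtain ⟨U2, O2, s2, b1, b2, b3, b4, b5, b6, b7, b8⟩ :=
    locInv hpl hp h2 (x := x) (w := w) (congrArg Prod.snd h)
  refine ⟨U1 ∩ U2, O1 ×ˢ O2, s1, s2, a1.inter b1, a2.prod b2, ⟨a3, b3⟩, ⟨a4, b4⟩, a5, b5,
    fun j => (a6 j).mono fun y hy => ⟨hy.1, hy.2.1⟩,
    fun j => (b6 j).mono fun y hy => ⟨hy.1, hy.2.2⟩, ?_, ?_⟩
  · rintro x' ⟨hx1, hx2⟩
    exact ⟨⟨(a7 x' hx1).1, (b7 x' hx2).1⟩, Prod.ext (a7 x' hx1).2.symm (b7 x' hx2).2.symm⟩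
  · rintro x' ⟨hx1, hx2⟩ v ⟨hv1, hv2⟩ e
    exact ⟨a8 x' hx1 v.1 hv1 (congrArg Prod.fst e), b8 x' hx2 v.2 hv2 (congrArg Prod.snd e)⟩

/-- a function of the disc coordinates is holomorphic on `X̂` -/
theorem holF_fun (hqc : IsCoveringMap q) (hpc : IsCoveringMap p) (hql : LBD A' q)
    (hpl : LBD A p) (h1 : HolC C (fam A') fun x => (π x).1)
    (h2 : HolC C (fam A) fun x => (π x).2) (hπ : Continuous π) (g : DD × DD → ℂ)
    (hg : ∀ t w : DD, DifferentiableAt ℂ
      (fun y : ℂ × ℂ => exw (fun t' => exw (fun w' => g (t', w')) y.2) y.1) ((t : ℂ), (w : ℂ))) :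
    HolF (pullFam C (isLocalHomeomorph_pbFst (prod_covering hqc hpc) hπ)) univ
      (fun z => g (pbSnd _ π z)) := by
  set hl := isLocalHomeomorph_pbFst (prod_covering hqc hpc) hπ with hhl
  refine holF_of_local fun z _ => ?_
  obtain ⟨U, O, sT, sW, c1, c2, c3, c4, c5, c6, c7, c8, c9, c10⟩ :=
    exists_coord hql hqc.isLocalHomeomorph hpl hpc.isLocalHomeomorph h1 h2
      (x := pbFst _ π z) (t := Tc q p π z) (w := Wc q p π z) z.2
  obtain ⟨j, hj⟩ := (pullFam C hl).cover z
  refine ⟨j, hj, ?_⟩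
  -- the local function on `X`
  have hF : HolF C U (fun x' => g (sT x', sW x')) := by
    intro i y hy
    have d1 : DifferentiableAt ℂ (fun y => (sT ((C.e i).symm y) : ℂ)) y :=
      (c7 i).differentiableAt (((C.e i).isOpen_inter_preimage_symm c1).mem_nhds hy)
    have d2 : DifferentiableAt ℂ (fun y => (sW ((C.e i).symm y) : ℂ)) y :=
      (c8 i).differentiableAt (((C.e i).isOpen_inter_preimage_symm c1).mem_nhds hy)
    have d3 := hg (sT ((C.e i).symm y)) (sW ((C.e i).symm y))
    have d4 : DifferentiableAt ℂ (fun y' => (fun y : ℂ × ℂ =>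
        exw (fun t' => exw (fun w' => g (t', w')) y.2) y.1)
        ((sT ((C.e i).symm y') : ℂ), (sW ((C.e i).symm y') : ℂ))) y :=
      DifferentiableAt.comp y (g := (fun y : ℂ × ℂ =>
        exw (fun t' => exw (fun w' => g (t', w')) y.2) y.1))
        (f := fun y' => ((sT ((C.e i).symm y') : ℂ), (sW ((C.e i).symm y') : ℂ))) d3
        (d1.prodMk d2)
    refine (d4.congr_of_eventuallyEq (Eventually.of_forall fun y' => ?_)).differentiableWithinAt
    simp
  have hF' := holF_pull (C := C) (q := pbFst (Prod.map q p) π) hl hF (U' := pbFst _ π ⁻¹' U)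
    subset_rfl
  have hUo : IsOpen (pbFst (Prod.map q p) π ⁻¹' U) := c1.preimage continuous_pbFst
  have hd := HolF.diffAt hUo hF' hj c3
  refine hd.congr_of_eventuallyEq ?_
  have hc : ContinuousAt ((pullFam C hl).e j).symm ((pullFam C hl).e j z) :=
    ((pullFam C hl).e j).continuousAt_symm (((pullFam C hl).e j).map_source hj)
  have hN : (pbFst (Prod.map q p) π ⁻¹' U) ∩ (pbSnd (Prod.map q p) π ⁻¹' O) ∈
      𝓝 (((pullFam C hl).e j).symm ((pullFam C hl).e j z)) := by
    rw [((pullFam C hl).e j).left_inv hj]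
    exact (hUo.inter (c2.preimage continuous_pbSnd)).mem_nhds ⟨c3, c4⟩
  filter_upwards [hc.eventually_mem hN] with y hy
  set z' := ((pullFam C hl).e j).symm y with hz'
  have := c10 (pbFst _ π z') hy.1 (pbSnd _ π z') hy.2 z'.2
  change g (pbSnd _ π z') = g (sT (pbFst _ π z'), sW (pbFst _ π z'))
  rw [this.1, this.2]

end

end Crest.Agent.R272.UnB_894
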