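import Crest.Agent.R272.Root5_83
import Crest.Agent.R272.UnB7_894

/-!
# R272, leaf S14-ROOTS (helper83), part 6: the root system of S0414

* `lift_holF` : a continuous lift `U : Y → DD` of a holomorphic map `P : Y → C` through a locally
                biholomorphic `p : DD → C` is holomorphic;
* `col`       : two lifts `U, V` of `P, H`: at a point with `U y = V y` the functions `U - V` and
                `κ ∘ P - κ ∘ H` (`κ` a chart coordinate of `C`) differ by a unit;
* `rsOfLifts` : the root system of a family of differences of lifts;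
* `rs14`      : the root system of S0414.
-/

set_option autoImplicit false

open Set Topology Filter

namespace Crest.Agent.R272.Root_83

open Crest.Agent.R275.Geo Crest.Agent.R273.Fam_835 Crest.Agent.R272.Quot_783
open Crest.Agent.R273.Map_835
open Crest.Agent.R272.UnB_894 Crest.Agent.R272.LbExt_259

noncomputable section

universe v

/-! ### lifts -/

section lifts

variable {m : ℕ} {Y : Type} [TopologicalSpace Y] {D : Fam m Y} {C : Type} [TopologicalSpace C]
  {A : Atl 1 C} {p : DD → C} {P H : Y → C} {U V : Y → DD} {y : Y}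

/-- the chart coordinate along a holomorphic map -/
theorem hG_co (hP : HolC D (fam A) P) {i : A.ι} (hy : P y ∈ (A.e i).source) :
    HG D y (fun z => co A i (P z)) := by
  refine ⟨P ⁻¹' (A.e i).source, (A.e i).open_source.preimage hP.cont, hy, fun j => ?_⟩
  intro z hz
  have h1 : DifferentiableAt ℂ (fun w => A.e i (P ((D.e j).symm w))) z :=
    hP.diffAt (i := j) (j := i) hz.1 hz.2
  rw [differentiableAt_euclidean] at h1
  exact (h1 0).differentiableWithinAt

/-- **a continuous lift of a holomorphic map is holomorphic** -/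
theorem lift_holF (hp : LBD A p) (hP : HolC D (fam A) P) (hU : Continuous U)
    (h : ∀ z, p (U z) = P z) : HolF D univ (fun z => (U z : ℂ)) := by
  intro j z hz
  set y := (D.e j).symm z with hy
  obtain ⟨i, hi⟩ := A.cover (P y)
  have hi' : p (U y) ∈ (A.e i).source := by rwa [h]
  have hs := hp.strict hi'
  have hne := hp.ne (U y) i hi'
  set k := rdD A p i with hk
  set L := hs.localInverse k _ _ hne with hL
  have hL1 : HasStrictDerivAt L (deriv k (U y))⁻¹ (k (U y)) := hs.to_localInverse hne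
  have hPt : k (U y) = co A i (P y) := by rw [hk, rdD_coe, h]
  have h1 : DifferentiableAt ℂ (fun w => A.e i (P ((D.e j).symm w))) z :=
    hP.diffAt (i := j) (j := i) hz.1 hi
  rw [differentiableAt_euclidean] at h1
  have h2 : DifferentiableAt ℂ (fun w => L (co A i (P ((D.e j).symm w)))) z := by
    refine DifferentiableAt.comp z (g := L) (f := fun w => co A i (P ((D.e j).symm w))) ?_ (h1 0)
    have h3 : DifferentiableAt ℂ L (co A i (P y)) := by
      rw [← hPt]; exact hL1.hasDerivAt.differentiableAt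
    exact h3
  refine (h2.congr_of_eventuallyEq ?_).differentiableWithinAt
  have h4 : ∀ᶠ w : ℂ in 𝓝 (U y : ℂ), L (k w) = w :=
    (hs.hasStrictFDerivAt_equiv hne).eventually_left_inverse
  have hc : ContinuousAt (fun w => (U ((D.e j).symm w) : ℂ)) z := by
    have h5 : ContinuousAt (D.e j).symm z := (D.e j).continuousAt_symm hz.1
    exact ContinuousAt.comp (g := fun y => (U y : ℂ)) (f := (D.e j).symm)
      (continuous_subtype_val.comp hU).continuousAt h5
  filter_upwards [hc.eventually h4] with w hw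
  rw [← hw, hk, rdD_coe, h]

theorem lift_HG (hp : LBD A p) (hP : HolC D (fam A) P) (hU : Continuous U)
    (h : ∀ z, p (U z) = P z) (y : Y) : HG D y (fun z => (U z : ℂ)) :=
  ⟨univ, isOpen_univ, mem_univ _, lift_holF hp hP hU h⟩

/-- **two lifts**: their difference is the difference of the chart coordinates up to a unit -/
theorem col (hp : LBD A p) (hP : HolC D (fam A) P) (hH : HolC D (fam A) H) (hU : Continuous U)
    (hV : Continuous V) (hUP : ∀ z, p (U z) = P z) (hVH : ∀ z, p (V z) = H z) (hy : U y = V y)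
    {i : A.ι} (hi : P y ∈ (A.e i).source) (hne : ∃ᶠ z in 𝓝 y, U z ≠ V z) :
    SqE D y (fun z => (U z : ℂ) - V z) (fun z => co A i (P z) - co A i (H z)) := by
  have hiH : H y ∈ (A.e i).source := by rwa [← hVH, ← hy, hUP]
  have hi' : p (U y) ∈ (A.e i).source := by rwa [hUP]
  have hs := hp.strict hi'
  have hd := hp.ne (U y) i hi'
  set k := rdD A p i with hk
  set d := deriv k (U y) with hdd
  have hdpos : 0 < ‖d‖ := norm_pos_iff.2 hd
  have h1 : ∀ᶠ q : ℂ × ℂ in 𝓝 ((U y : ℂ), (U y : ℂ)),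
      ‖k q.1 - k q.2 - (q.1 - q.2) • d‖ ≤ ‖d‖ / 2 * ‖q.1 - q.2‖ := by
    have := hs.isLittleO.bound (half_pos hdpos)
    exact this
  have hcU : ContinuousAt (fun z => (U z : ℂ)) y := (continuous_subtype_val.comp hU).continuousAt
  have hcV : ContinuousAt (fun z => (V z : ℂ)) y := (continuous_subtype_val.comp hV).continuousAt
  have h2 : ∀ᶠ z in 𝓝 y, ‖k (U z) - k (V z) - ((U z : ℂ) - V z) • d‖ ≤
      ‖d‖ / 2 * ‖(U z : ℂ) - V z‖ := by
    have h3 : Tendsto (fun z => ((U z : ℂ), (V z : ℂ))) (𝓝 y) (𝓝 ((U y : ℂ), (V y : ℂ))) :=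
      hcU.prodMk_nhds hcV
    rw [← hy] at h3
    exact h3.eventually h1
  have hkU : ∀ z, k (U z) = co A i (P z) := fun z => by rw [hk, rdD_coe, hUP]
  have hkV : ∀ z, k (V z) = co A i (H z) := fun z => by rw [hk, rdD_coe, hVH]
  refine SqE.of_bounds (K := max (3 / 2 * ‖d‖) (2 / ‖d‖)) ((hG_co hP hi).sub (hG_co hH hiH))
    ((lift_HG hp hP hU hUP y).sub (lift_HG hp hH hV hVH y))
    (hne.mono fun z hz h0 => hz (Subtype.ext (sub_eq_zero.1 h0))) ?_ ?_
  · filter_upwards [h2] with z hz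
    rw [hkU, hkV] at hz
    have h5 : ‖co A i (P z) - co A i (H z)‖ ≤
        ‖co A i (P z) - co A i (H z) - ((U z : ℂ) - V z) • d‖ + ‖((U z : ℂ) - V z) • d‖ := by
      have := norm_add_le (co A i (P z) - co A i (H z) - ((U z : ℂ) - V z) • d)
        (((U z : ℂ) - V z) • d)
      rwa [sub_add_cancel] at this
    rw [norm_smul] at h5
    have h6 : ‖co A i (P z) - co A i (H z)‖ ≤ 3 / 2 * ‖d‖ * ‖(U z : ℂ) - V z‖ := by
      nlinarith [norm_nonneg ((U z : ℂ) - V z)]
    exact h6.trans (mul_le_mul_of_nonneg_right (le_max_left _ _) (norm_nonneg _))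
  · filter_upwards [h2] with z hz
    rw [hkU, hkV] at hz
    have h5 : ‖((U z : ℂ) - V z) • d‖ ≤
        ‖co A i (P z) - co A i (H z) - ((U z : ℂ) - V z) • d‖ + ‖co A i (P z) - co A i (H z)‖ := by
      have := norm_sub_le (co A i (P z) - co A i (H z))
        (co A i (P z) - co A i (H z) - ((U z : ℂ) - V z) • d)
      rw [sub_sub_cancel] at this
      linarith
    rw [norm_smul] at h5
    have h6 : ‖d‖ / 2 * ‖(U z : ℂ) - V z‖ ≤ ‖co A i (P z) - co A i (H z)‖ := by
      nlinarith [norm_nonneg ((U z : ℂ) - V z)]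
    have h7 : ‖(U z : ℂ) - V z‖ ≤ 2 / ‖d‖ * ‖co A i (P z) - co A i (H z)‖ := by
      rw [div_mul_eq_mul_div, le_div_iff₀ hdpos]
      nlinarith
    exact h7.trans (mul_le_mul_of_nonneg_right (le_max_right _ _) (norm_nonneg _))

/-- a local coordinate of the curve at `c` -/
def LC (A : Atl 1 C) (c : C) (f : C → ℂ) : Prop := HG (fam A) c f ∧ ∃ N ∈ 𝓝 c, InjOn f N

theorem lc_bound {c : C} {f : C → ℂ} (hf : LC A c f) {i : A.ι} (hi : c ∈ (A.e i).source) :
    ∃ K : ℝ, ∀ᶠ q : C × C in 𝓝 (c, c), ‖f q.1 - f q.2‖ ≤ K * ‖co A i q.1 - co A i q.2‖ ∧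
      ‖co A i q.1 - co A i q.2‖ ≤ K * ‖f q.1 - f q.2‖ := by
  obtain ⟨⟨U, hU, hcU, hfU⟩, N0, hN0, hinj⟩ := hf
  obtain ⟨N, hN, hNo, hcN⟩ := _root_.mem_nhds_iff.1 hN0
  set G : ℂ → ℂ := fun u => f ((A.e i).symm (pt u)) with hG
  have hptc : Continuous (pt : ℂ → Cn 1) := continuous_pt
  have hΩ0 : IsOpen ((A.e i).target ∩ (A.e i).symm ⁻¹' (U ∩ N)) :=
    (A.e i).isOpen_inter_preimage_symm (hU.inter hNo)
  set Ω : Set ℂ := pt ⁻¹' ((A.e i).target ∩ (A.e i).symm ⁻¹' (U ∩ N)) with hΩ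
  have hΩo : IsOpen Ω := hΩ0.preimage hptc
  have hmem : co A i c ∈ Ω := by
    rw [hΩ, mem_preimage, pt_co]
    exact ⟨(A.e i).map_source hi, by rw [mem_preimage, (A.e i).left_inv hi]; exact ⟨hcU, hcN⟩⟩
  have hGd : DifferentiableOn ℂ G Ω := by
    intro u hu
    have h1 : DifferentiableAt ℂ (fun z => f ((A.e i).symm z)) (pt u) :=
      (hfU i).differentiableAt (((A.e i).isOpen_inter_preimage_symm hU).mem_nhds
        ⟨hu.1, hu.2.1⟩)
    exact (DifferentiableAt.comp u (g := fun z => f ((A.e i).symm z)) h1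
      (differentiable_pt u)).differentiableWithinAt
  have hGi : InjOn G Ω := by
    intro u hu v hv e
    have h2 := hinj (hN hu.2.2) (hN hv.2.2) e
    exact pt_inj ((A.e i).symm.injOn hu.1 hv.1 h2)
  have hne := Crest.Agent.Lib.deriv_ne_zero_of_injOn hΩo hGd hGi hmem
  have hs : HasStrictDerivAt G (deriv G (co A i c)) (co A i c) :=
    (hGd.analyticAt (hΩo.mem_nhds hmem)).hasStrictDerivAt
  set d := deriv G (co A i c) with hd
  have hdpos : 0 < ‖d‖ := norm_pos_iff.2 hne
  have h1 : ∀ᶠ q : ℂ × ℂ in 𝓝 (co A i c, co A i c),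
      ‖G q.1 - G q.2 - (q.1 - q.2) • d‖ ≤ ‖d‖ / 2 * ‖q.1 - q.2‖ :=
    hs.isLittleO.bound (half_pos hdpos)
  have hco : ContinuousAt (co A i) c := continuous_co_comp (g := fun x => x) continuousAt_id hi
  have h2 : Tendsto (fun q : C × C => (co A i q.1, co A i q.2)) (𝓝 (c, c))
      (𝓝 (co A i c, co A i c)) := by
    have h3 : ContinuousAt (fun q : C × C => co A i q.1) (c, c) :=
      ContinuousAt.comp (f := Prod.fst) (g := co A i) (x := (c, c)) hco continuousAt_fst
    have h4 : ContinuousAt (fun q : C × C => co A i q.2) (c, c) :=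
      ContinuousAt.comp (f := Prod.snd) (g := co A i) (x := (c, c)) hco continuousAt_snd
    exact h3.prodMk_nhds h4
  have h5 : ∀ᶠ q : C × C in 𝓝 (c, c), q.1 ∈ (A.e i).source ∧ q.2 ∈ (A.e i).source := by
    have h6 : ∀ᶠ z in 𝓝 c, z ∈ (A.e i).source := (A.e i).open_source.mem_nhds hi
    rw [nhds_prod_eq]
    exact h6.prod_mk h6
  refine ⟨max (3 / 2 * ‖d‖) (2 / ‖d‖), ?_⟩
  filter_upwards [h2.eventually h1, h5] with q hq hq2
  have e1 : G (co A i q.1) = f q.1 := by
    show f ((A.e i).symm (pt (co A i q.1))) = f q.1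
    rw [pt_co, (A.e i).left_inv hq2.1]
  have e2 : G (co A i q.2) = f q.2 := by
    show f ((A.e i).symm (pt (co A i q.2))) = f q.2
    rw [pt_co, (A.e i).left_inv hq2.2]
  simp only [e1, e2] at hq
  have e3 : ‖f q.1 - f q.2‖ ≤ ‖f q.1 - f q.2 - (co A i q.1 - co A i q.2) • d‖ +
      ‖(co A i q.1 - co A i q.2) • d‖ := by
    have := norm_add_le (f q.1 - f q.2 - (co A i q.1 - co A i q.2) • d)
      ((co A i q.1 - co A i q.2) • d)
    rwa [sub_add_cancel] at this
  have e4 : ‖(co A i q.1 - co A i q.2) • d‖ ≤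
      ‖f q.1 - f q.2 - (co A i q.1 - co A i q.2) • d‖ + ‖f q.1 - f q.2‖ := by
    have := norm_sub_le (f q.1 - f q.2) (f q.1 - f q.2 - (co A i q.1 - co A i q.2) • d)
    rw [sub_sub_cancel] at this
    linarith
  rw [norm_smul] at e3 e4
  constructor
  · have h6 : ‖f q.1 - f q.2‖ ≤ 3 / 2 * ‖d‖ * ‖co A i q.1 - co A i q.2‖ := by
      nlinarith [norm_nonneg (co A i q.1 - co A i q.2)]
    exact h6.trans (mul_le_mul_of_nonneg_right (le_max_left _ _) (norm_nonneg _))
  · have h6 : ‖co A i q.1 - co A i q.2‖ ≤ 2 / ‖d‖ * ‖f q.1 - f q.2‖ := by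
      rw [div_mul_eq_mul_div, le_div_iff₀ hdpos]
      nlinarith [norm_nonneg (co A i q.1 - co A i q.2)]
    exact h6.trans (mul_le_mul_of_nonneg_right (le_max_right _ _) (norm_nonneg _))

/-- the chart coordinate may be replaced by any local coordinate -/
theorem co_of_lc (hP : HolC D (fam A) P) (hH : HolC D (fam A) H) (hy : P y = H y) {i : A.ι}
    (hi : P y ∈ (A.e i).source) {f : C → ℂ} (hf : LC A (P y) f) (hne : ∃ᶠ z in 𝓝 y, P z ≠ H z) :
    SqE D y (fun z => co A i (P z) - co A i (H z)) (fun z => f (P z) - f (H z)) := by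
  obtain ⟨K, hK⟩ := lc_bound hf hi
  have h1 : Tendsto (fun z => (P z, H z)) (𝓝 y) (𝓝 (P y, P y)) := by
    have h2 : ContinuousAt (fun z => (P z, H z)) y :=
      (hP.cont.prodMk hH.cont).continuousAt
    rw [ContinuousAt] at h2
    simpa only [← hy] using h2
  have h3 := h1.eventually hK
  have hiH : H y ∈ (A.e i).source := by rwa [← hy]
  have hfP : HG D y (fun z => f (P z)) := hf.1.comp hP
  have hfH : HG D y (fun z => f (H z)) := HG.comp (by rw [← hy]; exact hf.1) hH
  refine SqE.of_bounds (K := K) (hfP.sub hfH) ((hG_co hP hi).sub (hG_co hH hiH)) ?_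
    (h3.mono fun z hz => hz.1) (h3.mono fun z hz => hz.2)
  have h4 : ∀ᶠ z in 𝓝 y, P z ∈ (A.e i).source ∧ H z ∈ (A.e i).source :=
    (hP.cont.continuousAt.eventually_mem ((A.e i).open_source.mem_nhds hi)).and
      (hH.cont.continuousAt.eventually_mem ((A.e i).open_source.mem_nhds hiH))
  refine (hne.and_eventually h4).mono ?_
  rintro z ⟨hz, hz1, hz2⟩ h0
  exact hz (co_inj hz1 hz2 (sub_eq_zero.1 h0))

end lifts

/-! ### the root system of differences of lifts -/

/-- one colour: two continuous maps to the disc, lifting two holomorphic maps to a curve -/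
structure Col {m : ℕ} {Y : Type} [TopologicalSpace Y] (D : Fam m Y) where
  C : Type
  tC : TopologicalSpace C
  A : Atl 1 C
  p : DD → C
  hp : LBD A p
  P : Y → C
  H : Y → C
  hP : HolC D (fam A) P
  hH : HolC D (fam A) H
  U : Y → DD
  V : Y → DD
  hU : Continuous U
  hV : Continuous V
  hUP : ∀ z, p (U z) = P z
  hVH : ∀ z, p (V z) = H z
  ne : ∀ y, ∃ᶠ z in 𝓝 y, P z ≠ H z
  sq : ∀ y, P y = H y → ∃ i, P y ∈ (A.e i).source ∧
    SqE D y (fun z => co A i (P z) - co A i (H z)) (fun _ => 1)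

attribute [instance] Col.tC

namespace Col

variable {m : ℕ} {Y : Type} [TopologicalSpace Y] {D : Fam m Y} (c : Col D)

theorem hg (x : Y) : HG D x (fun z => (c.U z : ℂ) - c.V z) :=
  (lift_HG c.hp c.hP c.hU c.hUP x).sub (lift_HG c.hp c.hH c.hV c.hVH x)

theorem neUV (x : Y) : ∃ᶠ z in 𝓝 x, c.U z ≠ c.V z :=
  (c.ne x).mono fun z hz h0 => hz (by rw [← c.hUP, ← c.hVH, h0])

theorem nz (x : Y) : ∃ᶠ z in 𝓝 x, (c.U z : ℂ) - c.V z ≠ 0 :=
  (c.neUV x).mono fun _ hz h0 => hz (Subtype.ext (sub_eq_zero.1 h0))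

theorem sqe (x : Y) : SqE D x (fun z => (c.U z : ℂ) - c.V z) (fun _ => 1) := by
  by_cases h : c.U x = c.V x
  · have h1 : c.P x = c.H x := by rw [← c.hUP, ← c.hVH, h]
    obtain ⟨i, hi, hsq⟩ := c.sq x h1
    exact (col c.hp c.hP c.hH c.hU c.hV c.hUP c.hVH h hi (c.neUV x)).trans hsq
  · exact SqE.of_ne (c.hg x) (fun h0 => h (Subtype.ext (sub_eq_zero.1 h0)))

end Col

/-- the root system of a family of colours -/
def rsOfLifts {m : ℕ} {Y : Type} [TopologicalSpace Y] {D : Fam m Y} {ι : Type v}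
    (c : ι → Col D) : RS Y ι (fun a z => ((c a).U z : ℂ) - (c a).V z) :=
  RS.ofSqE D _ (fun a => (c a).hg) (fun a => (c a).nz) (fun a => (c a).sqe)

/-! ### S0414 -/

section S14

variable {n : ℕ} {X B C : Type} [TopologicalSpace X] [TopologicalSpace B] [TopologicalSpace C]

/-- the data of S0414 on the surface `X` over `B × C` (everything of the lower bound that does not
know how `X` is constructed) -/
structure Dat14 (CX : Fam n X) (AB : Atl 1 B) (AC : Atl 1 C) where
  π1 : X → B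
  π2 : X → C
  h1 : HolC CX (fam AB) π1
  h2 : HolC CX (fam AC) π2
  q : DD → B
  p : DD → C
  hq : IsCoveringMap q
  hp : IsCoveringMap p
  lq : LBD AB q
  lp : LBD AC p
  h : B → C
  g : B → C
  hh : HolMap AB AC h
  hg : HolMap AB AC g
  F : DD → DD
  hF : Continuous F
  pF : ∀ t, p (F t) = h (q t)
  pg : ∀ t, g (q t) = p t
  ne1 : ∀ x, ∃ᶠ z in 𝓝 x, π2 z ≠ p o
  ne2 : ∀ x, ∃ᶠ z in 𝓝 x, π2 z ≠ h (π1 z)
  ne3 : ∀ x, ∃ᶠ z in 𝓝 x, π1 z ≠ q o
  ne4 : ∀ x, ∃ᶠ z in 𝓝 x, π2 z ≠ g (π1 z)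
  sq1 : ∀ x, π2 x = p o → ∃ f, LC AC (π2 x) f ∧
    SqE CX x (fun z => f (π2 z) - f (p o)) (fun _ => 1)
  sq2 : ∀ x, π2 x = h (π1 x) → ∃ f, LC AC (π2 x) f ∧
    SqE CX x (fun z => f (π2 z) - f (h (π1 z))) (fun _ => 1)
  sq3 : ∀ x, π1 x = q o → ∃ f, LC AB (π1 x) f ∧
    SqE CX x (fun z => f (π1 z) - f (q o)) (fun _ => 1)
  sq4 : ∀ x, π2 x = g (π1 x) → ∃ f, LC AC (π2 x) f ∧
    SqE CX x (fun z => f (π2 z) - f (g (π1 z))) (fun _ => 1)

/-- a constant map is holomorphic -/
theorem holC_const' (CX : Fam n X) (AC : Atl 1 C) (c : C) : HolC CX (fam AC) (fun _ => c) :=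
  ⟨continuous_const, fun _ _ => differentiableOn_const _⟩

namespace Dat14

variable {CX : Fam n X} {AB : Atl 1 B} {AC : Atl 1 C} (d : Dat14 CX AB AC)

/-- the map to the product -/
def π (x : X) : B × C := (d.π1 x, d.π2 x)

theorem continuous_π : Continuous d.π := d.h1.cont.prodMk d.h2.cont

/-- the covering of the product -/
def qp : DD × DD → B × C := Prod.map d.q d.p

theorem cov_qp : IsCoveringMap d.qp := prod_covering d.hq d.hp

/-- the infinite covering -/
abbrev Xh := PB d.qp d.π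

theorem cov_fst : IsCoveringMap (pbFst d.qp d.π) := isCoveringMap_fst d.cov_qp d.continuous_π

/-- its complex structure -/
def CXh : Fam n d.Xh := pullFam CX d.cov_fst.isLocalHomeomorph

theorem holC_fst : HolC d.CXh CX (pbFst d.qp d.π) := holC_pull _

/-- the disc coordinate over `B` -/
def T (x : d.Xh) : DD := (pbSnd d.qp d.π x).1

/-- the disc coordinate over `C` -/
def W (x : d.Xh) : DD := (pbSnd d.qp d.π x).2

theorem continuous_T : Continuous d.T := continuous_fst.comp continuous_pbSnd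
theorem continuous_W : Continuous d.W := continuous_snd.comp continuous_pbSnd

theorem q_T (x : d.Xh) : d.q (d.T x) = d.π1 (pbFst d.qp d.π x) :=
  (congrArg Prod.fst x.2).symm

theorem p_W (x : d.Xh) : d.p (d.W x) = d.π2 (pbFst d.qp d.π x) :=
  (congrArg Prod.snd x.2).symm

theorem ne_up {K : Type} {P H : X → K} (h : ∀ x, ∃ᶠ z in 𝓝 x, P z ≠ H z) (y : d.Xh) :
    ∃ᶠ z in 𝓝 y, P (pbFst d.qp d.π z) ≠ H (pbFst d.qp d.π z) := by
  have h1 := h (pbFst d.qp d.π y)
  rw [← d.cov_fst.isLocalHomeomorph.map_nhds_eq y] at h1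
  exact Filter.frequently_map.1 h1

theorem dom_fst (y : d.Xh) : Dom d.CXh CX (pbFst d.qp d.π) y :=
  dom_of_open d.cov_fst.isLocalHomeomorph.isOpenMap continuous_pbFst

/-- a square class relation on `X` gives one on the covering -/
theorem sq_up {K : Type} [TopologicalSpace K] {AK : Atl 1 K} {P H : X → K}
    (hP : HolC CX (fam AK) P) (hH : HolC CX (fam AK) H) (hne : ∀ x, ∃ᶠ z in 𝓝 x, P z ≠ H z)
    (h : ∀ x, P x = H x → ∃ f, LC AK (P x) f ∧ SqE CX x (fun z => f (P z) - f (H z)) (fun _ => 1))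
    (y : d.Xh) (hy : P (pbFst d.qp d.π y) = H (pbFst d.qp d.π y)) :
    ∃ i, P (pbFst d.qp d.π y) ∈ (AK.e i).source ∧
      SqE d.CXh y (fun z => co AK i (P (pbFst d.qp d.π z)) - co AK i (H (pbFst d.qp d.π z)))
        (fun _ => 1) := by
  obtain ⟨f, hf, hsq⟩ := h _ hy
  obtain ⟨i, hi⟩ := AK.cover (P (pbFst d.qp d.π y))
  refine ⟨i, hi, ?_⟩
  have h1 := hsq.comp d.holC_fst (d.dom_fst y)
  exact (co_of_lc (hP.comp d.holC_fst) (hH.comp d.holC_fst) hy hi hf (d.ne_up hne y)).trans h1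

/-- the four colours -/
def cols : Fin 4 → Col d.CXh :=
  ![{ C := C, tC := inferInstance, A := AC, p := d.p, hp := d.lp
      P := fun y => d.π2 (pbFst d.qp d.π y), H := fun _ => d.p o
      hP := d.h2.comp d.holC_fst, hH := holC_const' _ _ _
      U := d.W, V := fun _ => o, hU := d.continuous_W, hV := continuous_const
      hUP := d.p_W, hVH := fun _ => rfl
      ne := d.ne_up d.ne1
      sq := fun y hy => d.sq_up d.h2 (holC_const' _ _ _) d.ne1 d.sq1 y hy },
    { C := C, tC := inferInstance, A := AC, p := d.p, hp := d.lp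
      P := fun y => d.π2 (pbFst d.qp d.π y), H := fun y => d.h (d.π1 (pbFst d.qp d.π y))
      hP := d.h2.comp d.holC_fst, hH := ((holC_iff.2 d.hh).comp d.h1).comp d.holC_fst
      U := d.W, V := fun y => d.F (d.T y), hU := d.continuous_W
      hV := d.hF.comp d.continuous_T
      hUP := d.p_W, hVH := fun y => by rw [d.pF, d.q_T]
      ne := d.ne_up d.ne2
      sq := fun y hy => d.sq_up d.h2 ((holC_iff.2 d.hh).comp d.h1) d.ne2 d.sq2 y hy },
    { C := B, tC := inferInstance, A := AB, p := d.q, hp := d.lq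
      P := fun y => d.π1 (pbFst d.qp d.π y), H := fun _ => d.q o
      hP := d.h1.comp d.holC_fst, hH := holC_const' _ _ _
      U := d.T, V := fun _ => o, hU := d.continuous_T, hV := continuous_const
      hUP := d.q_T, hVH := fun _ => rfl
      ne := d.ne_up d.ne3
      sq := fun y hy => d.sq_up d.h1 (holC_const' _ _ _) d.ne3 d.sq3 y hy },
    { C := C, tC := inferInstance, A := AC, p := d.p, hp := d.lp
      P := fun y => d.π2 (pbFst d.qp d.π y), H := fun y => d.g (d.π1 (pbFst d.qp d.π y))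
      hP := d.h2.comp d.holC_fst, hH := ((holC_iff.2 d.hg).comp d.h1).comp d.holC_fst
      U := d.W, V := d.T, hU := d.continuous_W, hV := d.continuous_T
      hUP := d.p_W, hVH := fun y => by rw [← d.pg, d.q_T]
      ne := d.ne_up d.ne4
      sq := fun y hy => d.sq_up d.h2 ((holC_iff.2 d.hg).comp d.h1) d.ne4 d.sq4 y hy }]

/-- the four functions `W, W - F T, T, W - T` -/
def gg : Fin 4 → d.Xh → ℂ :=
  ![fun y => (d.W y : ℂ), fun y => (d.W y : ℂ) - d.F (d.T y), fun y => (d.T y : ℂ),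
    fun y => (d.W y : ℂ) - d.T y]

theorem gg_eq (a : Fin 4) : (fun z => ((d.cols a).U z : ℂ) - (d.cols a).V z) = d.gg a := by
  funext z
  fin_cases a
  · show (d.W z : ℂ) - (o : DD) = d.W z
    rw [coe_o, sub_zero]
  · rfl
  · show (d.T z : ℂ) - (o : DD) = d.T z
    rw [coe_o, sub_zero]
  · rfl

theorem hg_gg (a : Fin 4) (x : d.Xh) : HG d.CXh x (d.gg a) := by
  rw [← d.gg_eq]; exact (d.cols a).hg x

theorem nz_gg (a : Fin 4) (x : d.Xh) : ∃ᶠ z in 𝓝 x, d.gg a z ≠ 0 := by
  simp only [← d.gg_eq]; exact (d.cols a).nz x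

theorem sqe_gg (a : Fin 4) (x : d.Xh) : SqE d.CXh x (d.gg a) (fun _ => 1) := by
  rw [← d.gg_eq]; exact (d.cols a).sqe x

/-- **the root system of S0414** -/
def rs : RS d.Xh (Fin 4) d.gg := RS.ofSqE d.CXh d.gg d.hg_gg d.nz_gg d.sqe_gg

theorem rt_iff {a : Fin 4} {r : d.Xh → ℂ} {x : d.Xh} :
    d.rs.Rt a r x ↔ HRt d.CXh (d.gg a) r x := Iff.rfl

/-- a holomorphic germ whose square is `g a` is an admissible root -/
theorem rt_of {a : Fin 4} {r : d.Xh → ℂ} {x : d.Xh} (hr : HG d.CXh x r)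
    (h : ∀ᶠ z in 𝓝 x, r z ^ 2 = d.gg a z) : d.rs.Rt a r x := by
  obtain ⟨U, hU, hxU, h1⟩ := hr
  obtain ⟨V, hV, hVo, hxV⟩ := _root_.eventually_nhds_iff.1 h
  exact ⟨U ∩ V, hU.inter hVo, ⟨hxU, hxV⟩, HolF.mono h1 inter_subset_left, fun z hz => hV z hz.2⟩

end Dat14

end S14

end

end Crest.Agent.R272.Root_83
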