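import Crest.Agent.R272.Root6_83
import Crest.Agent.R272.Wall4_275

/-!
# R272, leaf S14-ROOTS (helper83), part 7: the root system of S0414 in the language of Wall4_275

`RS.ofEq`: transport of a root system along an equality of the functions.
`Dat14.bd`: the bidisc data `F, T, W` of 275 on the covering `X^`; `Dat14.rsB`: the root system for
`Wall4_275.gg`, whose admissible roots are exactly the holomorphic germs with square `gg a`.
-/

set_option autoImplicit false

open Set Topology Filter Metric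

namespace Crest.Agent.R272.Root_83

open Crest.Agent.R275.Geo Crest.Agent.R273.Fam_835 Crest.Agent.R272.Quot_783
open Crest.Agent.R273.Map_835
open Crest.Agent.R272.UnB_894 Crest.Agent.R272.LbExt_259
open Crest.Agent.R272.Wall4_275 (BD)

noncomputable section

universe u v

/-- transport of a root system along an equality -/
def RS.ofEq {Y : Type u} [TopologicalSpace Y] {ι : Type v} {g g' : ι → Y → ℂ} (H : RS Y ι g)
    (h : g = g') : RS Y ι g' where
  Rt := H.Rt
  opn := H.opn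
  sq := fun hr => h ▸ H.sq hr
  cont := H.cont
  ex := H.ex
  ne := h ▸ H.ne
  dich := H.dich

theorem RS.ofEq_Rt {Y : Type u} [TopologicalSpace Y] {ι : Type v} {g g' : ι → Y → ℂ}
    (H : RS Y ι g) (h : g = g') : (H.ofEq h).Rt = H.Rt := rfl

section S14

variable {n : ℕ} {X B C : Type} [TopologicalSpace X] [TopologicalSpace B] [TopologicalSpace C]

namespace Dat14

variable {CX : Fam n X} {AB : Atl 1 B} {AC : Atl 1 C} (d : Dat14 CX AB AC)

/-- the bidisc data of 275 -/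
def bd (hS : ∀ t : DD, ‖(d.F t : ℂ)‖ ≤ ‖(t : ℂ)‖ ^ 2) : BD d.Xh where
  F := ex d.F
  T := fun y => d.T y
  W := fun y => d.W y
  cT := continuous_subtype_val.comp d.continuous_T
  cW := continuous_subtype_val.comp d.continuous_W
  cF := continuousOn_exw.2 (continuous_subtype_val.comp d.hF)
  hT := fun y => mem_ball_zero_iff.1 (d.T y).2
  hF := fun z hz => by
    have hz' : z ∈ ball (0 : ℂ) 1 := mem_ball_zero_iff.2 hz
    have h1 : ex d.F z = d.F ⟨z, hz'⟩ := exw_mk _ hz'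
    rw [h1]
    exact hS ⟨z, hz'⟩

variable (hS : ∀ t : DD, ‖(d.F t : ℂ)‖ ≤ ‖(t : ℂ)‖ ^ 2)

@[simp] theorem bd_T (y : d.Xh) : (d.bd hS).T y = d.T y := rfl
@[simp] theorem bd_W (y : d.Xh) : (d.bd hS).W y = d.W y := rfl
@[simp] theorem bd_F (t : DD) : (d.bd hS).F t = d.F t :=
  exw_coe (fun t => (d.F t : ℂ)) t

theorem bd_FT (y : d.Xh) : (d.bd hS).F ((d.bd hS).T y) = d.F (d.T y) :=
  exw_coe (fun t => (d.F t : ℂ)) (d.T y)

theorem gg_bd : d.gg = Wall4_275.gg (d.bd hS).F (d.bd hS).T (d.bd hS).W := by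
  funext a
  fin_cases a
  · rfl
  · funext y
    show (d.W y : ℂ) - d.F (d.T y) = (d.W y : ℂ) - (d.bd hS).F ((d.bd hS).T y)
    rw [d.bd_FT hS]
  · rfl
  · rfl

/-- **the root system of S0414 in the language of Wall4_275** -/
def rsB : RS d.Xh (Fin 4) (Wall4_275.gg (d.bd hS).F (d.bd hS).T (d.bd hS).W) :=
  d.rs.ofEq (d.gg_bd hS)

theorem rsB_Rt {a : Fin 4} {r : d.Xh → ℂ} {x : d.Xh} :
    (d.rsB hS).Rt a r x ↔ HRt d.CXh (d.gg a) r x := Iff.rfl

/-- a holomorphic germ whose square is `gg a` is an admissible root -/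
theorem rsB_of {a : Fin 4} {r : d.Xh → ℂ} {x : d.Xh} (hr : HG d.CXh x r)
    (h : ∀ᶠ z in 𝓝 x, r z ^ 2 = Wall4_275.gg (d.bd hS).F (d.bd hS).T (d.bd hS).W a z) :
    (d.rsB hS).Rt a r x :=
  d.rt_of hr (by rw [d.gg_bd hS]; exact h)

/-- an admissible root is a holomorphic germ with square `gg a` -/
theorem of_rsB {a : Fin 4} {r : d.Xh → ℂ} {x : d.Xh} (h : (d.rsB hS).Rt a r x) :
    HG d.CXh x r ∧ ∀ᶠ z in 𝓝 x,
      r z ^ 2 = Wall4_275.gg (d.bd hS).F (d.bd hS).T (d.bd hS).W a z := by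
  obtain ⟨U, hU, hx, h1, h2⟩ := h
  refine ⟨⟨U, hU, hx, h1⟩, ?_⟩
  filter_upwards [hU.mem_nhds hx] with z hz
  rw [h2 z hz, d.gg_bd hS]

/-- the four values, spelled out -/
theorem hg_T (x : d.Xh) : HG d.CXh x (fun y => (d.T y : ℂ)) := d.hg_gg 2 x
theorem hg_W (x : d.Xh) : HG d.CXh x (fun y => (d.W y : ℂ)) := d.hg_gg 0 x
theorem hg_WF (x : d.Xh) : HG d.CXh x (fun y => (d.W y : ℂ) - d.F (d.T y)) := d.hg_gg 1 x
theorem hg_WT (x : d.Xh) : HG d.CXh x (fun y => (d.W y : ℂ) - d.T y) := d.hg_gg 3 x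

end Dat14

end S14

end

end Crest.Agent.R272.Root_83
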