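import Crest.Agent.R272.SlB_140
import Crest.Agent.R272.Evb1_140

/-!
# R272 (S0414), helper140: holomorphic slopes on the blow-up, for ANY local coordinates

* `hg_div`    : division of holomorphic germs by a germ with non-zero differential;
* `slope_crd` : over a centre `s` of `K : Ctr A` any two functions which are local coordinates at
                `K.p s` and vanish there have a holomorphic slope;
* `slope_crd1`, `slope_crdN` : the same over 102's first and second blow-up (`Crd A s u` in the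
                ORIGINAL atlas `A`; no reference to the functions `T`, `S` of the node).
-/

set_option autoImplicit false
set_option linter.unusedSectionVars false

open Set Filter Topology Complex

namespace Crest.Agent.R272.SlB_140

open Crest.Agent.R275.Geo Crest.Agent.R275.Core144
open Crest.Agent.R273.Fam_835 Crest.Agent.R273.Map_835
open Crest.Agent.R272.Quot_783 Crest.Agent.R272.Root_83 Crest.Agent.R272.Blup1_102
open Crest.Agent.R272.BL_366 Crest.Agent.R272.Sq4_771
open Crest.Agent.R272.BlA_266 Crest.Agent.R272.Adp_409 Crest.Agent.R272.Asm2_102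

noncomputable section

section Div

variable {n : ℕ} {X : Type} [TopologicalSpace X] {C : Fam n X} {x : X} {f g : X → ℂ}

/-- a holomorphic germ is differentiable in every chart -/
theorem hg_diffAt (hf : HG C x f) {i : C.ι} (hi : x ∈ (C.e i).source) :
    DifferentiableAt ℂ (fun z => f ((C.e i).symm z)) (C.e i x) := by
  obtain ⟨U, hU, hxU, h⟩ := hf
  refine (h i).differentiableAt (((C.e i).isOpen_inter_preimage_symm hU).mem_nhds
    ⟨(C.e i).map_source hi, ?_⟩)
  show (C.e i).symm (C.e i x) ∈ U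
  rw [(C.e i).left_inv hi]
  exact hxU

/-- **division by a germ with non-zero differential** -/
theorem hg_div (hf : HG C x f) (hg : HG C x g) {i : C.ι} (hi : x ∈ (C.e i).source)
    (hd : fderiv ℂ (fun z => g ((C.e i).symm z)) (C.e i x) ≠ 0)
    (hv : ∀ᶠ y in 𝓝 x, g y = 0 → f y = 0) :
    ∃ q, HG C x q ∧ ∀ᶠ y in 𝓝 x, f y = q y * g y := by
  obtain ⟨U1, hU1, hx1, hf⟩ := hf
  obtain ⟨U2, hU2, hx2, hg⟩ := hg
  obtain ⟨U3, h3, hU3, hx3⟩ := _root_.eventually_nhds_iff.1 hv
  have hO : IsOpen ((C.e i).target ∩ (C.e i).symm ⁻¹' (U1 ∩ U2 ∩ U3)) :=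
    (C.e i).isOpen_inter_preimage_symm ((hU1.inter hU2).inter hU3)
  have hxO : C.e i x ∈ (C.e i).target ∩ (C.e i).symm ⁻¹' (U1 ∩ U2 ∩ U3) := by
    refine ⟨(C.e i).map_source hi, ?_⟩
    rw [mem_preimage, (C.e i).left_inv hi]
    exact ⟨⟨hx1, hx2⟩, hx3⟩
  have hgO : DifferentiableOn ℂ (fun z => g ((C.e i).symm z))
      ((C.e i).target ∩ (C.e i).symm ⁻¹' (U1 ∩ U2 ∩ U3)) :=
    (hg i).mono fun z hz => ⟨hz.1, hz.2.1.2⟩
  have hA : AnalyticAt ℂ (fun z => g ((C.e i).symm z)) (C.e i x) :=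
    Crest.Agent.R266.SCV.analyticOnNhd_of_differentiableOn hO hgO _ hxO
  have hne : ∀ᶠ z in 𝓝 (C.e i x), fderiv ℂ (fun z => g ((C.e i).symm z)) z ≠ 0 :=
    hA.fderiv.continuousAt.eventually_ne hd
  obtain ⟨O, hO1, hOo, hxO'⟩ := _root_.mem_nhds_iff.1 (Filter.inter_mem (hO.mem_nhds hxO) hne)
  obtain ⟨u, hu, he⟩ := Evb_140.div_smooth hOo (r := fun z => f ((C.e i).symm z))
    (g := fun z => g ((C.e i).symm z))
    ((hf i).mono fun z hz => ⟨(hO1 hz).1.1, (hO1 hz).1.2.1.1⟩)
    (hgO.mono fun z hz => (hO1 hz).1) (fun z hz _ => (hO1 hz).2)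
    (fun z hz h0 => h3 _ (hO1 hz).1.2.2 h0)
  have hW : IsOpen ((C.e i).source ∩ C.e i ⁻¹' O) := (C.e i).isOpen_inter_preimage hOo
  refine ⟨fun y => u (C.e i y), ⟨(C.e i).source ∩ C.e i ⁻¹' O, hW, ⟨hi, hxO'⟩,
    holF_of_chart C i hu fun y hy => ⟨hy.1, hy.2⟩⟩, ?_⟩
  filter_upwards [hW.mem_nhds ⟨hi, hxO'⟩] with y hy
  have h1 := he _ hy.2
  simp only [(C.e i).left_inv hy.1] at h1
  exact h1

end Div

section Crd

variable {M : Type} [TopologicalSpace M] {A : Atl 2 M}

/-- coordinates are coordinates in every chart -/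
theorem crd_all {x : M} {u : Fin 2 → M → ℂ} (h : Crd A x u) {j : A.ι}
    (hj : x ∈ (A.e j).source) {v : Cn 2}
    (hv : ∀ b, fderiv ℂ (fun z => u b ((A.e j).symm z)) (A.e j x) v = 0) : v = 0 := by
  obtain ⟨i, hi, h1⟩ := h.ind
  have hz : A.e i x ∈ A.ov i j := ⟨(A.e i).map_source hi, by rw [(A.e i).left_inv hi]; exact hj⟩
  have hz' : A.e j x ∈ A.ov j i := ⟨(A.e j).map_source hj, by rw [(A.e j).left_inv hj]; exact hi⟩
  have d1 : DifferentiableAt ℂ (fun z => A.e j ((A.e i).symm z)) (A.e i x) :=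
    (A.holo i j).differentiableAt ((Crest.Agent.R275.GC293.isOpen_ov A i j).mem_nhds hz)
  have d2 : DifferentiableAt ℂ (fun z => A.e i ((A.e j).symm z)) (A.e j x) :=
    (A.holo j i).differentiableAt ((Crest.Agent.R275.GC293.isOpen_ov A j i).mem_nhds hz')
  have e1 : A.e j ((A.e i).symm (A.e i x)) = A.e j x := by rw [(A.e i).left_inv hi]
  have e2 : A.e i ((A.e j).symm (A.e j x)) = A.e i x := by rw [(A.e j).left_inv hj]
  -- the derivative of the change of charts
  set L := fderiv ℂ (fun z => A.e i ((A.e j).symm z)) (A.e j x) with hL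
  have hu : ∀ b, fderiv ℂ (fun z => u b ((A.e i).symm z)) (A.e i x) (L v) = 0 := by
    intro b
    have h2 : (fun z => u b ((A.e j).symm z)) =ᶠ[𝓝 (A.e j x)]
        fun z => u b ((A.e i).symm (A.e i ((A.e j).symm z))) := by
      filter_upwards [(Crest.Agent.R275.GC293.isOpen_ov A j i).mem_nhds hz'] with w hw
      rw [(A.e i).left_inv hw.2]
    have h3 := fderiv_comp (A.e j x) (g := fun z => u b ((A.e i).symm z))
      (f := fun z => A.e i ((A.e j).symm z)) (by rw [e2]; exact hg_diffAt (h.hol b) hi) d2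
    have h4 := hv b
    rw [h2.fderiv_eq] at h4
    have h5 : fderiv ℂ (fun z => u b ((A.e i).symm (A.e i ((A.e j).symm z)))) (A.e j x) =
      (fderiv ℂ (fun z => u b ((A.e i).symm z)) (A.e i ((A.e j).symm (A.e j x)))).comp L := h3
    rw [h5, e2] at h4
    exact h4
  have hLv : L v = 0 := h1 _ hu
  -- the inverse
  have h6 : (fun z => A.e j ((A.e i).symm (A.e i ((A.e j).symm z)))) =ᶠ[𝓝 (A.e j x)] id := by
    filter_upwards [(Crest.Agent.R275.GC293.isOpen_ov A j i).mem_nhds hz'] with w hw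
    rw [(A.e i).left_inv hw.2, (A.e j).right_inv hw.1]
    rfl
  have h7 := fderiv_comp (A.e j x) (g := fun z => A.e j ((A.e i).symm z))
    (f := fun z => A.e i ((A.e j).symm z)) (by rw [e2]; exact d1) d2
  have h8 : fderiv ℂ (fun z => A.e j ((A.e i).symm (A.e i ((A.e j).symm z)))) (A.e j x) =
    (fderiv ℂ (fun z => A.e j ((A.e i).symm z)) (A.e i ((A.e j).symm (A.e j x)))).comp L := h7
  rw [h6.fderiv_eq, fderiv_id] at h8
  have h9 := congrArg (fun T : Cn 2 →L[ℂ] Cn 2 => T v) h8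
  have h10 : v = fderiv ℂ (fun z => A.e j ((A.e i).symm z)) (A.e i ((A.e j).symm (A.e j x)))
    (L v) := h9
  rw [hLv, map_zero] at h10
  exact h10

end Crd

section Blow

variable {M : Type} [TopologicalSpace M] [T2Space M] {A : Atl 2 M} (K : Ctr A)

/-- one factor: `u ∘ pi = q * (equation of E)`, value of `q` = derivative of `u` -/
theorem exists_fac {s : K.S} {a : Fin 2} {y : K.X} (hy : K.pi y = K.p s) (ha : y ∈ K.V s a)
    {u : M → ℂ} (hu : HG (fam A) (K.p s) u) (h0 : u (K.p s) = 0) :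
    ∃ q, HG (fam K.atl) y q ∧ (∀ᶠ y' in 𝓝 y, u (K.pi y') = q y' * K.co s a y' a) ∧
      q y = fderiv ℂ (fun z => u ((A.e (K.i s)).symm z)) (A.e (K.i s) (K.p s))
        (Ctr.W a (K.co s a y)) := by
  have hf : HG (fam K.atl) y (fun y => u (K.pi y)) :=
    HG.comp (by rw [hy]; exact hu) (holC_pi K)
  have hg : HG (fam K.atl) y (fun y => K.co s a y a) := hg_co K ha a
  have hcoa : K.co s a y a = 0 := (K.mem_E_iff ha).1 (mem_E_of hy)
  have hiy : y ∈ ((fam K.atl).e (Sum.inr (s, a))).source := ha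
  -- derivative of the equation of `E`
  have hd1 : fderiv ℂ (fun z => K.co s a (((fam K.atl).e (Sum.inr (s, a))).symm z) a)
      ((fam K.atl).e (Sum.inr (s, a)) y) ((1 / 5 : ℂ) • EuclideanSpace.single a 1) = 1 := by
    refine fderiv_line K ha (b := a) hg (g := fun t => K.co s a y a + t)
      ((hasDerivAt_id (0 : ℂ)).const_add _) ?_
    filter_upwards [line_mem K ha (b := a)] with t ht
    rw [K.co_ci ht]
    simp
  obtain ⟨q, hq, he⟩ := hg_div hf hg hiy (by
    intro h
    rw [h] at hd1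
    exact zero_ne_one hd1) (by
    filter_upwards [(K.isOpen_V s a).mem_nhds ha] with y' h1 h2
    obtain ⟨t, ht⟩ := (K.mem_E_iff h1).2 h2
    have hts : t = s := K.U_unique (by rw [← ht]; exact K.p_mem t) h1.1
    rw [← ht, hts, h0])
  refine ⟨q, hq, he, ?_⟩
  -- the derivative of `u ∘ pi` along the line, computed twice
  have hb : HasDerivAt (fun t : ℂ => u (K.pt s (t • Ctr.W a (K.co s a y))))
      (fderiv ℂ (fun z => u ((A.e (K.i s)).symm z)) (A.e (K.i s) (K.p s))
        (Ctr.W a (K.co s a y))) 0 := by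
    have h1 : HasFDerivAt (fun z => u ((A.e (K.i s)).symm z))
        (fderiv ℂ (fun z => u ((A.e (K.i s)).symm z)) (A.e (K.i s) (K.p s)))
        (A.e (K.i s) (K.p s) + (0 : ℂ) • Ctr.W a (K.co s a y)) := by
      rw [zero_smul, add_zero]
      exact (hg_diffAt hu (K.hp s)).hasFDerivAt
    have h2 : HasDerivAt (fun t : ℂ => A.e (K.i s) (K.p s) + t • Ctr.W a (K.co s a y))
        (Ctr.W a (K.co s a y)) 0 := by
      have := ((hasDerivAt_id (0 : ℂ)).smul_const (Ctr.W a (K.co s a y))).const_add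
        (A.e (K.i s) (K.p s))
      simpa using this
    exact h1.comp_hasDerivAt (0 : ℂ) h2
  have hW : ∀ t : ℂ, Ctr.W a (K.co s a y + t • EuclideanSpace.single a 1) =
      Ctr.W a (K.co s a y) := by
    intro t
    ext b
    rw [Ctr.W_apply, Ctr.W_apply]
    split_ifs with hb
    · rfl
    · simp [hb]
  have hD2 := fderiv_line K ha (b := a) hf hb (by
    filter_upwards [line_mem K ha (b := a)] with t ht
    rw [K.pi_ci ht, hW]
    congr 3
    simp [hcoa])
  have hD1 : fderiv ℂ (fun z => u (K.pi (((fam K.atl).e (Sum.inr (s, a))).symm z)))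
      ((fam K.atl).e (Sum.inr (s, a)) y) ((1 / 5 : ℂ) • EuclideanSpace.single a 1) = q y := by
    have h1 : (fun z => u (K.pi (((fam K.atl).e (Sum.inr (s, a))).symm z))) =ᶠ[
        𝓝 ((fam K.atl).e (Sum.inr (s, a)) y)] fun z =>
        q (((fam K.atl).e (Sum.inr (s, a))).symm z) *
          K.co s a (((fam K.atl).e (Sum.inr (s, a))).symm z) a := by
      have h2 : Tendsto ((fam K.atl).e (Sum.inr (s, a))).symm
          (𝓝 ((fam K.atl).e (Sum.inr (s, a)) y)) (𝓝 y) := by
        have := (((fam K.atl).e (Sum.inr (s, a))).continuousAt_symm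
          (((fam K.atl).e (Sum.inr (s, a))).map_source hiy)).tendsto
        rwa [((fam K.atl).e (Sum.inr (s, a))).left_inv hiy] at this
      exact h2.eventually he
    rw [h1.fderiv_eq, fderiv_fun_mul (hg_diffAt hq hiy) (hg_diffAt hg hiy)]
    simp only [_root_.add_apply, _root_.smul_apply, smul_eq_mul]
    rw [hd1, ((fam K.atl).e (Sum.inr (s, a))).left_inv hiy, hcoa]
    ring
  rw [← hD1, hD2]

/-- **over a centre any two coordinates have a holomorphic slope** -/
theorem slope_crd {s : K.S} {y : K.X} (hy : K.pi y = K.p s) {u : Fin 2 → M → ℂ}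
    (hu : Crd A (K.p s) u) (h0 : u 0 (K.p s) = 0) (h1 : u 1 (K.p s) = 0) :
    Slope (fam K.atl) y (fun y => u 0 (K.pi y)) (fun y => u 1 (K.pi y)) := by
  obtain ⟨a, ha⟩ := exists_chart hy
  obtain ⟨q0, hq0, e0, v0⟩ := exists_fac K hy ha (hu.hol 0) h0
  obtain ⟨q1, hq1, e1, v1⟩ := exists_fac K hy ha (hu.hol 1) h1
  have key : ∀ {p r : K.X → ℂ} {f g : K.X → ℂ}, HG (fam K.atl) y p → HG (fam K.atl) y r →
      p y ≠ 0 → (∀ᶠ y' in 𝓝 y, f y' = p y' * K.co s a y' a) →
      (∀ᶠ y' in 𝓝 y, g y' = r y' * K.co s a y' a) →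
      ∃ w, HG (fam K.atl) y w ∧ ∀ᶠ y' in 𝓝 y, g y' = f y' * w y' := by
    intro p r f g hp hr hp0 hf hg
    refine ⟨fun y' => r y' * (p y')⁻¹, hr.mul (hp.inv hp0), ?_⟩
    filter_upwards [hf, hg, hp.continuousAt.eventually_ne hp0] with y' h2 h3 h4
    rw [h2, h3]
    field_simp
  by_cases hz : q0 y = 0
  · have hz1 : q1 y ≠ 0 := by
      intro hz1
      have hW := crd_all hu (K.hp s) (v := Ctr.W a (K.co s a y)) (by
        intro b
        fin_cases b
        · exact v0.symm.trans hz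
        · exact v1.symm.trans hz1)
      exact Ctr.W_ne a _ hW
    exact Or.inl (key hq1 hq0 hz1 e1 e0)
  · exact Or.inr (key hq0 hq1 hz e0 e1)

end Blow

section Nodes

variable {M : Type} [TopologicalSpace M] [T2Space M] {A : Atl 2 M} {ρ : Type} (P : PD A ρ)
  {Z : Set M} (hZ : Z.Finite) (N : ∀ x : Z, Node P (x : M))

theorem crd_adp {x : M} {u : Fin 2 → M → ℂ} (K : Cen A) (h : Crd A x u) : Crd K.adp x u := by
  obtain ⟨i, hi, h1⟩ := h.ind
  refine ⟨fun b => ?_, Sum.inl i, hi, h1⟩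
  exact HG.comp (p := id) (h.hol b) (holC_iff.2 K.hol)

/-- **on the first blow-up, any coordinates at the centre** -/
theorem slope_crd1 {s : M} (hs : s ∈ Z) {y : (D1 P hZ N).X} (hy : (D1 P hZ N).pi y = s)
    {u : Fin 2 → M → ℂ} (hu : Crd A s u) (h0 : u 0 s = 0) (h1 : u 1 s = 0) :
    Slope (fam (D1 P hZ N).atl) y (fun y => u 0 ((D1 P hZ N).pi y))
      (fun y => u 1 ((D1 P hZ N).pi y)) :=
  slope_crd (D1 P hZ N) (s := (⟨s, hs⟩ : Z)) hy (crd_adp (nodeCen N) hu) h0 h1

variable {n : ℕ} {X : Type} [TopologicalSpace X] {CX : Fam n X}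

/-- **on every space over the second blow-up, any coordinates at the centre** -/
theorem slope_crdN {f : X → (D2 P hZ N).X} (hf : HolC CX (fam (D2 P hZ N).atl) f) {s : M}
    (hs : s ∈ Z) {x : X} (hx : piN P hZ N (f x) = s) {u : Fin 2 → M → ℂ} (hu : Crd A s u)
    (h0 : u 0 s = 0) (h1 : u 1 s = 0) :
    Slope CX x (fun x => u 0 (piN P hZ N (f x))) (fun x => u 1 (piN P hZ N (f x))) := by
  have h2 := slope_crd1 P hZ N hs (y := (D2 P hZ N).pi (f x)) hx hu h0 h1
  have h3 : HolC CX (fam (D1 P hZ N).atl) (fun x => (D2 P hZ N).pi (f x)) :=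
    (holC_iff.2 (D2 P hZ N).holMap_pi).comp hf
  exact Slope.comp (p := fun x => (D2 P hZ N).pi (f x)) h2 h3

end Nodes

end

end Crest.Agent.R272.SlB_140
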