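import Crest.Agent.R272.Root5_83

/-!
Row 272 (S0414), leaf S14-SQ4 (helper771), abstract part.

`SqE`-computations behind (H4) (and (H2), (H1), (H3)) of 83 #6742 for model #6536:
if near `x` two points of `Y⁴ = Z⁴ - X⁴` have homogeneous coordinates `(Z₂,X₂,Y₂)`, `(Z₁,X₁,Y₁)`
and `X₂ Z₁ - Z₂ X₁` is a square class, then so is the difference of the local coordinates
(`X/Z`, `Z/X`, or `Y/Z` if `Y = 0`, provided `Y/Z` are squares `e₂², e₁²` of functions with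
holomorphic slope, i.e. after the blow-up).
-/

set_option autoImplicit false

open Set Topology Filter

namespace Crest.Agent.R272.Sq4_771

open Crest.Agent.R275.Geo Crest.Agent.R273.Fam_835 Crest.Agent.R272.Quot_783
open Crest.Agent.R272.Root_83

noncomputable section

variable {n : ℕ} {X : Type} [TopologicalSpace X] {C : Fam n X} {x : X} {f g a b u : X → ℂ}

/-- the ratio of `a` and `b` (or of `b` and `a`) is holomorphic at `x` -/
def Slope (C : Fam n X) (x : X) (a b : X → ℂ) : Prop :=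
  (∃ u, HG C x u ∧ ∀ᶠ z in 𝓝 x, a z = b z * u z) ∨ (∃ u, HG C x u ∧ ∀ᶠ z in 𝓝 x, b z = a z * u z)

theorem Slope.symm (h : Slope C x a b) : Slope C x b a := h.elim Or.inr Or.inl

theorem Slope.of_ne (ha : HG C x a) (hb : HG C x b) (hne : a x ≠ 0) : Slope C x a b := by
  right
  refine ⟨fun z => b z * (a z)⁻¹, hb.mul (ha.inv hne), ?_⟩
  filter_upwards [ha.continuousAt.eventually_ne hne] with z hz
  field_simp

theorem Slope.congr {a' b' : X → ℂ} (h : Slope C x a b) (e1 : a =ᶠ[𝓝 x] a') (e2 : b =ᶠ[𝓝 x] b') :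
    Slope C x a' b' := by
  rcases h with ⟨u, hu, h⟩ | ⟨u, hu, h⟩
  · left
    refine ⟨u, hu, ?_⟩
    filter_upwards [h, e1, e2] with z h1 h2 h3
    rw [← h2, ← h3, h1]
  · right
    refine ⟨u, hu, ?_⟩
    filter_upwards [h, e1, e2] with z h1 h2 h3
    rw [← h2, ← h3, h1]

/-- multiplication by units -/
theorem Slope.units {a' b' v w : X → ℂ} (h : Slope C x a b) (hv : HG C x v) (hw : HG C x w)
    (hv0 : v x ≠ 0) (hw0 : w x ≠ 0) (e1 : ∀ᶠ z in 𝓝 x, a' z = v z * a z)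
    (e2 : ∀ᶠ z in 𝓝 x, b' z = w z * b z) : Slope C x a' b' := by
  rcases h with ⟨u, hu, h⟩ | ⟨u, hu, h⟩
  · left
    refine ⟨fun z => v z * u z * (w z)⁻¹, (hv.mul hu).mul (hw.inv hw0), ?_⟩
    filter_upwards [h, e1, e2, hw.continuousAt.eventually_ne hw0] with z h1 h2 h3 h4
    rw [h2, h3, h1]
    field_simp
  · right
    refine ⟨fun z => w z * u z * (v z)⁻¹, (hw.mul hu).mul (hv.inv hv0), ?_⟩
    filter_upwards [h, e1, e2, hv.continuousAt.eventually_ne hv0] with z h1 h2 h3 h4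
    rw [h2, h3, h1]
    field_simp

theorem freq_pow (ha : HG C x a) (h : ∃ᶠ z in 𝓝 x, a z ≠ 0) (k : ℕ) :
    ∃ᶠ z in 𝓝 x, a z ^ k ≠ 0 := h.mono fun _ hz => pow_ne_zero k hz

/-- transport of square classes along `f = a² g` -/
theorem SqE.of_sq_mul (ha : HG C x a) (hne : ∃ᶠ z in 𝓝 x, a z ≠ 0)
    (hfg : ∀ᶠ z in 𝓝 x, f z = a z ^ 2 * g z) (h : SqE C x f (fun _ => 1)) :
    SqE C x g (fun _ => 1) :=
  (SqE.sq_mul ha hne hfg).symm.trans h

theorem SqE.of_unit_mul (hu : HG C x u) (hne : u x ≠ 0)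
    (hfg : ∀ᶠ z in 𝓝 x, f z = u z * g z) (h : SqE C x f (fun _ => 1)) :
    SqE C x g (fun _ => 1) :=
  (SqE.unit_mul hu hne hfg).symm.trans h

/-- one half of the slope lemma -/
theorem sqE_aux (hb : HG C x b) (hbf : ∃ᶠ z in 𝓝 x, b z ≠ 0) (hu : HG C x u)
    (hab : ∀ᶠ z in 𝓝 x, a z = b z * u z)
    (h8 : SqE C x (fun z => a z ^ 8 - b z ^ 8) (fun _ => 1)) :
    SqE C x (fun z => a z ^ 2 - b z ^ 2) (fun _ => 1) := by
  have h1 : SqE C x (fun z => u z ^ 8 - 1) (fun _ => 1) := by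
    refine SqE.of_sq_mul (a := fun z => b z ^ 4) (hb.pow 4) (freq_pow hb hbf 4) ?_ h8
    filter_upwards [hab] with z hz
    rw [hz]; ring
  have h2 : SqE C x (fun z => u z ^ 2 - 1) (fun _ => 1) := by
    by_cases h : u x ^ 2 = 1
    · have h4 : u x ^ 4 = 1 := by
        calc u x ^ 4 = (u x ^ 2) ^ 2 := by ring
          _ = 1 := by rw [h]; ring
      refine SqE.of_unit_mul (u := fun z => (u z ^ 2 + 1) * (u z ^ 4 + 1))
        (((hu.pow 2).add (HG.const 1)).mul ((hu.pow 4).add (HG.const 1))) ?_ ?_ h1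
      · rw [h, h4]; norm_num
      · filter_upwards with z; ring
    · exact SqE.of_ne ((hu.pow 2).sub (HG.const 1)) (sub_ne_zero.2 h)
  refine (SqE.sq_mul hb hbf ?_).trans h2
  filter_upwards [hab] with z hz
  rw [hz]; ring

/-- **slope lemma**: `a⁸ - b⁸` a square class, slope holomorphic ⟹ `a² - b²` a square class. -/
theorem sqE_pow (ha : HG C x a) (hb : HG C x b) (haf : ∃ᶠ z in 𝓝 x, a z ≠ 0)
    (hbf : ∃ᶠ z in 𝓝 x, b z ≠ 0) (hs : Slope C x a b)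
    (h8 : SqE C x (fun z => a z ^ 8 - b z ^ 8) (fun _ => 1)) :
    SqE C x (fun z => a z ^ 2 - b z ^ 2) (fun _ => 1) := by
  rcases hs with ⟨u, hu, h⟩ | ⟨u, hu, h⟩
  · exact sqE_aux hb hbf hu h h8
  · have h8' : SqE C x (fun z => b z ^ 8 - a z ^ 8) (fun _ => 1) := by
      refine SqE.of_unit_mul (u := fun _ => -1) (HG.const (-1)) (by norm_num) ?_ h8
      filter_upwards with z; ring
    have h2 := sqE_aux ha haf hu h h8'
    refine SqE.of_unit_mul (u := fun _ => -1) (HG.const (-1)) (by norm_num) ?_ h2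
    filter_upwards with z; ring

variable {Z₁ X₁ Y₁ Z₂ X₂ Y₂ e₁ e₂ : X → ℂ}

/-- coordinate `X/Z` -/
theorem h_Z (hZ₁ : HG C x Z₁) (hZ₂ : HG C x Z₂) (n1 : Z₁ x ≠ 0) (n2 : Z₂ x ≠ 0)
    (h : SqE C x (fun z => X₂ z * Z₁ z - Z₂ z * X₁ z) (fun _ => 1)) :
    SqE C x (fun z => X₂ z / Z₂ z - X₁ z / Z₁ z) (fun _ => 1) := by
  refine SqE.of_unit_mul (u := fun z => Z₁ z * Z₂ z) (hZ₁.mul hZ₂) (mul_ne_zero n1 n2) ?_ h
  filter_upwards [hZ₁.continuousAt.eventually_ne n1, hZ₂.continuousAt.eventually_ne n2]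
    with z h1 h2
  field_simp

/-- coordinate `Z/X` -/
theorem h_X (hX₁ : HG C x X₁) (hX₂ : HG C x X₂) (n1 : X₁ x ≠ 0) (n2 : X₂ x ≠ 0)
    (h : SqE C x (fun z => X₂ z * Z₁ z - Z₂ z * X₁ z) (fun _ => 1)) :
    SqE C x (fun z => Z₂ z / X₂ z - Z₁ z / X₁ z) (fun _ => 1) := by
  refine SqE.of_unit_mul (u := fun z => - (X₁ z * X₂ z)) ?_ (neg_ne_zero.2 (mul_ne_zero n1 n2)) ?_ h
  · have := (HG.const (C := C) (x := x) (-1)).mul (hX₁.mul hX₂)
    refine this.congr ?_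
    filter_upwards with z; ring
  · filter_upwards [hX₁.continuousAt.eventually_ne n1, hX₂.continuousAt.eventually_ne n2]
      with z h1 h2
    field_simp
    ring

/-- coordinate `Y/Z` at a point with `Y = 0` -/
theorem h_Y (hZ₁ : HG C x Z₁) (hZ₂ : HG C x Z₂) (hX₁ : HG C x X₁) (hX₂ : HG C x X₂)
    (n1 : Z₁ x ≠ 0) (n2 : Z₂ x ≠ 0) (m1 : X₁ x ≠ 0)
    (hx : X₂ x * Z₁ x = Z₂ x * X₁ x)
    (q1 : ∀ᶠ z in 𝓝 x, Y₁ z ^ 4 = Z₁ z ^ 4 - X₁ z ^ 4)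
    (q2 : ∀ᶠ z in 𝓝 x, Y₂ z ^ 4 = Z₂ z ^ 4 - X₂ z ^ 4)
    (he₁ : HG C x e₁) (he₂ : HG C x e₂) (ef₁ : ∃ᶠ z in 𝓝 x, e₁ z ≠ 0)
    (ef₂ : ∃ᶠ z in 𝓝 x, e₂ z ≠ 0)
    (s1 : ∀ᶠ z in 𝓝 x, Y₁ z = Z₁ z * e₁ z ^ 2) (s2 : ∀ᶠ z in 𝓝 x, Y₂ z = Z₂ z * e₂ z ^ 2)
    (hs : Slope C x e₂ e₁)
    (h : SqE C x (fun z => X₂ z * Z₁ z - Z₂ z * X₁ z) (fun _ => 1)) :
    SqE C x (fun z => Y₂ z / Z₂ z - Y₁ z / Z₁ z) (fun _ => 1) := by
  -- `e₂⁸ - e₁⁸ = -(unit) (X₂ Z₁ - Z₂ X₁)`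
  have h8 : SqE C x (fun z => e₂ z ^ 8 - e₁ z ^ 8) (fun _ => 1) := by
    let w : X → ℂ := fun z => (X₂ z * Z₁ z) ^ 3 + (X₂ z * Z₁ z) ^ 2 * (Z₂ z * X₁ z)
      + (X₂ z * Z₁ z) * (Z₂ z * X₁ z) ^ 2 + (Z₂ z * X₁ z) ^ 3
    have ha := hX₂.mul hZ₁
    have hb := hZ₂.mul hX₁
    have hw : HG C x w :=
      (((ha.pow 3).add ((ha.pow 2).mul hb)).add (ha.mul (hb.pow 2))).add (hb.pow 3)
    have hw0 : w x ≠ 0 := by
      have : w x = 4 * (Z₂ x * X₁ x) ^ 3 := by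
        simp only [w]; rw [hx]; ring
      rw [this]
      exact mul_ne_zero (by norm_num) (pow_ne_zero _ (mul_ne_zero n2 m1))
    have hv : HG C x (fun z => -(w z) * ((Z₁ z * Z₂ z) ^ 4)⁻¹) := by
      have h1 := ((HG.const (C := C) (x := x) (-1)).mul hw).mul
        (((hZ₁.mul hZ₂).pow 4).inv (pow_ne_zero _ (mul_ne_zero n1 n2)))
      refine h1.congr ?_
      filter_upwards with z; ring
    refine (SqE.unit_mul hv ?_ ?_).trans h
    · exact mul_ne_zero (neg_ne_zero.2 hw0)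
        (inv_ne_zero (pow_ne_zero _ (mul_ne_zero n1 n2)))
    · filter_upwards [hZ₁.continuousAt.eventually_ne n1, hZ₂.continuousAt.eventually_ne n2,
        q1, q2, s1, s2] with z k1 k2 k3 k4 k5 k6
      rw [k5] at k3
      rw [k6] at k4
      have e1 : e₁ z ^ 8 = (Z₁ z ^ 4 - X₁ z ^ 4) / Z₁ z ^ 4 := by
        rw [eq_div_iff (pow_ne_zero _ k1), ← k3]; ring
      have e2 : e₂ z ^ 8 = (Z₂ z ^ 4 - X₂ z ^ 4) / Z₂ z ^ 4 := by
        rw [eq_div_iff (pow_ne_zero _ k2), ← k4]; ring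
      rw [e1, e2]
      simp only [w]
      field_simp
      ring
  have h2 := sqE_pow he₂ he₁ ef₂ ef₁ hs h8
  refine (SqE.of_eq ?_).trans h2
  filter_upwards [hZ₁.continuousAt.eventually_ne n1, hZ₂.continuousAt.eventually_ne n2, s1, s2]
    with z k1 k2 k5 k6
  rw [k5, k6]
  field_simp

end

end Crest.Agent.R272.Sq4_771
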