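import Crest.Agent.R272.Sq4a_771
import Crest.Agent.R272.Lc1_771
import Crest.Agent.R272.Hom3_839

/-!
Row 272 (S0414), leaf S14-SQ4 (helper771), part b: local coordinates of the curves over `P1` in
homogeneous coordinates (839's `Rep`), and the square classes (H1), (H3), (H4) for maps to `BB`,
`CC` given by germs of homogeneous coordinates.
-/

set_option autoImplicit false
set_option linter.unusedSectionVars false

open Set Topology Filter Complex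

namespace Crest.Agent.R272.Sq4_771

open Crest.Agent.R275.Geo Crest.Agent.R275.Core144 Crest.Agent.R273.Fam_835
open Crest.Agent.R273.Map_835 Crest.Agent.R272.Quot_783
open Crest.Agent.R272.Root_83 Crest.Agent.R272.DCov_426 Crest.Agent.R272.P1F_54
open Crest.Agent.R272.P1S_590 Crest.Agent.R272.Hom_839 Crest.Agent.R272.Lc_771
open Crest.Agent.R272.P1L_426 (Ch F8 CC BB f16 f8 f4 g8)

noncomputable section

/-! ### local coordinates in homogeneous form -/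

section rep

variable {ρ : Type} [Fintype ρ] {D : DCov_426.Data A1 ρ} {d : ρ → ℕ} {F : ρ → ℂ → ℂ → ℂ}
  {q : D.X} {a0 a1 : ℂ} {v : ρ → ℂ} {A' : Atl 1 D.X}

theorem pc_rep (r : Rep D d q a0 a1 v) {s : Bool} (hs : sel s a0 a1 ≠ 0) :
    pc s (D.p q) = oth s a0 a1 / sel s a0 a1 := by
  rw [r.p, pc_pt hs]

/-- off the branch points the affine coordinates are local coordinates -/
theorem lc_pc_rep (hc : Cmp D.famX A') (r : Rep D d q a0 a1 v) {s : Bool}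
    (hs : sel s a0 a1 ≠ 0) (hv : ∀ a, v a ≠ 0) : LC A' q (fun x => pc s (D.p x)) := by
  obtain ⟨s', hs'⟩ := cover_ch1 (D.p q)
  refine lc_base D hc (j := s') hs' (fun a => ?_) (lc_pc ?_)
  · have h1 : D.y a s' q ≠ 0 := by
      rw [r.y a s' (by rw [← r.p]; exact hs')]
      exact div_ne_zero (hv a) (pow_ne_zero _ (sel_ne r.ne (by rw [← r.p]; exact hs')))
    have h2 : D.y a s' q ^ D.k a = D.s a s' (D.p q) := D.y_pow a (i := s') hs'
    rw [← h2]
    exact pow_ne_zero _ h1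
  · rw [r.p]
    exact (mem_ps_pt r.ne s).2 hs

/-- at a branch point the function `y a` is a local coordinate -/
theorem lc_y_rep (hc : Cmp D.famX A') (r : Rep D d q a0 a1 v) {s : Bool}
    (hs : pt a0 a1 ∈ (ch1 s).source) {a : ρ} (hv : v a = 0) : LC A' q (D.y a s) := by
  have hq : D.p q ∈ (A1.e s).source := by rw [r.p]; exact hs
  refine lc_y D hc (j := s) hq ?_
  have h2 : D.y a s q ^ D.k a = D.s a s (D.p q) := D.y_pow a (i := s) hq
  rw [← h2, r.y a s hs, hv, zero_div, zero_pow (D.kpos a).ne']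

end rep

/-! ### germs -/

section germs

variable {n : ℕ} {X : Type} [TopologicalSpace X] {C : Fam n X} {x : X}

theorem HG.div {f g : X → ℂ} (hf : HG C x f) (hg : HG C x g) (hne : g x ≠ 0) :
    HG C x (fun z => f z / g z) := by
  have := hf.mul (hg.inv hne)
  exact this.congr (Eventually.of_forall fun z => (div_eq_mul_inv _ _).symm)

/-- (H1), (H3): the point `P y` has homogeneous coordinates `(a², b², *)`, the fixed point is
`(1, 0; *)` -/
theorem sq_const {D : DCov_426.Data A1 (Fin 1)} {d : Fin 1 → ℕ} {F : Fin 1 → ℂ → ℂ → ℂ}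
    {A' : Atl 1 D.X} (h : IsHom D d F) (hc : Cmp D.famX A')
    {P : X → D.X} {w : D.X} {c0 : ℂ} {c : Fin 1 → ℂ} (hw : Rep D d w c0 0 c) (hcne : c 0 ≠ 0)
    {a b : X → ℂ} {v : X → Fin 1 → ℂ} (ha : HG C x a) (hb : HG C x b)
    (hbf : ∃ᶠ z in 𝓝 x, b z ≠ 0)
    (hP : ∀ᶠ y in 𝓝 x, Rep D d (P y) (a y ^ 2) (b y ^ 2) (v y)) (hx : P x = w) :
    ∃ f, LC A' (P x) f ∧ SqE C x (fun z => f (P z) - f w) (fun _ => 1) := by
  have hc0 : c0 ≠ 0 := hw.ne.resolve_right (fun h => h rfl)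
  refine ⟨fun q => pc false (D.p q), ?_, ?_⟩
  · rw [hx]
    exact lc_pc_rep hc hw (s := false) hc0 (fun a => by rw [Subsingleton.elim a 0]; exact hcne)
  · have hPx := hP.self_of_nhds
    rw [hx] at hPx
    obtain ⟨e, he, e0, -, -⟩ := h.rep_rel hw hPx
    have hax : a x ≠ 0 := by
      intro h0
      rw [h0] at e0
      apply mul_ne_zero he hc0
      rw [← e0]; ring
    have hw0 : pc false (D.p w) = 0 := by
      rw [pc_rep hw (s := false) hc0]
      simp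
    refine SqE.of_sq (a := fun z => b z / a z) (HG.div hb ha hax) ?_ ?_
    · refine (hbf.and_eventually (ha.continuousAt.eventually_ne hax)).mono ?_
      rintro z ⟨h1, h2⟩
      exact div_ne_zero h1 h2
    · filter_upwards [hP, ha.continuousAt.eventually_ne hax] with z h1 h2
      rw [hw0, sub_zero, pc_rep h1 (s := false) (pow_ne_zero 2 h2)]
      simp only [oth_false, sel_false]
      rw [div_pow]

/-- (H4) in germs: two maps `P`, `H` to `BB` -/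
theorem sq_pair {A' : Atl 1 BB.X} (hc : Cmp BB.famX A') {P H : X → BB.X}
    {Z₁ X₁ Y₁ Z₂ X₂ Y₂ : X → ℂ}
    (hZ₁ : HG C x Z₁) (hZ₂ : HG C x Z₂) (hX₁ : HG C x X₁) (hX₂ : HG C x X₂)
    (hP : ∀ᶠ y in 𝓝 x, Rep BB (fun _ => 1) (P y) (Z₂ y) (X₂ y) (fun _ => Y₂ y))
    (hH : ∀ᶠ y in 𝓝 x, Rep BB (fun _ => 1) (H y) (Z₁ y) (X₁ y) (fun _ => Y₁ y))
    (hs : Y₂ x = 0 → Y₁ x = 0 → Z₁ x ≠ 0 → Z₂ x ≠ 0 → ∃ e₁ e₂ : X → ℂ, HG C x e₁ ∧ HG C x e₂ ∧
      (∃ᶠ z in 𝓝 x, e₁ z ≠ 0) ∧ (∃ᶠ z in 𝓝 x, e₂ z ≠ 0) ∧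
      (∀ᶠ z in 𝓝 x, Y₁ z = Z₁ z * e₁ z ^ 2) ∧ (∀ᶠ z in 𝓝 x, Y₂ z = Z₂ z * e₂ z ^ 2) ∧
      Slope C x e₂ e₁)
    (hN : SqE C x (fun z => X₂ z * Z₁ z - Z₂ z * X₁ z) (fun _ => 1)) (hx : P x = H x) :
    ∃ f, LC A' (P x) f ∧ SqE C x (fun z => f (P z) - f (H z)) (fun _ => 1) := by
  have rP := hP.self_of_nhds
  have rH := hH.self_of_nhds
  rw [← hx] at rH
  obtain ⟨c, hc0, eZ, eX, eY⟩ := isHom_BB.rep_rel rH rP
  have eY : Y₂ x = c ^ 1 * Y₁ x := eY 0
  have eqP : Y₂ x ^ 4 = Z₂ x ^ 4 - X₂ x ^ 4 := isHom_BB.rep_eqn rP 0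
  have evP : ∀ᶠ y in 𝓝 x, Y₂ y ^ 4 = Z₂ y ^ 4 - X₂ y ^ 4 := by
    filter_upwards [hP] with y hy using isHom_BB.rep_eqn hy 0
  have evH : ∀ᶠ y in 𝓝 x, Y₁ y ^ 4 = Z₁ y ^ 4 - X₁ y ^ 4 := by
    filter_upwards [hH] with y hy using isHom_BB.rep_eqn hy 0
  by_cases hY : Y₂ x = 0
  · -- `Y = 0`
    have hZX : Z₂ x ^ 4 = X₂ x ^ 4 := by
      rw [hY] at eqP; linear_combination -eqP
    have hZ2 : Z₂ x ≠ 0 := by
      intro h0
      rw [h0, zero_pow four_ne_zero] at hZX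
      have hX0 : X₂ x = 0 := pow_eq_zero_iff four_ne_zero |>.1 hZX.symm
      exact rP.ne.elim (fun h => h h0) (fun h => h hX0)
    have hX2 : X₂ x ≠ 0 := by
      intro h0
      rw [h0, zero_pow four_ne_zero] at hZX
      exact hZ2 (pow_eq_zero_iff four_ne_zero |>.1 hZX)
    have hZ1 : Z₁ x ≠ 0 := fun h0 => hZ2 (by rw [eZ, h0, mul_zero])
    have hX1 : X₁ x ≠ 0 := fun h0 => hX2 (by rw [eX, h0, mul_zero])
    have hnorm : ∀ {a b : ℂ}, a ^ 4 = b ^ 4 → ‖a‖ = ‖b‖ := by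
      intro a b hab
      have := congrArg norm hab
      rw [norm_pow, norm_pow] at this
      exact (pow_left_inj₀ (norm_nonneg _) (norm_nonneg _) four_ne_zero).1 this
    have key : ∀ {Z X' : X → ℂ}, HG C x Z → HG C x X' → Z x ≠ 0 → Z x ^ 4 = X' x ^ 4 →
        ∀ᶠ y in 𝓝 x, ‖X' y‖ < 2 * ‖Z y‖ := by
      intro Z X' hZ hX' hne heq
      have h1 : ContinuousAt (fun y => ‖X' y‖) x := hX'.continuousAt.norm
      have h2 : ContinuousAt (fun y => 2 * ‖Z y‖) x := hZ.continuousAt.norm.const_mul 2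
      refine h1.eventually_lt h2 ?_
      rw [← hnorm heq]
      have : 0 < ‖Z x‖ := norm_pos_iff.2 hne
      linarith
    have hZX1 : Z₁ x ^ 4 = X₁ x ^ 4 := by
      have := hZX
      rw [eZ, eX, mul_pow, mul_pow] at this
      exact mul_left_cancel₀ (pow_ne_zero _ hc0) this
    have srcP : pt (Z₂ x) (X₂ x) ∈ (ch1 false).source := by
      have := (key hZ₂ hX₂ hZ2 hZX).self_of_nhds
      exact (mem_src_pt rP.ne (s := false)).2 this
    have hY1 : Y₁ x = 0 := by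
      rw [hY, pow_one] at eY
      exact (mul_eq_zero.1 eY.symm).resolve_left hc0
    obtain ⟨e₁, e₂, he₁, he₂, hf₁, hf₂, s1, s2, hsl⟩ := hs hY hY1 hZ1 hZ2
    refine ⟨BB.y 0 false, lc_y_rep hc rP srcP hY, ?_⟩
    refine (SqE.of_eq ?_).trans (h_Y hZ₁ hZ₂ hX₁ hX₂ hZ1 hZ2 hX1 (by rw [eZ, eX]; ring) evH evP
      he₁ he₂ hf₁ hf₂ s1 s2 hsl hN)
    filter_upwards [hP, hH, key hZ₂ hX₂ hZ2 hZX, key hZ₁ hX₁ hZ1 hZX1] with y h1 h2 h3 h4
    have k1 : BB.y 0 false (P y) = Y₂ y / Z₂ y ^ 1 :=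
      h1.y 0 false ((mem_src_pt h1.ne (s := false)).2 h3)
    have k2 : BB.y 0 false (H y) = Y₁ y / Z₁ y ^ 1 :=
      h2.y 0 false ((mem_src_pt h2.ne (s := false)).2 h4)
    rw [k1, k2, pow_one, pow_one]
  · by_cases hZ : Z₂ x = 0
    · -- `Z = 0`
      have hX2 : X₂ x ≠ 0 := rP.ne.resolve_left (fun h => h hZ)
      have hX1 : X₁ x ≠ 0 := fun h0 => hX2 (by rw [eX, h0, mul_zero])
      refine ⟨fun q => pc true (BB.p q), lc_pc_rep hc rP (s := true) hX2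
        (fun _ => hY), ?_⟩
      refine (SqE.of_eq ?_).trans (h_X hX₁ hX₂ hX1 hX2 hN)
      filter_upwards [hP, hH, hX₂.continuousAt.eventually_ne hX2,
        hX₁.continuousAt.eventually_ne hX1] with y h1 h2 h3 h4
      rw [pc_rep h1 (s := true) h3, pc_rep h2 (s := true) h4]
      rfl
    · -- `Y, Z ≠ 0`
      have hZ1 : Z₁ x ≠ 0 := fun h0 => hZ (by rw [eZ, h0, mul_zero])
      refine ⟨fun q => pc false (BB.p q), lc_pc_rep hc rP (s := false) hZ
        (fun _ => hY), ?_⟩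
      refine (SqE.of_eq ?_).trans (h_Z hZ₁ hZ₂ hZ1 hZ hN)
      filter_upwards [hP, hH, hZ₂.continuousAt.eventually_ne hZ,
        hZ₁.continuousAt.eventually_ne hZ1] with y h1 h2 h3 h4
      rw [pc_rep h1 (s := false) h3, pc_rep h2 (s := false) h4]
      rfl

end germs

end

end Crest.Agent.R272.Sq4_771
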