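import Crest.Agent.R272.UnB7_894
import Crest.Agent.R272.Root5_83
import Crest.Agent.R272.K3E1_227

/-!
Row 272 (S0414), S14-XHAT, part 8: from the disc coordinates to functions on the curves.

* `LC A m f`   : `f` is a local coordinate of the curve at `m` (holomorphic and injective near `m`);
* `diff_unit`  : `W, S : Y → disc` holomorphic at `z`, `W z = S z`, `p` a covering:
                 `f (p W) - f (p S) = (W - S) * unit`;
* `rs_xhat`    : the root system `(W, T, W - F T, W - G T)` on `X̂`, from square classes on `X`.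
-/

set_option autoImplicit false
set_option linter.unusedSectionVars false

open Metric Set Filter Topology Function
open scoped Classical

namespace Crest.Agent.R272.UnB_894

open Crest.Agent.R275.Geo Crest.Agent.R275.Core144 Crest.Agent.R273.Map_835
open Crest.Agent.R273.Fam_835 Crest.Agent.R272.Quot_783 Crest.Agent.R272.Root_83
open Crest.Agent.R272.LbExt_259 Crest.Agent.R272.K3E_227

noncomputable section

variable {M M' Y X : Type} [TopologicalSpace M] [TopologicalSpace M'] [TopologicalSpace X]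
  [TopologicalSpace Y] {A : Atl 1 M} {A' : Atl 1 M'} {n : ℕ} {C : Fam n Y}

/-- `f` is a local coordinate of the curve at `m` -/
structure LC (A : Atl 1 M) (m : M) (f : M → ℂ) : Prop where
  hol : HG (fam A) m f
  inj : ∃ N ∈ 𝓝 m, InjOn f N

theorem HG.comp2 {z : Y} {g : ℂ × ℂ → ℂ} {a b : Y → ℂ} (ha : HG C z a) (hb : HG C z b)
    (hg : AnalyticAt ℂ g (a z, b z)) : HG C z (fun z' => g (a z', b z')) := by
  have hca := ha.continuousAt
  have hcb := hb.continuousAt
  obtain ⟨U, hU, hxU, h1⟩ := ha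
  obtain ⟨V, hV, hxV, h2⟩ := hb
  have h3 : ∀ᶠ z' in 𝓝 z, AnalyticAt ℂ g (a z', b z') :=
    (hca.prodMk hcb).eventually hg.eventually_analyticAt
  obtain ⟨O, hO, hOo, hxO⟩ := _root_.eventually_nhds_iff.1 h3
  refine ⟨U ∩ V ∩ O, (hU.inter hV).inter hOo, ⟨⟨hxU, hxV⟩, hxO⟩, fun i y hy => ?_⟩
  have d1 : DifferentiableAt ℂ (fun y => a ((C.e i).symm y)) y :=
    (h1 i).differentiableAt (((C.e i).isOpen_inter_preimage_symm hU).mem_nhds ⟨hy.1, hy.2.1.1⟩)
  have d2 : DifferentiableAt ℂ (fun y => b ((C.e i).symm y)) y :=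
    (h2 i).differentiableAt (((C.e i).isOpen_inter_preimage_symm hV).mem_nhds ⟨hy.1, hy.2.1.2⟩)
  exact (DifferentiableAt.comp y (g := g)
    (f := fun y => (a ((C.e i).symm y), b ((C.e i).symm y)))
    (hO _ hy.2.2).differentiableAt (d1.prodMk d2)).differentiableWithinAt

theorem HG.comp1 {z : Y} {g : ℂ → ℂ} {a : Y → ℂ} (ha : HG C z a)
    (hg : AnalyticAt ℂ g (a z)) : HG C z (fun z' => g (a z')) := by
  have : AnalyticAt ℂ (fun y : ℂ × ℂ => g y.1) (a z, a z) :=
    AnalyticAt.comp (g := g) (f := fun y : ℂ × ℂ => y.1) hg analyticAt_fst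
  exact HG.comp2 (g := fun y : ℂ × ℂ => g y.1) ha ha this

/-- a holomorphic function on the curve, read on the disc -/
theorem analyticAt_lift {p : DD → M} (hp : HolD A p) {w : DD} {f : M → ℂ}
    (hf : HG (fam A) (p w) f) : AnalyticAt ℂ (exw fun t => f (p t)) (w : ℂ) := by
  obtain ⟨U, hU, hxU, h1⟩ := hf
  obtain ⟨i, hi⟩ := A.cover (p w)
  rw [Complex.analyticAt_iff_eventually_differentiableAt]
  have h2 : ∀ᶠ t : DD in 𝓝 w, p t ∈ (A.e i).source ∧ p t ∈ U :=
    (hp.eventually_mem hi).and (hp.cont.continuousAt.eventually_mem (hU.mem_nhds hxU))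
  have h3 := h2.eventually_nhds
  rw [eventually_mk] at h3
  filter_upwards [h3] with v ⟨hv, hv'⟩
  have hv0 := hv'.self_of_nhds
  have h4 : DifferentiableAt ℂ (fun y : Cn 1 => f ((A.e i).symm y)) (A.e i (p ⟨v, hv⟩)) := by
    refine (h1 i).differentiableAt (((A.e i).isOpen_inter_preimage_symm hU).mem_nhds ?_)
    refine ⟨(A.e i).map_source hv0.1, ?_⟩
    rw [mem_preimage, (A.e i).left_inv hv0.1]
    exact hv0.2
  have h5 : DifferentiableAt ℂ (fun u : ℂ => pt (rdD A p i u)) v :=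
    DifferentiableAt.comp v (g := pt) (f := rdD A p i) (differentiable_pt _)
      (hp.diff ⟨v, hv⟩ i hv0.1)
  have e5 : pt (rdD A p i v) = A.e i (p ⟨v, hv⟩) := by
    have := rdD_coe p i (⟨v, hv⟩ : DD)
    change rdD A p i v = _ at this
    rw [this, pt_co]
  have h6 : DifferentiableAt ℂ (fun u : ℂ => f ((A.e i).symm (pt (rdD A p i u)))) v := by
    rw [← e5] at h4
    exact DifferentiableAt.comp v (g := fun y : Cn 1 => f ((A.e i).symm y))
      (f := fun u : ℂ => pt (rdD A p i u)) h4 h5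
  refine h6.congr_of_eventuallyEq ?_
  have h7 : ∀ᶠ s : DD in 𝓝 (⟨v, hv⟩ : DD), p s ∈ (A.e i).source := hv'.mono fun s hs => hs.1
  rw [eventually_mk] at h7
  filter_upwards [h7] with u ⟨hu, hu'⟩
  rw [exw_mk _ hu]
  have e6 : pt (rdD A p i u) = A.e i (p ⟨u, hu⟩) := by
    have := rdD_coe p i (⟨u, hu⟩ : DD)
    change rdD A p i u = _ at this
    rw [this, pt_co]
  rw [e6, (A.e i).left_inv hu']

/-- a local coordinate has non-zero derivative on the disc -/
theorem deriv_lift_ne {p : DD → M} (hp : HolD A p) (hpl : IsLocalHomeomorph p) {w : DD}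
    {f : M → ℂ} (hf : LC A (p w) f) : deriv (exw fun t => f (p t)) (w : ℂ) ≠ 0 := by
  have h1 := (analyticAt_lift hp hf.hol).eventually_analyticAt
  obtain ⟨N, hN, hinj⟩ := hf.inj
  obtain ⟨e, hwe, he⟩ := hpl w
  have h0 : ∀ᶠ t : DD in 𝓝 w, t ∈ e.source := e.open_source.mem_nhds hwe
  have h2 : ∀ᶠ t : DD in 𝓝 w, t ∈ e.source ∧ p t ∈ N :=
    h0.and (hp.cont.continuousAt.eventually_mem hN)
  rw [eventually_mk] at h2
  obtain ⟨O, hO, hOo, hwO⟩ := _root_.eventually_nhds_iff.1 (h1.and h2)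
  refine Crest.Agent.Lib.deriv_ne_zero_of_injOn hOo
    (fun u hu => (hO u hu).1.differentiableAt.differentiableWithinAt) ?_ hwO
  intro u hu v hv euv
  obtain ⟨hu1, hu2, hu3⟩ := (hO u hu).2
  obtain ⟨hv1, hv2, hv3⟩ := (hO v hv).2
  rw [exw_mk _ hu1, exw_mk _ hv1] at euv
  have h3 := hinj hu3 hv3 euv
  rw [he] at h3
  exact congrArg Subtype.val (e.injOn hu2 hv2 h3)

/-- **Differences of lifts.** -/
theorem diff_unit {p : DD → M} (hp : HolD A p) (hpl : IsLocalHomeomorph p) {z : Y}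
    {W S : Y → DD} (hW : HG C z fun z' => (W z' : ℂ)) (hS : HG C z fun z' => (S z' : ℂ))
    (e : W z = S z) {f : M → ℂ} (hf : LC A (p (W z)) f) :
    ∃ u : Y → ℂ, HG C z u ∧ u z ≠ 0 ∧
      ∀ z', f (p (W z')) - f (p (S z')) = u z' * ((W z' : ℂ) - S z') := by
  have ha := analyticAt_lift hp hf.hol
  have hne := deriv_lift_ne hp hpl hf
  refine ⟨fun z' => dd (exw fun t => f (p t)) ((W z' : ℂ), (S z' : ℂ)), ?_, ?_, ?_⟩
  · refine HG.comp2 hW hS (dd_analyticAt ha ?_)
    rw [← e]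
    exact ha
  · change dd _ ((W z : ℂ), (S z : ℂ)) ≠ 0
    rw [← e, dd_self]
    exact hne
  · intro z'
    have := dd_mul (exw fun t => f (p t)) (W z' : ℂ) (S z' : ℂ)
    rw [exw_coe, exw_coe] at this
    rw [← this]
    ring

theorem sqE_diff {p : DD → M} (hp : HolD A p) (hpl : IsLocalHomeomorph p) {z : Y}
    {W S : Y → DD} (hW : HG C z fun z' => (W z' : ℂ)) (hS : HG C z fun z' => (S z' : ℂ))
    (e : W z = S z) {f : M → ℂ} (hf : LC A (p (W z)) f) :
    SqE C z (fun z' => (W z' : ℂ) - S z') (fun z' => f (p (W z')) - f (p (S z'))) := by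
  obtain ⟨u, hu, hune, h⟩ := diff_unit hp hpl hW hS e hf
  exact (SqE.unit_mul hu hune (Eventually.of_forall h)).symm

theorem SqE.freq {z : Y} {f : Y → ℂ} (h : SqE C z f (fun _ => 1)) : ∃ᶠ z' in 𝓝 z, f z' ≠ 0 := by
  obtain ⟨α, β, u, hα, hβ, hu, hux, h1, h2, h3⟩ := h
  refine (h2.and_eventually h3).mono ?_
  rintro z' ⟨h4, h5⟩ h6
  rw [h6, zero_mul, zero_mul, one_mul] at h5
  exact h4 (pow_eq_zero_iff two_ne_zero |>.1 h5.symm)

/-! ### the root system on `X̂` -/

variable {B K : Type} [TopologicalSpace B] [TopologicalSpace K] {A' : Atl 1 B}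
  {A : Atl 1 K} {C : Fam n X}

/-- the four functions -/
def gx (q : DD → B) (p : DD → K) (π : X → B × K) (F G : DD → DD) (a : Fin 4)
    (z : PB (Prod.map q p) π) : ℂ :=
  ![(Wc q p π z : ℂ), (Tc q p π z : ℂ), (Wc q p π z : ℂ) - F (Tc q p π z),
    (Wc q p π z : ℂ) - G (Tc q p π z)] a

variable {q : DD → B} {p : DD → K} {π : X → B × K}

section

variable (hqc : IsCoveringMap q) (hpc : IsCoveringMap p) (hql : LBD A' q) (hpl : LBD A p)
  (h1 : HolC C (fam A') fun x => (π x).1) (h2 : HolC C (fam A) fun x => (π x).2)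
  (hπ : Continuous π)

/-- the complex structure of `X̂` -/
abbrev Cx (C : Fam n X) (hqc : IsCoveringMap q) (hpc : IsCoveringMap p) (hπ : Continuous π) :
    Fam n (PB (Prod.map q p) π) :=
  pullFam C (isLocalHomeomorph_pbFst (prod_covering hqc hpc) hπ)

include hql hpl h1 h2

theorem hg_W (z : PB (Prod.map q p) π) :
    HG (Cx C hqc hpc hπ) z fun z' => (Wc q p π z' : ℂ) := by
  refine ⟨univ, isOpen_univ, mem_univ _, ?_⟩
  refine holF_fun hqc hpc hql hpl h1 h2 hπ (fun v => (v.2 : ℂ)) fun t w => ?_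
  have : (fun y : ℂ × ℂ => exw (fun t' => exw (fun w' : DD => (w' : ℂ)) y.2) y.1) =ᶠ[𝓝 ((t : ℂ), (w : ℂ))]
      fun y => y.2 := by
    have hm : (ball (0 : ℂ) 1) ×ˢ (ball (0 : ℂ) 1) ∈ 𝓝 ((t : ℂ), (w : ℂ)) :=
      prod_mem_nhds (isOpen_ball.mem_nhds t.2) (isOpen_ball.mem_nhds w.2)
    filter_upwards [hm] with y hy
    rw [exw_mk _ hy.1, exw_mk _ hy.2]
  exact differentiableAt_snd.congr_of_eventuallyEq this

theorem hg_T {F : DD → DD} (hF : Hol F) (z : PB (Prod.map q p) π) :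
    HG (Cx C hqc hpc hπ) z fun z' => (F (Tc q p π z') : ℂ) := by
  refine ⟨univ, isOpen_univ, mem_univ _, ?_⟩
  refine holF_fun hqc hpc hql hpl h1 h2 hπ (fun v => (F v.1 : ℂ)) fun t w => ?_
  have : (fun y : ℂ × ℂ => exw (fun t' => exw (fun _ : DD => (F t' : ℂ)) y.2) y.1) =ᶠ[𝓝 ((t : ℂ), (w : ℂ))]
      fun y => ex F y.1 := by
    have hm : (ball (0 : ℂ) 1) ×ˢ (ball (0 : ℂ) 1) ∈ 𝓝 ((t : ℂ), (w : ℂ)) :=
      prod_mem_nhds (isOpen_ball.mem_nhds t.2) (isOpen_ball.mem_nhds w.2)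
    filter_upwards [hm] with y hy
    rw [exw_mk _ hy.1, exw_mk _ hy.2, ex, exw_mk _ hy.1]
  refine DifferentiableAt.congr_of_eventuallyEq ?_ this
  exact DifferentiableAt.comp ((t : ℂ), (w : ℂ)) (g := ex F) (f := fun y : ℂ × ℂ => y.1)
    (hF.differentiableAt t) differentiableAt_fst

/-- class of `W - F T` -/
theorem sqE_WF {φ : B → K} {F : DD → DD} (hF : Hol F) (hφ : ∀ t, p (F t) = φ (q t))
    (hr : ∀ x, (π x).2 = φ (π x).1 → ∃ f, LC A (π x).2 f ∧
      SqE C x (fun x' => f (π x').2 - f (φ (π x').1)) (fun _ => 1))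
    (z : PB (Prod.map q p) π) :
    SqE (Cx C hqc hpc hπ) z (fun z' => (Wc q p π z' : ℂ) - F (Tc q p π z')) (fun _ => 1) := by
  have hW := hg_W hqc hpc hql hpl h1 h2 hπ z
  have hT := hg_T hqc hpc hql hpl h1 h2 hπ hF z
  by_cases hz : Wc q p π z = F (Tc q p π z)
  · have h3 : (π (pbFst _ π z)).2 = φ (π (pbFst _ π z)).1 := by
      rw [← p_Wc, ← q_Tc, hz, hφ]
    obtain ⟨f, hf, hs⟩ := hr _ h3
    rw [← p_Wc] at hf
    have h4 := sqE_diff hpl.toHolD hpc.isLocalHomeomorph hW hT hz hf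
    have h5 := hs.comp (D := Cx C hqc hpc hπ) (p := pbFst (Prod.map q p) π)
      (holC_pull (isLocalHomeomorph_pbFst (prod_covering hqc hpc) hπ))
      (dom_of_open (isLocalHomeomorph_pbFst (prod_covering hqc hpc) hπ).isOpenMap
        continuous_pbFst)
    refine h4.trans (SqE.trans (SqE.of_eq (Eventually.of_forall fun z' => ?_)) h5)
    simp only [hφ, p_Wc, q_Tc]
  · refine SqE.of_ne (hW.sub hT) ?_
    rw [sub_ne_zero]
    exact fun h => hz (Subtype.ext h)

/-- class of `W` -/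
theorem sqE_W (hr : ∀ x, (π x).2 = p o → ∃ f, LC A (p o) f ∧
      SqE C x (fun x' => f (π x').2 - f (p o)) (fun _ => 1))
    (z : PB (Prod.map q p) π) :
    SqE (Cx C hqc hpc hπ) z (fun z' => (Wc q p π z' : ℂ)) (fun _ => 1) := by
  have h3 := sqE_WF hqc hpc hql hpl h1 h2 hπ (φ := fun _ => p o) (F := fun _ => o)
    (by
      have : (fun _ : DD => o) = (fun _ : DD => o) := rfl
      exact (differentiableOn_const (0 : ℂ)).congr fun z hz => by rw [exw_mk _ hz, coe_o])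
    (fun _ => rfl)
    (fun x hx => by
      obtain ⟨f, hf, hs⟩ := hr x hx
      exact ⟨f, by rw [hx]; exact hf, hs⟩) z
  simpa only [coe_o, sub_zero] using h3

/-- class of `T` -/
theorem sqE_T (hr : ∀ x, (π x).1 = q o → ∃ f, LC A' (q o) f ∧
      SqE C x (fun x' => f (π x').1 - f (q o)) (fun _ => 1))
    (z : PB (Prod.map q p) π) :
    SqE (Cx C hqc hpc hπ) z (fun z' => (Tc q p π z' : ℂ)) (fun _ => 1) := by
  have hT := hg_T hqc hpc hql hpl h1 h2 hπ Hol.id z
  have h0 : HG (Cx C hqc hpc hπ) z fun _ => ((o : DD) : ℂ) := HG.const _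
  by_cases hz : Tc q p π z = o
  · have h3 : (π (pbFst _ π z)).1 = q o := by rw [← q_Tc, hz]
    obtain ⟨f, hf, hs⟩ := hr _ h3
    have h4 := sqE_diff (S := fun _ => o) hql.toHolD hqc.isLocalHomeomorph hT h0 hz
      (f := f) (by rw [hz]; exact hf)
    have h5 := hs.comp (D := Cx C hqc hpc hπ) (p := pbFst (Prod.map q p) π)
      (holC_pull (isLocalHomeomorph_pbFst (prod_covering hqc hpc) hπ))
      (dom_of_open (isLocalHomeomorph_pbFst (prod_covering hqc hpc) hπ).isOpenMap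
        continuous_pbFst)
    have h6 := h4.trans (SqE.trans (SqE.of_eq (Eventually.of_forall fun z' => by
      simp only [q_Tc])) h5)
    simpa only [coe_o, sub_zero] using h6
  · refine SqE.of_ne hT ?_
    intro h
    apply hz
    apply Subtype.ext
    rw [coe_o]
    exact h

end

/-- **The root system on `X̂`.** -/
def rs_xhat (hqc : IsCoveringMap q) (hpc : IsCoveringMap p) (hql : LBD A' q) (hpl : LBD A p)
    (h1 : HolC C (fam A') fun x => (π x).1) (h2 : HolC C (fam A) fun x => (π x).2)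
    (hπ : Continuous π) {φ ψ : B → K} {F G : DD → DD} (hF : Hol F) (hG : Hol G)
    (hφ : ∀ t, p (F t) = φ (q t)) (hψ : ∀ t, p (G t) = ψ (q t))
    (rW : ∀ x, (π x).2 = p o → ∃ f, LC A (p o) f ∧
      SqE C x (fun x' => f (π x').2 - f (p o)) (fun _ => 1))
    (rT : ∀ x, (π x).1 = q o → ∃ f, LC A' (q o) f ∧
      SqE C x (fun x' => f (π x').1 - f (q o)) (fun _ => 1))
    (rF : ∀ x, (π x).2 = φ (π x).1 → ∃ f, LC A (π x).2 f ∧
      SqE C x (fun x' => f (π x').2 - f (φ (π x').1)) (fun _ => 1))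
    (rG : ∀ x, (π x).2 = ψ (π x).1 → ∃ f, LC A (π x).2 f ∧
      SqE C x (fun x' => f (π x').2 - f (ψ (π x').1)) (fun _ => 1)) :
    RS (PB (Prod.map q p) π) (Fin 4) (gx q p π F G) := by
  have hcl : ∀ a z, SqE (Cx C hqc hpc hπ) z (gx q p π F G a) (fun _ => 1) := by
    intro a z
    fin_cases a
    · exact sqE_W hqc hpc hql hpl h1 h2 hπ rW z
    · exact sqE_T hqc hpc hql hpl h1 h2 hπ rT z
    · exact sqE_WF hqc hpc hql hpl h1 h2 hπ hF hφ rF z
    · exact sqE_WF hqc hpc hql hpl h1 h2 hπ hG hψ rG z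
  have hhg : ∀ a z, HG (Cx C hqc hpc hπ) z (gx q p π F G a) := by
    intro a z
    fin_cases a
    · exact hg_W hqc hpc hql hpl h1 h2 hπ z
    · exact hg_T hqc hpc hql hpl h1 h2 hπ Hol.id z
    · exact (hg_W hqc hpc hql hpl h1 h2 hπ z).sub (hg_T hqc hpc hql hpl h1 h2 hπ hF z)
    · exact (hg_W hqc hpc hql hpl h1 h2 hπ z).sub (hg_T hqc hpc hql hpl h1 h2 hπ hG z)
  exact RS.ofSqE (Cx C hqc hpc hπ) (gx q p π F G) hhg (fun a z => SqE.freq (hcl a z)) hcl

end

end Crest.Agent.R272.UnB_894
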