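import Crest.Agent.R272.Sq4b_771
import Crest.Agent.R272.UnB8_894

/-!
Row 272 (S0414), leaf S14-SQ4 (helper771), part c: (H1), (H3), (H4) on a surface over `C^ × F8`.
-/

set_option autoImplicit false
set_option linter.unusedSectionVars false

open Set Topology Filter Complex

namespace Crest.Agent.R272.Sq4_771

open Crest.Agent.R275.Geo Crest.Agent.R275.Core144 Crest.Agent.R273.Fam_835
open Crest.Agent.R273.Map_835 Crest.Agent.R272.Quot_783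
open Crest.Agent.R272.Root_83 Crest.Agent.R272.DCov_426 Crest.Agent.R272.P1F_54
open Crest.Agent.R272.P1S_590 Crest.Agent.R272.Hom_839 Crest.Agent.R272.Lc_771
open Crest.Agent.R272.P1L_426 (Ch F8 CC BB f16 f8 f4 g8)

noncomputable section

/-! ### non-vanishing germs on curves -/

section freq

variable {K : Type} [TopologicalSpace K] {A : Atl 1 K} {c : K} {f : K → ℂ}

/-- no isolated points -/
theorem freq_ne (A : Atl 1 K) (c : K) : ∃ᶠ z in 𝓝 c, z ≠ c := by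
  obtain ⟨i, hi⟩ := A.cover c
  have h1 : ∃ᶠ w in 𝓝 (A.e i c), w ≠ A.e i c := by
    have h2 : (𝓝[≠] (A.e i c)).NeBot := Module.punctured_nhds_neBot ℂ (Cn 1) (A.e i c)
    exact frequently_mem_iff_neBot.2 h2
  intro h
  apply h1
  have h2 : ContinuousAt (A.e i).symm (A.e i c) :=
    (A.e i).continuousAt_symm ((A.e i).map_source hi)
  have h3 : ∀ᶠ w in 𝓝 (A.e i c), ¬ (A.e i).symm w ≠ c :=
    h2.eventually (by rw [(A.e i).left_inv hi]; exact h)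
  filter_upwards [h3, (A.e i).open_target.mem_nhds ((A.e i).map_source hi)] with w h4 h5 h6
  apply h6
  rw [← (A.e i).right_inv h5, not_not.1 h4]

theorem lc_freq (h : LC A c f) : ∃ᶠ z in 𝓝 c, f z ≠ 0 := by
  obtain ⟨h1, N, hN, hinj⟩ := h
  by_cases h0 : f c = 0
  · refine ((freq_ne A c).and_eventually hN).mono ?_
    rintro z ⟨h2, h3⟩ h4
    exact h2 (hinj h3 (mem_of_mem_nhds hN) (by rw [h4, h0]))
  · exact freq_of_ne h1 h0

end freq

section dcov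

variable {ρ : Type} [Fintype ρ] {D : DCov_426.Data A1 ρ} {A' : Atl 1 D.X} (hc : Cmp D.famX A')
  {q : D.X} {s : Bool}

include hc in
theorem freq_y (a : ρ) (hq : D.p q ∈ (A1.e s).source) : ∃ᶠ z in 𝓝 q, D.y a s z ≠ 0 := by
  by_cases h0 : D.y a s q = 0
  · refine lc_freq (lc_y D hc (j := s) hq ?_)
    have h2 : D.y a s q ^ D.k a = D.s a s (D.p q) := D.y_pow a (i := s) hq
    rw [← h2, h0, zero_pow (D.kpos a).ne']
  · exact freq_of_ne (hg_y D hc a (j := s) hq) h0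

include hc in
theorem dom_p : Dom (fam A') (fam A1) D.p q := dom_of_open D.isOpenMap_p D.continuous_p

include hc in
theorem freq_u1 (hq : D.p q ∈ (A1.e s).source) : ∃ᶠ z in 𝓝 q, u1 s (pc s (D.p z)) ≠ 0 := by
  cases s
  · have h1 : LC A1 (D.p q) (pc false) := lc_pc (mem_ch1.1 hq).1
    exact (dom_p hc).freq h1.1 (lc_freq h1)
  · exact (Filter.Eventually.of_forall fun _ => one_ne_zero).frequently

include hc in
theorem hg_pcp (hq : D.p q ∈ (A1.e s).source) : HG (fam A') q (fun z => pc s (D.p z)) :=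
  (hg_pc (mem_ch1.1 hq).1).comp (holC_p' D hc)

include hc in
theorem hg_u0 (hq : D.p q ∈ (A1.e s).source) : HG (fam A') q (fun z => u0 s (pc s (D.p z))) := by
  cases s
  · exact HG.const 1
  · exact hg_pcp hc hq

include hc in
theorem hg_u1 (hq : D.p q ∈ (A1.e s).source) : HG (fam A') q (fun z => u1 s (pc s (D.p z))) := by
  cases s
  · exact hg_pcp hc hq
  · exact HG.const 1

end dcov

/-! ### the section `s_N` in the patches -/

/-- `s_N = o² (t1⁸ - i t0⁸) - k t0² t1² δ² z²` in the frames `s`, `s'` -/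
def sNf (k : ℂ) (s s' : Bool) (q : Ch.X) (q' : F8.X) : ℂ :=
  u1 s' (pc s' (F8.p q')) ^ 2 *
      (u1 s (pc s (Ch.p q)) ^ 8 - I * u0 s (pc s (Ch.p q)) ^ 8) -
    k * (u0 s (pc s (Ch.p q)) ^ 2 * u1 s (pc s (Ch.p q)) ^ 2 * Ch.y 0 s q ^ 2 *
      u0 s' (pc s' (F8.p q')) ^ 2)

section surface

variable {n : ℕ} {X : Type} [TopologicalSpace X] {CX : Fam n X} {πC : X → Ch.X} {πF : X → F8.X}
  {AC : Atl 1 Ch.X} {AF : Atl 1 F8.X} (hC : Cmp Ch.famX AC) (hF : Cmp F8.famX AF)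
  (hπC : HolC CX (fam AC) πC) (hπF : HolC CX (fam AF) πF) {x : X}
  (dC : Dom CX (fam AC) πC x) (dF : Dom CX (fam AF) πF x)
  {ψ : Ch.X → CC.X} {χ : F8.X → BB.X} {f : CC.X → BB.X} {k : ℂ}
  (hψ : ∀ q t0 t1 v, Rep Ch ![2, 4] q t0 t1 v →
    Rep CC (fun _ => 2) (ψ q) (t0 ^ 2) (t1 ^ 2) (fun _ => v 0 ^ 2))
  (hχ : ∀ q z o v, Rep F8 (fun _ => 1) q z o v →
    Rep BB (fun _ => 1) (χ q) (z ^ 2) (o ^ 2) (fun _ => v 0 ^ 2))
  (hf : ∀ q a0 a1 v, Rep CC (fun _ => 2) q a0 a1 v →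
    Rep BB (fun _ => 1) (f q) (a1 ^ 4 - I * a0 ^ 4) (k * a0 * a1 * v 0)
      (fun _ => a1 ^ 4 + I * a0 ^ 4))
  {AC' : Atl 1 CC.X} {AB' : Atl 1 BB.X} (hCC : Cmp CC.famX AC') (hBB : Cmp BB.famX AB')

include hπC in
theorem ev_C {s : Bool} (hs : Ch.p (πC x) ∈ (A1.e s).source) :
    ∀ᶠ y in 𝓝 x, Rep Ch ![2, 4] (πC y) (u0 s (pc s (Ch.p (πC y))))
      (u1 s (pc s (Ch.p (πC y)))) (fun a => Ch.y a s (πC y)) := by
  have h1 : ContinuousAt (fun y => Ch.p (πC y)) x :=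
    (Ch.continuous_p.comp hπC.cont).continuousAt
  filter_upwards [h1.preimage_mem_nhds ((A1.e s).open_source.mem_nhds hs)] with y hy
  exact isHom_Ch.rep_norm hy

include hπF in
theorem ev_F {s : Bool} (hs : F8.p (πF x) ∈ (A1.e s).source) :
    ∀ᶠ y in 𝓝 x, Rep F8 (fun _ => 1) (πF y) (u0 s (pc s (F8.p (πF y))))
      (u1 s (pc s (F8.p (πF y)))) (fun a => F8.y a s (πF y)) := by
  have h1 : ContinuousAt (fun y => F8.p (πF y)) x :=
    (F8.continuous_p.comp hπF.cont).continuousAt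
  filter_upwards [h1.preimage_mem_nhds ((A1.e s).open_source.mem_nhds hs)] with y hy
  exact isHom_F8.rep_norm hy

include hF hπF dF hχ hBB in
/-- (H1) -/
theorem sq1 {w0 : BB.X} (hw : ∃ c0 c, Rep BB (fun _ => 1) w0 c0 0 c) (hx : χ (πF x) = w0) :
    ∃ g, LC AB' (χ (πF x)) g ∧ SqE CX x (fun z => g (χ (πF z)) - g w0) (fun _ => 1) := by
  obtain ⟨c0, c, hw⟩ := hw
  obtain ⟨s, hs⟩ := cover_ch1 (F8.p (πF x))
  have hcne : c 0 ≠ 0 := by
    intro h0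
    have h1 := isHom_BB.rep_eqn hw 0
    have h1 : c 0 ^ 4 = c0 ^ 4 - 0 ^ 4 := h1
    rw [h0] at h1
    exact hw.ne.elim (fun h => h (pow_eq_zero_iff four_ne_zero |>.1 (by linear_combination -h1)))
      (fun h => h rfl)
  refine sq_const (P := fun y => χ (πF y)) (a := fun y => u0 s (pc s (F8.p (πF y))))
    (b := fun y => u1 s (pc s (F8.p (πF y)))) (v := fun y _ => F8.y 0 s (πF y) ^ 2)
    isHom_BB hBB hw hcne ((hg_u0 hF hs).comp hπF) ((hg_u1 hF hs).comp hπF)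
    (dF.freq (hg_u1 hF hs) (freq_u1 hF hs)) ?_ hx
  filter_upwards [ev_F hπF hs] with y hy
  exact hχ _ _ _ _ hy

include hC hπC dC hψ hCC in
/-- (H3) -/
theorem sq3 {z0 : CC.X} (hz : ∃ c0 c, Rep CC (fun _ => 2) z0 c0 0 c) (hx : ψ (πC x) = z0) :
    ∃ g, LC AC' (ψ (πC x)) g ∧ SqE CX x (fun z => g (ψ (πC z)) - g z0) (fun _ => 1) := by
  obtain ⟨c0, c, hz⟩ := hz
  obtain ⟨s, hs⟩ := cover_ch1 (Ch.p (πC x))
  have hcne : c 0 ≠ 0 := by
    intro h0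
    have h1 := isHom_CC.rep_eqn hz 0
    have h1 : c 0 ^ 4 = c0 ^ 8 - 0 ^ 8 := h1
    rw [h0] at h1
    exact hz.ne.elim (fun h => h (pow_eq_zero_iff (by norm_num : (8 : ℕ) ≠ 0) |>.1
      (by linear_combination -h1))) (fun h => h rfl)
  refine sq_const (P := fun y => ψ (πC y)) (a := fun y => u0 s (pc s (Ch.p (πC y))))
    (b := fun y => u1 s (pc s (Ch.p (πC y)))) (v := fun y _ => Ch.y 0 s (πC y) ^ 2)
    isHom_CC hCC hz hcne ((hg_u0 hC hs).comp hπC) ((hg_u1 hC hs).comp hπC)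
    (dC.freq (hg_u1 hC hs) (freq_u1 hC hs)) ?_ hx
  filter_upwards [ev_C hπC hs] with y hy
  exact hψ _ _ _ _ hy

include hC hF hπC hπF dC dF hψ hχ hf hBB in
/-- (H4) -/
theorem sq4 {s s' : Bool} (hs : Ch.p (πC x) ∈ (A1.e s).source)
    (hs' : F8.p (πF x) ∈ (A1.e s').source)
    (hN : SqE CX x (fun y => sNf k s s' (πC y) (πF y)) (fun _ => 1))
    (hsl : Ch.y 1 s (πC x) = 0 → F8.y 0 s' (πF x) = 0 → sNf k s s' (πC x) (πF x) = 0 →
      Slope CX x (fun y => F8.y 0 s' (πF y)) (fun y => Ch.y 1 s (πC y)))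
    (hx : χ (πF x) = f (ψ (πC x))) :
    ∃ g, LC AB' (χ (πF x)) g ∧
      SqE CX x (fun z => g (χ (πF z)) - g (f (ψ (πC z)))) (fun _ => 1) := by
  have gt0 := (hg_u0 hC hs).comp hπC
  have gt1 := (hg_u1 hC hs).comp hπC
  have gd := (hg_y Ch hC 0 (j := s) hs).comp hπC
  have gr := (hg_y Ch hC 1 (j := s) hs).comp hπC
  have gz := (hg_u0 hF hs').comp hπF
  have go := (hg_u1 hF hs').comp hπF
  have ge := (hg_y F8 hF 0 (j := s') hs').comp hπF
  set t0 : X → ℂ := fun y => u0 s (pc s (Ch.p (πC y))) with ht0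
  set t1 : X → ℂ := fun y => u1 s (pc s (Ch.p (πC y))) with ht1
  set d : X → ℂ := fun y => Ch.y 0 s (πC y) with hd
  set r : X → ℂ := fun y => Ch.y 1 s (πC y) with hr
  set z : X → ℂ := fun y => u0 s' (pc s' (F8.p (πF y))) with hz
  set o : X → ℂ := fun y => u1 s' (pc s' (F8.p (πF y))) with ho
  set e : X → ℂ := fun y => F8.y 0 s' (πF y) with he
  have hP : ∀ᶠ y in 𝓝 x, Rep BB (fun _ => 1) (χ (πF y)) (z y ^ 2) (o y ^ 2)
      (fun _ => e y ^ 2) := by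
    filter_upwards [ev_F hπF hs'] with y hy using hχ _ _ _ _ hy
  have hH : ∀ᶠ y in 𝓝 x, Rep BB (fun _ => 1) (f (ψ (πC y)))
      ((t1 y ^ 2) ^ 4 - I * (t0 y ^ 2) ^ 4) (k * t0 y ^ 2 * t1 y ^ 2 * d y ^ 2)
      (fun _ => (t1 y ^ 2) ^ 4 + I * (t0 y ^ 2) ^ 4) := by
    filter_upwards [ev_C hπC hs] with y hy using hf _ _ _ _ (hψ _ _ _ _ hy)
  have hrr : ∀ᶠ y in 𝓝 x, r y ^ 2 = (t1 y ^ 2) ^ 4 + I * (t0 y ^ 2) ^ 4 := by
    filter_upwards [ev_C hπC hs] with y hy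
    have h1 : r y ^ 2 = t1 y ^ 8 + I * t0 y ^ 8 := isHom_Ch.rep_eqn hy 1
    rw [h1]; ring
  have gZ₁ : HG CX x (fun y => (t1 y ^ 2) ^ 4 - I * (t0 y ^ 2) ^ 4) :=
    ((gt1.pow 2).pow 4).sub ((HG.const I).mul ((gt0.pow 2).pow 4))
  have gX₁ : HG CX x (fun y => k * t0 y ^ 2 * t1 y ^ 2 * d y ^ 2) :=
    (((HG.const k).mul (gt0.pow 2)).mul (gt1.pow 2)).mul (gd.pow 2)
  refine sq_pair hBB gZ₁ (gz.pow 2) gX₁ (go.pow 2) hP hH ?_ ?_ hx
  · intro hY₂ hY₁ hZ₁ hZ₂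
    have hex : e x = 0 := pow_eq_zero_iff two_ne_zero |>.1 hY₂
    have hrx : r x = 0 := by
      have := hrr.self_of_nhds
      rw [hY₁] at this
      exact pow_eq_zero_iff two_ne_zero |>.1 this
    have hzx : z x ≠ 0 := fun h => hZ₂ (by simp [h])
    obtain ⟨w, hw⟩ := (SqE.of_ne (gZ₁.inv hZ₁) (inv_ne_zero hZ₁)).root (gZ₁.inv hZ₁)
    obtain ⟨U, hU, hxU, hwU, hw2⟩ := hw
    have gw : HG CX x w := ⟨U, hU, hxU, hwU⟩
    have hw2' : ∀ᶠ y in 𝓝 x, w y ^ 2 = ((t1 y ^ 2) ^ 4 - I * (t0 y ^ 2) ^ 4)⁻¹ := by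
      filter_upwards [hU.mem_nhds hxU] with y hy using hw2 y hy
    have hwx : w x ≠ 0 := by
      intro h0
      have := hw2'.self_of_nhds
      rw [h0, zero_pow two_ne_zero] at this
      exact inv_ne_zero hZ₁ this.symm
    have fr : ∃ᶠ y in 𝓝 x, r y ≠ 0 :=
      dC.freq (hg_y Ch hC 1 (j := s) hs) (freq_y hC 1 hs)
    have fe : ∃ᶠ y in 𝓝 x, e y ≠ 0 :=
      dF.freq (hg_y F8 hF 0 (j := s') hs') (freq_y hF 0 hs')
    have hN0 : sNf k s s' (πC x) (πF x) = 0 := by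
      have rP := hP.self_of_nhds
      have rH := hH.self_of_nhds
      rw [← hx] at rH
      obtain ⟨c, hc0, eZ, eX, -⟩ := isHom_BB.rep_rel rH rP
      show o x ^ 2 * (t1 x ^ 8 - I * t0 x ^ 8) -
        k * (t0 x ^ 2 * t1 x ^ 2 * d x ^ 2 * z x ^ 2) = 0
      rw [eZ, eX]; ring
    refine ⟨fun y => r y * w y, fun y => e y / z y, gr.mul gw, HG.div ge gz hzx, ?_, ?_, ?_, ?_, ?_⟩
    · refine (fr.and_eventually (gw.continuousAt.eventually_ne hwx)).mono ?_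
      rintro y ⟨h1, h2⟩
      exact mul_ne_zero h1 h2
    · refine (fe.and_eventually (gz.continuousAt.eventually_ne hzx)).mono ?_
      rintro y ⟨h1, h2⟩
      exact div_ne_zero h1 h2
    · filter_upwards [hrr, hw2', gZ₁.continuousAt.eventually_ne hZ₁] with y h1 h2 h3
      show (t1 y ^ 2) ^ 4 + I * (t0 y ^ 2) ^ 4 =
        ((t1 y ^ 2) ^ 4 - I * (t0 y ^ 2) ^ 4) * (r y * w y) ^ 2
      rw [mul_pow, h2, h1, mul_left_comm, mul_inv_cancel₀ h3, mul_one]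
    · filter_upwards [gz.continuousAt.eventually_ne hzx] with y h1
      show e y ^ 2 = z y ^ 2 * (e y / z y) ^ 2
      rw [← mul_pow, mul_div_cancel₀ _ h1]
    · have hsl' := hsl hrx hex hN0
      refine Slope.units hsl' (gz.inv hzx) gw (inv_ne_zero hzx) hwx ?_ ?_
      · filter_upwards with y
        rw [div_eq_mul_inv, mul_comm]
      · filter_upwards with y
        rw [mul_comm]
  · refine (SqE.of_eq ?_).trans hN
    filter_upwards with y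
    show o y ^ 2 * ((t1 y ^ 2) ^ 4 - I * (t0 y ^ 2) ^ 4) -
      z y ^ 2 * (k * t0 y ^ 2 * t1 y ^ 2 * d y ^ 2) =
      o y ^ 2 * (t1 y ^ 8 - I * t0 y ^ 8) - k * (t0 y ^ 2 * t1 y ^ 2 * d y ^ 2 * z y ^ 2)
    ring

end surface

end

end Crest.Agent.R272.Sq4_771
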