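import Crest.Agent.R273.Fam_835

/-!
# R272 (S0415), MODEL tools (helper54): embedded submanifolds by slices, closures of graphs

`Slice F S n`   : a slice of the subset `S` of the complex manifold `(X, F)`: holomorphic
                  `φ : U → V` (parametrisation), `ψ : V → Cn n` (coordinates), `V` in a chart of `F`;
`slFam`         : the complex structure of `S` given by slices at all points
                  (`slFam_hol`, `slFam_lift`, `slFam_coord`, `slFam_of`);
`GSlice F G O n`: the same for `S = closure G ∩ O`, all conditions being checked on `G` only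
                  (`GSlice.toSlice`).
-/

set_option autoImplicit false
set_option linter.unusedSectionVars false

open Set Filter Topology Complex
open scoped ContDiff Matrix ComplexConjugate Manifold

namespace Crest.Agent.R272.SubF_54

open Crest.Agent.R275.Geo Crest.Agent.R273.Fam_835

noncomputable section

variable {n N k m : ℕ} {X P Q : Type} [TopologicalSpace X] [TopologicalSpace P]
  [TopologicalSpace Q] {F : Fam N X} {E : Fam k P} {H : Fam m Q} {S : Set X}

/-- a slice of the subset `S` of the complex manifold `(X, F)` -/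
structure Slice (F : Fam N X) (S : Set X) (n : ℕ) where
  j : F.ι
  V : Set (Cn N)
  U : Set (Cn n)
  φ : Cn n → Cn N
  ψ : Cn N → Cn n
  hV : IsOpen V
  hVt : V ⊆ (F.e j).target
  hU : IsOpen U
  φV : ∀ u ∈ U, φ u ∈ V
  φS : ∀ u ∈ U, (F.e j).symm (φ u) ∈ S
  dφ : DifferentiableOn ℂ φ U
  dψ : DifferentiableOn ℂ ψ V
  ψφ : ∀ u ∈ U, ψ (φ u) = u
  ψU : ∀ x ∈ S, x ∈ (F.e j).source → F.e j x ∈ V → ψ (F.e j x) ∈ U
  φψ : ∀ x ∈ S, x ∈ (F.e j).source → F.e j x ∈ V → φ (ψ (F.e j x)) = F.e j x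

namespace Slice

/-- the domain of the slice in `X` -/
def dom (c : Slice F S n) : Set X := (F.e c.j).source ∩ (F.e c.j) ⁻¹' c.V

theorem isOpen_dom (c : Slice F S n) : IsOpen c.dom :=
  (F.e c.j).isOpen_inter_preimage c.hV

/-- the point of `X` with coordinates `u` -/
def pt (c : Slice F S n) (u : Cn n) : X := (F.e c.j).symm (c.φ u)

theorem pt_mem (c : Slice F S n) {u : Cn n} (hu : u ∈ c.U) : c.pt u ∈ S := c.φS u hu

theorem pt_source (c : Slice F S n) {u : Cn n} (hu : u ∈ c.U) : c.pt u ∈ (F.e c.j).source :=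
  (F.e c.j).map_target (c.hVt (c.φV u hu))

theorem e_pt (c : Slice F S n) {u : Cn n} (hu : u ∈ c.U) : F.e c.j (c.pt u) = c.φ u :=
  (F.e c.j).right_inv (c.hVt (c.φV u hu))

theorem pt_dom (c : Slice F S n) {u : Cn n} (hu : u ∈ c.U) : c.pt u ∈ c.dom :=
  ⟨c.pt_source hu, by rw [mem_preimage, c.e_pt hu]; exact c.φV u hu⟩

theorem continuousOn_pt (c : Slice F S n) : ContinuousOn c.pt c.U :=
  (F.e c.j).continuousOn_symm.comp c.dφ.continuousOn fun u hu => c.hVt (c.φV u hu)

/-- the coordinates of a point -/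
def co (c : Slice F S n) (x : X) : Cn n := c.ψ (F.e c.j x)

theorem co_mem (c : Slice F S n) {x : X} (hS : x ∈ S) (hx : x ∈ c.dom) : c.co x ∈ c.U :=
  c.ψU x hS hx.1 hx.2

theorem pt_co (c : Slice F S n) {x : X} (hS : x ∈ S) (hx : x ∈ c.dom) : c.pt (c.co x) = x := by
  unfold pt co
  rw [c.φψ x hS hx.1 hx.2, (F.e c.j).left_inv hx.1]

theorem co_pt (c : Slice F S n) {u : Cn n} (hu : u ∈ c.U) : c.co (c.pt u) = u := by
  unfold co
  rw [c.e_pt hu, c.ψφ u hu]

theorem continuousOn_co (c : Slice F S n) : ContinuousOn c.co c.dom :=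
  c.dψ.continuousOn.comp ((F.e c.j).continuousOn.mono inter_subset_left) fun _ hx => hx.2

open Classical in
/-- the chart of `S` given by a slice -/
def chart (c : Slice F S n) (x₀ : S) : OpenPartialHomeomorph S (Cn n) where
  toFun x := c.co x.1
  invFun u := if h : c.pt u ∈ S then ⟨_, h⟩ else x₀
  source := Subtype.val ⁻¹' c.dom
  target := c.U
  map_source' x hx := c.co_mem x.2 hx
  map_target' u hu := by
    rw [dif_pos (c.pt_mem hu)]
    exact c.pt_dom hu
  left_inv' x hx := by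
    have h1 : c.pt (c.co x.1) = x.1 := c.pt_co x.2 hx
    have h2 : c.pt (c.co x.1) ∈ S := by rw [h1]; exact x.2
    rw [dif_pos h2]
    exact Subtype.ext h1
  right_inv' u hu := by
    rw [dif_pos (c.pt_mem hu)]
    exact c.co_pt hu
  open_source := c.isOpen_dom.preimage continuous_subtype_val
  open_target := c.hU
  continuousOn_toFun := c.continuousOn_co.comp continuous_subtype_val.continuousOn fun _ hx => hx
  continuousOn_invFun := by
    rw [Topology.IsInducing.subtypeVal.continuousOn_iff]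
    refine c.continuousOn_pt.congr ?_
    intro u hu
    simp only [Function.comp]
    rw [dif_pos (c.pt_mem hu)]

@[simp] theorem chart_apply (c : Slice F S n) (x₀ x : S) : c.chart x₀ x = c.co x.1 := rfl

theorem chart_source (c : Slice F S n) (x₀ : S) :
    (c.chart x₀).source = Subtype.val ⁻¹' c.dom := rfl

theorem chart_target (c : Slice F S n) (x₀ : S) : (c.chart x₀).target = c.U := rfl

theorem chart_symm (c : Slice F S n) (x₀ : S) {u : Cn n} (hu : u ∈ c.U) :
    ((c.chart x₀).symm u).1 = c.pt u := by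
  have h1 : (c.chart x₀).symm u =
    (open Classical in if h : c.pt u ∈ S then ⟨_, h⟩ else x₀ : S) := rfl
  rw [h1, dif_pos (c.pt_mem hu)]

/-- coordinates are holomorphic functions of the ambient point -/
theorem diffAt_co (c : Slice F S n) (i : F.ι) {x : X} (hx : x ∈ c.dom) (hi : x ∈ (F.e i).source) :
    DifferentiableAt ℂ (fun z => c.co ((F.e i).symm z)) (F.e i x) := by
  have h1 : DifferentiableAt ℂ (fun z => F.e c.j ((F.e i).symm z)) (F.e i x) :=
    (F.holo i c.j).differentiableAt (((F.e i).isOpen_inter_preimage_symm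
      (F.e c.j).open_source).mem_nhds ⟨(F.e i).map_source hi, by
        rw [mem_preimage, (F.e i).left_inv hi]; exact hx.1⟩)
  have e1 : F.e c.j ((F.e i).symm (F.e i x)) = F.e c.j x := by rw [(F.e i).left_inv hi]
  have h2 : DifferentiableAt ℂ c.ψ (F.e c.j x) := (c.dψ).differentiableAt (c.hV.mem_nhds hx.2)
  exact DifferentiableAt.comp (F.e i x) (g := c.ψ) (by rw [e1]; exact h2) h1

/-- the ambient point is a holomorphic function of the coordinates -/
theorem diffAt_pt (c : Slice F S n) (i : F.ι) {u : Cn n} (hu : u ∈ c.U)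
    (hi : c.pt u ∈ (F.e i).source) : DifferentiableAt ℂ (fun u => F.e i (c.pt u)) u := by
  have h1 : DifferentiableAt ℂ c.φ u := c.dφ.differentiableAt (c.hU.mem_nhds hu)
  have h2 : DifferentiableAt ℂ (fun z => F.e i ((F.e c.j).symm z)) (c.φ u) :=
    (F.holo c.j i).differentiableAt (((F.e c.j).isOpen_inter_preimage_symm
      (F.e i).open_source).mem_nhds ⟨c.hVt (c.φV u hu), hi⟩)
  exact DifferentiableAt.comp u (g := fun z => F.e i ((F.e c.j).symm z)) h2 h1

/-- transition between slices -/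
theorem trans_diffAt (c c' : Slice F S n) {u : Cn n} (hu : u ∈ c.U) (h : c.pt u ∈ c'.dom) :
    DifferentiableAt ℂ (fun u => c'.co (c.pt u)) u := by
  have h1 : DifferentiableAt ℂ (fun u => F.e c'.j (c.pt u)) u := c.diffAt_pt c'.j hu h.1
  have h2 : DifferentiableAt ℂ c'.ψ (F.e c'.j (c.pt u)) :=
    c'.dψ.differentiableAt (c'.hV.mem_nhds h.2)
  exact DifferentiableAt.comp u (g := c'.ψ) h2 h1

end Slice

/-- `S` has a slice of dimension `n` at every point -/
def IsSl (F : Fam N X) (S : Set X) (n : ℕ) : Prop := ∀ x ∈ S, ∃ c : Slice F S n, x ∈ c.dom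

/-- a slice chosen at `x` -/
def IsSl.sl (h : IsSl F S n) (x : S) : Slice F S n := (h x.1 x.2).choose

theorem IsSl.mem_sl (h : IsSl F S n) (x : S) : x.1 ∈ (h.sl x).dom := (h x.1 x.2).choose_spec

/-- the complex structure of `S` -/
def slFam (h : IsSl F S n) : Fam n S where
  ι := S
  e x := (h.sl x).chart x
  cover x := ⟨x, h.mem_sl x⟩
  holo x y := by
    rintro u ⟨hu, hu'⟩
    refine DifferentiableAt.differentiableWithinAt ?_
    set c := h.sl x
    set c' := h.sl y
    have hu1 : u ∈ c.U := hu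
    have h1 : c.pt u ∈ c'.dom := by
      have h2 : (((c.chart x).symm u).1) ∈ c'.dom := hu'
      rwa [c.chart_symm x hu1] at h2
    refine (c.trans_diffAt c' hu1 h1).congr_of_eventuallyEq ?_
    filter_upwards [c.hU.mem_nhds hu1] with w hw
    rw [Slice.chart_apply, c.chart_symm x hw]

/-- the inclusion is holomorphic -/
theorem slFam_hol (h : IsSl F S n) : HolC (slFam h) F Subtype.val := by
  refine holC_of_local continuous_subtype_val fun x => ?_
  obtain ⟨j, hj⟩ := F.cover x.1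
  refine ⟨x, j, h.mem_sl x, hj, ?_⟩
  set c := h.sl x with hc
  have hxd : x.1 ∈ c.dom := h.mem_sl x
  have hu : c.co x.1 ∈ c.U := c.co_mem x.2 hxd
  have e1 : c.pt (c.co x.1) = x.1 := c.pt_co x.2 hxd
  have h1 := c.diffAt_pt j hu (by rw [e1]; exact hj)
  refine h1.congr_of_eventuallyEq ?_
  filter_upwards [c.hU.mem_nhds hu] with w hw
  show F.e j (((c.chart x).symm w).1) = _
  rw [c.chart_symm x hw]

/-- holomorphic maps into `S` -/
theorem slFam_lift (h : IsSl F S n) {f : P → S} (hf : HolC E F (fun x => (f x).1)) :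
    HolC E (slFam h) f := by
  have hfc : Continuous f := continuous_induced_rng.2 hf.cont
  refine holC_of_local hfc fun x => ?_
  obtain ⟨i, hi⟩ := E.cover x
  refine ⟨i, f x, hi, h.mem_sl (f x), ?_⟩
  set c := h.sl (f x) with hc
  have hxd : (f x).1 ∈ c.dom := h.mem_sl (f x)
  have h1 : DifferentiableAt ℂ (fun z => F.e c.j ((f ((E.e i).symm z)).1)) (E.e i x) :=
    hf.diffAt ((E.e i).map_source hi) (by rw [(E.e i).left_inv hi]; exact hxd.1)
  have e1 : F.e c.j ((f ((E.e i).symm (E.e i x))).1) = F.e c.j (f x).1 := by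
    rw [(E.e i).left_inv hi]
  have h2 : DifferentiableAt ℂ c.ψ (F.e c.j (f x).1) :=
    c.dψ.differentiableAt (c.hV.mem_nhds hxd.2)
  exact DifferentiableAt.comp (E.e i x) (g := c.ψ) (by rw [e1]; exact h2) h1

theorem slFam_lift_iff (h : IsSl F S n) {f : P → S} :
    HolC E (slFam h) f ↔ HolC E F (fun x => (f x).1) :=
  ⟨fun h1 => (slFam_hol h).comp h1, slFam_lift h⟩

/-- a map from `S` which is holomorphic in slice coordinates -/
theorem slFam_of (h : IsSl F S n) {f : S → Q} (hc : Continuous f)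
    (hf : ∀ x : S, ∃ (c : Slice F S n) (j : H.ι) (g : Cn n → Cn m), x.1 ∈ c.dom ∧
      f x ∈ (H.e j).source ∧ DifferentiableAt ℂ g (c.co x.1) ∧
      ∀ᶠ y in 𝓝 x, H.e j (f y) = g (c.co y.1)) : HolC (slFam h) H f := by
  refine holC_of_local hc fun x => ?_
  obtain ⟨c, j, g, hx, hj, hg, he⟩ := hf x
  refine ⟨x, j, h.mem_sl x, hj, ?_⟩
  set c' := h.sl x with hc'
  have hxd : x.1 ∈ c'.dom := h.mem_sl x
  have hu : c'.co x.1 ∈ c'.U := c'.co_mem x.2 hxd
  have e1 : c'.pt (c'.co x.1) = x.1 := c'.pt_co x.2 hxd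
  have h1 := c'.trans_diffAt c hu (by rw [e1]; exact hx)
  have h2 : DifferentiableAt ℂ (fun u => g (c.co (c'.pt u))) (c'.co x.1) :=
    DifferentiableAt.comp (c'.co x.1) (g := g) (by rw [e1]; exact hg) h1
  refine h2.congr_of_eventuallyEq ?_
  have hcont : ContinuousAt (c'.chart x).symm (c'.co x.1) :=
    (c'.chart x).continuousAt_symm hu
  have e2 : (c'.chart x).symm (c'.co x.1) = x := (c'.chart x).left_inv hxd
  have h3 : ∀ᶠ u in 𝓝 (c'.co x.1), H.e j (f ((c'.chart x).symm u)) =
      g (c.co ((c'.chart x).symm u).1) := by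
    have he' : ∀ᶠ y in 𝓝 ((c'.chart x).symm (c'.co x.1)), H.e j (f y) = g (c.co y.1) := by
      rw [e2]; exact he
    exact hcont.eventually he'
  filter_upwards [h3, c'.hU.mem_nhds hu] with u h4 h5
  show H.e j (f ((c'.chart x).symm u)) = _
  rw [h4, c'.chart_symm x h5]

/-- in particular a map which is locally the restriction of a holomorphic map of the ambient -/
theorem slFam_of_ambient (h : IsSl F S n) {f : S → Q} (hc : Continuous f)
    (hf : ∀ x : S, ∃ (i : F.ι) (j : H.ι) (g : X → Cn m), x.1 ∈ (F.e i).source ∧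
      f x ∈ (H.e j).source ∧ DifferentiableAt ℂ (fun z => g ((F.e i).symm z)) (F.e i x.1) ∧
      ∀ᶠ y in 𝓝 x, H.e j (f y) = g y.1) : HolC (slFam h) H f := by
  refine slFam_of h hc fun x => ?_
  obtain ⟨i, j, g, hi, hj, hg, he⟩ := hf x
  set c := h.sl x with hc'
  have hxd : x.1 ∈ c.dom := h.mem_sl x
  have hu : c.co x.1 ∈ c.U := c.co_mem x.2 hxd
  have e1 : c.pt (c.co x.1) = x.1 := c.pt_co x.2 hxd
  have h1 := c.diffAt_pt i hu (by rw [e1]; exact hi)
  have h2 : DifferentiableAt ℂ (fun u => g ((F.e i).symm (F.e i (c.pt u)))) (c.co x.1) :=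
    DifferentiableAt.comp (c.co x.1) (g := fun z => g ((F.e i).symm z)) (by rw [e1]; exact hg) h1
  refine ⟨c, j, fun u => g (c.pt u), hxd, hj, ?_, ?_⟩
  · refine h2.congr_of_eventuallyEq ?_
    have hcp : ContinuousAt c.pt (c.co x.1) := c.continuousOn_pt.continuousAt (c.hU.mem_nhds hu)
    have h3 : ∀ᶠ u in 𝓝 (c.co x.1), c.pt u ∈ (F.e i).source :=
      hcp.preimage_mem_nhds (by rw [e1]; exact (F.e i).open_source.mem_nhds hi)
    filter_upwards [h3] with u hu'
    rw [(F.e i).left_inv hu']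
  · have h4 : ∀ᶠ y : S in 𝓝 x, y.1 ∈ c.dom :=
      continuous_subtype_val.continuousAt.preimage_mem_nhds (c.isOpen_dom.mem_nhds hxd)
    filter_upwards [he, h4] with y h5 h6
    rw [h5, c.pt_co y.2 h6]

/-! ### closures of (multivalued) graphs -/

/-- slice of `closure G ∩ O`; the conditions are checked on `G` -/
structure GSlice (F : Fam N X) (G O : Set X) (n : ℕ) where
  j : F.ι
  V : Set (Cn N)
  U : Set (Cn n)
  φ : Cn n → Cn N
  ψ : Cn N → Cn n
  hV : IsOpen V
  hVt : V ⊆ (F.e j).target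
  hU : IsOpen U
  φV : ∀ u ∈ U, φ u ∈ V
  φO : ∀ u ∈ U, (F.e j).symm (φ u) ∈ O
  D : Set (Cn n)
  dense : U ⊆ closure (U ∩ D)
  φG : ∀ u ∈ U, u ∈ D → (F.e j).symm (φ u) ∈ G
  dφ : DifferentiableOn ℂ φ U
  dψ : DifferentiableOn ℂ ψ V
  ψφ : ∀ u ∈ U, ψ (φ u) = u
  ψU : ∀ v ∈ V, ψ v ∈ U
  φψ : ∀ x ∈ G, x ∈ (F.e j).source → F.e j x ∈ V → φ (ψ (F.e j x)) = F.e j x

/-- a closed relation which holds on `G ∩ W`, `W` open, holds on `closure G ∩ W` -/
theorem closure_rel {Y : Type*} [TopologicalSpace Y] [T2Space Y] {G W : Set X} (hW : IsOpen W)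
    {f g : X → Y} (hf : ContinuousOn f W) (hg : ContinuousOn g W)
    (h : ∀ x ∈ G, x ∈ W → f x = g x) : ∀ x ∈ closure G, x ∈ W → f x = g x := by
  intro x hx hxW
  have hf' : ContinuousAt f x := hf.continuousAt (hW.mem_nhds hxW)
  have hg' : ContinuousAt g x := hg.continuousAt (hW.mem_nhds hxW)
  have hne : (𝓝[G] x).NeBot := mem_closure_iff_nhdsWithin_neBot.1 hx
  have h1 : Tendsto f (𝓝[G] x) (𝓝 (f x)) := hf'.mono_left nhdsWithin_le_nhds
  have h2 : Tendsto g (𝓝[G] x) (𝓝 (g x)) := hg'.mono_left nhdsWithin_le_nhds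
  refine tendsto_nhds_unique (h1.congr' ?_) h2
  filter_upwards [self_mem_nhdsWithin, mem_nhdsWithin_of_mem_nhds (hW.mem_nhds hxW)] with y h3 h4
  exact h y h3 h4

/-- the slice of the closure -/
def GSlice.toSlice {G O : Set X} (c : GSlice F G O n) : Slice F (closure G ∩ O) n where
  j := c.j
  V := c.V
  U := c.U
  φ := c.φ
  ψ := c.ψ
  hV := c.hV
  hVt := c.hVt
  hU := c.hU
  φV := c.φV
  dφ := c.dφ
  dψ := c.dψ
  ψφ := c.ψφ
  ψU _ _ _ hx := c.ψU _ hx
  φS u hu := by
    refine ⟨?_, c.φO u hu⟩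
    have h1 : ContinuousOn (fun u => (F.e c.j).symm (c.φ u)) c.U :=
      (F.e c.j).continuousOn_symm.comp c.dφ.continuousOn fun u hu => c.hVt (c.φV u hu)
    have h2 : ContinuousAt (fun u => (F.e c.j).symm (c.φ u)) u :=
      h1.continuousAt (c.hU.mem_nhds hu)
    have hne : (𝓝[c.U ∩ c.D] u).NeBot := mem_closure_iff_nhdsWithin_neBot.1 (c.dense hu)
    refine mem_closure_of_tendsto (h2.mono_left (nhdsWithin_le_nhds (s := c.U ∩ c.D))) ?_
    filter_upwards [self_mem_nhdsWithin] with w hw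
    exact c.φG w hw.1 hw.2
  φψ x hx hs hV := by
    refine closure_rel (G := G) (W := (F.e c.j).source ∩ (F.e c.j) ⁻¹' c.V)
      ((F.e c.j).isOpen_inter_preimage c.hV) (f := fun x => c.φ (c.ψ (F.e c.j x)))
      (g := F.e c.j) ?_ ((F.e c.j).continuousOn.mono inter_subset_left) ?_ x hx.1 ⟨hs, hV⟩
    · refine c.dφ.continuousOn.comp (c.dψ.continuousOn.comp
        ((F.e c.j).continuousOn.mono inter_subset_left) fun _ hx => hx.2) ?_
      exact fun y hy => c.ψU _ hy.2
    · exact fun y hy hyW => c.φψ y hy hyW.1 hyW.2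

@[simp] theorem GSlice.toSlice_dom {G O : Set X} (c : GSlice F G O n) :
    c.toSlice.dom = (F.e c.j).source ∩ (F.e c.j) ⁻¹' c.V := rfl

end

end Crest.Agent.R272.SubF_54
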