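import Crest.Agent.R272.SupDefs_528

/-!
R272, division E, road B (helper528), part 1: Gaussian integrals and the generating kernel.
-/

set_option autoImplicit false

open scoped ComplexConjugate Topology Real
open MeasureTheory

namespace Crest.Agent.R272.Sup_528

open Crest.Agent.R272.EBase_641 Crest.Agent.R272.EBase2_641 Crest.Agent.R272.EThDefs_445

noncomputable section

variable {n m : ℕ}

/-! ### one variable -/

theorem gauss1_comp {s : ℂ} (a b : ℂ) (v : Fin 2 → ℝ) :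
    Complex.exp (π * (-s * (‖Complex.measurableEquivPi.symm v‖ : ℂ) ^ 2
        + a * Complex.measurableEquivPi.symm v + b * conj (Complex.measurableEquivPi.symm v)))
      = Complex.exp (-(π * s) * ∑ i, ((v i : ℝ) : ℂ) ^ 2
        + ∑ i, (![π * (a + b), π * Complex.I * (a - b)] : Fin 2 → ℂ) i * v i) := by
  have h1 : ((‖Complex.measurableEquivPi.symm v‖ : ℝ) : ℂ) ^ 2 = (v 0 : ℂ) ^ 2 + (v 1 : ℂ) ^ 2 := by
    rw [← Complex.ofReal_pow, ← Complex.normSq_eq_norm_sq, Complex.measurableEquivPi_symm_apply,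
      Complex.normSq_add_mul_I]
    push_cast; ring
  rw [h1, Complex.measurableEquivPi_symm_apply, Fin.sum_univ_two, Fin.sum_univ_two]
  simp only [map_add, map_mul, Complex.conj_ofReal, Complex.conj_I, Matrix.cons_val_zero,
    Matrix.cons_val_one]
  congr 1
  ring

theorem integrable_gauss1 {s : ℂ} (hs : 0 < s.re) (a b : ℂ) :
    Integrable fun α : ℂ => Complex.exp (π * (-s * (‖α‖ : ℂ) ^ 2 + a * α + b * conj α)) := by
  have hπs : 0 < ((π : ℂ) * s).re := by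
    rw [Complex.re_ofReal_mul]; positivity
  rw [← (Complex.volume_preserving_equiv_pi.symm).integrable_comp_emb
    Complex.measurableEquivPi.symm.measurableEmbedding]
  have := GaussianFourier.integrable_cexp_neg_mul_sum_add hπs
    (![π * (a + b), π * Complex.I * (a - b)] : Fin 2 → ℂ)
  refine this.congr (Filter.Eventually.of_forall fun v => ?_)
  exact (gauss1_comp a b v).symm

theorem integral_gauss1 {s : ℂ} (hs : 0 < s.re) (a b : ℂ) :
    ∫ α : ℂ, Complex.exp (π * (-s * (‖α‖ : ℂ) ^ 2 + a * α + b * conj α))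
      = s⁻¹ * Complex.exp (π * (a * b / s)) := by
  have hs0 : s ≠ 0 := by rintro rfl; simp at hs
  have hπ : (π : ℂ) ≠ 0 := by exact_mod_cast Real.pi_ne_zero
  have hπs : 0 < ((π : ℂ) * s).re := by
    rw [Complex.re_ofReal_mul]; positivity
  rw [← (Complex.volume_preserving_equiv_pi.symm).integral_comp'
    (fun α : ℂ => Complex.exp (π * (-s * (‖α‖ : ℂ) ^ 2 + a * α + b * conj α)))]
  simp only [gauss1_comp]
  rw [GaussianFourier.integral_cexp_neg_mul_sum_add hπs]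
  have h1 : ((Fintype.card (Fin 2) : ℂ) / 2) = 1 := by simp
  rw [h1, Complex.cpow_one, Fin.sum_univ_two]
  simp only [Matrix.cons_val_zero, Matrix.cons_val_one]
  congr 1
  · field_simp
  · congr 1
    have : (π * (a + b)) ^ 2 + (π * Complex.I * (a - b)) ^ 2 = 4 * (π : ℂ) ^ 2 * (a * b) := by
      have hI : Complex.I ^ 2 = -1 := Complex.I_sq
      calc (π * (a + b)) ^ 2 + (π * Complex.I * (a - b)) ^ 2
          = (π : ℂ) ^ 2 * (a + b) ^ 2 + (π : ℂ) ^ 2 * Complex.I ^ 2 * (a - b) ^ 2 := by ring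
        _ = _ := by rw [hI]; ring
    rw [this]
    field_simp

/-! ### the key bound -/

/-- weight of the superposition -/
def gw (α : ℂ) : ℂ := Complex.exp (-π * (‖α‖ : ℂ) ^ 2)

/-- the point of the superposition -/
def pt (z p : E n) (α : ℂ) : Co n m := (α, conj α • z + p, 0)

theorem comp_bound {H : Type*} [NormedAddCommGroup H] [InnerProductSpace ℂ H] {η : ℝ} (hη : 0 < η)
    (x y u : H) : (inner ℂ y x - inner ℂ u x + inner ℂ y u : ℂ).re
      ≤ 1 / 2 * (1 + η)⁻¹ * ‖u‖ ^ 2 + 1 / 2 * (1 + 2 * η) * (‖x‖ ^ 2 + ‖y‖ ^ 2) := by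
  have h1 : (inner ℂ u x : ℂ).re = (inner ℂ x u : ℂ).re := by
    rw [← inner_conj_symm, Complex.conj_re]
  have h2 : (inner ℂ y x - inner ℂ u x + inner ℂ y u : ℂ).re
      = (inner ℂ y x : ℂ).re + (inner ℂ (y - x) u : ℂ).re := by
    rw [inner_sub_left]
    simp only [Complex.add_re, Complex.sub_re, h1]
    ring
  have h3 : (inner ℂ (y - x) u : ℂ).re ≤ ‖y - x‖ * ‖u‖ :=
    (Complex.re_le_norm _).trans (norm_inner_le_norm _ _)
  have h4 : ‖y - x‖ ^ 2 = ‖y‖ ^ 2 - 2 * (inner ℂ y x : ℂ).re + ‖x‖ ^ 2 :=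
    norm_sub_sq (𝕜 := ℂ) y x
  have h5 : ‖y - x‖ * ‖u‖ ≤ 1 / 2 * (1 + η)⁻¹ * ‖u‖ ^ 2 + 1 / 2 * (1 + η) * ‖y - x‖ ^ 2 := by
    have h : 0 < 1 + η := by linarith
    have hsq := mul_nonneg (inv_nonneg.2 h.le) (sq_nonneg ((1 + η) * ‖y - x‖ - ‖u‖))
    have e : (1 + η)⁻¹ * ((1 + η) * ‖y - x‖ - ‖u‖) ^ 2
        = (1 + η) * ‖y - x‖ ^ 2 - 2 * (‖y - x‖ * ‖u‖) + (1 + η)⁻¹ * ‖u‖ ^ 2 := by
      field_simp
      ring
    rw [e] at hsq
    linarith
  have h6 : -(inner ℂ y x : ℂ).re ≤ 1 / 2 * (‖x‖ ^ 2 + ‖y‖ ^ 2) := by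
    have h7 : |(inner ℂ y x : ℂ).re| ≤ ‖y‖ * ‖x‖ :=
      (Complex.abs_re_le_norm _).trans (norm_inner_le_norm _ _)
    have h8 := neg_abs_le (inner ℂ y x : ℂ).re
    nlinarith [sq_nonneg (‖x‖ - ‖y‖)]
  rw [h2]
  nlinarith [mul_le_mul_of_nonneg_left h6 hη.le]

theorem her_bound {η : ℝ} (hη : 0 < η) (A B U : Co n m) :
    (her A B - her A U + her U B).re
      ≤ 1 / 2 * (1 + η)⁻¹ * nsq U + 1 / 2 * (1 + 2 * η) * (nsq A + nsq B) := by
  have h1 := comp_bound hη A.1 B.1 U.1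
  have h2 := comp_bound hη A.2.1 B.2.1 U.2.1
  have h3 := comp_bound hη A.2.2 B.2.2 U.2.2
  have e : ∀ x y : ℂ, inner ℂ y x = x * conj y := by
    intro x y; simp
  rw [e, e, e] at h1
  have h4 : (her A B - her A U + her U B).re
      = (A.1 * conj B.1 - A.1 * conj U.1 + U.1 * conj B.1 : ℂ).re
        + (inner ℂ B.2.1 A.2.1 - inner ℂ U.2.1 A.2.1 + inner ℂ B.2.1 U.2.1 : ℂ).re
        + (inner ℂ B.2.2 A.2.2 - inner ℂ U.2.2 A.2.2 + inner ℂ B.2.2 U.2.2 : ℂ).re := by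
    simp only [her, Complex.add_re, Complex.sub_re]; ring
  rw [h4]
  simp only [nsq]
  linarith

theorem nsq_pt_le {η : ℝ} (hη : 0 < η) (z p : E n) (α : ℂ) :
    nsq (pt z p α : Co n m) ≤ (1 + (1 + η) * ‖z‖ ^ 2) * ‖α‖ ^ 2 + (1 + η⁻¹) * ‖p‖ ^ 2 := by
  have h1 : ‖conj α • z + p‖ ≤ ‖α‖ * ‖z‖ + ‖p‖ := by
    refine (norm_add_le _ _).trans ?_
    rw [norm_smul, Complex.norm_conj]
  have h2 : ‖conj α • z + p‖ ^ 2 ≤ (‖α‖ * ‖z‖ + ‖p‖) ^ 2 :=
    pow_le_pow_left₀ (norm_nonneg _) h1 2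
  have h3 : (‖α‖ * ‖z‖ + ‖p‖) ^ 2 ≤ (1 + η) * (‖α‖ * ‖z‖) ^ 2 + (1 + η⁻¹) * ‖p‖ ^ 2 := by
    have hsq := mul_nonneg (inv_nonneg.2 hη.le) (sq_nonneg (η * (‖α‖ * ‖z‖) - ‖p‖))
    have e : η⁻¹ * (η * (‖α‖ * ‖z‖) - ‖p‖) ^ 2
        = η * (‖α‖ * ‖z‖) ^ 2 - 2 * ((‖α‖ * ‖z‖) * ‖p‖) + η⁻¹ * ‖p‖ ^ 2 := by
      field_simp
      ring
    rw [e] at hsq
    nlinarith
  have h4 : nsq (pt z p α : Co n m) = ‖α‖ ^ 2 + ‖conj α • z + p‖ ^ 2 := by
    simp [nsq, pt]
  rw [h4]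
  nlinarith

theorem nsq_nonneg (A : Co n m) : 0 ≤ nsq A := by
  simp only [nsq]; positivity

theorem norm_G (v : V1 n × W m) (A B : Co n m) : ‖G v A B‖
    = Real.exp (π * (-(nsq (uu v)) / 2 + (her A B - her A (uu v) + her (uu v) B).re)) := by
  rw [G, Complex.norm_exp, Complex.re_ofReal_mul]
  congr 2
  have : (-(nsq (uu v) : ℂ) / 2) = ((-(nsq (uu v)) / 2 : ℝ) : ℂ) := by push_cast; ring
  rw [this]
  simp only [Complex.add_re, Complex.sub_re, Complex.ofReal_re]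
  ring

theorem norm_gw (α : ℂ) : ‖gw α‖ = Real.exp (-π * ‖α‖ ^ 2) := by
  rw [gw, Complex.norm_exp]
  congr 1
  rw [show (-π * (‖α‖ : ℂ) ^ 2 : ℂ) = ((-π * ‖α‖ ^ 2 : ℝ) : ℂ) by push_cast; ring,
    Complex.ofReal_re]

/-- **the key bound** -/
theorem key_bound {ρ : ℝ} (hρ0 : 0 ≤ ρ) (hρ : ρ < 1) (R : ℝ) :
    ∃ c : ℝ, 0 < c ∧ ∃ C : ℝ, 0 < C ∧ ∀ z w p q : E n, ‖z‖ ^ 2 ≤ ρ → ‖w‖ ^ 2 ≤ ρ → ‖p‖ ≤ R →
      ‖q‖ ≤ R → ∀ (v : V1 n × W m) (α β : ℂ),
      ‖gw α * gw β * G v (pt z p α) (pt w q β)‖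
        ≤ C * Real.exp (-c * nsq (uu v)) * (Real.exp (-c * ‖α‖ ^ 2) * Real.exp (-c * ‖β‖ ^ 2)) := by
  set η : ℝ := (1 - ρ) / 8 with hη
  have hη0 : 0 < η := by rw [hη]; linarith
  have hη1 : η ≤ 1 / 8 := by rw [hη]; linarith
  have hρη : ρ = 1 - 8 * η := by rw [hη]; ring
  refine ⟨π * (η / 4), by positivity, Real.exp (π * (1 / 2 * (1 + 2 * η) * (2 * (1 + η⁻¹) * R ^ 2))),
    Real.exp_pos _, ?_⟩
  intro z w p q hz hw hp hq v α β
  rw [norm_mul, norm_mul, norm_gw, norm_gw, norm_G, ← Real.exp_add, ← Real.exp_add, ← Real.exp_add,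
    ← Real.exp_add, ← Real.exp_add]
  refine Real.exp_le_exp.2 ?_
  have hπ := Real.pi_pos
  have hb := her_bound hη0 (pt z p α) (pt w q β) (uu v)
  have hA := nsq_pt_le (m := m) hη0 z p α
  have hB := nsq_pt_le (m := m) hη0 w q β
  have hp2 : ‖p‖ ^ 2 ≤ R ^ 2 := pow_le_pow_left₀ (norm_nonneg _) hp 2
  have hq2 : ‖q‖ ^ 2 ≤ R ^ 2 := pow_le_pow_left₀ (norm_nonneg _) hq 2
  have hcoef : ∀ x : ℝ, x ≤ ρ → 1 / 2 * (1 + 2 * η) * (1 + (1 + η) * x) ≤ 1 - η := by
    intro x hx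
    have h1 : 1 / 2 * (1 + 2 * η) * (1 + (1 + η) * x)
        ≤ 1 / 2 * (1 + 2 * η) * (1 + (1 + η) * ρ) := by
      have : (1 + η) * x ≤ (1 + η) * ρ := mul_le_mul_of_nonneg_left hx (by linarith)
      have h2 : 0 ≤ 1 / 2 * (1 + 2 * η) := by linarith
      exact mul_le_mul_of_nonneg_left (by linarith) h2
    refine h1.trans ?_
    rw [hρη]
    nlinarith [mul_pos hη0 hη0, mul_nonneg hη0.le (by linarith : (0:ℝ) ≤ 1 / 8 - η),
      mul_nonneg (mul_pos hη0 hη0).le (by linarith : (0:ℝ) ≤ 1 / 8 - η)]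
  have hcz := hcoef _ hz
  have hcw := hcoef _ hw
  have hα : 1 / 2 * (1 + 2 * η) * ((1 + (1 + η) * ‖z‖ ^ 2) * ‖α‖ ^ 2) ≤ (1 - η) * ‖α‖ ^ 2 := by
    have := mul_le_mul_of_nonneg_right hcz (sq_nonneg ‖α‖)
    linarith
  have hβ : 1 / 2 * (1 + 2 * η) * ((1 + (1 + η) * ‖w‖ ^ 2) * ‖β‖ ^ 2) ≤ (1 - η) * ‖β‖ ^ 2 := by
    have := mul_le_mul_of_nonneg_right hcw (sq_nonneg ‖β‖)
    linarith
  have hinv : (0:ℝ) < 1 + η⁻¹ := by positivity
  have hP : (1 + η⁻¹) * ‖p‖ ^ 2 ≤ (1 + η⁻¹) * R ^ 2 := mul_le_mul_of_nonneg_left hp2 hinv.le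
  have hQ : (1 + η⁻¹) * ‖q‖ ^ 2 ≤ (1 + η⁻¹) * R ^ 2 := mul_le_mul_of_nonneg_left hq2 hinv.le
  have hAB : 1 / 2 * (1 + 2 * η) * (nsq (pt z p α : Co n m) + nsq (pt w q β : Co n m))
      ≤ (1 - η) * ‖α‖ ^ 2 + (1 - η) * ‖β‖ ^ 2
        + 1 / 2 * (1 + 2 * η) * (2 * (1 + η⁻¹) * R ^ 2) := by
    have h0 : 0 ≤ 1 / 2 * (1 + 2 * η) := by linarith
    have := mul_le_mul_of_nonneg_left (add_le_add (hA.trans (add_le_add_right hP _))
      (hB.trans (add_le_add_right hQ _))) h0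
    linarith
  have hU : 1 / 2 * (1 + η)⁻¹ * nsq (uu v) ≤ (1 / 2 - η / 4) * nsq (uu v) := by
    refine mul_le_mul_of_nonneg_right ?_ (nsq_nonneg _)
    have h : (0:ℝ) < 1 + η := by linarith
    rw [mul_inv_le_iff₀ h]
    nlinarith [mul_pos hη0 hη0]
  have hα2 := mul_nonneg hη0.le (sq_nonneg ‖α‖)
  have hβ2 := mul_nonneg hη0.le (sq_nonneg ‖β‖)
  have key : -‖α‖ ^ 2 + -‖β‖ ^ 2 + (-(nsq (uu v)) / 2
      + (her (pt z p α : Co n m) (pt w q β) - her (pt z p α : Co n m) (uu v)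
        + her (uu v) (pt w q β)).re)
      ≤ 1 / 2 * (1 + 2 * η) * (2 * (1 + η⁻¹) * R ^ 2) + -(η / 4) * nsq (uu v)
        + (-(η / 4) * ‖α‖ ^ 2 + -(η / 4) * ‖β‖ ^ 2) := by
    linarith
  have := mul_le_mul_of_nonneg_left key hπ.le
  linarith

/-! ### the double integral -/

theorem integrable_gauss_real {c : ℝ} (hc : 0 < c) :
    Integrable fun α : ℂ => Real.exp (-c * ‖α‖ ^ 2) := by
  have hs : (0:ℝ) < ((c / π : ℝ) : ℂ).re := by
    rw [Complex.ofReal_re]; positivity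
  have h := (integrable_gauss1 hs 0 0).norm
  refine h.congr (Filter.Eventually.of_forall fun α => ?_)
  change ‖Complex.exp (π * (-((c / π : ℝ) : ℂ) * (‖α‖ : ℂ) ^ 2 + 0 * α + 0 * conj α))‖ = _
  have e : (π * (-((c / π : ℝ) : ℂ) * (‖α‖ : ℂ) ^ 2 + 0 * α + 0 * conj α) : ℂ)
      = ((-c * ‖α‖ ^ 2 : ℝ) : ℂ) := by
    have hπ : (π : ℂ) ≠ 0 := by exact_mod_cast Real.pi_ne_zero
    push_cast
    field_simp
    ring
  rw [e, Complex.norm_exp, Complex.ofReal_re]

theorem continuous_pt (z p : E n) : Continuous (pt z p : ℂ → Co n m) := by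
  unfold pt
  fun_prop

theorem continuous_her {X : Type*} [TopologicalSpace X] {f g : X → Co n m} (hf : Continuous f)
    (hg : Continuous g) : Continuous fun x => her (f x) (g x) := by
  unfold her
  have h1 : Continuous fun x => (g x).1 := continuous_fst.comp hg
  have h2 : Continuous fun x => (g x).2.1 := continuous_fst.comp (continuous_snd.comp hg)
  have h3 : Continuous fun x => (g x).2.2 := continuous_snd.comp (continuous_snd.comp hg)
  have h4 : Continuous fun x => (f x).1 := continuous_fst.comp hf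
  have h5 : Continuous fun x => (f x).2.1 := continuous_fst.comp (continuous_snd.comp hf)
  have h6 : Continuous fun x => (f x).2.2 := continuous_snd.comp (continuous_snd.comp hf)
  exact ((h4.mul (Complex.continuous_conj.comp h1)).add (h2.inner h5)).add (h3.inner h6)

theorem continuous_G {X : Type*} [TopologicalSpace X] {f g : X → Co n m} (hf : Continuous f)
    (hg : Continuous g) (v : V1 n × W m) : Continuous fun x => G v (f x) (g x) := by
  unfold G
  refine Complex.continuous_exp.comp (continuous_const.mul ?_)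
  exact ((continuous_const.add (continuous_her hf hg)).sub (continuous_her hf continuous_const)).add
    (continuous_her continuous_const hg)

theorem continuous_gw : Continuous gw := by
  unfold gw
  refine Complex.continuous_exp.comp (continuous_const.mul ?_)
  exact (Complex.continuous_ofReal.comp continuous_norm).pow 2

theorem integrable_bound {c : ℝ} (hc : 0 < c) (K : ℝ) :
    Integrable (fun x : ℂ × ℂ =>
      K * (Real.exp (-c * ‖x.1‖ ^ 2) * Real.exp (-c * ‖x.2‖ ^ 2))) := by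
  have := (integrable_gauss_real hc).mul_prod (integrable_gauss_real hc)
  exact this.const_mul K

theorem integrable_G (v : V1 n × W m) {z w : E n} (hz : z ∈ Ball n) (hw : w ∈ Ball n) (p q : E n) :
    Integrable (fun x : ℂ × ℂ => gw x.1 * gw x.2 * G v (pt z p x.1) (pt w q x.2)) := by
  have hz' : ‖z‖ < 1 := mem_Ball.1 hz
  have hw' : ‖w‖ < 1 := mem_Ball.1 hw
  have hρ : max (‖z‖ ^ 2) (‖w‖ ^ 2) < 1 := by
    refine max_lt ?_ ?_
    · nlinarith [norm_nonneg z]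
    · nlinarith [norm_nonneg w]
  obtain ⟨c, hc, C, hC, h⟩ := key_bound (n := n) (m := m) (ρ := max (‖z‖ ^ 2) (‖w‖ ^ 2))
    (le_max_of_le_left (sq_nonneg _)) hρ (max ‖p‖ ‖q‖)
  refine (integrable_bound hc (C * Real.exp (-c * nsq (uu v)))).mono' ?_
    (Filter.Eventually.of_forall fun x => ?_)
  · refine Continuous.aestronglyMeasurable ?_
    refine ((continuous_gw.comp continuous_fst).mul (continuous_gw.comp continuous_snd)).mul ?_
    exact continuous_G ((continuous_pt z p).comp continuous_fst)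
      ((continuous_pt w q).comp continuous_snd) v
  · exact h z w p q (le_max_left _ _) (le_max_right _ _) (le_max_left _ _) (le_max_right _ _) v _ _

theorem her_pt_pt (z p w q : E n) (α β : ℂ) : her (pt z p α : Co n m) (pt w q β)
    = α * conj β + conj α * β * inner ℂ w z + β * inner ℂ w p + conj α * inner ℂ q z
      + inner ℂ q p := by
  simp only [her, pt, inner_add_left, inner_add_right, inner_smul_left, inner_smul_right,
    Complex.conj_conj, inner_zero_left, add_zero]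
  ring

theorem her_pt_uu (z p : E n) (α : ℂ) (v : V1 n × W m) : her (pt z p α) (uu v)
    = α * v.1.2 + conj α * inner ℂ v.1.1 z + inner ℂ v.1.1 p := by
  simp only [her, pt, uu, inner_add_right, inner_smul_right, Complex.conj_conj, inner_zero_right,
    add_zero]
  ring

theorem her_uu_pt (w q : E n) (β : ℂ) (v : V1 n × W m) : her (uu v) (pt w q β)
    = conj v.1.2 * conj β + β * inner ℂ w v.1.1 + inner ℂ q v.1.1 := by
  simp only [her, pt, uu, inner_add_left, inner_smul_left, Complex.conj_conj, inner_zero_left,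
    add_zero]
  ring

theorem ss_re_pos {z w : E n} (hz : z ∈ Ball n) (hw : w ∈ Ball n) : 0 < (ss z w).re := by
  have hz' : ‖z‖ < 1 := mem_Ball.1 hz
  have hw' : ‖w‖ < 1 := mem_Ball.1 hw
  have h : ‖inner ℂ w z‖ < 1 := by
    refine (norm_inner_le_norm w z).trans_lt ?_
    nlinarith [norm_nonneg z, norm_nonneg w]
  have h2 := (Complex.re_le_norm (inner ℂ w z)).trans_lt h
  simp only [ss, Complex.sub_re, Complex.one_re]
  linarith

theorem integral_G (v : V1 n × W m) {z w : E n} (hz : z ∈ Ball n) (hw : w ∈ Ball n) (p q : E n) :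
    ∫ x : ℂ × ℂ, gw x.1 * gw x.2 * G v (pt z p x.1) (pt w q x.2) = psi2 v z p w q := by
  have hs := ss_re_pos hz hw
  have hs0 : ss z w ≠ 0 := by intro h; rw [h] at hs; simp at hs
  rw [Measure.volume_eq_prod, integral_prod_symm _ (by
    have := integrable_G v hz hw p q
    rwa [Measure.volume_eq_prod] at this)]
  -- inner integral
  have h1 : ∀ β : ℂ, ∫ α : ℂ, gw α * gw β * G v (pt z p α) (pt w q β)
      = Complex.exp (π * (-(nsq (uu v) : ℂ) / 2 + inner ℂ q p - inner ℂ v.1.1 p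
          + inner ℂ q v.1.1 - v.1.2 * (inner ℂ q z - inner ℂ v.1.1 z)))
        * Complex.exp (π * (-(ss z w) * (‖β‖ : ℂ) ^ 2
          + (inner ℂ w p + inner ℂ w v.1.1 - v.1.2 * inner ℂ w z) * β
          + (inner ℂ q z - inner ℂ v.1.1 z + conj v.1.2) * conj β)) := by
    intro β
    have e : ∀ α : ℂ, gw α * gw β * G v (pt z p α) (pt w q β)
        = Complex.exp (π * (-(nsq (uu v) : ℂ) / 2 - (‖β‖ : ℂ) ^ 2 + β * inner ℂ w p + inner ℂ q p
            - inner ℂ v.1.1 p + conj v.1.2 * conj β + β * inner ℂ w v.1.1 + inner ℂ q v.1.1))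
          * Complex.exp (π * (-1 * (‖α‖ : ℂ) ^ 2 + (conj β - v.1.2) * α
            + (β * inner ℂ w z + inner ℂ q z - inner ℂ v.1.1 z) * conj α)) := by
      intro α
      rw [gw, gw, G, her_pt_pt, her_pt_uu, her_uu_pt, ← Complex.exp_add, ← Complex.exp_add,
        ← Complex.exp_add]
      congr 1
      ring
    simp only [e]
    rw [integral_const_mul, integral_gauss1 (by simp)]
    rw [inv_one, one_mul, ← Complex.exp_add, ← Complex.exp_add]
    congr 1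
    have hββ : β * conj β = (‖β‖ : ℂ) ^ 2 := by
      rw [Complex.mul_conj, Complex.normSq_eq_norm_sq]; push_cast; rfl
    simp only [ss, div_one]
    linear_combination (π : ℂ) * inner ℂ w z * hββ
  simp only [h1]
  rw [integral_const_mul, integral_gauss1 hs, psi2]
  rw [mul_left_comm, ← Complex.exp_add, mul_assoc]
  congr 1
  have hwt : ((wt v : ℝ) : ℂ) = Complex.exp (-(π / 2) * ((‖v.1.1‖ : ℂ) ^ 2 - (‖v.1.2‖ : ℂ) ^ 2
      + (‖v.2‖ : ℂ) ^ 2)) := by
    rw [wt]; push_cast; rfl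
  rw [hwt, ← Complex.exp_add]
  congr 1
  have hvv : v.1.2 * conj v.1.2 = (‖v.1.2‖ : ℂ) ^ 2 := by
    rw [Complex.mul_conj, Complex.normSq_eq_norm_sq]; push_cast; rfl
  have hn : (nsq (uu v) : ℂ) = (‖v.1.2‖ : ℂ) ^ 2 + (‖v.1.1‖ : ℂ) ^ 2 + (‖v.2‖ : ℂ) ^ 2 := by
    simp only [nsq, uu, Complex.norm_conj]; push_cast; rfl
  have hl1 : lin v.1 z = inner ℂ v.1.1 z - conj v.1.2 := rfl
  have hl2 : conj (lin v.1 w) = inner ℂ w v.1.1 - v.1.2 := by
    simp only [lin, map_sub, Complex.conj_conj, inner_conj_symm]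
  have hss : ss z w = 1 - inner ℂ w z := rfl
  rw [hn, hl1, hl2]
  have hwz : (inner ℂ w z : ℂ) = 1 - ss z w := by rw [hss]; ring
  rw [hwz]
  field_simp
  linear_combination 2 * (ss z w) * hvv

end

end Crest.Agent.R272.Sup_528
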