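import Crest.Agent.R272.Sup1_528
import Crest.Agent.R272.Lat_368

/-!
R272, division E, road B (helper528), part 2: shifts and Fubini.
-/

set_option autoImplicit false

open scoped ComplexConjugate Topology Real
open MeasureTheory

namespace Crest.Agent.R272.Sup_528

open Crest.Agent.R272.EBase_641 Crest.Agent.R272.EBase2_641 Crest.Agent.R272.EThDefs_445

noncomputable section

variable {n m : ℕ}

/-! ### algebra of `her` -/

theorem her_add_left (A B C : Co n m) : her (A + B) C = her A C + her B C := by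
  simp only [her, Prod.fst_add, Prod.snd_add, inner_add_right]; ring

theorem her_add_right (A B C : Co n m) : her A (B + C) = her A B + her A C := by
  simp only [her, Prod.fst_add, Prod.snd_add, inner_add_left, map_add]; ring

theorem her_sub_left (A B C : Co n m) : her (A - B) C = her A C - her B C := by
  simp only [her, Prod.fst_sub, Prod.snd_sub, inner_sub_right]; ring

theorem her_sub_right (A B C : Co n m) : her A (B - C) = her A B - her A C := by
  simp only [her, Prod.fst_sub, Prod.snd_sub, inner_sub_left, map_sub]; ring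

theorem her_conj (A B : Co n m) : conj (her A B) = her B A := by
  simp only [her, map_add, map_mul, Complex.conj_conj, inner_conj_symm]; ring

theorem her_self (A : Co n m) : her A A = (nsq A : ℂ) := by
  simp only [her, nsq]
  rw [Complex.mul_conj, Complex.normSq_eq_norm_sq, inner_self_eq_norm_sq_to_K,
    inner_self_eq_norm_sq_to_K]
  push_cast; rfl

theorem uu_add (v w : V1 n × W m) : uu (v + w) = uu v + uu w := by
  simp [uu, map_add]

theorem uu_sub (v w : V1 n × W m) : uu (v - w) = uu v - uu w := by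
  simp [uu, map_sub]

theorem ee_eq (v w : V1 n × W m) : ee v w = (her (uu v) (uu w)).im := by
  simp only [ee, hh, her, uu, Complex.conj_conj, Complex.add_im, Complex.sub_im]
  have : (conj v.1.2 * w.1.2).im = -(v.1.2 * conj w.1.2).im := by
    rw [← Complex.conj_im]; simp
  rw [this]; ring

theorem I_ee (v w : V1 n × W m) : Complex.I * ((ee v w : ℝ) : ℂ)
    = (her (uu v) (uu w) - her (uu w) (uu v)) / 2 := by
  rw [ee_eq, ← her_conj (uu v) (uu w)]
  apply Complex.ext
  · simp
  · simp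

theorem norm_sq_le_nsq (v : V1 n × W m) : ‖v‖ ^ 2 ≤ nsq (uu v) := by
  have h : ‖v‖ = max (max ‖v.1.1‖ ‖v.1.2‖) ‖v.2‖ := rfl
  have h1 : nsq (uu v) = ‖v.1.2‖ ^ 2 + ‖v.1.1‖ ^ 2 + ‖v.2‖ ^ 2 := by simp [nsq, uu]
  rw [h, h1]
  rcases max_choice (max ‖v.1.1‖ ‖v.1.2‖) ‖v.2‖ with e | e
  · rw [e]
    rcases max_choice ‖v.1.1‖ ‖v.1.2‖ with e | e <;> rw [e] <;>
      nlinarith [sq_nonneg ‖v.1.1‖, sq_nonneg ‖v.1.2‖, sq_nonneg ‖v.2‖]
  · rw [e]; nlinarith [sq_nonneg ‖v.1.1‖, sq_nonneg ‖v.1.2‖, sq_nonneg ‖v.2‖]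

/-! ### shifts -/

/-- the factor of `π(a) e_A = Ea a A e_{A + uu a}` -/
def Ea (a : V1 n × W m) (A : Co n m) : ℂ :=
  Complex.exp (π * (-(nsq (uu a) : ℂ) / 2 - her A (uu a)))

theorem ph_add (x y : ℝ) : ph (x + y) = ph x * ph y := by
  simp only [ph]
  rw [← Complex.exp_add]
  congr 1
  push_cast; ring

theorem ph_neg_mul (x : ℝ) : ph (-x) * ph x = 1 := by
  rw [← ph_add, neg_add_cancel]; simp [ph]

theorem ph_ne (x : ℝ) : ph x ≠ 0 := Complex.exp_ne_zero _

theorem norm_ph (x : ℝ) : ‖ph x‖ = 1 := by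
  rw [ph, show (Real.pi * Complex.I * (x : ℂ) : ℂ) = ((π * x : ℝ) : ℂ) * Complex.I by
    push_cast; ring]
  exact Complex.norm_exp_ofReal_mul_I _

theorem ee_add_right (v a b : V1 n × W m) : ee v (a + b) = ee v a + ee v b := by
  rw [ee_eq, ee_eq, ee_eq, uu_add, her_add_right, Complex.add_im]

theorem ee_add_left (v a b : V1 n × W m) : ee (a + b) v = ee a v + ee b v := by
  rw [ee_eq, ee_eq, ee_eq, uu_add, her_add_left, Complex.add_im]

theorem ee_neg_right (v a : V1 n × W m) : ee v (-a) = -ee v a := by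
  have h := ee_add_right v a (-a)
  rw [add_neg_cancel] at h
  have h0 : ee v 0 = 0 := by simp [ee, hh]
  linarith

theorem ee_neg_left (v a : V1 n × W m) : ee (-a) v = -ee a v := by
  have h := ee_add_left v a (-a)
  rw [add_neg_cancel] at h
  have h0 : ee 0 v = 0 := by simp [ee, hh]
  linarith

theorem ee_self (v : V1 n × W m) : ee v v = 0 := by
  rw [ee_eq, her_self, Complex.ofReal_im]

theorem ee_symm (v w : V1 n × W m) : ee v w = -ee w v := by
  rw [ee_eq, ee_eq, ← her_conj, Complex.conj_im]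

/-- `⟨π(l) π(a) e_A, π(b) e_B⟩` in two ways -/
theorem G_shift (v a b : V1 n × W m) (A B : Co n m) :
    G v (A + uu a) (B + uu b) * Ea a A * conj (Ea b B)
      = ph (ee v (a + b)) * ph (-ee b a) * G (v + a - b) A B := by
  have h1 := I_ee v a
  have h2 := I_ee v b
  have h3 := I_ee b a
  have e1 : conj (Ea b B) = Complex.exp (π * (-(nsq (uu b) : ℂ) / 2 - her (uu b) B)) := by
    rw [Ea, ← Complex.exp_conj]
    congr 1
    simp only [map_mul, map_sub, map_div₀, map_neg, Complex.conj_ofReal, her_conj, map_ofNat]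
  rw [e1, G, Ea, G, ph, ph, ← Complex.exp_add, ← Complex.exp_add, ← Complex.exp_add,
    ← Complex.exp_add]
  congr 1
  have n1 : ∀ x : V1 n × W m, (nsq (uu x) : ℂ) = her (uu x) (uu x) := fun x => (her_self _).symm
  rw [n1, n1, n1, n1, uu_sub, uu_add, ee_add_right]
  simp only [her_add_left, her_add_right, her_sub_left, her_sub_right]
  push_cast
  linear_combination (-(π : ℂ)) * h1 - (π : ℂ) * h2 + (π : ℂ) * h3

/-! ### summability -/

variable {L : AddSubgroup (V1 n × W m)}

/-- the finiteness hypothesis of `T2` -/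
abbrev Disc (L : AddSubgroup (V1 n × W m)) : Prop :=
  ∀ r : ℝ, {v : V1 n × W m | v ∈ L ∧ ‖v‖ ≤ r}.Finite

theorem summable_lat (hL : Disc L) {c : ℝ} (hc : 0 < c) (N : ℕ) (x : V1 n × W m) :
    Summable fun l : L => (1 + ‖(l : V1 n × W m) + x‖) ^ N
      * Real.exp (-c * nsq (uu ((l : V1 n × W m) + x))) := by
  have h := Lat_368.summable_gauss_of_finite (W := V1 n × W m) L (hL 1) hc N x
    (fun l : L => (l : V1 n × W m) + x) (fun a b hab => Subtype.ext (add_right_cancel hab))
    (fun l => by simp)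
  refine Summable.of_nonneg_of_le (fun l => by positivity) (fun l => ?_) h
  refine mul_le_mul_of_nonneg_left (Real.exp_le_exp.2 ?_) (by positivity)
  have := norm_sq_le_nsq ((l : V1 n × W m) + x)
  nlinarith

theorem summable_lat0 (hL : Disc L) {c : ℝ} (hc : 0 < c) (x : V1 n × W m) :
    Summable fun l : L => Real.exp (-c * nsq (uu ((l : V1 n × W m) + x))) := by
  simpa using summable_lat hL hc 0 x

theorem countable_lat (hL : Disc L) : Countable L := by
  have h : (⋃ k : ℕ, {v : V1 n × W m | v ∈ L ∧ ‖v‖ ≤ (k : ℝ)}).Countable :=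
    Set.countable_iUnion fun k => (hL k).countable
  have h2 : ((L : Set (V1 n × W m))).Countable := by
    refine h.mono fun v hv => ?_
    obtain ⟨k, hk⟩ := exists_nat_ge ‖v‖
    exact Set.mem_iUnion.2 ⟨k, hv, hk⟩
  exact h2.to_subtype

/-- uniform Gaussian bound of the generating kernel -/
theorem psi2_bound {z w : E n} (hz : z ∈ Ball n) (hw : w ∈ Ball n) (R : ℝ) :
    ∃ c : ℝ, 0 < c ∧ ∃ C : ℝ, 0 < C ∧ ∀ p q : E n, ‖p‖ ≤ R → ‖q‖ ≤ R → ∀ v : V1 n × W m,
      (∫ x : ℂ × ℂ, ‖gw x.1 * gw x.2 * G v (pt z p x.1) (pt w q x.2)‖)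
        ≤ C * Real.exp (-c * nsq (uu v)) := by
  have hz' : ‖z‖ < 1 := mem_Ball.1 hz
  have hw' : ‖w‖ < 1 := mem_Ball.1 hw
  have hρ : max (‖z‖ ^ 2) (‖w‖ ^ 2) < 1 := by
    refine max_lt ?_ ?_
    · nlinarith [norm_nonneg z]
    · nlinarith [norm_nonneg w]
  obtain ⟨c, hc, C, hC, h⟩ := key_bound (n := n) (m := m) (ρ := max (‖z‖ ^ 2) (‖w‖ ^ 2))
    (le_max_of_le_left (sq_nonneg _)) hρ R
  set J : ℝ := ∫ x : ℂ × ℂ, Real.exp (-c * ‖x.1‖ ^ 2) * Real.exp (-c * ‖x.2‖ ^ 2) with hJ
  have hJ0 : 0 ≤ J := integral_nonneg fun x => by positivity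
  refine ⟨c, hc, C * (J + 1), by positivity, fun p q hp hq v => ?_⟩
  have h1 : (∫ x : ℂ × ℂ, ‖gw x.1 * gw x.2 * G v (pt z p x.1) (pt w q x.2)‖)
      ≤ ∫ x : ℂ × ℂ, C * Real.exp (-c * nsq (uu v))
        * (Real.exp (-c * ‖x.1‖ ^ 2) * Real.exp (-c * ‖x.2‖ ^ 2)) := by
    refine integral_mono (integrable_G v hz hw p q).norm (integrable_bound hc _) fun x => ?_
    exact h z w p q (le_max_left _ _) (le_max_right _ _) hp hq v _ _
  rw [integral_const_mul] at h1
  refine h1.trans ?_
  have : 0 ≤ C * Real.exp (-c * nsq (uu v)) := by positivity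
  nlinarith

theorem norm_psi2_le {z w : E n} (hz : z ∈ Ball n) (hw : w ∈ Ball n) (R : ℝ) :
    ∃ c : ℝ, 0 < c ∧ ∃ C : ℝ, 0 < C ∧ ∀ p q : E n, ‖p‖ ≤ R → ‖q‖ ≤ R → ∀ v : V1 n × W m,
      ‖psi2 v z p w q‖ ≤ C * Real.exp (-c * nsq (uu v)) := by
  obtain ⟨c, hc, C, hC, h⟩ := psi2_bound (m := m) hz hw R
  refine ⟨c, hc, C, hC, fun p q hp hq v => ?_⟩
  rw [← integral_G v hz hw p q]
  exact (norm_integral_le_integral_norm _).trans (h p q hp hq v)

/-! ### Fubini -/

theorem hasSum_of_eq {ι : Type*} {f g : ι → ℂ} {a b : ℂ} (h : HasSum f a) (hf : ∀ i, g i = f i)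
    (ha : b = a) : HasSum g b := by
  rw [ha, show g = f from funext hf]
  exact h

/-- the theta functional on `π(a) vac_{z,p}` -/
def tt (T : Co n m → ℂ) (a : V1 n × W m) (z p : E n) : ℂ :=
  ∫ α : ℂ, gw α * (Ea a (pt z p α) * T (pt z p α + uu a))

theorem conj_gw (α : ℂ) : conj (gw α) = gw α := by
  rw [gw, ← Complex.exp_conj]
  congr 1
  simp

theorem hasSum_shift (K : Core L) (a b : V1 n × W m) (A B : Co n m) :
    HasSum (fun l : L => K.ε l * ph (ee (l : V1 n × W m) (a + b))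
        * G ((l : V1 n × W m) + a - b) A B)
      (ph (ee b a) * ((Ea a A * K.T (A + uu a)) * conj (Ea b B * K.T (B + uu b)))) := by
  have h := (K.core (A + uu a) (B + uu b)).mul_left (ph (ee b a) * (Ea a A * conj (Ea b B)))
  refine hasSum_of_eq h (fun l => ?_) ?_
  · have := G_shift (l : V1 n × W m) a b A B
    have h2 : ph (ee b a) * ph (-ee b a) = 1 := by rw [mul_comm]; exact ph_neg_mul _
    have h3 : ph (ee b a) * (Ea a A * conj (Ea b B)) * (K.ε l * G l (A + uu a) (B + uu b))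
        = K.ε l * ph (ee b a) * (G l (A + uu a) (B + uu b) * Ea a A * conj (Ea b B)) := by ring
    rw [h3, this]
    linear_combination (-(K.ε l) * ph (ee (l : V1 n × W m) (a + b))
      * G ((l : V1 n × W m) + a - b) A B) * h2
  · rw [map_mul]; ring

theorem norm_ε (K : Core L) (l : L) : ‖K.ε l‖ = 1 := by
  rcases K.ε_pm l l.2 with h | h <;> rw [h] <;> simp

/-- **the generating rank one identity** -/
theorem hasSum_psi2 (hL : Disc L) (K : Core L) (a b : V1 n × W m) {z w : E n} (hz : z ∈ Ball n)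
    (hw : w ∈ Ball n) (p q : E n) :
    HasSum (fun l : L => K.ε l * ph (ee (l : V1 n × W m) (a + b))
        * psi2 ((l : V1 n × W m) + a - b) z p w q)
      (ph (ee b a) * (tt K.T a z p * conj (tt K.T b w q))) := by
  have := countable_lat hL
  set F : L → ℂ × ℂ → ℂ := fun l x => (K.ε l * ph (ee (l : V1 n × W m) (a + b)))
    * (gw x.1 * gw x.2 * G ((l : V1 n × W m) + a - b) (pt z p x.1) (pt w q x.2)) with hF
  have hint : ∀ l, Integrable (F l) := fun l => (integrable_G _ hz hw p q).const_mul _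
  have hnorm : ∀ l, (∫ x, ‖F l x‖) = ∫ x : ℂ × ℂ,
      ‖gw x.1 * gw x.2 * G ((l : V1 n × W m) + a - b) (pt z p x.1) (pt w q x.2)‖ := by
    intro l
    refine integral_congr_ae (Filter.Eventually.of_forall fun x => ?_)
    simp only [hF, norm_mul, norm_ε, norm_ph, one_mul]
  have hsum : Summable fun l => ∫ x, ‖F l x‖ := by
    obtain ⟨c, hc, C, hC, h⟩ := psi2_bound (m := m) hz hw (max ‖p‖ ‖q‖)
    have h1 := (summable_lat0 hL hc (a - b)).mul_left C
    refine Summable.of_nonneg_of_le (fun l => integral_nonneg fun x => norm_nonneg _)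
      (fun l => ?_) h1
    rw [hnorm l]
    have := h p q (le_max_left _ _) (le_max_right _ _) ((l : V1 n × W m) + a - b)
    rwa [add_sub_assoc] at this ⊢
  have h := hasSum_integral_of_summable_integral_norm hint hsum
  refine hasSum_of_eq h (fun l => ?_) ?_
  · simp only [hF]
    rw [integral_const_mul, integral_G _ hz hw]
  · have hpt : ∀ x : ℂ × ℂ, ∑' l, F l x = ph (ee b a)
        * ((gw x.1 * (Ea a (pt z p x.1) * K.T (pt z p x.1 + uu a)))
          * conj (gw x.2 * (Ea b (pt w q x.2) * K.T (pt w q x.2 + uu b)))) := by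
      intro x
      have h1 := (hasSum_shift K a b (pt z p x.1) (pt w q x.2)).mul_left (gw x.1 * gw x.2)
      have h2 : HasSum (fun l => F l x) _ :=
        hasSum_of_eq h1 (fun l => by simp only [hF]; ring) rfl
      rw [h2.tsum_eq, map_mul (starRingEnd ℂ) (gw x.2), conj_gw]
      ring
    simp only [hpt]
    rw [integral_const_mul, Measure.volume_eq_prod]
    have hp := integral_prod_mul (μ := (volume : Measure ℂ)) (ν := (volume : Measure ℂ))
      (fun α : ℂ => gw α * (Ea a (pt z p α) * K.T (pt z p α + uu a)))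
      (fun β : ℂ => conj (gw β * (Ea b (pt w q β) * K.T (pt w q β + uu b))))
    rw [hp, integral_conj, tt, tt]

end

end Crest.Agent.R272.Sup_528
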