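import Crest.Agent.R272.Sup2_528

/-!
R272, division E, road B (helper528), part 3: `Core L → TData L`.
-/

set_option autoImplicit false

open scoped ComplexConjugate Topology Real
open MeasureTheory

namespace Crest.Agent.R272.Sup_528

open Crest.Agent.R272.EBase_641 Crest.Agent.R272.EBase2_641 Crest.Agent.R272.EThDefs_445

noncomputable section

variable {n m : ℕ} {L : AddSubgroup (V1 n × W m)}

/-! ### non-vanishing -/

theorem zero_mem_Ball : (0 : E n) ∈ Ball n := by simp [Ball]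

theorem psi2_base (v : V1 n × W m) (z p : E n) : psi2 v z p 0 0
    = Complex.exp (-(π / 2) * (nsq (uu v) : ℂ)) * Complex.exp (π * (v.1.2 * inner ℂ v.1.1 z))
      * Complex.exp (-(π * inner ℂ v.1.1 p)) := by
  have hwt : ((wt v : ℝ) : ℂ) = Complex.exp (-(π / 2) * ((‖v.1.1‖ : ℂ) ^ 2 - (‖v.1.2‖ : ℂ) ^ 2
      + (‖v.2‖ : ℂ) ^ 2)) := by
    rw [wt]; push_cast; rfl
  have hvv : v.1.2 * conj v.1.2 = (‖v.1.2‖ : ℂ) ^ 2 := by
    rw [Complex.mul_conj, Complex.normSq_eq_norm_sq]; push_cast; rfl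
  have hn : (nsq (uu v) : ℂ) = (‖v.1.2‖ : ℂ) ^ 2 + (‖v.1.1‖ : ℂ) ^ 2 + (‖v.2‖ : ℂ) ^ 2 := by
    simp only [nsq, uu, Complex.norm_conj]; push_cast; rfl
  rw [psi2, hwt, hn, ← Complex.exp_add, ← Complex.exp_add]
  simp only [ss, lin, inner_zero_left, inner_zero_right, sub_zero, inv_one, one_mul, zero_sub,
    zero_add, add_zero, div_one, map_neg, Complex.conj_conj]
  rw [← Complex.exp_add]
  congr 1
  linear_combination (-(π : ℂ)) * hvv

theorem exists_tt_ne (hL : Disc L) (K : Core L) : ∃ b, tt K.T b 0 0 ≠ 0 := by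
  obtain ⟨A, hA⟩ := K.T_ne
  refine ⟨((A.2.1, conj A.1), A.2.2), fun h0 => ?_⟩
  set a : V1 n × W m := ((A.2.1, conj A.1), A.2.2) with ha
  have hu : uu a = A := by simp [uu, ha]
  have h1 := hasSum_psi2 hL K a a (zero_mem_Ball (n := n)) zero_mem_Ball 0 0
  have h2 := hasSum_shift K a a 0 0
  have h3 : ∀ v : V1 n × W m, psi2 v 0 0 0 0 = G v 0 0 := by
    intro v
    rw [psi2_base, G]
    simp only [inner_zero_right, mul_zero, Complex.exp_zero, mul_one, neg_zero]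
    congr 1
    simp only [her, Prod.fst_zero, Prod.snd_zero, inner_zero_left, inner_zero_right, map_zero,
      mul_zero, zero_mul]
    ring
  have h4 := h1.unique (hasSum_of_eq h2 (fun l => by rw [h3]) rfl)
  rw [h0, zero_mul, mul_zero, zero_add, hu] at h4
  have h5 : Ea a 0 * K.T A ≠ 0 := mul_ne_zero (Complex.exp_ne_zero _) hA
  have h6 : ph (ee a a) * (Ea a 0 * K.T A * conj (Ea a 0 * K.T A)) ≠ 0 :=
    mul_ne_zero (ph_ne _) (mul_ne_zero h5 ((map_ne_zero _).2 h5))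
  exact h6 h4.symm

/-! ### the generic series -/

/-- the normalised series with kernel `κ` -/
def Ser (K : Core L) (b0 : V1 n × W m) (κ : V1 n × W m → ℂ) (a : V1 n × W m) : ℂ :=
  (conj (tt K.T b0 0 0))⁻¹ * ph (-ee b0 a) * ∑' l : L, K.ε l * ph (ee (l : V1 n × W m) (a + b0))
    * κ ((l : V1 n × W m) + a - b0)

theorem tt_eq (hL : Disc L) (K : Core L) {b0 : V1 n × W m} (hb : tt K.T b0 0 0 ≠ 0)
    (a : V1 n × W m) {z : E n} (hz : z ∈ Ball n) (p : E n) :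
    tt K.T a z p = Ser K b0 (fun v => psi2 v z p 0 0) a := by
  have h := (hasSum_psi2 hL K a b0 hz (zero_mem_Ball (n := n)) p 0).tsum_eq
  rw [Ser, h]
  have h1 := ph_neg_mul (ee b0 a)
  have h2 : conj (tt K.T b0 0 0) ≠ 0 := (map_ne_zero _).2 hb
  field_simp
  rw [mul_assoc, h1, mul_one]

theorem Ser_add (K : Core L) (b0 : V1 n × W m) (κ : V1 n × W m → ℂ) {l0 : V1 n × W m}
    (hl0 : l0 ∈ L) (a : V1 n × W m) :
    Ser K b0 κ (l0 + a) = K.ε l0 * ph (-ee l0 a) * Ser K b0 κ a := by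
  have hε : K.ε l0 * K.ε l0 = 1 := by
    rcases K.ε_pm l0 hl0 with h | h <;> rw [h] <;> norm_num
  have h1 : ∀ l : L, K.ε l * ph (ee (l : V1 n × W m) (l0 + a + b0))
      * κ ((l : V1 n × W m) + (l0 + a) - b0)
      = K.ε l0 * ph (-ee l0 (a + b0)) * (K.ε (l + ⟨l0, hl0⟩ : L)
        * ph (ee ((l + ⟨l0, hl0⟩ : L) : V1 n × W m) (a + b0))
        * κ (((l + ⟨l0, hl0⟩ : L) : V1 n × W m) + a - b0)) := by
    intro l
    have e1 : (((l + ⟨l0, hl0⟩ : L) : V1 n × W m)) = (l : V1 n × W m) + l0 := rfl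
    have e2 : K.ε ((l : V1 n × W m) + l0) = K.ε l * K.ε l0 * ph (ee (l : V1 n × W m) l0) :=
      K.ε_add l l.2 l0 hl0
    have e3 : (l : V1 n × W m) + (l0 + a) - b0 = (l : V1 n × W m) + l0 + a - b0 := by abel
    have e4 : ee (l : V1 n × W m) (l0 + a + b0) = ee (l : V1 n × W m) l0
        + ee (l : V1 n × W m) (a + b0) := by rw [← ee_add_right]; congr 1; abel
    rw [e1, e2, e3, e4, ee_add_left, ph_add, ph_add]
    have h5 := ph_neg_mul (ee l0 (a + b0))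
    linear_combination (-(K.ε l) * ph (ee (l : V1 n × W m) l0)
        * ph (ee (l : V1 n × W m) (a + b0)) * κ ((l : V1 n × W m) + l0 + a - b0)) *
        (ph (-ee l0 (a + b0)) * ph (ee l0 (a + b0)) * hε + h5)
  have h2 := (Equiv.addRight (⟨l0, hl0⟩ : L)).tsum_eq (fun l : L => K.ε l
        * ph (ee (l : V1 n × W m) (a + b0)) * κ ((l : V1 n × W m) + a - b0))
  simp only [Equiv.coe_addRight] at h2
  rw [Ser, Ser, ← h2, tsum_congr h1, tsum_mul_left]
  have e5 : ph (-ee b0 (l0 + a)) * ph (-ee l0 (a + b0)) = ph (-ee b0 a) * ph (-ee l0 a) := by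
    rw [← ph_add, ← ph_add, ee_add_right, ee_add_right, ee_symm b0 l0]
    congr 1; ring
  linear_combination ((conj (tt K.T b0 0 0))⁻¹ * K.ε l0 * ∑' l : L, (K.ε (l + ⟨l0, hl0⟩ : L)
        * ph (ee ((l + ⟨l0, hl0⟩ : L) : V1 n × W m) (a + b0))
        * κ (((l + ⟨l0, hl0⟩ : L) : V1 n × W m) + a - b0))) * e5

/-! ### holomorphy of the series -/

theorem exp_bound {r : ℝ} (v : V1 n × W m) {z : E n} (hz : ‖z‖ ≤ r) :
    ‖Complex.exp (-(π / 2) * (nsq (uu v) : ℂ)) * Complex.exp (π * (v.1.2 * inner ℂ v.1.1 z))‖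
      ≤ Real.exp (-(π / 2 * (1 - r)) * nsq (uu v)) := by
  rw [← Complex.exp_add, Complex.norm_exp]
  refine Real.exp_le_exp.2 ?_
  have hr0 : 0 ≤ r := (norm_nonneg z).trans hz
  have h1 : (v.1.2 * inner ℂ v.1.1 z : ℂ).re ≤ ‖v.1.2‖ * (‖v.1.1‖ * r) := by
    refine (Complex.re_le_norm _).trans ?_
    rw [norm_mul]
    refine mul_le_mul_of_nonneg_left ((norm_inner_le_norm _ _).trans ?_) (norm_nonneg _)
    exact mul_le_mul_of_nonneg_left hz (norm_nonneg _)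
  have hn : nsq (uu v) = ‖v.1.2‖ ^ 2 + ‖v.1.1‖ ^ 2 + ‖v.2‖ ^ 2 := by
    simp only [nsq, uu, Complex.norm_conj]
  have h2 : ‖v.1.2‖ * (‖v.1.1‖ * r) ≤ r / 2 * nsq (uu v) := by
    rw [hn]
    nlinarith [sq_nonneg (‖v.1.2‖ - ‖v.1.1‖), sq_nonneg ‖v.2‖,
      mul_nonneg hr0 (sq_nonneg (‖v.1.2‖ - ‖v.1.1‖)), mul_nonneg hr0 (sq_nonneg ‖v.2‖)]
  have h3 : (-(π / 2) * (nsq (uu v) : ℂ) + π * (v.1.2 * inner ℂ v.1.1 z) : ℂ).re
      = -(π / 2) * nsq (uu v) + π * (v.1.2 * inner ℂ v.1.1 z : ℂ).re := by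
    rw [Complex.add_re, Complex.re_ofReal_mul]
    congr 1
    have : (-(π / 2) * (nsq (uu v) : ℂ) : ℂ) = ((-(π / 2) * nsq (uu v) : ℝ) : ℂ) := by
      push_cast; ring
    rw [this, Complex.ofReal_re]
  rw [h3]
  have h4 := mul_le_mul_of_nonneg_left (h1.trans h2) Real.pi_pos.le
  linarith

theorem norm_coe_le (v : V1 n × W m) : ‖v.1.1‖ ≤ ‖v‖ ∧ ‖v.1.2‖ ≤ ‖v‖ := by
  have h : ‖v‖ = max (max ‖v.1.1‖ ‖v.1.2‖) ‖v.2‖ := rfl
  rw [h]
  exact ⟨(le_max_left _ _).trans (le_max_left _ _), (le_max_right _ _).trans (le_max_left _ _)⟩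

/-- termwise differentiation of `Ser` -/
theorem hasFDerivAt_Ser (hL : Disc L) (K : Core L) (b0 a : V1 n × W m)
    {f : V1 n × W m → E n → ℂ} {f' : V1 n × W m → E n → (E n →L[ℂ] ℂ)}
    (hf : ∀ v z, HasFDerivAt (f v) (f' v z) z) {N : ℕ}
    (hb : ∀ r < 1, ∃ c : ℝ, 0 < c ∧ ∃ C : ℝ, ∀ v z, ‖z‖ ≤ r →
      ‖f' v z‖ ≤ C * ((1 + ‖v‖) ^ N * Real.exp (-c * nsq (uu v))))
    (h0 : ∃ c : ℝ, 0 < c ∧ ∃ C : ℝ, ∀ v, ‖f v 0‖ ≤ C * Real.exp (-c * nsq (uu v)))
    {z : E n} (hz : z ∈ Ball n) :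
    (Summable fun l : L => (K.ε l * ph (ee (l : V1 n × W m) (a + b0)))
        • f' ((l : V1 n × W m) + a - b0) z) ∧
    HasFDerivAt (fun z => Ser K b0 (fun v => f v z) a)
      (((conj (tt K.T b0 0 0))⁻¹ * ph (-ee b0 a)) • ∑' l : L,
        (K.ε l * ph (ee (l : V1 n × W m) (a + b0))) • f' ((l : V1 n × W m) + a - b0) z) z := by
  obtain ⟨r, hr1, hr2⟩ := exists_between (mem_Ball.1 hz)
  obtain ⟨c, hc, C, hC⟩ := hb r hr2
  have hsum := (summable_lat hL hc N (a - b0)).mul_left C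
  have hbd : ∀ l : L, ∀ x ∈ Metric.ball (0 : E n) r,
      ‖(K.ε l * ph (ee (l : V1 n × W m) (a + b0))) • f' ((l : V1 n × W m) + a - b0) x‖
        ≤ C * ((1 + ‖(l : V1 n × W m) + (a - b0)‖) ^ N
          * Real.exp (-c * nsq (uu ((l : V1 n × W m) + (a - b0))))) := by
    intro l x hx
    rw [norm_smul, norm_mul, norm_ε, norm_ph, one_mul, one_mul, add_sub_assoc]
    exact hC _ _ (by simpa using (mem_ball_zero_iff.1 hx).le)
  have hzr : z ∈ Metric.ball (0 : E n) r := by simpa using hr1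
  refine ⟨Summable.of_norm_bounded hsum fun l => hbd l z hzr, ?_⟩
  have hmain := hasFDerivAt_tsum_of_isPreconnected (𝕜 := ℂ) hsum
    (f := fun (l : L) x => (K.ε l * ph (ee (l : V1 n × W m) (a + b0)))
      * f ((l : V1 n × W m) + a - b0) x)
    (f' := fun (l : L) x => (K.ε l * ph (ee (l : V1 n × W m) (a + b0)))
      • f' ((l : V1 n × W m) + a - b0) x)
    (x₀ := 0) (x := z)
    (Metric.isOpen_ball (x := (0 : E n)) (ε := r)) ?_ ?_ hbd ?_ ?_ hzr
  · exact hmain.const_mul _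
  · let _ : NormedSpace ℝ (E n) := NormedSpace.complexToReal
    exact (convex_ball (0 : E n) r).isPreconnected
  · intro l x _
    exact (hf _ x).const_mul _
  · rw [Metric.mem_ball, dist_self]
    exact (norm_nonneg z).trans_lt hr1
  · obtain ⟨c, hc, C, hC⟩ := h0
    refine Summable.of_norm_bounded ((summable_lat0 hL hc (a - b0)).mul_left C) fun l => ?_
    rw [norm_mul, norm_mul, norm_ε, norm_ph, one_mul, one_mul, add_sub_assoc]
    exact hC _

end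

end Crest.Agent.R272.Sup_528
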