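import Crest.Agent.R272.Sup3_528

/-!
R272, division E, road B (helper528), part 4: derivatives, primitive, `Core L → TData L`.
-/

set_option autoImplicit false

open scoped ComplexConjugate Topology Real
open MeasureTheory

namespace Crest.Agent.R272.Sup_528

open Crest.Agent.R272.EBase_641 Crest.Agent.R272.EBase2_641 Crest.Agent.R272.EThDefs_445

noncomputable section

variable {n m : ℕ} {L : AddSubgroup (V1 n × W m)}

/-! ### the kernel of the primitive -/

/-- `(e^{xy} - 1)/x` -/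
def E1 (x y : ℂ) : ℂ := if x = 0 then y else (Complex.exp (x * y) - 1) / x

@[simp] theorem E1_zero (x : ℂ) : E1 x 0 = 0 := by
  simp only [E1]; split_ifs <;> simp

theorem hasDerivAt_E1 (x y : ℂ) : HasDerivAt (E1 x) (Complex.exp (x * y)) y := by
  by_cases hx : x = 0
  · subst hx
    have : E1 0 = id := by funext y; simp [E1]
    rw [this]; simpa using hasDerivAt_id y
  · have : E1 x = fun y => (Complex.exp (x * y) - 1) / x := by funext y; simp [E1, hx]
    rw [this]
    have h := (((hasDerivAt_id y).const_mul x).cexp.sub_const 1).div_const x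
    simp only [id_eq, mul_one] at h
    have e : Complex.exp (x * y) * x / x = Complex.exp (x * y) := by field_simp
    rw [e] at h
    exact h

/-- kernel of the primitive at the base point `w = 0` -/
def kA (v : V1 n × W m) (z : E n) : ℂ :=
  Complex.exp (-(π / 2) * (nsq (uu v) : ℂ)) * E1 (π * v.1.2) (inner ℂ v.1.1 z)

/-- `z ↦ ⟨z, v'⟩` as a continuous linear map -/
def lv (v : V1 n × W m) : E n →L[ℂ] ℂ := innerSL ℂ v.1.1

theorem lv_apply (v : V1 n × W m) (z : E n) : lv v z = inner ℂ v.1.1 z := rfl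

theorem norm_lv (v : V1 n × W m) : ‖lv v‖ = ‖v.1.1‖ := innerSL_apply_norm ℂ v.1.1

/-- the common exponential factor -/
def ex (v : V1 n × W m) (z : E n) : ℂ :=
  Complex.exp (-(π / 2) * (nsq (uu v) : ℂ)) * Complex.exp (π * (v.1.2 * inner ℂ v.1.1 z))

theorem hasFDerivAt_kA (v : V1 n × W m) (z : E n) : HasFDerivAt (kA v) (ex v z • lv v) z := by
  have h1 : HasFDerivAt (fun z : E n => (inner ℂ v.1.1 z : ℂ)) (lv v) z := (lv v).hasFDerivAt
  have h2 := ((hasDerivAt_E1 (π * v.1.2) (inner ℂ v.1.1 z)).comp_hasFDerivAt z h1).const_mul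
    (Complex.exp (-(π / 2) * (nsq (uu v) : ℂ)))
  have h3 : ex v z • lv v = Complex.exp (-(π / 2) * (nsq (uu v) : ℂ)) •
      Complex.exp (π * v.1.2 * inner ℂ v.1.1 z) • lv v := by
    rw [smul_smul, ex, mul_assoc]
  rw [h3]
  exact h2

theorem hasFDerivAt_ex (v : V1 n × W m) (z : E n) :
    HasFDerivAt (ex v) ((ex v z * (π * v.1.2)) • lv v) z := by
  have h1 : HasFDerivAt (fun z : E n => (inner ℂ v.1.1 z : ℂ)) (lv v) z := (lv v).hasFDerivAt
  have h2 := (((h1.const_mul v.1.2).const_mul (π : ℂ)).cexp).const_mul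
    (Complex.exp (-(π / 2) * (nsq (uu v) : ℂ)))
  have h3 : (ex v z * (π * v.1.2)) • lv v = Complex.exp (-(π / 2) * (nsq (uu v) : ℂ)) •
      Complex.exp (π * (v.1.2 * inner ℂ v.1.1 z)) • ((π : ℂ) • (v.1.2 • lv v)) := by
    rw [smul_smul, smul_smul, smul_smul, ex]
    congr 1; ring
  rw [h3]
  exact h2

theorem ex_eq_psi2 (v : V1 n × W m) (z : E n) : ex v z = psi2 v z 0 0 0 := by
  rw [psi2_base, ex]; simp

theorem ex_bound (r : ℝ) (v : V1 n × W m) (z : E n) (hz : ‖z‖ ≤ r) :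
    ‖ex v z‖ ≤ Real.exp (-(π / 2 * (1 - r)) * nsq (uu v)) := exp_bound v hz

/-- derivative data of the primitive series -/
theorem primitive (hL : Disc L) (K : Core L) (b0 a : V1 n × W m) {z : E n} (hz : z ∈ Ball n) :
    (Summable fun l : L => (K.ε l * ph (ee (l : V1 n × W m) (a + b0)))
        • (ex ((l : V1 n × W m) + a - b0) z • lv ((l : V1 n × W m) + a - b0))) ∧
    HasFDerivAt (fun z => Ser K b0 (fun v => kA v z) a)
      (((conj (tt K.T b0 0 0))⁻¹ * ph (-ee b0 a)) • ∑' l : L,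
        (K.ε l * ph (ee (l : V1 n × W m) (a + b0)))
        • (ex ((l : V1 n × W m) + a - b0) z • lv ((l : V1 n × W m) + a - b0))) z := by
  refine hasFDerivAt_Ser hL K b0 a (f := kA) (f' := fun v z => ex v z • lv v) (N := 1)
    (fun v z => hasFDerivAt_kA v z) (fun r hr => ⟨π / 2 * (1 - r), ?_, 1, fun v z hz => ?_⟩)
    ⟨1, one_pos, 0, fun v => ?_⟩ hz
  · have := Real.pi_pos
    have : 0 < 1 - r := by linarith
    positivity
  · rw [norm_smul, norm_lv, one_mul, pow_one, mul_comm]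
    exact mul_le_mul (by linarith [(norm_coe_le v).1]) (ex_bound r v z hz) (norm_nonneg _)
      (by positivity)
  · simp [kA]

theorem differentiableOn_Ser_ex (hL : Disc L) (K : Core L) (b0 a : V1 n × W m) :
    DifferentiableOn ℂ (fun z => Ser K b0 (fun v => ex v z) a) (Ball n) := by
  intro z hz
  refine DifferentiableAt.differentiableWithinAt (HasFDerivAt.differentiableAt
    (hasFDerivAt_Ser hL K b0 a (f := ex) (f' := fun v z => (ex v z * (π * v.1.2)) • lv v) (N := 2)
    (fun v z => hasFDerivAt_ex v z) (fun r hr => ⟨π / 2 * (1 - r), ?_, π, fun v z hz => ?_⟩)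
    ⟨π / 2, by positivity, 1, fun v => ?_⟩ hz).2)
  · have := Real.pi_pos
    have : 0 < 1 - r := by linarith
    positivity
  · rw [norm_smul, norm_lv, norm_mul, norm_mul, Complex.norm_real, Real.norm_of_nonneg
      Real.pi_pos.le]
    have h1 := ex_bound r v z hz
    have h2 := norm_coe_le v
    have h3 : ‖v.1.2‖ * ‖v.1.1‖ ≤ (1 + ‖v‖) ^ 2 := by
      have := mul_le_mul h2.2 h2.1 (norm_nonneg _) (norm_nonneg _)
      nlinarith [norm_nonneg v]
    calc ‖ex v z‖ * (π * ‖v.1.2‖) * ‖v.1.1‖ = π * ((‖v.1.2‖ * ‖v.1.1‖) * ‖ex v z‖) := by ring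
      _ ≤ π * ((1 + ‖v‖) ^ 2 * Real.exp (-(π / 2 * (1 - r)) * nsq (uu v))) := by
        refine mul_le_mul_of_nonneg_left ?_ Real.pi_pos.le
        exact mul_le_mul h3 h1 (norm_nonneg _) (by positivity)
  · have := ex_bound 0 v 0 (by simp)
    simpa using this

/-! ### first derivative -/

/-- the logarithmic derivative of `psi2` in `p` in direction `X`, divided by `π` -/
def kk (v : V1 n × W m) (z w q X : E n) : ℂ :=
  inner ℂ q X - inner ℂ v.1.1 X + inner ℂ w X * (inner ℂ q z - lin v.1 z) / ss z w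

theorem psi2_line (v : V1 n × W m) (z w q X : E n) (γ : ℂ) :
    psi2 v z (γ • X) w q = psi2 v z 0 w q * Complex.exp (π * (γ * kk v z w q X)) := by
  simp only [psi2, kk, inner_smul_right, inner_zero_right]
  rw [mul_assoc ((ss z w)⁻¹ * _), ← Complex.exp_add]
  congr 2
  ring

theorem hasDerivAt_psi2_line (v : V1 n × W m) (z w q X : E n) (γ : ℂ) :
    HasDerivAt (fun γ : ℂ => psi2 v z (γ • X) w q) (psi2 v z (γ • X) w q * (π * kk v z w q X)) γ := by
  have h : (fun γ : ℂ => psi2 v z (γ • X) w q)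
      = fun γ => psi2 v z 0 w q * Complex.exp (π * (γ * kk v z w q X)) := by
    funext γ; exact psi2_line v z w q X γ
  rw [h, psi2_line]
  have h1 := ((((hasDerivAt_id γ).mul_const (kk v z w q X)).const_mul (π : ℂ)).cexp).const_mul
    (psi2 v z 0 w q)
  simp only [id_eq, one_mul] at h1
  rw [mul_assoc]
  exact h1

/-- derivative of the theta functional -/
def DD (T : Co n m → ℂ) (a : V1 n × W m) (z X : E n) : ℂ := deriv (fun γ : ℂ => tt T a z (γ • X)) 0

theorem hasSum_DD (hL : Disc L) (K : Core L) (a b : V1 n × W m) {z w : E n} (hz : z ∈ Ball n)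
    (hw : w ∈ Ball n) (q X : E n) :
    HasSum (fun l : L => K.ε l * ph (ee (l : V1 n × W m) (a + b))
        * (psi2 ((l : V1 n × W m) + a - b) z 0 w q * (π * kk ((l : V1 n × W m) + a - b) z w q X)))
      (ph (ee b a) * (DD K.T a z X * conj (tt K.T b w q))) := by
  obtain ⟨c, hc, C, hC, h⟩ := norm_psi2_le (m := m) hz hw (max ‖X‖ ‖q‖)
  have hu := (summable_lat0 hL hc (a - b)).mul_left C
  have h1 := Complex.hasSum_deriv_of_summable_norm (U := Metric.ball (0 : ℂ) 1) (z := 0)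
    (F := fun (l : L) γ => K.ε l * ph (ee (l : V1 n × W m) (a + b))
        * psi2 ((l : V1 n × W m) + a - b) z (γ • X) w q) hu ?_ Metric.isOpen_ball ?_ (by simp)
  · refine hasSum_of_eq h1 (fun l => ?_) ?_
    · have h2 := (hasDerivAt_psi2_line ((l : V1 n × W m) + a - b) z w q X 0).const_mul
        (K.ε l * ph (ee (l : V1 n × W m) (a + b)))
      rw [h2.deriv, zero_smul]
    · have h3 : (fun γ : ℂ => ∑' l : L, K.ε l * ph (ee (l : V1 n × W m) (a + b))
          * psi2 ((l : V1 n × W m) + a - b) z (γ • X) w q)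
          = fun γ => (ph (ee b a) * conj (tt K.T b w q)) * tt K.T a z (γ • X) := by
        funext γ
        rw [(hasSum_psi2 hL K a b hz hw (γ • X) q).tsum_eq]; ring
      rw [h3, deriv_const_mul_field, DD]; ring
  · intro l γ _
    exact (((hasDerivAt_psi2_line ((l : V1 n × W m) + a - b) z w q X γ).const_mul
      (K.ε l * ph (ee (l : V1 n × W m) (a + b)))).differentiableAt).differentiableWithinAt
  · intro l γ hγ
    rw [norm_mul, norm_mul, norm_ε, norm_ph, one_mul, one_mul, add_sub_assoc]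
    refine h _ _ ?_ (le_max_right _ _) _
    have hγ' : ‖γ‖ < 1 := mem_ball_zero_iff.1 hγ
    rw [norm_smul]
    refine le_trans ?_ (le_max_left _ _)
    nlinarith [norm_nonneg X]

/-! ### second derivative -/

theorem kk_line (v : V1 n × W m) (z w X Y : E n) (δ : ℂ) : kk v z w (conj δ • Y) X
    = kk v z w 0 X + δ * (inner ℂ Y X + inner ℂ w X * inner ℂ Y z / ss z w) := by
  simp only [kk, inner_smul_left, inner_zero_left, Complex.conj_conj]
  ring

/-- the logarithmic derivative of `psi2` in `conj q` in direction `Y` at `p = 0`, divided by `π` -/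
def mm (v : V1 n × W m) (z w Y : E n) : ℂ :=
  inner ℂ Y v.1.1 + conj (lin v.1 w) * inner ℂ Y z / ss z w

theorem psi2_line' (v : V1 n × W m) (z w Y : E n) (δ : ℂ) :
    psi2 v z 0 w (conj δ • Y) = psi2 v z 0 w 0 * Complex.exp (π * (δ * mm v z w Y)) := by
  simp only [psi2, mm, inner_smul_left, inner_zero_left, inner_zero_right, Complex.conj_conj]
  rw [mul_assoc ((ss z w)⁻¹ * _), ← Complex.exp_add]
  congr 2
  ring

theorem hasDerivAt_second (v : V1 n × W m) (z w X Y : E n) (δ : ℂ) :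
    HasDerivAt (fun δ : ℂ => psi2 v z 0 w (conj δ • Y) * (π * kk v z w (conj δ • Y) X))
      (psi2 v z 0 w (conj δ • Y) * (π * mm v z w Y) * (π * kk v z w (conj δ • Y) X)
        + psi2 v z 0 w (conj δ • Y)
          * (π * (inner ℂ Y X + inner ℂ w X * inner ℂ Y z / ss z w))) δ := by
  have h : (fun δ : ℂ => psi2 v z 0 w (conj δ • Y) * (π * kk v z w (conj δ • Y) X))
      = fun δ => (psi2 v z 0 w 0 * Complex.exp (π * (δ * mm v z w Y)))
        * (π * (kk v z w 0 X + δ * (inner ℂ Y X + inner ℂ w X * inner ℂ Y z / ss z w))) := by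
    funext δ; rw [psi2_line', kk_line]
  rw [h, psi2_line', kk_line]
  have h1 := ((((hasDerivAt_id δ).mul_const (mm v z w Y)).const_mul (π : ℂ)).cexp).const_mul
    (psi2 v z 0 w 0)
  have h2 := (((hasDerivAt_id δ).mul_const (inner ℂ Y X + inner ℂ w X * inner ℂ Y z / ss z w)).const_add
    (kk v z w 0 X)).const_mul (π : ℂ)
  have h3 := h1.mul h2
  simp only [id_eq, one_mul] at h3
  rw [mul_assoc (psi2 v z 0 w 0) (Complex.exp _) (π * mm v z w Y)]
  exact h3

theorem norm_kk_le {z w : E n} (X : E n) (R : ℝ) (hz : z ∈ Ball n) (hw : w ∈ Ball n) :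
    ∃ C : ℝ, 0 ≤ C ∧ ∀ q : E n, ‖q‖ ≤ R → ∀ v : V1 n × W m, ‖kk v z w q X‖ ≤ C * (1 + ‖v‖) := by
  have hs := ss_re_pos hz hw
  have hs0 : ss z w ≠ 0 := by intro h; rw [h] at hs; simp at hs
  have hsn : 0 < ‖ss z w‖ := norm_pos_iff.2 hs0
  have hz' : ‖z‖ < 1 := mem_Ball.1 hz
  have hw' : ‖w‖ < 1 := mem_Ball.1 hw
  refine ⟨(|R| + 1) * ‖X‖ + ‖X‖ * (|R| + 2) / ‖ss z w‖, by positivity, fun q hq v => ?_⟩
  have hR : ‖q‖ ≤ |R| := hq.trans (le_abs_self R)
  have h1 : ‖(inner ℂ q X : ℂ)‖ ≤ |R| * ‖X‖ :=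
    (norm_inner_le_norm _ _).trans (mul_le_mul_of_nonneg_right hR (norm_nonneg _))
  have h2 : ‖(inner ℂ v.1.1 X : ℂ)‖ ≤ ‖v‖ * ‖X‖ :=
    (norm_inner_le_norm _ _).trans (mul_le_mul_of_nonneg_right (norm_coe_le v).1 (norm_nonneg _))
  have h3 : ‖(inner ℂ w X : ℂ)‖ ≤ ‖X‖ := by
    refine (norm_inner_le_norm _ _).trans ?_
    nlinarith [norm_nonneg X]
  have h4 : ‖(inner ℂ q z : ℂ)‖ ≤ |R| := by
    refine (norm_inner_le_norm _ _).trans ?_
    nlinarith [norm_nonneg q, abs_nonneg R, norm_nonneg z]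
  have h5 : ‖lin v.1 z‖ ≤ 2 * ‖v‖ := by
    have h6 : ‖lin v.1 z‖ ≤ ‖(inner ℂ v.1.1 z : ℂ)‖ + ‖v.1.2‖ := by
      rw [lin]
      refine (norm_sub_le _ _).trans ?_
      rw [Complex.norm_conj]
    have h7 : ‖(inner ℂ v.1.1 z : ℂ)‖ ≤ ‖v‖ := by
      refine (norm_inner_le_norm _ _).trans ?_
      have := (norm_coe_le v).1
      nlinarith [norm_nonneg v.1.1, norm_nonneg z]
    linarith [(norm_coe_le v).2]
  have h8 : ‖inner ℂ w X * (inner ℂ q z - lin v.1 z) / ss z w‖
      ≤ ‖X‖ * (|R| + 2 * ‖v‖) / ‖ss z w‖ := by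
    rw [norm_div, norm_mul]
    refine div_le_div_of_nonneg_right ?_ hsn.le
    refine mul_le_mul h3 ?_ (norm_nonneg _) (norm_nonneg _)
    exact (norm_sub_le _ _).trans (add_le_add h4 h5)
  have h9 : ‖kk v z w q X‖ ≤ |R| * ‖X‖ + ‖v‖ * ‖X‖ + ‖X‖ * (|R| + 2 * ‖v‖) / ‖ss z w‖ := by
    rw [kk]
    exact (norm_add_le _ _).trans (add_le_add ((norm_sub_le _ _).trans (add_le_add h1 h2)) h8)
  refine h9.trans ?_
  have h10 : ‖X‖ * (|R| + 2 * ‖v‖) / ‖ss z w‖ ≤ ‖X‖ * (|R| + 2) / ‖ss z w‖ * (1 + ‖v‖) := by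
    rw [div_mul_eq_mul_div]
    refine div_le_div_of_nonneg_right ?_ hsn.le
    rw [mul_assoc]
    refine mul_le_mul_of_nonneg_left ?_ (norm_nonneg _)
    nlinarith [norm_nonneg v, abs_nonneg R, mul_nonneg (abs_nonneg R) (norm_nonneg v)]
  have h11 : |R| * ‖X‖ + ‖v‖ * ‖X‖ ≤ (|R| + 1) * ‖X‖ * (1 + ‖v‖) := by
    nlinarith [norm_nonneg v, abs_nonneg R, norm_nonneg X, mul_nonneg (abs_nonneg R) (norm_nonneg X),
      mul_nonneg (mul_nonneg (abs_nonneg R) (norm_nonneg X)) (norm_nonneg v),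
      mul_nonneg (norm_nonneg v) (norm_nonneg X)]
  linarith

theorem hasSum_DD2 (hL : Disc L) (K : Core L) (a b : V1 n × W m) {z w : E n} (hz : z ∈ Ball n)
    (hw : w ∈ Ball n) (X Y : E n) :
    HasSum (fun l : L => K.ε l * ph (ee (l : V1 n × W m) (a + b))
        * (psi2 ((l : V1 n × W m) + a - b) z 0 w 0 * (π * mm ((l : V1 n × W m) + a - b) z w Y)
            * (π * kk ((l : V1 n × W m) + a - b) z w 0 X)
          + psi2 ((l : V1 n × W m) + a - b) z 0 w 0
            * (π * (inner ℂ Y X + inner ℂ w X * inner ℂ Y z / ss z w))))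
      (ph (ee b a) * (DD K.T a z X * conj (DD K.T b w Y))) := by
  obtain ⟨c, hc, C, hC, h⟩ := norm_psi2_le (m := m) hz hw ‖Y‖
  obtain ⟨C', hC', h'⟩ := norm_kk_le (m := m) X ‖Y‖ hz hw
  have hu := (summable_lat hL hc 1 (a - b)).mul_left (π * C * C')
  have h1 := Complex.hasSum_deriv_of_summable_norm (U := Metric.ball (0 : ℂ) 1) (z := 0)
    (F := fun (l : L) δ => K.ε l * ph (ee (l : V1 n × W m) (a + b))
        * (psi2 ((l : V1 n × W m) + a - b) z 0 w (conj δ • Y)
          * (π * kk ((l : V1 n × W m) + a - b) z w (conj δ • Y) X))) hu ?_ Metric.isOpen_ball ?_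
    (by simp)
  · refine hasSum_of_eq h1 (fun l => ?_) ?_
    · have h2 := (hasDerivAt_second ((l : V1 n × W m) + a - b) z w X Y 0).const_mul
        (K.ε l * ph (ee (l : V1 n × W m) (a + b)))
      rw [h2.deriv, map_zero, zero_smul]
    · have h3 : (fun δ : ℂ => ∑' l : L, K.ε l * ph (ee (l : V1 n × W m) (a + b))
          * (psi2 ((l : V1 n × W m) + a - b) z 0 w (conj δ • Y)
          * (π * kk ((l : V1 n × W m) + a - b) z w (conj δ • Y) X)))
          = fun δ => (ph (ee b a) * DD K.T a z X)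
            * (conj ∘ (fun γ : ℂ => tt K.T b w (γ • Y)) ∘ conj) δ := by
        funext δ
        rw [(hasSum_DD hL K a b hz hw (conj δ • Y) X).tsum_eq]
        simp only [Function.comp]
        ring
      rw [h3, deriv_const_mul_field, deriv_conj_conj]
      simp only [Function.comp, map_zero]
      rw [← DD]; ring
  · intro l δ _
    exact (((hasDerivAt_second ((l : V1 n × W m) + a - b) z w X Y δ).const_mul
      (K.ε l * ph (ee (l : V1 n × W m) (a + b)))).differentiableAt).differentiableWithinAt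
  · intro l δ hδ
    have hδ' : ‖δ‖ < 1 := mem_ball_zero_iff.1 hδ
    have hq : ‖conj δ • Y‖ ≤ ‖Y‖ := by
      rw [norm_smul, Complex.norm_conj]
      nlinarith [norm_nonneg Y]
    rw [norm_mul, norm_mul, norm_ε, norm_ph, one_mul, one_mul, norm_mul, norm_mul,
      Complex.norm_real, Real.norm_of_nonneg Real.pi_pos.le, add_sub_assoc, pow_one]
    have e1 := h 0 (conj δ • Y) (by simp) hq ((l : V1 n × W m) + (a - b))
    have e2 := h' (conj δ • Y) hq ((l : V1 n × W m) + (a - b))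
    calc ‖psi2 ((l : V1 n × W m) + (a - b)) z 0 w (conj δ • Y)‖
          * (π * ‖kk ((l : V1 n × W m) + (a - b)) z w (conj δ • Y) X‖)
        ≤ (C * Real.exp (-c * nsq (uu ((l : V1 n × W m) + (a - b)))))
          * (π * (C' * (1 + ‖(l : V1 n × W m) + (a - b)‖))) := by
          refine mul_le_mul e1 (mul_le_mul_of_nonneg_left e2 Real.pi_pos.le) ?_ ?_
          · have := Real.pi_pos; positivity
          · positivity
      _ = _ := by ring

end

end Crest.Agent.R272.Sup_528
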