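import Crest.Agent.R272.Sup4_528

/-!
R272, division E, road B (helper528), part 5: `Core L → TData L`.
-/

set_option autoImplicit false

open scoped ComplexConjugate Topology Real
open MeasureTheory

namespace Crest.Agent.R272.Sup_528

open Crest.Agent.R272.EBase_641 Crest.Agent.R272.EBase2_641 Crest.Agent.R272.EThDefs_445

noncomputable section

variable {n m : ℕ} {L : AddSubgroup (V1 n × W m)}

theorem psi2_kk_zero (v : V1 n × W m) (z w X : E n) :
    psi2 v z 0 w 0 * (π * kk v z w 0 X) = -(π : ℂ) * psiF v z w X := by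
  rw [psi2_zero, psiF, kk]
  simp only [inner_zero_left]
  ring

theorem psi2_second (v : V1 n × W m) {z w : E n} (hz : z ∈ Ball n) (hw : w ∈ Ball n) (X Y : E n) :
    psi2 v z 0 w 0 * (π * mm v z w Y) * (π * kk v z w 0 X)
      + psi2 v z 0 w 0 * (π * (inner ℂ Y X + inner ℂ w X * inner ℂ Y z / ss z w))
      = (π : ℂ) ^ 2 * psiFF v z w X Y := by
  have hs := ss_re_pos hz hw
  have hs0 : ss z w ≠ 0 := by intro h; rw [h] at hs; simp at hs
  have hπ : (π : ℂ) ≠ 0 := by exact_mod_cast Real.pi_ne_zero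
  rw [psi2_zero, psiFF, kk, mm, psi, Kp]
  simp only [inner_zero_left, inner_conj_symm]
  field_simp
  ring

theorem fderiv_primitive (hL : Disc L) (K : Core L) {b0 : V1 n × W m} (hb : tt K.T b0 0 0 ≠ 0)
    (a : V1 n × W m) {z : E n} (hz : z ∈ Ball n) (X : E n) :
    fderiv ℂ (fun z => Ser K b0 (fun v => kA v z) a) z X = -(π : ℂ)⁻¹ * DD K.T a z X := by
  have hπ : (π : ℂ) ≠ 0 := by exact_mod_cast Real.pi_ne_zero
  have h2 : conj (tt K.T b0 0 0) ≠ 0 := (map_ne_zero _).2 hb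
  obtain ⟨hs, hd⟩ := primitive hL K b0 a hz
  rw [hd.fderiv]
  have h3 : (∑' l : L, (K.ε l * ph (ee (l : V1 n × W m) (a + b0)))
        • (ex ((l : V1 n × W m) + a - b0) z • lv ((l : V1 n × W m) + a - b0))) X
      = ∑' l : L, ((K.ε l * ph (ee (l : V1 n × W m) (a + b0)))
        • (ex ((l : V1 n × W m) + a - b0) z • lv ((l : V1 n × W m) + a - b0))) X :=
    ((ContinuousLinearMap.apply ℂ ℂ X).map_tsum hs)
  rw [smul_apply, h3, smul_eq_mul]
  have h4 := hasSum_DD hL K a b0 hz (zero_mem_Ball (n := n)) 0 X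
  have h5 : (∑' l : L, ((K.ε l * ph (ee (l : V1 n × W m) (a + b0)))
        • (ex ((l : V1 n × W m) + a - b0) z • lv ((l : V1 n × W m) + a - b0))) X)
      = -(π : ℂ)⁻¹ * (ph (ee b0 a) * (DD K.T a z X * conj (tt K.T b0 0 0))) := by
    rw [← h4.tsum_eq, ← tsum_mul_left]
    refine tsum_congr fun l => ?_
    rw [← ex_eq_psi2]
    simp only [smul_apply, smul_eq_mul, lv_apply, kk, inner_zero_left]
    field_simp
    ring
  rw [h5]
  have h1 := ph_neg_mul (ee b0 a)
  field_simp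
  linear_combination (-(DD K.T a z X)) * h1

/-- **(B6)**: `Core L → TData L`. -/
def tdata (hL : Disc L) (K : Core L) {b0 : V1 n × W m} (hb : tt K.T b0 0 0 ≠ 0) : TData L where
  ε := K.ε
  ε_pm := K.ε_pm
  ε_add := K.ε_add
  t a z := tt K.T a z 0
  A a z := Ser K b0 (fun v => kA v z) a
  t_hol a := (differentiableOn_Ser_ex hL K b0 a).congr fun z hz => by
    rw [tt_eq hL K hb a hz]
    simp only [ex_eq_psi2]
  A_hol a z hz := (primitive hL K b0 a hz).2.differentiableAt.differentiableWithinAt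
  A_zero a := by
    rw [Ser]
    simp [kA]
  t_ne := ⟨b0, hb⟩
  t_add l hl a z hz := by
    rw [tt_eq hL K hb _ hz, tt_eq hL K hb _ hz, Ser_add K b0 _ hl]
  A_add l hl a z _ := Ser_add K b0 _ hl a
  vv a b z hz w hw := by
    refine hasSum_of_eq (hasSum_psi2 hL K a b hz hw 0 0) (fun l => ?_) rfl
    rw [psi2_zero]
  Fv a b z hz w hw X := by
    have hπ : (π : ℂ) ≠ 0 := by exact_mod_cast Real.pi_ne_zero
    refine hasSum_of_eq ((hasSum_DD hL K a b hz hw 0 X).mul_left (-(π : ℂ)⁻¹)) (fun l => ?_) ?_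
    · rw [psi2_kk_zero]
      field_simp
    · rw [fderiv_primitive hL K hb a hz]; ring
  FF a b z hz w hw X Y := by
    have hπ : (π : ℂ) ≠ 0 := by exact_mod_cast Real.pi_ne_zero
    refine hasSum_of_eq ((hasSum_DD2 hL K a b hz hw X Y).mul_left (((π : ℂ) ^ 2)⁻¹))
      (fun l => ?_) ?_
    · rw [psi2_second _ hz hw]
      field_simp
    · rw [fderiv_primitive hL K hb a hz, fderiv_primitive hL K hb b hw]
      simp only [map_mul, map_neg, map_inv₀, Complex.conj_ofReal]
      field_simp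

/-- **road B**: the core rank one identity gives the output of leaf T2. -/
theorem nonempty_tdata (hL : Disc L) (K : Core L) : Nonempty (TData L) := by
  obtain ⟨b, hb⟩ := exists_tt_ne hL K
  exact ⟨tdata hL K hb⟩

/-- T2 from the core -/
theorem t2_of_core (h : ∀ (n m : ℕ) (L : AddSubgroup (V1 n × W m)),
    (∀ r : ℝ, {v : V1 n × W m | v ∈ L ∧ ‖v‖ ≤ r}.Finite) →
    Submodule.span ℝ (L : Set (V1 n × W m)) = ⊤ →
    (∀ v ∈ L, ∀ w ∈ L, ∃ k : ℤ, ee v w = k) →
    (∀ v, (∀ w ∈ L, ∃ k : ℤ, ee v w = k) → v ∈ L) →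
    Nonempty (Core L)) : T2 := by
  intro n m L h1 h2 h3 h4
  obtain ⟨K⟩ := h n m L h1 h2 h3 h4
  exact nonempty_tdata h1 K

end

end Crest.Agent.R272.Sup_528
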