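import Crest.Agent.R272.Glue1_342

/-!
# R272 (helper342): surgery at one centre, topological part

`Sur X A B` : `e : X ⇀ A` an open partial homeomorphism with a neighbourhood `{NA ≤ ε}` of
`{NA = 0}` in its target, `φ : A ⇀ B` a homeomorphism off the zero sets with `NB ∘ φ = NA`.
`S.XP` is `X` with `K = e⁻¹{NA = 0}` replaced by `K' = {NB = 0}`.

* `S.nX : X → ℝ`, `S.nf : S.XP → ℝ` the norm functions (cut off at `ε`);
* `S.iota : OpenPartialHomeomorph X S.XP`, source `Kᶜ`, target `K'ᶜ`;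
* `S.ep : OpenPartialHomeomorph S.XP B`, source `{nf < ε}`, target `{NB < ε}`;
* `S.ep_iota`, `S.e_iota_symm`: compatibility;
* T2, compact, locally compact, second countable, (pre)connected;
* `S.push f y₀ : S.XP → Y` for `f : X → Y` with `f = y₀` on `K`; `S.desc f0 f1` in general;
* `S.exists_delta_X`, `S.exists_delta`: the norm functions describe neighbourhoods of `K`, `K'`.
-/

set_option autoImplicit false
set_option linter.unusedSectionVars false
set_option linter.style.haveILetI false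

open Set Filter Topology

namespace Crest.Agent.R272.Sur_342

open Crest.Agent.R272.Glue_342

noncomputable section

universe u v w

/-- data of a surgery at one centre -/
structure Sur (X : Type u) (A : Type v) (B : Type w) [TopologicalSpace X] [TopologicalSpace A]
    [TopologicalSpace B] where
  e : OpenPartialHomeomorph X A
  φ : OpenPartialHomeomorph A B
  NA : A → ℝ
  NB : B → ℝ
  cA : Continuous NA
  cB : Continuous NB
  nA : ∀ a, 0 ≤ NA a
  nB : ∀ b, 0 ≤ NB b
  kA : ∀ r, IsCompact {a | NA a ≤ r}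
  kB : ∀ r, IsCompact {b | NB b ≤ r}
  φs : ∀ a, a ∈ φ.source ↔ NA a ≠ 0
  φt : ∀ b, b ∈ φ.target ↔ NB b ≠ 0
  φN : ∀ a, NA a ≠ 0 → NB (φ a) = NA a
  ε : ℝ
  ε0 : 0 < ε
  sub : ∀ a, NA a ≤ ε → a ∈ e.target
  ne : ∃ a, NA a ≠ 0 ∧ NA a < ε

/-- a compact sublevel set controls the neighbourhoods of the zero set -/
theorem exists_delta_of {Z : Type*} [TopologicalSpace Z] {f : Z → ℝ} (hf : Continuous f)
    {r : ℝ} (hr : 0 < r) (hk : IsCompact {z | f z ≤ r}) {W : Set Z} (hW : IsOpen W)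
    (h0 : ∀ z, f z ≤ 0 → z ∈ W) : ∃ δ > 0, δ ≤ r ∧ ∀ z, f z < δ → z ∈ W := by
  have h1 : IsCompact ({z | f z ≤ r} \ W) := hk.diff hW
  rcases ({z | f z ≤ r} \ W).eq_empty_or_nonempty with h2 | h2
  · refine ⟨r, hr, le_rfl, fun z hz => ?_⟩
    by_contra h3
    have : z ∈ {z | f z ≤ r} \ W := ⟨le_of_lt hz, h3⟩
    rw [h2] at this
    exact this
  · obtain ⟨z0, hz0, hm⟩ := h1.exists_isMinOn h2 hf.continuousOn
    have h3 : 0 < f z0 := by
      by_contra h4
      exact hz0.2 (h0 z0 (not_lt.1 h4))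
    refine ⟨min (f z0) r, lt_min h3 hr, min_le_right _ _, fun z hz => ?_⟩
    by_contra h4
    have h5 : z ∈ {z | f z ≤ r} \ W := ⟨le_of_lt (hz.trans_le (min_le_right _ _)), h4⟩
    have h6 : f z0 ≤ f z := hm h5
    exact absurd (hz.trans_le (min_le_left _ _)) (not_lt.2 h6)

namespace Sur

variable {X : Type u} {A : Type v} {B : Type w} [TopologicalSpace X] [TopologicalSpace A]
  [TopologicalSpace B] (S : Sur X A B)

/-- the centre -/
def K : Set X := S.e.symm '' {a | S.NA a = 0}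

open Classical in
/-- the norm function on `X`, cut off at `ε` -/
def nX (x : X) : ℝ := if x ∈ S.e.source then min (S.NA (S.e x)) S.ε else S.ε

theorem nX_of {x : X} (hx : x ∈ S.e.source) : S.nX x = min (S.NA (S.e x)) S.ε := if_pos hx

theorem nX_off {x : X} (hx : x ∉ S.e.source) : S.nX x = S.ε := if_neg hx

theorem nX_le (x : X) : S.nX x ≤ S.ε := by
  by_cases h : x ∈ S.e.source
  · rw [S.nX_of h]; exact min_le_right _ _
  · rw [S.nX_off h]

theorem nX_nonneg (x : X) : 0 ≤ S.nX x := by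
  by_cases h : x ∈ S.e.source
  · rw [S.nX_of h]; exact le_min (S.nA _) S.ε0.le
  · rw [S.nX_off h]; exact S.ε0.le

theorem nX_lt_iff {x : X} {r : ℝ} (hr : r ≤ S.ε) :
    S.nX x < r ↔ x ∈ S.e.source ∧ S.NA (S.e x) < r := by
  by_cases h : x ∈ S.e.source
  · rw [S.nX_of h, min_lt_iff]
    simp only [h, true_and, or_iff_left_iff_imp]
    intro h1
    exact absurd h1 (not_lt.2 hr)
  · rw [S.nX_off h]
    simp only [h, false_and, iff_false, not_lt]
    exact hr

theorem nX_le_iff {x : X} {r : ℝ} (hr : r < S.ε) :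
    S.nX x ≤ r ↔ x ∈ S.e.source ∧ S.NA (S.e x) ≤ r := by
  by_cases h : x ∈ S.e.source
  · rw [S.nX_of h, min_le_iff]
    simp only [h, true_and, or_iff_left_iff_imp]
    intro h1
    exact absurd h1 (not_le.2 hr)
  · rw [S.nX_off h]
    simp only [h, false_and, iff_false, not_le]
    exact hr

theorem nX_eq {x : X} (hx : x ∈ S.e.source) (h : S.NA (S.e x) ≤ S.ε) :
    S.nX x = S.NA (S.e x) := by
  rw [S.nX_of hx, min_eq_left h]

theorem mem_K {x : X} : x ∈ S.K ↔ x ∈ S.e.source ∧ S.NA (S.e x) = 0 := by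
  constructor
  · rintro ⟨a, ha, rfl⟩
    have ha' : S.NA a = 0 := ha
    have h1 : a ∈ S.e.target := S.sub a (by rw [ha']; exact S.ε0.le)
    exact ⟨S.e.map_target h1, by rw [S.e.right_inv h1]; exact ha⟩
  · rintro ⟨h1, h2⟩
    exact ⟨S.e x, h2, S.e.left_inv h1⟩

theorem nX_eq_zero {x : X} : S.nX x = 0 ↔ x ∈ S.K := by
  rw [S.mem_K]
  have h := S.nX_le_iff (x := x) S.ε0
  constructor
  · intro h0
    obtain ⟨h1, h2⟩ := h.1 h0.le
    exact ⟨h1, le_antisymm h2 (S.nA _)⟩
  · rintro ⟨h1, h2⟩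
    exact le_antisymm (h.2 ⟨h1, h2.le⟩) (S.nX_nonneg x)

theorem nX_ne_zero {x : X} : S.nX x ≠ 0 ↔ x ∉ S.K := not_congr S.nX_eq_zero

theorem K_sub : S.K ⊆ S.e.source := fun _ hx => (S.mem_K.1 hx).1

/-- the compact neighbourhoods of the centre -/
theorem setOf_le_eq {r : ℝ} (hr : r ≤ S.ε) :
    {x | x ∈ S.e.source ∧ S.NA (S.e x) ≤ r} = S.e.symm '' {a | S.NA a ≤ r} := by
  ext x
  constructor
  · rintro ⟨h1, h2⟩
    exact ⟨S.e x, h2, S.e.left_inv h1⟩
  · rintro ⟨a, ha, rfl⟩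
    have h1 : a ∈ S.e.target := S.sub a (le_trans ha hr)
    exact ⟨S.e.map_target h1, by rw [S.e.right_inv h1]; exact ha⟩

theorem isCompact_ball {r : ℝ} (hr : r ≤ S.ε) :
    IsCompact {x | x ∈ S.e.source ∧ S.NA (S.e x) ≤ r} := by
  rw [S.setOf_le_eq hr]
  refine (S.kA r).image_of_continuousOn (S.e.continuousOn_symm.mono fun a ha => ?_)
  exact S.sub a (le_trans ha hr)

theorem isCompact_nX_le {r : ℝ} (hr : r < S.ε) : IsCompact {x | S.nX x ≤ r} := by
  have : {x | S.nX x ≤ r} = {x | x ∈ S.e.source ∧ S.NA (S.e x) ≤ r} := by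
    ext x
    exact S.nX_le_iff hr
  rw [this]
  exact S.isCompact_ball hr.le

theorem isCompact_K : IsCompact S.K := by
  have h : S.K = {x | S.nX x ≤ 0} := by
    ext x
    rw [← S.nX_eq_zero]
    exact ⟨fun h => h.le, fun h => le_antisymm h (S.nX_nonneg x)⟩
  rw [h]
  exact S.isCompact_nX_le S.ε0

theorem continuous_nX [T2Space X] : Continuous S.nX := by
  have hc : IsClosed {x | x ∈ S.e.source ∧ S.NA (S.e x) ≤ S.ε} :=
    (S.isCompact_ball le_rfl).isClosed
  rw [continuous_iff_continuousAt]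
  intro x
  by_cases hx : x ∈ S.e.source
  · have h1 : ContinuousAt (fun x => min (S.NA (S.e x)) S.ε) x :=
      ((S.cA.continuousAt).comp (S.e.continuousAt hx)).min continuousAt_const
    refine h1.congr ?_
    filter_upwards [S.e.open_source.mem_nhds hx] with y hy
    exact (S.nX_of hy).symm
  · have h2 : x ∈ {x | x ∈ S.e.source ∧ S.NA (S.e x) ≤ S.ε}ᶜ := fun h => hx h.1
    refine (continuousAt_const (y := S.ε)).congr ?_
    filter_upwards [hc.isOpen_compl.mem_nhds h2] with y hy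
    by_cases hy' : y ∈ S.e.source
    · have h3 : ¬ S.NA (S.e y) ≤ S.ε := fun h => hy ⟨hy', h⟩
      rw [S.nX_of hy', min_eq_right (le_of_lt (not_le.1 h3))]
    · rw [S.nX_off hy']

theorem isClosed_K [T2Space X] : IsClosed S.K := S.isCompact_K.isClosed

/-- **norm package on `X`** -/
theorem exists_delta_X [T2Space X] {W : Set X} (hW : IsOpen W) (h0 : S.K ⊆ W) :
    ∃ δ > 0, δ < S.ε ∧ ∀ x, S.nX x < δ → x ∈ W := by
  obtain ⟨δ, h1, h2, h3⟩ := exists_delta_of S.continuous_nX (half_pos S.ε0)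
    (S.isCompact_nX_le (half_lt_self S.ε0)) hW (fun x hx =>
      h0 (S.nX_eq_zero.1 (le_antisymm hx (S.nX_nonneg x))))
  exact ⟨δ, h1, lt_of_le_of_lt h2 (half_lt_self S.ε0), h3⟩

/-! ### the two pieces -/

/-- the first piece -/
abbrev X0 : Type u := {x : X // x ∉ S.K}

/-- the second piece -/
abbrev X1 : Type w := {b : B // S.NB b < S.ε}

theorem not_mem_K_of {x : X} (_hx : x ∈ S.e.source) (h : S.NA (S.e x) ≠ 0) : x ∉ S.K :=
  fun h1 => h (S.mem_K.1 h1).2

theorem ne_zero_of {x : X} (h : x ∉ S.K) (hx : x ∈ S.e.source) : S.NA (S.e x) ≠ 0 :=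
  fun h1 => h (S.mem_K.2 ⟨hx, h1⟩)

theorem NB_φ {a : A} (h : S.NA a ≠ 0) : S.NB (S.φ a) = S.NA a := S.φN a h

theorem φ_source {a : A} (h : S.NA a ≠ 0) : a ∈ S.φ.source := (S.φs a).2 h

theorem φ_target {b : B} (h : S.NB b ≠ 0) : b ∈ S.φ.target := (S.φt b).2 h

theorem NA_symm {b : B} (h : S.NB b ≠ 0) : S.NA (S.φ.symm b) = S.NB b := by
  have h1 : S.φ.symm b ∈ S.φ.source := S.φ.map_target (S.φ_target h)
  rw [← S.NB_φ ((S.φs _).1 h1), S.φ.right_inv (S.φ_target h)]

theorem symm_target {b : B} (h : S.NB b ≠ 0) (h1 : S.NB b ≤ S.ε) : S.φ.symm b ∈ S.e.target :=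
  S.sub _ (by rw [S.NA_symm h]; exact h1)

/-- the point of `X` belonging to a point of `B` -/
def bx (b : B) : X := S.e.symm (S.φ.symm b)

theorem bx_source {b : B} (h : S.NB b ≠ 0) (h1 : S.NB b ≤ S.ε) : S.bx b ∈ S.e.source :=
  S.e.map_target (S.symm_target h h1)

theorem e_bx {b : B} (h : S.NB b ≠ 0) (h1 : S.NB b ≤ S.ε) : S.e (S.bx b) = S.φ.symm b :=
  S.e.right_inv (S.symm_target h h1)

theorem bx_not_mem {b : B} (h : S.NB b ≠ 0) (h1 : S.NB b ≤ S.ε) : S.bx b ∉ S.K :=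
  S.not_mem_K_of (S.bx_source h h1) (by rw [S.e_bx h h1, S.NA_symm h]; exact h)

theorem nX_bx {b : B} (h : S.NB b ≠ 0) (h1 : S.NB b ≤ S.ε) : S.nX (S.bx b) = S.NB b := by
  rw [S.nX_eq (S.bx_source h h1) (by rw [S.e_bx h h1, S.NA_symm h]; exact h1), S.e_bx h h1,
    S.NA_symm h]

instance : Nonempty S.X0 := by
  obtain ⟨a, h1, h2⟩ := S.ne
  have h3 := S.sub a h2.le
  exact ⟨⟨S.e.symm a, S.not_mem_K_of (S.e.map_target h3) (by rw [S.e.right_inv h3]; exact h1)⟩⟩

instance : Nonempty S.X1 := by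
  obtain ⟨a, h1, h2⟩ := S.ne
  exact ⟨⟨S.φ a, by rw [S.NB_φ h1]; exact h2⟩⟩

open Classical in
/-- the gluing map -/
def f0 (x : S.X0) : S.X1 :=
  if h : S.NB (S.φ (S.e x.1)) < S.ε then ⟨S.φ (S.e x.1), h⟩ else Classical.arbitrary _

open Classical in
/-- the inverse of the gluing map -/
def g1 (b : S.X1) : S.X0 :=
  if h : S.bx b.1 ∉ S.K then ⟨S.bx b.1, h⟩ else Classical.arbitrary _

theorem f0_val {x : S.X0} (hx : S.nX x.1 < S.ε) : (S.f0 x).1 = S.φ (S.e x.1) := by
  obtain ⟨h1, h2⟩ := (S.nX_lt_iff le_rfl).1 hx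
  have h3 : S.NB (S.φ (S.e x.1)) < S.ε := by rw [S.NB_φ (S.ne_zero_of x.2 h1)]; exact h2
  rw [f0, dif_pos h3]

theorem g1_val {b : S.X1} (hb : S.NB b.1 ≠ 0) : (S.g1 b).1 = S.bx b.1 := by
  rw [g1, dif_pos (S.bx_not_mem hb b.2.le)]

theorem NB_f0 {x : S.X0} (hx : S.nX x.1 < S.ε) : S.NB (S.f0 x).1 = S.nX x.1 := by
  obtain ⟨h1, h2⟩ := (S.nX_lt_iff le_rfl).1 hx
  rw [S.f0_val hx, S.NB_φ (S.ne_zero_of x.2 h1), S.nX_eq h1 h2.le]

variable [T2Space X]

/-- the gluing map as a partial homeomorphism -/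
def glue : OpenPartialHomeomorph S.X0 S.X1 where
  toFun := S.f0
  invFun := S.g1
  source := {x | S.nX x.1 < S.ε}
  target := {b | S.NB b.1 ≠ 0}
  map_source' x hx := by
    have hx' : S.nX x.1 < S.ε := hx
    show S.NB (S.f0 x).1 ≠ 0
    rw [S.NB_f0 hx', S.nX_ne_zero]
    exact x.2
  map_target' b hb := by
    have hb' : S.NB b.1 ≠ 0 := hb
    show S.nX (S.g1 b).1 < S.ε
    rw [S.g1_val hb', S.nX_bx hb' b.2.le]
    exact b.2
  left_inv' x hx := by
    have hx' : S.nX x.1 < S.ε := hx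
    obtain ⟨h1, h2⟩ := (S.nX_lt_iff le_rfl).1 hx'
    have h3 := S.ne_zero_of x.2 h1
    have h4 : S.NB (S.f0 x).1 ≠ 0 := by
      rw [S.NB_f0 hx', S.nX_ne_zero]
      exact x.2
    refine Subtype.ext ?_
    rw [S.g1_val h4, S.f0_val hx', bx, S.φ.left_inv (S.φ_source h3), S.e.left_inv h1]
  right_inv' b hb := by
    have hb' : S.NB b.1 ≠ 0 := hb
    have h1 : S.nX (S.g1 b).1 < S.ε := by
      rw [S.g1_val hb', S.nX_bx hb' b.2.le]
      exact b.2
    refine Subtype.ext ?_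
    rw [S.f0_val h1, S.g1_val hb', S.e_bx hb' b.2.le, S.φ.right_inv (S.φ_target hb')]
  open_source := isOpen_lt (S.continuous_nX.comp continuous_subtype_val) continuous_const
  open_target := isOpen_ne_fun (S.cB.comp continuous_subtype_val) continuous_const
  continuousOn_toFun := by
    rw [(⟨rfl⟩ : IsInducing (Subtype.val : S.X1 → B)).continuousOn_iff]
    have h : ContinuousOn (fun x : S.X0 => S.φ (S.e x.1)) {x | S.nX x.1 < S.ε} := by
      refine S.φ.continuousOn.comp (S.e.continuousOn.comp continuous_subtype_val.continuousOn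
        fun x hx => ((S.nX_lt_iff le_rfl).1 hx).1) fun x hx => ?_
      exact S.φ_source (S.ne_zero_of x.2 ((S.nX_lt_iff le_rfl).1 hx).1)
    exact h.congr fun x hx => S.f0_val hx
  continuousOn_invFun := by
    rw [(⟨rfl⟩ : IsInducing (Subtype.val : S.X0 → X)).continuousOn_iff]
    have h : ContinuousOn (fun b : S.X1 => S.bx b.1) {b | S.NB b.1 ≠ 0} := by
      refine S.e.symm.continuousOn.comp (S.φ.symm.continuousOn.comp
        continuous_subtype_val.continuousOn fun b hb => S.φ_target hb) fun b hb => ?_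
      exact S.symm_target hb b.2.le
    exact h.congr fun b hb => S.g1_val hb

theorem glue_source {x : S.X0} : x ∈ S.glue.source ↔ S.nX x.1 < S.ε := Iff.rfl

theorem glue_target {b : S.X1} : b ∈ S.glue.target ↔ S.NB b.1 ≠ 0 := Iff.rfl

theorem glue_val {x : S.X0} (hx : S.nX x.1 < S.ε) : (S.glue x).1 = S.φ (S.e x.1) := S.f0_val hx

theorem glue_symm_val {b : S.X1} (hb : S.NB b.1 ≠ 0) : (S.glue.symm b).1 = S.bx b.1 :=
  S.g1_val hb

/-- the surgery data over the base `ℝ` (norm functions) -/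
def sd : SD ℝ S.X0 S.X1 where
  p0 x := S.nX x.1
  p1 b := S.NB b.1
  c0 := S.continuous_nX.comp continuous_subtype_val
  c1 := S.cB.comp continuous_subtype_val
  U := Iio S.ε
  Z := {0}
  oU := isOpen_Iio
  cZ := isClosed_singleton
  ZU := by
    rintro _ rfl
    exact S.ε0
  n0 x := fun h => x.2 (S.nX_eq_zero.1 h)
  n1 b := b.2
  φ := S.glue
  φs _ := Iff.rfl
  φt _ := Iff.rfl
  φp _ hx := S.NB_f0 hx

/-- **the space after the surgery** -/
abbrev XP : Type (max u w) := S.sd.X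

/-- the norm function on the new space -/
def nf : S.XP → ℝ := S.sd.p

theorem continuous_nf : Continuous S.nf := S.sd.c_p

/-- the new centre -/
def K' : Set S.XP := {z | S.nf z = 0}

theorem mem_K' {z : S.XP} : z ∈ S.K' ↔ S.nf z = 0 := Iff.rfl

theorem isClosed_K' : IsClosed S.K' := isClosed_singleton.preimage S.continuous_nf

theorem isOpenEmbedding_val0 : IsOpenEmbedding (Subtype.val : S.X0 → X) :=
  S.isClosed_K.isOpen_compl.isOpenEmbedding_subtypeVal

omit [T2Space X] in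
theorem isOpenEmbedding_val1 : IsOpenEmbedding (Subtype.val : S.X1 → B) :=
  (isOpen_Iio.preimage S.cB).isOpenEmbedding_subtypeVal

/-- the old part of the new space -/
def iota : OpenPartialHomeomorph X S.XP :=
  (S.isOpenEmbedding_val0.toOpenPartialHomeomorph _).symm.trans
    (S.sd.oe_il.toOpenPartialHomeomorph _)

/-- the new part of the new space -/
def ep : OpenPartialHomeomorph S.XP B :=
  (S.sd.oe_ir.toOpenPartialHomeomorph _).symm.trans
    (S.isOpenEmbedding_val1.toOpenPartialHomeomorph _)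

theorem iota_val (x : S.X0) : S.iota x.1 = S.sd.il x := by
  have h := (S.isOpenEmbedding_val0.toOpenPartialHomeomorph _).left_inv (mem_univ x)
  show S.sd.il ((S.isOpenEmbedding_val0.toOpenPartialHomeomorph _).symm x.1) = _
  exact congrArg S.sd.il h

theorem iota_of {x : X} (hx : x ∉ S.K) : S.iota x = S.sd.il ⟨x, hx⟩ := S.iota_val ⟨x, hx⟩

theorem iota_symm_il (x : S.X0) : S.iota.symm (S.sd.il x) = x.1 := by
  have h := (S.sd.oe_il.toOpenPartialHomeomorph _).left_inv (mem_univ x)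
  show (((S.sd.oe_il.toOpenPartialHomeomorph _).symm (S.sd.il x) : S.X0) : X) = _
  exact congrArg Subtype.val h

theorem ep_ir (b : S.X1) : S.ep (S.sd.ir b) = b.1 := by
  have h := (S.sd.oe_ir.toOpenPartialHomeomorph _).left_inv (mem_univ b)
  show (((S.sd.oe_ir.toOpenPartialHomeomorph _).symm (S.sd.ir b) : S.X1) : B) = _
  exact congrArg Subtype.val h

theorem ep_symm_val (b : S.X1) : S.ep.symm b.1 = S.sd.ir b := by
  have h := (S.isOpenEmbedding_val1.toOpenPartialHomeomorph _).left_inv (mem_univ b)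
  show S.sd.ir ((S.isOpenEmbedding_val1.toOpenPartialHomeomorph _).symm b.1) = _
  exact congrArg S.sd.ir h

theorem ep_symm_of {b : B} (hb : S.NB b < S.ε) : S.ep.symm b = S.sd.ir ⟨b, hb⟩ :=
  S.ep_symm_val ⟨b, hb⟩

theorem iota_source : S.iota.source = S.Kᶜ := by
  rw [iota, OpenPartialHomeomorph.trans_source, OpenPartialHomeomorph.symm_source,
    IsOpenEmbedding.toOpenPartialHomeomorph_source, IsOpenEmbedding.toOpenPartialHomeomorph_target,
    preimage_univ, inter_univ]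
  exact Subtype.range_coe

theorem mem_iota_source {x : X} : x ∈ S.iota.source ↔ x ∉ S.K := by
  rw [S.iota_source]; rfl

theorem iota_target : S.iota.target = S.K'ᶜ := by
  rw [iota, OpenPartialHomeomorph.trans_target, OpenPartialHomeomorph.symm_target,
    IsOpenEmbedding.toOpenPartialHomeomorph_source, IsOpenEmbedding.toOpenPartialHomeomorph_target,
    preimage_univ, inter_univ, S.sd.range_il]
  rfl

theorem mem_iota_target {z : S.XP} : z ∈ S.iota.target ↔ S.nf z ≠ 0 := by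
  rw [S.iota_target]; rfl

theorem ep_source : S.ep.source = {z | S.nf z < S.ε} := by
  rw [ep, OpenPartialHomeomorph.trans_source, OpenPartialHomeomorph.symm_source,
    IsOpenEmbedding.toOpenPartialHomeomorph_source, IsOpenEmbedding.toOpenPartialHomeomorph_target,
    preimage_univ, inter_univ, S.sd.range_ir]
  rfl

theorem mem_ep_source {z : S.XP} : z ∈ S.ep.source ↔ S.nf z < S.ε := by
  rw [S.ep_source]; rfl

theorem ep_target : S.ep.target = {b | S.NB b < S.ε} := by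
  rw [ep, OpenPartialHomeomorph.trans_target, OpenPartialHomeomorph.symm_target,
    IsOpenEmbedding.toOpenPartialHomeomorph_source, IsOpenEmbedding.toOpenPartialHomeomorph_target,
    preimage_univ, inter_univ]
  exact Subtype.range_coe

theorem mem_ep_target {b : B} : b ∈ S.ep.target ↔ S.NB b < S.ε := by
  rw [S.ep_target]; rfl

@[simp] theorem nf_il (x : S.X0) : S.nf (S.sd.il x) = S.nX x.1 := rfl

@[simp] theorem nf_ir (b : S.X1) : S.nf (S.sd.ir b) = S.NB b.1 := S.sd.p_ir b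

theorem nf_iota {x : X} (hx : x ∉ S.K) : S.nf (S.iota x) = S.nX x := by
  rw [S.iota_of hx, S.nf_il]

theorem NB_ep {z : S.XP} (hz : S.nf z < S.ε) : S.NB (S.ep z) = S.nf z := by
  obtain ⟨b, rfl⟩ : z ∈ range S.sd.ir := by rw [S.sd.range_ir]; exact hz
  rw [S.ep_ir, S.nf_ir]

theorem nf_ep_symm {b : B} (hb : S.NB b < S.ε) : S.nf (S.ep.symm b) = S.NB b := by
  rw [S.ep_symm_of hb, S.nf_ir]

theorem nX_iota_symm {z : S.XP} (hz : S.nf z ≠ 0) : S.nX (S.iota.symm z) = S.nf z := by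
  obtain ⟨x, rfl⟩ : z ∈ range S.sd.il := by rw [S.sd.range_il]; exact hz
  rw [S.iota_symm_il, S.nf_il]

theorem iota_symm_not_mem {z : S.XP} (hz : S.nf z ≠ 0) : S.iota.symm z ∉ S.K := by
  rw [← S.nX_ne_zero, S.nX_iota_symm hz]
  exact hz

theorem nf_nonneg (z : S.XP) : 0 ≤ S.nf z := by
  revert z
  exact S.sd.ind (fun x => S.nX_nonneg _) (fun b => by rw [S.nf_ir]; exact S.nB _)

theorem nf_le (z : S.XP) : S.nf z ≤ S.ε := by
  revert z
  exact S.sd.ind (fun x => S.nX_le _) (fun b => by rw [S.nf_ir]; exact b.2.le)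

/-- every point is in one of the two parts -/
theorem cover (z : S.XP) : z ∈ S.iota.target ∨ z ∈ S.ep.source := by
  rw [S.mem_iota_target, S.mem_ep_source]
  by_cases h : S.nf z = 0
  · exact Or.inr (by rw [h]; exact S.ε0)
  · exact Or.inl h

/-- **compatibility of the two parts** -/
theorem ep_iota {x : X} (hx : x ∉ S.K) (h1 : S.nX x < S.ε) : S.ep (S.iota x) = S.φ (S.e x) := by
  rw [S.iota_of hx]
  have h2 : (⟨x, hx⟩ : S.X0) ∈ S.sd.φ.source := h1
  rw [← S.sd.ir_φ h2, S.ep_ir]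
  exact S.f0_val (x := ⟨x, hx⟩) h1

theorem ep_iota' {x : X} (hx : x ∈ S.e.source) (h0 : S.NA (S.e x) ≠ 0)
    (h1 : S.NA (S.e x) < S.ε) : S.ep (S.iota x) = S.φ (S.e x) :=
  S.ep_iota (S.not_mem_K_of hx h0) ((S.nX_lt_iff le_rfl).2 ⟨hx, h1⟩)

theorem iota_symm_ep_symm {b : B} (h0 : S.NB b ≠ 0) (h1 : S.NB b < S.ε) :
    S.iota.symm (S.ep.symm b) = S.bx b := by
  rw [S.ep_symm_of h1]
  have h2 : (⟨b, h1⟩ : S.X1) ∈ S.sd.φ.target := h0
  rw [S.sd.ir_target h2, S.iota_symm_il]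
  exact S.g1_val (b := ⟨b, h1⟩) h0

theorem iota_bx {b : B} (h0 : S.NB b ≠ 0) (h1 : S.NB b < S.ε) :
    S.iota (S.bx b) = S.ep.symm b := by
  rw [← S.iota_symm_ep_symm h0 h1, S.iota.right_inv]
  rw [S.mem_iota_target, S.nf_ep_symm h1]
  exact h0

theorem e_iota_symm {z : S.XP} (h0 : S.nf z ≠ 0) (h1 : S.nf z < S.ε) :
    S.iota.symm z ∈ S.e.source ∧ S.e (S.iota.symm z) = S.φ.symm (S.ep z) := by
  obtain ⟨b, rfl⟩ : z ∈ range S.sd.ir := by rw [S.sd.range_ir]; exact h1
  rw [S.nf_ir] at h0 h1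
  rw [← S.ep_symm_val b, S.iota_symm_ep_symm h0 h1, S.ep_symm_val b, S.ep_ir]
  exact ⟨S.bx_source h0 h1.le, S.e_bx h0 h1.le⟩

/-- the new centre is `{NB = 0}` -/
theorem K'_eq : S.K' = S.ep.symm '' {b | S.NB b = 0} := by
  ext z
  constructor
  · intro hz
    have hz' : S.nf z = 0 := hz
    have h1 : S.nf z < S.ε := by rw [hz']; exact S.ε0
    exact ⟨S.ep z, by rw [mem_ofPred_eq, S.NB_ep h1, hz'], S.ep.left_inv (S.mem_ep_source.2 h1)⟩
  · rintro ⟨b, hb, rfl⟩
    have hb' : S.NB b = 0 := hb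
    rw [mem_K', S.nf_ep_symm (by rw [hb']; exact S.ε0), hb']

theorem isCompact_nf_le {r : ℝ} (hr : r < S.ε) : IsCompact {z | S.nf z ≤ r} := by
  have h : {z | S.nf z ≤ r} = S.ep.symm '' {b | S.NB b ≤ r} := by
    ext z
    constructor
    · intro hz
      have hz' : S.nf z ≤ r := hz
      have h1 : S.nf z < S.ε := lt_of_le_of_lt hz' hr
      exact ⟨S.ep z, by rw [mem_ofPred_eq, S.NB_ep h1]; exact hz',
        S.ep.left_inv (S.mem_ep_source.2 h1)⟩
    · rintro ⟨b, hb, rfl⟩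
      have hb' : S.NB b ≤ r := hb
      rw [mem_ofPred_eq, S.nf_ep_symm (lt_of_le_of_lt hb' hr)]
      exact hb'
  rw [h]
  refine (S.kB r).image_of_continuousOn (S.ep.continuousOn_symm.mono fun b hb => ?_)
  exact S.mem_ep_target.2 (lt_of_le_of_lt hb hr)

theorem isCompact_K' : IsCompact S.K' := by
  have h : S.K' = {z | S.nf z ≤ 0} := by
    ext z
    exact ⟨fun h => le_of_eq h, fun h => le_antisymm h (S.nf_nonneg z)⟩
  rw [h]
  exact S.isCompact_nf_le S.ε0

/-- **norm package on the new space** -/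
theorem exists_delta {W : Set S.XP} (hW : IsOpen W) (h0 : S.K' ⊆ W) :
    ∃ δ > 0, δ < S.ε ∧ ∀ z, S.nf z < δ → z ∈ W := by
  obtain ⟨δ, h1, h2, h3⟩ := exists_delta_of S.continuous_nf (half_pos S.ε0)
    (S.isCompact_nf_le (half_lt_self S.ε0)) hW (fun z hz =>
      h0 (le_antisymm hz (S.nf_nonneg z)))
  exact ⟨δ, h1, lt_of_le_of_lt h2 (half_lt_self S.ε0), h3⟩

/-! ### topological properties -/

theorem t2 [T2Space B] : T2Space S.XP := S.sd.t2

theorem lc [LocallyCompactSpace X] [T2Space B] [LocallyCompactSpace B] :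
    LocallyCompactSpace S.XP := by
  haveI : LocallyCompactSpace S.X0 := S.isOpenEmbedding_val0.locallyCompactSpace
  haveI : LocallyCompactSpace S.X1 := S.isOpenEmbedding_val1.locallyCompactSpace
  exact S.sd.lc

theorem sc [SecondCountableTopology X] [SecondCountableTopology B] :
    SecondCountableTopology S.XP := by
  haveI : SecondCountableTopology S.X0 := (⟨rfl⟩ : IsInducing (Subtype.val : S.X0 → X)).secondCountableTopology
  haveI : SecondCountableTopology S.X1 := (⟨rfl⟩ : IsInducing (Subtype.val : S.X1 → B)).secondCountableTopology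
  exact S.sd.sc

theorem isCompact_image_iota {C : Set X} (hC : IsCompact C) (h : Disjoint C S.K) :
    IsCompact (S.iota '' C) := by
  refine hC.image_of_continuousOn (S.iota.continuousOn.mono fun x hx => ?_)
  exact S.mem_iota_source.2 (disjoint_left.1 h hx)

theorem compact [CompactSpace X] : CompactSpace S.XP := by
  refine ⟨?_⟩
  have h1 : IsCompact {x | S.ε / 2 ≤ S.nX x} :=
    (isClosed_le continuous_const S.continuous_nX).isCompact
  have h2 : IsCompact (S.iota '' {x | S.ε / 2 ≤ S.nX x}) := by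
    refine S.isCompact_image_iota h1 (disjoint_left.2 fun x hx hK => ?_)
    have h3 : S.ε / 2 ≤ S.nX x := hx
    rw [S.nX_eq_zero.2 hK] at h3
    exact absurd (half_pos S.ε0) (not_lt.2 h3)
  have h3 : IsCompact {z | S.nf z ≤ S.ε / 2} := S.isCompact_nf_le (half_lt_self S.ε0)
  have h4 : (univ : Set S.XP) = S.iota '' {x | S.ε / 2 ≤ S.nX x} ∪ {z | S.nf z ≤ S.ε / 2} := by
    refine Subset.antisymm (fun z _ => ?_) (subset_univ _)
    rcases le_total (S.nf z) (S.ε / 2) with h | h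
    · exact Or.inr h
    · refine Or.inl ?_
      have h5 : S.nf z ≠ 0 := (lt_of_lt_of_le (half_pos S.ε0) h).ne'
      exact ⟨S.iota.symm z, by rw [mem_ofPred_eq, S.nX_iota_symm h5]; exact h,
        S.iota.right_inv (S.mem_iota_target.2 h5)⟩
  rw [h4]
  exact h2.union h3

/-- the zero set of `NB` has no interior -/
theorem denseRange_il (hd : Dense {b | S.NB b ≠ 0}) : Dense S.iota.target := by
  have h1 : Dense S.sd.φ.target := by
    have h2 : S.sd.φ.target = Subtype.val ⁻¹' {b | S.NB b ≠ 0} := rfl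
    rw [h2]
    exact hd.preimage S.isOpenEmbedding_val1.isOpenMap
  have h3 := S.sd.denseRange_il h1
  rw [S.iota_target]
  have h4 : range S.sd.il = S.K'ᶜ := S.sd.range_il
  rw [← h4]
  exact h3

theorem preconnected (hc : IsPreconnected S.Kᶜ) (hd : Dense {b | S.NB b ≠ 0}) :
    PreconnectedSpace S.XP := by
  haveI : PreconnectedSpace S.X0 := Subtype.preconnectedSpace hc
  exact S.sd.preconnected (hd.preimage S.isOpenEmbedding_val1.isOpenMap)

theorem connected (hc : IsPreconnected S.Kᶜ) (hd : Dense {b | S.NB b ≠ 0}) :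
    ConnectedSpace S.XP := by
  haveI := S.preconnected hc hd
  exact ConnectedSpace.mk ⟨S.sd.il (Classical.arbitrary _)⟩

/-! ### maps out of the new space -/

/-- compatible maps on the two parts: `f0` used off the new centre, `f1` on it -/
def desc {Y : Type*} (f0 : X → Y) (f1 : B → Y) : S.XP → Y :=
  S.sd.desc (fun x => f0 x.1) (fun b => f1 b.1)

theorem desc_iota {Y : Type*} (f0 : X → Y) (f1 : B → Y) {x : X} (hx : x ∉ S.K) :
    S.desc f0 f1 (S.iota x) = f0 x := by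
  rw [S.iota_of hx]; rfl

theorem desc_of {Y : Type*} (f0 : X → Y) (f1 : B → Y) {z : S.XP} (hz : S.nf z ≠ 0) :
    S.desc f0 f1 z = f0 (S.iota.symm z) := by
  conv_lhs => rw [← S.iota.right_inv (S.mem_iota_target.2 hz)]
  exact S.desc_iota f0 f1 (S.iota_symm_not_mem hz)

/-- the compatibility condition -/
def Cp {Y : Type*} (f0 : X → Y) (f1 : B → Y) : Prop :=
  ∀ x ∈ S.e.source, S.NA (S.e x) ≠ 0 → S.NA (S.e x) < S.ε → f1 (S.φ (S.e x)) = f0 x

theorem Cp.sd {S : Sur X A B} {Y : Type*} {f0 : X → Y} {f1 : B → Y} (h : S.Cp f0 f1) :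
    ∀ x ∈ S.sd.φ.source, f1 (S.sd.φ x).1 = f0 x.1 := by
  intro x hx
  have hx' : S.nX x.1 < S.ε := hx
  have h1 : (S.sd.φ x).1 = S.φ (S.e x.1) := S.f0_val hx'
  obtain ⟨h2, h3⟩ := (S.nX_lt_iff le_rfl).1 hx'
  rw [h1]
  exact h x.1 h2 (S.ne_zero_of x.2 h2) h3

theorem desc_ep_symm {Y : Type*} {f0 : X → Y} {f1 : B → Y} (h : S.Cp f0 f1) {b : B}
    (hb : S.NB b < S.ε) : S.desc f0 f1 (S.ep.symm b) = f1 b := by
  rw [S.ep_symm_of hb]
  exact S.sd.desc_ir (f0 := fun x => f0 x.1) (f1 := fun b => f1 b.1) h.sd ⟨b, hb⟩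

theorem desc_ep {Y : Type*} {f0 : X → Y} {f1 : B → Y} (h : S.Cp f0 f1) {z : S.XP}
    (hz : S.nf z < S.ε) : S.desc f0 f1 z = f1 (S.ep z) := by
  conv_lhs => rw [← S.ep.left_inv (S.mem_ep_source.2 hz)]
  exact S.desc_ep_symm h (by rw [S.NB_ep hz]; exact hz)

theorem continuous_desc {Y : Type*} [TopologicalSpace Y] {f0 : X → Y} {f1 : B → Y}
    (h : S.Cp f0 f1) (h0 : ContinuousOn f0 S.Kᶜ) (h1 : ContinuousOn f1 {b | S.NB b < S.ε}) :
    Continuous (S.desc f0 f1) := by
  refine S.sd.c_desc ?_ ?_ h.sd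
  · exact h0.comp_continuous continuous_subtype_val fun x => x.2
  · exact h1.comp_continuous continuous_subtype_val fun b => b.2

/-- a map `f` on `X` (constant on `K`) seen on the new space -/
def push {Y : Type*} (f : X → Y) (y₀ : Y) : S.XP → Y :=
  S.sd.desc (fun x => f x.1) (fun _ => y₀)

theorem push_iota {Y : Type*} (f : X → Y) (y₀ : Y) {x : X} (hx : x ∉ S.K) :
    S.push f y₀ (S.iota x) = f x := by
  rw [S.iota_of hx]; rfl

theorem push_of {Y : Type*} (f : X → Y) (y₀ : Y) {z : S.XP} (hz : S.nf z ≠ 0) :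
    S.push f y₀ z = f (S.iota.symm z) := by
  conv_lhs => rw [← S.iota.right_inv (S.mem_iota_target.2 hz)]
  exact S.push_iota f y₀ (S.iota_symm_not_mem hz)

theorem push_K' {Y : Type*} (f : X → Y) (y₀ : Y) {z : S.XP} (hz : S.nf z = 0) :
    S.push f y₀ z = y₀ := by
  obtain ⟨b, rfl⟩ : z ∈ range S.sd.ir := by
    rw [S.sd.range_ir, mem_preimage]
    show S.nf z < S.ε
    rw [hz]
    exact S.ε0
  rw [S.nf_ir] at hz
  have h1 : S.sd.p1 b ∈ S.sd.Z := hz
  rw [S.sd.ir_mem h1]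
  rfl

theorem push_ep_symm {Y : Type*} (f : X → Y) (y₀ : Y) {b : B} (h0 : S.NB b ≠ 0)
    (h1 : S.NB b < S.ε) : S.push f y₀ (S.ep.symm b) = f (S.bx b) := by
  rw [S.push_of f y₀ (by rw [S.nf_ep_symm h1]; exact h0), S.iota_symm_ep_symm h0 h1]

theorem continuous_push {Y : Type*} [TopologicalSpace Y] {f : X → Y} {y₀ : Y}
    (hf : Continuous f) (h0 : ∀ x ∈ S.K, f x = y₀) : Continuous (S.push f y₀) := by
  rw [continuous_iff_continuousAt]
  intro z
  by_cases hz : S.nf z = 0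
  · rw [ContinuousAt, S.push_K' f y₀ hz, tendsto_nhds]
    intro W hW hy
    obtain ⟨δ, hδ, -, h1⟩ := S.exists_delta_X (hW.preimage hf) (fun x hx => by
      rw [mem_preimage, h0 x hx]; exact hy)
    have h2 : {z' | S.nf z' < δ} ∈ 𝓝 z :=
      (isOpen_lt S.continuous_nf continuous_const).mem_nhds (by rw [mem_ofPred_eq, hz]; exact hδ)
    filter_upwards [h2] with z' hz'
    rw [mem_preimage]
    by_cases h3 : S.nf z' = 0
    · rw [S.push_K' f y₀ h3]; exact hy
    · rw [S.push_of f y₀ h3]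
      exact h1 _ (by rw [S.nX_iota_symm h3]; exact hz')
  · have h1 : z ∈ S.iota.target := S.mem_iota_target.2 hz
    have h2 : ContinuousAt (fun z => f (S.iota.symm z)) z :=
      hf.continuousAt.comp (S.iota.continuousAt_symm h1)
    refine h2.congr ?_
    filter_upwards [S.iota.open_target.mem_nhds h1] with z' hz'
    exact (S.push_of f y₀ (S.mem_iota_target.1 hz')).symm

/-- preimages of compact sets under `push` -/
theorem isCompact_push_preimage {Y : Type*} [TopologicalSpace Y] {f : X → Y} {y₀ : Y}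
    {C : Set Y} (hC : IsCompact (f ⁻¹' C)) (hCc : IsClosed (S.push f y₀ ⁻¹' C)) :
    IsCompact (S.push f y₀ ⁻¹' C) := by
  have h1 : IsCompact (f ⁻¹' C ∩ {x | S.ε / 2 ≤ S.nX x}) :=
    hC.inter_right (isClosed_le continuous_const S.continuous_nX)
  have h2 : IsCompact (S.iota '' (f ⁻¹' C ∩ {x | S.ε / 2 ≤ S.nX x})) := by
    refine S.isCompact_image_iota h1 (disjoint_left.2 fun x hx hK => ?_)
    have h3 : S.ε / 2 ≤ S.nX x := hx.2
    rw [S.nX_eq_zero.2 hK] at h3
    exact absurd (half_pos S.ε0) (not_lt.2 h3)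
  have h3 : IsCompact ({z | S.nf z ≤ S.ε / 2} ∩ S.push f y₀ ⁻¹' C) :=
    (S.isCompact_nf_le (half_lt_self S.ε0)).inter_right hCc
  have h4 : S.push f y₀ ⁻¹' C =
      S.iota '' (f ⁻¹' C ∩ {x | S.ε / 2 ≤ S.nX x}) ∪
        ({z | S.nf z ≤ S.ε / 2} ∩ S.push f y₀ ⁻¹' C) := by
    ext z
    constructor
    · intro hz
      rcases le_total (S.nf z) (S.ε / 2) with h | h
      · exact Or.inr ⟨h, hz⟩
      · refine Or.inl ?_
        have h5 : S.nf z ≠ 0 := (lt_of_lt_of_le (half_pos S.ε0) h).ne'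
        refine ⟨S.iota.symm z, ⟨?_, ?_⟩, S.iota.right_inv (S.mem_iota_target.2 h5)⟩
        · rw [mem_preimage, S.push_of f y₀ h5] at hz
          exact hz
        · rw [mem_ofPred_eq, S.nX_iota_symm h5]; exact h
    · rintro (⟨x, ⟨hx, hx'⟩, rfl⟩ | ⟨_, hz⟩)
      · have h5 : x ∉ S.K := fun hK => by
          have h3 : S.ε / 2 ≤ S.nX x := hx'
          rw [S.nX_eq_zero.2 hK] at h3
          exact absurd (half_pos S.ε0) (not_lt.2 h3)
        rw [mem_preimage, S.push_iota f y₀ h5]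
        exact hx
      · exact hz
  rw [h4]
  exact h2.union h3

end Sur

end

end Crest.Agent.R272.Sur_342
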