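import Crest.Agent.R272.Sur2_342

/-!
# R272 (helper342): surgery at one centre, removable new centre

`Rem S DB D` : continuous maps `B → P` which are holomorphic off `{NB = 0}` are holomorphic;
then a continuous map out of `S.XP`, holomorphic off `K'`, is holomorphic (`holC_of_rem`), and
`S.push f y₀` is holomorphic for every holomorphic `f : X → P` with `f = y₀` on `K`.
-/

set_option autoImplicit false
set_option linter.unusedSectionVars false
set_option linter.style.haveILetI false

open Set Filter Topology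

namespace Crest.Agent.R272.Sur_342

open Crest.Agent.R275.Geo Crest.Agent.R273.Fam_835 Crest.Agent.R272.HFam_342
  Crest.Agent.R272.Two_342

noncomputable section

namespace Sur

variable {n m : ℕ} {X A B P : Type} [TopologicalSpace X] [TopologicalSpace A]
  [TopologicalSpace B] [TopologicalSpace P] (S : Sur X A B)

/-- continuous and holomorphic off the zero set implies holomorphic -/
def Rem (DB : Fam n B) (E : Fam m P) : Prop :=
  ∀ b : B, S.NB b = 0 → ∀ f : B → P, (∀ᶠ y in 𝓝 b, ContinuousAt f y) →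
    (∀ᶠ y in 𝓝 b, S.NB y ≠ 0 → HC DB E f y) → HC DB E f b

variable {S} {C : Fam n X} {DA : Fam n A} {DB : Fam n B} (h : S.Hol C DA DB) [T2Space X]
  {E : Fam m P}

/-- the new centre is removable -/
theorem hC_of_rem (hr : S.Rem DB E) {f : S.XP → P} {z : S.XP} (hz : S.nf z = 0)
    (hc : ∀ᶠ y in 𝓝 z, ContinuousAt f y) (ho : ∀ᶠ y in 𝓝 z, S.nf y ≠ 0 → HC (fam h) E f y) :
    HC (fam h) E f z := by
  have hz1 : S.nf z < S.ε := by rw [hz]; exact S.ε0
  have hb1 : S.NB (S.ep z) < S.ε := by rw [S.NB_ep hz1]; exact hz1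
  have hb0 : S.NB (S.ep z) = 0 := by rw [S.NB_ep hz1]; exact hz
  rw [hC_iff_on h hz1]
  have h1 : ContinuousAt S.ep.symm (S.ep z) := S.ep.continuousAt_symm (S.mem_ep_target.2 hb1)
  have e1 : S.ep.symm (S.ep z) = z := S.ep.left_inv (S.mem_ep_source.2 hz1)
  have h2 : ∀ᶠ b in 𝓝 (S.ep z), S.NB b < S.ε := (isOpen_lt S.cB continuous_const).mem_nhds hb1
  have h3 : ∀ᶠ b in 𝓝 (S.ep z), ContinuousAt f (S.ep.symm b) := by
    refine h1.eventually ?_
    rw [e1]
    exact hc
  have h4 : ∀ᶠ b in 𝓝 (S.ep z), S.nf (S.ep.symm b) ≠ 0 → HC (fam h) E f (S.ep.symm b) := by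
    refine h1.eventually (p := fun y => S.nf y ≠ 0 → HC (fam h) E f y) ?_
    rw [e1]
    exact ho
  refine hr _ hb0 _ ?_ ?_
  · filter_upwards [h2, h3] with b hb hb'
    exact ContinuousAt.comp (g := f) hb' (S.ep.continuousAt_symm (S.mem_ep_target.2 hb))
  · filter_upwards [h2, h4] with b hb hb' hb0
    exact (hC_at_ep_symm h hb).1 (hb' (by rw [S.nf_ep_symm hb]; exact hb0))

theorem holC_of_rem (hr : S.Rem DB E) {f : S.XP → P} (hc : Continuous f)
    (ho : ∀ z, S.nf z ≠ 0 → HC (fam h) E f z) : HolC (fam h) E f := by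
  rw [holC_iff_hC]
  intro z
  by_cases hz : S.nf z = 0
  · exact hC_of_rem h hr hz (Eventually.of_forall fun y => hc.continuousAt)
      (Eventually.of_forall ho)
  · exact ho z hz

/-- **a holomorphic map contracting the centre is holomorphic on the new space** -/
theorem holC_push_rem (hr : S.Rem DB E) {f : X → P} {y₀ : P} (hf : HolC C E f)
    (h0 : ∀ x ∈ S.K, f x = y₀) : HolC (fam h) E (S.push f y₀) :=
  holC_of_rem h hr (S.continuous_push hf.cont h0) fun _ hz => hC_push h hz (hf.hC _)

/-- the same for a map which is only holomorphic off the centre -/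
theorem holC_push_rem' (hr : S.Rem DB E) {f : X → P} {y₀ : P} (hc : Continuous f)
    (hf : ∀ x, x ∉ S.K → HC C E f x)
    (h0 : ∀ x ∈ S.K, f x = y₀) : HolC (fam h) E (S.push f y₀) :=
  holC_of_rem h hr (S.continuous_push hc h0)
    fun _ hz => hC_push h hz (hf _ (S.iota_symm_not_mem hz))

end Sur

end

end Crest.Agent.R272.Sur_342
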