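import Crest.Agent.R272.Sur3_342
import Crest.Agent.R272.Sur4_342
import Crest.Agent.R272.Idn5_834
import Crest.Agent.R272.Flop8_66
import Crest.Agent.R272.MQ1_783

/-!
# R272 (helper342): the surgery of S0415, instance of `Sur_342` on `Inp.ident` (834) and `phi` (66)

`eId I hG hcov : Orb G Y ⇀ Um` (the identification of 834), `sur I hG hcov : Sur (Orb G Y) Um Up`.

* `hol` : `(sur ..).Hol (qFam hG hcov) Um.fam Up.fam`;
* `K_eq`, `mem_K_pr` : the centre is the image of the antidiagonal of the zero section;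
* `rem` : the new centre is removable;
* `surg` : 259's `Surg` over `Orb G B` for an equivariant `P : Y → B`.
-/

set_option autoImplicit false
set_option linter.unusedSectionVars false

open Set Filter Topology

namespace Crest.Agent.R272.SurE_342

open Crest.Agent.R275.Geo Crest.Agent.R273.Fam_835 Crest.Agent.R272.Refl_246
open Crest.Agent.R272.AJ_956 Crest.Agent.R272.HFam_342 Crest.Agent.R272.Idn_834
open Crest.Agent.R272.Flop_66 Crest.Agent.R272.Sur_342 Crest.Agent.R272.MQ_783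
open Crest.Agent.R272.LbExt_259

noncomputable section

/-- the zero section in the charts of `Um` -/
theorem um_zero (b : Um.fam.ι) {u : Um} (hu : u ∈ (Um.fam.e b).source) :
    u.N = 0 ↔ Um.fam.e b u 1 = 0 ∧ Um.fam.e b u 2 = 0 := by
  have h := (Um.fam.e b).left_inv hu
  rcases b with _ | _
  · have h1 : u = Um.mk0 (Um.ch0 u 0) (Um.ch0 u 1) (Um.ch0 u 2) := h.symm
    conv_lhs => rw [h1]
    exact Um.N_mk0
  · have h1 : u = Um.mk1 (Um.ch1 u 0) (Um.ch1 u 1) (Um.ch1 u 2) := h.symm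
    conv_lhs => rw [h1]
    exact Um.N_mk1

instance : Nonempty Um := ⟨Um.mk0 0 0 0⟩

variable {C : Type} [TopologicalSpace C] {𝒞 : Cur C} {N : Set (C × C)} {U : C × C → E2}
  {Y : Type} [TopologicalSpace Y] {CY : Fam 3 Y} {G : Type} [Group G] [MulAction G Y] {s : G}
  (I : Inp 𝒞 N U CY G s Um.fam) [ContinuousConstSMul G Y] [Nonempty Y]
  (hG : ∀ g : G, HolC CY CY (fun y => g • y)) (hcov : ∀ y : Y, ∃ c : RC G CY, y ∈ c.e.source)

/-- the identification of 834 -/
def eId : OpenPartialHomeomorph (Orb G Y) Um := Classical.choose (I.ident hG hcov)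

theorem eId_source : (eId I hG hcov).source = pr G '' I.OO :=
  (Classical.choose_spec (I.ident hG hcov)).1

theorem eId_apply (i : Fin 2) (p : (C × C) × ℂ) (hp : p ∈ I.Dm i) (h : I.Ge.E i p ∈ I.OO) :
    eId I hG hcov (pr G (I.Ge.E i p)) = (Um.fam.e (I.S.d i)).symm (h3 (I.co I i p)) :=
  (Classical.choose_spec (I.ident hG hcov)).2.1 i p hp h

theorem eId_mem (i : Fin 2) (c : C) (hc : c ∈ Ci 𝒞 i) :
    pr G (I.Ge.E i ((c, 𝒞.iv c), 0)) ∈ (eId I hG hcov).source :=
  (Classical.choose_spec (I.ident hG hcov)).2.2.1 i c hc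

theorem eId_hol (x : Orb G Y) (hx : x ∈ (eId I hG hcov).source) :
    HC (qFam hG hcov) Um.fam (eId I hG hcov) x :=
  (Classical.choose_spec (I.ident hG hcov)).2.2.2.1 x hx

theorem eId_hol' (u : Um) (hu : u ∈ (eId I hG hcov).target) :
    HC Um.fam (qFam hG hcov) (eId I hG hcov).symm u :=
  (Classical.choose_spec (I.ident hG hcov)).2.2.2.2.1 u hu

theorem eId_zero (u : Um) (h : u.N = 0) : u ∈ (eId I hG hcov).target ∧
    ∃ i, ∃ c ∈ Ci 𝒞 i, u = eId I hG hcov (pr G (I.Ge.E i ((c, 𝒞.iv c), 0))) := by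
  obtain ⟨i, hi⟩ := I.S.cov u
  obtain ⟨h1, h2⟩ := (um_zero (I.S.d i) hi).1 h
  obtain ⟨h3, h4⟩ := (Classical.choose_spec (I.ident hG hcov)).2.2.2.2.2 i u hi h1 h2
  exact ⟨h3, i, h4⟩

/-- the antidiagonal of the zero section goes to the zero section of `Um` -/
theorem eId_N (i : Fin 2) (c : C) (hc : c ∈ Ci 𝒞 i) :
    (eId I hG hcov (pr G (I.Ge.E i ((c, 𝒞.iv c), 0)))).N = 0 := by
  rw [eId_apply I hG hcov i _ (I.mem_Dm_zero hc) (I.y0_OO hc)]
  have hm : h3 (I.co I i ((c, 𝒞.iv c), 0)) ∈ (Um.fam.e (I.S.d i)).target := by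
    rw [I.S.tgt i]
    exact mem_univ _
  rw [um_zero (I.S.d i) ((Um.fam.e (I.S.d i)).map_target hm), (Um.fam.e (I.S.d i)).right_inv hm]
  constructor
  · show U (c, 𝒞.iv c) i = 0
    rw [U_gam I.hN rfl]
    rfl
  · show (0 : ℂ) * _ = 0
    rw [zero_mul]

theorem exists_eps : ∃ ε, 0 < ε ∧ ∀ y : Um, y.N ≤ ε → y ∈ (eId I hG hcov).target :=
  Um.exists_eps (eId I hG hcov).open_target fun y hy => (eId_zero I hG hcov y hy).1

/-- **the surgery data** -/
def sur : Sur (Orb G Y) Um Up where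
  e := eId I hG hcov
  φ := phi
  NA := Um.N
  NB := Up.N
  cA := Um.c_N
  cB := Up.c_N
  nA := Um.N_nonneg
  nB := Up.N_nonneg
  kA := Um.isCompact_le
  kB := Up.isCompact_le
  φs _ := mem_phi_source
  φt _ := mem_phi_target
  φN _ h := N_pu h
  ε := Classical.choose (exists_eps I hG hcov)
  ε0 := (Classical.choose_spec (exists_eps I hG hcov)).1
  sub := (Classical.choose_spec (exists_eps I hG hcov)).2
  ne := by
    have h1 : IsOpen {x : Um | x.N < Classical.choose (exists_eps I hG hcov)} :=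
      isOpen_lt Um.c_N continuous_const
    have h2 : {x : Um | x.N < Classical.choose (exists_eps I hG hcov)}.Nonempty :=
      ⟨Um.mk0 0 0 0, by
        have h3 : (Um.mk0 0 0 0).N = 0 := Um.N_mk0.2 ⟨rfl, rfl⟩
        show (Um.mk0 0 0 0).N < _
        rw [h3]
        exact (Classical.choose_spec (exists_eps I hG hcov)).1⟩
    obtain ⟨x, hx, hx'⟩ := Um.dense_N.inter_open_nonempty _ h1 h2
    exact ⟨x, hx', hx⟩

theorem sur_e : (sur I hG hcov).e = eId I hG hcov := rfl
theorem sur_φ : (sur I hG hcov).φ = phi := rfl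
theorem sur_NA : (sur I hG hcov).NA = Um.N := rfl
theorem sur_NB : (sur I hG hcov).NB = Up.N := rfl

/-- everything is holomorphic -/
theorem hol : (sur I hG hcov).Hol (qFam hG hcov) Um.fam Up.fam where
  he := eId_hol I hG hcov
  he' := eId_hol' I hG hcov
  hφ _ h := hC_phi h
  hφ' _ h := hC_phi_symm h

/-- the new centre is removable -/
theorem rem {m : ℕ} {P : Type} [TopologicalSpace P] (D : Fam m P) :
    (sur I hG hcov).Rem Up.fam D := fun _ _ _ h1 h2 => Up.hC_of_cont h1 h2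

theorem dense_NB : Dense {b | (sur I hG hcov).NB b ≠ 0} := Up.dense_N

/-- **the centre** -/
theorem mem_K {x : Orb G Y} : x ∈ (sur I hG hcov).K ↔
    ∃ i, ∃ c ∈ Ci 𝒞 i, x = pr G (I.Ge.E i ((c, 𝒞.iv c), 0)) := by
  rw [(sur I hG hcov).mem_K]
  constructor
  · rintro ⟨h1, h2⟩
    obtain ⟨-, i, c, hc, h3⟩ := eId_zero I hG hcov _ h2
    exact ⟨i, c, hc, (eId I hG hcov).injOn h1 (eId_mem I hG hcov i c hc) h3⟩
  · rintro ⟨i, c, hc, rfl⟩
    exact ⟨eId_mem I hG hcov i c hc, eId_N I hG hcov i c hc⟩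

theorem mem_K_pr {y : Y} : pr G y ∈ (sur I hG hcov).K ↔
    ∃ (g : G) (i : Fin 2), ∃ c ∈ Ci 𝒞 i, y = g • I.Ge.E i ((c, 𝒞.iv c), 0) := by
  rw [mem_K]
  constructor
  · rintro ⟨i, c, hc, h⟩
    obtain ⟨g, hg⟩ := pr_eq_iff.1 h
    exact ⟨g⁻¹, i, c, hc, by rw [← hg, inv_smul_smul]⟩
  · rintro ⟨g, i, c, hc, rfl⟩
    exact ⟨i, c, hc, pr_smul g _⟩

/-- the same with a parametrisation `j` of the zero section -/
theorem mem_K_j {j : C × C → Y} (hj : ∀ i, ∀ c ∈ Ci 𝒞 i, j (c, 𝒞.iv c) = I.Ge.E i ((c, 𝒞.iv c), 0))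
    (hw : ∀ c, ∃ i, c ∈ Ci 𝒞 i) {y : Y} : pr G y ∈ (sur I hG hcov).K ↔
    ∃ (g : G) (c : C), y = g • j (c, 𝒞.iv c) := by
  rw [mem_K_pr]
  constructor
  · rintro ⟨g, i, c, hc, h⟩
    exact ⟨g, c, by rw [hj i c hc]; exact h⟩
  · rintro ⟨g, c, h⟩
    obtain ⟨i, hi⟩ := hw c
    exact ⟨g, i, c, hi, by rw [← hj i c hi]; exact h⟩

/-- a map which is constant on the antidiagonal of the zero section is constant on the centre -/
theorem const_K {N' : Type*} {π : Orb G Y → N'} {q₀ : N'}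
    (h : ∀ i, ∀ c ∈ Ci 𝒞 i, π (pr G (I.Ge.E i ((c, 𝒞.iv c), 0))) = q₀) :
    ∀ x ∈ (sur I hG hcov).K, π x = q₀ := by
  intro x hx
  obtain ⟨i, c, hc, rfl⟩ := (mem_K I hG hcov).1 hx
  exact h i c hc

section base

variable [T2Space (Orb G Y)] {B : Type} [TopologicalSpace B] [MulAction G B] {P : Y → B}
  (hPc : Continuous P) (hP : ∀ (g : G) x, P (g • x) = g • P x) {p₀ : B}
  (h0 : ∀ i, ∀ c ∈ Ci 𝒞 i, P (I.Ge.E i ((c, 𝒞.iv c), 0)) = p₀)

include hPc h0

/-- **259's surgery over the base** -/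
theorem surg : Surg (orbMap P hP) ((sur I hG hcov).push (orbMap P hP) (pr G p₀))
    {z | (sur I hG hcov).nf z ≠ 0} (sur I hG hcov).iota.symm (sur I hG hcov).K :=
  (sur I hG hcov).surg (continuous_orbMap hPc hP)
    (const_K I hG hcov fun i c hc => by rw [orbMap_pr, h0 i c hc])

/-- the projection of the new space to the base, holomorphic -/
theorem holC_p2 {m : ℕ} {D : Fam m (Orb G B)} (hπ : HolC (qFam hG hcov) D (orbMap P hP)) :
    HolC (Sur.fam (hol I hG hcov)) D ((sur I hG hcov).push (orbMap P hP) (pr G p₀)) :=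
  Sur.holC_push_rem (hol I hG hcov) (rem I hG hcov D) hπ
    (const_K I hG hcov fun i c hc => by rw [orbMap_pr, h0 i c hc])

omit hPc in
/-- `p2 ∘ iota = p` -/
theorem p2_iota {x : Orb G Y} (hx : x ∈ (sur I hG hcov).iota.source) :
    (sur I hG hcov).push (orbMap P hP) (pr G p₀) ((sur I hG hcov).iota x) = orbMap P hP x :=
  (sur I hG hcov).push_iota _ _ ((sur I hG hcov).mem_iota_source.1 hx)

omit hPc in
/-- off the fibre over the centre of the base the old part is everything -/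
theorem source_of {x : Orb G Y} (hx : orbMap P hP x ≠ pr G p₀) :
    x ∈ (sur I hG hcov).iota.source :=
  (sur I hG hcov).mem_iota_source.2 fun hK =>
    hx (const_K I hG hcov (fun i c hc => by rw [orbMap_pr, h0 i c hc]) x hK)

omit hPc h0 in
theorem target_of {z : (sur I hG hcov).XP}
    (hz : (sur I hG hcov).push (orbMap P hP) (pr G p₀) z ≠ pr G p₀) :
    z ∈ (sur I hG hcov).iota.target :=
  (sur I hG hcov).mem_iota_target.2 fun hK => hz ((sur I hG hcov).push_K' _ _ hK)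

end base

/-! ### the new space -/

section space

variable [T2Space (Orb G Y)]

theorem t2_XP : T2Space (sur I hG hcov).XP := (sur I hG hcov).t2

theorem compact_XP [CompactSpace (Orb G Y)] : CompactSpace (sur I hG hcov).XP :=
  (sur I hG hcov).compact

/-- **the charts of the new space** -/
def famP : Fam 3 (sur I hG hcov).XP := Sur.fam (hol I hG hcov)

end space

end

end Crest.Agent.R272.SurE_342
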