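/-
helper92, row 272, division E, leaf A3/T2b: symplectic bases (Mathlib only).
* `exists_sympl` : M free of finite rank over a PID, e alternating and unimodular (every linear form is
  `fun x => e x y`) ==> symplectic basis.
-/
import Mathlib

set_option autoImplicit false
set_option linter.unusedSectionVars false
set_option linter.style.haveILetI false

namespace Crest.Agent.R272.Symp_92

open Module

section PID

variable {R : Type*} [CommRing R] [IsDomain R] [IsPrincipalIdealRing R]
variable {M : Type*} [AddCommGroup M] [Module R M]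

/-- partial symplectic family -/
structure PS (e : M →ₗ[R] M →ₗ[R] R) {N : ℕ} (p q : Fin N → M) : Prop where
  pp : ∀ i j, e (p i) (p j) = 0
  qq : ∀ i j, e (q i) (q j) = 0
  pq : ∀ i j, e (p i) (q j) = if i = j then 1 else 0

theorem alt_swap {e : M →ₗ[R] M →ₗ[R] R} (halt : ∀ x, e x x = 0) (x y : M) :
    e x y = - e y x := by
  have h := halt (x + y)
  simp only [map_add, LinearMap.add_apply, halt, zero_add, add_zero] at h
  exact eq_neg_of_add_eq_zero_left (by rw [add_comm]; exact h)

theorem PS.qp {e : M →ₗ[R] M →ₗ[R] R} (halt : ∀ x, e x x = 0) {N : ℕ} {p q : Fin N → M}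
    (h : PS e p q) (i j : Fin N) : e (q i) (p j) = if i = j then -1 else 0 := by
  rw [alt_swap halt, h.pq]
  by_cases hij : i = j
  · simp [hij]
  · have : ¬ j = i := fun h => hij h.symm
    simp [hij, this]

/-- the projection of `x` to the span of the family -/
def prj (e : M →ₗ[R] M →ₗ[R] R) {N : ℕ} (p q : Fin N → M) (x : M) : M :=
  ∑ i, (e x (q i) • p i - e x (p i) • q i)

theorem PS.prj_p {e : M →ₗ[R] M →ₗ[R] R} (halt : ∀ x, e x x = 0) {N : ℕ} {p q : Fin N → M}
    (h : PS e p q) (x : M) (j : Fin N) : e (prj e p q x) (p j) = e x (p j) := by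
  simp only [prj, map_sum, LinearMap.sum_apply, map_sub, LinearMap.sub_apply, map_smul,
    LinearMap.smul_apply, h.pp, h.qp halt, smul_eq_mul]
  simp

theorem PS.prj_q {e : M →ₗ[R] M →ₗ[R] R} {N : ℕ} {p q : Fin N → M}
    (h : PS e p q) (x : M) (j : Fin N) : e (prj e p q x) (q j) = e x (q j) := by
  simp only [prj, map_sum, LinearMap.sum_apply, map_sub, LinearMap.sub_apply, map_smul,
    LinearMap.smul_apply, h.qq, h.pq, smul_eq_mul]
  simp

theorem PS.linInd {e : M →ₗ[R] M →ₗ[R] R} (halt : ∀ x, e x x = 0) {N : ℕ} {p q : Fin N → M}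
    (h : PS e p q) : LinearIndependent R (Sum.elim p q) := by
  classical
  rw [Fintype.linearIndependent_iff]
  intro g hg
  rw [Fintype.sum_sum_type] at hg
  simp only [Sum.elim_inl, Sum.elim_inr] at hg
  rintro (j | j)
  · have h1 := congrArg (fun z => e z (q j)) hg
    simp only [map_add, map_sum, LinearMap.add_apply, LinearMap.sum_apply, map_smul,
      LinearMap.smul_apply, h.pq, h.qq, smul_eq_mul, map_zero, LinearMap.zero_apply] at h1
    simpa using h1
  · have h1 := congrArg (fun z => e z (p j)) hg
    simp only [map_add, map_sum, LinearMap.add_apply, LinearMap.sum_apply, map_smul,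
      LinearMap.smul_apply, h.pp, h.qp halt, smul_eq_mul, map_zero, LinearMap.zero_apply] at h1
    simpa using h1

/-- extension step -/
theorem PS.cons {e : M →ₗ[R] M →ₗ[R] R} (halt : ∀ x, e x x = 0) {N : ℕ} {p q : Fin N → M}
    (h : PS e p q) {x y : M} (hx : ∀ i, e x (p i) = 0 ∧ e x (q i) = 0)
    (hy : ∀ i, e y (p i) = 0 ∧ e y (q i) = 0) (hxy : e x y = 1) :
    PS e (Fin.cons x p : Fin (N+1) → M) (Fin.cons y q : Fin (N+1) → M) := by
  refine ⟨?_, ?_, ?_⟩
  · intro i j
    refine Fin.cases ?_ (fun i => ?_) i
    · refine Fin.cases ?_ (fun j => ?_) j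
      · simpa using halt x
      · simpa using (hx j).1
    · refine Fin.cases ?_ (fun j => ?_) j
      · simp only [Fin.cons_succ, Fin.cons_zero]
        rw [alt_swap halt, (hx i).1, neg_zero]
      · simpa using h.pp i j
  · intro i j
    refine Fin.cases ?_ (fun i => ?_) i
    · refine Fin.cases ?_ (fun j => ?_) j
      · simpa using halt y
      · simpa using (hy j).2
    · refine Fin.cases ?_ (fun j => ?_) j
      · simp only [Fin.cons_succ, Fin.cons_zero]
        rw [alt_swap halt, (hy i).2, neg_zero]
      · simpa using h.qq i j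
  · intro i j
    refine Fin.cases ?_ (fun i => ?_) i
    · refine Fin.cases ?_ (fun j => ?_) j
      · simpa using hxy
      · have h0 : ¬ ((0 : Fin (N+1)) = j.succ) := (Fin.succ_ne_zero j).symm
        simp only [Fin.cons_succ, Fin.cons_zero, h0, if_false]
        exact (hx j).2
    · refine Fin.cases ?_ (fun j => ?_) j
      · have h0 : ¬ (i.succ = (0 : Fin (N+1))) := Fin.succ_ne_zero i
        simp only [Fin.cons_succ, Fin.cons_zero, h0, if_false]
        rw [alt_swap halt, (hy i).1, neg_zero]
      · simp only [Fin.cons_succ, Fin.succ_inj]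
        exact h.pq i j

/-- the orthogonal complement of the family -/
def orth (e : M →ₗ[R] M →ₗ[R] R) {N : ℕ} (p q : Fin N → M) : Submodule R M where
  carrier := {x | ∀ i, e x (p i) = 0 ∧ e x (q i) = 0}
  add_mem' := by
    intro a b ha hb i
    simp only [map_add, LinearMap.add_apply, (ha i).1, (hb i).1, (ha i).2, (hb i).2]
    simp
  zero_mem' := by intro i; simp
  smul_mem' := by
    intro c a ha i
    simp only [map_smul, LinearMap.smul_apply, (ha i).1, (ha i).2]
    simp

theorem sub_prj_mem {e : M →ₗ[R] M →ₗ[R] R} (halt : ∀ x, e x x = 0) {N : ℕ} {p q : Fin N → M}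
    (h : PS e p q) (x : M) : x - prj e p q x ∈ orth e p q := by
  intro i
  simp only [map_sub, LinearMap.sub_apply, h.prj_p halt, h.prj_q]
  simp

theorem prj_of_mem {e : M →ₗ[R] M →ₗ[R] R} {N : ℕ} {p q : Fin N → M} {x : M}
    (hx : x ∈ orth e p q) : prj e p q x = 0 := by
  unfold prj
  apply Finset.sum_eq_zero
  intro i _
  rw [(hx i).1, (hx i).2]; simp

/-- projection to the orthogonal complement as linear map -/
def toOrth (e : M →ₗ[R] M →ₗ[R] R) (halt : ∀ x, e x x = 0) {N : ℕ} {p q : Fin N → M}
    (h : PS e p q) : M →ₗ[R] orth e p q where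
  toFun x := ⟨x - prj e p q x, sub_prj_mem halt h x⟩
  map_add' := by
    intro x y
    ext
    simp only [prj, map_add, LinearMap.add_apply, Submodule.coe_add, add_smul]
    have : ∀ i : Fin N, (e x (q i) • p i + e y (q i) • p i - (e x (p i) • q i + e y (p i) • q i))
      = (e x (q i) • p i - e x (p i) • q i) + (e y (q i) • p i - e y (p i) • q i) := by
      intro i; abel
    simp only [this, Finset.sum_add_distrib]
    abel
  map_smul' := by
    intro c x
    ext
    simp only [prj, map_smul, LinearMap.smul_apply, smul_eq_mul, mul_smul, RingHom.id_apply,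
      Submodule.coe_smul, smul_sub, Finset.smul_sum]

theorem exists_sympl [Module.Free R M] [Module.Finite R M] (e : M →ₗ[R] M →ₗ[R] R)
    (halt : ∀ x, e x x = 0) (hsurj : ∀ f : M →ₗ[R] R, ∃ y, ∀ x, e x y = f x) :
    ∃ (N : ℕ) (p q : Fin N → M), PS e p q ∧ ∀ x, x = ∑ i, (e x (q i) • p i - e x (p i) • q i) := by
  classical
  have hbd : ∀ N, (∃ p q : Fin N → M, PS e p q) → N ≤ finrank R M := by
    rintro N ⟨p, q, h⟩
    have h1 := (h.linInd halt).fintype_card_le_finrank
    simp only [Fintype.card_sum, Fintype.card_fin] at h1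
    omega
  have h0 : ∃ p q : Fin 0 → M, PS e p q :=
    ⟨fun i => i.elim0, fun i => i.elim0, ⟨fun i => i.elim0, fun i => i.elim0, fun i => i.elim0⟩⟩
  set N := Nat.findGreatest (fun N => ∃ p q : Fin N → M, PS e p q) (finrank R M) with hN
  have hNP : ∃ p q : Fin N → M, PS e p q :=
    Nat.findGreatest_spec (P := fun N => ∃ p q : Fin N → M, PS e p q) (Nat.zero_le _) h0
  have hmax : ∀ K, (∃ p q : Fin K → M, PS e p q) → K ≤ N := fun K hK =>
    Nat.le_findGreatest (hbd K hK) hK
  obtain ⟨p, q, h⟩ := hNP
  refine ⟨N, p, q, h, ?_⟩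
  -- the orthogonal complement is zero
  have hbot : orth e p q = ⊥ := by
    by_contra hne
    haveI : Module.Free R (orth e p q) := inferInstance
    haveI : Module.Finite R (orth e p q) := inferInstance
    haveI : Nontrivial (orth e p q) := Submodule.nontrivial_iff_ne_bot.2 hne
    let b := Module.Free.chooseBasis R (orth e p q)
    obtain ⟨i0⟩ : Nonempty (Module.Free.ChooseBasisIndex R (orth e p q)) := b.index_nonempty
    obtain ⟨y, hy⟩ := hsurj ((b.coord i0).comp (toOrth e halt h))
    set x : M := (b i0 : M) with hx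
    have hxm : x ∈ orth e p q := (b i0).2
    have hex : e x y = 1 := by
      rw [hy x]
      have : toOrth e halt h x = b i0 := by
        ext
        show x - prj e p q x = x
        rw [prj_of_mem hxm, sub_zero]
      simp [this]
    set y' := y - prj e p q y with hy'
    have hym : y' ∈ orth e p q := sub_prj_mem halt h y
    have hexy : e x y' = 1 := by
      rw [hy', map_sub, hex]
      have : e x (prj e p q y) = 0 := by
        simp only [prj, map_sum, map_sub, map_smul, (hxm _).1, (hxm _).2]
        simp
      rw [this, sub_zero]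
    have := hmax (N+1) ⟨_, _, h.cons halt hxm hym hexy⟩
    omega
  intro x
  have hx := sub_prj_mem halt h x
  rw [hbot, Submodule.mem_bot, sub_eq_zero] at hx
  exact hx

end PID

end Crest.Agent.R272.Symp_92
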