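/-
helper92, row 272, division E, leaf A3/T2b, part 2 (Mathlib only): self-dual lattices in a real symplectic
space have a symplectic `ℤ`-basis; every lattice with rational Gram matrix is commensurable with a
self-dual one.
-/
import Crest.Agent.R272.Symp1_92

set_option autoImplicit false
set_option linter.unusedSectionVars false

namespace Crest.Agent.R272.Symp_92

open Module

section Real

variable {V : Type*} [NormedAddCommGroup V] [NormedSpace ℝ V] [FiniteDimensional ℝ V]

/-- `(p, q)` is a symplectic basis of `V` and a `ℤ`-basis of the lattice `L`. -/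
structure SB (e : V →ₗ[ℝ] V →ₗ[ℝ] ℝ) (L : AddSubgroup V) {N : ℕ} (p q : Fin N → V) : Prop where
  ps : PS e p q
  exp : ∀ x : V, x = ∑ i, (e x (q i) • p i - e x (p i) • q i)
  mem : ∀ x, x ∈ L ↔ ∀ i, (∃ k : ℤ, e x (q i) = k) ∧ (∃ k : ℤ, e x (p i) = k)

/-- a subgroup with finitely many points in balls is discrete -/
theorem discrete_of_finite (L : AddSubgroup V) (disc : ∀ r : ℝ, {v : V | v ∈ L ∧ ‖v‖ ≤ r}.Finite) :
    DiscreteTopology L := by
  have hfin := disc 1
  -- a radius separating 0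
  obtain ⟨ε, hε, hε1, hsep⟩ : ∃ ε : ℝ, 0 < ε ∧ ε ≤ 1 ∧ ∀ v ∈ L, ‖v‖ < ε → v = 0 := by
    classical
    set S := hfin.toFinset.filter (fun v => v ≠ 0) with hS
    by_cases hne : S.Nonempty
    · refine ⟨min 1 (S.inf' hne (fun v => ‖v‖)), ?_, min_le_left _ _, ?_⟩
      · refine lt_min one_pos ?_
        rw [Finset.lt_inf'_iff]
        intro v hv
        have : v ≠ 0 := (Finset.mem_filter.1 hv).2
        exact norm_pos_iff.2 this
      · intro v hv hlt
        by_contra h0
        have hv1 : ‖v‖ < 1 := lt_of_lt_of_le hlt (min_le_left _ _)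
        have hvS : v ∈ S := by
          rw [hS, Finset.mem_filter]
          exact ⟨hfin.mem_toFinset.2 ⟨hv, hv1.le⟩, h0⟩
        have h2 : S.inf' hne (fun v => ‖v‖) ≤ ‖v‖ := Finset.inf'_le _ hvS
        have h3 := lt_of_lt_of_le hlt (min_le_right _ _)
        linarith
    · refine ⟨1, one_pos, le_rfl, ?_⟩
      intro v hv hlt
      by_contra h0
      apply hne
      exact ⟨v, by rw [hS, Finset.mem_filter]; exact ⟨hfin.mem_toFinset.2 ⟨hv, hlt.le⟩, h0⟩⟩
  apply discreteTopology_of_isOpen_singleton_zero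
  rw [Metric.isOpen_iff]
  intro x hx
  rw [Set.mem_singleton_iff] at hx
  subst hx
  refine ⟨ε, hε, ?_⟩
  intro y hy
  rw [Metric.mem_ball, dist_zero_right] at hy
  rw [Set.mem_singleton_iff]
  exact Subtype.ext (hsep y.1 y.2 hy)

theorem selfdual_inj {e : V →ₗ[ℝ] V →ₗ[ℝ] ℝ} {L : AddSubgroup V}
    (disc : ∀ r : ℝ, {v : V | v ∈ L ∧ ‖v‖ ≤ r}.Finite)
    (dual : ∀ v, (∀ w ∈ L, ∃ k : ℤ, e v w = k) → v ∈ L) {y : V} (hy : ∀ w, e y w = 0) : y = 0 := by
  by_contra h0
  have hmem : ∀ t : ℝ, t • y ∈ L := by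
    intro t
    apply dual
    intro w _
    exact ⟨0, by simp [hy w]⟩
  have hn : 0 < ‖y‖ := norm_pos_iff.2 h0
  have hinf : {v : V | v ∈ L ∧ ‖v‖ ≤ 1}.Infinite := by
    apply Set.infinite_of_injective_forall_mem (f := fun k : ℕ => (1 / (((k:ℝ) + 1) * ‖y‖)) • y)
    · intro a b hab
      have hab' : (1 / (((a:ℝ) + 1) * ‖y‖)) • y = (1 / (((b:ℝ) + 1) * ‖y‖)) • y := hab
      have h1 : (1 / (((a:ℝ) + 1) * ‖y‖)) = (1 / (((b:ℝ) + 1) * ‖y‖)) := by
        have h2 : (1 / (((a:ℝ) + 1) * ‖y‖) - 1 / (((b:ℝ) + 1) * ‖y‖)) • y = 0 := by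
          rw [sub_smul, hab', sub_self]
        rcases smul_eq_zero.1 h2 with h3 | h3
        · linarith
        · exact absurd h3 h0
      have ha : (0:ℝ) < (a:ℝ) + 1 := by positivity
      have hb : (0:ℝ) < (b:ℝ) + 1 := by positivity
      field_simp at h1
      have : (a:ℝ) = b := by linarith
      exact_mod_cast this
    · intro k
      refine ⟨hmem _, ?_⟩
      have hk : (0:ℝ) < (k:ℝ) + 1 := by positivity
      rw [norm_smul, Real.norm_eq_abs, abs_of_pos (by positivity)]
      rw [div_mul_eq_mul_div, one_mul, div_le_one (by positivity)]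
      have : (1:ℝ) ≤ (k:ℝ) + 1 := by
        have : (0:ℝ) ≤ k := Nat.cast_nonneg k
        linarith
      nlinarith
  exact hinf (disc 1)

/-- every real linear form is `x ↦ e x y`, for a nondegenerate form -/
theorem exists_repr {K : Type*} [Field K] {M : Type*} [AddCommGroup M] [Module K M]
    [FiniteDimensional K M] (e : M →ₗ[K] M →ₗ[K] K)
    (hnd : ∀ y, (∀ x, e x y = 0) → y = 0) (F : M →ₗ[K] K) : ∃ y, ∀ x, e x y = F x := by
  have hinj : Function.Injective (e.flip : M →ₗ[K] (M →ₗ[K] K)) := by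
    rw [← LinearMap.ker_eq_bot, LinearMap.ker_eq_bot']
    intro y hy
    apply hnd
    intro x
    have := congrArg (fun g => g x) hy
    simpa using this
  have hsurj : Function.Surjective (e.flip : M →ₗ[K] (M →ₗ[K] K)) := by
    rw [← LinearMap.injective_iff_surjective_of_finrank_eq_finrank]
    · exact hinj
    · exact (Subspace.dual_finrank_eq (K := K) (V := M)).symm
  obtain ⟨y, hy⟩ := hsurj F
  exact ⟨y, fun x => by rw [← hy]; rfl⟩

/-- **T2b**: a self-dual lattice of a real symplectic space has a symplectic basis. -/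
theorem selfdual_sympl (e : V →ₗ[ℝ] V →ₗ[ℝ] ℝ) (halt : ∀ x, e x x = 0) (L : AddSubgroup V)
    (disc : ∀ r : ℝ, {v : V | v ∈ L ∧ ‖v‖ ≤ r}.Finite)
    (span : Submodule.span ℝ (L : Set V) = ⊤)
    (int : ∀ v ∈ L, ∀ w ∈ L, ∃ k : ℤ, e v w = k)
    (dual : ∀ v, (∀ w ∈ L, ∃ k : ℤ, e v w = k) → v ∈ L) :
    ∃ (N : ℕ) (p q : Fin N → V), SB e L p q := by
  classical
  set Lz : Submodule ℤ V := AddSubgroup.toIntSubmodule L with hLz
  have hmemLz : ∀ x, x ∈ Lz ↔ x ∈ L := fun x => Iff.rfl
  have hd : DiscreteTopology L := discrete_of_finite L disc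
  have hdz : DiscreteTopology Lz := hd
  have hz : IsZLattice ℝ Lz := ⟨span⟩
  have hfin : Module.Finite ℤ Lz := ZLattice.module_finite ℝ Lz
  have hfree : Module.Free ℤ Lz := ZLattice.module_free ℝ Lz
  have hint : ∀ v w : Lz, ∃ k : ℤ, e v w = k := fun v w => int v.1 v.2 w.1 w.2
  choose k hk using hint
  let eZ : Lz →ₗ[ℤ] Lz →ₗ[ℤ] ℤ := LinearMap.mk₂ ℤ k
    (by
      intro a b c
      have : ((k (a+b) c : ℤ) : ℝ) = ((k a c + k b c : ℤ) : ℝ) := by
        rw [← hk]; push_cast; rw [← hk, ← hk]; simp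
      exact_mod_cast this)
    (by
      intro c a b
      have : ((k (c • a) b : ℤ) : ℝ) = ((c • k a b : ℤ) : ℝ) := by
        rw [← hk]; push_cast [smul_eq_mul]; rw [← hk]; simp
      exact_mod_cast this)
    (by
      intro a b c
      have : ((k a (b+c) : ℤ) : ℝ) = ((k a b + k a c : ℤ) : ℝ) := by
        rw [← hk]; push_cast; rw [← hk, ← hk]; simp
      exact_mod_cast this)
    (by
      intro c a b
      have : ((k a (c • b) : ℤ) : ℝ) = ((c • k a b : ℤ) : ℝ) := by
        rw [← hk]; push_cast [smul_eq_mul]; rw [← hk]; simp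
      exact_mod_cast this)
  have heZ : ∀ v w : Lz, ((eZ v w : ℤ) : ℝ) = e v w := fun v w => (hk v w).symm
  have haltZ : ∀ x, eZ x x = 0 := by
    intro x
    have : ((eZ x x : ℤ) : ℝ) = 0 := by rw [heZ, halt]
    exact_mod_cast this
  have hnd : ∀ y, (∀ x, e x y = 0) → y = 0 := by
    intro y hy
    apply selfdual_inj disc dual
    intro w
    rw [alt_swap halt, hy w, neg_zero]
  have hsurj : ∀ f : Lz →ₗ[ℤ] ℤ, ∃ y, ∀ x, eZ x y = f x := by
    intro f
    let b := Module.Free.chooseBasis ℤ Lz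
    let bR := b.ofZLatticeBasis ℝ Lz
    let F : V →ₗ[ℝ] ℝ := bR.constr ℝ (fun i => (f (b i) : ℝ))
    have hF : ∀ x : Lz, F x = f x := by
      intro x
      have h1 : (F.restrictScalars ℤ).comp Lz.subtype
          = ((Int.castAddHom ℝ).toIntLinearMap).comp f := by
        apply b.ext
        intro i
        show F (b i : V) = ((f (b i) : ℤ) : ℝ)
        have h2 : (b i : V) = bR i := (b.ofZLatticeBasis_apply ℝ Lz i).symm
        rw [h2]
        exact bR.constr_basis ℝ _ i
      exact congrArg (fun g => g x) h1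
    obtain ⟨y, hy⟩ := exists_repr e hnd F
    have hyL : y ∈ L := by
      apply dual
      intro w hw
      refine ⟨- f ⟨w, hw⟩, ?_⟩
      rw [alt_swap halt, hy w, hF ⟨w, hw⟩]
      push_cast; rfl
    refine ⟨⟨y, hyL⟩, ?_⟩
    intro x
    have : ((eZ x ⟨y, hyL⟩ : ℤ) : ℝ) = ((f x : ℤ) : ℝ) := by
      rw [heZ, ← hF x]; exact hy x
    exact_mod_cast this
  obtain ⟨N, p, q, hps, hexp⟩ := exists_sympl eZ haltZ hsurj
  have hexpR : ∀ x : V, x = ∑ i, (e x (q i : V) • (p i : V) - e x (p i : V) • (q i : V)) := by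
    let T : V →ₗ[ℝ] V :=
      ∑ i, ((e.flip (q i : V)).smulRight (p i : V) - (e.flip (p i : V)).smulRight (q i : V))
    have hT : ∀ x, T x = ∑ i, (e x (q i : V) • (p i : V) - e x (p i : V) • (q i : V)) := by
      intro x
      simp [T, LinearMap.sum_apply]
    have hid : T = LinearMap.id := by
      apply LinearMap.ext_on span
      intro x hx
      have h1 := hexp (⟨x, hx⟩ : Lz)
      have h2 := congrArg (fun z : Lz => (z : V)) h1
      simp only [Submodule.coe_sum, Submodule.coe_sub, Submodule.coe_smul] at h2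
      rw [hT, LinearMap.id_apply]
      conv_rhs => rw [h2]
      apply Finset.sum_congr rfl
      intro i _
      rw [← Int.cast_smul_eq_zsmul ℝ, ← Int.cast_smul_eq_zsmul ℝ, heZ, heZ]
    intro x
    rw [← hT, hid, LinearMap.id_apply]
  refine ⟨N, fun i => (p i : V), fun i => (q i : V), ⟨?_, hexpR, ?_⟩⟩
  · refine ⟨?_, ?_, ?_⟩
    · intro i j
      have := hps.pp i j
      rw [← heZ, this]; simp
    · intro i j
      have := hps.qq i j
      rw [← heZ, this]; simp
    · intro i j
      have := hps.pq i j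
      rw [← heZ, this]
      split_ifs <;> simp
  · intro x
    constructor
    · intro hx i
      exact ⟨int x hx _ (q i).2, int x hx _ (p i).2⟩
    · intro hx
      rw [hexpR x]
      apply AddSubgroup.sum_mem
      intro i _
      obtain ⟨⟨a, ha⟩, ⟨b, hb⟩⟩ := hx i
      rw [ha, hb, Int.cast_smul_eq_zsmul, Int.cast_smul_eq_zsmul]
      exact L.sub_mem (L.zsmul_mem (p i).2 a) (L.zsmul_mem (q i).2 b)

end Real

end Crest.Agent.R272.Symp_92
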