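/-
helper92, row 272, division E, leaf A3: consequences of a symplectic lattice basis; every lattice with
rational Gram matrix is commensurable with a self-dual lattice.
-/
import Crest.Agent.R272.Symp2_92

set_option autoImplicit false
set_option linter.unusedSectionVars false

namespace Crest.Agent.R272.Symp_92

open Module

section Real

variable {V : Type*} [NormedAddCommGroup V] [NormedSpace ℝ V] [FiniteDimensional ℝ V]
variable {e : V →ₗ[ℝ] V →ₗ[ℝ] ℝ} {L : AddSubgroup V} {N : ℕ} {p q : Fin N → V}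

theorem SB.p_mem (h : SB e L p q) (i : Fin N) : p i ∈ L := by
  rw [h.mem]
  intro j
  refine ⟨⟨if i = j then 1 else 0, ?_⟩, ⟨0, ?_⟩⟩
  · rw [h.ps.pq]; split_ifs <;> simp
  · rw [h.ps.pp]; simp

theorem SB.q_mem (halt : ∀ x, e x x = 0) (h : SB e L p q) (i : Fin N) : q i ∈ L := by
  rw [h.mem]
  intro j
  refine ⟨⟨0, ?_⟩, ⟨if i = j then -1 else 0, ?_⟩⟩
  · rw [h.ps.qq]; simp
  · rw [h.ps.qp halt]; split_ifs <;> simp

theorem isInt_sum {ι : Type*} (s : Finset ι) (f : ι → ℝ) (hf : ∀ i ∈ s, ∃ k : ℤ, f i = k) :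
    ∃ k : ℤ, ∑ i ∈ s, f i = k := by
  classical
  induction s using Finset.induction_on with
  | empty => exact ⟨0, by simp⟩
  | insert a s ha ih =>
    obtain ⟨k, hk⟩ := hf a (Finset.mem_insert_self a s)
    obtain ⟨l, hl⟩ := ih (fun i hi => hf i (Finset.mem_insert_of_mem hi))
    refine ⟨k + l, ?_⟩
    rw [Finset.sum_insert ha, hk, hl]; push_cast; ring

theorem SB.int (halt : ∀ x, e x x = 0) (h : SB e L p q) :
    ∀ v ∈ L, ∀ w ∈ L, ∃ k : ℤ, e v w = k := by
  intro v hv w hw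
  rw [h.exp w, map_sum]
  apply isInt_sum
  intro i _
  obtain ⟨⟨a, ha⟩, ⟨b, hb⟩⟩ := (h.mem v).1 hv i
  obtain ⟨⟨c, hc⟩, ⟨d, hd⟩⟩ := (h.mem w).1 hw i
  refine ⟨c * b - d * a, ?_⟩
  rw [map_sub, map_smul, map_smul, ha, hb, hc, hd]
  push_cast
  simp

theorem SB.dual (h : SB e L p q) : ∀ v, (∀ i, (∃ k : ℤ, e v (q i) = k) ∧ (∃ k : ℤ, e v (p i) = k)) → v ∈ L :=
  fun v hv => (h.mem v).2 hv

theorem SB.dual' (halt : ∀ x, e x x = 0) (h : SB e L p q) :
    ∀ v, (∀ w ∈ L, ∃ k : ℤ, e v w = k) → v ∈ L := by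
  intro v hv
  rw [h.mem]
  intro i
  exact ⟨hv _ (h.q_mem halt i), hv _ (h.p_mem i)⟩

theorem SB.span (halt : ∀ x, e x x = 0) (h : SB e L p q) :
    Submodule.span ℝ (L : Set V) = ⊤ := by
  rw [eq_top_iff]
  intro x _
  rw [h.exp x]
  apply Submodule.sum_mem
  intro i _
  exact Submodule.sub_mem _ (Submodule.smul_mem _ _ (Submodule.subset_span (h.p_mem i)))
    (Submodule.smul_mem _ _ (Submodule.subset_span (h.q_mem halt i)))

/-- coefficients are bounded on bounded sets: the lattice has finitely many points in balls -/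
theorem SB.disc (h : SB e L p q) :
    ∀ r : ℝ, {v : V | v ∈ L ∧ ‖v‖ ≤ r}.Finite := by
  intro r
  classical
  -- continuity bounds
  have hb : ∀ w : V, ∃ C : ℝ, ∀ v : V, |e v w| ≤ C * ‖v‖ := by
    intro w
    obtain ⟨C, hC⟩ : ∃ C : ℝ, ∀ v, ‖(LinearMap.toContinuousLinearMap (e.flip w)) v‖ ≤ C * ‖v‖ :=
      ⟨_, (LinearMap.toContinuousLinearMap (e.flip w)).le_opNorm⟩
    exact ⟨C, fun v => by simpa using hC v⟩
  choose C hC using hb
  obtain ⟨B, hB⟩ : ∃ B : ℕ, ∀ i, |C (p i)| * |r| ≤ B ∧ |C (q i)| * |r| ≤ B := by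
    obtain ⟨B, hB⟩ := exists_nat_ge (∑ i, (|C (p i)| * |r| + |C (q i)| * |r|))
    refine ⟨B, fun i => ?_⟩
    have h1 : |C (p i)| * |r| + |C (q i)| * |r| ≤ ∑ i, (|C (p i)| * |r| + |C (q i)| * |r|) :=
      Finset.single_le_sum (f := fun i => |C (p i)| * |r| + |C (q i)| * |r|)
        (fun i _ => by positivity) (Finset.mem_univ i)
    have h2 : 0 ≤ |C (p i)| * |r| := by positivity
    have h3 : 0 ≤ |C (q i)| * |r| := by positivity
    constructor <;> linarith
  let F : (Fin N → Fin (2*B+1)) × (Fin N → Fin (2*B+1)) → V := fun c =>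
    ∑ i, ((((c.1 i : ℕ) : ℝ) - B) • p i - (((c.2 i : ℕ) : ℝ) - B) • q i)
  refine (Set.finite_range F).subset ?_
  rintro v ⟨hv, hvr⟩
  have hr : ‖v‖ ≤ |r| := hvr.trans (le_abs_self r)
  have key : ∀ (w : V), |C w| * |r| ≤ B → (∃ k : ℤ, e v w = k) →
      ∃ c : Fin (2*B+1), ((c : ℕ) : ℝ) - B = e v w := by
    intro w hw ⟨k, hk⟩
    have h1 : |(k:ℝ)| ≤ B := by
      rw [← hk]
      calc |e v w| ≤ C w * ‖v‖ := hC w v
        _ ≤ |C w| * ‖v‖ := mul_le_mul_of_nonneg_right (le_abs_self _) (norm_nonneg _)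
        _ ≤ |C w| * |r| := mul_le_mul_of_nonneg_left hr (abs_nonneg _)
        _ ≤ B := hw
    rw [abs_le] at h1
    have h2 : -(B:ℤ) ≤ k := by exact_mod_cast h1.1
    have h3 : k ≤ (B:ℤ) := by exact_mod_cast h1.2
    refine ⟨⟨(k + B).toNat, by omega⟩, ?_⟩
    rw [hk]
    have h4 : (((k + B).toNat : ℤ) : ℝ) = ((k + B : ℤ) : ℝ) := by
      rw [Int.toNat_of_nonneg (by omega)]
    have h5 : (((k + B).toNat : ℕ) : ℝ) = (k:ℝ) + B := by
      have : (((k + B).toNat : ℕ) : ℝ) = (((k + B).toNat : ℤ) : ℝ) := by push_cast; rfl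
      rw [this, h4]; push_cast; ring
    show (((k + B).toNat : ℕ) : ℝ) - B = k
    rw [h5]; ring
  have h1 : ∀ i, ∃ c : Fin (2*B+1), ((c : ℕ) : ℝ) - B = e v (q i) :=
    fun i => key (q i) (hB i).2 ((h.mem v).1 hv i).1
  have h2 : ∀ i, ∃ c : Fin (2*B+1), ((c : ℕ) : ℝ) - B = e v (p i) :=
    fun i => key (p i) (hB i).1 ((h.mem v).1 hv i).2
  choose c1 hc1 using h1
  choose c2 hc2 using h2
  refine ⟨(c1, c2), ?_⟩
  show ∑ i, ((((c1 i : ℕ) : ℝ) - B) • p i - (((c2 i : ℕ) : ℝ) - B) • q i) = v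
  conv_rhs => rw [h.exp v]
  apply Finset.sum_congr rfl
  intro i _
  rw [hc1, hc2]

/-- common denominator of finitely many rational real numbers -/
theorem exists_denom {κ : Type*} [Finite κ] (r : κ → ℝ) (hr : ∀ i, ∃ c : ℚ, r i = c) :
    ∃ n : ℕ, 0 < n ∧ ∀ i, ∃ k : ℤ, (n : ℝ) * r i = k := by
  classical
  have := Fintype.ofFinite κ
  choose c hc using hr
  refine ⟨∏ i, (c i).den, Finset.prod_pos (fun i _ => (c i).pos), ?_⟩
  intro i
  refine ⟨(∏ j ∈ Finset.univ.erase i, ((c j).den : ℤ)) * (c i).num, ?_⟩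
  rw [hc i, ← Finset.mul_prod_erase Finset.univ (fun j => (c j).den) (Finset.mem_univ i)]
  have h1 : ((c i : ℚ) : ℝ) * ((c i).den : ℝ) = ((c i).num : ℝ) := by
    have := Rat.mul_den_eq_num (c i)
    exact_mod_cast congrArg (fun x : ℚ => (x : ℝ)) this
  push_cast
  rw [← h1]
  ring

/-- **A3**: a basis with rational Gram matrix gives a commensurable self-dual lattice with symplectic
basis. `b.repr x j ∈ ℤ` for all `j` is membership in the lattice spanned by `b`. -/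
theorem exists_selfdual (e : V →ₗ[ℝ] V →ₗ[ℝ] ℝ) (halt : ∀ x, e x x = 0)
    (hnd : ∀ y, (∀ x, e x y = 0) → y = 0)
    {ι : Type*} [Fintype ι] (b : Basis ι ℝ V) (hG : ∀ i j, ∃ c : ℚ, e (b i) (b j) = c) :
    ∃ (N : ℕ) (p q : Fin N → V) (L0 : AddSubgroup V), SB e L0 p q ∧
      ∃ n : ℕ, 0 < n ∧ (∀ x, (∀ j, ∃ k : ℤ, b.repr x j = k) → (n : ℝ) • x ∈ L0) ∧
        (∀ x ∈ L0, ∀ j, ∃ k : ℤ, b.repr ((n : ℝ) • x) j = k) := by
  classical
  choose G hG using hG
  let φ : (ι → ℚ) → V := fun y => ∑ j, (y j : ℝ) • b j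
  have hφadd : ∀ x y, φ (x + y) = φ x + φ y := by
    intro x y
    simp only [φ, Pi.add_apply, Rat.cast_add, add_smul, Finset.sum_add_distrib]
  have hφsmul : ∀ (c : ℚ) x, φ (c • x) = (c : ℝ) • φ x := by
    intro c x
    simp only [φ, Pi.smul_apply, smul_eq_mul, Rat.cast_mul, mul_smul, Finset.smul_sum]
  let eQ : (ι → ℚ) →ₗ[ℚ] (ι → ℚ) →ₗ[ℚ] ℚ := Matrix.toLinearMap₂' ℚ (Matrix.of G)
  have heQ : ∀ x y, ((eQ x y : ℚ) : ℝ) = e (φ x) (φ y) := by
    intro x y
    simp only [eQ, Matrix.toLinearMap₂'_apply, φ, map_sum, LinearMap.sum_apply, map_smul,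
      LinearMap.smul_apply, hG, smul_eq_mul, Matrix.of_apply]
    push_cast
    rw [Finset.sum_comm]
    apply Finset.sum_congr rfl
    intro j _
    rw [Finset.mul_sum]
    apply Finset.sum_congr rfl
    intro i _
    ring
  have haltQ : ∀ x, eQ x x = 0 := by
    intro x
    have : ((eQ x x : ℚ) : ℝ) = 0 := by rw [heQ, halt]
    exact_mod_cast this
  have hφinj : ∀ y, φ y = 0 → y = 0 := by
    intro y hy
    have h1 := Fintype.linearIndependent_iff.1 b.linearIndependent (fun j => (y j : ℝ)) hy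
    funext j
    exact_mod_cast h1 j
  have hndQ : ∀ y, (∀ x, eQ x y = 0) → y = 0 := by
    intro y hy
    apply hφinj
    apply hnd
    have h1 : (e.flip (φ y)) = 0 := by
      apply b.ext
      intro i
      have h2 := heQ (Pi.single i 1) y
      rw [hy] at h2
      have h3 : φ (Pi.single i 1) = b i := by
        simp only [φ]
        rw [Finset.sum_eq_single i]
        · simp
        · intro j _ hj; simp [Pi.single_eq_of_ne hj]
        · intro h; exact absurd (Finset.mem_univ i) h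
      rw [h3] at h2
      simpa using h2.symm
    intro x
    have := congrArg (fun g => g x) h1
    simpa using this
  obtain ⟨N, p, q, hps, hexp⟩ := exists_sympl eQ haltQ (fun f => exists_repr eQ hndQ f)
  set P : Fin N → V := fun i => φ (p i) with hP
  set Q : Fin N → V := fun i => φ (q i) with hQ
  have hPS : PS e P Q := by
    refine ⟨?_, ?_, ?_⟩
    · intro i j; rw [hP, ← heQ, hps.pp]; simp
    · intro i j; rw [hQ, ← heQ, hps.qq]; simp
    · intro i j; rw [hP, hQ]; simp only; rw [← heQ, hps.pq]; split_ifs <;> simp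
  have hbφ : ∀ i, φ (Pi.single i 1) = b i := by
    intro i
    simp only [φ]
    rw [Finset.sum_eq_single i]
    · simp
    · intro j _ hj; simp [Pi.single_eq_of_ne hj]
    · intro h; exact absurd (Finset.mem_univ i) h
  have hφsum : ∀ (s : Finset (Fin N)) (f : Fin N → (ι → ℚ)), φ (∑ i ∈ s, f i) = ∑ i ∈ s, φ (f i) := by
    intro s f
    induction s using Finset.induction_on with
    | empty => simp [φ]
    | insert a s ha ih => rw [Finset.sum_insert ha, Finset.sum_insert ha, hφadd, ih]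
  have hexpR : ∀ x : V, x = ∑ i, (e x (Q i) • P i - e x (P i) • Q i) := by
    let T : V →ₗ[ℝ] V :=
      ∑ i, ((e.flip (Q i)).smulRight (P i) - (e.flip (P i)).smulRight (Q i))
    have hT : ∀ x, T x = ∑ i, (e x (Q i) • P i - e x (P i) • Q i) := by
      intro x
      simp [T, LinearMap.sum_apply]
    have hid : T = LinearMap.id := by
      apply b.ext
      intro j
      rw [hT, LinearMap.id_apply]
      have h1 := hexp (Pi.single j 1)
      have h2 := congrArg φ h1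
      rw [hφsum] at h2
      rw [hbφ] at h2
      conv_rhs => rw [h2]
      apply Finset.sum_congr rfl
      intro i _
      have h3 : eQ (Pi.single j 1) (q i) • p i - eQ (Pi.single j 1) (p i) • q i
        = eQ (Pi.single j 1) (q i) • p i + (- eQ (Pi.single j 1) (p i)) • q i := by
        rw [neg_smul, sub_eq_add_neg]
      rw [h3, hφadd, hφsmul, hφsmul]
      push_cast
      rw [heQ, heQ, hbφ, neg_smul, ← sub_eq_add_neg]
    intro x
    rw [← hT, hid, LinearMap.id_apply]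
  let L0 : AddSubgroup V :=
    { carrier := {x | ∀ i, (∃ k : ℤ, e x (Q i) = k) ∧ (∃ k : ℤ, e x (P i) = k)}
      add_mem' := by
        intro x y hx hy i
        obtain ⟨⟨a, ha⟩, ⟨a', ha'⟩⟩ := hx i
        obtain ⟨⟨c, hc⟩, ⟨c', hc'⟩⟩ := hy i
        refine ⟨⟨a + c, ?_⟩, ⟨a' + c', ?_⟩⟩
        · rw [map_add, LinearMap.add_apply, ha, hc]; push_cast; ring
        · rw [map_add, LinearMap.add_apply, ha', hc']; push_cast; ring
      zero_mem' := by intro i; exact ⟨⟨0, by simp⟩, ⟨0, by simp⟩⟩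
      neg_mem' := by
        intro x hx i
        obtain ⟨⟨a, ha⟩, ⟨a', ha'⟩⟩ := hx i
        refine ⟨⟨-a, ?_⟩, ⟨-a', ?_⟩⟩
        · rw [map_neg, LinearMap.neg_apply, ha]; push_cast; ring
        · rw [map_neg, LinearMap.neg_apply, ha']; push_cast; ring }
  have hSB : SB e L0 P Q := ⟨hPS, hexpR, fun x => Iff.rfl⟩
  refine ⟨N, P, Q, L0, hSB, ?_⟩
  -- common denominators
  have hr1 : ∀ c : (ι × Fin N), ∃ s : ℚ, e (b c.1) (Q c.2) = s := by
    rintro ⟨j, i⟩
    refine ⟨eQ (Pi.single j 1) (q i), ?_⟩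
    rw [heQ, hbφ]
  have hr2 : ∀ c : (ι × Fin N), ∃ s : ℚ, e (b c.1) (P c.2) = s := by
    rintro ⟨j, i⟩
    refine ⟨eQ (Pi.single j 1) (p i), ?_⟩
    rw [heQ, hbφ]
  have hrepr : ∀ (y : ι → ℚ) (j : ι), b.repr (φ y) j = y j := by
    intro y j
    have h1 : b.repr (φ y) j = ∑ i, (y i : ℝ) * b.repr (b i) j := by
      simp only [φ, map_sum, map_smul, Finsupp.coe_finsetSum, Finset.sum_apply, Finsupp.smul_apply,
        smul_eq_mul]
    rw [h1, Finset.sum_eq_single j]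
    · simp
    · intro i _ hij
      rw [b.repr_self, Finsupp.single_eq_of_ne (by exact fun h => hij h.symm), mul_zero]
    · intro h; exact absurd (Finset.mem_univ j) h
  have hr3 : ∀ c : (ι × Fin N), ∃ s : ℚ, b.repr (P c.2) c.1 = s := by
    rintro ⟨j, i⟩
    exact ⟨p i j, hrepr _ _⟩
  have hr4 : ∀ c : (ι × Fin N), ∃ s : ℚ, b.repr (Q c.2) c.1 = s := by
    rintro ⟨j, i⟩
    exact ⟨q i j, hrepr _ _⟩
  obtain ⟨n1, hn1, h1⟩ := exists_denom _ hr1
  obtain ⟨n2, hn2, h2⟩ := exists_denom _ hr2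
  obtain ⟨n3, hn3, h3⟩ := exists_denom _ hr3
  obtain ⟨n4, hn4, h4⟩ := exists_denom _ hr4
  have hmul : ∀ (n m : ℕ) (x : ℝ), (∃ k : ℤ, (n:ℝ) * x = k) → ∃ k : ℤ, ((n * m : ℕ) : ℝ) * x = k := by
    rintro n m x ⟨k, hk⟩
    refine ⟨m * k, ?_⟩
    push_cast
    rw [← hk]; ring
  refine ⟨n1 * n2 * (n3 * n4), by positivity, ?_, ?_⟩
  · intro x hx i
    have hxe : ∀ w, e x w = ∑ j, b.repr x j * e (b j) w := by
      intro w
      have h5 : e.flip w x = ∑ j, b.repr x j * e.flip w (b j) := by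
        conv_lhs => rw [← b.sum_repr x, map_sum]
        apply Finset.sum_congr rfl
        intro j _
        rw [map_smul, smul_eq_mul]
      simpa using h5
    constructor
    · rw [map_smul, LinearMap.smul_apply, smul_eq_mul, hxe, Finset.mul_sum]
      apply isInt_sum
      intro j _
      obtain ⟨k, hk⟩ := hx j
      have h5 : ∃ l : ℤ, ((n1 * n2 * (n3 * n4) : ℕ) : ℝ) * e (b j) (Q i) = l := by
        have := hmul n1 (n2 * (n3 * n4)) _ (h1 (j, i))
        simpa [mul_assoc] using this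
      obtain ⟨l, hl⟩ := h5
      refine ⟨k * l, ?_⟩
      rw [hk]; push_cast; push_cast at hl; rw [← hl]; ring
    · rw [map_smul, LinearMap.smul_apply, smul_eq_mul, hxe, Finset.mul_sum]
      apply isInt_sum
      intro j _
      obtain ⟨k, hk⟩ := hx j
      have h5 : ∃ l : ℤ, ((n1 * n2 * (n3 * n4) : ℕ) : ℝ) * e (b j) (P i) = l := by
        have := hmul n2 (n1 * (n3 * n4)) _ (h2 (j, i))
        have h6 : n2 * (n1 * (n3 * n4)) = n1 * n2 * (n3 * n4) := by ring
        rwa [h6] at this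
      obtain ⟨l, hl⟩ := h5
      refine ⟨k * l, ?_⟩
      rw [hk]; push_cast; push_cast at hl; rw [← hl]; ring
  · intro x hx j
    have h0 : b.repr (((n1 * n2 * (n3 * n4) : ℕ) : ℝ) • x) j
        = ∑ i, (e x (Q i) * (((n1 * n2 * (n3 * n4) : ℕ) : ℝ) * b.repr (P i) j)
            - e x (P i) * (((n1 * n2 * (n3 * n4) : ℕ) : ℝ) * b.repr (Q i) j)) := by
      conv_lhs => rw [hexpR x]
      simp only [map_smul, map_sum, map_sub, Finsupp.smul_apply, Finsupp.coe_finsetSum,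
        Finset.sum_apply, Finsupp.sub_apply, smul_eq_mul, Finset.mul_sum]
      apply Finset.sum_congr rfl
      intro i _
      ring
    rw [h0]
    apply isInt_sum
    intro i _
    obtain ⟨⟨a, ha⟩, ⟨c, hc⟩⟩ := hx i
    have h5 : ∃ l : ℤ, ((n1 * n2 * (n3 * n4) : ℕ) : ℝ) * b.repr (P i) j = l := by
      have := hmul n3 (n1 * n2 * n4) _ (h3 (j, i))
      have h6 : n3 * (n1 * n2 * n4) = n1 * n2 * (n3 * n4) := by ring
      rwa [h6] at this
    have h6 : ∃ l : ℤ, ((n1 * n2 * (n3 * n4) : ℕ) : ℝ) * b.repr (Q i) j = l := by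
      have := hmul n4 (n1 * n2 * n3) _ (h4 (j, i))
      have h6 : n4 * (n1 * n2 * n3) = n1 * n2 * (n3 * n4) := by ring
      rwa [h6] at this
    obtain ⟨l, hl⟩ := h5
    obtain ⟨l', hl'⟩ := h6
    refine ⟨a * l - c * l', ?_⟩
    rw [ha, hc, hl, hl']; push_cast; ring

end Real

end Crest.Agent.R272.Symp_92
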