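/-
helper92, row 272, division E, leaf A3/T2b, part 4: the form `ee` of EBase_641 as a bilinear map,
nondegenerate; the lattice of an `EDat` has a symplectic basis; congruence automorphisms preserve a
commensurable lattice.
-/
import Crest.Agent.R272.Symp3_92
import Crest.Agent.R272.EBase_641

set_option autoImplicit false

open scoped ComplexConjugate

namespace Crest.Agent.R272.Symp_92

open Module Crest.Agent.R272.EBase_641

noncomputable section

variable {n m : ℕ}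

theorem ee_add_left (a b c : V1 n × W m) : ee (a + b) c = ee a c + ee b c := by
  simp only [ee, Prod.fst_add, Prod.snd_add, hh_add_left, inner_add_right, Complex.add_im]; ring

theorem ee_add_right (a b c : V1 n × W m) : ee a (b + c) = ee a b + ee a c := by
  simp only [ee, Prod.fst_add, Prod.snd_add, hh_add_right, inner_add_left, Complex.add_im]; ring

theorem ee_smul_left (c : ℝ) (a b : V1 n × W m) : ee (c • a) b = c * ee a b := by
  simp only [ee, Prod.smul_fst, Prod.smul_snd]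
  have h1 : c • a.1 = (c : ℂ) • a.1 := by rw [← Complex.coe_smul c a.1]
  have h2 : c • a.2 = (c : ℂ) • a.2 := by rw [← Complex.coe_smul c a.2]
  rw [h1, h2, hh_smul_left, inner_smul_right]
  simp only [Complex.mul_im, Complex.ofReal_re, Complex.ofReal_im]
  ring

theorem ee_smul_right (c : ℝ) (a b : V1 n × W m) : ee a (c • b) = c * ee a b := by
  simp only [ee, Prod.smul_fst, Prod.smul_snd]
  have h1 : c • b.1 = (c : ℂ) • b.1 := by rw [← Complex.coe_smul c b.1]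
  have h2 : c • b.2 = (c : ℂ) • b.2 := by rw [← Complex.coe_smul c b.2]
  rw [h1, h2, hh_smul_right, inner_smul_left, Complex.conj_ofReal]
  simp only [Complex.mul_im, Complex.ofReal_re, Complex.ofReal_im]
  ring

/-- `ee` as a real bilinear form -/
def eeB (n m : ℕ) : (V1 n × W m) →ₗ[ℝ] (V1 n × W m) →ₗ[ℝ] ℝ :=
  LinearMap.mk₂ ℝ (fun v w => ee v w) ee_add_left ee_smul_left ee_add_right ee_smul_right

@[simp] theorem eeB_apply (v w : V1 n × W m) : eeB n m v w = ee v w := rfl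

theorem ee_self (v : V1 n × W m) : ee v v = 0 := by
  simp only [ee, hh_self, Complex.ofReal_im, zero_add]
  rw [inner_self_eq_norm_sq_to_K]
  have : (((‖v.2‖ : ℝ) : ℂ) ^ 2).im = 0 := by rw [← Complex.ofReal_pow, Complex.ofReal_im]
  simpa using this

theorem ee_swap (v w : V1 n × W m) : ee v w = - ee w v :=
  alt_swap (e := eeB n m) ee_self v w

/-- the partner vector showing nondegeneracy -/
theorem ee_nondeg (v : V1 n × W m) (h : ∀ w, ee v w = 0) : v = 0 := by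
  -- w = ((i v1, -i v0), i v2): conj-linear in w
  have h1 := h ((Complex.I • v.1.1, -(Complex.I * v.1.2)), Complex.I • v.2)
  have key : ee v ((Complex.I • v.1.1, -(Complex.I * v.1.2)), Complex.I • v.2)
      = -(‖v.1.1‖ ^ 2 + ‖v.1.2‖ ^ 2 + ‖v.2‖ ^ 2) := by
    simp only [ee, hh, inner_smul_left, map_neg, map_mul, Complex.conj_I]
    have e1 : (inner ℂ v.1.1 v.1.1 : ℂ) = ((‖v.1.1‖ ^ 2 : ℝ) : ℂ) := by
      rw [inner_self_eq_norm_sq_to_K]; push_cast; rfl
    have e2 : (inner ℂ v.2 v.2 : ℂ) = ((‖v.2‖ ^ 2 : ℝ) : ℂ) := by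
      rw [inner_self_eq_norm_sq_to_K]; push_cast; rfl
    have e3 : v.1.2 * conj v.1.2 = ((‖v.1.2‖ ^ 2 : ℝ) : ℂ) := by
      rw [Complex.mul_conj, Complex.normSq_eq_norm_sq]
    rw [e1, e2]
    have e4 : v.1.2 * -(-Complex.I * conj v.1.2) = Complex.I * ((‖v.1.2‖ ^ 2 : ℝ) : ℂ) := by
      rw [← e3]; ring
    rw [e4]
    simp only [Complex.sub_im, Complex.mul_im, Complex.neg_re, Complex.neg_im, Complex.I_re,
      Complex.I_im, Complex.ofReal_re, Complex.ofReal_im]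
    ring
  rw [key] at h1
  have a1 : ‖v.1.1‖ ^ 2 = 0 := by nlinarith [sq_nonneg ‖v.1.1‖, sq_nonneg ‖v.1.2‖, sq_nonneg ‖v.2‖]
  have a2 : ‖v.1.2‖ ^ 2 = 0 := by nlinarith [sq_nonneg ‖v.1.1‖, sq_nonneg ‖v.1.2‖, sq_nonneg ‖v.2‖]
  have a3 : ‖v.2‖ ^ 2 = 0 := by nlinarith [sq_nonneg ‖v.1.1‖, sq_nonneg ‖v.1.2‖, sq_nonneg ‖v.2‖]
  have b1 : v.1.1 = 0 := norm_eq_zero.1 (pow_eq_zero_iff two_ne_zero |>.1 a1)
  have b2 : v.1.2 = 0 := norm_eq_zero.1 (pow_eq_zero_iff two_ne_zero |>.1 a2)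
  have b3 : v.2 = 0 := norm_eq_zero.1 (pow_eq_zero_iff two_ne_zero |>.1 a3)
  exact Prod.ext (Prod.ext b1 b2) b3

theorem eeB_nondeg (y : V1 n × W m) (h : ∀ x, eeB n m x y = 0) : y = 0 := by
  apply ee_nondeg
  intro w
  rw [ee_swap, ← eeB_apply, h w, neg_zero]

/-- **T2b for `EDat`**: symplectic `ℤ`-basis of the lattice. -/
theorem edat_sympl (D : EDat) :
    ∃ (N : ℕ) (p q : Fin N → V1 D.n × W D.m), SB (eeB D.n D.m) D.L p q :=
  selfdual_sympl (eeB D.n D.m) ee_self D.L D.disc D.span D.int D.dual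

/-- The real coordinates in a symplectic basis: an isomorphism `V ≃ (Fin N → ℝ) × (Fin N → ℝ)`,
`x ↦ (e x (q i), - e x (p i))`. -/
def SB.coord {V : Type*} [NormedAddCommGroup V] [NormedSpace ℝ V]
    {e : V →ₗ[ℝ] V →ₗ[ℝ] ℝ} {L : AddSubgroup V} {N : ℕ} {p q : Fin N → V}
    (halt : ∀ x, e x x = 0) (h : SB e L p q) : V ≃ₗ[ℝ] (Fin N → ℝ) × (Fin N → ℝ) where
  toFun x := (fun i => e x (q i), fun i => - e x (p i))
  map_add' := by
    intro x y
    ext i <;> simp; ring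
  map_smul' := by
    intro c x
    ext i <;> simp
  invFun c := ∑ i, (c.1 i • p i + c.2 i • q i)
  left_inv := by
    intro x
    show ∑ i, (e x (q i) • p i + (-e x (p i)) • q i) = x
    conv_rhs => rw [h.exp x]
    apply Finset.sum_congr rfl
    intro i _
    rw [neg_smul, ← sub_eq_add_neg]
  right_inv := by
    rintro ⟨a, b⟩
    ext j
    · simp only [map_sum, map_add, map_smul, LinearMap.sum_apply, LinearMap.add_apply,
        LinearMap.smul_apply, h.ps.pq, h.ps.qq, smul_eq_mul]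
      simp
    · simp only [map_sum, map_add, map_smul, LinearMap.sum_apply, LinearMap.add_apply,
        LinearMap.smul_apply, h.ps.pp, h.ps.qp halt, smul_eq_mul]
      simp

theorem SB.mem_iff_coord {V : Type*} [NormedAddCommGroup V] [NormedSpace ℝ V] [FiniteDimensional ℝ V]
    {e : V →ₗ[ℝ] V →ₗ[ℝ] ℝ} {L : AddSubgroup V} {N : ℕ} {p q : Fin N → V}
    (halt : ∀ x, e x x = 0) (h : SB e L p q) (x : V) :
    x ∈ L ↔ ∃ a b : Fin N → ℤ, x = ∑ i, ((a i : ℝ) • p i + (b i : ℝ) • q i) := by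
  constructor
  · intro hx
    have hx' := (h.mem x).1 hx
    choose a ha using fun i => (hx' i).1
    choose b hb using fun i => (hx' i).2
    refine ⟨a, fun i => - b i, ?_⟩
    conv_lhs => rw [h.exp x]
    apply Finset.sum_congr rfl
    intro i _
    rw [ha, hb]; push_cast; rw [neg_smul, ← sub_eq_add_neg]
  · rintro ⟨a, b, rfl⟩
    apply AddSubgroup.sum_mem
    intro i _
    rw [Int.cast_smul_eq_zsmul, Int.cast_smul_eq_zsmul]
    exact L.add_mem (L.zsmul_mem (h.p_mem i) _) (L.zsmul_mem (h.q_mem halt i) _)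

/-- **STAB.** `n L ≤ L0`, `n L0 ≤ L`, `g` additive with `(g - 1) L ≤ (n² k) L` ==> `(g-1) L0 ≤ k L0`. -/
theorem stab_of_congr {V : Type*} [AddCommGroup V] [Module ℝ V] (L L0 : AddSubgroup V) (n k : ℕ)
    (hn : 0 < n) (h1 : ∀ x ∈ L, (n : ℝ) • x ∈ L0) (h2 : ∀ x ∈ L0, (n : ℝ) • x ∈ L)
    (g : V →ₗ[ℝ] V) (hg : ∀ x ∈ L, ∃ y ∈ L, g x - x = ((n ^ 2 * k : ℕ) : ℝ) • y) :
    ∀ x ∈ L0, ∃ y ∈ L0, g x - x = (k : ℝ) • y := by
  intro x hx
  obtain ⟨y, hy, hxy⟩ := hg _ (h2 x hx)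
  refine ⟨(n : ℝ) • y, h1 y hy, ?_⟩
  have hn' : (n : ℝ) ≠ 0 := by exact_mod_cast hn.ne'
  have h3 : (n : ℝ) • (g x - x) = (n : ℝ) • ((k : ℝ) • ((n : ℝ) • y)) := by
    rw [smul_sub, ← map_smul, hxy]
    rw [smul_smul, smul_smul]
    congr 1
    push_cast; ring
  exact (smul_right_injective V hn') h3

theorem stab_mem {V : Type*} [AddCommGroup V] [Module ℝ V] (L L0 : AddSubgroup V) (n k : ℕ)
    (hn : 0 < n) (h1 : ∀ x ∈ L, (n : ℝ) • x ∈ L0) (h2 : ∀ x ∈ L0, (n : ℝ) • x ∈ L)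
    (g : V →ₗ[ℝ] V) (hg : ∀ x ∈ L, ∃ y ∈ L, g x - x = ((n ^ 2 * k : ℕ) : ℝ) • y) :
    ∀ x ∈ L0, g x ∈ L0 := by
  intro x hx
  obtain ⟨y, hy, hxy⟩ := stab_of_congr L L0 n k hn h1 h2 g hg x hx
  have : g x = x + (k : ℝ) • y := by rw [← hxy]; abel
  rw [this]
  refine L0.add_mem hx ?_
  have : (k : ℝ) • y = k • y := by rw [Nat.cast_smul_eq_nsmul]
  rw [this]
  exact L0.nsmul_mem hy k

end

end Crest.Agent.R272.Symp_92
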