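import Mathlib

/-!
# Lattice Gaussian summability and tails (helper50)

`E` finite dimensional real normed space, `L` a discrete subgroup, `v₀ : E`.
* `summable_gauss`      : `∑_{v ∈ L} (1+‖v₀+v‖)^k exp(-c ‖v₀+v‖²) < ∞` for `c > 0`.
* `summable_transfer`   : for `j : ι → E` injective with `j i ∈ v₀ + L` and `‖j i‖² ≤ A q i + B`,
                          `∑_i (1+‖j i‖)^k exp(-c q i) < ∞`; finiteness of `{q ≤ T}`.
* `tendsto_tsum_of_eq`  : the dominated limit `∑ φ_N k → ∑ φ k`.
* `tendsto_tail`        : tails tend to zero.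
-/

namespace Crest.Agent.R272.Tail_50

open Filter Topology

noncomputable section

/-- `(1+x)^m exp(-c x²) ≤ exp(m²/(4c))`. -/
theorem pow_mul_exp_le {c : ℝ} (hc : 0 < c) (m : ℕ) {x : ℝ} (hx : 0 ≤ x) :
    (1 + x) ^ m * Real.exp (-c * x ^ 2) ≤ Real.exp ((m : ℝ) ^ 2 / (4 * c)) := by
  have h1 : (1 + x) ^ m ≤ Real.exp (m * x) := by
    calc (1 + x) ^ m ≤ (Real.exp x) ^ m := by
          apply pow_le_pow_left₀ (by positivity)
          have := Real.add_one_le_exp x
          linarith
      _ = Real.exp (m * x) := by rw [← Real.exp_nat_mul]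
  calc (1 + x) ^ m * Real.exp (-c * x ^ 2)
      ≤ Real.exp (m * x) * Real.exp (-c * x ^ 2) := by gcongr
    _ = Real.exp (m * x + -c * x ^ 2) := by rw [Real.exp_add]
    _ ≤ Real.exp ((m : ℝ) ^ 2 / (4 * c)) := by
        apply Real.exp_le_exp.2
        rw [le_div_iff₀ (by positivity)]
        nlinarith [sq_nonneg (2 * c * x - m)]

section Lattice

variable {E : Type*} [NormedAddCommGroup E] [NormedSpace ℝ E] [FiniteDimensional ℝ E]

/-- Gaussian sums (with a polynomial factor) over a translate of a discrete subgroup converge. -/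
theorem summable_gauss (L : Submodule ℤ E) [DiscreteTopology L] (v0 : E) {c : ℝ} (hc : 0 < c)
    (k : ℕ) :
    Summable fun v : L => (1 + ‖v0 + (v : E)‖) ^ k * Real.exp (-c * ‖v0 + (v : E)‖ ^ 2) := by
  set n : ℕ := Module.finrank ℤ L + 1 with hn
  have hs := ZLattice.summable_norm_sub_inv_pow L n (by omega) (-v0)
  have hs' := hs.mul_left (Real.exp (((k + n : ℕ) : ℝ) ^ 2 / (4 * c)))
  refine Summable.of_norm_bounded_eventually hs' ?_
  have hfin : ({v : L | v0 + (v : E) = 0} : Set L).Finite := by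
    apply Set.Subsingleton.finite
    intro a ha b hb
    simp only [Set.mem_ofPred_eq] at ha hb
    apply Subtype.ext
    have : v0 + (a : E) = v0 + (b : E) := by rw [ha, hb]
    exact add_left_cancel this
  refine hfin.subset ?_
  intro v hv
  simp only [Set.mem_ofPred_eq]
  by_contra hne
  apply hv
  simp only [Set.mem_ofPred_eq]
  set x : ℝ := ‖v0 + (v : E)‖ with hx
  have hxpos : 0 < x := norm_pos_iff.2 hne
  have hxe : ‖(v : E) - -v0‖ = x := by rw [hx, sub_neg_eq_add, add_comm]
  rw [hxe]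
  rw [Real.norm_of_nonneg (by positivity)]
  have hb := pow_mul_exp_le hc (k + n) hxpos.le
  rw [pow_add] at hb
  have h2 : x ^ n ≤ (1 + x) ^ n := pow_le_pow_left₀ hxpos.le (by linarith) n
  have h3 : (1 + x) ^ k * Real.exp (-c * x ^ 2) * x ^ n
      ≤ Real.exp (((k + n : ℕ) : ℝ) ^ 2 / (4 * c)) := by
    calc (1 + x) ^ k * Real.exp (-c * x ^ 2) * x ^ n
        ≤ (1 + x) ^ k * Real.exp (-c * x ^ 2) * (1 + x) ^ n := by gcongr
      _ = (1 + x) ^ k * (1 + x) ^ n * Real.exp (-c * x ^ 2) := by ring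
      _ ≤ _ := hb
  rw [inv_pow, ← div_eq_mul_inv, le_div_iff₀ (by positivity)]
  exact h3

/-- `AddSubgroup` version. -/
theorem summable_gauss' (L : AddSubgroup E) [h : DiscreteTopology L] (v0 : E) {c : ℝ} (hc : 0 < c)
    (k : ℕ) :
    Summable fun v : L => (1 + ‖v0 + (v : E)‖) ^ k * Real.exp (-c * ‖v0 + (v : E)‖ ^ 2) := by
  have : DiscreteTopology (AddSubgroup.toIntSubmodule L) := h
  exact summable_gauss (AddSubgroup.toIntSubmodule L) v0 hc k

variable {ι : Type*}

/-- Transfer: `j` injective with values in a translate of a discrete subgroup and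
`‖j i‖² ≤ A q i + B`: Gaussian sums in `q` converge. -/
theorem summable_transfer (L : AddSubgroup E) [DiscreteTopology L] (v0 : E) (j : ι → E)
    (hj : Function.Injective j) (hL : ∀ i, j i - v0 ∈ L) {q : ι → ℝ} {A B : ℝ} (hA : 0 < A)
    (hq : ∀ i, ‖j i‖ ^ 2 ≤ A * q i + B) {c : ℝ} (hc : 0 < c) (k : ℕ) :
    Summable fun i => (1 + ‖j i‖) ^ k * Real.exp (-c * q i) := by
  have h0 := summable_gauss' L v0 (c := c / A) (by positivity) k
  have hinj : Function.Injective (fun i => (⟨j i - v0, hL i⟩ : L)) := by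
    intro a b hab
    apply hj
    have := congrArg (fun x : L => (x : E)) hab
    simpa using this
  have h1 := (h0.comp_injective hinj).mul_left (Real.exp (c * B / A))
  refine Summable.of_nonneg_of_le (fun i => by positivity) (fun i => ?_) h1
  simp only [Function.comp]
  have e1 : v0 + (j i - v0) = j i := by abel
  rw [e1]
  have h2 : Real.exp (-c * q i) ≤ Real.exp (c * B / A) * Real.exp (-(c / A) * ‖j i‖ ^ 2) := by
    rw [← Real.exp_add]
    apply Real.exp_le_exp.2
    have h3 : c / A * ‖j i‖ ^ 2 ≤ c / A * (A * q i + B) :=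
      mul_le_mul_of_nonneg_left (hq i) (by positivity)
    have h4 : c / A * (A * q i + B) = c * q i + c * B / A := by field_simp
    rw [h4] at h3
    linarith
  calc (1 + ‖j i‖) ^ k * Real.exp (-c * q i)
      ≤ (1 + ‖j i‖) ^ k * (Real.exp (c * B / A) * Real.exp (-(c / A) * ‖j i‖ ^ 2)) := by gcongr
    _ = _ := by ring

/-- the same without polynomial factor -/
theorem summable_exp (L : AddSubgroup E) [DiscreteTopology L] (v0 : E) (j : ι → E)
    (hj : Function.Injective j) (hL : ∀ i, j i - v0 ∈ L) {q : ι → ℝ} {A B : ℝ} (hA : 0 < A)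
    (hq : ∀ i, ‖j i‖ ^ 2 ≤ A * q i + B) {c : ℝ} (hc : 0 < c) :
    Summable fun i => Real.exp (-c * q i) := by
  simpa using summable_transfer L v0 j hj hL hA hq hc 0

end Lattice

section General

variable {ι : Type*}

/-- If `∑ exp(-c q i) < ∞` for one `c > 0` then `{q ≤ T}` is finite. -/
theorem finite_of_summable_exp {q : ι → ℝ} {c : ℝ} (hc : 0 < c)
    (hs : Summable fun i => Real.exp (-c * q i)) (T : ℝ) : {i | q i ≤ T}.Finite := by
  have h1 := hs.tendsto_cofinite_zero
  have h2 : ∀ᶠ i in cofinite, Real.exp (-c * q i) < Real.exp (-c * T) :=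
    h1.eventually (gt_mem_nhds (Real.exp_pos _))
  refine Set.Finite.subset h2 ?_
  intro i hi
  simp only [Set.mem_ofPred_eq] at hi
  simp only [Set.mem_compl_iff, Set.mem_ofPred_eq, not_lt]
  apply Real.exp_le_exp.2
  nlinarith

/-- ... and `q → ∞` along the cofinite filter. -/
theorem tendsto_atTop_of_summable_exp {q : ι → ℝ} {c : ℝ} (hc : 0 < c)
    (hs : Summable fun i => Real.exp (-c * q i)) : Tendsto q cofinite atTop := by
  refine tendsto_atTop.2 fun b => ?_
  refine Set.Finite.subset (finite_of_summable_exp hc hs b) ?_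
  intro i hi
  simp only [Set.mem_compl_iff, Set.mem_ofPred_eq, not_le] at hi
  exact hi.le

variable {F : Type*} [NormedAddCommGroup F]

/-- Dominated limit of series. `φ_N` uniformly bounded coefficients which agree with `φ` on
`{q ≤ T_N}`, `T_N → ∞`; `∑ ‖k i‖ < ∞`. -/
theorem tendsto_tsum_of_eq [CompleteSpace F] [NormedSpace ℂ F] {q : ι → ℝ} {k : ι → F}
    (hk : Summable fun i => ‖k i‖)
    {φ : ℕ → ι → ℂ} {φ' : ι → ℂ} {C : ℝ} (hC : ∀ N i, ‖φ N i‖ ≤ C) {T : ℕ → ℝ}
    (hT : Tendsto T atTop atTop) (he : ∀ N i, q i ≤ T N → φ N i = φ' i) :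
    Tendsto (fun N => ∑' i, φ N i • k i) atTop (𝓝 (∑' i, φ' i • k i)) := by
  refine tendsto_tsum_of_dominated_convergence (bound := fun i => C * ‖k i‖) (hk.mul_left C) ?_ ?_
  · intro i
    have : ∀ᶠ N in atTop, φ N i • k i = φ' i • k i := by
      filter_upwards [hT.eventually_ge_atTop (q i)] with N hN
      rw [he N i hN]
    exact tendsto_const_nhds.congr' (this.mono fun N h => h.symm)
  · refine Eventually.of_forall fun N i => ?_
    rw [norm_smul]
    exact mul_le_mul_of_nonneg_right (hC N i) (norm_nonneg _)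

/-- The case of the indicator of a set `S` in the limit: the limit is the sum over `S`. -/
theorem tendsto_tsum_of_eq_indicator [CompleteSpace F] [NormedSpace ℂ F] {q : ι → ℝ} {k : ι → F}
    (hk : Summable fun i => ‖k i‖) {S : Set ι}
    {φ : ℕ → ι → ℂ} {C : ℝ} (hC : ∀ N i, ‖φ N i‖ ≤ C) {T : ℕ → ℝ}
    (hT : Tendsto T atTop atTop)
    (he1 : ∀ N i, q i ≤ T N → i ∈ S → φ N i = 1)
    (he0 : ∀ N i, q i ≤ T N → i ∉ S → φ N i = 0) :
    Tendsto (fun N => ∑' i, φ N i • k i) atTop (𝓝 (∑' i : S, k i)) := by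
  classical
  have h := tendsto_tsum_of_eq (φ' := S.indicator (fun _ => (1 : ℂ))) hk hC hT (by
    intro N i hi
    by_cases hS : i ∈ S
    · rw [he1 N i hi hS, Set.indicator_of_mem hS]
    · rw [he0 N i hi hS, Set.indicator_of_notMem hS])
  have e : (∑' i, (S.indicator (fun _ => (1 : ℂ)) i) • k i) = ∑' i : S, k i := by
    rw [tsum_subtype S k]
    congr 1
    ext i
    by_cases hS : i ∈ S
    · simp [hS]
    · simp [hS]
  rw [e] at h
  exact h

/-- Tails of a convergent series of nonnegative terms. -/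
theorem tendsto_tail {q f : ι → ℝ} (hf : Summable f) :
    Tendsto (fun T : ℝ => ∑' i, Set.indicator {i | T ≤ q i} f i) atTop (𝓝 0) := by
  have h := tendsto_tsum_of_dominated_convergence (𝓕 := (atTop : Filter ℝ))
    (f := fun (T : ℝ) i => Set.indicator {i | T ≤ q i} f i) (g := fun _ : ι => (0 : ℝ))
    (bound := fun i => |f i|) hf.abs ?_ ?_
  · simpa using h
  · intro i
    have : ∀ᶠ T : ℝ in atTop, Set.indicator {i | T ≤ q i} f i = 0 := by
      filter_upwards [eventually_gt_atTop (q i)] with T hT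
      apply Set.indicator_of_notMem
      simp only [Set.mem_ofPred_eq, not_le]
      exact hT
    exact tendsto_const_nhds.congr' (this.mono fun T h => h.symm)
  · refine Eventually.of_forall fun T i => ?_
    by_cases h : i ∈ {i | T ≤ q i}
    · rw [Set.indicator_of_mem h, Real.norm_eq_abs]
    · rw [Set.indicator_of_notMem h, norm_zero]
      exact abs_nonneg _

/-- Majorant form: if off a finite set of indices `‖f i z‖ ≤ C exp(-c q i)` on `K` then there is a
summable majorant. -/
theorem exists_majorant {X : Type*} {q : ι → ℝ} {c C : ℝ}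
    (hs : Summable fun i => Real.exp (-c * q i)) {f : ι → X → F} {K : Set X} {s : Set ι}
    (hfin : s.Finite)
    (hb : ∀ i, i ∉ s → ∀ z ∈ K, ‖f i z‖ ≤ C * Real.exp (-c * q i)) :
    ∃ u : ι → ℝ, Summable u ∧ ∀ᶠ i in cofinite, ∀ z ∈ K, ‖f i z‖ ≤ u i := by
  refine ⟨fun i => C * Real.exp (-c * q i), hs.mul_left C, ?_⟩
  refine Set.Finite.subset hfin ?_
  intro i hi
  by_contra h
  exact hi (fun z hz => hb i h z hz)

/-- The same when the bound is only known for `q i ≥ T`. -/
theorem exists_majorant' {X : Type*} {q : ι → ℝ} {c C T : ℝ} (hc : 0 < c)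
    (hs : Summable fun i => Real.exp (-c * q i)) {f : ι → X → F} {K : Set X}
    (hb : ∀ i, T < q i → ∀ z ∈ K, ‖f i z‖ ≤ C * Real.exp (-c * q i)) :
    ∃ u : ι → ℝ, Summable u ∧ ∀ᶠ i in cofinite, ∀ z ∈ K, ‖f i z‖ ≤ u i :=
  exists_majorant hs (finite_of_summable_exp hc hs T) (fun i hi z hz => hb i (by
    simpa using hi) z hz)

end General

end

end Crest.Agent.R272.Tail_50
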