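import Crest.Agent.R272.K3E5_227
import Crest.Agent.R272.IdnE_834
import Crest.Agent.R272.Idn2_834
import Crest.Agent.R272.AJd_956
import Crest.Agent.R266.SCV

/-!
# R272 (helper876), THETA, part 1: descent of symmetric functions near `Γ` to germs at `0 ∈ ℂ²`

`exists_form`   : near `(c, iv c)` a swap invariant analytic function is an analytic function of
                  `(TT i, U_i)`;
`removable_pt`  : isolated points are removable in `ℂ²`;
`exists_desc`   : **a swap invariant function, analytic near `Γ` and constant on `Γ`, is `q ∘ U` with `q`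
                  analytic at `0`**;
`isBigO_of_isLittleO` : an analytic germ which is `o(|z|ⁿ)` is `O(|z|ⁿ⁺¹)`.
-/

set_option autoImplicit false
set_option linter.unusedSectionVars false
set_option linter.unusedVariables false

open Set Filter Topology Asymptotics

namespace Crest.Agent.R272.Th_876

open Crest.Agent.R272.AJ_956 Crest.Agent.R272.Idn_834

noncomputable section

/-! ### removable points -/

theorem removable_pt {f : E2 → ℂ} (hc : ContinuousAt f 0)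
    (hd : ∀ᶠ z in 𝓝 (0 : E2), z ≠ 0 → DifferentiableAt ℂ f z) : AnalyticAt ℂ f 0 := by
  obtain ⟨W, hW, hWo, h0⟩ := eventually_nhds_iff.1 hd
  have hcW : ContinuousOn f W := by
    intro z hz
    rcases eq_or_ne z 0 with rfl | hz0
    · exact hc.continuousWithinAt
    · exact (hW z hz hz0).continuousAt.continuousWithinAt
  refine Crest.Agent.R266.SCV.analyticOnNhd_of_basis (Module.finBasis ℂ E2) hWo hcW
    (fun y hy i => ?_) 0 h0
  set v : E2 := Module.finBasis ℂ E2 i with hv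
  have hv0 : v ≠ 0 := (Module.finBasis ℂ E2).ne_zero i
  rcases eq_or_ne y 0 with rfl | hy0
  · have hl : Continuous fun z : ℂ => (0 : E2) + z • v := by fun_prop
    have hV : ((fun z : ℂ => (0 : E2) + z • v) ⁻¹' W) ∈ 𝓝 (0 : ℂ) :=
      (hWo.preimage hl).mem_nhds (by simpa using h0)
    refine (Complex.analyticAt_of_differentiable_on_punctured_nhds_of_continuousAt ?_
      ?_).differentiableAt
    · filter_upwards [self_mem_nhdsWithin, mem_nhdsWithin_of_mem_nhds hV] with z h1 h2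
      have h3 : (0 : E2) + z • v ≠ 0 := by
        rw [zero_add]; exact smul_ne_zero h1 hv0
      exact (hW _ h2 h3).comp z (f := fun z : ℂ => (0 : E2) + z • v) (by fun_prop)
    · have h3 : ContinuousAt f ((0 : E2) + (0 : ℂ) • v) := by simpa using hc
      exact h3.comp (f := fun z : ℂ => (0 : E2) + z • v) hl.continuousAt
  · have h3 : DifferentiableAt ℂ f (y + (0 : ℂ) • v) := by simpa using hW y hy hy0
    exact h3.comp (0 : ℂ) (f := fun z : ℂ => y + z • v) (by fun_prop)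

/-! ### orders of germs -/

theorem poly_zero (n : ℕ) : ∀ c : ℕ → ℂ,
    ((fun a : ℂ => ∑ k ∈ Finset.range (n + 1), c k * a ^ k) =o[𝓝[≠] 0] fun a : ℂ => a ^ n) →
    ∀ k, k ≤ n → c k = 0 := by
  have hid : Tendsto (fun a : ℂ => a) (𝓝[≠] 0) (𝓝 0) := nhdsWithin_le_nhds
  induction n with
  | zero =>
    intro c h k hk
    have h1 : Tendsto (fun _ : ℂ => c 0) (𝓝[≠] (0 : ℂ)) (𝓝 0) := by
      have := h.tendsto_div_nhds_zero
      simpa using this
    obtain rfl : k = 0 := by omega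
    exact tendsto_nhds_unique tendsto_const_nhds h1
  | succ n ih =>
    intro c h
    have h0 : c 0 = 0 := by
      have h1 : Tendsto (fun a : ℂ => ∑ k ∈ Finset.range (n + 1 + 1), c k * a ^ k) (𝓝[≠] 0)
          (𝓝 0) := by
        have h2 : Tendsto (fun a : ℂ => a ^ (n + 1)) (𝓝[≠] (0 : ℂ)) (𝓝 0) := by
          have := hid.pow (n + 1)
          simpa using this
        exact h.trans_tendsto h2
      have h2 : Tendsto (fun a : ℂ => ∑ k ∈ Finset.range (n + 1 + 1), c k * a ^ k) (𝓝[≠] 0)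
          (𝓝 (∑ k ∈ Finset.range (n + 1 + 1), c k * 0 ^ k)) :=
        tendsto_finsetSum _ fun k _ => tendsto_const_nhds.mul (hid.pow k)
      have h3 : ∑ k ∈ Finset.range (n + 1 + 1), c k * (0 : ℂ) ^ k = c 0 := by
        rw [Finset.sum_range_succ']
        simp
      rw [h3] at h2
      exact tendsto_nhds_unique h2 h1
    have h4 := ih (fun k => c (k + 1)) (by
      rw [isLittleO_iff] at h ⊢
      intro ε hε
      filter_upwards [h hε, self_mem_nhdsWithin] with a ha ha0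
      have ha0' : 0 < ‖a‖ := norm_pos_iff.2 ha0
      rw [Finset.sum_range_succ', h0, zero_mul, add_zero] at ha
      have e1 : ∑ k ∈ Finset.range (n + 1), c (k + 1) * a ^ (k + 1) =
          a * ∑ k ∈ Finset.range (n + 1), c (k + 1) * a ^ k := by
        rw [Finset.mul_sum]
        refine Finset.sum_congr rfl fun k _ => ?_
        ring
      rw [e1, norm_mul, pow_succ, norm_mul] at ha
      have e2 : ‖a‖ * ‖∑ k ∈ Finset.range (n + 1), c (k + 1) * a ^ k‖ ≤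
          ‖a‖ * (ε * ‖a ^ n‖) := by linarith [ha]
      exact le_of_mul_le_mul_left e2 ha0')
    intro k hk
    rcases k with _ | k
    · exact h0
    · exact h4 k (by omega)

/-- an analytic germ which is `o(|z|ⁿ)` is `O(|z|ⁿ⁺¹)` -/
theorem isBigO_of_isLittleO {E : Type*} [NormedAddCommGroup E] [NormedSpace ℂ E] {f : E → ℂ}
    (n : ℕ) (hf : AnalyticAt ℂ f 0) (h : f =o[𝓝 0] fun z => ‖z‖ ^ n) :
    f =O[𝓝 0] fun z => ‖z‖ ^ (n + 1) := by
  obtain ⟨p, hp⟩ := hf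
  have h3 : (fun y => f (0 + y) - p.partialSum (n + 1) y) =O[𝓝 0] fun y => ‖y‖ ^ (n + 1) :=
    hp.isBigO_sub_partialSum_pow (n + 1)
  simp only [zero_add] at h3
  suffices hz : ∀ y, p.partialSum (n + 1) y = 0 by
    simpa [hz] using h3
  intro y
  set c : ℕ → ℂ := fun k => p k fun _ => y with hc
  have hsm : ∀ (a : ℂ), p.partialSum (n + 1) (a • y) =
      ∑ k ∈ Finset.range (n + 1), c k * a ^ k := by
    intro a
    refine Finset.sum_congr rfl fun k _ => ?_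
    have := (p k).map_smul_univ (fun _ => a) (fun _ => y)
    simp only [Finset.prod_const, Finset.card_univ, Fintype.card_fin, smul_eq_mul] at this
    rw [this, mul_comm]
  have hl : Tendsto (fun a : ℂ => a • y) (𝓝[≠] 0) (𝓝 (0 : E)) := by
    have : Tendsto (fun a : ℂ => a • y) (𝓝 0) (𝓝 ((0 : ℂ) • y)) :=
      (continuous_id.smul continuous_const).tendsto 0
    rw [zero_smul] at this
    exact this.mono_left nhdsWithin_le_nhds
  have h4 : (fun a : ℂ => f (a • y)) =o[𝓝[≠] 0] fun a : ℂ => a ^ n := by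
    refine (h.comp_tendsto hl).trans_isBigO ?_
    refine IsBigO.of_bound (‖y‖ ^ n) (Eventually.of_forall fun a => ?_)
    simp only [Function.comp, norm_smul, norm_pow, norm_mul, norm_norm]
    exact le_of_eq (by ring)
  have h5 : (fun a : ℂ => f (a • y) - p.partialSum (n + 1) (a • y)) =o[𝓝[≠] 0]
      fun a : ℂ => a ^ n := by
    refine (h3.comp_tendsto hl).trans_isLittleO ?_
    have h6 : (fun a : ℂ => ‖a • y‖ ^ (n + 1)) =O[𝓝[≠] 0] fun a : ℂ => a ^ (n + 1) := by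
      refine IsBigO.of_bound (‖y‖ ^ (n + 1)) (Eventually.of_forall fun a => ?_)
      simp only [norm_smul, norm_pow, norm_mul, norm_norm]
      exact le_of_eq (by ring)
    refine h6.trans_isLittleO ?_
    have h7 : (fun a : ℂ => a ^ (n + 1)) =o[𝓝 0] fun a : ℂ => a ^ n :=
      isLittleO_pow_pow (by omega)
    exact h7.mono nhdsWithin_le_nhds
  have h8 : (fun a : ℂ => ∑ k ∈ Finset.range (n + 1), c k * a ^ k) =o[𝓝[≠] 0]
      fun a : ℂ => a ^ n := by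
    refine (h4.sub h5).congr_left fun a => ?_
    rw [← hsm a]
    ring
  have h9 := poly_zero n c h8
  have h10 := hsm 1
  rw [one_smul] at h10
  rw [h10]
  refine Finset.sum_eq_zero fun k hk => ?_
  rw [h9 k (by have := Finset.mem_range.1 hk; omega), zero_mul]

/-! ### functions near `Γ` -/

variable {C : Type} [TopologicalSpace C] {𝒞 : Cur C} {N : Set (C × C)} {U : C × C → E2}

theorem kk_tendsto (c : C) : Tendsto (fun x : C × C => (𝒞.k c x.1, 𝒞.k (𝒞.iv c) x.2))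
    (𝓝 (c, 𝒞.iv c)) (𝓝 (0 : ℂ × ℂ)) := K3E_227.tendsto_cc c

/-- a swap invariant analytic function near `(c, iv c)` is an analytic function of `(TT i, U_i)` -/
theorem exists_form (hN : 𝒞.NearE N U) {Q : C × C → ℂ} {i : Fin 2} {c : C} (hc : c ∈ Ci 𝒞 i)
    (hsym : ∀ᶠ x in 𝓝 ((c, 𝒞.iv c) : C × C), Q x.swap = Q x)
    (han : ∃ γ : ℂ × ℂ → ℂ, AnalyticAt ℂ γ 0 ∧ ∀ᶠ x in 𝓝 ((c, 𝒞.iv c) : C × C),
      Q x = γ (𝒞.k c x.1, 𝒞.k (𝒞.iv c) x.2)) :
    ∃ H : ℂ × ℂ → ℂ, AnalyticAt ℂ H (tv 𝒞 i c, 0) ∧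
      (∀ᶠ x in 𝓝 ((c, 𝒞.iv c) : C × C), Q x = H (𝒞.TT U i x, U x i)) ∧
      Tendsto (fun x => (𝒞.TT U i x, U x i)) (𝓝 (c, 𝒞.iv c)) (𝓝 (tv 𝒞 i c, 0)) := by
  have hg : ((c, 𝒞.iv c) : C × C) ∈ 𝒞.Gam := rfl
  have h0 : (𝒞.TT U i (c, 𝒞.iv c), U (c, 𝒞.iv c) i) = (tv 𝒞 i c, 0) := by
    rw [TT_gam hg, U_gam hN hg]; rfl
  obtain ⟨γ, hγ, hQ⟩ := han
  -- common end: `(TT, U i) = F (σ x)`, `Q x = η (σ x)`
  have key : ∀ (σ : C × C → ℂ × ℂ) (F : ℂ × ℂ → ℂ × ℂ) (F' : (ℂ × ℂ) ≃L[ℂ] (ℂ × ℂ))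
      (η : ℂ × ℂ → ℂ), AnalyticAt ℂ F 0 → HasFDerivAt F (F' : (ℂ × ℂ) →L[ℂ] (ℂ × ℂ)) 0 →
      AnalyticAt ℂ η 0 → Tendsto σ (𝓝 (c, 𝒞.iv c)) (𝓝 0) → σ (c, 𝒞.iv c) = 0 →
      (∀ᶠ x in 𝓝 ((c, 𝒞.iv c) : C × C), (𝒞.TT U i x, U x i) = F (σ x)) →
      (∀ᶠ x in 𝓝 ((c, 𝒞.iv c) : C × C), Q x = η (σ x)) →
      ∃ H : ℂ × ℂ → ℂ, AnalyticAt ℂ H (tv 𝒞 i c, 0) ∧
      (∀ᶠ x in 𝓝 ((c, 𝒞.iv c) : C × C), Q x = H (𝒞.TT U i x, U x i)) ∧
      Tendsto (fun x => (𝒞.TT U i x, U x i)) (𝓝 (c, 𝒞.iv c)) (𝓝 (tv 𝒞 i c, 0)) := by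
    intro σ F F' η hF hF' hη hσ hσ0 hT hQη
    have hF0 : F 0 = (tv 𝒞 i c, 0) := by
      rw [← h0, ← hσ0]; exact hT.self_of_nhds.symm
    obtain ⟨e, he0, -, hee, he1, he2⟩ :=
      Crest.Agent.R266.SCV.exists_analytic_openPartialHomeomorph hF F' hF' univ_mem
    have hes : e.symm (tv 𝒞 i c, 0) = 0 := by
      rw [← hF0, ← hee]; exact e.left_inv he0
    have het : ((tv 𝒞 i c, 0) : ℂ × ℂ) ∈ e.target := by
      rw [← hF0, ← hee]; exact e.map_source he0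
    refine ⟨fun p => η (e.symm p), ?_, ?_, ?_⟩
    · exact AnalyticAt.comp (g := η) (f := e.symm) (by rw [hes]; exact hη) (he2 _ het)
    · filter_upwards [hT, hQη, hσ.eventually (e.open_source.mem_nhds he0)] with x h1 h2 h3
      rw [h1, h2, ← hee, e.left_inv h3]
    · have h1 : Tendsto (fun x => F (σ x)) (𝓝 (c, 𝒞.iv c)) (𝓝 (tv 𝒞 i c, 0)) := by
        rw [← hF0]
        exact hF.continuousAt.tendsto.comp hσ
      exact h1.congr' (hT.mono fun x hx => hx.symm)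
  by_cases hW : 𝒞.iv c = c
  · obtain ⟨F, F', hF, hF', hev⟩ := hN.coordW c i hW hc
    rw [hW] at key hsym hQ ⊢
    set σ : C × C → ℂ × ℂ :=
      fun x => (𝒞.k c x.1 + 𝒞.k c x.2, (𝒞.k c x.1 - 𝒞.k c x.2) ^ 2) with hσd
    have hkk : Tendsto (fun x : C × C => (𝒞.k c x.1, 𝒞.k c x.2)) (𝓝 (c, c)) (𝓝 (0 : ℂ × ℂ)) := by
      have := kk_tendsto (𝒞 := 𝒞) c
      rwa [hW] at this
    have hσ : Tendsto σ (𝓝 (c, c)) (𝓝 0) := by
      have hm : Tendsto (fun p : ℂ × ℂ => (p.1 + p.2, (p.1 - p.2) ^ 2)) (𝓝 0)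
          (𝓝 (0 : ℂ × ℂ)) := by
        have : Continuous fun p : ℂ × ℂ => (p.1 + p.2, (p.1 - p.2) ^ 2) := by fun_prop
        exact this.tendsto' _ _ (by simp)
      exact hm.comp hkk
    have hσ0 : σ (c, c) = 0 := by simp [hσd, 𝒞.k_zero]
    -- even descent
    let L : ℂ × ℂ → ℂ × ℂ := fun p => ((p.1 + p.2) / 2, (p.1 - p.2) / 2)
    have hL : Continuous L := by fun_prop
    have hL0 : L 0 = 0 := by simp [L]
    have hLt : Tendsto L (𝓝 0) (𝓝 0) := by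
      have := hL.tendsto 0
      rwa [hL0] at this
    have hLa : AnalyticAt ℂ L 0 := by
      have : L = fun p : ℂ × ℂ => ((p.1 + p.2) / 2, (p.1 - p.2) / 2) := rfl
      rw [this]
      exact ((analyticAt_fst.add analyticAt_snd).div_const).prod
        ((analyticAt_fst.sub analyticAt_snd).div_const)
    have hγ' : AnalyticAt ℂ (fun p => γ (L p)) 0 :=
      AnalyticAt.comp (g := γ) (f := L) (by rw [hL0]; exact hγ) hLa
    -- symmetry of `γ`
    have hks : Tendsto (fun p : ℂ × ℂ => ((𝒞.k c).symm p.1, (𝒞.k c).symm p.2)) (𝓝 0)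
        (𝓝 ((c, c) : C × C)) := by
      have h1 : Tendsto (fun p : ℂ × ℂ => (𝒞.k c).symm p.1) (𝓝 0) (𝓝 c) :=
        (K3E_227.tendsto_ks (𝒞 := 𝒞) c).comp (continuous_fst.tendsto' _ _ rfl)
      have h2 : Tendsto (fun p : ℂ × ℂ => (𝒞.k c).symm p.2) (𝓝 0) (𝓝 c) :=
        (K3E_227.tendsto_ks (𝒞 := 𝒞) c).comp (continuous_snd.tendsto' _ _ rfl)
      exact h1.prodMk_nhds h2
    have htg : ∀ᶠ p : ℂ × ℂ in 𝓝 0, p.1 ∈ (𝒞.k c).target ∧ p.2 ∈ (𝒞.k c).target := by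
      have h1 : ∀ᶠ z : ℂ in 𝓝 0, z ∈ (𝒞.k c).target :=
        (𝒞.k c).open_target.mem_nhds (K3E_227.zero_mem 𝒞 c)
      have h2 : Tendsto (fun p : ℂ × ℂ => p.1) (𝓝 0) (𝓝 0) := continuous_fst.tendsto' _ _ rfl
      have h3 : Tendsto (fun p : ℂ × ℂ => p.2) (𝓝 0) (𝓝 0) := continuous_snd.tendsto' _ _ rfl
      exact (h2.eventually h1).and (h3.eventually h1)
    have hswt : Tendsto (Prod.swap : C × C → C × C) (𝓝 (c, c)) (𝓝 (c, c)) :=
      continuous_swap.tendsto' _ _ rfl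
    have hγs : ∀ᶠ p : ℂ × ℂ in 𝓝 0, γ (p.2, p.1) = γ (p.1, p.2) := by
      filter_upwards [hks.eventually (hsym.and (hQ.and (hswt.eventually hQ))), htg] with p hp ht
      obtain ⟨h1, h2, h3⟩ := hp
      simp only [Prod.swap_prod_mk] at h1 h2 h3
      rw [(𝒞.k c).right_inv ht.1, (𝒞.k c).right_inv ht.2] at h2 h3
      rw [← h3, ← h2, h1]
    have heven : ∀ᶠ p : ℂ × ℂ in 𝓝 0, (fun p => γ (L p)) (p.1, -p.2) = (fun p => γ (L p)) p := by
      filter_upwards [hLt.eventually hγs] with p hp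
      have e1 : L (p.1, -p.2) = ((L p).2, (L p).1) := by
        simp only [L, Prod.mk.injEq]
        constructor <;> ring
      show γ (L (p.1, -p.2)) = γ (L p)
      rw [e1, hp]
    obtain ⟨η, hη, hηe⟩ := even_desc hγ' heven
    have hδ : Tendsto (fun x : C × C => ((𝒞.k c x.1 + 𝒞.k c x.2, 𝒞.k c x.1 - 𝒞.k c x.2) : ℂ × ℂ))
        (𝓝 (c, c)) (𝓝 0) := by
      have hm : Tendsto (fun p : ℂ × ℂ => (p.1 + p.2, p.1 - p.2)) (𝓝 0) (𝓝 (0 : ℂ × ℂ)) := by
        have : Continuous fun p : ℂ × ℂ => (p.1 + p.2, p.1 - p.2) := by fun_prop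
        exact this.tendsto' _ _ (by simp)
      exact hm.comp hkk
    refine key σ F F' η hF hF' hη hσ hσ0 hev ?_
    filter_upwards [hQ, hδ.eventually hηe] with x h1 h2
    rw [h1]
    have e1 : L (𝒞.k c x.1 + 𝒞.k c x.2, 𝒞.k c x.1 - 𝒞.k c x.2) = (𝒞.k c x.1, 𝒞.k c x.2) := by
      simp only [L, Prod.mk.injEq]
      constructor <;> ring
    rw [e1] at h2
    rw [h2]
  · obtain ⟨F, F', hF, hF', hev⟩ := hN.coord c i hW hc
    exact key (fun x => (𝒞.k c x.1, 𝒞.k (𝒞.iv c) x.2)) F F' γ hF hF' hγ (kk_tendsto c)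
      (by simp only [𝒞.k_zero]; rfl) hev hQ

/-- **descent** -/
theorem exists_desc [T2Space C] (hN : 𝒞.NearE N U) {Q : C × C → ℂ} {q₀ : ℂ}
    (hsym : ∀ c, ∀ᶠ x in 𝓝 ((c, 𝒞.iv c) : C × C), Q x.swap = Q x)
    (han : ∀ c, ∃ γ : ℂ × ℂ → ℂ, AnalyticAt ℂ γ 0 ∧ ∀ᶠ x in 𝓝 ((c, 𝒞.iv c) : C × C),
      Q x = γ (𝒞.k c x.1, 𝒞.k (𝒞.iv c) x.2))
    (hΓ : ∀ c, Q (c, 𝒞.iv c) = q₀) :
    ∃ q : E2 → ℂ, AnalyticAt ℂ q 0 ∧ q 0 = q₀ ∧ ∀ᶠ x in 𝓝ˢ 𝒞.Gam, Q x = q (U x) := by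
  classical
  -- the good set
  let P : C × C → Prop := fun x => x ∈ N ∧ Q x.swap = Q x ∧ (x ∈ 𝒞.Gam ∨ ∃ i, U x i ≠ 0 ∧
    ∃ H : ℂ × ℂ → ℂ, AnalyticAt ℂ H (𝒞.TT U i x, U x i) ∧
      ∀ᶠ y in 𝓝 x, Q y = H (𝒞.TT U i y, U y i) ∧ y ∉ 𝒞.Gam)
  have hP : ∀ c, ∀ᶠ x in 𝓝 ((c, 𝒞.iv c) : C × C), P x := by
    intro c
    obtain ⟨i, hi⟩ := exists_Ci (𝒞 := 𝒞) c
    obtain ⟨H, hH, hQH, hT⟩ := exists_form hN hi (hsym c) (han c)
    filter_upwards [hN.open_N.mem_nhds (hN.sub rfl), hsym c, near_alt hN hi,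
      hT.eventually hH.eventually_analyticAt, hQH.eventually_nhds] with x h1 h2 h3 h4 h5
    refine ⟨h1, h2, ?_⟩
    by_cases hx : x ∈ 𝒞.Gam
    · exact Or.inl hx
    · refine Or.inr ⟨i, h3.resolve_left hx, H, h4, ?_⟩
      filter_upwards [h5, (AJd_956.Basic.isClosed_Gam 𝒞).isOpen_compl.mem_nhds hx] with y h6 h7
      exact ⟨h6, h7⟩
  obtain ⟨O, hO, hOP⟩ : ∃ O : Set (C × C), (IsOpen O ∧ 𝒞.Gam ⊆ O) ∧ ∀ x ∈ O, P x := by
    refine ⟨interior {x | P x}, ⟨isOpen_interior, ?_⟩, fun x hx =>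
      show x ∈ {x | P x} from interior_subset hx⟩
    intro x hx
    have hx2 : x = (x.1, 𝒞.iv x.1) := Prod.ext rfl hx
    rw [hx2, mem_interior_iff_mem_nhds]
    exact hP x.1
  let q : E2 → ℂ := fun z => if h : ∃ x, x ∈ N ∧ U x = z then Q h.choose else q₀
  obtain ⟨δ, hδ, hδ1, hδ2⟩ := hN.small O hO.1 hO.2
  have hq : ∀ x ∈ N, ‖U x‖ < δ → q (U x) = Q x := by
    intro x hx hxδ
    have h : ∃ y, y ∈ N ∧ U y = U x := ⟨x, hx, rfl⟩
    have e : q (U x) = Q h.choose := dif_pos h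
    have hy := h.choose_spec
    set y := h.choose
    rw [e]
    by_cases h0 : U x = 0
    · have h1 := (hN.zero x hx).1 h0
      have h2 := (hN.zero y hy.1).1 (by rw [hy.2, h0])
      have hx2 : x = (x.1, 𝒞.iv x.1) := Prod.ext rfl h1
      have hy2 : y = (y.1, 𝒞.iv y.1) := Prod.ext rfl h2
      rw [hx2, hy2, hΓ, hΓ]
    · rcases hN.inj x hx y hy.1 hy.2.symm h0 with h1 | h1
      · rw [h1]
      · rw [h1]
        exact (hOP x (hδ1 x hx hxδ)).2.1
  have hsurj : ∀ z : E2, ‖z‖ < δ → ∃ x ∈ N, x ∈ O ∧ U x = z := by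
    intro z hz
    obtain ⟨x, hx, hxz⟩ := hδ2 (mem_ball_zero_iff.2 hz)
    exact ⟨x, hx.1, hx.2, hxz⟩
  have hball : ∀ᶠ z in 𝓝 (0 : E2), ‖z‖ < δ := by
    filter_upwards [Metric.ball_mem_nhds (0 : E2) hδ] with z hz
    exact mem_ball_zero_iff.1 hz
  refine ⟨q, removable_pt ?_ ?_, ?_, ?_⟩
  · -- continuity at `0`
    rw [Metric.continuousAt_iff]
    intro ε hε
    have hcont : ∀ c, ContinuousAt Q (c, 𝒞.iv c) := by
      intro c
      obtain ⟨γ, hγ, hQγ⟩ := han c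
      have h1 : Tendsto (fun x : C × C => γ (𝒞.k c x.1, 𝒞.k (𝒞.iv c) x.2)) (𝓝 (c, 𝒞.iv c))
          (𝓝 (γ 0)) := hγ.continuousAt.tendsto.comp (kk_tendsto c)
      have h2 : Q (c, 𝒞.iv c) = γ 0 := by
        have := hQγ.self_of_nhds
        simp only [𝒞.k_zero] at this
        exact this
      show Tendsto Q _ (𝓝 (Q (c, 𝒞.iv c)))
      rw [h2]
      exact h1.congr' (hQγ.mono fun x hx => hx.symm)
    let O' : Set (C × C) := interior {x | dist (Q x) q₀ < ε}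
    have hO' : 𝒞.Gam ⊆ O' := by
      intro x hx
      have hx2 : x = (x.1, 𝒞.iv x.1) := Prod.ext rfl hx
      rw [hx2]
      refine mem_interior_iff_mem_nhds.2 ?_
      have h1 := (hcont x.1).eventually (Metric.ball_mem_nhds _ hε)
      rw [hΓ] at h1
      exact h1
    obtain ⟨δ', hδ', hδ1', -⟩ := hN.small O' isOpen_interior hO'
    refine ⟨min δ δ', lt_min hδ hδ', fun {z} hz => ?_⟩
    rw [dist_zero_right] at hz
    have hz1 := hz.trans_le (min_le_left δ δ')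
    have hz2 := hz.trans_le (min_le_right δ δ')
    obtain ⟨x, hx, hxO, rfl⟩ := hsurj z hz1
    obtain ⟨x0, hx0, hx0O, hx00⟩ := hsurj 0 (by simpa using hδ)
    have e0 : q 0 = q₀ := by
      have h1 := hq x0 hx0 (by rw [hx00]; simpa using hδ)
      rw [hx00] at h1
      rw [h1]
      have h2 : x0 ∈ 𝒞.Gam := (hN.zero x0 hx0).1 hx00
      have h3 : x0 = (x0.1, 𝒞.iv x0.1) := Prod.ext rfl h2
      rw [h3, hΓ]
    rw [hq x hx hz1, e0]
    exact show x ∈ {x | dist (Q x) q₀ < ε} from interior_subset (hδ1' x hx hz2)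
  · -- differentiability off `0`
    filter_upwards [hball] with z hz hz0
    obtain ⟨x, hx, hxO, rfl⟩ := hsurj z hz
    have hxG : x ∉ 𝒞.Gam := fun h => hz0 ((hN.zero x hx).2 h)
    obtain ⟨-, -, hPx⟩ := hOP x hxO
    obtain ⟨i, hi, H, hH, hev⟩ := hPx.resolve_left hxG
    have hmap : Filter.map U (𝓝 x) = 𝓝 (U x) := AJd_956.Basic.LP.map_nhds 𝒞 hN.lp hx hxG
    have hTT : 𝒞.TT U i x = U x (1 - i) / U x i := TT_off hxG
    have h1 : q =ᶠ[𝓝 (U x)] fun z => H (z (1 - i) / z i, z i) := by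
      rw [Filter.EventuallyEq, ← hmap, Filter.eventually_map]
      have h2 : ∀ᶠ y in 𝓝 x, ‖U y‖ < δ := by
        have h3 : ∀ᶠ z in 𝓝 (U x), ‖z‖ < δ := by
          have : Continuous fun z : E2 => ‖z‖ := continuous_norm
          exact (isOpen_lt this continuous_const).mem_nhds hz
        rw [← hmap, Filter.eventually_map] at h3
        exact h3
      filter_upwards [h2, hev, hN.open_N.mem_nhds hx] with y h3 h4 h5
      rw [hq y h5 h3, h4.1, TT_off h4.2]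
    have h2 : AnalyticAt ℂ (fun z : E2 => H (z (1 - i) / z i, z i)) (U x) := by
      have hpr : ∀ j : Fin 2, AnalyticAt ℂ (fun z : E2 => z j) (U x) := fun j =>
        (ContinuousLinearMap.proj (R := ℂ) (φ := fun _ : Fin 2 => ℂ) j).analyticAt _
      refine AnalyticAt.comp (g := H) (f := fun z : E2 => (z (1 - i) / z i, z i)) ?_
        (((hpr _).fun_div (hpr _) hi).prod (hpr _))
      rw [← hTT]
      exact hH
    exact (h2.congr h1.symm).differentiableAt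
  · obtain ⟨x0, hx0, hx0O, hx00⟩ := hsurj 0 (by simpa using hδ)
    have h1 := hq x0 hx0 (by rw [hx00]; simpa using hδ)
    rw [hx00] at h1
    rw [h1]
    have h2 : x0 ∈ 𝒞.Gam := (hN.zero x0 hx0).1 hx00
    have h3 : x0 = (x0.1, 𝒞.iv x0.1) := Prod.ext rfl h2
    rw [h3, hΓ]
  · rw [eventually_nhdsSet_iff_forall]
    intro x hx
    have hxN := hN.sub hx
    have hc : ContinuousAt U x := AJd_956.Basic.LP.continuousAt 𝒞 hN.lp hxN
    have h1 : ∀ᶠ y in 𝓝 x, ‖U y‖ < δ := by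
      have h2 : ‖U x‖ < δ := by rw [(hN.zero x hxN).2 hx]; simpa using hδ
      exact hc.norm.eventually (gt_mem_nhds h2)
    filter_upwards [h1, hN.open_N.mem_nhds hxN] with y h2 h3
    exact (hq y h3 h2).symm

/-- transfer of statements from a neighbourhood of `Γ` to a neighbourhood of `0` -/
theorem eventually_zero [T2Space C] (hN : 𝒞.NearE N U) {P : C × C → Prop} {R : E2 → Prop}
    (h : ∀ᶠ x in 𝓝ˢ 𝒞.Gam, P x) (hR : ∀ x ∈ N, P x → R (U x)) : ∀ᶠ z in 𝓝 (0 : E2), R z := by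
  obtain ⟨O, hO, hΓO, hOP⟩ := mem_nhdsSet_iff_exists.1 h
  obtain ⟨δ, hδ, -, hδ2⟩ := hN.small O hO hΓO
  filter_upwards [Metric.ball_mem_nhds (0 : E2) hδ] with z hz
  obtain ⟨x, hx, rfl⟩ := hδ2 hz
  exact hR x hx.1 (hOP hx.2)

end

end Crest.Agent.R272.Th_876
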