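import Crest.Agent.R272.Th1_876

/-!
# R272 (helper876), THETA, part 2: the functions `1/G, (t+t')/G, t t'/G` as germs in `z = U(c,c')`

For `K : K3 𝒞 U` (`K.g i = U_i² G_i`): `Tj i j` = `(1, t + t', t t')` in the frame `i`,
`fm K i j = Tj i j * U_i² / g_i`, `QQ K j` = the function near `Γ`.
`exists_q` : `QQ K j = q j ∘ U`, `q j` analytic at `0`; if `g_i = κ` on `Γ`:
`q j = κ⁻¹ (z₀², 2 z₀ z₁, z₁²)_j + O(|z|³)`.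
-/

set_option autoImplicit false
set_option linter.unusedSectionVars false
set_option linter.unusedVariables false

open Set Filter Topology Asymptotics

namespace Crest.Agent.R272.Th_876

open Crest.Agent.R272.AJ_956 Crest.Agent.R272.Idn_834

noncomputable section

variable {C : Type} [TopologicalSpace C] {𝒞 : Cur C} {N : Set (C × C)} {U : C × C → E2}

/-- `(1, t + t', t t')` in the frame `i = 0`, `(s s', s + s', 1)` in the frame `i = 1` -/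
def Tj (𝒞 : Cur C) : Fin 2 → Fin 3 → C × C → ℂ :=
  ![![fun _ => 1, fun x => tv 𝒞 0 x.1 + tv 𝒞 0 x.2, fun x => tv 𝒞 0 x.1 * tv 𝒞 0 x.2],
    ![fun x => tv 𝒞 1 x.1 * tv 𝒞 1 x.2, fun x => tv 𝒞 1 x.1 + tv 𝒞 1 x.2, fun _ => 1]]

/-- `(z₀², 2 z₀ z₁, z₁²)` -/
def mm (j : Fin 3) (z : E2) : ℂ := ![z 0 ^ 2, 2 * z 0 * z 1, z 1 ^ 2] j

/-- the function in the frame `i` -/
def fm (K : K3 𝒞 U) (i : Fin 2) (j : Fin 3) (x : C × C) : ℂ := Tj 𝒞 i j x * U x i ^ 2 / K.g i x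

theorem Tj_rel {x : C × C} (h10 : x.1 ∈ Ci 𝒞 0) (h11 : x.1 ∈ Ci 𝒞 1) (h20 : x.2 ∈ Ci 𝒞 0)
    (h21 : x.2 ∈ Ci 𝒞 1) (j : Fin 3) :
    Tj 𝒞 0 j x = tv 𝒞 0 x.1 * tv 𝒞 0 x.2 * Tj 𝒞 1 j x := by
  have ht := K3E_227.tv_ne h10 h11
  have hu := K3E_227.tv_ne h20 h21
  have e1 := K3E_227.tv_one (𝒞 := 𝒞) x.1
  have e2 := K3E_227.tv_one (𝒞 := 𝒞) x.2
  fin_cases j
  · show (1 : ℂ) = tv 𝒞 0 x.1 * tv 𝒞 0 x.2 * (tv 𝒞 1 x.1 * tv 𝒞 1 x.2)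
    rw [e1, e2]; field_simp
  · show tv 𝒞 0 x.1 + tv 𝒞 0 x.2 = tv 𝒞 0 x.1 * tv 𝒞 0 x.2 * (tv 𝒞 1 x.1 + tv 𝒞 1 x.2)
    rw [e1, e2]; field_simp; ring
  · show tv 𝒞 0 x.1 * tv 𝒞 0 x.2 = tv 𝒞 0 x.1 * tv 𝒞 0 x.2 * 1
    ring

theorem fm_eq (hN : 𝒞.NearE N U) (K : K3 𝒞 U) {x : C × C} (h0 : x ∈ K.N 0) (h1 : x ∈ K.N 1)
    (hx : x ∈ N) (j : Fin 3) : fm K 0 j x = fm K 1 j x := by
  obtain ⟨a1, a2, a3⟩ := K.dom 0 x h0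
  obtain ⟨b1, b2, b3⟩ := K.dom 1 x h1
  by_cases hG : x ∈ 𝒞.Gam
  · have hU := U_gam hN hG
    simp [fm, hU]
  · have hU0 := a3.resolve_left hG
    have hr := K.rel x h0 h1
    have hg0 := K.ne 0 x h0
    have hg1 := K.ne 1 x h1
    rw [TT_off hG] at hr
    have e : (1 : Fin 2) - 0 = 1 := rfl
    rw [e, div_pow, ← mul_div_assoc, eq_div_iff (pow_ne_zero 2 hU0)] at hr
    unfold fm
    rw [Tj_rel a1 b1 a2 b2 j, div_eq_div_iff hg0 hg1]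
    linear_combination (Tj 𝒞 1 j x) * hr

open Classical in
/-- the function near `Γ` -/
def QQ (K : K3 𝒞 U) (j : Fin 3) (x : C × C) : ℂ := if x ∈ K.N 0 then fm K 0 j x else fm K 1 j x

theorem QQ_eq (hN : 𝒞.NearE N U) (K : K3 𝒞 U) {i : Fin 2} {x : C × C} (h : x ∈ K.N i)
    (hx : x ∈ N) (j : Fin 3) : QQ K j x = fm K i j x := by
  unfold QQ
  split_ifs with h0
  · fin_cases i
    · rfl
    · exact fm_eq hN K h0 h hx j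
  · fin_cases i
    · exact absurd h h0
    · rfl

theorem near_K (K : K3 𝒞 U) {i : Fin 2} {c : C} (hc : c ∈ Ci 𝒞 i) :
    ∀ᶠ x in 𝓝 ((c, 𝒞.iv c) : C × C), x ∈ K.N i := (K.open_N i).mem_nhds (K.sub i c hc)

theorem QQ_sym (hN : 𝒞.NearE N U) (K : K3 𝒞 U) (j : Fin 3) (c : C) :
    ∀ᶠ x in 𝓝 ((c, 𝒞.iv c) : C × C), QQ K j x.swap = QQ K j x := by
  obtain ⟨i, hi⟩ := exists_Ci (𝒞 := 𝒞) c
  filter_upwards [near_K K hi, hN.open_N.mem_nhds (hN.sub rfl)] with x h1 h2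
  rw [QQ_eq hN K h1 h2 j, QQ_eq hN K (K.swap_mem i x h1) (hN.swap_N x h2) j]
  unfold fm
  rw [K.symm i x h1, hN.swap x h2]
  have : Tj 𝒞 i j x.swap = Tj 𝒞 i j x := by
    fin_cases i <;> fin_cases j <;> simp [Tj, mul_comm, add_comm]
  rw [this]

theorem QQ_gam (hN : 𝒞.NearE N U) (K : K3 𝒞 U) (j : Fin 3) (c : C) :
    QQ K j (c, 𝒞.iv c) = 0 := by
  have hg : ((c, 𝒞.iv c) : C × C) ∈ 𝒞.Gam := rfl
  have hU := U_gam hN hg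
  unfold QQ fm
  rw [hU]
  split_ifs <;> simp

/-- slopes and `U` in the charts -/
theorem tv_loc {i : Fin 2} {c : C} (hc : c ∈ Ci 𝒞 i) : ∃ τ τ' : ℂ → ℂ, AnalyticAt ℂ τ 0 ∧
    AnalyticAt ℂ τ' 0 ∧ ∀ᶠ x in 𝓝 ((c, 𝒞.iv c) : C × C),
      tv 𝒞 i x.1 = τ (𝒞.k c x.1) ∧ tv 𝒞 i x.2 = τ' (𝒞.k (𝒞.iv c) x.2) := by
  refine ⟨_, _, K3E_227.tv_an 𝒞 c i hc, K3E_227.tv_an 𝒞 (𝒞.iv c) i
    ((K3E_227.Ci_iv 𝒞).2 hc), ?_⟩
  filter_upwards [K3E_227.near_src (𝒞 := 𝒞) c] with x hx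
  rw [(𝒞.k c).left_inv hx.1, (𝒞.k (𝒞.iv c)).left_inv hx.2.2]
  exact ⟨rfl, rfl⟩

theorem U_loc (hN : 𝒞.NearE N U) (i : Fin 2) (c : C) : ∃ η : ℂ × ℂ → ℂ, AnalyticAt ℂ η 0 ∧
    ∀ᶠ x in 𝓝 ((c, 𝒞.iv c) : C × C), U x i = η (𝒞.k c x.1, 𝒞.k (𝒞.iv c) x.2) := by
  have hg : ((c, 𝒞.iv c) : C × C) ∈ 𝒞.Gam := rfl
  refine ⟨fun p => 𝒞.G c p.1 i + 𝒞.G (𝒞.iv c) p.2 i, ?_, ?_⟩
  · have h1 := K3E_227.an_comp (K3E_227.G_an0 𝒞 c) i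
    have h2 := K3E_227.an_comp (K3E_227.G_an0 𝒞 (𝒞.iv c)) i
    exact (AnalyticAt.comp (g := fun z => 𝒞.G c z i) (f := fun p : ℂ × ℂ => p.1) h1
      analyticAt_fst).add (AnalyticAt.comp (g := fun z => 𝒞.G (𝒞.iv c) z i)
        (f := fun p : ℂ × ℂ => p.2) h2 analyticAt_snd)
  · filter_upwards [hN.lp (c, 𝒞.iv c) (hN.sub hg)] with x hx
    rw [hx, U_gam hN hg]
    simp [Cur.P]

theorem QQ_an (hN : 𝒞.NearE N U) (K : K3 𝒞 U) (j : Fin 3) (c : C) :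
    ∃ γ : ℂ × ℂ → ℂ, AnalyticAt ℂ γ 0 ∧ ∀ᶠ x in 𝓝 ((c, 𝒞.iv c) : C × C),
      QQ K j x = γ (𝒞.k c x.1, 𝒞.k (𝒞.iv c) x.2) := by
  obtain ⟨i, hi⟩ := exists_Ci (𝒞 := 𝒞) c
  obtain ⟨τ, τ', hτ, hτ', ht⟩ := tv_loc hi
  obtain ⟨η, hη, hU⟩ := U_loc hN i c
  obtain ⟨γ, hγ, hg⟩ := K.an i c hi
  have hγ0 : γ 0 ≠ 0 := by
    have h1 := hg.self_of_nhds
    simp only [𝒞.k_zero] at h1
    have h2 := K.ne i _ (K.sub i c hi)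
    rw [h1] at h2
    exact h2
  have t1 : AnalyticAt ℂ (fun p : ℂ × ℂ => τ p.1) 0 :=
    AnalyticAt.comp (g := τ) (f := fun p : ℂ × ℂ => p.1) hτ analyticAt_fst
  have t2 : AnalyticAt ℂ (fun p : ℂ × ℂ => τ' p.2) 0 :=
    AnalyticAt.comp (g := τ') (f := fun p : ℂ × ℂ => p.2) hτ' analyticAt_snd
  -- the polynomial `T`
  obtain ⟨T, hT, hTe⟩ : ∃ T : ℂ × ℂ → ℂ, AnalyticAt ℂ T 0 ∧
      ∀ x : C × C, tv 𝒞 i x.1 = τ (𝒞.k c x.1) → tv 𝒞 i x.2 = τ' (𝒞.k (𝒞.iv c) x.2) →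
        Tj 𝒞 i j x = T (𝒞.k c x.1, 𝒞.k (𝒞.iv c) x.2) := by
    fin_cases i <;> fin_cases j
    · exact ⟨fun _ => 1, analyticAt_const, fun x h1 h2 => rfl⟩
    · exact ⟨fun p => τ p.1 + τ' p.2, t1.add t2, fun x h1 h2 => by
        show tv 𝒞 0 x.1 + tv 𝒞 0 x.2 = _
        exact congrArg₂ (· + ·) h1 h2⟩
    · exact ⟨fun p => τ p.1 * τ' p.2, t1.mul t2, fun x h1 h2 => by
        show tv 𝒞 0 x.1 * tv 𝒞 0 x.2 = _
        exact congrArg₂ (· * ·) h1 h2⟩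
    · exact ⟨fun p => τ p.1 * τ' p.2, t1.mul t2, fun x h1 h2 => by
        show tv 𝒞 1 x.1 * tv 𝒞 1 x.2 = _
        exact congrArg₂ (· * ·) h1 h2⟩
    · exact ⟨fun p => τ p.1 + τ' p.2, t1.add t2, fun x h1 h2 => by
        show tv 𝒞 1 x.1 + tv 𝒞 1 x.2 = _
        exact congrArg₂ (· + ·) h1 h2⟩
    · exact ⟨fun _ => 1, analyticAt_const, fun x h1 h2 => rfl⟩
  refine ⟨fun p => T p * η p ^ 2 / γ p, (hT.mul (hη.pow 2)).fun_div hγ hγ0, ?_⟩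
  filter_upwards [ht, hU, hg, near_K K hi, hN.open_N.mem_nhds (hN.sub rfl)] with x h1 h2 h3 h4 h5
  rw [QQ_eq hN K h4 h5 j]
  unfold fm
  rw [hTe x h1.1 h1.2, h2, h3]

theorem exists_q [T2Space C] (hN : 𝒞.NearE N U) (K : K3 𝒞 U) (j : Fin 3) :
    ∃ q : E2 → ℂ, AnalyticAt ℂ q 0 ∧ q 0 = 0 ∧ ∀ᶠ x in 𝓝ˢ 𝒞.Gam, QQ K j x = q (U x) :=
  exists_desc hN (QQ_sym hN K j) (QQ_an hN K j) (QQ_gam hN K j)

theorem TT_tendsto (hN : 𝒞.NearE N U) {i : Fin 2} {c : C} (hc : c ∈ Ci 𝒞 i) :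
    Tendsto (fun x => 𝒞.TT U i x) (𝓝 (c, 𝒞.iv c)) (𝓝 (tv 𝒞 i c)) := by
  have h := (exists_form hN (Q := fun _ => 0) hc (Eventually.of_forall fun _ => rfl)
    ⟨fun _ => 0, analyticAt_const, Eventually.of_forall fun _ => rfl⟩).choose_spec.2.2
  exact (continuous_fst.tendsto _).comp h

theorem Tj_tendsto {i : Fin 2} {c : C} (hc : c ∈ Ci 𝒞 i) (j : Fin 3) :
    Tendsto (Tj 𝒞 i j) (𝓝 (c, 𝒞.iv c)) (𝓝 (Tj 𝒞 i j (c, c))) := by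
  have h1 : Tendsto (fun x : C × C => tv 𝒞 i x.1) (𝓝 (c, 𝒞.iv c)) (𝓝 (tv 𝒞 i c)) :=
    (K3E_227.tv_cont i c hc).tendsto.comp (continuous_fst.tendsto' _ _ rfl)
  have h2 : Tendsto (fun x : C × C => tv 𝒞 i x.2) (𝓝 (c, 𝒞.iv c)) (𝓝 (tv 𝒞 i c)) := by
    have := (K3E_227.tv_cont i (𝒞.iv c) ((K3E_227.Ci_iv 𝒞).2 hc)).tendsto.comp
      (continuous_snd.tendsto' ((c, 𝒞.iv c) : C × C) (𝒞.iv c) rfl)
    rwa [K3E_227.tv_iv] at this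
  fin_cases i <;> fin_cases j
  · exact tendsto_const_nhds
  · exact h1.add h2
  · exact h1.mul h2
  · exact h1.mul h2
  · exact h1.add h2
  · exact tendsto_const_nhds

/-- `mm j z` in the frame `i` -/
theorem mm_frame (hN : 𝒞.NearE N U) {i : Fin 2} {x : C × C}
    (hx : x ∈ 𝒞.Gam ∨ U x i ≠ 0) (j : Fin 3) : mm j (U x) =
      (![![1, 2 * 𝒞.TT U i x, 𝒞.TT U i x ^ 2], ![𝒞.TT U i x ^ 2, 2 * 𝒞.TT U i x, 1]] :
        Fin 2 → Fin 3 → ℂ) i j * U x i ^ 2 := by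
  by_cases hG : x ∈ 𝒞.Gam
  · have hU := U_gam hN hG
    fin_cases j <;> simp [mm, hU]
  · have hU := hx.resolve_left hG
    have hT := TT_off (U := U) (i := i) hG
    have h1 : U x (1 - i) = 𝒞.TT U i x * U x i := by rw [hT, div_mul_cancel₀ _ hU]
    fin_cases i
    · have h1' : U x 1 = 𝒞.TT U 0 x * U x 0 := h1
      fin_cases j
      · show U x 0 ^ 2 = 1 * U x 0 ^ 2
        ring
      · show 2 * U x 0 * U x 1 = 2 * 𝒞.TT U 0 x * U x 0 ^ 2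
        rw [h1']; ring
      · show U x 1 ^ 2 = 𝒞.TT U 0 x ^ 2 * U x 0 ^ 2
        rw [h1']; ring
    · have h1' : U x 0 = 𝒞.TT U 1 x * U x 1 := h1
      fin_cases j
      · show U x 0 ^ 2 = 𝒞.TT U 1 x ^ 2 * U x 1 ^ 2
        rw [h1']; ring
      · show 2 * U x 0 * U x 1 = 2 * 𝒞.TT U 1 x * U x 1 ^ 2
        rw [h1']; ring
      · show U x 1 ^ 2 = 1 * U x 1 ^ 2
        ring

theorem mm_an (j : Fin 3) : AnalyticAt ℂ (mm j) 0 := by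
  have hpr : ∀ j : Fin 2, AnalyticAt ℂ (fun z : E2 => z j) 0 := fun j =>
    (ContinuousLinearMap.proj (R := ℂ) (φ := fun _ : Fin 2 => ℂ) j).analyticAt _
  fin_cases j
  · exact (hpr 0).pow 2
  · exact (analyticAt_const.mul (hpr 0)).mul (hpr 1)
  · exact (hpr 1).pow 2

/-- **expansion** -/
theorem q_exp [T2Space C] (hN : 𝒞.NearE N U) (K : K3 𝒞 U) {κ : ℂ} (hκ : κ ≠ 0)
    (hK : ∀ i c, c ∈ Ci 𝒞 i → K.g i (c, 𝒞.iv c) = κ) {j : Fin 3} {q : E2 → ℂ}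
    (hq : AnalyticAt ℂ q 0) (hqU : ∀ᶠ x in 𝓝ˢ 𝒞.Gam, QQ K j x = q (U x)) :
    (fun z => q z - κ⁻¹ * mm j z) =O[𝓝 0] fun z => ‖z‖ ^ 3 := by
  refine isBigO_of_isLittleO 2 (hq.sub (analyticAt_const.mul (mm_an j))) ?_
  rw [isLittleO_iff]
  intro ε hε
  have key : ∀ᶠ x in 𝓝ˢ 𝒞.Gam, ‖QQ K j x - κ⁻¹ * mm j (U x)‖ ≤ ε * ‖U x‖ ^ 2 := by
    rw [eventually_nhdsSet_iff_forall]
    intro x₀ hx₀
    obtain ⟨c, rfl⟩ : ∃ c, x₀ = (c, 𝒞.iv c) := ⟨x₀.1, Prod.ext rfl hx₀⟩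
    obtain ⟨i, hi⟩ := exists_Ci (𝒞 := 𝒞) c
    set M : C × C → ℂ := fun x =>
      (![![1, 2 * 𝒞.TT U i x, 𝒞.TT U i x ^ 2], ![𝒞.TT U i x ^ 2, 2 * 𝒞.TT U i x, 1]] :
        Fin 2 → Fin 3 → ℂ) i j with hM
    have hMt : Tendsto M (𝓝 (c, 𝒞.iv c)) (𝓝 (Tj 𝒞 i j (c, c))) := by
      have hT := TT_tendsto hN hi
      have h2 : Tendsto (fun _ : C × C => (2 : ℂ)) (𝓝 (c, 𝒞.iv c)) (𝓝 2) := tendsto_const_nhds
      simp only [hM]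
      fin_cases i <;> fin_cases j
      · exact tendsto_const_nhds
      · have := h2.mul hT
        have e : Tj 𝒞 0 1 (c, c) = 2 * tv 𝒞 0 c := by
          show tv 𝒞 0 c + tv 𝒞 0 c = _
          ring
        show Tendsto (fun x => 2 * 𝒞.TT U 0 x) _ (𝓝 (Tj 𝒞 0 1 (c, c)))
        rw [e]; exact this
      · have := hT.pow 2
        have e : Tj 𝒞 0 2 (c, c) = tv 𝒞 0 c ^ 2 := by
          show tv 𝒞 0 c * tv 𝒞 0 c = _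
          ring
        show Tendsto (fun x => 𝒞.TT U 0 x ^ 2) _ (𝓝 (Tj 𝒞 0 2 (c, c)))
        rw [e]; exact this
      · have := hT.pow 2
        have e : Tj 𝒞 1 0 (c, c) = tv 𝒞 1 c ^ 2 := by
          show tv 𝒞 1 c * tv 𝒞 1 c = _
          ring
        show Tendsto (fun x => 𝒞.TT U 1 x ^ 2) _ (𝓝 (Tj 𝒞 1 0 (c, c)))
        rw [e]; exact this
      · have := h2.mul hT
        have e : Tj 𝒞 1 1 (c, c) = 2 * tv 𝒞 1 c := by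
          show tv 𝒞 1 c + tv 𝒞 1 c = _
          ring
        show Tendsto (fun x => 2 * 𝒞.TT U 1 x) _ (𝓝 (Tj 𝒞 1 1 (c, c)))
        rw [e]; exact this
      · exact tendsto_const_nhds
    have hgt : Tendsto (K.g i) (𝓝 (c, 𝒞.iv c)) (𝓝 κ) := by
      obtain ⟨γ, hγ, hg⟩ := K.an i c hi
      have h1 : Tendsto (fun x : C × C => γ (𝒞.k c x.1, 𝒞.k (𝒞.iv c) x.2)) (𝓝 (c, 𝒞.iv c))
          (𝓝 (γ 0)) := hγ.continuousAt.tendsto.comp (kk_tendsto c)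
      have h2 : γ 0 = κ := by
        have := hg.self_of_nhds
        simp only [𝒞.k_zero] at this
        rw [hK i c hi] at this
        exact this.symm
      rw [h2] at h1
      exact h1.congr' (hg.mono fun x hx => hx.symm)
    have hd : Tendsto (fun x => Tj 𝒞 i j x / K.g i x - κ⁻¹ * M x) (𝓝 (c, 𝒞.iv c)) (𝓝 0) := by
      have h1 := ((Tj_tendsto hi j).div hgt hκ).sub (hMt.const_mul κ⁻¹)
      have e : Tj 𝒞 i j (c, c) / κ - κ⁻¹ * Tj 𝒞 i j (c, c) = 0 := by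
        rw [div_eq_inv_mul, sub_self]
      rwa [e] at h1
    have hd' : ∀ᶠ x in 𝓝 ((c, 𝒞.iv c) : C × C), ‖Tj 𝒞 i j x / K.g i x - κ⁻¹ * M x‖ ≤ ε := by
      have := hd.norm
      rw [norm_zero] at this
      exact this.eventually (ge_mem_nhds hε)
    filter_upwards [hd', near_K K hi, hN.open_N.mem_nhds (hN.sub rfl)] with x h1 h2 h3
    rw [QQ_eq hN K h2 h3 j, mm_frame hN (K.dom i x h2).2.2 j]
    have e : fm K i j x - κ⁻¹ * (M x * U x i ^ 2) =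
        (Tj 𝒞 i j x / K.g i x - κ⁻¹ * M x) * U x i ^ 2 := by
      unfold fm; ring
    show ‖fm K i j x - κ⁻¹ * (M x * U x i ^ 2)‖ ≤ _
    rw [e, norm_mul, norm_pow]
    have h4 : ‖U x i‖ ≤ ‖U x‖ := norm_le_pi_norm (U x) i
    gcongr
  have h2 : ∀ᶠ z in 𝓝 (0 : E2), ‖q z - κ⁻¹ * mm j z‖ ≤ ε * ‖z‖ ^ 2 := by
    refine eventually_zero hN (key.and hqU) fun x hx hP => ?_
    rw [← hP.2]
    exact hP.1
  filter_upwards [h2] with z hz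
  rw [norm_pow, norm_norm]
  exact hz

end

end Crest.Agent.R272.Th_876
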