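/-
# Row 272 (S0414): the circle valued function `θ = ε T / 2` (helper275)

Pure topology.  `E` is a topological space, `T : E → [0,1]` continuous and `ε : E → {1,-1}` is continuous
(locally constant) on `{0 < T < 1}`.  Then `θ = ε T / 2 mod 1` is continuous (`± 1/2` agree modulo `1`), and its
degree on a loop which crosses the wall from `T = 0` to `T = 1` on the sheet `ε = 1` and comes back on the sheet
`ε = -1` is `1`.
-/
import Mathlib

noncomputable section

open Topology Filter Set
open scoped unitInterval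

namespace Crest.Agent.R272.Th_275

/-- the circle valued function `ε T / 2`. -/
def theta {E : Type*} (ε T : E → ℝ) (x : E) : AddCircle (1 : ℝ) := ((ε x * T x / 2 : ℝ) : AddCircle (1 : ℝ))

theorem theta_of_zero {E : Type*} {ε T : E → ℝ} {x : E} (h : T x = 0) : theta ε T x = 0 := by
  unfold theta; rw [h]; simp

theorem half_eq : ((-(1 / 2) : ℝ) : AddCircle (1 : ℝ)) = ((1 / 2 : ℝ) : AddCircle (1 : ℝ)) := by
  have h : ((1 / 2 : ℝ) : AddCircle (1 : ℝ)) = ((-(1 / 2) + (1 : ℝ) : ℝ) : AddCircle (1 : ℝ)) := by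
    congr 1; norm_num
  rw [h, AddCircle.coe_add, AddCircle.coe_period, add_zero]

theorem theta_of_one {E : Type*} {ε T : E → ℝ} (hε : ∀ x, ε x = 1 ∨ ε x = -1) {x : E} (h : T x = 1) :
    theta ε T x = ((1 / 2 : ℝ) : AddCircle (1 : ℝ)) := by
  unfold theta
  rw [h]
  rcases hε x with h1 | h1
  · rw [h1]; simp
  · rw [h1, ← half_eq]; congr 1; norm_num

variable {E : Type*} [TopologicalSpace E]

/-- **Continuity of `θ`.** -/
theorem continuous_theta {ε T : E → ℝ} (hT : Continuous T) (hε : ∀ x, ε x = 1 ∨ ε x = -1)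
    (hc : ∀ x, T x ≠ 0 → T x ≠ 1 → ContinuousAt ε x) : Continuous (theta ε T) := by
  have hq : Continuous (fun r : ℝ => (r : AddCircle (1 : ℝ))) := AddCircle.continuous_mk' 1
  have hb : ∀ x, |ε x| = 1 := by
    intro x; rcases hε x with h | h <;> rw [h] <;> simp
  rw [continuous_iff_continuousAt]
  intro x
  by_cases h0 : T x = 0
  · -- near a zero of `T`
    have h1 : Tendsto (fun y => ε y * T y / 2) (𝓝 x) (𝓝 0) := by
      rw [tendsto_zero_iff_norm_tendsto_zero]
      have h2 : Tendsto (fun y => |T y| / 2) (𝓝 x) (𝓝 0) := by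
        have := ((hT.abs.div_const 2).tendsto x)
        rwa [h0, abs_zero, zero_div] at this
      refine h2.congr (fun y => ?_)
      rw [Real.norm_eq_abs, abs_div, abs_mul, hb, one_mul, abs_of_pos (by norm_num : (0 : ℝ) < 2)]
    have h3 : Tendsto (theta ε T) (𝓝 x) (𝓝 (((0 : ℝ) : ℝ) : AddCircle (1 : ℝ))) :=
      (hq.tendsto 0).comp h1
    have h4 : theta ε T x = ((0 : ℝ) : AddCircle (1 : ℝ)) := by rw [theta_of_zero h0]; simp
    rw [ContinuousAt, h4]; exact h3
  · by_cases h1 : T x = 1
    · -- near a point with `T = 1`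
      have h2 : Tendsto (fun y => ε y * (T y - 1) / 2 + 1 / 2) (𝓝 x) (𝓝 (1 / 2)) := by
        have h3 : Tendsto (fun y => ε y * (T y - 1) / 2) (𝓝 x) (𝓝 0) := by
          rw [tendsto_zero_iff_norm_tendsto_zero]
          have h4 : Tendsto (fun y => |T y - 1| / 2) (𝓝 x) (𝓝 0) := by
            have h7 : Continuous (fun y => |T y - 1| / 2) := ((hT.sub continuous_const).abs.div_const 2)
            have := h7.tendsto x
            simpa [h1] using this
          refine h4.congr (fun y => ?_)
          rw [Real.norm_eq_abs, abs_div, abs_mul, hb, one_mul, abs_of_pos (by norm_num : (0 : ℝ) < 2)]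
        have h8 := h3.add_const (1 / 2 : ℝ)
        rwa [zero_add] at h8
      have h5 : theta ε T = fun y => ((ε y * (T y - 1) / 2 + 1 / 2 : ℝ) : AddCircle (1 : ℝ)) := by
        funext y
        unfold theta
        rcases hε y with h6 | h6
        · rw [h6]; congr 1; ring
        · rw [h6]
          have e1 : ((-1 : ℝ) * T y / 2) = -1 * (T y - 1) / 2 + -(1 / 2) := by ring
          rw [e1, AddCircle.coe_add, half_eq, ← AddCircle.coe_add]
      rw [ContinuousAt, theta_of_one hε h1, h5]
      exact (hq.tendsto (1 / 2)).comp h2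
    · exact hq.continuousAt.comp (((hc x h0 h1).mul hT.continuousAt).div_const 2)

/-- `θ` as a continuous map. -/
def thetaC (ε T : E → ℝ) (hT : Continuous T) (hε : ∀ x, ε x = 1 ∨ ε x = -1)
    (hc : ∀ x, T x ≠ 0 → T x ≠ 1 → ContinuousAt ε x) : C(E, AddCircle (1 : ℝ)) :=
  ⟨theta ε T, continuous_theta hT hε hc⟩

/-- **Degree of `θ` on a loop crossing the wall twice, with opposite signs.**  `g : I → E` continuous,
`T (g 0) = 0 = T (g 1)`, `T (g c) = 1`, `ε = 1` on the part of `(0,c)` where `0 < T < 1`, `ε = -1` on the part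
of `(c,1)` where `0 < T < 1`.  Then `θ ∘ g` has a real lift with `ℓ 0 = 0` and `ℓ 1 = 1`. -/
theorem exists_lift {ε T : E → ℝ} (hT : Continuous T) (hε : ∀ x, ε x = 1 ∨ ε x = -1)
    (g : C(I, E)) (c : I) (h0 : T (g 0) = 0) (h1 : T (g 1) = 0) (hcc : T (g c) = 1)
    (hp : ∀ t : I, t ≤ c → T (g t) ≠ 0 → T (g t) ≠ 1 → ε (g t) = 1)
    (hm : ∀ t : I, c ≤ t → T (g t) ≠ 0 → T (g t) ≠ 1 → ε (g t) = -1) :
    ∃ l : C(I, ℝ), l 0 = 0 ∧ l 1 = 1 ∧ ∀ t, ((l t : ℝ) : AddCircle (1 : ℝ)) = theta ε T (g t) := by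
  classical
  have hc0 : (0 : I) ≤ c := unitInterval.nonneg'
  have hc1 : c ≤ (1 : I) := unitInterval.le_one'
  have hcont : Continuous (fun t : I => if t ≤ c then T (g t) / 2 else 1 - T (g t) / 2) := by
    refine Continuous.if_le (((hT.comp g.continuous)).div_const 2)
      (continuous_const.sub (((hT.comp g.continuous)).div_const 2)) continuous_id continuous_const ?_
    intro t ht
    have : t = c := ht
    rw [this, hcc]; norm_num
  refine ⟨⟨_, hcont⟩, ?_, ?_, ?_⟩
  · simp only [ContinuousMap.coe_mk]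
    rw [if_pos hc0, h0]; simp
  · simp only [ContinuousMap.coe_mk]
    by_cases h2 : (1 : I) ≤ c
    · exfalso
      have h3 : c = 1 := le_antisymm hc1 h2
      rw [h3, h1] at hcc
      exact zero_ne_one hcc
    · rw [if_neg h2, h1]; simp
  · intro t
    simp only [ContinuousMap.coe_mk]
    by_cases h2 : t ≤ c
    · rw [if_pos h2]
      by_cases h3 : T (g t) = 0
      · rw [theta_of_zero h3, h3]; simp
      · by_cases h4 : T (g t) = 1
        · rw [theta_of_one hε h4, h4]
        · unfold theta; rw [hp t h2 h3 h4, one_mul]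
    · rw [if_neg h2]
      have h2' : c ≤ t := le_of_lt (not_le.mp h2)
      by_cases h3 : T (g t) = 0
      · rw [theta_of_zero h3, h3]; simp [AddCircle.coe_period]
      · by_cases h4 : T (g t) = 1
        · rw [theta_of_one hε h4, h4]; congr 1; norm_num
        · unfold theta
          rw [hm t h2' h3 h4]
          have e1 : (1 - T (g t) / 2 : ℝ) = -1 * T (g t) / 2 + 1 := by ring
          rw [e1, AddCircle.coe_add, AddCircle.coe_period, add_zero]

end Crest.Agent.R272.Th_275
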