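import Crest.Agent.R272.Root7_83
import Crest.Agent.R272.Comp2_259
import Crest.Agent.R272.G14b_414
import Crest.Agent.R272.P1F_414
import Crest.Agent.R272.Middle_414

/-!
# R272, S14-ASM (helper414): the top of S0414 as compiled theorems

* `of_theta'` : `of_theta` without connectedness;
* `s14_top`   : S0414 from the surface `X` (compact, T2, `CX : Fam 2 X`, `A'` compatible, `Part`, `ProjD`), the data
  `Dat14` of 83, the four (any number of) rational curves `P1F CX`, and the inputs of 275's `lb414`;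
* `s14_tower` : the same with `X = D.X`, `D` the cover of a double blow-up of a compact `N` with a positive bundle.
-/

set_option autoImplicit false
set_option linter.unusedSectionVars false

open Set Filter Topology
open scoped unitInterval

namespace Crest.Agent.R272.Top14_414

open Crest.Agent.R275.Geo Crest.Agent.R275.Core144 Crest.Agent.R275.GC293
open Crest.Agent.R273.Defs_333 Crest.Agent.R273.Fam_835 Crest.Agent.R273.HM_333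
open CpTop_338 CpChow_338 CpMan_338 CpPi_338 CpRat423 G14a_414
open DCov_426 P1F_414 Root_83 UnB_894 LbExt_259 Wall4_275 Blup1_102

noncomputable section

universe v w

/-- `of_theta` without connectedness -/
theorem of_theta' {X : Type} [TopologicalSpace X] [T2Space X] [CompactSpace X]
    {A : Atl 2 X} [Finite A.ι] (PA : Part A) (P : ProjD A) {k : ℕ} (γ : Fin k → P1C A)
    (ht : ∀ i j, i ≠ j → Trans (γ i) (γ j))
    (h3 : ∀ i j l, i ≠ j → j ≠ l → i ≠ l → (γ i).img ∩ (γ j).img ∩ (γ l).img = ∅)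
    (hc : IsConnected (⋃ i, (γ i).img))
    {Xh : Type v} [TopologicalSpace Xh] {E : Type w} [TopologicalSpace E] {p : E → Xh}
    {q : Xh → X} (hp : IsCoveringMap p) (hq : IsCoveringMap q) (θ : C(E, AddCircle (1 : ℝ)))
    {e : E} (c : Path e e) (hZ : ∀ t, q (p (c t)) ∈ ⋃ i, (γ i).img) (ℓ : C(I, ℝ))
    (hℓ : ∀ t, (ℓ t : AddCircle (1 : ℝ)) = θ (c t)) (hne : ℓ 1 ≠ ℓ 0) : S14 := by
  have hx : q (p e) ∈ ⋃ i, (γ i).img := by have := hZ 0; rwa [c.source] at this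
  exact Comp_259.s14_of PA P γ ht h3 hc hx (loops_infinite2 hp hq θ c hZ ℓ hℓ hne)

section top

variable {X B C : Type} [TopologicalSpace X] [TopologicalSpace B] [TopologicalSpace C]
  {CX : Fam 2 X} {AB : Atl 1 B} {AC : Atl 1 C}

/-- **the end game of S0414**: every hypothesis is the output of a landed or assigned leaf -/
theorem s14_top [T2Space X] [CompactSpace X] {A' : Atl 2 X} [Finite A'.ι] (hcmp : Cmp CX A')
    (PA : Part A') (P : ProjD A') (d : Dat14 CX AB AC)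
    (hS : ∀ t : DD, ‖(d.F t : ℂ)‖ ≤ ‖(t : ℂ)‖ ^ 2) {k : ℕ} (γ : Fin k → P1F CX)
    (ht : ∀ i j, i ≠ j → (γ i).Tr (γ j))
    (h3 : ∀ i j l, i ≠ j → j ≠ l → i ≠ l → (γ i).img ∩ (γ j).img ∩ (γ l).img = ∅)
    (hc : IsConnected (⋃ i, (γ i).img))
    (hloc : Loc (d.bd hS) (d.rsB hS)) {Zh : Set d.Xh}
    (hZ : ∀ y ∈ Zh, (d.T y : ℂ) = 0 ∧ (d.W y : ℂ) = 0)
    (hZγ : ∀ y ∈ Zh, pbFst d.qp d.π y ∈ ⋃ i, (γ i).img)
    (R : Zh → Fin 4 → d.Xh → ℂ) (hR : ∀ (y : Zh) (a : Fin 4), HRt d.CXh (d.gg a) (R y a) (y : d.Xh))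
    (hRc : ∀ y : Zh, ∀ᶠ y' : Zh in 𝓝 y, ∀ a, R y' a =ᶠ[𝓝 (y' : d.Xh)] R y a)
    {z₀ z₁ z₂ z₃ : Zh} (k₁ : Path z₀ z₁) (r₁ : Path z₁ z₂) (k₂ : Path z₂ z₃) (r₂ : Path z₃ z₀)
    (hk₁ : Arc R k₁) (hk₂ : Arc R k₂) (hr₁ : ∀ t, SlR (R (r₁ t)) (r₁ t : d.Xh) 0)
    (hr₂ : ∀ t, SlR (R (r₂ t)) (r₂ t : d.Xh) 0) : S14 := by
  obtain ⟨θ, e, c, l, h1, h2, h4⟩ := lb414 hloc (Zh := Zh) hZ R hR hRc k₁ r₁ k₂ r₂ hk₁ hk₂ hr₁ hr₂
  refine of_theta' (A := A') PA P (fun i => (γ i).cv hcmp) (fun i j hij => (ht i j hij).trans hcmp)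
    (fun i j l hij hjl hil => h3 i j l hij hjl hil) hc (d.rsB hS).cov d.cov_fst θ c
    (fun t => ?_) l h2 h4
  have h5 := hZγ _ (h1 t)
  exact h5

end top

section tower

variable {N B C : Type} [TopologicalSpace N] [TopologicalSpace B] [TopologicalSpace C]
  {A : Atl 2 N} {AB : Atl 1 B} {AC : Atl 1 C} {ρ : Type} [Fintype ρ]

/-- **S0414 from the tower** `D.X → Bl₂ → Bl₁ → N` -/
theorem s14_tower [T2Space N] [CompactSpace N] (hpos : ∃ (L : LB A) (g : HM L), g.Pos)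
    (C₁ : Ctr A) (C₂ : Ctr C₁.atl) (D : Data C₂.atl ρ) (d : Dat14 D.famX AB AC)
    (hS : ∀ t : DD, ‖(d.F t : ℂ)‖ ≤ ‖(t : ℂ)‖ ^ 2) {k : ℕ} (γ : Fin k → P1F D.famX)
    (ht : ∀ i j, i ≠ j → (γ i).Tr (γ j))
    (h3 : ∀ i j l, i ≠ j → j ≠ l → i ≠ l → (γ i).img ∩ (γ j).img ∩ (γ l).img = ∅)
    (hc : IsConnected (⋃ i, (γ i).img))
    (hloc : Loc (d.bd hS) (d.rsB hS)) {Zh : Set d.Xh}
    (hZ : ∀ y ∈ Zh, (d.T y : ℂ) = 0 ∧ (d.W y : ℂ) = 0)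
    (hZγ : ∀ y ∈ Zh, pbFst d.qp d.π y ∈ ⋃ i, (γ i).img)
    (R : Zh → Fin 4 → d.Xh → ℂ) (hR : ∀ (y : Zh) (a : Fin 4), HRt d.CXh (d.gg a) (R y a) (y : d.Xh))
    (hRc : ∀ y : Zh, ∀ᶠ y' : Zh in 𝓝 y, ∀ a, R y' a =ᶠ[𝓝 (y' : d.Xh)] R y a)
    {z₀ z₁ z₂ z₃ : Zh} (k₁ : Path z₀ z₁) (r₁ : Path z₁ z₂) (k₂ : Path z₂ z₃) (r₂ : Path z₃ z₀)
    (hk₁ : Arc R k₁) (hk₂ : Arc R k₂) (hr₁ : ∀ t, SlR (R (r₁ t)) (r₁ t : d.Xh) 0)
    (hr₂ : ∀ t, SlR (R (r₂ t)) (r₂ t : d.Xh) 0) : S14 := by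
  obtain ⟨hX1, hX2, A', hcmp, -, hF, -, ⟨PA⟩, ⟨P⟩⟩ := Middle_414.middle hpos C₁ C₂ D
  exact s14_top hcmp PA P d hS γ ht h3 hc hloc hZ hZγ R hR hRc k₁ r₁ k₂ r₂ hk₁ hk₂ hr₁ hr₂

end tower

end

end Crest.Agent.R272.Top14_414
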