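import Crest.Prelude.Def_RatCurveLoops
import Mathlib.Algebra.Module.ZLattice.Basic
import Mathlib.Topology.OpenPartialHomeomorph.Basic
import Mathlib.Analysis.Normed.Module.FiniteDimension
import Mathlib.Analysis.Complex.Basic
import Mathlib.Tactic

/-!
Row 272, leaf TORUS-REC: a compact connected Hausdorff space with an atlas whose transition maps
are locally translations of a finite dimensional real vector space `V` is a torus `V / Λ`.
-/

set_option autoImplicit false

open Set Filter Topology Metric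

namespace Crest.Agent.R272.TorRec_729

universe u v w

/-- A translation atlas: charts into `V`, transitions are locally translations. -/
structure TAtlas (V : Type u) (M : Type v) [NormedAddCommGroup V] [TopologicalSpace M] where
  /-- the index type -/
  ι : Type w
  /-- the charts -/
  e : ι → OpenPartialHomeomorph M V
  cover : ∀ x, ∃ i, x ∈ (e i).source
  compat : ∀ i j, ∀ p ∈ (e i).source ∩ (e j).source,
    ∀ᶠ q in 𝓝 p, e i q - e i p = e j q - e j p

variable {V : Type u} {M : Type v} [NormedAddCommGroup V] [TopologicalSpace M]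
  (A : TAtlas.{u, v, w} V M)

/-- `γ : T → M` is developed by `u : T → V`. -/
def Dev {T : Type*} [TopologicalSpace T] (γ : T → M) (u : T → V) : Prop :=
  ∀ t, ∃ i, γ t ∈ (A.e i).source ∧ ∀ᶠ s in 𝓝 t, A.e i (γ s) - A.e i (γ t) = u s - u t

variable {A}

/-- The development holds in every chart. -/
lemma Dev.all {T : Type*} [TopologicalSpace T] {γ : T → M} {u : T → V} (h : Dev A γ u)
    (hc : Continuous γ) (t : T) (j : A.ι) (hj : γ t ∈ (A.e j).source) :
    ∀ᶠ s in 𝓝 t, A.e j (γ s) - A.e j (γ t) = u s - u t := by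
  obtain ⟨i, hi, hd⟩ := h t
  have h1 := hc.continuousAt.eventually (A.compat i j (γ t) ⟨hi, hj⟩)
  filter_upwards [h1, hd] with s e1 e2
  rw [← e1, e2]

theorem uniq [T2Space M] {T : Type*} [TopologicalSpace T] [PreconnectedSpace T] {γ₁ γ₂ : T → M}
    (h₁ : Continuous γ₁) (h₂ : Continuous γ₂) {u : T → V} (d₁ : Dev A γ₁ u) (d₂ : Dev A γ₂ u)
    {t₀ : T} (h₀ : γ₁ t₀ = γ₂ t₀) : γ₁ = γ₂ := by
  have hclosed : IsClosed {t | γ₁ t = γ₂ t} := isClosed_eq h₁ h₂
  have hopen : IsOpen {t | γ₁ t = γ₂ t} := by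
    rw [isOpen_iff_mem_nhds]
    intro t ht
    obtain ⟨i, hi, hd⟩ := d₁ t
    have hi2 : γ₂ t ∈ (A.e i).source := by
      have : γ₁ t = γ₂ t := ht
      rwa [← this]
    have hd2 := d₂.all h₂ t i hi2
    have s1 : ∀ᶠ s in 𝓝 t, γ₁ s ∈ (A.e i).source :=
      h₁.continuousAt.eventually ((A.e i).open_source.mem_nhds hi)
    have s2 : ∀ᶠ s in 𝓝 t, γ₂ s ∈ (A.e i).source :=
      h₂.continuousAt.eventually ((A.e i).open_source.mem_nhds hi2)
    filter_upwards [hd, hd2, s1, s2] with s e1 e2 m1 m2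
    have : γ₁ t = γ₂ t := ht
    rw [← e2, this] at e1
    exact (A.e i).injOn m1 m2 (sub_left_injective e1)
  have huniv := IsClopen.eq_univ ⟨hclosed, hopen⟩ ⟨t₀, h₀⟩
  funext t
  have : t ∈ {t | γ₁ t = γ₂ t} := by rw [huniv]; trivial
  exact this

variable (A)

/-- A uniform radius. -/
lemma exists_radius [CompactSpace M] : ∃ ε > 0, ∀ y : M, ∃ i, y ∈ (A.e i).source ∧
    ball (A.e i y) ε ⊆ (A.e i).target := by
  classical
  have h1 : ∀ x : M, ∃ i, ∃ r > 0, x ∈ (A.e i).source ∧ ball (A.e i x) (2 * r) ⊆ (A.e i).target := by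
    intro x
    obtain ⟨i, hi⟩ := A.cover x
    obtain ⟨r, hr, hb⟩ := Metric.isOpen_iff.1 (A.e i).open_target _ ((A.e i).map_source hi)
    exact ⟨i, r / 2, by positivity, hi, by rwa [mul_div_cancel₀ _ (two_ne_zero)]⟩
  choose i r hr hs hb using h1
  let U : M → Set M := fun x => (A.e (i x)).source ∩ A.e (i x) ⁻¹' ball (A.e (i x) x) (r x)
  have hUo : ∀ x, IsOpen (U x) := fun x => (A.e (i x)).isOpen_inter_preimage isOpen_ball
  have hUx : ∀ x, x ∈ U x := fun x => ⟨hs x, mem_ball_self (hr x)⟩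
  obtain ⟨t, ht⟩ := isCompact_univ.elim_finite_subcover U hUo
    (fun x _ => mem_iUnion.2 ⟨x, hUx x⟩)
  by_cases hne : t.Nonempty
  · refine ⟨t.inf' hne r, (Finset.lt_inf'_iff hne).2 fun x _ => hr x, fun y => ?_⟩
    obtain ⟨x, hx⟩ := mem_iUnion.1 (ht (mem_univ y))
    obtain ⟨hxt, hy⟩ := mem_iUnion.1 hx
    refine ⟨i x, hy.1, fun z hz => hb x ?_⟩
    have h2 : dist z (A.e (i x) y) < r x := lt_of_lt_of_le hz (Finset.inf'_le r hxt)
    have h3 : dist (A.e (i x) y) (A.e (i x) x) < r x := hy.2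
    rw [mem_ball]
    linarith [dist_triangle z (A.e (i x) y) (A.e (i x) x)]
  · refine ⟨1, one_pos, fun y => ?_⟩
    obtain ⟨x, hx⟩ := mem_iUnion.1 (ht (mem_univ y))
    obtain ⟨hxt, hy⟩ := mem_iUnion.1 hx
    exact absurd ⟨x, hxt⟩ hne

/-- the uniform radius -/
noncomputable def eps [CompactSpace M] : ℝ := (exists_radius A).choose

lemma eps_pos [CompactSpace M] : 0 < eps A := (exists_radius A).choose_spec.1

/-- the chart index at a point -/
noncomputable def idx [CompactSpace M] (y : M) : A.ι := ((exists_radius A).choose_spec.2 y).choose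

lemma idx_source [CompactSpace M] (y : M) : y ∈ (A.e (idx A y)).source :=
  ((exists_radius A).choose_spec.2 y).choose_spec.1

lemma idx_ball [CompactSpace M] (y : M) : ball (A.e (idx A y) y) (eps A) ⊆ (A.e (idx A y)).target :=
  ((exists_radius A).choose_spec.2 y).choose_spec.2

/-- small translations -/
noncomputable def phi [CompactSpace M] (y : M) (v : V) : M :=
  (A.e (idx A y)).symm (A.e (idx A y) y + v)

section Compact

variable [CompactSpace M]

lemma add_mem_target (y : M) {v : V} (hv : ‖v‖ < eps A) :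
    A.e (idx A y) y + v ∈ (A.e (idx A y)).target :=
  idx_ball A y (by simpa [mem_ball, dist_eq_norm] using hv)

@[simp] lemma phi_zero (y : M) : phi A y 0 = y := by
  rw [phi, add_zero, (A.e _).left_inv (idx_source A y)]

lemma phi_source (y : M) {v : V} (hv : ‖v‖ < eps A) : phi A y v ∈ (A.e (idx A y)).source :=
  (A.e _).map_target (add_mem_target A y hv)

lemma e_phi (y : M) {v : V} (hv : ‖v‖ < eps A) :
    A.e (idx A y) (phi A y v) = A.e (idx A y) y + v :=
  (A.e _).right_inv (add_mem_target A y hv)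

lemma phi_inj (y : M) {v w : V} (hv : ‖v‖ < eps A) (hw : ‖w‖ < eps A)
    (h : phi A y v = phi A y w) : v = w := by
  have := congrArg (A.e (idx A y)) h
  rw [e_phi A y hv, e_phi A y hw] at this
  exact add_left_cancel this

lemma continuousAt_phi (y : M) {v : V} (hv : ‖v‖ < eps A) : ContinuousAt (phi A y) v := by
  have h1 : ContinuousAt (A.e (idx A y)).symm (A.e (idx A y) y + v) :=
    (A.e (idx A y)).symm.continuousAt (by simpa using add_mem_target A y hv)
  exact ContinuousAt.comp (f := fun v => A.e (idx A y) y + v) h1 (by fun_prop)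

/-- The image of a small neighbourhood of `0` is a neighbourhood. -/
lemma phi_image_mem_nhds (y : M) {v : V} (hv : ‖v‖ < eps A) {s : Set V} (hs : s ∈ 𝓝 v) :
    phi A y '' s ∈ 𝓝 (phi A y v) := by
  set e := A.e (idx A y) with he
  have h1 : ContinuousAt (fun q => e q - e y) (phi A y v) :=
    (e.continuousAt (phi_source A y hv)).sub continuousAt_const
  have h2 : (fun q => e q - e y) (phi A y v) = v := by
    simp only
    rw [he, e_phi A y hv, add_sub_cancel_left]
  have h3 : (fun q => e q - e y) ⁻¹' s ∈ 𝓝 (phi A y v) :=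
    h1.preimage_mem_nhds (by simpa only [h2] using hs)
  filter_upwards [h3, e.open_source.mem_nhds (phi_source A y hv)] with q hq hqs
  refine ⟨e q - e y, hq, ?_⟩
  rw [phi, ← he, add_sub_cancel, e.left_inv hqs]

variable [NormedSpace ℝ V]

lemma phi_add [T2Space M] (y : M) {a b : V} (ha : ‖a‖ < eps A) (hb : ‖b‖ < eps A)
    (hab : ‖a + b‖ < eps A) : phi A (phi A y a) b = phi A y (a + b) := by
  let S : Set V := ball 0 (eps A) ∩ ball (-a) (eps A)
  have hS : IsPreconnected S := ((convex_ball _ _).inter (convex_ball _ _)).isPreconnected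
  have : PreconnectedSpace S := Subtype.preconnectedSpace hS
  have m1 : ∀ t : S, ‖(t : V)‖ < eps A := fun t => by
    have := t.2.1; simpa [mem_ball, dist_eq_norm] using this
  have m2 : ∀ t : S, ‖a + (t : V)‖ < eps A := fun t => by
    have := t.2.2
    rw [mem_ball, dist_eq_norm, sub_neg_eq_add, add_comm] at this
    exact this
  have b0 : (0 : V) ∈ S := ⟨by simpa using eps_pos A, by simpa [mem_ball, dist_eq_norm] using ha⟩
  have bb : b ∈ S := ⟨by simpa [mem_ball, dist_eq_norm] using hb, by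
    rw [mem_ball, dist_eq_norm, sub_neg_eq_add, add_comm]; exact hab⟩
  have key : (fun t : S => phi A (phi A y a) (t : V)) = fun t : S => phi A y (a + t) := by
    refine uniq (A := A) (u := fun t : S => (t : V)) (t₀ := ⟨0, b0⟩) ?_ ?_ ?_ ?_ ?_
    · exact continuous_iff_continuousAt.2 fun t =>
        ContinuousAt.comp (f := fun t : S => (t : V)) (continuousAt_phi A _ (m1 t)) (by fun_prop)
    · exact continuous_iff_continuousAt.2 fun t =>
        ContinuousAt.comp (f := fun t : S => a + (t : V)) (continuousAt_phi A _ (m2 t))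
          (by fun_prop)
    · intro t
      refine ⟨idx A (phi A y a), phi_source A _ (m1 t), Eventually.of_forall fun s => ?_⟩
      rw [e_phi A _ (m1 s), e_phi A _ (m1 t)]; abel
    · intro t
      refine ⟨idx A y, phi_source A _ (m2 t), Eventually.of_forall fun s => ?_⟩
      rw [e_phi A _ (m2 s), e_phi A _ (m2 t)]; abel
    · simp
  exact congrFun key ⟨b, bb⟩

lemma phi_iter [T2Space M] (y : M) {w : V} {m : ℕ} (hm : ‖(m : ℝ) • w‖ < eps A) (j : ℕ)
    (hj : j ≤ m) : (fun z => phi A z w)^[j] y = phi A y ((j : ℝ) • w) := by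
  have hle : ∀ k : ℕ, k ≤ m → ‖(k : ℝ) • w‖ < eps A := by
    intro k hk
    refine lt_of_le_of_lt ?_ hm
    rw [norm_smul, norm_smul]
    gcongr
    simpa using hk
  induction j with
  | zero => simp
  | succ j ih =>
    rw [Function.iterate_succ_apply', ih (by omega)]
    have h1 : ‖w‖ < eps A := by
      have := hle 1 (by omega); simpa using this
    have h2 : ((j : ℝ) • w + w) = ((j + 1 : ℕ) : ℝ) • w := by
      push_cast; rw [add_smul, one_smul]
    rw [phi_add A y (hle j (by omega)) h1 (by rw [h2]; exact hle (j + 1) hj), h2]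

/-- iterated translation with `N` steps -/
noncomputable def trN (N : ℕ) (v : V) : M → M := (fun z => phi A z ((N : ℝ)⁻¹ • v))^[N]

lemma trN_mul [T2Space M] {N K : ℕ} (hN : 0 < N) (hK : 0 < K) (v : V)
    (h : ‖(N : ℝ)⁻¹ • v‖ < eps A) : trN A (K * N) v = trN A N v := by
  have hKR : (K : ℝ) ≠ 0 := by positivity
  have hNR : (N : ℝ) ≠ 0 := by positivity
  have e1 : (K : ℝ) • (((K * N : ℕ) : ℝ)⁻¹ • v) = (N : ℝ)⁻¹ • v := by
    rw [smul_smul]; push_cast; congr 1; field_simp
  rw [trN, trN, Function.iterate_mul]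
  congr 1
  funext y
  rw [phi_iter A y (m := K) (by rw [e1]; exact h) K le_rfl, e1]

lemma exists_N (v : V) : ∃ N : ℕ, 0 < N ∧ ‖(N : ℝ)⁻¹ • v‖ < eps A := by
  obtain ⟨N, hN⟩ := exists_nat_gt (‖v‖ / eps A)
  have hpos : (0 : ℝ) < N := lt_of_le_of_lt (div_nonneg (norm_nonneg _) (eps_pos A).le) hN
  refine ⟨N, by exact_mod_cast hpos, ?_⟩
  rw [norm_smul, norm_inv, Real.norm_natCast, inv_mul_lt_iff₀ hpos]
  rw [div_lt_iff₀ (eps_pos A)] at hN
  exact hN

/-- a number of steps which is enough for `v` -/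
noncomputable def num (v : V) : ℕ := (exists_N A v).choose

lemma num_pos (v : V) : 0 < num A v := (exists_N A v).choose_spec.1

lemma num_lt (v : V) : ‖((num A v : ℕ) : ℝ)⁻¹ • v‖ < eps A := (exists_N A v).choose_spec.2

lemma le_small {N K : ℕ} (hN : 0 < N) (hK : 0 < K) {v : V} (h : ‖(N : ℝ)⁻¹ • v‖ < eps A) :
    ‖((K * N : ℕ) : ℝ)⁻¹ • v‖ < eps A := by
  refine lt_of_le_of_lt ?_ h
  rw [norm_smul, norm_smul]
  gcongr
  rw [norm_inv, norm_inv, Real.norm_natCast, Real.norm_natCast]
  have : (0 : ℝ) < N := by exact_mod_cast hN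
  apply inv_anti₀ this
  have : N ≤ K * N := Nat.le_mul_of_pos_left N hK
  exact_mod_cast this

/-- translations -/
noncomputable def tr (v : V) : M → M := trN A (num A v) v

lemma tr_eq [T2Space M] {N : ℕ} (hN : 0 < N) {v : V} (h : ‖(N : ℝ)⁻¹ • v‖ < eps A) :
    tr A v = trN A N v := by
  rw [tr, ← trN_mul A (num_pos A v) hN v (num_lt A v), mul_comm,
    trN_mul A hN (num_pos A v) v h]

lemma tr_small [T2Space M] {v : V} (h : ‖v‖ < eps A) (y : M) : tr A v y = phi A y v := by
  rw [tr_eq A (N := 1) one_pos (by simpa using h), trN]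
  simp

@[simp] lemma tr_zero [T2Space M] (y : M) : tr A 0 y = y := by
  rw [tr_small A (by simpa using eps_pos A), phi_zero]

lemma tr_add [T2Space M] (v w : V) (y : M) : tr A (v + w) y = tr A v (tr A w y) := by
  set N := num A v * (num A w * num A (v + w)) with hN
  have p1 := num_pos A v
  have p2 := num_pos A w
  have p3 := num_pos A (v + w)
  have hNpos : 0 < N := by positivity
  have s1 : ‖(N : ℝ)⁻¹ • v‖ < eps A := by
    have e : N = (num A w * num A (v + w)) * num A v := by rw [hN]; ring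
    rw [e]; exact le_small A p1 (by positivity) (num_lt A v)
  have s2 : ‖(N : ℝ)⁻¹ • w‖ < eps A := by
    have e : N = (num A v * num A (v + w)) * num A w := by rw [hN]; ring
    rw [e]; exact le_small A p2 (by positivity) (num_lt A w)
  have s3 : ‖(N : ℝ)⁻¹ • (v + w)‖ < eps A := by
    have e : N = (num A v * num A w) * num A (v + w) := by rw [hN]; ring
    rw [e]; exact le_small A p3 (by positivity) (num_lt A (v + w))
  rw [tr_eq A hNpos s1, tr_eq A hNpos s2, tr_eq A hNpos s3, trN, trN, trN]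
  have c1 : ∀ z, phi A z ((N : ℝ)⁻¹ • (v + w)) = phi A (phi A z ((N : ℝ)⁻¹ • w)) ((N : ℝ)⁻¹ • v) := by
    intro z
    rw [smul_add, add_comm] at *
    rw [phi_add A z s2 s1 s3]
  have c2 : ∀ z, phi A z ((N : ℝ)⁻¹ • (v + w)) = phi A (phi A z ((N : ℝ)⁻¹ • v)) ((N : ℝ)⁻¹ • w) := by
    intro z
    rw [smul_add] at *
    rw [phi_add A z s1 s2 s3]
  have hcomm : Function.Commute (fun z => phi A z ((N : ℝ)⁻¹ • v))
      (fun z => phi A z ((N : ℝ)⁻¹ • w)) := by
    intro z
    change phi A (phi A z ((N : ℝ)⁻¹ • w)) ((N : ℝ)⁻¹ • v)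
      = phi A (phi A z ((N : ℝ)⁻¹ • v)) ((N : ℝ)⁻¹ • w)
    rw [← c1, ← c2]
  have e0 : (fun z => phi A z ((N : ℝ)⁻¹ • (v + w)))
      = (fun z => phi A z ((N : ℝ)⁻¹ • v)) ∘ (fun z => phi A z ((N : ℝ)⁻¹ • w)) := by
    funext z; exact c1 z
  rw [e0, hcomm.comp_iterate]
  rfl

variable [T2Space M]

lemma tr_neg_tr (v : V) (y : M) : tr A (-v) (tr A v y) = y := by
  rw [← tr_add, neg_add_cancel, tr_zero]

lemma tr_tr_neg (v : V) (y : M) : tr A v (tr A (-v) y) = y := by
  rw [← tr_add, add_neg_cancel, tr_zero]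

lemma tr_comm (v w : V) (y : M) : tr A v (tr A w y) = tr A w (tr A v y) := by
  rw [← tr_add, ← tr_add, add_comm]

/-- the developing map -/
noncomputable def F (x₀ : M) (v : V) : M := tr A v x₀

variable (x₀ : M)

@[simp] lemma F_zero : F A x₀ 0 = x₀ := tr_zero A x₀

lemma F_add (v w : V) : F A x₀ (v + w) = tr A v (F A x₀ w) := tr_add A v w x₀

lemma F_add_small (v : V) {w : V} (hw : ‖w‖ < eps A) :
    F A x₀ (v + w) = phi A (F A x₀ v) w := by
  rw [add_comm, F_add, tr_small A hw]

lemma F_eq_small (v s : V) (hs : ‖s - v‖ < eps A) : F A x₀ s = phi A (F A x₀ v) (s - v) := by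
  rw [← F_add_small A x₀ v hs, add_sub_cancel]

omit [NormedSpace ℝ V] [T2Space M] in
lemma eventually_small (v : V) : ∀ᶠ s in 𝓝 v, ‖s - v‖ < eps A := by
  have h : ContinuousAt (fun s : V => ‖s - v‖) v := by fun_prop
  exact h.eventually (gt_mem_nhds (by simpa using eps_pos A))

lemma continuous_F : Continuous (F A x₀) := by
  rw [continuous_iff_continuousAt]
  intro v
  have h1 : ContinuousAt (fun s => phi A (F A x₀ v) (s - v)) v :=
    ContinuousAt.comp (f := fun s : V => s - v)
      (continuousAt_phi A _ (by simpa using eps_pos A)) (by fun_prop)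
  refine h1.congr ?_
  filter_upwards [eventually_small A v] with s hs
  exact (F_eq_small A x₀ v s hs).symm

lemma dev_F : Dev A (F A x₀) id := by
  intro v
  refine ⟨idx A (F A x₀ v), idx_source A _, ?_⟩
  filter_upwards [eventually_small A v] with s hs
  rw [F_eq_small A x₀ v s hs, e_phi A _ hs]
  simp

/-- `F` is affine in all charts. -/
lemma F_chart (v : V) (i : A.ι) (hi : F A x₀ v ∈ (A.e i).source) :
    ∀ᶠ s in 𝓝 v, F A x₀ s ∈ (A.e i).source ∧ A.e i (F A x₀ s) = A.e i (F A x₀ v) + (s - v) := by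
  have h1 := (dev_F A x₀).all (continuous_F A x₀) v i hi
  have h2 := (continuous_F A x₀).continuousAt.eventually ((A.e i).open_source.mem_nhds hi)
  filter_upwards [h1, h2] with s e1 e2
  refine ⟨e2, ?_⟩
  rw [← sub_eq_iff_eq_add']
  simpa using e1

lemma isOpenMap_F : IsOpenMap (F A x₀) := by
  rw [isOpenMap_iff_nhds_le]
  intro v s hs
  rw [mem_map] at hs
  have h1 : {w : V | v + w ∈ F A x₀ ⁻¹' s ∧ ‖w‖ < eps A} ∈ 𝓝 (0 : V) := by
    have c1 : ContinuousAt (fun w : V => v + w) 0 := by fun_prop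
    have h2 : ∀ᶠ w in 𝓝 (0 : V), v + w ∈ F A x₀ ⁻¹' s := by
      apply c1.eventually
      change ∀ᶠ y in 𝓝 (v + 0), y ∈ F A x₀ ⁻¹' s
      rw [add_zero]
      exact hs
    have h3 : ∀ᶠ w in 𝓝 (0 : V), ‖w‖ < eps A := by
      simpa using eventually_small A 0
    exact h2.and h3
  have h4 := phi_image_mem_nhds A (F A x₀ v) (v := 0) (by simpa using eps_pos A) h1
  rw [phi_zero] at h4
  refine mem_of_superset h4 ?_
  rintro _ ⟨w, ⟨hw1, hw2⟩, rfl⟩
  rw [← F_add_small A x₀ v hw2]
  exact hw1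

theorem F_surjective [PreconnectedSpace M] : Function.Surjective (F A x₀) := by
  have ho : IsOpen (range (F A x₀)) := (isOpenMap_F A x₀).isOpen_range
  have hc : IsClosed (range (F A x₀)) := by
    rw [← isOpen_compl_iff, isOpen_iff_mem_nhds]
    intro y hy
    have h1 : ∀ᶠ w in 𝓝 (0 : V), ‖w‖ < eps A := by
      simpa using eventually_small A 0
    have h2 := phi_image_mem_nhds A y (v := 0) (by simpa using eps_pos A) (s := {w | ‖w‖ < eps A}) h1
    rw [phi_zero] at h2
    refine mem_of_superset h2 ?_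
    rintro _ ⟨w, hw, rfl⟩ ⟨v, hv⟩
    apply hy
    refine ⟨v - w, ?_⟩
    have hw' : ‖w‖ < eps A := hw
    rw [sub_eq_neg_add, F_add, hv, ← tr_small A hw', tr_neg_tr]
  have := IsClopen.eq_univ ⟨hc, ho⟩ ⟨_, mem_range_self 0⟩
  exact range_eq_univ.1 this

/-- the period lattice -/
noncomputable def Lam : Submodule ℤ V := AddSubgroup.toIntSubmodule
  { carrier := {v | tr A v x₀ = x₀}
    add_mem' := by
      intro v w hv hw
      simp only [mem_ofPred_eq] at *
      rw [tr_add, hw, hv]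
    zero_mem' := tr_zero A x₀
    neg_mem' := by
      intro v hv
      simp only [mem_ofPred_eq] at *
      conv_lhs => rw [← hv]
      exact tr_neg_tr A v x₀ }

lemma mem_Lam {v : V} : v ∈ Lam A x₀ ↔ tr A v x₀ = x₀ := Iff.rfl

theorem F_eq_iff (v w : V) : F A x₀ v = F A x₀ w ↔ v - w ∈ Lam A x₀ := by
  rw [mem_Lam]
  constructor
  · intro h
    have : tr A (v - w) x₀ = tr A (-w) (F A x₀ v) := by
      rw [F, ← tr_add, sub_eq_neg_add]
    rw [this, h, F, tr_neg_tr]
  · intro h
    have : F A x₀ v = tr A w (tr A (v - w) x₀) := by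
      rw [← tr_add, add_sub_cancel]; rfl
    rw [this, h]; rfl

/-- elements of the lattice fix every point -/
theorem tr_eq_self [PreconnectedSpace M] {v : V} (hv : v ∈ Lam A x₀) (y : M) : tr A v y = y := by
  obtain ⟨w, rfl⟩ := F_surjective A x₀ y
  rw [F, tr_comm, (mem_Lam A x₀).1 hv]

theorem Lam_eq [PreconnectedSpace M] (x₁ : M) : Lam A x₀ = Lam A x₁ := by
  ext v
  exact ⟨fun h => tr_eq_self A x₀ h x₁, fun h => tr_eq_self A x₁ h x₀⟩

lemma eq_zero_of_small {v : V} (hv : v ∈ Lam A x₀) (h : ‖v‖ < eps A) : v = 0 := by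
  apply phi_inj A x₀ h (by simpa using eps_pos A)
  rw [phi_zero, ← tr_small A h, (mem_Lam A x₀).1 hv]

instance discrete_Lam : DiscreteTopology (Lam A x₀) := by
  rw [discreteTopology_iff_isOpen_singleton_zero]
  have : ({0} : Set (Lam A x₀)) = (fun v : Lam A x₀ => (v : V)) ⁻¹' ball 0 (eps A) := by
    ext v
    simp only [mem_singleton_iff, mem_preimage, mem_ball, dist_zero_right]
    constructor
    · rintro rfl; simpa using eps_pos A
    · intro h; exact Subtype.ext (eq_zero_of_small A x₀ v.2 h)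
  rw [this]
  exact isOpen_ball.preimage continuous_subtype_val

variable [FiniteDimensional ℝ V]

theorem span_Lam [PreconnectedSpace M] : Submodule.span ℝ (Lam A x₀ : Set V) = ⊤ := by
  by_contra hne
  obtain ⟨f, hf0, hf⟩ := Submodule.exists_le_ker_of_lt_top _ (lt_top_iff_ne_top.2 hne)
  have hker : ∀ v ∈ Lam A x₀, f v = 0 := fun v hv =>
    LinearMap.mem_ker.1 (hf (Submodule.subset_span hv))
  have hsurj := F_surjective A x₀
  choose s hs using hsurj
  have hg : ∀ v, f (s (F A x₀ v)) = f v := by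
    intro v
    have h1 : s (F A x₀ v) - v ∈ Lam A x₀ := (F_eq_iff A x₀ _ _).1 (hs _)
    have h2 := hker _ h1
    rwa [map_sub, sub_eq_zero] at h2
  have hq : IsOpenQuotientMap (F A x₀) :=
    ⟨F_surjective A x₀, continuous_F A x₀, isOpenMap_F A x₀⟩
  have hc : Continuous (fun y : M => f (s y)) := by
    rw [hq.isQuotientMap.continuous_iff]
    have : (fun y : M => f (s y)) ∘ F A x₀ = f := funext hg
    rw [this]
    exact f.continuous_of_finiteDimensional
  obtain ⟨C, hC⟩ := (isCompact_range hc).bddAbove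
  obtain ⟨v, hv⟩ : ∃ v, f v ≠ 0 := by
    by_contra h
    push Not at h
    exact hf0 (LinearMap.ext h)
  have h1 := hC ⟨F A x₀ (((C + 1) / f v) • v), rfl⟩
  simp only [hg, map_smul, smul_eq_mul, div_mul_cancel₀ _ hv] at h1
  linarith

theorem isZLattice_Lam [PreconnectedSpace M] : IsZLattice ℝ (Lam A x₀) := ⟨span_Lam A x₀⟩

/-- a self-map with linear part `B` preserves the lattice -/
theorem Lam_stable [PreconnectedSpace M] {g : M → M} (hg : Continuous g) (B : V →ₗ[ℝ] V)
    (hB : ∀ p, ∃ i j, p ∈ (A.e i).source ∧ g p ∈ (A.e j).source ∧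
      ∀ᶠ q in 𝓝 p, A.e j (g q) - A.e j (g p) = B (A.e i q - A.e i p)) {v : V}
    (hv : v ∈ Lam A x₀) : B v ∈ Lam A x₀ := by
  have hBc : Continuous B := B.continuous_of_finiteDimensional
  have key : (fun t : V => g (F A x₀ t)) = fun t => F A (g x₀) (B t) := by
    refine uniq (A := A) (u := fun t => B t) (t₀ := 0) (hg.comp (continuous_F A x₀))
      ((continuous_F A (g x₀)).comp hBc) ?_ ?_ (by simp)
    · intro t
      obtain ⟨i, j, hi, hj, hd⟩ := hB (F A x₀ t)
      refine ⟨j, hj, ?_⟩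
      have h1 := (continuous_F A x₀).continuousAt.eventually hd
      filter_upwards [h1, F_chart A x₀ t i hi] with s e1 e2
      rw [e1, e2.2, ← map_sub]
      congr 1
      abel
    · intro t
      refine ⟨idx A (F A (g x₀) (B t)), idx_source A _, ?_⟩
      have h1 := F_chart A (g x₀) (B t) _ (idx_source A _)
      filter_upwards [hBc.continuousAt.eventually h1] with s e1
      rw [e1.2]; abel
  have h1 : F A (g x₀) (B v) = g x₀ := by
    rw [← congrFun key v]
    simp only [F]
    rw [(mem_Lam A x₀).1 hv]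
  have h2 : B v ∈ Lam A (g x₀) := h1
  rwa [← Lam_eq A x₀ (g x₀)] at h2

end Compact

section C2

open Crest.AlgGeometry

/-- **TORUS-REC** for `ℂ²`. -/
theorem torus_rec {M : Type v} [TopologicalSpace M] [CompactSpace M] [T2Space M]
    [ConnectedSpace M] (A : TAtlas.{0, v, w} (Fin 2 → ℂ) M) :
    ∃ (ω : Fin 4 → (Fin 2 → ℂ)) (F : (Fin 2 → ℂ) → M), LinearIndependent ℝ ω ∧
      Continuous F ∧ IsOpenMap F ∧ Function.Surjective F ∧
      (∀ z z', F z = F z' ↔ z - z' ∈ periodLattice ω) ∧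
      (∀ v i, F v ∈ (A.e i).source → ∀ᶠ s in 𝓝 v, F s ∈ (A.e i).source ∧
        A.e i (F s) = A.e i (F v) + (s - v)) ∧
      (∀ (g : M → M) (_ : Continuous g) (B : (Fin 2 → ℂ) →ₗ[ℝ] (Fin 2 → ℂ))
        (_ : ∀ p, ∃ i j, p ∈ (A.e i).source ∧ g p ∈ (A.e j).source ∧
          ∀ᶠ q in 𝓝 p, A.e j (g q) - A.e j (g p) = B (A.e i q - A.e i p)),
        ∀ l ∈ periodLattice ω, B l ∈ periodLattice ω) := by
  obtain ⟨x₀⟩ : Nonempty M := inferInstance
  have := isZLattice_Lam A x₀
  have hfree := ZLattice.module_free ℝ (Lam A x₀)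
  have hfin := ZLattice.module_finite ℝ (Lam A x₀)
  have hrk : Module.finrank ℤ (Lam A x₀) = 4 := by
    rw [ZLattice.rank ℝ (Lam A x₀)]
    rw [Module.finrank_pi_fintype]
    simp [Complex.finrank_real_complex]
  let b : Module.Basis (Fin 4) ℤ (Lam A x₀) :=
    (Module.finBasis ℤ (Lam A x₀)).reindex (finCongr hrk)
  let ω : Fin 4 → (Fin 2 → ℂ) := fun j => (b j : Fin 2 → ℂ)
  have hωb : ω = b.ofZLatticeBasis ℝ (Lam A x₀) := by
    funext j
    rw [Module.Basis.ofZLatticeBasis_apply]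
  have hspan : periodLattice ω = Lam A x₀ := by
    rw [periodLattice, hωb]
    exact Module.Basis.ofZLatticeBasis_span ℝ (Lam A x₀) b
  refine ⟨ω, F A x₀, ?_, continuous_F A x₀, isOpenMap_F A x₀, F_surjective A x₀, ?_, ?_, ?_⟩
  · rw [hωb]; exact (b.ofZLatticeBasis ℝ (Lam A x₀)).linearIndependent
  · intro z z'; rw [hspan]; exact F_eq_iff A x₀ z z'
  · intro v i hi; exact F_chart A x₀ v i hi
  · intro g hg B hB l hl
    rw [hspan] at hl ⊢
    exact Lam_stable A x₀ hg B hB hl

end C2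

end Crest.Agent.R272.TorRec_729
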