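import Crest.Agent.R272.Simple_729
import Crest.Agent.R272.TorRec_729

/-!
Row 272: a compact connected Hausdorff space with a `ℂ²`-translation atlas and a self-map with
linear part `diag(ζ, ζ²)` is a simple torus in the frozen sense.
-/

set_option autoImplicit false

open Filter Topology
open Crest.AlgGeometry

namespace Crest.Agent.R272.TorSimple_729

open Crest.Agent.R272.TorRec_729 Crest.Agent.R272.Simple_729

universe v w

theorem torus_simple {M : Type v} [TopologicalSpace M] [CompactSpace M] [T2Space M]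
    [ConnectedSpace M] (A : TAtlas.{0, v, w} (Fin 2 → ℂ) M) {ζ : ℂ} (hζ : IsPrimitiveRoot ζ 5)
    (g : M → M) (hg : Continuous g)
    (hB : ∀ p, ∃ i j, p ∈ (A.e i).source ∧ g p ∈ (A.e j).source ∧
      ∀ᶠ q in 𝓝 p, A.e j (g q) - A.e j (g p) =
        ![ζ * (A.e i q 0 - A.e i p 0), ζ ^ 2 * (A.e i q 1 - A.e i p 1)]) :
    ∃ (ω : Fin 4 → (Fin 2 → ℂ)) (F : (Fin 2 → ℂ) → M), LinearIndependent ℝ ω ∧
      Continuous F ∧ IsOpenMap F ∧ Function.Surjective F ∧
      (∀ z z', F z = F z' ↔ z - z' ∈ periodLattice ω) ∧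
      (∀ v i, F v ∈ (A.e i).source → ∀ᶠ s in 𝓝 v, F s ∈ (A.e i).source ∧
        A.e i (F s) = A.e i (F v) + (s - v)) ∧
      (∀ l ∈ periodLattice ω, ![ζ * l 0, ζ ^ 2 * l 1] ∈ periodLattice ω) ∧
      (∀ l m : Fin 2 → ℂ, l ∈ periodLattice ω → m ∈ periodLattice ω → l ≠ 0 →
        ∀ a : ℂ, m = a • l → a.im = 0) := by
  obtain ⟨ω, F, h1, h2, h3, h4, h5, h6, h7⟩ := torus_rec A
  have hst : ∀ l ∈ periodLattice ω, ![ζ * l 0, ζ ^ 2 * l 1] ∈ periodLattice ω := by
    intro l hl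
    exact h7 g hg ((dg ζ (ζ ^ 2)).restrictScalars ℝ) (fun p => by
      obtain ⟨i, j, hi, hj, hd⟩ := hB p
      refine ⟨i, j, hi, hj, ?_⟩
      filter_upwards [hd] with q hq
      rw [hq]
      ext s; fin_cases s <;> simp [dg]) l hl
  exact ⟨ω, F, h1, h2, h3, h4, h5, h6, hst, simple' ω h1 hζ hst⟩

end Crest.Agent.R272.TorSimple_729
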