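import Mathlib

/-!
# R272 (S0415), MODEL, type tp (helper60): tools for `P1 = OnePoint ℂ`

`nn t, dd t` : homogeneous coordinates, `rat a b = [a : b]`, `mob α β γ δ t`, `iv t = dd t / nn t`,
continuity of all of them off the bad points.
-/

set_option autoImplicit false

open Set Filter Topology OnePoint

namespace Crest.Agent.R272.Tp1_60

abbrev P1 := OnePoint ℂ

/-- numerator -/
def nn (t : P1) : ℂ := t.elim 1 id
/-- denominator -/
def dd (t : P1) : ℂ := t.elim 0 fun _ => 1

@[simp] theorem nn_inf : nn ∞ = 1 := rfl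
@[simp] theorem dd_inf : dd ∞ = 0 := rfl
@[simp] theorem nn_coe (c : ℂ) : nn (c : P1) = c := rfl
@[simp] theorem dd_coe (c : ℂ) : dd (c : P1) = 1 := rfl

theorem nn_dd (t : P1) : nn t ≠ 0 ∨ dd t ≠ 0 := by
  induction t using OnePoint.rec with
  | infty => left; simp
  | coe c => right; simp

theorem dd_eq_zero {t : P1} : dd t = 0 ↔ t = ∞ := by
  induction t using OnePoint.rec with
  | infty => simp
  | coe c => simp

theorem dd_of_ne {t : P1} (h : t ≠ ∞) : dd t = 1 := by
  induction t using OnePoint.rec with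
  | infty => exact absurd rfl h
  | coe c => simp

theorem coe_nn {t : P1} (h : t ≠ ∞) : ((nn t : ℂ) : P1) = t := by
  induction t using OnePoint.rec with
  | infty => exact absurd rfl h
  | coe c => simp

theorem nn_eq_zero {t : P1} : nn t = 0 ↔ t = ((0 : ℂ) : P1) := by
  induction t using OnePoint.rec with
  | infty => simp
  | coe c => simp

open Classical in
/-- `[a : b]` -/
noncomputable def rat (a b : ℂ) : P1 := if b = 0 then ∞ else ((a / b : ℂ) : P1)

theorem rat_zero (a : ℂ) : rat a 0 = ∞ := by simp [rat]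

theorem rat_ne {a b : ℂ} (h : b ≠ 0) : rat a b = ((a / b : ℂ) : P1) := by simp [rat, h]

theorem rat_one (a : ℂ) : rat a 1 = ((a : ℂ) : P1) := by rw [rat_ne one_ne_zero, div_one]

theorem rat_mul {a b c : ℂ} (h : c ≠ 0) : rat (c * a) (c * b) = rat a b := by
  by_cases hb : b = 0
  · simp [hb, rat_zero]
  · rw [rat_ne hb, rat_ne (mul_ne_zero h hb), mul_div_mul_left _ _ h]

@[simp] theorem rat_nn_dd (t : P1) : rat (nn t) (dd t) = t := by
  induction t using OnePoint.rec with
  | infty => simp [rat_zero]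
  | coe c => simp [rat_one]

/-- homogeneous coordinates of `[a : b]` are proportional to `(a, b)` -/
theorem exists_rat {a b : ℂ} (h : a ≠ 0 ∨ b ≠ 0) :
    ∃ c : ℂ, c ≠ 0 ∧ a = c * nn (rat a b) ∧ b = c * dd (rat a b) := by
  by_cases hb : b = 0
  · subst hb
    refine ⟨a, by simpa using h, by simp [rat_zero], by simp [rat_zero]⟩
  · refine ⟨b, hb, ?_, ?_⟩
    · rw [rat_ne hb, nn_coe]; field_simp
    · rw [rat_ne hb, dd_coe, mul_one]

theorem eq_rat_iff {a b : ℂ} (h : a ≠ 0 ∨ b ≠ 0) {t : P1} : t = rat a b ↔ a * dd t = b * nn t := by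
  constructor
  · intro ht
    obtain ⟨c, hc, h1, h2⟩ := exists_rat h
    rw [← ht] at h1 h2
    calc a * dd t = c * nn t * dd t := by rw [← h1]
      _ = c * dd t * nn t := by ring
      _ = b * nn t := by rw [← h2]
  · intro ht
    induction t using OnePoint.rec with
    | infty =>
      simp only [dd_inf, mul_zero, nn_inf, mul_one] at ht
      rw [← ht, rat_zero]
    | coe c =>
      simp only [dd_coe, mul_one, nn_coe] at ht
      have hb : b ≠ 0 := by
        rintro rfl
        rw [zero_mul] at ht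
        simp [ht] at h
      rw [rat_ne hb, ht]
      congr 1
      field_simp

theorem rat_eq_rat {a b a' b' : ℂ} (h : a ≠ 0 ∨ b ≠ 0) (h' : a' ≠ 0 ∨ b' ≠ 0)
    (he : a * b' = a' * b) : rat a b = rat a' b' := by
  rw [eq_rat_iff h']
  obtain ⟨c, hc, h1, h2⟩ := exists_rat h
  have h3 : c * (a' * dd (rat a b)) = c * (b' * nn (rat a b)) := by
    calc c * (a' * dd (rat a b)) = a' * (c * dd (rat a b)) := by ring
      _ = a' * b := by rw [← h2]
      _ = a * b' := he.symm
      _ = (c * nn (rat a b)) * b' := by rw [← h1]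
      _ = _ := by ring
  exact mul_left_cancel₀ hc h3

/-- homogeneous relations of degree 1 can be checked on any representative -/
theorem rel1 {a b X Y : ℂ} (h : a ≠ 0 ∨ b ≠ 0) :
    nn (rat a b) * X = dd (rat a b) * Y ↔ a * X = b * Y := by
  obtain ⟨c, hc, h1, h2⟩ := exists_rat h
  constructor
  · intro he
    calc a * X = c * nn (rat a b) * X := by rw [← h1]
      _ = c * (nn (rat a b) * X) := by ring
      _ = c * (dd (rat a b) * Y) := by rw [he]
      _ = c * dd (rat a b) * Y := by ring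
      _ = b * Y := by rw [← h2]
  · intro he
    refine mul_left_cancel₀ hc ?_
    calc c * (nn (rat a b) * X) = c * nn (rat a b) * X := by ring
      _ = a * X := by rw [← h1]
      _ = b * Y := he
      _ = c * dd (rat a b) * Y := by rw [← h2]
      _ = _ := by ring

/-- degree 2 -/
theorem rel2 {a b X Y : ℂ} (h : a ≠ 0 ∨ b ≠ 0) :
    nn (rat a b) ^ 2 * X = dd (rat a b) ^ 2 * Y ↔ a ^ 2 * X = b ^ 2 * Y := by
  obtain ⟨c, hc, h1, h2⟩ := exists_rat h
  constructor
  · intro he
    calc a ^ 2 * X = (c * nn (rat a b)) ^ 2 * X := by rw [← h1]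
      _ = c ^ 2 * (nn (rat a b) ^ 2 * X) := by ring
      _ = c ^ 2 * (dd (rat a b) ^ 2 * Y) := by rw [he]
      _ = (c * dd (rat a b)) ^ 2 * Y := by ring
      _ = b ^ 2 * Y := by rw [← h2]
  · intro he
    refine mul_left_cancel₀ (pow_ne_zero 2 hc) ?_
    calc c ^ 2 * (nn (rat a b) ^ 2 * X) = (c * nn (rat a b)) ^ 2 * X := by ring
      _ = a ^ 2 * X := by rw [← h1]
      _ = b ^ 2 * Y := he
      _ = (c * dd (rat a b)) ^ 2 * Y := by rw [← h2]
      _ = _ := by ring

/-! ### topology -/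

theorem continuousAt_rat {a b : ℂ} (h : a ≠ 0 ∨ b ≠ 0) :
    ContinuousAt (fun x : ℂ × ℂ => rat x.1 x.2) (a, b) := by
  by_cases hb : b = 0
  · subst hb
    have ha : a ≠ 0 := by simpa using h
    unfold ContinuousAt
    simp only [rat_zero]
    rw [OnePoint.hasBasis_nhds_infty.tendsto_right_iff]
    rintro K ⟨-, hK⟩
    obtain ⟨R, hR0, hR⟩ := hK.isBounded.exists_pos_norm_le
    have h1 : ∀ᶠ x : ℂ × ℂ in 𝓝 (a, (0 : ℂ)), ‖a‖ / 2 < ‖x.1‖ := by
      have : ContinuousAt (fun x : ℂ × ℂ => ‖x.1‖) (a, (0 : ℂ)) := by fun_prop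
      exact this.eventually_const_lt (by simpa using half_lt_self (norm_pos_iff.2 ha))
    have h2 : ∀ᶠ x : ℂ × ℂ in 𝓝 (a, (0 : ℂ)), ‖x.2‖ < ‖a‖ / 2 / (R + 1) := by
      have : ContinuousAt (fun x : ℂ × ℂ => ‖x.2‖) (a, (0 : ℂ)) := by fun_prop
      refine this.eventually_lt_const ?_
      simp only [norm_zero]
      have := norm_pos_iff.2 ha
      positivity
    filter_upwards [h1, h2] with x hx1 hx2
    by_cases hx : x.2 = 0
    · right; simp [hx, rat_zero]
    · left
      refine ⟨x.1 / x.2, ?_, (rat_ne hx).symm⟩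
      intro hmem
      have h3 := hR _ hmem
      rw [norm_div, div_le_iff₀ (norm_pos_iff.2 hx)] at h3
      rw [lt_div_iff₀ (by linarith)] at hx2
      have h4 := norm_pos_iff.2 hx
      nlinarith
  · have h1 : ∀ᶠ x : ℂ × ℂ in 𝓝 (a, b), x.2 ≠ 0 :=
      continuousAt_snd.eventually_ne hb
    have h2 : ContinuousAt (fun x : ℂ × ℂ => ((x.1 / x.2 : ℂ) : P1)) (a, b) := by
      refine ContinuousAt.comp (f := fun x : ℂ × ℂ => x.1 / x.2) (g := ((↑) : ℂ → P1))
        OnePoint.continuous_coe.continuousAt ?_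
      exact continuousAt_fst.div₀ continuousAt_snd hb
    refine h2.congr ?_
    filter_upwards [h1] with x hx
    exact (rat_ne hx).symm

theorem _root_.ContinuousAt.rat60 {X : Type*} [TopologicalSpace X] {f g : X → ℂ} {x : X}
    (hf : ContinuousAt f x) (hg : ContinuousAt g x) (h : f x ≠ 0 ∨ g x ≠ 0) :
    ContinuousAt (fun x => rat (f x) (g x)) x :=
  ContinuousAt.comp (f := fun x => (f x, g x)) (g := fun x : ℂ × ℂ => rat x.1 x.2)
    (continuousAt_rat h) (hf.prodMk hg)

theorem continuousAt_nn {t : P1} (h : t ≠ ∞) : ContinuousAt nn t := by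
  induction t using OnePoint.rec with
  | infty => exact absurd rfl h
  | coe c =>
    rw [OnePoint.continuousAt_coe]
    exact continuousAt_id

theorem isOpen_ne_inf : IsOpen {t : P1 | t ≠ ∞} := isOpen_compl_singleton

/-- `1/t` -/
noncomputable def iv (t : P1) : ℂ := dd t / nn t

@[simp] theorem iv_inf : iv ∞ = 0 := by simp [iv]
@[simp] theorem iv_coe (c : ℂ) : iv (c : P1) = c⁻¹ := by simp [iv]

theorem continuousAt_iv {t : P1} (h : t ≠ ((0 : ℂ) : P1)) : ContinuousAt iv t := by
  induction t using OnePoint.rec with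
  | infty =>
    rw [OnePoint.continuousAt_infty']
    have h1 : iv ∘ ((↑) : ℂ → P1) = Inv.inv := by
      funext c; simp
    rw [h1, iv_inf, coclosedCompact_eq_cocompact, ← Metric.cobounded_eq_cocompact]
    exact tendsto_inv₀_cobounded
  | coe c =>
    rw [OnePoint.continuousAt_coe]
    have h1 : iv ∘ ((↑) : ℂ → P1) = Inv.inv := by
      funext c; simp
    rw [h1]
    exact continuousAt_inv₀ (by simpa using h)

theorem isOpen_ne_zero : IsOpen {t : P1 | t ≠ ((0 : ℂ) : P1)} := isOpen_compl_singleton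

theorem nn_ne {t : P1} (h : t ≠ ((0 : ℂ) : P1)) : nn t ≠ 0 := fun h1 => h (nn_eq_zero.1 h1)

theorem rat_iv {t : P1} (h : t ≠ ((0 : ℂ) : P1)) : rat 1 (iv t) = t := by
  have h1 := nn_ne h
  conv_rhs => rw [← rat_nn_dd t]
  rw [← rat_mul (a := 1) (b := iv t) h1, mul_one]
  congr 1
  unfold iv
  field_simp

theorem nn_mul_iv {t : P1} (h : t ≠ ((0 : ℂ) : P1)) : nn t * iv t = dd t := by
  have h1 := nn_ne h
  unfold iv
  field_simp

theorem inv_nn {t : P1} (h : t ≠ ∞) : iv t = (nn t)⁻¹ := by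
  unfold iv
  rw [dd_of_ne h, one_div]

/-- Möbius transformation with variable coefficients -/
noncomputable def mob (α β γ δ : ℂ) (t : P1) : P1 := rat (α * nn t + β * dd t) (γ * nn t + δ * dd t)

theorem mob_ne {α β γ δ : ℂ} (h : α * δ - β * γ ≠ 0) (t : P1) :
    α * nn t + β * dd t ≠ 0 ∨ γ * nn t + δ * dd t ≠ 0 := by
  by_contra hc
  push Not at hc
  obtain ⟨h1, h2⟩ := hc
  have h3 : (α * δ - β * γ) * nn t = 0 := by linear_combination δ * h1 - β * h2
  have h4 : (α * δ - β * γ) * dd t = 0 := by linear_combination α * h2 - γ * h1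
  rcases nn_dd t with h5 | h5
  · exact h5 ((mul_eq_zero.1 h3).resolve_left h)
  · exact h5 ((mul_eq_zero.1 h4).resolve_left h)

theorem _root_.ContinuousAt.mob60 {X : Type*} [TopologicalSpace X] {α β γ δ : X → ℂ} {t : X → P1}
    {x : X} (hα : ContinuousAt α x) (hβ : ContinuousAt β x) (hγ : ContinuousAt γ x)
    (hδ : ContinuousAt δ x) (ht : ContinuousAt t x) (h : α x * δ x - β x * γ x ≠ 0) :
    ContinuousAt (fun x => mob (α x) (β x) (γ x) (δ x) (t x)) x := by
  by_cases hx : t x = ∞
  · have h0 : t x ≠ ((0 : ℂ) : P1) := by rw [hx]; simp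
    have h1 : ∀ᶠ y in 𝓝 x, t y ≠ ((0 : ℂ) : P1) := ht.eventually_ne h0
    have h2 : ContinuousAt (fun y => iv (t y)) x :=
      ContinuousAt.comp (g := iv) (continuousAt_iv h0) ht
    have h3 : ContinuousAt (fun y => rat (α y + β y * iv (t y)) (γ y + δ y * iv (t y))) x := by
      refine ContinuousAt.rat60 (hα.add (hβ.mul h2)) (hγ.add (hδ.mul h2)) ?_
      rw [hx]
      simp only [iv_inf, mul_zero, add_zero]
      by_contra hc
      push Not at hc
      exact h (by rw [hc.1, hc.2]; ring)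
    refine h3.congr ?_
    filter_upwards [h1] with y hy
    have h4 := nn_ne hy
    unfold mob
    rw [← rat_mul h4]
    congr 1
    · rw [← nn_mul_iv hy]; ring
    · rw [← nn_mul_iv hy]; ring
  · have h1 : ∀ᶠ y in 𝓝 x, t y ≠ ∞ := ht.eventually_ne hx
    have h2 : ContinuousAt (fun y => nn (t y)) x :=
      ContinuousAt.comp (g := nn) (continuousAt_nn hx) ht
    have h3 : ContinuousAt (fun y => rat (α y * nn (t y) + β y) (γ y * nn (t y) + δ y)) x := by
      refine ContinuousAt.rat60 ((hα.mul h2).add hβ) ((hγ.mul h2).add hδ) ?_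
      have := mob_ne h (t x)
      rwa [dd_of_ne hx, mul_one, mul_one] at this
    refine h3.congr ?_
    filter_upwards [h1] with y hy
    unfold mob
    rw [dd_of_ne hy, mul_one, mul_one]

end Crest.Agent.R272.Tp1_60
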