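import Crest.Agent.R272.Tp3_60

/-!
# R272 (S0415), MODEL, type tp (helper60): the open embeddings `E 0`, `E 1`

`Loc.E i : OpenPartialHomeomorph ((C × C) × ℂ) X` (`C = Cv P`), source `DE i r`,
`(E i p).1 = L.fro (FE i p)`; `E_ov` : `E 0 p = E 1 q ↔ q.1 = p.1 ∧ q.2 = p.2 t t'`.
-/

set_option autoImplicit false
set_option linter.unusedSectionVars false

open Set Filter Topology OnePoint

namespace Crest.Agent.R272.Tp4_60

open Crest.Agent.R272.Tp1_60 Crest.Agent.R272.Tp2_60 Crest.Agent.R272.Tp3_60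
open Crest.Agent.R272.Cur_297 (Par Cv Cset Eqn hA hB tt kk continuous_tt continuous_kk)

noncomputable section

theorem exists_oph {A B : Type} [TopologicalSpace A] [TopologicalSpace B] {D : Set A}
    (hD : IsOpen D) (hne : D.Nonempty) {g : D → B} (hg : IsOpenEmbedding g) :
    ∃ E : OpenPartialHomeomorph A B, E.source = D ∧ (∀ p : D, E p = g p) ∧ E.target = range g := by
  have : Nonempty D := hne.to_subtype
  set v := hD.isOpenEmbedding_subtypeVal.toOpenPartialHomeomorph (Subtype.val : D → A) with hv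
  set w := hg.toOpenPartialHomeomorph g with hw
  have h1 : ∀ p : D, v.symm p = p := fun p => by
    have : v.symm (v p) = p := v.left_inv (by rw [hv]; exact mem_univ _)
    exact this
  refine ⟨v.symm.trans w, ?_, ?_, ?_⟩
  · ext p
    simp [hv, hw]
  · intro p
    show w (v.symm p) = g p
    rw [h1]
    rfl
  · ext p
    simp [hv, hw]

variable {N : Type} [TopologicalSpace N] {P : Par}

/-- the source of `E i` -/
def DE (P : Par) (r : ℝ) (i : Fin 2) : Set ((Cv P × Cv P) × ℂ) :=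
  if i = 0 then {p | tt p.1.1 ≠ ∞ ∧ tt p.1.2 ≠ ∞ ∧
    ‖p.2‖ * (1 + ‖nn (tt p.1.1)‖) * (1 + ‖nn (tt p.1.2)‖) < r}
  else {p | tt p.1.1 ≠ ((0 : ℂ) : P1) ∧ tt p.1.2 ≠ ((0 : ℂ) : P1) ∧
    ‖p.2‖ * (1 + ‖iv (tt p.1.1)‖) * (1 + ‖iv (tt p.1.2)‖) < r}

/-- the standard coordinates of `E i p` -/
def FE (P : Par) (i : Fin 2) (p : (Cv P × Cv P) × ℂ) : Amb (Cv P) :=
  if i = 0 then f0 tt (p.1.1, p.1.2, p.2) else fi tt (p.1.1, p.1.2, p.2)

theorem FE_zero (p : (Cv P × Cv P) × ℂ) : FE P 0 p = f0 tt (p.1.1, p.1.2, p.2) := rfl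
theorem FE_one (p : (Cv P × Cv P) × ℂ) : FE P 1 p = fi tt (p.1.1, p.1.2, p.2) := rfl

theorem FE_fst (i : Fin 2) (p : (Cv P × Cv P) × ℂ) : (FE P i p).2.1 = p.1.1 := by
  unfold FE; split_ifs <;> rfl
theorem FE_snd (i : Fin 2) (p : (Cv P × Cv P) × ℂ) : (FE P i p).2.2.1 = p.1.2 := by
  unfold FE; split_ifs <;> rfl

theorem ball_of_O0 {r : ℝ} {s : Std (tt : Cv P → P1)} (hs : s ∈ O0 tt r) :
    s.1.1 ∈ Metric.ball (0 : ℂ × ℂ × ℂ) r := by
  obtain ⟨h1, h2, h3⟩ := hs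
  have e1 : s.1.1.2.1 = s.1.1.1 * nn (tt s.1.2.1) := by
    have := s.2.r1; rwa [dd_of_ne h1, mul_one] at this
  have e2 : s.1.1.2.2 = s.1.1.1 * nn (tt s.1.2.2.1) := by
    have := s.2.r2; rwa [dd_of_ne h2, mul_one] at this
  set x := ‖s.1.1.1‖ with hx
  set y := ‖nn (tt s.1.2.1)‖ with hy
  set z := ‖nn (tt s.1.2.2.1)‖ with hz
  have hx0 : 0 ≤ x := norm_nonneg _
  have hy0 : 0 ≤ y := norm_nonneg _
  have hz0 : 0 ≤ z := norm_nonneg _
  have hxy := mul_nonneg hx0 hy0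
  have hxz := mul_nonneg hx0 hz0
  have hxyz := mul_nonneg hxy hz0
  rw [Metric.mem_ball, dist_zero_right, Prod.norm_def, Prod.norm_def, e1, e2, norm_mul, norm_mul]
  refine max_lt ?_ (max_lt ?_ ?_)
  · calc x ≤ x * (1 + y) * (1 + z) := by nlinarith
      _ < r := h3
  · calc x * y ≤ x * (1 + y) * (1 + z) := by nlinarith
      _ < r := h3
  · calc x * z ≤ x * (1 + y) * (1 + z) := by nlinarith
      _ < r := h3

theorem ball_of_Oi {r : ℝ} {s : Std (tt : Cv P → P1)} (hs : s ∈ Oi tt r) :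
    s.1.1 ∈ Metric.ball (0 : ℂ × ℂ × ℂ) r := by
  obtain ⟨h1, h2, h3, h4⟩ := hs
  have e0 := fi_eq s.2 h1 h2 h3
  have e1 : s.1.1 = (nn s.1.2.2.2 * iv (tt s.1.2.1) * iv (tt s.1.2.2.1),
      nn s.1.2.2.2 * iv (tt s.1.2.2.1), nn s.1.2.2.2 * iv (tt s.1.2.1)) := by
    conv_lhs => rw [← e0]
    rfl
  rw [e1]
  set x := ‖nn s.1.2.2.2‖ with hx
  set y := ‖iv (tt s.1.2.1)‖ with hy
  set z := ‖iv (tt s.1.2.2.1)‖ with hz
  have hx0 : 0 ≤ x := norm_nonneg _
  have hy0 : 0 ≤ y := norm_nonneg _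
  have hz0 : 0 ≤ z := norm_nonneg _
  have hxy := mul_nonneg hx0 hy0
  have hxz := mul_nonneg hx0 hz0
  have hxyz := mul_nonneg hxy hz0
  rw [Metric.mem_ball, dist_zero_right, Prod.norm_def, Prod.norm_def]
  simp only [norm_mul]
  refine max_lt ?_ (max_lt ?_ ?_)
  · calc x * y * z ≤ x * (1 + y) * (1 + z) := by nlinarith
      _ < r := h4
  · calc x * z ≤ x * (1 + y) * (1 + z) := by nlinarith
      _ < r := h4
  · calc x * y ≤ x * (1 + y) * (1 + z) := by nlinarith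
      _ < r := h4

/-- reassociation -/
def asc (K : Type) [TopologicalSpace K] : (K × K) × ℂ ≃ₜ K × K × ℂ := Homeomorph.prodAssoc K K ℂ

variable (L : Loc P N) (X : Set (E6 N)) (hX : ∀ y : E6 N, y.1 ∈ L.sh.source → (y ∈ X ↔ RelX L y))
  {r : ℝ} (hr : 0 < r) (hb : Metric.ball (0 : ℂ × ℂ × ℂ) r ⊆ L.sh.target)

/-- the standard model over `sh.target`, as an open embedding into `X` -/
theorem hom_open : IsOpenEmbedding fun s : {s : Std (tt : Cv P → P1) | s.1.1 ∈ L.sh.target} =>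
    (L.hom X hX s).1 := by
  have h1 : IsOpen {y : X | y.1.1 ∈ L.sh.source} :=
    L.sh.open_source.preimage (continuous_fst.comp continuous_subtype_val)
  exact h1.isOpenEmbedding_subtypeVal.comp (L.hom X hX).isOpenEmbedding

theorem emb_of_open {O : Set (Std (tt : Cv P → P1))} (hO : IsOpen O)
    (h : ∀ s ∈ O, s.1.1 ∈ L.sh.target) :
    IsOpenEmbedding fun s : O => (L.hom X hX ⟨s.1, h s.1 s.2⟩).1 := by
  refine (hom_open L X hX).comp ?_
  have h1 : IsOpen (L.sh.target) := L.sh.open_target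
  have h2 : IsOpenEmbedding (Subtype.val : {s : Std (tt : Cv P → P1) | s.1.1 ∈ L.sh.target} → _) :=
    (h1.preimage (f := fun s : Std (tt : Cv P → P1) => s.1.1)
      (continuous_fst.comp continuous_subtype_val)).isOpenEmbedding_subtypeVal
  have h3 : IsOpenEmbedding (Subtype.val : O → Std (tt : Cv P → P1)) :=
    hO.isOpenEmbedding_subtypeVal
  exact IsOpenEmbedding.of_comp _ h2 h3

include hX hr hb in
theorem exists_E (i : Fin 2) (hc : ∃ c : Cv P, tt c ≠ ∞ ∧ tt c ≠ ((0 : ℂ) : P1)) :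
    ∃ E : OpenPartialHomeomorph ((Cv P × Cv P) × ℂ) X, E.source = DE P r i ∧
      ∀ p ∈ DE P r i, (E p).1 = L.fro (FE P i p) ∧ FE P i p ∈ Std (tt : Cv P → P1) ∧
        (FE P i p).1 ∈ Metric.ball (0 : ℂ × ℂ × ℂ) r := by
  obtain ⟨c, hc1, hc2⟩ := hc
  have hT := continuous_tt (P := P)
  fin_cases i
  · have hD : DE P r 0 = (asc (Cv P)) ⁻¹' (D0 tt r) := by
      ext p; rfl
    have hDo : IsOpen (DE P r 0) := by
      rw [hD]; exact (isOpen_D0 hT r).preimage (asc _).continuous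
    have hne : (DE P r 0).Nonempty := ⟨((c, c), 0), hc1, hc1, by simpa using hr⟩
    have g1 : IsOpenEmbedding fun s : O0 tt r => (L.hom X hX ⟨s.1, hb (ball_of_O0 s.2)⟩).1 :=
      emb_of_open L X hX (isOpen_O0 hT r) fun s hs => hb (ball_of_O0 hs)
    have g2 : IsOpenEmbedding fun p : DE P r 0 => (⟨asc _ p.1, p.2⟩ : D0 (tt : Cv P → P1) r) := by
      refine IsOpenEmbedding.of_comp _ (isOpen_D0 hT r).isOpenEmbedding_subtypeVal ?_
      exact (asc _).isOpenEmbedding.comp hDo.isOpenEmbedding_subtypeVal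
    have g3 := g1.comp ((e0 tt hT r).isOpenEmbedding.comp g2)
    obtain ⟨E, h1, h2, -⟩ := exists_oph hDo hne g3
    refine ⟨E, h1, fun p hp => ⟨?_, f0_mem hp.1 hp.2.1, ?_⟩⟩
    · show (E p).1 = _
      rw [h2 ⟨p, hp⟩]
      rfl
    · exact ball_of_O0 (s := (e0 tt hT r ⟨asc _ p, hp⟩).1) (e0 tt hT r ⟨asc _ p, hp⟩).2
  · have hD : DE P r 1 = (asc (Cv P)) ⁻¹' (Di tt r) := by
      ext p; rfl
    have hDo : IsOpen (DE P r 1) := by
      rw [hD]; exact (isOpen_Di hT r).preimage (asc _).continuous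
    have hne : (DE P r 1).Nonempty := ⟨((c, c), 0), hc2, hc2, by simpa using hr⟩
    have g1 : IsOpenEmbedding fun s : Oi tt r => (L.hom X hX ⟨s.1, hb (ball_of_Oi s.2)⟩).1 :=
      emb_of_open L X hX (isOpen_Oi hT r) fun s hs => hb (ball_of_Oi hs)
    have g2 : IsOpenEmbedding fun p : DE P r 1 => (⟨asc _ p.1, p.2⟩ : Di (tt : Cv P → P1) r) := by
      refine IsOpenEmbedding.of_comp _ (isOpen_Di hT r).isOpenEmbedding_subtypeVal ?_
      exact (asc _).isOpenEmbedding.comp hDo.isOpenEmbedding_subtypeVal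
    have g3 := g1.comp ((ei tt hT r).isOpenEmbedding.comp g2)
    obtain ⟨E, h1, h2, -⟩ := exists_oph hDo hne g3
    refine ⟨E, h1, fun p hp => ⟨?_, fi_mem hp.1 hp.2.1, ?_⟩⟩
    · show (E p).1 = _
      rw [h2 ⟨p, hp⟩]
      rfl
    · exact ball_of_Oi (s := (ei tt hT r ⟨asc _ p, hp⟩).1) (ei tt hT r ⟨asc _ p, hp⟩).2

/-- `fro` is injective on the standard model over `sh.target` -/
theorem fro_inj {s s' : Amb (Cv P)} (hs : s ∈ Std (tt : Cv P → P1)) (h : s.1 ∈ L.sh.target)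
    (hs' : s' ∈ Std (tt : Cv P → P1)) (h' : s'.1 ∈ L.sh.target) (he : L.fro s = L.fro s') :
    s = s' := by
  rw [← L.toS_fro hs h, ← L.toS_fro hs' h']
  simp only [he]

/-- overlap of `FE 0`, `FE 1` -/
theorem FE_ov {p q : (Cv P × Cv P) × ℂ} (hp : p ∈ DE P r 0) (hq : q ∈ DE P r 1) :
    FE P 0 p = FE P 1 q ↔ q.1 = p.1 ∧ q.2 = p.2 * (nn (tt p.1.1) * nn (tt p.1.2)) := by
  obtain ⟨⟨c, c'⟩, x⟩ := p
  obtain ⟨⟨d, d'⟩, v⟩ := q
  rw [FE_zero, FE_one]
  constructor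
  · intro h
    have h1 : c = d := congrArg (fun y : Amb (Cv P) => y.2.1) h
    have h2 : c' = d' := congrArg (fun y : Amb (Cv P) => y.2.2.1) h
    subst h1; subst h2
    refine ⟨rfl, ?_⟩
    have h3 : ((nn (tt c) * nn (tt c') * x : ℂ) : P1) = ((v : ℂ) : P1) :=
      congrArg (fun y : Amb (Cv P) => y.2.2.2) h
    have h4 := OnePoint.coe_injective h3
    show v = x * (nn (tt c) * nn (tt c'))
    rw [← h4]; ring
  · rintro ⟨h1, h2⟩
    have h1' : d = c := congrArg Prod.fst h1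
    have h1'' : d' = c' := congrArg Prod.snd h1
    subst h1'; subst h1''
    simp only at h2
    subst h2
    rw [show x * (nn (tt d) * nn (tt d')) = x * nn (tt d) * nn (tt d') by ring]
    exact (fi_f0 hp.1 hp.2.1 hq.1 hq.2.1).symm

end

end Crest.Agent.R272.Tp4_60
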