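import Crest.Agent.R272.Tp6_60
import Crest.Agent.R272.Cur5_297

/-!
# R272 (S0415), MODEL, type tp (helper60): `ch_cur : CH (cur P)`, the curve of helper297
-/

set_option autoImplicit false
set_option linter.unusedSectionVars false

open Set Filter Topology OnePoint

namespace Crest.Agent.R272.Tp8_60

open Crest.Agent.R273.Fam_835 Crest.Agent.R272.FamP_54
open Crest.Agent.R272.Tp1_60 Crest.Agent.R272.Tp5_60 Crest.Agent.R272.Tp6_60
open Crest.Agent.R272.Cur_297 (Par Cv tt kk continuous_tt continuous_kk cur)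

noncomputable section

variable {P : Par}

theorem tv_nn {c : Cv P} (h : tt c ≠ ∞) : Cur_297.tv c = nn (tt c) := by
  rw [Cur_297.tt_eq h]
  rfl

theorem sv_iv (c : Cv P) : Cur_297.sv c = iv (tt c) := by
  unfold Cur_297.sv
  generalize tt c = t
  induction t using OnePoint.rec with
  | infty => simp
  | coe z => simp

theorem inv1_rat (s : ℂ) : Cur_297.inv1 s = rat 1 s := by
  by_cases h : s = 0
  · rw [h, Cur_297.inv1_zero, rat_zero]
  · rw [Cur_297.inv1_ne h, rat_ne h, one_div]

theorem kk0 {c : Cv P} (h : tt c ≠ ∞) : kk c = Cur_297.kap0 P (Cur_297.tv c) (Cur_297.yv c) := by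
  conv_lhs => rw [← Cur_297.mk0_eq h]
  rfl

theorem kk1 {c : Cv P} (h : tt c ≠ ((0 : ℂ) : P1)) :
    kk c = Cur_297.kap1 P (Cur_297.sv c) (Cur_297.vv c) := by
  conv_lhs => rw [← Cur_297.mk1_eq h]
  rfl

theorem kap_A {a y : ℂ} (ha : a ≠ 0) : (if a = 0 then ∞ else ((y / a : ℂ) : P1)) = rat y a := by
  rw [if_neg ha, rat_ne ha]

theorem kap_B {a b y : ℂ} (hb : b ≠ 0) (hy : y ^ 2 = a * b) :
    (if a = 0 then ∞ else ((y / a : ℂ) : P1)) = rat b y := by
  by_cases ha : a = 0
  · rw [if_pos ha]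
    rw [ha, zero_mul] at hy
    rw [pow_eq_zero_iff two_ne_zero |>.1 hy, rat_zero]
  · have hy0 : y ≠ 0 := by
      rintro rfl
      rw [zero_pow two_ne_zero] at hy
      exact mul_ne_zero ha hb hy.symm
    rw [if_neg ha, rat_ne hy0]
    congr 1
    field_simp
    linear_combination hy

/-- `y = B(t)/κ` where `κ ≠ 0` -/
theorem yv_B {c : Cv P} (h : tt c ≠ ∞) (hk : kk c ≠ ((0 : ℂ) : P1)) :
    Cur_297.yv c = P.BB (Cur_297.tv c) * iv (kk c) := by
  have hc := Cur_297.eqn c
  rw [Cur_297.tt_eq h] at hc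
  unfold Cur_297.yv
  by_cases hk' : kk c = ∞
  · rw [hk', Cur_297.fin_infty, iv_inf, zero_mul, mul_zero]
  · rw [← Cur_297.coe_fin hk', Cur_297.eqn_coe_coe] at hc
    have h0 : Cur_297.fin (kk c) ≠ 0 := by
      intro h0
      apply hk
      rw [← Cur_297.coe_fin hk', h0]
    rw [← Cur_297.coe_fin hk', iv_coe, ← hc, Cur_297.fin_coe]
    field_simp

section back

variable {n : ℕ} {X : Type} [TopologicalSpace X] {F : Fam n X} {γ : X → Cv P} {x : X}

theorem hfa_tv (hT : HP F (fun y => tt (γ y)) x) (h : tt (γ x) ≠ ∞) :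
    HFA F (fun y => Cur_297.tv (γ y)) x := by
  refine (hT.nn h).congr ?_
  filter_upwards [hT.contAt.eventually_ne h] with y hy
  exact tv_nn hy

theorem hfa_sv (hT : HP F (fun y => tt (γ y)) x) (h : tt (γ x) ≠ ((0 : ℂ) : P1)) :
    HFA F (fun y => Cur_297.sv (γ y)) x :=
  (hT.iv h).congr (Eventually.of_forall fun _ => sv_iv _)

theorem hfa_yv (hT : HP F (fun y => tt (γ y)) x) (hK : HP F (fun y => kk (γ y)) x)
    (h : tt (γ x) ≠ ∞) : HFA F (fun y => Cur_297.yv (γ y)) x := by
  have h1 := hfa_tv hT h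
  by_cases hk : kk (γ x) = ∞
  · have hk0 : kk (γ x) ≠ ((0 : ℂ) : P1) := by rw [hk]; exact OnePoint.infty_ne_coe _
    have h2 : HFA F (fun y => P.BB (Cur_297.tv (γ y))) x :=
      HFA.comp_left (g := P.BB) (P.differentiable_BB _) h1
    refine (h2.mul (hK.iv hk0)).congr ?_
    filter_upwards [hT.contAt.eventually_ne h, hK.contAt.eventually_ne hk0] with y h3 h4
    exact yv_B h3 h4
  · have h2 : HFA F (fun y => P.AA (Cur_297.tv (γ y))) x :=
      HFA.comp_left (g := P.AA) (P.differentiable_AA _) h1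
    refine ((hK.nn hk).mul h2).congr ?_
    filter_upwards [hK.contAt.eventually_ne hk] with y h4
    unfold Cur_297.yv
    congr 1
    rw [← Cur_297.coe_fin h4]
    rfl

end back

theorem k_back {n : ℕ} {X : Type} [TopologicalSpace X] (F : Fam n X) (γ : X → Cv P) (x : X)
    (_ : ContinuousAt γ x) (hT : HP F (fun y => tt (γ y)) x) (hK : HP F (fun y => kk (γ y)) x)
    (c : Cv P) (hx : γ x ∈ ((cur P).k c).source) : HFA F (fun y => (cur P).k c (γ y)) x := by
  by_cases h : tt c ≠ ∞
  · have h1 : tt (γ x) ≠ ∞ := Cur_297.k_source0 h hx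
    by_cases h0 : Cur_297.yv c = 0
    · refine (hfa_yv hT hK h1).congr ?_
      filter_upwards [hT.contAt.eventually_ne h1] with y hy
      exact Cur_297.k_apply_y h h0 hy
    · refine ((hfa_tv hT h1).sub (HFA.const (Cur_297.tv c) x)).congr ?_
      filter_upwards [hT.contAt.eventually_ne h1] with y hy
      exact Cur_297.k_apply_t h h0 hy
  · have h1 : tt (γ x) ≠ ((0 : ℂ) : P1) := Cur_297.k_source1 h hx
    refine (hfa_sv hT h1).congr ?_
    filter_upwards [hT.contAt.eventually_ne h1] with y hy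
    exact Cur_297.k_apply_s h hy

theorem hp_T (c : Cv P) (s : ℂ) (hs : s ∈ ((cur P).k c).target) :
    HP cFam (fun s => tt (((cur P).k c).symm s)) s := by
  by_cases h0 : tt (((cur P).k c).symm s) ≠ ∞
  · have h1 : HFA cFam (fun z => Cur_297.tv (((cur P).k c).symm z)) s :=
      hfa_c.2 (Cur_297.R0 c hs h0).f_an.differentiableAt
    refine (hP_coe h1).congr ?_
    filter_upwards [Cur_297.ev_source hs Cur_297.isOpen_ne_inf h0] with z hz
    exact Cur_297.tt_eq hz
  · have h0' : tt (((cur P).k c).symm s) ≠ ((0 : ℂ) : P1) :=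
      Cur_297.ne_zero_of_inf (not_not.1 h0)
    have h1 : HFA cFam (fun z => Cur_297.sv (((cur P).k c).symm z)) s :=
      hfa_c.2 (Cur_297.R1 c hs h0').f_an.differentiableAt
    refine (hP_rat (HFA.const 1 s) h1 (Or.inl one_ne_zero)).congr ?_
    filter_upwards [Cur_297.ev_source hs Cur_297.isOpen_ne_zero h0'] with z hz
    rw [← inv1_rat]
    exact (Cur_297.inv1_finv hz).symm

theorem hp_K (c : Cv P) (s : ℂ) (hs : s ∈ ((cur P).k c).target) :
    HP cFam (fun s => kk (((cur P).k c).symm s)) s := by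
  by_cases h0 : tt (((cur P).k c).symm s) ≠ ∞
  · have ht : HFA cFam (fun z => Cur_297.tv (((cur P).k c).symm z)) s :=
      hfa_c.2 (Cur_297.R0 c hs h0).f_an.differentiableAt
    have hy : HFA cFam (fun z => Cur_297.yv (((cur P).k c).symm z)) s :=
      hfa_c.2 (Cur_297.R0 c hs h0).g_an.differentiableAt
    have hev := Cur_297.ev_source hs Cur_297.isOpen_ne_inf h0
    have hA : HFA cFam (fun z => P.AA (Cur_297.tv (((cur P).k c).symm z))) s :=
      HFA.comp_left (g := P.AA) (P.differentiable_AA _) ht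
    have hB : HFA cFam (fun z => P.BB (Cur_297.tv (((cur P).k c).symm z))) s :=
      HFA.comp_left (g := P.BB) (P.differentiable_BB _) ht
    by_cases hA0 : P.AA (Cur_297.tv (((cur P).k c).symm s)) = 0
    · have hB0 := P.BB_ne hA0
      refine (hP_rat hB hy (Or.inl hB0)).congr ?_
      filter_upwards [hev, hB.continuousAt.eventually_ne hB0] with z h1 h2
      refine (kk0 h1).trans (kap_B h2 ?_)
      exact (Cur_297.yv_sq h1).trans (P.AA_mul_BB _).symm
    · refine (hP_rat hy hA (Or.inr hA0)).congr ?_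
      filter_upwards [hev, hA.continuousAt.eventually_ne hA0] with z h1 h2
      exact (kk0 h1).trans (kap_A h2)
  · have h0' : tt (((cur P).k c).symm s) ≠ ((0 : ℂ) : P1) :=
      Cur_297.ne_zero_of_inf (not_not.1 h0)
    have ht : HFA cFam (fun z => Cur_297.sv (((cur P).k c).symm z)) s :=
      hfa_c.2 (Cur_297.R1 c hs h0').f_an.differentiableAt
    have hy : HFA cFam (fun z => Cur_297.vv (((cur P).k c).symm z)) s :=
      hfa_c.2 (Cur_297.R1 c hs h0').g_an.differentiableAt
    have hev := Cur_297.ev_source hs Cur_297.isOpen_ne_zero h0'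
    have hA : HFA cFam (fun z => P.At (Cur_297.sv (((cur P).k c).symm z))) s :=
      HFA.comp_left (g := P.At) (P.differentiable_At _) ht
    have hB : HFA cFam (fun z => P.Bt (Cur_297.sv (((cur P).k c).symm z))) s :=
      HFA.comp_left (g := P.Bt) (P.differentiable_Bt _) ht
    by_cases hA0 : P.At (Cur_297.sv (((cur P).k c).symm s)) = 0
    · have hB0 := P.Bt_ne hA0
      refine (hP_rat hB hy (Or.inl hB0)).congr ?_
      filter_upwards [hev, hB.continuousAt.eventually_ne hB0] with z h1 h2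
      refine (kk1 h1).trans (kap_B h2 ?_)
      exact (Cur_297.vv_sq h1).trans (P.At_mul_Bt _).symm
    · refine (hP_rat hy hA (Or.inr hA0)).congr ?_
      filter_upwards [hev, hA.continuousAt.eventually_ne hA0] with z h1 h2
      exact (kk1 h1).trans (kap_A h2)

theorem w_eq (c : Cv P) : (cur P).w c = Cur_297.om c 0 := Cur_297.deriv_G c (Cur_297.zero_mem c)

/-- **the curve of helper297** -/
theorem ch_cur (P : Par) : CH (cur P) where
  hT := hp_T
  hK := hp_K
  back := k_back
  w0 c := by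
    rw [w_eq]
    by_cases h : tt c ≠ ∞
    · rw [Cur_297.om_zero0 h]
      simp only [h, ne_eq, not_false_eq_true, iff_true]
      have := Cur_297.m0_ne (Cur_297.ch0 (Cur_297.aq c h))
      simpa [Cur_297.la] using this
    · rw [Cur_297.om_zero1 h]
      simp only [h, iff_false]
      simp [Cur_297.lb]
  w1 c := by
    rw [w_eq]
    by_cases h : tt c ≠ ∞
    · rw [Cur_297.om_zero0 h]
      have := Cur_297.m0_ne (Cur_297.ch0 (Cur_297.aq c h))
      have h2 : tt c = ((0 : ℂ) : P1) ↔ Cur_297.tv c = 0 := by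
        rw [Cur_297.tt_eq h]
        exact ⟨fun e => OnePoint.coe_injective e, fun e => by rw [e]⟩
      rw [ne_eq, ne_eq, h2]
      simp [Cur_297.la, this]
    · rw [Cur_297.om_zero1 h]
      have := Cur_297.m0_ne (Cur_297.ch1 (Cur_297.bq c (Cur_297.nz h)))
      have h2 : tt c ≠ ((0 : ℂ) : P1) := Cur_297.nz h
      simp only [h2, ne_eq, not_false_eq_true, iff_true]
      simpa [Cur_297.lb] using this
  tv0 c h := by
    show (cur P).w c 1 / (cur P).w c 0 = _
    rw [w_eq, Cur_297.om_zero0 h, ← tv_nn h]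
    have := Cur_297.m0_ne (Cur_297.ch0 (Cur_297.aq c h))
    simp only [Cur_297.la, Pi.smul_apply, smul_eq_mul]
    simp
    field_simp
  iv _ := rfl

end

end Crest.Agent.R272.Tp8_60
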