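import Crest.Agent.R272.Tq9_916
import Crest.Agent.R272.PEnd8_732
import Crest.Agent.R272.Tq2_916

/-!
# R272 (S0415), MOD-TP (helper916): the swap at the base cluster point

`SymL A L s` : the local data are symmetric under the involution `s`; `SymL.swp` : 732's `Swp`,
`s • (standard point σ) = standard point (swA σ)`;
`exists_locS` : symmetric local data at the base cluster point.
-/

set_option autoImplicit false
set_option linter.unusedSectionVars false

open Set Filter Topology OnePoint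

namespace Crest.Agent.R272.Tq10_916

open Crest.Agent.R275.Geo Crest.Agent.R273.Fam_835 Crest.Agent.R272.FamP_54
open Crest.Agent.R272.HFam_342 Crest.Agent.R272.Tp1_60 Crest.Agent.R272.Refl_246
open Crest.Agent.R272.Tp2_60 hiding Amb
open Crest.Agent.R272.Tp3_60 Crest.Agent.R272.Tp4_60
open Crest.Agent.R272.Tp5_60 Crest.Agent.R272.SubF_54 Crest.Agent.R272.Tp6_60
open Crest.Agent.R272.Tq1_916 Crest.Agent.R272.Tq3_916 Crest.Agent.R272.Tq4_916
  Crest.Agent.R272.Tq8_916 Crest.Agent.R272.Tq9_916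
open Crest.Agent.R272.Cur_297 (Par Cv tt kk cur continuous_tt)
open Crest.Agent.R272.P1A_54 (ambFam holF_iff)
open Crest.Agent.R272.Gr_559 (GData)
open Crest.Agent.R272.Gr_559.GData (Amb)
open Crest.Agent.R272.P1F_54 (mulP)
open Crest.Agent.R272.Act_302 (GAct)
open Crest.Agent.R272.Quot_783 (HolF)

noncomputable section

theorem mulP_eq (a b : ℂ) (t : P1) : mulP a b t = mob a 0 0 b t := by
  unfold mulP mob
  rw [rat_eq]
  congr 1
  · show a * nn t = _
    ring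
  · show b * dd t = _
    ring

theorem mob_comp {α β γ δ α' β' γ' δ' x y z w : ℂ} (h : α * δ - β * γ ≠ 0)
    (h1 : α' * α + β' * γ = x) (h2 : α' * β + β' * δ = y) (h3 : γ' * α + δ' * γ = z)
    (h4 : γ' * β + δ' * δ = w) (t : P1) :
    mob α' β' γ' δ' (mob α β γ δ t) = mob x y z w t := by
  subst h1; subst h2; subst h3; subst h4
  unfold mob
  obtain ⟨c, hc, e1, e2⟩ := exists_rat (mob_ne h t)
  rw [← rat_mul hc]
  congr 1
  · linear_combination -α' * e1 - β' * e2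
  · linear_combination -γ' * e1 - δ' * e2

theorem mob_scale {k α β γ δ : ℂ} (hk : k ≠ 0) (t : P1) :
    mob (k * α) (k * β) (k * γ) (k * δ) t = mob α β γ δ t := by
  unfold mob
  rw [show k * α * nn t + k * β * dd t = k * (α * nn t + β * dd t) by ring,
    show k * γ * nn t + k * δ * dd t = k * (γ * nn t + δ * dd t) by ring, rat_mul hk]

variable {N : Type} [TopologicalSpace N] {F : Fam 3 N} {P : Par} {D : GData F} {G : Type}
  [Group G] [MulAction G N]

/-- the local data are symmetric under `s` -/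
structure SymL (A : GAct D G) (L : Loc P N) (s : G) : Prop where
  σ : A.σ s = Equiv.swap 0 1
  src : ∀ z ∈ L.sh.source, s • z ∈ L.sh.source
  sh : ∀ z ∈ L.sh.source, L.sh (s • z) = ((L.sh z).1, (L.sh z).2.2, (L.sh z).2.1)
  a : ∀ z ∈ L.sh.source, L.a (s • z) = A.j0 s z * L.a z
  b : ∀ z ∈ L.sh.source, ∀ i, L.b (A.σ s i) (s • z) = A.j s i z * L.b i z
  m : ∀ z ∈ L.sh.source, ∀ i, L.m (A.σ s i) (s • z) * A.q s i z = A.p s i z * L.m i z

variable {A : GAct D G} {L : Loc P N} {s : G}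

theorem tm_smul {a b a' b' j j0 : ℂ} (ha : a ≠ 0) (hb : b ≠ 0) (h1 : a' = j0 * a)
    (h2 : b' = j * b) (T : P1) : mulP j j0 (tm P a b T) = tm P a' b' T := by
  rw [mulP_eq]
  unfold tm
  subst h1; subst h2
  refine mob_comp ?_ (by ring) (by ring) (by ring) (by ring) T
  rw [mul_zero, sub_zero]
  exact mul_ne_zero hb ha

theorem vm_smul {a β a' β' e jv j0 : ℂ} (ha : a ≠ 0) (hb : β ≠ 0) (h1 : a' = j0 * a)
    (h2 : β' = jv * β) (V : P1) : mulP jv j0 (vm a β e V) = vm a' β' e V := by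
  rw [mulP_eq]
  unfold vm
  subst h1; subst h2
  refine mob_comp ?_ (by ring) (by ring) (by ring) (by ring) V
  rw [mul_zero, sub_zero]
  exact mul_ne_zero hb ha

theorem km_smul {m m' p q : ℂ} (hm : m ≠ 0) (hq : q ≠ 0) (h : m' * q = p * m) (K : P1) :
    mulP p q (km m K) = km m' K := by
  rw [mulP_eq]
  unfold km
  have e : mob m' 0 0 1 K = mob (q * m') (q * 0) (q * 0) (q * 1) K := (mob_scale hq K).symm
  rw [e]
  refine mob_comp ?_ (by linear_combination -h) (by ring) (by ring) (by ring) K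
  simpa using hm

/-- **the swap in standard coordinates** -/
theorem SymL.swp (h : SymL A L s) : PEnd8_732.Swp A L s univ := by
  intro σ hσ ht _
  have hz := L.sh.map_target ht
  set z := L.sh.symm σ.1 with hzd
  have e0 : L.sh z = σ.1 := L.sh.right_inv ht
  have e1 := h.sh z hz
  rw [e0] at e1
  have hs := h.src z hz
  have ht' : (swA σ).1 ∈ L.sh.target := by
    have := L.sh.map_source hs
    rw [e1] at this
    exact this
  have e2 : L.sh.symm (swA σ).1 = s • z := by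
    have := L.sh.left_inv hs
    rw [e1] at this
    exact this
  refine ⟨ht', ?_⟩
  have ha := L.a0 z hz
  have hb := L.b0 0 z hz
  have hb' := L.b0 1 z hz
  have s0 : A.σ s 0 = 1 := by rw [h.σ]; rfl
  have s1 : A.σ s 1 = 0 := by rw [h.σ]; rfl
  have b0 := h.b z hz 0
  have b1 := h.b z hz 1
  have m0 := h.m z hz 0
  have m1 := h.m z hz 1
  rw [s0] at b0 m0
  rw [s1] at b1 m1
  refine GAct.amb_ext (A.σ s) ?_ (fun i => ?_) ?_ (fun i => ?_)
  · show s • z = L.sh.symm (swA σ).1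
    exact e2.symm
  · rw [A.act_t]
    fin_cases i
    · show mulP (A.j s 0 z) (A.j0 s z) (tm P (L.a z) (L.b 0 z) (tt σ.2.1)) =
        (toA N (L.fro (swA σ))).2.1 (A.σ s 0)
      rw [s0]
      show _ = tm P (L.a (L.sh.symm (swA σ).1)) (L.b 1 (L.sh.symm (swA σ).1)) (tt σ.2.1)
      rw [e2]
      exact tm_smul ha hb (h.a z hz) b0 _
    · show mulP (A.j s 1 z) (A.j0 s z) (tm P (L.a z) (L.b 1 z) (tt σ.2.2.1)) =
        (toA N (L.fro (swA σ))).2.1 (A.σ s 1)
      rw [s1]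
      show _ = tm P (L.a (L.sh.symm (swA σ).1)) (L.b 0 (L.sh.symm (swA σ).1)) (tt σ.2.2.1)
      rw [e2]
      exact tm_smul ha hb' (h.a z hz) b1 _
  · rw [A.act_v]
    show mulP (A.jv s z) (A.j0 s z) (vm (L.a z) (L.b 0 z * L.b 1 z) (Loc.ee P σ.1) σ.2.2.2) =
      vm (L.a (L.sh.symm (swA σ).1)) (L.b 0 (L.sh.symm (swA σ).1) * L.b 1 (L.sh.symm (swA σ).1))
        (Loc.ee P (swA σ).1) σ.2.2.2
    rw [e2]
    have ee : Loc.ee P (swA σ).1 = Loc.ee P σ.1 := by
      unfold Loc.ee swA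
      ring
    rw [ee]
    refine vm_smul ha (mul_ne_zero hb hb') (h.a z hz) ?_ _
    rw [b0, b1]
    unfold GAct.jv
    ring
  · rw [A.act_k]
    fin_cases i
    · show mulP (A.p s 0 z) (A.q s 0 z) (km (L.m 0 z) (kk σ.2.1)) =
        (toA N (L.fro (swA σ))).2.2.2 (A.σ s 0)
      rw [s0]
      show _ = km (L.m 1 (L.sh.symm (swA σ).1)) (kk σ.2.1)
      rw [e2]
      exact km_smul (L.m0 0 z hz) (A.q_ne s 0 z) m0 _
    · show mulP (A.p s 1 z) (A.q s 1 z) (km (L.m 1 z) (kk σ.2.2.1)) =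
        (toA N (L.fro (swA σ))).2.2.2 (A.σ s 1)
      rw [s1]
      show _ = km (L.m 0 (L.sh.symm (swA σ).1)) (kk σ.2.2.1)
      rw [e2]
      exact km_smul (L.m0 1 z hz) (A.q_ne s 1 z) m1 _

/-! ### existence of symmetric local data -/

theorem freq_line {sh : OpenPartialHomeomorph N (ℂ × ℂ × ℂ)} {z : N} (hz : z ∈ sh.source)
    (v : ℂ × ℂ × ℂ) {p : ℂ × ℂ × ℂ → Prop} (h : ∀ᶠ ε in 𝓝[≠] (0 : ℂ), p (sh z + ε • v)) :
    ∃ᶠ y in 𝓝 z, p (sh y) := by
  have h0 : Tendsto (fun ε : ℂ => sh z + ε • v) (𝓝 0) (𝓝 (sh z)) := by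
    have : ContinuousAt (fun ε : ℂ => sh z + ε • v) 0 := by fun_prop
    have h5 := this.tendsto
    simp only [zero_smul, add_zero] at h5
    exact h5
  have hc : Tendsto (fun ε : ℂ => sh.symm (sh z + ε • v)) (𝓝[≠] 0) (𝓝 z) := by
    have h1 := sh.continuousAt_symm (sh.map_source hz)
    unfold ContinuousAt at h1
    rw [sh.left_inv hz] at h1
    exact (h1.comp h0).mono_left nhdsWithin_le_nhds
  have h2 : ∀ᶠ ε in 𝓝[≠] (0 : ℂ), sh z + ε • v ∈ sh.target :=
    nhdsWithin_le_nhds (h0.eventually (sh.open_target.mem_nhds (sh.map_source hz)))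
  have h3 : ∀ᶠ ε in 𝓝[≠] (0 : ℂ), p (sh (sh.symm (sh z + ε • v))) := by
    filter_upwards [h, h2] with ε a b
    rw [sh.right_inv b]
    exact a
  exact hc.frequently h3.frequently

theorem eq_of_freq {z : N} {f g h : N → ℂ} (hf : ContinuousAt f z) (hg : ContinuousAt g z)
    (hfr : ∃ᶠ y in 𝓝 z, h y ≠ 0) (he : ∀ᶠ y in 𝓝 z, f y * h y = g y * h y) : f z = g z := by
  by_contra hne
  have h1 : ∀ᶠ y in 𝓝 z, f y - g y ≠ 0 := (hf.sub hg).eventually_ne (sub_ne_zero.2 hne)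
  obtain ⟨y, hy1, hy2, hy3⟩ := (hfr.and_eventually (he.and h1)).exists
  exact hy3 (sub_eq_zero.2 (mul_right_cancel₀ hy1 hy2))

theorem ne_line (x : ℂ) : ∀ᶠ ε in 𝓝[≠] (0 : ℂ), x + ε ≠ 0 := by
  by_cases hx : x = 0
  · filter_upwards [self_mem_nhdsWithin] with ε hε
    rw [hx, zero_add]
    exact hε
  · refine nhdsWithin_le_nhds ?_
    have hc : ContinuousAt (fun ε : ℂ => x + ε) 0 := by fun_prop
    exact hc.eventually_ne (by simpa using hx)

/-- **symmetric local data at the base cluster point** -/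
theorem exists_locS (A : GAct D G) {p₀ : N} {s : G} (B : P0_939.BPt D P G p₀ s)
    (hσ : A.σ s = Equiv.swap 0 1) {O : Set N} (hO : IsOpen O) (hpO : p₀ ∈ O) :
    ∃ L : Loc P N, SymL A L s ∧ HLoc F L ∧ p₀ ∈ L.sh.source ∧
      L.sh.source ⊆ O ∩ B.p.U ∩ B.p'.U ∧ L.sh p₀ = 0 ∧
      (∀ z ∈ L.sh.source, L.sh z = (B.p.s0 z, B.p.s1 z, B.p'.s1 z) ∧ L.a z = B.p.a z ∧
        L.a z = B.p'.a z ∧ L.b 0 z = B.p.b z ∧ L.b 1 z = B.p'.b z ∧
        L.m 0 z ^ 2 * B.p.w z = B.p.u z ∧ L.m 1 z ^ 2 * B.p'.w z = B.p'.u z) ∧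
      ∀ y : E6 N, y.1 ∈ L.sh.source → (toA N y ∈ D.X1 ↔ RelX L y) := by
  obtain ⟨L0, q1, q2, q3, q4, q5, q6, q7⟩ := Tq2_916.exists_loc D P B.p B.p' B.s0_eq B.c_eq
    B.c'_eq B.snc B.f0_zero (B.x_zero 0) (B.x_zero 1) hO hpO
  set p := B.p with hp
  set p' := B.p' with hp'
  have hsc : Continuous fun z : N => s • z := (A.hol s).cont
  have hss : ∀ z : N, s • s • z = z := fun z => by rw [← mul_smul, B.s_sq, one_smul]
  set W : Set N := L0.sh.source ∩ (fun z => s • z) ⁻¹' L0.sh.source with hW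
  have hWo : IsOpen W := L0.sh.open_source.inter (L0.sh.open_source.preimage hsc)
  have hWs : ∀ z ∈ W, s • z ∈ W := fun z hz => ⟨hz.2, by
    show s • s • z ∈ L0.sh.source
    rw [hss]; exact hz.1⟩
  have hpW : p₀ ∈ W := ⟨q1, by
    show s • p₀ ∈ L0.sh.source
    rw [B.s_fix]; exact q1⟩
  have s0 : A.σ s 0 = 1 := by rw [hσ]; rfl
  have s1 : A.σ s 1 = 0 := by rw [hσ]; rfl
  have hU : ∀ {f : N → ℂ}, HolF F p.U f → HF F p.U f := fun h => (holF_iff p.U_open).1 h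
  have hU' : ∀ {f : N → ℂ}, HolF F p'.U f → HF F p'.U f := fun h => (holF_iff p'.U_open).1 h
  have hV : ∀ {f : N → ℂ}, HolF F univ f → ∀ z, HFA F f z :=
    fun h z => (holF_iff isOpen_univ).1 h z trivial
  have mU : ∀ z ∈ W, z ∈ p.U := fun z hz => (q2 hz.1).1.2
  have mU' : ∀ z ∈ W, z ∈ p'.U := fun z hz => (q2 hz.1).2
  have hcs : ∀ {f : N → ℂ} {z : N}, ContinuousAt f (s • z) → ContinuousAt (fun y => f (s • y)) z :=
    fun h => ContinuousAt.comp (f := fun y : N => s • y) h hsc.continuousAt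
  have ev : ∀ z ∈ W, ∀ᶠ y in 𝓝 z, y ∈ W := fun z hz => hWo.mem_nhds hz
  have fr1 : ∀ z ∈ W, ∀ v : ℂ × ℂ × ℂ, ∀ {r : ℂ × ℂ × ℂ → Prop},
      (∀ᶠ ε in 𝓝[≠] (0 : ℂ), r (L0.sh z + ε • v)) →
      ∃ᶠ y in 𝓝 z, r (p.s0 y, p.s1 y, p'.s1 y) := by
    intro z hz v r hr
    refine ((freq_line hz.1 v hr).and_eventually (ev z hz)).mono ?_
    rintro y ⟨h1, h2⟩
    rw [← (q4 y h2.1).1]
    exact h1
  -- densities
  have d0 : ∀ z ∈ W, ∃ᶠ y in 𝓝 z, p.s0 y ≠ 0 := fun z hz =>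
    fr1 z hz (1, 0, 0) (r := fun S => S.1 ≠ 0) (by
      simpa using ne_line (L0.sh z).1)
  have d1 : ∀ z ∈ W, ∀ j, ∃ᶠ y in 𝓝 z, p.s1 y - P.c j * p.s0 y ≠ 0 := fun z hz j =>
    fr1 z hz (0, 1, 0) (r := fun S => S.2.1 - P.c j * S.1 ≠ 0) (by
      filter_upwards [ne_line ((L0.sh z).2.1 - P.c j * (L0.sh z).1)] with ε h
      intro h2
      apply h
      simp at h2
      linear_combination h2)
  have d2 : ∀ z ∈ W, ∃ᶠ y in 𝓝 z, p'.s1 y - P.c 5 * p.s0 y ≠ 0 := fun z hz =>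
    fr1 z hz (0, 0, 1) (r := fun S => S.2.2 - P.c 5 * S.1 ≠ 0) (by
      filter_upwards [ne_line ((L0.sh z).2.2 - P.c 5 * (L0.sh z).1)] with ε h
      intro h2
      apply h
      simp at h2
      linear_combination h2)
  have d3 : ∀ z ∈ W, ∀ i j k, ∃ᶠ y in 𝓝 z, (p.s1 y - P.c i * p.s0 y) *
      (p.s1 y - P.c j * p.s0 y) * (p.s1 y - P.c k * p.s0 y) ≠ 0 := fun z hz i j k =>
    fr1 z hz (0, 1, 0) (r := fun S => (S.2.1 - P.c i * S.1) * (S.2.1 - P.c j * S.1) *
      (S.2.1 - P.c k * S.1) ≠ 0) (by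
      filter_upwards [ne_line ((L0.sh z).2.1 - P.c i * (L0.sh z).1),
        ne_line ((L0.sh z).2.1 - P.c j * (L0.sh z).1),
        ne_line ((L0.sh z).2.1 - P.c k * (L0.sh z).1)] with ε h1 h2 h3
      refine mul_ne_zero (mul_ne_zero ?_ ?_) ?_
      · intro h; apply h1; simp at h; linear_combination h
      · intro h; apply h2; simp at h; linear_combination h
      · intro h; apply h3; simp at h; linear_combination h)
  -- transformation laws
  have ea : ∀ z ∈ W, L0.a (s • z) = A.j0 s z * L0.a z := by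
    intro z hz
    refine eq_of_freq (f := fun y => L0.a (s • y)) (g := fun y => A.j0 s y * L0.a y)
      (hcs (q5 _ hz.2).1.continuousAt)
      ((hV (A.j0_hol s) z).continuousAt.mul (q5 z hz.1).1.continuousAt) (d0 z hz) ?_
    filter_upwards [ev z hz] with y hy
    have h1 := A.f0_smul s y
    have hy2 := hWs y hy
    rw [p.ef _ (mU _ hy2), p.ef _ (mU _ hy), B.s0_smul] at h1
    rw [(q4 _ hy2.1).2.1, (q4 _ hy.1).2.1]
    linear_combination h1
  have eb0 : ∀ z ∈ W, L0.b 1 (s • z) = A.j s 0 z * L0.b 0 z := by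
    intro z hz
    refine eq_of_freq (f := fun y => L0.b 1 (s • y)) (g := fun y => A.j s 0 y * L0.b 0 y)
      (hcs ((q5 _ hz.2).2.1 1).continuousAt)
      ((hV (A.j_hol s 0) z).continuousAt.mul ((q5 z hz.1).2.1 0).continuousAt) (d1 z hz 5) ?_
    filter_upwards [ev z hz] with y hy
    have h1 := A.x_smul s 0 y
    have hy2 := hWs y hy
    rw [s0, p'.ex _ (mU' _ hy2), p.ex _ (mU _ hy), B.s0_eq, B.s0_smul, B.s1'_smul, B.c_eq,
      B.c'_eq] at h1
    rw [(q4 _ hy2.1).2.2.2.2.1, (q4 _ hy.1).2.2.2.1]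
    linear_combination h1
  have eb1 : ∀ z ∈ W, L0.b 0 (s • z) = A.j s 1 z * L0.b 1 z := by
    intro z hz
    refine eq_of_freq (f := fun y => L0.b 0 (s • y)) (g := fun y => A.j s 1 y * L0.b 1 y)
      (hcs ((q5 _ hz.2).2.1 0).continuousAt)
      ((hV (A.j_hol s 1) z).continuousAt.mul ((q5 z hz.1).2.1 1).continuousAt) (d2 z hz) ?_
    filter_upwards [ev z hz] with y hy
    have h1 := A.x_smul s 1 y
    have hy2 := hWs y hy
    rw [s1, p.ex _ (mU _ hy2), p'.ex _ (mU' _ hy), B.s0_eq, B.s0_smul, B.s1_smul, B.c_eq,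
      B.c'_eq] at h1
    rw [(q4 _ hy2.1).2.2.2.1, (q4 _ hy.1).2.2.2.2.1]
    linear_combination h1
  have eu : ∀ z ∈ W, p'.u (s • z) = A.p s 0 z ^ 2 * p.u z := by
    intro z hz
    refine eq_of_freq (f := fun y => p'.u (s • y)) (g := fun y => A.p s 0 y ^ 2 * p.u y)
      (hcs (hU' p'.u_hol _ (mU' _ (hWs z hz))).continuousAt)
      (((hV (A.p_hol s 0) z).continuousAt.pow 2).mul (hU p.u_hol _ (mU z hz)).continuousAt)
      (d3 z hz 0 1 2) ?_
    filter_upwards [ev z hz] with y hy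
    have h1 := A.P_smul s 0 y
    have hy2 := hWs y hy
    rw [s0, p'.eP _ (mU' _ hy2), p.eP _ (mU _ hy), B.s0_eq, B.s0_smul, B.s1'_smul, B.c_eq,
      B.c'_eq] at h1
    linear_combination h1
  have ew : ∀ z ∈ W, p'.w (s • z) = A.q s 0 z ^ 2 * p.w z := by
    intro z hz
    refine eq_of_freq (f := fun y => p'.w (s • y)) (g := fun y => A.q s 0 y ^ 2 * p.w y)
      (hcs (hU' p'.w_hol _ (mU' _ (hWs z hz))).continuousAt)
      (((hV (A.q_hol s 0) z).continuousAt.pow 2).mul (hU p.w_hol _ (mU z hz)).continuousAt)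
      (d3 z hz 3 4 5) ?_
    filter_upwards [ev z hz] with y hy
    have h1 := A.Q_smul s 0 y
    have hy2 := hWs y hy
    rw [s0, p'.eQ _ (mU' _ hy2), p.eQ _ (mU _ hy), B.s0_eq, B.s0_smul, B.s1'_smul, B.c_eq,
      B.c'_eq] at h1
    linear_combination h1
  -- the second root
  set m1 : N → ℂ := fun z => A.p s 0 (s • z) / A.q s 0 (s • z) * L0.m 0 (s • z) with hm1
  have em1 : ∀ z ∈ W, m1 z ^ 2 * p'.w z = p'.u z := by
    intro z hz
    have hz2 := hWs z hz
    have h1 := eu _ hz2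
    have h2 := ew _ hz2
    rw [hss] at h1 h2
    have h3 := (q4 _ hz2.1).2.2.2.2.2.1
    have hq := A.q_ne s 0 (s • z)
    rw [h1, h2, ← h3]
    simp only [hm1]
    field_simp
  have hHC : ∀ z, HC F F (fun y : N => s • y) z := fun z => (A.hol s).hC z
  have hm1F : ∀ z ∈ W, HFA F m1 z := by
    intro z hz
    have h1 : HFA F (fun y => A.p s 0 (s • y)) z := hfa_comp (hV (A.p_hol s 0) _) (hHC z)
    have h2 : HFA F (fun y => A.q s 0 (s • y)) z := hfa_comp (hV (A.q_hol s 0) _) (hHC z)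
    have h3 : HFA F (fun y => L0.m 0 (s • y)) z := hfa_comp ((q5 _ hz.2).2.2.1 0) (hHC z)
    exact (h1.div h2 (A.q_ne s 0 _)).mul h3
  have hsrc : ∀ z, z ∈ (L0.sh.restrOpen W hWo).source ↔ z ∈ W := by
    intro z
    rw [OpenPartialHomeomorph.restrOpen_source]
    exact ⟨fun h => h.2, fun h => ⟨h.1, h⟩⟩
  let L : Loc P N :=
    { sh := L0.sh.restrOpen W hWo
      a := L0.a
      b := L0.b
      m := ![L0.m 0, m1]
      ca := fun z hz => (q5 z ((hsrc z).1 hz).1).1.continuousAt.continuousWithinAt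
      cb := fun i z hz => ((q5 z ((hsrc z).1 hz).1).2.1 i).continuousAt.continuousWithinAt
      cm := fun i z hz => by
        fin_cases i
        · exact ((q5 z ((hsrc z).1 hz).1).2.2.1 0).continuousAt.continuousWithinAt
        · exact (hm1F z ((hsrc z).1 hz)).continuousAt.continuousWithinAt
      a0 := fun z hz => L0.a0 z ((hsrc z).1 hz).1
      b0 := fun i z hz => L0.b0 i z ((hsrc z).1 hz).1
      m0 := fun i z hz => by
        fin_cases i
        · exact L0.m0 0 z ((hsrc z).1 hz).1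
        · exact mul_ne_zero (div_ne_zero (A.p_ne _ _ _) (A.q_ne _ _ _))
            (L0.m0 0 _ ((hsrc z).1 hz).2) }
  refine ⟨L, ⟨hσ, ?_, ?_, ?_, ?_, ?_⟩, ⟨?_, ?_, ?_, ?_, ?_⟩, (hsrc _).2 hpW, ?_, q3, ?_, ?_⟩
  · intro z hz
    exact (hsrc _).2 (hWs z ((hsrc z).1 hz))
  · intro z hz
    have hz1 := (hsrc z).1 hz
    show L0.sh (s • z) = ((L0.sh z).1, (L0.sh z).2.2, (L0.sh z).2.1)
    rw [(q4 _ hz1.1).1, (q4 _ hz1.2).1]
    show (p.s0 (s • z), p.s1 (s • z), p'.s1 (s • z)) = (p.s0 z, p'.s1 z, p.s1 z)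
    rw [B.s0_smul, B.s1_smul, B.s1'_smul]
  · intro z hz
    exact ea z ((hsrc z).1 hz)
  · intro z hz i
    fin_cases i
    · show L0.b (A.σ s 0) (s • z) = _
      rw [s0]
      exact eb0 z ((hsrc z).1 hz)
    · show L0.b (A.σ s 1) (s • z) = _
      rw [s1]
      exact eb1 z ((hsrc z).1 hz)
  · intro z hz i
    have hq := A.q_ne s 0 z
    have e1 : m1 (s • z) = A.p s 0 z / A.q s 0 z * L0.m 0 z := by
      simp only [hm1, hss]
    fin_cases i
    · show L.m (A.σ s 0) (s • z) * A.q s 0 z = A.p s 0 z * L0.m 0 z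
      rw [s0]
      show m1 (s • z) * A.q s 0 z = _
      rw [e1]
      field_simp
    · show L.m (A.σ s 1) (s • z) * A.q s 1 z = A.p s 1 z * m1 z
      rw [s1]
      show L0.m 0 (s • z) * A.q s 1 z = _
      have c1 := A.p_mul s s 1 z
      have c2 := A.q_mul s s 1 z
      rw [B.s_sq, A.p_one, s1] at c1
      rw [B.s_sq, A.q_one, s1] at c2
      have hq2 := A.q_ne s 0 (s • z)
      simp only [hm1]
      field_simp
      linear_combination (-L0.m 0 (s • z)) * c2 + L0.m 0 (s • z) * c1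
  · intro z hz
    exact (q5 z ((hsrc z).1 hz).1).1
  · intro i z hz
    exact (q5 z ((hsrc z).1 hz).1).2.1 i
  · intro i z hz
    fin_cases i
    · exact (q5 z ((hsrc z).1 hz).1).2.2.1 0
    · exact hm1F z ((hsrc z).1 hz)
  · intro z hz
    exact (q5 z ((hsrc z).1 hz).1).2.2.2
  · intro S hS j hj
    have : S ∈ L0.sh.target := by
      have h1 : S ∈ (L0.sh.restrOpen W hWo).target := hS
      have h2 := (L0.sh.restrOpen W hWo).map_target h1
      have h3 := (L0.sh.restrOpen W hWo).right_inv h1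
      have h4 : (L0.sh.restrOpen W hWo).symm S ∈ L0.sh.source := ((hsrc _).1 h2).1
      have h5 := L0.sh.map_source h4
      have h6 : L0.sh ((L0.sh.restrOpen W hWo).symm S) = S := h3
      rwa [h6] at h5
    exact q6 S this j hj
  · intro z hz
    exact q2 ((hsrc z).1 hz).1
  · intro z hz
    have hz1 := (hsrc z).1 hz
    obtain ⟨k1, k2, k3, k4, k5, k6, -⟩ := q4 z hz1.1
    exact ⟨k1, k2, k3, k4, k5, k6, em1 z hz1⟩
  · intro y hy
    have hy1 := (hsrc _).1 hy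
    have h1 : toA N y ∈ D.X1 ↔ RelX L0 y := q7 y hy1.1
    have h2 : L0.m 1 y.1 ^ 2 = m1 y.1 ^ 2 := by
      refine mul_right_cancel₀ (p'.w_ne _ (mU' _ hy1)) ?_
      rw [em1 _ hy1]
      exact (q4 _ hy1.1).2.2.2.2.2.2
    rw [h1]
    constructor
    · rintro ⟨r1, r2, v1, v2, c1, c2⟩
      refine ⟨r1, r2, v1, v2, c1, ?_⟩
      rw [h2] at c2
      exact c2
    · rintro ⟨r1, r2, v1, v2, c1, c2⟩
      refine ⟨r1, r2, v1, v2, c1, ?_⟩
      rw [h2]
      exact c2

end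

end Crest.Agent.R272.Tq10_916
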