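import Crest.Agent.R272.Tq10_916
import Crest.Agent.R272.Tp10_60
import Crest.Agent.R272.PEnd9_732

/-!
# R272 (S0415), MOD-TP (helper916): the germ and the zero section from the symmetric local data

`germ_of_L` : 60's `GermE` with a given symmetric `L`;
`exists_germE` : `GermE` together with the pen equations of `L`;
`GermE.swp`, `GermE.zsec` : 732's `Swp` over the ball, 834's `ZSec` for `Γ.g`, `z = zM`.
-/

set_option autoImplicit false
set_option linter.unusedSectionVars false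

open Set Filter Topology OnePoint

namespace Crest.Agent.R272.Tq11_916

open Crest.Agent.R275.Geo Crest.Agent.R273.Fam_835 Crest.Agent.R272.FamP_54
open Crest.Agent.R272.HFam_342 Crest.Agent.R272.Tp1_60 Crest.Agent.R272.Refl_246
open Crest.Agent.R272.Tp2_60 hiding Amb
open Crest.Agent.R272.Tp3_60 Crest.Agent.R272.Tp4_60
open Crest.Agent.R272.Tp5_60 Crest.Agent.R272.SubF_54 Crest.Agent.R272.Tp6_60
open Crest.Agent.R272.Tp7_60 (IsE cpt_E)
open Crest.Agent.R272.Tp9_60 (SwRel act_E sw_DE)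
open Crest.Agent.R272.Tp10_60 (GermE exists_pt)
open Crest.Agent.R272.Tq1_916 Crest.Agent.R272.Tq3_916 Crest.Agent.R272.Tq4_916
  Crest.Agent.R272.Tq8_916 Crest.Agent.R272.Tq9_916 Crest.Agent.R272.Tq10_916
open Crest.Agent.R272.Cur_297 (Par Cv tt kk cur continuous_tt)
open Crest.Agent.R272.P1A_54 (ambFam)
open Crest.Agent.R272.Gr_559 (GData)
open Crest.Agent.R272.Gr_559.GData (Amb)
open Crest.Agent.R272.AJ_956 (Cur)
open Crest.Agent.R272.Idn_834 (Germ sw)
open Crest.Agent.R272.Ax_834 (ZSec)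
open Crest.Agent.R272.Act_302 (GAct)

noncomputable section

variable {N : Type} [TopologicalSpace N] {F : Fam 3 N} {P : Par} {D : GData F} {G : Type}
  [Group G] [MulAction G N] {A : GAct D G} {s : G} {q : N}

theorem _root_.Crest.Agent.R272.Tq10_916.SymL.swRel {L : Loc P N} (h : SymL A L s) {z : N}
    (hz : z ∈ L.sh.source) : SwRel A L s z := by
  have s0 : A.σ s 0 = 1 := by rw [h.σ]; rfl
  have s1 : A.σ s 1 = 0 := by rw [h.σ]; rfl
  have b0 := h.b z hz 0
  have b1 := h.b z hz 1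
  have m0 := h.m z hz 0
  have m1 := h.m z hz 1
  rw [s0] at b0 m0
  rw [s1] at b1 m1
  exact ⟨hz, h.src z hz, h.sh z hz, h.a z hz, b1, b0, m1, m0⟩

/-- 60's germ over given symmetric local data -/
theorem germ_of_L (hsl : IsSl (ambFam F) D.X1 3) {L : Loc P N} (hS : SymL A L s)
    (H : HLoc F L) (hqL : q ∈ L.sh.source) (hLq : L.sh q = 0)
    (hX : ∀ y : E6 N, y.1 ∈ L.sh.source → (toA N y ∈ D.X1 ↔ RelX L y)) (two : s * s = 1)
    (stab : ∀ g : G, g • q = q → g = 1 ∨ g = s) (hpd : PD G q) :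
    ∃ Γ : GermE hsl A P s q, Γ.L = L := by
  obtain ⟨U, hUo, hqU, hUg⟩ := hpd
  have hsig : A.σ s 0 = 1 := by rw [hS.σ]; rfl
  have hsy : L.sh.symm 0 = q := by rw [← hLq]; exact L.sh.left_inv hqL
  have h0t : (0 : ℂ × ℂ × ℂ) ∈ L.sh.target := by rw [← hLq]; exact L.sh.map_source hqL
  have h1 : ∀ᶠ S in 𝓝 (0 : ℂ × ℂ × ℂ), S ∈ L.sh.target ∧ L.sh.symm S ∈ U := by
    have h2 : Tendsto L.sh.symm (𝓝 0) (𝓝 q) := by
      have := L.sh.continuousAt_symm h0t
      rw [ContinuousAt, hsy] at this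
      exact this
    filter_upwards [L.sh.open_target.mem_nhds h0t, h2.eventually (hUo.mem_nhds hqU)]
      with S a c
    exact ⟨a, c⟩
  obtain ⟨r, hr, hb⟩ := Metric.eventually_nhds_iff_ball.1 h1
  have hball : Metric.ball (0 : ℂ × ℂ × ℂ) r ⊆ L.sh.target := fun S hS => (hb S hS).1
  obtain ⟨E, hEs, hE⟩ := exists_EA L hX hr hball (exists_pt P)
  have hIs : ∀ i, IsE L r i (E i) := fun i p hp => by
    rw [hEs] at hp
    obtain ⟨⟨h2, h3⟩, h4⟩ := hE i p hp
    exact ⟨hp, h2, hball h4, h3⟩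
  have hC := Tq7_916.ch P
  have hstab : ∀ (γ : G), ∀ S ∈ Metric.ball (0 : ℂ × ℂ × ℂ) r,
      ∀ S' ∈ Metric.ball (0 : ℂ × ℂ × ℂ) r, γ • L.sh.symm S = L.sh.symm S' →
        γ = 1 ∨ γ = s := by
    intro γ S hS S' hS' he
    refine stab γ (hUg γ _ (hb S hS).2 ?_)
    rw [he]
    exact (hb S' hS').2
  have hfst : ∀ i, ∀ p ∈ DE P r i, ((E i p).1).1 = L.sh.symm (FE P i p).1 := by
    intro i p hp
    rw [(hE i p hp).1.1]
    rfl
  let g : Germ (cur P) (A.fam hsl) G s :=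
    { E := E
      cpt := fun i c c' => cpt_E H hC hsl (hIs i) c c'
      dom := by
        intro i p hp
        have hp' : p ∈ DE P r i := by rw [← hEs]; exact hp
        fin_cases i
        · exact ⟨(hC.w0 _).2 hp'.1, (hC.w0 _).2 hp'.2.1⟩
        · exact ⟨(hC.w1 _).2 hp'.1, (hC.w1 _).2 hp'.2.1⟩
      mem := by
        intro i c hc
        show ((c, (cur P).iv c), (0 : ℂ)) ∈ (E i).source
        rw [hEs]
        fin_cases i
        · have h2 := (hC.w0 c).1 hc
          refine ⟨h2, h2, ?_⟩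
          simpa using hr
        · have h2 := (hC.w1 c).1 hc
          refine ⟨h2, h2, ?_⟩
          simpa using hr
      ov := by
        intro p hp q' hq
        have hp' : p ∈ DE P r 0 := by rw [← hEs]; exact hp
        have hq' : q' ∈ DE P r 1 := by rw [← hEs]; exact hq
        obtain ⟨⟨a1, a2⟩, a3⟩ := hE 0 p hp'
        obtain ⟨⟨b1, b2⟩, b3⟩ := hE 1 q' hq'
        rw [hC.tv0 _ hp'.1, hC.tv0 _ hp'.2.1, ← FE_ov hp' hq']
        constructor
        · intro h
          have h2 : (E 0 p).1 = (E 1 q').1 := congrArg Subtype.val h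
          rw [a1, b1] at h2
          exact fro_inj L a2 (hball a3) b2 (hball b3) ((toA N).injective h2)
        · intro h
          refine Subtype.ext ?_
          show (E 0 p).1 = (E 1 q').1
          rw [a1, b1, h]
      swap_mem := by
        intro i p hp
        show sw p ∈ (E i).source
        have hp' : p ∈ DE P r i := by rw [← hEs]; exact hp
        rw [hEs]
        exact sw_DE hp'
      swap := by
        intro i p hp
        have hp' : p ∈ DE P r i := by rw [← hEs]; exact hp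
        obtain ⟨⟨a1, a2⟩, a3⟩ := hE i p hp'
        obtain ⟨⟨b1, b2⟩, b3⟩ := hE i (sw p) (sw_DE hp')
        refine Subtype.ext ?_
        show A.act s (E i p).1 = (E i (sw p)).1
        rw [a1, b1]
        exact act_E hsig (hball a3) (hball b3) (hS.swRel (L.sh.map_target (hball a3)))
      two := two
      grp := by
        intro γ i j p hp q' hq he
        have hp' : p ∈ DE P r i := by rw [← hEs]; exact hp
        have hq' : q' ∈ DE P r j := by rw [← hEs]; exact hq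
        have h2 : (A.act γ (E i p).1).1 = ((E j q').1).1 :=
          congrArg (fun y : D.X1 => y.1.1) he
        rw [A.act_z, hfst i p hp', hfst j q' hq'] at h2
        exact hstab γ _ (hE i p hp').2 _ (hE j q' hq').2 h2 }
  exact ⟨{ L := L, H := H, q_mem := hqL, sh_q := hLq, hX := hX, r := r, hr := hr, ball := hball,
           sw := fun S hS' => hS.swRel (L.sh.map_target (hball hS')), g := g, src := hEs,
           isE := hIs, stab := hstab }, rfl⟩

/-- **the germ, with the pen equations** -/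
theorem exists_germE (hsl : IsSl (ambFam F) D.X1 3) (B : P0_939.BPt D P G q s)
    (hσ : A.σ s = Equiv.swap 0 1) (hpd : PD G q) {O : Set N} (hO : IsOpen O) (hqO : q ∈ O) :
    ∃ Γ : GermE hsl A P s q, SymL A Γ.L s ∧ Γ.L.sh.source ⊆ O ∩ B.p.U ∩ B.p'.U ∧
      ∀ z ∈ Γ.L.sh.source, Γ.L.sh z = (B.p.s0 z, B.p.s1 z, B.p'.s1 z) ∧ Γ.L.a z = B.p.a z ∧
        Γ.L.a z = B.p'.a z ∧ Γ.L.b 0 z = B.p.b z ∧ Γ.L.b 1 z = B.p'.b z ∧
        Γ.L.m 0 z ^ 2 * B.p.w z = B.p.u z ∧ Γ.L.m 1 z ^ 2 * B.p'.w z = B.p'.u z := by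
  obtain ⟨L, hS, H, h1, h2, h3, h4, h5⟩ := exists_locS A B hσ hO hqO
  obtain ⟨Γ, hΓ⟩ := germ_of_L hsl hS H h1 h3 h5 B.s_sq B.stab hpd
  subst hΓ
  exact ⟨Γ, hS, h2, h4⟩

variable {hsl : IsSl (ambFam F) D.X1 3} (Γ : GermE hsl A P s q)

theorem h0t : (0 : ℂ × ℂ × ℂ) ∈ Γ.L.sh.target := by
  rw [← Γ.sh_q]; exact Γ.L.sh.map_source Γ.q_mem

theorem symm_zero : Γ.L.sh.symm 0 = q := by
  rw [← Γ.sh_q]; exact Γ.L.sh.left_inv Γ.q_mem

/-- the zero section of the germ -/
def zG : Cv P × Cv P → A.X := zM A Γ.L Γ.hX (h0t Γ)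

theorem zG_val (x : Cv P × Cv P) : A.val (zG Γ x) = toA N (Γ.L.fro (zst x)) := rfl

theorem pz_zG (x : Cv P × Cv P) : A.pz (zG Γ x) = q := symm_zero Γ

/-- the zero section in the frames `E i` of the germ -/
theorem zG_E {i : Fin 2} {x : Cv P × Cv P}
    (hx : ((x, 0) : (Cv P × Cv P) × ℂ) ∈ (Γ.g.E i).source) : Γ.g.E i (x, 0) = zG Γ x :=
  (zA_E' Γ.L Γ.hX (h0t Γ) (Γ.isE i) hx).symm

/-- the standard coordinates determine the point over the cluster -/
theorem act_zst (hσ : A.σ s 0 = 1) (x : Cv P × Cv P) :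
    A.act s (toA N (Γ.L.fro (zst x))) = toA N (Γ.L.fro (zst x.swap)) := by
  have hz : (0 : ℂ × ℂ × ℂ) ∈ Metric.ball (0 : ℂ × ℂ × ℂ) Γ.r := Metric.mem_ball_self Γ.hr
  have h := PEnd8_732.swp_of (A := A) (L := Γ.L) (s := s) (V := {q}) hσ (fun z hz' => by
    have h5 := Γ.sw 0 hz
    rw [symm_zero Γ] at h5
    rw [mem_singleton_iff.1 hz']
    exact h5)
  exact (h (zst x) (zst_mem x) (h0t Γ) (symm_zero Γ)).2

/-- **the zero section** -/
theorem zpre (hσ : A.σ s 0 = 1) (stab : ∀ g : G, g • q = q → g = 1 ∨ g = s) :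
    ZPre (cur P) (A.fam hsl) G s (zG Γ) where
  cont := continuous_zA Γ.L Γ.hX (h0t Γ)
  inj := zA_inj Γ.L Γ.hX (h0t Γ)
  imm := imm_zA Γ.L Γ.hX (h0t Γ) (Tq7_916.ch P) Γ.H Γ.hr Γ.ball hsl
  swap x := Subtype.ext (act_zst Γ hσ x)
  grp g x x' h := by
    have h1 := congrArg A.pz h
    rw [A.pz_smul, pz_zG, pz_zG] at h1
    exact stab g h1

/-- **`ZSec`** for 60's germ -/
theorem zsec (hσ : A.σ s 0 = 1) (stab : ∀ g : G, g • q = q → g = 1 ∨ g = s) :
    ZSec Γ.g (zG Γ) :=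
  (zpre Γ hσ stab).zsec Γ.g fun _ _ hx => zG_E Γ hx

end

end Crest.Agent.R272.Tq11_916
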