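import Crest.Agent.R272.Tp1_60
import Crest.Agent.R272.P1A_54
import Crest.Agent.R272.HFam_342
import Crest.Agent.R272.Tp2_60

/-!
# R272 (S0415), MOD-TP (helper916): holomorphic germs with values in `P1`

`HP F p x` : near `x`, `p = [f : g]` with `f`, `g` holomorphic at `x`, not both `0`;
`hp_iff` : `HP F p x ↔ HC F p1Fam p x`; `HP.nn`, `HP.iv`, `HP.mob`, `HP.comp`;
`slFam_liftAt` : holomorphic germs into a submanifold; `hC_amb_iff` : germs into `N × P1^5`.
-/

set_option autoImplicit false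
set_option linter.unusedSectionVars false

open Set Filter Topology OnePoint

namespace Crest.Agent.R272.Tq5_916

open Crest.Agent.R275.Geo Crest.Agent.R273.Fam_835 Crest.Agent.R272.FamP_54
  Crest.Agent.R275.Prod363
  Crest.Agent.R272.P1A_54 Crest.Agent.R272.HFam_342 Crest.Agent.R272.SubF_54
open Crest.Agent.R272.P1F_54 (hmk ps pc ln ld p1Fam ps_cover isOpen_ps hf_pc pinv_pc
  hfa_pc_hmk hmk_mem_ps lnd_ne differentiable_ln differentiable_ld)
open Crest.Agent.R272.Tp1_60
open Crest.Agent.R272.Gr_559.GData (Amb)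

noncomputable section

variable {n m N : ℕ} {X Y Q : Type} [TopologicalSpace X] [TopologicalSpace Y] [TopologicalSpace Q]
  {F : Fam n X} {G : Fam m Y} {H : Fam N Q}

theorem rat_eq_hmk (a b : ℂ) : rat a b = hmk a b := by
  by_cases hb : b = 0
  · rw [hb, rat_zero, P1F_54.hmk_zero]
  · rw [rat_ne hb, P1F_54.hmk_of_ne hb]

/-- germ with values in the projective line -/
def HP (F : Fam n X) (p : X → P1) (x : X) : Prop :=
  ∃ f g : X → ℂ, HFA F f x ∧ HFA F g x ∧ (f x ≠ 0 ∨ g x ≠ 0) ∧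
    ∀ᶠ y in 𝓝 x, p y = rat (f y) (g y)

theorem HFA.compAt {W : Type*} [NormedAddCommGroup W] [NormedSpace ℂ W] {f : Y → W} {p : X → Y}
    {x : X} (hf : HFA G f (p x)) (hp : HC F G p x) : HFA F (fun y => f (p y)) x :=
  FC.comp hf hp

theorem HP.congr {p q : X → P1} {x : X} (h : HP F p x) (he : ∀ᶠ y in 𝓝 x, q y = p y) :
    HP F q x := by
  obtain ⟨f, g, hf, hg, h0, h1⟩ := h
  exact ⟨f, g, hf, hg, h0, by filter_upwards [h1, he] with y a b; rw [b, a]⟩

theorem HP.comp {q : Y → P1} {p : X → Y} {x : X} (hq : HP G q (p x)) (hp : HC F G p x) :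
    HP F (fun y => q (p y)) x := by
  obtain ⟨f, g, hf, hg, h0, h1⟩ := hq
  exact ⟨fun y => f (p y), fun y => g (p y), HFA.compAt hf hp, HFA.compAt hg hp, h0,
    hp.1.eventually h1⟩

theorem HP.of {p : X → P1} {x : X} {f g : X → ℂ} (hf : HFA F f x) (hg : HFA F g x)
    (h0 : f x ≠ 0 ∨ g x ≠ 0) (he : ∀ᶠ y in 𝓝 x, p y = rat (f y) (g y)) : HP F p x :=
  ⟨f, g, hf, hg, h0, he⟩

/-- a finite value -/
theorem HP.of_coe {p : X → P1} {x : X} {f : X → ℂ} (hf : HFA F f x)
    (he : ∀ᶠ y in 𝓝 x, p y = ((f y : ℂ) : P1)) : HP F p x :=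
  ⟨f, fun _ => 1, hf, HFA.const _ _, Or.inr one_ne_zero, he.mono fun y hy => by
    rw [hy, rat_one]⟩

theorem HP.continuousAt {p : X → P1} {x : X} (h : HP F p x) : ContinuousAt p x := by
  obtain ⟨f, g, hf, hg, h0, h1⟩ := h
  refine (ContinuousAt.rat60 hf.continuousAt hg.continuousAt h0).congr ?_
  exact h1.mono fun y hy => hy.symm

theorem HP.hC {p : X → P1} {x : X} (h : HP F p x) : HC F p1Fam p x := by
  have hc := h.continuousAt
  obtain ⟨f, g, hf, hg, h0, he⟩ := h
  obtain ⟨s, hs⟩ := ps_cover (p x)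
  have h1 : (if s then f x else g x) ≠ 0 := by
    rw [he.self_of_nhds, rat_eq_hmk] at hs
    exact (hmk_mem_ps h0 s).1 hs
  refine hC_of_fC (j := s) hc hs ?_
  refine HFA.comp_left (g := oneL) (f := fun y => pc s (p y)) oneL.differentiableAt ?_
  exact (hfa_pc_hmk hf hg s h1).congr (he.mono fun y hy => by rw [hy, rat_eq_hmk])

theorem HP.of_hC {p : X → P1} {x : X} (h : HC F p1Fam p x) : HP F p x := by
  obtain ⟨s, hs⟩ := ps_cover (p x)
  have h1 : HFA F (fun y => pc s (p y)) x := HFA.compAt (hf_pc s _ hs) h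
  have h2 : ∀ᶠ y in 𝓝 x, p y ∈ ps s := h.1.eventually ((isOpen_ps s).mem_nhds hs)
  refine ⟨fun y => ln s (pc s (p y)), fun y => ld s (pc s (p y)),
    HFA.comp_left (g := ln s) (differentiable_ln s).differentiableAt h1,
    HFA.comp_left (g := ld s) (differentiable_ld s).differentiableAt h1, lnd_ne s _, ?_⟩
  filter_upwards [h2] with y hy
  rw [rat_eq_hmk]
  exact (pinv_pc hy).symm

theorem hp_iff {p : X → P1} {x : X} : HP F p x ↔ HC F p1Fam p x := ⟨HP.hC, HP.of_hC⟩

theorem HP.of_holC {p : X → P1} (h : HolC F p1Fam p) (x : X) : HP F p x := HP.of_hC (h.hC x)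

theorem nn_rat {a b : ℂ} (hb : b ≠ 0) : nn (rat a b) = a / b := by rw [rat_ne hb, nn_coe]

theorem iv_rat' {a b : ℂ} : iv (rat a b) = b / a := by
  by_cases hb : b = 0
  · rw [hb, rat_zero, iv_inf, zero_div]
  · rw [rat_ne hb, iv_coe, inv_div]

theorem rat_eq_inf {a b : ℂ} : rat a b = ∞ ↔ b = 0 := by
  constructor
  · intro h
    by_contra hb
    rw [rat_ne hb] at h
    exact OnePoint.coe_ne_infty _ h
  · rintro rfl; exact rat_zero a

theorem rat_eq_zero {a b : ℂ} (h : a ≠ 0 ∨ b ≠ 0) : rat a b = ((0 : ℂ) : P1) ↔ a = 0 := by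
  constructor
  · intro h1
    have hb : b ≠ 0 := by
      rintro rfl
      rw [rat_zero] at h1
      exact OnePoint.infty_ne_coe _ h1
    rw [rat_ne hb] at h1
    have := OnePoint.coe_injective h1
    exact (div_eq_zero_iff.1 this).resolve_right hb
  · rintro rfl
    have hb : b ≠ 0 := by simpa using h
    rw [rat_ne hb, zero_div]

theorem HP.nn {p : X → P1} {x : X} (h : HP F p x) (hx : p x ≠ ∞) :
    HFA F (fun y => nn (p y)) x := by
  obtain ⟨f, g, hf, hg, h0, he⟩ := h
  have hgx : g x ≠ 0 := by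
    intro h1
    rw [he.self_of_nhds, h1, rat_zero] at hx
    exact hx rfl
  refine (hf.div hg hgx).congr ?_
  filter_upwards [he, hg.continuousAt.eventually_ne hgx] with y a b
  rw [a, nn_rat b]

theorem HP.iv {p : X → P1} {x : X} (h : HP F p x) (hx : p x ≠ ((0 : ℂ) : P1)) :
    HFA F (fun y => iv (p y)) x := by
  obtain ⟨f, g, hf, hg, h0, he⟩ := h
  have hfx : f x ≠ 0 := by
    intro h1
    rw [he.self_of_nhds] at hx
    exact hx ((rat_eq_zero h0).2 h1)
  refine (hg.div hf hfx).congr ?_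
  filter_upwards [he, hf.continuousAt.eventually_ne hfx] with y a b
  rw [a, iv_rat']

/-- a function which is `nn ∘ p` near `x`, `p x` finite -/
theorem hp_of_nn {p : X → P1} {x : X} (hc : ∀ᶠ y in 𝓝 x, p y ≠ ∞)
    (h : HFA F (fun y => Tp1_60.nn (p y)) x) : HP F p x :=
  HP.of_coe h (hc.mono fun _ hy => (coe_nn hy).symm)

theorem hp_of_iv {p : X → P1} {x : X} (hc : ∀ᶠ y in 𝓝 x, p y ≠ ((0 : ℂ) : P1))
    (h : HFA F (fun y => Tp1_60.iv (p y)) x) : HP F p x :=
  ⟨fun _ => 1, _, HFA.const _ _, h, Or.inl one_ne_zero, hc.mono fun _ hy => (rat_iv hy).symm⟩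

theorem mob_rat {α β γ δ a b : ℂ} (h : a ≠ 0 ∨ b ≠ 0) :
    mob α β γ δ (rat a b) = rat (α * a + β * b) (γ * a + δ * b) := by
  obtain ⟨c, hc, h1, h2⟩ := exists_rat h
  unfold mob
  rw [← rat_mul hc]
  congr 1
  · linear_combination -α * h1 - β * h2
  · linear_combination -γ * h1 - δ * h2

theorem HP.mob {α β γ δ : X → ℂ} {p : X → P1} {x : X} (h : HP F p x) (hα : HFA F α x)
    (hβ : HFA F β x) (hγ : HFA F γ x) (hδ : HFA F δ x) (hd : α x * δ x - β x * γ x ≠ 0) :
    HP F (fun y => mob (α y) (β y) (γ y) (δ y) (p y)) x := by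
  obtain ⟨f, g, hf, hg, h0, he⟩ := h
  refine ⟨fun y => α y * f y + β y * g y, fun y => γ y * f y + δ y * g y,
    (hα.mul hf).add (hβ.mul hg), (hγ.mul hf).add (hδ.mul hg), ?_, ?_⟩
  · by_contra hc
    push Not at hc
    obtain ⟨h1, h2⟩ := hc
    have h3 : (α x * δ x - β x * γ x) * f x = 0 := by linear_combination δ x * h1 - β x * h2
    have h4 : (α x * δ x - β x * γ x) * g x = 0 := by linear_combination α x * h2 - γ x * h1
    rcases h0 with h5 | h5
    · exact h5 ((mul_eq_zero.1 h3).resolve_left hd)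
    · exact h5 ((mul_eq_zero.1 h4).resolve_left hd)
  · have h0' : ∀ᶠ y in 𝓝 x, f y ≠ 0 ∨ g y ≠ 0 := by
      rcases h0 with h1 | h1
      · exact (hf.continuousAt.eventually_ne h1).mono fun y hy => Or.inl hy
      · exact (hg.continuousAt.eventually_ne h1).mono fun y hy => Or.inr hy
    filter_upwards [he, h0'] with y a b
    rw [a, mob_rat b]

/-! ### germs into products and submanifolds -/

theorem hC_prod_iff {Z : Type} [TopologicalSpace Z] {k : ℕ} {K : Fam k Z} {f : X → Y × Z}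
    {x : X} : HC F (prodFam G K) f x ↔
      HC F G (fun y => (f y).1) x ∧ HC F K (fun y => (f y).2) x := by
  constructor
  · intro h
    exact ⟨HC.comp ((prod_fst (F := G) (G := K)).hC _) h,
      HC.comp ((prod_snd (F := G) (G := K)).hC _) h⟩
  · rintro ⟨h1, h2⟩
    obtain ⟨i, hi⟩ := F.cover x
    obtain ⟨j, hj⟩ := G.cover (f x).1
    obtain ⟨l, hl⟩ := K.cover (f x).2
    have hc : ContinuousAt f x := h1.1.prodMk h2.1
    refine hC_of_fC (j := (j, l)) hc ⟨hj, hl⟩ ?_
    have a1 : HFA F (fun y => G.e j (f y).1) x := HFA.compAt (hfa_chart hj) h1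
    have a2 : HFA F (fun y => K.e l (f y).2) x := HFA.compAt (hfa_chart hl) h2
    intro i' hi'
    have b1 := a1 i' hi'
    have b2 := a2 i' hi'
    exact DifferentiableAt.comp (F.e i' x) (g := appL m k) (appL m k).differentiableAt
      (b1.prodMk b2)

theorem hC_tran {h : X ≃ₜ Y} {K : Fam m Y} {f : Q → X} {x : Q} :
    HC H (tranH h K) f x ↔ HC H K (fun y => h (f y)) x := by
  constructor
  · intro h1
    exact HC.comp ((tranH_hol h K).hC _) h1
  · intro h1
    have h2 := HC.comp (q := h.symm) ((tranH_symm_hol h K).hC _) h1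
    refine h2.congr (Eventually.of_forall fun y => ?_)
    exact h.symm_apply_apply (f y)

theorem hC_two_iff {f : X → Fin 2 → Y} {x : X} :
    HC F (twoFam G) f x ↔ ∀ i, HC F G (fun y => f y i) x := by
  rw [twoFam, hC_tran, hC_prod_iff, Fin.forall_fin_two]
  rfl

theorem hC_amb_iff {f : X → Amb Y} {x : X} : HC F (ambFam G) f x ↔
    HC F G (fun y => (f y).1) x ∧ (∀ i, HP F (fun y => (f y).2.1 i) x) ∧
      HP F (fun y => (f y).2.2.1) x ∧ ∀ i, HP F (fun y => (f y).2.2.2 i) x := by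
  have h : HC F (ambFam G) f x ↔
    HC F (prodFam G (prodFam (twoFam p1Fam) (prodFam p1Fam (twoFam p1Fam)))) f x := Iff.rfl
  rw [h, hC_prod_iff, hC_prod_iff, hC_prod_iff, hC_two_iff, hC_two_iff]
  simp only [hp_iff]

/-- holomorphic germs into a submanifold -/
theorem slFam_liftAt {S : Set X} {k : ℕ} (h : IsSl F S k) {f : Q → S} {x : Q}
    (hf : HC H F (fun x => (f x).1) x) : HC H (slFam h) f x := by
  have hfc : ContinuousAt f x := Topology.IsInducing.subtypeVal.continuousAt_iff.2 hf.1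
  obtain ⟨i, hi⟩ := H.cover x
  refine HC.of hfc i (f x) hi (h.mem_sl (f x)) ?_
  set c := h.sl (f x) with hc
  have hxd : (f x).1 ∈ c.dom := h.mem_sl (f x)
  have h1 : DifferentiableAt ℂ (rc H F (fun x => (f x).1) i c.j) (H.e i x) := hf.2 i c.j hi hxd.1
  have e1 : rc H F (fun x => (f x).1) i c.j (H.e i x) = F.e c.j (f x).1 :=
    rc_apply H F (fun x => (f x).1) c.j hi
  have h2 : DifferentiableAt ℂ c.ψ (F.e c.j (f x).1) :=
    c.dψ.differentiableAt (c.hV.mem_nhds hxd.2)
  exact DifferentiableAt.comp (H.e i x) (g := c.ψ)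
    (f := rc H F (fun x => (f x).1) i c.j) (by rw [e1]; exact h2) h1

theorem slFam_hCAt {S : Set X} {k : ℕ} (h : IsSl F S k) {f : Q → S} {x : Q} :
    HC H (slFam h) f x ↔ HC H F (fun x => (f x).1) x :=
  ⟨fun h1 => HC.comp (q := Subtype.val) ((slFam_hol h).hC _) h1, slFam_liftAt h⟩

end

end Crest.Agent.R272.Tq5_916
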