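import Crest.Agent.R272.Tq5_916
import Crest.Agent.R272.Tq4_916
import Crest.Agent.R272.Cur5_297

/-!
# R272 (S0415), MOD-TP (helper916): the curve of 297 in the language of `HP`

* `hp_tt`, `hp_kk` : `t`, `κ` are holomorphic in the charts `k c`;
* `hfa_k`          : a germ `X → C` with holomorphic `t`, `κ` is holomorphic in the charts `k c`;
* `hfa_dl`, `hfa_nu` : the frames.
-/

set_option autoImplicit false
set_option linter.unusedSectionVars false

open Set Filter Topology OnePoint

namespace Crest.Agent.R272.Tq6_916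

open Crest.Agent.R275.Geo Crest.Agent.R273.Fam_835 Crest.Agent.R272.FamP_54
  Crest.Agent.R272.HFam_342 Crest.Agent.R272.Tq5_916 Crest.Agent.R272.Tq1_916
  Crest.Agent.R272.Tq4_916
open Crest.Agent.R272.Tp1_60
open Crest.Agent.R272.Cur_297 (Par Cv Cset Eqn tt kk continuous_tt continuous_kk k rad k_target
  k_mem k_source0 k_source1 k_apply_s k_apply_t k_apply_y sv tv yv vv kap0 kap1 mk0 mk1 R0 R1
  fin coe_fin)

noncomputable section

variable {P : Par}

/-! ### `κ` in the affine coordinates -/

theorem kk_rat0 {c : Cv P} (h : tt c ≠ ∞) :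
    (P.AA (tv c) ≠ 0 → kk c = rat (yv c) (P.AA (tv c))) ∧
    (P.BB (tv c) ≠ 0 → kk c = rat (P.BB (tv c)) (yv c)) := by
  have e1 : kk c = kap0 P (tv c) (yv c) := by
    conv_lhs => rw [← Cur_297.mk0_eq h]
    rfl
  have e2 : yv c ^ 2 = P.AA (tv c) * P.BB (tv c) := Cur_297.yv_sq h
  rw [e1]
  unfold kap0
  refine ⟨fun hA => ?_, fun hB => ?_⟩
  · rw [if_neg hA, rat_ne hA]
  · by_cases hA : P.AA (tv c) = 0
    · rw [if_pos hA]
      rw [hA, zero_mul] at e2
      rw [pow_eq_zero_iff (two_ne_zero) |>.1 e2, rat_zero]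
    · rw [if_neg hA]
      have hy : yv c ≠ 0 := by
        intro h0
        rw [h0] at e2
        exact mul_ne_zero hA hB (by rw [← e2]; ring)
      rw [rat_ne hy]
      congr 1
      field_simp
      rw [e2]

theorem kk_rat1 {c : Cv P} (h : tt c ≠ ((0 : ℂ) : P1)) :
    (P.At (sv c) ≠ 0 → kk c = rat (vv c) (P.At (sv c))) ∧
    (P.Bt (sv c) ≠ 0 → kk c = rat (P.Bt (sv c)) (vv c)) := by
  have e1 : kk c = kap1 P (sv c) (vv c) := by
    conv_lhs => rw [← Cur_297.mk1_eq h]
    rfl
  have e2 : vv c ^ 2 = P.At (sv c) * P.Bt (sv c) := Cur_297.vv_sq h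
  rw [e1]
  unfold kap1
  refine ⟨fun hA => ?_, fun hB => ?_⟩
  · rw [if_neg hA, rat_ne hA]
  · by_cases hA : P.At (sv c) = 0
    · rw [if_pos hA]
      rw [hA, zero_mul] at e2
      rw [pow_eq_zero_iff (two_ne_zero) |>.1 e2, rat_zero]
    · rw [if_neg hA]
      have hy : vv c ≠ 0 := by
        intro h0
        rw [h0] at e2
        exact mul_ne_zero hA hB (by rw [← e2]; ring)
      rw [rat_ne hy]
      congr 1
      field_simp
      rw [e2]

theorem tt_rat {c : Cv P} (h : tt c ≠ ((0 : ℂ) : P1)) : tt c = rat 1 (sv c) := by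
  have : sv c = iv (tt c) := finv_eq _
  rw [this, rat_iv h]

/-! ### the coordinates in the charts -/

theorem hp_tt (c : Cv P) {s : ℂ} (hs : s ∈ (k c).target) :
    HP cFam (fun z => tt ((k c).symm z)) s := by
  by_cases h : tt ((k c).symm s) ≠ ∞
  · have hR := R0 c hs h
    have hev := Cur_297.ev_source hs Cur_297.isOpen_ne_inf h
    exact HP.of_coe (f := fun z => tv ((k c).symm z)) (hfa_c.2 hR.f_an.differentiableAt)
      (hev.mono fun z hz => Cur_297.tt_eq hz)
  · have h' : tt ((k c).symm s) ≠ ((0 : ℂ) : P1) := Cur_297.nz h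
    have hR := R1 c hs h'
    have hev := Cur_297.ev_source hs Cur_297.isOpen_ne_zero h'
    exact HP.of (f := fun _ => 1) (g := fun z => sv ((k c).symm z)) (HFA.const _ _)
      (hfa_c.2 hR.f_an.differentiableAt) (Or.inl one_ne_zero) (hev.mono fun z hz => tt_rat hz)

theorem hp_kk (c : Cv P) {s : ℂ} (hs : s ∈ (k c).target) :
    HP cFam (fun z => kk ((k c).symm z)) s := by
  by_cases h : tt ((k c).symm s) ≠ ∞
  · have hR := R0 c hs h
    have hev := Cur_297.ev_source hs Cur_297.isOpen_ne_inf h
    have dA : DifferentiableAt ℂ (fun z => P.AA (tv ((k c).symm z))) s :=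
      DifferentiableAt.comp s (g := P.AA) P.differentiable_AA.differentiableAt
        hR.f_an.differentiableAt
    have dB : DifferentiableAt ℂ (fun z => P.BB (tv ((k c).symm z))) s :=
      DifferentiableAt.comp s (g := P.BB) P.differentiable_BB.differentiableAt
        hR.f_an.differentiableAt
    by_cases hA : P.AA (tv ((k c).symm s)) = 0
    · have hB := P.BB_ne hA
      refine HP.of (f := fun z => P.BB (tv ((k c).symm z))) (g := fun z => yv ((k c).symm z))
        (hfa_c.2 dB) (hfa_c.2 hR.g_an.differentiableAt) (Or.inl hB) ?_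
      filter_upwards [hev, dB.continuousAt.eventually_ne hB] with z h1 h2
      exact (kk_rat0 h1).2 h2
    · refine HP.of (f := fun z => yv ((k c).symm z)) (g := fun z => P.AA (tv ((k c).symm z)))
        (hfa_c.2 hR.g_an.differentiableAt) (hfa_c.2 dA) (Or.inr hA) ?_
      filter_upwards [hev, dA.continuousAt.eventually_ne hA] with z h1 h2
      exact (kk_rat0 h1).1 h2
  · have h' : tt ((k c).symm s) ≠ ((0 : ℂ) : P1) := Cur_297.nz h
    have hR := R1 c hs h'
    have hev := Cur_297.ev_source hs Cur_297.isOpen_ne_zero h'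
    have dA : DifferentiableAt ℂ (fun z => P.At (sv ((k c).symm z))) s :=
      DifferentiableAt.comp s (g := P.At) P.differentiable_At.differentiableAt
        hR.f_an.differentiableAt
    have hA : P.At (sv ((k c).symm s)) ≠ 0 := by
      have : sv ((k c).symm s) = 0 := by
        unfold sv; rw [not_not.1 h]; rfl
      rw [this, P.At_zero]
      exact one_ne_zero
    refine HP.of (f := fun z => vv ((k c).symm z)) (g := fun z => P.At (sv ((k c).symm z)))
      (hfa_c.2 hR.g_an.differentiableAt) (hfa_c.2 dA) (Or.inr hA) ?_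
    filter_upwards [hev, dA.continuousAt.eventually_ne hA] with z h1 h2
    exact (kk_rat1 h1).1 h2

/-! ### germs into the curve -/

variable {n : ℕ} {X : Type} [TopologicalSpace X] {F : Fam n X}

theorem fin_eq {t : P1} (h : t ≠ ∞) : fin t = nn t := by
  induction t using OnePoint.rec with
  | infty => exact absurd rfl h
  | coe z => rfl

/-- `y = B(t) / κ` where `κ ≠ 0` -/
theorem yv_iv {c : Cv P} (h : tt c ≠ ∞) (hk : kk c ≠ ((0 : ℂ) : P1)) :
    yv c = iv (kk c) * P.BB (tv c) := by
  have he := Cur_297.eqn c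
  rw [Cur_297.tt_eq h] at he
  unfold yv
  by_cases hi : kk c = ∞
  · rw [hi]; simp
  · have hf := coe_fin hi
    rw [← hf, Cur_297.eqn_coe_coe] at he
    have h0 : fin (kk c) ≠ 0 := by
      intro h1
      rw [h1] at hf
      exact hk hf.symm
    have h2 : iv (kk c) = (fin (kk c))⁻¹ := by rw [inv_nn hi, fin_eq hi]
    rw [h2, ← he]
    field_simp

theorem cont_of_hp {c : X → Cv P} {x : X} (ht : HP F (fun y => tt (c y)) x)
    (hk : HP F (fun y => kk (c y)) x) : ContinuousAt c x :=
  Topology.IsInducing.subtypeVal.continuousAt_iff.2 (ht.continuousAt.prodMk hk.continuousAt)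

theorem hfa_tv {c : X → Cv P} {x : X} (ht : HP F (fun y => tt (c y)) x) (h : tt (c x) ≠ ∞) :
    HFA F (fun y => tv (c y)) x := by
  refine (ht.nn h).congr ?_
  filter_upwards [ht.continuousAt.eventually_ne h] with y hy
  exact fin_eq hy

theorem hfa_yv {c : X → Cv P} {x : X} (ht : HP F (fun y => tt (c y)) x)
    (hk : HP F (fun y => kk (c y)) x) (h : tt (c x) ≠ ∞) : HFA F (fun y => yv (c y)) x := by
  have h1 := hfa_tv ht h
  by_cases hi : kk (c x) = ∞
  · have h0 : kk (c x) ≠ ((0 : ℂ) : P1) := by rw [hi]; exact OnePoint.infty_ne_coe _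
    have h2 : HFA F (fun y => P.BB (tv (c y))) x :=
      HFA.comp_left (g := P.BB) (f := fun y => tv (c y)) P.differentiable_BB.differentiableAt h1
    refine ((hk.iv h0).mul h2).congr ?_
    filter_upwards [ht.continuousAt.eventually_ne h, hk.continuousAt.eventually_ne h0] with y a b
    exact yv_iv a b
  · have h2 : HFA F (fun y => P.AA (tv (c y))) x :=
      HFA.comp_left (g := P.AA) (f := fun y => tv (c y)) P.differentiable_AA.differentiableAt h1
    refine ((hk.nn hi).mul h2).congr ?_
    filter_upwards [hk.continuousAt.eventually_ne hi] with y a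
    show fin (kk (c y)) * P.AA (tv (c y)) = _
    rw [fin_eq a]

/-- **germs into the curve** -/
theorem hfa_k {c : X → Cv P} {x : X} (ht : HP F (fun y => tt (c y)) x)
    (hk : HP F (fun y => kk (c y)) x) (c0 : Cv P) (hx : c x ∈ (k c0).source) :
    HFA F (fun y => k c0 (c y)) x := by
  have hc := cont_of_hp ht hk
  have hev : ∀ᶠ y in 𝓝 x, c y ∈ (k c0).source := hc.eventually ((k c0).open_source.mem_nhds hx)
  by_cases h : tt c0 ≠ ∞
  · have h1 := k_source0 h hx
    by_cases h0 : yv c0 = 0
    · refine (hfa_yv ht hk h1).congr ?_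
      filter_upwards [hev] with y hy
      exact k_apply_y h h0 (k_source0 h hy)
    · refine ((hfa_tv ht h1).sub (HFA.const (tv c0) x)).congr ?_
      filter_upwards [hev] with y hy
      exact k_apply_t h h0 (k_source0 h hy)
  · have h1 := k_source1 h hx
    refine (ht.iv h1).congr ?_
    filter_upwards [hev] with y hy
    rw [k_apply_s h (k_source1 h hy)]
    exact finv_eq _

/-! ### frames -/

theorem hfa_dl {i : Fin 2} {p : X → P1} {x : X} (h : HP F p x) (hp : p x ≠ pole i) :
    HFA F (fun y => dl i (p y)) x := by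
  fin_cases i
  · exact HFA.const _ _
  · exact h.iv hp

theorem hfa_nu {i : Fin 2} {p : X → P1} {x : X} (h : HP F p x) (hp : p x ≠ pole i) :
    HFA F (fun y => nu i (p y)) x := by
  fin_cases i
  · exact h.nn hp
  · exact HFA.const _ _

end

end Crest.Agent.R272.Tq6_916
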