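import Crest.Agent.R272.Tq6_916
import Crest.Agent.R272.Tp7_60

/-!
# R272 (S0415), MOD-TP (helper916): `Tp6_60.CH` for the curve of 297

`ch P : CH (cur P)`.
-/

set_option autoImplicit false
set_option linter.unusedSectionVars false

open Set Filter Topology OnePoint

namespace Crest.Agent.R272.Tq7_916

open Crest.Agent.R275.Geo Crest.Agent.R273.Fam_835 Crest.Agent.R272.FamP_54
  Crest.Agent.R272.HFam_342 Crest.Agent.R272.Tp6_60
open Crest.Agent.R272.Tp1_60 (nn P1)
open Crest.Agent.R272.Cur_297 (Par Cv tt kk cur k rad om la lb sv tv)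
open Crest.Agent.R272.AJ_956 (E2 Cur)

noncomputable section

variable {P : Par}

theorem w_eq (c : Cv P) : (cur P).w c = om c 0 := by
  show deriv (Cur_297.G c) 0 = om c 0
  exact Cur_297.deriv_G c (Cur_297.zero_mem c)

theorem w_fin {c : Cv P} (h : tt c ≠ ∞) : ∃ m : ℂ, m ≠ 0 ∧ (cur P).w c = m • la (tv c) :=
  ⟨_, Cur_297.m0_ne _, by rw [w_eq, Cur_297.om_zero0 h]⟩

theorem w_inf {c : Cv P} (h : ¬ tt c ≠ ∞) : ∃ m : ℂ, m ≠ 0 ∧ (cur P).w c = m • lb 0 :=
  ⟨_, Cur_297.m0_ne _, by rw [w_eq, Cur_297.om_zero1 h]⟩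

theorem tv_zero_iff {c : Cv P} (h : tt c ≠ ∞) : tv c = 0 ↔ tt c = ((0 : ℂ) : P1) := by
  rw [Cur_297.tt_eq h]
  constructor
  · intro h0; rw [h0]
  · intro h0; exact OnePoint.coe_injective h0

/-- **the curve of 297** -/
theorem ch (P : Par) : CH (cur P) where
  hT c s hs := Tq6_916.hp_tt c hs
  hK c s hs := Tq6_916.hp_kk c hs
  back := by
    intro n X _ F γ x _ ht hk c hx
    exact Tq6_916.hfa_k ht hk c hx
  w0 c := by
    constructor
    · intro h0 h
      obtain ⟨m, hm, e⟩ := w_inf (c := c) (not_not.2 h)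
      apply h0
      rw [e]
      simp [lb]
    · intro h
      obtain ⟨m, hm, e⟩ := w_fin h
      rw [e]
      simpa [la] using hm
  w1 c := by
    by_cases h : tt c ≠ ∞
    · obtain ⟨m, hm, e⟩ := w_fin h
      rw [e, show (tt c ≠ ((0 : ℂ) : P1)) ↔ tv c ≠ 0 from not_congr (tv_zero_iff h).symm]
      simp [la, hm]
    · obtain ⟨m, hm, e⟩ := w_inf h
      rw [e]
      constructor
      · intro _
        exact Cur_297.nz h
      · intro _
        simpa [lb] using hm
  tv0 c h := by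
    obtain ⟨m, hm, e⟩ := w_fin h
    show (cur P).w c (1 - 0) / (cur P).w c 0 = nn (tt c)
    rw [e, Cur_297.tt_eq h]
    simp [la, hm]
  iv c := rfl

end

end Crest.Agent.R272.Tq7_916
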