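import Crest.Agent.R272.Tq8_916
import Crest.Agent.R272.Ax4_834
import Crest.Agent.R272.P0Defs_939
import Crest.Agent.R272.Act1_302

/-!
# R272 (S0415), MOD-TP (helper916): the zero section `C × C → X₁` over the base cluster point

`ZPre 𝒞 CY G s z` : all fields of 834's `ZSec` except `germ`; `ZPre.zsec`;
`zA` : the zero section in `X₁`, `zA_E : zA x = E (x, 0)` in all four frames; `zPre`.
-/

set_option autoImplicit false
set_option linter.unusedSectionVars false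

open Set Filter Topology OnePoint

namespace Crest.Agent.R272.Tq9_916

open Crest.Agent.R275.Geo Crest.Agent.R273.Fam_835 Crest.Agent.R272.FamP_54
open Crest.Agent.R272.HFam_342 Crest.Agent.R272.Tp1_60 Crest.Agent.R272.Refl_246
open Crest.Agent.R272.Tp2_60 hiding Amb
open Crest.Agent.R272.Tp3_60 Crest.Agent.R272.Tp4_60
open Crest.Agent.R272.Tp5_60 Crest.Agent.R272.SubF_54 Crest.Agent.R272.Tp6_60
open Crest.Agent.R272.Tq1_916 Crest.Agent.R272.Tq3_916 Crest.Agent.R272.Tq4_916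
  Crest.Agent.R272.Tq8_916
open Crest.Agent.R272.Cur_297 (Par Cv tt kk cur continuous_tt)
open Crest.Agent.R272.P1A_54 (ambFam)
open Crest.Agent.R272.Gr_559 (GData)
open Crest.Agent.R272.Gr_559.GData (Amb)
open Crest.Agent.R272.AJ_956 (Cur)
open Crest.Agent.R272.Idn_834 (Germ)
open Crest.Agent.R272.Ax_834 (ImmW ZSec immW_of_frame)
open Crest.Agent.R272.Act_302 (GAct)

noncomputable section

/-- `ZSec` without `germ` -/
structure ZPre {C : Type} [TopologicalSpace C] (𝒞 : Cur C) {Y : Type} [TopologicalSpace Y]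
    (CY : Fam 3 Y) (G : Type) [Group G] [MulAction G Y] (s : G) (z : C × C → Y) : Prop where
  cont : Continuous z
  inj : Function.Injective z
  imm : ∀ x : C × C, ImmW CY z x (fun y => (𝒞.k x.1 y.1, 𝒞.k x.2 y.2))
  swap : ∀ x, s • z x = z x.swap
  grp : ∀ (g : G) (x x' : C × C), g • z x = z x' → g = 1 ∨ g = s

theorem ZPre.zsec {C : Type} [TopologicalSpace C] {𝒞 : Cur C} {Y : Type} [TopologicalSpace Y]
    {CY : Fam 3 Y} {G : Type} [Group G] [MulAction G Y] {s : G} {z : C × C → Y}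
    (h : ZPre 𝒞 CY G s z) (Ge : Germ 𝒞 CY G s)
    (hg : ∀ i x, ((x, 0) : (C × C) × ℂ) ∈ (Ge.E i).source → Ge.E i (x, 0) = z x) : ZSec Ge z :=
  ⟨h.cont, h.inj, h.imm, h.swap, h.grp, hg⟩

variable {N : Type} [TopologicalSpace N] {F : Fam 3 N} {P : Par}

section zero

variable (L : Loc P N) {X0 : Set (Amb N)}
  (hX : ∀ y : E6 N, y.1 ∈ L.sh.source → (toA N y ∈ X0 ↔ RelX L y))
  (h0 : (0 : ℂ × ℂ × ℂ) ∈ L.sh.target)

/-- the zero section -/
def zA (x : Cv P × Cv P) : X0 :=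
  ⟨toA N (L.fro (zst x)), (hX _ (L.sh.map_target h0)).2 (L.fro_rel (zst_mem x) h0)⟩

theorem zA_val (x : Cv P × Cv P) : (zA L hX h0 x).1 = toA N (L.fro (zst x)) := rfl

/-- the zero section lies over `0` -/
theorem zA_fst (x : Cv P × Cv P) : (zA L hX h0 x).1.1 = L.sh.symm 0 := rfl

theorem continuous_zA : Continuous (zA L hX h0) := by
  refine Continuous.subtype_mk ?_ _
  refine (toA N).continuous.comp ?_
  have h1 := continuous_zs L (toA N ⁻¹' X0) hX h0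
  exact continuous_subtype_val.comp h1

theorem zA_inj : Function.Injective (zA L hX h0) := by
  intro x x' h
  refine zs_inj L (toA N ⁻¹' X0) hX h0 (Subtype.ext ?_)
  exact (toA N).injective (congrArg Subtype.val h)

/-- the zero section in the frames -/
theorem zA_E {r : ℝ} {i j : Fin 2} {E : OpenPartialHomeomorph ((Cv P × Cv P) × ℂ) X0}
    (hE : IsEij L r i j E) {x : Cv P × Cv P} (hx : ((x, 0) : (Cv P × Cv P) × ℂ) ∈ E.source) :
    zA L hX h0 x = E (x, 0) := by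
  refine Subtype.ext ?_
  rw [(hE _ hx).2.1, zst_eq]
  rfl

/-- the zero section in the frames of 60 -/
theorem zA_E' {r : ℝ} {i : Fin 2} {E : OpenPartialHomeomorph ((Cv P × Cv P) × ℂ) X0}
    (hE : Tp7_60.IsE L r i E) {x : Cv P × Cv P} (hx : ((x, 0) : (Cv P × Cv P) × ℂ) ∈ E.source) :
    zA L hX h0 x = E (x, 0) := by
  refine Subtype.ext ?_
  rw [(hE _ hx).2.1, zst_eq_FE]
  rfl

theorem mem_DEij {r : ℝ} (hr : 0 < r) {i j : Fin 2} {x : Cv P × Cv P} (h1 : tt x.1 ≠ pole i)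
    (h2 : tt x.2 ≠ pole j) : ((x, 0) : (Cv P × Cv P) × ℂ) ∈ DEij P r i j := by
  refine ⟨h1, h2, ?_⟩
  show ‖(0 : ℂ)‖ * _ * _ < r
  rw [norm_zero, zero_mul, zero_mul]
  exact hr

include hX h0 in
theorem imm_zA {𝒞 : Cur (Cv P)} (hC : CH 𝒞) (H : HLoc F L) {r : ℝ} (hr : 0 < r)
    (hb : Metric.ball (0 : ℂ × ℂ × ℂ) r ⊆ L.sh.target) (hs : IsSl (ambFam F) X0 3)
    (x : Cv P × Cv P) :
    ImmW (slFam hs) (zA L hX h0) x (fun y => (𝒞.k x.1 y.1, 𝒞.k x.2 y.2)) := by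
  obtain ⟨i, hi⟩ := exists_frame (tt x.1)
  obtain ⟨j, hj⟩ := exists_frame (tt x.2)
  obtain ⟨E, h1, h2, -⟩ := exists_FAij L hX hr hb i j
  refine immW_of_frame (cpt_Eij H hC hs h2) (fun y hy => zA_E L hX h0 h2 hy) ?_
  rw [h1]
  exact mem_DEij hr hi hj

end zero

variable {D : GData F} {G : Type} [Group G] [MulAction G N] (A : GAct D G)

/-- the zero section, in `A.X` -/
def zM (L : Loc P N) (hX : ∀ y : E6 N, y.1 ∈ L.sh.source → (toA N y ∈ D.X1 ↔ RelX L y))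
    (h0 : (0 : ℂ × ℂ × ℂ) ∈ L.sh.target) : Cv P × Cv P → A.X := zA L hX h0

theorem zM_val (L : Loc P N) (hX : ∀ y : E6 N, y.1 ∈ L.sh.source → (toA N y ∈ D.X1 ↔ RelX L y))
    (h0 : (0 : ℂ × ℂ × ℂ) ∈ L.sh.target) (x : Cv P × Cv P) :
    A.val (zM A L hX h0 x) = toA N (L.fro (zst x)) := rfl

theorem pz_zM (L : Loc P N) (hX : ∀ y : E6 N, y.1 ∈ L.sh.source → (toA N y ∈ D.X1 ↔ RelX L y))
    (h0 : (0 : ℂ × ℂ × ℂ) ∈ L.sh.target) (x : Cv P × Cv P) :
    A.pz (zM A L hX h0 x) = L.sh.symm 0 := rfl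

/-- **the zero section over the base cluster point** -/
theorem zPre {p₀ : N} {s : G}
    (B : P0_939.BPt D P G p₀ s) (hs : IsSl (ambFam F) D.X1 3) {𝒞 : Cur (Cv P)} (hC : CH 𝒞)
    (L : Loc P N) (H : HLoc F L) (hp : L.sh.symm 0 = p₀) (h0 : (0 : ℂ × ℂ × ℂ) ∈ L.sh.target)
    (hX : ∀ y : E6 N, y.1 ∈ L.sh.source → (toA N y ∈ D.X1 ↔ RelX L y))
    {r : ℝ} (hr : 0 < r) (hb : Metric.ball (0 : ℂ × ℂ × ℂ) r ⊆ L.sh.target)
    (hsw : ∀ x : Cv P × Cv P, A.act s (toA N (L.fro (zst x))) = toA N (L.fro (zst x.swap))) :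
    ZPre 𝒞 (A.fam hs) G s (zM A L hX h0) where
  cont := continuous_zA L hX _
  inj := zA_inj L hX _
  imm := imm_zA L hX _ hC H hr hb hs
  swap x := Subtype.ext (hsw x)
  grp g x x' h := by
    have h1 := congrArg A.pz h
    rw [A.pz_smul, pz_zM, pz_zM, hp] at h1
    exact B.stab g h1

end

end Crest.Agent.R272.Tq9_916
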