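import Mathlib

/-!
# Compact connected translation manifolds are tori (row 272, leaf A-TOR)

`V` a real normed space, `M` a topological space with an atlas of charts to `V` whose transition
maps are locally translations.  If `M` is compact, Hausdorff, connected and `V` is finite
dimensional, then `M` is the quotient of `V` by a lattice: there is an action of `V` on `M` which
is by translations in the charts, and it is transitive with discrete cocompact stabilisers.
-/

open Topology Set Filter Metric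

namespace Crest.Agent.R272.TrTor1_732

universe u v w

/-- An atlas with values in `V` whose transition maps are locally translations. -/
structure TrAtl (V : Type u) [NormedAddCommGroup V] (M : Type v) [TopologicalSpace M] where
  /-- index set -/
  ι : Type w
  /-- the charts -/
  e : ι → OpenPartialHomeomorph M V
  cover : ∀ x, ∃ i, x ∈ (e i).source
  tr : ∀ i j x, x ∈ (e i).source → x ∈ (e j).source → ∃ c : V, ∀ᶠ y in 𝓝 x, e j y = e i y + c

variable {V : Type u} [NormedAddCommGroup V] {M : Type v} [TopologicalSpace M]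

/-- the chart `i` is defined at `y` and its image contains the ball of radius `δ` round the
image of `y`. -/
def Good (T : TrAtl.{u, v, w} V M) (δ : ℝ) (i : T.ι) (y : M) : Prop :=
  y ∈ (T.e i).source ∧ ball (T.e i y) δ ⊆ (T.e i).target

theorem Good.mono {T : TrAtl.{u, v, w} V M} {δ δ' : ℝ} {i : T.ι} {y : M} (h : Good T δ i y)
    (hd : δ' ≤ δ) : Good T δ' i y :=
  ⟨h.1, (ball_subset_ball hd).trans h.2⟩

/-- Lebesgue number. -/
theorem exists_good [CompactSpace M] (T : TrAtl.{u, v, w} V M) :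
    ∃ δ : ℝ, 0 < δ ∧ ∀ y, ∃ i, Good T δ i y := by
  have key : ∃ δ : ℝ, 0 < δ ∧ ∀ y ∈ (univ : Set M), ∃ i, Good T δ i y := by
    refine isCompact_univ.induction_on (p := fun S => ∃ δ : ℝ, 0 < δ ∧ ∀ y ∈ S, ∃ i, Good T δ i y)
      ⟨1, one_pos, by simp⟩ ?_ ?_ ?_
    · rintro s t hst ⟨δ, hδ, h⟩
      exact ⟨δ, hδ, fun y hy => h y (hst hy)⟩
    · rintro s t ⟨δ, hδ, h⟩ ⟨δ', hδ', h'⟩
      refine ⟨min δ δ', lt_min hδ hδ', ?_⟩
      rintro y (hy | hy)
      · obtain ⟨i, hi⟩ := h y hy
        exact ⟨i, hi.mono (min_le_left _ _)⟩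
      · obtain ⟨i, hi⟩ := h' y hy
        exact ⟨i, hi.mono (min_le_right _ _)⟩
    · intro x _
      obtain ⟨i, hi⟩ := T.cover x
      have hx : T.e i x ∈ (T.e i).target := (T.e i).map_source hi
      obtain ⟨ε, hε, hb⟩ := Metric.isOpen_iff.1 (T.e i).open_target _ hx
      have hc : ContinuousAt (T.e i) x := (T.e i).continuousAt hi
      have h1 : (T.e i) ⁻¹' ball (T.e i x) (ε / 2) ∈ 𝓝 x :=
        hc (ball_mem_nhds _ (half_pos hε))
      have h2 : (T.e i).source ∈ 𝓝 x := (T.e i).open_source.mem_nhds hi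
      refine ⟨(T.e i).source ∩ (T.e i) ⁻¹' ball (T.e i x) (ε / 2), ?_, ε / 2, half_pos hε, ?_⟩
      · exact mem_nhdsWithin_of_mem_nhds (inter_mem h2 h1)
      · rintro y ⟨hy1, hy2⟩
        refine ⟨i, hy1, ?_⟩
        refine Subset.trans ?_ hb
        intro z hz
        have h3 : dist z (T.e i y) < ε / 2 := hz
        have h4 : dist (T.e i y) (T.e i x) < ε / 2 := hy2
        exact mem_ball.2 (lt_of_le_of_lt (dist_triangle _ _ _) (by linarith))
  obtain ⟨δ, hδ, h⟩ := key
  exact ⟨δ, hδ, fun y => h y (mem_univ y)⟩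

theorem Good.mem_target {T : TrAtl.{u, v, w} V M} {δ : ℝ} {i : T.ι} {y : M} (h : Good T δ i y)
    {a : V} (ha : ‖a‖ < δ) : T.e i y + a ∈ (T.e i).target :=
  h.2 (by simpa [mem_ball, dist_eq_norm] using ha)

variable [NormedSpace ℝ V]

/-- Uniqueness of the local translations. -/
theorem good_unique [T2Space M] {T : TrAtl.{u, v, w} V M} {δ : ℝ} {i j : T.ι} {y : M}
    (hi : Good T δ i y) (hj : Good T δ j y) {a : V} (ha : ‖a‖ < δ) :
    (T.e i).symm (T.e i y + a) = (T.e j).symm (T.e j y + a) := by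
  have hδ : 0 < δ := lt_of_le_of_lt (norm_nonneg _) ha
  let B := ball (0 : V) δ
  have : PreconnectedSpace B :=
    Subtype.preconnectedSpace (convex_ball (0 : V) δ).isPreconnected
  have hB : ∀ b : B, ‖(b : V)‖ < δ := fun b => mem_ball_zero_iff.1 b.2
  have cont : ∀ k, Good T δ k y → Continuous fun b : B => (T.e k).symm (T.e k y + (b : V)) := by
    intro k hk
    have h1 : Continuous fun b : B => T.e k y + (b : V) :=
      continuous_const.add continuous_subtype_val
    exact (T.e k).continuousOn_symm.comp_continuous h1 (fun b => hk.mem_target (hB b))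
  let S : Set B := {b | (T.e i).symm (T.e i y + (b : V)) = (T.e j).symm (T.e j y + (b : V))}
  have hS : IsClosed S := isClosed_eq (cont i hi) (cont j hj)
  have hSo : IsOpen S := by
    rw [isOpen_iff_mem_nhds]
    intro b hb
    have hb' : (T.e i).symm (T.e i y + (b : V)) = (T.e j).symm (T.e j y + (b : V)) := hb
    set x := (T.e i).symm (T.e i y + (b : V)) with hx
    have ei : T.e i x = T.e i y + (b : V) := (T.e i).right_inv (hi.mem_target (hB b))
    have ej : T.e j x = T.e j y + (b : V) := by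
      rw [hb']; exact (T.e j).right_inv (hj.mem_target (hB b))
    have xi : x ∈ (T.e i).source := (T.e i).map_target (hi.mem_target (hB b))
    have xj : x ∈ (T.e j).source := by
      rw [hb']; exact (T.e j).map_target (hj.mem_target (hB b))
    obtain ⟨c, hc⟩ := T.tr i j x xi xj
    have hcx : T.e j x = T.e i x + c := hc.self_of_nhds
    have hcc : c = T.e j y - T.e i y := by
      have : T.e j y + (b : V) = T.e i y + (b : V) + c := by rw [← ej, hcx, ei]
      have h2 : T.e j y = T.e i y + c := by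
        have h3 : T.e j y + (b : V) = (T.e i y + c) + (b : V) := by rw [this]; abel
        exact add_right_cancel h3
      rw [h2]; abel
    have h4 : ∀ᶠ z in 𝓝 x, z ∈ (T.e j).source := (T.e j).open_source.mem_nhds xj
    have h5 : ∀ᶠ z in 𝓝 x, z ∈ (T.e j).source ∧ T.e j z = T.e i z + c := h4.and hc
    have h6 : Tendsto (fun b' : B => (T.e i).symm (T.e i y + (b' : V))) (𝓝 b) (𝓝 x) :=
      (cont i hi).continuousAt
    filter_upwards [h6.eventually h5] with b' hb''
    obtain ⟨hs, he⟩ := hb''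
    have h7 : T.e i ((T.e i).symm (T.e i y + (b' : V))) = T.e i y + (b' : V) :=
      (T.e i).right_inv (hi.mem_target (hB b'))
    have h8 : T.e j ((T.e i).symm (T.e i y + (b' : V))) = T.e j y + (b' : V) := by
      rw [he, h7, hcc]; abel
    show (T.e i).symm (T.e i y + (b' : V)) = (T.e j).symm (T.e j y + (b' : V))
    rw [← h8, (T.e j).left_inv hs]
  have h0 : (⟨0, by simpa [B] using hδ⟩ : B) ∈ S := by
    show (T.e i).symm (T.e i y + (0 : V)) = (T.e j).symm (T.e j y + (0 : V))
    rw [add_zero, add_zero, (T.e i).left_inv hi.1, (T.e j).left_inv hj.1]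
  have hu : S = univ := IsClopen.eq_univ ⟨hS, hSo⟩ ⟨_, h0⟩
  have : (⟨a, by simpa [B] using ha⟩ : B) ∈ S := by rw [hu]; trivial
  exact this

section shift

variable (T : TrAtl.{u, v, w} V M) (δ : ℝ) (hg : ∀ y, ∃ i, Good T δ i y)

/-- the local translation by `a` -/
noncomputable def sh (a : V) (y : M) : M :=
  (T.e (hg y).choose).symm (T.e (hg y).choose y + a)

variable {T δ hg}

theorem sh_eq [T2Space M] {i : T.ι} {y : M} (hi : Good T δ i y) {a : V} (ha : ‖a‖ < δ) :
    sh T δ hg a y = (T.e i).symm (T.e i y + a) :=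
  good_unique (hg y).choose_spec hi ha

omit [NormedSpace ℝ V] in
theorem sh_zero (y : M) : sh T δ hg 0 y = y := by
  unfold sh
  rw [add_zero]
  exact (T.e _).left_inv (hg y).choose_spec.1

/-- the charts of `sh a y`. -/
theorem chart_sh [T2Space M] {i : T.ι} {y : M} (hi : Good T δ i y) {a : V} (ha : ‖a‖ < δ) :
    Good T (δ - ‖a‖) i (sh T δ hg a y) ∧ T.e i (sh T δ hg a y) = T.e i y + a := by
  rw [sh_eq hi ha]
  have h1 : T.e i ((T.e i).symm (T.e i y + a)) = T.e i y + a :=
    (T.e i).right_inv (hi.mem_target ha)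
  refine ⟨⟨(T.e i).map_target (hi.mem_target ha), ?_⟩, h1⟩
  rw [h1]
  refine Subset.trans ?_ hi.2
  intro z hz
  rw [mem_ball, dist_eq_norm] at hz ⊢
  calc ‖z - T.e i y‖ = ‖(z - (T.e i y + a)) + a‖ := by congr 1; abel
    _ ≤ ‖z - (T.e i y + a)‖ + ‖a‖ := norm_add_le _ _
    _ < δ := by linarith

theorem sh_sh [T2Space M] {a b : V} (hab : ‖a‖ + ‖b‖ < δ) (y : M) :
    sh T δ hg b (sh T δ hg a y) = sh T δ hg (a + b) y := by
  have ha : ‖a‖ < δ := by linarith [norm_nonneg b]
  have hb : ‖b‖ < δ - ‖a‖ := by linarith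
  have hab' : ‖a + b‖ < δ := lt_of_le_of_lt (norm_add_le _ _) hab
  obtain ⟨i, hi⟩ := hg y
  obtain ⟨h1, h2⟩ := chart_sh (hg := hg) hi ha
  obtain ⟨j, hj⟩ := hg (sh T δ hg a y)
  have hb' : ‖b‖ < δ := by linarith [norm_nonneg a]
  rw [sh_eq (hg := hg) hj hb', sh_eq (hg := hg) hi hab',
    good_unique (hj.mono (by linarith [norm_nonneg a])) h1 hb, h2, add_assoc]

theorem sh_comm [T2Space M] {a b : V} (hab : ‖a‖ + ‖b‖ < δ) :
    Function.Commute (sh T δ hg a) (sh T δ hg b) := by
  intro y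
  rw [sh_sh (by linarith) y, sh_sh hab y, add_comm]

theorem sh_two [T2Space M] {a : V} (ha : ‖a‖ + ‖a‖ < δ) :
    (sh T δ hg a)^[2] = sh T δ hg ((2 : ℝ) • a) := by
  funext y
  show sh T δ hg a (sh T δ hg a y) = _
  rw [sh_sh ha y, two_smul]

/-- norm of `v / 2^k`. -/
theorem norm_half_pow (a : V) (k : ℕ) : ‖((1 / 2 : ℝ) ^ k) • a‖ = (1 / 2 : ℝ) ^ k * ‖a‖ := by
  rw [norm_smul, Real.norm_of_nonneg (by positivity)]

theorem iter_step [T2Space M] {a : V} {k : ℕ} (hk : (1 / 2 : ℝ) ^ k * ‖a‖ < δ) :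
    (sh T δ hg (((1 / 2 : ℝ) ^ (k + 1)) • a))^[2 ^ (k + 1)]
      = (sh T δ hg (((1 / 2 : ℝ) ^ k) • a))^[2 ^ k] := by
  rw [pow_succ 2 k, mul_comm, Function.iterate_mul, sh_two, smul_smul]
  · congr 3
    rw [pow_succ]; ring
  · rw [norm_half_pow, pow_succ]
    linarith

theorem iter_indep [T2Space M] {a : V} {k : ℕ} (hk : (1 / 2 : ℝ) ^ k * ‖a‖ < δ) (l : ℕ)
    (hl : k ≤ l) :
    (sh T δ hg (((1 / 2 : ℝ) ^ l) • a))^[2 ^ l] = (sh T δ hg (((1 / 2 : ℝ) ^ k) • a))^[2 ^ k] := by
  induction l, hl using Nat.le_induction with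
  | base => rfl
  | succ l hl ih =>
    rw [iter_step, ih]
    refine lt_of_le_of_lt ?_ hk
    exact mul_le_mul_of_nonneg_right
      (pow_le_pow_of_le_one (by norm_num) (by norm_num) hl) (norm_nonneg _)

omit [NormedSpace ℝ V] in
theorem exists_small (hδ : 0 < δ) (a : V) : ∃ k : ℕ, (1 / 2 : ℝ) ^ k * ‖a‖ < δ := by
  have h1 : Tendsto (fun k : ℕ => (1 / 2 : ℝ) ^ k * ‖a‖) atTop (𝓝 (0 * ‖a‖)) :=
    (tendsto_pow_atTop_nhds_zero_of_lt_one (by norm_num) (by norm_num)).mul_const _
  rw [zero_mul] at h1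
  exact (h1.eventually (gt_mem_nhds hδ)).exists

end shift

/-- The translation action on a compact Hausdorff translation manifold. -/
theorem exists_act [CompactSpace M] [T2Space M] (T : TrAtl.{u, v, w} V M) :
    ∃ act : V → M → M, (∀ y, act 0 y = y) ∧ (∀ a b y, act (a + b) y = act a (act b y)) ∧
      ∃ δ : ℝ, 0 < δ ∧ (∀ y, ∃ i, Good T δ i y) ∧
        ∀ (i : T.ι) (y : M), Good T δ i y → ∀ a : V, ‖a‖ < δ →
          act a y ∈ (T.e i).source ∧ T.e i (act a y) = T.e i y + a := by
  obtain ⟨δ, hδ, hg⟩ := exists_good T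
  have hk := exists_small (V := V) hδ
  choose κ hκ using hk
  let act : V → M → M := fun a => (sh T δ hg (((1 / 2 : ℝ) ^ (κ a)) • a))^[2 ^ (κ a)]
  have act_def : ∀ (a : V) (k : ℕ), (1 / 2 : ℝ) ^ k * ‖a‖ < δ →
      act a = (sh T δ hg (((1 / 2 : ℝ) ^ k) • a))^[2 ^ k] := by
    intro a k hk
    rcases le_total k (κ a) with h | h
    · exact iter_indep hk _ h
    · exact (iter_indep (hκ a) _ h).symm
  have act_small : ∀ a : V, ‖a‖ < δ → act a = sh T δ hg a := by
    intro a ha
    have := act_def a 0 (by simpa using ha)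
    simpa using this
  refine ⟨act, ?_, ?_, δ, hδ, hg, ?_⟩
  · intro y
    rw [act_small 0 (by simpa using hδ)]
    exact sh_zero y
  · intro a b y
    obtain ⟨k1, hk1⟩ := exists_small (V := V) (half_pos hδ) a
    obtain ⟨k2, hk2⟩ := exists_small (V := V) (half_pos hδ) b
    set k := max k1 k2 with hk
    have hak : (1 / 2 : ℝ) ^ k * ‖a‖ < δ / 2 := by
      refine lt_of_le_of_lt ?_ hk1
      exact mul_le_mul_of_nonneg_right
        (pow_le_pow_of_le_one (by norm_num) (by norm_num) (le_max_left _ _)) (norm_nonneg _)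
    have hbk : (1 / 2 : ℝ) ^ k * ‖b‖ < δ / 2 := by
      refine lt_of_le_of_lt ?_ hk2
      exact mul_le_mul_of_nonneg_right
        (pow_le_pow_of_le_one (by norm_num) (by norm_num) (le_max_right _ _)) (norm_nonneg _)
    have hsum : ‖((1 / 2 : ℝ) ^ k) • b‖ + ‖((1 / 2 : ℝ) ^ k) • a‖ < δ := by
      rw [norm_half_pow, norm_half_pow]; linarith
    have hab : (1 / 2 : ℝ) ^ k * ‖a + b‖ < δ := by
      calc (1 / 2 : ℝ) ^ k * ‖a + b‖ ≤ (1 / 2 : ℝ) ^ k * (‖a‖ + ‖b‖) :=
            mul_le_mul_of_nonneg_left (norm_add_le _ _) (by positivity)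
        _ < δ := by rw [mul_add]; linarith
    rw [act_def (a + b) k hab, act_def a k (by linarith), act_def b k (by linarith)]
    have h1 : sh T δ hg (((1 / 2 : ℝ) ^ k) • (a + b))
        = (sh T δ hg (((1 / 2 : ℝ) ^ k) • a)) ∘ (sh T δ hg (((1 / 2 : ℝ) ^ k) • b)) := by
      funext z
      rw [Function.comp_apply, sh_sh hsum, smul_add, add_comm]
    rw [h1, Function.Commute.comp_iterate (sh_comm (by linarith)), Function.comp_apply]
  · intro i y hi a ha
    rw [act_small a ha]
    obtain ⟨h1, h2⟩ := chart_sh (hg := hg) hi ha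
    exact ⟨h1.1, h2⟩

/-- A bundled form of the translation action on a translation manifold. -/
structure TrAct (T : TrAtl.{u, v, w} V M) where
  /-- the action -/
  act : V → M → M
  zero : ∀ y, act 0 y = y
  add : ∀ a b y, act (a + b) y = act a (act b y)
  /-- Lebesgue number -/
  δ : ℝ
  δ_pos : 0 < δ
  good : ∀ y, ∃ i, Good T δ i y
  chart : ∀ (i : T.ι) (y : M), Good T δ i y → ∀ a : V, ‖a‖ < δ →
          act a y ∈ (T.e i).source ∧ T.e i (act a y) = T.e i y + a

/-- the translation action exists. -/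
theorem nonempty_trAct [CompactSpace M] [T2Space M] (T : TrAtl.{u, v, w} V M) :
    Nonempty (TrAct T) := by
  obtain ⟨act, h0, hadd, δ, hδ, hg, hc⟩ := exists_act T
  exact ⟨⟨act, h0, hadd, δ, hδ, hg, hc⟩⟩

namespace TrAct

variable {T : TrAtl.{u, v, w} V M} (A : TrAct T)

omit [NormedSpace ℝ V] in
theorem act_symm {i : T.ι} {y : M} (hi : Good T A.δ i y) {a : V} (ha : ‖a‖ < A.δ) :
    A.act a y = (T.e i).symm (T.e i y + a) := by
  obtain ⟨h1, h2⟩ := A.chart i y hi a ha
  rw [← h2, (T.e i).left_inv h1]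

omit [NormedSpace ℝ V] in
theorem neg_act (a : V) (y : M) : A.act (-a) (A.act a y) = y := by
  rw [← A.add, neg_add_cancel, A.zero]

omit [NormedSpace ℝ V] in
theorem act_neg (a : V) (y : M) : A.act a (A.act (-a) y) = y := by
  rw [← A.add, add_neg_cancel, A.zero]

omit [NormedSpace ℝ V] in
/-- continuity of the orbit map. -/
theorem continuous_orbit (x : M) : Continuous fun a : V => A.act a x := by
  rw [continuous_iff_continuousAt]
  intro a
  obtain ⟨i, hi⟩ := A.good (A.act a x)
  have h1 : (fun b : V => A.act b x) =ᶠ[𝓝 a]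
      fun b => (T.e i).symm (T.e i (A.act a x) + (b - a)) := by
    have : ∀ᶠ b in 𝓝 a, dist b a < A.δ := ball_mem_nhds a A.δ_pos
    filter_upwards [this] with b hb
    rw [dist_eq_norm] at hb
    rw [← A.act_symm hi hb, ← A.add, sub_add_cancel]
  have h2 : ContinuousAt (fun b => (T.e i).symm (T.e i (A.act a x) + (b - a))) a := by
    have h3 : T.e i (A.act a x) + (a - a) ∈ (T.e i).target := by
      rw [sub_self, add_zero]; exact (T.e i).map_source hi.1
    have h4 : ContinuousAt (T.e i).symm (T.e i (A.act a x) + (a - a)) :=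
      (T.e i).continuousAt_symm h3
    have h5 : ContinuousAt (fun b : V => T.e i (A.act a x) + (b - a)) a :=
      (continuous_const.add (continuous_id.sub continuous_const)).continuousAt
    exact ContinuousAt.comp (f := fun b : V => T.e i (A.act a x) + (b - a)) h4 h5
  exact h2.congr h1.symm

omit [NormedSpace ℝ V] in
/-- The orbit map is open. -/
theorem image_mem_nhds (x : M) {U : Set V} {a : V} (hU : U ∈ 𝓝 a) :
    (fun b => A.act b x) '' U ∈ 𝓝 (A.act a x) := by
  obtain ⟨i, hi⟩ := A.good (A.act a x)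
  set y := A.act a x with hy
  have h1 : (fun c : V => c + a) ⁻¹' U ∈ 𝓝 (0 : V) := by
    have h2 : ContinuousAt (fun c : V => c + a) 0 := by fun_prop
    apply h2; simpa using hU
  have h3 : ((fun c : V => c + a) ⁻¹' U) ∩ ball 0 A.δ ∈ 𝓝 (0 : V) :=
    inter_mem h1 (ball_mem_nhds _ A.δ_pos)
  have h4 : (T.e i).symm '' ((fun c => T.e i y + c) ''
      (((fun c : V => c + a) ⁻¹' U) ∩ ball 0 A.δ)) ∈ 𝓝 y := by
    have h5 : (fun c => T.e i y + c) '' (((fun c : V => c + a) ⁻¹' U) ∩ ball 0 A.δ)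
        ∈ 𝓝 (T.e i y) := by
      have := (Homeomorph.addLeft (T.e i y)).isOpenMap.image_mem_nhds h3
      simpa using this
    have h6 := (T.e i).symm.image_mem_nhds (x := T.e i y) ((T.e i).map_source hi.1) h5
    rwa [(T.e i).left_inv hi.1] at h6
  refine mem_of_superset h4 ?_
  rintro _ ⟨_, ⟨c, ⟨hc1, hc2⟩, rfl⟩, rfl⟩
  refine ⟨c + a, hc1, ?_⟩
  show A.act (c + a) x = _
  rw [A.add, ← hy]
  exact A.act_symm hi (mem_ball_zero_iff.1 hc2)

omit [NormedSpace ℝ V] in
/-- `M` connected: the action is transitive. -/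
theorem orbit_surjective [PreconnectedSpace M] (x : M) :
    Function.Surjective fun a : V => A.act a x := by
  have hopen : ∀ x : M, IsOpen (range fun a : V => A.act a x) := by
    intro x
    rw [isOpen_iff_mem_nhds]
    rintro _ ⟨a, rfl⟩
    have := A.image_mem_nhds x (U := univ) (a := a) univ_mem
    rwa [image_univ] at this
  have hclosed : IsClosed (range fun a : V => A.act a x) := by
    rw [← isOpen_compl_iff, isOpen_iff_mem_nhds]
    intro y hy
    refine mem_of_superset ((hopen y).mem_nhds ⟨0, A.zero y⟩) ?_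
    rintro _ ⟨a, rfl⟩ ⟨b, hb⟩
    apply hy
    refine ⟨-a + b, ?_⟩
    show A.act (-a + b) x = y
    rw [A.add]
    have hb' : A.act b x = A.act a y := hb
    rw [hb', A.neg_act]
  have := IsClopen.eq_univ ⟨hclosed, hopen x⟩ ⟨_, 0, rfl⟩
  exact range_eq_univ.1 this

/-- the stabiliser of `x` -/
def stab (x : M) : Submodule ℤ V :=
  AddSubgroup.toIntSubmodule
    { carrier := {a | A.act a x = x}
      zero_mem' := A.zero x
      add_mem' := by
        intro a b (ha : _ = _) (hb : _ = _)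
        show A.act (a + b) x = x
        rw [A.add, hb, ha]
      neg_mem' := by
        intro a (ha : _ = _)
        show A.act (-a) x = x
        conv_lhs => rw [← ha]
        exact A.neg_act a x }

omit [NormedSpace ℝ V] in
theorem mem_stab {x : M} {a : V} : a ∈ A.stab x ↔ A.act a x = x := Iff.rfl

omit [NormedSpace ℝ V] in
theorem act_eq_iff (x : M) (a b : V) : A.act a x = A.act b x ↔ a - b ∈ A.stab x := by
  rw [mem_stab]
  constructor
  · intro h
    rw [sub_eq_neg_add, A.add, h, A.neg_act]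
  · intro h
    have : A.act b (A.act (a - b) x) = A.act b x := by rw [h]
    rwa [← A.add, add_sub_cancel] at this

omit [NormedSpace ℝ V] in
theorem stab_small {x : M} {a : V} (ha : a ∈ A.stab x) (hs : ‖a‖ < A.δ) : a = 0 := by
  rw [mem_stab] at ha
  obtain ⟨i, hi⟩ := A.good x
  obtain ⟨_, h2⟩ := A.chart i x hi a hs
  rw [ha] at h2
  simpa using h2

omit [NormedSpace ℝ V] in
theorem discrete_stab (x : M) : DiscreteTopology (A.stab x) := by
  rw [discreteTopology_iff_isOpen_singleton_zero]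
  rw [Metric.isOpen_iff]
  intro y hy
  refine ⟨A.δ, A.δ_pos, ?_⟩
  intro z hz
  rw [mem_singleton_iff] at hy ⊢
  subst hy
  have h1 : ‖(z : V)‖ < A.δ := by
    have : dist z 0 < A.δ := hz
    rwa [dist_zero_right] at this
  exact Subtype.ext (A.stab_small z.2 h1)

omit [NormedSpace ℝ V] in
theorem cocompact [CompactSpace M] [PreconnectedSpace M] (x : M) :
    ∃ R : ℝ, ∀ a : V, ∃ b : V, ‖b‖ < R ∧ a - b ∈ A.stab x := by
  have hopen : ∀ n : ℕ, IsOpen ((fun a : V => A.act a x) '' ball 0 n) := by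
    intro n
    rw [isOpen_iff_mem_nhds]
    rintro _ ⟨a, ha, rfl⟩
    exact A.image_mem_nhds x (isOpen_ball.mem_nhds ha)
  have hcov : (univ : Set M) ⊆ ⋃ n : ℕ, (fun a : V => A.act a x) '' ball 0 n := by
    intro y _
    obtain ⟨a, rfl⟩ := A.orbit_surjective x y
    obtain ⟨n, hn⟩ := exists_nat_gt ‖a‖
    exact mem_iUnion.2 ⟨n, a, mem_ball_zero_iff.2 hn, rfl⟩
  have hmono : Monotone fun n : ℕ => (fun a : V => A.act a x) '' ball (0 : V) n := by
    intro m n hmn
    exact image_mono (ball_subset_ball (by exact_mod_cast hmn))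
  obtain ⟨n, hn⟩ := isCompact_univ.elim_directed_cover _ hopen hcov hmono.directed_le
  refine ⟨n, fun a => ?_⟩
  obtain ⟨b, hb, he⟩ := hn (mem_univ (A.act a x))
  exact ⟨b, mem_ball_zero_iff.1 hb, (A.act_eq_iff x a b).1 he.symm⟩

/-- the stabiliser spans `V` -/
theorem span_stab [FiniteDimensional ℝ V] [CompactSpace M] [PreconnectedSpace M] (x : M) :
    Submodule.span ℝ (A.stab x : Set V) = ⊤ := by
  obtain ⟨R, hR⟩ := A.cocompact x
  by_contra hne
  obtain ⟨φ, hφ, hle⟩ := Submodule.exists_le_ker_of_lt_top _ (lt_top_iff_ne_top.2 hne)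
  obtain ⟨v, hv⟩ : ∃ v, φ v ≠ 0 := by
    by_contra hcon
    push Not at hcon
    exact hφ (LinearMap.ext hcon)
  let φc : V →L[ℝ] ℝ := LinearMap.toContinuousLinearMap φ
  have hφc : ∀ z, φc z = φ z := fun z => rfl
  have hRpos : 0 ≤ R := by
    obtain ⟨b, hb, _⟩ := hR 0
    exact (norm_nonneg b).trans hb.le
  have key : ∀ t : ℝ, |t * φ v| ≤ ‖φc‖ * R := by
    intro t
    obtain ⟨b, hb, hs⟩ := hR (t • v)
    have h1 : φ (t • v - b) = 0 := by
      have : t • v - b ∈ Submodule.span ℝ (A.stab x : Set V) := Submodule.subset_span hs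
      exact LinearMap.mem_ker.1 (hle this)
    rw [map_sub, map_smul, sub_eq_zero, smul_eq_mul] at h1
    rw [h1, ← hφc, ← Real.norm_eq_abs]
    exact (φc.le_opNorm b).trans (mul_le_mul_of_nonneg_left hb.le (norm_nonneg _))
  have h2 := key ((‖φc‖ * R + 1) / φ v)
  rw [div_mul_cancel₀ _ hv] at h2
  have h3 := le_abs_self (‖φc‖ * R + 1)
  linarith

theorem isZLattice_stab [FiniteDimensional ℝ V] [CompactSpace M] [PreconnectedSpace M] (x : M)
    [DiscreteTopology (A.stab x)] : IsZLattice ℝ (A.stab x) :=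
  ⟨A.span_stab x⟩

/-- a lattice basis. -/
theorem exists_basis [FiniteDimensional ℝ V] [CompactSpace M] [PreconnectedSpace M] (x : M)
    {n : ℕ} (hn : Module.finrank ℝ V = n) :
    ∃ ω : Fin n → V, LinearIndependent ℝ ω ∧ A.stab x = Submodule.span ℤ (range ω) := by
  have hd : DiscreteTopology (A.stab x) := A.discrete_stab x
  have hz : IsZLattice ℝ (A.stab x) := A.isZLattice_stab x
  have : Module.Finite ℤ (A.stab x) := ZLattice.module_finite ℝ (A.stab x)
  have : Module.Free ℤ (A.stab x) := ZLattice.module_free ℝ (A.stab x)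
  have hr : Module.finrank ℤ (A.stab x) = n := by rw [ZLattice.rank ℝ, hn]
  let b := Module.finBasisOfFinrankEq ℤ (A.stab x) hr
  let B := b.ofZLatticeBasis ℝ (A.stab x)
  refine ⟨fun k => B k, B.linearIndependent, ?_⟩
  exact (Module.Basis.ofZLatticeBasis_span ℝ (A.stab x) b).symm

end TrAct

/-- **Main theorem of the file.**  A compact connected Hausdorff translation manifold is a torus:
there are `f : V → M` surjective and a lattice basis `ω` with `f z = f w` iff `z - w` is in the
lattice, and `f` is a translation in the charts. -/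
theorem exists_uniformization [FiniteDimensional ℝ V] [CompactSpace M] [T2Space M]
    [PreconnectedSpace M] (T : TrAtl.{u, v, w} V M) (x : M) {n : ℕ}
    (hn : Module.finrank ℝ V = n) :
    ∃ (f : V → M) (ω : Fin n → V), LinearIndependent ℝ ω ∧ f 0 = x ∧ Continuous f ∧
      IsOpenMap f ∧ Function.Surjective f ∧
      (∀ z w, f z = f w ↔ z - w ∈ Submodule.span ℤ (range ω)) ∧
      (∀ z : V, ∀ i, f z ∈ (T.e i).source →
        ∀ᶠ z' in 𝓝 z, f z' ∈ (T.e i).source ∧ T.e i (f z') = T.e i (f z) + (z' - z)) := by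
  obtain ⟨A⟩ := nonempty_trAct T
  obtain ⟨ω, hω, hs⟩ := A.exists_basis x hn
  refine ⟨fun a => A.act a x, ω, hω, A.zero x, A.continuous_orbit x, ?_, A.orbit_surjective x, ?_,
    ?_⟩
  · exact IsOpenMap.of_nhds_le fun a => by
      intro S hS
      rw [mem_map] at hS
      exact mem_of_superset (A.image_mem_nhds x hS) (image_preimage_subset _ _)
  · intro z w
    rw [← hs]; exact A.act_eq_iff x z w
  · intro z i hz
    obtain ⟨j, hj⟩ := A.good (A.act z x)
    obtain ⟨c, hc⟩ := T.tr j i _ hj.1 hz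
    have hcont : Tendsto (fun a => A.act a x) (𝓝 z) (𝓝 (A.act z x)) :=
      (A.continuous_orbit x).continuousAt
    have h1 : ∀ᶠ z' in 𝓝 z, dist z' z < A.δ := ball_mem_nhds z A.δ_pos
    have h2 : ∀ᶠ z' in 𝓝 z, A.act z' x ∈ (T.e i).source :=
      hcont.eventually ((T.e i).open_source.mem_nhds hz)
    filter_upwards [h1, h2, hcont.eventually hc] with z' h3 h4 h5
    refine ⟨h4, ?_⟩
    rw [dist_eq_norm] at h3
    obtain ⟨_, h7⟩ := A.chart j _ hj (z' - z) h3
    rw [← A.add, sub_add_cancel] at h7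
    rw [h5, h7, hc.self_of_nhds]
    abel

end Crest.Agent.R272.TrTor1_732
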