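import Crest.Agent.R272.TrTor1_732
import Crest.Agent.R272.Simple_729

/-!
# Morphisms of translation manifolds; the covering `V → M`; CM simplicity (row 272, leaf A-TOR)
-/

open Topology Set Filter Metric

namespace Crest.Agent.R272.TrTor2_732

open TrTor1_732 Simple_729

universe u v w u' v' w'

variable {V : Type u} [NormedAddCommGroup V] {M : Type v} [TopologicalSpace M]
variable {V' : Type u'} [NormedAddCommGroup V'] {M' : Type v'} [TopologicalSpace M']

/-- the action in an arbitrary chart -/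
theorem chart_ev {T : TrAtl.{u, v, w} V M} (A : TrAct T) {i : T.ι} {x : M}
    (hx : x ∈ (T.e i).source) :
    ∀ᶠ a in 𝓝 (0 : V), A.act a x ∈ (T.e i).source ∧ T.e i (A.act a x) = T.e i x + a := by
  obtain ⟨j, hj⟩ := A.good x
  obtain ⟨c, hc⟩ := T.tr j i _ hj.1 hx
  have hcont : Tendsto (fun a => A.act a x) (𝓝 0) (𝓝 x) := by
    have := (A.continuous_orbit x).tendsto 0
    rwa [A.zero] at this
  have h1 : ∀ᶠ a in 𝓝 (0 : V), dist a 0 < A.δ := ball_mem_nhds _ A.δ_pos
  have h2 : ∀ᶠ a in 𝓝 (0 : V), A.act a x ∈ (T.e i).source :=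
    hcont.eventually ((T.e i).open_source.mem_nhds hx)
  filter_upwards [h1, h2, hcont.eventually hc] with a h3 h4 h5
  refine ⟨h4, ?_⟩
  rw [dist_zero_right] at h3
  rw [h5, (A.chart j _ hj a h3).2, hc.self_of_nhds]
  abel

theorem chart_ev' {T : TrAtl.{u, v, w} V M} (A : TrAct T) {i : T.ι} {x : M} {z : V}
    (hx : A.act z x ∈ (T.e i).source) :
    ∀ᶠ a in 𝓝 z, A.act a x ∈ (T.e i).source ∧
      T.e i (A.act a x) = T.e i (A.act z x) + (a - z) := by
  have h := chart_ev A hx
  have h1 : Tendsto (fun a : V => a - z) (𝓝 z) (𝓝 0) := by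
    have : Tendsto (fun a : V => a - z) (𝓝 z) (𝓝 (z - z)) :=
      (continuous_id.sub continuous_const).tendsto z
    rwa [sub_self] at this
  filter_upwards [h1.eventually h] with a ha
  rwa [← A.add, sub_add_cancel] at ha

variable [NormedSpace ℝ V] [NormedSpace ℝ V']

/-- `α` has linear part `D` in the charts. -/
structure LinPart (T : TrAtl.{u, v, w} V M) (T' : TrAtl.{u', v', w'} V' M') (α : M → M')
    (D : V →L[ℝ] V') : Prop where
  cont : Continuous α
  loc : ∀ x, ∃ i j, x ∈ (T.e i).source ∧ α x ∈ (T'.e j).source ∧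
    ∀ᶠ y in 𝓝 x, T'.e j (α y) = T'.e j (α x) + D (T.e i y - T.e i x)

/-- A map with linear part `D` is equivariant for the translation actions. -/
theorem LinPart.act [T2Space M'] {T : TrAtl.{u, v, w} V M} {T' : TrAtl.{u', v', w'} V' M'}
    {α : M → M'} {D : V →L[ℝ] V'} (h : LinPart T T' α D) (A : TrAct T) (A' : TrAct T')
    (a : V) (y : M) : α (A.act a y) = A'.act (D a) (α y) := by
  let S : Set V := {a | α (A.act a y) = A'.act (D a) (α y)}
  have hS : IsClosed S :=
    isClosed_eq (h.cont.comp (A.continuous_orbit y))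
      ((A'.continuous_orbit (α y)).comp D.continuous)
  have hSo : IsOpen S := by
    rw [isOpen_iff_mem_nhds]
    intro b hb
    have hb' : α (A.act b y) = A'.act (D b) (α y) := hb
    obtain ⟨i, j, hi, hj, hl⟩ := h.loc (A.act b y)
    have h1 := chart_ev' A hi
    have hcont : Tendsto (fun a => A.act a y) (𝓝 b) (𝓝 (A.act b y)) :=
      (A.continuous_orbit y).tendsto b
    have h2 := hcont.eventually hl
    have h3 : ∀ᶠ a in 𝓝 b, α (A.act a y) ∈ (T'.e j).source :=
      (h.cont.continuousAt.tendsto.comp hcont).eventually ((T'.e j).open_source.mem_nhds hj)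
    have hj' : A'.act (D b) (α y) ∈ (T'.e j).source := by rw [← hb']; exact hj
    have h4 := (D.continuous.tendsto b).eventually (chart_ev' A' hj')
    filter_upwards [h1, h2, h3, h4] with a h5 h6 h7 h8
    show α (A.act a y) = A'.act (D a) (α y)
    refine (T'.e j).injOn h7 h8.1 ?_
    rw [h6, h8.2, h5.2, hb', add_sub_cancel_left, map_sub]
  have h0 : (0 : V) ∈ S := by
    show α (A.act 0 y) = A'.act (D 0) (α y)
    rw [A.zero, map_zero, A'.zero]
  have hu : S = univ := IsClopen.eq_univ ⟨hS, hSo⟩ ⟨_, h0⟩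
  have : a ∈ S := by rw [hu]; trivial
  exact this

omit [NormedSpace ℝ V] in
/-- all stabilisers agree (commutative group acting transitively). -/
theorem stab_eq [PreconnectedSpace M] {T : TrAtl.{u, v, w} V M} (A : TrAct T) (x y : M) :
    A.stab x = A.stab y := by
  have key : ∀ x y : M, A.stab x ≤ A.stab y := by
    intro x y a ha
    rw [A.mem_stab] at ha ⊢
    obtain ⟨b, rfl⟩ := A.orbit_surjective x y
    show A.act a (A.act b x) = A.act b x
    rw [← A.add, add_comm, A.add, ha]
  exact le_antisymm (key x y) (key y x)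

/-- the linear part maps periods to periods -/
theorem LinPart.stab [T2Space M'] [PreconnectedSpace M'] {T : TrAtl.{u, v, w} V M}
    {T' : TrAtl.{u', v', w'} V' M'} {α : M → M'} {D : V →L[ℝ] V'} (h : LinPart T T' α D)
    (A : TrAct T) (A' : TrAct T') (x : M) (x' : M') {a : V} (ha : a ∈ A.stab x) :
    D a ∈ A'.stab x' := by
  rw [stab_eq A' x' (α x), A'.mem_stab, ← h.act A A', A.mem_stab.1 ha]

omit [NormedSpace ℝ V] in
/-- **`V → M` is a covering map.** -/
theorem isCoveringMap_of_discrete {f : V → M} {L : Submodule ℤ V}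
    (hL : DiscreteTopology L) (hc : Continuous f) (ho : IsOpenMap f) (hs : Function.Surjective f)
    (hf : ∀ z w, f z = f w ↔ z - w ∈ L) : IsCoveringMap f := by
  have hq : IsQuotientMap f := ho.isQuotientMap hc hs
  have hd : IsDiscrete (L.toAddSubgroup : Set V) := ⟨hL⟩
  exact (hq.isAddQuotientCoveringMap_of_addSubgroup L.toAddSubgroup hd (by
    intro e₁ e₂
    rw [hf, ← sub_eq_add_neg]
    show e₁ - e₂ ∈ L ↔ e₂ - e₁ ∈ L
    rw [← neg_sub e₂ e₁]
    exact L.neg_mem_iff)).isCoveringMap

/-- **Translation manifolds, full package**: as `exists_uniformization`, plus covering map, and the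
period lattice is mapped to itself by the linear part of every endomorphism. -/
theorem exists_uniformization' [FiniteDimensional ℝ V] [CompactSpace M] [T2Space M]
    [PreconnectedSpace M] (T : TrAtl.{u, v, w} V M) (x : M) {n : ℕ}
    (hn : Module.finrank ℝ V = n) :
    ∃ (f : V → M) (ω : Fin n → V), LinearIndependent ℝ ω ∧ f 0 = x ∧ Continuous f ∧
      IsOpenMap f ∧ Function.Surjective f ∧ IsCoveringMap f ∧
      (∀ z w, f z = f w ↔ z - w ∈ Submodule.span ℤ (range ω)) ∧
      (∀ z : V, ∀ i, f z ∈ (T.e i).source →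
        ∀ᶠ z' in 𝓝 z, f z' ∈ (T.e i).source ∧ T.e i (f z') = T.e i (f z) + (z' - z)) ∧
      (∀ (α : M → M) (D : V →L[ℝ] V), LinPart T T α D →
        (∀ z w, f w = α (f 0) → α (f z) = f (D z + w)) ∧
        ∀ l ∈ Submodule.span ℤ (range ω), D l ∈ Submodule.span ℤ (range ω)) := by
  obtain ⟨A⟩ := nonempty_trAct T
  obtain ⟨ω, hω, hs⟩ := A.exists_basis x hn
  have hopen : IsOpenMap fun a => A.act a x := IsOpenMap.of_nhds_le fun a => by
      intro S hS
      rw [mem_map] at hS
      exact mem_of_superset (A.image_mem_nhds x hS) (image_preimage_subset _ _)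
  refine ⟨fun a => A.act a x, ω, hω, A.zero x, A.continuous_orbit x, hopen,
    A.orbit_surjective x, ?_, ?_, ?_, ?_⟩
  · exact isCoveringMap_of_discrete (A.discrete_stab x) (A.continuous_orbit x) hopen
      (A.orbit_surjective x) (fun z w => A.act_eq_iff x z w)
  · intro z w
    rw [← hs]; exact A.act_eq_iff x z w
  · intro z i hz
    exact chart_ev' A hz
  · intro α D h
    refine ⟨?_, ?_⟩
    · intro z w hw
      show α (A.act z x) = A.act (D z + w) x
      have hw' : A.act w x = α x := by
        have : A.act w x = α (A.act 0 x) := hw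
        rwa [A.zero] at this
      rw [h.act A A, A.add, hw']
    · intro l hl
      rw [← hs] at hl ⊢
      exact h.stab A A x x hl

/-- **The CM case.**  A compact connected translation surface (complex dimension 2) with a
continuous self map of linear part `diag(ζ, ζ²)`, `ζ` a primitive fifth root of unity, is a torus
with the frozen simplicity clause. -/
theorem exists_simple_uniformization [CompactSpace M] [T2Space M] [PreconnectedSpace M]
    (T : TrAtl.{0, v, w} (Fin 2 → ℂ) M) (x : M) {ζ : ℂ} (hζ : IsPrimitiveRoot ζ 5)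
    (α : M → M)
    (hα : LinPart T T α
      (LinearMap.toContinuousLinearMap ((dg ζ (ζ ^ 2)).restrictScalars ℝ))) :
    ∃ (f : (Fin 2 → ℂ) → M) (ω : Fin 4 → (Fin 2 → ℂ)), LinearIndependent ℝ ω ∧ f 0 = x ∧
      Continuous f ∧ IsOpenMap f ∧ Function.Surjective f ∧ IsCoveringMap f ∧
      (∀ z w, f z = f w ↔ z - w ∈ Crest.AlgGeometry.periodLattice ω) ∧
      (∀ l m : Fin 2 → ℂ, l ∈ Crest.AlgGeometry.periodLattice ω →
        m ∈ Crest.AlgGeometry.periodLattice ω → l ≠ 0 → ∀ a : ℂ, m = a • l → a.im = 0) ∧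
      (∀ z : Fin 2 → ℂ, ∀ i, f z ∈ (T.e i).source →
        ∀ᶠ z' in 𝓝 z, f z' ∈ (T.e i).source ∧ T.e i (f z') = T.e i (f z) + (z' - z)) := by
  have hn : Module.finrank ℝ (Fin 2 → ℂ) = 4 := by
    rw [Module.finrank_pi_fintype]
    simp [Complex.finrank_real_complex]
  obtain ⟨f, ω, h1, h2, h3, h4, h5, h6, h7, h8, h9⟩ := exists_uniformization' T x hn
  refine ⟨f, ω, h1, h2, h3, h4, h5, h6, h7, ?_, h8⟩
  refine simple ω h1 hζ (N := 1) one_ne_zero ?_
  intro l hl
  rw [one_smul]
  exact (h9 α _ hα).2 l hl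

end Crest.Agent.R272.TrTor2_732
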