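import Crest.Agent.R272.UnB5_894

/-!
Row 272 (S0414), S14-TRANS, part 1 (helper178): Schwarz-Pick transversality.

`g : B → C` a holomorphic covering of complex curves, `h : B → C` holomorphic and not locally
injective somewhere, `C` uniformised by the disc at every point.  At every point `z` with
`h z = g z` the derivative of `h` (in charts) is strictly smaller than the derivative of `g`.
-/

set_option autoImplicit false

open Metric Set Filter Topology Function
open scoped Classical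

namespace Crest.Agent.R272.Tra1_178

open Crest.Agent.R275.Geo Crest.Agent.R275.Core144 Crest.Agent.R273.Map_835
open Crest.Agent.R272.UnB_894

noncomputable section

/-- equality case of the Schwarz lemma for the derivative at the centre -/
theorem schwarz_deriv {F : DD → DD} (hF : Hol F) (h0 : F o = o) :
    (∃ c : ℂ, ‖c‖ = 1 ∧ ∀ s, (F s : ℂ) = c * s) ∨ ‖deriv (ex F) 0‖ < 1 := by
  have hz := ex_zero h0
  have hm : MapsTo (ex F) (ball 0 1) (closedBall (ex F 0) 1) := by
    rw [hz]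
    exact mapsTo_ex
  by_cases h : ‖deriv (ex F) 0‖ < 1
  · exact Or.inr h
  · left
    have hle : ‖deriv (ex F) 0‖ ≤ 1 := by
      have := Complex.norm_deriv_le_div_of_mapsTo_ball (c := 0) (R₁ := 1) (R₂ := 1)
        (f := ex F) hF hm one_pos
      simpa using this
    have he : ‖deriv (ex F) 0‖ = 1 := le_antisymm hle (not_lt.1 h)
    have hd : ‖dslope (ex F) 0 0‖ = 1 / 1 := by
      rw [dslope_same, he]
      norm_num
    obtain ⟨c, hc, hc'⟩ := Complex.affine_of_mapsTo_ball_of_exists_norm_dslope_eq_div' hF hm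
      ⟨0, by simp, hd⟩
    refine ⟨c, by simpa using hc, fun s => ?_⟩
    have := hc' s.2
    simp only [exw_coe] at this
    rw [this, show exw (fun t => (F t : ℂ)) 0 = 0 from hz]
    simp [mul_comm]

variable {B C : Type} [TopologicalSpace B] [TopologicalSpace C] {A' : Atl 1 B} {A : Atl 1 C}

/-- chain rule: the derivative of a map of curves along a local biholomorphism of the disc -/
theorem deriv_rd1_comp {q : DD → B} (hq : LBD A' q) {f : B → C} (hf : HolMap A' A f) (z : DD)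
    {j : A'.ι} {i : A.ι} (hj : q z ∈ (A'.e j).source) (hi : f (q z) ∈ (A.e i).source) :
    deriv (rdD A (fun t => f (q t)) i) (z : ℂ) =
      deriv (rd1 A' A f j i) (co A' j (q z)) * deriv (rdD A' q j) (z : ℂ) := by
  have h1 : DifferentiableAt ℂ (rd1 A' A f j i) (rdD A' q j (z : ℂ)) := by
    rw [rdD_coe]
    refine rd1_diff hf ?_ ?_
    · rw [pt_co]
      exact (A'.e j).map_source hj
    · rw [pt_co, (A'.e j).left_inv hj]
      exact hi
  have h2 : DifferentiableAt ℂ (rdD A' q j) (z : ℂ) := hq.diff z j hj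
  have h3 : rdD A (fun t => f (q t)) i =ᶠ[𝓝 (z : ℂ)] fun w => rd1 A' A f j i (rdD A' q j w) := by
    have h5 := hq.toHolD.eventually_mem hj
    rw [eventually_mk] at h5
    filter_upwards [h5] with w ⟨hw, hw'⟩
    change rdD A (fun t => f (q t)) i ((⟨w, hw⟩ : DD) : ℂ) =
      rd1 A' A f j i (rdD A' q j ((⟨w, hw⟩ : DD) : ℂ))
    rw [rdD_coe, rdD_coe, rd1_co f hw']
  rw [h3.deriv_eq]
  have h4 := (h1.hasDerivAt.comp (z : ℂ) h2.hasDerivAt).deriv
  rw [rdD_coe] at h4
  exact h4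

/-- chain rule: the derivative of `p ∘ F` -/
theorem deriv_rdD_comp {p : DD → C} (hp : LBD A p) {F : DD → DD} (hF : Hol F) (z : DD)
    {i : A.ι} (hi : p (F z) ∈ (A.e i).source) :
    deriv (rdD A (fun t => p (F t)) i) (z : ℂ) =
      deriv (rdD A p i) (F z : ℂ) * deriv (ex F) (z : ℂ) := by
  have hFz : ex F (z : ℂ) = F z := exw_coe _ z
  have h1 : DifferentiableAt ℂ (rdD A p i) (ex F (z : ℂ)) := by
    rw [hFz]
    exact hp.diff (F z) i hi
  have h2 : DifferentiableAt ℂ (ex F) (z : ℂ) := hF.differentiableAt z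
  have h3 : rdD A (fun t => p (F t)) i =ᶠ[𝓝 (z : ℂ)] fun w => rdD A p i (ex F w) := by
    have h5 : ∀ᶠ s : DD in 𝓝 z, True := Eventually.of_forall fun _ => trivial
    rw [eventually_mk] at h5
    filter_upwards [h5] with w ⟨hw, _⟩
    rw [rdD, exw_mk _ hw, ex, exw_mk _ hw, rdD_coe]
  rw [h3.deriv_eq]
  have h4 := (h1.hasDerivAt.comp (z : ℂ) h2.hasDerivAt).deriv
  rw [hFz] at h4
  exact h4

/-- a holomorphic map whose lift to the discs is injective is locally injective -/
theorem locInj_of_lift {p : DD → C} (hp : IsCoveringMap p) {q : DD → B} (hq : IsCoveringMap q)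
    (hqs : Surjective q) {h : B → C} {F : DD → DD} (hF : Continuous F) (hinj : Injective F)
    (e : ∀ t, p (F t) = h (q t)) (x : B) : ∃ N ∈ 𝓝 x, InjOn h N := by
  obtain ⟨t, rfl⟩ := hqs x
  obtain ⟨ep, hpt, hep⟩ := hp.isLocalHomeomorph (F t)
  obtain ⟨eq, hqt, heq⟩ := hq.isLocalHomeomorph t
  -- the neighbourhood of `q t`
  have ho : IsOpen (eq.source ∩ F ⁻¹' ep.source) := eq.open_source.inter (ep.open_source.preimage hF)
  refine ⟨q '' (eq.source ∩ F ⁻¹' ep.source), ?_, ?_⟩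
  · exact (hq.isLocalHomeomorph.isOpenMap _ ho).mem_nhds ⟨t, ⟨hqt, hpt⟩, rfl⟩
  · rintro _ ⟨s, ⟨hs1, hs2⟩, rfl⟩ _ ⟨s', ⟨hs1', hs2'⟩, rfl⟩ hss
    rw [← e, ← e] at hss
    have h1 : F s = F s' := by
      refine ep.injOn hs2 hs2' ?_
      rw [← hep]
      exact hss
    rw [hinj h1]

/-- **Schwarz–Pick transversality.** -/
theorem trans_lt [PreconnectedSpace B] {p : DD → C} (hp : IsCoveringMap p) (hpl : LBD A p)
    {g h : B → C} (hg : HolMap A' A g) (hgc : IsCoveringMap g) (hh : HolMap A' A h)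
    (hram : ∃ z1 : B, ¬ ∃ N ∈ 𝓝 z1, InjOn h N) {z : B} (e : h z = g z) (hpo : p o = g z)
    {j : A'.ι} {i : A.ι} (hj : z ∈ (A'.e j).source) (hi : g z ∈ (A.e i).source) :
    ‖deriv (rd1 A' A h j i) (co A' j z)‖ < ‖deriv (rd1 A' A g j i) (co A' j z)‖ := by
  obtain ⟨q, hqc, hql, hqo, hgq, F, hF, hFo, hpF, -, -⟩ :=
    discs hp hpl hg hgc hh (z0 := z) hpo.symm (e.trans hpo.symm)
  have hj' : q o ∈ (A'.e j).source := by rwa [hqo]
  have hqs : Surjective q := by
    have := lc_of_atl A'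
    exact covering_surjective hqc
  -- `F` is not a rotation
  have hF1 : ‖deriv (ex F) 0‖ < 1 := by
    rcases schwarz_deriv hF hFo with ⟨c, hc, hcF⟩ | h1
    · exfalso
      obtain ⟨z1, hz1⟩ := hram
      refine hz1 (locInj_of_lift hp hqc hqs hF.continuous ?_ hpF z1)
      have hc0 : c ≠ 0 := by
        intro h
        rw [h, norm_zero] at hc
        exact zero_ne_one hc
      intro s s' es
      have h1 : c * (s : ℂ) = c * s' := by rw [← hcF, ← hcF, es]
      exact Subtype.ext (mul_left_cancel₀ hc0 h1)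
    · exact h1
  -- derivatives
  have hQ : deriv (rdD A' q j) (0 : ℂ) ≠ 0 := hql.ne o j hj'
  have hpi : p o ∈ (A.e i).source := by rwa [hpo]
  have hP : deriv (rdD A p i) (0 : ℂ) ≠ 0 := hpl.ne o i hpi
  have d1 : deriv (rdD A (fun t => g (q t)) i) (0 : ℂ) =
      deriv (rd1 A' A g j i) (co A' j z) * deriv (rdD A' q j) (0 : ℂ) := by
    have := deriv_rd1_comp hql hg o (j := j) (i := i) hj' (by rwa [hqo])
    rwa [hqo] at this
  have d2 : deriv (rdD A (fun t => h (q t)) i) (0 : ℂ) =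
      deriv (rd1 A' A h j i) (co A' j z) * deriv (rdD A' q j) (0 : ℂ) := by
    have := deriv_rd1_comp hql hh o (j := j) (i := i) hj' (by rw [hqo, e]; exact hi)
    rwa [hqo] at this
  have d3 : deriv (rdD A (fun t => h (q t)) i) (0 : ℂ) =
      deriv (rdD A p i) (0 : ℂ) * deriv (ex F) (0 : ℂ) := by
    have h1 := deriv_rdD_comp hpl hF o (i := i) (by rwa [hFo])
    rw [hFo] at h1
    simp only [hpF] at h1
    exact h1
  have d4 : deriv (rdD A (fun t => g (q t)) i) (0 : ℂ) = deriv (rdD A p i) (0 : ℂ) := by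
    simp only [hgq]
  have e1 : deriv (rd1 A' A g j i) (co A' j z) * deriv (rdD A' q j) (0 : ℂ) =
      deriv (rdD A p i) (0 : ℂ) := d1.symm.trans d4
  have e2 : deriv (rd1 A' A h j i) (co A' j z) * deriv (rdD A' q j) (0 : ℂ) =
      deriv (rdD A p i) (0 : ℂ) * deriv (ex F) (0 : ℂ) := d2.symm.trans d3
  have n1 := congrArg norm e1
  have n2 := congrArg norm e2
  rw [norm_mul] at n1
  rw [norm_mul, norm_mul] at n2
  have hQn : 0 < ‖deriv (rdD A' q j) (0 : ℂ)‖ := norm_pos_iff.2 hQ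
  have hPn : 0 < ‖deriv (rdD A p i) (0 : ℂ)‖ := norm_pos_iff.2 hP
  nlinarith [mul_lt_mul_of_pos_left hF1 hPn]

/-- version with a uniformisation at every point of `C` -/
theorem trans_ne [PreconnectedSpace B] (huni : ∀ x0 : C, ∃ p : DD → C, IsCoveringMap p ∧
    LBD A p ∧ p o = x0) {g h : B → C} (hg : HolMap A' A g) (hgc : IsCoveringMap g)
    (hh : HolMap A' A h) (hram : ∃ z1 : B, ¬ ∃ N ∈ 𝓝 z1, InjOn h N) {z : B} (e : h z = g z)
    {j : A'.ι} {i : A.ι} (hj : z ∈ (A'.e j).source) (hi : g z ∈ (A.e i).source) :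
    deriv (rd1 A' A h j i) (co A' j z) ≠ deriv (rd1 A' A g j i) (co A' j z) := by
  obtain ⟨p, hp, hpl, hpo⟩ := huni (g z)
  intro h1
  have := trans_lt hp hpl hg hgc hh hram e hpo hj hi
  rw [h1] at this
  exact lt_irrefl _ this

/-- version with automorphisms: `σ (h z) = σ' (g z)` -/
theorem trans_ne_aut [PreconnectedSpace B] (huni : ∀ x0 : C, ∃ p : DD → C, IsCoveringMap p ∧
    LBD A p ∧ p o = x0) {g h : B → C} (hg : HolMap A' A g) (hgc : IsCoveringMap g)
    (hh : HolMap A' A h) (hram : ∃ z1 : B, ¬ ∃ N ∈ 𝓝 z1, InjOn h N) (σ σ' : C ≃ₜ C)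
    (hσ : HolMap A A σ) (hσ' : HolMap A A σ') {z : B} (e : σ (h z) = σ' (g z))
    {j : A'.ι} {i : A.ι} (hj : z ∈ (A'.e j).source) (hi : σ' (g z) ∈ (A.e i).source) :
    deriv (rd1 A' A (fun x => σ (h x)) j i) (co A' j z) ≠
      deriv (rd1 A' A (fun x => σ' (g x)) j i) (co A' j z) := by
  refine trans_ne (g := fun x => σ' (g x)) (h := fun x => σ (h x)) huni (hσ'.comp hg) ?_
    (hσ.comp hh) ?_ e hj hi
  · exact hgc.homeomorph_comp σ'
  · obtain ⟨z1, hz1⟩ := hram
    refine ⟨z1, fun ⟨N, hN, hi⟩ => hz1 ⟨N, hN, fun x hx y hy exy => hi hx hy ?_⟩⟩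
    simp only [exy]

end

end Crest.Agent.R272.Tra1_178
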