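import Mathlib

/-!
Row 272 (S0414), TRANS (helper178), algebraic form for the model of record #6536:

`C^ : δ^8 = τ0^16 - τ1^16, ρ^2 = τ1^8 + i τ0^8`, `F8 : η^8 = ζ^8 - ω^8`,
`s_M = ω^2 τ0^4 - ζ^2 τ1^4`, `s_N = ω^2 (τ1^8 - i τ0^8) - k τ0^2 τ1^2 δ^2 ζ^2`, `k^4 = 8 i`.

* `both_zero` : a common zero of `s_M`, `s_N` is of type (P) (`τ1 = 0`, `ω = 0`) or has all of
  `τ0 τ1 ζ ω δ ρ η` different from zero (and the Jacobian factor `3u^3 + i u^2 - 5u + i`,
  `u = τ^8`, is then nonzero: `jac_ne`);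
* `trans_fderiv` : at such a point the differentials of `s_M` and `s_N` (times units) are
  independent.
-/

set_option autoImplicit false

open Complex Filter Topology

namespace Crest.Agent.R272.Tra2_178

/-- Bezout identity for the quintic `v(v-1)^4 = 8(1+v^2)` and the Jacobian factor -/
theorem bezout (v : ℂ) (h : v * (v - 1) ^ 4 = 8 * (1 + v ^ 2)) :
    3 * v ^ 3 + v ^ 2 + 5 * v - 1 ≠ 0 := by
  intro hR
  have h1 : (207 * v ^ 2 + 3 * v + 230) * (v * (v - 1) ^ 4 - 8 * (1 + v ^ 2)) +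
      (-69 * v ^ 4 + 298 * v ^ 3 - 471 * v ^ 2 + 766 * v + 112) * (3 * v ^ 3 + v ^ 2 + 5 * v - 1) =
      -1952 := by ring
  rw [h, hR] at h1
  norm_num at h1

theorem bezout_u (u : ℂ) (h : u * (u - I) ^ 4 = 8 * I * (1 - u ^ 2)) :
    3 * u ^ 3 + I * u ^ 2 - 5 * u + I ≠ 0 := by
  have hI : I ^ 2 = -1 := I_sq
  obtain ⟨v, rfl⟩ : ∃ v : ℂ, u = I * v := ⟨-I * u, by linear_combination u * hI⟩
  intro hR
  refine bezout v ?_ ?_
  · have h3 : (I * v - I) ^ 4 = (v - 1) ^ 4 := by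
      rw [show I * v - I = I * (v - 1) by ring, mul_pow, I_pow_four, one_mul]
    rw [h3] at h
    refine mul_left_cancel₀ I_ne_zero ?_
    linear_combination h - 8 * I * v ^ 2 * hI
  · refine mul_left_cancel₀ I_ne_zero ?_
    linear_combination -hR + (3 * I * v ^ 3 + I * v ^ 2) * hI

/-- the Jacobian factor -/
theorem jac_ne {t o d k : ℂ} (hk : k ^ 4 = 8 * I) (hC : d ^ 8 = 1 - t ^ 16) (ht : t ≠ 0)
    (hM : o ^ 2 - t ^ 4 = 0) (hN : o ^ 2 * (t ^ 8 - I) - k * t ^ 2 * d ^ 2 = 0) :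
    3 * (t ^ 8) ^ 3 + I * (t ^ 8) ^ 2 - 5 * t ^ 8 + I ≠ 0 := by
  have h1 : t ^ 2 * (t ^ 8 - I) = k * d ^ 2 := by
    refine mul_left_cancel₀ (pow_ne_zero 2 ht) ?_
    linear_combination hN - (t ^ 8 - I) * hM
  refine bezout_u _ ?_
  have h2 : (t ^ 2 * (t ^ 8 - I)) ^ 4 = (k * d ^ 2) ^ 4 := by rw [h1]
  linear_combination h2 + d ^ 8 * hk + 8 * I * hC

/-- affine version of `both_zero` -/
theorem both_zero_aff {t o d r e k : ℂ} (hk : k ^ 4 = 8 * I) (hC : d ^ 8 = 1 - t ^ 16)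
    (hR : r ^ 2 = t ^ 8 + I) (hF : e ^ 8 = 1 - o ^ 8)
    (hM : o ^ 2 - t ^ 4 = 0) (hN : o ^ 2 * (t ^ 8 - I) - k * t ^ 2 * d ^ 2 = 0) :
    (t = 0 ∧ o = 0) ∨ (t ≠ 0 ∧ o ≠ 0 ∧ d ≠ 0 ∧ r ≠ 0 ∧ e ≠ 0) := by
  have hI : I ^ 2 = -1 := I_sq
  by_cases ht : t = 0
  · left
    refine ⟨ht, ?_⟩
    rw [ht] at hM
    have : o ^ 2 = 0 := by linear_combination hM
    exact pow_eq_zero_iff (two_ne_zero) |>.1 this
  · right
    have ho : o ≠ 0 := by
      intro h
      rw [h] at hM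
      have : t ^ 4 = 0 := by linear_combination -hM
      exact ht (pow_eq_zero_iff (by norm_num) |>.1 this)
    have h1 : t ^ 2 * (t ^ 8 - I) = k * d ^ 2 := by
      refine mul_left_cancel₀ (pow_ne_zero 2 ht) ?_
      linear_combination hN - (t ^ 8 - I) * hM
    have hk0 : k ≠ 0 := by
      intro h
      rw [h] at hk
      have : (8 : ℂ) * I = 0 := by rw [← hk]; norm_num
      exact absurd this (mul_ne_zero (by norm_num) I_ne_zero)
    have hd : d ≠ 0 := by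
      intro h
      rw [h] at h1 hC
      have h2 : t ^ 8 - I = 0 := by
        have h3 : t ^ 2 * (t ^ 8 - I) = 0 := by rw [h1]; ring
        exact (mul_eq_zero.1 h3).resolve_left (pow_ne_zero 2 ht)
      have h4 : (2 : ℂ) = 0 := by
        linear_combination -hC + (t ^ 8 + I) * h2 + hI
      exact two_ne_zero h4
    refine ⟨ht, ho, hd, ?_, ?_⟩
    · intro h
      rw [h] at hR
      have h2 : t ^ 8 = -I := by linear_combination -hR
      have h3 : (t ^ 2 * (t ^ 8 - I)) ^ 4 = (k * d ^ 2) ^ 4 := by rw [h1]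
      have h4 : t ^ 8 * (t ^ 8 - I) ^ 4 = 8 * I * (1 - (t ^ 8) ^ 2) := by
        linear_combination h3 + d ^ 8 * hk + 8 * I * hC
      rw [h2] at h4
      have h5 : (-I - I) ^ 4 = 16 := by
        rw [show -I - I = -2 * I by ring, mul_pow, I_pow_four]
        norm_num
      rw [h5] at h4
      have h6 : I * 32 = 0 := by
        linear_combination -h4 + 8 * I * hI
      exact absurd h6 (mul_ne_zero I_ne_zero (by norm_num))
    · intro h
      rw [h] at hF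
      have h2 : d ^ 8 = 0 := by
        have h3 : o ^ 8 = t ^ 16 := by
          have : o ^ 2 = t ^ 4 := by linear_combination hM
          calc o ^ 8 = (o ^ 2) ^ 4 := by ring
            _ = t ^ 16 := by rw [this]; ring
        linear_combination hC + h3 - hF
      exact hd (pow_eq_zero_iff (by norm_num) |>.1 h2)

/-- **common zeros of `s_M` and `s_N`** (homogeneous form) -/
theorem both_zero {t0 t1 z o d r e k : ℂ} (ht : ¬ (t0 = 0 ∧ t1 = 0)) (hz : ¬ (z = 0 ∧ o = 0))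
    (hk : k ^ 4 = 8 * I) (hC : d ^ 8 = t0 ^ 16 - t1 ^ 16)
    (hR : r ^ 2 = t1 ^ 8 + I * t0 ^ 8) (hF : e ^ 8 = z ^ 8 - o ^ 8)
    (hM : o ^ 2 * t0 ^ 4 - z ^ 2 * t1 ^ 4 = 0)
    (hN : o ^ 2 * (t1 ^ 8 - I * t0 ^ 8) - k * t0 ^ 2 * t1 ^ 2 * d ^ 2 * z ^ 2 = 0) :
    t0 ≠ 0 ∧ z ≠ 0 ∧ ((t1 = 0 ∧ o = 0) ∨ (t1 ≠ 0 ∧ o ≠ 0 ∧ d ≠ 0 ∧ r ≠ 0 ∧ e ≠ 0)) := by
  have h1 : t0 ≠ 0 := by
    intro h
    have ht1 : t1 ≠ 0 := fun h' => ht ⟨h, h'⟩
    rw [h] at hM hN
    have h2 : z ^ 2 * t1 ^ 4 = 0 := by linear_combination -hM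
    have h3 : z = 0 := by
      have := (mul_eq_zero.1 h2).resolve_right (pow_ne_zero 4 ht1)
      exact pow_eq_zero_iff two_ne_zero |>.1 this
    have ho : o ≠ 0 := fun h' => hz ⟨h3, h'⟩
    have h4 : o ^ 2 * t1 ^ 8 = 0 := by linear_combination hN
    exact mul_ne_zero (pow_ne_zero 2 ho) (pow_ne_zero 8 ht1) h4
  have h2 : z ≠ 0 := by
    intro h
    have ho : o ≠ 0 := fun h' => hz ⟨h, h'⟩
    rw [h] at hM
    have h4 : o ^ 2 * t0 ^ 4 = 0 := by linear_combination hM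
    exact mul_ne_zero (pow_ne_zero 2 ho) (pow_ne_zero 4 h1) h4
  refine ⟨h1, h2, ?_⟩
  have h3 := both_zero_aff (t := t1 / t0) (o := o / z) (d := d / t0 ^ 2) (r := r / t0 ^ 4)
    (e := e / z) (k := k) hk ?_ ?_ ?_ ?_ ?_
  · rcases h3 with ⟨ha, hb⟩ | ⟨ha, hb, hc, hd, he⟩
    · left
      exact ⟨(div_eq_zero_iff.1 ha).resolve_right h1, (div_eq_zero_iff.1 hb).resolve_right h2⟩
    · right
      refine ⟨?_, ?_, ?_, ?_, ?_⟩
      · rintro rfl; exact ha (zero_div _)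
      · rintro rfl; exact hb (zero_div _)
      · rintro rfl; exact hc (zero_div _)
      · rintro rfl; exact hd (zero_div _)
      · rintro rfl; exact he (zero_div _)
  · field_simp
    exact hC
  · field_simp
    linear_combination hR
  · field_simp
    exact hF
  · field_simp
    linear_combination hM
  · field_simp
    linear_combination hN

/-! ### differentials -/

variable {E : Type*} [NormedAddCommGroup E] [NormedSpace ℂ E]

/-- Cramer's rule for two functionals -/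
theorem lin2 (f g : E →L[ℂ] ℂ) (v1 v2 : E) (h : f v1 * g v2 - f v2 * g v1 ≠ 0) (w0 w1 : ℂ) :
    ∃ v, f v = w0 ∧ g v = w1 := by
  refine ⟨((w0 * g v2 - f v2 * w1) / (f v1 * g v2 - f v2 * g v1)) • v1 +
    ((f v1 * w1 - w0 * g v1) / (f v1 * g v2 - f v2 * g v1)) • v2, ?_, ?_⟩
  · rw [map_add, map_smul, map_smul, smul_eq_mul, smul_eq_mul, div_mul_eq_mul_div,
      div_mul_eq_mul_div, ← add_div, div_eq_iff h]
    ring
  · rw [map_add, map_smul, map_smul, smul_eq_mul, smul_eq_mul, div_mul_eq_mul_div,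
      div_mul_eq_mul_div, ← add_div, div_eq_iff h]
    ring

/-- the differential of `u s` at a zero of `s` -/
theorem hasFDerivAt_unit {x : E} {u s : E → ℂ} {s' : E →L[ℂ] ℂ} (hu : DifferentiableAt ℂ u x)
    (hs : HasFDerivAt s s' x) (h0 : s x = 0) : HasFDerivAt (fun y => u y * s y) (u x • s') x := by
  have h := hu.hasFDerivAt.mul hs
  refine h.congr_fderiv ?_
  rw [h0]
  ext v
  simp

variable {x : E} {k : ℂ} {t o d r e uM uN : E → ℂ}

/-- **transversality of `s_M` and `s_N`** at the common zeros off (P) -/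
theorem trans_fderiv (hk : k ^ 4 = 8 * I) (ht : DifferentiableAt ℂ t x)
    (ho : DifferentiableAt ℂ o x) (hd : DifferentiableAt ℂ d x)
    (hC : ∀ᶠ y in 𝓝 x, d y ^ 8 = 1 - t y ^ 16) (hR : r x ^ 2 = t x ^ 8 + I)
    (hF : e x ^ 8 = 1 - o x ^ 8)
    (loc : d x ≠ 0 → r x ≠ 0 → e x ≠ 0 → ∀ a b : ℂ, ∃ v, fderiv ℂ t x v = a ∧ fderiv ℂ o x v = b)
    (h0 : ¬ (t x = 0 ∧ o x = 0)) (hM : o x ^ 2 - t x ^ 4 = 0)
    (hN : o x ^ 2 * (t x ^ 8 - I) - k * t x ^ 2 * d x ^ 2 = 0)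
    (huM : DifferentiableAt ℂ uM x) (huM0 : uM x ≠ 0)
    (huN : DifferentiableAt ℂ uN x) (huN0 : uN x ≠ 0) (w0 w1 : ℂ) :
    ∃ v, fderiv ℂ (fun y => uM y * (o y ^ 2 - t y ^ 4)) x v = w0 ∧
      fderiv ℂ (fun y => uN y * (o y ^ 2 * (t y ^ 8 - I) - k * t y ^ 2 * d y ^ 2)) x v = w1 := by
  obtain h | ⟨ht0, ho0, hd0, hr0, he0⟩ := both_zero_aff hk hC.self_of_nhds hR hF hM hN
  · exact absurd h h0
  · obtain ⟨v1, h1t, h1o⟩ := loc hd0 hr0 he0 1 0
    obtain ⟨v2, h2t, h2o⟩ := loc hd0 hr0 he0 0 1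
    have Ht := ht.hasFDerivAt
    have Ho := ho.hasFDerivAt
    have Hd := hd.hasFDerivAt
    -- the differential of `d`
    have e1 : ∀ v, 8 * d x ^ 7 * fderiv ℂ d x v = -(16 * t x ^ 15 * fderiv ℂ t x v) := by
      intro v
      have a1 := (Hd.pow 8)
      have a2 := (Ht.pow 16).const_sub (1 : ℂ)
      have a3 := a1.congr_of_eventuallyEq (f₁ := fun y => 1 - t y ^ 16) (by
        filter_upwards [hC] with y hy using hy.symm)
      have a4 := congrArg (fun l : E →L[ℂ] ℂ => l v) (a3.unique a2)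
      simpa using a4
    have sM : HasFDerivAt (fun y => o y ^ 2 - t y ^ 4)
        ((2 * o x) • fderiv ℂ o x - (4 * t x ^ 3) • fderiv ℂ t x) x := by
      refine ((Ho.pow 2).sub (Ht.pow 4)).congr_fderiv ?_
      ext v
      simp
    have sN : HasFDerivAt (fun y => o y ^ 2 * (t y ^ 8 - I) - k * t y ^ 2 * d y ^ 2)
        ((2 * o x * (t x ^ 8 - I)) • fderiv ℂ o x +
          (o x ^ 2 * (8 * t x ^ 7) - 2 * k * t x * d x ^ 2) • fderiv ℂ t x -
          (2 * k * t x ^ 2 * d x) • fderiv ℂ d x) x := by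
      refine (((Ho.pow 2).mul ((Ht.pow 8).sub_const I)).sub
        (((Ht.pow 2).const_mul k).mul (Hd.pow 2))).congr_fderiv ?_
      ext v
      simp
      ring
    have sM' := hasFDerivAt_unit huM sM hM
    have sN' := hasFDerivAt_unit huN sN hN
    rw [sM'.fderiv, sN'.fderiv]
    refine lin2 _ _ v1 v2 ?_ w0 w1
    have f1 := e1 v1
    have f2 := e1 v2
    rw [h1t, mul_one] at f1
    rw [h2t, mul_zero, neg_zero] at f2
    have f3 : fderiv ℂ d x v2 = 0 :=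
      (mul_eq_zero.1 f2).resolve_left (mul_ne_zero (by norm_num) (pow_ne_zero 7 hd0))
    have h1 : t x ^ 2 * (t x ^ 8 - I) = k * d x ^ 2 := by
      refine mul_left_cancel₀ (pow_ne_zero 2 ht0) ?_
      linear_combination hN - (t x ^ 8 - I) * hM
    have hJ := jac_ne hk hC.self_of_nhds ht0 hM hN
    have hCx := hC.self_of_nhds
    simp only [smul_apply, sub_apply,
      add_apply, smul_eq_mul, h1t, h1o, h2t, h2o, f3]
    intro hdet
    have g1 : uM x * uN x * (4 * o x * t x ^ 3 *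
        (3 * (t x ^ 8) ^ 3 + I * (t x ^ 8) ^ 2 - 5 * t x ^ 8 + I)) = 0 := by
      linear_combination d x ^ 8 * hdet - uM x * uN x * (-(4 * o x * t x * d x ^ 8) * h1 +
        (1 / 2) * o x * k * t x ^ 2 * d x ^ 2 * f1 + 8 * o x * t x ^ 17 * h1 -
        16 * o x * t x ^ 7 * d x ^ 8 * hM +
        (-(4 * o x * t x ^ 3 * (t x ^ 8 - I)) - 16 * o x * t x ^ 11) * hCx)
    refine mul_ne_zero (mul_ne_zero huM0 huN0) (mul_ne_zero (mul_ne_zero (mul_ne_zero
      (by norm_num) ho0) (pow_ne_zero 3 ht0)) hJ) g1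

end Crest.Agent.R272.Tra2_178
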