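import Crest.Agent.R272.P1L2_426
import Crest.Agent.R272.Tra3_178

/-!
Row 272 (S0414), CENFIN (helper178): the set of centres (P), (Q), (T), (S), (S') of the model
#6536 on `C^ × F8` is finite.
-/

set_option autoImplicit false
set_option linter.unusedSectionVars false

open Set Filter Topology Complex

namespace Crest.Agent.R272.Tra4_178

open Crest.Agent.R275.Geo Crest.Agent.R275.Core144
open Crest.Agent.R273.Map_835 Crest.Agent.R273.Fam_835 Crest.Agent.R272.DCov_426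
open Crest.Agent.R272.P1F_54 Crest.Agent.R272.Tra3_178
open Crest.Agent.R272.P1S_590 (A1 sec u0 u1)
open Crest.Agent.R272.P1L_426 (Ch F8 CC BB Ch_y0 Ch_y1 F8_y CC_y BB_y)

noncomputable section

/-! ### invariance of `Cen` and `Pt` under a change of frames -/

section Inv

variable {k t0 t1 d r z o e g h : ℂ}

theorem sM_smul : sM (g * t0) (g * t1) (h * z) (h * o) = g ^ 4 * h ^ 2 * sM t0 t1 z o := by
  unfold sM; ring

theorem sN_smul : sN k (g * t0) (g * t1) (g ^ 2 * d) (h * z) (h * o) =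
    g ^ 8 * h ^ 2 * sN k t0 t1 d z o := by
  unfold sN; ring

/-- `Cen` does not depend on the frames -/
theorem cen_smul (hg : g ≠ 0) (hh : h ≠ 0) :
    Cen k (g * t0) (g * t1) (g ^ 2 * d) (g ^ 4 * r) (h * z) (h * o) (h * e) ↔
      Cen k t0 t1 d r z o e := by
  have g2 := pow_ne_zero 2 hg
  have g4 := pow_ne_zero 4 hg
  have g8 := pow_ne_zero 8 hg
  have h2 := pow_ne_zero 2 hh
  unfold Cen
  rw [sM_smul, sN_smul]
  simp only [mul_eq_zero, hg, hh, g2, g4, g8, h2, false_or]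

/-- the vanishing of one of the coordinates of the two curves -/
theorem cen_proj (hc : Cen k t0 t1 d r z o e) :
    (t0 = 0 ∨ t1 = 0 ∨ d = 0 ∨ r = 0) ∧ (z = 0 ∨ o = 0 ∨ e = 0) := by
  rcases hc with ⟨h1, h2⟩ | ⟨h1, h2⟩ | ⟨h1, h2 | h2⟩ | ⟨h1, h2, -⟩ | ⟨h1, h2, -⟩
  · exact ⟨Or.inr (Or.inl h1), Or.inr (Or.inl h2)⟩
  · exact ⟨Or.inl h1, Or.inl h2⟩
  · exact ⟨Or.inl h2, Or.inr (Or.inl h1)⟩
  · exact ⟨Or.inr (Or.inr (Or.inl h2)), Or.inr (Or.inl h1)⟩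
  · exact ⟨Or.inr (Or.inr (Or.inl h1)), Or.inr (Or.inr h2)⟩
  · exact ⟨Or.inr (Or.inr (Or.inr h1)), Or.inr (Or.inr h2)⟩

end Inv

/-! ### finite sets on the line and on its covers -/

/-- zeros of a form in the frames of `A1` -/
def Z1 (G : ℂ → ℂ → ℂ) : Set P1 :=
  {t | ∃ s : Bool, t ∈ (A1.e s).source ∧ G (u0 s (pc s t)) (u1 s (pc s t)) = 0}

theorem finite_Z1 {G : ℂ → ℂ → ℂ} (hG : ∀ s : Bool, {c : ℂ | G (u0 s c) (u1 s c) = 0}.Finite) :
    (Z1 G).Finite := by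
  have h1 : (⋃ s : Bool, pinv s '' {c : ℂ | G (u0 s c) (u1 s c) = 0}).Finite :=
    finite_iUnion fun s => (hG s).image _
  refine h1.subset ?_
  rintro t ⟨s, hs, h0⟩
  refine mem_iUnion.2 ⟨s, pc s t, h0, ?_⟩
  exact pinv_pc (P1S_590.mem_ch1.1 hs).1

/-- finitely many roots -/
theorem finite_pow {n : ℕ} (hn : 0 < n) (a : ℂ) : {c : ℂ | c ^ n = a}.Finite := by
  have h1 : (Polynomial.X ^ n - Polynomial.C a : Polynomial ℂ) ≠ 0 :=
    (Polynomial.monic_X_pow_sub_C a hn.ne').ne_zero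
  refine (Polynomial.finite_setOfPred_isRoot h1).subset ?_
  intro c hc
  have hc' : c ^ n = a := hc
  simp [Polynomial.IsRoot, hc']

theorem finite_a0 : (Z1 fun a _ => a).Finite := by
  refine finite_Z1 fun s => ?_
  cases s
  · simp
  · refine (finite_pow one_pos 0).subset ?_
    intro c hc
    have : c = 0 := hc
    show c ^ 1 = 0
    rw [this]; norm_num

theorem finite_a1 : (Z1 fun _ b => b).Finite := by
  refine finite_Z1 fun s => ?_
  cases s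
  · refine (finite_pow one_pos 0).subset ?_
    intro c hc
    have : c = 0 := hc
    show c ^ 1 = 0
    rw [this]; norm_num
  · simp

/-- zeros of `a^n - b^n` -/
theorem finite_sub {n : ℕ} (hn : 0 < n) : (Z1 fun a b => a ^ n - b ^ n).Finite := by
  refine finite_Z1 fun s => ?_
  cases s
  · refine (finite_pow hn 1).subset ?_
    intro c hc
    have : (1 : ℂ) ^ n - c ^ n = 0 := hc
    show c ^ n = 1
    rw [one_pow] at this
    linear_combination -this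
  · refine (finite_pow hn 1).subset ?_
    intro c hc
    have : c ^ n - (1 : ℂ) ^ n = 0 := hc
    show c ^ n = 1
    rw [one_pow] at this
    linear_combination this

/-- zeros of `b^8 + i a^8` -/
theorem finite_g8 : (Z1 fun a b => b ^ 8 + I * a ^ 8).Finite := by
  refine finite_Z1 fun s => ?_
  cases s
  · refine (finite_pow (n := 8) (by norm_num) (-I)).subset ?_
    intro c hc
    have : c ^ 8 + I * (1 : ℂ) ^ 8 = 0 := hc
    show c ^ 8 = -I
    linear_combination this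
  · refine (finite_pow (n := 8) (by norm_num) I).subset ?_
    intro c hc
    have : (1 : ℂ) ^ 8 + I * c ^ 8 = 0 := hc
    have h9 : I ^ 2 = -1 := I_sq
    show c ^ 8 = I
    linear_combination (-I) * this + c ^ 8 * h9

variable {ρ : Type} [Fintype ρ]

/-- preimages of finite sets -/
theorem finite_preimage {n : ℕ} {M : Type} [TopologicalSpace M] {A : Atl n M} (D : Data A ρ)
    {S : Set M} (hS : S.Finite) : (D.p ⁻¹' S).Finite := by
  have h1 : D.p ⁻¹' S = ⋃ x ∈ S, {q : D.X | D.p q = x} := by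
    ext q
    simp
  rw [h1]
  exact hS.biUnion fun x _ => D.finite_fiber x

/-- the special points of `C^` -/
def SC : Set Ch.X := {q | ∃ s : Bool, Ch.p q ∈ (A1.e s).source ∧
  (u0 s (pc s (Ch.p q)) = 0 ∨ u1 s (pc s (Ch.p q)) = 0 ∨ Ch.y 0 s q = 0 ∨ Ch.y 1 s q = 0)}

/-- the special points of `F8` -/
def SF : Set F8.X := {q | ∃ s : Bool, F8.p q ∈ (A1.e s).source ∧
  (u0 s (pc s (F8.p q)) = 0 ∨ u1 s (pc s (F8.p q)) = 0 ∨ F8.y 0 s q = 0)}

theorem finite_SC : SC.Finite := by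
  have h1 : (Ch.p ⁻¹' (Z1 (fun a _ => a) ∪ Z1 (fun _ b => b) ∪ Z1 (fun a b => a ^ 16 - b ^ 16) ∪
      Z1 (fun a b => b ^ 8 + I * a ^ 8))).Finite :=
    finite_preimage Ch (((finite_a0.union finite_a1).union (finite_sub (by norm_num))).union
      finite_g8)
  refine h1.subset ?_
  rintro q ⟨s, hs, h | h | h | h⟩
  · exact Or.inl (Or.inl (Or.inl ⟨s, hs, h⟩))
  · exact Or.inl (Or.inl (Or.inr ⟨s, hs, h⟩))
  · refine Or.inl (Or.inr ⟨s, hs, ?_⟩)
    have := Ch_y0 hs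
    rw [h] at this
    show u0 s (pc s (Ch.p q)) ^ 16 - u1 s (pc s (Ch.p q)) ^ 16 = 0
    rw [← this]; norm_num
  · refine Or.inr ⟨s, hs, ?_⟩
    have := Ch_y1 hs
    rw [h] at this
    show u1 s (pc s (Ch.p q)) ^ 8 + I * u0 s (pc s (Ch.p q)) ^ 8 = 0
    rw [← this]; norm_num

theorem finite_SF : SF.Finite := by
  have h1 : (F8.p ⁻¹' (Z1 (fun a _ => a) ∪ Z1 (fun _ b => b) ∪
      Z1 (fun a b => a ^ 8 - b ^ 8))).Finite :=
    finite_preimage F8 ((finite_a0.union finite_a1).union (finite_sub (by norm_num)))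
  refine h1.subset ?_
  rintro q ⟨s, hs, h | h | h⟩
  · exact Or.inl (Or.inl ⟨s, hs, h⟩)
  · exact Or.inl (Or.inr ⟨s, hs, h⟩)
  · refine Or.inr ⟨s, hs, ?_⟩
    have := F8_y hs
    rw [h] at this
    show u0 s (pc s (F8.p q)) ^ 8 - u1 s (pc s (F8.p q)) ^ 8 = 0
    rw [← this]; norm_num

/-- the set of centres, in the frames of `A1` -/
def ZZ (k : ℂ) : Set (Ch.X × F8.X) :=
  {q | ∃ s s' : Bool, Ch.p q.1 ∈ (A1.e s).source ∧ F8.p q.2 ∈ (A1.e s').source ∧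
    Cen k (u0 s (pc s (Ch.p q.1))) (u1 s (pc s (Ch.p q.1))) (Ch.y 0 s q.1) (Ch.y 1 s q.1)
      (u0 s' (pc s' (F8.p q.2))) (u1 s' (pc s' (F8.p q.2))) (F8.y 0 s' q.2)}

theorem ZZ_subset (k : ℂ) : ZZ k ⊆ SC ×ˢ SF := by
  rintro q ⟨s, s', hs, hs', hc⟩
  exact ⟨⟨s, hs, (cen_proj hc).1⟩, ⟨s', hs', (cen_proj hc).2⟩⟩

/-- **the set of centres is finite** -/
theorem finite_ZZ (k : ℂ) : (ZZ k).Finite := (finite_SC.prod finite_SF).subset (ZZ_subset k)

/-! ### independence of the frames -/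

/-- transition of the homogeneous coordinates of `P1` -/
theorem u_tr {s s2 : Bool} {t : P1} (hs : t ∈ (A1.e s).source) (hs2 : t ∈ (A1.e s2).source) :
    u0 s (pc s t) = P1S_590.O1.g s s2 t * u0 s2 (pc s2 t) ∧
      u1 s (pc s t) = P1S_590.O1.g s s2 t * u1 s2 (pc s2 t) :=
  ⟨P1L_426.HP.tr0 s s2 t ⟨hs, hs2⟩, P1L_426.HP.tr1 s s2 t ⟨hs, hs2⟩⟩

theorem Ch_tr {s s2 : Bool} {q : Ch.X} (hs : Ch.p q ∈ (A1.e s).source)
    (hs2 : Ch.p q ∈ (A1.e s2).source) :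
    Ch.y 0 s q = P1S_590.O1.g s s2 (Ch.p q) ^ 2 * Ch.y 0 s2 q ∧
      Ch.y 1 s q = P1S_590.O1.g s s2 (Ch.p q) ^ 4 * Ch.y 1 s2 q := by
  have h0 := Ch.y_tr 0 hs hs2
  have h1 := Ch.y_tr 1 hs hs2
  have e0 : Ch.L 0 = P1S_590.O 2 := rfl
  have e1 : Ch.L 1 = P1S_590.O 4 := rfl
  rw [e0, P1S_590.O_g] at h0
  rw [e1, P1S_590.O_g] at h1
  exact ⟨h0, h1⟩

theorem F8_tr {s s2 : Bool} {q : F8.X} (hs : F8.p q ∈ (A1.e s).source)
    (hs2 : F8.p q ∈ (A1.e s2).source) :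
    F8.y 0 s q = P1S_590.O1.g s s2 (F8.p q) * F8.y 0 s2 q := by
  have h0 := F8.y_tr 0 hs hs2
  have e0 : F8.L 0 = P1S_590.O 1 := rfl
  rw [e0, P1S_590.O_g, pow_one] at h0
  exact h0

/-- `Cen` in the frames `s`, `s'` at the point `q` -/
def CenAt (k : ℂ) (s s' : Bool) (q : Ch.X × F8.X) : Prop :=
  Cen k (u0 s (pc s (Ch.p q.1))) (u1 s (pc s (Ch.p q.1))) (Ch.y 0 s q.1) (Ch.y 1 s q.1)
      (u0 s' (pc s' (F8.p q.2))) (u1 s' (pc s' (F8.p q.2))) (F8.y 0 s' q.2)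

theorem cenAt_iff {k : ℂ} {s s2 s' s2' : Bool} {q : Ch.X × F8.X}
    (hs : Ch.p q.1 ∈ (A1.e s).source) (hs2 : Ch.p q.1 ∈ (A1.e s2).source)
    (hs' : F8.p q.2 ∈ (A1.e s').source) (hs2' : F8.p q.2 ∈ (A1.e s2').source) :
    CenAt k s s' q ↔ CenAt k s2 s2' q := by
  have h1 := (u_tr hs hs2)
  have h2 := (u_tr hs' hs2')
  unfold CenAt
  rw [h1.1, h1.2, h2.1, h2.2, (Ch_tr hs hs2).1, (Ch_tr hs hs2).2, F8_tr hs' hs2']
  exact cen_smul (P1S_590.O1.ne_zero _ _ _) (P1S_590.O1.ne_zero _ _ _)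

theorem mem_ZZ {k : ℂ} {q : Ch.X × F8.X} :
    q ∈ ZZ k ↔ ∃ s s' : Bool, Ch.p q.1 ∈ (A1.e s).source ∧ F8.p q.2 ∈ (A1.e s').source ∧
      CenAt k s s' q := Iff.rfl

/-- membership in the set of centres can be tested in any frames -/
theorem mem_ZZ_iff {k : ℂ} {s s' : Bool} {q : Ch.X × F8.X}
    (hs : Ch.p q.1 ∈ (A1.e s).source) (hs' : F8.p q.2 ∈ (A1.e s').source) :
    q ∈ ZZ k ↔ CenAt k s s' q := by
  constructor
  · rintro ⟨s2, s2', h1, h2, h3⟩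
    exact (cenAt_iff hs h1 hs' h2).2 h3
  · intro h
    exact ⟨s, s', hs, hs', h⟩

/-- the point conditions hold at every point of `C^ × F8` -/
theorem pt_model {k : ℂ} (hk : k ^ 4 = 8 * I) {s s' : Bool} {q : Ch.X × F8.X}
    (hs : Ch.p q.1 ∈ (A1.e s).source) (hs' : F8.p q.2 ∈ (A1.e s').source) :
    Pt k (u0 s (pc s (Ch.p q.1))) (u1 s (pc s (Ch.p q.1))) (Ch.y 0 s q.1) (Ch.y 1 s q.1)
      (u0 s' (pc s' (F8.p q.2))) (u1 s' (pc s' (F8.p q.2))) (F8.y 0 s' q.2) where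
  hk := hk
  ht h := (P1S_590.u_ne s (pc s (Ch.p q.1))).elim (fun h1 => h1 h.1) (fun h1 => h1 h.2)
  hz h := (P1S_590.u_ne s' (pc s' (F8.p q.2))).elim (fun h1 => h1 h.1) (fun h1 => h1 h.2)
  hC := Ch_y0 hs
  hR := Ch_y1 hs
  hF := F8_y hs'

end

end Crest.Agent.R272.Tra4_178
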