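import Crest.Agent.R272.UB9_20
import Crest.Agent.R272.Tq3_916
import Crest.Agent.R272.Tq2_916
import Crest.Agent.R272.Cur2_297

/-!
# R272, leaf UB-DISC (helper20), part 10: the arcs over `σ = 0` lie in the zero section

`S : SqD D sw` a square with `sh (z (σ,t)) = σ ℓ(t) (1, s₀ t, s₁ t)`. Then the arc of `S` in the sheet
`b` is `t ↦ zs (c_b t, c'_b t)` (`zs` = the zero section of 916), `tt (c_b t) = s₀ t`,
`tt (c'_b t) = s₁ t`, `c_{-1} = iv ∘ c_1`, `c'_{-1} = c'_1`; `c'` is constant if `s₁` is.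
-/

set_option autoImplicit false
set_option linter.unusedSectionVars false

open Set Filter Topology OnePoint

namespace Crest.Agent.R272.UB_20

open Crest.Agent.R272.Gr_559 (GData)
open Crest.Agent.R273.Fam_835
open Crest.Agent.R272.Tp3_60 Crest.Agent.R272.Tq2_916 Crest.Agent.R272.Tq3_916
open Crest.Agent.R272.Cur_297 (Par Cv Cset Eqn tt kk iv negP continuous_tt continuous_kk)
open Crest.Agent.R272.Tp2_60 (Std)

noncomputable section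

local notation "I" => unitInterval

/-! ### `P1` -/

theorem br_neg (x y : ℂ) : br (-x, y) = negP (br (x, y)) := by
  rcases eq_or_ne y 0 with rfl | hy
  · rw [br_zero, br_zero]; rfl
  · rw [br_of_ne hy, br_of_ne hy, neg_div]; rfl

theorem br_neg' (x y : ℂ) : br (y, -x) = negP (br (y, x)) := by
  rcases eq_or_ne x 0 with rfl | hx
  · rw [neg_zero, br_zero]; rfl
  · rw [br_of_ne hx, br_of_ne (neg_ne_zero.2 hx), div_neg]; rfl

theorem Km_neg (m : ℂ) (hm : m ≠ 0) (k : OnePoint ℂ) : Km m (negP k) = negP (Km m k) := by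
  induction k using OnePoint.rec with
  | infty =>
    show Tp1_60.rat _ _ = negP (Tp1_60.rat _ _)
    simp only [Cur_297.negP_infty, Tp1_60.nn_inf, Tp1_60.dd_inf]
    rw [show (0 : ℂ) * 1 + m * 0 = 0 by ring, Tp1_60.rat_zero]
    rfl
  | coe c =>
    show Tp1_60.rat _ _ = negP (Tp1_60.rat _ _)
    simp only [Cur_297.negP_coe, Tp1_60.nn_coe, Tp1_60.dd_coe]
    rw [show (0 : ℂ) * (-c) + m * 1 = m by ring, show (0 : ℂ) * c + m * 1 = m by ring,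
      Tp1_60.rat_ne hm, Tp1_60.rat_ne hm, Cur_297.negP_coe]
    congr 1
    ring

/-- `T = (a/b) t + c₅` at a finite point -/
theorem Tm_coe (P : Par) {a b x s : ℂ} (hb : b ≠ 0) (h : b * (s - P.c 5) = a * x) :
    Tm P a b ((x : ℂ) : OnePoint ℂ) = ((s : ℂ) : OnePoint ℂ) := by
  show Tp1_60.rat _ _ = _
  rw [Tp1_60.nn_coe, Tp1_60.dd_coe, show (0 : ℂ) * x + b * 1 = b by ring, Tp1_60.rat_ne hb]
  congr 1
  field_simp
  linear_combination -h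

theorem Vm_zero (a β : ℂ) (hβ : β ≠ 0) : Vm a β 0 ((0 : ℂ) : OnePoint ℂ) = ((0 : ℂ) : OnePoint ℂ) := by
  show Tp1_60.rat _ _ = _
  rw [Tp1_60.nn_coe, Tp1_60.dd_coe, show (0 : ℂ) * 0 + β * 1 = β by ring, Tp1_60.rat_ne hβ]
  congr 1
  ring_nf

variable {N : Type} [TopologicalSpace N] {F : Fam 3 N} {D : GData F} {sw : Bool}
variable (S : SqD D sw) {P : Par} (L : Loc P N) (X : Set (E6 N))
  (hX : ∀ y : E6 N, y.1 ∈ L.sh.source → (y ∈ X ↔ RelX L y))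
  (hXD : ∀ y : E6 N, y ∈ X ↔ toA y ∈ D.X1)

/-- the square in the coordinates of the cluster point -/
structure Adp (S : SqD D sw) (L : Loc P N) (s : Fin 2 → ℝ → ℂ) : Prop where
  h0 : (0 : ℂ × ℂ × ℂ) ∈ L.sh.target
  z0 : ∀ t ∈ Icc (0 : ℝ) 1, S.z (0, t) = L.sh.symm 0
  sh : ∃ ℓ : ℝ → ℂ, (∀ t, ℓ t ≠ 0) ∧ ∀ p ∈ sqr, S.z p ∈ L.sh.source →
    L.sh (S.z p) = (p.1 * ℓ p.2, p.1 * ℓ p.2 * s 0 p.2, p.1 * ℓ p.2 * s 1 p.2)

variable {S L} {s : Fin 2 → ℝ → ℂ} (hA : Adp S L s)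

include hA

theorem Adp.src : L.sh.symm 0 ∈ L.sh.source := L.sh.map_target hA.h0

include hX hXD

/-- the slopes for `σ > 0` -/
theorem slope_pos {p : ℝ × ℝ} (hp : p ∈ starSet) (h0 : 0 < p.1) (hz : S.z p ∈ L.sh.source)
    (i : Fin 2) : L.b i (S.z p) * (s i p.2 - P.c 5) = L.a (S.z p) * (S.A i p / S.A0 p) := by
  obtain ⟨ℓ, hℓ, hsh⟩ := hA.sh
  have hps : p ∈ sqr := starSet_sub hp
  have h1 : toA (toA.symm (S.pt p (S.kc 1 p))) ∈ D.X1 := by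
    rw [Homeomorph.apply_symm_apply]
    exact S.mem_star (Or.inl rfl) hp
  have h2 := (hX (toA.symm (S.pt p (S.kc 1 p))) hz).1 ((hXD _).2 h1)
  have h3 := hsh p hps hz
  have hc : (p.1 : ℂ) * ℓ p.2 ≠ 0 := mul_ne_zero (SqD.ofReal_ne h0) (hℓ _)
  fin_cases i
  · have r1 := h2.r1
    change L.b 0 (S.z p) * ((L.sh (S.z p)).2.1 - P.c 5 * (L.sh (S.z p)).1) *
      Tp1_60.dd (((S.A 0 p / S.A0 p : ℂ) : OnePoint ℂ)) = L.a (S.z p) * (L.sh (S.z p)).1 *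
      Tp1_60.nn (((S.A 0 p / S.A0 p : ℂ) : OnePoint ℂ)) at r1
    rw [h3, Tp1_60.nn_coe, Tp1_60.dd_coe] at r1
    show L.b 0 (S.z p) * (s 0 p.2 - P.c 5) = L.a (S.z p) * (S.A 0 p / S.A0 p)
    refine mul_left_cancel₀ hc ?_
    linear_combination r1
  · have r1 := h2.r2
    change L.b 1 (S.z p) * ((L.sh (S.z p)).2.2 - P.c 5 * (L.sh (S.z p)).1) *
      Tp1_60.dd (((S.A 1 p / S.A0 p : ℂ) : OnePoint ℂ)) = L.a (S.z p) * (L.sh (S.z p)).1 *
      Tp1_60.nn (((S.A 1 p / S.A0 p : ℂ) : OnePoint ℂ)) at r1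
    rw [h3, Tp1_60.nn_coe, Tp1_60.dd_coe] at r1
    show L.b 1 (S.z p) * (s 1 p.2 - P.c 5) = L.a (S.z p) * (S.A 1 p / S.A0 p)
    refine mul_left_cancel₀ hc ?_
    linear_combination r1

/-- the slopes at `σ = 0` -/
theorem slope_zero {t : ℝ} (ht : t ∈ Icc (0 : ℝ) 1) (i : Fin 2) :
    L.b i (L.sh.symm 0) * (s i t - P.c 5) = L.a (L.sh.symm 0) * (S.A i (0, t) / S.A0 (0, t)) := by
  have hp : ((0 : ℝ), t) ∈ sqr := ⟨⟨le_refl _, zero_le_one⟩, ht⟩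
  have hz := hA.z0 t ht
  have hsrc := hA.src
  have hne : (𝓝[Ioo (0 : ℝ) 1] 0).NeBot := left_nhdsWithin_Ioo_neBot one_pos
  have ht1 : Tendsto (fun σ : ℝ => (σ, t)) (𝓝[Ioo 0 1] 0) (𝓝[sqr] ((0 : ℝ), t)) := by
    refine tendsto_nhdsWithin_iff.2 ⟨?_, ?_⟩
    · have : Continuous fun σ : ℝ => (σ, t) := by fun_prop
      exact (this.tendsto 0).mono_left nhdsWithin_le_nhds
    · filter_upwards [self_mem_nhdsWithin] with σ hσ
      exact ⟨⟨hσ.1.le, hσ.2.le⟩, ht⟩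
  have hzt : Tendsto (fun σ : ℝ => S.z (σ, t)) (𝓝[Ioo 0 1] 0) (𝓝 (L.sh.symm 0)) := by
    have := (S.hz _ hp).tendsto.comp ht1
    rwa [hz] at this
  have hev : ∀ᶠ σ in 𝓝[Ioo (0 : ℝ) 1] 0, S.z (σ, t) ∈ L.sh.source :=
    hzt.eventually (L.sh.open_source.mem_nhds hsrc)
  have hl : Tendsto (fun σ : ℝ => L.b i (S.z (σ, t)) * (s i t - P.c 5)) (𝓝[Ioo 0 1] 0)
      (𝓝 (L.b i (L.sh.symm 0) * (s i t - P.c 5))) :=
    ((L.contAt_b i hsrc).tendsto.comp hzt).mul tendsto_const_nhds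
  have hr : Tendsto (fun σ : ℝ => L.a (S.z (σ, t)) * (S.A i (σ, t) / S.A0 (σ, t)))
      (𝓝[Ioo 0 1] 0) (𝓝 (L.a (L.sh.symm 0) * (S.A i (0, t) / S.A0 (0, t)))) := by
    refine ((L.contAt_a hsrc).tendsto.comp hzt).mul ?_
    exact ((S.cA i _ hp).tendsto.comp ht1).div ((S.cA0 _ hp).tendsto.comp ht1) (S.nA0 _ hp)
  refine tendsto_nhds_unique hl (hr.congr' ?_)
  filter_upwards [hev, self_mem_nhdsWithin] with σ h1 h2
  have hst : ((σ : ℝ), t) ∈ starSet := ⟨⟨h2.1.le, h2.2.le⟩, ht, fun h => absurd h h2.2.ne⟩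
  exact (slope_pos X hX hXD hA hst h2.1 h1 i).symm

/-- the coordinate `T` of the arc -/
theorem T_zero {t : ℝ} (ht : t ∈ Icc (0 : ℝ) 1) (i : Fin 2) :
    Tm P (L.a (L.sh.symm 0)) (L.b i (L.sh.symm 0)) (S.tc (0, t) i) = ((s i t : ℂ) : OnePoint ℂ) :=
  Tm_coe P (L.b0 i _ hA.src) (slope_zero X hX hXD hA ht i)

omit hX hXD in
/-- the coordinate `V` of the arc -/
theorem V_zero {t : ℝ} : L.vv (L.sh.symm 0) (S.vc (0, t)) = ((0 : ℂ) : OnePoint ℂ) := by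
  have e1 : S.vc (0, t) = ((0 : ℂ) : OnePoint ℂ) := by
    unfold SqD.vc
    congr 1
    simp
  have e2 : L.sh (L.sh.symm 0) = (0 : ℂ × ℂ × ℂ) := L.sh.right_inv hA.h0
  have e3 : Loc.ee P (0 : ℂ × ℂ × ℂ) = 0 := by simp [Loc.ee]
  rw [Loc.vv, e1, e2, e3]
  exact Vm_zero _ _ (mul_ne_zero (L.b0 0 _ hA.src) (L.b0 1 _ hA.src))

/-! ### the paths in the curve -/

/-- the point of the arc in `X` -/
def ya (b : ℂ) (hb : b = 1 ∨ b = -1) (t : I) : {y : X | y.1.1 ∈ L.sh.source} :=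
  ⟨⟨toA.symm (S.pt (0, (t : ℝ)) (S.kc b (0, (t : ℝ)))), (hXD _).2 (by
    rw [Homeomorph.apply_symm_apply]
    exact S.mem_star hb (SqD.star0 t))⟩, by
    show S.z (0, (t : ℝ)) ∈ L.sh.source
    rw [hA.z0 _ t.2]
    exact hA.src⟩

theorem ya_cont (b : ℂ) (hb : b = 1 ∨ b = -1) : Continuous (ya X hXD hA b hb) := by
  refine Continuous.subtype_mk (Continuous.subtype_mk ?_ _) _
  have h1 := S.arc_cont (fun _ => True) (fun _ _ => trivial) b hb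
  exact toA.symm.continuous.comp (continuous_subtype_val.comp (continuous_subtype_val.comp h1))

/-- standard coordinates of the arc -/
def sa (b : ℂ) (hb : b = 1 ∨ b = -1) (t : I) : Tp2_60.Amb (Cv P) :=
  ((L.hom X hX).symm (ya X hXD hA b hb t)).1.1

theorem sa_cont (b : ℂ) (hb : b = 1 ∨ b = -1) : Continuous (sa X hX hXD hA b hb) :=
  continuous_subtype_val.comp (continuous_subtype_val.comp
    ((L.hom X hX).symm.continuous.comp (ya_cont X hX hXD hA b hb)))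

theorem sa_fro (b : ℂ) (hb : b = 1 ∨ b = -1) (t : I) :
    L.fro (sa X hX hXD hA b hb t) = toA.symm (S.pt (0, (t : ℝ)) (S.kc b (0, (t : ℝ)))) := by
  have h1 := (L.hom X hX).apply_symm_apply (ya X hXD hA b hb t)
  exact congrArg (fun y => y.1.1) h1

theorem sa_eq (b : ℂ) (hb : b = 1 ∨ b = -1) (t : I) :
    (sa X hX hXD hA b hb t).1 = 0 ∧
    tt (sa X hX hXD hA b hb t).2.1 = ((s 0 t : ℂ) : OnePoint ℂ) ∧
    kk (sa X hX hXD hA b hb t).2.1 = Km (L.m 0 (L.sh.symm 0)) (S.kc b (0, (t : ℝ))) ∧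
    tt (sa X hX hXD hA b hb t).2.2.1 = ((s 1 t : ℂ) : OnePoint ℂ) ∧
    kk (sa X hX hXD hA b hb t).2.2.1 = Km (L.m 1 (L.sh.symm 0)) ((S.rB (0, (t : ℝ)) : ℂ)) ∧
    (sa X hX hXD hA b hb t).2.2.2 = ((0 : ℂ) : OnePoint ℂ) := by
  have hz : S.z (0, (t : ℝ)) = L.sh.symm 0 := hA.z0 _ t.2
  refine ⟨?_, ?_, ?_, ?_, ?_, ?_⟩
  · show L.sh (S.z (0, (t : ℝ))) = 0
    rw [hz]
    exact L.sh.right_inv hA.h0
  · show Tm P (L.a (S.z (0, (t : ℝ)))) (L.b 0 (S.z (0, (t : ℝ)))) (S.tc (0, (t : ℝ)) 0) = _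
    rw [hz]
    exact T_zero X hX hXD hA t.2 0
  · show Km (L.m 0 (S.z (0, (t : ℝ)))) (S.kc b (0, (t : ℝ))) = _
    rw [hz]
  · show Tm P (L.a (S.z (0, (t : ℝ)))) (L.b 1 (S.z (0, (t : ℝ)))) (S.tc (0, (t : ℝ)) 1) = _
    rw [hz]
    exact T_zero X hX hXD hA t.2 1
  · show Km (L.m 1 (S.z (0, (t : ℝ)))) ((S.rB (0, (t : ℝ)) : ℂ)) = _
    rw [hz]
  · show L.vv (S.z (0, (t : ℝ))) (S.vc (0, (t : ℝ))) = _
    rw [hz]
    exact V_zero hA

/-- the path in the first curve -/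
def c1 (b : ℂ) (hb : b = 1 ∨ b = -1) : C(I, Cv P) :=
  ⟨fun t => (sa X hX hXD hA b hb t).2.1,
    (continuous_fst.comp continuous_snd).comp (sa_cont X hX hXD hA b hb)⟩

/-- the path in the second curve -/
def c2 (b : ℂ) (hb : b = 1 ∨ b = -1) : C(I, Cv P) :=
  ⟨fun t => (sa X hX hXD hA b hb t).2.2.1,
    (continuous_fst.comp (continuous_snd.comp continuous_snd)).comp (sa_cont X hX hXD hA b hb)⟩

theorem tt_c1 (b : ℂ) (hb : b = 1 ∨ b = -1) (t : I) :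
    tt (c1 X hX hXD hA b hb t) = ((s 0 t : ℂ) : OnePoint ℂ) := (sa_eq X hX hXD hA b hb t).2.1

theorem tt_c2 (b : ℂ) (hb : b = 1 ∨ b = -1) (t : I) :
    tt (c2 X hX hXD hA b hb t) = ((s 1 t : ℂ) : OnePoint ℂ) := (sa_eq X hX hXD hA b hb t).2.2.2.1

/-- the arc is in the zero section -/
theorem arc_zst (b : ℂ) (hb : b = 1 ∨ b = -1) (t : I) :
    S.pt (0, (t : ℝ)) (S.kc b (0, (t : ℝ))) =
      toA (L.fro (zst (c1 X hX hXD hA b hb t, c2 X hX hXD hA b hb t))) := by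
  have h1 := sa_fro X hX hXD hA b hb t
  have h2 := sa_eq X hX hXD hA b hb t
  have h3 : zst (c1 X hX hXD hA b hb t, c2 X hX hXD hA b hb t) = sa X hX hXD hA b hb t :=
    Prod.ext h2.1.symm (Prod.ext rfl (Prod.ext rfl h2.2.2.2.2.2.symm))
  rw [h3, h1, Homeomorph.apply_symm_apply]

theorem c2_neg (t : I) : c2 X hX hXD hA (-1) (Or.inr rfl) t = c2 X hX hXD hA 1 (Or.inl rfl) t := by
  have h1 := sa_eq X hX hXD hA (-1) (Or.inr rfl) t
  have h2 := sa_eq X hX hXD hA 1 (Or.inl rfl) t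
  exact Cur_297.ext_c (h1.2.2.2.1.trans h2.2.2.2.1.symm)
    (h1.2.2.2.2.1.trans h2.2.2.2.2.1.symm)

omit hX hXD hA in
theorem kc_neg (p : ℝ × ℝ) : S.kc (-1) p = negP (S.kc 1 p) := by
  have h1 : (hom S.r (-1) p) = (-(hom S.r 1 p).1, (hom S.r 1 p).2) := by
    refine Prod.ext ?_ rfl
    show (-1 : ℂ) * _ * _ = -((1 : ℂ) * _ * _)
    ring
  unfold SqD.kc
  cases sw
  · show br (hom S.r (-1) p) = negP (br (hom S.r 1 p))
    rw [h1]
    exact br_neg _ _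
  · show br ((hom S.r (-1) p).2, (hom S.r (-1) p).1) =
      negP (br ((hom S.r 1 p).2, (hom S.r 1 p).1))
    rw [h1]
    exact br_neg' _ _

theorem c1_neg (t : I) :
    c1 X hX hXD hA (-1) (Or.inr rfl) t = iv (c1 X hX hXD hA 1 (Or.inl rfl) t) := by
  have h1 := sa_eq X hX hXD hA (-1) (Or.inr rfl) t
  have h2 := sa_eq X hX hXD hA 1 (Or.inl rfl) t
  refine Cur_297.ext_c (h1.2.1.trans h2.2.1.symm) ?_
  show kk (sa X hX hXD hA (-1) (Or.inr rfl) t).2.1 =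
    negP (kk (sa X hX hXD hA 1 (Or.inl rfl) t).2.1)
  rw [h1.2.2.1, h2.2.2.1, kc_neg, Km_neg _ (L.m0 0 _ hA.src)]

omit hX hXD hA in
/-- a path over a constant is constant -/
theorem const_of_tt (g : C(I, Cv P)) {x : OnePoint ℂ} (h : ∀ t, tt (g t) = x) (t : I) :
    g t = g 0 := by
  have hf : ({g 0, iv (g 0)} : Set (Cv P)).Finite := Set.toFinite _
  obtain ⟨y, -, hy⟩ := (isPreconnected_univ (α := I)).eqOn_const_of_mapsTo
    (T := {g 0, iv (g 0)}) (f := g) hf.isDiscrete g.continuous.continuousOn (by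
      intro t _
      rcases Cur_297.eq_or_eq_iv ((h 0).trans (h t).symm) with h1 | h1
      · exact Or.inl h1
      · exact Or.inr h1) ⟨g 0, Or.inl rfl⟩
  rw [hy (mem_univ t), hy (mem_univ 0)]
  rfl

/-- **identification of the arcs with the zero section** -/
theorem arcs_zst {x : ℂ} (hs1 : ∀ t : I, s 1 t = x) : ∃ (c : C(I, Cv P)) (c' : Cv P),
    (∀ t : I, tt (c t) = ((s 0 t : ℂ) : OnePoint ℂ)) ∧ tt c' = ((x : ℂ) : OnePoint ℂ) ∧
    (∀ t : I, S.pt (0, (t : ℝ)) (S.kc 1 (0, (t : ℝ))) = toA (L.fro (zst (c t, c')))) ∧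
    (∀ t : I, S.pt (0, (t : ℝ)) (S.kc (-1) (0, (t : ℝ))) = toA (L.fro (zst (iv (c t), c')))) := by
  have hc2 : ∀ t, c2 X hX hXD hA 1 (Or.inl rfl) t = c2 X hX hXD hA 1 (Or.inl rfl) 0 :=
    const_of_tt _ (x := ((x : ℂ) : OnePoint ℂ)) (fun t => by rw [tt_c2, hs1])
  refine ⟨c1 X hX hXD hA 1 (Or.inl rfl), c2 X hX hXD hA 1 (Or.inl rfl) 0,
    fun t => tt_c1 X hX hXD hA 1 _ t, ?_, fun t => ?_, fun t => ?_⟩
  · rw [tt_c2, hs1]
  · rw [arc_zst X hX hXD hA, hc2]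
  · rw [arc_zst X hX hXD hA _ (Or.inr rfl), c1_neg, c2_neg, hc2]

end

end Crest.Agent.R272.UB_20
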