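import Crest.Agent.R272.UB10_20
import Crest.Agent.R272.Act1_302
import Crest.Agent.R272.Arc2_297
import Crest.Agent.R272.As156_338
import Crest.Agent.R272.Ref1_246

/-!
# R272, leaf UB-DISC (helper20), part 11: the periods of the arcs 1, 3, 4 die

* `ZData`   : the zero section `zE : C × C → A.X` (916), the swap, the stabiliser of the base point;
* `avoid`   : the points over the square are not in the orbit of the antidiagonal of `zE`;
* `hr_sq`   : the two arcs of a square are homotopic rel end points after any map `A.X → M`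
              continuous off that orbit;
* `dies_sq`, `dies_all` : 338's `Dies`.
-/

set_option autoImplicit false
set_option linter.unusedSectionVars false

open Set Filter Topology OnePoint

namespace Crest.Agent.R272.UB_20

open Crest.Agent.R272.Gr_559 (GData)
open Crest.Agent.R273.Fam_835
open Crest.Agent.R272.Tp3_60 Crest.Agent.R272.Tq2_916 Crest.Agent.R272.Tq3_916
open Crest.Agent.R272.Cur_297 (Par Cv Cset Eqn tt kk iv negP continuous_tt continuous_kk Pz Cz cur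
  seg ze arc tt_arc eq_arc)
open Crest.Agent.R272.Act_302 (GAct)
open Crest.Agent.R272.AJ_956 Crest.Agent.R272.As15_338

noncomputable section

local notation "I" => unitInterval

section gen

variable {N : Type} [TopologicalSpace N] {F : Fam 3 N} {D : GData F} {sw : Bool}
variable {G : Type} [Group G] [MulAction G N] (A : GAct D G) {P : Par} (L : Loc P N)

/-- off the flat `f0 = 0`, or over the base point and off the antidiagonal -/
def WL (D : GData F) (L : Loc P N) (zt : N × (Fin 2 → OnePoint ℂ)) : Prop :=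
  D.f0 zt.1 ≠ 0 ∨ (zt.1 = L.sh.symm 0 ∧
    Tm P (L.a (L.sh.symm 0)) (L.b 0 (L.sh.symm 0)) (zt.2 0) ≠
      Tm P (L.a (L.sh.symm 0)) (L.b 1 (L.sh.symm 0)) (zt.2 1))

/-- the zero section -/
structure ZData (s₀ : G) (zE : Cv P × Cv P → A.X) : Prop where
  val : ∀ x, A.val (zE x) = toA (L.fro (zst x))
  swap : ∀ x, s₀ • zE x = zE x.swap
  stab : ∀ g : G, g • L.sh.symm 0 = L.sh.symm 0 → g = 1 ∨ g = s₀
  f0 : D.f0 (L.sh.symm 0) = 0
  h0 : (0 : ℂ × ℂ × ℂ) ∈ L.sh.target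

variable {A L} {s₀ : G} {zE : Cv P × Cv P → A.X} (H : ZData A L s₀ zE)
include H

theorem ZData.fst (x : Cv P × Cv P) : (A.val (zE x)).1 = L.sh.symm 0 := by
  rw [H.val]
  rfl

theorem ZData.t0 (x : Cv P × Cv P) :
    Tm P (L.a (L.sh.symm 0)) (L.b 0 (L.sh.symm 0)) ((A.val (zE x)).2.1 0) = tt x.1 := by
  have hz := L.sh.map_target H.h0
  rw [H.val]
  exact Tm_tm (L.a0 _ hz) (L.b0 0 _ hz) _

theorem ZData.t1 (x : Cv P × Cv P) :
    Tm P (L.a (L.sh.symm 0)) (L.b 1 (L.sh.symm 0)) ((A.val (zE x)).2.1 1) = tt x.2 := by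
  have hz := L.sh.map_target H.h0
  rw [H.val]
  exact Tm_tm (L.a0 _ hz) (L.b0 1 _ hz) _

theorem avoid {y : A.X} (hy : WL D L ((A.val y).1, (A.val y).2.1)) (g : G) (c : Cv P) :
    y ≠ g • zE (c, iv c) := by
  intro he
  have h1 : (A.val y).1 = g • L.sh.symm 0 := by
    rw [he, A.val_smul, A.act_z, H.fst]
  rcases hy with h2 | ⟨h2, h3⟩
  · apply h2
    show D.f0 (A.val y).1 = 0
    rw [h1, A.f0_smul, H.f0, mul_zero]
  · have h4 : g • L.sh.symm 0 = L.sh.symm 0 := by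
      rw [← h1]; exact h2
    have h5 : ∃ x : Cv P × Cv P, tt x.1 = tt x.2 ∧ y = zE x := by
      rcases H.stab g h4 with rfl | rfl
      · exact ⟨(c, iv c), rfl, by rw [he, one_smul]⟩
      · exact ⟨(iv c, c), rfl, by rw [he, H.swap]; rfl⟩
    obtain ⟨x, hx, rfl⟩ := h5
    apply h3
    show Tm P (L.a (L.sh.symm 0)) (L.b 0 (L.sh.symm 0)) ((A.val (zE x)).2.1 0) =
      Tm P (L.a (L.sh.symm 0)) (L.b 1 (L.sh.symm 0)) ((A.val (zE x)).2.1 1)
    rw [H.t0, H.t1, hx]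

/-- the square satisfies the condition -/
theorem wl_sq {S : SqD D sw} {s : Fin 2 → ℝ → ℂ} (X : Set (E6 N))
    (hX : ∀ y : E6 N, y.1 ∈ L.sh.source → (y ∈ X ↔ RelX L y))
    (hXD : ∀ y : E6 N, y ∈ X ↔ toA y ∈ D.X1) (hA : Adp S L s)
    (hne : ∀ t ∈ Icc (0 : ℝ) 1, s 0 t ≠ s 1 t) : ∀ p ∈ sqr, WL D L (S.z p, S.tc p) := by
  rintro ⟨σ, t⟩ hp
  rcases eq_or_lt_of_le hp.1.1 with h0 | h0
  · simp only at h0
    subst h0
    right
    refine ⟨hA.z0 t hp.2, ?_⟩
    show Tm P _ _ (S.tc (0, t) 0) ≠ Tm P _ _ (S.tc (0, t) 1)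
    rw [T_zero X hX hXD hA hp.2, T_zero X hX hXD hA hp.2]
    exact fun h => hne t hp.2 (OnePoint.coe_injective h)
  · left
    show D.f0 (S.z (σ, t)) ≠ 0
    rw [S.ef _ hp]
    exact mul_ne_zero (SqD.ofReal_ne h0) (S.nA0 _ hp)

/-- **the two arcs are homotopic** after any map continuous off the orbit of the antidiagonal -/
theorem hr_sq {S : SqD D sw} {s : Fin 2 → ℝ → ℂ} (X : Set (E6 N))
    (hX : ∀ y : E6 N, y.1 ∈ L.sh.source → (y ∈ X ↔ RelX L y))
    (hXD : ∀ y : E6 N, y ∈ X ↔ toA y ∈ D.X1) (hA : Adp S L s) {x : ℂ}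
    (hs1 : ∀ t ∈ Icc (0 : ℝ) 1, s 1 t = x) (hne : ∀ t ∈ Icc (0 : ℝ) 1, s 0 t ≠ x)
    {M : Type} [TopologicalSpace M] (f : A.X → M)
    (hf : ContinuousOn f {y | ∀ (g : G) (c : Cv P), y ≠ g • zE (c, iv c)}) :
    ∃ (c : C(I, Cv P)) (c' : Cv P), (∀ t : I, tt (c t) = ((s 0 t : ℂ) : OnePoint ℂ)) ∧
      tt c' = ((x : ℂ) : OnePoint ℂ) ∧
      ∃ (a b a' b' : M) (p : Path a b) (p' : Path a' b'),
        (∀ t, p t = f (zE (c t, c'))) ∧ (∀ t, p' t = f (zE (iv (c t), c'))) ∧ HR p p' := by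
  have hW := wl_sq H X hX hXD hA (fun t ht => by rw [hs1 t ht]; exact hne t ht)
  obtain ⟨c, c', h1, h2, h3, h4⟩ := arcs_zst X hX hXD hA (x := x) (fun t => hs1 t t.2)
  refine ⟨c, c', h1, h2, ?_⟩
  let f0 : SqD.XW D (WL D L) → M := fun y => f (show A.X from y.1)
  have hf0 : Continuous f0 := by
    refine hf.comp_continuous (f := fun y : SqD.XW D (WL D L) => (show A.X from y.1)) ?_ ?_
    · exact continuous_subtype_val
    · exact fun y g c => avoid H y.2 g c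
  let q1 : Path (S.arc (WL D L) hW 1 (Or.inl rfl) 0) (S.arc (WL D L) hW 1 (Or.inl rfl) 1) :=
    ⟨⟨S.arc (WL D L) hW 1 (Or.inl rfl), S.arc_cont _ hW _ _⟩, rfl, rfl⟩
  let q2 : Path (S.arc (WL D L) hW (-1) (Or.inr rfl) 0) (S.arc (WL D L) hW (-1) (Or.inr rfl) 1) :=
    ⟨⟨S.arc (WL D L) hW (-1) (Or.inr rfl), S.arc_cont _ hW _ _⟩, rfl, rfl⟩
  have h5 : HR q1 q2 := S.arcs (WL D L) hW q1 q2 (fun _ => rfl) (fun _ => rfl)
  refine ⟨_, _, _, _, q1.map hf0, q2.map hf0, fun t => ?_, fun t => ?_, HR_map h5 ⟨f0, hf0⟩⟩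
  · show f (show A.X from (S.arc (WL D L) hW 1 (Or.inl rfl) t).1) = _
    congr 1
    apply A.val_injective
    rw [H.val, ← h3]
    rfl
  · show f (show A.X from (S.arc (WL D L) hW (-1) (Or.inr rfl) t).1) = _
    congr 1
    apply A.val_injective
    rw [H.val, ← h4]
    rfl

omit H in
/-- every sheet of a segment -/
theorem dies_of_lift {T M : Type} [TopologicalSpace T] [TopologicalSpace M] {q : Cz × Cz → T}
    (hq : Continuous q) (inc : T → M) {j : ℕ} {c : C(I, Cz)}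
    (hc : ∀ t : I, tt (c t) = ((seg j t : ℂ) : OnePoint ℂ))
    (h : Dies (cur Pz) hq inc c) : Dies (cur Pz) hq inc (arc j) := by
  rcases eq_arc hc with h1 | h1
  · exact h.congr (fun t => (h1 t).symm)
  · refine h.iv (fun t => ?_)
    show arc j t = iv (c t)
    rw [h1 t, Cur_297.iv_iv]

end gen

/-! ### the curve `cur Pz` -/

section cz

variable {N : Type} [TopologicalSpace N] {F : Fam 3 N} {D : GData F} {sw : Bool}
variable {G : Type} [Group G] [MulAction G N] {A : GAct D G} {L : Loc Pz N}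
variable {s₀ : G} {zE : Cz × Cz → A.X} (H : ZData A L s₀ zE)
include H

/-- **the period of the arc dies** -/
theorem dies_sq {S : SqD D sw} {s : Fin 2 → ℝ → ℂ} (X : Set (E6 N))
    (hX : ∀ y : E6 N, y.1 ∈ L.sh.source → (y ∈ X ↔ RelX L y))
    (hXD : ∀ y : E6 N, y ∈ X ↔ toA y ∈ D.X1) (hA : Adp S L s) {x : ℂ}
    (hs1 : ∀ t ∈ Icc (0 : ℝ) 1, s 1 t = x) (hne : ∀ t ∈ Icc (0 : ℝ) 1, s 0 t ≠ x)
    {M : Type} [TopologicalSpace M] (f : A.X → M)
    (hf : ContinuousOn f {y | ∀ (g : G) (c : Cz), y ≠ g • zE (c, iv c)})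
    {T : Type} [TopologicalSpace T] {q : Cz × Cz → T} (hq : Continuous q) (inc : T → M)
    (hinc : ∀ x : Cz × Cz, x.2 ≠ iv x.1 → inc (q x) = f (zE x)) {j : ℕ}
    (hs0 : ∀ t ∈ Icc (0 : ℝ) 1, s 0 t = seg j t) : Dies (cur Pz) hq inc (arc j) := by
  obtain ⟨c, c', h1, h2, a, b, a', b', p, p', h3, h4, h5⟩ := hr_sq H X hX hXD hA hs1 hne f hf
  refine dies_of_lift (c := c) hq inc (fun t => by rw [h1, hs0 t t.2]) ?_
  have hcc : ∀ t : I, tt (c t) ≠ tt c' := by
    intro t h6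
    rw [h1, h2] at h6
    exact hne t t.2 (OnePoint.coe_injective h6)
  refine dies_of c' p p' (fun t => ?_) (fun t => ?_) h5
  · rw [h3, hinc]
    intro h6
    apply hcc t
    show tt (c t) = tt c'
    have h7 : c' = iv (c t) := h6
    rw [h7]
    rfl
  · rw [h4]
    show f (zE (iv (c t), c')) = inc (q (iv (c t), c'))
    rw [hinc]
    intro h6
    apply hcc t
    have h7 : c' = iv (iv (c t)) := h6
    rw [h7, Cur_297.iv_iv]

end cz

end

end Crest.Agent.R272.UB_20
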