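import Mathlib

/-!
# R272, leaf UB-DISC (helper20), part 1 (Mathlib only)

* `HR p q` : heterogeneous homotopy relation rel end points;
* `square` : the two ways round a square are homotopic;
* `slide` : two squares with the same side columns: bottoms homotopic iff tops are;
* `starSet`, `pillow` : **pillow theorem**: two continuous maps `Ψ₊, Ψ₋` of the square minus the two
  corners `(1,0)`, `(1,1)` which agree on the sides `t = 0`, `t = 1` and on the open side `σ = 1`;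
  if short segments round the two missing corners have homotopic images, then the images of the
  side `σ = 0` are homotopic rel end points.
* `corner_of_charts` : the corner hypothesis for the resolution `y² = αβ`, charts `(β,w)`, `(α,w')`.
-/

set_option autoImplicit false

open Set Topology

namespace Crest.Agent.R272.UB_20

noncomputable section

local notation "I" => unitInterval

universe u v

variable {X : Type u} [TopologicalSpace X] {Y : Type v} [TopologicalSpace Y]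

/-! ## Heterogeneous homotopy of paths -/

/-- heterogeneous homotopy rel end points -/
def HR {a b a' b' : X} (p : Path a b) (q : Path a' b') : Prop :=
  ContinuousMap.HomotopicRel (p : C(I, X)) (q : C(I, X)) {0, 1}

theorem HR.refl {a b : X} (p : Path a b) : HR p p := ContinuousMap.HomotopicRel.refl _

theorem HR.symm {a b a' b' : X} {p : Path a b} {q : Path a' b'} (h : HR p q) : HR q p :=
  ContinuousMap.HomotopicRel.symm h

theorem HR.trans {a b a' b' a'' b'' : X} {p : Path a b} {q : Path a' b'} {r : Path a'' b''}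
    (h : HR p q) (h' : HR q r) : HR p r :=
  ContinuousMap.HomotopicRel.trans h h'

theorem HR.source_eq {a b a' b' : X} {p : Path a b} {q : Path a' b'} (h : HR p q) : a = a' := by
  obtain ⟨F⟩ := h
  have h1 := F.fst_eq_snd (x := (0 : I)) (by simp)
  have h2 : p 0 = q 0 := h1
  rwa [p.source, q.source] at h2

theorem HR.target_eq {a b a' b' : X} {p : Path a b} {q : Path a' b'} (h : HR p q) : b = b' := by
  obtain ⟨F⟩ := h
  have h1 := F.fst_eq_snd (x := (1 : I)) (by simp)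
  have h2 : p 1 = q 1 := h1
  rwa [p.target, q.target] at h2

theorem HR_iff {a b : X} (p q : Path a b) : HR p q ↔ p.Homotopic q := Iff.rfl

theorem HR_of_eq {a b a' b' : X} {p : Path a b} {q : Path a' b'} (h : ∀ t, p t = q t) :
    HR p q := by
  have : (p : C(I, X)) = (q : C(I, X)) := by
    ext t
    exact h t
  unfold HR
  rw [this]
  exact ContinuousMap.HomotopicRel.refl _

theorem HR_comp {a b c a' b' c' : X} {p : Path a b} {r : Path b c} {p' : Path a' b'}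
    {r' : Path b' c'} (h : HR p p') (h' : HR r r') : HR (p.trans r) (p'.trans r') := by
  obtain rfl := h.source_eq
  obtain rfl := h.target_eq
  obtain rfl := h'.target_eq
  exact Path.Homotopic.hcomp h h'

theorem HR_rev {a b a' b' : X} {p : Path a b} {p' : Path a' b'} (h : HR p p') :
    HR p.symm p'.symm := by
  obtain rfl := h.source_eq
  obtain rfl := h.target_eq
  exact Path.Homotopic.symm₂ h

theorem HR_map {a b a' b' : X} {p : Path a b} {p' : Path a' b'} (h : HR p p') (f : C(X, Y)) :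
    HR (p.map f.continuous) (p'.map f.continuous) := by
  obtain rfl := h.source_eq
  obtain rfl := h.target_eq
  exact Path.Homotopic.map h f

/-! ## Squares -/

/-- the two ways round a square are homotopic -/
theorem square (H : C(I × I, X)) {a b c d : X} (p : Path a b) (q : Path c d) (l : Path a c)
    (r : Path b d) (hp : ∀ t, p t = H (0, t)) (hq : ∀ t, q t = H (1, t))
    (hl : ∀ s, l s = H (s, 0)) (hr : ∀ s, r s = H (s, 1)) :
    (p.trans r).Homotopic (l.trans q) := by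
  let f : C(I, X) := ⟨fun t => H (0, t), by fun_prop⟩
  let g : C(I, X) := ⟨fun t => H (1, t), by fun_prop⟩
  let F : f.Homotopy g := ⟨⟨fun x => H x, by fun_prop⟩, fun t => rfl, fun t => rfl⟩
  let idp : Path (0 : I) 1 := ⟨⟨fun t => t, continuous_id⟩, rfl, rfl⟩
  have h := Path.Homotopic.map_trans_evalAt F idp
  have h1 : HR p (idp.map (map_continuous f)) := HR_of_eq (fun t => hp t)
  have h2 : HR q (idp.map (map_continuous g)) := HR_of_eq (fun t => hq t)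
  have h3 : HR l (F.evalAt 0) := HR_of_eq (fun t => hl t)
  have h4 : HR r (F.evalAt 1) := HR_of_eq (fun t => hr t)
  exact ((HR_comp h1 h4).trans ((HR_iff _ _).2 h)).trans (HR_comp h3 h2).symm

/-- cancellation of a common right factor -/
theorem cancel_right {a b c : X} {p q : Path a b} (r : Path b c)
    (h : (p.trans r).Homotopic (q.trans r)) : p.Homotopic q := by
  have e : ∀ p : Path a b, p.Homotopic ((p.trans r).trans r.symm) := by
    intro p
    refine Path.Homotopic.trans ?_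
      (Path.Homotopic.symm ⟨Path.Homotopy.transAssoc p r r.symm⟩)
    exact Path.Homotopic.trans (Path.Homotopic.symm ⟨Path.Homotopy.transRefl p⟩)
      (Path.Homotopic.hcomp (Path.Homotopic.refl p) ⟨Path.Homotopy.reflTransSymm r⟩)
  exact (e p).trans ((Path.Homotopic.hcomp h (Path.Homotopic.refl _)).trans (e q).symm)

/-- **sliding**: two squares with the same side columns; if the tops are homotopic then so are
the bottoms -/
theorem slide (H₁ H₂ : C(I × I, X)) (h0 : ∀ s, H₁ (s, 0) = H₂ (s, 0))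
    (h1 : ∀ s, H₁ (s, 1) = H₂ (s, 1)) {a b c d a' b' c' d' : X} (p₁ : Path a b) (p₂ : Path a' b')
    (q₁ : Path c d) (q₂ : Path c' d') (hp₁ : ∀ t, p₁ t = H₁ (0, t)) (hp₂ : ∀ t, p₂ t = H₂ (0, t))
    (hq₁ : ∀ t, q₁ t = H₁ (1, t)) (hq₂ : ∀ t, q₂ t = H₂ (1, t)) (hq : HR q₁ q₂) : HR p₁ p₂ := by
  have ea : a = a' := by
    rw [← p₁.source, ← p₂.source, hp₁, hp₂, h0]
  have eb : b = b' := by
    rw [← p₁.target, ← p₂.target, hp₁, hp₂, h1]
  subst ea
  subst eb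
  obtain rfl := hq.source_eq
  obtain rfl := hq.target_eq
  let l : Path a c := ⟨⟨fun s => H₁ (s, 0), by fun_prop⟩, by
    change H₁ (0, 0) = a; rw [← hp₁, p₁.source], by
    change H₁ (1, 0) = c; rw [← hq₁, q₁.source]⟩
  let r : Path b d := ⟨⟨fun s => H₁ (s, 1), by fun_prop⟩, by
    change H₁ (0, 1) = b; rw [← hp₁, p₁.target], by
    change H₁ (1, 1) = d; rw [← hq₁, q₁.target]⟩
  have e1 : (p₁.trans r).Homotopic (l.trans q₁) :=
    square H₁ p₁ q₁ l r hp₁ hq₁ (fun _ => rfl) (fun _ => rfl)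
  have e2 : (p₂.trans r).Homotopic (l.trans q₂) :=
    square H₂ p₂ q₂ l r hp₂ hq₂ (fun s => h0 s) (fun s => h1 s)
  refine cancel_right r (e1.trans (Path.Homotopic.trans ?_ e2.symm))
  exact Path.Homotopic.hcomp (Path.Homotopic.refl l) hq


/-! ## The pillow theorem -/

/-- the unit square without the corners `(1,0)`, `(1,1)`; coordinates `(σ, t)` -/
def starSet : Set (ℝ × ℝ) :=
  {p | (0 ≤ p.1 ∧ p.1 ≤ 1) ∧ (0 ≤ p.2 ∧ p.2 ≤ 1) ∧ (p.1 = 1 → 0 < p.2 ∧ p.2 < 1)}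

theorem starSet_star : StarConvex ℝ ((0 : ℝ), (1 / 2 : ℝ)) starSet := by
  intro q hq a b ha hb hab
  obtain ⟨⟨h1, h2⟩, ⟨h3, h4⟩, h5⟩ := hq
  obtain ⟨q1, q2⟩ := q
  simp only at h1 h2 h3 h4 h5
  have e1 : (a • ((0 : ℝ), (1 / 2 : ℝ)) + b • (q1, q2)).1 = b * q1 := by simp
  have e2 : (a • ((0 : ℝ), (1 / 2 : ℝ)) + b • (q1, q2)).2 = a * (1 / 2) + b * q2 := by simp
  have hb1 : b ≤ 1 := by linarith
  refine ⟨⟨?_, ?_⟩, ⟨?_, ?_⟩, ?_⟩
  · rw [e1]; positivity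
  · rw [e1]; nlinarith
  · rw [e2]; positivity
  · rw [e2]; nlinarith
  · rw [e1, e2]
    intro h
    have hb' : b = 1 := by
      by_contra hne
      have : b < 1 := lt_of_le_of_ne hb1 hne
      nlinarith
    have ha' : a = 0 := by linarith
    subst hb'
    have := h5 (by linarith)
    rw [ha']
    constructor <;> linarith [this.1, this.2]

instance : SimplyConnectedSpace starSet := by
  have h : (starSet).Nonempty := ⟨(0, 1 / 2), by
    refine ⟨⟨by norm_num, by norm_num⟩, ⟨by norm_num, by norm_num⟩, ?_⟩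
    intro h
    norm_num at h⟩
  have : ContractibleSpace starSet := starSet_star.contractibleSpace h
  exact SimplyConnectedSpace.ofContractible _

/-- the segment between two points of the plane inside `starSet` -/
def sg (a b c d : ℝ) (h : ∀ θ : I, (((1 - (θ : ℝ)) * a + θ * c, (1 - (θ : ℝ)) * b + θ * d) : ℝ × ℝ)
    ∈ starSet) (h0 : (a, b) ∈ starSet) (h1 : (c, d) ∈ starSet) :
    Path (⟨(a, b), h0⟩ : starSet) ⟨(c, d), h1⟩ where
  toFun θ := ⟨_, h θ⟩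
  continuous_toFun := by
    refine Continuous.subtype_mk ?_ _
    fun_prop
  source' := by
    apply Subtype.ext
    simp
  target' := by
    apply Subtype.ext
    simp


/-- the side `σ = 0` -/
def sideA : Path (⟨(0, 0), by
    refine ⟨⟨by norm_num, by norm_num⟩, ⟨by norm_num, by norm_num⟩, fun h => by norm_num at h⟩⟩ :
    starSet) ⟨(0, 1), by
    refine ⟨⟨by norm_num, by norm_num⟩, ⟨by norm_num, by norm_num⟩, fun h => by norm_num at h⟩⟩ :=
  sg 0 0 0 1 (fun θ => by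
    have h1 := θ.2.1
    have h2 := θ.2.2
    refine ⟨⟨by simp, by simp⟩, ⟨by simpa using h1, by simpa using h2⟩, fun h => by
      simp at h⟩) _ _

@[simp] theorem sideA_apply (θ : I) : ((sideA θ : starSet) : ℝ × ℝ) = (0, (θ : ℝ)) := by
  show (((1 - (θ : ℝ)) * 0 + θ * 0, (1 - (θ : ℝ)) * 0 + θ * 1) : ℝ × ℝ) = _
  simp

/-- the short segment near the corner `(1,0)` -/
def cut0 (ρ : ℝ) (h0 : 0 < ρ) (h1 : ρ < 1) : Path (⟨(1 - ρ, 0), by
    refine ⟨⟨by simp only; linarith, by simp only; linarith⟩, ⟨by norm_num, by norm_num⟩, fun h => by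
      simp only at h; linarith⟩⟩ : starSet) ⟨(1, ρ), by
    refine ⟨⟨by norm_num, by norm_num⟩, ⟨h0.le, h1.le⟩, fun _ => ⟨h0, h1⟩⟩⟩ :=
  sg (1 - ρ) 0 1 ρ (fun θ => by
    have h2 := θ.2.1
    have h3 := θ.2.2
    refine ⟨⟨by simp only; nlinarith, by simp only; nlinarith⟩, ⟨by simp only; nlinarith, by
      simp only; nlinarith⟩, fun h => ?_⟩
    simp only at h ⊢
    have : (θ : ℝ) = 1 := by
      by_contra hne
      have : (θ : ℝ) < 1 := lt_of_le_of_ne h3 hne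
      nlinarith
    rw [this]
    constructor <;> linarith) _ _

theorem cut0_apply (ρ : ℝ) (h0 : 0 < ρ) (h1 : ρ < 1) (θ : I) :
    ((cut0 ρ h0 h1 θ : starSet) : ℝ × ℝ) = (1 - ρ * (1 - θ), ρ * θ) := by
  show (((1 - (θ : ℝ)) * (1 - ρ) + θ * 1, (1 - (θ : ℝ)) * 0 + θ * ρ) : ℝ × ℝ) = _
  ext <;> simp <;> ring

/-- the short segment near the corner `(1,1)` -/
def cut1 (ρ : ℝ) (h0 : 0 < ρ) (h1 : ρ < 1) : Path (⟨(1 - ρ, 1), by
    refine ⟨⟨by simp only; linarith, by simp only; linarith⟩, ⟨by norm_num, by norm_num⟩, fun h => by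
      simp only at h; linarith⟩⟩ : starSet) ⟨(1, 1 - ρ), by
    refine ⟨⟨by norm_num, by norm_num⟩, ⟨by simp only; linarith, by simp only; linarith⟩,
      fun _ => ⟨by simp only; linarith, by simp only; linarith⟩⟩⟩ :=
  sg (1 - ρ) 1 1 (1 - ρ) (fun θ => by
    have h2 := θ.2.1
    have h3 := θ.2.2
    refine ⟨⟨by simp only; nlinarith, by simp only; nlinarith⟩, ⟨by simp only; nlinarith, by
      simp only; nlinarith⟩, fun h => ?_⟩
    simp only at h ⊢
    have : (θ : ℝ) = 1 := by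
      by_contra hne
      have : (θ : ℝ) < 1 := lt_of_le_of_ne h3 hne
      nlinarith
    rw [this]
    constructor <;> linarith) _ _

theorem cut1_apply (ρ : ℝ) (h0 : 0 < ρ) (h1 : ρ < 1) (θ : I) :
    ((cut1 ρ h0 h1 θ : starSet) : ℝ × ℝ) = (1 - ρ * (1 - θ), 1 - ρ * θ) := by
  show (((1 - (θ : ℝ)) * (1 - ρ) + θ * 1, (1 - (θ : ℝ)) * 1 + θ * (1 - ρ)) : ℝ × ℝ) = _
  ext <;> simp <;> ring

/-- **pillow theorem** -/
theorem pillow (Ψ₁ Ψ₂ : C(starSet, X)) (h0 : ∀ p : starSet, p.1.2 = 0 → Ψ₁ p = Ψ₂ p)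
    (h1 : ∀ p : starSet, p.1.2 = 1 → Ψ₁ p = Ψ₂ p) (hL : ∀ p : starSet, p.1.1 = 1 → Ψ₁ p = Ψ₂ p)
    {ρ₀ ρ₁ : ℝ} (a₀ : 0 < ρ₀) (b₀ : ρ₀ < 1) (a₁ : 0 < ρ₁) (b₁ : ρ₁ < 1)
    (hc0 : HR ((cut0 ρ₀ a₀ b₀).map Ψ₁.continuous) ((cut0 ρ₀ a₀ b₀).map Ψ₂.continuous))
    (hc1 : HR ((cut1 ρ₁ a₁ b₁).map Ψ₁.continuous) ((cut1 ρ₁ a₁ b₁).map Ψ₂.continuous)) :
    HR (sideA.map Ψ₁.continuous) (sideA.map Ψ₂.continuous) := by
  have m00 : ((0 : ℝ), (0 : ℝ)) ∈ starSet := by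
    refine ⟨⟨by norm_num, by norm_num⟩, ⟨by norm_num, by norm_num⟩, fun h => by norm_num at h⟩
  have m01 : ((0 : ℝ), (1 : ℝ)) ∈ starSet := by
    refine ⟨⟨by norm_num, by norm_num⟩, ⟨by norm_num, by norm_num⟩, fun h => by norm_num at h⟩
  have mσ0 : ((1 - ρ₀ : ℝ), (0 : ℝ)) ∈ starSet := by
    refine ⟨⟨by simp only; linarith, by simp only; linarith⟩, ⟨by norm_num, by norm_num⟩, fun h => by
      simp only at h; linarith⟩
  have mσ1 : ((1 - ρ₁ : ℝ), (1 : ℝ)) ∈ starSet := by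
    refine ⟨⟨by simp only; linarith, by simp only; linarith⟩, ⟨by norm_num, by norm_num⟩, fun h => by
      simp only at h; linarith⟩
  have m1 : ((1 : ℝ), ρ₀) ∈ starSet :=
    ⟨⟨by norm_num, by norm_num⟩, ⟨a₀.le, b₀.le⟩, fun _ => ⟨a₀, b₀⟩⟩
  have m1' : ((1 : ℝ), 1 - ρ₁) ∈ starSet :=
    ⟨⟨by norm_num, by norm_num⟩, ⟨by simp only; linarith, by simp only; linarith⟩,
      fun _ => ⟨by simp only; linarith, by simp only; linarith⟩⟩
  let p1 := sg 0 0 (1 - ρ₀) 0 (fun θ => by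
    have h2 := θ.2.1
    have h3 := θ.2.2
    refine ⟨⟨by simp only; nlinarith, by simp only; nlinarith⟩, ⟨by simp, by simp⟩, fun h => ?_⟩
    exfalso
    simp only at h
    nlinarith) m00 mσ0
  let p2 := sg 1 ρ₀ 1 (1 - ρ₁) (fun θ => by
    have h2 := θ.2.1
    have h3 := θ.2.2
    have e1 : 0 < (1 - (θ : ℝ)) * ρ₀ + θ * (1 - ρ₁) := by
      rcases eq_or_lt_of_le h2 with h | h
      · rw [← h]; simpa using a₀
      · have : 0 < (θ : ℝ) * (1 - ρ₁) := mul_pos h (by linarith)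
        nlinarith
    have e2 : (1 - (θ : ℝ)) * ρ₀ + θ * (1 - ρ₁) < 1 := by
      rcases eq_or_lt_of_le h2 with h | h
      · rw [← h]; simpa using b₀
      · have : 0 < (θ : ℝ) * ρ₁ := mul_pos h a₁
        nlinarith
    exact ⟨⟨by simp, by simp⟩, ⟨e1.le, e2.le⟩, fun _ => ⟨e1, e2⟩⟩) m1 m1'
  let p3 := sg (1 - ρ₁) 1 0 1 (fun θ => by
    have h2 := θ.2.1
    have h3 := θ.2.2
    refine ⟨⟨by simp only; nlinarith, by simp only; nlinarith⟩, ⟨by simp, by simp⟩, fun h => ?_⟩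
    exfalso
    simp only at h
    nlinarith) mσ1 m01
  have hAB : sideA.Homotopic (p1.trans ((cut0 ρ₀ a₀ b₀).trans (p2.trans
      ((cut1 ρ₁ a₁ b₁).symm.trans p3)))) := SimplyConnectedSpace.paths_homotopic _ _
  have key : ∀ Ψ : C(starSet, X), HR (sideA.map Ψ.continuous)
      ((p1.map Ψ.continuous).trans (((cut0 ρ₀ a₀ b₀).map Ψ.continuous).trans
      ((p2.map Ψ.continuous).trans (((cut1 ρ₁ a₁ b₁).map Ψ.continuous).symm.trans
      (p3.map Ψ.continuous))))) := by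
    intro Ψ
    have := HR_map ((HR_iff _ _).2 hAB) Ψ
    simpa only [Path.map_trans, Path.map_symm] using this
  refine (key Ψ₁).trans (HR.trans ?_ (key Ψ₂).symm)
  have q1 : HR (p1.map Ψ₁.continuous) (p1.map Ψ₂.continuous) :=
    HR_of_eq (fun t => h0 _ (by
      show (1 - (t : ℝ)) * 0 + t * 0 = 0
      ring))
  have q2 : HR (p2.map Ψ₁.continuous) (p2.map Ψ₂.continuous) :=
    HR_of_eq (fun t => hL _ (by
      show (1 - (t : ℝ)) * 1 + t * 1 = 1
      ring))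
  have q3 : HR (p3.map Ψ₁.continuous) (p3.map Ψ₂.continuous) :=
    HR_of_eq (fun t => h1 _ (by
      show (1 - (t : ℝ)) * 1 + t * 1 = 1
      ring))
  exact HR_comp q1 (HR_comp hc0 (HR_comp q2 (HR_comp (HR_rev hc1) q3)))


/-! ## The corner: resolution of `y² = αβ` -/

/-- gluing a function from `{g < 1}` and `{0 < g}` -/
theorem glue_cont {W : Type*} [TopologicalSpace W] (g : W → ℝ) (hg : Continuous g) (F1 F2 : W → X)
    (h1 : ContinuousOn F1 {w | g w < 1}) (h2 : ContinuousOn F2 {w | 0 < g w})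
    (h : ∀ w, 0 < g w → g w < 1 → F1 w = F2 w) :
    Continuous (fun w => if g w < 1 then F1 w else F2 w) := by
  rw [continuous_iff_continuousAt]
  intro w
  by_cases hw : g w < 1
  · have ho : {w | g w < 1} ∈ 𝓝 w := (isOpen_lt hg continuous_const).mem_nhds hw
    refine (h1.continuousAt ho).congr ?_
    filter_upwards [ho] with x hx
    have hx' : g x < 1 := hx
    simp [hx']
  · have hw' : 0 < g w := by linarith
    have ho : {w | 0 < g w} ∈ 𝓝 w := (isOpen_lt continuous_const hg).mem_nhds hw'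
    refine (h2.continuousAt ho).congr ?_
    filter_upwards [ho] with x hx
    by_cases hx' : g x < 1
    · simp [hx', h x hx hx']
    · simp [hx']

/-- the corner hypothesis of the pillow theorem at `(1,0)`, from the two charts of the resolution of
`y² = αβ` (`β = 0` is the side `σ = 1`, `α = 0` is the side `t = 0`): chart 1 has coordinates
`(β, w = y/β, z)`, chart 2 has coordinates `(α, w' = y/α, z)`. -/
theorem corner0 {Z : Type v} [TopologicalSpace Z] (Ψ₁ Ψ₂ : C(starSet, X)) {ρ : ℝ} (r0 : 0 < ρ)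
    (r1 : ρ < 1)
    (c1 c2 : ℂ × ℂ × Z → X) (D1 D2 : Set (ℂ × ℂ × Z)) (hc1 : ContinuousOn c1 D1)
    (hc2 : ContinuousOn c2 D2) (α β κ : ℝ × ℝ → ℂ) (z : ℝ × ℝ → Z)
    (hα : ContinuousOn α (Icc (1 - ρ) 1 ×ˢ Icc 0 ρ))
    (hβ : ContinuousOn β (Icc (1 - ρ) 1 ×ˢ Icc 0 ρ))
    (hκ : ContinuousOn κ (Icc (1 - ρ) 1 ×ˢ Icc 0 ρ))
    (hz : ContinuousOn z (Icc (1 - ρ) 1 ×ˢ Icc 0 ρ))
    (hα0 : α (1, 0) = 0) (hβ0 : β (1, 0) = 0)
    (hκ0 : ∀ p ∈ (Icc (1 - ρ) 1 ×ˢ Icc 0 ρ : Set (ℝ × ℝ)), κ p ≠ 0)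
    (h01 : ∀ w, (0, w, z (1, 0)) ∈ D1) (h02 : ∀ w, (0, w, z (1, 0)) ∈ D2)
    (h12 : ∀ w, w ≠ 0 → c1 (0, w, z (1, 0)) = c2 (0, w⁻¹, z (1, 0)))
    (hD1 : ∀ u : ℂ, (u = 1 ∨ u = -1) → ∀ σ t : ℝ, 1 - ρ ≤ σ → σ < 1 → 0 ≤ t → t ≤ ρ →
      (β (σ, t), u * κ (σ, t) * (√(t / (1 - σ)) : ℝ), z (σ, t)) ∈ D1)
    (hD2 : ∀ u : ℂ, (u = 1 ∨ u = -1) → ∀ σ t : ℝ, 1 - ρ ≤ σ → σ ≤ 1 → 0 < t → t ≤ ρ →
      (α (σ, t), u * (κ (σ, t))⁻¹ * (√((1 - σ) / t) : ℝ), z (σ, t)) ∈ D2)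
    (hΨ₁1 : ∀ p : starSet, 1 - ρ ≤ p.1.1 → p.1.1 < 1 → p.1.2 ≤ ρ →
      Ψ₁ p = c1 (β p.1, 1 * κ p.1 * (√(p.1.2 / (1 - p.1.1)) : ℝ), z p.1))
    (hΨ₁2 : ∀ p : starSet, 1 - ρ ≤ p.1.1 → 0 < p.1.2 → p.1.2 ≤ ρ →
      Ψ₁ p = c2 (α p.1, 1 * (κ p.1)⁻¹ * (√((1 - p.1.1) / p.1.2) : ℝ), z p.1))
    (hΨ₂1 : ∀ p : starSet, 1 - ρ ≤ p.1.1 → p.1.1 < 1 → p.1.2 ≤ ρ →
      Ψ₂ p = c1 (β p.1, (-1) * κ p.1 * (√(p.1.2 / (1 - p.1.1)) : ℝ), z p.1))
    (hΨ₂2 : ∀ p : starSet, 1 - ρ ≤ p.1.1 → 0 < p.1.2 → p.1.2 ≤ ρ →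
      Ψ₂ p = c2 (α p.1, (-1) * (κ p.1)⁻¹ * (√((1 - p.1.1) / p.1.2) : ℝ), z p.1)) :
    HR ((cut0 ρ r0 r1).map Ψ₁.continuous) ((cut0 ρ r0 r1).map Ψ₂.continuous) := by
  -- the plane point
  let P : I × I → ℝ × ℝ := fun x => (1 - (1 - (x.1 : ℝ)) * ρ * (1 - x.2), (1 - (x.1 : ℝ)) * ρ * x.2)
  have hPc : Continuous P := by fun_prop
  have hPm : ∀ x, P x ∈ (Icc (1 - ρ) 1 ×ˢ Icc 0 ρ : Set (ℝ × ℝ)) := by
    intro x
    have a1 := x.1.2.1
    have a2 := x.1.2.2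
    have b1 := x.2.2.1
    have b2 := x.2.2.2
    have e0 : 0 ≤ (1 - (x.1 : ℝ)) * ρ := mul_nonneg (by linarith) r0.le
    have e1 : (1 - (x.1 : ℝ)) * ρ ≤ ρ := by nlinarith
    refine ⟨⟨?_, ?_⟩, ?_, ?_⟩
    · show 1 - ρ ≤ 1 - (1 - (x.1 : ℝ)) * ρ * (1 - x.2)
      nlinarith
    · show 1 - (1 - (x.1 : ℝ)) * ρ * (1 - x.2) ≤ 1
      nlinarith [mul_nonneg e0 (by linarith : (0:ℝ) ≤ 1 - x.2)]
    · show 0 ≤ (1 - (x.1 : ℝ)) * ρ * x.2
      exact mul_nonneg e0 b1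
    · show (1 - (x.1 : ℝ)) * ρ * x.2 ≤ ρ
      nlinarith
  have hP1 : ∀ θ : I, P (1, θ) = (1, 0) := by
    intro θ
    simp [P]
  have hcomp : ∀ f : ℝ × ℝ → ℂ, ContinuousOn f (Icc (1 - ρ) 1 ×ˢ Icc 0 ρ) →
      Continuous (fun x => f (P x)) := fun f hf =>
    hf.comp_continuous hPc hPm
  have hzc : Continuous (fun x => z (P x)) := hz.comp_continuous hPc hPm
  -- the square roots
  have hs1 : ContinuousOn (fun x : I × I => (√((x.2 : ℝ) / (1 - x.2)) : ℝ))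
      {x | (x.2 : ℝ) < 1} := by
    refine ContinuousOn.sqrt (ContinuousOn.div (by fun_prop) (by fun_prop) ?_)
    intro x hx
    have : (x.2 : ℝ) < 1 := hx
    linarith
  have hs2 : ContinuousOn (fun x : I × I => (√((1 - (x.2 : ℝ)) / x.2) : ℝ))
      {x | 0 < (x.2 : ℝ)} := by
    refine ContinuousOn.sqrt (ContinuousOn.div (by fun_prop) (by fun_prop) ?_)
    intro x hx
    have : 0 < (x.2 : ℝ) := hx
    linarith
  -- the squares
  have main : ∀ (Ψ : C(starSet, X)) (u : ℂ), (u = 1 ∨ u = -1) →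
      (∀ p : starSet, 1 - ρ ≤ p.1.1 → p.1.1 < 1 → p.1.2 ≤ ρ →
        Ψ p = c1 (β p.1, u * κ p.1 * (√(p.1.2 / (1 - p.1.1)) : ℝ), z p.1)) →
      (∀ p : starSet, 1 - ρ ≤ p.1.1 → 0 < p.1.2 → p.1.2 ≤ ρ →
        Ψ p = c2 (α p.1, u * (κ p.1)⁻¹ * (√((1 - p.1.1) / p.1.2) : ℝ), z p.1)) →
      ∃ H : C(I × I, X), (∀ s θ : I, H (s, θ) = if (θ : ℝ) < 1 then
        c1 (β (P (s, θ)), u * κ (P (s, θ)) * (√((θ : ℝ) / (1 - θ)) : ℝ), z (P (s, θ))) else
        c2 (α (P (s, θ)), u * (κ (P (s, θ)))⁻¹ * (√((1 - (θ : ℝ)) / θ) : ℝ), z (P (s, θ)))) ∧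
        ∀ θ : I, ((cut0 ρ r0 r1).map Ψ.continuous) θ = H (0, θ) := by
    intro Ψ u hu hΨ1 hΨ2
    -- for `s < 1` the point `P (s, θ)` is in `starSet`
    have hPs : ∀ s θ : I, (s : ℝ) < 1 → P (s, θ) ∈ starSet := by
      intro s θ hs
      obtain ⟨⟨m1, m2⟩, m3, m4⟩ := hPm (s, θ)
      have t1 := θ.2.1
      have t2 := θ.2.2
      have s1 := s.2.1
      have hpos : 0 < (1 - (s : ℝ)) * ρ := mul_pos (by linarith) r0
      refine ⟨⟨by linarith, m2⟩, ⟨m3, by linarith⟩, fun h => ?_⟩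
      have h' : 1 - (1 - (s : ℝ)) * ρ * (1 - θ) = 1 := h
      have : (θ : ℝ) = 1 := by
        by_contra hne
        have h2 : 0 < 1 - (θ : ℝ) := by
          have := lt_of_le_of_ne t2 hne
          linarith
        have := mul_pos hpos h2
        linarith
      show 0 < (1 - (s : ℝ)) * ρ * θ ∧ (1 - (s : ℝ)) * ρ * θ < 1
      rw [this]
      constructor
      · linarith
      · nlinarith
    have hr1 : ∀ s θ : I, (s : ℝ) < 1 → (θ : ℝ) < 1 →
        (P (s, θ)).2 / (1 - (P (s, θ)).1) = (θ : ℝ) / (1 - θ) := by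
      intro s θ hs hθ
      show ((1 - (s : ℝ)) * ρ * θ) / (1 - (1 - (1 - (s : ℝ)) * ρ * (1 - θ))) = _
      have hpos : (1 - (s : ℝ)) * ρ ≠ 0 := (mul_pos (by linarith) r0).ne'
      have h2 : 1 - (θ : ℝ) ≠ 0 := by linarith
      rw [show 1 - (1 - (1 - (s : ℝ)) * ρ * (1 - θ)) = (1 - (s : ℝ)) * ρ * (1 - θ) by ring]
      rw [mul_div_mul_left _ _ hpos]
    have hr2 : ∀ s θ : I, (s : ℝ) < 1 →
        (1 - (P (s, θ)).1) / (P (s, θ)).2 = (1 - (θ : ℝ)) / θ := by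
      intro s θ hs
      show (1 - (1 - (1 - (s : ℝ)) * ρ * (1 - θ))) / ((1 - (s : ℝ)) * ρ * θ) = _
      have hpos : (1 - (s : ℝ)) * ρ ≠ 0 := (mul_pos (by linarith) r0).ne'
      rw [show 1 - (1 - (1 - (s : ℝ)) * ρ * (1 - θ)) = (1 - (s : ℝ)) * ρ * (1 - θ) by ring]
      rw [mul_div_mul_left _ _ hpos]
    have hlt : ∀ s θ : I, (s : ℝ) < 1 → (θ : ℝ) < 1 → (P (s, θ)).1 < 1 := by
      intro s θ hs hθ
      show 1 - (1 - (s : ℝ)) * ρ * (1 - θ) < 1
      have := mul_pos (mul_pos (by linarith : (0:ℝ) < 1 - s) r0) (by linarith : (0:ℝ) < 1 - θ)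
      linarith
    have hgt : ∀ s θ : I, (s : ℝ) < 1 → 0 < (θ : ℝ) → 0 < (P (s, θ)).2 := by
      intro s θ hs hθ
      exact mul_pos (mul_pos (by linarith : (0:ℝ) < 1 - s) r0) hθ
    have hs_cases : ∀ s : I, (s : ℝ) < 1 ∨ s = 1 := by
      intro s
      rcases lt_or_eq_of_le s.2.2 with h | h
      · exact Or.inl h
      · exact Or.inr (Subtype.ext h)
    let F1 : I × I → X := fun x =>
      c1 (β (P x), u * κ (P x) * (√((x.2 : ℝ) / (1 - x.2)) : ℝ), z (P x))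
    let F2 : I × I → X := fun x =>
      c2 (α (P x), u * (κ (P x))⁻¹ * (√((1 - (x.2 : ℝ)) / x.2) : ℝ), z (P x))
    have hF1 : ContinuousOn F1 {x | (x.2 : ℝ) < 1} := by
      refine hc1.comp (ContinuousOn.prodMk (hcomp β hβ).continuousOn
        (ContinuousOn.prodMk (ContinuousOn.mul (continuous_const.mul (hcomp κ hκ)).continuousOn
          (Complex.continuous_ofReal.comp_continuousOn hs1)) hzc.continuousOn)) ?_
      rintro ⟨s, θ⟩ hx
      have hθ : (θ : ℝ) < 1 := hx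
      rcases hs_cases s with hs | rfl
      · have := hD1 u hu (P (s, θ)).1 (P (s, θ)).2 (hPm (s, θ)).1.1 (hlt s θ hs hθ)
          (hPm (s, θ)).2.1 (hPm (s, θ)).2.2
        rw [hr1 s θ hs hθ] at this
        exact this
      · show (β (P (1, θ)), _, z (P (1, θ))) ∈ D1
        rw [hP1, hβ0]
        exact h01 _
    have hF2 : ContinuousOn F2 {x | 0 < (x.2 : ℝ)} := by
      refine hc2.comp (ContinuousOn.prodMk (hcomp α hα).continuousOn
        (ContinuousOn.prodMk (ContinuousOn.mul (continuous_const.mul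
          ((hcomp κ hκ).inv₀ (fun x => hκ0 _ (hPm x)))).continuousOn
          (Complex.continuous_ofReal.comp_continuousOn hs2)) hzc.continuousOn)) ?_
      rintro ⟨s, θ⟩ hx
      have hθ : 0 < (θ : ℝ) := hx
      rcases hs_cases s with hs | rfl
      · have := hD2 u hu (P (s, θ)).1 (P (s, θ)).2 (hPm (s, θ)).1.1 (hPm (s, θ)).1.2
          (hgt s θ hs hθ) (hPm (s, θ)).2.2
        rw [hr2 s θ hs] at this
        exact this
      · show (α (P (1, θ)), _, z (P (1, θ))) ∈ D2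
        rw [hP1, hα0]
        exact h02 _
    have h12' : ∀ x : I × I, 0 < (x.2 : ℝ) → (x.2 : ℝ) < 1 → F1 x = F2 x := by
      rintro ⟨s, θ⟩ h0 h1
      have h0' : 0 < (θ : ℝ) := h0
      have h1' : (θ : ℝ) < 1 := h1
      rcases hs_cases s with hs | rfl
      · have e1 := hΨ1 ⟨P (s, θ), hPs s θ hs⟩ (hPm (s, θ)).1.1 (hlt s θ hs h1') (hPm (s, θ)).2.2
        have e2 := hΨ2 ⟨P (s, θ), hPs s θ hs⟩ (hPm (s, θ)).1.1 (hgt s θ hs h0') (hPm (s, θ)).2.2
        simp only at e1 e2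
        rw [hr1 s θ hs h1'] at e1
        rw [hr2 s θ hs] at e2
        exact e1.symm.trans e2
      · show c1 (β (P (1, θ)), u * κ (P (1, θ)) * (√((θ : ℝ) / (1 - θ)) : ℝ), z (P (1, θ))) =
          c2 (α (P (1, θ)), u * (κ (P (1, θ)))⁻¹ * (√((1 - (θ : ℝ)) / θ) : ℝ), z (P (1, θ)))
        rw [hP1, hα0, hβ0]
        have hne : (√((θ : ℝ) / (1 - θ)) : ℝ) ≠ 0 := by
          rw [Real.sqrt_ne_zero']
          exact div_pos h0' (by linarith)
        have hκ1 : κ (1, 0) ≠ 0 := by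
          have := hκ0 _ (hPm (1, θ))
          rwa [hP1] at this
        have hu0 : u ≠ 0 := by
          rcases hu with rfl | rfl
          · exact one_ne_zero
          · exact neg_ne_zero.2 one_ne_zero
        rw [h12 _ (mul_ne_zero (mul_ne_zero hu0 hκ1) (Complex.ofReal_ne_zero.2 hne))]
        congr 2
        have e3 : (√((1 - (θ : ℝ)) / θ) : ℝ) = (√((θ : ℝ) / (1 - θ)) : ℝ)⁻¹ := by
          rw [← Real.sqrt_inv, inv_div]
        have e4 : u⁻¹ = u := by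
          rcases hu with rfl | rfl
          · exact inv_one
          · rw [inv_neg, inv_one]
        rw [e3, mul_inv, mul_inv, e4, Complex.ofReal_inv]
    refine ⟨⟨_, glue_cont (fun x : I × I => (x.2 : ℝ)) (by fun_prop) F1 F2 hF1 hF2 h12'⟩,
      fun s θ => rfl, ?_⟩
    intro θ
    show Ψ (cut0 ρ r0 r1 θ) = if (θ : ℝ) < 1 then F1 (0, θ) else F2 (0, θ)
    have e0 : ((cut0 ρ r0 r1 θ : starSet) : ℝ × ℝ) = P (0, θ) := by
      rw [cut0_apply]
      simp [P]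
    have e1 : (cut0 ρ r0 r1 θ : starSet) = ⟨P (0, θ), hPs 0 θ (by simp)⟩ := Subtype.ext e0
    rw [e1]
    split_ifs with hθ
    · rw [hΨ1 _ (hPm (0, θ)).1.1 (hlt 0 θ (by simp) hθ) (hPm (0, θ)).2.2]
      simp only
      rw [hr1 0 θ (by simp) hθ]
    · have hθ' : 0 < (θ : ℝ) := by linarith
      rw [hΨ2 _ (hPm (0, θ)).1.1 (hgt 0 θ (by simp) hθ') (hPm (0, θ)).2.2]
      simp only
      rw [hr2 0 θ (by simp)]
  obtain ⟨H₁, hH₁, hB₁⟩ := main Ψ₁ 1 (Or.inl rfl) hΨ₁1 hΨ₁2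
  obtain ⟨H₂, hH₂, hB₂⟩ := main Ψ₂ (-1) (Or.inr rfl) hΨ₂1 hΨ₂2
  let q₁ : Path (H₁ (1, 0)) (H₁ (1, 1)) := ⟨⟨fun θ => H₁ (1, θ), by fun_prop⟩, rfl, rfl⟩
  let q₂ : Path (H₂ (1, 0)) (H₂ (1, 1)) := ⟨⟨fun θ => H₂ (1, θ), by fun_prop⟩, rfl, rfl⟩
  refine slide H₁ H₂ ?_ ?_ _ _ q₁ q₂ hB₁ hB₂ (fun _ => rfl) (fun _ => rfl) ?_
  · intro s
    rw [hH₁, hH₂]
    simp
  · intro s
    rw [hH₁, hH₂]
    simp
  · -- rotate in the exceptional curve
    have hκ1 : κ (1, 0) ≠ 0 := by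
      have := hκ0 _ (hPm (1, 0))
      rwa [hP1] at this
    let E : ℝ → ℂ := fun φ => Complex.exp (φ * (Real.pi * Complex.I))
    have hE0 : ∀ φ, E φ ≠ 0 := fun φ => Complex.exp_ne_zero _
    have hEc : Continuous E := by
      show Continuous fun φ : ℝ => Complex.exp (φ * (Real.pi * Complex.I))
      fun_prop
    let F1 : I × I → X := fun x =>
      c1 (0, E x.1 * κ (1, 0) * (√((x.2 : ℝ) / (1 - x.2)) : ℝ), z (1, 0))
    let F2 : I × I → X := fun x =>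
      c2 (0, (E x.1)⁻¹ * (κ (1, 0))⁻¹ * (√((1 - (x.2 : ℝ)) / x.2) : ℝ), z (1, 0))
    have hEx : Continuous fun x : I × I => E x.1 := hEc.comp (by fun_prop)
    have hF1 : ContinuousOn F1 {x | (x.2 : ℝ) < 1} := by
      refine hc1.comp (ContinuousOn.prodMk continuousOn_const
        (ContinuousOn.prodMk (ContinuousOn.mul (hEx.mul continuous_const).continuousOn
          (Complex.continuous_ofReal.comp_continuousOn hs1)) continuousOn_const)) ?_
      rintro ⟨s, θ⟩ hx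
      exact h01 _
    have hF2 : ContinuousOn F2 {x | 0 < (x.2 : ℝ)} := by
      refine hc2.comp (ContinuousOn.prodMk continuousOn_const
        (ContinuousOn.prodMk (ContinuousOn.mul ((hEx.inv₀ (fun x => hE0 _)).mul
          continuous_const).continuousOn
          (Complex.continuous_ofReal.comp_continuousOn hs2)) continuousOn_const)) ?_
      rintro ⟨s, θ⟩ hx
      exact h02 _
    have h12' : ∀ x : I × I, 0 < (x.2 : ℝ) → (x.2 : ℝ) < 1 → F1 x = F2 x := by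
      rintro ⟨s, θ⟩ h0 h1
      have h0' : 0 < (θ : ℝ) := h0
      have h1' : (θ : ℝ) < 1 := h1
      have hne : (√((θ : ℝ) / (1 - θ)) : ℝ) ≠ 0 := by
        rw [Real.sqrt_ne_zero']
        exact div_pos h0' (by linarith)
      show c1 (0, E s * κ (1, 0) * (√((θ : ℝ) / (1 - θ)) : ℝ), z (1, 0)) =
        c2 (0, (E s)⁻¹ * (κ (1, 0))⁻¹ * (√((1 - (θ : ℝ)) / θ) : ℝ), z (1, 0))
      rw [h12 _ (mul_ne_zero (mul_ne_zero (hE0 _) hκ1) (Complex.ofReal_ne_zero.2 hne))]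
      congr 2
      have e3 : (√((1 - (θ : ℝ)) / θ) : ℝ) = (√((θ : ℝ) / (1 - θ)) : ℝ)⁻¹ := by
        rw [← Real.sqrt_inv, inv_div]
      rw [e3, mul_inv, mul_inv, Complex.ofReal_inv]
    let K : C(I × I, X) := ⟨_, glue_cont (fun x : I × I => (x.2 : ℝ)) (by fun_prop) F1 F2 hF1 hF2
      h12'⟩
    have hK : ∀ s θ : I, K (s, θ) = if (θ : ℝ) < 1 then F1 (s, θ) else F2 (s, θ) := fun _ _ => rfl
    have hE00 : E 0 = 1 := by simp [E]
    have hE01 : E 1 = -1 := by simp [E, Complex.exp_pi_mul_I]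
    refine ⟨⟨⟨K, ?_, ?_⟩, ?_⟩⟩
    · intro θ
      show K (0, θ) = H₁ (1, θ)
      rw [hK, hH₁, hP1, hα0, hβ0]
      show (if (θ : ℝ) < 1 then c1 (0, E ((0 : I) : ℝ) * κ (1, 0) * _, z (1, 0)) else
        c2 (0, (E ((0 : I) : ℝ))⁻¹ * (κ (1, 0))⁻¹ * _, z (1, 0))) = _
      rw [Icc.coe_zero, hE00, inv_one]
    · intro θ
      show K (1, θ) = H₂ (1, θ)
      rw [hK, hH₂, hP1, hα0, hβ0]
      show (if (θ : ℝ) < 1 then c1 (0, E ((1 : I) : ℝ) * κ (1, 0) * _, z (1, 0)) else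
        c2 (0, (E ((1 : I) : ℝ))⁻¹ * (κ (1, 0))⁻¹ * _, z (1, 0))) = _
      rw [Icc.coe_one, hE01, inv_neg, inv_one]
    · rintro φ θ (rfl | rfl)
      · show K (φ, 0) = H₁ (1, 0)
        rw [hK, hH₁, hP1, hβ0]
        simp [F1]
      · show K (φ, 1) = H₁ (1, 1)
        rw [hK, hH₁, hP1, hα0]
        simp [F2]


/-! ## The corner `(1,1)` by reflection -/

/-- the reflection `t ↦ 1 - t` of the square -/
def flip : C(starSet, starSet) where
  toFun p := ⟨(p.1.1, 1 - p.1.2), by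
    obtain ⟨⟨h1, h2⟩, ⟨h3, h4⟩, h5⟩ := p.2
    refine ⟨⟨h1, h2⟩, ⟨by simp only; linarith, by simp only; linarith⟩, fun h => ?_⟩
    have := h5 h
    exact ⟨by simp only; linarith [this.2], by simp only; linarith [this.1]⟩⟩
  continuous_toFun := by
    refine Continuous.subtype_mk ?_ _
    fun_prop

@[simp] theorem flip_apply (p : starSet) : ((flip p : starSet) : ℝ × ℝ) = (p.1.1, 1 - p.1.2) := rfl

/-- the corner `(1,1)` of `Ψ` is the corner `(1,0)` of `Ψ ∘ flip` -/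
theorem corner1_of_corner0 (Ψ₁ Ψ₂ : C(starSet, X)) {ρ : ℝ} (r0 : 0 < ρ) (r1 : ρ < 1)
    (h : HR ((cut0 ρ r0 r1).map (Ψ₁.comp flip).continuous)
      ((cut0 ρ r0 r1).map (Ψ₂.comp flip).continuous)) :
    HR ((cut1 ρ r0 r1).map Ψ₁.continuous) ((cut1 ρ r0 r1).map Ψ₂.continuous) := by
  have e : ∀ Ψ : C(starSet, X), HR ((cut1 ρ r0 r1).map Ψ.continuous)
      ((cut0 ρ r0 r1).map (Ψ.comp flip).continuous) := by
    intro Ψ
    refine HR_of_eq (fun θ => ?_)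
    show Ψ (cut1 ρ r0 r1 θ) = Ψ (flip (cut0 ρ r0 r1 θ))
    congr 1
    apply Subtype.ext
    rw [flip_apply, cut1_apply, cut0_apply]
  exact (e Ψ₁).trans (h.trans (e Ψ₂).symm)

end

end Crest.Agent.R272.UB_20
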