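import Crest.Agent.R272.UB1_20

/-!
# R272, leaf UB-DISC (helper20), part 3: the pillow theorem with one `P¹`-coordinate

`P` is any model of the projective line: a space with `mk : ℂ × ℂ → P` continuous off `0` and
invariant under scaling. `Q` is the space of all the other coordinates, `S ⊆ Q × P` the model.
Over the square `(σ,t)` the remaining coordinates are `g (σ,t)`, the last one is
`κ² = r² t(1-t)/(1-σ)`, i.e. `κ = [± √(t(1-t)) r : √(1-σ)]`. The two corners `(1,0)`, `(1,1)` are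
blown up: over them the whole projective line is in `S`. Then the two arcs over `σ = 0` are homotopic
rel end points in `S`.
-/

set_option autoImplicit false

open Set Topology

namespace Crest.Agent.R272.UB_20

noncomputable section

local notation "I" => unitInterval

universe u v

/-- the closed unit square -/
abbrev sqr : Set (ℝ × ℝ) := Icc 0 1 ×ˢ Icc 0 1

theorem starSet_sub : starSet ⊆ sqr := fun _ h => ⟨⟨h.1.1, h.1.2⟩, ⟨h.2.1.1, h.2.1.2⟩⟩

variable {Q : Type u} [TopologicalSpace Q] {P : Type v} [TopologicalSpace P]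

/-- the homogeneous coordinates of the last coordinate -/
def hom (r : ℝ × ℝ → ℂ) (b : ℂ) (p : ℝ × ℝ) : ℂ × ℂ :=
  (b * (√(p.2 * (1 - p.2)) : ℝ) * r p, ((√(1 - p.1) : ℝ) : ℂ))

theorem hom_ne {r : ℝ × ℝ → ℂ} (hr0 : ∀ p ∈ sqr, r p ≠ 0) {b : ℂ} (hb : b ≠ 0) {p : ℝ × ℝ}
    (hp : p ∈ starSet) : hom r b p ≠ 0 := by
  intro h
  have h1 : b * (√(p.2 * (1 - p.2)) : ℝ) * r p = 0 := congrArg Prod.fst h
  have h2 : ((√(1 - p.1) : ℝ) : ℂ) = 0 := congrArg Prod.snd h
  have hs : p.1 = 1 := by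
    have h3 : √(1 - p.1) = 0 := by exact_mod_cast h2
    rw [Real.sqrt_eq_zero (by linarith [hp.1.2])] at h3
    linarith
  obtain ⟨ht0, ht1⟩ := hp.2.2 hs
  have h4 : (0 : ℝ) < √(p.2 * (1 - p.2)) := Real.sqrt_pos.2 (mul_pos ht0 (by linarith))
  rcases mul_eq_zero.1 h1 with h5 | h5
  · rcases mul_eq_zero.1 h5 with h6 | h6
    · exact hb h6
    · have : √(p.2 * (1 - p.2)) = 0 := by exact_mod_cast h6
      linarith
  · exact hr0 p (starSet_sub hp) h5

theorem hom_cont {r : ℝ × ℝ → ℂ} (hr : ContinuousOn r sqr) (b : ℂ) : ContinuousOn (hom r b) sqr := by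
  refine ContinuousOn.prodMk ?_ ?_
  · refine ContinuousOn.mul ?_ hr
    refine ContinuousOn.mul continuousOn_const ?_
    exact (Complex.continuous_ofReal.comp (by fun_prop :
      Continuous fun p : ℝ × ℝ => √(p.2 * (1 - p.2)))).continuousOn
  · exact (Complex.continuous_ofReal.comp (by fun_prop :
      Continuous fun p : ℝ × ℝ => √(1 - p.1))).continuousOn

/-- the data of the theorem -/
structure Pil (Q : Type u) [TopologicalSpace Q] (P : Type v) [TopologicalSpace P] where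
  /-- homogeneous coordinates -/
  br : ℂ × ℂ → P
  cont_br : ContinuousOn br {0}ᶜ
  scale : ∀ c : ℂ, c ≠ 0 → ∀ p : ℂ × ℂ, p ≠ 0 → br (c • p) = br p
  /-- the model -/
  S : Set (Q × P)
  /-- the other coordinates over the square -/
  g : ℝ × ℝ → Q
  hg : ContinuousOn g sqr
  /-- the unit -/
  r : ℝ × ℝ → ℂ
  hr : ContinuousOn r sqr
  hr0 : ∀ p ∈ sqr, r p ≠ 0
  mem : ∀ b : ℂ, (b = 1 ∨ b = -1) → ∀ p ∈ starSet, (g p, br (hom r b p)) ∈ S
  mem0 : ∀ k : ℂ × ℂ, k ≠ 0 → (g (1, 0), br k) ∈ S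
  mem1 : ∀ k : ℂ × ℂ, k ≠ 0 → (g (1, 1), br k) ∈ S

namespace Pil

variable (D : Pil Q P)

/-- the two maps of the pillow theorem -/
def Psi (b : ℂ) (hb : b = 1 ∨ b = -1) : C(starSet, D.S) where
  toFun p := ⟨(D.g p.1, D.br (hom D.r b p.1)), D.mem b hb p.1 p.2⟩
  continuous_toFun := by
    refine Continuous.subtype_mk ?_ _
    refine Continuous.prodMk ?_ ?_
    · exact (D.hg.mono starSet_sub).domRestrict
    · have hb0 : b ≠ 0 := by
        rcases hb with rfl | rfl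
        · exact one_ne_zero
        · exact neg_ne_zero.2 one_ne_zero
      have h1 : ContinuousOn (fun p => D.br (hom D.r b p)) starSet :=
        D.cont_br.comp ((hom_cont D.hr b).mono starSet_sub)
          (fun p hp => hom_ne D.hr0 hb0 hp)
      exact h1.domRestrict

/-- the flipped data -/
def flipD : Pil Q P where
  br := D.br
  cont_br := D.cont_br
  scale := D.scale
  S := D.S
  g := fun p => D.g (p.1, 1 - p.2)
  hg := D.hg.comp (by fun_prop) (fun p hp => ⟨hp.1, ⟨by linarith [hp.2.2], by linarith [hp.2.1]⟩⟩)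
  r := fun p => D.r (p.1, 1 - p.2)
  hr := D.hr.comp (by fun_prop) (fun p hp => ⟨hp.1, ⟨by linarith [hp.2.2], by linarith [hp.2.1]⟩⟩)
  hr0 := fun p hp => D.hr0 _ ⟨hp.1, ⟨by linarith [hp.2.2], by linarith [hp.2.1]⟩⟩
  mem := fun b hb p hp => by
    have h := D.mem b hb (p.1, 1 - p.2) (flip ⟨p, hp⟩).2
    have e : hom D.r b (p.1, 1 - p.2) = hom (fun p => D.r (p.1, 1 - p.2)) b p := by
      unfold hom
      simp only
      rw [show (1 - p.2) * (1 - (1 - p.2)) = p.2 * (1 - p.2) by ring]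
    rw [e] at h
    exact h
  mem0 := fun k hk => by
    have := D.mem1 k hk
    simpa using this
  mem1 := fun k hk => by
    have := D.mem0 k hk
    simpa using this

theorem flip_Psi (b : ℂ) (hb : b = 1 ∨ b = -1) : (D.Psi b hb).comp flip = D.flipD.Psi b hb := by
  ext p : 1
  apply Subtype.ext
  show (D.g (p.1.1, 1 - p.1.2), D.br (hom D.r b (p.1.1, 1 - p.1.2))) =
    (D.g (p.1.1, 1 - p.1.2), D.br (hom (fun p => D.r (p.1, 1 - p.2)) b p.1))
  unfold hom
  simp only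
  rw [show (1 - p.1.2) * (1 - (1 - p.1.2)) = p.1.2 * (1 - p.1.2) by ring]

theorem cornerP : HR ((cut0 (1 / 2) (by norm_num) (by norm_num)).map
      (D.Psi 1 (Or.inl rfl)).continuous)
    ((cut0 (1 / 2) (by norm_num) (by norm_num)).map (D.Psi (-1) (Or.inr rfl)).continuous) := by
  let pt : I × I → ℝ × ℝ := fun x =>
    (1 - (1 - (x.1 : ℝ)) * (1 / 2) * (1 - x.2), (1 - (x.1 : ℝ)) * (1 / 2) * x.2)
  have hpc : Continuous pt := by fun_prop
  have hpm : ∀ x, pt x ∈ sqr := by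
    intro x
    have a1 := x.1.2.1
    have a2 := x.1.2.2
    have b1 := x.2.2.1
    have b2 := x.2.2.2
    have e0 : 0 ≤ (1 - (x.1 : ℝ)) * (1 / 2) := mul_nonneg (by linarith) (by norm_num)
    have e1 : (1 - (x.1 : ℝ)) * (1 / 2) ≤ 1 := by nlinarith
    refine ⟨⟨?_, ?_⟩, ?_, ?_⟩
    · show 0 ≤ 1 - (1 - (x.1 : ℝ)) * (1 / 2) * (1 - x.2)
      nlinarith
    · show 1 - (1 - (x.1 : ℝ)) * (1 / 2) * (1 - x.2) ≤ 1
      nlinarith [mul_nonneg e0 (by linarith : (0:ℝ) ≤ 1 - x.2)]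
    · show 0 ≤ (1 - (x.1 : ℝ)) * (1 / 2) * x.2
      exact mul_nonneg e0 b1
    · show (1 - (x.1 : ℝ)) * (1 / 2) * x.2 ≤ 1
      nlinarith
  have hp1 : ∀ θ : I, pt (1, θ) = (1, 0) := by
    intro θ
    simp [pt]
  have hgc : Continuous fun x => D.g (pt x) := D.hg.comp_continuous hpc hpm
  have hrc : Continuous fun x => D.r (pt x) := D.hr.comp_continuous hpc hpm
  have hps : ∀ s θ : I, (s : ℝ) < 1 → pt (s, θ) ∈ starSet := by
    intro s θ hs
    obtain ⟨⟨m1, m2⟩, m3, m4⟩ := hpm (s, θ)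
    have t1 := θ.2.1
    have t2 := θ.2.2
    have s1 := s.2.1
    have hpos : 0 < (1 - (s : ℝ)) * (1 / 2) := mul_pos (by linarith) (by norm_num)
    refine ⟨⟨m1, m2⟩, ⟨m3, m4⟩, fun h => ?_⟩
    have h' : 1 - (1 - (s : ℝ)) * (1 / 2) * (1 - θ) = 1 := h
    have : (θ : ℝ) = 1 := by
      by_contra hne
      have h2 : 0 < 1 - (θ : ℝ) := by
        have := lt_of_le_of_ne t2 hne
        linarith
      have := mul_pos hpos h2
      linarith
    show 0 < (1 - (s : ℝ)) * (1 / 2) * θ ∧ (1 - (s : ℝ)) * (1 / 2) * θ < 1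
    rw [this]
    constructor
    · linarith
    · nlinarith
  have hs_cases : ∀ s : I, (s : ℝ) < 1 ∨ s = 1 := by
    intro s
    rcases lt_or_eq_of_le s.2.2 with h | h
    · exact Or.inl h
    · exact Or.inr (Subtype.ext h)
  -- homogeneous coordinates of the square
  let hc : ℂ → I × I → ℂ × ℂ := fun b x =>
    (b * (√((x.2 : ℝ) * (1 - (pt x).2)) : ℝ) * D.r (pt x), ((√(1 - (x.2 : ℝ)) : ℝ) : ℂ))
  have hcne : ∀ b : ℂ, b ≠ 0 → ∀ x, hc b x ≠ 0 := by
    intro b hb x h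
    have h1 : b * (√((x.2 : ℝ) * (1 - (pt x).2)) : ℝ) * D.r (pt x) = 0 := congrArg Prod.fst h
    have h2 : ((√(1 - (x.2 : ℝ)) : ℝ) : ℂ) = 0 := congrArg Prod.snd h
    have h3 : √(1 - (x.2 : ℝ)) = 0 := by exact_mod_cast h2
    rw [Real.sqrt_eq_zero (by linarith [x.2.2.2])] at h3
    have h4 : (x.2 : ℝ) = 1 := by linarith
    have h5 : (pt x).2 < 1 := by
      show (1 - (x.1 : ℝ)) * (1 / 2) * x.2 < 1
      have := x.1.2.1
      rw [h4]
      linarith
    have h6 : 0 < √((x.2 : ℝ) * (1 - (pt x).2)) := by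
      refine Real.sqrt_pos.2 ?_
      rw [h4]
      linarith
    rcases mul_eq_zero.1 h1 with h7 | h7
    · rcases mul_eq_zero.1 h7 with h8 | h8
      · exact hb h8
      · have : √((x.2 : ℝ) * (1 - (pt x).2)) = 0 := by exact_mod_cast h8
        linarith
    · exact D.hr0 _ (hpm x) h7
  have hcc : ∀ b : ℂ, Continuous (hc b) := by
    intro b
    refine Continuous.prodMk ?_ ?_
    · refine Continuous.mul (continuous_const.mul ?_) hrc
      exact Complex.continuous_ofReal.comp (by fun_prop)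
    · exact Complex.continuous_ofReal.comp (by fun_prop)
  have hscale : ∀ (b : ℂ), b ≠ 0 → ∀ s θ : I, (s : ℝ) < 1 →
      D.br (hom D.r b (pt (s, θ))) = D.br (hc b (s, θ)) := by
    intro b hb s θ hs
    have hpos : 0 < (1 - (s : ℝ)) * (1 / 2) := mul_pos (by linarith) (by norm_num)
    have hc0 : ((√((1 - (s : ℝ)) * (1 / 2)) : ℝ) : ℂ) ≠ 0 :=
      Complex.ofReal_ne_zero.2 (Real.sqrt_ne_zero'.2 hpos)
    rw [← D.scale _ hc0 _ (hcne b hb (s, θ))]
    congr 1
    refine Prod.ext ?_ ?_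
    · show b * (√((pt (s, θ)).2 * (1 - (pt (s, θ)).2)) : ℝ) * D.r (pt (s, θ)) =
        ((√((1 - (s : ℝ)) * (1 / 2)) : ℝ) : ℂ) *
          (b * (√((θ : ℝ) * (1 - (pt (s, θ)).2)) : ℝ) * D.r (pt (s, θ)))
      have e : √((pt (s, θ)).2 * (1 - (pt (s, θ)).2)) =
          √((1 - (s : ℝ)) * (1 / 2)) * √((θ : ℝ) * (1 - (pt (s, θ)).2)) := by
        rw [← Real.sqrt_mul hpos.le]
        congr 1
        show (1 - (s : ℝ)) * (1 / 2) * θ * (1 - (pt (s, θ)).2) = _
        ring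
      rw [e, Complex.ofReal_mul]
      ring
    · show ((√(1 - (pt (s, θ)).1) : ℝ) : ℂ) =
        ((√((1 - (s : ℝ)) * (1 / 2)) : ℝ) : ℂ) * ((√(1 - (θ : ℝ)) : ℝ) : ℂ)
      rw [← Complex.ofReal_mul, ← Real.sqrt_mul hpos.le]
      congr 2
      show 1 - (1 - (1 - (s : ℝ)) * (1 / 2) * (1 - θ)) = _
      ring
  have hmemH : ∀ (b : ℂ), (b = 1 ∨ b = -1) → ∀ x : I × I,
      (D.g (pt x), D.br (hc b x)) ∈ D.S := by
    rintro b hb ⟨s, θ⟩
    have hb0 : b ≠ 0 := by
      rcases hb with rfl | rfl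
      · exact one_ne_zero
      · exact neg_ne_zero.2 one_ne_zero
    rcases hs_cases s with hs | rfl
    · rw [← hscale b hb0 s θ hs]
      exact D.mem b hb _ (hps s θ hs)
    · rw [hp1]
      exact D.mem0 _ (hcne b hb0 _)
  let H : ∀ (b : ℂ), (b = 1 ∨ b = -1) → C(I × I, D.S) := fun b hb =>
    ⟨fun x => ⟨(D.g (pt x), D.br (hc b x)), hmemH b hb x⟩, by
      have hb0 : b ≠ 0 := by
        rcases hb with rfl | rfl
        · exact one_ne_zero
        · exact neg_ne_zero.2 one_ne_zero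
      refine Continuous.subtype_mk ?_ _
      refine Continuous.prodMk hgc ?_
      exact D.cont_br.comp_continuous (hcc b) (hcne b hb0)⟩
  have hbot : ∀ (b : ℂ) (hb : b = 1 ∨ b = -1) (θ : I),
      ((cut0 (1 / 2) (by norm_num) (by norm_num)).map (D.Psi b hb).continuous) θ =
        H b hb (0, θ) := by
    intro b hb θ
    have hb0 : b ≠ 0 := by
      rcases hb with rfl | rfl
      · exact one_ne_zero
      · exact neg_ne_zero.2 one_ne_zero
    have e0 : ((cut0 (1 / 2) (by norm_num) (by norm_num) θ : starSet) : ℝ × ℝ) = pt (0, θ) := by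
      rw [cut0_apply]
      simp [pt]
    apply Subtype.ext
    show (D.g ((cut0 (1 / 2) (by norm_num) (by norm_num) θ : starSet) : ℝ × ℝ),
      D.br (hom D.r b ((cut0 (1 / 2) (by norm_num) (by norm_num) θ : starSet) : ℝ × ℝ))) =
        (D.g (pt (0, θ)), D.br (hc b (0, θ)))
    rw [e0, hscale b hb0 0 θ (by simp)]
  let q₁ : Path (H 1 (Or.inl rfl) (1, 0)) (H 1 (Or.inl rfl) (1, 1)) :=
    ⟨⟨fun θ => H 1 (Or.inl rfl) (1, θ), by fun_prop⟩, rfl, rfl⟩
  let q₂ : Path (H (-1) (Or.inr rfl) (1, 0)) (H (-1) (Or.inr rfl) (1, 1)) :=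
    ⟨⟨fun θ => H (-1) (Or.inr rfl) (1, θ), by fun_prop⟩, rfl, rfl⟩
  have hmk0 : ∀ (b : ℂ) (s : I), hc b (s, 0) = (0, 1) := by
    intro b s
    show ((b * (√(((0 : I) : ℝ) * (1 - (pt (s, 0)).2)) : ℝ) * D.r (pt (s, 0)),
      ((√(1 - ((0 : I) : ℝ)) : ℝ) : ℂ)) : ℂ × ℂ) = (0, 1)
    simp
  have hmk1 : ∀ (b : ℂ), b ≠ 0 → ∀ (s : I), D.br (hc b (s, 1)) = D.br (1, 0) := by
    intro b hb s
    have h1 := hcne b hb (s, 1)
    have e : hc b (s, 1) = (b * (√(((1 : I) : ℝ) * (1 - (pt (s, 1)).2)) : ℝ) * D.r (pt (s, 1))) •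
        ((1, 0) : ℂ × ℂ) := by
      show ((b * (√(((1 : I) : ℝ) * (1 - (pt (s, 1)).2)) : ℝ) * D.r (pt (s, 1)),
        ((√(1 - ((1 : I) : ℝ)) : ℝ) : ℂ)) : ℂ × ℂ) = _
      simp
    have h2 : b * (√(((1 : I) : ℝ) * (1 - (pt (s, 1)).2)) : ℝ) * D.r (pt (s, 1)) ≠ 0 := by
      intro h0
      rw [h0, zero_smul] at e
      exact h1 e
    rw [e]
    exact D.scale _ h2 _ (by
      intro h
      have := congrArg Prod.fst h
      simp at this)
  refine slide (H 1 (Or.inl rfl)) (H (-1) (Or.inr rfl)) ?_ ?_ _ _ q₁ q₂ (hbot 1 _) (hbot (-1) _)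
    (fun _ => rfl) (fun _ => rfl) ?_
  · intro s
    apply Subtype.ext
    show (D.g (pt (s, 0)), D.br (hc 1 (s, 0))) = (D.g (pt (s, 0)), D.br (hc (-1) (s, 0)))
    rw [hmk0, hmk0]
  · intro s
    apply Subtype.ext
    show (D.g (pt (s, 1)), D.br (hc 1 (s, 1))) = (D.g (pt (s, 1)), D.br (hc (-1) (s, 1)))
    rw [hmk1 1 one_ne_zero, hmk1 (-1) (neg_ne_zero.2 one_ne_zero)]
  · -- rotation in the fibre over the corner
    let E : ℝ → ℂ := fun φ => Complex.exp (φ * (Real.pi * Complex.I))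
    have hE0 : ∀ φ, E φ ≠ 0 := fun φ => Complex.exp_ne_zero _
    have hEc : Continuous E := by
      show Continuous fun φ : ℝ => Complex.exp (φ * (Real.pi * Complex.I))
      fun_prop
    let kc : I × I → ℂ × ℂ := fun x => hc (E x.1) (1, x.2)
    have hkc : Continuous kc := by
      show Continuous fun x : I × I =>
        (E x.1 * (√((x.2 : ℝ) * (1 - (pt (1, x.2)).2)) : ℝ) * D.r (pt (1, x.2)),
          ((√(1 - (x.2 : ℝ)) : ℝ) : ℂ))
      have h1 : Continuous fun x : I × I => D.r (pt (1, x.2)) :=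
        hrc.comp (by fun_prop : Continuous fun x : I × I => ((1 : I), x.2))
      have h2 : Continuous fun x : I × I => E x.1 := hEc.comp (by fun_prop)
      refine Continuous.prodMk ?_ ?_
      · refine Continuous.mul (h2.mul ?_) h1
        exact Complex.continuous_ofReal.comp (by fun_prop)
      · exact Complex.continuous_ofReal.comp (by fun_prop)
    have hkm : ∀ x : I × I, (D.g (1, 0), D.br (kc x)) ∈ D.S := fun x =>
      D.mem0 _ (hcne _ (hE0 _) _)
    let K : C(I × I, D.S) := ⟨fun x => ⟨(D.g (1, 0), D.br (kc x)), hkm x⟩, by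
      refine Continuous.subtype_mk ?_ _
      refine Continuous.prodMk continuous_const ?_
      exact D.cont_br.comp_continuous hkc (fun x => hcne _ (hE0 _) _)⟩
    have hE00 : E 0 = 1 := by simp [E]
    have hE01 : E 1 = -1 := by simp [E, Complex.exp_pi_mul_I]
    refine ⟨⟨⟨K, ?_, ?_⟩, ?_⟩⟩
    · intro θ
      apply Subtype.ext
      show (D.g (1, 0), D.br (hc (E ((0 : I) : ℝ)) (1, θ))) =
        (D.g (pt (1, θ)), D.br (hc 1 (1, θ)))
      rw [hp1, Icc.coe_zero, hE00]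
    · intro θ
      apply Subtype.ext
      show (D.g (1, 0), D.br (hc (E ((1 : I) : ℝ)) (1, θ))) =
        (D.g (pt (1, θ)), D.br (hc (-1) (1, θ)))
      rw [hp1, Icc.coe_one, hE01]
    · rintro φ θ (rfl | rfl)
      · apply Subtype.ext
        show (D.g (1, 0), D.br (hc (E (φ : ℝ)) (1, 0))) =
          (D.g (pt (1, 0)), D.br (hc 1 (1, 0)))
        rw [hp1, hmk0, hmk0]
      · apply Subtype.ext
        show (D.g (1, 0), D.br (hc (E (φ : ℝ)) (1, 1))) =
          (D.g (pt (1, 1)), D.br (hc 1 (1, 1)))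
        rw [hp1, hmk1 _ (hE0 _), hmk1 1 one_ne_zero]

/-- **pillow theorem with a `P¹`-coordinate** -/
theorem pillowP : HR (sideA.map (D.Psi 1 (Or.inl rfl)).continuous)
    (sideA.map (D.Psi (-1) (Or.inr rfl)).continuous) := by
  have c1 := D.flipD.cornerP
  rw [← flip_Psi, ← flip_Psi] at c1
  refine pillow (D.Psi 1 (Or.inl rfl)) (D.Psi (-1) (Or.inr rfl)) ?_ ?_ ?_
    (by norm_num : (0 : ℝ) < 1 / 2) (by norm_num) (by norm_num : (0 : ℝ) < 1 / 2) (by norm_num)
    D.cornerP (corner1_of_corner0 _ _ _ _ c1)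
  · intro p hp
    apply Subtype.ext
    show (D.g p.1, D.br (hom D.r 1 p.1)) = (D.g p.1, D.br (hom D.r (-1) p.1))
    unfold hom
    rw [hp]
    simp
  · intro p hp
    apply Subtype.ext
    show (D.g p.1, D.br (hom D.r 1 p.1)) = (D.g p.1, D.br (hom D.r (-1) p.1))
    unfold hom
    rw [hp]
    simp
  · intro p hp
    apply Subtype.ext
    show (D.g p.1, D.br (hom D.r 1 p.1)) = (D.g p.1, D.br (hom D.r (-1) p.1))
    have hne : hom D.r 1 p.1 ≠ 0 := hom_ne D.hr0 one_ne_zero p.2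
    have e : hom D.r (-1) p.1 = (-1 : ℂ) • hom D.r 1 p.1 := by
      unfold hom
      rw [hp]
      simp
    rw [e, D.scale _ (neg_ne_zero.2 one_ne_zero) _ hne]

end Pil

end

end Crest.Agent.R272.UB_20
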