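import Mathlib

/-!
# R272, leaf UB-DISC (helper20), part 6: numerics of the squares

`η` a primitive fifth root of unity with `η + η⁴ = (√5-1)/2`. `wv t = (1-t) η² + t η³`.
-/

set_option autoImplicit false

open Set Filter Topology
open scoped ComplexConjugate

namespace Crest.Agent.R272.UB_20

noncomputable section

/-- the fifth root of unity in the upper or lower half plane nearest to `1` -/
structure Eta (η : ℂ) : Prop where
  cyc : η ^ 4 + η ^ 3 + η ^ 2 + η + 1 = 0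
  cj : conj η = η ^ 4
  re1 : η + η ^ 4 = (((√5 - 1) / 2 : ℝ) : ℂ)

/-- golden ratio -/
def gr : ℝ := (1 + √5) / 2

theorem gr_sq : gr ^ 2 = gr + 1 := by
  have h5 : √5 ^ 2 = (5 : ℝ) := Real.sq_sqrt (by norm_num)
  unfold gr
  nlinarith

theorem gr_lo : 1.618 < gr := by
  have h5 : √5 ^ 2 = (5 : ℝ) := Real.sq_sqrt (by norm_num)
  have h0 : 0 ≤ √5 := Real.sqrt_nonneg 5
  have : (2.236 : ℝ) < √5 := by
    by_contra hc
    push Not at hc
    nlinarith
  unfold gr
  linarith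

theorem gr_hi : gr < 1.6185 := by
  have h5 : √5 ^ 2 = (5 : ℝ) := Real.sq_sqrt (by norm_num)
  have h0 : 0 ≤ √5 := Real.sqrt_nonneg 5
  have : √5 < (2.237 : ℝ) := by
    by_contra hc
    push Not at hc
    nlinarith
  unfold gr
  linarith

namespace Eta

variable {η : ℂ} (h : Eta η)
include h

theorem z5 : η ^ 5 = 1 := by
  have : η ^ 5 - 1 = (η - 1) * (η ^ 4 + η ^ 3 + η ^ 2 + η + 1) := by ring
  rw [h.cyc, mul_zero] at this
  exact sub_eq_zero.mp this

theorem ne0 : η ≠ 0 := by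
  rintro rfl
  have := h.z5
  norm_num at this

theorem conj_pow' (n : ℕ) : conj (η ^ n) = η ^ (4 * n) := by
  rw [map_pow, h.cj, ← pow_mul]

theorem normSq_pow (n : ℕ) : (η ^ n).re ^ 2 + (η ^ n).im ^ 2 = 1 := by
  have h1 : η ^ n * conj (η ^ n) = 1 := by
    rw [h.conj_pow', ← pow_add, show n + 4 * n = 5 * n by ring, pow_mul, h.z5, one_pow]
  rw [Complex.mul_conj, Complex.normSq_apply] at h1
  have h2 : (η ^ n).re * (η ^ n).re + (η ^ n).im * (η ^ n).im = 1 := by exact_mod_cast h1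
  nlinarith

theorem re_1 : (η ^ 1).re = (gr - 1) / 2 := by
  have h1 : η + conj η = (((√5 - 1) / 2 : ℝ) : ℂ) := by rw [h.cj, h.re1]
  rw [Complex.add_conj] at h1
  have h2 : 2 * η.re = (√5 - 1) / 2 := by exact_mod_cast h1
  rw [pow_one]
  unfold gr
  linarith

theorem re_4 : (η ^ 4).re = (gr - 1) / 2 := by
  rw [← h.cj, Complex.conj_re]
  simpa using h.re_1

theorem conj2 : conj (η ^ 2) = η ^ 3 := by
  rw [h.conj_pow', show 4 * 2 = 5 + 3 by norm_num, pow_add, h.z5, one_mul]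

theorem re_2 : (η ^ 2).re = -gr / 2 := by
  have h1 : η ^ 2 + conj (η ^ 2) = ((-gr : ℝ) : ℂ) := by
    rw [h.conj2]
    have h2 := h.cyc
    have h3 := h.re1
    unfold gr
    push_cast at h3 ⊢
    linear_combination h2 - h3
  rw [Complex.add_conj] at h1
  have h2 : 2 * (η ^ 2).re = -gr := by exact_mod_cast h1
  linarith

theorem re_3 : (η ^ 3).re = -gr / 2 := by
  rw [← h.conj2, Complex.conj_re, h.re_2]

theorem im_3 : (η ^ 3).im = -(η ^ 2).im := by
  rw [← h.conj2, Complex.conj_im]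

theorem im_2_sq : (η ^ 2).im ^ 2 = (3 - gr) / 4 := by
  have h1 := h.normSq_pow 2
  rw [h.re_2] at h1
  have := gr_sq
  nlinarith

end Eta

/-- the segment from `η²` to `η³` -/
def wv (η : ℂ) (t : ℝ) : ℂ := (1 - t) * η ^ 2 + t * η ^ 3

theorem wv_sub2 (η : ℂ) (t : ℝ) : wv η t - η ^ 2 = t * (η ^ 3 - η ^ 2) := by
  unfold wv; ring

theorem wv_sub3 (η : ℂ) (t : ℝ) : wv η t - η ^ 3 = (1 - t) * (η ^ 2 - η ^ 3) := by
  unfold wv; ring

section wv

variable {η : ℂ} (h : Eta η) (t : ℝ)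
include h

theorem wv_re : (wv η t).re = -gr / 2 := by
  have e : wv η t = ((1 - t : ℝ) : ℂ) * η ^ 2 + ((t : ℝ) : ℂ) * η ^ 3 := by
    unfold wv; push_cast; ring
  rw [e, Complex.add_re, Complex.re_ofReal_mul, Complex.re_ofReal_mul, h.re_2, h.re_3]
  ring

theorem wv_im : (wv η t).im = (1 - 2 * t) * (η ^ 2).im := by
  have e : wv η t = ((1 - t : ℝ) : ℂ) * η ^ 2 + ((t : ℝ) : ℂ) * η ^ 3 := by
    unfold wv; push_cast; ring
  rw [e, Complex.add_im, Complex.im_ofReal_mul, Complex.im_ofReal_mul, h.im_3]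
  ring

theorem wv_ne_of_re {x : ℂ} (hx : x.re ≠ -gr / 2) : wv η t ≠ x := by
  intro e
  exact hx (by rw [← e, wv_re h t])

theorem wv_ne_zero : wv η t ≠ 0 := wv_ne_of_re h t (by
  have := gr_lo
  rw [Complex.zero_re]
  intro h0
  linarith)

theorem wv_ne_one : wv η t - 1 ≠ 0 := sub_ne_zero.2 (wv_ne_of_re h t (by
  have := gr_lo
  rw [Complex.one_re]
  intro h0
  linarith))

/-- `w` avoids the other three roots -/
theorem wv_ne_pow {m : ℕ} (hm : m = 0 ∨ m = 1 ∨ m = 4) : wv η t - η ^ m ≠ 0 := by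
  have := gr_lo
  rcases hm with rfl | rfl | rfl
  · simpa using wv_ne_one h t
  · refine sub_ne_zero.2 (wv_ne_of_re h t ?_)
    rw [h.re_1]
    intro h0
    linarith
  · refine sub_ne_zero.2 (wv_ne_of_re h t ?_)
    rw [h.re_4]
    intro h0
    linarith

theorem pow23_ne : η ^ 3 - η ^ 2 ≠ 0 := by
  intro h0
  have h1 := congrArg Complex.im h0
  rw [Complex.sub_im, h.im_3, Complex.zero_im] at h1
  have h2 := h.im_2_sq
  have : (η ^ 2).im = 0 := by linarith
  rw [this] at h2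
  have := gr_hi
  norm_num at h2
  linarith

theorem normSq_wv : Complex.normSq (wv η t) = gr ^ 2 / 4 + (1 - 2 * t) ^ 2 * ((3 - gr) / 4) := by
  rw [Complex.normSq_apply, wv_re h, wv_im h]
  have := h.im_2_sq
  linear_combination (1 - 2 * t) ^ 2 * this

theorem normSq_wv1 : Complex.normSq (wv η t - 1) =
    (1 + gr / 2) ^ 2 + (1 - 2 * t) ^ 2 * ((3 - gr) / 4) := by
  rw [Complex.normSq_apply, Complex.sub_re, Complex.sub_im, wv_re h, wv_im h, Complex.one_re,
    Complex.one_im]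
  have := h.im_2_sq
  linear_combination (1 - 2 * t) ^ 2 * this

/-- the square stays in the ball of radius `√(9/10)` -/
theorem radius (ht : t ∈ Icc (0 : ℝ) 1) :
    gr * (1 + Complex.normSq (wv η t) + 1 / 100) ≤ 9 / 10 * Complex.normSq (wv η t - 1) := by
  rw [normSq_wv h, normSq_wv1 h]
  have h1 := gr_lo
  have h2 := gr_hi
  have h3 := gr_sq
  have hy : (1 - 2 * t) ^ 2 ≤ 1 := by
    have := ht.1
    have := ht.2
    nlinarith
  have hy0 : 0 ≤ (1 - 2 * t) ^ 2 := sq_nonneg _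
  set y := (1 - 2 * t) ^ 2
  -- the difference is linear in `y`
  have h4 : gr * (1 + (gr ^ 2 / 4 + y * ((3 - gr) / 4)) + 1 / 100) -
      9 / 10 * ((1 + gr / 2) ^ 2 + y * ((3 - gr) / 4)) =
      gr * (201 / 100) - 9 / 10 * (2 + gr) + (y - 1) * ((3 - gr) / 4) * (gr - 9 / 10) := by
    have : (1 + gr / 2) ^ 2 = 1 + gr + (gr + 1) / 4 := by rw [← h3]; ring
    rw [this, h3]
    ring
  have h5 : (y - 1) * ((3 - gr) / 4) * (gr - 9 / 10) ≤ 0 := by
    have h6 : 0 ≤ (1 - y) * ((3 - gr) / 4) * (gr - 9 / 10) :=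
      mul_nonneg (mul_nonneg (by linarith) (by linarith)) (by linarith)
    nlinarith
  linarith

/-- `|1/10 - η^i| < |w - 1|` -/
theorem small_c (i : ℕ) : Complex.normSq ((1 / 10 : ℂ) - η ^ i) < Complex.normSq (wv η t - 1) := by
  rw [normSq_wv1 h]
  have h1 := gr_lo
  have h2 := gr_hi
  have h3 := h.normSq_pow i
  have hy0 : 0 ≤ (1 - 2 * t) ^ 2 := sq_nonneg _
  have e : Complex.normSq ((1 / 10 : ℂ) - η ^ i) = (1 / 10 - (η ^ i).re) ^ 2 + (η ^ i).im ^ 2 := by
    have : (1 / 10 : ℂ) = ((1 / 10 : ℝ) : ℂ) := by push_cast; ring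
    rw [this, Complex.normSq_apply, Complex.sub_re, Complex.sub_im, Complex.ofReal_re,
      Complex.ofReal_im]
    ring
  rw [e]
  have h4 : (1 / 10 - (η ^ i).re) ^ 2 + (η ^ i).im ^ 2 ≤ 1.21 := by
    have : -1 ≤ (η ^ i).re := by nlinarith [sq_nonneg (η ^ i).im]
    nlinarith
  have h5 : 0 ≤ (1 - 2 * t) ^ 2 * ((3 - gr) / 4) := mul_nonneg hy0 (by linarith)
  nlinarith

omit t in
theorem c_ne (i : ℕ) : (1 / 10 : ℂ) - η ^ i ≠ 0 := by
  intro h0
  have h3 := h.normSq_pow i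
  have h4 : η ^ i = ((1 / 10 : ℝ) : ℂ) := by
    push_cast
    linear_combination -h0
  rw [h4, Complex.ofReal_re, Complex.ofReal_im] at h3
  norm_num at h3

/-- the other bridges of the same colour are not met -/
theorem bridge_ne {m : ℕ} (hm : m = 1 ∨ m = 2 ∨ m = 3 ∨ m = 4) (ht : t ∈ Icc (0 : ℝ) 1) {σ : ℝ}
    (hσ : σ ∈ Icc (0 : ℝ) 1) : σ * (wv η t - η ^ m) - (wv η t - 1) ≠ 0 := by
  intro h0
  have h1 := gr_lo
  have h2 := gr_hi
  have h3 := gr_sq
  have h4 := h.normSq_pow m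
  have hx : (η ^ m).re ≤ (gr - 1) / 2 := by
    rcases hm with rfl | rfl | rfl | rfl
    · rw [h.re_1]
    · rw [h.re_2]; linarith
    · rw [h.re_3]; linarith
    · rw [h.re_4]
  set x := (η ^ m).re with hxd
  set y := (η ^ m).im with hyd
  set v := (1 - 2 * t) * (η ^ 2).im with hv
  have hv2 : v ^ 2 ≤ (3 - gr) / 4 := by
    have e : v ^ 2 = (1 - 2 * t) ^ 2 * ((3 - gr) / 4) := by
      rw [hv, mul_pow, h.im_2_sq]
    rw [e]
    have : (1 - 2 * t) ^ 2 ≤ 1 := by
      have := ht.1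
      have := ht.2
      nlinarith
    nlinarith
  have hx1 : -1 ≤ x := by nlinarith [sq_nonneg y]
  have key : 0 < (1 - x) * (1 + gr / 2) + y * v := by
    have h5 : -(y ^ 2 + v ^ 2) / 2 ≤ y * v := by nlinarith [sq_nonneg (y + v)]
    have h6 : y ^ 2 = 1 - x ^ 2 := by linarith
    have h7 : 0 < (1 - x) * (1 + gr - x) - (3 - gr) / 4 := by nlinarith
    nlinarith
  -- real part of the product with `conj (w - 1)`
  have h8 := congrArg Complex.re h0
  have h9 := congrArg Complex.im h0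
  have e1 : (σ * (wv η t - η ^ m) - (wv η t - 1)).re = σ * (-gr / 2 - x) - (-gr / 2 - 1) := by
    rw [Complex.sub_re, Complex.re_ofReal_mul, Complex.sub_re, Complex.sub_re, wv_re h,
      Complex.one_re]
  have e2 : (σ * (wv η t - η ^ m) - (wv η t - 1)).im = σ * (v - y) - v := by
    rw [Complex.sub_im, Complex.im_ofReal_mul, Complex.sub_im, Complex.sub_im, wv_im h,
      Complex.one_im, sub_zero]
  rw [e1, Complex.zero_re] at h8
  rw [e2, Complex.zero_im] at h9
  -- combine: `(-(1+g/2)) * re + v * im`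
  have h10 : (1 - σ) * ((1 + gr / 2) ^ 2 + v ^ 2) + σ * ((1 - x) * (1 + gr / 2) + y * v) = 0 := by
    linear_combination (1 + gr / 2) * h8 - v * h9
  have h11 : 0 < (1 + gr / 2) ^ 2 + v ^ 2 := by positivity
  rcases eq_or_lt_of_le hσ.1 with h12 | h12
  · rw [← h12] at h10
    nlinarith
  · have h13 : 0 ≤ (1 - σ) * ((1 + gr / 2) ^ 2 + v ^ 2) :=
      mul_nonneg (by linarith [hσ.2]) h11.le
    have h14 := mul_pos h12 key
    linarith

end wv

end

end Crest.Agent.R272.UB_20
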