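import Crest.Agent.R272.UB5_20
import Crest.Agent.R272.UB6_20
import Crest.Agent.R272.GLoc5_620

/-!
# R272, leaf UB-DISC (helper20), part 9: the squares in the arrangement (1)

the affine functions `lf a` = `lin (io (base a)).1 / W`, their values on the square `zz k`.
-/

set_option autoImplicit false

open Set Filter Topology
open scoped ComplexConjugate

namespace Crest.Agent.R272.UB_20

open Crest.Agent.R272.EBase_641 Crest.Agent.R272.GLoc_620
open Crest.Agent.R272.Cls_620 Crest.Agent.R272.Quot_783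
open Crest.Agent.R272.In_68 (Z5r io)

noncomputable section

section form

variable {O : Subring (Fin 2 → ℂ)} {z μ : Fin 2 → ℂ}

/-- the root of the slopes -/
def et (z : Fin 2 → ℂ) : ℂ := conj (z 0)

theorem eta_et (h : Z5r O z) : Eta (et z) := by
  have hc := In_68.conj_z h 0
  have h5 := In_68.z5t h 0
  have hcyc : z 0 ^ 4 + z 0 ^ 3 + z 0 ^ 2 + z 0 + 1 = 0 := by
    have := congrFun h.cyc 0
    simpa using this
  have e : et z = z 0 ^ 4 := hc
  refine ⟨?_, ?_, ?_⟩
  · rw [e]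
    linear_combination hcyc + (z 0 ^ 11 + z 0 ^ 6 + z 0 ^ 7 + z 0 + z 0 ^ 2 + z 0 ^ 3) * h5
  · rw [et, Complex.conj_conj, hc]
    linear_combination (-(z 0 ^ 11 + z 0 ^ 6 + z 0)) * h5
  · rw [e]
    have h0 := h.at0
    rw [← h0]
    linear_combination (z 0 ^ 11 + z 0 ^ 6 + z 0) * h5

/-- the scale -/
def WW (z : Fin 2 → ℂ) : ℝ := √(In_68.dd z 0)

theorem WW_pos (h : Z5r O z) : 0 < WW z := Real.sqrt_pos.2 (In_68.dd_pos h 0)

theorem ww_lt (i : Fin 3) : In_68.ww z i.castSucc 0 = WW z := by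
  have : In_68.rr z i.castSucc 0 = 1 := by
    fin_cases i <;> simp [In_68.rr, HH]
  rw [In_68.ww, this, abs_one, mul_one, WW]

theorem ww_3 (h : Z5r O z) : In_68.ww z 3 0 = WW z * √gr := by
  have e : In_68.rr z 3 0 = -gr := by
    show ((z ^ 2 + z ^ 3) 0).re = _
    have e1 : (z ^ 2 + z ^ 3) 0 = z 0 ^ 2 + z 0 ^ 3 := rfl
    rw [e1, h.toZ5.at0', Complex.ofReal_re]
    unfold gr
    ring
  rw [In_68.ww, e, abs_neg, abs_of_pos (by linarith [gr_lo]), WW,
    Real.sqrt_mul (In_68.dd_pos h 0).le]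

/-- `lin` in coordinates -/
theorem lin_coord (h : Z5r O z) (v : Fin 4 → Fin 2 → ℂ) (q : E 3) :
    lin (io h v).1 q = WW z * (conj (v 0 0) * q 0 + conj (v 1 0) * q 1 + conj (v 2 0) * q 2
      - (√gr : ℝ) * conj (v 3 0)) := by
  rw [lin, In_68.io_fst, PiLp.inner_apply, Fin.sum_univ_three, In_68.P0_snd, ww_3 h]
  simp only [In_68.P0_fst, ww_lt, RCLike.inner_apply, map_mul, Complex.conj_ofReal]
  show q 0 * ((WW z : ℂ) * conj (v 0 0)) + q 1 * ((WW z : ℂ) * conj (v 1 0)) +
    q 2 * ((WW z : ℂ) * conj (v 2 0)) - _ * conj (v 3 0) = _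
  push_cast
  ring

/-- the affine functions of the labels -/
def lf (η : ℂ) : Lb → E 3 → ℂ
  | .o, q => q 0
  | .n false, q => q 1
  | .n true, q => q 2
  | .v false j, q => q 1 - η ^ (j : ℕ) * q 0
  | .v true j, q => q 2 - η ^ (j : ℕ) * q 0
  | .b false k, q => q 1 - η ^ (k : ℕ) * q 0 - (√gr : ℝ)
  | .b true k, q => q 2 - η ^ (k : ℕ) * q 0 - (√gr : ℝ)

theorem lin_base (h : Z5r O z) (a : Lb) (q : E 3) :
    lin (io h (base z a)).1 q = WW z * lf (et z) a q := by
  rw [lin_coord h]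
  cases a with
  | o => simp [base, e0, lf]
  | n i => cases i <;> simp [base, ei, e1, e2, lf]
  | v i j =>
    cases i <;> simp [base, ei, e0, e1, e2, lf, et] <;> ring_nf <;> simp
  | b i k =>
    cases i <;> simp [base, ei, e0, e1, e2, e3, lf, et] <;> ring_nf <;> simp

theorem base_fst_ne (h : Z5r O z) (a : Lb) : (io h (base z a)).1.1 ≠ 0 := by
  intro h0
  have hc : ∀ q q' : E 3, lf (et z) a q = lf (et z) a q' := by
    intro q q'
    have e1 := lin_base h a q
    have e2 := lin_base h a q'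
    rw [lin, h0, inner_zero_left] at e1 e2
    have hW : (WW z : ℂ) ≠ 0 := Complex.ofReal_ne_zero.2 (WW_pos h).ne'
    exact mul_left_cancel₀ hW (e1.symm.trans e2)
  have h1 := hc (WithLp.toLp 2 ![1, 0, 0]) 0
  have h2 := hc (WithLp.toLp 2 ![0, 1, 0]) 0
  have h3 := hc (WithLp.toLp 2 ![0, 0, 1]) 0
  cases a with
  | o => simp [lf] at h1
  | n i => cases i <;> simp [lf] at h2 h3
  | v i j => cases i <;> simp [lf] at h2 h3
  | b i k => cases i <;> simp [lf] at h2 h3

end form

/-! ### units -/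

section unit

variable {O : Subring (Fin 2 → ℂ)} {z μ : Fin 2 → ℂ} (h : Z5r O z)
variable {G : Type} [Group G] {ρ : G →* UG 3} {kk : ℕ}

theorem isUM_of_ne {f : E 3 → ℂ} {v : V1 3} {q : E 3} (hf : IsU f q) (hv : lin v q ≠ 0) :
    IsUM f (lin v) q := by
  have h1 : IsU (lin v) q :=
    ⟨{w | lin v w ≠ 0}, (differentiable_lin v).continuous.continuousAt.eventually_ne hv,
      (differentiable_lin v).differentiableOn, fun w hw => hw⟩
  refine ⟨fun w => f w * (lin v w)⁻¹, hf.mul h1.inv, ?_⟩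
  filter_upwards [(differentiable_lin v).continuous.continuousAt.eventually_ne hv] with w hw
  field_simp

include h in
theorem isUM_base (hD : Deep O z μ 2) (hD' : Deep O z μ 13) {a : Lb}
    (R : Root 3 kk ρ (SS h μ a)) {q : E 3} (hq : ‖q‖ ^ 2 ≤ 9 / 10) :
    IsUM R.f (lin (io h (base z a)).1) q := by
  have hqB : q ∈ Ball 3 := by
    rw [mem_Ball]
    nlinarith [norm_nonneg q]
  by_cases h0 : lin (io h (base z a)).1 q = 0
  · exact root_L h hD R hqB ⟨base_mem h.toZ5 a, Cg.refl _ _, rfl⟩ ((perp_iff h _ q).mpr h0)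
  · refine isUM_of_ne (root_U h R hqB ?_) h0
    rintro ⟨v, hv, hvp⟩
    apply h0
    have h1 := (perp_iff h v q).mp hvp
    have h2 : v = base z a :=
      std_of_ball h (K := 13) (r := 9 / 10) (by norm_num) (by norm_num) hD' (by norm_num) hv hq h1
    rw [← h2]
    exact h1

include h in
/-- global form of the root functions on the ball of radius `√(9/10)` -/
theorem exists_UU (hD : Deep O z μ 2) (hD' : Deep O z μ 13) (R : ∀ a : Lb, Root 3 kk ρ (SS h μ a)) :
    ∃ U : Lb → E 3 → ℂ, (∀ a, ContinuousOn (U a) {q | ‖q‖ ^ 2 ≤ 9 / 10}) ∧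
      (∀ a q, ‖q‖ ^ 2 ≤ 9 / 10 → U a q ≠ 0) ∧
      ∀ a q, ‖q‖ ^ 2 ≤ 9 / 10 → (R a).f q = lf (et z) a q * U a q := by
  have hW : (WW z : ℂ) ≠ 0 := Complex.ofReal_ne_zero.2 (WW_pos h).ne'
  have h1 : ∀ a : Lb, ∃ U : E 3 → ℂ, ContinuousOn U {q | ‖q‖ ^ 2 ≤ 9 / 10} ∧
      (∀ q, ‖q‖ ^ 2 ≤ 9 / 10 → U q ≠ 0) ∧
      ∀ q, ‖q‖ ^ 2 ≤ 9 / 10 → (R a).f q = lf (et z) a q * U q := by
    intro a
    obtain ⟨U, hU1, hU2, hU3⟩ := exists_unit (base_fst_ne h a)
      (K := {q : E 3 | ‖q‖ ^ 2 ≤ 9 / 10}) (f := (R a).f) (fun q hq => isUM_base h hD hD' (R a) hq)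
    refine ⟨fun q => WW z * U q, continuousOn_const.mul hU1, fun q hq => mul_ne_zero hW (hU2 q hq),
      fun q hq => ?_⟩
    rw [hU3 q hq, lin_base h]
    ring
  choose U hU1 hU2 hU3 using h1
  exact ⟨U, hU1, hU2, hU3⟩

end unit

/-! ### the square in the ball -/

section square

/-- the slope along the arc -/
def uv (η : ℂ) (k : Fin 5) (t : ℝ) : ℂ := η ^ (k : ℕ) * wv η t

/-- the length -/
def Lv (η : ℂ) (k : Fin 5) (t : ℝ) : ℂ := (√gr : ℝ) / (η ^ (k : ℕ) * (wv η t - 1))

/-- the square -/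
def zz (η : ℂ) (k : Fin 5) (p : ℝ × ℝ) : E 3 :=
  WithLp.toLp 2 ![p.1 * Lv η k p.2, p.1 * Lv η k p.2 * uv η k p.2, p.1 * Lv η k p.2 * (1 / 10)]

variable {η : ℂ} (hη : Eta η) (k : Fin 5)

theorem wv_cont (η : ℂ) : Continuous (wv η) := by
  unfold wv; fun_prop

theorem uv_cont (η : ℂ) (k : Fin 5) : Continuous (uv η k) :=
  continuous_const.mul (wv_cont η)

include hη

theorem Lv_cont : Continuous (Lv η k) := by
  unfold Lv
  refine continuous_const.div (continuous_const.mul ((wv_cont η).sub continuous_const)) ?_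
  intro t
  exact mul_ne_zero (pow_ne_zero _ hη.ne0) (wv_ne_one hη t)

theorem Lv_ne (t : ℝ) : Lv η k t ≠ 0 := by
  refine div_ne_zero ?_ (mul_ne_zero (pow_ne_zero _ hη.ne0) (wv_ne_one hη t))
  exact Complex.ofReal_ne_zero.2 (Real.sqrt_pos.2 (by linarith [gr_lo])).ne'

theorem zz_cont : Continuous (zz η k) := by
  have h1 := Lv_cont hη k
  have h2 := uv_cont η k
  unfold zz
  refine (PiLp.continuous_toLp 2 _).comp (continuous_pi fun i => ?_)
  fin_cases i
  · show Continuous fun p : ℝ × ℝ => (p.1 : ℂ) * Lv η k p.2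
    fun_prop
  · show Continuous fun p : ℝ × ℝ => (p.1 : ℂ) * Lv η k p.2 * uv η k p.2
    fun_prop
  · show Continuous fun p : ℝ × ℝ => (p.1 : ℂ) * Lv η k p.2 * (1 / 10)
    fun_prop

theorem normSq_pow1 (n : ℕ) : Complex.normSq (η ^ n) = 1 := by
  rw [Complex.normSq_apply]
  have := hη.normSq_pow n
  nlinarith

theorem zz_norm {p : ℝ × ℝ} (hp : p ∈ sqr) : ‖zz η k p‖ ^ 2 ≤ 9 / 10 := by
  have h1 : ‖zz η k p‖ ^ 2 = p.1 ^ 2 * (Complex.normSq (Lv η k p.2) *
      (1 + Complex.normSq (wv η p.2) + 1 / 100)) := by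
    rw [EuclideanSpace.norm_sq_eq, Fin.sum_univ_three]
    show ‖(p.1 : ℂ) * Lv η k p.2‖ ^ 2 + ‖(p.1 : ℂ) * Lv η k p.2 * uv η k p.2‖ ^ 2 +
      ‖(p.1 : ℂ) * Lv η k p.2 * (1 / 10)‖ ^ 2 = _
    rw [← Complex.normSq_eq_norm_sq, ← Complex.normSq_eq_norm_sq, ← Complex.normSq_eq_norm_sq]
    simp only [map_mul, uv, normSq_pow1 hη, Complex.normSq_ofReal]
    have : Complex.normSq (1 / 10 : ℂ) = 1 / 100 := by
      have e : (1 / 10 : ℂ) = ((1 / 10 : ℝ) : ℂ) := by push_cast; ring
      rw [e, Complex.normSq_ofReal]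
      norm_num
    rw [this]
    ring
  have h2 : Complex.normSq (Lv η k p.2) = gr / Complex.normSq (wv η p.2 - 1) := by
    unfold Lv
    rw [map_div₀, map_mul, normSq_pow1 hη, one_mul, Complex.normSq_ofReal,
      Real.mul_self_sqrt (by linarith [gr_lo])]
  have h3 : 0 < Complex.normSq (wv η p.2 - 1) := Complex.normSq_pos.2 (wv_ne_one hη _)
  have h4 := radius hη p.2 hp.2
  rw [h1, h2]
  have h5 : gr / Complex.normSq (wv η p.2 - 1) * (1 + Complex.normSq (wv η p.2) + 1 / 100) ≤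
      9 / 10 := by
    rw [div_mul_eq_mul_div, div_le_iff₀ h3]
    exact h4
  have h6 : p.1 ^ 2 ≤ 1 := by
    have := hp.1.1
    have := hp.1.2
    nlinarith
  have h7 : 0 ≤ gr / Complex.normSq (wv η p.2 - 1) *
      (1 + Complex.normSq (wv η p.2) + 1 / 100) := by
    have := Complex.normSq_nonneg (wv η p.2)
    have := gr_lo
    positivity
  nlinarith

end square

/-! ### factorisation on the square -/

section factor

/-- the vanishing part -/
def ea (k : Fin 5) : Lb → ℝ × ℝ → ℝ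
  | .o, p => p.1
  | .n _, p => p.1
  | .v true _, p => p.1
  | .v false m, p => if m = k + 2 then p.1 * p.2 else if m = k + 3 then p.1 * (1 - p.2) else p.1
  | .b false m, p => if m = k then 1 - p.1 else 1
  | .b true _, _ => 1

/-- the nonvanishing part -/
def Ba (η : ℂ) (k : Fin 5) : Lb → ℝ × ℝ → ℂ
  | .o, p => Lv η k p.2
  | .n false, p => Lv η k p.2 * uv η k p.2
  | .n true, p => Lv η k p.2 * (1 / 10)
  | .v true j, p => Lv η k p.2 * (1 / 10 - η ^ (j : ℕ))
  | .v false m, p =>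
      if m = k + 2 then Lv η k p.2 * (η ^ (k : ℕ) * (η ^ 3 - η ^ 2))
      else if m = k + 3 then Lv η k p.2 * (η ^ (k : ℕ) * (η ^ 2 - η ^ 3))
      else Lv η k p.2 * (uv η k p.2 - η ^ (m : ℕ))
  | .b false m, p =>
      if m = k then -(√gr : ℝ) else p.1 * Lv η k p.2 * (uv η k p.2 - η ^ (m : ℕ)) - (√gr : ℝ)
  | .b true m, p => p.1 * Lv η k p.2 * (1 / 10 - η ^ (m : ℕ)) - (√gr : ℝ)

variable {η : ℂ} (hη : Eta η) (k : Fin 5)
include hη

theorem pow_fin (n : Fin 5) : η ^ ((k + n : Fin 5) : ℕ) = η ^ (k : ℕ) * η ^ (n : ℕ) := by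
  rw [Fin.val_add, ← pow_add]
  conv_rhs => rw [← Nat.mod_add_div ((k : ℕ) + n) 5]
  rw [pow_add, pow_mul, hη.z5, one_pow, mul_one]

omit hη in
theorem fin_split (m : Fin 5) : ∃ n : Fin 5, m = k + n := ⟨m - k, (add_sub_cancel k m).symm⟩

theorem Lk (t : ℝ) : Lv η k t * (η ^ (k : ℕ) * (wv η t - 1)) = (√gr : ℝ) := by
  have h1 := mul_ne_zero (pow_ne_zero (k : ℕ) hη.ne0) (wv_ne_one hη t)
  exact div_mul_cancel₀ _ h1

/-- factorisation -/
theorem lf_zz (a : Lb) (p : ℝ × ℝ) : lf η a (zz η k p) = ea k a p * Ba η k a p := by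
  have hu2 : uv η k p.2 - η ^ (((k + 2 : Fin 5)) : ℕ) =
      p.2 * (η ^ (k : ℕ) * (η ^ 3 - η ^ 2)) := by
    rw [pow_fin hη k 2, uv]
    show η ^ (k : ℕ) * wv η p.2 - η ^ (k : ℕ) * η ^ 2 = _
    linear_combination η ^ (k : ℕ) * wv_sub2 η p.2
  have hu3 : uv η k p.2 - η ^ (((k + 3 : Fin 5)) : ℕ) =
      (1 - p.2) * (η ^ (k : ℕ) * (η ^ 2 - η ^ 3)) := by
    rw [pow_fin hη k 3, uv]
    show η ^ (k : ℕ) * wv η p.2 - η ^ (k : ℕ) * η ^ 3 = _
    linear_combination η ^ (k : ℕ) * wv_sub3 η p.2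
  cases a with
  | o => rfl
  | n i => 
    cases i
    · show (p.1 : ℂ) * Lv η k p.2 * uv η k p.2 = p.1 * (Lv η k p.2 * uv η k p.2)
      ring
    · show (p.1 : ℂ) * Lv η k p.2 * (1 / 10) = p.1 * (Lv η k p.2 * (1 / 10))
      ring
  | v i m =>
    cases i
    · show (p.1 : ℂ) * Lv η k p.2 * uv η k p.2 - η ^ (m : ℕ) * (p.1 * Lv η k p.2) = _
      simp only [ea, Ba]
      split_ifs with h1 h2
      · rw [h1]
        push_cast
        linear_combination (p.1 : ℂ) * Lv η k p.2 * hu2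
      · rw [h2]
        push_cast
        linear_combination (p.1 : ℂ) * Lv η k p.2 * hu3
      · ring
    · show (p.1 : ℂ) * Lv η k p.2 * (1 / 10) - η ^ (m : ℕ) * (p.1 * Lv η k p.2) =
        p.1 * (Lv η k p.2 * (1 / 10 - η ^ (m : ℕ)))
      ring
  | b i m =>
    cases i
    · show (p.1 : ℂ) * Lv η k p.2 * uv η k p.2 - η ^ (m : ℕ) * (p.1 * Lv η k p.2) -
        (√gr : ℝ) = _
      simp only [ea, Ba]
      split_ifs with h1
      · rw [h1]
        have := Lk hη k p.2
        unfold uv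
        push_cast
        linear_combination (p.1 : ℂ) * this
      · push_cast
        ring
    · show (p.1 : ℂ) * Lv η k p.2 * (1 / 10) - η ^ (m : ℕ) * (p.1 * Lv η k p.2) -
        (√gr : ℝ) = ((1 : ℝ) : ℂ) * (p.1 * Lv η k p.2 * (1 / 10 - η ^ (m : ℕ)) - (√gr : ℝ))
      push_cast
      ring

theorem Ba_cont (a : Lb) : Continuous (Ba η k a) := by
  have h1 := Lv_cont hη k
  have h2 := uv_cont η k
  cases a with
  | o => exact h1.comp continuous_snd
  | n i => 
    cases i
    · exact (h1.comp continuous_snd).mul (h2.comp continuous_snd)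
    · exact (h1.comp continuous_snd).mul continuous_const
  | v i m =>
    cases i
    · by_cases e1 : m = k + 2
      · have : Ba η k (.v false m) = fun p => Lv η k p.2 * (η ^ (k : ℕ) * (η ^ 3 - η ^ 2)) := by
          funext p; simp only [Ba, if_pos e1]
        rw [this]
        fun_prop
      · by_cases e2 : m = k + 3
        · have : Ba η k (.v false m) = fun p => Lv η k p.2 * (η ^ (k : ℕ) * (η ^ 2 - η ^ 3)) := by
            funext p; simp only [Ba, if_neg e1, if_pos e2]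
          rw [this]
          fun_prop
        · have : Ba η k (.v false m) = fun p => Lv η k p.2 * (uv η k p.2 - η ^ (m : ℕ)) := by
            funext p; simp only [Ba, if_neg e1, if_neg e2]
          rw [this]
          fun_prop
    · exact (h1.comp continuous_snd).mul continuous_const
  | b i m =>
    cases i
    · by_cases e1 : m = k
      · have : Ba η k (.b false m) = fun _ => -(((√gr : ℝ)) : ℂ) := by
          funext p; simp only [Ba, if_pos e1]
        rw [this]
        fun_prop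
      · have : Ba η k (.b false m) = fun p =>
            p.1 * Lv η k p.2 * (uv η k p.2 - η ^ (m : ℕ)) - (√gr : ℝ) := by
          funext p; simp only [Ba, if_neg e1]
        rw [this]
        fun_prop
    · have : Ba η k (.b true m) = fun p =>
          p.1 * Lv η k p.2 * (1 / 10 - η ^ (m : ℕ)) - (√gr : ℝ) := by
        funext p; simp only [Ba]
      rw [this]
      fun_prop

theorem Ba_ne (a : Lb) {p : ℝ × ℝ} (hp : p ∈ sqr) : Ba η k a p ≠ 0 := by
  have hL := Lv_ne hη k p.2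
  have hk := pow_ne_zero (k : ℕ) hη.ne0
  have hs : ((√gr : ℝ) : ℂ) ≠ 0 :=
    Complex.ofReal_ne_zero.2 (Real.sqrt_pos.2 (by linarith [gr_lo])).ne'
  have h32 := pow23_ne hη
  have h23 : η ^ 2 - η ^ 3 ≠ 0 := fun h0 => h32 (by linear_combination -h0)
  cases a with
  | o => exact hL
  | n i =>
    cases i
    · exact mul_ne_zero hL (mul_ne_zero hk (wv_ne_zero hη _))
    · exact mul_ne_zero hL (by norm_num)
  | v i m =>
    cases i
    · simp only [Ba]
      split_ifs with h1 h2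
      · exact mul_ne_zero hL (mul_ne_zero hk h32)
      · exact mul_ne_zero hL (mul_ne_zero hk h23)
      · refine mul_ne_zero hL ?_
        obtain ⟨n, rfl⟩ := fin_split k m
        rw [pow_fin hη k n, uv, ← mul_sub]
        refine mul_ne_zero hk ?_
        have hn : (n : ℕ) = 0 ∨ (n : ℕ) = 1 ∨ (n : ℕ) = 4 := by
          have h3 : n ≠ 2 := fun e => h1 (by rw [e])
          have h4 : n ≠ 3 := fun e => h2 (by rw [e])
          clear h1 h2
          revert h3 h4
          fin_cases n <;> simp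
        exact wv_ne_pow hη p.2 hn
    · exact mul_ne_zero hL (c_ne hη _)
  | b i m =>
    cases i
    · simp only [Ba]
      split_ifs with h1
      · exact neg_ne_zero.2 hs
      · obtain ⟨n, rfl⟩ := fin_split k m
        have hn : (n : ℕ) = 1 ∨ (n : ℕ) = 2 ∨ (n : ℕ) = 3 ∨ (n : ℕ) = 4 := by
          have h3 : n ≠ 0 := fun e => h1 (by rw [e, add_zero])
          clear h1
          revert h3
          fin_cases n <;> simp
        have h5 := bridge_ne hη p.2 hn hp.2 hp.1
        have h6 := Lk hη k p.2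
        intro h0
        apply mul_ne_zero (mul_ne_zero hL hk) h5
        rw [pow_fin hη k n, uv] at h0
        linear_combination h0 - h6
    · intro h0
      have h0' : (p.1 : ℂ) * Lv η k p.2 * (1 / 10 - η ^ (m : ℕ)) = (√gr : ℝ) := by
        simp only [Ba] at h0
        linear_combination h0
      have h1 := congrArg Complex.normSq h0'
      have h2 : Complex.normSq (Lv η k p.2) = gr / Complex.normSq (wv η p.2 - 1) := by
        unfold Lv
        rw [map_div₀, map_mul, normSq_pow1 hη, one_mul, Complex.normSq_ofReal,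
          Real.mul_self_sqrt (by linarith [gr_lo])]
      have h3 : 0 < Complex.normSq (wv η p.2 - 1) := Complex.normSq_pos.2 (wv_ne_one hη _)
      rw [map_mul, map_mul, h2, Complex.normSq_ofReal, Complex.normSq_ofReal,
        Real.mul_self_sqrt (by linarith [gr_lo])] at h1
      have h4 := small_c hη p.2 (m : ℕ)
      have h5 := gr_lo
      have h6 : p.1 * p.1 ≤ 1 := by
        have := hp.1.1
        have := hp.1.2
        nlinarith
      have h7 : p.1 * p.1 * Complex.normSq (1 / 10 - η ^ (m : ℕ)) =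
          Complex.normSq (wv η p.2 - 1) := by
        generalize Complex.normSq (1 / 10 - η ^ (m : ℕ)) = X at h1 h4 ⊢
        generalize Complex.normSq (wv η p.2 - 1) = Y at h1 h3 h4 ⊢
        have h10 : gr ≠ 0 := by linarith
        have h11 : Y ≠ 0 := h3.ne'
        field_simp at h1
        linarith
      have h8 : p.1 * p.1 * Complex.normSq (1 / 10 - η ^ (m : ℕ)) ≤
          1 * Complex.normSq (1 / 10 - η ^ (m : ℕ)) :=
        mul_le_mul_of_nonneg_right h6 (Complex.normSq_nonneg _)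
      linarith

end factor

/-! ### the squares over the ball -/

section sqd

open Crest.Agent.R272.GI_620
open Crest.Agent.R272.Gr_559 (GData)

variable {O : Subring (Fin 2 → ℂ)} {z μ : Fin 2 → ℂ} (h : Z5r O z)
variable {G : Type} [Group G] {ρ : G →* UG 3} {kk : ℕ} (R : ∀ a : Lb, Root 3 kk ρ (SS h μ a))
variable {Γ : Type} [Group Γ] (ρ' : Γ →* UG 3)

/-- `(R a).f = lf a * U a` near the origin -/
structure IsUU (U : Lb → E 3 → ℂ) : Prop where
  cont : ∀ a, ContinuousOn (U a) {q | ‖q‖ ^ 2 ≤ 9 / 10}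
  ne : ∀ a q, ‖q‖ ^ 2 ≤ 9 / 10 → U a q ≠ 0
  eq : ∀ a q, ‖q‖ ^ 2 ≤ 9 / 10 → (R a).f q = lf (et z) a q * U a q

theorem exists_isUU (hD : Deep O z μ 2) (hD' : Deep O z μ 13) : ∃ U, IsUU h R U := by
  obtain ⟨U, h1, h2, h3⟩ := exists_UU h hD hD' R
  exact ⟨U, h1, h2, h3⟩

variable {U : Lb → E 3 → ℂ} (hU : IsUU h R U) (k : Fin 5)

/-- the nonvanishing part of the root functions -/
def Ph (z : Fin 2 → ℂ) (U : Lb → E 3 → ℂ) (k : Fin 5) (a : Lb) (p : ℝ × ℝ) : ℂ :=
  Ba (et z) k a p * U a (zz (et z) k p)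

/-- the nonvanishing part of `P` -/
def PPh (z : Fin 2 → ℂ) (U : Lb → E 3 → ℂ) (k : Fin 5) (i : Bool) (p : ℝ × ℝ) : ℂ :=
  Ph z U k (.v i 1) p * Ph z U k (.v i 2) p * Ph z U k (.n i) p *
    (Ph z U k (.b i 1) p * Ph z U k (.b i 2) p)

/-- the nonvanishing part of `Q` -/
def QPh (z : Fin 2 → ℂ) (U : Lb → E 3 → ℂ) (k : Fin 5) (i : Bool) (p : ℝ × ℝ) : ℂ :=
  Ph z U k (.v i 3) p * Ph z U k (.v i 4) p * Ph z U k (.v i 0) p * Ph z U k (.b i 4) p

include hU

theorem R_zz (a : Lb) {p : ℝ × ℝ} (hp : p ∈ sqr) :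
    (R a).f (zz (et z) k p) = ea k a p * Ph z U k a p := by
  rw [hU.eq a _ (zz_norm (eta_et h) k hp), lf_zz (eta_et h) k a p, Ph]
  ring

theorem Ph_cont (a : Lb) : ContinuousOn (Ph z U k a) sqr := by
  refine (Ba_cont (eta_et h) k a).continuousOn.mul ?_
  exact (hU.cont a).comp (zz_cont (eta_et h) k).continuousOn
    (fun p hp => zz_norm (eta_et h) k hp)

theorem Ph_ne (a : Lb) {p : ℝ × ℝ} (hp : p ∈ sqr) : Ph z U k a p ≠ 0 :=
  mul_ne_zero (Ba_ne (eta_et h) k a hp) (hU.ne a _ (zz_norm (eta_et h) k hp))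

theorem PPh_cont (i : Bool) : ContinuousOn (PPh z U k i) sqr :=
  (((Ph_cont h R hU k _).mul (Ph_cont h R hU k _)).mul (Ph_cont h R hU k _)).mul
    ((Ph_cont h R hU k _).mul (Ph_cont h R hU k _))

theorem QPh_cont (i : Bool) : ContinuousOn (QPh z U k i) sqr :=
  (((Ph_cont h R hU k _).mul (Ph_cont h R hU k _)).mul (Ph_cont h R hU k _)).mul
    (Ph_cont h R hU k _)

theorem PPh_ne (i : Bool) {p : ℝ × ℝ} (hp : p ∈ sqr) : PPh z U k i p ≠ 0 :=
  mul_ne_zero (mul_ne_zero (mul_ne_zero (Ph_ne h R hU k _ hp) (Ph_ne h R hU k _ hp))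
    (Ph_ne h R hU k _ hp)) (mul_ne_zero (Ph_ne h R hU k _ hp) (Ph_ne h R hU k _ hp))

theorem QPh_ne (i : Bool) {p : ℝ × ℝ} (hp : p ∈ sqr) : QPh z U k i p ≠ 0 :=
  mul_ne_zero (mul_ne_zero (mul_ne_zero (Ph_ne h R hU k _ hp) (Ph_ne h R hU k _ hp))
    (Ph_ne h R hU k _ hp)) (Ph_ne h R hU k _ hp)

theorem FP_zz (i : Bool) {p : ℝ × ℝ} (hp : p ∈ sqr) : FP h R i (zz (et z) k p) =
    (ea k (.v i 1) p * ea k (.v i 2) p * ea k (.n i) p * (ea k (.b i 1) p * ea k (.b i 2) p) : ℝ) *
      PPh z U k i p := by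
  unfold FP PPh
  rw [R_zz h R hU k _ hp, R_zz h R hU k _ hp, R_zz h R hU k _ hp, R_zz h R hU k _ hp,
    R_zz h R hU k _ hp]
  push_cast
  ring

theorem FQ_zz (i : Bool) {p : ℝ × ℝ} (hp : p ∈ sqr) : FQ h R i (zz (et z) k p) =
    (ea k (.v i 3) p * ea k (.v i 4) p * ea k (.v i 0) p * ea k (.b i 4) p : ℝ) *
      QPh z U k i p := by
  unfold FQ QPh
  rw [R_zz h R hU k _ hp, R_zz h R hU k _ hp, R_zz h R hU k _ hp, R_zz h R hU k _ hp]
  push_cast
  ring

theorem FP_true {p : ℝ × ℝ} (hp : p ∈ sqr) :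
    FP h R true (zz (et z) k p) = p.1 ^ 3 * PPh z U k true p := by
  rw [FP_zz h R hU k true hp]
  have : ea k (.v true 1) p * ea k (.v true 2) p * ea k (.n true) p *
      (ea k (.b true 1) p * ea k (.b true 2) p) = p.1 ^ 3 := by
    simp only [ea]
    ring
  rw [this]
  push_cast
  ring

theorem FQ_true {p : ℝ × ℝ} (hp : p ∈ sqr) :
    FQ h R true (zz (et z) k p) = p.1 ^ 3 * QPh z U k true p := by
  rw [FQ_zz h R hU k true hp]
  have : ea k (.v true 3) p * ea k (.v true 4) p * ea k (.v true 0) p *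
      ea k (.b true 4) p = p.1 ^ 3 := by
    simp only [ea]
    ring
  rw [this]
  push_cast
  ring

omit hU in
/-- the three admissible pairs -/
def Adm (k : Fin 5) (sw : Bool) : Prop := (k = 4 ∧ sw = false) ∨ (k = 1 ∧ sw = true) ∨
  (k = 2 ∧ sw = true)

theorem F_false {sw : Bool} (hk : Adm k sw) {p : ℝ × ℝ} (hp : p ∈ sqr) :
    (if sw then FQ h R false else FP h R false) (zz (et z) k p) =
      p.1 ^ 3 * (p.2 * (1 - p.2)) * (if sw then QPh z U k false p else PPh z U k false p) ∧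
    (if sw then FP h R false else FQ h R false) (zz (et z) k p) =
      p.1 ^ 3 * (1 - p.1) * (if sw then PPh z U k false p else QPh z U k false p) := by
  have hP := FP_zz h R hU k false hp
  have hQ := FQ_zz h R hU k false hp
  rcases hk with ⟨rfl, rfl⟩ | ⟨rfl, rfl⟩ | ⟨rfl, rfl⟩
  · have e1 : ea 4 (.v false 1) p * ea 4 (.v false 2) p * ea 4 (.n false) p *
        (ea 4 (.b false 1) p * ea 4 (.b false 2) p) = p.1 ^ 3 * (p.2 * (1 - p.2)) := by
      have h1 : (1 : Fin 5) = 4 + 2 := rfl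
      have h2 : (2 : Fin 5) ≠ 4 + 2 := by decide
      have h3 : (2 : Fin 5) = 4 + 3 := rfl
      simp only [ea, if_pos h1, if_neg h2, if_pos h3, if_neg (by decide : (1 : Fin 5) ≠ 4),
        if_neg (by decide : (2 : Fin 5) ≠ 4)]
      ring
    have e2 : ea 4 (.v false 3) p * ea 4 (.v false 4) p * ea 4 (.v false 0) p *
        ea 4 (.b false 4) p = p.1 ^ 3 * (1 - p.1) := by
      simp only [ea, if_neg (by decide : (3 : Fin 5) ≠ 4 + 2),
        if_neg (by decide : (3 : Fin 5) ≠ 4 + 3), if_neg (by decide : (4 : Fin 5) ≠ 4 + 2),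
        if_neg (by decide : (4 : Fin 5) ≠ 4 + 3), if_neg (by decide : (0 : Fin 5) ≠ 4 + 2),
        if_neg (by decide : (0 : Fin 5) ≠ 4 + 3), if_true]
      ring
    rw [e1] at hP
    rw [e2] at hQ
    refine ⟨?_, ?_⟩
    · simp only [Bool.false_eq_true, if_false]
      rw [hP]
      push_cast
      ring
    · simp only [Bool.false_eq_true, if_false]
      rw [hQ]
      push_cast
      ring
  · have e1 : ea 1 (.v false 1) p * ea 1 (.v false 2) p * ea 1 (.n false) p *
        (ea 1 (.b false 1) p * ea 1 (.b false 2) p) = p.1 ^ 3 * (1 - p.1) := by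
      simp only [ea, if_neg (by decide : (1 : Fin 5) ≠ 1 + 2),
        if_neg (by decide : (1 : Fin 5) ≠ 1 + 3), if_neg (by decide : (2 : Fin 5) ≠ 1 + 2),
        if_neg (by decide : (2 : Fin 5) ≠ 1 + 3), if_true, if_neg (by decide : (2 : Fin 5) ≠ 1)]
      ring
    have e2 : ea 1 (.v false 3) p * ea 1 (.v false 4) p * ea 1 (.v false 0) p *
        ea 1 (.b false 4) p = p.1 ^ 3 * (p.2 * (1 - p.2)) := by
      have h1 : (3 : Fin 5) = 1 + 2 := rfl
      have h2 : (4 : Fin 5) ≠ 1 + 2 := by decide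
      have h3 : (4 : Fin 5) = 1 + 3 := rfl
      simp only [ea, if_pos h1, if_neg h2, if_pos h3, if_neg (by decide : (0 : Fin 5) ≠ 1 + 2),
        if_neg (by decide : (0 : Fin 5) ≠ 1 + 3), if_neg (by decide : (4 : Fin 5) ≠ 1)]
      ring
    rw [e1] at hP
    rw [e2] at hQ
    refine ⟨?_, ?_⟩
    · simp only [if_true]
      rw [hQ]
      push_cast
      ring
    · simp only [if_true]
      rw [hP]
      push_cast
      ring
  · have e1 : ea 2 (.v false 1) p * ea 2 (.v false 2) p * ea 2 (.n false) p *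
        (ea 2 (.b false 1) p * ea 2 (.b false 2) p) = p.1 ^ 3 * (1 - p.1) := by
      simp only [ea, if_neg (by decide : (1 : Fin 5) ≠ 2 + 2),
        if_neg (by decide : (1 : Fin 5) ≠ 2 + 3), if_neg (by decide : (2 : Fin 5) ≠ 2 + 2),
        if_neg (by decide : (2 : Fin 5) ≠ 2 + 3), if_true, if_neg (by decide : (1 : Fin 5) ≠ 2)]
      ring
    have e2 : ea 2 (.v false 3) p * ea 2 (.v false 4) p * ea 2 (.v false 0) p *
        ea 2 (.b false 4) p = p.1 ^ 3 * (p.2 * (1 - p.2)) := by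
      have h1 : (4 : Fin 5) = 2 + 2 := rfl
      have h2 : (0 : Fin 5) ≠ 2 + 2 := by decide
      have h3 : (0 : Fin 5) = 2 + 3 := rfl
      simp only [ea, if_pos h1, if_neg h2, if_pos h3, if_neg (by decide : (3 : Fin 5) ≠ 2 + 2),
        if_neg (by decide : (3 : Fin 5) ≠ 2 + 3), if_neg (by decide : (4 : Fin 5) ≠ 2)]
      ring
    rw [e1] at hP
    rw [e2] at hQ
    refine ⟨?_, ?_⟩
    · simp only [if_true]
      rw [hQ]
      push_cast
      ring
    · simp only [if_true]
      rw [hP]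
      push_cast
      ring

omit hU in
/-- the square as a map to the ball with its group -/
def bz (k : Fin 5) (p : ℝ × ℝ) : BX ρ' :=
  BX.mk ρ' (zz (et z) k (clamp p)) (by
    have := zz_norm (eta_et h) k (clamp_mem p)
    rw [mem_Ball]
    nlinarith [norm_nonneg (zz (et z) k (clamp p))])

omit hU in
theorem bz_val {p : ℝ × ℝ} (hp : p ∈ sqr) : (bz h ρ' k p).val = zz (et z) k p := by
  show zz (et z) k (clamp p) = _
  rw [clamp_eq hp]

omit hU in
theorem bz_cont : Continuous (bz h ρ' k) := by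
  rw [BX.isOpenEmbedding_val.isEmbedding.continuous_iff]
  exact (zz_cont (eta_et h) k).comp clamp_cont

omit hU in
/-- the slope minus one -/
def sl1 (z : Fin 2 → ℂ) (k : Fin 5) (i : Fin 2) (t : ℝ) : ℂ :=
  if i = 0 then uv (et z) k t - 1 else 1 / 10 - 1

/-- **the squares** -/
theorem exists_sqd (hμ : μ ∈ O) (hD : Deep O z μ 2) {sw : Bool} (hk : Adm k sw) :
    ∃ S : SqD (gdata h R ρ' hμ hD) sw, S.z = bz h ρ' k ∧
      (∀ p, S.A0 p = Lv (et z) k p.2 * U .o (zz (et z) k p)) ∧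
      (∀ i p, S.A i p = Lv (et z) k p.2 * sl1 z k i p.2 * U (.v (col i) 0) (zz (et z) k p)) := by
  have hη := eta_et h
  -- roots
  obtain ⟨r, hr1, hr2, hr3⟩ := exists_root_sqr
    (g := fun p => (if sw then QPh z U k false p else PPh z U k false p) /
      (if sw then PPh z U k false p else QPh z U k false p)) (by
      cases sw
      · exact (PPh_cont h R hU k false).div (QPh_cont h R hU k false)
          (fun p hp => QPh_ne h R hU k false hp)
      · exact (QPh_cont h R hU k false).div (PPh_cont h R hU k false)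
          (fun p hp => PPh_ne h R hU k false hp)) (by
      intro p hp
      cases sw
      · exact div_ne_zero (PPh_ne h R hU k false hp) (QPh_ne h R hU k false hp)
      · exact div_ne_zero (QPh_ne h R hU k false hp) (PPh_ne h R hU k false hp))
  obtain ⟨rB, hB1, hB2, hB3⟩ := exists_root_sqr
    (g := fun p => PPh z U k true p / QPh z U k true p)
    ((PPh_cont h R hU k true).div (QPh_cont h R hU k true)
      (fun p hp => QPh_ne h R hU k true hp))
    (fun p hp => div_ne_zero (PPh_ne h R hU k true hp) (QPh_ne h R hU k true hp))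
  have hUc : ∀ a, ContinuousOn (fun p => U a (zz (et z) k p)) sqr := fun a =>
    (hU.cont a).comp (zz_cont hη k).continuousOn (fun p hp => zz_norm hη k hp)
  have hLc : ContinuousOn (fun p : ℝ × ℝ => Lv (et z) k p.2) sqr :=
    ((Lv_cont hη k).comp continuous_snd).continuousOn
  have hslc : ∀ i, ContinuousOn (fun p : ℝ × ℝ => sl1 z k i p.2) sqr := by
    intro i
    unfold sl1
    split_ifs
    · exact (((uv_cont (et z) k).comp continuous_snd).sub continuous_const).continuousOn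
    · exact continuousOn_const
  refine ⟨{
    z := bz h ρ' k
    hz := (bz_cont h ρ' k).continuousOn
    A0 := fun p => Lv (et z) k p.2 * U .o (zz (et z) k p)
    A := fun i p => Lv (et z) k p.2 * sl1 z k i p.2 * U (.v (col i) 0) (zz (et z) k p)
    AP := fun p => if sw then QPh z U k false p else PPh z U k false p
    AQ := fun p => if sw then PPh z U k false p else QPh z U k false p
    r := r
    rB := rB
    BQ := QPh z U k true
    cA0 := hLc.mul (hUc _)
    cA := fun i => (hLc.mul (hslc i)).mul (hUc _)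
    cr := hr1
    crB := hB1
    nA0 := fun p hp => mul_ne_zero (Lv_ne hη k _) (hU.ne _ _ (zz_norm hη k hp))
    nr := hr3
    ef := ?_
    ex := ?_
    eP := ?_
    eQ := ?_
    er := ?_
    eQ1 := ?_
    eP1 := ?_ }, rfl, fun p => rfl, fun i p => rfl⟩
  · intro p hp
    show (R .o).f (bz h ρ' k p).val = _
    rw [bz_val h ρ' k hp, hU.eq _ _ (zz_norm hη k hp)]
    show ((p.1 : ℂ) * Lv (et z) k p.2) * U .o _ = _
    ring
  · intro i p hp
    show (R (.v (col i) 0)).f (bz h ρ' k p).val = _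
    rw [bz_val h ρ' k hp, hU.eq _ _ (zz_norm hη k hp)]
    fin_cases i
    · show ((p.1 : ℂ) * Lv (et z) k p.2 * uv (et z) k p.2 -
        et z ^ 0 * ((p.1 : ℂ) * Lv (et z) k p.2)) * U (.v false 0) _ =
        p.1 * (Lv (et z) k p.2 * (uv (et z) k p.2 - 1) * U (.v false 0) _)
      ring
    · show ((p.1 : ℂ) * Lv (et z) k p.2 * (1 / 10) -
        et z ^ 0 * ((p.1 : ℂ) * Lv (et z) k p.2)) * U (.v true 0) _ =
        p.1 * (Lv (et z) k p.2 * (1 / 10 - 1) * U (.v true 0) _)
      ring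
  · intro p hp
    have h1 := (F_false h R hU k hk hp).1
    rw [← bz_val h ρ' k hp] at h1
    cases sw
    · exact h1
    · exact h1
  · intro p hp
    have h1 := (F_false h R hU k hk hp).2
    rw [← bz_val h ρ' k hp] at h1
    cases sw
    · exact h1
    · exact h1
  · intro p hp
    simp only [hr2 p hp]
    refine div_mul_cancel₀ _ ?_
    cases sw
    · exact QPh_ne h R hU k false hp
    · exact PPh_ne h R hU k false hp
  · intro p hp
    show FQ h R true (bz h ρ' k p).val = _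
    rw [bz_val h ρ' k hp, FQ_true h R hU k hp]
  · intro p hp
    show FP h R true (bz h ρ' k p).val = _
    rw [bz_val h ρ' k hp, FP_true h R hU k hp, hB2 p hp]
    congr 1
    exact (div_mul_cancel₀ _ (QPh_ne h R hU k true hp)).symm

end sqd

end

end Crest.Agent.R272.UB_20
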