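import Crest.Agent.R272.UB10_20
import Crest.Agent.R272.Ins1_939

/-!
# R272 (S0415), helper74: the three squares over `M : Ar`, adapted to the cluster chart

`exists_adp` : for every chart `L` at `M.p0` whose coordinates are those of the pens `M.bpt`, and
every admissible pair `(k, sw)`, a square `S : SqD M.DX sw` with `Adp S L (sk k)`,
`sk k 0 t = uv (et z) k t`, `sk k 1 t = 1 / 10`.
-/

set_option autoImplicit false
set_option linter.unusedSectionVars false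

open Set Filter Topology

namespace Crest.Agent.R272.UBM_74

open Crest.Agent.R272.UB_20 Crest.Agent.R272.M15_939 Crest.Agent.R272.Tp3_60
open Crest.Agent.R272.Quot_783

noncomputable section

/-- the two slopes along the arc -/
def sk (k : Fin 5) (i : Fin 2) (t : ℝ) : ℂ := if i = 0 then uv (et O5_74.z5v) k t else 1 / 10

theorem sk_zero (k : Fin 5) (t : ℝ) : sk k 0 t = uv (et O5_74.z5v) k t := if_pos rfl

theorem sk_one (k : Fin 5) (t : ℝ) : sk k 1 t = 1 / 10 := if_neg (by decide)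

/-- **the squares over `M : Ar`** -/
theorem exists_adp (M : Ar) {L : Loc Cur_297.Pz M.N} (hs : M.p0 ∈ L.sh.source)
    (h0 : L.sh M.p0 = 0)
    (hsh : ∀ z ∈ L.sh.source, L.sh z = (M.bpt.p.s0 z, M.bpt.p.s1 z, M.bpt.p'.s1 z))
    {k : Fin 5} {sw : Bool} (hk : Adm k sw) : ∃ S : SqD M.DX sw, Adp S L (sk k) := by
  obtain ⟨U, hU1, hU2, hU3⟩ := exists_UU hz M.deep2 (M.deep (by norm_num)) M.R
  have hU : IsUU hz M.R U := ⟨hU1, hU2, hU3⟩
  obtain ⟨S, hS, -, -⟩ := exists_sqd hz M.R M.ρ hU k M.kd.mem M.deep2 hk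
  have e0 : ∀ t ∈ Icc (0 : ℝ) 1, S.z (0, t) = M.p0 := by
    intro t ht
    rw [hS]
    refine BX.ext ?_
    rw [bz_val hz M.ρ k ⟨⟨le_refl _, zero_le_one⟩, ht⟩, P0_939.o3_val]
    ext i
    fin_cases i <;> simp [zz]
  refine ⟨S, ⟨?_, ?_, ?_⟩⟩
  · rw [← h0]
    exact L.sh.map_source hs
  · intro t ht
    rw [e0 t ht, ← h0, L.sh.left_inv hs]
  · refine ⟨fun t => P0_939.cc O5_74.z5v * Lv (et O5_74.z5v) k t, fun t =>
      mul_ne_zero (P0_939.cc_ne hz) (Lv_ne (eta_et hz) k t), fun p hp hz' => ?_⟩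
    rw [hsh _ hz', M.bpt_s0, M.bpt_s1, M.bpt_s1', hS]
    beta_reduce
    rw [bz_val hz M.ρ k hp, sk_zero, sk_one]
    refine Prod.ext ?_ (Prod.ext ?_ ?_)
    · show P0_939.cc O5_74.z5v * ((p.1 : ℂ) * Lv (et O5_74.z5v) k p.2) = _
      ring
    · show P0_939.cc O5_74.z5v * ((p.1 : ℂ) * Lv (et O5_74.z5v) k p.2 * uv (et O5_74.z5v) k p.2) = _
      ring
    · show P0_939.cc O5_74.z5v * ((p.1 : ℂ) * Lv (et O5_74.z5v) k p.2 * (1 / 10)) = _
      ring

end

end Crest.Agent.R272.UBM_74
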