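import Crest.Agent.R272.UB12_20
import Crest.Agent.R272.UBM_74
import Crest.Agent.R272.Md1_834
import Crest.Agent.R272.Tq12_916

/-!
# R272, leaf UB-DISC (helper20): argument (3) `die` of `Fin_338.s15_of'`

The periods of the arcs 1, 3, 4 die, over `M : Ar`, for every germ `Γ : GE M` adapted to the pens of
`M.bpt` and every `W : Md M` built on it.
-/

set_option autoImplicit false
set_option linter.unusedSectionVars false

open Set Filter Topology OnePoint

namespace Crest.Agent.R272.UBD_20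

open Crest.Agent.R273.Fam_835 Crest.Agent.R272 Crest.Agent.R272.MQ_783
open Crest.Agent.R272.Sur_342 Crest.Agent.R272.AJ_956 Crest.Agent.R272.Ax_834
open Crest.Agent.R272.M15_939 Crest.Agent.R272.As15_338 Crest.Agent.R272.Md_834
open Crest.Agent.R272.Tp3_60 Crest.Agent.R272.Tq12_916 Crest.Agent.R272.Tq11_916
open Crest.Agent.R272.Tq3_916 (zst)
open Crest.Agent.R272.Cur_297 (Par Cv tt kk iv Pz Cz cur seg ze arc)
open Crest.Agent.R272.UB_20 Crest.Agent.R272.UBM_74
open Crest.Agent.R272.Refl_246 (pr)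

noncomputable section

local notation "I" => unitInterval

/-- the coordinates of the germ are those of the pens -/
def PensSh (M : Ar) (Γ : GE M) : Prop :=
  ∀ z ∈ Γ.L.sh.source, Γ.L.sh z = (M.bpt.p.s0 z, M.bpt.p.s1 z, M.bpt.p'.s1 z)

variable {M : Ar} (Γ : GE M) (W : Md M) (hz : W.z = zG Γ)

theorem sym0 : Γ.L.sh.symm 0 = M.p0 := by
  rw [← Γ.sh_q]
  exact Γ.L.sh.left_inv Γ.q_mem

theorem h0t' : (0 : ℂ × ℂ × ℂ) ∈ Γ.L.sh.target := by
  rw [← Γ.sh_q]
  exact Γ.L.sh.map_source Γ.q_mem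

include hz

/-- the data of the zero section -/
theorem zdata : ZData M.A Γ.L M.s (zG Γ) where
  val x := rfl
  swap x := by
    have h := W.Z.swap x
    rwa [hz] at h
  stab g hg := by
    rw [sym0 Γ] at hg
    exact M.bpt.stab g hg
  f0 := by
    rw [sym0 Γ]
    exact M.bpt.f0_zero
  h0 := h0t' Γ

/-- **one arc** -/
theorem dies_one (hsh : PensSh M Γ) {k : Fin 5} {sw : Bool} (hk : Adm k sw) {j : ℕ}
    (hj : ze ^ ((k : ℕ) + 2) = ze ^ j) :
    Dies (cur Pz) W.hq.cont W.inc (arc j) := by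
  have H := zdata Γ W hz
  obtain ⟨S, hA⟩ := exists_adp M Γ.q_mem Γ.sh_q hsh hk
  refine dies_sq H (S := S) (s := sk k) {y : E6 M.N | Tq2_916.toA y ∈ M.DX.X1}
    (fun y hy => Γ.hX y hy) (fun y => Iff.rfl) hA (x := 1 / 10) (fun t _ => sk_one k t)
    (fun t _ => ?_) (fun y : M.X => W.S.iota (pr M.G y)) ?_ W.hq.cont W.inc (fun x hx => ?_)
    (fun t _ => ?_)
  · rw [sk_zero]
    exact uv_ne M15_939.hz k t
  · -- continuity
    have h1 : Continuous fun y : M.X => pr M.G y := continuous_quot_mk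
    refine W.S.iota.continuousOn.comp h1.continuousOn (fun y hy => ?_)
    rw [W.S.mem_iota_source]
    intro hK
    obtain ⟨g, c, h2⟩ := W.mem_K_pr.1 hK
    rw [hz] at h2
    exact hy g c h2
  · have h1 : x ∉ (cur Pz).Gam := fun h => hx h
    rw [W.inc_q x h1, hz]
  · rw [sk_zero, uv_seg, et_eq M15_939.hz, hj]
    rfl

/-- **argument (3) of `s15_of'`** -/
theorem die (hsh : PensSh M Γ) :
    Dies (cur Pz) W.hq.cont W.inc (arc 1) ∧ Dies (cur Pz) W.hq.cont W.inc (arc 3) ∧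
      Dies (cur Pz) W.hq.cont W.inc (arc 4) := by
  have h5 := Cur_297.ze_pow
  refine ⟨?_, ?_, ?_⟩
  · refine dies_one Γ W hz hsh (k := 4) (sw := false) (Or.inl ⟨rfl, rfl⟩) ?_
    show ze ^ 6 = ze ^ 1
    rw [pow_succ, h5, one_mul, pow_one]
  · exact dies_one Γ W hz hsh (k := 1) (sw := true) (Or.inr (Or.inl ⟨rfl, rfl⟩)) rfl
  · exact dies_one Γ W hz hsh (k := 2) (sw := true) (Or.inr (Or.inr ⟨rfl, rfl⟩)) rfl

end

end Crest.Agent.R272.UBD_20
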