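import Mathlib

/-!
Row 272 (S0414), UNIF-B, part 1: topology of a covering `p : disc → M`: lifts of continuous maps,
deck transformations, the translates of the graph of a lift, lifts of covering maps.
-/

set_option autoImplicit false

open Metric Set Filter Topology Function

namespace Crest.Agent.R272.UnB_894

noncomputable section

/-- the open unit disc as a type -/
abbrev DD : Type := ↥(ball (0 : ℂ) 1)

/-- the centre of the disc -/
def o : DD := ⟨0, by simp⟩

@[simp] theorem coe_o : ((o : DD) : ℂ) = 0 := rfl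

instance instContr : ContractibleSpace DD := contractibleSpace_ball one_pos

instance instSC : SimplyConnectedSpace DD := SimplyConnectedSpace.ofContractible DD

instance instLPC : LocallyPathConnectedSpace DD := isOpen_ball.locallyPathConnectedSpace

theorem norm_lt_one (z : DD) : ‖(z : ℂ)‖ < 1 := mem_ball_zero_iff.1 z.2

variable {M M' M'' : Type*} [TopologicalSpace M] [TopologicalSpace M'] [TopologicalSpace M'']

/-! ### lifting -/

section lift

variable {A : Type*} [TopologicalSpace A] [SimplyConnectedSpace A] [LocallyPathConnectedSpace A]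
  {E : Type*} [TopologicalSpace E]

/-- existence of lifts from a simply connected space -/
theorem exists_lift {p : E → M} (hp : IsCoveringMap p) {g : A → M} (hg : Continuous g)
    (a : A) (b : E) (h : p b = g a) :
    ∃ F : A → E, Continuous F ∧ F a = b ∧ ∀ t, p (F t) = g t := by
  obtain ⟨F, ⟨h1, h2⟩, -⟩ := hp.existsUnique_continuousMap_lifts ⟨g, hg⟩ a b h
  exact ⟨F, F.continuous, h1, fun t => congrFun h2 t⟩

omit [SimplyConnectedSpace A] [LocallyPathConnectedSpace A] in
/-- uniqueness of lifts -/
theorem lift_unique [PreconnectedSpace A] {p : E → M} (hp : IsCoveringMap p) {F G : A → E}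
    (hF : Continuous F) (hG : Continuous G) (h : ∀ t, p (F t) = p (G t)) {a : A}
    (ha : F a = G a) : F = G :=
  hp.eq_of_comp_eq hF hG (funext h) a ha

end lift

/-- the chosen lift of `f : M' → M` to the discs -/
theorem exists_liftD {p : DD → M} (hp : IsCoveringMap p) {q : DD → M'} (hq : Continuous q)
    {f : M' → M} (hf : Continuous f) (a b : DD) (h : p b = f (q a)) :
    ∃ F : DD → DD, Continuous F ∧ F a = b ∧ ∀ t, p (F t) = f (q t) :=
  exists_lift hp (hf.comp hq) a b h

/-! ### deck transformations -/

section deck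

variable {p : DD → M}

/-- deck transformations of `p` -/
def Deck (p : DD → M) : Subgroup (DD ≃ₜ DD) where
  carrier := {g | ∀ z, p (g z) = p z}
  mul_mem' {a b} ha hb z := by
    change p (a (b z)) = p z
    rw [ha, hb]
  one_mem' z := rfl
  inv_mem' {a} ha z := by
    have := ha (a⁻¹ z)
    change p (a (a.symm z)) = p (a.symm z) at this
    rw [a.apply_symm_apply] at this
    exact this.symm

theorem mem_Deck {g : DD ≃ₜ DD} : g ∈ Deck p ↔ ∀ z, p (g z) = p z := Iff.rfl

/-- deck transformations act transitively on the fibres -/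
theorem exists_deck (hp : IsCoveringMap p) {z w : DD} (h : p z = p w) :
    ∃ g ∈ Deck p, g z = w := by
  obtain ⟨F, hF, hFz, hF'⟩ := exists_lift hp hp.continuous z w h.symm
  obtain ⟨G, hG, hGz, hG'⟩ := exists_lift hp hp.continuous w z h
  have hFG : ∀ t, F (G t) = t := fun t => congrFun (lift_unique hp (F := F ∘ G) (G := id)
    (hF.comp hG) continuous_id (fun t => by
      change p (F (G t)) = p t
      rw [hF', hG']) (a := w) (by
      change F (G w) = w
      rw [hGz, hFz])) t
  have hGF : ∀ t, G (F t) = t := fun t => congrFun (lift_unique hp (F := G ∘ F) (G := id)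
    (hG.comp hF) continuous_id (fun t => by
      change p (G (F t)) = p t
      rw [hG', hF']) (a := z) (by
      change G (F z) = z
      rw [hFz, hGz])) t
  exact ⟨⟨⟨F, G, hGF, hFG⟩, hF, hG⟩, hF', hFz⟩

/-- a deck transformation is determined by one value -/
theorem deck_ext (hp : IsCoveringMap p) {g h : DD ≃ₜ DD} (hg : g ∈ Deck p) (hh : h ∈ Deck p)
    {z : DD} (e : g z = h z) : g = h :=
  Homeomorph.ext (congrFun (lift_unique hp g.continuous h.continuous
    (fun t => (hg t).trans (hh t).symm) e))

/-- deck transformations act freely -/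
theorem deck_free (hp : IsCoveringMap p) {g : DD ≃ₜ DD} (hg : g ∈ Deck p) {z : DD}
    (e : g z = z) : g = 1 :=
  deck_ext hp hg (Deck p).one_mem e

theorem fibre_iff (hp : IsCoveringMap p) {z w : DD} :
    p z = p w ↔ ∃ g ∈ Deck p, g z = w :=
  ⟨exists_deck hp, by
    rintro ⟨g, hg, rfl⟩
    exact (hg z).symm⟩

/-- if `p w = f (q t)` then `(t, w)` lies on exactly one translate of the graph of the lift `F` -/
theorem graph_translate (hp : IsCoveringMap p) {g : DD → M} {F : DD → DD}
    (hF : ∀ t, p (F t) = g t) {t w : DD} :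
    p w = g t ↔ ∃ γ ∈ Deck p, w = γ (F t) := by
  rw [← hF, eq_comm, fibre_iff hp]
  exact ⟨fun ⟨γ, h1, h2⟩ => ⟨γ, h1, h2.symm⟩, fun ⟨γ, h1, h2⟩ => ⟨γ, h1, h2.symm⟩⟩

/-- two translates of the graph of `F` which meet are equal -/
theorem graph_translate_disjoint (hp : IsCoveringMap p) {F : DD → DD} {γ γ' : DD ≃ₜ DD}
    (hγ : γ ∈ Deck p) (hγ' : γ' ∈ Deck p) {t : DD} (e : γ (F t) = γ' (F t)) : γ = γ' :=
  deck_ext hp hγ hγ' e

end deck

/-! ### covering maps lift to homeomorphisms -/

/-- If `g : M' → M` is a covering map then `p : disc → M` factors through a covering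
`q' : disc → M'` with `g ∘ q' = p`, `q' 0 = q 0`, and `q' = q ∘ H` for a homeomorphism `H` of the
disc whose inverse is the lift of `g`. -/
theorem exists_etale {p : DD → M} (hp : IsCoveringMap p) {q : DD → M'} (hq : IsCoveringMap q)
    {g : M' → M} (hg : IsCoveringMap g) (a : DD) (b : DD) (h : p b = g (q a)) :
    ∃ G : DD ≃ₜ DD, G a = b ∧ (∀ t, p (G t) = g (q t)) ∧ (∀ t, g (q (G.symm t)) = p t) := by
  obtain ⟨G, hG, hGa, hG'⟩ := exists_liftD hp hq.continuous hg.continuous a b h
  -- lift `p` through `g`
  obtain ⟨p1, hp1, hp1b, hp1'⟩ := exists_lift hg hp.continuous b (q a) h.symm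
  -- lift `p1` through `q`
  obtain ⟨H, hH, hHb, hH'⟩ := exists_lift hq hp1 b a hp1b.symm
  have h1 : ∀ t, G (H t) = t := fun t => congrFun (lift_unique hp (F := G ∘ H) (G := id)
    (hG.comp hH) continuous_id (fun t => by
      change p (G (H t)) = p t
      rw [hG', hH', hp1']) (a := b) (by
      change G (H b) = b
      rw [hHb, hGa])) t
  have h2 : q ∘ (H ∘ G) = q := by
    refine lift_unique hg (hq.continuous.comp (hH.comp hG)) hq.continuous (fun t => ?_) (a := a) ?_
    · change g (q (H (G t))) = g (q t)
      rw [hH', hp1', hG']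
    · change q (H (G a)) = q a
      rw [hGa, hHb]
  have h3 : ∀ t, H (G t) = t := fun t => congrFun (lift_unique hq (F := H ∘ G) (G := id)
    (hH.comp hG) continuous_id (fun t => congrFun h2 t) (a := a) (by
      change H (G a) = a
      rw [hGa, hHb])) t
  refine ⟨⟨⟨G, H, h3, h1⟩, hG, hH⟩, hGa, hG', fun t => ?_⟩
  change g (q (H t)) = p t
  rw [hH', hp1']

/-- a lift of a covering map is a homeomorphism -/
theorem etale_lift {p : DD → M} (hp : IsCoveringMap p) {q : DD → M'} (hq : IsCoveringMap q)
    {g : M' → M} (hg : IsCoveringMap g) {G : DD → DD} (hG : Continuous G)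
    (hG' : ∀ t, p (G t) = g (q t)) : ∃ G' : DD ≃ₜ DD, (G' : DD → DD) = G := by
  obtain ⟨G', h1, h2, -⟩ := exists_etale hp hq hg o (G o) (hG' o)
  exact ⟨G', lift_unique hp G'.continuous hG (fun t => (h2 t).trans (hG' t).symm) h1⟩

end

end Crest.Agent.R272.UnB_894
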