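import Crest.Agent.R272.UnB1_894
import Crest.Agent.Lib.InjHolo

/-!
Row 272 (S0414), UNIF-B, part 2: holomorphic maps of the disc, Schwarz lemma, rotations.
-/

set_option autoImplicit false

open Metric Set Filter Topology Function
open scoped Classical

namespace Crest.Agent.R272.UnB_894

noncomputable section

/-- extension by zero of a function on the disc -/
def exw {W : Type*} [Zero W] (φ : DD → W) (z : ℂ) : W :=
  if h : z ∈ ball (0 : ℂ) 1 then φ ⟨z, h⟩ else 0

section exw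

variable {W : Type*} [Zero W]

@[simp] theorem exw_coe (φ : DD → W) (t : DD) : exw φ (t : ℂ) = φ t := by
  rw [exw, dif_pos t.2]

theorem exw_mk (φ : DD → W) {z : ℂ} (h : z ∈ ball (0 : ℂ) 1) : exw φ z = φ ⟨z, h⟩ := by
  rw [exw, dif_pos h]

theorem eventually_coe {P : ℂ → Prop} {t : DD} : (∀ᶠ s : DD in 𝓝 t, P s) ↔ ∀ᶠ z in 𝓝 (t : ℂ), P z := by
  rw [isOpen_ball.isOpenEmbedding_subtypeVal.map_nhds_eq t |>.symm]
  rfl

theorem eventually_mk {P : DD → Prop} {t : DD} :
    (∀ᶠ s : DD in 𝓝 t, P s) ↔ ∀ᶠ z in 𝓝 (t : ℂ), ∃ h : z ∈ ball (0 : ℂ) 1, P ⟨z, h⟩ := by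
  rw [← eventually_coe]
  exact eventually_congr (Eventually.of_forall fun s => ⟨fun h => ⟨s.2, h⟩, fun ⟨_, h⟩ => h⟩)

theorem continuousOn_exw {W : Type*} [Zero W] [TopologicalSpace W] {φ : DD → W} :
    ContinuousOn (exw φ) (ball 0 1) ↔ Continuous φ := by
  rw [continuousOn_iff_continuous_domRestrict]
  have : (ball (0 : ℂ) 1).domRestrict (exw φ) = φ := by
    funext t
    exact exw_coe φ t
  rw [this]

end exw

/-- holomorphic self-maps of the disc -/
def Hol (F : DD → DD) : Prop := DifferentiableOn ℂ (exw fun t => (F t : ℂ)) (ball 0 1)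

/-- the extension of a self-map -/
abbrev ex (F : DD → DD) : ℂ → ℂ := exw fun t => (F t : ℂ)

theorem ex_mem {F : DD → DD} {z : ℂ} (h : z ∈ ball (0 : ℂ) 1) : ex F z ∈ ball (0 : ℂ) 1 := by
  rw [ex, exw_mk _ h]
  exact (F ⟨z, h⟩).2

theorem ex_comp {F G : DD → DD} {z : ℂ} (h : z ∈ ball (0 : ℂ) 1) :
    ex (F ∘ G) z = ex F (ex G z) := by
  simp only [ex]
  rw [exw_mk _ h, exw_mk _ h]
  simp

theorem Hol.continuous {F : DD → DD} (h : Hol F) : Continuous F :=
  continuous_induced_rng.2 (continuousOn_exw.1 h.continuousOn)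

theorem Hol.comp {F G : DD → DD} (hF : Hol F) (hG : Hol G) : Hol (F ∘ G) := by
  have h1 : DifferentiableOn ℂ (fun z => ex F (ex G z)) (ball 0 1) :=
    DifferentiableOn.comp hF hG (fun z hz => ex_mem hz)
  exact h1.congr fun z hz => ex_comp hz

theorem Hol.id : Hol (fun t => t) := by
  refine differentiableOn_id.congr fun z hz => ?_
  rw [exw_mk _ hz]
  rfl

theorem Hol.differentiableAt {F : DD → DD} (h : Hol F) (t : DD) :
    DifferentiableAt ℂ (ex F) t := DifferentiableOn.differentiableAt h (isOpen_ball.mem_nhds t.2)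

theorem Hol.analyticAt {F : DD → DD} (h : Hol F) (t : DD) : AnalyticAt ℂ (ex F) t :=
  DifferentiableOn.analyticAt h (isOpen_ball.mem_nhds t.2)

/-- local criterion -/
theorem hol_of_local {F : DD → DD}
    (h : ∀ t : DD, ∃ G : ℂ → ℂ, DifferentiableAt ℂ G t ∧ ∀ᶠ s : DD in 𝓝 t, (F s : ℂ) = G s) :
    Hol F := by
  intro z hz
  obtain ⟨G, hG, hG'⟩ := h ⟨z, hz⟩
  refine (hG.congr_of_eventuallyEq ?_).differentiableWithinAt
  rw [eventually_mk] at hG'
  filter_upwards [hG'] with w ⟨hw, hw'⟩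
  rw [exw_mk _ hw, hw']

/-- a holomorphic homeomorphism of the disc has holomorphic inverse -/
theorem hol_symm {G : DD ≃ₜ DD} (h : Hol G) : Hol G.symm := by
  have hinj : InjOn (ex G) (ball 0 1) := by
    intro z hz w hw e
    simp only [ex] at e
    rw [exw_mk _ hz, exw_mk _ hw] at e
    exact congrArg Subtype.val (G.injective (Subtype.ext e))
  have himg : ex G '' (ball 0 1) = ball 0 1 := by
    ext w
    constructor
    · rintro ⟨z, hz, rfl⟩
      exact ex_mem hz
    · intro hw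
      refine ⟨G.symm ⟨w, hw⟩, (G.symm ⟨w, hw⟩).2, ?_⟩
      simp [ex]
  have h1 := Crest.Agent.Lib.differentiableOn_inverse_of_injOn (g := ex G.symm) isOpen_ball h hinj
    (fun z hz => by
      simp only [ex]
      rw [exw_mk _ hz, exw_coe]
      simp)
  rwa [himg] at h1

/-! ### Schwarz -/

section schwarz

variable {F : DD → DD}

theorem ex_zero (h0 : F o = o) : ex F 0 = 0 := by
  have := exw_coe (fun t => (F t : ℂ)) o
  rw [coe_o] at this
  rw [ex, this, h0, coe_o]

theorem mapsTo_ex : MapsTo (ex F) (ball 0 1) (closedBall (0 : ℂ) 1) :=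
  fun _ hz => ball_subset_closedBall (ex_mem hz)

/-- Schwarz lemma -/
theorem schwarz (hF : Hol F) (h0 : F o = o) (t : DD) : ‖(F t : ℂ)‖ ≤ ‖(t : ℂ)‖ := by
  have := Complex.norm_le_norm_of_mapsTo_ball hF mapsTo_ex (ex_zero h0) (norm_lt_one t)
  simpa [ex] using this

/-- equality case of the Schwarz lemma -/
theorem schwarz_eq (hF : Hol F) (h0 : F o = o) {t : DD} (ht : t ≠ o)
    (e : ‖(F t : ℂ)‖ = ‖(t : ℂ)‖) : ∃ c : ℂ, ‖c‖ = 1 ∧ ∀ s, (F s : ℂ) = c * s := by
  have ht0 : (t : ℂ) ≠ 0 := fun h => ht (Subtype.ext h)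
  have hz := ex_zero h0
  have hm : MapsTo (ex F) (ball 0 1) (closedBall (ex F 0) 1) := by
    rw [hz]
    exact mapsTo_ex
  have hd : ‖dslope (ex F) 0 t‖ = 1 / 1 := by
    rw [dslope_of_ne _ ht0, slope_def_field, hz]
    simp only [ex, exw_coe, sub_zero, norm_div, e]
    rw [div_self (norm_ne_zero_iff.2 ht0), div_one]
  obtain ⟨c, hc, hc'⟩ := Complex.affine_of_mapsTo_ball_of_exists_norm_dslope_eq_div' hF hm
    ⟨t, t.2, hd⟩
  refine ⟨c, by simpa using hc, fun s => ?_⟩
  have := hc' s.2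
  simp only [exw_coe] at this
  rw [this, show exw (fun t => (F t : ℂ)) 0 = 0 from hz]
  simp [mul_comm]

/-- either a rotation or strictly contracting -/
theorem schwarz_dich (hF : Hol F) (h0 : F o = o) :
    (∃ c : ℂ, ‖c‖ = 1 ∧ ∀ s, (F s : ℂ) = c * s) ∨ ∀ t, t ≠ o → ‖(F t : ℂ)‖ < ‖(t : ℂ)‖ := by
  by_cases h : ∀ t, t ≠ o → ‖(F t : ℂ)‖ < ‖(t : ℂ)‖
  · exact Or.inr h
  · push Not at h
    obtain ⟨t, ht, h1⟩ := h
    exact Or.inl (schwarz_eq hF h0 ht (le_antisymm (schwarz hF h0 t) h1))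

/-- a non-injective map contracts strictly -/
theorem schwarz_lt (hF : Hol F) (h0 : F o = o) (hn : ¬ Injective F) (t : DD) (ht : t ≠ o) :
    ‖(F t : ℂ)‖ < ‖(t : ℂ)‖ := by
  rcases schwarz_dich hF h0 with ⟨c, hc, h⟩ | h
  · refine absurd (fun s s' e => ?_) hn
    have hc0 : c ≠ 0 := by
      intro h
      rw [h, norm_zero] at hc
      exact zero_ne_one hc
    have h1 : c * (s : ℂ) = c * s' := by rw [← h, ← h, e]
    exact Subtype.ext (mul_left_cancel₀ hc0 h1)
  · exact h t ht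

/-- Schwarz lemma for a map with a critical point at the centre -/
theorem schwarz_sq (hF : Hol F) (h0 : F o = o) (hd : deriv (ex F) 0 = 0) (t : DD) :
    ‖(F t : ℂ)‖ ≤ ‖(t : ℂ)‖ ^ 2 := by
  have hz := ex_zero h0
  have hm : MapsTo (ex F) (ball 0 1) (closedBall (ex F 0) 1) := by
    rw [hz]
    exact mapsTo_ex
  have hda : HasDerivAt (ex F) 0 0 := by
    have := (hF.differentiableAt o).hasDerivAt
    rw [coe_o] at this
    rwa [hd] at this
  have hn : (fun z => ex F z - ex F 0) =o[𝓝 0] (fun w => ‖w - 0‖ ^ 1) := by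
    have := hasDerivAt_iff_isLittleO.1 hda
    simp only [smul_zero, sub_zero] at this
    simp only [sub_zero, pow_one]
    exact this.norm_right
  have := Complex.dist_le_mul_div_pow_of_mapsTo_ball_of_isLittleO (n := 1) hF hm hn t.2
  rw [show exw (fun t => (F t : ℂ)) 0 = 0 from hz, one_mul, dist_zero_right, dist_zero_right,
    div_one, exw_coe] at this
  exact this

/-- a biholomorphic map of the disc fixing the centre is a rotation -/
theorem rotation {G : DD ≃ₜ DD} (h : Hol G) (h0 : G o = o) :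
    ∃ c : ℂ, ‖c‖ = 1 ∧ ∀ s, (G s : ℂ) = c * s := by
  have h0' : G.symm o = o := by
    rw [Homeomorph.symm_apply_eq, h0]
  have ht : (⟨1 / 2, by rw [mem_ball_zero_iff]; norm_num⟩ : DD) ≠ o := by
    intro e
    have := congrArg Subtype.val e
    simp [o] at this
  refine schwarz_eq h h0 ht (le_antisymm (schwarz h h0 _) ?_)
  have := schwarz (hol_symm h) h0' (G ⟨1 / 2, by rw [mem_ball_zero_iff]; norm_num⟩)
  rwa [G.symm_apply_apply] at this

end schwarz

/-! ### rotations as homeomorphisms of the disc -/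

/-- the rotation by `c` -/
def rot (c : ℂ) (hc : ‖c‖ = 1) : DD ≃ₜ DD where
  toFun z := ⟨c * z, by
    rw [mem_ball_zero_iff, norm_mul, hc, one_mul]
    exact norm_lt_one z⟩
  invFun z := ⟨c⁻¹ * z, by
    rw [mem_ball_zero_iff, norm_mul, norm_inv, hc, inv_one, one_mul]
    exact norm_lt_one z⟩
  left_inv z := by
    have hc0 : c ≠ 0 := by
      intro h
      rw [h, norm_zero] at hc
      exact zero_ne_one hc
    ext
    simp [hc0]
  right_inv z := by
    have hc0 : c ≠ 0 := by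
      intro h
      rw [h, norm_zero] at hc
      exact zero_ne_one hc
    ext
    simp [hc0]
  continuous_toFun := by fun_prop
  continuous_invFun := by fun_prop

@[simp] theorem rot_apply (c : ℂ) (hc : ‖c‖ = 1) (z : DD) : (rot c hc z : ℂ) = c * z := rfl

theorem hol_rot (c : ℂ) (hc : ‖c‖ = 1) : Hol (rot c hc) := by
  refine (differentiableOn_id.const_mul c).congr fun z hz => ?_
  rw [exw_mk _ hz]
  rfl

/-! ### the roots -/

/-- the square root of `w (w - a)` for `|a| < |w|` -/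
def qa (w a : ℂ) : ℂ := w * Complex.exp (Complex.log (1 - a / w) / 2)

theorem one_sub_mem_slitPlane {u : ℂ} (h : ‖u‖ < 1) : 1 - u ∈ Complex.slitPlane := by
  refine Or.inl ?_
  have := (abs_le.1 (Complex.abs_re_le_norm u)).2
  simp only [Complex.sub_re, Complex.one_re]
  linarith

theorem qa_sq {w a : ℂ} (h : ‖a‖ < ‖w‖) : qa w a ^ 2 = w * (w - a) := by
  have hw : w ≠ 0 := norm_pos_iff.1 ((norm_nonneg a).trans_lt h)
  have hu : ‖a / w‖ < 1 := by
    rw [norm_div, div_lt_one (norm_pos_iff.2 hw)]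
    exact h
  have h0 : 1 - a / w ≠ 0 := Complex.slitPlane_ne_zero (one_sub_mem_slitPlane hu)
  rw [qa, mul_pow, ← Complex.exp_nat_mul, show ((2 : ℕ) : ℂ) * (Complex.log (1 - a / w) / 2) =
    Complex.log (1 - a / w) by push_cast; ring, Complex.exp_log h0]
  field_simp

theorem qa_ne_zero {w a : ℂ} (h : ‖a‖ < ‖w‖) : qa w a ≠ 0 :=
  mul_ne_zero (norm_pos_iff.1 ((norm_nonneg a).trans_lt h)) (Complex.exp_ne_zero _)

theorem continuousOn_qa : ContinuousOn (fun x : ℂ × ℂ => qa x.1 x.2) {x | ‖x.2‖ < ‖x.1‖} := by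
  intro x hx
  have hw : x.1 ≠ 0 := norm_pos_iff.1 ((norm_nonneg x.2).trans_lt hx)
  have hu : ‖x.2 / x.1‖ < 1 := by
    rw [norm_div, div_lt_one (norm_pos_iff.2 hw)]
    exact hx
  have h1 : ContinuousAt (fun x : ℂ × ℂ => 1 - x.2 / x.1) x :=
    continuousAt_const.sub (continuousAt_snd.div continuousAt_fst hw)
  exact (continuousAt_fst.mul (Complex.continuous_exp.continuousAt.comp
    ((h1.clog (one_sub_mem_slitPlane hu)).div_const 2))).continuousWithinAt

theorem qa_zero (w : ℂ) : qa w 0 = w := by simp [qa]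

end

end Crest.Agent.R272.UnB_894
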