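import Crest.Agent.R272.UnB2_894
import Crest.Agent.R273.Map_835

/-!
Row 272 (S0414), UNIF-B, part 3: the bridge to complex curves in the atlas language
(`Atl 1 M`, `HolMap`): `LBD A p` = the map `p` from the disc is locally biholomorphic in the charts
of `A`; lifts of holomorphic maps are holomorphic; deck transformations are holomorphic; local
orders (ramification) of a lift.
-/

set_option autoImplicit false

open Metric Set Filter Topology Function
open scoped Classical

namespace Crest.Agent.R272.UnB_894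

open Crest.Agent.R275.Geo Crest.Agent.R275.Core144 Crest.Agent.R273.Map_835

noncomputable section

variable {M M' M'' : Type} [TopologicalSpace M] [TopologicalSpace M'] [TopologicalSpace M'']
  {A : Atl 1 M} {A' : Atl 1 M'} {A'' : Atl 1 M''}

/-- the coordinate of the chart `i` of a complex curve, as a complex valued function -/
def co (A : Atl 1 M) (i : A.ι) (x : M) : ℂ := (A.e i x) 0

/-- a map from the disc read in the chart `i` -/
def rdD (A : Atl 1 M) (p : DD → M) (i : A.ι) : ℂ → ℂ := exw fun s => co A i (p s)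

/-- `p : disc → M` is holomorphic -/
structure HolD (A : Atl 1 M) (p : DD → M) : Prop where
  cont : Continuous p
  diff : ∀ (z : DD) (i : A.ι), p z ∈ (A.e i).source → DifferentiableAt ℂ (rdD A p i) (z : ℂ)

/-- `p : disc → M` is holomorphic and locally biholomorphic -/
structure LBD (A : Atl 1 M) (p : DD → M) : Prop extends HolD A p where
  ne : ∀ (z : DD) (i : A.ι), p z ∈ (A.e i).source → deriv (rdD A p i) (z : ℂ) ≠ 0

theorem continuous_co_comp {W : Type*} [TopologicalSpace W] {i : A.ι} {g : W → M} {x : W}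
    (hg : ContinuousAt g x) (h : g x ∈ (A.e i).source) : ContinuousAt (fun y => co A i (g y)) x := by
  have h1 : ContinuousAt (fun y => A.e i (g y)) x :=
    ((A.e i).continuousAt h).comp hg
  exact (EuclideanSpace.proj (0 : Fin 1) : Cn 1 →L[ℂ] ℂ).continuous.continuousAt.comp h1

/-- the coordinate of a chart of a curve is injective on the domain of the chart -/
theorem co_inj {i : A.ι} {x y : M} (hx : x ∈ (A.e i).source) (hy : y ∈ (A.e i).source)
    (h : co A i x = co A i y) : x = y := by
  refine (A.e i).injOn hx hy ?_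
  ext a
  rw [Subsingleton.elim a 0]
  exact h

theorem HolD.eventually_mem {p : DD → M} (h : HolD A p) {z : DD} {i : A.ι}
    (hz : p z ∈ (A.e i).source) : ∀ᶠ s : DD in 𝓝 z, p s ∈ (A.e i).source :=
  h.cont.continuousAt.eventually_mem ((A.e i).open_source.mem_nhds hz)

theorem HolD.analyticAt {p : DD → M} (h : HolD A p) {z : DD} {i : A.ι}
    (hz : p z ∈ (A.e i).source) : AnalyticAt ℂ (rdD A p i) (z : ℂ) := by
  rw [Complex.analyticAt_iff_eventually_differentiableAt]
  have := h.eventually_mem hz
  rw [eventually_mk] at this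
  filter_upwards [this] with w ⟨hw, hw'⟩
  exact h.diff ⟨w, hw⟩ i hw'

theorem LBD.strict {p : DD → M} (h : LBD A p) {z : DD} {i : A.ι}
    (hz : p z ∈ (A.e i).source) :
    HasStrictDerivAt (rdD A p i) (deriv (rdD A p i) z) (z : ℂ) :=
  (h.analyticAt hz).hasStrictDerivAt

@[simp] theorem rdD_coe (p : DD → M) (i : A.ι) (z : DD) : rdD A p i z = co A i (p z) := exw_coe _ z

/-- `f ∘ q` is holomorphic -/
theorem HolD.comp {q : DD → M'} {f : M' → M} (hf : HolMap A' A f) (hq : HolD A' q) :
    HolD A (fun t => f (q t)) := by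
  refine ⟨hf.cont.comp hq.cont, fun z i hz => ?_⟩
  obtain ⟨j, hj⟩ := A'.cover (q z)
  -- the chart reading of `q` as a map to `Cn 1`
  have h1 : DifferentiableAt ℂ (fun w : ℂ => (WithLp.toLp 2 fun _ : Fin 1 => rdD A' q j w : Cn 1))
      (z : ℂ) := by
    rw [differentiableAt_euclidean]
    intro a
    exact hq.diff z j hj
  have e1 : (WithLp.toLp 2 fun _ : Fin 1 => rdD A' q j z : Cn 1) = A'.e j (q z) := by
    ext a
    rw [Subsingleton.elim a 0]
    exact rdD_coe q j z
  have h2 : DifferentiableAt ℂ (rd A' A f j i)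
      (WithLp.toLp 2 fun _ : Fin 1 => rdD A' q j z : Cn 1) := by
    rw [e1]
    exact hf.diffAt (mem_dm hj hz)
  have h3 : DifferentiableAt ℂ (fun w : ℂ => rd A' A f j i
      (WithLp.toLp 2 fun _ : Fin 1 => rdD A' q j w : Cn 1)) (z : ℂ) :=
    DifferentiableAt.comp (z : ℂ) (g := rd A' A f j i)
      (f := fun w : ℂ => (WithLp.toLp 2 fun _ : Fin 1 => rdD A' q j w : Cn 1)) h2 h1
  rw [differentiableAt_euclidean] at h3
  refine (h3 0).congr_of_eventuallyEq ?_
  have := hq.eventually_mem hj
  rw [eventually_mk] at this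
  filter_upwards [this] with w ⟨hw, hw'⟩
  have e2 : (WithLp.toLp 2 fun _ : Fin 1 => rdD A' q j w : Cn 1) = A'.e j (q ⟨w, hw⟩) := by
    ext a
    rw [Subsingleton.elim a 0]
    exact rdD_coe q j ⟨w, hw⟩
  rw [e2]
  simp only [rd]
  rw [(A'.e j).left_inv hw']
  exact rdD_coe (fun t => f (q t)) i ⟨w, hw⟩

/-- a continuous lift of a holomorphic map is holomorphic -/
theorem hol_lift {p : DD → M} (hp : LBD A p) {g : DD → M} (hg : HolD A g) {F : DD → DD}
    (hF : Continuous F) (h : ∀ t, p (F t) = g t) : Hol F := by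
  refine hol_of_local fun t => ?_
  obtain ⟨i, hi⟩ := A.cover (g t)
  have hi' : p (F t) ∈ (A.e i).source := by rwa [h]
  have hs := hp.strict hi'
  have hne := hp.ne (F t) i hi'
  set P := rdD A p i with hP
  set L := hs.localInverse P _ _ hne with hL
  have hL1 : HasStrictDerivAt L (deriv P (F t))⁻¹ (P (F t)) := hs.to_localInverse hne
  have hPt : P (F t) = rdD A g i t := by
    rw [hP, rdD_coe, rdD_coe, h]
  refine ⟨fun z => L (rdD A g i z), ?_, ?_⟩
  · have h1 : DifferentiableAt ℂ L (rdD A g i t) := by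
      rw [← hPt]
      exact hL1.hasDerivAt.differentiableAt
    exact DifferentiableAt.comp (t : ℂ) (g := L) (f := rdD A g i) h1 (hg.diff t i hi)
  · have h2 : ∀ᶠ w : ℂ in 𝓝 (F t : ℂ), L (P w) = w :=
      (hs.hasStrictFDerivAt_equiv hne).eventually_left_inverse
    have h3 : ∀ᶠ s : DD in 𝓝 t, L (P (F s)) = F s := by
      have hc : ContinuousAt (fun s : DD => (F s : ℂ)) t :=
        (continuous_subtype_val.comp hF).continuousAt
      exact hc.eventually h2
    filter_upwards [h3] with s hs
    rw [← hs, hP, rdD_coe, rdD_coe, h]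

end

end Crest.Agent.R272.UnB_894
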