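import Crest.Agent.R272.Unif5_903
import Crest.Agent.R272.UnB3_894

/-!
# R272, UNIF (helper903), file 6: from a hyperbolic structure compatible with a complex curve to
(U1) in the language of UnB3_894
-/

set_option autoImplicit false

open Set Filter Topology Complex Metric

open scoped ComplexConjugate

namespace Crest.Agent.R272.Unif_903

open Crest.Agent.R275.Geo Crest.Agent.R275.Core144 Crest.Agent.R273.Map_835
open Crest.Agent.R272.UnB_894

/-- the hyperbolic structure `X` is compatible with the complex curve `A` -/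
def Compat {M : Type} [TopologicalSpace M] (A : Atl 1 M) (X : PH M) : Prop :=
  ∀ (j : X.ι) (i : A.ι), ∀ z ∈ (X.ch j).target, (X.ch j).symm z ∈ (A.e i).source →
    ∃ d : Cn 1, HasDerivAt (A.e i ∘ (X.ch j).symm) d z ∧ d ≠ 0

theorem lbd_of_compat {M : Type} [TopologicalSpace M] {A : Atl 1 M} {X : PH M}
    (hAX : Compat A X) {p : ℂ → M} (hp : ∀ w ∈ ball (0:ℂ) 1, IsoM X p w) :
    LBD A (fun z : DD => p z) := by
  have key : ∀ (z : DD) (i : A.ι), p z ∈ (A.e i).source →
      ∃ d : ℂ, d ≠ 0 ∧ HasDerivAt (rdD A (fun z : DD => p z) i) d (z : ℂ) := by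
    intro z i hi
    obtain ⟨j, hj⟩ := X.cov (p z)
    have h1 := (hp z z.2).2 j hj
    obtain ⟨d, hd, hd0⟩ := hAX j i (X.ch j (p z)) ((X.ch j).map_source hj)
      (by rwa [(X.ch j).left_inv hj])
    have h2 := HasDerivAt.scomp (z : ℂ) hd h1.1.hasDerivAt
    have hz1 : ‖(z : ℂ)‖ < 1 := mem_ball_zero_iff.mp z.2
    have hz2 : ‖(X.ch j ∘ p) z‖ < 1 := by
      have := X.tgt j ((X.ch j).map_source hj)
      rwa [mem_ball_zero_iff] at this
    have h3 : deriv (X.ch j ∘ p) z ≠ 0 := by
      intro h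
      have h4 := h1.2
      rw [h, norm_zero, zero_mul] at h4
      have := one_sub_sq_pos hz2
      linarith
    refine ⟨(deriv (X.ch j ∘ p) z • d) 0, ?_, ?_⟩
    · intro h
      have : deriv (X.ch j ∘ p) z • d = 0 := by
        ext a
        rw [Subsingleton.elim a 0, h]
        rfl
      rcases smul_eq_zero.mp this with h | h
      · exact h3 h
      · exact hd0 h
    · have h5 : HasDerivAt (fun w : ℂ =>
          (((A.e i ∘ (X.ch j).symm) ∘ (X.ch j ∘ p)) w : Cn 1) 0)
          ((deriv (X.ch j ∘ p) z • d) 0) (z : ℂ) :=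
        (EuclideanSpace.proj (0 : Fin 1) : Cn 1 →L[ℂ] ℂ).hasFDerivAt.comp_hasDerivAt (z : ℂ) h2
      refine h5.congr_of_eventuallyEq ?_
      have a1 : ∀ᶠ w in 𝓝 (z : ℂ), p w ∈ (X.ch j).source :=
        (hp z z.2).1.eventually ((X.ch j).open_source.mem_nhds hj)
      filter_upwards [a1, isOpen_ball.mem_nhds z.2] with w b1 b2
      have b3 : rdD A (fun z : DD => p z) i w = co A i (p w) :=
        rdD_coe (fun z : DD => p z) i ⟨w, b2⟩
      rw [b3, co]
      simp only [Function.comp_apply]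
      rw [(X.ch j).left_inv b1]
  refine ⟨⟨USys.continuous hp, fun z i hi => ?_⟩, fun z i hi => ?_⟩
  · obtain ⟨d, _, hd⟩ := key z i hi
    exact hd.differentiableAt
  · obtain ⟨d, hd0, hd⟩ := key z i hi
    rw [hd.deriv]
    exact hd0

/-- (U1) for a complex curve with compatible hyperbolic structure -/
theorem exists_disc {M : Type} [TopologicalSpace M] [T2Space M] [CompactSpace M]
    [PreconnectedSpace M] {A : Atl 1 M} {X : PH M} (hAX : Compat A X) (x0 : M) :
    ∃ p : DD → M, IsCoveringMap p ∧ LBD A p ∧ p o = x0 := by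
  obtain ⟨p, hp, h0, hc, _⟩ := uniformisation X x0
  exact ⟨fun z => p z, hc, lbd_of_compat hAX hp, h0⟩

end Crest.Agent.R272.Unif_903
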