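import Crest.Agent.R272.UnInst_311
import Crest.Agent.R272.Unif6_903

/-!
# R272, UNIF (helper311): **uniformisation of a compact Riemann surface with positive canonical
bundle**, in the language of Unif6_903 / UnB3_894 (no hypothesis except `HM.Pos` of `KB A`)
-/

set_option autoImplicit false

open Set Filter Topology Complex Metric
open scoped ContDiff ComplexConjugate

namespace Crest.Agent.R272.UnInst_311

open Crest.Agent.R275.Geo Crest.Agent.R275.Core144 Crest.Agent.R275.GC293
open Crest.Agent.R273.Defs_333 Crest.Agent.R273.YauDefs_635 Crest.Agent.R273.HM_333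
open Crest.Agent.R272.Unif_903 Crest.Agent.R272.UnB_894

theorem compat_of {M : Type} [TopologicalSpace M] {A : Atl 1 M} {X : PH M}
    (h1 : ∀ a j, ∀ ζ ∈ (ec A j).target, (ec A j).symm ζ ∈ (X.ch a).source →
        DifferentiableAt ℂ (fun ζ => X.ch a ((ec A j).symm ζ)) ζ)
    (h2 : ∀ a j, ∀ z ∈ (X.ch a).target, (X.ch a).symm z ∈ (A.e j).source →
        DifferentiableAt ℂ (fun z => ec A j ((X.ch a).symm z)) z) : Compat A X := by
  intro a j z hz hx
  have hx' : (X.ch a).symm z ∈ (ec A j).source := by rw [ec_source]; exact hx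
  have h3 := h2 a j z hz hx
  have hinv : (ec A j).symm (ec A j ((X.ch a).symm z)) = (X.ch a).symm z := (ec A j).left_inv hx'
  have h4 := h1 a j (ec A j ((X.ch a).symm z)) ((ec A j).map_source hx')
    (by rw [hinv]; exact (X.ch a).map_target hz)
  refine ⟨c1 (deriv (fun z => ec A j ((X.ch a).symm z)) z), ?_, ?_⟩
  · have h5 : HasFDerivAt (fun ζ : ℂ => c1 ζ) (c1 : ℂ →L[ℂ] Cn 1) (ec A j ((X.ch a).symm z)) :=
      c1.hasFDerivAt
    have h6 := h5.comp_hasDerivAt z h3.hasDerivAt
    refine h6.congr_of_eventuallyEq (Eventually.of_forall fun y => ?_)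
    simp only [Function.comp]
    exact (c1_ec A j _).symm
  · intro h0
    have h7 : deriv (fun z => ec A j ((X.ch a).symm z)) z = 0 :=
      c1.injective (h0.trans (map_zero c1).symm)
    have h8 := HasDerivAt.comp (h₂ := fun ζ => X.ch a ((ec A j).symm ζ)) z h4.hasDerivAt
      h3.hasDerivAt
    rw [h7, mul_zero] at h8
    have hnear : ∀ᶠ y in 𝓝 z, y ∈ (X.ch a).target ∧ (X.ch a).symm y ∈ (ec A j).source := by
      have hcont : ContinuousAt (X.ch a).symm z := (X.ch a).continuousAt_symm hz
      filter_upwards [(X.ch a).open_target.mem_nhds hz,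
        hcont.preimage_mem_nhds ((ec A j).open_source.mem_nhds hx')] with y hy1 hy2
      exact ⟨hy1, hy2⟩
    have h9 : HasDerivAt (fun y : ℂ => y) 0 z := by
      refine h8.congr_of_eventuallyEq ?_
      filter_upwards [hnear] with y hy
      simp only [Function.comp]
      rw [(ec A j).left_inv hy.2, (X.ch a).right_inv hy.1]
    exact zero_ne_one (h9.unique (hasDerivAt_id z))

/-- the compatible hyperbolic structure -/
theorem exists_compat {M : Type} [TopologicalSpace M] {A : Atl 1 M} [T2Space M] [CompactSpace M]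
    [ConnectedSpace M] [Finite A.ι] (hG : GoodA A) (hP : Nonempty (Part A)) {H : HM (KB A)}
    (hp : H.Pos) : ∃ X : PH M, Compat A X := by
  obtain ⟨X, h1, h2⟩ := exists_ph hG hP hp
  exact ⟨X, compat_of h1 h2⟩

/-- **(U1)**: the universal covering of a compact Riemann surface with positive canonical bundle
is the unit disc -/
theorem unif {M : Type} [TopologicalSpace M] {A : Atl 1 M} [T2Space M] [CompactSpace M]
    [ConnectedSpace M] [Finite A.ι] (hG : GoodA A) (hP : Nonempty (Part A)) {H : HM (KB A)}
    (hp : H.Pos) (x0 : M) : ∃ p : DD → M, IsCoveringMap p ∧ LBD A p ∧ p o = x0 := by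
  obtain ⟨X, hX⟩ := exists_compat hG hP hp
  exact exists_disc hX x0

end Crest.Agent.R272.UnInst_311
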