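import Mathlib

/-!
# R272, UNIF (helper903), file 2: Moebius maps of the disc, local isometries, rigidity
-/

set_option autoImplicit false

open Set Filter Topology Complex Metric

open scoped ComplexConjugate

namespace Crest.Agent.R272.Unif_903

/-- the disc automorphism `z ↦ (z - a) / (1 - ā z)` -/
noncomputable def mob (a z : ℂ) : ℂ := (z - a) / (1 - conj a * z)

/-- `h` is an infinitesimal isometry of the Poincare metric at `w` -/
def Iso (h : ℂ → ℂ) (w : ℂ) : Prop :=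
  DifferentiableAt ℂ h w ∧ ‖deriv h w‖ * (1 - ‖w‖ ^ 2) = 1 - ‖h w‖ ^ 2

theorem den_ne {a z : ℂ} (ha : ‖a‖ < 1) (hz : ‖z‖ < 1) : 1 - conj a * z ≠ 0 := by
  intro h
  have h1 : conj a * z = 1 := (sub_eq_zero.mp h).symm
  have h2 : ‖a‖ * ‖z‖ = 1 := by
    rw [← norm_conj a, ← norm_mul, h1, norm_one]
  nlinarith [norm_nonneg a, norm_nonneg z]

theorem one_sub_sq_pos {a : ℂ} (ha : ‖a‖ < 1) : 0 < 1 - ‖a‖ ^ 2 := by
  nlinarith [norm_nonneg a]

theorem mob_key (a z : ℂ) :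
    ‖1 - conj a * z‖ ^ 2 - ‖z - a‖ ^ 2 = (1 - ‖a‖ ^ 2) * (1 - ‖z‖ ^ 2) := by
  simp only [← Complex.normSq_eq_norm_sq, Complex.normSq_apply]
  simp
  ring

theorem one_sub_norm_mob {a z : ℂ} (ha : ‖a‖ < 1) (hz : ‖z‖ < 1) :
    1 - ‖mob a z‖ ^ 2 = (1 - ‖a‖ ^ 2) * (1 - ‖z‖ ^ 2) / ‖1 - conj a * z‖ ^ 2 := by
  have h := norm_ne_zero_iff.mpr (den_ne ha hz)
  rw [mob, norm_div, div_pow, ← mob_key, sub_div, div_self (pow_ne_zero 2 h)]

theorem norm_mob_lt {a z : ℂ} (ha : ‖a‖ < 1) (hz : ‖z‖ < 1) : ‖mob a z‖ < 1 := by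
  have h1 : 0 < 1 - ‖mob a z‖ ^ 2 := by
    rw [one_sub_norm_mob ha hz]
    have := norm_pos_iff.mpr (den_ne ha hz)
    have := one_sub_sq_pos ha
    have := one_sub_sq_pos hz
    positivity
  nlinarith [norm_nonneg (mob a z)]

theorem hasDerivAt_mob {a z : ℂ} (ha : ‖a‖ < 1) (hz : ‖z‖ < 1) :
    HasDerivAt (mob a) (((1 - ‖a‖ ^ 2 : ℝ) : ℂ) / (1 - conj a * z) ^ 2) z := by
  have h := den_ne ha hz
  have h1 : HasDerivAt (fun z => z - a) 1 z := (hasDerivAt_id z).sub_const a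
  have h2 : HasDerivAt (fun z => 1 - conj a * z) (-(conj a * 1)) z :=
    ((hasDerivAt_id z).const_mul (conj a)).const_sub 1
  refine (h1.div h2 h).congr_deriv ?_
  congr 1
  have h3 : (((1 - ‖a‖ ^ 2 : ℝ)) : ℂ) = 1 - a * conj a := by
    rw [Complex.mul_conj, Complex.normSq_eq_norm_sq]
    push_cast
    ring
  rw [h3]
  ring

theorem iso_mob {a z : ℂ} (ha : ‖a‖ < 1) (hz : ‖z‖ < 1) : Iso (mob a) z := by
  have h := hasDerivAt_mob ha hz
  refine ⟨h.differentiableAt, ?_⟩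
  rw [h.deriv, one_sub_norm_mob ha hz, norm_div, norm_pow, Complex.norm_real,
    Real.norm_of_nonneg (one_sub_sq_pos ha).le]
  ring

theorem iso_rot {c : ℂ} (hc : ‖c‖ = 1) (z : ℂ) : Iso (fun z => c * z) z := by
  have h : HasDerivAt (fun z => c * z) (c * 1) z := (hasDerivAt_id z).const_mul c
  refine ⟨h.differentiableAt, ?_⟩
  rw [h.deriv, norm_mul, norm_mul, hc, norm_one]
  ring

theorem Iso.comp {g h : ℂ → ℂ} {w : ℂ} (hg : Iso g (h w)) (hh : Iso h w) : Iso (g ∘ h) w := by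
  refine ⟨hg.1.comp w hh.1, ?_⟩
  rw [deriv_comp w hg.1 hh.1, norm_mul, mul_assoc, hh.2, hg.2]
  rfl

theorem Iso.congr {g h : ℂ → ℂ} {w : ℂ} (hh : Iso h w) (he : h =ᶠ[𝓝 w] g) : Iso g w := by
  refine ⟨hh.1.congr_of_eventuallyEq he.symm, ?_⟩
  rw [← he.deriv_eq, ← he.eq_of_nhds]
  exact hh.2

theorem mob_self (a : ℂ) : mob a a = 0 := by simp [mob]

theorem mob_zero (a : ℂ) : mob a 0 = -a := by simp [mob]

theorem mob_mob {a z : ℂ} (ha : ‖a‖ < 1) (hz : ‖z‖ < 1) : mob (-a) (mob a z) = z := by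
  have h1 := den_ne ha hz
  have h2 : 1 - a * conj a ≠ 0 := by
    have := den_ne ha ha
    rwa [mul_comm] at this
  have h3 : 1 - conj (-a) * mob a z = (1 - a * conj a) / (1 - conj a * z) := by
    rw [mob, map_neg, eq_div_iff h1, neg_mul, sub_neg_eq_add, add_mul, mul_assoc (conj a),
      div_mul_cancel₀ _ h1]
    ring
  have h4 : mob a z - -a = (1 - a * conj a) * z / (1 - conj a * z) := by
    rw [mob, eq_div_iff h1, sub_neg_eq_add, add_mul, div_mul_cancel₀ _ h1]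
    ring
  conv_lhs => rw [mob]
  rw [h3, h4, div_div_div_cancel_right₀ h1, mul_comm, mul_div_assoc, div_self h2, mul_one]

theorem mob_mob' {a z : ℂ} (ha : ‖a‖ < 1) (hz : ‖z‖ < 1) : mob a (mob (-a) z) = z := by
  have := mob_mob (a := -a) (z := z) (by rwa [norm_neg]) hz
  rwa [neg_neg] at this

theorem mob_eq_zero {a z : ℂ} (ha : ‖a‖ < 1) (hz : ‖z‖ < 1) : mob a z = 0 ↔ z = a := by
  rw [mob, div_eq_zero_iff, or_iff_left (den_ne ha hz), sub_eq_zero]

theorem continuousAt_mob {a z : ℂ} (ha : ‖a‖ < 1) (hz : ‖z‖ < 1) : ContinuousAt (mob a) z :=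
  (hasDerivAt_mob ha hz).continuousAt

/-- an isometric germ fixing `0` does not increase the modulus -/
theorem norm_le_of_iso {g : ℂ → ℂ} {r : ℝ} (hr1 : r ≤ 1)
    (hg : ∀ z ∈ ball (0:ℂ) r, Iso g z) (hg1 : ∀ z ∈ ball (0:ℂ) r, ‖g z‖ < 1) (h0 : g 0 = 0)
    {z : ℂ} (hz : z ∈ ball (0:ℂ) r) : ‖g z‖ ≤ ‖z‖ := by
  by_cases hgz : g z = 0
  · rw [hgz, norm_zero]; exact norm_nonneg z
  have hgn : 0 < ‖g z‖ := norm_pos_iff.mpr hgz
  set e : ℂ := conj (g z) / ‖g z‖ with he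
  have hen : ‖e‖ = 1 := by
    rw [he, norm_div, norm_conj, Complex.norm_real, norm_norm, div_self hgn.ne']
  have heg : e * g z = ‖g z‖ := by
    rw [he, div_mul_eq_mul_div, mul_comm, Complex.mul_conj, Complex.normSq_eq_norm_sq]
    have : ((‖g z‖ : ℝ) : ℂ) ≠ 0 := Complex.ofReal_ne_zero.mpr hgn.ne'
    push_cast
    field_simp
  set l : ℝ := ‖z‖ with hl
  have hl0 : 0 ≤ l := norm_nonneg z
  have hlr : l < r := by simpa using hz
  have hl1 : l < 1 := hlr.trans_le hr1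
  let k : ℝ → ℝ := fun t => (e * g (t * z)).re
  have hin : ∀ t ∈ Icc (0:ℝ) 1, (t : ℂ) * z ∈ ball (0:ℂ) r := by
    intro t ht
    rw [mem_ball_zero_iff, norm_mul, Complex.norm_real, Real.norm_of_nonneg ht.1]
    calc t * ‖z‖ ≤ 1 * ‖z‖ := mul_le_mul_of_nonneg_right ht.2 (norm_nonneg z)
      _ < r := by rw [one_mul]; exact hlr
  have hk : ∀ t ∈ Icc (0:ℝ) 1, HasDerivAt k ((e * (deriv g (t * z) * z)).re) t := by
    intro t ht
    have h1 : HasDerivAt (fun s : ℂ => s * z) z (t : ℂ) := by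
      simpa using (hasDerivAt_id (t : ℂ)).mul_const z
    have h2 := ((hg _ (hin t ht)).1.hasDerivAt.comp (t : ℂ) h1).const_mul e
    exact h2.real_of_complex
  have hkn : ∀ t, |k t| ≤ ‖g (t * z)‖ := by
    intro t
    calc |k t| ≤ ‖e * g (t * z)‖ := Complex.abs_re_le_norm _
      _ = ‖g (t * z)‖ := by rw [norm_mul, hen, one_mul]
  have hk1 : ∀ t ∈ Icc (0:ℝ) 1, |k t| < 1 := fun t ht => (hkn t).trans_lt (hg1 _ (hin t ht))
  have hden : ∀ t ∈ Icc (0:ℝ) 1, 0 < 1 - t * l * k t := by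
    intro t ht
    have h1 := abs_lt.mp (hk1 t ht)
    have h2 : 0 ≤ t * l := mul_nonneg ht.1 hl0
    have h3 : t * l < 1 := by nlinarith [ht.2]
    nlinarith
  have hineq : ∀ t ∈ Icc (0:ℝ) 1,
      (e * (deriv g (t * z) * z)).re * (1 - (t * l) ^ 2) ≤ l * (1 - k t ^ 2) := by
    intro t ht
    have h1 : (e * (deriv g (t * z) * z)).re ≤ ‖deriv g (t * z)‖ * l := by
      refine (Complex.re_le_norm _).trans ?_
      rw [norm_mul, norm_mul, hen, one_mul]
    have h2 := (hg _ (hin t ht)).2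
    have h3 : ‖(t : ℂ) * z‖ = t * l := by
      rw [norm_mul, Complex.norm_real, Real.norm_of_nonneg ht.1]
    rw [h3] at h2
    have h4 : 0 < 1 - (t * l) ^ 2 := by
      have h5 : 0 ≤ t * l := mul_nonneg ht.1 hl0
      have h6 : t * l < 1 := by nlinarith [ht.2]
      nlinarith
    have h7 : k t ^ 2 ≤ ‖g (t * z)‖ ^ 2 := by
      rw [← sq_abs]
      exact pow_le_pow_left₀ (abs_nonneg _) (hkn t) 2
    calc (e * (deriv g (t * z) * z)).re * (1 - (t * l) ^ 2)
        ≤ (‖deriv g (t * z)‖ * l) * (1 - (t * l) ^ 2) :=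
          mul_le_mul_of_nonneg_right h1 h4.le
      _ = l * (1 - ‖g (t * z)‖ ^ 2) := by rw [← h2]; ring
      _ ≤ l * (1 - k t ^ 2) := mul_le_mul_of_nonneg_left (by linarith) hl0
  let ψ : ℝ → ℝ := fun t => (t * l - k t) / (1 - t * l * k t)
  have hψ : ∀ t ∈ Icc (0:ℝ) 1, HasDerivAt ψ
      ((l * (1 - k t ^ 2) - (e * (deriv g (t * z) * z)).re * (1 - (t * l) ^ 2)) /
        (1 - t * l * k t) ^ 2) t := by
    intro t ht
    have h1 : HasDerivAt (fun t : ℝ => t * l) l t := by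
      simpa using (hasDerivAt_id t).mul_const l
    have h2 := h1.sub (hk t ht)
    have h3 := (h1.mul (hk t ht)).const_sub 1
    refine (h2.div h3 (hden t ht).ne').congr_deriv ?_
    congr 1
    simp only [Pi.sub_apply, Pi.mul_apply]
    ring
  have hmono : MonotoneOn ψ (Icc 0 1) := by
    refine monotoneOn_of_deriv_nonneg (convex_Icc 0 1)
      (fun t ht => (hψ t ht).continuousAt.continuousWithinAt) (fun t ht => ?_) (fun t ht => ?_)
    · rw [interior_Icc] at ht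
      exact (hψ t (Ioo_subset_Icc_self ht)).differentiableAt.differentiableWithinAt
    · rw [interior_Icc] at ht
      have ht' := Ioo_subset_Icc_self ht
      rw [(hψ t ht').deriv]
      exact div_nonneg (sub_nonneg.mpr (hineq t ht')) (sq_nonneg _)
  have h01 := hmono (left_mem_Icc.mpr zero_le_one) (right_mem_Icc.mpr zero_le_one) zero_le_one
  have hψ0 : ψ 0 = 0 := by
    simp only [ψ, k]
    simp [h0]
  have hk11 : k 1 = ‖g z‖ := by
    simp only [k]
    rw [Complex.ofReal_one, one_mul, heg, Complex.ofReal_re]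
  rw [hψ0] at h01
  have h2 : 0 ≤ 1 * l - k 1 := by
    by_contra hcon
    push Not at hcon
    exact absurd h01 (not_le.mpr (div_neg_of_neg_of_pos hcon
      (hden 1 (right_mem_Icc.mpr zero_le_one))))
  rw [hk11] at h2
  linarith

/-- an isometric germ fixing `0` is a rotation -/
theorem rigid0 {g : ℂ → ℂ} (hg : ∀ᶠ z in 𝓝 (0:ℂ), Iso g z) (h0 : g 0 = 0) :
    ∃ c : ℂ, ‖c‖ = 1 ∧ ∀ᶠ z in 𝓝 (0:ℂ), g z = c * z := by
  have hI : Iso g 0 := hg.self_of_nhds
  have hsm : ∀ᶠ z in 𝓝 (0:ℂ), ‖g z‖ < 1 := by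
    have : Tendsto (fun z => ‖g z‖) (𝓝 0) (𝓝 0) := by
      have h1 := hI.1.continuousAt.norm
      rw [ContinuousAt, h0, norm_zero] at h1
      exact h1
    exact this.eventually (gt_mem_nhds one_pos)
  obtain ⟨r, hr, hrs⟩ := Metric.eventually_nhds_iff_ball.mp (hg.and hsm)
  set R := min r 1 with hR
  have hR0 : 0 < R := lt_min hr one_pos
  have hR1 : R ≤ 1 := min_le_right _ _
  have hsub : ball (0:ℂ) R ⊆ ball 0 r := ball_subset_ball (min_le_left _ _)
  have hle : ∀ z ∈ ball (0:ℂ) R, ‖g z‖ ≤ ‖z‖ := fun z hz =>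
    norm_le_of_iso hR1 (fun z hz => (hrs z (hsub hz)).1) (fun z hz => (hrs z (hsub hz)).2) h0 hz
  have hd : DifferentiableOn ℂ g (ball 0 R) := fun z hz =>
    (hrs z (hsub hz)).1.1.differentiableWithinAt
  have hn : ‖deriv g 0‖ = 1 := by
    have := hI.2
    rw [h0, norm_zero] at this
    linarith
  refine ⟨deriv g 0, hn, ?_⟩
  have hE := affine_of_mapsTo_ball_of_norm_dslope_eq_div (f := g) (c := 0) (R₁ := R) (R₂ := R)
    (z₀ := 0) hd (fun z hz => by
      rw [h0, mem_closedBall_zero_iff]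
      exact (hle z hz).trans (le_of_lt (by simpa using hz))) (mem_ball_self hR0) (by
      rw [dslope_same, hn, div_self hR0.ne'])
  filter_upwards [ball_mem_nhds (0:ℂ) hR0] with z hz
  have := hE hz
  simp only [dslope_same, h0, sub_zero, zero_add, smul_eq_mul] at this
  rw [this, mul_comm]

theorem mob_comp_alg {w s c z : ℂ} (hw : ‖w‖ < 1) (hs : ‖s‖ < 1) (hc : ‖c‖ = 1) :
    ∃ a c' : ℂ, ‖a‖ < 1 ∧ ‖c'‖ = 1 ∧ ∀ z, ‖z‖ < 1 → mob (-s) (c * mob w z) = c' * mob a z := by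
  have hcc : conj c * c = 1 := by
    rw [mul_comm, Complex.mul_conj, Complex.normSq_eq_norm_sq, hc]; simp
  set b := conj c * s with hb
  have hbn : ‖b‖ < 1 := by rw [hb, norm_mul, norm_conj, hc, one_mul]; exact hs
  have hsb : s = c * b := by rw [hb, ← mul_assoc, mul_comm c, hcc, one_mul]
  have h1 : 1 - conj b * w ≠ 0 := den_ne hbn hw
  have h2 : 1 - b * conj w ≠ 0 := by
    have := den_ne hw hbn
    rwa [mul_comm (conj w)] at this
  have h12 : ‖1 - b * conj w‖ = ‖1 - conj b * w‖ := by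
    rw [← norm_conj (1 - conj b * w)]
    simp
  refine ⟨(w - b) / (1 - b * conj w), c * ((1 - b * conj w) / (1 - conj b * w)), ?_, ?_, ?_⟩
  · rw [norm_div, h12, ← norm_div]
    exact norm_mob_lt hbn hw
  · rw [norm_mul, norm_div, hc, h12, one_mul, div_self (norm_ne_zero_iff.mpr h1)]
  · intro z hz
    have h3 : 1 - conj w * z ≠ 0 := den_ne hw hz
    have hna : ‖(w - b) / (1 - b * conj w)‖ < 1 := by
      rw [norm_div, h12, ← norm_div]
      exact norm_mob_lt hbn hw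
    have h4 := den_ne hna hz
    have hca : conj ((w - b) / (1 - b * conj w)) = (conj w - conj b) / (1 - conj b * w) := by
      simp
    have h5 : 1 - conj w * z + conj b * (z - w) ≠ 0 := by
      rw [hca] at h4
      intro h
      apply h4
      field_simp
      linear_combination h
    have h6 : conj s * c = conj b := by
      rw [hb]; simp [mul_comm]
    have h7 : 1 - conj (-s) * (c * mob w z)
        = (1 - conj w * z + conj b * (z - w)) / (1 - conj w * z) := by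
      rw [map_neg, neg_mul, sub_neg_eq_add, ← mul_assoc, h6, mob, eq_div_iff h3, add_mul,
        mul_assoc (conj b), div_mul_cancel₀ _ h3]
      ring
    have h8 : c * mob w z - -s = c * (z - w + b * (1 - conj w * z)) / (1 - conj w * z) := by
      rw [hsb, mob, eq_div_iff h3, sub_neg_eq_add, add_mul, mul_assoc c ((z - w) / _),
        div_mul_cancel₀ _ h3]
      ring
    conv_lhs => rw [mob, h7, h8, div_div_div_cancel_right₀ h3]
    rw [mob, hca]
    rw [hca] at h4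
    have h9 : z - (w - b) / (1 - b * conj w) = (z * (1 - b * conj w) - (w - b)) / (1 - b * conj w) := by
      rw [eq_div_iff h2, sub_mul, div_mul_cancel₀ _ h2]
    have h10 : 1 - (conj w - conj b) / (1 - conj b * w) * z
        = (1 - conj w * z + conj b * (z - w)) / (1 - conj b * w) := by
      rw [eq_div_iff h1, sub_mul, one_mul, mul_assoc, mul_comm z, ← mul_assoc,
        div_mul_cancel₀ _ h1]
      ring
    rw [h9, h10]
    obtain ⟨D1, hD1⟩ : ∃ D, D = 1 - conj b * w := ⟨_, rfl⟩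
    obtain ⟨D2, hD2⟩ : ∃ D, D = 1 - b * conj w := ⟨_, rfl⟩
    obtain ⟨D3, hD3⟩ : ∃ D, D = 1 - conj w * z + conj b * (z - w) := ⟨_, rfl⟩
    rw [← hD1, ← hD2, ← hD3]
    rw [← hD1] at h1
    rw [← hD2] at h2
    rw [← hD3] at h5
    field_simp
    rw [hD2]
    ring

theorem normal {h : ℂ → ℂ} {w : ℂ} (hw : ‖w‖ < 1) (hh : ∀ᶠ z in 𝓝 w, Iso h z)
    (hs : ‖h w‖ < 1) : ∃ a c : ℂ, ‖a‖ < 1 ∧ ‖c‖ = 1 ∧ ∀ᶠ z in 𝓝 w, h z = c * mob a z := by
  have hw' : ‖-w‖ < 1 := by rwa [norm_neg]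
  have hball : ∀ᶠ x in 𝓝 (0:ℂ), ‖x‖ < 1 := by
    have := ball_mem_nhds (0:ℂ) one_pos
    filter_upwards [this] with x hx
    simpa using hx
  have hcont : Tendsto (mob (-w)) (𝓝 0) (𝓝 w) := by
    have := (continuousAt_mob hw' (by simp : ‖(0:ℂ)‖ < 1))
    rw [ContinuousAt, mob_zero, neg_neg] at this
    exact this
  have hhs : ∀ᶠ z in 𝓝 w, ‖h z‖ < 1 :=
    hh.self_of_nhds.1.continuousAt.norm.eventually (gt_mem_nhds hs)
  have hg : ∀ᶠ x in 𝓝 (0:ℂ), Iso (mob (h w) ∘ h ∘ mob (-w)) x := by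
    filter_upwards [hball, hcont.eventually (hh.and hhs)] with x h1 h2
    exact Iso.comp (iso_mob hs h2.2) (Iso.comp h2.1 (iso_mob hw' h1))
  have hg0 : (mob (h w) ∘ h ∘ mob (-w)) 0 = 0 := by
    simp [mob_zero, mob_self]
  obtain ⟨c, hc, hcE⟩ := rigid0 hg hg0
  obtain ⟨a, c', ha, hc', hE⟩ := mob_comp_alg (z := 0) hw hs hc
  refine ⟨a, c', ha, hc', ?_⟩
  have hcont2 : Tendsto (mob w) (𝓝 w) (𝓝 0) := by
    have := continuousAt_mob hw hw
    rw [ContinuousAt, mob_self] at this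
    exact this
  have hwz : ∀ᶠ z in 𝓝 w, ‖z‖ < 1 := continuous_norm.continuousAt.eventually (gt_mem_nhds hw)
  filter_upwards [hcont2.eventually hcE, hwz, hhs] with z h1 h2 h3
  simp only [Function.comp_apply] at h1
  rw [mob_mob hw h2] at h1
  rw [← hE z h2, ← h1, mob_mob hs h3]

end Crest.Agent.R272.Unif_903
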