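import Crest.Agent.R272.Unif3_903

/-!
# R272, UNIF (helper903), file 4: completeness, the global developing map `disc → M`
-/

set_option autoImplicit false

open Set Filter Topology Complex Metric

open scoped ComplexConjugate

namespace Crest.Agent.R272.Unif_903

variable {M : Type*} [TopologicalSpace M]

/-- uniform system of centred charts -/
structure USys (X : PH M) where
  ε : ℝ
  pos : 0 < ε
  lt_one : ε < 1
  f : M → OpenPartialHomeomorph M ℂ
  good : ∀ m, Good X (f m)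
  mem : ∀ m, m ∈ (f m).source
  map : ∀ m, f m m = 0
  tgt : ∀ m, (f m).target = ball 0 ε

theorem nonempty_usys [CompactSpace M] (X : PH M) : Nonempty (USys X) := by
  obtain ⟨ε, h0, h1, h⟩ := exists_unif X
  choose f a b c d using h
  exact ⟨⟨ε, h0, h1, f, a, b, c, d⟩⟩

namespace USys

variable {X : PH M} (S : USys X)

theorem symm_zero (m : M) : (S.f m).symm 0 = m := by
  rw [← S.map m]; exact (S.f m).left_inv (S.mem m)

/-- model map -/
noncomputable def mod (m : M) (a c z : ℂ) : M := (S.f m).symm (c * mob a z)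

theorem isoM_mod {m : M} {a c : ℂ} (ha : ‖a‖ < 1) (hc : ‖c‖ = 1) {z : ℂ} (hz : z ∈ Bh a S.ε) :
    IsoM X (S.mod m a c) z := isoM_model (S.good m) (S.tgt m) ha hc hz

theorem mod_self (m : M) (a c : ℂ) : S.mod m a c a = m := by
  rw [mod, mob_self, mul_zero, symm_zero]

theorem centre {p : ℂ → M} {w : ℂ} (hw : ‖w‖ < 1) (hp : ∀ᶠ z in 𝓝 w, IsoM X p z) :
    ∃ c : ℂ, ‖c‖ = 1 ∧ p =ᶠ[𝓝 w] S.mod (p w) w c := by
  obtain ⟨a, c, ha, hc, h1, h2⟩ := IsoM.normal hw hp (S.good (p w)) (S.mem (p w))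
  rw [S.map (p w)] at h1
  have hc0 : c ≠ 0 := by
    rintro rfl
    simp at hc
  have h3 : mob a w = 0 := (mul_eq_zero.mp h1).resolve_left hc0
  rw [mob_eq_zero ha hw] at h3
  subst h3
  exact ⟨c, hc, h2⟩

theorem ext_step [T2Space M] {R R' : ℝ} (hR0 : 0 < R) (hRR : R < R') (hR1 : R' < 1)
    (hst : R' - R < S.ε * (1 - R * R')) {p : ℂ → M} (hp : ∀ w ∈ ball (0:ℂ) R, IsoM X p w) :
    ∃ q : ℂ → M, (∀ w ∈ ball (0:ℂ) R', IsoM X q w) ∧ EqOn q p (ball 0 R) := by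
  have hb1 : ∀ w ∈ ball (0:ℂ) R, ‖w‖ < 1 := fun w hw => by
    have : ‖w‖ < R := by simpa using hw
    linarith
  have hcen : ∀ w : ℂ, ∃ c : ℂ, w ∈ ball (0:ℂ) R → ‖c‖ = 1 ∧ p =ᶠ[𝓝 w] S.mod (p w) w c := by
    intro w
    by_cases hw : w ∈ ball (0:ℂ) R
    · obtain ⟨c, h1, h2⟩ := S.centre (hb1 w hw)
        (by filter_upwards [isOpen_ball.mem_nhds hw] with z hz using hp z hz)
      exact ⟨c, fun _ => ⟨h1, h2⟩⟩
    · exact ⟨0, fun h => absurd h hw⟩
  choose c hc using hcen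
  let E : ℂ → ℂ → M := fun w => S.mod (p w) w (c w)
  have E1 : ∀ w ∈ ball (0:ℂ) R, ∀ z ∈ Bh w S.ε, IsoM X (E w) z := fun w hw z hz =>
    S.isoM_mod (hb1 w hw) (hc w hw).1 hz
  have E3 : ∀ w ∈ ball (0:ℂ) R, EqOn p (E w) (ball 0 R ∩ Bh w S.ε) := by
    intro w hw
    refine rigid (X := X) (w0 := w) (isOpen_ball.inter (isOpen_Bh (hb1 w hw) S.pos S.lt_one))
      ((convex_ball _ _).inter (convex_Bh (hb1 w hw) S.pos S.lt_one)).isPreconnected
      (fun z hz => hp z hz.1) (fun z hz => E1 w hw z hz.2)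
      ⟨hw, self_mem_Bh (hb1 w hw) S.pos⟩ (hc w hw).2
  have E4 : ∀ w ∈ ball (0:ℂ) R, ∀ v ∈ ball (0:ℂ) R, w ∈ Bh v S.ε →
      EqOn (E w) (E v) (Bh w S.ε ∩ Bh v S.ε) := by
    intro w hw v hv hwv
    have o1 := isOpen_Bh (hb1 w hw) S.pos S.lt_one
    have o2 := isOpen_Bh (hb1 v hv) S.pos S.lt_one
    refine rigid (X := X) (w0 := w) (o1.inter o2)
      ((convex_Bh (hb1 w hw) S.pos S.lt_one).inter
        (convex_Bh (hb1 v hv) S.pos S.lt_one)).isPreconnected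
      (fun z hz => E1 w hw z hz.1) (fun z hz => E1 v hv z hz.2)
      ⟨self_mem_Bh (hb1 w hw) S.pos, hwv⟩ ?_
    have h1 : E w =ᶠ[𝓝 w] p := (hc w hw).2.symm
    have h2 : p =ᶠ[𝓝 w] E v := by
      filter_upwards [(isOpen_ball.inter o2).mem_nhds ⟨hw, hwv⟩] with z hz using E3 v hv hz
    exact h1.trans h2
  have hR'0 : 0 < R' := hR0.trans hRR
  set l : ℝ := R / R' with hl
  have hl0 : 0 < l := by positivity
  have hl1 : l < 1 := by rw [hl, div_lt_one hR'0]; exact hRR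
  have hlR : l * R' = R := div_mul_cancel₀ _ hR'0.ne'
  let τ : ℂ → ℂ := fun w => (l : ℂ) * w
  have hτn : ∀ w, ‖τ w‖ = l * ‖w‖ := fun w => by
    simp only [τ]
    rw [norm_mul, Complex.norm_real, Real.norm_of_nonneg hl0.le]
  have hτ : ∀ w ∈ ball (0:ℂ) R', τ w ∈ ball (0:ℂ) R := by
    intro w hw
    have h : ‖w‖ < R' := by simpa using hw
    rw [mem_ball_zero_iff, hτn, ← hlR]
    exact mul_lt_mul_of_pos_left h hl0
  have hτB : ∀ w ∈ ball (0:ℂ) R', w ∈ Bh (τ w) S.ε := by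
    intro w hw
    have h : ‖w‖ < R' := by simpa using hw
    refine ⟨h.trans hR1, ?_⟩
    have h1 : w - τ w = ((1 - l : ℝ) : ℂ) * w := by simp only [τ]; push_cast; ring
    have h2 : 1 - conj (τ w) * w = ((1 - l * ‖w‖ ^ 2 : ℝ) : ℂ) := by
      simp only [τ]
      rw [map_mul, Complex.conj_ofReal, mul_assoc, ← Complex.normSq_eq_conj_mul_self,
        Complex.normSq_eq_norm_sq]
      push_cast
      ring
    have h3 : 0 < 1 - l * ‖w‖ ^ 2 := by nlinarith [norm_nonneg w]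
    rw [mob, h1, h2, norm_div, norm_mul, Complex.norm_real, Complex.norm_real,
      Real.norm_of_nonneg (by linarith : 0 ≤ 1 - l), Real.norm_of_nonneg h3.le, div_lt_iff₀ h3]
    have h4 : (1 - l) * ‖w‖ ≤ (1 - l) * R' :=
      mul_le_mul_of_nonneg_left h.le (by linarith)
    have h5 : l * ‖w‖ ^ 2 ≤ l * R' ^ 2 :=
      mul_le_mul_of_nonneg_left (pow_le_pow_left₀ (norm_nonneg w) h.le 2) hl0.le
    have h6 : (1 - l) * R' = R' - R := by rw [sub_mul, hlR, one_mul]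
    have h7 : l * R' ^ 2 = R * R' := by rw [pow_two, ← mul_assoc, hlR]
    have h8 : S.ε * (1 - R * R') ≤ S.ε * (1 - l * ‖w‖ ^ 2) :=
      mul_le_mul_of_nonneg_left (by rw [← h7]; linarith) S.pos.le
    linarith
  have hτc : Continuous τ := continuous_const.mul continuous_id
  refine ⟨fun w => E (τ w) w, fun w0 hw0 => ?_, fun w hw => ?_⟩
  · have h0 := hτ w0 hw0
    refine (E1 _ h0 _ (hτB w0 hw0)).congr ?_
    have a1 : ∀ᶠ w in 𝓝 w0, τ w ∈ Bh (τ w0) S.ε :=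
      hτc.continuousAt.eventually ((isOpen_Bh (hb1 _ h0) S.pos S.lt_one).mem_nhds
        (self_mem_Bh (hb1 _ h0) S.pos))
    have a2 : ∀ᶠ w in 𝓝 w0, w ∈ Bh (τ w0) S.ε :=
      (isOpen_Bh (hb1 _ h0) S.pos S.lt_one).mem_nhds (hτB w0 hw0)
    filter_upwards [a1, a2, isOpen_ball.mem_nhds hw0] with w b1 b2 b3
    exact (E4 (τ w) (hτ w b3) (τ w0) h0 b1 ⟨hτB w b3, b2⟩).symm
  · have hw' : w ∈ ball (0:ℂ) R' := ball_subset_ball hRR.le hw
    exact (E3 (τ w) (hτ w hw') ⟨hw, hτB w hw'⟩).symm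

include S in
/-- the global map -/
theorem exists_global [T2Space M] (m0 : M) :
    ∃ p : ℂ → M, (∀ w ∈ ball (0:ℂ) 1, IsoM X p w) ∧ p 0 = m0 := by
  have hε := S.pos
  have hε1 := S.lt_one
  let R : ℕ → ℝ := fun n => 1 - (1 - S.ε) * (1 - S.ε / 2) ^ n
  have hq0 : 0 < 1 - S.ε / 2 := by linarith
  have hq1 : 1 - S.ε / 2 < 1 := by linarith
  have hR1 : ∀ n, R n < 1 := fun n => by
    have : 0 < (1 - S.ε) * (1 - S.ε / 2) ^ n := by
      have : 0 < 1 - S.ε := by linarith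
      positivity
    simp only [R]; linarith
  have hRs : ∀ n, R (n + 1) - R n = S.ε / 2 * (1 - R n) := fun n => by
    simp only [R]; ring
  have hRlt : ∀ n, R n < R (n + 1) := fun n => by
    have := hRs n
    have h2 : 0 < S.ε / 2 * (1 - R n) := mul_pos (by linarith) (by linarith [hR1 n])
    linarith
  have hR00 : R 0 = S.ε := by simp [R]
  have hRmono : Monotone R := monotone_nat_of_le_succ fun n => (hRlt n).le
  have hRpos : ∀ n, 0 < R n := fun n => by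
    have := hRmono (Nat.zero_le n)
    rw [hR00] at this
    linarith
  have hRlim : ∀ r < 1, ∃ n, r < R n := by
    intro r hr
    obtain ⟨n, hn⟩ := exists_pow_lt_of_lt_one (y := 1 - S.ε / 2) (x := 1 - r) (by linarith) hq1
    refine ⟨n, ?_⟩
    simp only [R]
    have : (1 - S.ε) * (1 - S.ε / 2) ^ n ≤ (1 - S.ε / 2) ^ n := by
      have h0 : 0 ≤ (1 - S.ε / 2) ^ n := by positivity
      nlinarith
    linarith
  have hstep : ∀ n (p : {p : ℂ → M // ∀ w ∈ ball (0:ℂ) (R n), IsoM X p w}),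
      ∃ q : {p : ℂ → M // ∀ w ∈ ball (0:ℂ) (R (n + 1)), IsoM X p w},
        EqOn q.1 p.1 (ball 0 (R n)) := by
    rintro n ⟨p, hp⟩
    have hst : R (n + 1) - R n < S.ε * (1 - R n * R (n + 1)) := by
      have h1 := hR1 n
      have h2 := hR1 (n + 1)
      have h3 := hRpos n
      rw [hRs n]
      have h4 : R n * R (n + 1) ≤ R n := by nlinarith
      nlinarith
    obtain ⟨q, h1, h2⟩ := S.ext_step (hRpos n) (hRlt n) (hR1 (n + 1)) hst hp
    exact ⟨⟨q, h1⟩, h2⟩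
  choose nxt hnxt using hstep
  have hp0 : ∀ w ∈ ball (0:ℂ) (R 0), IsoM X (S.f m0).symm w := fun w hw => by
    rw [hR00] at hw
    exact (S.good m0).symm w (by rw [S.tgt]; exact hw)
  let s : (n : ℕ) → {p : ℂ → M // ∀ w ∈ ball (0:ℂ) (R n), IsoM X p w} :=
    fun n => Nat.rec ⟨_, hp0⟩ (fun n p => nxt n p) n
  have hs : ∀ n, EqOn (s (n + 1)).1 (s n).1 (ball 0 (R n)) := fun n => hnxt n (s n)
  have hsk : ∀ k n, EqOn (s (n + k)).1 (s n).1 (ball 0 (R n)) := by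
    intro k n
    induction k with
    | zero => exact fun w _ => rfl
    | succ k ih =>
      intro w hw
      have : w ∈ ball (0:ℂ) (R (n + k)) := ball_subset_ball (hRmono (Nat.le_add_right n k)) hw
      exact (hs (n + k) this).trans (ih hw)
  have hskk : ∀ n k w, w ∈ ball (0:ℂ) (R n) → w ∈ ball (0:ℂ) (R k) →
      (s n).1 w = (s k).1 w := by
    intro n k w h1 h2
    rcases le_total n k with h | h
    · obtain ⟨j, rfl⟩ := Nat.exists_eq_add_of_le h
      exact (hsk j n h1).symm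
    · obtain ⟨j, rfl⟩ := Nat.exists_eq_add_of_le h
      exact hsk j k h2
  have hN : ∀ w : ℂ, ∃ n, w ∈ ball (0:ℂ) 1 → w ∈ ball (0:ℂ) (R n) := by
    intro w
    by_cases hw : w ∈ ball (0:ℂ) 1
    · obtain ⟨n, hn⟩ := hRlim ‖w‖ (by simpa using hw)
      exact ⟨n, fun _ => by simpa using hn⟩
    · exact ⟨0, fun h => absurd h hw⟩
  choose N hN using hN
  refine ⟨fun w => (s (N w)).1 w, fun w0 hw0 => ?_, ?_⟩
  · refine ((s (N w0)).2 w0 (hN w0 hw0)).congr ?_
    filter_upwards [isOpen_ball.mem_nhds hw0, isOpen_ball.mem_nhds (hN w0 hw0)] with w h1 h2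
    exact hskk _ _ w h2 (hN w h1)
  · have h0 : (0:ℂ) ∈ ball (0:ℂ) 1 := mem_ball_self one_pos
    show (s (N 0)).1 0 = m0
    rw [hskk (N 0) 0 0 (hN 0 h0) (mem_ball_self (hRpos 0))]
    exact S.symm_zero m0

end USys

end Crest.Agent.R272.Unif_903
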