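import Crest.Agent.R272.Unif4_903

/-!
# R272, UNIF (helper903), file 5: the global developing map is a covering
-/

set_option autoImplicit false

open Set Filter Topology Complex Metric

open scoped ComplexConjugate

namespace Crest.Agent.R272.Unif_903

variable {M : Type*} [TopologicalSpace M]

namespace USys

variable {X : PH M} (S : USys X)

theorem Bh_sub {a : ℂ} {ε : ℝ} : Bh a ε ⊆ ball 0 1 := fun z hz => by
  simpa using hz.1

theorem key0 [T2Space M] {p : ℂ → M} (hp : ∀ w ∈ ball (0:ℂ) 1, IsoM X p w) {a : ℂ}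
    (ha : ‖a‖ < 1) : ∃ c : ℂ, ‖c‖ = 1 ∧ ∀ z ∈ Bh a S.ε, p z = S.mod (p a) a c z := by
  have ha' : a ∈ ball (0:ℂ) 1 := by simpa using ha
  obtain ⟨c, hc, hE⟩ := S.centre ha
    (by filter_upwards [isOpen_ball.mem_nhds ha'] with z hz using hp z hz)
  refine ⟨c, hc, ?_⟩
  exact rigid (X := X) (isOpen_Bh ha S.pos S.lt_one)
    (convex_Bh ha S.pos S.lt_one).isPreconnected (fun z hz => hp z (Bh_sub hz))
    (fun z hz => S.isoM_mod ha hc hz) (self_mem_Bh ha S.pos) hE

theorem key [T2Space M] {p : ℂ → M} (hp : ∀ w ∈ ball (0:ℂ) 1, IsoM X p w) {m : M} {w : ℂ}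
    (hw : ‖w‖ < 1) (hpw : p w ∈ (S.f m).source) :
    ∃ a : ℂ, ‖a‖ < 1 ∧ p a = m ∧ w ∈ Bh a S.ε := by
  have hw' : w ∈ ball (0:ℂ) 1 := by simpa using hw
  obtain ⟨a, c, ha, hc, h1, h2⟩ := IsoM.normal hw
    (by filter_upwards [isOpen_ball.mem_nhds hw'] with z hz using hp z hz) (S.good m) hpw
  have hwB : w ∈ Bh a S.ε := by
    refine ⟨hw, ?_⟩
    have h3 : (S.f m) (p w) ∈ ball (0:ℂ) S.ε := by
      rw [← S.tgt m]; exact (S.f m).map_source hpw
    rw [mem_ball_zero_iff, ← h1, norm_mul, hc, one_mul] at h3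
    exact h3
  refine ⟨a, ha, ?_, hwB⟩
  have hE := rigid (X := X) (isOpen_Bh ha S.pos S.lt_one)
    (convex_Bh ha S.pos S.lt_one).isPreconnected (fun z hz => hp z (Bh_sub hz))
    (fun z hz => S.isoM_mod (m := m) ha hc hz) hwB h2
  rw [hE (self_mem_Bh ha S.pos), S.mod_self]

/-- local section of the model map -/
noncomputable def sec (m : M) (a c : ℂ) (y : M) : ℂ := mob (-a) (c⁻¹ * S.f m y)

theorem sec_spec {m : M} {a c : ℂ} (ha : ‖a‖ < 1) (hc : ‖c‖ = 1) {y : M}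
    (hy : y ∈ (S.f m).source) : S.sec m a c y ∈ Bh a S.ε ∧ S.mod m a c (S.sec m a c y) = y := by
  have hc0 : c ≠ 0 := by
    rintro rfl
    simp at hc
  have h1 : ‖S.f m y‖ < S.ε := by
    have := (S.f m).map_source hy
    rw [S.tgt m] at this
    simpa using this
  have h2 : ‖c⁻¹ * S.f m y‖ < S.ε := by
    rw [norm_mul, norm_inv, hc, inv_one, one_mul]; exact h1
  have h3 : ‖c⁻¹ * S.f m y‖ < 1 := h2.trans S.lt_one
  have h4 : mob a (S.sec m a c y) = c⁻¹ * S.f m y := mob_mob' ha h3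
  refine ⟨⟨norm_mob_lt (by rwa [norm_neg]) h3, by rw [h4]; exact h2⟩, ?_⟩
  rw [mod, h4, mul_inv_cancel_left₀ hc0]
  exact (S.f m).left_inv hy

theorem mod_inj {m : M} {a c : ℂ} (ha : ‖a‖ < 1) (hc : ‖c‖ = 1) :
    InjOn (S.mod m a c) (Bh a S.ε) := by
  have hc0 : c ≠ 0 := by
    rintro rfl
    simp at hc
  intro z hz w hw h
  have h1 : ∀ z ∈ Bh a S.ε, c * mob a z ∈ (S.f m).target := fun z hz => by
    rw [S.tgt, mem_ball_zero_iff, norm_mul, hc, one_mul]; exact hz.2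
  have h2 : c * mob a z = c * mob a w := (S.f m).symm.injOn (h1 z hz) (h1 w hw) h
  have h3 := mul_left_cancel₀ hc0 h2
  rw [← mob_mob ha hz.1, h3, mob_mob ha hw.1]

theorem mod_mem {m : M} {a c : ℂ} (hc : ‖c‖ = 1) {z : ℂ} (hz : z ∈ Bh a S.ε) :
    S.mod m a c z ∈ (S.f m).source := by
  refine (S.f m).map_target ?_
  rw [S.tgt, mem_ball_zero_iff, norm_mul, hc, one_mul]; exact hz.2

include S in
theorem disj [T2Space M] {p : ℂ → M} (hp : ∀ w ∈ ball (0:ℂ) 1, IsoM X p w) {a b w : ℂ}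
    (ha : ‖a‖ < 1) (hb : ‖b‖ < 1) (hab : p a = p b) (h1 : w ∈ Bh a S.ε) (h2 : w ∈ Bh b S.ε) :
    a = b := by
  obtain ⟨c, hc, hE⟩ := S.key0 hp ha
  obtain ⟨d, hd, hF⟩ := S.key0 hp hb
  have o1 := isOpen_Bh ha S.pos S.lt_one
  have o2 := isOpen_Bh hb S.pos S.lt_one
  have e1 : ∀ᶠ z in 𝓝 w, c * mob a z = d * mob b z := by
    filter_upwards [o1.mem_nhds h1, o2.mem_nhds h2] with z b1 b2
    have h3 : S.mod (p a) a c z = S.mod (p a) b d z := by
      rw [← hE z b1, hab, ← hF z b2]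
    refine (S.f (p a)).symm.injOn ?_ ?_ h3
    · show c * mob a z ∈ (S.f (p a)).target
      rw [S.tgt, mem_ball_zero_iff, norm_mul, hc, one_mul]; exact b1.2
    · show d * mob b z ∈ (S.f (p a)).target
      rw [S.tgt, mem_ball_zero_iff, norm_mul, hd, one_mul]; exact b2.2
  have d1 : DifferentiableOn ℂ (fun z => c * mob a z) (ball 0 1) := fun z hz =>
    ((hasDerivAt_mob ha (by simpa using hz)).const_mul c).differentiableAt.differentiableWithinAt
  have d2 : DifferentiableOn ℂ (fun z => d * mob b z) (ball 0 1) := fun z hz =>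
    ((hasDerivAt_mob hb (by simpa using hz)).const_mul d).differentiableAt.differentiableWithinAt
  have hEq : EqOn (fun z => c * mob a z) (fun z => d * mob b z) (ball 0 1) :=
    (d1.analyticOnNhd isOpen_ball).eqOn_of_preconnected_of_eventuallyEq
      (d2.analyticOnNhd isOpen_ball) (convex_ball _ _).isPreconnected (Bh_sub h1) e1
  have h5 := hEq (show a ∈ ball (0:ℂ) 1 by simpa using ha)
  have hd0 : d ≠ 0 := by
    rintro rfl
    simp at hd
  simp only [mob_self, mul_zero] at h5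
  exact (mob_eq_zero hb ha).mp ((mul_eq_zero.mp h5.symm).resolve_left hd0)

include S in
theorem surj [T2Space M] [PreconnectedSpace M] {p : ℂ → M}
    (hp : ∀ w ∈ ball (0:ℂ) 1, IsoM X p w) : ∀ m : M, ∃ a : ℂ, ‖a‖ < 1 ∧ p a = m := by
  let A : Set M := {m | ∃ a : ℂ, ‖a‖ < 1 ∧ p a = m}
  have hA : IsClopen A := by
    constructor
    · rw [← isOpen_compl_iff, isOpen_iff_mem_nhds]
      intro m hm
      filter_upwards [(S.f m).open_source.mem_nhds (S.mem m)] with y hy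
      rintro ⟨a, ha, rfl⟩
      obtain ⟨b, hb, hbm, _⟩ := S.key hp ha hy
      exact hm ⟨b, hb, hbm⟩
    · rw [isOpen_iff_mem_nhds]
      rintro m ⟨a, ha, rfl⟩
      filter_upwards [(S.f (p a)).open_source.mem_nhds (S.mem (p a))] with y hy
      obtain ⟨c, hc, hE⟩ := S.key0 hp ha
      obtain ⟨h1, h2⟩ := S.sec_spec ha hc hy
      exact ⟨_, h1.1, (hE _ h1).trans h2⟩
  have hne : A.Nonempty := ⟨p 0, 0, by simp, rfl⟩
  intro m
  have : m ∈ A := by rw [hA.eq_univ hne]; trivial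
  exact this

theorem continuous {X : PH M} {p : ℂ → M} (hp : ∀ w ∈ ball (0:ℂ) 1, IsoM X p w) :
    Continuous (fun z : ball (0:ℂ) 1 => p z) :=
  continuous_iff_continuousAt.mpr fun z =>
    ContinuousAt.comp (hp z z.2).1 continuous_subtype_val.continuousAt

include S in
theorem covering [T2Space M] [PreconnectedSpace M] {p : ℂ → M}
    (hp : ∀ w ∈ ball (0:ℂ) 1, IsoM X p w) : IsCoveringMap (fun z : ball (0:ℂ) 1 => p z) := by
  intro m
  let ι : Type := {a : ball (0:ℂ) 1 // p a = m}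
  let _ : TopologicalSpace ι := ⊥
  have _ : DiscreteTopology ι := ⟨rfl⟩
  obtain ⟨a0, ha0, ha0m⟩ := S.surj hp m
  have _ : Nonempty ι := ⟨⟨⟨a0, by simpa using ha0⟩, ha0m⟩⟩
  have _ : Nonempty (M → ball (0:ℂ) 1) := ⟨fun _ => ⟨a0, by simpa using ha0⟩⟩
  have hn : ∀ i : ι, ‖(i.1 : ℂ)‖ < 1 := fun i => mem_ball_zero_iff.mp i.1.2
  have hk : ∀ i : ι, ∃ c : ℂ, ‖c‖ = 1 ∧ ∀ z ∈ Bh (i.1 : ℂ) S.ε, p z = S.mod m i.1 c z := by
    intro i
    have := S.key0 hp (hn i)
    rwa [i.2] at this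
  choose c hc hE using hk
  let U : ι → Set (ball (0:ℂ) 1) := fun i => {z | (z : ℂ) ∈ Bh (i.1 : ℂ) S.ε}
  have hUo : ∀ i, IsOpen (U i) := fun i =>
    (isOpen_Bh (hn i) S.pos S.lt_one).preimage continuous_subtype_val
  have hcont := continuous hp
  have hsurj : ∀ i, (U i).SurjOn (fun z : ball (0:ℂ) 1 => p z) (S.f m).source := by
    intro i y hy
    obtain ⟨h1, h2⟩ := S.sec_spec (hn i) (hc i) hy
    exact ⟨⟨_, mem_ball_zero_iff.mpr h1.1⟩, h1, (hE i _ h1).trans h2⟩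
  have hinj : ∀ i, (U i).InjOn (fun z : ball (0:ℂ) 1 => p z) := by
    intro i z hz w hw h
    have h' : p z = p w := h
    rw [hE i _ hz, hE i _ hw] at h'
    exact Subtype.ext (S.mod_inj (hn i) (hc i) hz hw h')
  have hopen : ∀ (i : ι) {W : Set M}, W ⊆ (S.f m).source →
      (IsOpen W ↔ IsOpen ((fun z : ball (0:ℂ) 1 => p z) ⁻¹' W ∩ U i)) := by
    intro i W hW
    refine ⟨fun h => (h.preimage hcont).inter (hUo i), fun h => ?_⟩
    -- continuous section
    obtain ⟨O, hO, hOeq⟩ := isOpen_induced_iff.mp h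
    have hsc : ContinuousOn (S.sec m i.1 (c i)) (S.f m).source := by
      intro y hy
      have h1 : ‖(c i)⁻¹ * S.f m y‖ < 1 := by
        rw [norm_mul, norm_inv, hc, inv_one, one_mul]
        have := (S.f m).map_source hy
        rw [S.tgt m, mem_ball_zero_iff] at this
        exact this.trans S.lt_one
      have h2 : ContinuousAt (mob (-(i.1 : ℂ))) ((c i)⁻¹ * S.f m y) :=
        continuousAt_mob (by rw [norm_neg]; exact hn i) h1
      have h3 : ContinuousAt (fun y => (c i)⁻¹ * S.f m y) y :=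
        continuousAt_const.mul ((S.f m).continuousAt hy)
      exact (ContinuousAt.comp (f := fun y => (c i)⁻¹ * S.f m y) (g := mob (-(i.1 : ℂ)))
        h2 h3).continuousWithinAt
    have hWeq : W = (S.f m).source ∩ (S.sec m i.1 (c i)) ⁻¹' O := by
      ext y
      constructor
      · intro hy
        obtain ⟨h1, h2⟩ := S.sec_spec (hn i) (hc i) (hW hy)
        refine ⟨hW hy, ?_⟩
        have h3 : (⟨_, mem_ball_zero_iff.mpr h1.1⟩ : ball (0:ℂ) 1) ∈
            (fun z : ball (0:ℂ) 1 => p z) ⁻¹' W ∩ U i := by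
          refine ⟨?_, h1⟩
          show p _ ∈ W
          rw [hE i _ h1, h2]; exact hy
        rw [← hOeq] at h3
        exact h3
      · rintro ⟨hy, hyO⟩
        obtain ⟨h1, h2⟩ := S.sec_spec (hn i) (hc i) hy
        have h3 : (⟨_, mem_ball_zero_iff.mpr h1.1⟩ : ball (0:ℂ) 1) ∈
            (fun z : ball (0:ℂ) 1 => p z) ⁻¹' W ∩ U i := by
          rw [← hOeq]; exact hyO
        have h4 : p (S.sec m i.1 (c i) y) ∈ W := h3.1
        rwa [hE i _ h1, h2] at h4
    rw [hWeq]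
    exact hsc.isOpen_inter_preimage (S.f m).open_source hO
  have hdisj : Pairwise (Function.onFun Disjoint U) := by
    intro i j hij
    refine Set.disjoint_left.mpr fun z hz1 hz2 => hij ?_
    exact Subtype.ext (Subtype.ext (S.disj hp (hn i) (hn j) (i.2.trans j.2.symm) hz1 hz2))
  have hexh : (fun z : ball (0:ℂ) 1 => p z) ⁻¹' (S.f m).source ⊆ ⋃ i, U i := by
    intro w hw
    obtain ⟨a, ha, ham, hwa⟩ := S.key hp (mem_ball_zero_iff.mp w.2) hw
    exact mem_iUnion.mpr ⟨⟨⟨a, mem_ball_zero_iff.mpr ha⟩, ham⟩, hwa⟩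
  exact (IsEvenlyCovered.of_trivialization (t := IsOpen.trivializationDiscrete
    U (S.f m).source (S.f m).open_source hopen hinj hsurj hdisj hexh)
    (S.mem m)).to_isEvenlyCovered_preimage

end USys

/-- **uniformisation of compact hyperbolic surfaces** -/
theorem uniformisation {M : Type*} [TopologicalSpace M] [T2Space M] [CompactSpace M]
    [PreconnectedSpace M] (X : PH M) (m0 : M) :
    ∃ p : ℂ → M, (∀ w ∈ ball (0:ℂ) 1, IsoM X p w) ∧ p 0 = m0 ∧
      IsCoveringMap (fun z : ball (0:ℂ) 1 => p z) ∧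
      Function.Surjective (fun z : ball (0:ℂ) 1 => p z) := by
  obtain ⟨S⟩ := nonempty_usys X
  obtain ⟨p, hp, h0⟩ := S.exists_global m0
  refine ⟨p, hp, h0, S.covering hp, fun m => ?_⟩
  obtain ⟨a, ha, ham⟩ := S.surj hp m
  exact ⟨⟨a, mem_ball_zero_iff.mpr ha⟩, ham⟩

end Crest.Agent.R272.Unif_903
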