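import Crest.Agent.R272.Unif6_903

/-!
# R272, UNIF (helper903), file 7: change of atlas
-/

set_option autoImplicit false

open Set Filter Topology Complex Metric

namespace Crest.Agent.R272.Unif_903

open Crest.Agent.R275.Geo Crest.Agent.R275.Core144 Crest.Agent.R273.Map_835
open Crest.Agent.R272.UnB_894

variable {M M' : Type} [TopologicalSpace M] [TopologicalSpace M'] {A : Atl 1 M} {A' : Atl 1 M'}

/-- chain rule for `f ∘ p` read in charts -/
theorem hasDerivAt_rdD {q : DD → M'} {f : M' → M} (hf : HolMap A' A f) (hq : HolD A' q)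
    {z : DD} {j : A'.ι} {i : A.ι} (hj : q z ∈ (A'.e j).source) (hz : f (q z) ∈ (A.e i).source) :
    ∃ L : Cn 1 →L[ℂ] Cn 1, HasDerivAt (rdD A (fun t => f (q t)) i)
      (L (WithLp.toLp 2 fun _ : Fin 1 => deriv (rdD A' q j) (z : ℂ)) 0) (z : ℂ) := by
  have hd := (hq.diff z j hj).hasDerivAt
  have h1 : HasDerivAt (fun w : ℂ => (WithLp.toLp 2 fun _ : Fin 1 => rdD A' q j w : Cn 1))
      (WithLp.toLp 2 fun _ : Fin 1 => deriv (rdD A' q j) (z : ℂ)) (z : ℂ) := by
    have h0 : HasFDerivAt (fun w : ℂ => (WithLp.toLp 2 fun _ : Fin 1 => rdD A' q j w : Cn 1))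
        ((PiLp.continuousLinearEquiv 2 ℂ (fun _ : Fin 1 => ℂ)).symm.toContinuousLinearMap.comp
          (ContinuousLinearMap.pi fun _ => ContinuousLinearMap.smulRight
            (1 : ℂ →L[ℂ] ℂ) (deriv (rdD A' q j) (z : ℂ)))) (z : ℂ) := by
      refine (PiLp.continuousLinearEquiv 2 ℂ (fun _ : Fin 1 => ℂ)).symm.hasFDerivAt.comp (z : ℂ) ?_
      rw [hasFDerivAt_pi]
      exact fun a => hd.hasFDerivAt
    refine h0.hasDerivAt.congr_deriv ?_
    ext a
    simp
  have e1 : (WithLp.toLp 2 fun _ : Fin 1 => rdD A' q j z : Cn 1) = A'.e j (q z) := by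
    ext a
    rw [Subsingleton.elim a 0]
    exact rdD_coe q j z
  have h2 : DifferentiableAt ℂ (rd A' A f j i)
      (WithLp.toLp 2 fun _ : Fin 1 => rdD A' q j z : Cn 1) := by
    rw [e1]
    exact hf.diffAt (mem_dm hj hz)
  have h3 := HasFDerivAt.comp_hasDerivAt (z : ℂ) h2.hasFDerivAt h1
  refine ⟨fderiv ℂ (rd A' A f j i) (WithLp.toLp 2 fun _ : Fin 1 => rdD A' q j z : Cn 1), ?_⟩
  have h4 := (EuclideanSpace.proj (0 : Fin 1) : Cn 1 →L[ℂ] ℂ).hasFDerivAt.comp_hasDerivAt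
    (z : ℂ) h3
  refine h4.congr_of_eventuallyEq ?_
  have := hq.eventually_mem hj
  rw [eventually_mk] at this
  filter_upwards [this] with w ⟨hw, hw'⟩
  have e2 : (WithLp.toLp 2 fun _ : Fin 1 => rdD A' q j w : Cn 1) = A'.e j (q ⟨w, hw⟩) := by
    ext a
    rw [Subsingleton.elim a 0]
    exact rdD_coe q j ⟨w, hw⟩
  show rdD A (fun t => f (q t)) i w = (rd A' A f j i
    (WithLp.toLp 2 fun _ : Fin 1 => rdD A' q j w : Cn 1)) 0
  rw [e2]
  simp only [rd]
  rw [(A'.e j).left_inv hw']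
  exact rdD_coe (fun t => f (q t)) i ⟨w, hw⟩

/-- `LBD` does not depend on the atlas -/
theorem lbd_of_compatible {A B : Atl 1 M} (h1 : HolMap A B id) (h2 : HolMap B A id)
    {p : DD → M} (h : LBD A p) : LBD B p := by
  have hB : HolD B p := HolD.comp (f := id) h1 h.toHolD
  refine ⟨hB, fun z i hi hd => ?_⟩
  obtain ⟨j, hj⟩ := A.cover (p z)
  obtain ⟨L, hL⟩ := hasDerivAt_rdD (f := id) h2 hB (z := z) hi (i := j) hj
  have e : (WithLp.toLp 2 fun _ : Fin 1 => deriv (rdD B p i) (z : ℂ) : Cn 1) = 0 := by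
    ext a; exact hd
  have hL' : HasDerivAt (rdD A p j)
      ((L (WithLp.toLp 2 fun _ : Fin 1 => deriv (rdD B p i) (z : ℂ))) 0) (z : ℂ) := hL
  rw [e, map_zero] at hL'
  exact h.ne z j hj hL'.deriv

end Crest.Agent.R272.Unif_903
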