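import Crest.Agent.R272.Gm3_235

/-!
# R272, leaf S14-CYC-VAL (helper83), part 1: values of quotients along a curve, without signs

`RatH`: 235's `Rat` (the quotient `b / a` has the value `m` at `x`) with a holomorphic quotient.
`VP`: the local shape of `T, S, RM, RN` at a point of the special fibre;
`VC`: a curve `z ↦ a z` along which `S / T = γ0 (1 + z²) / (1 - z²)`.
Then `RN / T = sg γ0 2 z / (1 - z²)` and `RM / S = l` with constant signs `sg, l`.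
`exists_cycle`: the closed 4-gon and its arcs.
-/

set_option autoImplicit false

open Set Topology Filter
open scoped unitInterval

namespace Crest.Agent.R272.Val_83

open Crest.Agent.R275.Geo Crest.Agent.R273.Fam_835 Crest.Agent.R272.Quot_783
open Crest.Agent.R273.Map_835
open Crest.Agent.R272.Root_83 Crest.Agent.R272.Gm1_235
open Crest.Agent.R272.Gm3_235 (Rat ArcX)

noncomputable section

variable {n : ℕ} {X : Type} [TopologicalSpace X] {C : Fam n X}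

/-- the quotient `b / a` is holomorphic near `x` and has the value `m` at `x` -/
def RatH (C : Fam n X) (a b : X → ℂ) (x : X) (m : ℂ) : Prop :=
  ∃ u : X → ℂ, HG C x u ∧ u x = m ∧ ∀ᶠ z in 𝓝 x, b z = a z * u z

section ratH

variable {a b : X → ℂ} {x : X} {m m' : ℂ}

theorem RatH.rat (h : RatH C a b x m) : Rat a b x m := by
  obtain ⟨u, h1, h2, h3⟩ := h
  exact ⟨u, h1.continuousAt, h2, h3⟩

theorem RatH.near (h : RatH C a b x m) :
    ∃ u, HG C x u ∧ u x = m ∧ ∀ᶠ z in 𝓝 x, RatH C a b z (u z) := by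
  obtain ⟨u, h1, h2, h3⟩ := h
  refine ⟨u, h1, h2, ?_⟩
  filter_upwards [h1.eventually, eventually_eventually_nhds.2 h3] with z h4 h5
  exact ⟨u, h4, rfl, h5⟩

theorem RatH.unique (ha : ∃ᶠ z in 𝓝 x, a z ≠ 0) (h : RatH C a b x m) (h' : RatH C a b x m') :
    m = m' := by
  obtain ⟨u, h1, rfl, h3⟩ := h
  obtain ⟨v, h1', rfl, h3'⟩ := h'
  have h4 : ContinuousAt (fun z => u z - v z) x := h1.continuousAt.sub h1'.continuousAt
  have h5 : ∃ᶠ z in 𝓝 x, u z - v z = 0 := by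
    refine (ha.and_eventually (h3.and h3')).mono ?_
    rintro z ⟨hz, e1, e2⟩
    exact sub_eq_zero.2 (mul_left_cancel₀ hz (e1.symm.trans e2))
  by_contra h6
  exact h5 (h4.eventually_ne (sub_ne_zero.2 h6))

/-- the value is a continuous function along a curve -/
theorem continuousOn_val {V : Type*} [TopologicalSpace V] {Ω : Set V} (hΩ : IsOpen Ω) {c : V → X}
    (hc : ContinuousOn c Ω) {k : V → ℂ} (hk : ∀ t ∈ Ω, RatH C a b (c t) (k t))
    (ha : ∀ t ∈ Ω, ∃ᶠ z in 𝓝 (c t), a z ≠ 0) : ContinuousOn k Ω := by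
  intro t ht
  apply ContinuousAt.continuousWithinAt
  obtain ⟨u, h1, h2, h3⟩ := (hk t ht).near
  have hct : ContinuousAt c t := hc.continuousAt (hΩ.mem_nhds ht)
  have h4 : ∀ᶠ t' in 𝓝 t, k t' = u (c t') := by
    filter_upwards [hct.eventually h3, hΩ.mem_nhds ht] with t' h5 h6
    exact RatH.unique (ha t' h6) (hk t' h6) h5
  exact (ContinuousAt.comp (g := u) (f := c) h1.continuousAt hct).congr
    (h4.mono fun _ h => h.symm)

/-- transfer by an involution -/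
theorem RatH.tr {τ : X → X} (hτ : HolC C C τ) (h : RatH C a b x m) {y : X} (hy : τ y = x)
    {c : ℂ} (hc : c ^ 2 = 1) (ea : ∀ᶠ z in 𝓝 y, a (τ z) = a z)
    (eb : ∀ᶠ z in 𝓝 y, b (τ z) = c * b z) : RatH C a b y (c * m) := by
  obtain ⟨u, h1, h2, h3⟩ := h
  refine ⟨fun z => c * u (τ z), (HG.const c).mul (HG.comp (p := τ) (hy ▸ h1) hτ), ?_, ?_⟩
  · show c * u (τ y) = c * m
    rw [hy, h2]
  · have h4 : ∀ᶠ z in 𝓝 y, b (τ z) = a (τ z) * u (τ z) :=
      hτ.cont.continuousAt.eventually (by rw [hy]; exact h3)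
    filter_upwards [h4, ea, eb] with z e1 e2 e3
    rw [e2, e3] at e1
    linear_combination c * e1 - b z * hc

end ratH

/-- the local shape at a point of the special fibre -/
structure VP (C : Fam n X) (T S RM RN : X → ℂ) (γ0 : ℂ) (x : X) : Prop where
  hT : HG C x T
  hS : HG C x S
  hM : HG C x RM
  hN : HG C x RN
  T0 : T x = 0
  nT : ∃ᶠ z in 𝓝 x, T z ≠ 0
  nS : ∃ᶠ z in 𝓝 x, S z ≠ 0
  eN : ∃ e, HG C x e ∧ e x = γ0 ^ 2 ∧ ∀ᶠ z in 𝓝 x, RN z ^ 2 = S z ^ 2 - T z ^ 2 * e z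
  eM : ∃ e, HG C x e ∧ ∀ᶠ z in 𝓝 x, RM z ^ 2 = S z ^ 2 - T z ^ 4 * e z

section VPs

variable {T S RM RN : X → ℂ} {γ0 : ℂ} {x : X} {m : ℂ}

theorem VP.k (h : VP C T S RM RN γ0 x) (hm : RatH C T S x m) :
    ∃ k, RatH C T RN x k ∧ k ^ 2 = m ^ 2 - γ0 ^ 2 := by
  obtain ⟨u, h1, h2, h3⟩ := hm
  obtain ⟨e, e1, e2, e3⟩ := h.eN
  obtain ⟨r, hr, hr2, hra⟩ := root_germ (C := C) (y := x) (f := fun z => u z ^ 2 - e z)
    ((h1.pow 2).sub e1) h.hT h.hN (by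
      filter_upwards [h3, e3] with z e4 e5
      rw [e5, e4]; ring) h.nT
  refine ⟨r x, ⟨r, hr, rfl, hra⟩, ?_⟩
  rw [hr2.self_of_nhds, h2, e2]

theorem VP.l (h : VP C T S RM RN γ0 x) (hm : RatH C T S x m) (hm0 : m ≠ 0) :
    ∃ l, RatH C S RM x l ∧ l ^ 2 = 1 := by
  obtain ⟨u, h1, h2, h3⟩ := hm
  have hu : u x ≠ 0 := by rwa [h2]
  obtain ⟨e, e1, e3⟩ := h.eM
  obtain ⟨r, hr, hr2, hra⟩ := root_germ (C := C) (y := x)
    (f := fun z => 1 - T z ^ 2 * (e z * (u z ^ 2)⁻¹))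
    ((HG.const 1).sub ((h.hT.pow 2).mul (e1.mul ((h1.pow 2).inv (pow_ne_zero 2 hu))))) h.hS h.hM (by
      filter_upwards [h3, e3, h1.continuousAt.eventually_ne hu] with z e4 e5 e6
      rw [e5, e4]
      field_simp) h.nS
  refine ⟨r x, ⟨r, hr, rfl, hra⟩, ?_⟩
  rw [hr2.self_of_nhds, h.T0]
  ring

end VPs

/-- a curve along which the slope is `γ0 (1 + z²) / (1 - z²)` -/
structure VC (C : Fam n X) (T S RM RN : X → ℂ) (γ0 : ℂ) (a : ℂ → X) : Prop where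
  cont : Continuous a
  vp : ∀ z, VP C T S RM RN γ0 (a z)
  sl : ∀ z : ℂ, z ^ 2 ≠ 1 → RatH C T S (a z) (γ0 * (1 + z ^ 2) / (1 - z ^ 2))

theorem preconn_compl {F : Set ℂ} (hF : F.Finite) : IsPreconnected Fᶜ := by
  have h : 1 < Module.rank ℝ ℂ := by
    rw [Complex.rank_real_complex]
    exact Nat.one_lt_ofNat
  exact (hF.countable.isConnected_compl_of_one_lt_rank h).isPreconnected

section VCs

variable {T S RM RN : X → ℂ} {γ0 : ℂ} {a : ℂ → X}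

theorem sub_ne {z : ℂ} (h : z ^ 2 ≠ 1) : 1 - z ^ 2 ≠ 0 := fun h0 => h (sub_eq_zero.1 h0).symm

/-- the sign of `RN / T` is constant -/
theorem VC.exists_sigma (h : VC C T S RM RN γ0 a) (hγ : γ0 ≠ 0) : ∃ sg : ℂ, sg ^ 2 = 1 ∧
    ∀ z : ℂ, z ^ 2 ≠ 1 → RatH C T RN (a z) (sg * γ0 * (2 * z) / (1 - z ^ 2)) := by
  have h1 : ∀ z : ℂ, ∃ k, z ^ 2 ≠ 1 → RatH C T RN (a z) k ∧ k ^ 2 = (γ0 * (2 * z) / (1 - z ^ 2)) ^ 2 := by
    intro z
    by_cases hz : z ^ 2 = 1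
    · exact ⟨0, fun h2 => absurd hz h2⟩
    · obtain ⟨k, hk, hk2⟩ := (h.vp z).k (h.sl z hz)
      refine ⟨k, fun _ => ⟨hk, ?_⟩⟩
      have h3 := sub_ne hz
      rw [hk2]
      field_simp
      ring
  choose k hk using h1
  set F : Set ℂ := {0, 1, -1} with hF
  have hFf : F.Finite := by rw [hF]; exact Set.toFinite _
  have hm : ∀ {z : ℂ}, z ∈ Fᶜ → z ≠ 0 ∧ z ^ 2 ≠ 1 := by
    intro z hz
    rw [hF, mem_compl_iff, mem_insert_iff, mem_insert_iff, mem_singleton_iff] at hz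
    push Not at hz
    refine ⟨hz.1, fun h2 => ?_⟩
    rcases sq_eq_sq_iff_eq_or_eq_neg.1 (h2.trans (one_pow 2).symm) with h3 | h3
    · exact hz.2.1 h3
    · exact hz.2.2 h3
  have hc : ContinuousOn k Fᶜ :=
    continuousOn_val (C := C) (a := T) (b := RN) hFf.isClosed.isOpen_compl h.cont.continuousOn
      (fun z hz => (hk z (hm hz).2).1) (fun z _ => (h.vp z).nT)
  have hg : ContinuousOn (fun z : ℂ => γ0 * (2 * z) / (1 - z ^ 2)) Fᶜ := by
    intro z hz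
    have h3 := sub_ne (hm hz).2
    have h4 : ContinuousAt (fun z : ℂ => γ0 * (2 * z)) z := by fun_prop
    have h5 : ContinuousAt (fun z : ℂ => 1 - z ^ 2) z := by fun_prop
    exact (h4.div h5 h3).continuousWithinAt
  have key := (preconn_compl hFf).eq_or_eq_neg_of_sq_eq hc hg (fun z hz => (hk z (hm hz).2).2)
    (fun {z} hz => div_ne_zero (mul_ne_zero hγ (mul_ne_zero two_ne_zero (hm hz).1))
      (sub_ne (hm hz).2))
  have hfin : ∀ sg : ℂ, sg ^ 2 = 1 → (∀ z ∈ Fᶜ, k z = sg * (γ0 * (2 * z) / (1 - z ^ 2))) →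
      ∃ sg : ℂ, sg ^ 2 = 1 ∧
        ∀ z : ℂ, z ^ 2 ≠ 1 → RatH C T RN (a z) (sg * γ0 * (2 * z) / (1 - z ^ 2)) := by
    intro sg hsg he
    refine ⟨sg, hsg, fun z hz => ?_⟩
    have h5 := (hk z hz).1
    have h6 : k z = sg * γ0 * (2 * z) / (1 - z ^ 2) := by
      by_cases hz0 : z = 0
      · subst hz0
        have h7 := (hk 0 hz).2
        have h8 : k 0 = 0 := by
          have h9 : k 0 ^ 2 = 0 := by rw [h7]; simp
          exact pow_eq_zero_iff two_ne_zero |>.1 h9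
        rw [h8]; simp
      · have h7 : z ∈ Fᶜ := by
          rw [hF, mem_compl_iff, mem_insert_iff, mem_insert_iff, mem_singleton_iff]
          rintro (h8 | h8 | h8)
          · exact hz0 h8
          · exact hz (by rw [h8]; norm_num)
          · exact hz (by rw [h8]; norm_num)
        rw [he z h7]
        ring
    rwa [h6] at h5
  rcases key with key | key
  · exact hfin 1 (by norm_num) fun z hz => by rw [key hz, one_mul]
  · exact hfin (-1) (by norm_num) fun z hz => by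
      rw [key hz, Pi.neg_apply]
      ring

/-- the sign of `RM / S` is constant -/
theorem VC.exists_lam (h : VC C T S RM RN γ0 a) (hγ : γ0 ≠ 0) : ∃ l : ℂ, l ^ 2 = 1 ∧
    ∀ z : ℂ, z ^ 2 ≠ 1 → z ^ 2 ≠ -1 → RatH C S RM (a z) l := by
  have h1 : ∀ z : ℂ, ∃ k, z ^ 2 ≠ 1 → z ^ 2 ≠ -1 → RatH C S RM (a z) k ∧ k ^ 2 = 1 := by
    intro z
    by_cases hz : z ^ 2 = 1
    · exact ⟨0, fun h2 => absurd hz h2⟩
    by_cases hz' : z ^ 2 = -1
    · exact ⟨0, fun _ h2 => absurd hz' h2⟩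
    · have h3 : γ0 * (1 + z ^ 2) / (1 - z ^ 2) ≠ 0 := by
        refine div_ne_zero (mul_ne_zero hγ fun h0 => hz' ?_) (sub_ne hz)
        linear_combination h0
      obtain ⟨k, hk, hk2⟩ := (h.vp z).l (h.sl z hz) h3
      exact ⟨k, fun _ _ => ⟨hk, hk2⟩⟩
  choose k hk using h1
  set F : Set ℂ := {1, -1, Complex.I, -Complex.I} with hF
  have hFf : F.Finite := by rw [hF]; exact Set.toFinite _
  have hm : ∀ {z : ℂ}, z ∈ Fᶜ → z ^ 2 ≠ 1 ∧ z ^ 2 ≠ -1 := by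
    intro z hz
    rw [hF, mem_compl_iff, mem_insert_iff, mem_insert_iff, mem_insert_iff, mem_singleton_iff] at hz
    push Not at hz
    refine ⟨fun h2 => ?_, fun h2 => ?_⟩
    · rcases sq_eq_sq_iff_eq_or_eq_neg.1 (h2.trans (one_pow 2).symm) with h3 | h3
      · exact hz.1 h3
      · exact hz.2.1 h3
    · rw [← Complex.I_sq] at h2
      rcases sq_eq_sq_iff_eq_or_eq_neg.1 h2 with h3 | h3
      · exact hz.2.2.1 h3
      · exact hz.2.2.2 h3
  have hc : ContinuousOn k Fᶜ :=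
    continuousOn_val (C := C) (a := S) (b := RM) hFf.isClosed.isOpen_compl h.cont.continuousOn
      (fun z hz => (hk z (hm hz).1 (hm hz).2).1) (fun z _ => (h.vp z).nS)
  have key := (preconn_compl hFf).eq_or_eq_neg_of_sq_eq (g := fun _ => (1 : ℂ)) hc
    continuousOn_const (fun z hz => by
      show k z ^ 2 = 1 ^ 2
      rw [(hk z (hm hz).1 (hm hz).2).2, one_pow])
    (fun {z} _ => one_ne_zero)
  have hfin : ∀ l : ℂ, l ^ 2 = 1 → (∀ z ∈ Fᶜ, k z = l) → ∃ l : ℂ, l ^ 2 = 1 ∧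
      ∀ z : ℂ, z ^ 2 ≠ 1 → z ^ 2 ≠ -1 → RatH C S RM (a z) l := by
    intro l hl he
    refine ⟨l, hl, fun z hz hz' => ?_⟩
    have h5 := (hk z hz hz').1
    have h7 : z ∈ Fᶜ := by
      rw [hF, mem_compl_iff, mem_insert_iff, mem_insert_iff, mem_insert_iff, mem_singleton_iff]
      rintro (h8 | h8 | h8 | h8)
      · exact hz (by rw [h8]; norm_num)
      · exact hz (by rw [h8]; norm_num)
      · exact hz' (by rw [h8, Complex.I_sq])
      · exact hz' (by rw [h8, neg_sq, Complex.I_sq])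
    rwa [he z h7] at h5
  rcases key with key | key
  · exact hfin 1 (by norm_num) fun z hz => key hz
  · exact hfin (-1) (by norm_num) fun z hz => key hz

end VCs

/-! ### the arcs -/

section arcs

variable {T S RM RN : X → ℂ} {γ0 sg l : ℂ} {a : ℂ → X} {Z : Set X}

/-- the parameter of the arc -/
def zp (e : ℂ) (t : I) : ℂ := e * Complex.I * ((1 - 2 * (t : ℝ) : ℝ) : ℂ)

theorem continuous_zp (e : ℂ) : Continuous (zp e) := by
  unfold zp
  fun_prop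

theorem zp_zero (e : ℂ) : zp e 0 = e * Complex.I := by simp [zp]

theorem zp_one (e : ℂ) : zp e 1 = -(e * Complex.I) := by
  simp only [zp, Set.Icc.coe_one]
  push_cast
  ring

theorem zp_sq {e : ℂ} (he : e ^ 2 = 1) (t : I) :
    zp e t ^ 2 = -(((1 - 2 * (t : ℝ)) ^ 2 : ℝ) : ℂ) := by
  rw [zp, mul_pow, mul_pow, he, Complex.I_sq]
  push_cast
  ring

/-- the arc -/
def pth (ha : Continuous a) (hZ : ∀ z, a z ∈ Z) (e : ℂ) :
    Path (⟨a (e * Complex.I), hZ _⟩ : Z) ⟨a (-(e * Complex.I)), hZ _⟩ where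
  toFun t := ⟨a (zp e t), hZ _⟩
  continuous_toFun := Continuous.subtype_mk (ha.comp (continuous_zp e)) _
  source' := by
    apply Subtype.ext
    show a (zp e 0) = a (e * Complex.I)
    rw [zp_zero]
  target' := by
    apply Subtype.ext
    show a (zp e 1) = a (-(e * Complex.I))
    rw [zp_one]

theorem pth_apply (ha : Continuous a) (hZ : ∀ z, a z ∈ Z) (e : ℂ) (t : I) :
    (pth ha hZ e t : X) = a (zp e t) := rfl

theorem arcX_pth (ha : Continuous a) (hZ : ∀ z, a z ∈ Z)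
    (hm : ∀ z : ℂ, z ^ 2 ≠ 1 → RatH C T S (a z) (γ0 * (1 + z ^ 2) / (1 - z ^ 2)))
    (hk : ∀ z : ℂ, z ^ 2 ≠ 1 → RatH C T RN (a z) (sg * γ0 * (2 * z) / (1 - z ^ 2)))
    (hl : ∀ z : ℂ, z ^ 2 ≠ 1 → z ^ 2 ≠ -1 → RatH C S RM (a z) l)
    {e : ℂ} (he : e ^ 2 = 1) (hel : l * sg = e) : ArcX γ0 S T RM RN (pth ha hZ e) := by
  have hden : ∀ x : ℝ, (0 : ℝ) < 1 + x ^ 2 := fun x => by positivity
  have hz1 : ∀ t : I, zp e t ^ 2 ≠ 1 := by
    intro t h
    rw [zp_sq he] at h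
    have h1 : -((1 - 2 * (t : ℝ)) ^ 2) = 1 := by exact_mod_cast h
    nlinarith [sq_nonneg (1 - 2 * (t : ℝ))]
  have key : ∀ t : I, (1 : ℂ) - zp e t ^ 2 = ((1 + (1 - 2 * (t : ℝ)) ^ 2 : ℝ) : ℂ) := by
    intro t
    rw [zp_sq he]
    push_cast
    ring
  have key2 : ∀ t : I, (1 : ℂ) + zp e t ^ 2 = ((1 - (1 - 2 * (t : ℝ)) ^ 2 : ℝ) : ℂ) := by
    intro t
    rw [zp_sq he]
    push_cast
    ring
  have hne : ∀ t : I, ((1 + (1 - 2 * (t : ℝ)) ^ 2 : ℝ) : ℂ) ≠ 0 := fun t =>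
    Complex.ofReal_ne_zero.2 (hden _).ne'
  refine ⟨fun t => 2 * (1 - 2 * (t : ℝ)) / (1 + (1 - 2 * (t : ℝ)) ^ 2),
    ⟨1 / 2, by norm_num, by norm_num⟩, ?_, ?_, ?_, ?_, ?_, ?_, ?_, ?_⟩
  · simp only [Set.Icc.coe_zero]; norm_num
  · simp only [Set.Icc.coe_one]; norm_num
  · show 2 * (1 - 2 * (1 / 2 : ℝ)) / (1 + (1 - 2 * (1 / 2 : ℝ)) ^ 2) = 0
    norm_num
  · intro t
    rw [abs_le, le_div_iff₀ (hden _), div_le_iff₀ (hden _)]
    constructor
    · nlinarith [sq_nonneg (1 + (1 - 2 * (t : ℝ)))]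
    · nlinarith [sq_nonneg (1 - (1 - 2 * (t : ℝ)))]
  · intro t ht
    have h1 : (t : ℝ) ≤ 1 / 2 := ht
    exact div_nonneg (by linarith) (hden _).le
  · intro t ht
    have h1 : 1 / 2 ≤ (t : ℝ) := ht
    exact div_nonpos_of_nonpos_of_nonneg (by linarith) (hden _).le
  · intro t
    refine ⟨_, (hm _ (hz1 t)).rat, ?_⟩
    rw [key, key2]
    have h1 := hne t
    push_cast at h1 ⊢
    field_simp
    ring
  · intro t hs0 hs1
    have hz2 : zp e t ^ 2 ≠ -1 := by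
      intro h
      rw [zp_sq he] at h
      have h1 : (1 - 2 * (t : ℝ)) ^ 2 = 1 := by
        have h2 : -((1 - 2 * (t : ℝ)) ^ 2) = -1 := by exact_mod_cast h
        linarith
      have h3 : |2 * (1 - 2 * (t : ℝ)) / (1 + (1 - 2 * (t : ℝ)) ^ 2)| = 1 := by
        rw [h1]
        have h4 : |1 - 2 * (t : ℝ)| = 1 := by
          rw [← sq_eq_sq₀ (abs_nonneg _) zero_le_one, sq_abs, h1, one_pow]
        rw [show 2 * (1 - 2 * (t : ℝ)) / (1 + 1) = 1 - 2 * (t : ℝ) by ring, h4]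
      exact absurd h3 hs1.ne
    refine ⟨_, _, (hk _ (hz1 t)).rat, (hl _ (hz1 t) hz2).rat, ?_⟩
    rw [key, zp]
    have h1 := hne t
    push_cast at h1 ⊢
    field_simp
    linear_combination ((1 - 2 * (t : ℂ)) * γ0 * e) * hel + ((1 - 2 * (t : ℂ)) * γ0) * he

theorem exists_path {P : X → Prop} {x y : X} (hx : x ∈ Z) (hy : y ∈ Z)
    (h : JoinedIn {x | x ∈ Z ∧ P x} x y) :
    ∃ r : Path (⟨x, hx⟩ : Z) ⟨y, hy⟩, ∀ t, P (r t : X) := by
  obtain ⟨γ, hγ⟩ := h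
  refine ⟨{ toFun := fun t => ⟨γ t, (hγ t).1⟩
            continuous_toFun := Continuous.subtype_mk γ.continuous _
            source' := Subtype.ext γ.source
            target' := Subtype.ext γ.target }, fun t => (hγ t).2⟩

/-- **the closed 4-gon**: `a` and `τ ∘ a` are the two sheets of the curve, joined at `± I` by curves of slope `0` -/
theorem exists_cycle {τ : X → X} (h : VC C T S RM RN γ0 a) (hγ : γ0 ≠ 0) (hτ : HolC C C τ)
    (hττ : ∀ x, τ (τ x) = x) (hZ : ∀ z, a z ∈ Z) (hZ' : ∀ z, τ (a z) ∈ Z)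
    (eT : ∀ x ∈ Z, ∀ᶠ z in 𝓝 x, T (τ z) = T z) (eS : ∀ x ∈ Z, ∀ᶠ z in 𝓝 x, S (τ z) = S z)
    (eN : ∀ x ∈ Z, ∀ᶠ z in 𝓝 x, RN (τ z) = RN z) (eM : ∀ x ∈ Z, ∀ᶠ z in 𝓝 x, RM (τ z) = -RM z)
    (hB : ∀ e : ℂ, e ^ 2 = -1 → JoinedIn {x | x ∈ Z ∧ Rat T S x 0} (a e) (τ (a e))) :
    ∃ (z₀ z₁ z₂ z₃ : Z) (k₁ : Path z₀ z₁) (r₁ : Path z₁ z₂) (k₂ : Path z₂ z₃) (r₂ : Path z₃ z₀),
      ArcX γ0 S T RM RN k₁ ∧ ArcX γ0 S T RM RN k₂ ∧ (∀ t, Rat T S (r₁ t : X) 0) ∧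
        ∀ t, Rat T S (r₂ t : X) 0 := by
  obtain ⟨sg, hsg, hk⟩ := h.exists_sigma hγ
  obtain ⟨l, hl1, hl⟩ := h.exists_lam hγ
  set e := l * sg with he
  have he2 : e ^ 2 = 1 := by rw [he, mul_pow, hl1, hsg, one_mul]
  have hm' : ∀ z : ℂ, z ^ 2 ≠ 1 →
      RatH C T S (τ (a z)) (γ0 * (1 + z ^ 2) / (1 - z ^ 2)) := by
    intro z hz
    have h1 := (h.sl z hz).tr hτ (hττ (a z)) (one_pow 2) (eT _ (hZ' z)) (by
      filter_upwards [eS _ (hZ' z)] with x hx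
      rw [hx, one_mul])
    rwa [one_mul] at h1
  have hk' : ∀ z : ℂ, z ^ 2 ≠ 1 →
      RatH C T RN (τ (a z)) (sg * γ0 * (2 * z) / (1 - z ^ 2)) := by
    intro z hz
    have h1 := (hk z hz).tr hτ (hττ (a z)) (one_pow 2) (eT _ (hZ' z)) (by
      filter_upwards [eN _ (hZ' z)] with x hx
      rw [hx, one_mul])
    rwa [one_mul] at h1
  have hl' : ∀ z : ℂ, z ^ 2 ≠ 1 → z ^ 2 ≠ -1 → RatH C S RM (τ (a z)) (-l) := by
    intro z hz hz'
    have h1 := (hl z hz hz').tr hτ (hττ (a z)) (c := -1) (by norm_num) (eS _ (hZ' z)) (by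
      filter_upwards [eM _ (hZ' z)] with x hx
      rw [hx, neg_one_mul])
    rwa [neg_one_mul] at h1
  have hk₁ := arcX_pth (C := C) h.cont hZ h.sl hk hl he2 he.symm
  have hk₂ := arcX_pth (C := C) (a := fun z => τ (a z)) (hτ.cont.comp h.cont) hZ' hm' hk' hl'
    (e := -e) (by rw [neg_sq, he2]) (by rw [neg_mul, he])
  have hI : ∀ c : ℂ, c ^ 2 = 1 → (c * Complex.I) ^ 2 = -1 := fun c hc => by
    rw [mul_pow, hc, Complex.I_sq, one_mul]
  have e1 : -(e * Complex.I) = -e * Complex.I := by ring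
  have e3 : -(-e * Complex.I) = e * Complex.I := by ring
  have j₁ : JoinedIn {x | x ∈ Z ∧ Rat T S x 0} (a (-(e * Complex.I)))
      (τ (a (-e * Complex.I))) := by
    rw [e1]
    exact hB _ (hI _ (by rw [neg_sq, he2]))
  have j₂ : JoinedIn {x | x ∈ Z ∧ Rat T S x 0} (τ (a (-(-e * Complex.I))))
      (a (e * Complex.I)) := by
    rw [e3]
    exact (hB _ (hI _ he2)).symm
  obtain ⟨r₁, hr₁⟩ := exists_path (hZ _) (hZ' _) j₁
  obtain ⟨r₂, hr₂⟩ := exists_path (hZ' _) (hZ _) j₂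
  exact ⟨_, _, _, _, pth h.cont hZ e, r₁, pth (a := fun z => τ (a z)) (hτ.cont.comp h.cont) hZ' (-e),
    r₂, hk₁, hk₂, hr₁, hr₂⟩

end arcs

end

end Crest.Agent.R272.Val_83
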