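import Crest.Agent.R272.Val1_83
import Crest.Agent.R272.As1_235
import Crest.Agent.R272.Cyc5_760

/-!
# R272, leaf S14-CYC-VAL (helper83), part 2: 235's `ArcsX` from 760's `CycD`

`CycD.fl`: the deck transformation `y_0 ↦ - y_0`; `Sheet.exists_pt`: every point over `Γ` is on a sheet;
`vp_of_near`: 235's `NearX` gives the local shapes `VP`; `ratH_of`: a quotient with a value is holomorphic;
`arcsX`: **the four paths**.
-/

set_option autoImplicit false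
set_option linter.unusedSectionVars false

open Set Topology Filter
open scoped unitInterval

namespace Crest.Agent.R272.Val_83

open Crest.Agent.R275.Geo Crest.Agent.R275.Core144 Crest.Agent.R273.Fam_835
open Crest.Agent.R272.Quot_783 Crest.Agent.R273.Map_835
open Crest.Agent.R272.Root_83 Crest.Agent.R272.Gm1_235 Crest.Agent.R272.Gm2_235
open Crest.Agent.R272.Gm3_235 (Rat ArcX)
open Crest.Agent.R272.As1_235
open Crest.Agent.R272.DCov_426 Crest.Agent.R272.Cyc_760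

noncomputable section

/-! ### holomorphy of quotients -/

section quot

variable {n : ℕ} {X B C : Type} [TopologicalSpace X] [TopologicalSpace B] [TopologicalSpace C]
  {CX : Fam n X} {AB : Atl 1 B} {AC : Atl 1 C} {h g : B → C} {z0 : B} {w0 : C}
  {π1 : X → B} {π2 : X → C} {f1 : B → ℂ} {f2 : C → ℂ} {γ0 : ℂ} {Z : Set X} {S T0 RM RN : X → ℂ}
  {x : X} {m : ℂ}

theorem freq_lc {K : Type} [TopologicalSpace K] {AK : Atl 1 K} {P : X → K} {c : K} {f : K → ℂ}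
    {F : X → ℂ} (hP : ContinuousAt P x) (hx : P x = c) (hf : UnB_894.LC AK c f) (hc : f c = 0)
    (hne : ∃ᶠ z in 𝓝 x, P z ≠ c) (hF : ∀ᶠ z in 𝓝 x, F z ^ 2 = f (P z)) :
    ∃ᶠ z in 𝓝 x, F z ≠ 0 := by
  obtain ⟨-, N, hN, hinj⟩ := hf
  have h1 : ∀ᶠ z in 𝓝 x, P z ∈ N := hP.eventually (by rw [hx]; exact hN)
  refine (hne.and_eventually (h1.and hF)).mono ?_
  rintro z ⟨hz, hzN, hz2⟩ h0
  apply hz
  apply hinj hzN (mem_of_mem_nhds hN)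
  rw [← hz2, h0, hc]
  simp

/-- the local shapes from 235's `NearX` -/
theorem vp_of_near (N : NearX CX AB AC h g z0 w0 π1 π2 f1 f2 γ0 Z S T0 RM RN)
    (he2 : ∃ e : B → ℂ, HG (fam AB) z0 e ∧ ∀ᶠ z in 𝓝 z0, f2 (h z) = f1 z ^ 2 * e z)
    (h1 : HolC CX (fam AB) π1) (h2 : HolC CX (fam AC) π2)
    (ne1 : ∀ x, ∃ᶠ z in 𝓝 x, π2 z ≠ w0) (ne3 : ∀ x, ∃ᶠ z in 𝓝 x, π1 z ≠ z0) (hx : x ∈ Z) :
    VP CX T0 S RM RN γ0 x := by
  have hp1 := N.hZ1 x hx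
  have hp2 := N.hZ2 x hx
  have c1 : ContinuousAt π1 x := h1.cont.continuousAt
  refine ⟨N.hT x hx, N.hS x hx, N.hM x hx, N.hN x hx, ?_, ?_, ?_, ?_, ?_⟩
  · have h3 := (N.sT x hx).self_of_nhds
    rw [hp1, N.f1z] at h3
    exact pow_eq_zero_iff two_ne_zero |>.1 h3
  · exact freq_lc c1 hp1 N.lc1 N.f1z (ne3 x) (N.sT x hx)
  · exact freq_lc h2.cont.continuousAt hp2 N.lc2 N.f2w (ne1 x) (N.sS x hx)
  · obtain ⟨e, he, he0, hee⟩ := N.he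
    refine ⟨fun z => e (π1 z), HG.comp (p := π1) (hp1 ▸ he) h1, by
      show e (π1 x) = _
      rw [hp1, he0], ?_⟩
    filter_upwards [N.sN x hx, N.sS x hx, N.sT x hx, c1.eventually (by rw [hp1]; exact hee)]
      with z e1 e2 e3 e4
    rw [e1, e2, e3, e4]
  · obtain ⟨e, he, hee⟩ := he2
    refine ⟨fun z => e (π1 z), HG.comp (p := π1) (hp1 ▸ he) h1, ?_⟩
    filter_upwards [N.sM x hx, N.sS x hx, N.sT x hx, c1.eventually (by rw [hp1]; exact hee)]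
      with z e1 e2 e3 e4
    rw [e1, e2, e4, ← e3]
    ring

theorem rat_unique {a b : X → ℂ} {m' : ℂ} (ha : ∃ᶠ z in 𝓝 x, a z ≠ 0) (h : Rat a b x m)
    (h' : Rat a b x m') : m = m' := by
  obtain ⟨u, h1, rfl, h3⟩ := h
  obtain ⟨v, h1', rfl, h3'⟩ := h'
  have h4 : ContinuousAt (fun z => u z - v z) x := h1.sub h1'
  have h5 : ∃ᶠ z in 𝓝 x, u z - v z = 0 := by
    refine (ha.and_eventually (h3.and h3')).mono ?_
    rintro z ⟨hz, e1, e2⟩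
    exact sub_eq_zero.2 (mul_left_cancel₀ hz (e1.symm.trans e2))
  by_contra h6
  exact h5 (h4.eventually_ne (sub_ne_zero.2 h6))

/-- a quotient with a value is holomorphic -/
theorem ratH_of (L : SlD CX AB AC (fun x => (π1 x, π2 x)) z0 w0 f1 f2)
    (N : NearX CX AB AC h g z0 w0 π1 π2 f1 f2 γ0 Z S T0 RM RN) (hx : x ∈ Z)
    (hV : VP CX T0 S RM RN γ0 x) (hr : Rat T0 S x m) : RatH CX T0 S x m := by
  have hp1 := N.hZ1 x hx
  have hp2 := N.hZ2 x hx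
  rcases L.dich x (by rw [hp1, hp2]) with ⟨q, hq, hqe⟩ | ⟨q, hq, hq0, hqe⟩
  · obtain ⟨r, hr1, -, hr3⟩ := root_germ (C := CX) (y := x) hq hV.hT hV.hS (by
      filter_upwards [hqe, N.sS x hx, N.sT x hx] with z e1 e2 e3
      rw [e2, e3, e1]; ring) hV.nT
    have h1 : RatH CX T0 S x (r x) := ⟨r, hr1, rfl, hr3⟩
    rwa [rat_unique hV.nT h1.rat hr] at h1
  · exfalso
    obtain ⟨r, hr1, hr2, hr3⟩ := root_germ (C := CX) (y := x) hq hV.hS hV.hT (by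
      filter_upwards [hqe, N.sS x hx, N.sT x hx] with z e1 e2 e3
      rw [e2, e3, e1]; ring) hV.nS
    have hr0 : r x = 0 := by
      have h2 := hr2.self_of_nhds
      rw [hq0] at h2
      exact pow_eq_zero_iff two_ne_zero |>.1 h2
    obtain ⟨u, hu, -, hue⟩ := hr
    have h3 : ContinuousAt (fun z => u z * r z) x := hu.mul hr1.continuousAt
    have h4 : ∀ᶠ z in 𝓝 x, u z * r z ≠ 1 := by
      refine h3.eventually_ne ?_
      rw [hr0, mul_zero]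
      exact zero_ne_one
    refine hV.nT ?_
    filter_upwards [h4, hue, hr3] with z e1 e2 e3 h0
    apply e1
    have h5 : T0 z * (u z * r z) = T0 z * 1 := by
      rw [mul_one, ← mul_assoc, ← e2, ← e3]
    exact mul_left_cancel₀ h0 h5

end quot

/-! ### sheets -/

section sheets

variable {n : ℕ} {M : Type} [TopologicalSpace M] {A : Atl n M} {D : Data A (Fin 2)}

/-- every point over `Γ` is on a sheet -/
theorem exists_pt {a b : Fin 2} {Γ : HCur (fam A)} (S : Sheet D a b Γ) {x : D.X} {w : V2}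
    (hw : w ≠ 0) (hx : D.p x = Γ.G w) :
    ∃ (ε : ℂ) (hε : ε ^ 2 = 1) (ζ : V2), ζ ≠ 0 ∧ S.F hε ζ = x := by
  obtain ⟨i, hi⟩ := A.cover (Γ.G w)
  have hi' : D.p x ∈ (A.e i).source := hx ▸ hi
  have ha := D.y_pow a hi'
  have hb := D.y_pow b hi'
  rw [S.ka, hx, S.sa w hw i hi] at ha
  rw [S.kb, hx, S.sb w hw i hi] at hb
  obtain ⟨ζ, hζ, e1⟩ := exists_sqv hw
  have hfa := S.fa.ne w hw i hi
  obtain ⟨η, hη, k1, k2⟩ := Sheet.flip hζ (r := S.fb.r i w) (x := D.y b i x) (by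
    rw [hb, mul_pow, ← e1]
    simp only [sqv_zero, sqv_one]
    ring)
  have f1 : sqv η = w := k1.trans e1
  refine ⟨D.y a i x / S.fa.r i w, by rw [div_pow, ha, div_self (pow_ne_zero 2 hfa)], η, hη, ?_⟩
  have hi1 : Γ.G (sqv η) ∈ (A.e i).source := by rw [f1]; exact hi
  refine D.ext_X (i := i) (by rw [S.p_F _ hη, f1, hx]) (by rw [S.p_F _ hη]; exact hi1) fun c => ?_
  rw [S.y_F _ hη hi1]
  rcases S.eq_ab c with rfl | rfl
  · rw [S.t_a, f1, div_mul_cancel₀ _ hfa]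
  · rw [S.t_b, f1, k2]

theorem isPathConnected_sheet {a b : Fin 2} {Γ : HCur (fam A)} (S : Sheet D a b Γ) {ε : ℂ}
    (hε : ε ^ 2 = 1) : IsPathConnected (S.F hε '' {ζ : V2 | ζ ≠ 0}) := by
  have h1 : 1 < Module.rank ℝ V2 := by
    have h2 : Module.rank ℝ V2 = Module.finrank ℝ V2 := (Module.finrank_eq_rank ℝ V2).symm
    have h3 : Module.finrank ℝ V2 = 4 := by
      have := Module.finrank_mul_finrank ℝ ℂ V2
      rw [Complex.finrank_real_complex] at this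
      have h4 : Module.finrank ℂ V2 = 2 := by simp
      omega
    rw [h2, h3]
    exact Nat.one_lt_ofNat
  have h2 := isPathConnected_compl_singleton_of_one_lt_rank h1 (0 : V2)
  exact h2.image' fun ζ hζ => (S.continuousAt_F hε hζ).continuousWithinAt

end sheets

/-! ### the deck transformation and the cycle -/

section cyc

variable {n : ℕ} {M : Type} [TopologicalSpace M] {A : Atl n M} {D : Data A (Fin 2)} (K : CycD D)

/-- the signs `(-1, 1)` -/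
def sgn (a : Fin 2) : ℂ := if a = 0 then -1 else 1

@[simp] theorem sgn_zero : sgn 0 = -1 := rfl
@[simp] theorem sgn_one : sgn 1 = 1 := rfl

include K in
theorem sgn_pow (a : Fin 2) : sgn a ^ D.k a = 1 := by
  fin_cases a
  · show sgn 0 ^ D.k 0 = 1
    rw [K.Sα.ka, sgn_zero]
    norm_num
  · show sgn 1 ^ D.k 1 = 1
    rw [sgn_one, one_pow]

/-- the deck transformation `y_0 ↦ - y_0` -/
def fl (x : D.X) : D.X := D.deck sgn (sgn_pow K) x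

theorem p_fl (x : D.X) : D.p (fl K x) = D.p x := rfl

theorem holC_fl : HolC D.famX D.famX (fl K) := D.holC_deck sgn (sgn_pow K)

theorem y_fl {x : D.X} {i : A.ι} (hi : D.p x ∈ (A.e i).source) (a : Fin 2) :
    D.y a i (fl K x) = sgn a * D.y a i x := D.y_deck _ _ hi a

theorem fl_fl (x : D.X) : fl K (fl K x) = x := by
  obtain ⟨i, hi⟩ := A.cover (D.p x)
  refine D.ext_X (i := i) rfl hi fun a => ?_
  rw [y_fl K (x := fl K x) hi, y_fl K hi, ← mul_assoc]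
  have h : sgn a * sgn a = 1 := by
    fin_cases a
    · show sgn 0 * sgn 0 = 1
      simp
    · show sgn 1 * sgn 1 = 1
      simp
  rw [h, one_mul]

theorem fl_α {ζ : V2} (hζ : ζ ≠ 0) : fl K (K.Sα.F CycD.one_sq ζ) = K.Sα.F CycD.neg_sq' ζ := by
  obtain ⟨i, hi⟩ := A.cover (K.α.G (sqv ζ))
  have e1 : D.p (K.Sα.F CycD.one_sq ζ) = K.α.G (sqv ζ) := K.Sα.p_F _ hζ
  refine D.ext_X (i := i) (by rw [p_fl, e1, K.Sα.p_F _ hζ]) (by rw [p_fl, e1]; exact hi)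
    fun a => ?_
  rw [y_fl K (by rw [e1]; exact hi), K.Sα.y_F _ hζ hi, K.Sα.y_F _ hζ hi]
  rcases K.Sα.eq_ab a with rfl | rfl
  · rw [K.Sα.t_a, K.Sα.t_a, sgn_zero]; ring
  · rw [K.Sα.t_b, K.Sα.t_b, sgn_one]; ring

theorem fl_β {δ : ℂ} (hδ : δ ^ 2 = 1) {ζ : V2} (hζ : ζ ≠ 0) :
    fl K (K.Sβ.F hδ ζ) = K.Sβ.F hδ ![-ζ 0, ζ 1] := by
  obtain ⟨i, hi⟩ := A.cover (K.β.G (sqv ζ))
  have e1 : D.p (K.Sβ.F hδ ζ) = K.β.G (sqv ζ) := K.Sβ.p_F _ hζ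
  have e2 : sqv ![-ζ 0, ζ 1] = sqv ζ := v2_ext (by simp) (by simp)
  have hζ' : (![-ζ 0, ζ 1] : V2) ≠ 0 := by
    intro h0
    apply sqv_ne hζ
    rw [← e2, h0]
    exact v2_ext (by simp) (by simp)
  have e3 : D.p (K.Sβ.F hδ ![-ζ 0, ζ 1]) = K.β.G (sqv ζ) := by rw [K.Sβ.p_F _ hζ', e2]
  have hi' : K.β.G (sqv ![-ζ 0, ζ 1]) ∈ (A.e i).source := by rw [e2]; exact hi
  refine D.ext_X (i := i) (by rw [p_fl, e1, e3]) (by rw [p_fl, e1]; exact hi) fun a => ?_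
  rw [y_fl K (by rw [e1]; exact hi), K.Sβ.y_F _ hζ hi, K.Sβ.y_F _ hζ' hi']
  rcases K.Sβ.eq_ab a with rfl | rfl
  · rw [K.Sβ.t_a, K.Sβ.t_a, e2, sgn_one]; ring
  · rw [K.Sβ.t_b, K.Sβ.t_b, e2, sgn_zero]
    simp only [Matrix.cons_val_zero, Matrix.cons_val_one]
    ring

theorem mem_Zα {ε : ℂ} (hε : ε ^ 2 = 1) {ζ : V2} (hζ : ζ ≠ 0) :
    K.Sα.F hε ζ ∈ ⋃ i, (K.γ i).img := by
  have h : ε = 1 ∨ ε = -1 := by
    have h1 := hε.trans (one_pow 2).symm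
    exact sq_eq_sq_iff_eq_or_eq_neg.1 h1
  rcases h with rfl | rfl
  · exact mem_iUnion.2 ⟨0, ζ, hζ, rfl⟩
  · exact mem_iUnion.2 ⟨2, ζ, hζ, rfl⟩

theorem mem_Zβ {ε : ℂ} (hε : ε ^ 2 = 1) {ζ : V2} (hζ : ζ ≠ 0) :
    K.Sβ.F hε ζ ∈ ⋃ i, (K.γ i).img := by
  have h : ε = 1 ∨ ε = -1 := by
    have h1 := hε.trans (one_pow 2).symm
    exact sq_eq_sq_iff_eq_or_eq_neg.1 h1
  rcases h with rfl | rfl
  · exact mem_iUnion.2 ⟨1, ζ, hζ, rfl⟩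
  · exact mem_iUnion.2 ⟨3, ζ, hζ, rfl⟩

/-- the affine parameter -/
def v1 (z : ℂ) : V2 := ![1, z]

theorem v1_ne (z : ℂ) : v1 z ≠ 0 := fun h => one_ne_zero (congrFun h 0)

theorem continuous_v1 : Continuous v1 := by
  refine continuous_pi fun i => ?_
  fin_cases i
  · exact continuous_const
  · exact continuous_id

/-- the first sheet over `α` -/
def aα (z : ℂ) : D.X := K.Sα.F CycD.one_sq (v1 z)

theorem continuous_aα : Continuous (aα K) := by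
  rw [continuous_iff_continuousAt]
  intro z
  exact ContinuousAt.comp (g := K.Sα.F CycD.one_sq) (f := v1)
    (K.Sα.continuousAt_F _ (v1_ne z)) continuous_v1.continuousAt

/-- at `z² = -1` the two sheets over `α` are joined in a sheet over `β` -/
theorem joined {P : D.X → Prop} (hw : K.w₁ 0 + K.w₁ 1 = 0)
    (hP : ∀ (δ : ℂ) (hδ : δ ^ 2 = 1) (ζ : V2), ζ ≠ 0 → P (K.Sβ.F hδ ζ)) {e : ℂ} (he : e ^ 2 = -1) :
    JoinedIn {x | x ∈ (⋃ i, (K.γ i).img) ∧ P x} (aα K e) (fl K (aα K e)) := by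
  have h0 : K.w₁ 0 ≠ 0 := by
    intro h0
    apply K.hw₁
    refine v2_ext h0 ?_
    rw [h0, zero_add] at hw
    exact hw
  have e1 : sqv (v1 e) = (K.w₁ 0)⁻¹ • K.w₁ := by
    refine v2_ext ?_ ?_
    · simp [v1, h0]
    · have : K.w₁ 1 = -K.w₁ 0 := by linear_combination hw
      simp [v1, this, he, h0]
  have e2 : D.p (aα K e) = K.β.G K.w₂ := by
    rw [aα, K.Sα.p_F _ (v1_ne e), e1, K.α.smul _ (inv_ne_zero h0) _ K.hw₁, K.meet]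
  obtain ⟨δ, hδ, ζ, hζ, hx⟩ := exists_pt K.Sβ K.hw₂ e2
  have hζ' : (![-ζ 0, ζ 1] : V2) ≠ 0 := by
    intro h1
    apply hζ
    have h2 := congrFun h1 0
    have h3 := congrFun h1 1
    simp at h2 h3
    exact v2_ext h2 h3
  have h1 := (isPathConnected_sheet K.Sβ hδ).joinedIn _ ⟨ζ, hζ, rfl⟩ _ ⟨_, hζ', rfl⟩
  rw [← fl_β K hδ hζ, hx] at h1
  refine h1.mono ?_
  rintro x ⟨ζ, hζ, rfl⟩
  exact ⟨mem_Zβ K hδ hζ, hP δ hδ ζ hζ⟩

theorem fl_mem {x : D.X} (hx : x ∈ ⋃ i, (K.γ i).img) : fl K x ∈ ⋃ i, (K.γ i).img := by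
  obtain ⟨i, hi⟩ := mem_iUnion.1 hx
  have hn : ∀ ζ : V2, ζ ≠ 0 → (![-ζ 0, ζ 1] : V2) ≠ 0 := by
    intro ζ hζ h1
    apply hζ
    have h2 := congrFun h1 0
    have h3 := congrFun h1 1
    simp at h2 h3
    exact v2_ext h2 h3
  fin_cases i
  · obtain ⟨ζ, hζ, rfl⟩ := hi
    show fl K (K.Sα.F CycD.one_sq ζ) ∈ _
    rw [fl_α K hζ]
    exact mem_Zα K _ hζ
  · obtain ⟨ζ, hζ, rfl⟩ := hi
    show fl K (K.Sβ.F CycD.one_sq ζ) ∈ _
    rw [fl_β K _ hζ]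
    exact mem_Zβ K _ (hn ζ hζ)
  · obtain ⟨ζ, hζ, rfl⟩ := hi
    show fl K (K.Sα.F CycD.neg_sq' ζ) ∈ _
    rw [← fl_α K hζ, fl_fl]
    exact mem_Zα K _ hζ
  · obtain ⟨ζ, hζ, rfl⟩ := hi
    show fl K (K.Sβ.F CycD.neg_sq' ζ) ∈ _
    rw [fl_β K _ hζ]
    exact mem_Zβ K _ (hn ζ hζ)

end cyc

/-! ### the four paths -/

section main

variable {M B C : Type} [TopologicalSpace M] [TopologicalSpace B] [TopologicalSpace C]
  {A : Atl 2 M} {D : Data A (Fin 2)} (K : CycD D)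
  {AB : Atl 1 B} {AC : Atl 1 C} {h g : B → C} {z0 : B} {w0 : C}
  {π1 : D.X → B} {π2 : D.X → C} {f1 : B → ℂ} {f2 : C → ℂ} {γ0 : ℂ} {S T0 RM RN : D.X → ℂ}

/-- **235's `ArcsX`**; V1, V2 on the curve `D.X` -/
theorem arcsX (N : NearX D.famX AB AC h g z0 w0 π1 π2 f1 f2 γ0 K.Z S T0 RM RN)
    (L : SlD D.famX AB AC (fun x => (π1 x, π2 x)) z0 w0 f1 f2)
    (he2 : ∃ e : B → ℂ, HG (fam AB) z0 e ∧ ∀ᶠ z in 𝓝 z0, f2 (h z) = f1 z ^ 2 * e z)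
    (h1 : HolC D.famX (fam AB) π1) (h2 : HolC D.famX (fam AC) π2)
    (ne1 : ∀ x, ∃ᶠ z in 𝓝 x, π2 z ≠ w0) (ne3 : ∀ x, ∃ᶠ z in 𝓝 x, π1 z ≠ z0)
    (hw : K.w₁ 0 + K.w₁ 1 = 0)
    (V1 : ∀ z : ℂ, z ^ 2 ≠ 1 → Rat T0 S (aα K z) (γ0 * (1 + z ^ 2) / (1 - z ^ 2)))
    (V2 : ∀ (δ : ℂ) (hδ : δ ^ 2 = 1) (ζ : V2), ζ ≠ 0 → Rat T0 S (K.Sβ.F hδ ζ) 0)
    (eT : ∀ x ∈ K.Z, ∀ᶠ z in 𝓝 x, T0 (fl K z) = T0 z)
    (eS : ∀ x ∈ K.Z, ∀ᶠ z in 𝓝 x, S (fl K z) = S z)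
    (eN : ∀ x ∈ K.Z, ∀ᶠ z in 𝓝 x, RN (fl K z) = RN z)
    (eM : ∀ x ∈ K.Z, ∀ᶠ z in 𝓝 x, RM (fl K z) = -RM z) : ArcsX γ0 S T0 RM RN K.Z := by
  have hVP : ∀ x ∈ K.Z, VP D.famX T0 S RM RN γ0 x := fun x hx =>
    vp_of_near N he2 h1 h2 ne1 ne3 hx
  have hZ : ∀ z, aα K z ∈ K.Z := fun z => mem_Zα K _ (v1_ne z)
  have hVC : VC D.famX T0 S RM RN γ0 (aα K) :=
    ⟨continuous_aα K, fun z => hVP _ (hZ z), fun z hz =>
      ratH_of L N (hZ z) (hVP _ (hZ z)) (V1 z hz)⟩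
  exact exists_cycle hVC N.ne (holC_fl K) (fl_fl K) hZ (fun z => fl_mem K (hZ z)) eT eS eN eM
    fun e he => joined K hw V2 he

/-- the same with `S`, `T0` functions of the base -/
theorem arcsX_base (N : NearX D.famX AB AC h g z0 w0 π1 π2 f1 f2 γ0 K.Z S T0 RM RN)
    (L : SlD D.famX AB AC (fun x => (π1 x, π2 x)) z0 w0 f1 f2)
    (he2 : ∃ e : B → ℂ, HG (fam AB) z0 e ∧ ∀ᶠ z in 𝓝 z0, f2 (h z) = f1 z ^ 2 * e z)
    (h1 : HolC D.famX (fam AB) π1) (h2 : HolC D.famX (fam AC) π2)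
    (ne1 : ∀ x, ∃ᶠ z in 𝓝 x, π2 z ≠ w0) (ne3 : ∀ x, ∃ᶠ z in 𝓝 x, π1 z ≠ z0)
    (hw : K.w₁ 0 + K.w₁ 1 = 0) {Tb Sb : M → ℂ}
    (hT : ∀ x ∈ K.Z, ∀ᶠ z in 𝓝 x, T0 z = Tb (D.p z))
    (hS : ∀ x ∈ K.Z, ∀ᶠ z in 𝓝 x, S z = Sb (D.p z))
    (V1 : ∀ w : V2, w ≠ 0 → w 0 ≠ w 1 →
      Rat Tb Sb (K.α.G w) (γ0 * (w 0 + w 1) / (w 0 - w 1)))
    (V2 : ∀ w : V2, w ≠ 0 → Rat Tb Sb (K.β.G w) 0)
    (eN : ∀ x ∈ K.Z, ∀ᶠ z in 𝓝 x, RN (fl K z) = RN z)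
    (eM : ∀ x ∈ K.Z, ∀ᶠ z in 𝓝 x, RM (fl K z) = -RM z) : ArcsX γ0 S T0 RM RN K.Z := by
  have hup : ∀ x ∈ K.Z, ∀ m, Rat Tb Sb (D.p x) m → Rat T0 S x m := by
    rintro x hx m ⟨u, hu, hm, he⟩
    refine ⟨fun z => u (D.p z), ContinuousAt.comp (f := D.p) hu D.continuous_p.continuousAt, hm, ?_⟩
    filter_upwards [hT x hx, hS x hx, D.continuous_p.continuousAt.eventually he] with z e1 e2 e3
    rw [e1, e2, e3]
  have hfl : ∀ {F : D.X → ℂ} {Fb : M → ℂ}, (∀ x ∈ K.Z, ∀ᶠ z in 𝓝 x, F z = Fb (D.p z)) →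
      ∀ x ∈ K.Z, ∀ᶠ z in 𝓝 x, F (fl K z) = F z := by
    intro F Fb hF x hx
    have h3 := (holC_fl K).cont.continuousAt (x := x) |>.eventually (hF _ (fl_mem K hx))
    filter_upwards [h3, hF x hx] with z e1 e2
    rw [e1, e2, p_fl]
  refine arcsX K N L he2 h1 h2 ne1 ne3 hw ?_ ?_ (hfl hT) (hfl hS) eN eM
  · intro z hz
    refine hup _ (mem_Zα K _ (v1_ne z)) _ ?_
    have h4 : D.p (K.Sα.F CycD.one_sq (v1 z)) = K.α.G (sqv (v1 z)) := K.Sα.p_F _ (v1_ne z)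
    have h5 : sqv (v1 z) 0 ≠ sqv (v1 z) 1 := by
      show (1 : ℂ) ^ 2 ≠ z ^ 2
      rw [one_pow]
      exact fun h0 => hz h0.symm
    have h6 := V1 (sqv (v1 z)) (sqv_ne (v1_ne z)) h5
    rw [h4]
    have h7 : γ0 * (sqv (v1 z) 0 + sqv (v1 z) 1) / (sqv (v1 z) 0 - sqv (v1 z) 1) =
        γ0 * (1 + z ^ 2) / (1 - z ^ 2) := by
      show γ0 * ((1 : ℂ) ^ 2 + z ^ 2) / ((1 : ℂ) ^ 2 - z ^ 2) = _
      rw [one_pow]
    rwa [h7] at h6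
  · intro δ hδ ζ hζ
    refine hup _ (mem_Zβ K hδ hζ) _ ?_
    rw [K.Sβ.p_F hδ hζ]
    exact V2 _ (sqv_ne hζ)

end main

end

end Crest.Agent.R272.Val_83
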