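import Crest.Agent.R272.WMdef_74

/-!
# LB-WDATA (D6), finiteness (row 272, lower bound for S0415; helper702)
-/

set_option autoImplicit false

open scoped ComplexConjugate

namespace Crest.Agent.R272.WDn_702

open EBase_641 In_68 Cls_620 WM_74

variable {O : Subring (Fin 2 → ℂ)} {z : Fin 2 → ℂ}

theorem re_at1 (h : Z5 O z) (x : Fin 4 → Fin 2 → ℂ) : ∀ i, ‖x i 1‖ ^ 2 ≤
    2 * (hh (HH z) x x 1).re := by
  have hs := sqrt5_bd
  have e : (hh (HH z) x x 1).re = ‖x 0 1‖ ^ 2 + ‖x 1 1‖ ^ 2 + ‖x 2 1‖ ^ 2 +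
      (Real.sqrt 5 - 1) / 2 * ‖x 3 1‖ ^ 2 := by
    rw [re_diag h.frm.real, Fin.sum_univ_four]
    have e3 : (HH z 3 1).re = (Real.sqrt 5 - 1) / 2 := by
      show ((z ^ 2 + z ^ 3) 1).re = _
      simp only [Pi.add_apply, Pi.pow_apply]
      rw [h.at1', Complex.ofReal_re]
    rw [e3]
    simp [HH]
  intro i
  have h0 := sq_nonneg ‖x 0 1‖
  have h1 := sq_nonneg ‖x 1 1‖
  have h2 := sq_nonneg ‖x 2 1‖
  have h3 := sq_nonneg ‖x 3 1‖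
  rw [e]
  have h4 : 0 ≤ (Real.sqrt 5 - 1) / 2 * ‖x 3 1‖ ^ 2 := mul_nonneg (by linarith) h3
  have h5 : ‖x 3 1‖ ^ 2 ≤ 2 * ((Real.sqrt 5 - 1) / 2 * ‖x 3 1‖ ^ 2) := by nlinarith
  fin_cases i
  · show ‖x 0 1‖ ^ 2 ≤ _; linarith
  · show ‖x 1 1‖ ^ 2 ≤ _; linarith
  · show ‖x 2 1‖ ^ 2 ≤ _; linarith
  · show ‖x 3 1‖ ^ 2 ≤ _; linarith

theorem re_at0 (h : Z5 O z) (x : Fin 4 → Fin 2 → ℂ) : (hh (HH z) x x 0).re =
    ‖x 0 0‖ ^ 2 + ‖x 1 0‖ ^ 2 + ‖x 2 0‖ ^ 2 - (Real.sqrt 5 + 1) / 2 * ‖x 3 0‖ ^ 2 := by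
  rw [re_diag h.frm.real, Fin.sum_univ_four]
  have e3 : (HH z 3 0).re = -(Real.sqrt 5 + 1) / 2 := by
    show ((z ^ 2 + z ^ 3) 0).re = _
    simp only [Pi.add_apply, Pi.pow_apply]
    rw [h.at0', Complex.ofReal_re]
  rw [e3]
  simp [HH]
  ring

theorem coord_le' (x : E 3) (i : Fin 3) : ‖x i‖ ≤ ‖x‖ := by
  have := PiLp.norm_apply_le x i
  exact this

/-- **(D6)** bounded vectors of a class of integral vectors are finite in number -/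
theorem fin_wv (h : Z5r O z) (B T : ℝ) : {x : V1 3 | (∃ r, Int' O r ∧ 0 ≤ (hh (HH z) r r 0).re ∧
    (hh (HH z) r r 1).re ≤ B ∧ wv h r = x) ∧ ‖x.1‖ ≤ T}.Finite := by
  classical
  set M : ℝ := 2 * |T| + 2 * |B| + 1 with hM
  have hfin : {r : Fin 4 → Fin 2 → ℂ | ∀ i, r i ∈ {x : Fin 2 → ℂ | x ∈ O ∧ ∀ t, ‖x t‖ ≤ M}}.Finite := by
    have := Set.Finite.pi (fun _ : Fin 4 => finite_O h M)
    refine this.subset ?_
    intro r hr
    exact fun i _ => hr i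
  refine (hfin.image (wv h)).subset ?_
  rintro _ ⟨⟨r, hr, h0, h1, rfl⟩, hT⟩
  refine ⟨r, fun i => ⟨hr i, fun t => ?_⟩, rfl⟩
  have hT0 : 0 ≤ |T| := abs_nonneg _
  have hB0 : 0 ≤ |B| := abs_nonneg _
  have hTle := le_abs_self T
  have hBle := le_abs_self B
  have a1 := re_at1 h.toZ5 r
  have b0 : ‖r 0 0‖ ≤ |T| := by
    rw [← wv_zero h r]; exact ((coord_le' _ _).trans hT).trans hTle
  have b1 : ‖r 1 0‖ ≤ |T| := by
    rw [← wv_one h r]; exact ((coord_le' _ _).trans hT).trans hTle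
  have b2 : ‖r 2 0‖ ≤ |T| := by
    rw [← wv_two h r]; exact ((coord_le' _ _).trans hT).trans hTle
  have b3 : ‖r 3 0‖ ≤ 2 * |T| := by
    rw [re_at0 h.toZ5] at h0
    have hs := sqrt5_bd
    have n0 := norm_nonneg (r 0 0)
    have n1 := norm_nonneg (r 1 0)
    have n2 := norm_nonneg (r 2 0)
    have n3 := norm_nonneg (r 3 0)
    have q0 : ‖r 0 0‖ ^ 2 ≤ |T| ^ 2 := pow_le_pow_left₀ n0 b0 2
    have q1 : ‖r 1 0‖ ^ 2 ≤ |T| ^ 2 := pow_le_pow_left₀ n1 b1 2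
    have q2 : ‖r 2 0‖ ^ 2 ≤ |T| ^ 2 := pow_le_pow_left₀ n2 b2 2
    have q3 : ‖r 3 0‖ ^ 2 ≤ (2 * |T|) ^ 2 := by nlinarith
    exact le_of_sq_le_sq q3 (by positivity)
  have t1 : ∀ i, ‖r i 1‖ ≤ 2 * |B| + 1 := by
    intro i
    have := a1 i
    have n := norm_nonneg (r i 1)
    nlinarith
  have hcase : t = 0 ∨ t = 1 := by fin_cases t <;> simp
  rcases hcase with rfl | rfl
  · fin_cases i
    · exact b0.trans (by rw [hM]; linarith)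
    · exact b1.trans (by rw [hM]; linarith)
    · exact b2.trans (by rw [hM]; linarith)
    · exact b3.trans (by rw [hM]; linarith)
  · exact (t1 i).trans (by rw [hM]; linarith)

end Crest.Agent.R272.WDn_702
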