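import Mathlib

/-!
# R272, windmill step, abstract form (helper702; Mathlib only)

`N x y = |⟨x,y⟩|` on a set of objects `O`, `W` the mirrors, `E` the basic piece, `S ⊆ E ∩ W` the
mirrors at which we reflect, `Vs` a set of mirrors which is stable under the reflections.
Words are lists of elements of `S`; `pt l y = ρ_(t1) .. ρ_(tm) y`.
-/

set_option autoImplicit false

namespace Crest.Agent.R272.WStep_702

variable {Ob Γ : Type*} [Group Γ] [MulAction Γ Ob]

/-- The abstract data. -/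
structure WM (Ob Γ : Type*) [Group Γ] [MulAction Γ Ob] where
  N : Ob → Ob → ℝ
  O : Set Ob
  W : Set Ob
  E : Set Ob
  S : Set Ob
  Vs : Set Ob
  ρ : Ob → Γ
  Lam : ℝ
  K : ℝ
  η : ℝ
  ε0 : ℝ
  nonneg : ∀ x y, 0 ≤ N x y
  symm : ∀ x y, N x y = N y x
  inv : ∀ (g : Γ) x y, N (g • x) (g • y) = N x y
  WO : W ⊆ O
  EO : E ⊆ O
  SW : S ⊆ W
  SE : S ⊆ E
  O_smul : ∀ s ∈ S, ∀ x ∈ O, ρ s • x ∈ O
  W_smul : ∀ s ∈ S, ∀ x ∈ W, ρ s • x ∈ W
  ρ_sq : ∀ s ∈ S, ρ s * ρ s = 1
  ρ_self : ∀ s ∈ S, ∀ x, N (ρ s • s) x = N s x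
  nearS : ∀ s ∈ S, ∀ t ∈ S, N s t < Lam → ρ s = ρ t
  nearE : ∀ s ∈ S, ∀ x ∈ E, x ∈ W → N s x < Lam → ∀ z, N x z = N s z
  qm : ∀ u ∈ W, ∀ x ∈ O, ∀ y ∈ O, ∀ z ∈ O, (x ∈ W → Lam ≤ N u x) → (y ∈ W → Lam ≤ N u y) →
    (z ∈ W → Lam ≤ N u z) → ∀ a b, 0 ≤ a → a ≤ 1 → 0 ≤ b → b ≤ 1 →
    N x y ≤ a * (N x u * N u y) → N y z ≤ b * (N y u * N u z) →
    N x z ≤ K * (a + b + η) * (N x u * N u z)
  straight : ∀ s ∈ S, ∀ x ∈ E, ∀ y ∈ E, (x ∈ W → Lam ≤ N s x) → (y ∈ W → Lam ≤ N s y) →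
    N x s * N s y ≤ 2 * N x (ρ s • y)
  VsW : Vs ⊆ W
  Vs_smul : ∀ s ∈ S, ∀ v ∈ Vs, ρ s • v ∈ Vs
  Vs_far : ∀ v ∈ Vs, ∀ e ∈ E, e ∈ W → Lam ≤ N v e
  V0 : ∀ v ∈ Vs, ∀ e ∈ E, ∀ e' ∈ E, N e e' ≤ ε0 * (N e v * N v e')
  hK : 1 ≤ K
  hη0 : 0 ≤ η
  hη : 32 * K ^ 3 * η ≤ 1
  hLam0 : 0 < Lam
  hLam : 64 * K ^ 3 ≤ Lam ^ 2
  hε0 : 0 ≤ ε0
  hε : K * (ε0 + 32 * K ^ 3 / Lam ^ 2 + η) ≤ 1

namespace WM

variable (M : WM Ob Γ)

/-- `x` is visible from `u` : a point, or a far mirror -/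
def adm (u x : Ob) : Prop := x ∈ M.W → M.Lam ≤ M.N u x

/-- the end point of a word -/
def pt : List Ob → Ob → Ob
  | [], y => y
  | t :: l, y => M.ρ t • pt l y

def nxt : List Ob → Ob → Ob
  | [], y => y
  | s :: _, _ => s

/-- reduced words -/
def Good : List Ob → Ob → Prop
  | [], y => y ∈ M.E
  | t :: l, y => t ∈ M.S ∧ M.adm t (nxt l y) ∧ Good l y

@[simp] theorem pt_nil (y : Ob) : M.pt [] y = y := rfl
@[simp] theorem pt_cons (t : Ob) (l : List Ob) (y : Ob) : M.pt (t :: l) y = M.ρ t • M.pt l y := rfl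

theorem ρρ {s : Ob} (hs : s ∈ M.S) (x : Ob) : M.ρ s • M.ρ s • x = x := by
  rw [smul_smul, M.ρ_sq s hs, one_smul]

theorem N_ρ {s : Ob} (hs : s ∈ M.S) (x y : Ob) : M.N x (M.ρ s • y) = M.N (M.ρ s • x) y := by
  rw [← M.inv (M.ρ s) x (M.ρ s • y), M.ρρ hs]

theorem N_self_ρ {s : Ob} (hs : s ∈ M.S) (y : Ob) : M.N s (M.ρ s • y) = M.N s y := by
  rw [M.N_ρ hs, M.ρ_self s hs]

theorem N_self_ρ' {s : Ob} (hs : s ∈ M.S) (y : Ob) : M.N (M.ρ s • y) s = M.N y s := by
  rw [M.symm, M.N_self_ρ hs, M.symm]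

theorem W_iff {s : Ob} (hs : s ∈ M.S) (x : Ob) : M.ρ s • x ∈ M.W ↔ x ∈ M.W := by
  refine ⟨fun h => ?_, M.W_smul s hs x⟩
  have := M.W_smul s hs _ h
  rwa [M.ρρ hs] at this

theorem Good.tail {t : Ob} {l : List Ob} {y : Ob} (h : M.Good (t :: l) y) : M.Good l y := h.2.2

theorem pt_mem_O : ∀ {l : List Ob} {y : Ob}, M.Good l y → M.pt l y ∈ M.O
  | [], _, h => M.EO h
  | t :: _, _, h => M.O_smul t h.1 _ (pt_mem_O h.2.2)

/-- the strict form of the quasi-metric inequality -/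
theorem qlt {u x y z : Ob} {a b β : ℝ} (hu : u ∈ M.W) (hx : x ∈ M.O) (hy : y ∈ M.O) (hz : z ∈ M.O)
    (ax : M.adm u x) (ay : M.adm u y) (az : M.adm u z) (ha : 0 ≤ a) (ha1 : a ≤ 1) (hb : 0 ≤ b)
    (hb1 : b ≤ 1) (h1 : M.N x y ≤ a * (M.N x u * M.N u y))
    (h2 : M.N y z ≤ b * (M.N y u * M.N u z)) (px : 0 < M.N x u) (pz : 0 < M.N u z)
    (hβ : M.K * (a + b + M.η) < β) : M.N x z < β * (M.N x u * M.N u z) := by
  have h := M.qm u hu x hx y hy z hz ax ay az a b ha ha1 hb hb1 h1 h2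
  have hp : 0 < M.N x u * M.N u z := mul_pos px pz
  exact h.trans_lt (by nlinarith)

/-- constants -/
theorem consts : ∃ c c' ε : ℝ, c = 1 / (4 * M.K) ∧ c' = 1 / (8 * M.K ^ 2) ∧ ε = 4 * M.K / M.Lam ^ 2 ∧
    0 < c ∧ c ≤ 1 / 4 ∧ 0 < c' ∧ c' ≤ c ∧ c' ≤ 1 ∧ 0 < ε ∧ ε ≤ 1 ∧ ε * c * M.Lam ^ 2 = 1 ∧
    1 ≤ c * M.Lam ∧ M.K * (c + ε + M.η) < 1 / 2 ∧ M.K * (ε + c' + M.η) < c := by
  have hK := M.hK
  have hK0 : 0 < M.K := by linarith
  have hL := M.hLam0
  have hK2 : M.K ≤ M.K ^ 2 := by nlinarith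
  have hK3 : M.K ^ 2 ≤ M.K ^ 3 := by nlinarith [pow_pos hK0 2]
  have h1K3 : 1 ≤ M.K ^ 3 := by linarith
  have hε : 4 * M.K / M.Lam ^ 2 ≤ 1 / (16 * M.K ^ 2) := by
    rw [div_le_div_iff₀ (by positivity) (by positivity)]
    nlinarith [M.hLam]
  have hη' : M.η ≤ 1 / (32 * M.K ^ 3) := by
    rw [le_div_iff₀ (by positivity)]
    linarith [M.hη]
  have hη2 : 1 / (32 * M.K ^ 3) ≤ 1 / (32 * M.K ^ 2) := by
    apply one_div_le_one_div_of_le (by positivity); linarith
  have e1 : M.K * (1 / (4 * M.K)) = 1 / 4 := by field_simp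
  have e2 : M.K * (1 / (8 * M.K ^ 2)) = 1 / (8 * M.K) := by field_simp
  have e3 : M.K * (1 / (16 * M.K ^ 2)) = 1 / (16 * M.K) := by field_simp
  have e4 : M.K * (1 / (32 * M.K ^ 2)) = 1 / (32 * M.K) := by field_simp
  have e5 : 1 / (16 * M.K) ≤ 1 / 16 := by
    apply one_div_le_one_div_of_le (by norm_num); linarith
  have e6 : 1 / (32 * M.K) ≤ 1 / 32 := by
    apply one_div_le_one_div_of_le (by norm_num); linarith
  refine ⟨_, _, _, rfl, rfl, rfl, by positivity, ?_, by positivity, ?_, ?_, by positivity, ?_,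
    ?_, ?_, ?_, ?_⟩
  · apply one_div_le_one_div_of_le (by norm_num); linarith
  · apply one_div_le_one_div_of_le (by positivity); nlinarith
  · rw [div_le_one (by positivity)]; nlinarith
  · refine hε.trans ?_
    rw [div_le_one (by positivity)]; nlinarith
  · field_simp
  · have h8 : 4 * M.K ≤ M.Lam := by
      by_contra hc
      have hc := not_le.mp hc
      have : M.Lam ^ 2 < (4 * M.K) ^ 2 := by nlinarith
      nlinarith [M.hLam]
    rw [div_mul_eq_mul_div, one_mul, le_div_iff₀ (by positivity)]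
    linarith
  · have t1 := mul_le_mul_of_nonneg_left hε hK0.le
    have t2 := mul_le_mul_of_nonneg_left (hη'.trans hη2) hK0.le
    rw [e3] at t1
    rw [e4] at t2
    have : M.K * (1 / (4 * M.K) + 4 * M.K / M.Lam ^ 2 + M.η)
        = M.K * (1 / (4 * M.K)) + M.K * (4 * M.K / M.Lam ^ 2) + M.K * M.η := by ring
    rw [this, e1]
    linarith
  · have t1 := mul_le_mul_of_nonneg_left hε hK0.le
    have t2 := mul_le_mul_of_nonneg_left (hη'.trans hη2) hK0.le
    rw [e3] at t1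
    rw [e4] at t2
    have : M.K * (4 * M.K / M.Lam ^ 2 + 1 / (8 * M.K ^ 2) + M.η)
        = M.K * (1 / (8 * M.K ^ 2)) + M.K * (4 * M.K / M.Lam ^ 2) + M.K * M.η := by ring
    rw [this, e2]
    have p : 0 < 1 / M.K := by positivity
    have q1 : 1 / (8 * M.K) = (1 / 8) * (1 / M.K) := by field_simp
    have q2 : 1 / (16 * M.K) = (1 / 16) * (1 / M.K) := by field_simp
    have q3 : 1 / (32 * M.K) = (1 / 32) * (1 / M.K) := by field_simp
    have q4 : 1 / (4 * M.K) = (1 / 4) * (1 / M.K) := by field_simp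
    rw [q1, q4]
    rw [q2] at t1
    rw [q3] at t2
    linarith

theorem pos_aux {a b : ℝ} (h : 0 < a * b) (ha : 0 < a) : 0 < b := by
  by_contra hc
  have hc := not_lt.mp hc
  nlinarith

/-- **Claim A** : the first mirror of a reduced word separates. -/
theorem claimA (l : List Ob) : ∀ (t y : Ob), M.Good (t :: l) y →
    M.adm t (M.pt l y) ∧ ∀ x ∈ M.E, M.adm t x →
      1 / (4 * M.K) * (M.N x t * M.N t (M.pt (t :: l) y)) ≤ M.N x (M.pt (t :: l) y) := by
  obtain ⟨c, c', ε, hc, -, -, hc0, hc4, -, -, -, hε0, hε1, hεc, hcL, hk1, -⟩ := M.consts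
  rw [← hc]
  induction l with
  | nil =>
    intro t y h
    refine ⟨h.2.1, fun x hx ax => ?_⟩
    simp only [pt_cons, pt_nil]
    rw [M.N_self_ρ h.1]
    have h1 := M.straight t h.1 x hx y h.2.2 ax h.2.1
    have h2 : 0 ≤ M.N x t * M.N t y := mul_nonneg (M.nonneg _ _) (M.nonneg _ _)
    nlinarith
  | cons s l ih =>
    intro t y h
    have hG : M.Good (s :: l) y := h.2.2
    have ht := h.1
    have hs := hG.1
    have hts : M.Lam ≤ M.N t s := h.2.1 (M.SW hs)
    have hst : M.Lam ≤ M.N s t := by rw [M.symm]; exact hts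
    obtain ⟨ih1, ih2⟩ := ih s y hG
    set Q' := M.pt (s :: l) y with hQ'
    have hL := M.hLam0
    have hA : c * (M.N t s * M.N s Q') ≤ M.N t Q' :=
      ih2 t (M.SE ht) (fun _ => hst)
    have hQO : Q' ∈ M.O := M.pt_mem_O hG
    have admQ' : M.adm t Q' := by
      intro hW
      have hW' : M.pt l y ∈ M.W := (M.W_iff hs _).mp hW
      have h1 : M.Lam ≤ M.N s Q' := by
        rw [hQ', pt_cons, M.N_self_ρ hs]; exact ih1 hW'
      have h2 : M.Lam ≤ c * M.Lam * M.Lam := by nlinarith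
      have h3 : c * M.Lam * M.Lam ≤ c * (M.N t s * M.N s Q') := by
        rw [mul_assoc]
        exact mul_le_mul_of_nonneg_left (mul_le_mul hts h1 hL.le (hL.le.trans hts)) hc0.le
      linarith
    refine ⟨admQ', fun x hx ax => ?_⟩
    rw [pt_cons]
    by_contra hcon
    have hcon := not_le.mp hcon
    rw [M.N_self_ρ ht] at hcon
    -- positivity
    have hpos : 0 < M.N x t * M.N t Q' := by
      have h0 : 0 < c * (M.N x t * M.N t Q') := (M.nonneg _ _).trans_lt hcon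
      exact pos_aux h0 hc0
    have hxt : 0 < M.N x t := by
      rcases (M.nonneg x t).lt_or_eq with h | h
      · exact h
      · rw [← h, zero_mul] at hpos; exact absurd hpos (lt_irrefl _)
    -- `D_t(Q', s) ≤ ε`
    have hD : M.N (M.ρ t • Q') (M.ρ t • s) ≤ ε * (M.N (M.ρ t • Q') t * M.N t (M.ρ t • s)) := by
      rw [M.inv, M.N_self_ρ' ht, M.N_self_ρ ht]
      have e1 : ε * (M.N Q' t * M.N t s) = ε * M.N t s * M.N t Q' := by
        rw [M.symm Q' t]; ring
      rw [e1, M.symm Q' s]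
      have e2 : ε * M.N t s * (c * (M.N t s * M.N s Q')) ≤ ε * M.N t s * M.N t Q' :=
        mul_le_mul_of_nonneg_left hA (by have := M.nonneg t s; positivity)
      refine le_trans ?_ e2
      have e3 : ε * M.N t s * (c * (M.N t s * M.N s Q')) = (ε * c * (M.N t s) ^ 2) * M.N s Q' := by
        ring
      rw [e3]
      have e4 : M.Lam ^ 2 ≤ (M.N t s) ^ 2 := by nlinarith
      have e5 : 1 ≤ ε * c * (M.N t s) ^ 2 := by
        rw [← hεc]; exact mul_le_mul_of_nonneg_left e4 (by positivity)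
      nlinarith [M.nonneg s Q']
    have hlt := M.qlt (u := t) (x := x) (y := M.ρ t • Q') (z := M.ρ t • s) (β := 1 / 2) (M.SW ht)
      (M.EO hx) (M.O_smul t ht _ hQO) (M.O_smul t ht _ (M.WO (M.SW hs))) ax
      (by
        intro hW
        rw [M.N_self_ρ ht]
        exact admQ' ((M.W_iff ht _).mp hW))
      (by intro _; rw [M.N_self_ρ ht]; exact hts)
      hc0.le (by linarith) hε0.le hε1 (by rw [M.N_self_ρ ht]; exact hcon.le) hD hxt
      (by rw [M.N_self_ρ ht]; linarith) hk1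
    have hst2 := M.straight t ht x hx s (M.SE hs) ax (fun _ => hts)
    rw [M.N_self_ρ ht] at hlt
    linarith

/-- from `D_s(a, z) ≥ c` to `D_a(s, z) ≤ 1/(c Λ²)` (Behrstock) -/
theorem swap {a s z : Ob} {c ε : ℝ} (hc : 0 < c) (hε : 0 ≤ ε) (hεc : 1 ≤ ε * c * M.Lam ^ 2)
    (has : M.Lam ≤ M.N a s) (h : c * (M.N a s * M.N s z) ≤ M.N a z) :
    M.N s z ≤ ε * (M.N s a * M.N a z) := by
  have h0 := M.nonneg s z
  have hL := M.hLam0
  have e2 : ε * M.N a s * (c * (M.N a s * M.N s z)) ≤ ε * M.N a s * M.N a z :=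
    mul_le_mul_of_nonneg_left h (by have := M.nonneg a s; positivity)
  have e3 : ε * M.N a s * (c * (M.N a s * M.N s z)) = (ε * c * (M.N a s) ^ 2) * M.N s z := by ring
  have e4 : M.Lam ^ 2 ≤ (M.N a s) ^ 2 := by nlinarith
  have e5 : 1 ≤ ε * c * (M.N a s) ^ 2 :=
    hεc.trans (mul_le_mul_of_nonneg_left e4 (by positivity))
  rw [e3] at e2
  rw [M.symm s a, ← mul_assoc]
  nlinarith

/-- **Claim B** : every mirror of a reduced path separates its ends. -/
theorem claimB (l₁ l₂ : List Ob) (t x y : Ob) (h1 : M.Good (t :: l₁) x) (h2 : M.Good (t :: l₂) y) :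
    1 / (8 * M.K ^ 2) * (M.N (M.pt l₁ x) t * M.N t (M.pt (t :: l₂) y)) ≤
      M.N (M.pt l₁ x) (M.pt (t :: l₂) y) := by
  obtain ⟨c, c', ε, hc, hc', -, hc0, hc4, hc0', hcc, hc1, hε0, hε1, hεc, hcL, -, hk2⟩ := M.consts
  rw [← hc']
  have ht := h1.1
  have hA2 := (M.claimA l₂ t y h2)
  rw [← hc] at hA2
  cases l₁ with
  | nil =>
    simp only [pt_nil]
    have h := hA2.2 x h1.2.2 h1.2.1
    have hp : 0 ≤ M.N x t * M.N t (M.pt (t :: l₂) y) := mul_nonneg (M.nonneg _ _) (M.nonneg _ _)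
    exact (mul_le_mul_of_nonneg_right hcc hp).trans h
  | cons s l =>
    have hG : M.Good (s :: l) x := h1.2.2
    have hs := hG.1
    have hts : M.Lam ≤ M.N t s := h1.2.1 (M.SW hs)
    have hst : M.Lam ≤ M.N s t := by rw [M.symm]; exact hts
    have hL := M.hLam0
    set P := M.pt (s :: l) x with hP
    set Q := M.pt (t :: l₂) y with hQ
    have hB1 := (M.claimA l s x hG).2 t (M.SE ht) (fun _ => hst)
    rw [← hc, ← hP] at hB1
    have hsP : M.N s P ≤ ε * (M.N s t * M.N t P) :=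
      M.swap hc0 hε0.le (le_of_eq hεc.symm) hts hB1
    have hsQ : c * (M.N s t * M.N t Q) ≤ M.N s Q := hA2.2 s (M.SE hs) (fun _ => hts)
    by_contra hcon
    have hcon := not_le.mp hcon
    have hpos : 0 < M.N P t * M.N t Q :=
      pos_aux ((M.nonneg _ _).trans_lt hcon) hc0'
    have hPt0 := M.nonneg P t
    have htQ : 0 < M.N t Q := by
      rcases (M.nonneg t Q).lt_or_eq with h | h
      · exact h
      · rw [← h, mul_zero] at hpos; exact absurd hpos (lt_irrefl _)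
    have hlt := M.qlt (u := t) (x := s) (y := P) (z := Q) (a := ε) (b := c') (β := c) (M.SW ht)
      (M.WO (M.SW hs)) (M.pt_mem_O hG) (M.pt_mem_O h2) (fun _ => hts)
      (by
        intro hW
        have := (M.claimA (s :: l) t x h1).1
        exact this hW)
      (by
        intro hW
        rw [hQ, pt_cons, M.N_self_ρ ht]
        exact hA2.1 ((M.W_iff ht _).mp hW))
      hε0.le hε1 hc0'.le hc1 hsP hcon.le (by linarith) htQ hk2
    linarith

/-- the final constant -/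
noncomputable def ε1 : ℝ := 32 * M.K ^ 3 / M.Lam ^ 2

theorem ε1_pos : 0 < M.ε1 := by
  have := M.hLam0
  have := M.hK
  unfold ε1; positivity

/-- dichotomy at a mirror of the path -/
theorem dich (l₁ l₂ : List Ob) (t x y v : Ob) (hv : v ∈ M.Vs) (h1 : M.Good (t :: l₁) x)
    (h2 : M.Good (t :: l₂) y) (aP : M.adm t (M.pt l₁ x)) :
    M.N (M.pt l₁ x) t ≤ M.ε1 * (M.N (M.pt l₁ x) v * M.N v t) ∨
    M.N t (M.pt (t :: l₂) y) ≤ M.ε1 * (M.N t v * M.N v (M.pt (t :: l₂) y)) := by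
  have hK := M.hK
  have hK0 : 0 < M.K := by linarith
  have hL := M.hLam0
  have ht := h1.1
  set P := M.pt l₁ x with hP
  set Q := M.pt (t :: l₂) y with hQ
  have hB := M.claimB l₁ l₂ t x y h1 h2
  rw [← hP, ← hQ] at hB
  have hvt : M.Lam ≤ M.N v t := M.Vs_far v hv t (M.SE ht) (M.SW ht)
  have htv : M.Lam ≤ M.N t v := by rw [M.symm]; exact hvt
  set c'' : ℝ := 1 / (32 * M.K ^ 3) with hc''
  have hc0 : 0 < c'' := by positivity
  have hc1 : c'' ≤ 1 := by
    rw [hc'', div_le_one (by positivity)]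
    nlinarith [pow_le_pow_left₀ (by norm_num : (0:ℝ) ≤ 1) hK 3]
  have hεc : M.ε1 * c'' * M.Lam ^ 2 = 1 := by
    unfold ε1; rw [hc'']; field_simp
  by_cases hA : c'' * (M.N v t * M.N t P) ≤ M.N v P
  · left
    have := M.swap hc0 M.ε1_pos.le (le_of_eq hεc.symm) hvt hA
    rw [M.symm P t, M.symm P v]
    rw [M.symm v t]
    linarith [mul_comm (M.N t v) (M.N v P)]
  · by_cases hA' : c'' * (M.N v t * M.N t Q) ≤ M.N v Q
    · right
      exact M.swap hc0 M.ε1_pos.le (le_of_eq hεc.symm) hvt hA'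
    · exfalso
      have hA := not_le.mp hA
      have hA' := not_le.mp hA'
      have hp1 : 0 < M.N v t * M.N t P := pos_aux ((M.nonneg _ _).trans_lt hA) hc0
      have hp2 : 0 < M.N v t * M.N t Q := pos_aux ((M.nonneg _ _).trans_lt hA') hc0
      have hvt0 : 0 < M.N v t := by linarith
      have htP : 0 < M.N t P := pos_aux hp1 hvt0
      have htQ : 0 < M.N t Q := pos_aux hp2 hvt0
      have hlt := M.qlt (u := t) (x := P) (y := v) (z := Q) (a := c'') (b := c'')
        (β := 1 / (8 * M.K ^ 2)) (M.SW ht) (M.pt_mem_O h1.2.2) (M.WO (M.VsW hv)) (M.pt_mem_O h2)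
        aP (fun _ => htv)
        (by
          intro hW
          rw [hQ, pt_cons, M.N_self_ρ ht]
          exact (M.claimA l₂ t y h2).1 ((M.W_iff ht _).mp hW))
        hc0.le hc1 hc0.le hc1
        (by rw [M.symm P v, M.symm P t, M.symm t v, mul_comm (M.N t P)]; exact hA.le)
        hA'.le (by rw [M.symm]; exact htP) htQ
        (by
          have hη := M.hη
          have e0 : M.K * (c'' + c'' + M.η) = 1 / (16 * M.K ^ 2) + M.K * M.η := by
            rw [hc'']; field_simp; ring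
          rw [e0]
          have e1 : M.K * M.η ≤ 1 / (32 * M.K ^ 2) := by
            rw [le_div_iff₀ (by positivity)]; nlinarith
          have p : 0 < 1 / M.K ^ 2 := by positivity
          have q1 : 1 / (16 * M.K ^ 2) = 1 / 16 * (1 / M.K ^ 2) := by field_simp
          have q2 : 1 / (32 * M.K ^ 2) = 1 / 32 * (1 / M.K ^ 2) := by field_simp
          have q3 : 1 / (8 * M.K ^ 2) = 1 / 8 * (1 / M.K ^ 2) := by field_simp
          rw [q2] at e1
          rw [q1, q3]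
          linarith)
      linarith

theorem pt_mem_W {l : List Ob} : ∀ {y : Ob}, M.Good l y → M.pt l y ∈ M.W → y ∈ M.W := by
  induction l with
  | nil => intro y _ h; exact h
  | cons t l ih => intro y h hW; exact ih h.2.2 ((M.W_iff h.1 _).mp hW)

/-- a mirror of `Vs` is far from every `pt l x`. -/
theorem Vs_far_pt (l : List Ob) : ∀ (x v : Ob), v ∈ M.Vs → M.Good l x → M.pt l x ∈ M.W →
    M.Lam ≤ M.N v (M.pt l x) := by
  induction l with
  | nil => intro x v hv hG hW; exact M.Vs_far v hv x hG hW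
  | cons t l ih =>
    intro x v hv hG hW
    rw [pt_cons, M.N_ρ hG.1]
    exact ih x _ (M.Vs_smul t hG.1 v hv) hG.2.2 ((M.W_iff hG.1 _).mp hW)

/-- the constant of the new windmill -/
noncomputable def V' : ℝ := M.K * ((M.ε0 + M.ε1) + M.K * (M.ε0 + M.ε1 + M.η) + M.η)

/-- **Claim C** -/
theorem claimC (l₂ : List Ob) : ∀ (l₁ : List Ob) (t x y v : Ob), v ∈ M.Vs → M.Good (t :: l₁) x →
    M.Good (t :: l₂) y →
    M.N (M.pt l₁ x) t ≤ (M.ε0 + M.ε1) * (M.N (M.pt l₁ x) v * M.N v t) →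
    M.N (M.pt l₁ x) (M.pt (t :: l₂) y) ≤
      M.V' * (M.N (M.pt l₁ x) v * M.N v (M.pt (t :: l₂) y)) := by
  have hK := M.hK
  have hK0 : 0 < M.K := by linarith
  have hε0 := M.hε0
  have hε1 := M.ε1_pos
  have hη0 := M.hη0
  have hsum : M.K * (M.ε0 + M.ε1 + M.η) ≤ 1 := M.hε
  have hs1 : M.ε0 + M.ε1 + M.η ≤ 1 := by
    have : 0 ≤ M.ε0 + M.ε1 + M.η := by positivity
    nlinarith
  induction l₂ with
  | nil =>
    intro l₁ t x y v hv h1 h2 hP
    have ht := h1.1
    set P := M.pt l₁ x with hPd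
    simp only [pt_cons, pt_nil]
    have hv' := M.Vs_smul t ht v hv
    have h0 := M.V0 _ hv' t (M.SE ht) y h2.2.2
    have hV : M.N t (M.ρ t • y) ≤ M.ε0 * (M.N t v * M.N v (M.ρ t • y)) := by
      rw [M.N_self_ρ ht, M.N_ρ ht v y]
      rw [M.N_self_ρ ht] at h0
      exact h0
    have hq := M.qm v (M.VsW hv) P (M.pt_mem_O h1.2.2) t (M.WO (M.SW ht)) (M.ρ t • y)
      (M.O_smul t ht _ (M.EO h2.2.2))
      (fun hW => M.Vs_far_pt l₁ x v hv h1.2.2 hW) (fun _ => M.Vs_far v hv t (M.SE ht) (M.SW ht))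
      (fun hW => by
        rw [M.N_ρ ht]
        exact M.Vs_far _ hv' y h2.2.2 ((M.W_iff ht _).mp hW))
      (M.ε0 + M.ε1) M.ε0 (by positivity) (by linarith) hε0 (by linarith) hP hV
    refine hq.trans (mul_le_mul_of_nonneg_right ?_ (mul_nonneg (M.nonneg _ _) (M.nonneg _ _)))
    unfold V'
    have : M.ε0 ≤ M.K * (M.ε0 + M.ε1 + M.η) := by nlinarith
    nlinarith
  | cons s l ih =>
    intro l₁ t x y v hv h1 h2 hP
    have ht := h1.1
    have hG : M.Good (s :: l) y := h2.2.2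
    have hs := hG.1
    have hts : M.Lam ≤ M.N t s := h2.2.1 (M.SW hs)
    have hst : M.Lam ≤ M.N s t := by rw [M.symm]; exact hts
    have hv' := M.Vs_smul t ht v hv
    set v' := M.ρ t • v with hv'd
    -- translate everything by `ρ t`
    set P' := M.pt (t :: l₁) x with hP'd
    set Q' := M.pt (s :: l) y with hQ'd
    have eP : ∀ z, M.N (M.pt l₁ x) (M.ρ t • z) = M.N P' z := by
      intro z; rw [M.N_ρ ht, hP'd, pt_cons]
    have eQ : M.pt (t :: s :: l) y = M.ρ t • Q' := rfl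
    have evP : M.N (M.pt l₁ x) v = M.N P' v' := by
      rw [hP'd, pt_cons, hv'd, M.inv]
    have evt : M.N v t = M.N v' t := by
      rw [hv'd, M.symm v t, ← M.N_self_ρ ht v, M.symm]
    have evQ : M.N v (M.ρ t • Q') = M.N v' Q' := by rw [M.N_ρ ht]
    have ePt : M.N (M.pt l₁ x) t = M.N P' t := by
      rw [hP'd, pt_cons, M.N_self_ρ' ht]
    have hG' : M.Good (s :: t :: l₁) x := ⟨hs, fun _ => hst, h1⟩
    rw [eQ, eP, evP, evQ]
    rw [ePt, evP, evt] at hP
    have aP' : M.adm s P' := (M.claimA (t :: l₁) s x hG').1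
    rcases M.dich (t :: l₁) l s x y v' hv' hG' hG aP' with h | h
    · refine ih (t :: l₁) s x y v' hv' hG' hG ?_
      refine h.trans (mul_le_mul_of_nonneg_right (by linarith)
        (mul_nonneg (M.nonneg _ _) (M.nonneg _ _)))
    · have hts0 := M.V0 _ hv' t (M.SE ht) s (M.SE hs)
      have aQ : M.pt (s :: l) y ∈ M.W → M.Lam ≤ M.N v' (M.pt (s :: l) y) :=
        fun hW => M.Vs_far_pt (s :: l) y v' hv' hG hW
      have q1 := M.qm v' (M.VsW hv') t (M.WO (M.SW ht)) s (M.WO (M.SW hs)) Q' (M.pt_mem_O hG)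
        (fun _ => M.Vs_far _ hv' t (M.SE ht) (M.SW ht)) (fun _ => M.Vs_far _ hv' s (M.SE hs) (M.SW hs))
        aQ M.ε0 M.ε1 hε0 (by linarith) hε1.le (by linarith) hts0 h
      have q2 := M.qm v' (M.VsW hv') P' (M.pt_mem_O h1) t (M.WO (M.SW ht)) Q' (M.pt_mem_O hG)
        (fun hW => M.Vs_far_pt (t :: l₁) x v' hv' h1 hW)
        (fun _ => M.Vs_far _ hv' t (M.SE ht) (M.SW ht)) aQ
        (M.ε0 + M.ε1) (M.K * (M.ε0 + M.ε1 + M.η)) (by positivity) (by linarith) (by positivity)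
        hsum hP q1
      exact q2

/-- **(V) for a point/mirror of the piece and a translate, along a word.** -/
theorem claimD (l : List Ob) : ∀ (x y v : Ob), x ∈ M.E → v ∈ M.Vs → M.Good l y →
    M.N x (M.pt l y) ≤ M.V' * (M.N x v * M.N v (M.pt l y)) := by
  have hK := M.hK
  have hK0 : 0 < M.K := by linarith
  have hε0 := M.hε0
  have hε1 := M.ε1_pos
  have hη0 := M.hη0
  induction l with
  | nil =>
    intro x y v hx hv hG
    refine (M.V0 v hv x hx y hG).trans (mul_le_mul_of_nonneg_right ?_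
      (mul_nonneg (M.nonneg _ _) (M.nonneg _ _)))
    unfold V'
    have : 0 ≤ M.K * (M.ε0 + M.ε1 + M.η) := by positivity
    nlinarith
  | cons t l ih =>
    intro x y v hx hv hG
    have ht := hG.1
    by_cases ha : M.adm t x
    · have h := M.claimC l [] t x y v hv ⟨ht, ha, hx⟩ hG (by
        simp only [pt_nil]
        refine (M.V0 v hv x hx t (M.SE ht)).trans (mul_le_mul_of_nonneg_right (by linarith)
          (mul_nonneg (M.nonneg _ _) (M.nonneg _ _))))
      simpa only [pt_nil] using h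
    · -- `x` is the mirror `t`
      have ha' : x ∈ M.W ∧ M.N t x < M.Lam := by
        unfold adm at ha
        push Not at ha
        exact ha
      have hxt := M.nearE t ht x hx ha'.1 ha'.2
      have hx1 : ∀ z, M.N x (M.ρ t • z) = M.N x z := by
        intro z; rw [hxt, hxt, M.N_self_ρ ht]
      have hv' := M.Vs_smul t ht v hv
      have h := ih x y (M.ρ t • v) hx hv' hG.2.2
      rw [pt_cons, hx1, M.N_ρ ht v]
      rw [hx1] at h
      exact h

/-- every word has a reduced form with the same end point (for `N`) -/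
theorem reduce (w : List Ob) : (∀ s ∈ w, s ∈ M.S) → ∀ y ∈ M.E,
    ∃ l y', M.Good l y' ∧ (∀ z, M.N (M.pt w y) z = M.N (M.pt l y') z) := by
  induction w with
  | nil => intro _ y hy; exact ⟨[], y, hy, fun _ => rfl⟩
  | cons t w ih =>
    intro hw y hy
    have ht : t ∈ M.S := hw t (by simp)
    obtain ⟨l, y', hG, hN⟩ := ih (fun s hs => hw s (by simp [hs])) y hy
    have hN' : ∀ z, M.N (M.pt (t :: w) y) z = M.N (M.ρ t • M.pt l y') z := by
      intro z
      rw [pt_cons]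
      have e1 : ∀ q, M.N (M.ρ t • q) z = M.N q (M.ρ t • z) := by
        intro q; rw [M.N_ρ ht]
      rw [e1, e1, hN]
    cases l with
    | nil =>
      by_cases ha : M.adm t y'
      · exact ⟨[t], y', ⟨ht, ha, hG⟩, hN'⟩
      · have ha' : y' ∈ M.W ∧ M.N t y' < M.Lam := by
          unfold adm at ha
          push Not at ha
          exact ha
        have hyt := M.nearE t ht y' hG ha'.1 ha'.2
        refine ⟨[], y', hG, fun z => ?_⟩
        rw [hN', pt_nil, ← M.N_ρ ht, hyt, hyt, M.N_self_ρ ht]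
    | cons s l =>
      have hs : s ∈ M.S := hG.1
      by_cases hc : M.Lam ≤ M.N t s
      · exact ⟨t :: s :: l, y', ⟨ht, fun _ => hc, hG⟩, hN'⟩
      · have hρ := M.nearS t ht s hs (not_le.mp hc)
        refine ⟨l, y', hG.2.2, fun z => ?_⟩
        rw [hN', pt_cons, hρ, M.ρρ hs]

/-- **(V) of the new windmill.** -/
theorem newV (w : List Ob) (hw : ∀ s ∈ w, s ∈ M.S) {x y v : Ob} (hx : x ∈ M.E) (hy : y ∈ M.E)
    (hv : v ∈ M.Vs) : M.N x (M.pt w y) ≤ M.V' * (M.N x v * M.N v (M.pt w y)) := by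
  obtain ⟨l, y', hG, hN⟩ := M.reduce w hw y hy
  have h := M.claimD l x y' v hx hv hG
  have e : ∀ z, M.N z (M.pt w y) = M.N z (M.pt l y') := by
    intro z; rw [M.symm, hN, M.symm]
  rw [e x, e v]
  exact h

/-- the product of the reflections of a word -/
def prd : List Ob → Γ
  | [] => 1
  | t :: l => M.ρ t * prd l

theorem prd_smul (l : List Ob) (y : Ob) : M.prd l • y = M.pt l y := by
  induction l with
  | nil => simp [prd]
  | cons t l ih => rw [pt_cons, ← ih, prd, mul_smul]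

/-- consecutive letters are far -/
def Red : List Ob → Prop
  | [] => True
  | [t] => t ∈ M.S
  | t :: s :: l => t ∈ M.S ∧ M.Lam ≤ M.N t s ∧ Red (s :: l)

theorem reduceG (w : List Ob) : (∀ s ∈ w, s ∈ M.S) → ∃ l, M.Red l ∧ M.prd l = M.prd w := by
  induction w with
  | nil => intro _; exact ⟨[], trivial, rfl⟩
  | cons t w ih =>
    intro hw
    have ht : t ∈ M.S := hw t (by simp)
    obtain ⟨l, hl, he⟩ := ih (fun s hs => hw s (by simp [hs]))
    have hp : M.prd (t :: w) = M.ρ t * M.prd l := by rw [prd, he]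
    rw [hp]
    match l, hl, he with
    | [], _, _ => exact ⟨[t], ht, rfl⟩
    | [s], hl, _ =>
      by_cases hc : M.Lam ≤ M.N t s
      · exact ⟨[t, s], ⟨ht, hc, hl⟩, rfl⟩
      · refine ⟨[], trivial, ?_⟩
        rw [M.nearS t ht s hl (not_le.mp hc)]
        simp [prd, M.ρ_sq s hl]
    | s :: r :: l, hl, _ =>
      by_cases hc : M.Lam ≤ M.N t s
      · exact ⟨t :: s :: r :: l, ⟨ht, hc, hl⟩, rfl⟩
      · refine ⟨r :: l, hl.2.2, ?_⟩
        rw [M.nearS t ht s hl.1 (not_le.mp hc)]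
        show M.prd (r :: l) = M.ρ s * (M.ρ s * M.prd (r :: l))
        rw [← mul_assoc, M.ρ_sq s hl.1, one_mul]

theorem Red.mem : ∀ {l : List Ob}, M.Red l → ∀ s ∈ l, s ∈ M.S
  | [], _ => by simp
  | [t], h => by
      intro s hs
      rw [List.mem_singleton] at hs
      rw [hs]; exact h
  | t :: r :: l, h => by
      intro s hs
      rcases List.mem_cons.mp hs with h1 | h1
      · rw [h1]; exact h.1
      · exact Red.mem h.2.2 s h1

/-- a reduced word followed by an admissible end is good -/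
theorem Red.good : ∀ {l : List Ob} {y : Ob}, M.Red l → y ∈ M.E → (∀ s ∈ M.S, M.adm s y) →
    M.Good l y
  | [], _, _, hy, _ => hy
  | [t], y, h, hy, ha => ⟨h, ha t h, hy⟩
  | t :: r :: l, y, h, hy, ha => ⟨h.1, fun _ => h.2.1, Red.good h.2.2 hy ha⟩

/-- **(GR) along a word**: a non-empty reduced word `t :: l` separates `E` from its translate at the
mirror `t`, seen from every point `x` of `E` visible from all of `S`, and `t` is not a
translate of a mirror of `E` which is far from `S`. -/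
theorem newGR (t : Ob) (l : List Ob) (h : M.Red (t :: l)) {x y : Ob} (hx : x ∈ M.E) (hy : y ∈ M.E)
    (ax : ∀ s ∈ M.S, M.adm s x) (ay : ∀ s ∈ M.S, M.adm s y) :
    1 / (4 * M.K) * (M.N x t * M.N t (M.pt (t :: l) y)) ≤ M.N x (M.pt (t :: l) y) :=
  (M.claimA l t y (Red.good M h hy ay)).2 x hx (ax t (Red.mem M h t (by simp)))

theorem newGR_far (t : Ob) (l : List Ob) (h : M.Red (t :: l)) {y : Ob} (hy : y ∈ M.E) (hyW : y ∈ M.W)
    (ay : ∀ s ∈ M.S, M.adm s y) : M.Lam ≤ M.N t (M.pt (t :: l) y) := by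
  have ht := Red.mem M h t (by simp)
  have hG := Red.good M h hy ay
  rw [pt_cons, M.N_self_ρ ht]
  have hW : M.pt l y ∈ M.W := by
    have : ∀ l : List Ob, M.Good l y → M.pt l y ∈ M.W := by
      intro l
      induction l with
      | nil => intro _; exact hyW
      | cons s l ih => intro hg; exact M.W_smul s hg.1 _ (ih hg.2.2)
    exact this l hG.2.2
  exact (M.claimA l t y hG).1 hW

end WM

end Crest.Agent.R272.WStep_702
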