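/-
# Row 272 (S0414): the wall function and the explicit square roots over the bidisc (helper275)

`F` is a holomorphic self-map of the unit disc with `F 0 = 0 = F' 0`, so `|F z| ≤ |z|^2` (Schwarz).
* `Tw s a b = P / (P + Q)`, `P = (b - α(s) a)⁺`, `Q = (β(s) a - b)⁺`: the wall function, homogeneous of degree `0`
  in `(a,b)` (`s = |z|`, `a = |z|`, `b = |w|`), so it extends to the blow-up of the bidisc at the origin;
* `rt` = principal square root, `qa = w √(1 - F z / w)` on `{T > 0}`, `qb = i z √(1 - w / z)` on `{T < 1}`.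
-/
import Mathlib

noncomputable section

open Topology Filter Set Metric

namespace Crest.Agent.R272.Wall_275

/-! ### the wall function -/

def al (s : ℝ) : ℝ := s + (1 - s) / 3
def be (s : ℝ) : ℝ := s + 2 * (1 - s) / 3
def PP (s a b : ℝ) : ℝ := max (b - al s * a) 0
def QQ (s a b : ℝ) : ℝ := max (be s * a - b) 0
/-- the wall function. -/
def Tw (s a b : ℝ) : ℝ := PP s a b / (PP s a b + QQ s a b)

theorem al_lt_be {s : ℝ} (h : s < 1) : al s < be s := by unfold al be; linarith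
theorem lt_al {s : ℝ} (h : s < 1) : s < al s := by unfold al; linarith
theorem be_lt {s : ℝ} (h : s < 1) : be s < 1 := by unfold be; linarith
theorem al_pos {s : ℝ} (h0 : 0 ≤ s) : 0 < al s := by unfold al; linarith
theorem be_pos {s : ℝ} (h0 : 0 ≤ s) : 0 < be s := by unfold be; linarith
theorem al_lt {s : ℝ} (h : s < 1) : al s < 1 := (al_lt_be h).trans (be_lt h)

theorem PP_nonneg (s a b : ℝ) : 0 ≤ PP s a b := le_max_right _ _
theorem QQ_nonneg (s a b : ℝ) : 0 ≤ QQ s a b := le_max_right _ _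

theorem PQ_pos {s a b : ℝ} (h1 : s < 1) (ha : 0 ≤ a) (hb : 0 ≤ b) (hab : a ≠ 0 ∨ b ≠ 0) :
    0 < PP s a b + QQ s a b := by
  by_contra h
  have hP := PP_nonneg s a b
  have hQ := QQ_nonneg s a b
  have hP0 : PP s a b = 0 := by linarith
  have hQ0 : QQ s a b = 0 := by linarith
  have h2 : b - al s * a ≤ 0 := by rw [← hP0]; exact le_max_left _ _
  have h3 : be s * a - b ≤ 0 := by rw [← hQ0]; exact le_max_left _ _
  have h4 := al_lt_be h1
  have h5 : a = 0 := by nlinarith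
  rw [h5] at h2
  have h6 : b = 0 := by linarith
  rcases hab with h7 | h7
  · exact h7 h5
  · exact h7 h6

theorem Tw_nonneg (s a b : ℝ) : 0 ≤ Tw s a b :=
  div_nonneg (PP_nonneg _ _ _) (add_nonneg (PP_nonneg _ _ _) (QQ_nonneg _ _ _))

theorem Tw_le_one (s a b : ℝ) : Tw s a b ≤ 1 :=
  div_le_one_of_le₀ (le_add_of_nonneg_right (QQ_nonneg _ _ _))
    (add_nonneg (PP_nonneg _ _ _) (QQ_nonneg _ _ _))

/-- homogeneity of degree `0`. -/
theorem Tw_smul {s a b c : ℝ} (hc : 0 < c) : Tw s (c * a) (c * b) = Tw s a b := by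
  have h1 : PP s (c * a) (c * b) = c * PP s a b := by
    unfold PP
    rw [show c * b - al s * (c * a) = c * (b - al s * a) by ring, mul_max_of_nonneg _ _ hc.le, mul_zero]
  have h2 : QQ s (c * a) (c * b) = c * QQ s a b := by
    unfold QQ
    rw [show be s * (c * a) - c * b = c * (be s * a - b) by ring, mul_max_of_nonneg _ _ hc.le, mul_zero]
  unfold Tw
  rw [h1, h2, ← mul_add, mul_div_mul_left _ _ hc.ne']

theorem Tw_eq_zero_iff {s a b : ℝ} (h1 : s < 1) (ha : 0 ≤ a) (hb : 0 ≤ b) (hab : a ≠ 0 ∨ b ≠ 0) :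
    Tw s a b = 0 ↔ b ≤ al s * a := by
  unfold Tw
  rw [div_eq_zero_iff, or_iff_left (PQ_pos h1 ha hb hab).ne']
  unfold PP
  rw [max_eq_right_iff, sub_nonpos]

theorem Tw_eq_one_iff {s a b : ℝ} (h1 : s < 1) (ha : 0 ≤ a) (hb : 0 ≤ b) (hab : a ≠ 0 ∨ b ≠ 0) :
    Tw s a b = 1 ↔ be s * a ≤ b := by
  unfold Tw
  rw [div_eq_one_iff_eq (PQ_pos h1 ha hb hab).ne', left_eq_add]
  unfold QQ
  rw [max_eq_right_iff, sub_nonpos]

theorem Tw_pos_iff {s a b : ℝ} (h1 : s < 1) (ha : 0 ≤ a) (hb : 0 ≤ b) (hab : a ≠ 0 ∨ b ≠ 0) :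
    Tw s a b ≠ 0 ↔ al s * a < b := by
  rw [Ne, Tw_eq_zero_iff h1 ha hb hab, not_le]

theorem Tw_lt_one_iff {s a b : ℝ} (h1 : s < 1) (ha : 0 ≤ a) (hb : 0 ≤ b) (hab : a ≠ 0 ∨ b ≠ 0) :
    Tw s a b ≠ 1 ↔ b < be s * a := by
  rw [Ne, Tw_eq_one_iff h1 ha hb hab, not_le]

/-- continuity of the wall function, composition form. -/
theorem continuous_Tw {E : Type*} [TopologicalSpace E] {s a b : E → ℝ} (hs : Continuous s)
    (ha : Continuous a) (hb : Continuous b) (h1 : ∀ x, s x < 1) (ha0 : ∀ x, 0 ≤ a x)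
    (hb0 : ∀ x, 0 ≤ b x) (hab : ∀ x, a x ≠ 0 ∨ b x ≠ 0) :
    Continuous (fun x => Tw (s x) (a x) (b x)) := by
  have hal : Continuous (fun x => al (s x)) := by unfold al; fun_prop
  have hbe : Continuous (fun x => be (s x)) := by unfold be; fun_prop
  have hP : Continuous (fun x => PP (s x) (a x) (b x)) := by unfold PP; fun_prop
  have hQ : Continuous (fun x => QQ (s x) (a x) (b x)) := by unfold QQ; fun_prop
  exact hP.div (hP.add hQ) (fun x => (PQ_pos (h1 x) (ha0 x) (hb0 x) (hab x)).ne')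

theorem continuousAt_Tw {E : Type*} [TopologicalSpace E] {s a b : E → ℝ} {x : E}
    (hs : ContinuousAt s x) (ha : ContinuousAt a x) (hb : ContinuousAt b x) (h1 : s x < 1)
    (ha0 : 0 ≤ a x) (hb0 : 0 ≤ b x) (hab : a x ≠ 0 ∨ b x ≠ 0) :
    ContinuousAt (fun x => Tw (s x) (a x) (b x)) x := by
  have hP : ContinuousAt (fun x => PP (s x) (a x) (b x)) x := by unfold PP al; fun_prop
  have hQ : ContinuousAt (fun x => QQ (s x) (a x) (b x)) x := by unfold QQ be; fun_prop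
  exact hP.div (hP.add hQ) (PQ_pos h1 ha0 hb0 hab).ne'

/-! ### Schwarz -/

/-- `|F z| ≤ |z|^2`. -/
theorem schwarz {F : ℂ → ℂ} (hd : DifferentiableOn ℂ F (ball 0 1)) (hm : MapsTo F (ball 0 1) (closedBall 0 1))
    (h0 : F 0 = 0) (h1 : deriv F 0 = 0) {z : ℂ} (hz : ‖z‖ < 1) : ‖F z‖ ≤ ‖z‖ ^ 2 := by
  have hdd : DifferentiableAt ℂ F 0 := (hd 0 (mem_ball_self one_pos)).differentiableAt (ball_mem_nhds 0 one_pos)
  have h2 : HasDerivAt F 0 0 := by
    have := hdd.hasDerivAt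
    rwa [h1] at this
  have h3 : (fun z => F z - F 0) =o[𝓝 0] (fun w : ℂ => ‖w - 0‖ ^ 1) := by
    have := h2.isLittleO
    simp only [sub_zero, smul_zero, pow_one] at this ⊢
    exact this.norm_right
  have h4 := Complex.dist_le_mul_div_pow_of_mapsTo_ball_of_isLittleO (n := 1) hd (by rwa [h0]) h3
    (mem_ball_zero_iff.mpr hz)
  simpa [h0] using h4

/-! ### the principal square root -/

/-- principal square root. -/
def rt (x : ℂ) : ℂ := Complex.exp (Complex.log x / 2)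

theorem rt_sq {x : ℂ} (h : x ≠ 0) : rt x ^ 2 = x := by
  unfold rt
  rw [← Complex.exp_nat_mul]
  have : ((2 : ℕ) : ℂ) * (Complex.log x / 2) = Complex.log x := by push_cast; ring
  rw [this, Complex.exp_log h]

theorem rt_ne_zero (x : ℂ) : rt x ≠ 0 := Complex.exp_ne_zero _

theorem rt_one : rt 1 = 1 := by simp [rt]

theorem slit_one_sub {x : ℂ} (h : ‖x‖ < 1) : 1 - x ∈ Complex.slitPlane := by
  left
  have := (Complex.abs_re_le_norm x).trans_lt h
  have h2 := (abs_lt.mp this).2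
  simp only [Complex.sub_re, Complex.one_re]
  linarith

theorem differentiableAt_rt {x : ℂ} (h : x ∈ Complex.slitPlane) : DifferentiableAt ℂ rt x :=
  ((Complex.differentiableAt_log h).div_const 2).cexp

theorem continuousAt_rt {x : ℂ} (h : x ∈ Complex.slitPlane) : ContinuousAt rt x :=
  (differentiableAt_rt h).continuousAt

/-- the two square roots: a number with the same square is `±`. -/
theorem eq_or_neg_of_sq {x y : ℂ} (h : x ^ 2 = y ^ 2) : x = y ∨ x = -y := sq_eq_sq_iff_eq_or_eq_neg.mp h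

/-! ### the two roots over the bidisc -/

section roots

variable {F : ℂ → ℂ}

/-- `√(w (w - F z))` where `|F z| < |w|`. -/
def qa (F : ℂ → ℂ) (z w : ℂ) : ℂ := w * rt (1 - F z / w)
/-- `√(z (w - z))` where `|w| < |z|`. -/
def qb (z w : ℂ) : ℂ := Complex.I * z * rt (1 - w / z)

theorem norm_div_lt {x y : ℂ} (h : ‖x‖ < ‖y‖) : ‖x / y‖ < 1 := by
  rw [norm_div]
  exact (div_lt_one (lt_of_le_of_lt (norm_nonneg _) h)).mpr h

theorem qa_sq {z w : ℂ} (h : ‖F z‖ < ‖w‖) : qa F z w ^ 2 = w * (w - F z) := by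
  have hw : w ≠ 0 := norm_pos_iff.mp (lt_of_le_of_lt (norm_nonneg _) h)
  unfold qa
  rw [mul_pow, rt_sq (Complex.slitPlane_ne_zero (slit_one_sub (norm_div_lt h)))]
  field_simp

theorem qa_ne_zero {z w : ℂ} (h : ‖F z‖ < ‖w‖) : qa F z w ≠ 0 :=
  mul_ne_zero (norm_pos_iff.mp (lt_of_le_of_lt (norm_nonneg _) h)) (rt_ne_zero _)

theorem qb_sq {z w : ℂ} (h : ‖w‖ < ‖z‖) : qb z w ^ 2 = z * (w - z) := by
  have hz : z ≠ 0 := norm_pos_iff.mp (lt_of_le_of_lt (norm_nonneg _) h)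
  unfold qb
  rw [mul_pow, mul_pow, Complex.I_sq, rt_sq (Complex.slitPlane_ne_zero (slit_one_sub (norm_div_lt h)))]
  field_simp
  ring

theorem qb_ne_zero {z w : ℂ} (h : ‖w‖ < ‖z‖) : qb z w ≠ 0 :=
  mul_ne_zero (mul_ne_zero Complex.I_ne_zero (norm_pos_iff.mp (lt_of_le_of_lt (norm_nonneg _) h)))
    (rt_ne_zero _)

variable {E : Type*} [TopologicalSpace E]

theorem continuousAt_qa {z w : E → ℂ} {x : E} (hF : ContinuousAt F (z x)) (hz : ContinuousAt z x)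
    (hw : ContinuousAt w x) (h : ‖F (z x)‖ < ‖w x‖) : ContinuousAt (fun x => qa F (z x) (w x)) x := by
  have hw0 : w x ≠ 0 := norm_pos_iff.mp (lt_of_le_of_lt (norm_nonneg _) h)
  have h1 : ContinuousAt (fun x => 1 - F (z x) / w x) x :=
    continuousAt_const.sub ((hF.comp (f := z) hz).div hw hw0)
  exact hw.mul ((continuousAt_rt (slit_one_sub (norm_div_lt h))).comp (f := fun x => 1 - F (z x) / w x) h1)

theorem continuousAt_qb {z w : E → ℂ} {x : E} (hz : ContinuousAt z x)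
    (hw : ContinuousAt w x) (h : ‖w x‖ < ‖z x‖) : ContinuousAt (fun x => qb (z x) (w x)) x := by
  have hz0 : z x ≠ 0 := norm_pos_iff.mp (lt_of_le_of_lt (norm_nonneg _) h)
  have h1 : ContinuousAt (fun x => 1 - w x / z x) x := continuousAt_const.sub (hw.div hz hz0)
  exact (continuousAt_const.mul hz).mul
    ((continuousAt_rt (slit_one_sub (norm_div_lt h))).comp (f := fun x => 1 - w x / z x) h1)

end roots

/-! ### positions of the four curves, and the region of definition of the roots -/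

section position

variable {F : ℂ → ℂ}

/-- `T(z,w)` off the origin of the bidisc. -/
def T0 (z w : ℂ) : ℝ := Tw ‖z‖ ‖z‖ ‖w‖

theorem T0_ne_zero_iff {z w : ℂ} (hz : ‖z‖ < 1) (h : z ≠ 0 ∨ w ≠ 0) :
    T0 z w ≠ 0 ↔ al ‖z‖ * ‖z‖ < ‖w‖ :=
  Tw_pos_iff hz (norm_nonneg _) (norm_nonneg _) (h.imp norm_ne_zero_iff.mpr norm_ne_zero_iff.mpr)

theorem T0_ne_one_iff {z w : ℂ} (hz : ‖z‖ < 1) (h : z ≠ 0 ∨ w ≠ 0) :
    T0 z w ≠ 1 ↔ ‖w‖ < be ‖z‖ * ‖z‖ :=
  Tw_lt_one_iff hz (norm_nonneg _) (norm_nonneg _) (h.imp norm_ne_zero_iff.mpr norm_ne_zero_iff.mpr)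

/-- where `T > 0` the root `qa` is defined. -/
theorem F_lt_of_T0 (hF : ∀ z : ℂ, ‖z‖ < 1 → ‖F z‖ ≤ ‖z‖ ^ 2) {z w : ℂ} (hz : ‖z‖ < 1)
    (h : z ≠ 0 ∨ w ≠ 0) (hT : T0 z w ≠ 0) : ‖F z‖ < ‖w‖ := by
  have h1 := (T0_ne_zero_iff hz h).mp hT
  have h2 := hF z hz
  have h3 := lt_al hz
  have h4 : ‖z‖ ^ 2 ≤ al ‖z‖ * ‖z‖ := by nlinarith [norm_nonneg z]
  linarith

/-- where `T < 1` the root `qb` is defined. -/
theorem lt_of_T0 {z w : ℂ} (hz : ‖z‖ < 1) (h : z ≠ 0 ∨ w ≠ 0) (hT : T0 z w ≠ 1) : ‖w‖ < ‖z‖ := by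
  have h1 := (T0_ne_one_iff hz h).mp hT
  have h3 := be_lt hz
  have h4 : be ‖z‖ * ‖z‖ ≤ ‖z‖ := by nlinarith [norm_nonneg z]
  linarith

/-- `G_1 = {w = 0}` and `G_2 = {w = F z}` lie in `{T = 0}`. -/
theorem T0_curve_a (hF : ∀ z : ℂ, ‖z‖ < 1 → ‖F z‖ ≤ ‖z‖ ^ 2) {z w : ℂ} (hz : ‖z‖ < 1)
    (h : z ≠ 0 ∨ w ≠ 0) (hw : w * (w - F z) = 0) : T0 z w = 0 := by
  by_contra hT
  have h1 := F_lt_of_T0 hF hz h hT
  rcases mul_eq_zero.mp hw with h2 | h2
  · rw [h2, norm_zero] at h1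
    exact absurd h1 (not_lt.mpr (norm_nonneg _))
  · rw [sub_eq_zero.mp h2] at h1
    exact lt_irrefl _ h1

/-- `G_3 = {z = 0}` and `G_4 = {w = z}` lie in `{T = 1}`. -/
theorem T0_curve_b {z w : ℂ} (hz : ‖z‖ < 1) (h : z ≠ 0 ∨ w ≠ 0) (hw : z * (w - z) = 0) :
    T0 z w = 1 := by
  by_contra hT
  have h1 := lt_of_T0 hz h hT
  rcases mul_eq_zero.mp hw with h2 | h2
  · rw [h2, norm_zero] at h1
    exact absurd h1 (not_lt.mpr (norm_nonneg _))
  · rw [sub_eq_zero.mp h2] at h1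
    exact lt_irrefl _ h1

end position

end Crest.Agent.R272.Wall_275
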