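/-
# Row 272 (S0414): the circle valued function on the cover with the two roots (helper275)

`E` is any space with continuous `z, w : E → ℂ` (the coordinates of the bidisc), `a, b : E → ℂ` with
`a² = w (w - F z)`, `b² = z (w - z)`, `|F z| ≤ |z|²`.  Off the special fibre `{z = w = 0}` the wall function is
`T = T0 z w` and the sheet function is `ε = (a / qa) (b / qb)`.  Near the special fibre only the local existence of
the slope `u = w / z` (or `v = z / w`) and, on the wall, of `κ = b / z`, `λ = a / w` is needed.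
Output: a continuous `θ : E → ℝ/ℤ` and its values along the special fibre.
-/
import Mathlib
import Crest.Agent.R272.Th_275
import Crest.Agent.R272.Wall1_275

noncomputable section

open Topology Filter Set Metric
open scoped unitInterval

open Crest.Agent.R272.Th_275 Crest.Agent.R272.Wall_275

namespace Crest.Agent.R272.Wall2_275

/-- the data off the special fibre -/
structure WD (E : Type*) [TopologicalSpace E] where
  F : ℂ → ℂ
  z : E → ℂ
  w : E → ℂ
  a : E → ℂ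
  b : E → ℂ
  cz : Continuous z
  cw : Continuous w
  ca : Continuous a
  cb : Continuous b
  cF : ContinuousOn F (ball 0 1)
  hz : ∀ x, ‖z x‖ < 1
  hF : ∀ z : ℂ, ‖z‖ < 1 → ‖F z‖ ≤ ‖z‖ ^ 2
  sa : ∀ x, a x ^ 2 = w x * (w x - F (z x))
  sb : ∀ x, b x ^ 2 = z x * (w x - z x)

namespace WD

variable {E : Type*} [TopologicalSpace E] (W : WD E)

/-- the complement of the special fibre -/
def A : Set E := {x | W.z x ≠ 0 ∨ W.w x ≠ 0}

theorem isOpen_A : IsOpen W.A :=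
  (isOpen_ne_fun W.cz continuous_const).union (isOpen_ne_fun W.cw continuous_const)

/-- the slope `w / z` extends at `x`, with value `μ` -/
def SlopeAt (x : E) (μ : ℂ) : Prop :=
  ∃ u : E → ℂ, ContinuousAt u x ∧ u x = μ ∧ ∀ᶠ y in 𝓝 x, W.w y = W.z y * u y

/-- the slope is `∞` at `x` -/
def SlopeInf (x : E) : Prop :=
  ∃ v : E → ℂ, ContinuousAt v x ∧ v x = 0 ∧ ∀ᶠ y in 𝓝 x, W.z y = W.w y * v y

/-- `b / z` extends at `x`, with value `k` -/
def KapAt (x : E) (k : ℂ) : Prop :=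
  ∃ κ : E → ℂ, ContinuousAt κ x ∧ κ x = k ∧ ∀ᶠ y in 𝓝 x, W.b y = W.z y * κ y

/-- `a / w` extends at `x`, with value `l` -/
def LamAt (x : E) (l : ℂ) : Prop :=
  ∃ lam : E → ℂ, ContinuousAt lam x ∧ lam x = l ∧ ∀ᶠ y in 𝓝 x, W.a y = W.w y * lam y

/-- the local hypotheses at the special fibre -/
structure Ext : Prop where
  nb : ∀ x ∉ W.A, (𝓝[W.A] x).NeBot
  slope : ∀ x ∉ W.A, (∃ μ, W.SlopeAt x μ) ∨ W.SlopeInf x
  kap : ∀ x ∉ W.A, ∀ μ, W.SlopeAt x μ → 1 / 3 < ‖μ‖ → ‖μ‖ < 2 / 3 → ∃ k, W.KapAt x k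
  lam : ∀ x ∉ W.A, ∀ μ, W.SlopeAt x μ → 1 / 3 < ‖μ‖ → ‖μ‖ < 2 / 3 → ∃ l, W.LamAt x l

theorem not_mem_A {x : E} (h : x ∉ W.A) : W.z x = 0 ∧ W.w x = 0 := by
  unfold A at h
  simp only [mem_ofPred_eq, not_or, not_not] at h
  exact h

/-- the wall function off the special fibre -/
def t0 (x : E) : ℝ := T0 (W.z x) (W.w x)

theorem continuousAt_t0 {x : E} (h : x ∈ W.A) : ContinuousAt W.t0 x := by
  unfold t0 T0
  exact continuousAt_Tw W.cz.norm.continuousAt W.cz.norm.continuousAt W.cw.norm.continuousAt (W.hz x)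
    (norm_nonneg _) (norm_nonneg _) (h.imp norm_ne_zero_iff.mpr norm_ne_zero_iff.mpr)

theorem tendsto_t0_slope {x : E} (hx : x ∉ W.A) {μ : ℂ} (h : W.SlopeAt x μ) :
    Tendsto W.t0 (𝓝[W.A] x) (𝓝 (Tw 0 1 ‖μ‖)) := by
  obtain ⟨u, hu, hux, hw⟩ := h
  obtain ⟨hz0, hw0⟩ := W.not_mem_A hx
  have h1 : ContinuousAt (fun y => Tw ‖W.z y‖ 1 ‖u y‖) x :=
    continuousAt_Tw W.cz.norm.continuousAt continuousAt_const hu.norm (W.hz x) zero_le_one
      (norm_nonneg _) (Or.inl one_ne_zero)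
  have h2 : Tendsto (fun y => Tw ‖W.z y‖ 1 ‖u y‖) (𝓝[W.A] x) (𝓝 (Tw 0 1 ‖μ‖)) := by
    have h3 := h1.tendsto.mono_left (nhdsWithin_le_nhds (s := W.A))
    rwa [hz0, norm_zero, hux] at h3
  refine h2.congr' ?_
  filter_upwards [self_mem_nhdsWithin, hw.filter_mono (nhdsWithin_le_nhds (s := W.A))] with y hyA hy
  have hzy : W.z y ≠ 0 := by
    intro h0
    rw [h0, zero_mul] at hy
    exact hyA.elim (fun h => h h0) (fun h => h hy)
  unfold t0 T0
  rw [hy, norm_mul]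
  have := Tw_smul (s := ‖W.z y‖) (a := 1) (b := ‖u y‖) (norm_pos_iff.mpr hzy)
  rw [mul_one] at this
  exact this.symm

theorem tendsto_t0_inf {x : E} (hx : x ∉ W.A) (h : W.SlopeInf x) :
    Tendsto W.t0 (𝓝[W.A] x) (𝓝 1) := by
  obtain ⟨v, hv, hvx, hw⟩ := h
  obtain ⟨hz0, hw0⟩ := W.not_mem_A hx
  have h1 : ContinuousAt (fun y => Tw ‖W.z y‖ ‖v y‖ 1) x :=
    continuousAt_Tw W.cz.norm.continuousAt hv.norm continuousAt_const (W.hz x) (norm_nonneg _)
      zero_le_one (Or.inr one_ne_zero)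
  have h2 : Tendsto (fun y => Tw ‖W.z y‖ ‖v y‖ 1) (𝓝[W.A] x) (𝓝 1) := by
    have h3 := h1.tendsto.mono_left (nhdsWithin_le_nhds (s := W.A))
    rw [hz0, hvx, norm_zero] at h3
    have h4 : Tw 0 0 1 = 1 := by
      rw [Tw_eq_one_iff zero_lt_one le_rfl zero_le_one (Or.inr one_ne_zero)]; simp
    rwa [h4] at h3
  refine h2.congr' ?_
  filter_upwards [self_mem_nhdsWithin, hw.filter_mono (nhdsWithin_le_nhds (s := W.A))] with y hyA hy
  have hwy : W.w y ≠ 0 := by
    intro h0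
    rw [h0, zero_mul] at hy
    exact hyA.elim (fun h => h hy) (fun h => h h0)
  unfold t0 T0
  have := Tw_smul (s := ‖W.z y‖) (a := ‖v y‖) (b := 1) (norm_pos_iff.mpr hwy)
  rw [mul_one, ← norm_mul, ← hy] at this
  exact this.symm

/-- the wall function -/
def T : E → ℝ := extendFrom W.A W.t0

variable {W}

theorem Ext.closure (H : W.Ext) (x : E) : x ∈ closure W.A := by
  by_cases h : x ∈ W.A
  · exact subset_closure h
  · exact mem_closure_iff_nhdsWithin_neBot.mpr (H.nb x h)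

theorem Ext.tendsto_t0 (H : W.Ext) (x : E) : ∃ y, Tendsto W.t0 (𝓝[W.A] x) (𝓝 y) := by
  by_cases h : x ∈ W.A
  · exact ⟨_, (W.continuousAt_t0 h).tendsto.mono_left nhdsWithin_le_nhds⟩
  · rcases H.slope x h with ⟨μ, hμ⟩ | h1
    · exact ⟨_, W.tendsto_t0_slope h hμ⟩
    · exact ⟨_, W.tendsto_t0_inf h h1⟩

theorem Ext.continuous_T (H : W.Ext) : Continuous W.T :=
  continuous_extendFrom (fun x => H.closure x) H.tendsto_t0

theorem Ext.T_of_mem (H : W.Ext) {x : E} (h : x ∈ W.A) : W.T x = W.t0 x :=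
  extendFrom_eq (H.closure x) ((W.continuousAt_t0 h).tendsto.mono_left nhdsWithin_le_nhds)

theorem Ext.T_of_slope (H : W.Ext) {x : E} (hx : x ∉ W.A) {μ : ℂ} (h : W.SlopeAt x μ) :
    W.T x = Tw 0 1 ‖μ‖ :=
  extendFrom_eq (H.closure x) (W.tendsto_t0_slope hx h)

theorem Ext.T_of_inf (H : W.Ext) {x : E} (hx : x ∉ W.A) (h : W.SlopeInf x) : W.T x = 1 :=
  extendFrom_eq (H.closure x) (W.tendsto_t0_inf hx h)

theorem tw_ne {m : ℝ} (hm : 0 ≤ m) : (Tw 0 1 m ≠ 0 ↔ 1 / 3 < m) ∧ (Tw 0 1 m ≠ 1 ↔ m < 2 / 3) := by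
  refine ⟨?_, ?_⟩
  · rw [Tw_pos_iff zero_lt_one zero_le_one hm (Or.inl one_ne_zero)]
    unfold al; norm_num
  · rw [Tw_lt_one_iff zero_lt_one zero_le_one hm (Or.inl one_ne_zero)]
    unfold be; norm_num

variable (W)

/-- the wall region -/
def O : Set E := {x | W.T x ≠ 0 ∧ W.T x ≠ 1}

/-- the sheet function off the special fibre -/
def fe (x : E) : ℂ :=
  (W.a x / qa W.F (W.z x) (W.w x)) * (W.b x / qb (W.z x) (W.w x))

variable {W}

theorem Ext.isOpen_O (H : W.Ext) : IsOpen W.O :=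
  (isOpen_ne_fun H.continuous_T continuous_const).inter
    (isOpen_ne_fun H.continuous_T continuous_const)

theorem Ext.lt_a (H : W.Ext) {x : E} (hA : x ∈ W.A) (hO : x ∈ W.O) :
    ‖W.F (W.z x)‖ < ‖W.w x‖ := by
  have h := hO.1
  rw [H.T_of_mem hA] at h
  exact F_lt_of_T0 W.hF (W.hz x) hA h

theorem Ext.lt_b (H : W.Ext) {x : E} (hA : x ∈ W.A) (hO : x ∈ W.O) : ‖W.w x‖ < ‖W.z x‖ := by
  have h := hO.2
  rw [H.T_of_mem hA] at h
  exact lt_of_T0 (W.hz x) hA h

theorem Ext.fe_sq (H : W.Ext) {x : E} (hA : x ∈ W.A) (hO : x ∈ W.O) : W.fe x ^ 2 = 1 := by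
  have h1 := H.lt_a hA hO
  have h2 := H.lt_b hA hO
  have ha : W.a x ^ 2 / qa W.F (W.z x) (W.w x) ^ 2 = 1 := by
    rw [W.sa, qa_sq h1]
    rw [← qa_sq h1]
    exact div_self (pow_ne_zero _ (qa_ne_zero h1))
  have hb : W.b x ^ 2 / qb (W.z x) (W.w x) ^ 2 = 1 := by
    rw [W.sb, qb_sq h2]
    rw [← qb_sq h2]
    exact div_self (pow_ne_zero _ (qb_ne_zero h2))
  unfold fe
  rw [mul_pow, div_pow, div_pow, ha, hb, one_mul]

theorem continuousAt_F (x : E) : ContinuousAt W.F (W.z x) :=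
  (W.cF _ (mem_ball_zero_iff.mpr (W.hz x))).continuousAt
    (isOpen_ball.mem_nhds (mem_ball_zero_iff.mpr (W.hz x)))

theorem Ext.continuousAt_fe (H : W.Ext) {x : E} (hA : x ∈ W.A) (hO : x ∈ W.O) :
    ContinuousAt W.fe x := by
  have h1 := H.lt_a hA hO
  have h2 := H.lt_b hA hO
  exact (W.ca.continuousAt.div (continuousAt_qa (continuousAt_F x) W.cz.continuousAt
    W.cw.continuousAt h1) (qa_ne_zero h1)).mul
    (W.cb.continuousAt.div (continuousAt_qb W.cz.continuousAt W.cw.continuousAt h2) (qb_ne_zero h2))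

/-- the value of the sheet function on the special fibre -/
theorem tendsto_fe {x : E} (hx : x ∉ W.A) {μ k l : ℂ} (hμ : W.SlopeAt x μ) (hk : W.KapAt x k)
    (hl : W.LamAt x l) (h0 : μ ≠ 0) (h1 : ‖μ‖ < 1) :
    Tendsto W.fe (𝓝[W.A] x) (𝓝 (l * (k / (Complex.I * rt (1 - μ))))) := by
  obtain ⟨u, hu, hux, hw⟩ := hμ
  obtain ⟨κ, hκ, hκx, hkk⟩ := hk
  obtain ⟨lam, hlam, hlamx, hll⟩ := hl
  obtain ⟨hz0, hw0⟩ := W.not_mem_A hx
  -- `F z / w → 0`
  have hFw : Tendsto (fun y => W.F (W.z y) / W.w y) (𝓝[W.A] x) (𝓝 0) := by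
    rw [tendsto_zero_iff_norm_tendsto_zero]
    have h3 : ContinuousAt (fun y => ‖W.z y‖ / ‖u y‖) x :=
      W.cz.norm.continuousAt.div hu.norm (by rw [hux]; exact norm_ne_zero_iff.mpr h0)
    have h4 : Tendsto (fun y => ‖W.z y‖ / ‖u y‖) (𝓝[W.A] x) (𝓝 0) := by
      have := h3.tendsto.mono_left (nhdsWithin_le_nhds (s := W.A))
      rwa [hz0, norm_zero, zero_div] at this
    refine squeeze_zero' (Eventually.of_forall fun y => norm_nonneg _) ?_ h4
    filter_upwards [hw.filter_mono (nhdsWithin_le_nhds (s := W.A)), self_mem_nhdsWithin] with y hy hyA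
    have hzy : W.z y ≠ 0 := by
      intro h0
      rw [h0, zero_mul] at hy
      exact hyA.elim (fun h => h h0) (fun h => h hy)
    rw [norm_div, hy, norm_mul]
    have h5 := W.hF (W.z y) (W.hz y)
    have h6 : 0 < ‖W.z y‖ := norm_pos_iff.mpr hzy
    rcases (norm_nonneg (u y)).eq_or_lt with h7 | h7
    · rw [← h7]; simp
    · rw [div_le_div_iff₀ (by positivity) h7]
      nlinarith [mul_le_mul_of_nonneg_right h5 h7.le]
  have hslit : (1 : ℂ) - μ ∈ Complex.slitPlane := slit_one_sub h1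
  have hl1 : Tendsto (fun y => lam y / rt (1 - W.F (W.z y) / W.w y)) (𝓝[W.A] x) (𝓝 l) := by
    have h3 : Tendsto (fun y => rt (1 - W.F (W.z y) / W.w y)) (𝓝[W.A] x) (𝓝 (rt 1)) := by
      have h4 : ContinuousAt rt (1 - 0) := continuousAt_rt (by simp)
      have h5 := h4.tendsto.comp (tendsto_const_nhds.sub hFw)
      rw [sub_zero] at h5
      exact h5
    rw [rt_one] at h3
    have h6 := (hlam.tendsto.mono_left (nhdsWithin_le_nhds (s := W.A))).div h3 one_ne_zero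
    rwa [div_one, hlamx] at h6
  have hk1 : Tendsto (fun y => κ y / (Complex.I * rt (1 - u y))) (𝓝[W.A] x)
      (𝓝 (k / (Complex.I * rt (1 - μ)))) := by
    have h3 : ContinuousAt (fun y => rt (1 - u y)) x := by
      have h4 : ContinuousAt rt (1 - u x) := by rw [hux]; exact continuousAt_rt hslit
      exact h4.comp (f := fun y => 1 - u y) (continuousAt_const.sub hu)
    have h5 : ContinuousAt (fun y => κ y / (Complex.I * rt (1 - u y))) x :=
      hκ.div (continuousAt_const.mul h3) (mul_ne_zero Complex.I_ne_zero (rt_ne_zero _))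
    have h6 := h5.tendsto.mono_left (nhdsWithin_le_nhds (s := W.A))
    rwa [hux, hκx] at h6
  refine (hl1.mul hk1).congr' ?_
  have hune : ∀ᶠ y in 𝓝 x, u y ≠ 0 := by
    have := hu.eventually_ne (by rw [hux]; exact h0)
    exact this
  filter_upwards [hw.filter_mono (nhdsWithin_le_nhds (s := W.A)), self_mem_nhdsWithin,
    hkk.filter_mono (nhdsWithin_le_nhds (s := W.A)), hll.filter_mono (nhdsWithin_le_nhds (s := W.A)),
    hune.filter_mono (nhdsWithin_le_nhds (s := W.A))] with y hy hyA hyk hyl hyu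
  have hzy : W.z y ≠ 0 := by
    intro h0
    rw [h0, zero_mul] at hy
    exact hyA.elim (fun h => h h0) (fun h => h hy)
  have hwy : W.w y ≠ 0 := by rw [hy]; exact mul_ne_zero hzy hyu
  have hu' : W.w y / W.z y = u y := by rw [hy]; field_simp
  unfold fe qa qb
  rw [hyk, hyl, hu']
  have e1 : W.w y * lam y / (W.w y * rt (1 - W.F (W.z y) / W.w y))
      = lam y / rt (1 - W.F (W.z y) / W.w y) := mul_div_mul_left _ _ hwy
  have e2 : W.z y * κ y / (Complex.I * W.z y * rt (1 - u y)) = κ y / (Complex.I * rt (1 - u y)) := by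
    rw [show Complex.I * W.z y * rt (1 - u y) = W.z y * (Complex.I * rt (1 - u y)) by ring]
    exact mul_div_mul_left _ _ hzy
  rw [e1, e2]

theorem Ext.slope_of_O (H : W.Ext) {x : E} (hA : x ∉ W.A) (hO : x ∈ W.O) :
    ∃ μ, W.SlopeAt x μ ∧ 1 / 3 < ‖μ‖ ∧ ‖μ‖ < 2 / 3 := by
  rcases H.slope x hA with ⟨μ, hμ⟩ | h
  · have h1 := H.T_of_slope hA hμ
    have h2 := hO.1
    have h3 := hO.2
    rw [h1] at h2 h3
    exact ⟨μ, hμ, (tw_ne (norm_nonneg _)).1.mp h2, (tw_ne (norm_nonneg _)).2.mp h3⟩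
  · exact absurd (H.T_of_inf hA h) hO.2

theorem Ext.exists_tendsto_fe (H : W.Ext) {x : E} (hO : x ∈ W.O) :
    ∃ y, Tendsto W.fe (𝓝[W.A] x) (𝓝 y) := by
  by_cases hA : x ∈ W.A
  · exact ⟨_, (H.continuousAt_fe hA hO).tendsto.mono_left nhdsWithin_le_nhds⟩
  · obtain ⟨μ, hμ, h1, h2⟩ := H.slope_of_O hA hO
    obtain ⟨k, hk⟩ := H.kap x hA μ hμ h1 h2
    obtain ⟨l, hl⟩ := H.lam x hA μ hμ h1 h2
    have h0 : μ ≠ 0 := by
      rintro rfl
      rw [norm_zero] at h1
      linarith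
    exact ⟨_, tendsto_fe hA hμ hk hl h0 (by linarith)⟩

variable (W)

/-- the sheet function, complex valued -/
def ec : E → ℂ := extendFrom W.A W.fe

open Classical in
/-- the sheet function -/
def ε (x : E) : ℝ := if x ∈ W.O then (W.ec x).re else 1

variable {W}

theorem Ext.continuousOn_ec (H : W.Ext) : ContinuousOn W.ec W.O :=
  continuousOn_extendFrom (fun x _ => H.closure x) (fun _ hx => H.exists_tendsto_fe hx)

theorem Ext.ec_sq (H : W.Ext) {x : E} (hO : x ∈ W.O) : W.ec x ^ 2 = 1 := by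
  have h1 : Tendsto W.fe (𝓝[W.A] x) (𝓝 (W.ec x)) := tendsto_extendFrom (H.exists_tendsto_fe hO)
  have h2 := h1.pow 2
  have h3 : Tendsto (fun y => W.fe y ^ 2) (𝓝[W.A] x) (𝓝 1) := by
    refine tendsto_const_nhds.congr' ?_
    filter_upwards [self_mem_nhdsWithin,
      mem_nhdsWithin_of_mem_nhds (H.isOpen_O.mem_nhds hO)] with y hy hyO
    exact (H.fe_sq hy hyO).symm
  have : (𝓝[W.A] x).NeBot := mem_closure_iff_nhdsWithin_neBot.mp (H.closure x)
  exact tendsto_nhds_unique h2 h3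

theorem Ext.ε_pm (H : W.Ext) (x : E) : W.ε x = 1 ∨ W.ε x = -1 := by
  unfold ε
  split_ifs with h
  · have h1 := H.ec_sq h
    rcases eq_or_neg_of_sq (x := W.ec x) (y := 1) (by rw [h1, one_pow]) with h2 | h2 <;> rw [h2] <;> simp
  · left; rfl

theorem Ext.continuousAt_ε (H : W.Ext) (x : E) (h0 : W.T x ≠ 0) (h1 : W.T x ≠ 1) :
    ContinuousAt W.ε x := by
  have hO : x ∈ W.O := ⟨h0, h1⟩
  have h2 : ContinuousAt (fun y => (W.ec y).re) x :=
    Complex.continuous_re.continuousAt.comp (H.continuousOn_ec.continuousAt (H.isOpen_O.mem_nhds hO))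
  refine h2.congr ?_
  filter_upwards [H.isOpen_O.mem_nhds hO] with y hy
  unfold ε
  rw [if_pos hy]

/-- **the circle valued function** -/
def Ext.θ (H : W.Ext) : C(E, AddCircle (1 : ℝ)) :=
  thetaC W.ε W.T H.continuous_T H.ε_pm H.continuousAt_ε

theorem Ext.θ_apply (H : W.Ext) (x : E) : H.θ x = ((W.ε x * W.T x / 2 : ℝ) : AddCircle (1 : ℝ)) := rfl

/-- the value of `ε` on the special fibre -/
theorem Ext.ε_of_slope (H : W.Ext) {x : E} (hx : x ∉ W.A) {μ k l : ℂ} (hμ : W.SlopeAt x μ)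
    (hk : W.KapAt x k) (hl : W.LamAt x l) (h1 : 1 / 3 < ‖μ‖) (h2 : ‖μ‖ < 2 / 3) :
    W.ε x = (l * (k / (Complex.I * rt (1 - μ)))).re := by
  have hT := H.T_of_slope hx hμ
  have hO : x ∈ W.O := by
    refine ⟨?_, ?_⟩
    · rw [hT]; exact (tw_ne (norm_nonneg _)).1.mpr h1
    · rw [hT]; exact (tw_ne (norm_nonneg _)).2.mpr h2
  have h0 : μ ≠ 0 := by
    rintro rfl
    rw [norm_zero] at h1
    linarith
  have h3 : W.ec x = l * (k / (Complex.I * rt (1 - μ))) :=
    extendFrom_eq (H.closure x) (tendsto_fe hx hμ hk hl h0 (by linarith))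
  unfold ε
  rw [if_pos hO, h3]

end WD

end Crest.Agent.R272.Wall2_275
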