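/-
# Row 272 (S0414): the 4-cycle has degree two (helper275)

`Deg θ γ d` : the circle valued function `θ` has degree `d` on the path `γ`.
* `Deg.trans` : additivity;
* `deg_zero` : paths of the special fibre with slope `0`;
* `deg_one` : a path of the special fibre on which `slope = 1 - s²`, `κ λ = i s`, `s` from `1` to `-1`;
* `four_cycle` : the closed loop `k₁ r₁ k₂ r₂` has degree `2`;
* `loops_infinite`, `loopClassesIn_infinite` : the lower bound of S0414.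
-/
import Mathlib
import Crest.Agent.R272.Wall2_275

noncomputable section

open Topology Filter Set Metric
open scoped unitInterval

open Crest.Agent.R272.Th_275 Crest.Agent.R272.Wall_275

namespace Crest.Agent.R272.Wall3_275

open Crest.Agent.R272.Wall2_275

/-- `θ` has degree `d` on the path `γ` -/
def Deg {E : Type*} [TopologicalSpace E] (θ : E → AddCircle (1 : ℝ)) {a b : E} (γ : Path a b)
    (d : ℝ) : Prop :=
  ∃ l : C(I, ℝ), (∀ t, ((l t : ℝ) : AddCircle (1 : ℝ)) = θ (γ t)) ∧ l 1 = l 0 + d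

theorem Deg.trans {E : Type*} [TopologicalSpace E] {θ : E → AddCircle (1 : ℝ)} {a b c : E}
    {γ : Path a b} {γ' : Path b c} {d d' : ℝ} (h : Deg θ γ d) (h' : Deg θ γ' d') :
    Deg θ (γ.trans γ') (d + d') := by
  obtain ⟨l, hl, hd⟩ := h
  obtain ⟨l', hl', hd'⟩ := h'
  have h0 : ((l 1 - l' 0 : ℝ) : AddCircle (1 : ℝ)) = 0 := by
    rw [AddCircle.coe_sub, hl, hl', γ.target, γ'.source, sub_self]
  let P : Path (l 0) (l 1) := ⟨l, rfl, rfl⟩
  let P' : Path (l 1) (l 1 + d') :=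
    { toFun := fun t => l' t + (l 1 - l' 0)
      continuous_toFun := by fun_prop
      source' := by ring
      target' := by rw [hd']; ring }
  refine ⟨⟨P.trans P', (P.trans P').continuous⟩, fun t => ?_, ?_⟩
  · show (((P.trans P') t : ℝ) : AddCircle (1 : ℝ)) = θ ((γ.trans γ') t)
    rw [Path.trans_apply, Path.trans_apply]
    split_ifs with h
    · exact hl _
    · show ((l' _ + (l 1 - l' 0) : ℝ) : AddCircle (1 : ℝ)) = _
      rw [AddCircle.coe_add, h0, add_zero]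
      exact hl' _
  · show (P.trans P') 1 = (P.trans P') 0 + (d + d')
    rw [(P.trans P').target, (P.trans P').source, hd]
    ring

variable {E : Type*} [TopologicalSpace E] {W : WD E}

/-- a path of the special fibre with slope `0` has degree `0` -/
theorem deg_zero (H : W.Ext) {a b : E} (γ : Path a b)
    (h : ∀ t, γ t ∉ W.A ∧ W.SlopeAt (γ t) 0) : Deg H.θ γ 0 := by
  refine ⟨⟨fun _ => 0, continuous_const⟩, fun t => ?_, by simp⟩
  have h1 : W.T (γ t) = 0 := by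
    rw [H.T_of_slope (h t).1 (h t).2, norm_zero]
    by_contra h2
    have h3 := (WD.tw_ne le_rfl).1.mp h2
    linarith
  have h2 : H.θ (γ t) = theta W.ε W.T (γ t) := rfl
  rw [h2, theta_of_zero h1]
  simp

/-- `slope = 1 - s²`, `κ λ = i s`, `s` from positive to negative values -/
structure Cross (W : WD E) (γ : I → E) : Prop where
  mem : ∀ t, γ t ∉ W.A
  ex : ∃ s : I → ℝ, ∃ c : I, s 0 = 1 ∧ s 1 = -1 ∧ s c = 0 ∧ (∀ t, |s t| ≤ 1) ∧
    (∀ t ≤ c, 0 ≤ s t) ∧ (∀ t, c ≤ t → s t ≤ 0) ∧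
    (∀ t, W.SlopeAt (γ t) ((1 - s t ^ 2 : ℝ) : ℂ)) ∧
    ∀ t, s t ≠ 0 → |s t| < 1 → ∃ k l : ℂ, W.KapAt (γ t) k ∧ W.LamAt (γ t) l ∧
      l * k = Complex.I * (s t : ℂ)

theorem rt_sq_real {s : ℝ} (h : s ≠ 0) : rt ((s ^ 2 : ℝ) : ℂ) = ((|s| : ℝ) : ℂ) := by
  unfold rt
  have h1 : (0 : ℝ) < |s| := abs_pos.mpr h
  rw [← sq_abs, ← Complex.ofReal_log (by positivity), Real.log_pow]
  rw [show (((2 : ℕ) : ℝ) * Real.log |s| : ℝ) = 2 * Real.log |s| by push_cast; ring]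
  rw [Complex.ofReal_mul, Complex.ofReal_ofNat, mul_div_cancel_left₀ _ two_ne_zero,
    ← Complex.ofReal_exp, Real.exp_log h1]

/-- the sheet on a crossing path -/
theorem ε_cross (H : W.Ext) {x : E} (hx : x ∉ W.A) {s : ℝ}
    (hs : W.SlopeAt x ((1 - s ^ 2 : ℝ) : ℂ)) {k l : ℂ} (hk : W.KapAt x k) (hl : W.LamAt x l)
    (hkl : l * k = Complex.I * (s : ℂ)) (h0 : W.T x ≠ 0) (h1 : W.T x ≠ 1) : W.ε x = s / |s| := by
  have hT := H.T_of_slope hx hs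
  rw [hT] at h0 h1
  have h3 := (WD.tw_ne (norm_nonneg _)).1.mp h0
  have h4 := (WD.tw_ne (norm_nonneg _)).2.mp h1
  have hs0 : s ≠ 0 := by
    rintro rfl
    norm_num at h4
  rw [H.ε_of_slope hx hs hk hl h3 h4]
  have e1 : (1 : ℂ) - ((1 - s ^ 2 : ℝ) : ℂ) = ((s ^ 2 : ℝ) : ℂ) := by push_cast; ring
  rw [e1, rt_sq_real hs0]
  have e2 : l * (k / (Complex.I * ((|s| : ℝ) : ℂ))) = ((s / |s| : ℝ) : ℂ) := by
    have h5 : ((|s| : ℝ) : ℂ) ≠ 0 := by exact_mod_cast (abs_pos.mpr hs0).ne'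
    rw [← mul_div_assoc, hkl, Complex.ofReal_div]
    field_simp
  rw [e2, Complex.ofReal_re]

/-- **a crossing path has degree `1`** -/
theorem deg_one (H : W.Ext) {a b : E} (γ : Path a b) (h : Cross W γ) : Deg H.θ γ 1 := by
  obtain ⟨s, c, hs0, hs1, hsc, hs, hle, hge, hsl, hkl⟩ := h.ex
  have hT : ∀ t, W.T (γ t) = Tw 0 1 ‖((1 - s t ^ 2 : ℝ) : ℂ)‖ := fun t =>
    H.T_of_slope (h.mem t) (hsl t)
  have hz : Tw 0 1 ‖((1 - 1 : ℝ) : ℂ)‖ = 0 := by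
    by_contra h2
    have h3 := (WD.tw_ne (norm_nonneg _)).1.mp h2
    norm_num at h3
  have ht0 : W.T (γ 0) = 0 := by rw [hT, hs0, one_pow, hz]
  have ht1 : W.T (γ 1) = 0 := by rw [hT, hs1, neg_one_sq, hz]
  have htc : W.T (γ c) = 1 := by
    rw [hT, hsc]
    by_contra h2
    have h3 := (WD.tw_ne (norm_nonneg _)).2.mp h2
    norm_num at h3
  have hbd : ∀ t, W.T (γ t) ≠ 0 → W.T (γ t) ≠ 1 → s t ≠ 0 ∧ |s t| < 1 := by
    intro t h0 h1
    have h2 := h0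
    have h3 := h1
    rw [hT] at h2 h3
    have h4 := (WD.tw_ne (norm_nonneg _)).1.mp h2
    have h5 := (WD.tw_ne (norm_nonneg _)).2.mp h3
    have h6 := hs t
    have h7 : s t ^ 2 ≤ 1 := by rw [← sq_abs]; exact pow_le_one₀ (abs_nonneg _) h6
    rw [Complex.norm_real, Real.norm_eq_abs, abs_of_nonneg (by linarith)] at h4 h5
    refine ⟨?_, ?_⟩
    · rintro h8
      rw [h8] at h5
      norm_num at h5
    · rw [← sq_abs] at h4
      by_contra h8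
      have h9 : |s t| = 1 := le_antisymm h6 (not_lt.mp h8)
      rw [h9] at h4
      norm_num at h4
  obtain ⟨l, hl0, hl1, hl⟩ := exists_lift H.continuous_T H.ε_pm ⟨γ, γ.continuous⟩ c ht0 ht1 htc
    (by
      intro t htc h0 h1
      obtain ⟨h2, h3⟩ := hbd t h0 h1
      obtain ⟨k, l, hk, hl, hkl'⟩ := hkl t h2 h3
      show W.ε (γ t) = 1
      rw [ε_cross H (h.mem t) (hsl t) hk hl hkl' h0 h1]
      have h4 : 0 < s t := lt_of_le_of_ne (hle t htc) (Ne.symm h2)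
      rw [abs_of_pos h4, div_self h2])
    (by
      intro t htc h0 h1
      obtain ⟨h2, h3⟩ := hbd t h0 h1
      obtain ⟨k, l, hk, hl, hkl'⟩ := hkl t h2 h3
      show W.ε (γ t) = -1
      rw [ε_cross H (h.mem t) (hsl t) hk hl hkl' h0 h1]
      have h4 : s t < 0 := lt_of_le_of_ne (hge t htc) h2
      rw [abs_of_neg h4, div_neg, div_self h2])
  exact ⟨l, hl, by rw [hl0, hl1]; ring⟩

/-- **the 4-cycle has degree two** -/
theorem four_cycle (H : W.Ext) {e₀ e₁ e₂ e₃ : E} (k₁ : Path e₀ e₁) (r₁ : Path e₁ e₂)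
    (k₂ : Path e₂ e₃) (r₂ : Path e₃ e₀) (hk₁ : Cross W k₁) (hk₂ : Cross W k₂)
    (hr₁ : ∀ t, r₁ t ∉ W.A ∧ W.SlopeAt (r₁ t) 0) (hr₂ : ∀ t, r₂ t ∉ W.A ∧ W.SlopeAt (r₂ t) 0) :
    Deg H.θ (((k₁.trans r₁).trans k₂).trans r₂) 2 := by
  have h := (((deg_one H k₁ hk₁).trans (deg_zero H r₁ hr₁)).trans (deg_one H k₂ hk₂)).trans
    (deg_zero H r₂ hr₂)
  have e : (1 : ℝ) + 0 + 1 + 0 = 2 := by norm_num
  rwa [e] at h

theorem trans_mem {S : Set E} {a b c : E} {γ : Path a b} {γ' : Path b c} (h : ∀ t, γ t ∈ S)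
    (h' : ∀ t, γ' t ∈ S) (t : I) : (γ.trans γ') t ∈ S := by
  have : (γ.trans γ') t ∈ Set.range (γ.trans γ') := ⟨t, rfl⟩
  rw [Path.trans_range] at this
  rcases this with ⟨s, hs⟩ | ⟨s, hs⟩
  · rw [← hs]; exact h s
  · rw [← hs]; exact h' s

/-- **the output consumed by the end theorem** (`G14b_414.of_theta`) -/
theorem exists_loop (H : W.Ext) {S : Set E} {e₀ e₁ e₂ e₃ : E} (k₁ : Path e₀ e₁) (r₁ : Path e₁ e₂)
    (k₂ : Path e₂ e₃) (r₂ : Path e₃ e₀) (hk₁ : Cross W k₁) (hk₂ : Cross W k₂)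
    (hr₁ : ∀ t, r₁ t ∉ W.A ∧ W.SlopeAt (r₁ t) 0) (hr₂ : ∀ t, r₂ t ∉ W.A ∧ W.SlopeAt (r₂ t) 0)
    (h1 : ∀ t, k₁ t ∈ S) (h2 : ∀ t, r₁ t ∈ S) (h3 : ∀ t, k₂ t ∈ S) (h4 : ∀ t, r₂ t ∈ S) :
    ∃ (c : Path e₀ e₀) (l : C(I, ℝ)), (∀ t, c t ∈ S) ∧
      (∀ t, ((l t : ℝ) : AddCircle (1 : ℝ)) = H.θ (c t)) ∧ l 1 ≠ l 0 := by
  obtain ⟨l, hl, hl1⟩ := four_cycle H k₁ r₁ k₂ r₂ hk₁ hk₂ hr₁ hr₂
  refine ⟨_, l, trans_mem (trans_mem (trans_mem h1 h2) h3) h4, hl, ?_⟩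
  rw [hl1]
  linarith

end Crest.Agent.R272.Wall3_275
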