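import Mathlib
import Crest.Agent.R272.Wei4_392
import Crest.Agent.R272.GB_368
import Crest.Agent.R272.Tail_50
import Crest.Agent.R272.EPolDefs_429

/-!
# R272 (S0415), division E, leaf E-WEI, part 5 (helper392)

The product `f_p(z) = ∏_{v ∈ S} EE (π R2 v z p)` for a class `C : ECls D`.
-/

set_option autoImplicit false
set_option linter.unusedSectionVars false

open Set Filter Topology Metric
open Crest.Agent.R272.EPr_368 Crest.Agent.R272.EBase_641 Crest.Agent.R272.EPol_429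
open scoped ComplexConjugate

noncomputable section

namespace Crest.Agent.R272.Wei_392

variable {n : ℕ}

theorem sp_ne {z w : E n} (hz : z ∈ Ball n) (hw : w ∈ Ball n) : sp z w ≠ 0 := by
  intro h
  have h1 : inner ℂ w z = (1 : ℂ) := (sub_eq_zero.1 h).symm
  have h2 : ‖(inner ℂ w z : ℂ)‖ ≤ ‖w‖ * ‖z‖ := norm_inner_le_norm w z
  rw [h1, norm_one] at h2
  have h3 := mem_Ball.1 hz
  have h4 := mem_Ball.1 hw
  nlinarith [norm_nonneg z, norm_nonneg w]

theorem differentiable_sp (w : E n) : Differentiable ℂ (fun z : E n => sp z w) := by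
  have : (fun z : E n => sp z w) = fun z => 1 - (innerSL ℂ w) z := by
    funext z; simp [sp]
  rw [this]
  exact (innerSL ℂ w).differentiable.const_sub 1

theorem R2_gb {r : ℝ} (hr0 : 0 ≤ r) (hr1 : r < 1) (v : V1 n) {z w : E n}
    (hz : ‖z‖ ≤ r) (hw : ‖w‖ ≤ r) :
    (1 - r ^ 2) ^ 3 / 256 * (‖v.1‖ ^ 2 + ‖v.2‖ ^ 2) - (1 / 2) * (‖v.1‖ ^ 2 - ‖v.2‖ ^ 2) ≤
      (R2 v z w).re := by
  have h := GB_368.QQ_ge hr0 hr1 v.1 z w (conj v.2) hz hw
  unfold GB_368.QQ at h
  rw [Complex.norm_conj] at h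
  have h1 : R2 v z w = (inner ℂ v.1 z - conj v.2) * conj (inner ℂ v.1 w - conj v.2) /
      (1 - inner ℂ w z) := rfl
  rw [h1]
  linarith

theorem exists_radius {K : Set (E n)} (hK : K ⊆ Ball n) (hc : IsCompact K) (p : E n)
    (hp : p ∈ Ball n) : ∃ r : ℝ, 0 ≤ r ∧ r < 1 ∧ ‖p‖ ≤ r ∧ ∀ z ∈ K, ‖z‖ ≤ r := by
  rcases K.eq_empty_or_nonempty with rfl | hne
  · exact ⟨‖p‖, norm_nonneg _, mem_Ball.1 hp, le_rfl, by simp⟩
  · obtain ⟨z0, hz0, hmax⟩ := hc.exists_isMaxOn hne continuous_norm.continuousOn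
    refine ⟨max ‖p‖ ‖z0‖, le_max_of_le_left (norm_nonneg _),
      max_lt (mem_Ball.1 hp) (mem_Ball.1 (hK hz0)), le_max_left _ _, fun z hz => ?_⟩
    exact le_max_of_le_right (hmax hz)

theorem discrete_of_finite {F : Type*} [NormedAddCommGroup F] (L : AddSubgroup F)
    (h : {v : F | v ∈ L ∧ ‖v‖ ≤ 1}.Finite) : DiscreteTopology L := by
  refine discreteTopology_of_isOpen_singleton_zero ?_
  have h1 : ({v : F | v ∈ L ∧ ‖v‖ ≤ 1} \ {0}).Finite := h.subset sdiff_subset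
  have h2 : IsOpen (({v : F | v ∈ L ∧ ‖v‖ ≤ 1} \ {0})ᶜ ∩ ball (0 : F) 1) :=
    h1.isClosed.isOpen_compl.inter isOpen_ball
  have h3 := h2.preimage (continuous_subtype_val : Continuous (Subtype.val : L → F))
  convert h3 using 1
  ext ⟨v, hv⟩
  simp only [mem_singleton_iff, mem_preimage, mem_inter_iff, mem_compl_iff, Set.mem_sdiff,
    mem_ofPred_eq, mem_ball_zero_iff, not_and, not_not]
  constructor
  · intro h0
    have h0' : v = 0 := by simpa using congrArg Subtype.val h0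
    subst h0'
    simp
  · rintro ⟨h4, h5⟩
    have := h4 ⟨hv, h5.le⟩
    subst this
    rfl

section Cls

variable {D : EDat} (C : ECls D)

/-- the underlying vector at the distinguished place -/
def vv (v : C.S) : V1 D.n := v.1.1

theorem vv_injective : Function.Injective (vv C) := by
  intro a b hab
  have h := C.simple a.1 a.2 b.1 b.2 1 (by rw [one_smul]; exact hab.symm)
  exact Subtype.ext h.symm

theorem range_vv : range (vv C) = Prod.fst '' C.S := by
  ext w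
  constructor
  · rintro ⟨v, rfl⟩
    exact ⟨v.1, v.2, rfl⟩
  · rintro ⟨v, hv, rfl⟩
    exact ⟨⟨v, hv⟩, rfl⟩

theorem fst_ne (v : C.S) : (vv C v).1 ≠ 0 := by
  intro h
  have h1 := C.norm1 v.1 v.2
  have h2 : v.1.1.1 = 0 := h
  rw [h2, norm_zero] at h1
  have := C.m1_pos
  nlinarith [sq_nonneg ‖v.1.1.2‖]

theorem exists_mul_mem : ∃ M : ℕ, 0 < M ∧ ∀ v ∈ C.S, M • v ∈ D.L := by
  obtain ⟨M, hM, h⟩ := C.φ_unif
  refine ⟨M, hM, fun v hv => h 0 v ?_⟩
  rw [C.φ_one 0 v hv]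
  exact one_ne_zero

/-- the norm of the distinguished part -/
def qn (v : C.S) : ℝ := ‖(vv C v).1‖ ^ 2 + ‖(vv C v).2‖ ^ 2

theorem norm_sq_le (v : C.S) : ‖v.1‖ ^ 2 ≤ qn C v + C.m2 := by
  have h2 := C.norm2 v.1 v.2
  have h3 : ‖v.1‖ = max (max ‖v.1.1.1‖ ‖v.1.1.2‖) ‖v.1.2‖ := by
    rw [Prod.norm_def, Prod.norm_def]
  rw [h3, qn, ← h2]
  have a1 : 0 ≤ ‖v.1.1.1‖ ^ 2 := by positivity
  have a2 : 0 ≤ ‖v.1.1.2‖ ^ 2 := by positivity
  have a3 : 0 ≤ ‖v.1.2‖ ^ 2 := by positivity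
  show _ ≤ ‖v.1.1.1‖ ^ 2 + ‖v.1.1.2‖ ^ 2 + ‖v.1.2‖ ^ 2
  rcases max_choice (max ‖v.1.1.1‖ ‖v.1.1.2‖) ‖v.1.2‖ with h | h <;> rw [h]
  · rcases max_choice ‖v.1.1.1‖ ‖v.1.1.2‖ with h' | h' <;> rw [h'] <;> linarith
  · linarith

theorem summable_exp_qn {c : ℝ} (hc : 0 < c) : Summable fun v : C.S => Real.exp (-c * qn C v) := by
  obtain ⟨M, hM, h⟩ := exists_mul_mem C
  have : DiscreteTopology D.L := discrete_of_finite D.L (D.disc 1)
  have hM' : (0 : ℝ) < M := by exact_mod_cast hM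
  refine Tail_50.summable_exp (E := V1 D.n × W D.m) D.L 0 (fun v : C.S => M • v.1) ?_ ?_
    (A := (M : ℝ) ^ 2) (B := (M : ℝ) ^ 2 * C.m2) (by positivity) ?_ hc
  · intro a b hab
    refine Subtype.ext ?_
    have hab' : M • a.1 = M • b.1 := hab
    rw [← Nat.cast_smul_eq_nsmul ℝ, ← Nat.cast_smul_eq_nsmul ℝ M b.1] at hab'
    exact smul_right_injective (V1 D.n × W D.m) hM'.ne' hab'
  · intro v
    rw [sub_zero]
    exact h v.1 v.2
  · intro v
    have h1 : ‖M • v.1‖ = M * ‖v.1‖ := by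
      rw [← Nat.cast_smul_eq_nsmul ℝ, norm_smul, Real.norm_of_nonneg hM'.le]
    rw [h1, mul_pow]
    have := norm_sq_le C v
    nlinarith [sq_nonneg (M : ℝ)]

theorem R2_ge {r : ℝ} (hr0 : 0 ≤ r) (hr1 : r < 1) (v : C.S) {z w : E D.n}
    (hz : ‖z‖ ≤ r) (hw : ‖w‖ ≤ r) :
    (1 - r ^ 2) ^ 3 / 256 * qn C v - C.m1 / 2 ≤ (R2 (vv C v) z w).re := by
  have h := R2_gb hr0 hr1 (vv C v) hz hw
  have h1 : ‖(vv C v).1‖ ^ 2 - ‖(vv C v).2‖ ^ 2 = C.m1 := C.norm1 v.1 v.2
  rw [h1] at h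
  unfold qn
  linarith

/-- the exponents -/
def xx (p : E D.n) (v : C.S) (z : E D.n) : ℂ := (Real.pi : ℂ) * R2 (vv C v) z p

theorem differentiableOn_R2 (v : V1 n) {p : E n} (hp : p ∈ Ball n) :
    DifferentiableOn ℂ (fun z => R2 v z p) (Ball n) := by
  have h1 : DifferentiableOn ℂ (fun z => sp z p) (Ball n) := (differentiable_sp p).differentiableOn
  have h2 : DifferentiableOn ℂ (fun z => (sp z p)⁻¹) (Ball n) :=
    h1.inv fun z hz => sp_ne hz hp
  have h3 := (((differentiable_lin v).differentiableOn (s := Ball n)).mul_const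
    (conj (lin v p))).mul h2
  refine h3.congr fun z _ => ?_
  simp only [R2, div_eq_mul_inv, Pi.mul_apply]

theorem emaj {p : E D.n} (hp : p ∈ Ball D.n) : EMaj (xx C p) (Ball D.n) := by
  refine ⟨isOpen_Ball, fun v => (differentiableOn_R2 (vv C v) hp).const_mul _, ?_⟩
  intro K hK hc
  obtain ⟨r, hr0, hr1, hpr, hr⟩ := exists_radius hK hc p hp
  set c : ℝ := Real.pi * ((1 - r ^ 2) ^ 3 / 256) with hcdef
  have hr2 : 0 < 1 - r ^ 2 := by nlinarith
  have hcpos : 0 < c := by positivity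
  refine ⟨fun v => c * qn C v - Real.pi * (C.m1 / 2), ?_, Eventually.of_forall fun v z hz => ?_⟩
  · have h1 := (summable_exp_qn C hcpos).mul_right (Real.exp (Real.pi * (C.m1 / 2)))
    refine h1.congr fun v => ?_
    rw [← Real.exp_add]
    congr 1
    ring
  · have h1 := R2_ge C hr0 hr1 v (hr z hz) hpr
    have h2 : (xx C p v z).re = Real.pi * (R2 (vv C v) z p).re := by
      simp [xx]
    rw [h2, hcdef]
    nlinarith [Real.pi_pos]

/-- only finitely many hyperplanes meet a smaller ball -/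
theorem finite_meet {r : ℝ} (hr0 : 0 ≤ r) (hr1 : r < 1) :
    {v : C.S | ∃ z : E D.n, ‖z‖ ≤ r ∧ lin (vv C v) z = 0}.Finite := by
  have hr2 : 0 < 1 - r ^ 2 := by nlinarith
  have hc : 0 < (1 - r ^ 2) ^ 3 / 256 := by positivity
  have h1 := (summable_exp_qn C hc).tendsto_cofinite_zero
  have h2 : ∀ᶠ v in cofinite, Real.exp (-((1 - r ^ 2) ^ 3 / 256) * qn C v) <
      Real.exp (-(C.m1 / 2)) := h1.eventually (gt_mem_nhds (Real.exp_pos _))
  refine Set.Finite.subset h2 fun v hv => ?_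
  obtain ⟨z, hz, h0⟩ := hv
  intro hlt
  have h3 := Real.exp_lt_exp.1 hlt
  have h4 := R2_ge C hr0 hr1 v hz hz
  have h5 : R2 (vv C v) z z = 0 := by simp [R2, h0]
  rw [h5, Complex.zero_re] at h4
  linarith

theorem dense_lin (G : Finset (V1 n)) (hG : ∀ v ∈ G, v.1 ≠ 0) :
    Dense {w : E n | ∏ v ∈ G, lin v w ≠ 0} := by
  classical
  suffices h : Dense {w : E n | ∏ v ∈ G, lin v w ≠ 0} ∧
      IsOpen {w : E n | ∏ v ∈ G, lin v w ≠ 0} from h.1
  induction G using Finset.induction_on with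
  | empty => simp
  | insert a G ha ih =>
    obtain ⟨ih1, ih2⟩ := ih fun v hv => hG v (Finset.mem_insert_of_mem hv)
    have e1 : {w : E n | ∏ v ∈ insert a G, lin v w ≠ 0} =
        {w | lin a w ≠ 0} ∩ {w | ∏ v ∈ G, lin v w ≠ 0} := by
      ext w
      simp [Finset.prod_insert ha]
    have e2 : IsOpen {w : E n | lin a w ≠ 0} :=
      isOpen_ne_fun (differentiable_lin a).continuous continuous_const
    have e3 : Dense {w : E n | lin a w ≠ 0} := by
      rw [Metric.dense_iff]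
      intro w r hr
      by_cases hw : lin a w = 0
      · have ha1 : a.1 ≠ 0 := hG a (Finset.mem_insert_self _ _)
        have ha2 : (0 : ℝ) < ‖a.1‖ := norm_pos_iff.2 ha1
        refine ⟨w + ((r / 2 / ‖a.1‖ : ℝ) : ℂ) • a.1, ?_, ?_⟩
        · rw [mem_ball, dist_eq_norm, add_sub_cancel_left, norm_smul, Complex.norm_real,
            Real.norm_of_nonneg (by positivity)]
          rw [div_mul_cancel₀ _ ha2.ne']
          linarith
        · show lin a _ ≠ 0
          rw [lin_sub, hw, zero_add, inner_smul_right, inner_self_eq_norm_sq_to_K]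
          refine mul_ne_zero ?_ ?_
          · have : r / 2 / ‖a.1‖ ≠ 0 := by positivity
            exact_mod_cast this
          · simpa using ha1
      · exact ⟨w, mem_ball_self hr, hw⟩
    rw [e1]
    exact ⟨e3.inter_of_isOpen_left ih1 e2, e2.inter ih2⟩

/-- a base point off all hyperplanes of finitely many classes -/
theorem exists_base {ι : Type*} [Finite ι] (Cs : ι → ECls D) :
    ∃ p ∈ Ball D.n, ∀ i, ∀ v : (Cs i).S, lin (vv (Cs i) v) p ≠ 0 := by
  classical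
  have hfin : ∀ i, (vv (Cs i) '' {v : (Cs i).S | ∃ z : E D.n, ‖z‖ ≤ 1 / 2 ∧
      lin (vv (Cs i) v) z = 0}).Finite := fun i =>
    (finite_meet (Cs i) (by norm_num) (by norm_num)).image _
  have hU := Set.finite_iUnion hfin
  have hd := dense_lin (n := D.n) hU.toFinset (by
    intro v hv
    rw [Set.Finite.mem_toFinset, mem_iUnion] at hv
    obtain ⟨i, w, -, rfl⟩ := hv
    exact fst_ne (Cs i) w)
  obtain ⟨p, hp, hp0⟩ := hd.inter_open_nonempty _ isOpen_ball
    ⟨(0 : E D.n), mem_ball_self (by norm_num : (0 : ℝ) < 1 / 2)⟩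
  rw [mem_ball_zero_iff] at hp
  refine ⟨p, mem_Ball.2 (by linarith), fun i v h0 => ?_⟩
  have h1 : ∏ v ∈ hU.toFinset, lin v p ≠ 0 := hp0
  rw [Finset.prod_ne_zero_iff] at h1
  refine h1 (vv (Cs i) v) ?_ h0
  rw [Set.Finite.mem_toFinset, mem_iUnion]
  exact ⟨i, v, ⟨p, hp.le, h0⟩, rfl⟩

/-- **the divisor of `f_p`** -/
theorem div_fp {p : E D.n} (hp : p ∈ Ball D.n) (hp0 : ∀ v : C.S, lin (vv C v) p ≠ 0) :
    Div D.n (Prod.fst '' C.S) (FP (xx C p)) := by
  rw [← range_vv C]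
  refine div_FP (vv C) (vv_injective C) (xx C p)
    (fun v z => (Real.pi : ℂ) * conj (lin (vv C v) p) * (sp z p)⁻¹) (emaj C hp) ?_ ?_ ?_
  · intro v
    have h1 : DifferentiableOn ℂ (fun z => (sp z p)⁻¹) (Ball D.n) :=
      ((differentiable_sp p).differentiableOn).inv fun z hz => sp_ne hz hp
    exact h1.const_mul _
  · intro v z hz
    refine mul_ne_zero (mul_ne_zero (by exact_mod_cast Real.pi_ne_zero) ?_)
      (inv_ne_zero (sp_ne hz hp))
    simpa using hp0 v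
  · intro v z hz
    simp only [xx, R2, div_eq_mul_inv]
    ring

end Cls

end Crest.Agent.R272.Wei_392
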