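import Mathlib
import Crest.Agent.R272.Wei5_392
import Crest.Agent.R272.Pol3_898

/-!
# R272 (S0415), division E, leaf E-WEI, part 6 (helper392)

Interfaces with `Pol_898` and the final statement about `f_p`.
-/

set_option autoImplicit false
set_option linter.unusedSectionVars false

open Set Filter Topology Metric
open Crest.Agent.R272.EPr_368 Crest.Agent.R272.EBase_641 Crest.Agent.R272.EPol_429
open Crest.Agent.R272.Pol_898
open scoped ComplexConjugate

noncomputable section

namespace Crest.Agent.R272.Wei_392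

theorem einLike_CEin : EinLike CEin :=
  ⟨differentiable_CEin, fun x => by rw [(hasDerivAt_CEin x).deriv, mul_cphi]⟩

theorem cphi_conj (z : ℂ) : cphi (conj z) = conj (cphi z) := by
  by_cases hz : z = 0
  · subst hz; simp [cphi_zero]
  · rw [cphi_of_ne (by simpa using hz), cphi_of_ne hz, map_div₀, map_sub, map_one,
      ← Complex.exp_conj, map_neg]

theorem CEin_conj (z : ℂ) : CEin (conj z) = conj (CEin z) := by
  unfold CEin
  rw [intervalIntegral.integral_of_le zero_le_one, intervalIntegral.integral_of_le zero_le_one,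
    ← integral_conj]
  refine MeasureTheory.integral_congr_ae (Eventually.of_forall fun t => ?_)
  simp only [map_mul]
  rw [← cphi_conj, map_mul, Complex.conj_ofReal]

theorem EE_conj (z : ℂ) : EE (conj z) = conj (EE z) := by
  unfold EE
  rw [CEin_conj, map_mul, ← Complex.exp_conj, map_neg, map_add, Complex.conj_ofReal]

section Cls

variable {D : EDat} (C : ECls D)

theorem xx_eq (p : E D.n) (v : C.S) (z : E D.n) :
    xx C p v z = (Real.pi : ℂ) * RR v.1.1 z p := rfl

theorem multipliable_EE {z w : E D.n} (hz : z ∈ Ball D.n) (hw : w ∈ Ball D.n) :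
    Multipliable (fun v : C.S => EE ((Real.pi : ℂ) * RR v.1.1 z w)) :=
  (emaj C hw).multipliable hz

theorem hasProdLU {w : E D.n} (hw : w ∈ Ball D.n) :
    HasProdLocallyUniformlyOn (fun (v : C.S) z => EE ((Real.pi : ℂ) * RR v.1.1 z w))
      (fun z => ∏' v : C.S, EE ((Real.pi : ℂ) * RR v.1.1 z w)) (Ball D.n) :=
  (emaj C hw).hasProd

theorem ne_zero_iff {z w : E D.n} (hz : z ∈ Ball D.n) (hw : w ∈ Ball D.n) :
    (∏' v : C.S, EE ((Real.pi : ℂ) * RR v.1.1 z w)) ≠ 0 ↔
      ∀ v : C.S, lin v.1.1 z ≠ 0 ∧ lin v.1.1 w ≠ 0 := by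
  have h := (emaj C hw).eq_zero_iff hz
  have h' : (∏' v : C.S, EE ((Real.pi : ℂ) * RR v.1.1 z w)) = FP (xx C w) z := rfl
  rw [h', Ne, h]
  push Not
  refine forall_congr' fun v => ?_
  rw [xx, R2, Ne, mul_eq_zero, div_eq_zero_iff, mul_eq_zero, map_eq_zero]
  have h1 : (Real.pi : ℂ) ≠ 0 := by exact_mod_cast Real.pi_ne_zero
  have h2 := sp_ne hz hw
  simp only [h1, h2, false_or, or_false, vv, not_or, Ne]

/-- **final form**: `f_p` has divisor `fst '' C.S` -/
theorem div_fp' {p : E D.n} (hp : p ∈ Ball D.n) (hp0 : ∀ v ∈ C.S, lin v.1 p ≠ 0) :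
    Div D.n (Prod.fst '' C.S)
      (fun z => ∏' v : C.S, EE ((Real.pi : ℂ) * RR v.1.1 z p)) :=
  div_fp C hp fun v => hp0 v.1 v.2

/-- base point for finitely many classes -/
theorem exists_base' {ι : Type*} [Finite ι] (Cs : ι → ECls D) :
    ∃ p ∈ Ball D.n, ∀ i, ∀ v ∈ (Cs i).S, lin v.1 p ≠ 0 := by
  obtain ⟨p, hp, h⟩ := exists_base Cs
  exact ⟨p, hp, fun i v hv => h i ⟨v, hv⟩⟩

end Cls

end Crest.Agent.R272.Wei_392
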