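import Mathlib

/-!
helper433, row 272: algebraic windmill of helper409 (#5053), part 1.
Hermitian forms of signature `(n,1)` (any dimension), the functions
`u_r(a,b) = <a,b> / (<a,r><r,b>)`, (Q1), (Q2), (Q3), (Q4).
-/

namespace Crest.Agent.R272.Wm_433

open Complex ComplexConjugate

/-- A Hermitian form (linear in the first variable) such that the orthogonal complement of a
negative vector is positive semidefinite. -/
structure HF (V : Type*) [AddCommGroup V] [Module ℂ V] where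
  h : V → V → ℂ
  add_left : ∀ x y z, h (x + y) z = h x z + h y z
  smul_left : ∀ (c : ℂ) (x z : V), h (c • x) z = c * h x z
  symm : ∀ x y, conj (h x y) = h y x
  sig : ∀ b x, (h b b).re < 0 → h x b = 0 → 0 ≤ (h x x).re

variable {V : Type*} [AddCommGroup V] [Module ℂ V]

namespace HF

variable (F : HF V)

lemma add_right (x y z : V) : F.h x (y + z) = F.h x y + F.h x z := by
  rw [← F.symm, F.add_left, map_add, F.symm, F.symm]

lemma smul_right (c : ℂ) (x z : V) : F.h x (c • z) = conj c * F.h x z := by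
  rw [← F.symm, F.smul_left, map_mul, F.symm]

lemma zero_left (z : V) : F.h 0 z = 0 := by
  have := F.smul_left 0 0 z
  simpa using this

lemma zero_right (z : V) : F.h z 0 = 0 := by
  have := F.smul_right 0 z 0
  simpa using this

lemma neg_left (x z : V) : F.h (-x) z = - F.h x z := by
  have := F.smul_left (-1) x z
  simpa using this

lemma neg_right (x z : V) : F.h x (-z) = - F.h x z := by
  have := F.smul_right (-1) x z
  simpa using this

lemma sub_left (x y z : V) : F.h (x - y) z = F.h x z - F.h y z := by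
  rw [sub_eq_add_neg, F.add_left, F.neg_left, sub_eq_add_neg]

lemma sub_right (x y z : V) : F.h x (y - z) = F.h x y - F.h x z := by
  rw [sub_eq_add_neg, F.add_right, F.neg_right, sub_eq_add_neg]

lemma norm_symm (x y : V) : ‖F.h x y‖ = ‖F.h y x‖ := by
  rw [← F.symm, RCLike.norm_conj]

lemma self_im (x : V) : (F.h x x).im = 0 := by
  have := F.symm x x
  exact Complex.conj_eq_iff_im.1 this

lemma self_eq (x : V) : F.h x x = ((F.h x x).re : ℂ) := by
  apply Complex.ext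
  · simp
  · simp [F.self_im x]

/-- Cauchy-Schwarz on a subspace where the form is semidefinite. -/
lemma cs (a c : V) (hp : ∀ z : ℂ, 0 ≤ (F.h (a + z • c) (a + z • c)).re) (hc : 0 ≤ (F.h c c).re) :
    ‖F.h a c‖ ^ 2 ≤ (F.h a a).re * (F.h c c).re := by
  have expand : ∀ z : ℂ, (F.h (a + z • c) (a + z • c)).re =
      (F.h a a).re + 2 * (conj z * F.h a c).re + ‖z‖ ^ 2 * (F.h c c).re := by
    intro z
    rw [F.add_left, F.add_right, F.add_right, F.smul_left, F.smul_left, F.smul_right, F.smul_right,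
      F.self_eq c, ← F.symm a c]
    have h1 : (z * conj (F.h a c)).re = (conj z * F.h a c).re := by
      simp [Complex.mul_re]
    have h2 : (z * (conj z * ((F.h c c).re : ℂ))).re = ‖z‖ ^ 2 * (F.h c c).re := by
      rw [← mul_assoc, Complex.mul_conj, Complex.normSq_eq_norm_sq]
      norm_cast
    simp only [Complex.add_re, h1, h2]
    simp only [Complex.ofReal_re]
    ring
  set p := F.h a c with hpdef
  -- choose z = -s p
  have key : ∀ s : ℝ, 0 ≤ (F.h a a).re - 2 * s * ‖p‖ ^ 2 + s ^ 2 * ‖p‖ ^ 2 * (F.h c c).re := by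
    intro s
    have h1 := hp ((-s : ℝ) * p)
    rw [expand] at h1
    have h2 : (conj (((-s : ℝ) : ℂ) * p) * p).re = - s * ‖p‖ ^ 2 := by
      rw [map_mul, Complex.conj_ofReal, mul_assoc, mul_comm (conj p) p, Complex.mul_conj,
        Complex.normSq_eq_norm_sq]
      norm_cast
    have h3 : ‖(((-s : ℝ) : ℂ) * p)‖ ^ 2 = s ^ 2 * ‖p‖ ^ 2 := by
      rw [norm_mul, mul_pow, Complex.norm_real, Real.norm_eq_abs, sq_abs]; ring
    rw [h2, h3] at h1
    linarith
  rcases eq_or_lt_of_le hc with h0 | h0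
  · -- (F.h c c).re = 0
    rw [← h0] at key ⊢
    by_contra hcon
    push Not at hcon
    have hpp : 0 < ‖p‖ ^ 2 := by nlinarith [sq_nonneg ‖p‖]
    have h1 := key (((F.h a a).re + 1) / (2 * ‖p‖ ^ 2))
    have hne : ‖p‖ ≠ 0 := by
      intro h
      rw [h] at hpp
      norm_num at hpp
    have h2 : 2 * (((F.h a a).re + 1) / (2 * ‖p‖ ^ 2)) * ‖p‖ ^ 2 = (F.h a a).re + 1 := by
      field_simp
    linarith
  · have h1 := key (1 / (F.h c c).re)
    have h2 : (F.h a a).re - 2 * (1 / (F.h c c).re) * ‖p‖ ^ 2 +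
        (1 / (F.h c c).re) ^ 2 * ‖p‖ ^ 2 * (F.h c c).re = (F.h a a).re - ‖p‖ ^ 2 / (F.h c c).re := by
      field_simp; ring
    rw [h2] at h1
    have h3 : ‖p‖ ^ 2 / (F.h c c).re ≤ (F.h a a).re := by linarith
    rwa [div_le_iff₀ h0] at h3

/-- The main identity: `a, b, c` normalised by `<., r> = 1`, `t = 1 - <b,b> > 0`. -/
lemma dec (r a b c : V) (hr : F.h r r = 1) (ha : F.h a r = 1) (hb : F.h b r = 1) (hc : F.h c r = 1)
    (hbb : (F.h b b).re < 1) :
    ∃ E : ℂ, F.h a c = 1 - (1 - F.h a b) * (1 - F.h b c) / ((1 - (F.h b b).re : ℝ) : ℂ) + E ∧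
      0 ≤ ‖1 - F.h a b‖ ^ 2 / (1 - (F.h b b).re) - 1 + (F.h a a).re ∧
      0 ≤ ‖1 - F.h b c‖ ^ 2 / (1 - (F.h b b).re) - 1 + (F.h c c).re ∧
      ‖E‖ ^ 2 ≤ (‖1 - F.h a b‖ ^ 2 / (1 - (F.h b b).re) - 1 + (F.h a a).re) *
        (‖1 - F.h b c‖ ^ 2 / (1 - (F.h b b).re) - 1 + (F.h c c).re) := by
  set t : ℝ := 1 - (F.h b b).re with ht
  have htpos : 0 < t := by linarith
  have htC : (t : ℂ) ≠ 0 := by exact_mod_cast htpos.ne'
  have hra : F.h r a = 1 := by rw [← F.symm, ha]; simp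
  have hrb : F.h r b = 1 := by rw [← F.symm, hb]; simp
  have hrc : F.h r c = 1 := by rw [← F.symm, hc]; simp
  have hbb' : F.h (b - r) (b - r) = ((-t : ℝ) : ℂ) := by
    rw [F.sub_left, F.sub_right, F.sub_right, hb, hrb, hr, F.self_eq b]
    push_cast [ht]; ring
  have hneg : (F.h (b - r) (b - r)).re < 0 := by rw [hbb']; simpa using htpos
  -- projections
  set lam : V → ℂ := fun x => (1 - F.h x b) / (t : ℂ) with hlam
  set pr : V → V := fun x => (x - r) - lam x • (b - r) with hpr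
  have hx1 : ∀ x, F.h x r = 1 → F.h (x - r) (b - r) = F.h x b - 1 := by
    intro x hx
    rw [F.sub_left, F.sub_right, F.sub_right, hx, hrb, hr]; ring
  have horth : ∀ x, F.h x r = 1 → F.h (pr x) (b - r) = 0 := by
    intro x hx
    rw [hpr, F.sub_left, F.smul_left, hx1 x hx, hbb']
    simp only [hlam]
    push_cast
    field_simp
    ring
  have hpp : ∀ x y, F.h x r = 1 → F.h y r = 1 →
      F.h (pr x) (pr y) = F.h x y - 1 + (1 - F.h x b) * (1 - F.h b y) / (t : ℂ) := by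
    intro x y hx hy
    have h1 : F.h (pr x) (pr y) = F.h (pr x) (y - r) := by
      have : pr y = (y - r) - lam y • (b - r) := rfl
      rw [this, F.sub_right, F.smul_right, horth x hx]; ring
    rw [h1]
    have h2 : F.h (b - r) (y - r) = F.h b y - 1 := by
      have hry : F.h r y = 1 := by rw [← F.symm, hy]; simp
      rw [F.sub_left, F.sub_right, F.sub_right, hb, hry, hr]; ring
    have h3 : F.h (x - r) (y - r) = F.h x y - 1 := by
      have hry : F.h r y = 1 := by rw [← F.symm, hy]; simp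
      rw [F.sub_left, F.sub_right, F.sub_right, hx, hry, hr]; ring
    rw [hpr, F.sub_left, F.smul_left, h2, h3]
    simp only [hlam]
    ring
  have hself : ∀ x, F.h x r = 1 → (F.h (pr x) (pr x)).re =
      ‖1 - F.h x b‖ ^ 2 / t - 1 + (F.h x x).re := by
    intro x hx
    rw [hpp x x hx hx]
    have h1 : (1 - F.h x b) * (1 - F.h b x) = ((‖1 - F.h x b‖ ^ 2 : ℝ) : ℂ) := by
      rw [← F.symm x b]
      have : (1 - conj (F.h x b)) = conj (1 - F.h x b) := by simp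
      rw [this, Complex.mul_conj, Complex.normSq_eq_norm_sq]
    rw [h1]
    have : (((‖1 - F.h x b‖ ^ 2 : ℝ) : ℂ) / (t : ℂ)) = ((‖1 - F.h x b‖ ^ 2 / t : ℝ) : ℂ) := by
      push_cast; rfl
    rw [this]
    simp only [Complex.add_re, Complex.sub_re, Complex.one_re, Complex.ofReal_re]
    ring
  have hnn : ∀ x, F.h x r = 1 → 0 ≤ (F.h (pr x) (pr x)).re := fun x hx =>
    F.sig (b - r) _ hneg (horth x hx)
  refine ⟨F.h (pr a) (pr c), ?_, ?_, ?_, ?_⟩
  · rw [hpp a c ha hc]; ring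
  · rw [← hself a ha]; exact hnn a ha
  · have h1 := hself c hc
    have h2 := hnn c hc
    rw [h1, ← F.symm b c] at h2
    have : ‖1 - conj (F.h b c)‖ = ‖1 - F.h b c‖ := by
      have : (1 - conj (F.h b c)) = conj (1 - F.h b c) := by simp
      rw [this, RCLike.norm_conj]
    rwa [this] at h2
  · have h1 := F.cs (pr a) (pr c) (fun z => F.sig (b - r) _ hneg (by
      rw [F.add_left, F.smul_left, horth a ha, horth c hc]; ring)) (hnn c hc)
    rw [hself a ha, hself c hc] at h1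
    have : ‖1 - F.h c b‖ = ‖1 - F.h b c‖ := by
      rw [← F.symm b c]
      have : (1 - conj (F.h b c)) = conj (1 - F.h b c) := by simp
      rw [this, RCLike.norm_conj]
    rwa [this] at h1

/-! ### The functions `u` and `A` -/

/-- `u_r(a,b) = <a,b> / (<a,r><r,b>)`. -/
noncomputable def u (r a b : V) : ℂ := F.h a b / (F.h a r * F.h r b)

/-- `a` is seen from `r` (with precision `κ`). -/
def Seen (κ : ℝ) (r a : V) : Prop := F.h a r ≠ 0 ∧ (F.h a a).re ≤ κ * ‖F.h a r‖ ^ 2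

lemma u_conj (r a b : V) : conj (F.u r a b) = F.u r b a := by
  unfold u
  rw [map_div₀, map_mul, F.symm, F.symm, F.symm, mul_comm]

lemma norm_u_symm (r a b : V) : ‖F.u r a b‖ = ‖F.u r b a‖ := by
  rw [← F.u_conj, RCLike.norm_conj]

lemma norm_u (r a b : V) : ‖F.u r a b‖ = ‖F.h a b‖ / (‖F.h a r‖ * ‖F.h b r‖) := by
  unfold u
  rw [norm_div, norm_mul, F.norm_symm r b]

/-- normalised vector. -/
noncomputable def nrm (r a : V) : V := (F.h a r)⁻¹ • a

lemma nrm_h (r a : V) (ha : F.h a r ≠ 0) : F.h (F.nrm r a) r = 1 := by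
  unfold nrm
  rw [F.smul_left, inv_mul_cancel₀ ha]

lemma h_nrm (r a b : V) : F.h (F.nrm r a) (F.nrm r b) = F.u r a b := by
  unfold nrm u
  rw [F.smul_left, F.smul_right, map_inv₀, F.symm b r, ← mul_assoc, ← mul_inv, div_eq_inv_mul]

lemma h_nrm_self (κ : ℝ) (r a : V) (ha : F.Seen κ r a) :
    (F.h (F.nrm r a) (F.nrm r a)).re ≤ κ := by
  have h1 : F.h (F.nrm r a) (F.nrm r a) = (((F.h a a).re / ‖F.h a r‖ ^ 2 : ℝ) : ℂ) := by
    rw [F.h_nrm]
    unfold u
    rw [← F.symm a r, Complex.mul_conj, Complex.normSq_eq_norm_sq, F.self_eq a]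
    push_cast
    rfl
  rw [h1, Complex.ofReal_re]
  have h2 : 0 < ‖F.h a r‖ ^ 2 := by
    have := norm_pos_iff.2 ha.1
    positivity
  rw [div_le_iff₀ h2]
  exact ha.2

lemma q1_real {κ m t : ℝ} (hκ0 : 0 ≤ κ) (hκ : κ ≤ 1/100) (hm0 : 0 ≤ m) (_hm : m ≤ 1)
    (htpos : 0 < t) (ht1 : 1 - κ ≤ t) (ht2 : t * (1 - κ) ≤ (1 + m) ^ 2) :
    |1 - 1 / t| ≤ 2 * m + 1.1 * κ := by
  have hk2 : κ * κ ≤ κ * (1/100) := mul_le_mul_of_nonneg_left hκ hκ0
  rw [abs_le]
  constructor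
  · have : 1 / t ≤ 1 + 1.1 * κ := by
      rw [div_le_iff₀ htpos]
      have h1 : (1 + 1.1 * κ) * (1 - κ) ≤ (1 + 1.1 * κ) * t :=
        mul_le_mul_of_nonneg_left ht1 (by positivity)
      have h2 : (1 + 1.1 * κ) * (1 - κ) = 1 + 0.1 * κ - 1.1 * (κ * κ) := by ring
      nlinarith
    linarith
  · have : 1 - 2 * m - 1.1 * κ ≤ 1 / t := by
      rw [le_div_iff₀ htpos]
      by_cases h0 : 1 - 2 * m - 1.1 * κ ≤ 0
      · have := mul_nonneg (by linarith : 0 ≤ -(1 - 2 * m - 1.1 * κ)) htpos.le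
        linarith
      · push Not at h0
        have h1 : (1 - 2 * m - 1.1 * κ) * (t * (1 - κ)) ≤ (1 - 2 * m - 1.1 * κ) * (1 + m) ^ 2 :=
          mul_le_mul_of_nonneg_left ht2 h0.le
        have h2 : (1 - 2 * m - 1.1 * κ) * (1 + m) ^ 2 ≤ (1 - κ) := by
          have e : (1 - 2 * m - 1.1 * κ) * (1 + m) ^ 2 =
            1 - 3 * m ^ 2 - 2 * m ^ 3 - 1.1 * κ * (1 + 2 * m + m ^ 2) := by ring
          rw [e]
          have e1 : 0 ≤ 3 * m ^ 2 := by positivity
          have e2 : 0 ≤ 2 * m ^ 3 := by positivity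
          have e3 : 0 ≤ 1.1 * κ * (2 * m + m ^ 2) := by positivity
          have e4 : 1.1 * κ * (1 + 2 * m + m ^ 2) = 1.1 * κ + 1.1 * κ * (2 * m + m ^ 2) := by ring
          linarith
        have h3 : 0 < 1 - κ := by linarith
        have h4 : ((1 - 2 * m - 1.1 * κ) * t) * (1 - κ) ≤ 1 * (1 - κ) := by
          calc ((1 - 2 * m - 1.1 * κ) * t) * (1 - κ) = (1 - 2 * m - 1.1 * κ) * (t * (1 - κ)) := by ring
            _ ≤ _ := h1
            _ ≤ _ := h2
            _ = _ := by ring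
        exact le_of_mul_le_mul_right h4 h3
    linarith

/-- (Q1), normalised. -/
lemma q1n {κ m : ℝ} (r a b c : V) (hr : F.h r r = 1) (ha : F.h a r = 1) (hb : F.h b r = 1)
    (hc : F.h c r = 1) (haa : (F.h a a).re ≤ κ) (hbb : (F.h b b).re ≤ κ) (hcc : (F.h c c).re ≤ κ)
    (hκ0 : 0 ≤ κ) (hκm : κ ≤ m) (hκ : κ ≤ 1/100) (hm : m ≤ 1)
    (hab : ‖F.h a b‖ ≤ m) (hbc : ‖F.h b c‖ ≤ m) : ‖F.h a c‖ ≤ 15 * m := by
  have hbb1 : (F.h b b).re < 1 := by linarith
  obtain ⟨E, hE, hA, hC, hEE⟩ := F.dec r a b c hr ha hb hc hbb1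
  set p := F.h a b with hp
  set q := F.h b c with hq
  have hm0 : 0 ≤ m := le_trans (norm_nonneg _) hab
  have htpos : 0 < 1 - (F.h b b).re := by linarith
  have ht1 : 1 - κ ≤ 1 - (F.h b b).re := by linarith
  generalize 1 - (F.h b b).re = t at *
  have hp1 : ‖1 - p‖ ≤ 1 + m := by
    calc ‖1 - p‖ ≤ ‖(1:ℂ)‖ + ‖p‖ := norm_sub_le _ _
      _ ≤ 1 + m := by rw [norm_one]; linarith
  have hq1 : ‖1 - q‖ ≤ 1 + m := by
    calc ‖1 - q‖ ≤ ‖(1:ℂ)‖ + ‖q‖ := norm_sub_le _ _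
      _ ≤ 1 + m := by rw [norm_one]; linarith
  have hsq : ∀ x : ℝ, 0 ≤ x → x ≤ 1 + m → x ^ 2 / t ≤ 1 + 3 * m + 4.1 * κ := by
    intro x hx0 hx
    rw [div_le_iff₀ htpos]
    have h1 : x ^ 2 ≤ (1 + m) ^ 2 := by nlinarith
    have h2 : (1 + m) ^ 2 ≤ 1 + 3 * m := by nlinarith
    have h3 : (1 + 3 * m + 4.1 * κ) * (1 - κ) ≤ (1 + 3 * m + 4.1 * κ) * t := by
      apply mul_le_mul_of_nonneg_left ht1
      positivity
    have h4 : 1 + 3 * m ≤ (1 + 3 * m + 4.1 * κ) * (1 - κ) := by nlinarith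
    linarith
  have hA2 : ‖1 - p‖ ^ 2 / t - 1 + (F.h a a).re ≤ 3 * m + 5.1 * κ := by
    have := hsq _ (norm_nonneg _) hp1
    linarith
  have hC2 : ‖1 - q‖ ^ 2 / t - 1 + (F.h c c).re ≤ 3 * m + 5.1 * κ := by
    have := hsq _ (norm_nonneg _) hq1
    linarith
  have hEn : ‖E‖ ≤ 3 * m + 5.1 * κ := by
    have h1 : ‖E‖ ^ 2 ≤ (3 * m + 5.1 * κ) ^ 2 := by
      calc ‖E‖ ^ 2 ≤ _ := hEE
        _ ≤ (3 * m + 5.1 * κ) * (3 * m + 5.1 * κ) := by
          apply mul_le_mul hA2 hC2 hC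
          positivity
        _ = _ := by ring
    exact abs_le_of_sq_le_sq' h1 (by positivity) |>.2
  -- t is bounded above
  have ht2 : t * (1 - κ) ≤ (1 + m) ^ 2 := by
    have h1 : 1 - κ ≤ ‖1 - p‖ ^ 2 / t := by linarith
    rw [le_div_iff₀ htpos] at h1
    have h2 : ‖1 - p‖ ^ 2 ≤ (1 + m) ^ 2 := by
      apply pow_le_pow_left₀ (norm_nonneg _) hp1
    linarith
  have ht3 : |1 - 1 / t| ≤ 2 * m + 1.1 * κ := q1_real hκ0 hκ hm0 hm htpos ht1 ht2
  have hfin : F.h a c = ((1 - 1 / t : ℝ) : ℂ) + (p + q - p * q) * ((1 / t : ℝ) : ℂ) + E := by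
    rw [hE]
    push_cast
    ring
  rw [hfin]
  have h1t : 1 / t ≤ 1 + 1.1 * κ := by
    rw [div_le_iff₀ htpos]
    nlinarith
  have h1t0 : 0 < 1 / t := by positivity
  have hpq : ‖p + q - p * q‖ ≤ 3 * m := by
    have e1 : ‖p + q - p * q‖ ≤ ‖p‖ + ‖q‖ + ‖p‖ * ‖q‖ := by
      have e2 := norm_sub_le (p + q) (p * q)
      rw [norm_mul] at e2
      linarith [norm_add_le p q]
    have e3 : ‖p‖ * ‖q‖ ≤ m * 1 := by
      apply mul_le_mul hab (le_trans hbc hm) (norm_nonneg _) hm0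
    linarith
  have f1 : ‖((1 - 1 / t : ℝ) : ℂ)‖ ≤ 2 * m + 1.1 * κ := by
    rw [Complex.norm_real, Real.norm_eq_abs]; exact ht3
  have f2 : ‖(p + q - p * q) * ((1 / t : ℝ) : ℂ)‖ ≤ 3 * m * (1 + 1.1 * κ) := by
    rw [norm_mul, Complex.norm_real, Real.norm_eq_abs, abs_of_pos h1t0]
    exact mul_le_mul hpq h1t h1t0.le (by positivity)
  have f3 := norm_add_le (((1 - 1 / t : ℝ) : ℂ) + (p + q - p * q) * ((1 / t : ℝ) : ℂ)) E
  have f4 := norm_add_le ((1 - 1 / t : ℝ) : ℂ) ((p + q - p * q) * ((1 / t : ℝ) : ℂ))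
  have h5 : m * κ ≤ m * (1/100) := mul_le_mul_of_nonneg_left hκ hm0
  have h6 : 3 * m * (1 + 1.1 * κ) = 3 * m + 3.3 * (m * κ) := by ring
  linarith

end HF

end Crest.Agent.R272.Wm_433
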