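import Mathlib

/-!
# The windmill for sparse reflection systems (row 272, LB-GR), abstract form

`X` = objects (mirrors `R` and points), `c x y` = modulus of the inner product of normalised
vectors; two mirrors `x, y` are the same iff `s x = s y`.  Output `exists_full`:
if `M0` is a windmill and `g` is a product of reflections, not in the group of `M0`, then for all
`o, o'` in `M0` some mirror `w` has `A_w (o, g o') ≥ 2 - 8000 e`.
Chain formulation, no Bass-Serre tree.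
-/

namespace Crest.Agent.R272.WmA181

open Subgroup

universe u v

/-- Sparse reflection system with objects. -/
structure Sys (G : Type u) (X : Type v) [Group G] [MulAction G X] where
  R : Set X
  O : Set X
  s : X → G
  c : X → X → ℝ
  e : ℝ
  d : ℝ
  sub : R ⊆ O
  e_pos : 0 < e
  e_le : e ≤ 1 / 10000
  d_pos : 0 < d
  d_le : 20 * d ≤ (e / 1000000) ^ 2
  R_inv : ∀ x ∈ R, ∀ y ∈ R, s x • y ∈ R
  O_inv : ∀ x ∈ R, ∀ y ∈ O, s x • y ∈ O
  s_conj : ∀ x ∈ R, ∀ y ∈ R, s (s x • y) = s x * s y * s x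
  s_sq : ∀ x ∈ R, s x * s x = 1
  c_nonneg : ∀ x y, 0 ≤ c x y
  c_symm : ∀ x y, c x y = c y x
  c_inv : ∀ r ∈ R, ∀ x y, c (s r • x) (s r • y) = c x y
  c_self : ∀ x ∈ O, c x x = 1
  c_congr : ∀ x ∈ R, ∀ y ∈ R, s x = s y → ∀ z, c x z = c y z
  c_far : ∀ x ∈ R, ∀ y ∈ R, s x ≠ s y → 1 ≤ d * c x y ^ 2
  Q1 : ∀ r ∈ R, ∀ a ∈ O, ∀ b ∈ O, ∀ f ∈ O, (a ∈ R → s a ≠ s r) → (b ∈ R → s b ≠ s r) →
    (f ∈ R → s f ≠ s r) → ∀ K : ℝ, d ≤ K → K ≤ 1 →
    c a b ≤ K * (c a r * c r b) → c b f ≤ K * (c b r * c r f) →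
    c a f ≤ 20 * K * (c a r * c r f)
  Q3 : ∀ r ∈ R, ∀ a b, 2 * (c a r * c r b) ≤ c a b + c (s r • a) b

namespace Sys

variable {G : Type u} {X : Type v} [Group G] [MulAction G X] (S : Sys G X)

/-- `a` is not the mirror `r` -/
def Off (a r : X) : Prop := a ∈ S.R → S.s a ≠ S.s r

/-- `A_r (a, b) ≤ K` -/
def Nr (K : ℝ) (r a b : X) : Prop := S.c a b ≤ K * (S.c a r * S.c r b)

/-- the small threshold -/
noncomputable def e1 : ℝ := S.e / 1000000

lemma e1_pos : 0 < S.e1 := div_pos S.e_pos (by norm_num)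

lemma e1_eq : 1000000 * S.e1 = S.e := by
  unfold e1; ring

lemma e1_le : S.e1 ≤ 1 / 10000000000 := by
  have := S.e_le
  have := S.e1_eq
  linarith

lemma d_le' : 20 * S.d ≤ S.e1 * S.e1 := by
  have := S.d_le
  unfold e1
  nlinarith

lemma d_le_e1 : 20 * S.d ≤ S.e1 := by
  have h1 := S.d_le'
  have h2 := S.e1_le
  have h3 := S.e1_pos
  nlinarith

variable {S}

lemma Nr.symm {K : ℝ} {r a b : X} (h : S.Nr K r a b) : S.Nr K r b a := by
  unfold Nr at *
  rw [S.c_symm b a, S.c_symm b r, S.c_symm r a, mul_comm (S.c r b)]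
  exact h

lemma Nr.mono {K K' : ℝ} {r a b : X} (h : S.Nr K r a b) (hK : K ≤ K') : S.Nr K' r a b := by
  unfold Nr at *
  exact h.trans (mul_le_mul_of_nonneg_right hK (mul_nonneg (S.c_nonneg _ _) (S.c_nonneg _ _)))

lemma Nr.tri {K : ℝ} {r a b f : X} (h1 : S.Nr K r a b) (h2 : S.Nr K r b f)
    (hr : r ∈ S.R) (ha : a ∈ S.O) (hb : b ∈ S.O) (hf : f ∈ S.O)
    (ha' : S.Off a r) (hb' : S.Off b r) (hf' : S.Off f r)
    (hd : S.d ≤ K) (hK : K ≤ 1) : S.Nr (20 * K) r a f :=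
  S.Q1 r hr a ha b hb f hf ha' hb' hf' K hd hK h1 h2

lemma Nr.inv {K : ℝ} {r a b q : X} (h : S.Nr K r a b) (hq : q ∈ S.R) :
    S.Nr K (S.s q • r) (S.s q • a) (S.s q • b) := by
  unfold Nr at *
  rw [S.c_inv q hq, S.c_inv q hq, S.c_inv q hq]
  exact h

lemma s_self {x : X} (hx : x ∈ S.R) : S.s (S.s x • x) = S.s x := by
  rw [S.s_conj x hx x hx, S.s_sq x hx, one_mul]

lemma s_inv {x : X} (hx : x ∈ S.R) : (S.s x)⁻¹ = S.s x := by
  rw [inv_eq_iff_mul_eq_one, S.s_sq x hx]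

lemma ss {x : X} (hx : x ∈ S.R) (y : X) : S.s x • S.s x • y = y := by
  rw [smul_smul, S.s_sq x hx, one_smul]

lemma c_refl {x : X} (hx : x ∈ S.R) (z : X) : S.c (S.s x • z) x = S.c z x := by
  have h1 := S.c_inv x hx z (S.s x • x)
  rw [ss hx] at h1
  rw [h1, S.c_symm, S.c_congr _ (S.R_inv x hx x hx) x hx (s_self hx), S.c_symm]

/-- full turn -/
lemma Nr.full {K : ℝ} {r a b : X} (h : S.Nr K r a b) (hr : r ∈ S.R) :
    (2 - K) * (S.c (S.s r • a) r * S.c r b) ≤ S.c (S.s r • a) b := by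
  unfold Nr at h
  rw [c_refl hr]
  have := S.Q3 r hr a b
  linarith

/-- Behrstock -/
lemma Q2 {t : ℝ} {r q a : X} (hr : r ∈ S.R) (hq : q ∈ S.R) (hrq : S.s r ≠ S.s q) (ht : 0 < t)
    (h : t * (S.c r q * S.c q a) ≤ S.c r a) : S.Nr (S.d / t) r a q := by
  unfold Nr
  have h1 := S.c_far r hr q hq hrq
  have h2 := S.c_nonneg q a
  have h3 := S.c_nonneg r q
  have hd := S.d_pos
  rw [S.c_symm a q, S.c_symm a r]
  have h4 : S.d / t * (t * (S.c r q * S.c q a) * S.c r q) ≤ S.d / t * (S.c r a * S.c r q) := by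
    apply mul_le_mul_of_nonneg_left _ (by positivity)
    exact mul_le_mul_of_nonneg_right h h3
  refine le_trans ?_ h4
  have h5 : S.d / t * (t * (S.c r q * S.c q a) * S.c r q) = (S.d * S.c r q ^ 2) * S.c q a := by
    field_simp
  rw [h5]
  nlinarith

lemma nr_self {r a : X} (hr : r ∈ S.R) (ha : a ∈ S.R) (h : S.s a ≠ S.s r) : S.Nr S.d r a a := by
  unfold Nr
  rw [S.c_self a (S.sub ha), S.c_symm r a]
  have := S.c_far a ha r hr h
  nlinarith

lemma off_smul {a r q : X} (hr : r ∈ S.R) (hq : q ∈ S.R) (h : S.Off a r) :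
    S.Off (S.s q • a) (S.s q • r) := by
  intro ha
  have ha' : a ∈ S.R := by
    have := S.R_inv q hq _ ha
    rwa [ss hq] at this
  rw [S.s_conj q hq a ha', S.s_conj q hq r hr]
  intro h2
  exact h ha' (mul_left_cancel (mul_right_cancel h2))

lemma off_smul' {a r : X} (hr : r ∈ S.R) (h : S.Off a r) : S.Off (S.s r • a) r := by
  have h1 := off_smul hr hr h
  intro ha
  have h2 := h1 ha
  rwa [s_self hr] at h2

/-- the group generated by the mirrors of `M` -/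
def GW (S : Sys G X) (M : Set X) : Subgroup G := closure (S.s '' (M ∩ S.R))

/-- product of the reflections of a list -/
def pr (S : Sys G X) (l : List X) : G := (l.map S.s).prod

@[simp] lemma pr_nil : S.pr [] = 1 := rfl
@[simp] lemma pr_cons (x : X) (l : List X) : S.pr (x :: l) = S.s x * S.pr l := by simp [pr]

lemma mem_GW {M : Set X} {w : X} (h : w ∈ M) (hR : w ∈ S.R) : S.s w ∈ S.GW M :=
  subset_closure (Set.mem_image_of_mem _ ⟨h, hR⟩)

lemma GW_mono {M M' : Set X} (h : M ⊆ M') : S.GW M ≤ S.GW M' :=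
  closure_mono (Set.image_mono (Set.inter_subset_inter_left _ h))

lemma GW_induction {M : Set X} {p : G → Prop} (one : p 1)
    (mul : ∀ w ∈ M, w ∈ S.R → ∀ g, p g → p (S.s w * g)) {g : G} (hg : g ∈ S.GW M) : p g := by
  unfold GW at hg
  induction hg using closure_induction_left with
  | one => exact one
  | mul_left x hx y hy ih =>
    obtain ⟨w, hw, rfl⟩ := hx
    exact mul w hw.1 hw.2 y ih
  | inv_mul_cancel x hx y hy ih =>
    obtain ⟨w, hw, rfl⟩ := hx
    rw [s_inv hw.2]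
    exact mul w hw.1 hw.2 y ih

/-- windmill -/
structure Mill (S : Sys G X) (M : Set X) : Prop where
  sub : M ⊆ S.O
  inv : ∀ w ∈ M, w ∈ S.R → ∀ x ∈ M, S.s w • x ∈ M
  sat : ∀ w ∈ M, w ∈ S.R → ∀ r ∈ S.R, S.s r = S.s w → r ∈ M
  small : ∀ r ∈ S.R, r ∉ M → ∀ a ∈ M, ∀ b ∈ M, S.Nr S.e r a b

/-- the next layer of mirrors -/
structure Layer (S : Sys G X) (M R1 : Set X) : Prop where
  sub : R1 ⊆ S.R
  disj : ∀ x ∈ R1, x ∉ M
  inv : ∀ w ∈ M, w ∈ S.R → ∀ x ∈ R1, S.s w • x ∈ R1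
  sat : ∀ x ∈ R1, ∀ r ∈ S.R, S.s r = S.s x → r ∈ R1
  out : ∀ r ∈ S.R, r ∉ M → r ∉ R1 → ∀ a ∈ M, ∀ b ∈ M, S.Nr S.e1 r a b
  near : ∀ r ∈ S.R, r ∉ M → ∀ x ∈ R1, S.s x ≠ S.s r → ∃ b ∈ M, S.Nr S.e1 r x b

/-- `P` is on the base side of `x` -/
def Bs (S : Sys G X) (M : Set X) (x P : X) : Prop :=
  P ∈ S.O ∧ S.Off P x ∧ ∀ a ∈ M, S.Nr (400 * S.e) x P a

/-- `P` is behind `q` -/
def Fr (S : Sys G X) (R1 : Set X) (q P : X) : Prop :=
  P ∈ S.O ∧ ∀ x ∈ R1, S.s x ≠ S.s q → S.Off P x ∧ S.Nr S.d x P q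

section step

variable {M R1 : Set X} (hM : S.Mill M) (hne : M.Nonempty) (hL : S.Layer M R1)

include hM in
lemma off_of_mem {a r : X} (ha : a ∈ M) (hr : r ∈ S.R) (hrM : r ∉ M) : S.Off a r := by
  intro h1 h2
  exact hrM (hM.sat a ha h1 r hr h2.symm)

include hM hL in
lemma nr_layer {r x a : X} (hr : r ∈ S.R) (hrM : r ∉ M) (hx : x ∈ R1) (hxr : S.s x ≠ S.s r)
    (ha : a ∈ M) {K : ℝ} (hK : S.e1 ≤ K) (hK1 : K ≤ 1) (h : ∀ b ∈ M, S.Nr K r b a) :
    S.Nr (20 * K) r x a := by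
  obtain ⟨b, hb, h1⟩ := hL.near r hr hrM x hx hxr
  refine (h1.mono hK).tri (h b hb) hr (S.sub (hL.sub hx)) (hM.sub hb) (hM.sub ha)
    (fun _ => hxr) (off_of_mem hM hb hr hrM) (off_of_mem hM ha hr hrM) ?_ hK1
  linarith [S.d_le_e1, S.d_pos]

include hM hL in
lemma nr_layer_e {r x a : X} (hr : r ∈ S.R) (hrM : r ∉ M) (hx : x ∈ R1) (hxr : S.s x ≠ S.s r)
    (ha : a ∈ M) : S.Nr (20 * S.e) r x a := by
  refine nr_layer hM hL hr hrM hx hxr ha ?_ ?_ fun b hb => hM.small r hr hrM b hb a ha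
  · linarith [S.e1_eq, S.e1_pos]
  · linarith [S.e_le]

include hM hL in
/-- base objects are on the base side -/
lemma bs_base {x P : X} (hx : x ∈ R1) (hP : P ∈ M ∪ R1) (h : S.Off P x) : S.Bs M x P := by
  have hxR := hL.sub hx
  have hxM := hL.disj x hx
  rcases hP with hP | hP
  · refine ⟨hM.sub hP, h, fun a ha => (hM.small x hxR hxM P hP a ha).mono ?_⟩
    linarith [S.e_pos]
  · refine ⟨S.sub (hL.sub hP), h, fun a ha => ?_⟩
    refine (nr_layer_e hM hL hxR hxM hP (h (hL.sub hP)) ha).mono ?_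
    linarith [S.e_pos]

include hM hL in
lemma bs_of_fr {q x P : X} (hq : q ∈ R1) (hx : x ∈ R1) (hxq : S.s x ≠ S.s q) (h : S.Fr R1 q P) :
    S.Bs M x P := by
  obtain ⟨h1, h2⟩ := h
  obtain ⟨h3, h4⟩ := h2 x hx hxq
  refine ⟨h1, h3, fun a ha => ?_⟩
  have h5 := nr_layer_e hM hL (hL.sub hx) (hL.disj x hx) hq hxq.symm ha
  have h6 : S.d ≤ 20 * S.e := by linarith [S.d_le_e1, S.d_pos, S.e1_eq, S.e1_pos]
  have h7 := (h4.mono h6).tri h5 (hL.sub hx) h1 (S.sub (hL.sub hq)) (hM.sub ha) h3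
    (fun _ => hxq.symm) (off_of_mem hM ha (hL.sub hx) (hL.disj x hx)) h6 (by linarith [S.e_le])
  refine h7.mono ?_
  linarith [S.e_pos]

include hM hL hne in
/-- two objects on the base side -/
lemma nr_bs {x P T : X} (hx : x ∈ R1) (h1 : S.Bs M x P) (h2 : S.Bs M x T) :
    S.Nr (8000 * S.e) x P T := by
  obtain ⟨a, ha⟩ := hne
  have h3 := (h1.2.2 a ha).tri (h2.2.2 a ha).symm (hL.sub hx) h1.1 (hM.sub ha) h2.1 h1.2.1
    (off_of_mem hM ha (hL.sub hx) (hL.disj x hx)) h2.2.1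
    (by linarith [S.d_le_e1, S.d_pos, S.e1_eq, S.e1_pos]) (by linarith [S.e_le])
  refine h3.mono ?_
  linarith [S.e_pos]

include hM hL hne in
/-- full turn at `x` -/
lemma full_bs {x P T : X} (hx : x ∈ R1) (h1 : S.Bs M x P) (h2 : S.Bs M x T) :
    (2 - 8000 * S.e) * (S.c P x * S.c x (S.s x • T)) ≤ S.c P (S.s x • T) := by
  have h3 := (nr_bs hM hne hL hx h2 h1).full (hL.sub hx)
  rw [S.c_symm P x, S.c_symm x (S.s x • T), S.c_symm P (S.s x • T), mul_comm (S.c x P)]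
  exact h3

include hM hL hne in
lemma not_same {x P T : X} (hx : x ∈ R1) (h1 : S.Bs M x P) (h2 : S.Bs M x T)
    (hP : P ∈ S.R) (hT : S.s x • T ∈ S.R) : S.s P ≠ S.s (S.s x • T) := by
  intro h
  have h3 := full_bs hM hne hL hx h1 h2
  rw [S.c_symm P (S.s x • T), ← S.c_congr P hP _ hT h P, S.c_symm x (S.s x • T),
    ← S.c_congr P hP _ hT h x, S.c_self P (S.sub hP)] at h3
  have h4 := S.c_far P hP x (hL.sub hx) (h1.2.1 hP)
  have h5 := S.e_le
  have h6 := S.d_le_e1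
  have h7 := S.e1_le
  have h8 := S.d_pos
  have h9 : 0 ≤ S.c P x * S.c P x := mul_self_nonneg _
  nlinarith

include hM hL hne in
lemma fr_of_bs {x P : X} (hx : x ∈ R1) (h : S.Bs M x P) : S.Fr R1 x (S.s x • P) := by
  have hxR := hL.sub hx
  refine ⟨S.O_inv x hxR P h.1, fun y hy hyx => ?_⟩
  have hyR := hL.sub hy
  have hy1 : S.Bs M x y := bs_base hM hL hx (Or.inr hy) (fun _ => hyx)
  have h1 := full_bs hM hne hL hx hy1 h
  have h2 : (1 : ℝ) ≤ 2 - 8000 * S.e := by linarith [S.e_le]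
  refine ⟨?_, ?_⟩
  · intro hPR
    exact (not_same hM hne hL hx hy1 h hyR hPR).symm
  · refine (Q2 hyR hxR hyx (by linarith : 0 < 2 - 8000 * S.e) h1).mono ?_
    exact div_le_self S.d_pos.le h2


/-- adjacent mirrors are different -/
abbrev Adj (S : Sys G X) (l : List X) : Prop := l.IsChain (fun a b => S.s a ≠ S.s b)

include hM hL hne in
/-- chain lemma for group elements applied to `M` -/
lemma chain (l : List X) : (∀ x ∈ l, x ∈ R1) → S.Adj l → ∀ Q ∈ M, ∀ x l', l = x :: l' →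
    S.Bs M x (S.pr l' • Q) := by
  induction l with
  | nil => intro _ _ Q _ x l' h; cases h
  | cons y l ih =>
    intro h1 h2 Q hQ x l' h
    cases h
    have hy : y ∈ R1 := h1 y (by simp)
    cases l with
    | nil =>
      rw [pr_nil, one_smul]
      exact bs_base hM hL hy (Or.inl hQ) (off_of_mem hM hQ (hL.sub hy) (hL.disj y hy))
    | cons z l =>
      have hz : z ∈ R1 := h1 z (by simp)
      have hyz : S.s y ≠ S.s z := (List.isChain_cons_cons.1 h2).1
      have h3 := ih (fun x hx => h1 x (List.mem_cons_of_mem _ hx)) (List.isChain_cons_cons.1 h2).2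
        Q hQ z l rfl
      have h4 := fr_of_bs hM hne hL hz h3
      rw [pr_cons, mul_smul]
      exact bs_of_fr hM hL hz hy hyz h4

/-- endpoints of chains starting at the mirror `q` -/
inductive Beh (S : Sys G X) (M R1 : Set X) : X → X → Prop
  | base {q Q : X} : q ∈ R1 → Q ∈ M ∪ R1 → S.Off Q q → Beh S M R1 q (S.s q • Q)
  | step {q q' T : X} : q ∈ R1 → S.s q ≠ S.s q' → Beh S M R1 q' T → Beh S M R1 q (S.s q • T)

include hM hL hne in
lemma Beh.spec {q T : X} (h : Beh S M R1 q T) : q ∈ R1 ∧ ∃ T', T = S.s q • T' ∧ S.Bs M q T' := by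
  induction h with
  | base h1 h2 h3 => exact ⟨h1, _, rfl, bs_base hM hL h1 h2 h3⟩
  | step h1 h2 h3 ih =>
    obtain ⟨h4, T', rfl, h5⟩ := ih
    exact ⟨h1, _, rfl, bs_of_fr hM hL h4 h1 h2 (fr_of_bs hM hne hL h4 h5)⟩

/-- the next windmill -/
def nxt (S : Sys G X) (M R1 : Set X) : Set X := {y | y ∈ M ∪ R1 ∨ ∃ q, Beh S M R1 q y}

lemma sub_nxt : M ⊆ S.nxt M R1 := fun _ h => Or.inl (Or.inl h)

lemma layer_sub_nxt : R1 ⊆ S.nxt M R1 := fun _ h => Or.inl (Or.inr h)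

include hL in
lemma Beh.smul {w : X} (hw : w ∈ M) (hwR : w ∈ S.R) (hM : S.Mill M) {q T : X}
    (h : Beh S M R1 q T) : Beh S M R1 (S.s w • q) (S.s w • T) := by
  induction h with
  | @base q Q h1 h2 h3 =>
    have h4 : S.s w • S.s q • Q = S.s (S.s w • q) • S.s w • Q := by
      rw [S.s_conj w hwR q (hL.sub h1), mul_smul, mul_smul, ss hwR]
    rw [h4]
    refine Beh.base (hL.inv w hw hwR q h1) ?_ (off_smul (hL.sub h1) hwR h3)
    rcases h2 with h2 | h2
    · exact Or.inl (hM.inv w hw hwR Q h2)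
    · exact Or.inr (hL.inv w hw hwR Q h2)
  | @step q q' T h1 h2 h3 ih =>
    have h4 : S.s w • S.s q • T = S.s (S.s w • q) • S.s w • T := by
      rw [S.s_conj w hwR q (hL.sub h1), mul_smul, mul_smul, ss hwR]
    rw [h4]
    refine Beh.step (hL.inv w hw hwR q h1) ?_ ih
    have hq' : q' ∈ S.R := by cases h3 <;> exact hL.sub ‹_›
    rw [S.s_conj w hwR q (hL.sub h1), S.s_conj w hwR q' hq']
    intro h5
    exact h2 (mul_left_cancel (mul_right_cancel h5))

include hM hL in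
lemma nxt_inv_M {w : X} (hw : w ∈ M) (hwR : w ∈ S.R) {y : X} (hy : y ∈ S.nxt M R1) :
    S.s w • y ∈ S.nxt M R1 := by
  rcases hy with (hy | hy) | ⟨q, hq⟩
  · exact Or.inl (Or.inl (hM.inv w hw hwR y hy))
  · exact Or.inl (Or.inr (hL.inv w hw hwR y hy))
  · exact Or.inr ⟨_, hq.smul hL hw hwR hM⟩

include hL in
lemma nxt_inv_R1 {x : X} (hx : x ∈ R1) {y : X} (hy : y ∈ S.nxt M R1) :
    S.s x • y ∈ S.nxt M R1 := by
  have hxR := hL.sub hx
  rcases hy with hy | ⟨q, hq⟩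
  · by_cases h : S.Off y x
    · exact Or.inr ⟨x, Beh.base hx hy h⟩
    · simp only [Off, not_forall, not_not] at h
      obtain ⟨hyR, h⟩ := h
      have hy1 : y ∈ R1 := hL.sat x hx y hyR h
      refine Or.inl (Or.inr (hL.sat x hx _ (S.R_inv x hxR y hyR) ?_))
      rw [← h, s_self hyR]
  · by_cases h : S.s x = S.s q
    · rw [h]
      cases hq with
      | base h1 h2 h3 => rw [ss (hL.sub h1)]; exact Or.inl h2
      | step h1 h2 h3 => rw [ss (hL.sub h1)]; exact Or.inr ⟨_, h3⟩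
    · exact Or.inr ⟨x, Beh.step hx h hq⟩

/-- generators of the new group -/
lemma s_mem_of_beh (hL : S.Layer M R1) {q T : X} (h : Beh S M R1 q T) (hT : T ∈ S.R) :
    S.s T ∈ closure (S.s '' ((M ∪ R1) ∩ S.R)) := by
  induction h with
  | @base q Q h1 h2 h3 =>
    have hQ : Q ∈ S.R := by
      have := S.R_inv q (hL.sub h1) _ hT
      rwa [ss (hL.sub h1)] at this
    rw [S.s_conj q (hL.sub h1) Q hQ]
    have k1 : S.s q ∈ closure (S.s '' ((M ∪ R1) ∩ S.R)) :=
      subset_closure (Set.mem_image_of_mem _ ⟨Or.inr h1, hL.sub h1⟩)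
    have k2 : S.s Q ∈ closure (S.s '' ((M ∪ R1) ∩ S.R)) :=
      subset_closure (Set.mem_image_of_mem _ ⟨h2, hQ⟩)
    exact mul_mem (mul_mem k1 k2) k1
  | @step q q' T h1 h2 h3 ih =>
    have hQ : T ∈ S.R := by
      have := S.R_inv q (hL.sub h1) _ hT
      rwa [ss (hL.sub h1)] at this
    rw [S.s_conj q (hL.sub h1) T hQ]
    have k1 : S.s q ∈ closure (S.s '' ((M ∪ R1) ∩ S.R)) :=
      subset_closure (Set.mem_image_of_mem _ ⟨Or.inr h1, hL.sub h1⟩)
    exact mul_mem (mul_mem k1 (ih hQ)) k1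

lemma GW_nxt (hL : S.Layer M R1) : S.GW (S.nxt M R1) = S.GW (M ∪ R1) := by
  apply le_antisymm
  · refine (closure_le _).2 ?_
    rintro _ ⟨w, ⟨hw | ⟨q, hq⟩, hwR⟩, rfl⟩
    · exact subset_closure (Set.mem_image_of_mem _ ⟨hw, hwR⟩)
    · exact s_mem_of_beh hL hq hwR
  · exact GW_mono fun _ h => Or.inl h

include hM hL in
lemma nxt_inv_G {g : G} (hg : g ∈ S.GW (M ∪ R1)) {y : X} (hy : y ∈ S.nxt M R1) :
    g • y ∈ S.nxt M R1 := by
  revert y
  refine GW_induction (p := fun g => ∀ {y}, y ∈ S.nxt M R1 → g • y ∈ S.nxt M R1) ?_ ?_ hg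
  · intro y hy; rwa [one_smul]
  · intro w hw hwR g ih y hy
    rw [mul_smul]
    rcases hw with hw | hw
    · exact nxt_inv_M hM hL hw hwR (ih hy)
    · exact nxt_inv_R1 hL hw (ih hy)

lemma pr_map {w : X} (hw : w ∈ S.R) (l : List X) (hl : ∀ x ∈ l, x ∈ S.R) :
    S.pr (l.map (S.s w • ·)) = S.s w * S.pr l * S.s w := by
  induction l with
  | nil => simp [S.s_sq w hw]
  | cons x l ih =>
    rw [List.map_cons, pr_cons, ih fun y hy => hl y (List.mem_cons_of_mem _ hy), pr_cons,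
      S.s_conj w hw x (hl x (by simp))]
    have := S.s_sq w hw
    calc S.s w * S.s x * S.s w * (S.s w * S.pr l * S.s w)
        = S.s w * S.s x * (S.s w * S.s w) * S.pr l * S.s w := by group
      _ = _ := by rw [this]; group

include hL in
/-- normal form -/
lemma nf {g : G} (hg : g ∈ S.GW (M ∪ R1)) : ∃ l : List X, ∃ h ∈ S.GW M,
    (∀ x ∈ l, x ∈ R1) ∧ S.Adj l ∧ g = S.pr l * h := by
  refine GW_induction (p := fun g => ∃ l : List X, ∃ h ∈ S.GW M,
    (∀ x ∈ l, x ∈ R1) ∧ S.Adj l ∧ g = S.pr l * h) ?_ ?_ hg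
  · exact ⟨[], 1, one_mem _, by simp, List.isChain_nil, by simp⟩
  · rintro w hw hwR g ⟨l, h, hh, hl, hc, rfl⟩
    rcases hw with hw | hw
    · refine ⟨l.map (S.s w • ·), S.s w * h, mul_mem (mem_GW hw hwR) hh, ?_, ?_, ?_⟩
      · intro x hx
        obtain ⟨y, hy, rfl⟩ := List.mem_map.1 hx
        exact hL.inv w hw hwR y (hl y hy)
      · rw [Adj, List.isChain_map]
        refine hc.imp_of_mem_imp fun a b ha hb hab => ?_
        rw [S.s_conj w hwR a (hL.sub (hl a ha)), S.s_conj w hwR b (hL.sub (hl b hb))]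
        intro h5
        exact hab (mul_left_cancel (mul_right_cancel h5))
      · rw [pr_map hwR l fun x hx => hL.sub (hl x hx)]
        have := S.s_sq w hwR
        calc S.s w * (S.pr l * h) = S.s w * S.pr l * 1 * h := by group
          _ = S.s w * S.pr l * (S.s w * S.s w) * h := by rw [this]
          _ = _ := by group
    · cases l with
      | nil =>
        refine ⟨[w], h, hh, by simpa using hw, List.isChain_singleton _, by simp⟩
      | cons x l =>
        by_cases hwx : S.s w = S.s x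
        · refine ⟨l, h, hh, fun y hy => hl y (List.mem_cons_of_mem _ hy), ?_, ?_⟩
          · exact hc.tail
          · rw [pr_cons, ← hwx, ← mul_assoc, ← mul_assoc, S.s_sq w hwR, one_mul]
        · refine ⟨w :: x :: l, h, hh, ?_, List.isChain_cons_cons.2 ⟨hwx, hc⟩, ?_⟩
          · intro y hy
            rcases List.mem_cons.1 hy with rfl | hy
            · exact hw
            · exact hl y hy
          · rw [pr_cons w, mul_assoc]

end step

end Sys

end Crest.Agent.R272.WmA181
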