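import Crest.Agent.R272.WmA_181

/-!
# The windmill, part B: the next windmill, the layer, Zorn, the separation theorem `gr`.
-/

namespace Crest.Agent.R272.WmA181

open Subgroup

universe u v

namespace Sys

variable {G : Type u} {X : Type v} [Group G] [MulAction G X] {S : Sys G X}

lemma off_self {P x : X} (hx : x ∈ S.R) (h : S.Off P x) : P ≠ S.s x • x := by
  rintro rfl
  exact h (S.R_inv x hx x hx) (s_self hx)

lemma off_congr {P x y : X} (h : S.s x = S.s y) : S.Off P x ↔ S.Off P y := by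
  unfold Off; rw [h]

section step

variable {M R1 : Set X} (hM : S.Mill M) (hne : M.Nonempty) (hL : S.Layer M R1)

lemma nxt_sub (hM : S.Mill M) (hL : S.Layer M R1) : S.nxt M R1 ⊆ S.O := by
  have key : ∀ q T, Beh S M R1 q T → T ∈ S.O := by
    intro q T h
    induction h with
    | @base q Q h1 h2 h3 =>
      apply S.O_inv _ (hL.sub h1)
      rcases h2 with h2 | h2
      · exact hM.sub h2
      · exact S.sub (hL.sub h2)
    | @step q q' T h1 h2 h3 ih => exact S.O_inv _ (hL.sub h1) _ ih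
  rintro y ((hy | hy) | ⟨q, hq⟩)
  · exact hM.sub hy
  · exact S.sub (hL.sub hy)
  · exact key q y hq

lemma base_sat (hM : S.Mill M) (hL : S.Layer M R1) {x : X} (hx : x ∈ M ∪ R1) (hxR : x ∈ S.R)
    {r : X} (hr : r ∈ S.R) (h : S.s r = S.s x) : r ∈ M ∪ R1 := by
  rcases hx with hx | hx
  · exact Or.inl (hM.sat x hx hxR r hr h)
  · exact Or.inr (hL.sat x hx r hr h)

lemma Beh.sat (hM : S.Mill M) (hL : S.Layer M R1) {q T : X} (h : Beh S M R1 q T) (hT : T ∈ S.R) :
    ∀ r ∈ S.R, S.s r = S.s T → Beh S M R1 q r := by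
  induction h with
  | @base q Q h1 h2 h3 =>
    intro r hr hrT
    have hqR := hL.sub h1
    have hQ : Q ∈ S.R := by
      have := S.R_inv q hqR _ hT
      rwa [ss hqR] at this
    have hr' : S.s q • r ∈ S.R := S.R_inv q hqR r hr
    have h4 : S.s (S.s q • r) = S.s Q := by
      rw [S.s_conj q hqR r hr, hrT, S.s_conj q hqR Q hQ]
      have := S.s_sq q hqR
      calc S.s q * (S.s q * S.s Q * S.s q) * S.s q
          = (S.s q * S.s q) * S.s Q * (S.s q * S.s q) := by group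
        _ = _ := by rw [this]; group
    rw [← ss hqR r]
    refine Beh.base h1 (base_sat hM hL h2 hQ hr' h4) ?_
    intro _
    rw [h4]
    exact h3 hQ
  | @step q q' T h1 h2 h3 ih =>
    intro r hr hrT
    have hqR := hL.sub h1
    have hQ : T ∈ S.R := by
      have := S.R_inv q hqR _ hT
      rwa [ss hqR] at this
    have hr' : S.s q • r ∈ S.R := S.R_inv q hqR r hr
    have h4 : S.s (S.s q • r) = S.s T := by
      rw [S.s_conj q hqR r hr, hrT, S.s_conj q hqR T hQ]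
      have := S.s_sq q hqR
      calc S.s q * (S.s q * S.s T * S.s q) * S.s q
          = (S.s q * S.s q) * S.s T * (S.s q * S.s q) := by group
        _ = _ := by rw [this]; group
    rw [← ss hqR r]
    exact Beh.step h1 h2 (ih hQ _ hr' h4)

lemma nxt_sat (hM : S.Mill M) (hL : S.Layer M R1) {x : X} (hx : x ∈ S.nxt M R1) (hxR : x ∈ S.R)
    {r : X} (hr : r ∈ S.R) (h : S.s r = S.s x) : r ∈ S.nxt M R1 := by
  rcases hx with hx | ⟨q, hq⟩
  · exact Or.inl (base_sat hM hL hx hxR hr h)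
  · exact Or.inr ⟨q, hq.sat hM hL hxR r hr h⟩

lemma off_nxt (hM : S.Mill M) (hL : S.Layer M R1) {r P : X} (hr : r ∈ S.R)
    (hrn : r ∉ S.nxt M R1) (hP : P ∈ S.nxt M R1) : S.Off P r := by
  intro h1 h2
  exact hrn (nxt_sat hM hL hP h1 hr h2.symm)

include hM hL in
/-- base objects, seen from a mirror outside the next windmill -/
lemma out_base {r P a : X} (hr : r ∈ S.R) (hrn : r ∉ S.nxt M R1) (hP : P ∈ M ∪ R1) (ha : a ∈ M) :
    S.Nr (20 * S.e1) r P a := by
  have hrM : r ∉ M := fun h => hrn (sub_nxt h)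
  have hr1 : r ∉ R1 := fun h => hrn (layer_sub_nxt h)
  rcases hP with hP | hP
  · exact (hL.out r hr hrM hr1 P hP a ha).mono (by linarith [S.e1_pos])
  · refine nr_layer hM hL hr hrM hP ?_ ha le_rfl (by linarith [S.e1_le]) fun b hb =>
      hL.out r hr hrM hr1 b hb a ha
    intro h
    exact hr1 (hL.sat P hP r hr h.symm)

include hM hL hne in
lemma out_base2 {r P Q : X} (hr : r ∈ S.R) (hrn : r ∉ S.nxt M R1) (hP : P ∈ M ∪ R1)
    (hQ : Q ∈ M ∪ R1) : S.Nr (400 * S.e1) r P Q := by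
  obtain ⟨a, ha⟩ := hne
  have h1 := (out_base hM hL hr hrn hP ha).tri (out_base hM hL hr hrn hQ ha).symm hr
    (nxt_sub hM hL (Or.inl hP)) (hM.sub ha) (nxt_sub hM hL (Or.inl hQ))
    (off_nxt hM hL hr hrn (Or.inl hP)) (off_nxt hM hL hr hrn (sub_nxt ha))
    (off_nxt hM hL hr hrn (Or.inl hQ)) (by linarith [S.d_le_e1, S.d_pos, S.e1_pos])
    (by linarith [S.e1_le])
  refine h1.mono ?_
  linarith

include hM hL hne in
/-- objects near the base, seen from a mirror outside the next windmill -/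
lemma nb_nb {r P T x y : X} (hr : r ∈ S.R) (hrn : r ∉ S.nxt M R1) (hP : P ∈ S.O)
    (hPr : S.Off P r) (hT : T ∈ S.O) (hTr : S.Off T r) (hx : x ∈ M ∪ R1) (hy : y ∈ M ∪ R1)
    (h1 : S.Nr S.e1 r P x) (h2 : S.Nr S.e1 r T y) : S.Nr S.e r P T := by
  have hd : S.d ≤ S.e1 := by linarith [S.d_le_e1, S.d_pos]
  have hp := S.e1_pos
  have hl := S.e1_le
  have hx' := nxt_sub hM hL (Or.inl hx)
  have hy' := nxt_sub hM hL (Or.inl hy)
  have hxo := off_nxt hM hL hr hrn (Or.inl hx)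
  have hyo := off_nxt hM hL hr hrn (Or.inl hy)
  have h3 := out_base2 hM hne hL hr hrn hx hy
  have h4 := (h1.mono (by linarith : S.e1 ≤ 400 * S.e1)).tri h3 hr hP hx' hy' hPr hxo hyo
    (by linarith) (by linarith)
  have h5 := h4.tri (h2.symm.mono (by linarith : S.e1 ≤ 20 * (400 * S.e1))) hr hP hy' hT hPr hyo
    hTr (by linarith) (by linarith)
  refine h5.mono ?_
  linarith [S.e1_eq]

include hM hL hne in
lemma bs_pos {x P : X} (hx : x ∈ R1) (h : S.Bs M x P) : 0 < S.c P x := by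
  have h1 := nr_bs hM hne hL hx h h
  unfold Nr at h1
  rw [S.c_self P h.1, S.c_symm x P] at h1
  have h2 := S.c_nonneg P x
  rcases eq_or_lt_of_le h2 with h3 | h3
  · rw [← h3] at h1; norm_num at h1
  · exact h3

include hM hL hne in
/-- dichotomy: `r` cannot be on both sides of a full turn -/
lemma two_sides {q r P T' : X} (hq : q ∈ R1) (hr : r ∈ S.R) (hrn : r ∉ S.nxt M R1)
    (h1 : S.Bs M q P) (h2 : S.Bs M q T') :
    S.Nr S.e1 r (S.s q • T') q ∨ S.Nr S.e1 r P q := by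
  have hqR := hL.sub hq
  have hrq : S.s r ≠ S.s q := fun h => hrn (Or.inl (Or.inr (hL.sat q hq r hr h)))
  have hd : S.d / (1 / 20) ≤ S.e1 := by
    have := S.d_le_e1
    rw [div_div_eq_mul_div, div_one]
    linarith
  by_contra hcon
  push Not at hcon
  obtain ⟨hc1, hc2⟩ := hcon
  have k1 : S.Nr (1 / 20) q r (S.s q • T') := by
    unfold Nr
    by_contra h
    push Not at h
    exact hc1 ((Q2 hr hqR hrq (by norm_num : (0 : ℝ) < 1 / 20) h.le).mono hd)
  have k2 : S.Nr (1 / 20) q r P := by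
    unfold Nr
    by_contra h
    push Not at h
    exact hc2 ((Q2 hr hqR hrq (by norm_num : (0 : ℝ) < 1 / 20) h.le).mono hd)
  have k3 := k2.symm.tri k1 hqR h1.1 (S.sub hr) (S.O_inv q hqR T' h2.1) h1.2.1 (fun _ => hrq)
    (off_smul' hqR h2.2.1) (by linarith [S.d_le_e1, S.d_pos, S.e1_le]) (by norm_num)
  have k4 := full_bs hM hne hL hq h1 h2
  have k5 := bs_pos hM hne hL hq h1
  have k6 := bs_pos hM hne hL hq h2
  have k7 : S.c q (S.s q • T') = S.c T' q := by rw [S.c_symm, c_refl hqR]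
  unfold Nr at k3
  rw [k7] at k3 k4
  have k8 := S.e_le
  have k9 : 0 < S.c P q * S.c T' q := mul_pos k5 k6
  nlinarith

include hL in
lemma smul_notin {q r : X} (hq : q ∈ R1) (hrn : r ∉ S.nxt M R1) : S.s q • r ∉ S.nxt M R1 := by
  intro h
  have := nxt_inv_R1 (S := S) hL hq h
  rw [ss (hL.sub hq)] at this
  exact hrn this

lemma Nr.back {K : ℝ} {r a b q : X} (hq : q ∈ S.R)
    (h : S.Nr K (S.s q • r) (S.s q • a) (S.s q • b)) : S.Nr K r a b := by
  have := h.inv hq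
  rwa [ss hq, ss hq, ss hq] at this

include hM hL hne in
lemma far {q T : X} (h : Beh S M R1 q T) : ∀ r ∈ S.R, r ∉ S.nxt M R1 → ∀ P, S.Bs M q P →
    S.Off P r → ∀ x ∈ M ∪ R1, S.Nr S.e1 r P x → S.Nr S.e r P T := by
  have hd : S.d ≤ S.e1 := by linarith [S.d_le_e1, S.d_pos]
  induction h with
  | @base q Q h1 h2 h3 =>
    intro r hr hrn P hP hPr x hx hPx
    have hqR := hL.sub h1
    have hQ : S.Bs M q Q := bs_base hM hL h1 h2 h3
    rcases two_sides hM hne hL h1 hr hrn hP hQ with h4 | h4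
    · exact nb_nb hM hne hL hr hrn hP.1 hPr (S.O_inv q hqR Q hQ.1)
        (off_nxt hM hL hr hrn (Or.inr ⟨q, Beh.base h1 h2 h3⟩)) hx (Or.inr h1) hPx h4
    · have hr' : S.s q • r ∉ S.nxt M R1 := smul_notin hL h1 hrn
      have hr'R : S.s q • r ∈ S.R := S.R_inv q hqR r hr
      have hq' : S.s q • q ∈ M ∪ R1 :=
        Or.inr (hL.sat q h1 _ (S.R_inv q hqR q hqR) (s_self hqR))
      have h5 : S.Nr S.e1 (S.s q • r) Q Q := by
        rcases h2 with h2 | h2
        · exact hL.out _ hr'R (fun h => hr' (sub_nxt h)) (fun h => hr' (layer_sub_nxt h)) Q h2 Q h2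
        · refine (nr_self hr'R (hL.sub h2) fun h => ?_).mono hd
          exact hr' (layer_sub_nxt (hL.sat Q h2 _ hr'R h.symm))
      have h6 := nb_nb hM hne hL hr'R hr' (S.O_inv q hqR P hP.1) (off_smul hr hqR hPr) hQ.1
        (off_nxt hM hL hr'R hr' (Or.inl h2)) hq' h2 (h4.inv hqR) h5
      have h7 := h6.inv hqR
      rwa [ss hqR, ss hqR] at h7
  | @step q q' T h1 h2 h3 ih =>
    intro r hr hrn P hP hPr x hx hPx
    have hqR := hL.sub h1
    obtain ⟨h4, T', rfl, h5⟩ := h3.spec hM hne hL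
    have hT : S.Bs M q (S.s q' • T') := bs_of_fr hM hL h4 h1 h2 (fr_of_bs hM hne hL h4 h5)
    rcases two_sides hM hne hL h1 hr hrn hP hT with h6 | h6
    · exact nb_nb hM hne hL hr hrn hP.1 hPr (S.O_inv q hqR _ hT.1)
        (off_nxt hM hL hr hrn (Or.inr ⟨q, Beh.step h1 h2 h3⟩)) hx (Or.inr h1) hPx h6
    · have hr' : S.s q • r ∉ S.nxt M R1 := smul_notin hL h1 hrn
      have hr'R : S.s q • r ∈ S.R := S.R_inv q hqR r hr
      have hq' : S.s q • q ∈ M ∪ R1 :=
        Or.inr (hL.sat q h1 _ (S.R_inv q hqR q hqR) (s_self hqR))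
      have h7 := ih _ hr'R hr' (S.s q • P)
        (bs_of_fr hM hL h1 h4 h2.symm (fr_of_bs hM hne hL h1 hP)) (off_smul hr hqR hPr)
        _ hq' (h6.inv hqR)
      have h8 := h7.inv hqR
      rwa [ss hqR, ss hqR] at h8

include hL in
/-- self-nearness of base objects -/
lemma base_self {r Q : X} (hr : r ∈ S.R) (hrn : r ∉ S.nxt M R1) (hQ : Q ∈ M ∪ R1) :
    S.Nr S.e1 r Q Q := by
  rcases hQ with h2 | h2
  · exact hL.out _ hr (fun h => hrn (sub_nxt h)) (fun h => hrn (layer_sub_nxt h)) Q h2 Q h2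
  · refine (nr_self hr (hL.sub h2) fun h => ?_).mono (by linarith [S.d_le_e1, S.d_pos])
    exact hrn (layer_sub_nxt (hL.sat Q h2 _ hr h.symm))

include hM hL hne in
lemma small_base {r a b : X} (hr : r ∈ S.R) (hrn : r ∉ S.nxt M R1) (ha : a ∈ M ∪ R1)
    (hb : b ∈ S.nxt M R1) : S.Nr S.e r a b := by
  rcases hb with hb | ⟨q, hq⟩
  · exact nb_nb hM hne hL hr hrn (nxt_sub hM hL (Or.inl ha)) (off_nxt hM hL hr hrn (Or.inl ha))
      (nxt_sub hM hL (Or.inl hb)) (off_nxt hM hL hr hrn (Or.inl hb)) ha hb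
      (base_self hL hr hrn ha) (base_self hL hr hrn hb)
  · have hqR1 := (hq.spec hM hne hL).1
    have hqR := hL.sub hqR1
    by_cases h : S.Off a q
    · exact far hM hne hL hq r hr hrn a (bs_base hM hL hqR1 ha h)
        (off_nxt hM hL hr hrn (Or.inl ha)) a ha (base_self hL hr hrn ha)
    · simp only [Off, not_forall, not_not] at h
      obtain ⟨haR, h⟩ := h
      have ha' : S.s q • a ∈ R1 :=
        hL.sat q hqR1 _ (S.R_inv q hqR a haR) (by rw [← h, s_self haR])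
      have ha'' : S.s (S.s q • a) = S.s q := by rw [← h, s_self haR]
      have hr' : S.s q • r ∉ S.nxt M R1 := smul_notin hL hqR1 hrn
      have hr'R : S.s q • r ∈ S.R := S.R_inv q hqR r hr
      cases hq with
      | @base q Q h1 h2 h3 =>
        have h6 := nb_nb hM hne hL hr'R hr' (S.sub (hL.sub ha'))
          (off_nxt hM hL hr'R hr' (layer_sub_nxt ha')) (nxt_sub hM hL (Or.inl h2))
          (off_nxt hM hL hr'R hr' (Or.inl h2)) (Or.inr ha') h2
          (base_self hL hr'R hr' (Or.inr ha')) (base_self hL hr'R hr' h2)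
        have h7 := h6.inv hqR
        rwa [ss hqR, ss hqR] at h7
      | @step q q' T h1 h2 h3 =>
        have hq' := (h3.spec hM hne hL).1
        have h6 := far hM hne hL h3 _ hr'R hr' (S.s q • a)
          (bs_base hM hL hq' (Or.inr ha') (fun _ => by rw [ha'']; exact h2))
          (off_nxt hM hL hr'R hr' (layer_sub_nxt ha')) _ (Or.inr ha')
          (base_self hL hr'R hr' (Or.inr ha'))
        have h7 := h6.inv hqR
        rwa [ss hqR, ss hqR] at h7

include hM hL hne in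
lemma small_nxt {r a b : X} (hr : r ∈ S.R) (hrn : r ∉ S.nxt M R1) (ha : a ∈ S.nxt M R1)
    (hb : b ∈ S.nxt M R1) : S.Nr S.e r a b := by
  rcases ha with ha | ⟨q, hq⟩
  · exact small_base hM hne hL hr hrn ha hb
  · induction hq generalizing r b with
    | @base q Q h1 h2 h3 =>
      have hqR := hL.sub h1
      have h7 := (small_base hM hne hL (S.R_inv q hqR r hr) (smul_notin hL h1 hrn) h2
        (nxt_inv_R1 hL h1 hb)).inv hqR
      rwa [ss hqR, ss hqR] at h7
    | @step q q' T h1 h2 h3 ih =>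
      have hqR := hL.sub h1
      have h7 := (ih (S.R_inv q hqR r hr) (smul_notin hL h1 hrn) (nxt_inv_R1 hL h1 hb)).inv hqR
      rwa [ss hqR, ss hqR] at h7

include hM hL hne in
/-- the next windmill is a windmill -/
theorem mill_nxt : S.Mill (S.nxt M R1) where
  sub := nxt_sub hM hL
  inv := by
    intro w hw hwR x hx
    refine nxt_inv_G hM hL ?_ hx
    rw [← GW_nxt hL]
    exact mem_GW hw hwR
  sat := fun w hw hwR r hr h => nxt_sat hM hL hw hwR hr h
  small := fun r hr hrn a ha b hb => small_nxt hM hne hL hr hrn ha hb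

lemma Mill.GW_inv (hM : S.Mill M) {g : G} (hg : g ∈ S.GW M) : ∀ x ∈ M, g • x ∈ M := by
  refine GW_induction (p := fun g => ∀ x ∈ M, g • x ∈ M) ?_ ?_ hg
  · intro x hx; rwa [one_smul]
  · intro w hw hwR g ih x hx
    rw [mul_smul]
    exact hM.inv w hw hwR _ (ih x hx)

include hM hL hne in
/-- full turn for elements outside the old group -/
lemma gr_step {g : G} (hg : g ∈ S.GW (S.nxt M R1)) (hgM : g ∉ S.GW M) : ∃ w ∈ S.R, w ∉ M ∧
    g⁻¹ • w ∉ M ∧ ∀ o ∈ M, ∀ o' ∈ M,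
      (2 - 8000 * S.e) * (S.c o w * S.c w (g • o')) ≤ S.c o (g • o') := by
  rw [GW_nxt hL] at hg
  obtain ⟨l, h, hh, hl, hc, rfl⟩ := nf hL hg
  cases l with
  | nil => exact absurd (by simpa using hh) hgM
  | cons x l =>
    have hx : x ∈ R1 := hl x (by simp)
    have hxR := hL.sub hx
    have key : ∀ Q ∈ M, S.Bs M x (S.pr l • h • Q) := fun Q hQ =>
      chain hM hne hL (x :: l) hl hc (h • Q) (hM.GW_inv hh Q hQ) x l rfl
    refine ⟨x, hxR, hL.disj x hx, ?_, ?_⟩
    · intro hm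
      have h1 := key _ hm
      have h2 : S.pr l • h • (S.pr (x :: l) * h)⁻¹ • x = S.s x • x := by
        rw [smul_smul, smul_smul, pr_cons]
        congr 1
        have := s_inv hxR
        rw [mul_inv_rev, mul_inv_rev, this]
        group
      rw [h2] at h1
      exact h1.2.1 (S.R_inv x hxR x hxR) (s_self hxR)
    · intro o ho o' ho'
      have h1 : S.Bs M x o := bs_base hM hL hx (Or.inl ho) (off_of_mem hM ho hxR (hL.disj x hx))
      have h2 := full_bs hM hne hL hx h1 (key o' ho')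
      have h3 : (S.pr (x :: l) * h) • o' = S.s x • S.pr l • h • o' := by
        rw [pr_cons, mul_smul, mul_smul]
      rw [h3]
      exact h2

end step

section layer

variable {M : Set X}

lemma e1_c {x y : X} (hx : x ∈ S.R) (hy : y ∈ S.R) (h : S.s x ≠ S.s y) : 2 ≤ S.e1 * S.c x y := by
  have h1 := S.c_far x hx y hy h
  have h2 := S.c_nonneg x y
  have h3 := S.d_le'
  have h4 := S.e1_pos
  by_contra hcon
  push Not at hcon
  have h5 : 0 ≤ S.e1 * S.c x y := by positivity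
  have h6 : (S.e1 * S.c x y) * (S.e1 * S.c x y) < 4 := by nlinarith
  have h7 : 20 * (S.d * S.c x y ^ 2) ≤ (S.e1 * S.e1) * S.c x y ^ 2 := by
    rw [← mul_assoc]
    exact mul_le_mul_of_nonneg_right h3 (by positivity)
  nlinarith

lemma GW_R {M : Set X} {g : G} (hg : g ∈ S.GW M) : ∀ x ∈ S.R, g • x ∈ S.R := by
  refine GW_induction (p := fun g => ∀ x ∈ S.R, g • x ∈ S.R) ?_ ?_ hg
  · intro x hx; rwa [one_smul]
  · intro w hw hwR g ih x hx
    rw [mul_smul]
    exact S.R_inv w hwR _ (ih x hx)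

lemma GW_c {M : Set X} {g : G} (hg : g ∈ S.GW M) : ∀ x y, S.c (g • x) (g • y) = S.c x y := by
  refine GW_induction (p := fun g => ∀ x y, S.c (g • x) (g • y) = S.c x y) ?_ ?_ hg
  · intro x y; rw [one_smul, one_smul]
  · intro w hw hwR g ih x y
    rw [mul_smul, mul_smul, S.c_inv w hwR, ih]

/-- existence of the next layer containing an approximately nearest mirror -/
lemma exists_layer (hM : S.Mill M) {o : X} (ho : o ∈ M) {r0 : X} (hr0 : r0 ∈ S.R) (hr0M : r0 ∉ M) :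
    ∃ R1, S.Layer M R1 ∧ R1.Nonempty := by
  classical
  -- approximately nearest mirror
  obtain ⟨q, hq, hqM, hmin⟩ : ∃ q ∈ S.R, q ∉ M ∧ ∀ r ∈ S.R, r ∉ M → S.c q o ≤ 2 * S.c r o := by
    set T : Set ℝ := {t | ∃ r ∈ S.R, r ∉ M ∧ t = S.c r o} with hT
    have hTne : T.Nonempty := ⟨_, r0, hr0, hr0M, rfl⟩
    have hlow : ∀ t ∈ T, 1 ≤ t := by
      rintro _ ⟨r, hr, hrM, rfl⟩
      have h1 := hM.small r hr hrM o ho o ho
      unfold Nr at h1
      rw [S.c_self o (hM.sub ho), S.c_symm o r] at h1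
      have h2 := S.e_le
      have h3 := S.c_nonneg r o
      have h4 := S.e_pos
      by_contra hcon
      push Not at hcon
      have h5 : S.c r o * S.c r o < 1 := by nlinarith
      nlinarith
    have hbdd : BddBelow T := ⟨1, hlow⟩
    have hinf : 1 ≤ sInf T := le_csInf hTne hlow
    obtain ⟨t, ht, htl⟩ := exists_lt_of_csInf_lt hTne (by linarith : sInf T < 2 * sInf T)
    obtain ⟨q, hq, hqM, rfl⟩ := ht
    refine ⟨q, hq, hqM, fun r hr hrM => ?_⟩
    have := csInf_le hbdd (show S.c r o ∈ T from ⟨r, hr, hrM, rfl⟩)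
    linarith
  set A1 : Set X := {r | r ∈ S.R ∧ r ∉ M ∧ ∃ a ∈ M, ∃ b ∈ M, ¬ S.Nr S.e1 r a b} with hA1
  set A2 : Set X := {r | r ∈ S.R ∧ ∃ g ∈ S.GW M, S.s r = S.s (g • q)} with hA2
  have hgM : ∀ g ∈ S.GW M, ∀ r, r ∉ M → g • r ∉ M := by
    intro g hg r hr h
    apply hr
    have := hM.GW_inv (inv_mem hg) _ h
    rwa [inv_smul_smul] at this
  refine ⟨A1 ∪ A2, ⟨?_, ?_, ?_, ?_, ?_, ?_⟩, ⟨q, Or.inr ⟨hq, 1, one_mem _, by rw [one_smul]⟩⟩⟩
  · rintro x (hx | hx)
    · exact hx.1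
    · exact hx.1
  · rintro x (hx | ⟨hx, g, hg, h⟩) hxM
    · exact hx.2.1 hxM
    · exact hgM g hg q hqM (hM.sat x hxM hx _ (GW_R hg q hq) h.symm)
  · rintro w hw hwR x (⟨hx, hxM, a, ha, b, hb, hab⟩ | ⟨hx, g, hg, h⟩)
    · refine Or.inl ⟨S.R_inv w hwR x hx, hgM _ (mem_GW hw hwR) x hxM, S.s w • a,
        hM.inv w hw hwR a ha, S.s w • b, hM.inv w hw hwR b hb, fun h => hab (h.back hwR)⟩
    · refine Or.inr ⟨S.R_inv w hwR x hx, S.s w * g, mul_mem (mem_GW hw hwR) hg, ?_⟩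
      rw [mul_smul, S.s_conj w hwR x hx, S.s_conj w hwR _ (GW_R hg q hq), h]
  · rintro x (⟨hx, hxM, a, ha, b, hb, hab⟩ | ⟨hx, g, hg, h⟩) r hr hrx
    · refine Or.inl ⟨hr, fun h => hxM (hM.sat r h hr x hx hrx.symm), a, ha, b, hb, ?_⟩
      intro h
      apply hab
      unfold Nr at h ⊢
      rw [S.c_symm a x, S.c_congr x hx r hr hrx.symm, S.c_congr x hx r hr hrx.symm, S.c_symm r a]
      exact h
    · exact Or.inr ⟨hr, g, hg, by rw [hrx, h]⟩
  · intro r hr hrM hrA a ha b hb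
    by_contra h
    exact hrA (Or.inl ⟨hr, hrM, a, ha, b, hb, h⟩)
  · rintro r hr hrM x (⟨hx, hxM, a, ha, b, hb, hab⟩ | ⟨hx, g, hg, h⟩) hxr
    · have hoa := off_of_mem hM ha hx hxM
      have hob := off_of_mem hM hb hx hxM
      have hd : S.d / (S.e1 / 20) ≤ S.e1 := by
        have h1 := S.d_le'
        have h2 := S.e1_pos
        rw [div_le_iff₀ (by positivity)]
        linarith
      have key : ∀ z, ¬ S.Nr (S.e1 / 20) x r z → S.Nr S.e1 r x z := by
        intro z hz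
        unfold Nr at hz
        push Not at hz
        exact ((Q2 hr hx hxr.symm (by linarith [S.e1_pos] : 0 < S.e1 / 20) hz.le).mono hd).symm
      by_cases h1 : S.Nr (S.e1 / 20) x r a
      · by_cases h2 : S.Nr (S.e1 / 20) x r b
        · exfalso
          apply hab
          have h3 := h1.symm.tri h2 hx (hM.sub ha) (S.sub hr) (hM.sub hb) hoa
            (fun _ => hxr.symm) hob (by linarith [S.d_le_e1]) (by linarith [S.e1_le])
          refine h3.mono ?_
          linarith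
        · exact ⟨b, hb, key b h2⟩
      · exact ⟨a, ha, key a h1⟩
    · refine ⟨g • o, hM.GW_inv hg o ho, ?_⟩
      have hgq := GW_R hg q hq
      have h1 : S.c x (g • o) = S.c q o := by
        rw [S.c_congr x hx _ hgq h, GW_c hg]
      have h2 : S.c r (g • o) = S.c (g⁻¹ • r) o := by
        conv_lhs => rw [← smul_inv_smul g r]
        rw [GW_c hg]
      have h3 := hmin (g⁻¹ • r) (GW_R (inv_mem hg) r hr) (hgM _ (inv_mem hg) r hrM)
      have h4 := e1_c hx hr hxr
      unfold Nr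
      rw [h1, h2]
      have h5 := S.c_nonneg (g⁻¹ • r) o
      nlinarith

end layer

/-- **Separation theorem**: the windmill `M0` extends to all mirrors. -/
theorem gr {M0 : Set X} (hM0 : S.Mill M0) (hne : M0.Nonempty) {g : G}
    (hg : g ∈ closure (S.s '' S.R)) (hg0 : g ∉ S.GW M0) : ∃ w ∈ S.R, w ∉ M0 ∧
    g⁻¹ • w ∉ M0 ∧ ∀ o ∈ M0, ∀ o' ∈ M0,
      (2 - 8000 * S.e) * (S.c o w * S.c w (g • o')) ≤ S.c o (g • o') := by
  set Z : Set (Set X) := {M | S.Mill M ∧ M0 ⊆ M ∧ ∀ g ∈ S.GW M, g ∉ S.GW M0 → ∃ w ∈ S.R, w ∉ M0 ∧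
    g⁻¹ • w ∉ M0 ∧ ∀ o ∈ M0, ∀ o' ∈ M0,
      (2 - 8000 * S.e) * (S.c o w * S.c w (g • o')) ≤ S.c o (g • o')} with hZ
  have h0 : M0 ∈ Z := ⟨hM0, subset_rfl, fun g hg hg' => absurd hg hg'⟩
  obtain ⟨m, hm0, hmax⟩ := zorn_subset_nonempty Z (by
    intro C hC hchain hCne
    refine ⟨⋃₀ C, ⟨⟨?_, ?_, ?_, ?_⟩, ?_, ?_⟩, fun s hs => Set.subset_sUnion_of_mem hs⟩
    · exact Set.sUnion_subset fun s hs => (hC hs).1.sub
    · rintro w ⟨s, hs, hw⟩ hwR x ⟨t, ht, hx⟩
      rcases hchain.total hs ht with h | h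
      · exact ⟨t, ht, (hC ht).1.inv w (h hw) hwR x hx⟩
      · exact ⟨s, hs, (hC hs).1.inv w hw hwR x (h hx)⟩
    · rintro w ⟨s, hs, hw⟩ hwR r hr hrw
      exact ⟨s, hs, (hC hs).1.sat w hw hwR r hr hrw⟩
    · rintro r hr hrn a ⟨s, hs, ha⟩ b ⟨t, ht, hb⟩
      have hn : ∀ u ∈ C, r ∉ u := fun u hu h => hrn ⟨u, hu, h⟩
      rcases hchain.total hs ht with h | h
      · exact (hC ht).1.small r hr (hn t ht) a (h ha) b hb
      · exact (hC hs).1.small r hr (hn s hs) a ha b (h hb)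
    · obtain ⟨s, hs⟩ := hCne
      exact ((hC hs).2.1).trans (Set.subset_sUnion_of_mem hs)
    · intro g hg hg'
      have key : ∃ s ∈ C, g ∈ S.GW s := by
        refine GW_induction (p := fun g => ∃ s ∈ C, g ∈ S.GW s) ?_ ?_ hg
        · obtain ⟨s, hs⟩ := hCne
          exact ⟨s, hs, one_mem _⟩
        · rintro w ⟨s, hs, hw⟩ hwR g ⟨t, ht, hg⟩
          rcases hchain.total hs ht with h | h
          · exact ⟨t, ht, mul_mem (mem_GW (h hw) hwR) hg⟩
          · exact ⟨s, hs, mul_mem (mem_GW hw hwR) (GW_mono h hg)⟩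
      obtain ⟨s, hs, hgs⟩ := key
      exact (hC hs).2.2 g hgs hg') M0 h0
  obtain ⟨⟨hm, hm1, hm2⟩, hmax⟩ := hmax
  have hall : S.R ⊆ m := by
    intro r hr
    by_contra hrm
    obtain ⟨o, ho⟩ := hne
    obtain ⟨R1, hL, q, hq⟩ := exists_layer hm (hm1 ho) hr hrm
    have hmne : m.Nonempty := ⟨o, hm1 ho⟩
    have hnew : S.nxt m R1 ∈ Z := by
      refine ⟨mill_nxt hm hmne hL, hm1.trans sub_nxt, fun g hg hg' => ?_⟩
      by_cases hgm : g ∈ S.GW m
      · exact hm2 g hgm hg'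
      · obtain ⟨w, hwR, hwm, hgw, h⟩ := gr_step hm hmne hL hg hgm
        exact ⟨w, hwR, fun h' => hwm (hm1 h'), fun h' => hgw (hm1 h'),
          fun o ho o' ho' => h o (hm1 ho) o' (hm1 ho')⟩
    have := hmax hnew sub_nxt (layer_sub_nxt hq)
    exact hL.disj q hq this
  refine hm2 g ?_ hg0
  have : S.R ⊆ m ∩ S.R := fun x hx => ⟨hall hx, hx⟩
  exact closure_mono (Set.image_mono this) hg

end Sys

end Crest.Agent.R272.WmA181
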