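import Crest.Agent.R272.WmB_181

/-!
# The windmill, part C: the start windmill

`M` = points (no mirrors), `R1` = first family of mirrors.  Only the *reflected* form
`A_x (y, s_x z) ≥ 1` of straightness is assumed (`y`, `z` in `M ∪ R1`), points of `M` may lie on
mirrors of `R1`.  Output: `mill_start : S.Mill (S.nxt M R1)`.
-/

namespace Crest.Agent.R272.WmA181

open Subgroup

universe u v

namespace Sys

variable {G : Type u} {X : Type v} [Group G] [MulAction G X] {S : Sys G X}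

/-- start data -/
structure RL (S : Sys G X) (M R1 : Set X) : Prop where
  nomir : ∀ x ∈ M, x ∉ S.R
  subO : M ⊆ S.O
  sub : R1 ⊆ S.R
  sat : ∀ x ∈ R1, ∀ r ∈ S.R, S.s r = S.s x → r ∈ R1
  zero : ∀ x ∈ R1, ∀ a ∈ M, S.c a x = 0 → ∀ z, S.c (S.s x • a) z = S.c a z
  refl : ∀ x ∈ R1, ∀ y ∈ M ∪ R1, ∀ z ∈ M ∪ R1, S.Off y x → S.Off z x →
    S.c y x * S.c x z ≤ S.c y (S.s x • z)
  far : ∀ r ∈ S.R, r ∉ R1 → ∀ a ∈ M ∪ R1, ∀ b ∈ M ∪ R1, S.Nr S.e1 r a b

/-- `P` is on the base side of `x`, reflected form -/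
def RBs (S : Sys G X) (M R1 : Set X) (x P : X) : Prop :=
  P ∈ S.O ∧ S.Off P x ∧ ∀ y ∈ M ∪ R1, S.Off y x →
    1 / 21 * (S.c y x * S.c x (S.s x • P)) ≤ S.c y (S.s x • P)

/-- `P` is behind `q` -/
def RFr (S : Sys G X) (R1 : Set X) (q P : X) : Prop :=
  P ∈ S.O ∧ ∀ x ∈ R1, S.s x ≠ S.s q → S.Off P x ∧ S.Nr (21 * S.d) x P q

lemma c_pos_mir {x y : X} (hx : x ∈ S.R) (hy : y ∈ S.R) (h : S.s x ≠ S.s y) : 0 < S.c x y := by
  have h1 := S.c_far x hx y hy h
  have h2 := S.c_nonneg x y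
  rcases eq_or_lt_of_le h2 with h3 | h3
  · rw [← h3] at h1; norm_num at h1
  · exact h3

/-- positivity from nearness -/
lemma Nr.c_pos {K : ℝ} {r a b : X} (h : S.Nr K r a b) (hr : r ∈ S.R) (ha : a ∈ S.O) (hb : b ∈ S.O)
    (ha' : S.Off a r) (hb' : S.Off b r) (hd : S.d ≤ K) (hK : K ≤ 1) : 0 < S.c a r := by
  have h1 := h.tri h.symm hr ha hb ha ha' hb' ha' hd hK
  unfold Nr at h1
  rw [S.c_self a ha, S.c_symm r a] at h1
  have h2 := S.c_nonneg a r
  rcases eq_or_lt_of_le h2 with h3 | h3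
  · rw [← h3] at h1; norm_num at h1
  · exact h3

/-- the mirror may be replaced by `s_x x` -/
lemma nr_congr {K : ℝ} {x y a b : X} (hx : x ∈ S.R) (hy : y ∈ S.R) (hxy : S.s x = S.s y)
    (h : S.Nr K x a b) : S.Nr K y a b := by
  unfold Nr at *
  rw [S.c_symm a x, S.c_congr x hx y hy hxy, S.c_congr x hx y hy hxy, S.c_symm y a] at h
  exact h

lemma nr_inv_self {K : ℝ} {x a b : X} (hx : x ∈ S.R) (h : S.Nr K x a b) :
    S.Nr K x (S.s x • a) (S.s x • b) :=
  nr_congr (S.R_inv x hx x hx) hx (s_self hx) (h.inv hx)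

section start

variable {M R1 : Set X} (hL : S.RL M R1)

include hL in
lemma RL.base_O {P : X} (hP : P ∈ M ∪ R1) : P ∈ S.O := by
  rcases hP with hP | hP
  · exact hL.subO hP
  · exact S.sub (hL.sub hP)

include hL in
lemma rbs_base {x P : X} (hx : x ∈ R1) (hP : P ∈ M ∪ R1) (h : S.Off P x) : S.RBs M R1 x P := by
  refine ⟨hL.base_O hP, h, fun y hy hyx => ?_⟩
  have h1 := hL.refl x hx y hy P hP hyx h
  have h2 : S.c x (S.s x • P) = S.c x P := by rw [S.c_symm, c_refl (hL.sub hx), S.c_symm]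
  rw [h2]
  have h3 : 0 ≤ S.c y x * S.c x P := mul_nonneg (S.c_nonneg _ _) (S.c_nonneg _ _)
  linarith

include hL in
lemma rbs_of_rfr {q x P : X} (hq : q ∈ R1) (hx : x ∈ R1) (hxq : S.s x ≠ S.s q)
    (h : S.RFr R1 q P) : S.RBs M R1 x P := by
  obtain ⟨h1, h2⟩ := h
  obtain ⟨h3, h4⟩ := h2 x hx hxq
  have hxR := hL.sub hx
  have hqR := hL.sub hq
  refine ⟨h1, h3, fun y hy hyx => ?_⟩
  by_contra hcon
  push Not at hcon
  have hyO := hL.base_O hy
  have k1 : S.Nr (1 / 21) x y (S.s x • P) := hcon.le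
  have k2 : S.Nr (1 / 21) x (S.s x • P) (S.s x • q) := by
    refine (nr_inv_self hxR h4).mono ?_
    linarith [S.d_le_e1, S.d_pos, S.e1_le]
  have hqx : S.Off q x := fun _ => hxq.symm
  have k3 := k1.tri k2 hxR hyO (S.O_inv x hxR P h1) (S.O_inv x hxR q (S.sub hqR)) hyx
    (off_smul' hxR h3) (off_smul' hxR hqx) (by linarith [S.d_le_e1, S.d_pos, S.e1_le]) (by norm_num)
  have k4 := hL.refl x hx y hy q (Or.inr hq) hyx hqx
  have k5 : S.c x (S.s x • q) = S.c x q := by rw [S.c_symm, c_refl hxR, S.c_symm]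
  unfold Nr at k3
  rw [k5] at k3
  have k6 : 0 < S.c x q := c_pos_mir hxR hqR hxq
  have k7 : 0 < S.c y x := by
    rcases eq_or_lt_of_le (S.c_nonneg y x) with h | h
    · rw [← h] at hcon
      have := S.c_nonneg y (S.s x • P)
      linarith
    · exact h
  have k8 : 0 < S.c y x * S.c x q := mul_pos k7 k6
  linarith

include hL in
lemma rfr_of_rbs {x P : X} (hx : x ∈ R1) (h : S.RBs M R1 x P) : S.RFr R1 x (S.s x • P) := by
  have hxR := hL.sub hx
  refine ⟨S.O_inv x hxR P h.1, fun y hy hyx => ?_⟩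
  have hyR := hL.sub hy
  have h1 := h.2.2 y (Or.inr hy) (fun _ => hyx)
  refine ⟨?_, ?_⟩
  · intro hPR hs
    rw [S.c_symm y (S.s x • P), S.c_congr _ hPR y hyR hs, S.c_self y (S.sub hyR),
      S.c_symm x (S.s x • P), S.c_congr _ hPR y hyR hs] at h1
    have h2 := S.c_far y hyR x hxR hyx
    have h3 := S.d_le_e1
    have h4 := S.e1_le
    have h5 := S.d_pos
    nlinarith [mul_self_nonneg (S.c y x)]
  · refine (Q2 hyR hxR hyx (by norm_num : (0 : ℝ) < 1 / 21) h1).mono ?_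
    rw [div_div_eq_mul_div, div_one, mul_comm]

include hL in
lemma Beh.rspec {q T : X} (h : Beh S M R1 q T) :
    q ∈ R1 ∧ ∃ T', T = S.s q • T' ∧ S.RBs M R1 q T' := by
  induction h with
  | base h1 h2 h3 => exact ⟨h1, _, rfl, rbs_base hL h1 h2 h3⟩
  | step h1 h2 h3 ih =>
    obtain ⟨h4, T', rfl, h5⟩ := ih
    exact ⟨h1, _, rfl, rbs_of_rfr hL h4 h1 h2 (rfr_of_rbs hL h4 h5)⟩

include hL in
lemma rnxt_sub : S.nxt M R1 ⊆ S.O := by
  have key : ∀ q T, Beh S M R1 q T → T ∈ S.O := by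
    intro q T h
    induction h with
    | @base q Q h1 h2 h3 => exact S.O_inv _ (hL.sub h1) _ (hL.base_O h2)
    | @step q q' T h1 h2 h3 ih => exact S.O_inv _ (hL.sub h1) _ ih
  rintro y (hy | ⟨q, hq⟩)
  · exact hL.base_O hy
  · exact key q y hq

include hL in
lemma rnxt_inv {x : X} (hx : x ∈ R1) {y : X} (hy : y ∈ S.nxt M R1) :
    S.s x • y ∈ S.nxt M R1 := by
  have hxR := hL.sub hx
  rcases hy with hy | ⟨q, hq⟩
  · by_cases h : S.Off y x
    · exact Or.inr ⟨x, Beh.base hx hy h⟩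
    · simp only [Off, not_forall, not_not] at h
      obtain ⟨hyR, h⟩ := h
      have hy1 : y ∈ R1 := hL.sat x hx y hyR h
      refine Or.inl (Or.inr (hL.sat x hx _ (S.R_inv x hxR y hyR) ?_))
      rw [← h, s_self hyR]
  · by_cases h : S.s x = S.s q
    · rw [h]
      cases hq with
      | base h1 h2 h3 => rw [ss (hL.sub h1)]; exact Or.inl h2
      | step h1 h2 h3 => rw [ss (hL.sub h1)]; exact Or.inr ⟨_, h3⟩
    · exact Or.inr ⟨x, Beh.step hx h hq⟩

include hL in
lemma Beh.rsat {q T : X} (h : Beh S M R1 q T) (hT : T ∈ S.R) :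
    ∀ r ∈ S.R, S.s r = S.s T → Beh S M R1 q r := by
  induction h with
  | @base q Q h1 h2 h3 =>
    intro r hr hrT
    have hqR := hL.sub h1
    have hQ : Q ∈ S.R := by
      have := S.R_inv q hqR _ hT
      rwa [ss hqR] at this
    have hQ1 : Q ∈ R1 := by
      rcases h2 with h2 | h2
      · exact absurd hQ (hL.nomir Q h2)
      · exact h2
    have hr' : S.s q • r ∈ S.R := S.R_inv q hqR r hr
    have h4 : S.s (S.s q • r) = S.s Q := by
      rw [S.s_conj q hqR r hr, hrT, S.s_conj q hqR Q hQ]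
      have := S.s_sq q hqR
      calc S.s q * (S.s q * S.s Q * S.s q) * S.s q
          = (S.s q * S.s q) * S.s Q * (S.s q * S.s q) := by group
        _ = _ := by rw [this]; group
    rw [← ss hqR r]
    refine Beh.base h1 (Or.inr (hL.sat Q hQ1 _ hr' h4)) ?_
    intro _
    rw [h4]
    exact h3 hQ
  | @step q q' T h1 h2 h3 ih =>
    intro r hr hrT
    have hqR := hL.sub h1
    have hQ : T ∈ S.R := by
      have := S.R_inv q hqR _ hT
      rwa [ss hqR] at this
    have hr' : S.s q • r ∈ S.R := S.R_inv q hqR r hr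
    have h4 : S.s (S.s q • r) = S.s T := by
      rw [S.s_conj q hqR r hr, hrT, S.s_conj q hqR T hQ]
      have := S.s_sq q hqR
      calc S.s q * (S.s q * S.s T * S.s q) * S.s q
          = (S.s q * S.s q) * S.s T * (S.s q * S.s q) := by group
        _ = _ := by rw [this]; group
    rw [← ss hqR r]
    exact Beh.step h1 h2 (ih hQ _ hr' h4)

include hL in
lemma rnxt_sat {x : X} (hx : x ∈ S.nxt M R1) (hxR : x ∈ S.R)
    {r : X} (hr : r ∈ S.R) (h : S.s r = S.s x) : r ∈ S.nxt M R1 := by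
  rcases hx with (hx | hx) | ⟨q, hq⟩
  · exact absurd hxR (hL.nomir x hx)
  · exact Or.inl (Or.inr (hL.sat x hx r hr h))
  · exact Or.inr ⟨q, hq.rsat hL hxR r hr h⟩

include hL in
lemma roff_nxt {r P : X} (hr : r ∈ S.R)
    (hrn : r ∉ S.nxt M R1) (hP : P ∈ S.nxt M R1) : S.Off P r := by
  intro h1 h2
  exact hrn (rnxt_sat hL hP h1 hr h2.symm)

include hL in
lemma rnb_nb {r P T x y : X} (hr : r ∈ S.R) (hrn : r ∉ S.nxt M R1) (hP : P ∈ S.O)
    (hPr : S.Off P r) (hT : T ∈ S.O) (hTr : S.Off T r) (hx : x ∈ M ∪ R1) (hy : y ∈ M ∪ R1)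
    (h1 : S.Nr S.e1 r P x) (h2 : S.Nr S.e1 r T y) : S.Nr S.e r P T := by
  have hd : S.d ≤ S.e1 := by linarith [S.d_le_e1, S.d_pos]
  have hp := S.e1_pos
  have hl := S.e1_le
  have hx' := rnxt_sub hL (Or.inl hx)
  have hy' := rnxt_sub hL (Or.inl hy)
  have hxo := roff_nxt hL hr hrn (Or.inl hx)
  have hyo := roff_nxt hL hr hrn (Or.inl hy)
  have h3 := hL.far r hr (fun h => hrn (layer_sub_nxt h)) x hx y hy
  have h4 := h1.tri h3 hr hP hx' hy' hPr hxo hyo (by linarith) (by linarith)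
  have h5 := h4.tri (h2.symm.mono (by linarith : S.e1 ≤ 20 * S.e1)) hr hP hy' hT hPr hyo
    hTr (by linarith) (by linarith)
  refine h5.mono ?_
  linarith [S.e1_eq]

include hL in
lemma rsmul_notin {q r : X} (hq : q ∈ R1) (hrn : r ∉ S.nxt M R1) : S.s q • r ∉ S.nxt M R1 := by
  intro h
  have := rnxt_inv hL hq h
  rw [ss (hL.sub hq)] at this
  exact hrn this

include hL in
/-- dichotomy -/
lemma rtwo_sides {q r P T : X} (hq : q ∈ R1) (hr : r ∈ S.R) (hrn : r ∉ S.nxt M R1)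
    (hP : P ∈ S.O) (hPq : S.Off P q) (hT : T ∈ S.O) (hTq : S.Off T q)
    (hpos : 0 < S.c P q) (hpos' : 0 < S.c q T)
    (h : 1 / 500 * (S.c P q * S.c q T) ≤ S.c P T) :
    S.Nr S.e1 r T q ∨ S.Nr S.e1 r P q := by
  have hqR := hL.sub hq
  have hrq : S.s r ≠ S.s q := fun h => hrn (Or.inl (Or.inr (hL.sat q hq r hr h)))
  have hd : S.d / (1 / 20000) ≤ S.e1 := by
    have h1 := S.d_le'
    have h2 := S.e1_le
    have h3 := S.e1_pos
    rw [div_div_eq_mul_div, div_one]
    nlinarith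
  by_contra hcon
  push Not at hcon
  obtain ⟨hc1, hc2⟩ := hcon
  have k1 : S.Nr (1 / 20000) q r T := by
    unfold Nr
    by_contra h
    push Not at h
    exact hc1 ((Q2 hr hqR hrq (by norm_num : (0 : ℝ) < 1 / 20000) h.le).mono hd)
  have k2 : S.Nr (1 / 20000) q r P := by
    unfold Nr
    by_contra h
    push Not at h
    exact hc2 ((Q2 hr hqR hrq (by norm_num : (0 : ℝ) < 1 / 20000) h.le).mono hd)
  have k3 := k2.symm.tri k1 hqR hP (S.sub hr) hT hPq (fun _ => hrq)
    hTq (by linarith [S.d_le_e1, S.d_pos, S.e1_le]) (by norm_num)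
  unfold Nr at k3
  have k9 : 0 < S.c P q * S.c q T := mul_pos hpos hpos'
  linarith

/-- objects allowed on the left of `q` -/
def Lft (S : Sys G X) (M R1 : Set X) (q P : X) : Prop :=
  (P ∈ M ∪ R1 ∧ S.Off P q) ∨ ∃ p ∈ R1, S.s q ≠ S.s p ∧ S.RFr R1 p P

include hL in
lemma Lft.O {q P : X} (h : S.Lft M R1 q P) : P ∈ S.O := by
  rcases h with ⟨h, _⟩ | ⟨p, hp, _, h⟩
  · exact hL.base_O h
  · exact h.1

lemma Lft.off {q P : X} (hq : q ∈ R1) (h : S.Lft M R1 q P) : S.Off P q := by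
  rcases h with ⟨_, h⟩ | ⟨p, hp, hqp, h⟩
  · exact h
  · exact (h.2 q hq hqp).1

include hL in
/-- if `c P q = 0` then `P` is a base point -/
lemma Lft.zero {q P : X} (hq : q ∈ R1) (h : S.Lft M R1 q P) (h0 : S.c P q = 0) : P ∈ M := by
  have hqR := hL.sub hq
  rcases h with ⟨h | h, h'⟩ | ⟨p, hp, hqp, h⟩
  · exact h
  · have := c_pos_mir (hL.sub h) hqR (h' (hL.sub h))
    linarith
  · have h1 := h.2 q hq hqp
    have := h1.2.c_pos hqR h.1 (S.sub (hL.sub hp)) h1.1 (fun _ => hqp.symm)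
      (by linarith [S.d_pos]) (by linarith [S.d_le_e1, S.d_pos, S.e1_le])
    linarith

include hL in
/-- separation with two-sided constant -/
lemma Lft.sep {q P T' : X} (hq : q ∈ R1) (h : S.Lft M R1 q P) (hT : S.RBs M R1 q T') :
    1 / 500 * (S.c P q * S.c q (S.s q • T')) ≤ S.c P (S.s q • T') := by
  have hqR := hL.sub hq
  have h0 : 0 ≤ S.c P q * S.c q (S.s q • T') := mul_nonneg (S.c_nonneg _ _) (S.c_nonneg _ _)
  rcases h with ⟨h, h'⟩ | ⟨p, hp, hqp, h⟩
  · have := hT.2.2 P h h'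
    linarith
  · by_contra hcon
    push Not at hcon
    have h1 := h.2 q hq hqp
    have hpR := hL.sub hp
    have k1 : S.Nr (1 / 500) q P (S.s q • T') := hcon.le
    have k2 := (h1.2.symm.mono (by linarith [S.d_le_e1, S.d_pos, S.e1_le] :
      21 * S.d ≤ 1 / 500)).tri k1 hqR (S.sub hpR) h.1 (S.O_inv q hqR T' hT.1)
      (fun _ => hqp.symm) h1.1 (off_smul' hqR hT.2.1)
      (by linarith [S.d_le_e1, S.d_pos, S.e1_le]) (by norm_num)
    have k3 := hT.2.2 p (Or.inr hp) (fun _ => hqp.symm)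
    have k4 := c_pos_mir hpR hqR hqp.symm
    have k5 : 0 < S.c q (S.s q • T') := by
      rcases eq_or_lt_of_le (S.c_nonneg q (S.s q • T')) with h | h
      · rw [← h] at hcon
        have := S.c_nonneg P (S.s q • T')
        linarith
      · exact h
    have k6 : 0 < S.c p q * S.c q (S.s q • T') := mul_pos k4 k5
    unfold Nr at k2
    linarith

include hL in
lemma rbase_self {r Q : X} (hr : r ∈ S.R) (hrn : r ∉ S.nxt M R1) (hQ : Q ∈ M ∪ R1) :
    S.Nr S.e1 r Q Q :=
  hL.far r hr (fun h => hrn (layer_sub_nxt h)) Q hQ Q hQ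

/-- a base point on the mirror `q` may be reflected -/
lemma nr_zero {K : ℝ} {q r P T : X} (hq : q ∈ S.R) (h : ∀ z, S.c (S.s q • P) z = S.c P z)
    (hh : S.Nr K (S.s q • r) P T) : S.Nr K r P (S.s q • T) := by
  have h1 : S.Nr K (S.s q • r) (S.s q • P) T := by
    unfold Nr at *
    rw [h, h]
    exact hh
  have h2 := h1.inv hq
  rwa [ss hq, ss hq] at h2

include hL in
lemma rfar {q T : X} (h : Beh S M R1 q T) : ∀ r ∈ S.R, r ∉ S.nxt M R1 → ∀ P,
    S.Lft M R1 q P → S.Off P r → ∀ x ∈ M ∪ R1, S.Nr S.e1 r P x → S.Nr S.e r P T := by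
  induction h with
  | @base q Q h1 h2 h3 =>
    intro r hr hrn P hP hPr x hx hPx
    have hqR := hL.sub h1
    have hQ : S.RBs M R1 q Q := rbs_base hL h1 h2 h3
    have hr' : S.s q • r ∉ S.nxt M R1 := rsmul_notin hL h1 hrn
    have hr'R : S.s q • r ∈ S.R := S.R_inv q hqR r hr
    by_cases hPz : S.c P q = 0
    · have hPM := hP.zero hL h1 hPz
      refine nr_zero hqR (hL.zero q h1 P hPM hPz) ?_
      exact rnb_nb hL hr'R hr' (hL.subO hPM) (fun h => absurd h (hL.nomir P hPM))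
        (hL.base_O h2) (roff_nxt hL hr'R hr' (Or.inl h2)) (Or.inl hPM) h2
        (rbase_self hL hr'R hr' (Or.inl hPM)) (rbase_self hL hr'R hr' h2)
    · by_cases hTz : S.c Q q = 0
      · have hQM : Q ∈ M := by
          rcases h2 with h | h
          · exact h
          · have := c_pos_mir (hL.sub h) hqR (h3 (hL.sub h))
            linarith
        have hz := hL.zero q h1 Q hQM hTz
        have h6 := rnb_nb hL hr hrn (hP.O hL) hPr (hL.subO hQM)
          (fun h => absurd h (hL.nomir Q hQM)) hx (Or.inl hQM) hPx (rbase_self hL hr hrn (Or.inl hQM))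
        unfold Nr at h6 ⊢
        rw [S.c_symm P (S.s q • Q), hz, S.c_symm r (S.s q • Q), hz, S.c_symm Q P, S.c_symm Q r]
        exact h6
      · have hTz' : S.c q (S.s q • Q) = S.c Q q := by rw [S.c_symm, c_refl hqR]
        rcases rtwo_sides hL h1 hr hrn (hP.O hL) (hP.off h1) (S.O_inv q hqR Q hQ.1)
          (off_smul' hqR h3) (lt_of_le_of_ne (S.c_nonneg _ _) (Ne.symm hPz))
          (by rw [hTz']; exact lt_of_le_of_ne (S.c_nonneg _ _) (Ne.symm hTz))
          (hP.sep hL h1 hQ) with h4 | h4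
        · exact rnb_nb hL hr hrn (hP.O hL) hPr (S.O_inv q hqR Q hQ.1)
            (roff_nxt hL hr hrn (Or.inr ⟨q, Beh.base h1 h2 h3⟩)) hx (Or.inr h1) hPx h4
        · have hq' : S.s q • q ∈ M ∪ R1 :=
            Or.inr (hL.sat q h1 _ (S.R_inv q hqR q hqR) (s_self hqR))
          have h6 := rnb_nb hL hr'R hr' (S.O_inv q hqR P (hP.O hL)) (off_smul hr hqR hPr) hQ.1
            (roff_nxt hL hr'R hr' (Or.inl h2)) hq' h2 (h4.inv hqR) (rbase_self hL hr'R hr' h2)
          have h7 := h6.inv hqR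
          rwa [ss hqR, ss hqR] at h7
  | @step q q' T h1 h2 h3 ih =>
    intro r hr hrn P hP hPr x hx hPx
    have hqR := hL.sub h1
    have hr' : S.s q • r ∉ S.nxt M R1 := rsmul_notin hL h1 hrn
    have hr'R : S.s q • r ∈ S.R := S.R_inv q hqR r hr
    have h3' := h3
    obtain ⟨h4, T', rfl, h5⟩ := h3.rspec hL
    have hfr := rfr_of_rbs hL h4 h5
    have hT : S.RBs M R1 q (S.s q' • T') := rbs_of_rfr hL h4 h1 h2 hfr
    by_cases hPz : S.c P q = 0
    · have hPM := hP.zero hL h1 hPz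
      refine nr_zero hqR (hL.zero q h1 P hPM hPz) ?_
      exact ih _ hr'R hr' P (Or.inl ⟨Or.inl hPM, fun h => absurd h (hL.nomir P hPM)⟩)
        (fun h => absurd h (hL.nomir P hPM)) P (Or.inl hPM) (rbase_self hL hr'R hr' (Or.inl hPM))
    · have hTz : 0 < S.c (S.s q' • T') q := by
        have h1' := hfr.2 q h1 h2
        exact h1'.2.c_pos hqR hfr.1 (S.sub (hL.sub h4)) h1'.1 (fun _ => h2.symm)
          (by linarith [S.d_pos]) (by linarith [S.d_le_e1, S.d_pos, S.e1_le])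
      have hTz' : S.c q (S.s q • S.s q' • T') = S.c (S.s q' • T') q := by
        rw [S.c_symm, c_refl hqR]
      rcases rtwo_sides hL h1 hr hrn (hP.O hL) (hP.off h1) (S.O_inv q hqR _ hT.1)
          (off_smul' hqR hT.2.1) (lt_of_le_of_ne (S.c_nonneg _ _) (Ne.symm hPz))
          (by rw [hTz']; exact hTz) (hP.sep hL h1 hT) with h6 | h6
      · exact rnb_nb hL hr hrn (hP.O hL) hPr (S.O_inv q hqR _ hT.1)
          (roff_nxt hL hr hrn (Or.inr ⟨q, Beh.step h1 h2 h3'⟩)) hx (Or.inr h1) hPx h6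
      · have hq' : S.s q • q ∈ M ∪ R1 :=
          Or.inr (hL.sat q h1 _ (S.R_inv q hqR q hqR) (s_self hqR))
        have hPb : S.RBs M R1 q P := by
          rcases hP with ⟨h, h'⟩ | ⟨p, hp, hqp, h⟩
          · exact rbs_base hL h1 h h'
          · exact rbs_of_rfr hL hp h1 hqp h
        have h7 := ih _ hr'R hr' (S.s q • P) (Or.inr ⟨q, h1, h2.symm, rfr_of_rbs hL h1 hPb⟩)
          (off_smul hr hqR hPr) _ hq' (h6.inv hqR)
        have h8 := h7.inv hqR
        rwa [ss hqR, ss hqR] at h8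

include hL in
lemma rsmall_base {r a b : X} (hr : r ∈ S.R) (hrn : r ∉ S.nxt M R1) (ha : a ∈ M ∪ R1)
    (hb : b ∈ S.nxt M R1) : S.Nr S.e r a b := by
  rcases hb with hb | ⟨q, hq⟩
  · exact rnb_nb hL hr hrn (rnxt_sub hL (Or.inl ha)) (roff_nxt hL hr hrn (Or.inl ha))
      (rnxt_sub hL (Or.inl hb)) (roff_nxt hL hr hrn (Or.inl hb)) ha hb
      (rbase_self hL hr hrn ha) (rbase_self hL hr hrn hb)
  · have hqR1 := (hq.rspec hL).1
    have hqR := hL.sub hqR1
    by_cases h : S.Off a q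
    · exact rfar hL hq r hr hrn a (Or.inl ⟨ha, h⟩)
        (roff_nxt hL hr hrn (Or.inl ha)) a ha (rbase_self hL hr hrn ha)
    · simp only [Off, not_forall, not_not] at h
      obtain ⟨haR, h⟩ := h
      have ha' : S.s q • a ∈ R1 :=
        hL.sat q hqR1 _ (S.R_inv q hqR a haR) (by rw [← h, s_self haR])
      have ha'' : S.s (S.s q • a) = S.s q := by rw [← h, s_self haR]
      have hr' : S.s q • r ∉ S.nxt M R1 := rsmul_notin hL hqR1 hrn
      have hr'R : S.s q • r ∈ S.R := S.R_inv q hqR r hr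
      cases hq with
      | @base q Q h1 h2 h3 =>
        have h6 := rnb_nb hL hr'R hr' (S.sub (hL.sub ha'))
          (roff_nxt hL hr'R hr' (layer_sub_nxt ha')) (rnxt_sub hL (Or.inl h2))
          (roff_nxt hL hr'R hr' (Or.inl h2)) (Or.inr ha') h2
          (rbase_self hL hr'R hr' (Or.inr ha')) (rbase_self hL hr'R hr' h2)
        have h7 := h6.inv hqR
        rwa [ss hqR, ss hqR] at h7
      | @step q q' T h1 h2 h3 =>
        have h6 := rfar hL h3 _ hr'R hr' (S.s q • a)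
          (Or.inl ⟨Or.inr ha', fun _ => by rw [ha'']; exact h2⟩)
          (roff_nxt hL hr'R hr' (layer_sub_nxt ha')) _ (Or.inr ha')
          (rbase_self hL hr'R hr' (Or.inr ha'))
        have h7 := h6.inv hqR
        rwa [ss hqR, ss hqR] at h7

include hL in
lemma rsmall_nxt {r a b : X} (hr : r ∈ S.R) (hrn : r ∉ S.nxt M R1) (ha : a ∈ S.nxt M R1)
    (hb : b ∈ S.nxt M R1) : S.Nr S.e r a b := by
  rcases ha with ha | ⟨q, hq⟩
  · exact rsmall_base hL hr hrn ha hb
  · induction hq generalizing r b with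
    | @base q Q h1 h2 h3 =>
      have hqR := hL.sub h1
      have h7 := (rsmall_base hL (S.R_inv q hqR r hr) (rsmul_notin hL h1 hrn) h2
        (rnxt_inv hL h1 hb)).inv hqR
      rwa [ss hqR, ss hqR] at h7
    | @step q q' T h1 h2 h3 ih =>
      have hqR := hL.sub h1
      have h7 := (ih (S.R_inv q hqR r hr) (rsmul_notin hL h1 hrn) (rnxt_inv hL h1 hb)).inv hqR
      rwa [ss hqR, ss hqR] at h7

include hL in
lemma rs_mem {q T : X} (h : Beh S M R1 q T) (hT : T ∈ S.R) :
    S.s T ∈ closure (S.s '' R1) := by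
  induction h with
  | @base q Q h1 h2 h3 =>
    have hQ : Q ∈ S.R := by
      have := S.R_inv q (hL.sub h1) _ hT
      rwa [ss (hL.sub h1)] at this
    have hQ1 : Q ∈ R1 := by
      rcases h2 with h2 | h2
      · exact absurd hQ (hL.nomir Q h2)
      · exact h2
    rw [S.s_conj q (hL.sub h1) Q hQ]
    have k1 : S.s q ∈ closure (S.s '' R1) := subset_closure (Set.mem_image_of_mem _ h1)
    have k2 : S.s Q ∈ closure (S.s '' R1) := subset_closure (Set.mem_image_of_mem _ hQ1)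
    exact mul_mem (mul_mem k1 k2) k1
  | @step q q' T h1 h2 h3 ih =>
    have hQ : T ∈ S.R := by
      have := S.R_inv q (hL.sub h1) _ hT
      rwa [ss (hL.sub h1)] at this
    rw [S.s_conj q (hL.sub h1) T hQ]
    have k1 : S.s q ∈ closure (S.s '' R1) := subset_closure (Set.mem_image_of_mem _ h1)
    exact mul_mem (mul_mem k1 (ih hQ)) k1

include hL in
/-- the group of the start windmill is generated by the first family -/
theorem GW_start : S.GW (S.nxt M R1) = closure (S.s '' R1) := by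
  apply le_antisymm
  · refine (closure_le _).2 ?_
    rintro _ ⟨w, ⟨(hw | hw) | ⟨q, hq⟩, hwR⟩, rfl⟩
    · exact absurd hwR (hL.nomir w hw)
    · exact subset_closure (Set.mem_image_of_mem _ hw)
    · exact rs_mem hL hq hwR
  · refine closure_mono (Set.image_mono fun x hx => ⟨layer_sub_nxt hx, hL.sub hx⟩)

include hL in
lemma start_inv {g : G} (hg : g ∈ closure (S.s '' R1)) : ∀ y ∈ S.nxt M R1, g • y ∈ S.nxt M R1 := by
  induction hg using closure_induction_left with
  | one => intro y hy; rwa [one_smul]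
  | mul_left x hx g hg ih =>
    obtain ⟨w, hw, rfl⟩ := hx
    intro y hy
    rw [mul_smul]
    exact rnxt_inv hL hw (ih y hy)
  | inv_mul_cancel x hx g hg ih =>
    obtain ⟨w, hw, rfl⟩ := hx
    intro y hy
    rw [s_inv (hL.sub hw), mul_smul]
    exact rnxt_inv hL hw (ih y hy)

include hL in
/-- description of the start windmill -/
theorem mem_start {y : X} : y ∈ S.nxt M R1 ↔
    ∃ g ∈ closure (S.s '' R1), ∃ x ∈ M ∪ R1, y = g • x := by
  constructor
  · rintro (hy | ⟨q, hq⟩)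
    · exact ⟨1, one_mem _, y, hy, (one_smul _ _).symm⟩
    · induction hq with
      | @base q Q h1 h2 h3 =>
        exact ⟨S.s q, subset_closure (Set.mem_image_of_mem _ h1), Q, h2, rfl⟩
      | @step q q' T h1 h2 h3 ih =>
        obtain ⟨g, hg, x, hx, rfl⟩ := ih
        exact ⟨S.s q * g, mul_mem (subset_closure (Set.mem_image_of_mem _ h1)) hg, x, hx,
          (mul_smul _ _ _).symm⟩
  · rintro ⟨g, hg, x, hx, rfl⟩
    exact start_inv hL hg x (Or.inl hx)

include hL in
/-- **start windmill** -/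
theorem mill_start : S.Mill (S.nxt M R1) where
  sub := rnxt_sub hL
  inv := by
    intro w hw hwR x hx
    refine start_inv hL ?_ x hx
    rw [← GW_start hL]
    exact mem_GW hw hwR
  sat := fun w hw hwR r hr h => rnxt_sat hL hw hwR hr h
  small := fun r hr hrn a ha b hb => rsmall_nxt hL hr hrn ha hb

end start

end Sys

end Crest.Agent.R272.WmA181
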