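import Crest.Agent.R272.WmC_181
import Crest.Agent.R272.LBForm_585
import Crest.Agent.R272.Wm1_433

/-!
# The windmill, part D: instance for `Lor` (helper585's language) and the literal theorems
`gr`, `start_mill`.
-/

set_option autoImplicit false

namespace Crest.Agent.R272.WmD181

open Complex ComplexConjugate Subgroup
open Crest.Agent.R272.LBForm_585 Crest.Agent.R272.LBForm_585.Lor

variable {V : Type*} [AddCommGroup V] [Module ℂ V]

/-- System of mirrors of norm `2`, sparse. -/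
structure MSys (L : Lor V) (W : Set V) (Λ : ℝ) : Prop where
  norm : ∀ w ∈ W, L.h w w = 2
  neg : ∀ w ∈ W, -w ∈ W
  refl : ∀ w ∈ W, ∀ w' ∈ W, rho L w w' ∈ W
  sep : ∀ w ∈ W, ∀ w' ∈ W, w' = w ∨ w' = -w ∨ Λ ≤ ‖L.h w w'‖

/-- the reflection as a linear equivalence -/
noncomputable def rhoE (L : Lor V) (w : V) (hw : L.h w w = 2) : V ≃ₗ[ℂ] V where
  toFun := rho L w
  map_add' := rho_add L w
  map_smul' := by intro c x; exact rho_smul L w c x
  invFun := rho L w
  left_inv := rho_rho L hw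
  right_inv := rho_rho L hw

open Classical in
/-- total version -/
noncomputable def sE (L : Lor V) (w : V) : V ≃ₗ[ℂ] V :=
  if h : L.h w w = 2 then rhoE L w h else 1

lemma sE_apply (L : Lor V) {w : V} (hw : L.h w w = 2) (x : V) : sE L w x = rho L w x := by
  unfold sE
  rw [dif_pos hw]
  rfl

lemma sE_smul (L : Lor V) {w : V} (hw : L.h w w = 2) (x : V) : sE L w • x = rho L w x :=
  sE_apply L hw x

/-- normalising factor -/
noncomputable def nn (L : Lor V) (x : V) : ℝ := (√|(L.h x x).re|)⁻¹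

/-- normalised modulus of the inner product -/
noncomputable def cc (L : Lor V) (x y : V) : ℝ := ‖L.h x y‖ * nn L x * nn L y

lemma nn_nonneg (L : Lor V) (x : V) : 0 ≤ nn L x := by unfold nn; positivity

lemma nn_mir (L : Lor V) {x : V} (h : L.h x x = 2) : nn L x * nn L x = 1 / 2 := by
  unfold nn
  rw [h, ← mul_inv, Real.mul_self_sqrt (abs_nonneg _)]
  norm_num

lemma nn_mir_pos (L : Lor V) {x : V} (h : L.h x x = 2) : 0 < nn L x := by
  unfold nn
  rw [h]
  norm_num

lemma nn_pt (L : Lor V) {x : V} (h : L.h x x = -1) : nn L x = 1 := by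
  unfold nn
  rw [h]
  norm_num

lemma nn_rho (L : Lor V) {w : V} (hw : L.h w w = 2) (x : V) : nn L (rho L w x) = nn L x := by
  unfold nn
  rw [h_rho_rho L hw]

lemma nn_neg (L : Lor V) (x : V) : nn L (-x) = nn L x := by
  unfold nn
  rw [L.neg_left, L.neg_right, neg_neg]

variable {L : Lor V} {W : Set V} {Λ : ℝ}

lemma MSys.sE_neg (hS : MSys L W Λ) {w : V} (hw : w ∈ W) : sE L (-w) = sE L w := by
  ext x
  rw [sE_apply L (hS.norm _ (hS.neg w hw)), sE_apply L (hS.norm w hw), rho_neg]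

lemma MSys.eq_of_sE (hS : MSys L W Λ) (hΛ : 2 < Λ) {x y : V} (hx : x ∈ W) (hy : y ∈ W)
    (h : sE L x = sE L y) : y = x ∨ y = -x := by
  rcases hS.sep x hx y hy with h1 | h1 | h1
  · exact Or.inl h1
  · exact Or.inr h1
  · exfalso
    have h2 : rho L x y = rho L y y := by
      rw [← sE_apply L (hS.norm x hx), ← sE_apply L (hS.norm y hy), h]
    rw [rho_self L (hS.norm y hy)] at h2
    unfold rho at h2
    have h3 : L.h y x • x = (2 : ℂ) • y := by
      have : y + y = L.h y x • x := by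
        have := congrArg (fun z => z + L.h y x • x + y) h2
        rw [sub_add_cancel] at this
        rw [this]; abel
      rw [← this]; module
    have h4 : L.h (L.h y x • x) y = L.h ((2 : ℂ) • y) y := by rw [h3]
    rw [L.smul_left, L.smul_left, hS.norm y hy] at h4
    have h5 : ‖L.h y x * L.h x y‖ = 4 := by rw [h4]; norm_num
    rw [norm_mul, L.norm_symm y x] at h5
    nlinarith

lemma MSys.far (hS : MSys L W Λ) {x y : V} (hx : x ∈ W) (hy : y ∈ W)
    (h : sE L x ≠ sE L y) : Λ ≤ ‖L.h x y‖ := by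
  rcases hS.sep x hx y hy with h1 | h1 | h1
  · exact absurd (by rw [h1]) h
  · exact absurd (by rw [h1, hS.sE_neg hx]) h
  · exact h1

/-- objects -/
def Obj (L : Lor V) (W : Set V) : Set V := W ∪ {x | L.h x x = -1}

lemma MSys.nn_pos (hS : MSys L W Λ) {x : V} (hx : x ∈ Obj L W) : 0 < nn L x := by
  rcases hx with hx | hx
  · exact nn_mir_pos L (hS.norm x hx)
  · rw [nn_pt L hx]; norm_num

/-- the Hermitian form in helper433's language -/
def toHF (L : Lor V) : Wm_433.HF V where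
  h := L.h
  add_left := L.add_left
  smul_left := L.smul_left
  symm := fun x y => (L.symm x y).symm
  sig := L.neg

lemma MSys.nz (hS : MSys L W Λ) (hΛ : 2 < Λ) {r x y : V} {K : ℝ} (hr : r ∈ W)
    (hx : x ∈ Obj L W) (hy : y ∈ Obj L W) (hxr : x ∈ W → sE L x ≠ sE L r)
    (hyr : y ∈ W → sE L y ≠ sE L r) (h : cc L x y ≤ K * (cc L x r * cc L r y)) :
    L.h x r ≠ 0 := by
  intro h0
  have h1 : cc L x r = 0 := by unfold cc; rw [h0]; simp
  rw [h1] at h
  have h2 : L.h x y = 0 := by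
    unfold cc at h
    have h3 := hS.nn_pos hx
    have h4 := hS.nn_pos hy
    have h5 : ‖L.h x y‖ * (nn L x * nn L y) ≤ 0 := by linarith
    have h6 : 0 < nn L x * nn L y := mul_pos h3 h4
    have h7 : ‖L.h x y‖ ≤ 0 := by
      by_contra hcon
      push Not at hcon
      have := mul_pos hcon h6
      linarith
    simpa using h7
  rcases hx with hx | hx
  · have := hS.far hx hr (hxr hx)
    rw [h0, norm_zero] at this
    linarith
  · rcases hy with hy | hy
    · have h3 := hS.far hy hr (hyr hy)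
      set z : V := y - (L.h y r / 2) • r with hz
      have hrr := hS.norm r hr
      have hyy := hS.norm y hy
      have h4 : L.h z z = 2 - L.h y r * L.h r y / 2 := by
        rw [hz, L.sub_left, L.sub_right, L.sub_right, L.smul_left, L.smul_right, L.smul_left,
          L.smul_right, hrr, hyy, map_div₀, ← L.symm y r]
        simp only [map_ofNat]
        ring
      have h5 : (L.h z z).re < 0 := by
        rw [h4, L.symm y r, Complex.mul_conj, Complex.normSq_eq_norm_sq]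
        have : (2 - ((‖L.h y r‖ ^ 2 : ℝ) : ℂ) / 2).re = 2 - ‖L.h y r‖ ^ 2 / 2 := by
          have e : (2 - ((‖L.h y r‖ ^ 2 : ℝ) : ℂ) / 2) = ((2 - ‖L.h y r‖ ^ 2 / 2 : ℝ) : ℂ) := by
            push_cast; ring
          rw [e, Complex.ofReal_re]
        rw [this]
        nlinarith
      have h6 : L.h x z = 0 := by
        rw [hz, L.sub_right, L.smul_right, h2, h0]; simp
      have h7 := L.neg z x h5 h6
      have h8 : (L.h x x).re = -1 := by
        have : L.h x x = -1 := hx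
        rw [this]; simp
      linarith
    · have := one_le_points L (o := y) (p := x) hy hx
      rw [h2, norm_zero] at this
      linarith

lemma MSys.q1 (hS : MSys L W Λ) (hΛ : 100000000000 ≤ Λ) {r a b f : V} (hr : r ∈ W)
    (ha : a ∈ Obj L W) (hb : b ∈ Obj L W) (hf : f ∈ Obj L W) (har : a ∈ W → sE L a ≠ sE L r)
    (hbr : b ∈ W → sE L b ≠ sE L r) (hfr : f ∈ W → sE L f ≠ sE L r) (K : ℝ)
    (hd : 4 / Λ ^ 2 ≤ K) (hK : K ≤ 1) (h1 : cc L a b ≤ K * (cc L a r * cc L r b))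
    (h2 : cc L b f ≤ K * (cc L b r * cc L r f)) : cc L a f ≤ 20 * K * (cc L a r * cc L r f) := by
  have hΛ2 : 2 < Λ := by linarith
  have hΛp : 0 < Λ := by linarith
  have hrr := hS.norm r hr
  have za := hS.nz hΛ2 hr ha hb har hbr h1
  have zb : L.h b r ≠ 0 := hS.nz hΛ2 hr hb hf hbr hfr h2
  have csymm : ∀ x y, cc L x y = cc L y x := by
    intro x y; unfold cc; rw [L.norm_symm x y]; ring
  have zf : L.h f r ≠ 0 := by
    refine hS.nz (K := K) hΛ2 hr hf hb hfr hbr ?_
    rw [csymm f b, csymm f r, csymm r b, mul_comm (cc L r f)]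
    exact h2
  set t : ℝ := (√2)⁻¹ with ht
  have ht2 : t * t = 1 / 2 := by
    rw [ht, ← mul_inv, Real.mul_self_sqrt (by norm_num)]; norm_num
  have htp : 0 < t := by rw [ht]; positivity
  set r' : V := ((t : ℝ) : ℂ) • r with hr'
  have h_r' : ∀ x, L.h x r' = (t : ℂ) * L.h x r := by
    intro x; rw [hr', L.smul_right, Complex.conj_ofReal]
  have hrr' : L.h r' r' = 1 := by
    rw [h_r', hr', L.smul_left, hrr]
    have : (t : ℂ) * t = 1 / 2 := by
      have := congrArg (fun z : ℝ => (z : ℂ)) ht2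
      push_cast at this
      exact this
    rw [← mul_assoc, this]; norm_num
  have nr' : ∀ x, ‖L.h x r'‖ = t * ‖L.h x r‖ := by
    intro x; rw [h_r', norm_mul, Complex.norm_real, Real.norm_eq_abs, abs_of_pos htp]
  have seen : ∀ x ∈ Obj L W, (x ∈ W → sE L x ≠ sE L r) → L.h x r ≠ 0 →
      (toHF L).Seen (4 / Λ ^ 2) r' x := by
    intro x hx hxr hz
    refine ⟨?_, ?_⟩
    · change L.h x r' ≠ 0
      rw [h_r']
      exact mul_ne_zero (by exact_mod_cast htp.ne') hz
    · change (L.h x x).re ≤ 4 / Λ ^ 2 * ‖L.h x r'‖ ^ 2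
      rcases hx with hx | hx
      · rw [hS.norm x hx, nr', mul_pow]
        have h3 := hS.far hx hr (hxr hx)
        have h4 : t ^ 2 = 1 / 2 := by rw [← ht2]; ring
        rw [h4]
        have h5 : Λ ^ 2 ≤ ‖L.h x r‖ ^ 2 := pow_le_pow_left₀ hΛp.le h3 2
        have h6 : (4 / Λ ^ 2 * (1 / 2 * ‖L.h x r‖ ^ 2)) = 2 * (‖L.h x r‖ ^ 2 / Λ ^ 2) := by
          field_simp; ring
        rw [h6]
        have h7 : 1 ≤ ‖L.h x r‖ ^ 2 / Λ ^ 2 := by
          rw [le_div_iff₀ (by positivity)]; linarith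
        have : (2 : ℂ).re = 2 := by simp
        rw [this]; linarith
      · have h3 : (L.h x x).re = -1 := by
          have : L.h x x = -1 := hx
          rw [this]; simp
        rw [h3]
        have : 0 ≤ 4 / Λ ^ 2 * ‖L.h x r'‖ ^ 2 := by positivity
        linarith
  have sa := seen a ha har za
  have sb := seen b hb hbr zb
  have sf := seen f hf hfr zf
  have hd0 : 0 ≤ 4 / Λ ^ 2 := by positivity
  have hd1 : 4 / Λ ^ 2 ≤ 1 / 100 := by
    rw [div_le_iff₀ (by positivity)]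
    nlinarith
  -- relation between `u` and `cc`
  have key : ∀ x y, L.h x r ≠ 0 → L.h y r ≠ 0 → x ∈ Obj L W → y ∈ Obj L W →
      ‖(toHF L).u r' x y‖ * (cc L x r * cc L r y) = cc L x y := by
    intro x y hx hy hxo hyo
    rw [Wm_433.HF.norm_u]
    change ‖L.h x y‖ / (‖L.h x r'‖ * ‖L.h y r'‖) * _ = _
    rw [nr', nr']
    unfold cc
    have e1 : ‖L.h r y‖ = ‖L.h y r‖ := L.norm_symm r y
    rw [e1]
    have n1 : ‖L.h x r‖ ≠ 0 := by simpa using hx
    have n2 : ‖L.h y r‖ ≠ 0 := by simpa using hy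
    have n3 := nn_mir L hrr
    have e2 : ‖L.h x r‖ * nn L x * nn L r * (‖L.h y r‖ * nn L r * nn L y) =
        ‖L.h x r‖ * ‖L.h y r‖ * (nn L r * nn L r) * (nn L x * nn L y) := by ring
    rw [e2, n3]
    have e3 : t * ‖L.h x r‖ * (t * ‖L.h y r‖) = (t * t) * (‖L.h x r‖ * ‖L.h y r‖) := by ring
    rw [e3, ht2]
    field_simp
  have cpos : ∀ x, L.h x r ≠ 0 → x ∈ Obj L W → 0 < cc L x r := by
    intro x hx hxo
    unfold cc
    have n1 : 0 < ‖L.h x r‖ := by simpa using hx
    exact mul_pos (mul_pos n1 (hS.nn_pos hxo)) (nn_mir_pos L hrr)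
  have pa := cpos a za ha
  have pb := cpos b zb hb
  have pf := cpos f zf hf
  rw [csymm b r] at pb
  have pb' : 0 < cc L b r := by rw [csymm]; exact pb
  rw [csymm f r] at pf
  have ub : ‖(toHF L).u r' a b‖ ≤ K := by
    have := key a b za zb ha hb
    rw [← this] at h1
    exact le_of_mul_le_mul_right h1 (mul_pos pa pb)
  have uf : ‖(toHF L).u r' b f‖ ≤ K := by
    have := key b f zb zf hb hf
    rw [← this] at h2
    exact le_of_mul_le_mul_right h2 (mul_pos pb' pf)
  have main := (toHF L).q1n (κ := 4 / Λ ^ 2) (m := K) r' ((toHF L).nrm r' a) ((toHF L).nrm r' b)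
    ((toHF L).nrm r' f) hrr' ((toHF L).nrm_h _ _ sa.1) ((toHF L).nrm_h _ _ sb.1)
    ((toHF L).nrm_h _ _ sf.1) ((toHF L).h_nrm_self _ _ _ sa) ((toHF L).h_nrm_self _ _ _ sb)
    ((toHF L).h_nrm_self _ _ _ sf) hd0 hd hd1 hK (by rw [(toHF L).h_nrm]; exact ub)
    (by rw [(toHF L).h_nrm]; exact uf)
  rw [(toHF L).h_nrm] at main
  rw [← key a f za zf ha hf]
  have : 0 < cc L a r * cc L r f := mul_pos pa pf
  have hK0 : 0 ≤ K := hd0.trans hd
  nlinarith

/-- the abstract system of a sparse system of mirrors -/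
noncomputable def MSys.toSys (hS : MSys L W Λ) (hΛ : 100000000000 ≤ Λ) :
    WmA181.Sys (V ≃ₗ[ℂ] V) V where
  R := W
  O := Obj L W
  s := sE L
  c := cc L
  e := 1 / 10000
  d := 4 / Λ ^ 2
  sub := Set.subset_union_left
  e_pos := by norm_num
  e_le := le_rfl
  d_pos := by
    have : 0 < Λ := by linarith
    positivity
  d_le := by
    have h : 0 < Λ := by linarith
    rw [mul_div_assoc', div_le_iff₀ (by positivity)]
    nlinarith
  R_inv := by
    intro x hx y hy
    rw [sE_smul L (hS.norm x hx)]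
    exact hS.refl x hx y hy
  O_inv := by
    intro x hx y hy
    rw [sE_smul L (hS.norm x hx)]
    rcases hy with hy | hy
    · exact Or.inl (hS.refl x hx y hy)
    · refine Or.inr ?_
      change L.h _ _ = -1
      rw [h_rho_rho L (hS.norm x hx)]
      exact hy
  s_conj := by
    intro x hx y hy
    have hxx := hS.norm x hx
    have hyy := hS.norm y hy
    rw [sE_smul L hxx]
    ext z
    have h1 : L.h (rho L x y) (rho L x y) = 2 := by rw [h_rho_rho L hxx, hyy]
    rw [sE_apply L h1, LinearEquiv.mul_apply, LinearEquiv.mul_apply, sE_apply L hxx,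
      sE_apply L hyy, sE_apply L hxx]
    have := rho_conj L (g := rho L x) (rho_add L x) (rho_smul L x) (h_rho_rho L hxx) y (rho L x z)
    rw [rho_rho L hxx] at this
    exact this
  s_sq := by
    intro x hx
    have hxx := hS.norm x hx
    ext z
    rw [LinearEquiv.mul_apply, sE_apply L hxx, sE_apply L hxx, rho_rho L hxx]
    rfl
  c_nonneg := by
    intro x y
    exact mul_nonneg (mul_nonneg (norm_nonneg _) (nn_nonneg _ _)) (nn_nonneg _ _)
  c_symm := by
    intro x y; unfold cc; rw [L.norm_symm x y]; ring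
  c_inv := by
    intro r hr x y
    have hrr := hS.norm r hr
    rw [sE_smul L hrr, sE_smul L hrr]
    unfold cc
    rw [h_rho_rho L hrr, nn_rho L hrr, nn_rho L hrr]
  c_self := by
    rintro x (hx | hx)
    · have hxx := hS.norm x hx
      unfold cc
      rw [mul_assoc, nn_mir L hxx, hxx]
      norm_num
    · have hxx : L.h x x = -1 := hx
      unfold cc
      rw [nn_pt L hxx, hxx]
      norm_num
  c_congr := by
    intro x hx y hy h z
    rcases hS.eq_of_sE (by linarith) hx hy h with h1 | h1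
    · rw [h1]
    · rw [h1]
      unfold cc
      rw [L.neg_left, norm_neg, nn_neg]
  c_far := by
    intro x hx y hy h
    have h1 := hS.far hx hy h
    have h2 : 0 < Λ := by linarith
    unfold cc
    have e : (‖L.h x y‖ * nn L x * nn L y) ^ 2 =
        ‖L.h x y‖ ^ 2 * (nn L x * nn L x) * (nn L y * nn L y) := by ring
    rw [e, nn_mir L (hS.norm x hx), nn_mir L (hS.norm y hy)]
    have h5 : Λ ^ 2 ≤ ‖L.h x y‖ ^ 2 := pow_le_pow_left₀ h2.le h1 2
    have h6 : 4 / Λ ^ 2 * (‖L.h x y‖ ^ 2 * (1 / 2) * (1 / 2)) = ‖L.h x y‖ ^ 2 / Λ ^ 2 := by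
      field_simp; ring
    rw [h6, le_div_iff₀ (by positivity)]
    linarith
  Q1 := fun r hr a ha b hb f hf har hbr hfr K hd hK h1 h2 =>
    hS.q1 hΛ hr ha hb hf har hbr hfr K hd hK h1 h2
  Q3 := by
    intro r hr a b
    have hrr := hS.norm r hr
    rw [sE_smul L hrr]
    unfold cc
    rw [nn_rho L hrr, h_rho_left]
    have e : 2 * (‖L.h a r‖ * nn L a * nn L r * (‖L.h r b‖ * nn L r * nn L b)) =
        2 * (nn L r * nn L r) * (‖L.h a r‖ * ‖L.h r b‖) * (nn L a * nn L b) := by ring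
    rw [e, nn_mir L hrr, ← norm_mul]
    have h1 : ‖L.h a r * L.h r b‖ ≤ ‖L.h a b‖ + ‖L.h a b - L.h a r * L.h r b‖ := by
      have := norm_sub_le (L.h a b) (L.h a b - L.h a r * L.h r b)
      rwa [sub_sub_cancel] at this
    have h2 : 0 ≤ nn L a * nn L b := mul_nonneg (nn_nonneg _ _) (nn_nonneg _ _)
    nlinarith [mul_le_mul_of_nonneg_right h1 h2]

/-- start windmill in helper585's form -/
structure Start (L : Lor V) (W M0 : Set V) (Cv : ℝ) : Prop where
  sub : M0 ⊆ Obj L W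
  refl : ∀ w ∈ M0, w ∈ W → ∀ x ∈ M0, rho L w x ∈ M0
  small : ∀ v ∈ W, v ∉ M0 → ∀ a ∈ M0, ∀ b ∈ M0, Cv * ‖L.h a b‖ ≤ ‖L.h a v‖ * ‖L.h v b‖

lemma MSys.nr_iff (hS : MSys L W Λ) (hΛ : 100000000000 ≤ Λ) {K : ℝ} {r a b : V}
    (hr : r ∈ W) (ha : a ∈ Obj L W) (hb : b ∈ Obj L W) :
    (hS.toSys hΛ).Nr K r a b ↔ ‖L.h a b‖ ≤ K / 2 * (‖L.h a r‖ * ‖L.h r b‖) := by
  have hrr := hS.norm r hr
  change cc L a b ≤ K * (cc L a r * cc L r b) ↔ _
  unfold cc
  have e1 : ‖L.h a b‖ * nn L a * nn L b = ‖L.h a b‖ * (nn L a * nn L b) := by ring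
  have e2 : K * (‖L.h a r‖ * nn L a * nn L r * (‖L.h r b‖ * nn L r * nn L b)) =
      K * (nn L r * nn L r) * (‖L.h a r‖ * ‖L.h r b‖) * (nn L a * nn L b) := by ring
  rw [e1, e2, nn_mir L hrr, mul_le_mul_iff_left₀ (mul_pos (hS.nn_pos ha) (hS.nn_pos hb))]
  have e3 : K * (1 / 2) = K / 2 := by ring
  rw [e3]

lemma Start.mill {M0 : Set V} {Cv : ℝ} (hC : 20000 ≤ Cv) (hM : Start L W M0 Cv)
    (hS : MSys L W Λ) (hΛ : 100000000000 ≤ Λ) : (hS.toSys hΛ).Mill M0 where
  sub := hM.sub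
  inv := by
    intro w hw hwR x hx
    change sE L w • x ∈ M0
    rw [sE_smul L (hS.norm w hwR)]
    exact hM.refl w hw hwR x hx
  sat := by
    intro w hw hwR r hr h
    rcases hS.eq_of_sE (by linarith) hwR hr (Eq.symm h) with h1 | h1
    · rw [h1]; exact hw
    · have := hM.refl w hw hwR w hw
      rw [rho_self L (hS.norm w hwR)] at this
      rw [h1]; exact this
  small := by
    intro r hr hrM a ha b hb
    refine (hS.nr_iff hΛ hr (hM.sub ha) (hM.sub hb)).2 ?_
    change _ ≤ 1 / 10000 / 2 * _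
    have h1 := hM.small r hr hrM a ha b hb
    have h2 : 20000 * ‖L.h a b‖ ≤ ‖L.h a r‖ * ‖L.h r b‖ :=
      (mul_le_mul_of_nonneg_right hC (norm_nonneg _)).trans h1
    linarith

lemma MSys.obj_inv (hS : MSys L W Λ) (hΛ : 100000000000 ≤ Λ) {g : V ≃ₗ[ℂ] V}
    (hg : g ∈ closure (sE L '' W)) : ∀ x ∈ Obj L W, g x ∈ Obj L W := by
  induction hg using closure_induction_left with
  | one => intro x hx; exact hx
  | mul_left x hx y hy ih =>
    obtain ⟨v, hv, rfl⟩ := hx
    intro z hz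
    exact (hS.toSys hΛ).O_inv v hv _ (ih z hz)
  | inv_mul_cancel x hx y hy ih =>
    obtain ⟨v, hv, rfl⟩ := hx
    intro z hz
    have h1 : (sE L v)⁻¹ = sE L v := WmA181.Sys.s_inv (S := hS.toSys hΛ) hv
    rw [h1]
    exact (hS.toSys hΛ).O_inv v hv _ (ih z hz)

/-- **THEOREM gr** (helper585 #5589). -/
theorem gr (hS : MSys L W Λ) (hΛ : 100000000000 ≤ Λ) {M0 : Set V} {Cv : ℝ} (hC : 20000 ≤ Cv)
    (hM : Start L W M0 Cv) (hne : M0.Nonempty) {g : V ≃ₗ[ℂ] V}
    (hg : g ∈ closure (sE L '' W)) (hg0 : g ∉ closure (sE L '' (M0 ∩ W))) :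
    ∃ w ∈ W, w ∉ M0 ∧ g⁻¹ w ∉ M0 ∧ ∀ o ∈ M0, ∀ o' ∈ M0,
      ‖L.h o w‖ * ‖L.h w (g o')‖ ≤ 2 * ‖L.h o (g o')‖ := by
  obtain ⟨w, hw, hwM, hgw, h⟩ := WmA181.Sys.gr (hM.mill hC hS hΛ) hne (g := g) hg hg0
  refine ⟨w, hw, hwM, hgw, fun o ho o' ho' => ?_⟩
  have h1 := h o ho o' ho'
  change (2 - 8000 * (1 / 10000 : ℝ)) * (cc L o w * cc L w (g o')) ≤ cc L o (g o') at h1
  have hww := hS.norm w hw
  have hgo : g o' ∈ Obj L W := hS.obj_inv hΛ hg o' (hM.sub ho')
  have e : (2 - 8000 * (1 / 10000 : ℝ)) * (cc L o w * cc L w (g o')) =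
      6 / 5 * (nn L w * nn L w) * (‖L.h o w‖ * ‖L.h w (g o')‖) * (nn L o * nn L (g o')) := by
    unfold cc; ring
  rw [e, nn_mir L hww] at h1
  have hp : 0 < nn L o * nn L (g o') := mul_pos (hS.nn_pos (hM.sub ho)) (hS.nn_pos hgo)
  have e2 : cc L o (g o') = ‖L.h o (g o')‖ * (nn L o * nn L (g o')) := by unfold cc; ring
  rw [e2] at h1
  have h3 := le_of_mul_le_mul_right h1 hp
  have h4 : 0 ≤ ‖L.h o (g o')‖ := norm_nonneg _
  linarith

end Crest.Agent.R272.WmD181
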